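import Crest.Agent.R273.C2e_793

/-!
# R273 / Yau C² estimate (helper793), part f: assembly

`c2_holds : YauDefs_635.C2Stmt`.
-/

set_option autoImplicit false
set_option linter.unusedSectionVars false

open Set Filter Topology Complex
open scoped ContDiff Matrix ComplexConjugate ComplexOrder

namespace Crest.Agent.R273.C2f_793

open Crest.Agent.R275.Geo Crest.Agent.R275.Core144 Crest.Agent.R275.GC293
open Crest.Agent.R275.OmT75
open Crest.Agent.R273.Defs_333 (HM)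
open Crest.Agent.R273.HM_333 Crest.Agent.R273.YauDefs_635 Crest.Agent.R273.YauCh_635
open Crest.Agent.R273.YauMax_635 Crest.Agent.R273.Kah_333
open Crest.Agent.R273.Levi_145 Crest.Agent.R273.C2a_793 Crest.Agent.R273.C2b_793
open Crest.Agent.R273.C2c_793 Crest.Agent.R273.C2d_793 Crest.Agent.R273.C2e_793

noncomputable section

variable {n : ℕ}

abbrev lv (u : Cn n → ℝ) (z v : Cn n) : ℝ := Levi_145.lev u z v

theorem lev4 (u : Cn n → ℝ) (z v : Cn n) : Defs_333.lev u z v = 4 * lv u z v :=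
  lev333_eq_lev145 u z v

theorem Um_eq_cH {u : Cn n → ℝ} {z : Cn n} (h : ContDiffAt ℝ 2 u z) : Um u z = cH u z := by
  ext a b
  rw [cH_eq_hs h]
  rfl

/-- bound of `lev (log det)` on compact sets -/
theorem ld_bound {w : Cn n → ℝ} {U K : Set (Cn n)} (hU : IsOpen U) (hw : ContDiffOn ℝ ∞ w U)
    (hp : ∀ z ∈ U, ∀ v : Cn n, v ≠ 0 → 0 < lv w z v) (hK : IsCompact K) (hKU : K ⊆ U) :
    ∃ γ : ℝ, 0 ≤ γ ∧ ∀ x ∈ K, ∀ v : Cn n, |lv (ld w) x v| ≤ γ * lv w x v := by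
  have hld : ContDiffOn ℝ ∞ (ld w) U := by
    intro z hz
    have h1 : ContDiffAt ℝ ∞ w z := hw.contDiffAt (hU.mem_nhds hz)
    have h2 := Um_posDef (sm2 h1) (hp z hz)
    exact (sm_ld h1 (Complex.pos_iff.1 h2.det_pos).1.ne').contDiffWithinAt
  obtain ⟨C, hC0, hC⟩ := lev_upper hU (hld.of_le two_le_inf) hK hKU
  obtain ⟨c, hc0, hc⟩ := lev_lower hU (hw.of_le two_le_inf) hK hKU
    (fun z hz v hv => by
      rw [lev4]
      have := hp z (hKU hz) v hv
      linarith)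
  refine ⟨C / c, by positivity, fun x hx v => ?_⟩
  have h1 := hC x hx v
  have h2 := hc x hx v
  rw [lev4, abs_mul, abs_of_pos (by norm_num : (0 : ℝ) < 4)] at h1
  rw [lev4] at h2
  have h3 : C / c * (c * ‖v‖ ^ 2) ≤ C / c * (4 * lv w x v) :=
    mul_le_mul_of_nonneg_left h2 (by positivity)
  have h4 : C / c * (c * ‖v‖ ^ 2) = C * ‖v‖ ^ 2 := by field_simp
  linarith

variable {M : Type} [TopologicalSpace M] {A : Atl n M} {L : LB A}

theorem lv_inC_change {φ : M → ℝ} (hφ : A.Sm φ) {i j : A.ι} {x : M}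
    (hx : x ∈ (A.e i).source ∩ (A.e j).source) (v : Cn n) :
    lv (inC A i φ) (A.e i x) v = lv (inC A j φ) (A.e j x) (fderiv ℂ (Tm A i j) (A.e i x) v) := by
  have := lev_inC_change hφ hx v
  rw [lev4, lev4] at this
  linarith

theorem lv_wt_change (H : HM L) {i j : A.ι} {x : M}
    (hx : x ∈ (A.e i).source ∩ (A.e j).source) (v : Cn n) :
    lv (H.wt i) (A.e i x) v = lv (H.wt j) (A.e j x) (fderiv ℂ (Tm A i j) (A.e i x) v) := by
  have := lev_wt_change H hx v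
  rw [lev4, lev4] at this
  linarith

theorem lv_pot (H : HM L) {φ : M → ℝ} (hφ : A.Sm φ) {i : A.ι} {z : Cn n}
    (hz : z ∈ (A.e i).target) (v : Cn n) :
    lv (pot H φ i) z v = lv (H.wt i) z v + lv (inC A i φ) z v :=
  lev_add (wt_c2 H i hz) (inC_c2 hφ i hz) v

theorem lv_pot_change (H : HM L) {φ : M → ℝ} (hφ : A.Sm φ) {i j : A.ι} {x : M}
    (hx : x ∈ (A.e i).source ∩ (A.e j).source) (v : Cn n) :
    lv (pot H φ i) (A.e i x) v
      = lv (pot H φ j) (A.e j x) (fderiv ℂ (Tm A i j) (A.e i x) v) := by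
  rw [lv_pot H hφ ((A.e i).map_source hx.1), lv_pot H hφ ((A.e j).map_source hx.2),
    lv_wt_change H hx, lv_inC_change hφ hx]

theorem lv_smul_real (u : Cn n → ℝ) (z v : Cn n) (c : ℝ) :
    lv u z (c • v) = c ^ 2 * lv u z v := by
  have := lev_smul_real u z v c
  rw [lev4, lev4] at this
  linarith

/-- the quotient of the two metrics, times `e^{-aφ}` -/
def Rq (H : HM L) (φ : M → ℝ) (a : ℝ) (i : A.ι) (z v : Cn n) : ℝ :=
  lv (pot H φ i) z v / lv (H.wt i) z v * Real.exp (-(a * inC A i φ z))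

theorem Rq_smul (H : HM L) (φ : M → ℝ) (a : ℝ) (i : A.ι) (z v : Cn n) {c : ℝ} (hc : c ≠ 0) :
    Rq H φ a i z (c • v) = Rq H φ a i z v := by
  unfold Rq
  rw [lv_smul_real, lv_smul_real, mul_div_mul_left _ _ (pow_ne_zero 2 hc)]

theorem Rq_change (H : HM L) {φ : M → ℝ} (hφ : A.Sm φ) (a : ℝ) {i j : A.ι} {x : M}
    (hx : x ∈ (A.e i).source ∩ (A.e j).source) (v : Cn n) :
    Rq H φ a i (A.e i x) v = Rq H φ a j (A.e j x) (fderiv ℂ (Tm A i j) (A.e i x) v) := by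
  unfold Rq
  rw [lv_pot_change H hφ hx, lv_wt_change H hx]
  simp only [inC, (A.e i).left_inv hx.1, (A.e j).left_inv hx.2]

theorem Rq_cont (H : HM L) (hH : H.Pos) {φ : M → ℝ} (hφ : A.Sm φ) (a : ℝ) (i : A.ι)
    {K : Set (Cn n)} (hK : K ⊆ (A.e i).target) :
    ContinuousOn (fun p : Cn n × Cn n => Rq H φ a i p.1 p.2)
      (K ×ˢ Metric.sphere (0 : Cn n) 1) := by
  have hsub : K ×ˢ Metric.sphere (0 : Cn n) 1 ⊆ (A.e i).target ×ˢ (univ : Set (Cn n)) :=
    prod_mono hK (subset_univ _)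
  have hw : ContDiffOn ℝ 2 (H.wt i) (A.e i).target := (wt_smooth H i).of_le two_le_inf
  have hf : ContDiffOn ℝ 2 (inC A i φ) (A.e i).target := (inC_smooth hφ i).of_le two_le_inf
  have hp : ContDiffOn ℝ 2 (pot H φ i) (A.e i).target := hw.add hf
  have h1 := (continuousOn_lev (A.e i).open_target hp).mono hsub
  have h2 := (continuousOn_lev (A.e i).open_target hw).mono hsub
  have h3 : ContinuousOn (fun p : Cn n × Cn n => inC A i φ p.1) (K ×ˢ Metric.sphere (0 : Cn n) 1) :=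
    (hf.continuousOn.comp continuousOn_fst fun p hp => hp.1).mono hsub
  have h4 : ContinuousOn (fun p : Cn n × Cn n => Real.exp (-(a * inC A i φ p.1)))
      (K ×ˢ Metric.sphere (0 : Cn n) 1) := (continuousOn_const.mul h3).neg.rexp
  have h5 : ContinuousOn (fun p : Cn n × Cn n =>
      Defs_333.lev (pot H φ i) p.1 p.2 / Defs_333.lev (H.wt i) p.1 p.2)
      (K ×ˢ Metric.sphere (0 : Cn n) 1) := by
    refine h1.div h2 fun p hp => ?_
    have hv : p.2 ≠ 0 := by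
      intro h0
      have := hp.2
      rw [mem_sphere_zero_iff_norm, h0, norm_zero] at this
      exact zero_ne_one this
    exact (hH i p.1 (hK hp.1) p.2 hv).ne'
  refine (h5.mul h4).congr fun p _ => ?_
  show Rq H φ a i p.1 p.2 = Defs_333.lev (pot H φ i) p.1 p.2 / Defs_333.lev (H.wt i) p.1 p.2 *
    Real.exp (-(a * inC A i φ p.1))
  unfold Rq
  rw [lev4, lev4, mul_div_mul_left _ _ (by norm_num : (4 : ℝ) ≠ 0)]

theorem wt_pos {H : HM L} (hH : H.Pos) {i : A.ι} {z : Cn n} (hz : z ∈ (A.e i).target) (v : Cn n)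
    (hv : v ≠ 0) : 0 < lv (H.wt i) z v := by
  have := hH i z hz v hv
  rw [lev4] at this
  linarith

theorem pot_pos {H : HM L} {φ : M → ℝ} (hK : KPos H φ) {i : A.ι} {z : Cn n}
    (hz : z ∈ (A.e i).target) (v : Cn n) (hv : v ≠ 0) : 0 < lv (pot H φ i) z v := by
  have := hK i z hz v hv
  rw [lev4] at this
  linarith

/-- a finite cover by compact coordinate balls with uniform constants of the background metric -/
theorem exists_cover [CompactSpace M] {H : HM L} (hH : H.Pos) :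
    ∃ (t : Finset M) (j : M → A.ι) (ρ : M → ℝ) (β γ : ℝ), 0 ≤ β ∧ 0 ≤ γ ∧
      (∀ x ∈ t, Metric.closedBall (A.e (j x) x) (ρ x) ⊆ (A.e (j x)).target) ∧
      (∀ y : M, ∃ x ∈ t, y ∈ (A.e (j x)).source ∧
        A.e (j x) y ∈ Metric.closedBall (A.e (j x) x) (ρ x)) ∧
      (∀ x ∈ t, ∀ z ∈ Metric.closedBall (A.e (j x) x) (ρ x), ∀ v : Cn n, v ≠ 0 →
        ∃ B : Cn n →L[ℂ] Cn n, ∀ ξ,
          lv (fun y => Real.log (QV (H.wt (j x)) (aff z v B) y)) z ξ ≤ β * lv (H.wt (j x)) z ξ) ∧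
      (∀ x ∈ t, ∀ z ∈ Metric.closedBall (A.e (j x) x) (ρ x), ∀ v : Cn n,
        |lv (ld (H.wt (j x))) z v| ≤ γ * lv (H.wt (j x)) z v) := by
  have key : ∀ x : M, ∃ (j : A.ι) (ρ β γ : ℝ), x ∈ (A.e j).source ∧ 0 < ρ ∧ 0 ≤ β ∧ 0 ≤ γ ∧
      Metric.closedBall (A.e j x) ρ ⊆ (A.e j).target ∧
      (∀ z ∈ Metric.closedBall (A.e j x) ρ, ∀ v : Cn n, v ≠ 0 →
        ∃ B : Cn n →L[ℂ] Cn n, ∀ ξ,
          lv (fun y => Real.log (QV (H.wt j) (aff z v B) y)) z ξ ≤ β * lv (H.wt j) z ξ) ∧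
      (∀ z ∈ Metric.closedBall (A.e j x) ρ, ∀ v : Cn n,
        |lv (ld (H.wt j)) z v| ≤ γ * lv (H.wt j) z v) := by
    intro x
    obtain ⟨j, hj⟩ := A.cover x
    have ht := (A.e j).map_source hj
    obtain ⟨ρ, hρ, hρs⟩ := Metric.nhds_basis_closedBall.mem_iff.1 ((A.e j).open_target.mem_nhds ht)
    have hK : IsCompact (Metric.closedBall (A.e j x) ρ) := isCompact_closedBall _ _
    obtain ⟨β, hβ0, hβ⟩ := field_bound (A.e j).open_target (wt_smooth H j)
      (fun z hz v hv => wt_pos hH hz v hv) hK hρs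
    obtain ⟨γ, hγ0, hγ⟩ := ld_bound (A.e j).open_target (wt_smooth H j)
      (fun z hz v hv => wt_pos hH hz v hv) hK hρs
    exact ⟨j, ρ, β, γ, hj, hρ, hβ0, hγ0, hρs, hβ, hγ⟩
  choose j ρ β γ hj hρ hβ0 hγ0 hs hβ hγ using key
  have hV : ∀ x, (A.e (j x)).source ∩ (A.e (j x)) ⁻¹' Metric.ball (A.e (j x) x) (ρ x) ∈ 𝓝 x :=
    fun x => ((A.e (j x)).isOpen_inter_preimage Metric.isOpen_ball).mem_nhds
      ⟨hj x, Metric.mem_ball_self (hρ x)⟩
  obtain ⟨t, ht⟩ := CompactSpace.elim_nhds_subcover _ hV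
  refine ⟨t, j, ρ, ∑ x ∈ t, β x, ∑ x ∈ t, γ x, Finset.sum_nonneg fun x _ => hβ0 x,
    Finset.sum_nonneg fun x _ => hγ0 x, fun x _ => hs x, fun y => ?_, fun x hx z hz v hv => ?_,
    fun x hx z hz v => ?_⟩
  · have h1 : y ∈ (⊤ : Set M) := mem_univ _
    rw [← ht] at h1
    simp only [mem_iUnion, exists_prop] at h1
    obtain ⟨x, hxt, hx1, hx2⟩ := h1
    exact ⟨x, hxt, hx1, Metric.ball_subset_closedBall hx2⟩
  · obtain ⟨B, hB⟩ := hβ x z hz v hv
    refine ⟨B, fun ξ => (hB ξ).trans (mul_le_mul_of_nonneg_right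
      (Finset.single_le_sum (f := β) (fun y _ => hβ0 y) hx) ?_)⟩
    exact lev_nn_zero (fun v hv => wt_pos hH (hs x hz) v hv) ξ
  · exact (hγ x z hz v).trans (mul_le_mul_of_nonneg_right
      (Finset.single_le_sum (f := γ) (fun y _ => hγ0 y) hx)
      (lev_nn_zero (fun v hv => wt_pos hH (hs x hz) v hv) v))

/-- **the estimate `u ≤ C w`** -/
theorem upper [CompactSpace M] [Nonempty M] {H : HM L} (hH : H.Pos) {K : ℝ} (hK0 : 0 ≤ K) :
    ∃ C : ℝ, 0 < C ∧ ∀ φ f : M → ℝ, A.Sm φ → A.Sm f → KPos H φ → MA H φ f → (∀ x, |f x| ≤ K) →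
        (∀ i, ∀ z ∈ (A.e i).target, ∀ v, -(K * lv (H.wt i) z v) ≤ lv (inC A i f) z v) →
        (∀ x y, φ x - φ y ≤ K) →
        ∀ i, ∀ z ∈ (A.e i).target, ∀ v, lv (pot H φ i) z v ≤ C * lv (H.wt i) z v := by
  obtain ⟨t, j, ρ, β, γ, hβ0, hγ0, hs, hcov, hβ, hγ⟩ := exists_cover (A := A) hH
  set a : ℝ := K + γ + β + 1 with ha
  have ha0 : 0 < a := by positivity
  have hC0 : 0 < Real.exp K * (a * n) ^ (n - 1) * Real.exp (a * K) := by
    have : 0 < (a * n) ^ (n - 1) := by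
      rcases Nat.eq_zero_or_pos n with h0 | h0
      · subst h0; simp
      · positivity
    positivity
  refine ⟨_, hC0, fun φ f hφ hf hKP hMA hfK hfl hosc i z hz v => ?_⟩
  rcases eq_or_ne v 0 with hv | hv
  · subst hv
    rw [lv, lv, Levi_145.lev_zero, Levi_145.lev_zero, mul_zero]
  have hz' : (A.e i).symm z ∈ (A.e i).source := (A.e i).map_target hz
  -- the maximum over the finite cover
  have hsph : (Metric.sphere (0 : Cn n) 1).Nonempty := ⟨_, mem_sphere_norm hv⟩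
  have hmx : ∀ x ∈ t, (0 ≤ ρ x) → ∃ p ∈ Metric.closedBall (A.e (j x) x) (ρ x) ×ˢ
      Metric.sphere (0 : Cn n) 1, ∀ q ∈ Metric.closedBall (A.e (j x) x) (ρ x) ×ˢ
      Metric.sphere (0 : Cn n) 1, Rq H φ a (j x) q.1 q.2 ≤ Rq H φ a (j x) p.1 p.2 := by
    intro x hx hρ
    obtain ⟨p, hp, hp2⟩ := ((isCompact_closedBall (A.e (j x) x) (ρ x)).prod
      (isCompact_sphere (0 : Cn n) 1)).exists_isMaxOn
      ((Metric.nonempty_closedBall.2 hρ).prod hsph) (Rq_cont H hH hφ a (j x) (hs x hx))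
    exact ⟨p, hp, fun q hq => hp2 hq⟩
  choose! p hp hp2 using hmx
  set t' : Finset M := t.filter fun x => 0 ≤ ρ x with ht'
  have hmem : ∀ x, x ∈ t' ↔ x ∈ t ∧ 0 ≤ ρ x := fun x => by rw [ht', Finset.mem_filter]
  have hcov' : ∀ y : M, ∃ x ∈ t', y ∈ (A.e (j x)).source ∧
        A.e (j x) y ∈ Metric.closedBall (A.e (j x) x) (ρ x) := by
    intro y
    obtain ⟨x, hx, h1, h2⟩ := hcov y
    refine ⟨x, (hmem x).2 ⟨hx, ?_⟩, h1, h2⟩
    exact dist_nonneg.trans (Metric.mem_closedBall.1 h2)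
  have hne : t'.Nonempty := by
    obtain ⟨x, hx, -⟩ := hcov' (Classical.arbitrary M)
    exact ⟨x, hx⟩
  obtain ⟨x₀, hx₀, hx₀m⟩ := Finset.exists_max_image t'
    (fun x => Rq H φ a (j x) (p x).1 (p x).2) hne
  obtain ⟨hx₀t, hx₀ρ⟩ := (hmem x₀).1 hx₀
  -- `Rq` is bounded by its value at the maximum point
  have hglob : ∀ i, ∀ z ∈ (A.e i).target, ∀ v : Cn n, v ≠ 0 →
      Rq H φ a i z v ≤ Rq H φ a (j x₀) (p x₀).1 (p x₀).2 := by
    intro i z hz v hv
    have hy := (A.e i).map_target hz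
    obtain ⟨x, hx, h1, h2⟩ := hcov' ((A.e i).symm z)
    obtain ⟨hxt, hxρ⟩ := (hmem x).1 hx
    have e1 := Rq_change H hφ a (i := i) (j := j x) ⟨hy, h1⟩ v
    rw [(A.e i).right_inv hz] at e1
    set v' := fderiv ℂ (Tm A i (j x)) z v with hv'
    have hv'0 : v' ≠ 0 := by
      intro h0
      have e2 := lv_wt_change H (i := i) (j := j x) ⟨hy, h1⟩ v
      rw [(A.e i).right_inv hz, ← hv', h0, lv, lv, Levi_145.lev_zero] at e2
      exact (wt_pos hH hz v hv).ne' e2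
    rw [e1, ← Rq_smul H φ a (j x) _ v' (inv_ne_zero (norm_ne_zero_iff.2 hv'0))]
    refine (hp2 x hxt hxρ (A.e (j x) ((A.e i).symm z), (‖v'‖⁻¹ : ℝ) • v')
      ⟨h2, mem_sphere_norm hv'0⟩).trans ?_
    exact hx₀m x hx
  -- the maximum point
  set k := j x₀ with hk
  set y₀ : Cn n := (p x₀).1 with hy₀
  set v₀ : Cn n := (p x₀).2 with hv₀
  have hpx := hp x₀ hx₀t hx₀ρ
  have hy₀b : y₀ ∈ Metric.closedBall (A.e k x₀) (ρ x₀) := hpx.1
  have hy₀t : y₀ ∈ (A.e k).target := hs x₀ hx₀t hy₀b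
  have hv₀0 : v₀ ≠ 0 := by
    intro h0
    have := hpx.2
    rw [mem_sphere_zero_iff_norm] at this
    rw [← hv₀, h0, norm_zero] at this
    exact zero_ne_one this
  obtain ⟨B, hB⟩ := hβ x₀ hx₀t y₀ hy₀b v₀ hv₀0
  have hnh : ∀ᶠ z in 𝓝 y₀, z ∈ (A.e k).target := (A.e k).open_target.mem_nhds hy₀t
  have hVc : ∀ᶠ z in 𝓝 y₀, aff y₀ v₀ B z ≠ 0 := by
    have h1 : ContinuousAt (aff y₀ v₀ B) y₀ := (diff_aff y₀ v₀ B y₀).continuousAt
    refine h1.eventually_ne ?_
    rw [aff_self]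
    exact hv₀0
  have hlocmax : IsLocalMax (fun z => Real.log (QV (pot H φ k) (aff y₀ v₀ B) z)
      - Real.log (QV (H.wt k) (aff y₀ v₀ B) z) - a * (pot H φ k z - H.wt k z)) y₀ := by
    have hlogR : ∀ z ∈ (A.e k).target, ∀ v : Cn n, v ≠ 0 → Real.log (Rq H φ a k z v) =
        Real.log (lv (pot H φ k) z v) - Real.log (lv (H.wt k) z v)
          - a * (pot H φ k z - H.wt k z) := by
      intro z hz v hv
      have h1 := pot_pos hKP hz v hv
      have h2 := wt_pos hH hz v hv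
      rw [Rq, Real.log_mul (by positivity) (Real.exp_pos _).ne', Real.log_div h1.ne' h2.ne',
        Real.log_exp]
      simp only [pot]
      ring
    filter_upwards [hnh, hVc] with z h1 h2
    have h3 := hglob k z h1 _ h2
    have h4 : 0 < Rq H φ a k z (aff y₀ v₀ B z) := by
      have h5 := pot_pos hKP h1 _ h2
      have h6 := wt_pos hH h1 _ h2
      unfold Rq
      positivity
    have h5 := Real.log_le_log h4 h3
    rw [hlogR z h1 _ h2, hlogR y₀ hy₀t _ hv₀0] at h5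
    simp only [QV, aff_self]
    exact h5
  have hMAe : ∀ᶠ z in 𝓝 y₀, (Um (pot H φ k) z).det =
      (Real.exp (inC A k f z) : ℂ) * (Um (H.wt k) z).det := by
    filter_upwards [hnh] with z hz
    rw [Um_eq_cH (sm2 (pot_contDiffAt H hφ k hz)), Um_eq_cH (wt_c2 H k hz)]
    exact hMA k z hz
  have hγ' := abs_le.1 (hγ x₀ hx₀t y₀ hy₀b v₀)
  have hf' := hfl k y₀ hy₀t v₀
  have hwsm : ContDiffAt ℝ ∞ (H.wt k) y₀ := wt_contDiffAt H k hy₀t
  have hest := at_max (x := y₀) (V := aff y₀ v₀ B) (β := β) (γ := γ) (K := K) (A := a)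
    hwsm (pot_contDiffAt H hφ k hy₀t) (inC_contDiffAt hf k hy₀t)
    (wt_pos hH hy₀t) (pot_pos hKP hy₀t) hMAe (Eventually.of_forall (diff_aff y₀ v₀ B))
    (by rw [aff_self]; exact hv₀0) hB (by rw [aff_self]; exact hγ'.1)
    (by rw [aff_self]; exact hf') hγ0 hK0 ha hlocmax v₀
  -- conclusion
  have hw0 := wt_pos hH hy₀t v₀ hv₀0
  have hwz := wt_pos hH hz v hv
  have h1 := hglob i z hz v hv
  set m : ℝ := (a * n) ^ (n - 1) with hm
  have hm0 : 0 ≤ m := by positivity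
  have h2 : lv (pot H φ k) y₀ v₀ / lv (H.wt k) y₀ v₀ ≤ Real.exp K * m := by
    rw [div_le_iff₀ hw0]
    refine hest.trans ?_
    have h3 : inC A k f y₀ ≤ K := (le_abs_self _).trans (hfK _)
    have h4 : Real.exp (inC A k f y₀) ≤ Real.exp K := Real.exp_le_exp.2 h3
    gcongr
  have h5 : Rq H φ a k y₀ v₀ ≤ Real.exp K * m * Real.exp (-(a * inC A k φ y₀)) := by
    unfold Rq
    gcongr
  have h6 := h1.trans h5
  unfold Rq at h6
  have h7 : lv (pot H φ i) z v / lv (H.wt i) z v ≤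
      Real.exp K * m * Real.exp (-(a * inC A k φ y₀)) * Real.exp (a * inC A i φ z) := by
    calc lv (pot H φ i) z v / lv (H.wt i) z v
        = lv (pot H φ i) z v / lv (H.wt i) z v * Real.exp (-(a * inC A i φ z)) *
            Real.exp (a * inC A i φ z) := by
          rw [mul_assoc, ← Real.exp_add]; simp
      _ ≤ _ := by gcongr
  have h8 : Real.exp (-(a * inC A k φ y₀)) * Real.exp (a * inC A i φ z) ≤ Real.exp (a * K) := by
    rw [← Real.exp_add]
    refine Real.exp_le_exp.2 ?_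
    have h9 := hosc ((A.e i).symm z) ((A.e k).symm y₀)
    have h10 : -(a * inC A k φ y₀) + a * inC A i φ z = a * (inC A i φ z - inC A k φ y₀) := by ring
    rw [h10]
    exact mul_le_mul_of_nonneg_left h9 ha0.le
  rw [mul_assoc] at h7
  have h11 := h7.trans (mul_le_mul_of_nonneg_left h8 (by positivity))
  rwa [div_le_iff₀ hwz] at h11

/-- **the `C²` estimate, one-sided form**: only a lower bound of `i∂∂̄f` is needed (this covers
`f = F + φ`, the negative Aubin-Yau equation, since `i∂∂̄φ ≥ -ω`) -/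
theorem c2_gen [CompactSpace M] [Nonempty M] {H : HM L} (hH : H.Pos) (K : ℝ) :
    ∃ C : ℝ, 0 < C ∧ ∀ φ f : M → ℝ, A.Sm φ → A.Sm f → KPos H φ → MA H φ f → (∀ x, |f x| ≤ K) →
        (∀ i, ∀ z ∈ (A.e i).target, ∀ v,
          -(K * Defs_333.lev (H.wt i) z v) ≤ Defs_333.lev (inC A i f) z v) →
        (∀ x y, φ x - φ y ≤ K) →
        ∀ i, ∀ z ∈ (A.e i).target, ∀ v,
          Defs_333.lev (pot H φ i) z v ≤ C * Defs_333.lev (H.wt i) z v ∧
            Defs_333.lev (H.wt i) z v ≤ C * Defs_333.lev (pot H φ i) z v := by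
  obtain ⟨C, hC0, hC⟩ := upper (A := A) hH (le_max_right K 0)
  set K' := max K 0 with hK'
  have hKK : K ≤ K' := le_max_left _ _
  set C2 : ℝ := Real.exp K' * C ^ (n - 1) with hC2
  have hC20 : 0 < C2 := by positivity
  refine ⟨C + C2, by positivity, fun φ f hφ hf hKP hMA hfK hfl hosc i z hz v => ?_⟩
  have hwn : ∀ i, ∀ z ∈ (A.e i).target, ∀ v, 0 ≤ lv (H.wt i) z v := fun i z hz v =>
    lev_nn_zero (fun v hv => wt_pos hH hz v hv) v
  have hun : ∀ i, ∀ z ∈ (A.e i).target, ∀ v, 0 ≤ lv (pot H φ i) z v := fun i z hz v =>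
    lev_nn_zero (fun v hv => pot_pos hKP hz v hv) v
  have hup := hC φ f hφ hf hKP hMA (fun x => (hfK x).trans hKK) (fun i z hz v => by
    have h1 := hfl i z hz v
    rw [lev4, lev4] at h1
    have h2 := hwn i z hz v
    have h3 : K * lv (H.wt i) z v ≤ K' * lv (H.wt i) z v := mul_le_mul_of_nonneg_right hKK h2
    linarith) (fun x y => (hosc x y).trans hKK)
  have hlow : lv (H.wt i) z v ≤ C2 * lv (pot H φ i) z v := by
    have hu := pot_contDiffAt H hφ i hz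
    have hw : ContDiffAt ℝ ∞ (H.wt i) z := wt_contDiffAt H i hz
    have hd : (Um (H.wt i) z).det = ((Real.exp (-(inC A i f z)) : ℝ) : ℂ) *
        (Um (pot H φ i) z).det := by
      rw [Um_eq_cH (sm2 hu), Um_eq_cH (sm2 hw), hMA i z hz, ← mul_assoc, ← Complex.ofReal_mul,
        ← Real.exp_add]
      simp
    have h1 := lev_le_of_det (x := z) hw hu (Um_posDef (sm2 hu) (pot_pos hKP hz)) hC0
      (hup i z hz) hd v
    refine h1.trans (mul_le_mul_of_nonneg_right ?_ (hun i z hz v))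
    have h2 : -(inC A i f z) ≤ K' := by
      have := (abs_le.1 ((hfK ((A.e i).symm z)).trans hKK)).1
      simp only [inC]
      linarith
    have h3 := Real.exp_le_exp.2 h2
    exact mul_le_mul_of_nonneg_right h3 (by positivity)
  have h1 := hup i z hz v
  have h2 := hwn i z hz v
  have h3 := hun i z hz v
  rw [lev4, lev4]
  constructor
  · nlinarith [mul_nonneg hC20.le h2]
  · nlinarith [mul_nonneg hC0.le h3]

/-- **the `C²` estimate** -/
theorem c2_holds : C2Stmt := by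
  intro n M _ _ _ _ A _ _ _ L H hH K
  obtain ⟨C, hC0, hC⟩ := c2_gen (A := A) hH K
  exact ⟨C, hC0, fun φ f hφ hf hKP hMA hfK hfl hosc =>
    hC φ f hφ hf hKP hMA hfK (fun i z hz v => (abs_le.1 (hfl i z hz v)).1) hosc⟩

end

end Crest.Agent.R273.C2f_793
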