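import Crest.Agent.R273.YauLoc_635

/-!
# R273 (S0416), Part C, YAU (helper635): closedness of the continuity path

* `close_holds` : `C0Stmt`, `C2Stmt`, `C3Stmt`, `RegStmt`, `SchFlat` imply `CloseStmt`
* `yau_holds`   : ... together with `OpenStmt` they imply `YauStmt`
-/

set_option autoImplicit false
set_option linter.unusedSectionVars false

open Set Filter Topology Complex Metric
open scoped ContDiff Matrix ComplexConjugate ComplexOrder

namespace Crest.Agent.R273.YauClose_635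

open Crest.Agent.R275.Geo Crest.Agent.R275.Core144 Crest.Agent.R275.GC293
open Crest.Agent.R273.Defs_333 Crest.Agent.R273.YauDefs_635 Crest.Agent.R273.HM_333
open Crest.Agent.R273.YauCh_635 Crest.Agent.R273.Hess_333 Crest.Agent.R273.HessB_333
open Crest.Agent.R273.Kah_333 Crest.Agent.R273.YauMax_635 Crest.Agent.R273.YauLim_635
open Crest.Agent.R273.YauLoc_635

noncomputable section

section Local

variable {n : ℕ}

theorem D2_sub_const (u : Cn n → ℝ) (d : ℝ) : D2 (fun z => u z - d) = D2 u := by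
  funext z v w
  have : fderiv ℝ (fun z => u z - d) = fderiv ℝ u := by
    funext z
    exact fderiv_sub_const d
  simp only [D2, this]

theorem cH_sub_const (u : Cn n → ℝ) (d : ℝ) : cH (fun z => u z - d) = cH u := by
  funext z
  simp only [cH, D2_sub_const]

theorem lev_sub_const (u : Cn n → ℝ) (d : ℝ) (z v : Cn n) :
    lev (fun z => u z - d) z v = lev u z v := by
  rw [lev_D2, lev_D2, D2_sub_const]

theorem lev_affine {g : Cn n → ℝ} {z : Cn n} (hg : ContDiffAt ℝ 2 g z) (t c : ℝ) (v : Cn n) :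
    lev (fun w => t * g w + c) z v = t * lev g z v := by
  rw [lev333_eq_lev145, lev333_eq_lev145]
  have h1 : ContDiffAt ℝ 2 (fun w => t * g w) z := contDiffAt_const.mul hg
  have h2 := Levi_145.lev_add h1 (contDiffAt_const (c := c)) v
  rw [Levi_145.lev_const, add_zero] at h2
  rw [h2, Levi_145.lev_const_mul t hg]
  ring

theorem continuousOn_iter {g : Cn n → ℝ} {U : Set (Cn n)} (hU : IsOpen U)
    (hg : ContDiffOn ℝ ∞ g U) (j : ℕ) : ContinuousOn (fun z => iteratedFDeriv ℝ j g z) U := by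
  have h1 := hg.continuousOn_iteratedFDerivWithin (m := j)
    (WithTop.coe_le_coe.2 (le_top : (j : ℕ∞) ≤ ⊤)) hU.uniqueDiffOn
  exact h1.congr fun z hz => (iteratedFDerivWithin_of_isOpen j hU hz).symm

theorem iter_affine {g l : Cn n → ℝ} {z : Cn n} (hg : ContDiffAt ℝ ∞ g z)
    (hl : ContDiffAt ℝ ∞ l z) (t c : ℝ) {j : ℕ} (hj : 1 ≤ j) :
    iteratedFDeriv ℝ j (fun w => t * g w + c + l w) z =
      t • iteratedFDeriv ℝ j g z + iteratedFDeriv ℝ j l z := by
  have hj' : ((j : ℕ∞) : WithTop ℕ∞) ≤ ∞ := WithTop.coe_le_coe.2 (le_top : (j : ℕ∞) ≤ ⊤)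
  have e1 : (fun w => t * g w + c + l w) = ((t • g) + fun _ => c) + l := by
    funext w
    simp
  have h1 : ContDiffAt ℝ j (t • g) z := (contDiffAt_const.smul hg).of_le hj'
  have h2 : ContDiffAt ℝ j (fun _ : Cn n => c) z := contDiffAt_const
  have h12 : ContDiffAt ℝ j ((t • g) + fun _ => c) z := h1.add h2
  rw [e1, iteratedFDeriv_add_apply h12 (hl.of_le hj'), iteratedFDeriv_add_apply h1 h2,
    iteratedFDeriv_const_smul_apply (hg.of_le hj'), iteratedFDeriv_const_of_ne (by omega)]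
  simp

theorem tendsto_D2 {U : Ultrafilter ℕ} {u : ℕ → Cn n → ℝ} {V : Cn n → ℝ} {z : Cn n}
    (h : Tendsto (fun k => fderiv ℝ (fderiv ℝ (u k)) z) U (𝓝 (fderiv ℝ (fderiv ℝ V) z)))
    (v w : Cn n) : Tendsto (fun k => D2 (u k) z v w) U (𝓝 (D2 V z v w)) := by
  have h1 := ((ContinuousLinearMap.apply ℝ (Cn n →L[ℝ] ℝ) v).continuous.tendsto _).comp h
  exact ((ContinuousLinearMap.apply ℝ ℝ w).continuous.tendsto _).comp h1

theorem tendsto_lev {U : Ultrafilter ℕ} {u : ℕ → Cn n → ℝ} {V : Cn n → ℝ} {z : Cn n}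
    (h : Tendsto (fun k => fderiv ℝ (fderiv ℝ (u k)) z) U (𝓝 (fderiv ℝ (fderiv ℝ V) z)))
    (v : Cn n) : Tendsto (fun k => lev (u k) z v) U (𝓝 (lev V z v)) := by
  simp only [lev_D2]
  exact (tendsto_D2 h v v).add (tendsto_D2 h _ _)

theorem tendsto_det {U : Ultrafilter ℕ} {u : ℕ → Cn n → ℝ} {V : Cn n → ℝ} {z : Cn n}
    (h : Tendsto (fun k => fderiv ℝ (fderiv ℝ (u k)) z) U (𝓝 (fderiv ℝ (fderiv ℝ V) z))) :
    Tendsto (fun k => (cH (u k) z).det) U (𝓝 (cH V z).det) := by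
  have h1 : Tendsto (fun k => cH (u k) z) U (𝓝 (cH V z)) := by
    refine tendsto_pi_nhds.2 fun a => tendsto_pi_nhds.2 fun b => ?_
    simp only [cH, Matrix.of_apply]
    have hd := fun v w => tendsto_D2 h v w
    refine Tendsto.const_mul _ (Tendsto.add ?_ (Tendsto.const_mul _ ?_))
    · exact (Complex.continuous_ofReal.tendsto _).comp ((hd _ _).add (hd _ _))
    · exact (Complex.continuous_ofReal.tendsto _).comp ((hd _ _).sub (hd _ _))
  exact ((continuous_id.matrix_det (A := fun M : Matrix (Fin n) (Fin n) ℂ => M)).tendsto _).comp h1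

end Local

variable {n : ℕ} {M : Type} [TopologicalSpace M] {A : Atl n M} {L : LB A}

theorem pot_sub_const (H : HM L) (φ : M → ℝ) (d : ℝ) (i : A.ι) :
    pot H (fun x => φ x - d) i = fun z => pot H φ i z - d := by
  funext z
  simp only [pot, inC]
  ring

theorem sol_sub_const {H : HM L} {F φ : M → ℝ} {t c : ℝ} (h : Sol H F t φ c) (d : ℝ) :
    Sol H F t (fun x => φ x - d) c := by
  obtain ⟨h1, h2, h3⟩ := h
  refine ⟨fun i => (h1 i).sub contDiffOn_const, fun i z hz v hv => ?_, fun i z hz => ?_⟩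
  · rw [pot_sub_const, lev_sub_const]
    exact h2 i z hz v hv
  · rw [pot_sub_const, cH_sub_const]
    exact h3 i z hz

/-- `log det` of the background metric -/
def ldet (H : HM L) (i : A.ι) (z : Cn n) : ℝ := Real.log (cH (H.wt i) z).det.re

theorem det_wt_pos {H : HM L} (hH : H.Pos) {i : A.ι} {z : Cn n} (hz : z ∈ (A.e i).target) :
    0 < (cH (H.wt i) z).det := by
  rw [cH_eq_hess (wt_contDiffAt H i hz)]
  exact (posDef_hess (wt_contDiffAt H i hz) (hH i z hz)).det_pos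

theorem exp_ldet {H : HM L} (hH : H.Pos) {i : A.ι} {z : Cn n} (hz : z ∈ (A.e i).target) :
    (Real.exp (ldet H i z) : ℂ) = (cH (H.wt i) z).det := by
  have h1 := det_wt_pos hH hz
  have h2 := Complex.pos_iff.1 h1
  rw [ldet, Real.exp_log h2.1]
  apply Complex.ext
  · simp
  · simp [← h2.2]

theorem ldet_smooth {H : HM L} (hH : H.Pos) (i : A.ι) :
    ContDiffOn ℝ ∞ (ldet H i) (A.e i).target := by
  have h1 : ContDiffOn ℝ ∞ (fun z => (cH (H.wt i) z).det) (A.e i).target := by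
    simp only [Matrix.det_apply']
    refine ContDiffOn.sum fun σ _ => contDiffOn_const.mul ?_
    exact contDiffOn_prod fun a _ => contDiffOn_cH (A.e i).open_target (wt_smooth H i) _ _
  have h2 : ContDiffOn ℝ ∞ (fun z => (cH (H.wt i) z).det.re) (A.e i).target :=
    Complex.reCLM.contDiff.comp_contDiffOn h1
  exact h2.log fun z hz => (Complex.pos_iff.1 (det_wt_pos hH hz)).1.ne'

/-- local right hand side -/
def fh (H : HM L) (F : M → ℝ) (t c : ℝ) (i : A.ι) (z : Cn n) : ℝ :=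
  t * inC A i F z + c + ldet H i z

theorem fh_smooth {H : HM L} (hH : H.Pos) {F : M → ℝ} (hF : A.Sm F) (t c : ℝ) (i : A.ι) :
    ContDiffOn ℝ ∞ (fh H F t c i) (A.e i).target :=
  ((contDiffOn_const.mul (inC_smooth hF i)).add contDiffOn_const).add (ldet_smooth hH i)

theorem det_fh {H : HM L} (hH : H.Pos) {F φ : M → ℝ} {t c : ℝ}
    (h : MA H φ (fun x => t * F x + c)) {i : A.ι} {z : Cn n} (hz : z ∈ (A.e i).target) :
    (cH (pot H φ i) z).det = (Real.exp (fh H F t c i z) : ℂ) := by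
  rw [h i z hz, ← exp_ldet hH hz, fh, Real.exp_add _ (ldet H i z)]
  simp [inC]

theorem fh_bound {H : HM L} (hH : H.Pos) {F : M → ℝ} (hF : A.Sm F) (i : A.ι) {K : Set (Cn n)}
    (hK : IsCompact K) (hKt : K ⊆ (A.e i).target) :
    ∃ B : ℝ, ∀ t c : ℝ, |t| ≤ 1 → ∀ z ∈ K, ∀ j : ℕ, 1 ≤ j → j ≤ 3 →
      ‖iteratedFDeriv ℝ j (fh H F t c i) z‖ ≤ B := by
  have h1 : ∀ j : ℕ, ∃ B : ℝ, ∀ z ∈ K, ‖iteratedFDeriv ℝ j (inC A i F) z‖ ≤ B := fun j =>
    hK.exists_bound_of_continuousOn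
      ((continuousOn_iter (A.e i).open_target (inC_smooth hF i) j).mono hKt)
  have h2 : ∀ j : ℕ, ∃ B : ℝ, ∀ z ∈ K, ‖iteratedFDeriv ℝ j (ldet H i) z‖ ≤ B := fun j =>
    hK.exists_bound_of_continuousOn
      ((continuousOn_iter (A.e i).open_target (ldet_smooth hH i) j).mono hKt)
  choose B1 hB1 using h1
  choose B2 hB2 using h2
  refine ⟨∑ j ∈ Finset.range 4, (|B1 j| + |B2 j|), fun t c ht z hz j hj1 hj3 => ?_⟩
  have hzt := hKt hz
  have e1 : iteratedFDeriv ℝ j (fh H F t c i) z =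
      t • iteratedFDeriv ℝ j (inC A i F) z + iteratedFDeriv ℝ j (ldet H i) z :=
    iter_affine (inC_contDiffAt hF i hzt)
      ((ldet_smooth hH i).contDiffAt ((A.e i).open_target.mem_nhds hzt)) t c hj1
  rw [e1]
  calc _ ≤ ‖t • iteratedFDeriv ℝ j (inC A i F) z‖ + ‖iteratedFDeriv ℝ j (ldet H i) z‖ :=
        norm_add_le _ _
    _ ≤ |B1 j| + |B2 j| := by
        refine add_le_add ?_ ((hB2 j z hz).trans (le_abs_self _))
        rw [norm_smul, Real.norm_eq_abs]
        calc |t| * ‖iteratedFDeriv ℝ j (inC A i F) z‖ ≤ 1 * |B1 j| :=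
              mul_le_mul ht ((hB1 j z hz).trans (le_abs_self _)) (norm_nonneg _) zero_le_one
          _ = |B1 j| := one_mul _
    _ ≤ _ := Finset.single_le_sum (f := fun j => |B1 j| + |B2 j|)
        (fun j _ => add_nonneg (abs_nonneg _) (abs_nonneg _)) (Finset.mem_range.2 (by omega))

/-- **closedness** -/
theorem close_holds (h0 : C0Stmt) (h2 : C2Stmt) (h3 : C3Stmt) (hR : RegStmt) (hS : SchFlat) :
    CloseStmt := by
  intro n M _ _ _ _ A _ hG hP L H hH F hF t T ht hT hsol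
  choose φ c hφc using hsol
  obtain ⟨x₀⟩ : Nonempty M := inferInstance
  have hFc : Continuous F := continuous_of_sm hF
  obtain ⟨K0, hK0'⟩ := isCompact_univ.exists_bound_of_continuousOn hFc.continuousOn
  have hK0 : ∀ x, |F x| ≤ K0 := fun x => hK0' x (mem_univ x)
  have hK00 : 0 ≤ K0 := (abs_nonneg _).trans (hK0 x₀)
  obtain ⟨K1, hK10, hK1⟩ := exists_lev_bound hH hF
  -- normalisation
  set ψ : ℕ → M → ℝ := fun k x => φ k x - φ k x₀ with hψdef
  have hψ : ∀ k, Sol H F (t k) (ψ k) (c k) := fun k => sol_sub_const (hφc k) _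
  have hc : ∀ k, |c k| ≤ K0 := fun k => abs_c_le hH hK0 (ht k).1 (ht k).2 (hψ k)
  have htabs : ∀ k, |t k| ≤ 1 := fun k => by
    rw [abs_of_nonneg (ht k).1]
    exact (ht k).2
  have hfsm : ∀ k, A.Sm (fun x => t k * F x + c k) := fun k i =>
    (contDiffOn_const.mul (hF i)).add contDiffOn_const
  have hfb : ∀ k x, |t k * F x + c k| ≤ 2 * K0 := by
    intro k x
    have h1 : |t k * F x| ≤ K0 := by
      rw [abs_mul]
      calc |t k| * |F x| ≤ 1 * K0 := mul_le_mul (htabs k) (hK0 x) (abs_nonneg _) zero_le_one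
        _ = K0 := one_mul K0
    have := abs_add_le (t k * F x) (c k)
    linarith [hc k]
  have hflev : ∀ k i, ∀ z ∈ (A.e i).target, ∀ v,
      |lev (inC A i (fun x => t k * F x + c k)) z v| ≤ K1 * lev (H.wt i) z v := by
    intro k i z hz v
    have e1 : lev (inC A i (fun x => t k * F x + c k)) z v = t k * lev (inC A i F) z v :=
      lev_affine (inC_c2 hF i hz) (t k) (c k) v
    rw [e1, abs_mul]
    calc |t k| * |lev (inC A i F) z v| ≤ 1 * |lev (inC A i F) z v| :=
          mul_le_mul_of_nonneg_right (htabs k) (abs_nonneg _)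
      _ = |lev (inC A i F) z v| := one_mul _
      _ ≤ _ := hK1 i z hz v
  -- C0
  obtain ⟨C0, hC0⟩ := h0 n M A hG hP L H hH (2 * K0)
  have hosc : ∀ k x y, ψ k x - ψ k y ≤ C0 := fun k =>
    hC0 (ψ k) _ (hψ k).1 (hfsm k) (hψ k).2.1 (hψ k).2.2 (hfb k)
  have hψ0 : ∀ k, ψ k x₀ = 0 := fun k => by simp [hψdef]
  have hψb : ∀ k x, ‖ψ k x‖ ≤ C0 := by
    intro k x
    have h1 := hosc k x x₀
    have h2 := hosc k x₀ x
    rw [hψ0] at h1 h2
    rw [Real.norm_eq_abs, abs_le]
    constructor <;> linarith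
  -- C2
  set K2 : ℝ := max (max (2 * K0) K1) C0 with hK2
  obtain ⟨C2, hC20, hC2⟩ := h2 n M A hG hP L H hH K2
  have hcmp : ∀ k i, ∀ z ∈ (A.e i).target, ∀ v,
      lev (pot H (ψ k) i) z v ≤ C2 * lev (H.wt i) z v ∧
        lev (H.wt i) z v ≤ C2 * lev (pot H (ψ k) i) z v := by
    intro k
    refine hC2 (ψ k) _ (hψ k).1 (hfsm k) (hψ k).2.1 (hψ k).2.2
      (fun x => (hfb k x).trans ((le_max_left _ _).trans (le_max_left _ _)))
      (fun i z hz v => (hflev k i z hz v).trans ?_)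
      (fun x y => (hosc k x y).trans (le_max_right _ _))
    refine mul_le_mul_of_nonneg_right ((le_max_right _ _).trans (le_max_left _ _)) ?_
    rcases eq_or_ne v 0 with rfl | hv
    · rw [lev_zero]
    · exact (hH i z hz v hv).le
  -- limits
  set U : Ultrafilter ℕ := hyperfilter ℕ with hU
  have hUle : (U : Filter ℕ) ≤ atTop := Nat.hyperfilter_le_atTop
  have htU : Tendsto t U (𝓝 T) := hT.mono_left hUle
  have hlim : ∀ x, ∃ y, Tendsto (fun k => ψ k x) U (𝓝 y) := fun x =>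
    exists_lim U (fun k => hψb k x)
  choose Φ hΦ using hlim
  obtain ⟨ci, hci⟩ := exists_lim U (x := c) (S := K0) (fun k => by
    rw [Real.norm_eq_abs]
    exact hc k)
  have hpot : ∀ i z, Tendsto (fun k => pot H (ψ k) i z) U (𝓝 (pot H Φ i z)) := fun i z =>
    tendsto_const_nhds.add (hΦ _)
  -- local analysis
  have hloc : ∀ i, ∀ z₀ ∈ (A.e i).target, ∃ ρ C : ℝ, 0 < ρ ∧ ball z₀ ρ ⊆ (A.e i).target ∧
      ContDiffOn ℝ 2 (pot H Φ i) (ball z₀ ρ) ∧
      (∀ z ∈ ball z₀ ρ, Tendsto (fun k => fderiv ℝ (fderiv ℝ (pot H (ψ k) i)) z) U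
        (𝓝 (fderiv ℝ (fderiv ℝ (pot H Φ i)) z))) ∧
      ∀ z ∈ ball z₀ ρ, ∀ w ∈ ball z₀ ρ,
        ‖fderiv ℝ (fderiv ℝ (pot H Φ i)) z - fderiv ℝ (fderiv ℝ (pot H Φ i)) w‖
          ≤ C * ‖z - w‖ ^ (1 / 2 : ℝ) := by
    intro i z₀ hz₀
    obtain ⟨r, hr, hrs⟩ := Metric.nhds_basis_closedBall.mem_iff.1
      ((A.e i).open_target.mem_nhds hz₀)
    have hKc : IsCompact (closedBall z₀ r) := isCompact_closedBall _ _
    have hbt : ball z₀ r ⊆ (A.e i).target := ball_subset_closedBall.trans hrs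
    obtain ⟨hi, hhi0, hhi⟩ := lev_upper (A.e i).open_target
      ((wt_smooth H i).of_le two_le_inf) hKc hrs
    obtain ⟨lo, hlo0, hlo⟩ := lev_lower (A.e i).open_target
      ((wt_smooth H i).of_le two_le_inf) hKc hrs (fun z hz v hv => hH i z (hrs hz) v hv)
    obtain ⟨B, hB⟩ := fh_bound hH hF i hKc hrs
    obtain ⟨W, hW⟩ := hKc.exists_bound_of_continuousOn ((wt_smooth H i).continuousOn.mono hrs)
    obtain ⟨ρ, C, hρ0, hρr, g1, g2, g3⟩ := local_limit h3 hS U (z₀ := z₀) (r := r)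
      (lo := lo / C2) (hi := C2 * hi) (K := B) (N := W + C0) hr (by positivity)
      (u := fun k => pot H (ψ k) i) (f := fun k => fh H F (t k) (c k) i) (V := pot H Φ i)
      (fun k => ((wt_smooth H i).add (inC_smooth (hψ k).1 i)).mono hbt)
      (fun k => (fh_smooth hH hF (t k) (c k) i).mono hbt)
      (fun k z hz v => by
        have hzc := ball_subset_closedBall hz
        obtain ⟨a1, a2⟩ := hcmp k i z (hbt hz) v
        constructor
        · have a3 := (hlo z hzc v).trans a2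
          rw [div_mul_eq_mul_div, div_le_iff₀ hC20]
          linarith
        · have a3 := (le_abs_self _).trans (hhi z hzc v)
          calc _ ≤ C2 * lev (H.wt i) z v := a1
            _ ≤ C2 * (hi * ‖v‖ ^ 2) := mul_le_mul_of_nonneg_left a3 hC20.le
            _ = _ := by ring)
      (fun k z hz => det_fh hH (hψ k).2.2 (hbt hz))
      (fun k z hz j hj1 hj3 => hB (t k) (c k) (htabs k) z (ball_subset_closedBall hz) j hj1 hj3)
      (fun k z hz => by
        have b1 := hW z (ball_subset_closedBall hz)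
        have b2 := hψb k ((A.e i).symm z)
        rw [Real.norm_eq_abs] at b1 b2
        exact (abs_add_le _ _).trans (add_le_add b1 b2))
      (fun z _ => hpot i z)
    exact ⟨ρ, C, hρ0, (ball_subset_ball hρr).trans hbt, g1, g2, g3⟩
  have hc2 : ∀ i, ContDiffOn ℝ 2 (pot H Φ i) (A.e i).target := by
    intro i z hz
    obtain ⟨ρ, C, hρ0, -, g1, -, -⟩ := hloc i z hz
    exact (g1.contDiffAt (isOpen_ball.mem_nhds (mem_ball_self hρ0))).contDiffWithinAt
  have hpt : ∀ i, ∀ z ∈ (A.e i).target,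
      Tendsto (fun k => fderiv ℝ (fderiv ℝ (pot H (ψ k) i)) z) U
        (𝓝 (fderiv ℝ (fderiv ℝ (pot H Φ i)) z)) := by
    intro i z hz
    obtain ⟨ρ, C, hρ0, -, -, g2, -⟩ := hloc i z hz
    exact g2 z (mem_ball_self hρ0)
  have hKP : KPos H Φ := by
    intro i z hz v hv
    have h1 : lev (H.wt i) z v ≤ C2 * lev (pot H Φ i) z v :=
      ge_of_tendsto ((tendsto_lev (hpt i z hz) v).const_mul C2)
        (Eventually.of_forall fun k => (hcmp k i z hz v).2)
    have h2 := hH i z hz v hv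
    by_contra hcon
    push Not at hcon
    nlinarith
  have hMA : MA H Φ (fun x => T * F x + ci) := by
    intro i z hz
    have h1 := tendsto_det (hpt i z hz)
    have h4 : Tendsto (fun k => t k * F ((A.e i).symm z) + c k) U
        (𝓝 (T * F ((A.e i).symm z) + ci)) := (htU.mul_const _).add hci
    have h5 : Tendsto (fun k => (Real.exp (t k * F ((A.e i).symm z) + c k) : ℂ)
        * (cH (H.wt i) z).det) U
        (𝓝 ((Real.exp (T * F ((A.e i).symm z) + ci) : ℂ) * (cH (H.wt i) z).det)) :=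
      (((Complex.continuous_ofReal.tendsto _).comp
        ((Real.continuous_exp.tendsto _).comp h4))).mul_const _
    refine tendsto_nhds_unique h1 (h5.congr fun k => ?_)
    exact ((hψ k).2.2 i z hz).symm
  have hsm : ∀ i, ContDiffOn ℝ ∞ (pot H Φ i) (A.e i).target := by
    intro i
    refine hR n (A.e i).target (pot H Φ i) (fh H F T ci i) (1 / 2) (A.e i).open_target
      (by norm_num) (by norm_num) (hc2 i) (fh_smooth hH hF T ci i) (fun z₀ hz₀ => ?_)
      (hKP i) (fun z hz => det_fh hH hMA hz)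
    obtain ⟨ρ, C, hρ0, hρt, -, -, g3⟩ := hloc i z₀ hz₀
    exact ⟨ρ, hρ0, C, hρt, g3⟩
  have hΦsm : A.Sm Φ := by
    intro i
    have h1 := (hsm i).sub (wt_smooth H i)
    refine h1.congr fun z hz => ?_
    simp [pot, inC]
  exact ⟨Φ, ci, hΦsm, hKP, hMA⟩

/-! ### Yau's theorem -/

theorem sol_zero {H : HM L} (hH : H.Pos) (F : M → ℝ) : Sol H F 0 (fun _ => 0) 0 := by
  have e1 : ∀ i, pot H (fun _ => 0) i = H.wt i := fun i => by
    funext z
    simp [pot, inC]
  refine ⟨fun i => contDiffOn_const, fun i z hz v hv => ?_, fun i z hz => ?_⟩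
  · rw [e1]
    exact hH i z hz v hv
  · rw [e1]
    simp [inC]

theorem yau_of (hO : OpenStmt) (hC : CloseStmt) : YauStmt := by
  intro n M _ _ _ _ A _ hG hP L H hH F hF
  set S : Set ℝ := {t | t ∈ Icc (0 : ℝ) 1 ∧ ∃ φ c, Sol H F t φ c} with hS
  have h0 : (0 : ℝ) ∈ S := ⟨⟨le_rfl, zero_le_one⟩, _, _, sol_zero hH F⟩
  have hclosed : IsClosed (S ∩ Icc 0 1) := by
    refine isClosed_of_closure_subset fun T hT => ?_
    obtain ⟨t, ht, hT'⟩ := mem_closure_iff_seq_limit.1 hT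
    have hT1 : T ∈ Icc (0 : ℝ) 1 := isClosed_Icc.mem_of_tendsto hT'
      (Eventually.of_forall fun k => (ht k).2)
    obtain ⟨φ, c, hs⟩ := hC n M A hG hP L H hH F hF t T (fun k => (ht k).2) hT'
      (fun k => (ht k).1.2)
    exact ⟨⟨hT1, φ, c, hs⟩, hT1⟩
  have hsub : Icc (0 : ℝ) 1 ⊆ S := by
    refine hclosed.Icc_subset_of_forall_exists_gt h0 fun t ht y hy => ?_
    obtain ⟨⟨_, φ, c, hs⟩, ht0, ht1⟩ := ht
    obtain ⟨δ, hδ, hop⟩ := hO n M A hG hP L H hH F hF t φ c hs
    have hmin : t < min y (min (t + δ) 1) := lt_min hy (lt_min (by linarith) ht1)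
    obtain ⟨s, hs1, hs2⟩ := exists_between hmin
    have hsy : s < y := hs2.trans_le (min_le_left _ _)
    have hsδ : s < t + δ := hs2.trans_le ((min_le_right _ _).trans (min_le_left _ _))
    have hs1' : s < 1 := hs2.trans_le ((min_le_right _ _).trans (min_le_right _ _))
    obtain ⟨φ', c', h'⟩ := hop s (by rw [abs_of_pos (by linarith)]; linarith)
    exact ⟨s, ⟨⟨by linarith, hs1'.le⟩, φ', c', h'⟩, hs1, hsy.le⟩
  obtain ⟨-, φ, c, h1, h2, h3⟩ := hsub (right_mem_Icc.2 zero_le_one)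
  refine ⟨φ, c, h1, h2, ?_⟩
  simpa using h3

/-- **assembly** -/
theorem yau_holds (h0 : C0Stmt) (h2 : C2Stmt) (h3 : C3Stmt) (hR : RegStmt) (hS : SchFlat)
    (hO : OpenStmt) : YauStmt :=
  yau_of hO (close_holds h0 h2 h3 hR hS)

end

end Crest.Agent.R273.YauClose_635
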