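import Mathlib

/-!
# R273 (S0416), Part C (Yau), C0-a: the Alexandrov-Bakelman-Pucci / Blocki argument in one ball
(helper390)

`abp_real` : `u` of class `C²` near the closed ball `B = closedBall z0 r`, `u ≥ u z0 + a` on the
sphere.  The gradients at the contact points cover the ball of radius `a / (2 r)`.
-/

set_option autoImplicit false
set_option linter.unusedSectionVars false

open MeasureTheory Set Metric Filter Topology

namespace Crest.Agent.R273.C0a_390

noncomputable section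

section real

variable {E : Type*} [NormedAddCommGroup E] [InnerProductSpace ℝ E]

/-- second order necessary condition at a local minimum, one variable. -/
theorem deriv2_nonneg {h : ℝ → ℝ} {t : ℝ} (hm : IsLocalMin h t) (hc : ContinuousAt h t) :
    0 ≤ deriv (deriv h) t := by
  by_contra hneg
  push Not at hneg
  have hd : deriv h t = 0 := hm.deriv_eq_zero
  have hmax := isLocalMax_of_deriv_deriv_neg hneg hd hc
  have hev : h =ᶠ[𝓝 t] fun _ => h t := by
    filter_upwards [hm, hmax] with s hs1 hs2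
    exact le_antisymm hs2 hs1
  have h1 : deriv h =ᶠ[𝓝 t] deriv (fun _ => h t) := hev.deriv
  have h2 : deriv (deriv h) t = deriv (deriv (fun _ : ℝ => h t)) t := h1.deriv_eq
  rw [h2] at hneg
  simp at hneg

theorem fderiv2_nonneg {h : E → ℝ} {x : E} (hh : ContDiffAt ℝ 2 h x) (hm : IsLocalMin h x)
    (v : E) : 0 ≤ fderiv ℝ (fderiv ℝ h) x v v := by
  set l : ℝ → E := fun t => x + t • v with hl
  have hld : ∀ t, HasDerivAt l v t := by
    intro t
    have := ((hasDerivAt_id t).smul_const v).const_add x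
    simpa only [id, one_smul, hl] using this
  have hl0 : l 0 = x := by simp [hl]
  have hcont : ContinuousAt l 0 := (hld 0).continuousAt
  have htend : Tendsto l (𝓝 0) (𝓝 x) := by
    have := hcont.tendsto
    rwa [hl0] at this
  have h1 : ∀ᶠ y in 𝓝 x, DifferentiableAt ℝ h y := by
    filter_upwards [hh.eventually (by simp)] with y hy
    exact hy.differentiableAt (by norm_num)
  have h2 : DifferentiableAt ℝ (fderiv ℝ h) x :=
    (hh.fderiv_right (m := 1) (by norm_num)).differentiableAt (by norm_num)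
  have e1 : deriv (fun t => h (l t)) =ᶠ[𝓝 0] fun t => fderiv ℝ h (l t) v := by
    filter_upwards [htend.eventually h1] with t ht
    exact (ht.hasFDerivAt.comp_hasDerivAt t (hld t)).deriv
  have e2 : deriv (fun t => fderiv ℝ h (l t) v) 0 = fderiv ℝ (fderiv ℝ h) (l 0) v v := by
    have h2' : DifferentiableAt ℝ (fderiv ℝ h) (l 0) := by rw [hl0]; exact h2
    have hA : HasDerivAt (fun t => fderiv ℝ h (l t)) (fderiv ℝ (fderiv ℝ h) (l 0) v) 0 :=
      h2'.hasFDerivAt.comp_hasDerivAt 0 (hld 0)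
    have hB := hA.clm_apply (hasDerivAt_const (0:ℝ) v)
    simpa using hB.deriv
  have hmin : IsLocalMin (fun t => h (l t)) 0 := by
    have := htend.eventually hm
    refine this.mono ?_
    intro t ht
    simpa [hl0] using ht
  have hc : ContinuousAt (fun t => h (l t)) 0 := by
    have : ContinuousAt h (l 0) := by rw [hl0]; exact hh.continuousAt
    exact this.comp hcont
  have := deriv2_nonneg hmin hc
  rw [e1.deriv_eq, e2, hl0] at this
  exact this

variable [CompleteSpace E]

/-- the Riesz map -/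
def dR : (E →L[ℝ] ℝ) →L[ℝ] E where
  toFun l := (InnerProductSpace.toDual ℝ E).symm l
  map_add' := map_add _
  map_smul' := by intro c l; simp
  cont := (InnerProductSpace.toDual ℝ E).symm.continuous

/-- the gradient -/
def gr (u : E → ℝ) (x : E) : E := dR (fderiv ℝ u x)

/-- the Hessian, as an operator -/
def hs (u : E → ℝ) (x : E) : E →L[ℝ] E := dR ∘L fderiv ℝ (fderiv ℝ u) x

theorem inner_dR (l : E →L[ℝ] ℝ) (v : E) : inner ℝ (dR l) v = l v := by
  simp [dR]

theorem inner_gr (u : E → ℝ) (x v : E) : inner ℝ (gr u x) v = fderiv ℝ u x v := inner_dR _ _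

theorem inner_hs (u : E → ℝ) (x v w : E) :
    inner ℝ (hs u x v) w = fderiv ℝ (fderiv ℝ u) x v w := inner_dR _ _

theorem hasFDerivAt_gr {u : E → ℝ} {x : E} (hu : ContDiffAt ℝ 2 u x) :
    HasFDerivAt (gr u) (hs u x) x := by
  have h2 : DifferentiableAt ℝ (fderiv ℝ u) x :=
    (hu.fderiv_right (m := 1) (by norm_num)).differentiableAt (by norm_num)
  exact (dR : (E →L[ℝ] ℝ) →L[ℝ] E).hasFDerivAt.comp x h2.hasFDerivAt

/-- the contact set -/
def ct (u : E → ℝ) (z0 : E) (r a : ℝ) : Set E :=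
  {x | x ∈ ball z0 r ∧ u x ≤ u z0 + a / 2 ∧ ∀ v, 0 ≤ fderiv ℝ (fderiv ℝ u) x v v}

variable [FiniteDimensional ℝ E]

theorem exists_contact {u : E → ℝ} {z0 : E} {r a : ℝ} (hr : 0 < r) (ha : 0 < a)
    (hu : ∀ x ∈ closedBall z0 r, ContDiffAt ℝ 2 u x)
    (hbd : ∀ x ∈ sphere z0 r, u z0 + a ≤ u x) {p : E} (hp : ‖p‖ < a / (2 * r)) :
    ∃ x ∈ ct u z0 r a, gr u x = p := by
  have hc : ContinuousOn (fun x => u x - inner ℝ p (x - z0)) (closedBall z0 r) := by
    refine ContinuousOn.sub (fun x hx => (hu x hx).continuousAt.continuousWithinAt) ?_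
    fun_prop
  obtain ⟨x, hx, hxmin⟩ := (isCompact_closedBall z0 r).exists_isMinOn
    ⟨z0, mem_closedBall_self hr.le⟩ hc
  have h0 : u x - inner ℝ p (x - z0) ≤ u z0 := by
    have := hxmin (mem_closedBall_self hr.le : z0 ∈ closedBall z0 r)
    simpa using this
  have hpr : ‖p‖ * r < a / 2 := by
    have : ‖p‖ * r < a / (2 * r) * r := by
      exact mul_lt_mul_of_pos_right hp hr
    have e : a / (2 * r) * r = a / 2 := by field_simp
    linarith
  have hin : inner ℝ p (x - z0) ≤ ‖p‖ * r := by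
    refine (real_inner_le_norm _ _).trans ?_
    refine mul_le_mul_of_nonneg_left ?_ (norm_nonneg _)
    rw [← dist_eq_norm]
    exact mem_closedBall.1 hx
  have hxb : x ∈ ball z0 r := by
    rcases (mem_closedBall.1 hx).lt_or_eq with h | h
    · exact h
    · exfalso
      have := hbd x h
      linarith
  have hnhds : closedBall z0 r ∈ 𝓝 x :=
    mem_of_superset (isOpen_ball.mem_nhds hxb) ball_subset_closedBall
  have hloc : IsLocalMin (fun x => u x - inner ℝ p (x - z0)) x :=
    hxmin.isLocalMin hnhds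
  have hux := hu x hx
  have hlin : ContDiff ℝ 2 (fun x : E => inner ℝ p (x - z0)) :=
    (innerSL ℝ p).contDiff.comp (contDiff_id.sub contDiff_const)
  have hlin' : ∀ y, HasFDerivAt (fun x : E => inner ℝ p (x - z0)) (innerSL ℝ p) y := by
    intro y
    have h1 : HasFDerivAt (fun x : E => x - z0) (ContinuousLinearMap.id ℝ E) y :=
      (hasFDerivAt_id y).sub_const z0
    exact (innerSL ℝ p).hasFDerivAt.comp y h1
  have hev : ∀ᶠ y in 𝓝 x, DifferentiableAt ℝ u y := by
    filter_upwards [hux.eventually (by simp)] with y hy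
    exact hy.differentiableAt (by norm_num)
  have hfd : fderiv ℝ (fun x => u x - inner ℝ p (x - z0)) =ᶠ[𝓝 x]
      fun y => fderiv ℝ u y - innerSL ℝ p := by
    filter_upwards [hev] with y hy
    exact (hy.hasFDerivAt.sub (hlin' y)).fderiv
  have hfd2 : fderiv ℝ (fderiv ℝ (fun x => u x - inner ℝ p (x - z0))) x
      = fderiv ℝ (fderiv ℝ u) x := by
    rw [hfd.fderiv_eq]
    exact fderiv_sub_const _
  refine ⟨x, ⟨hxb, by linarith, fun v => ?_⟩, ?_⟩
  · have := fderiv2_nonneg (hux.sub hlin.contDiffAt) hloc v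
    rwa [hfd2] at this
  · have h3 := hloc.fderiv_eq_zero
    rw [hfd.eq_of_nhds] at h3
    apply ext_inner_right ℝ
    intro v
    rw [inner_gr]
    have : fderiv ℝ u x v - innerSL ℝ p v = 0 := by
      have := congrArg (fun L : E →L[ℝ] ℝ => L v) h3
      simpa using this
    simpa [sub_eq_zero] using this

variable [MeasurableSpace E] [BorelSpace E]

theorem measurableSet_ct {u : E → ℝ} {z0 : E} {r : ℝ} (a : ℝ)
    (hu : ∀ x ∈ closedBall z0 r, ContDiffAt ℝ 2 u x) : MeasurableSet (ct u z0 r a) := by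
  have h1 : ContinuousOn u (ball z0 r) := fun x hx =>
    (hu x (ball_subset_closedBall hx)).continuousAt.continuousWithinAt
  have h2 : ContinuousOn (fderiv ℝ (fderiv ℝ u)) (ball z0 r) := by
    intro x hx
    have := hu x (ball_subset_closedBall hx)
    exact ((this.fderiv_right (m := 1) (by norm_num)).fderiv_right (m := 0)
      (by norm_num)).continuousAt.continuousWithinAt
  have hA : IsOpen (ball z0 r ∩ u ⁻¹' (Ioi (u z0 + a / 2))) :=
    h1.isOpen_inter_preimage isOpen_ball isOpen_Ioi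
  have hcl : IsClosed {B : E →L[ℝ] E →L[ℝ] ℝ | ∀ v, 0 ≤ B v v} := by
    rw [show {B : E →L[ℝ] E →L[ℝ] ℝ | ∀ v, 0 ≤ B v v} = ⋂ v, {B | 0 ≤ B v v} by
      ext; simp]
    refine isClosed_iInter fun v => isClosed_le continuous_const ?_
    exact ((ContinuousLinearMap.apply ℝ ℝ v).continuous.comp
      (ContinuousLinearMap.apply ℝ (E →L[ℝ] ℝ) v).continuous)
  have hB : IsOpen (ball z0 r ∩ (fderiv ℝ (fderiv ℝ u)) ⁻¹'
      {B : E →L[ℝ] E →L[ℝ] ℝ | ∀ v, 0 ≤ B v v}ᶜ) :=
    h2.isOpen_inter_preimage isOpen_ball hcl.isOpen_compl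
  have : ct u z0 r a = (ball z0 r \ (ball z0 r ∩ u ⁻¹' (Ioi (u z0 + a / 2)))) \
      (ball z0 r ∩ (fderiv ℝ (fderiv ℝ u)) ⁻¹'
      {B : E →L[ℝ] E →L[ℝ] ℝ | ∀ v, 0 ≤ B v v}ᶜ) := by
    ext x
    simp only [ct, mem_ofPred_eq, Set.mem_sdiff, mem_inter_iff, mem_preimage, mem_Ioi, mem_compl_iff]
    constructor
    · rintro ⟨h1, h2, h3⟩
      exact ⟨⟨h1, fun h => absurd h.2 (not_lt.2 h2)⟩, fun h => h.2 h3⟩
    · rintro ⟨⟨h1, h2⟩, h3⟩
      refine ⟨h1, ?_, ?_⟩
      · by_contra h
        exact h2 ⟨h1, not_le.1 h⟩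
      · by_contra h
        exact h3 ⟨h1, h⟩
  rw [this]
  exact (measurableSet_ball.diff hA.measurableSet).diff hB.measurableSet

/-- **ABP, real form** -/
theorem abp_real (μ : Measure E) [μ.IsAddHaarMeasure] {u : E → ℝ} {z0 : E} {r a : ℝ} (hr : 0 < r)
    (ha : 0 < a) (hu : ∀ x ∈ closedBall z0 r, ContDiffAt ℝ 2 u x)
    (hbd : ∀ x ∈ sphere z0 r, u z0 + a ≤ u x) :
    μ (ball (0 : E) (a / (2 * r))) ≤
      ∫⁻ x in ct u z0 r a, ENNReal.ofReal |(hs u x).det| ∂μ := by
  refine le_trans (measure_mono ?_) (addHaar_image_le_lintegral_abs_det_fderiv μ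
    (measurableSet_ct a hu) (f := gr u) (f' := hs u) fun x hx =>
      (hasFDerivAt_gr (hu x (ball_subset_closedBall hx.1))).hasFDerivWithinAt)
  intro p hp
  obtain ⟨x, hx, rfl⟩ := exists_contact hr ha hu hbd (p := p) (by simpa using hp)
  exact ⟨x, hx, rfl⟩

end real

end

end Crest.Agent.R273.C0a_390
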