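import Crest.Agent.R273.SchJ_152

/-!
Row 273 (S0416), leaf L1 (helper152): GLOBAL Schauder estimate without zero order term, for the
metric `ω_H + i∂∂̄φ` in the formalism of `YauDefs_635` (`pot H φ i`, `KPos H φ`).
-/

set_option autoImplicit false
set_option linter.unusedSectionVars false

open Set Metric Filter
open scoped ContDiff Topology Matrix ComplexConjugate ComplexOrder

namespace Crest.Agent.R273.SchK_152

open Crest.Agent.R275 Crest.Agent.R275.Geo Crest.Agent.R275.Core144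
open Crest.Agent.R273.Defs_333 Crest.Agent.R273.Hess_333 Crest.Agent.R273.HessB_333
open Crest.Agent.R273.HM_333 Crest.Agent.R273.Kah_333 Crest.Agent.R273.YauDefs_635
open Crest.Agent.R273.YauMax_635
open Crest.Agent.R273.SchA_152 Crest.Agent.R273.SchD_152 Crest.Agent.R273.SchE_152
  Crest.Agent.R273.SchF_152 Crest.Agent.R273.SchG_152 Crest.Agent.R273.SchH_152
  Crest.Agent.R273.SchI_152 Crest.Agent.R273.SchJ_152

noncomputable section

variable {n : ℕ} {M : Type} [TopologicalSpace M] {A : Atl n M} {L : LB A}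

theorem cur_pot (H : HM L) {φ : M → ℝ} (hφ : A.Sm φ) (i : A.ι) {z : Cn n}
    (hz : z ∈ (A.e i).target) : cur (tw H φ hφ) i ((A.e i).symm z) = cH (pot H φ i) z := by
  rw [cH_eq_hess (pot_contDiffAt H hφ i hz), hess_pot H hφ i hz,
    cur_tw H hφ i ((A.e i).map_target hz), cur_read H i hz, hsf_read φ i hz]
  rfl

theorem pos_tw (H : HM L) {φ : M → ℝ} (hφ : A.Sm φ) (hp : KPos H φ) : (tw H φ hφ).Pos :=
  pos_of_cur fun i x hx => by
    have hz := (A.e i).map_source hx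
    have h1 := cur_pot H hφ i hz
    rw [(A.e i).left_inv hx] at h1
    rw [h1, cH_eq_hess (pot_contDiffAt H hφ i hz)]
    exact posDef_hess (pot_contDiffAt H hφ i hz) (hp i _ hz)

/-- the Kaehler metric `ω_H + i∂∂̄φ` -/
def kp (H : HM L) {φ : M → ℝ} (hφ : A.Sm φ) (hp : KPos H φ) : Kah A :=
  kah (tw H φ hφ) (pos_tw H hφ hp)

theorem gi_kp (H : HM L) {φ : M → ℝ} (hφ : A.Sm φ) (hp : KPos H φ) (i : A.ι) {z : Cn n}
    (hz : z ∈ (A.e i).target) : gi (kp H hφ hp) i z = (cH (pot H φ i) z)⁻¹ := by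
  rw [← cur_pot H hφ i hz]
  rfl

/-- `tr((∂∂̄(pot))⁻¹ ∂∂̄v) = f - m` in all charts -/
def LinEq (H : HM L) (φ : M → ℝ) (v f : M → ℝ) (m : ℝ) : Prop :=
  ∀ i, ∀ z ∈ (A.e i).target,
    ((cH (pot H φ i) z)⁻¹ * cH (inC A i v) z).trace = ((f ((A.e i).symm z) - m : ℝ) : ℂ)

theorem LinEq.isLap {H : HM L} {φ v f : M → ℝ} {m : ℝ} (h : LinEq H φ v f m) (hφ : A.Sm φ)
    (hp : KPos H φ) : IsLap (gi (kp H hφ hp)) v (fun x => f x - m) := by
  intro i z hz
  rw [gi_kp H hφ hp i hz, h i z hz]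
  rfl

theorem NH_sub_const {B : Cb A} {a N m : ℝ} {f : M → ℝ} (h : B.NH a N f) (hN : 0 ≤ N)
    (hm : |m| ≤ N) : B.NH a (2 * N) (fun x => f x - m) := by
  intro k
  refine ⟨fun z hz => ?_, fun z hz w hw => ?_⟩
  · have h1 := (h k).bdd z hz
    have h2 : inC A (B.i k) (fun x => f x - m) z = inC A (B.i k) f z - m := rfl
    rw [h2]
    refine (norm_sub_le _ _).trans ?_
    rw [Real.norm_eq_abs m]
    linarith
  · have h1 := (h k).hol z hz w hw
    have h2 : inC A (B.i k) (fun x => f x - m) z - inC A (B.i k) (fun x => f x - m) w =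
        inC A (B.i k) f z - inC A (B.i k) f w := by
      simp only [inC]
      ring
    rw [h2]
    refine h1.trans (mul_le_mul_of_nonneg_right (by linarith) (Real.rpow_nonneg (norm_nonneg _) _))

variable [T2Space M] [CompactSpace M] [ConnectedSpace M] [Finite A.ι]

theorem lin_mean (P : Part A) {H : HM L} {φ : M → ℝ} (hφ : A.Sm φ) (hp : KPos H φ)
    {v f : M → ℝ} {m N : ℝ} (hv : A.Sm v) (h : LinEq H φ v f m) (hf : ∀ x, |f x| ≤ N) :
    |m| ≤ N :=
  abs_const_le P (kp H hφ hp) hv (h.isLap hφ hp) hf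

/-- **linear estimate** for the metric `ω_H + i∂∂̄φ` -/
theorem lin_bound (P : Part A) {H : HM L} {φ : M → ℝ} (hφ : A.Sm φ) (hp : KPos H φ) (B : Cb A)
    {a : ℝ} (ha : 0 < a) (ha1 : a < 1) :
    ∃ C : ℝ, 0 < C ∧ ∀ (x0 : M) (v f : M → ℝ) (m N : ℝ), A.Sm v → LinEq H φ v f m →
      B.NH a N f → v x0 = 0 → B.N2 a (C * N) v := by
  obtain ⟨C, hC, H1⟩ := schauder0 P (kp H hφ hp) B ha ha1
  refine ⟨C * 2, by positivity, fun x0 v f m N hv hlin hN hx0 => ?_⟩
  have hm := lin_mean P hφ hp hv hlin (fun x => hN.bdd x)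
  have h1 := H1 x0 v _ (2 * N) hv (hlin.isLap hφ hp) (NH_sub_const hN hN.nonneg hm) hx0
  refine h1.mono (le_of_eq ?_)
  ring

end

end Crest.Agent.R273.SchK_152
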