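import Crest.Agent.R273.YauOpen_635
import Crest.Agent.R273.SchK_152
import Crest.Agent.R273.C0f_793

/-!
# R273 (S0416), Part C, YAU (helper635): `LinStmt` from existence (933) and Schauder (152)
-/

set_option autoImplicit false
set_option linter.unusedSectionVars false

open Set Filter Topology Complex Metric
open scoped ContDiff Matrix ComplexConjugate ComplexOrder

namespace Crest.Agent.R273.YauLin_635

open Crest.Agent.R275.Geo Crest.Agent.R275.Core144 Crest.Agent.R275.GC293
open Crest.Agent.R273.Defs_333 Crest.Agent.R273.YauDefs_635 Crest.Agent.R273.HM_333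
open Crest.Agent.R273.YauCh_635 Crest.Agent.R273.SchF_152 Crest.Agent.R273.SchK_152
open Crest.Agent.R273.SchA_152 Crest.Agent.R273.SchD_152 Crest.Agent.R273.YauPf_635
open Crest.Agent.R273.YauOpen_635 Crest.Agent.R273.YauClose_635

noncomputable section

/-- existence for the linearised equation -/
def LinExist : Prop :=
  ∀ (n : ℕ) (M : Type) [TopologicalSpace M] [T2Space M] [CompactSpace M] [ConnectedSpace M]
    (A : Atl n M) [Finite A.ι], GoodA A → Nonempty (Part A) →
    ∀ (L : LB A) (H : HM L), H.Pos → ∀ φ : M → ℝ, A.Sm φ → KPos H φ →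
      ∀ f : M → ℝ, A.Sm f → ∃ (v : M → ℝ) (m : ℝ), A.Sm v ∧ LinEq H φ v f m

variable {n : ℕ} {M : Type} [TopologicalSpace M] {A : Atl n M} {L : LB A}

theorem linEq_sub {H : HM L} {φ v f : M → ℝ} {m : ℝ} (h : LinEq H φ v f m) (d : ℝ) :
    LinEq H φ (fun x => v x - d) f m := by
  intro i z hz
  have e : inC A i (fun x => v x - d) = fun w => inC A i v w - d := rfl
  rw [e, cH_sub_const]
  exact h i z hz

theorem lin_of (hE : LinExist) : LinStmt := by
  intro n M _ _ _ _ A _ hG hP L H hH φ hφ hK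
  obtain ⟨P⟩ := id hP
  obtain ⟨x₀⟩ : Nonempty M := inferInstance
  obtain ⟨B⟩ := Cb.nonempty A
  obtain ⟨C, hC, hb⟩ := lin_bound P hφ hK B (a := 1 / 2) (by norm_num) (by norm_num)
  refine ⟨B.κ, B.fin, B.i, B.z, fun k => B.r k / 2, max C 1, by positivity, fun k =>
    ⟨by linarith [B.r0 k], by linarith [B.r1 k, B.r0 k], B.sub' k⟩, B.cover, fun N f hf hN => ?_⟩
  have hN' : B.NH (1 / 2) N f := hN
  have hN0 : 0 ≤ N := Cb.NH.nonneg hN'
  obtain ⟨v, m, hv, hlin⟩ := hE n M A hG hP L H hH φ hφ hK f hf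
  have hm := lin_mean P hφ hK hv hlin (fun x => hN'.bdd x)
  refine ⟨fun x => v x - v x₀, m, fun i => (hv i).sub contDiffOn_const, ?_, ?_, ?_⟩
  · calc |m| ≤ 1 * N := by rw [one_mul]; exact hm
      _ ≤ max C 1 * N := mul_le_mul_of_nonneg_right (le_max_right _ _) hN0
  · have h1 := hb x₀ (fun x => v x - v x₀) f m N (fun i => (hv i).sub contDiffOn_const)
      (linEq_sub hlin _) hN' (sub_self _)
    exact fun k => (h1 k).mono (mul_le_mul_of_nonneg_right (le_max_left _ _) hN0)
  · intro i z hz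
    rw [lr, linEq_sub hlin (v x₀) i z hz, Complex.ofReal_re]
    rfl

/-- **Yau's theorem** from `C2Stmt`, `C3Stmt`, `LinExist` -/
theorem yau_from (h2 : C2Stmt) (h3 : C3Stmt) (hE : LinExist) : YauStmt :=
  yau_main C0f_793.c0_holds h2 h3 (lin_of hE)

end

end Crest.Agent.R273.YauLin_635
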