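import Crest.Agent.R273.FS_333

/-!
# R273 (S0416), Part E (helper333): volume metrics and Ricci curvature

* `volK K : HM (KB A)⁻¹` : the metric `det (g_{a b̄})` on `K_M⁻¹` of a Kaehler metric `K : Kah A`;
  `cur (volK K)` is the Ricci form.
* `addK K u hu hp : Kah A` : the Kaehler metric `K + i∂∂̄u`.
* `HM.ratio h h'`  : the smooth function `log (h / h')` of two metrics on the same bundle,
  `sm_ratio`, `ratio_indep`, `cur_ratio`, `hm_eq_tw`.
* `Yau A` : the statement of Yau's theorem for `(M, A)`; `Yau.ricci` : prescribed Ricci form.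
-/

set_option autoImplicit false
set_option linter.unusedSectionVars false

open Set Filter Topology Complex
open scoped ContDiff Matrix ComplexConjugate Manifold ComplexOrder

namespace Crest.Agent.R273.Vol_333

open Crest.Agent.R275.Geo Crest.Agent.R275.Core144 Crest.Agent.R275.EDR890
open Crest.Agent.R273.Defs_333 Crest.Agent.R273.Hess_333 Crest.Agent.R273.HessB_333
open Crest.Agent.R273.HM_333 Crest.Agent.R273.Kah_333

noncomputable section

variable {n : ℕ} {M : Type} [TopologicalSpace M] {A : Atl n M} {L L' : LB A}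

/-! ### the determinant -/

theorem det_real {m : Matrix (Fin n) (Fin n) ℂ} (h : m.IsHermitian) : ((m.det.re : ℝ) : ℂ) = m.det := by
  have h1 : conj m.det = m.det := by
    have := Matrix.det_conjTranspose m
    rw [h.eq] at this
    exact this.symm
  exact Complex.conj_eq_iff_re.1 h1

theorem det_re_pos {m : Matrix (Fin n) (Fin n) ℂ} (h : m.PosDef) : 0 < m.det.re := by
  have := h.det_pos
  exact (Complex.lt_def.1 this).1

theorem smAt_det {i : A.ι} {m : M → Matrix (Fin n) (Fin n) ℂ}
    (h : ∀ a b, A.SmAt i (fun x => m x a b)) : A.SmAt i (fun x => (m x).det) := by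
  have h1 : ContDiffOn ℝ ∞ (fun z => (m ((A.e i).symm z)).det) (A.e i).target := by
    simp only [Matrix.det_apply]
    refine ContDiffOn.sum fun σ _ => ?_
    refine ContDiffOn.const_smul _ ?_
    exact contDiffOn_prod fun b _ => h (σ b) b
  exact h1

/-- the volume metric of a Kaehler metric -/
def volK (K : Kah A) : HM (KB A)⁻¹ where
  w i x := (K.g i x).det.re
  pos i x hx := det_re_pos (K.pos i x hx)
  sm i := by
    have h1 : ContDiffOn ℝ ∞ (fun z => (K.g i ((A.e i).symm z)).det) (A.e i).target :=
      smAt_det (K.sm i)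
    exact Complex.reCLM.contDiff.comp_contDiffOn h1
  tr i j x hx := by
    have h1 : (K.g i x).det = (‖(Jm A i j x).det‖ ^ 2 : ℝ) * (K.g j x).det := by
      rw [K.tr i j x hx, Matrix.det_mul, Matrix.det_mul, Matrix.det_transpose]
      have h2 : ((Jm A i j x).map conj).det = conj (Jm A i j x).det := by
        rw [← RingHom.mapMatrix_apply, ← RingHom.map_det]
      have h3 : ((‖(Jm A i j x).det‖ ^ 2 : ℝ) : ℂ) = (Jm A i j x).det * conj (Jm A i j x).det := by
        rw [Complex.mul_conj, Complex.normSq_eq_norm_sq]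
      rw [h2, h3]
      ring
    have h4 : (Jm A i j x).det ≠ 0 := by
      rw [← KB_g hx]; exact (KB A).ne_zero i j x
    rw [h1, LB.inv_g, KB_g hx, Complex.re_ofReal_mul, norm_inv, ← mul_assoc, inv_pow,
      inv_mul_cancel₀ (by positivity), one_mul]

theorem volK_w (K : Kah A) (i : A.ι) {x : M} (hx : x ∈ (A.e i).source) :
    (((volK K).w i x : ℝ) : ℂ) = (K.g i x).det := det_real (K.pos i x hx).1

/-! ### `K + i∂∂̄u` -/

/-- the Kaehler metric `K + i∂∂̄u` -/
def addK (K : Kah A) (u : M → ℝ) (hu : A.Sm u)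
    (hp : ∀ i, ∀ x ∈ (A.e i).source, (K.g i x + hsf A u i x).PosDef) : Kah A where
  g i x := K.g i x + hsf A u i x
  sm i a b := by
    have h1 : ContDiffOn ℝ ∞ (fun z => hsf A u i ((A.e i).symm z) a b) (A.e i).target := by
      refine (contDiffOn_hess (A.e i).open_target (hu i) a b).congr fun z hz => ?_
      simp only [hsf_read u i hz]
    exact (K.sm i a b).add h1
  pos := hp
  tr i j x hx := by
    rw [hsf_tr hu hx, K.tr i j x hx, Matrix.mul_add, Matrix.add_mul]
  closed i z hz a b c := by
    have hr : ∀ a, (fun w => (K.g i ((A.e i).symm w) + hsf A u i ((A.e i).symm w)) a b) =ᶠ[𝓝 z]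
        fun w => K.g i ((A.e i).symm w) a b + hess (fun z => u ((A.e i).symm z)) w a b := by
      intro a
      filter_upwards [(A.e i).open_target.mem_nhds hz] with w hw
      rw [Matrix.add_apply, hsf_read u i hw]
    have hK : ∀ a, DifferentiableAt ℝ (fun w => K.g i ((A.e i).symm w) a b) z := fun a =>
      ((K.sm i a b).contDiffAt ((A.e i).open_target.mem_nhds hz)).differentiableAt (by simp)
    have hU : ∀ a, DifferentiableAt ℝ (fun w => hess (fun z => u ((A.e i).symm z)) w a b) z :=
      fun a => (contDiffAt_hess (sm_contDiffAt hu i hz) a b).differentiableAt (by simp)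
    rw [wd_congr (hr a), wd_congr (hr c), wd_add (hK a) (hU a), wd_add (hK c) (hU c),
      K.closed i z hz, wd_hess (sm_contDiffAt hu i hz)]
  closed' i z hz a b c := by
    have hr : ∀ b, (fun w => (K.g i ((A.e i).symm w) + hsf A u i ((A.e i).symm w)) a b) =ᶠ[𝓝 z]
        fun w => K.g i ((A.e i).symm w) a b + hess (fun z => u ((A.e i).symm z)) w a b := by
      intro b
      filter_upwards [(A.e i).open_target.mem_nhds hz] with w hw
      rw [Matrix.add_apply, hsf_read u i hw]
    have hK : ∀ b, DifferentiableAt ℝ (fun w => K.g i ((A.e i).symm w) a b) z := fun b =>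
      ((K.sm i a b).contDiffAt ((A.e i).open_target.mem_nhds hz)).differentiableAt (by simp)
    have hU : ∀ b, DifferentiableAt ℝ (fun w => hess (fun z => u ((A.e i).symm z)) w a b) z :=
      fun b => (contDiffAt_hess (sm_contDiffAt hu i hz) a b).differentiableAt (by simp)
    rw [wd_congr (hr b), wd_congr (hr c), wd_add (hK b) (hU b), wd_add (hK c) (hU c),
      K.closed' i z hz, wdb_hess (A.e i).open_target (hu i) hz]

/-! ### ratio of two metrics -/

open Classical in
/-- `log (h' / h)` -/
def ratio (h h' : HM L) (x : M) : ℝ :=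
  Real.log (h'.w (A.cover x).choose x) - Real.log (h.w (A.cover x).choose x)

theorem ratio_eq (h h' : HM L) {i : A.ι} {x : M} (hx : x ∈ (A.e i).source) :
    ratio h h' x = Real.log (h'.w i x) - Real.log (h.w i x) := by
  unfold ratio
  set j := (A.cover x).choose with hj
  have hxj : x ∈ (A.e j).source := (A.cover x).choose_spec
  have hg : (0 : ℝ) < ‖L.g i j x‖ ^ 2 := by
    have := L.ne_zero i j x
    positivity
  rw [h.tr i j x ⟨hx, hxj⟩, h'.tr i j x ⟨hx, hxj⟩, Real.log_mul hg.ne' (h'.pos i x hx).ne',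
    Real.log_mul hg.ne' (h.pos i x hx).ne']
  ring

theorem sm_ratio (h h' : HM L) : A.Sm (ratio h h') := by
  intro i
  have h1 : ContDiffOn ℝ ∞ (fun z => h.wt i z - h'.wt i z) (A.e i).target :=
    (wt_smooth h i).sub (wt_smooth h' i)
  refine h1.congr fun z hz => ?_
  rw [ratio_eq h h' ((A.e i).map_target hz)]
  simp only [HM.wt]
  ring

theorem w_ratio (h h' : HM L) {i : A.ι} {x : M} (hx : x ∈ (A.e i).source) :
    h'.w i x = Real.exp (ratio h h' x) * h.w i x := by
  rw [ratio_eq h h' hx, Real.exp_sub, Real.exp_log (h'.pos i x hx), Real.exp_log (h.pos i x hx),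
    div_mul_cancel₀ _ (h.pos i x hx).ne']

theorem cur_ratio (h h' : HM L) (i : A.ι) {x : M} (hx : x ∈ (A.e i).source) :
    cur h' i x = cur h i x - hsf A (ratio h h') i x := by
  have hz := (A.e i).map_source hx
  unfold cur hsf
  have h1 : (fun z => ratio h h' ((A.e i).symm z)) =ᶠ[𝓝 (A.e i x)] fun z =>
      h.wt i z - h'.wt i z := by
    filter_upwards [(A.e i).open_target.mem_nhds hz] with w hw
    rw [ratio_eq h h' ((A.e i).map_target hw)]
    simp only [HM.wt]
    ring
  rw [hess_congr h1, hess_sub (wt_contDiffAt h i hz) (wt_contDiffAt h' i hz)]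
  abel

/-- two metrics which differ by a constant factor have the same curvature -/
theorem cur_const (h h' : HM L) (c : ℝ) (H : ∀ i, ∀ x ∈ (A.e i).source,
    h'.w i x = Real.exp c * h.w i x) (i : A.ι) {x : M} (hx : x ∈ (A.e i).source) :
    cur h' i x = cur h i x := by
  have hz := (A.e i).map_source hx
  unfold cur
  have h1 : h'.wt i =ᶠ[𝓝 (A.e i x)] fun z => h.wt i z + (fun _ => - c) z := by
    filter_upwards [(A.e i).open_target.mem_nhds hz] with w hw
    have hm := (A.e i).map_target hw
    simp only [HM.wt]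
    rw [H i _ hm, Real.log_mul (Real.exp_pos c).ne' (h.pos i _ hm).ne', Real.log_exp]
    ring
  rw [hess_congr h1, hess_add (wt_contDiffAt h i hz) contDiffAt_const]
  have h2 : hess (fun _ : Cn n => - c) (A.e i x) = 0 := by
    ext a b
    rw [hess_apply, Matrix.zero_apply]
    have h3 : wd (true, b) (cu fun _ : Cn n => - c) = fun _ => (0 : ℂ) := by
      funext w
      exact wd_const _ _ _
    rw [h3, wd_const]
  rw [h2, add_zero]

/-! ### Yau's theorem -/

/-- Yau's theorem for `(M, A)` -/
def Yau (A : Atl n M) : Prop :=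
  ∀ (K : Kah A) (F : M → ℝ), A.Sm F → ∃ (u : M → ℝ) (c : ℝ), A.Sm u ∧
    ∀ i, ∀ x ∈ (A.e i).source, (K.g i x + hsf A u i x).PosDef ∧
      (K.g i x + hsf A u i x).det = ((Real.exp (F x + c) : ℝ) : ℂ) * (K.g i x).det

/-- prescribed Ricci form: there is a Kaehler metric whose volume metric is a multiple of `h` -/
theorem Yau.ricci (Y : Yau A) (K : Kah A) (h : HM (KB A)⁻¹) :
    ∃ (K' : Kah A) (c : ℝ), (∀ i, ∀ x ∈ (A.e i).source,
      (volK K').w i x = Real.exp c * h.w i x) ∧
      ∀ i, ∀ x ∈ (A.e i).source, cur (volK K') i x = cur h i x := by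
  obtain ⟨u, c, hu, H⟩ := Y K (ratio (volK K) h) (sm_ratio _ _)
  have key : ∀ i, ∀ x ∈ (A.e i).source,
      (volK (addK K u hu fun i x hx => (H i x hx).1)).w i x = Real.exp c * h.w i x := by
    intro i x hx
    have h1 := (H i x hx).2
    have h2 : (volK (addK K u hu fun i x hx => (H i x hx).1)).w i x =
        (K.g i x + hsf A u i x).det.re := rfl
    have h3 : (volK K).w i x = (K.g i x).det.re := rfl
    rw [h2, h1, Complex.re_ofReal_mul, ← h3, w_ratio (volK K) h hx, Real.exp_add]
    ring
  exact ⟨addK K u hu fun i x hx => (H i x hx).1, c, key, fun i x hx =>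
    cur_const h _ c key i hx⟩

end

end Crest.Agent.R273.Vol_333
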