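import Crest.Agent.R273.YauClose_635
import Crest.Agent.R273.Vol_333

/-!
# R273 (S0416), Part C, YAU (helper635): Yau's theorem in the language of `HM`, `Kah`, `volK`

* `yau_cur`   : `YauStmt` for the curvature matrices `cur`, `hsf`
* `yau_HM`    : for `H > 0` on `L` and a volume metric `h` there is `H' > 0` on the SAME bundle `L`,
  `H' = tw H u`, with `volK (kah H') = e^c h`
-/

set_option autoImplicit false
set_option linter.unusedSectionVars false

open Set Filter Topology Complex
open scoped ContDiff Matrix ComplexConjugate ComplexOrder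

namespace Crest.Agent.R273.YauKah_635

open Crest.Agent.R275.Geo Crest.Agent.R275.Core144 Crest.Agent.R275.GC293
open Crest.Agent.R273.Defs_333 Crest.Agent.R273.YauDefs_635 Crest.Agent.R273.HM_333
open Crest.Agent.R273.YauCh_635 Crest.Agent.R273.Hess_333 Crest.Agent.R273.HessB_333
open Crest.Agent.R273.Kah_333 Crest.Agent.R273.YauMax_635 Crest.Agent.R273.Vol_333

noncomputable section

variable {n : ℕ} {M : Type} [TopologicalSpace M] {A : Atl n M} {L : LB A}

/-- Yau's theorem for curvature matrices -/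
theorem yau_cur (hY : YauStmt) [T2Space M] [CompactSpace M] [ConnectedSpace M] [Finite A.ι]
    (hG : GoodA A) (hP : Nonempty (Part A)) {H : HM L} (hp : H.Pos) {F : M → ℝ} (hF : A.Sm F) :
    ∃ (u : M → ℝ) (c : ℝ), A.Sm u ∧ ∀ i, ∀ x ∈ (A.e i).source,
      (cur H i x + hsf A u i x).PosDef ∧
        (cur H i x + hsf A u i x).det = ((Real.exp (F x + c) : ℝ) : ℂ) * (cur H i x).det := by
  obtain ⟨φ, c, h1, h2, h3⟩ := hY n M A hG hP L H hp F hF
  refine ⟨φ, c, h1, fun i x hx => ?_⟩
  have hz := (A.e i).map_source hx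
  have e1 : cur H i x + hsf A φ i x = hess (pot H φ i) (A.e i x) := (hess_pot H h1 i hz).symm
  have h4 := h3 i _ hz
  rw [cH_eq_hess (pot_contDiffAt H h1 i hz), cH_eq_hess (wt_contDiffAt H i hz)] at h4
  simp only [inC, (A.e i).left_inv hx] at h4
  rw [e1]
  exact ⟨posDef_hess (pot_contDiffAt H h1 i hz) (h2 i _ hz), h4⟩

/-- Yau's theorem: prescribed volume form in the class of `H` -/
theorem yau_HM (hY : YauStmt) [T2Space M] [CompactSpace M] [ConnectedSpace M] [Finite A.ι]
    (hG : GoodA A) (hP : Nonempty (Part A)) {H : HM L} (hp : H.Pos) (h : HM (KB A)⁻¹) :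
    ∃ (u : M → ℝ) (hu : A.Sm u) (hp' : (tw H u hu).Pos) (c : ℝ),
      (∀ i, ∀ x ∈ (A.e i).source,
        (volK (kah (tw H u hu) hp')).w i x = Real.exp c * h.w i x) ∧
      ∀ i, ∀ x ∈ (A.e i).source, cur (volK (kah (tw H u hu) hp')) i x = cur h i x := by
  obtain ⟨u, c, hu, hc⟩ := yau_cur hY hG hP hp (sm_ratio (volK (kah H hp)) h)
  have hp' : (tw H u hu).Pos := pos_of_cur fun i x hx => by
    rw [cur_tw H hu i hx]
    exact (hc i x hx).1
  have key : ∀ i, ∀ x ∈ (A.e i).source,
      (volK (kah (tw H u hu) hp')).w i x = Real.exp c * h.w i x := by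
    intro i x hx
    have h1 := (hc i x hx).2
    have h2 : (volK (kah (tw H u hu) hp')).w i x = (cur H i x + hsf A u i x).det.re := by
      rw [← cur_tw H hu i hx]
      rfl
    have h3 : (volK (kah H hp)).w i x = (cur H i x).det.re := rfl
    rw [h2, h1, Complex.re_ofReal_mul, ← h3, w_ratio (volK (kah H hp)) h hx, Real.exp_add]
    ring
  exact ⟨u, hu, hp', c, key, fun i x hx => cur_const h _ c key i hx⟩

end

end Crest.Agent.R273.YauKah_635
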