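import Crest.Agent.R273.CLinD_933
import Crest.Agent.R273.YauKah_635

/-!
# R273 (S0416), Part C, C-LIN (helper933), file E: existence of smooth solutions of `Δ v = f - m`

* `weak_sol`  : very weak solutions in `L²`
* `lin_kah`   : `∀ f smooth ∃ v smooth, m real, lapK K v = f - m`
* `lin_exist` : the same for the metric `pot H φ`
-/

set_option autoImplicit false
set_option linter.unusedSectionVars false

open Set Filter Topology MeasureTheory
open scoped ContDiff Matrix ComplexConjugate ComplexOrder ENNReal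

namespace Crest.Agent.R273.CLin_933

open Crest.Agent.R275 Crest.Agent.R275.Geo Crest.Agent.R275.Core144 Crest.Agent.R275.EDR890
open Crest.Agent.R275.Pai323 Crest.Agent.R275.C1d194
open Crest.Agent.R273.SchE_152 Crest.Agent.R273.SchD_152
open Crest.Agent.R273.Defs_333 Crest.Agent.R273.Vm_333 Crest.Agent.R273.Kah_333
open Crest.Agent.R273.Hess_333 Crest.Agent.R273.HessB_333 Crest.Agent.R273.HM_333
open Crest.Agent.R273.Vol_333 Crest.Agent.R273.Green_5 Crest.Agent.R273.GreenM_5
open Crest.Agent.R273.YauDefs_635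
open Crest.Agent.R273.YauMax_635 (cH_eq_hess)

noncomputable section

variable {n : ℕ} {M : Type} [TopologicalSpace M] {A : Atl n M}

section l2

variable [CompactSpace M] [MeasurableSpace M] [BorelSpace M] {μ : Measure M}
  [IsFiniteMeasure μ]

theorem memLp_cont {f : M → ℝ} (hf : Continuous f) : MemLp f 2 μ :=
  hf.memLp_of_hasCompactSupport (HasCompactSupport.of_compactSpace f)

/-- continuous functions in `L²` -/
def ll (μ : Measure M) [IsFiniteMeasure μ] {f : M → ℝ} (hf : Continuous f) : Lp ℝ 2 μ :=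
  (memLp_cont hf).toLp f

theorem inner_ll (u : Lp ℝ 2 μ) {f : M → ℝ} (hf : Continuous f) :
    inner ℝ u (ll μ hf) = ∫ x, u x * f x ∂μ := by
  rw [L2.inner_def]
  refine integral_congr_ae ?_
  filter_upwards [MemLp.coeFn_toLp (memLp_cont (μ := μ) hf)] with x hx
  have h1 : (ll μ hf) x = f x := hx
  rw [h1]
  exact mul_comm _ _

theorem norm_ll_sq {f : M → ℝ} (hf : Continuous f) : ‖ll μ hf‖ ^ 2 = ∫ x, f x ^ 2 ∂μ := by
  rw [← real_inner_self_eq_norm_sq, inner_ll]
  refine integral_congr_ae ?_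
  filter_upwards [MemLp.coeFn_toLp (memLp_cont (μ := μ) hf)] with x hx
  have h1 : (ll μ hf) x = f x := hx
  rw [h1]
  ring

theorem abs_int_mul_le {f g : M → ℝ} (hf : Continuous f) (hg : Continuous g) :
    |∫ x, f x * g x ∂μ| ≤ ‖ll μ hf‖ * ‖ll μ hg‖ := by
  have h1 : ∫ x, f x * g x ∂μ = inner ℝ (ll μ hf) (ll μ hg) := by
    rw [inner_ll]
    refine integral_congr_ae ?_
    filter_upwards [MemLp.coeFn_toLp (memLp_cont (μ := μ) hf)] with x hx
    have h1 : (ll μ hf) x = f x := hx
    rw [h1]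
  rw [h1]
  exact abs_real_inner_le_norm _ _

end l2

section glob

variable [T2Space M] [CompactSpace M] [ConnectedSpace M] [MeasurableSpace M] [BorelSpace M]
  [Finite A.ι]

theorem smS_lap (K : Kah A) (w : SmS A) : Continuous (lapK K (w : M → ℝ)) :=
  sm_continuous (sm_lapK K w.2)

/-- **very weak solutions** -/
theorem weak_sol (K : Kah A) (P : Part A) {F : M → ℝ} (hF : A.Sm F)
    (h0 : ∫ x, F x ∂(vm (volK K)) = 0) :
    ∃ u : Lp ℝ 2 (vm (volK K)), ∀ w : M → ℝ, A.Sm w →
      ∫ x, u x * lapK K w x ∂(vm (volK K)) = ∫ x, F x * w x ∂(vm (volK K)) := by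
  have := isFinite_vm (volK K)
  obtain ⟨C, hC, hl⟩ := lap_l2 K P
  set μ := vm (volK K) with hμ
  have hV0 : 0 < μ.real univ := vm_pos K
  have hFc := sm_continuous hF
  set T : SmS A →ₗ[ℝ] Lp ℝ 2 μ :=
    { toFun := fun w => ll μ (smS_lap K w)
      map_add' := by
        intro w w'
        have e : lapK K ((w + w' : SmS A) : M → ℝ) = lapK K (w : M → ℝ) + lapK K (w' : M → ℝ) :=
          funext fun x => lapK_add K w.2 w'.2 x
        unfold ll
        rw [← MemLp.toLp_add]
        exact MemLp.toLp_congr _ _ (Eventually.of_forall fun x => congrFun e x)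
      map_smul' := by
        intro c w
        have e : lapK K ((c • w : SmS A) : M → ℝ) = c • lapK K (w : M → ℝ) :=
          funext fun x => lapK_smul K c w.2 x
        unfold ll
        rw [RingHom.id_apply, ← MemLp.toLp_const_smul]
        exact MemLp.toLp_congr _ _ (Eventually.of_forall fun x => congrFun e x) } with hT
  set ℓ : SmS A →ₗ[ℝ] ℝ :=
    { toFun := fun w => ∫ x, F x * (w : M → ℝ) x ∂μ
      map_add' := by
        intro w w'
        have i1 : Integrable (fun x => F x * (w : M → ℝ) x) μ :=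
          int_cont (hFc.mul (sm_continuous w.2))
        have i2 : Integrable (fun x => F x * (w' : M → ℝ) x) μ :=
          int_cont (hFc.mul (sm_continuous w'.2))
        rw [← integral_add i1 i2]
        refine integral_congr_ae (Eventually.of_forall fun x => ?_)
        change F x * ((w : M → ℝ) x + (w' : M → ℝ) x) = _
        ring
      map_smul' := by
        intro c w
        rw [RingHom.id_apply, smul_eq_mul, ← integral_const_mul]
        refine integral_congr_ae (Eventually.of_forall fun x => ?_)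
        change F x * (c * (w : M → ℝ) x) = _
        ring } with hℓ
  have hb : ∀ w, |ℓ w| ≤ (‖ll μ hFc‖ * Real.sqrt C) * ‖T w‖ := by
    intro w
    have hwc := sm_continuous w.2
    set m : ℝ := (∫ x, (w : M → ℝ) x ∂μ) / μ.real univ with hm
    have h1 := hl (w : M → ℝ) w.2 m (by rw [hm]; field_simp)
    have hGc : Continuous fun x => (w : M → ℝ) x - m := hwc.sub continuous_const
    have h2 : ℓ w = ∫ x, F x * ((w : M → ℝ) x - m) ∂μ := by
      change ∫ x, F x * (w : M → ℝ) x ∂μ = _
      have i1 : Integrable (fun x => F x * (w : M → ℝ) x) μ := int_cont (hFc.mul hwc)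
      have i2 : Integrable (fun x => F x * m) μ := int_cont (hFc.mul continuous_const)
      have e : ∀ x, F x * ((w : M → ℝ) x - m) = F x * (w : M → ℝ) x - F x * m := fun x => by ring
      simp only [e]
      rw [integral_sub i1 i2, integral_mul_const, h0, zero_mul, sub_zero]
    have h3 : ‖ll μ hGc‖ ≤ Real.sqrt C * ‖T w‖ := by
      have h4 : ‖ll μ hGc‖ ^ 2 ≤ (Real.sqrt C * ‖T w‖) ^ 2 := by
        rw [norm_ll_sq, mul_pow, Real.sq_sqrt hC]
        have h5 : ‖T w‖ ^ 2 = ∫ x, lapK K (w : M → ℝ) x ^ 2 ∂μ := norm_ll_sq (smS_lap K w)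
        rw [h5]
        exact h1
      exact abs_le_of_sq_le_sq' h4 (by positivity) |>.2
    rw [h2]
    refine (abs_int_mul_le hFc hGc).trans ?_
    rw [mul_assoc]
    exact mul_le_mul_of_nonneg_left h3 (norm_nonneg _)
  obtain ⟨u, hu⟩ := riesz_range T ℓ _ hb
  refine ⟨u, fun w hw => ?_⟩
  have h1 := hu ⟨w, hw⟩
  have h2 : T ⟨w, hw⟩ = ll μ (sm_continuous (sm_lapK K hw)) := rfl
  rw [h2, inner_ll] at h1
  exact h1

end glob

/-! ### local regularity of the very weak solution -/

section loc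

variable [T2Space M] [CompactSpace M] [MeasurableSpace M] [BorelSpace M] [Finite A.ι]

theorem cH_congr {u v : Cn n → ℝ} {z : Cn n} (h : u =ᶠ[𝓝 z] v) : cH u z = cH v z := by
  have h2 : fderiv ℝ (fderiv ℝ u) z = fderiv ℝ (fderiv ℝ v) z := (h.fderiv (𝕜 := ℝ)).fderiv_eq
  ext a b
  simp [cH, YauDefs_635.D2, h2]

theorem loc_int (K : Kah A) (u : Lp ℝ 2 (vm (volK K))) (i : A.ι) :
    LocallyIntegrableOn (fun ξ : ER n => u (sT A i ξ)) (UT A i) := by
  have := isFinite_vm (volK K)
  rw [locallyIntegrableOn_iff (isOpen_UT i).isLocallyClosed]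
  intro S hSU hS
  have hwc : ContinuousOn (fun ξ => (volK K).w i (sT A i ξ)) S :=
    ((((volK K).sm i).continuousOn.comp (Tl n).continuous.continuousOn fun _ h => h)).mono hSU
  obtain ⟨w0, hw0, hw0le⟩ := hS.exists_forall_le' hwc (a := 0)
    (fun ξ hξ => (volK K).pos i _ (sT_mem (hSU hξ)))
  have hum : StronglyMeasurable (u : M → ℝ) := Lp.stronglyMeasurable u
  have hsm : AEMeasurable (sT A i) (volume.restrict S) :=
    ((continuousOn_sT i).mono hSU).aemeasurable hS.measurableSet
  refine ⟨(hum.measurable.comp_aemeasurable hsm).aestronglyMeasurable, ?_⟩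
  have h1 : ∫⁻ x in (A.e i).source, ‖u x‖ₑ ∂(vm (volK K)) < ⊤ :=
    (setLIntegral_le_lintegral _ _).trans_lt ((Lp.memLp u).integrable (by norm_num)).2
  rw [lint_vm (volK K) i (f := fun x => ‖u x‖ₑ) hum.measurable.enorm] at h1
  rw [HasFiniteIntegral]
  have h2 : ∫⁻ ξ in S, ‖u (sT A i ξ)‖ₑ ≤ ENNReal.ofReal (w0⁻¹) *
      ∫⁻ ξ in UT A i, ENNReal.ofReal ((volK K).w i (sT A i ξ)) * ‖u (sT A i ξ)‖ₑ := by
    refine le_trans ?_ (mul_le_mul_right (lintegral_mono_set hSU) _)
    rw [← lintegral_const_mul' _ _ ENNReal.ofReal_ne_top]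
    refine setLIntegral_mono' hS.measurableSet fun ξ hξ => ?_
    rw [← mul_assoc, ← ENNReal.ofReal_mul (by positivity)]
    have h3 : 1 ≤ w0⁻¹ * (volK K).w i (sT A i ξ) := by
      rw [← div_eq_inv_mul, one_le_div hw0]
      exact hw0le ξ hξ
    calc ‖u (sT A i ξ)‖ₑ = ENNReal.ofReal 1 * ‖u (sT A i ξ)‖ₑ := by simp
      _ ≤ _ := by gcongr
  exact h2.trans_lt (ENNReal.mul_lt_top ENNReal.ofReal_lt_top h1)

theorem local_reg (K : Kah A) {F : M → ℝ} (hF : A.Sm F) (u : Lp ℝ 2 (vm (volK K)))
    (hu : ∀ w : M → ℝ, A.Sm w →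
      ∫ x, u x * lapK K w x ∂(vm (volK K)) = ∫ x, F x * w x ∂(vm (volK K))) (i : A.ι) :
    ∃ v : Cn n → ℝ, ContDiffOn ℝ ∞ v (A.e i).target ∧
      (∀ᵐ ξ : ER n, ξ ∈ UT A i → v (Tl n ξ) = u (sT A i ξ)) ∧
      ∀ z ∈ (A.e i).target, (((K.g i ((A.e i).symm z)).adjugate * cH v z).trace).re
        = (volK K).w i ((A.e i).symm z) * F ((A.e i).symm z) := by
  have := isFinite_vm (volK K)
  have hwsm : ContDiffOn ℝ ∞ (fun z => (volK K).w i ((A.e i).symm z)) (A.e i).target :=
    (volK K).sm i
  refine weak_reg (A.e i).open_target (df_adj K i)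
    (f := fun z => (volK K).w i ((A.e i).symm z) * F ((A.e i).symm z)) (hwsm.mul (hF i))
    (loc_int K u i) fun φ hφ hc hs => ?_
  set w : M → ℝ := ext0 A i φ with hw
  have hws : A.Sm w := ext0_sm hφ hc hs
  have hwr : ∀ z ∈ (A.e i).target, w ((A.e i).symm z) = φ z := fun z hz => ext0_read hz
  have hlc := sm_continuous (sm_lapK K hws)
  have hwc := sm_continuous hws
  have hFc := sm_continuous hF
  have hum : AEStronglyMeasurable (u : M → ℝ) (vm (volK K)) := Lp.aestronglyMeasurable u
  have hz0 : ∀ ξ : ER n, ξ ∉ UT A i → Tl n ξ ∉ tsupport φ := fun ξ hξ h => hξ (hs h)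
  -- right hand side
  have h1 : ∫ x, F x * w x ∂(vm (volK K)) =
      ∫ ξ : ER n, (volK K).w i (sT A i ξ) * F (sT A i ξ) * φ (Tl n ξ) := by
    have e1 : ∫ x in (A.e i).source, F x * w x ∂(vm (volK K)) = ∫ x, F x * w x ∂(vm (volK K)) :=
      setIntegral_eq_integral_of_forall_compl_eq_zero fun x hx => by
        rw [hw, ext0_off hx, mul_zero]
    rw [← e1, int_vm (volK K) i (f := fun x => F x * w x) (hFc.mul hwc).aestronglyMeasurable]
    have e2 : ∀ ξ : ER n, ξ ∉ UT A i →
        (volK K).w i (sT A i ξ) * F (sT A i ξ) * φ (Tl n ξ) = 0 := fun ξ hξ => by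
      rw [image_eq_zero_of_notMem_tsupport (hz0 ξ hξ), mul_zero]
    rw [← setIntegral_eq_integral_of_forall_compl_eq_zero e2]
    refine setIntegral_congr_fun (isOpen_UT i).measurableSet fun ξ hξ => ?_
    have e3 : w (sT A i ξ) = φ (Tl n ξ) := hwr _ hξ
    simp only [smul_eq_mul, e3]
    ring
  -- left hand side
  have h2 : ∫ x, u x * lapK K w x ∂(vm (volK K)) =
      ∫ ξ : ER n, u (sT A i ξ) *
        (((K.g i ((A.e i).symm (Tl n ξ))).adjugate * cH φ (Tl n ξ)).trace).re := by
    have e1 : ∫ x in (A.e i).source, u x * lapK K w x ∂(vm (volK K)) =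
        ∫ x, u x * lapK K w x ∂(vm (volK K)) :=
      setIntegral_eq_integral_of_forall_compl_eq_zero fun x hx => by
        have hx' : x ∉ (A.e i).symm '' tsupport φ := by
          rintro ⟨y, hy, rfl⟩
          exact hx ((A.e i).map_target (hs hy))
        rw [lapK_zero_of K hws, mul_zero]
        filter_upwards [(ext0_closed hc hs).isOpen_compl.mem_nhds hx'] with y hy
        exact ext0_zero hy
    rw [← e1, int_vm (volK K) i (f := fun x => u x * lapK K w x)
      (hum.mul hlc.aestronglyMeasurable)]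
    have e2 : ∀ ξ : ER n, ξ ∉ UT A i → u (sT A i ξ) *
        (((K.g i ((A.e i).symm (Tl n ξ))).adjugate * cH φ (Tl n ξ)).trace).re = 0 :=
      fun ξ hξ => by
        rw [cH_zero_of (hz0 ξ hξ), mul_zero, Matrix.trace_zero, Complex.zero_re, mul_zero]
    rw [← setIntegral_eq_integral_of_forall_compl_eq_zero e2]
    refine setIntegral_congr_fun (isOpen_UT i).measurableSet fun ξ hξ => ?_
    have e3 := lapK_read K hws i (z := Tl n ξ) hξ
    have e4 : cH (fun z => w ((A.e i).symm z)) (Tl n ξ) = cH φ (Tl n ξ) :=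
      cH_congr (by
        filter_upwards [(A.e i).open_target.mem_nhds hξ] with z hz
        exact hwr z hz)
    rw [e4] at e3
    simp only [smul_eq_mul]
    rw [← e3]
    change (volK K).w i (sT A i ξ) * (u (sT A i ξ) * lapK K w (sT A i ξ)) =
      u (sT A i ξ) * (lapK K w (sT A i ξ) * (volK K).w i (sT A i ξ))
    ring
  have h3 := hu w hws
  rw [h1, h2] at h3
  exact h3

end loc

/-! ### gluing -/

section glue

variable [T2Space M] [CompactSpace M] [ConnectedSpace M] [MeasurableSpace M] [BorelSpace M]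
  [Finite A.ι]

/-- **existence of smooth solutions** of `Δ v = F`, `∫ F = 0` -/
theorem lin_zero (K : Kah A) (P : Part A) {F : M → ℝ} (hF : A.Sm F)
    (h0 : ∫ x, F x ∂(vm (volK K)) = 0) :
    ∃ v : M → ℝ, A.Sm v ∧ ∀ x, lapK K v x = F x := by
  have := isFinite_vm (volK K)
  have := isOpenPos_vm (volK K)
  obtain ⟨u, hu⟩ := weak_sol K P hF h0
  choose V hVs hVu hVe using local_reg K hF u hu
  have hum : Measurable (u : M → ℝ) := (Lp.stronglyMeasurable u).measurable
  have hVc : ∀ i, ContinuousOn (fun x => V i (A.e i x)) (A.e i).source := fun i =>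
    (hVs i).continuousOn.comp (A.e i).continuousOn fun x hx => (A.e i).map_source hx
  have hae : ∀ i, ∀ᵐ x ∂(vm (volK K)), x ∈ (A.e i).source → V i (A.e i x) = u x := by
    intro i
    refine ae_of_chart (volK K) i ?_ ?_
    · classical
      have h1 : Measurable ((A.e i).source.piecewise (fun x => V i (A.e i x)) fun _ => 0) :=
        (hVc i).measurable_piecewise continuousOn_const (A.e i).open_source.measurableSet
      have h2 : {x | x ∈ (A.e i).source ∧ ¬ V i (A.e i x) = u x} = (A.e i).source ∩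
          {x | (A.e i).source.piecewise (fun x => V i (A.e i x)) (fun _ => 0) x = u x}ᶜ := by
        ext x
        simp only [mem_ofPred_eq, mem_inter_iff, mem_compl_iff]
        refine and_congr_right fun hx => ?_
        rw [piecewise_eq_of_mem _ _ _ hx]
      rw [h2]
      exact (A.e i).open_source.measurableSet.inter (measurableSet_eq_fun h1 hum).compl
    · filter_upwards [hVu i] with ξ hξ hU
      have h1 : A.e i (sT A i ξ) = Tl n ξ := (A.e i).right_inv hU
      rw [h1]
      exact hξ hU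
  have hcomp : ∀ i j, ∀ x ∈ (A.e i).source ∩ (A.e j).source,
      V i (A.e i x) = V j (A.e j x) := by
    intro i j
    have hO : IsOpen ((A.e i).source ∩ (A.e j).source) :=
      (A.e i).open_source.inter (A.e j).open_source
    refine Measure.eqOn_open_of_ae_eq (μ := vm (volK K)) ?_ hO
      ((hVc i).mono inter_subset_left) ((hVc j).mono inter_subset_right)
    rw [EventuallyEq, ae_restrict_iff' hO.measurableSet]
    filter_upwards [hae i, hae j] with x h1 h2 hx
    rw [h1 hx.1, h2 hx.2]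
  set v : M → ℝ := fun x => V (ci A x) (A.e (ci A x) x) with hv
  have hvi : ∀ i, ∀ x ∈ (A.e i).source, v x = V i (A.e i x) := fun i x hx =>
    hcomp _ _ x ⟨mem_ci x, hx⟩
  have hvr : ∀ i, ∀ z ∈ (A.e i).target, v ((A.e i).symm z) = V i z := fun i z hz => by
    rw [hvi i _ ((A.e i).map_target hz), (A.e i).right_inv hz]
  have hvs : A.Sm v := fun i => (hVs i).congr fun z hz => hvr i z hz
  refine ⟨v, hvs, fun x => ?_⟩
  set i := ci A x with hi
  have hx : x ∈ (A.e i).source := mem_ci x
  have hz := (A.e i).map_source hx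
  have h1 := lapK_read K hvs i hz
  have h2 : cH (fun z => v ((A.e i).symm z)) (A.e i x) = cH (V i) (A.e i x) :=
    cH_congr (by
      filter_upwards [(A.e i).open_target.mem_nhds hz] with z hz
      exact hvr i z hz)
  rw [h2, hVe i _ hz, (A.e i).left_inv hx] at h1
  have h3 : (volK K).w i x ≠ 0 := ((volK K).pos i x hx).ne'
  have h4 : (volK K).w i x * lapK K v x = (volK K).w i x * F x := by rw [← h1]; ring
  exact mul_left_cancel₀ h3 h4

/-- **existence of smooth solutions** of `Δ v = f - m` -/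
theorem lin_kah_m (K : Kah A) (P : Part A) {f : M → ℝ} (hf : A.Sm f) :
    ∃ (v : M → ℝ) (m : ℝ), A.Sm v ∧ ∀ x, lapK K v x = f x - m := by
  have := isFinite_vm (volK K)
  have hV0 : 0 < (vm (volK K)).real univ := vm_pos K
  set m : ℝ := (∫ x, f x ∂(vm (volK K))) / (vm (volK K)).real univ with hm
  have hF : A.Sm (fun x => f x - m) := fun i => (hf i).sub contDiffOn_const
  have h0 : ∫ x, (f x - m) ∂(vm (volK K)) = 0 := by
    rw [integral_sub (int_cont (sm_continuous hf)) (integrable_const _), integral_const,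
      smul_eq_mul, hm]
    field_simp
    ring
  obtain ⟨v, hv, he⟩ := lin_zero K P hF h0
  exact ⟨v, m, hv, he⟩

end glue

/-- existence, without measures in the statement -/
theorem lin_kah [T2Space M] [CompactSpace M] [ConnectedSpace M] [Finite A.ι] (K : Kah A)
    (P : Part A) {f : M → ℝ} (hf : A.Sm f) :
    ∃ (v : M → ℝ) (m : ℝ), A.Sm v ∧ ∀ x, lapK K v x = f x - m := by
  let _ : MeasurableSpace M := borel M
  have : BorelSpace M := ⟨rfl⟩
  exact lin_kah_m K P hf

/-! ### the metric `pot H φ` -/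

section pot

variable {L : LB A}

theorem tw_pos (H : HM L) {φ : M → ℝ} (hφ : A.Sm φ) (hpos : KPos H φ) : (tw H φ hφ).Pos := by
  refine pos_of_cur fun i x hx => ?_
  have hz := (A.e i).map_source hx
  rw [cur_tw H hφ i hx]
  have e1 : cur H i x + hsf A φ i x = hess (pot H φ i) (A.e i x) :=
    (YauMax_635.hess_pot H hφ i hz).symm
  rw [e1]
  exact posDef_hess (YauMax_635.pot_contDiffAt H hφ i hz) (hpos i _ hz)

theorem g_pot (H : HM L) {φ : M → ℝ} (hφ : A.Sm φ) (hpos : KPos H φ) (i : A.ι) {z : Cn n}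
    (hz : z ∈ (A.e i).target) :
    (kah (tw H φ hφ) (tw_pos H hφ hpos)).g i ((A.e i).symm z) = cH (pot H φ i) z := by
  have hx := (A.e i).map_target hz
  have e0 : (kah (tw H φ hφ) (tw_pos H hφ hpos)).g i ((A.e i).symm z)
      = cur (tw H φ hφ) i ((A.e i).symm z) := rfl
  rw [e0, cur_tw H hφ i hx, cH_eq_hess (YauMax_635.pot_contDiffAt H hφ i hz),
    YauMax_635.hess_pot H hφ i hz]
  unfold cur hsf
  rw [(A.e i).right_inv hz]
  rfl

/-- **C-LIN, existence**: for every smooth `f` there are a smooth `v` and a real `m` with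
`tr (g⁻¹ ∂∂̄v) = f - m`, `g = ∂∂̄(pot H φ)` -/
theorem lin_exist [T2Space M] [CompactSpace M] [ConnectedSpace M] [Finite A.ι] (P : Part A)
    (H : HM L) {φ : M → ℝ} (hφ : A.Sm φ) (hpos : KPos H φ) {f : M → ℝ} (hf : A.Sm f) :
    ∃ (v : M → ℝ) (m : ℝ), A.Sm v ∧ ∀ i, ∀ z ∈ (A.e i).target,
      ((cH (pot H φ i) z)⁻¹ * cH (inC A i v) z).trace = ((f ((A.e i).symm z) - m : ℝ) : ℂ) := by
  set K := kah (tw H φ hφ) (tw_pos H hφ hpos) with hK
  obtain ⟨v, m, hv, he⟩ := lin_kah K P hf
  refine ⟨v, m, hv, fun i z hz => ?_⟩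
  have hx := (A.e i).map_target hz
  rw [← he, lapK_ofReal K hv, trK_eq K (hsf_tn hv) hx, hK, g_pot H hφ hpos i hz, hsf_read v i hz]
  congr 2
  exact cH_eq_hess (ContDiffOn.contDiffAt (hv i) ((A.e i).open_target.mem_nhds hz))

end pot

end

end Crest.Agent.R273.CLin_933
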