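import Crest.Agent.R275.Del_75
import Crest.Agent.R275.C1a_509
import Crest.Agent.R275.FmP_96
import Crest.Agent.R275.Core_144

/-!
# R273 (S0416), E3 (helper145): Levi forms of real functions on `Cn n`

* `hs f z a b` : `∂²f/∂z_a∂z̄_b` of a complex valued function;
* `lev u z v`  : `(D²u(v,v) + D²u(iv,iv))/4` of a real function, `= ∑ hs u z a b v_a conj v_b`;
* algebra, chain rules, `log|f|²`, `log ∑|f_j|²`.
-/

set_option autoImplicit false
set_option linter.unusedSectionVars false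

open Set Filter Topology Complex
open scoped ContDiff Matrix ComplexConjugate

namespace Crest.Agent.R273.Levi_145

open Crest.Agent.R275.Geo Crest.Agent.R275.OmT75 Crest.Agent.R275.Core144

noncomputable section

variable {n : ℕ}

/-! ### second derivatives -/

/-- the `(a, b̄)` coefficient of a real bilinear form -/
def qc (B : Cn n →L[ℝ] Cn n →L[ℝ] ℂ) (a b : Fin n) : ℂ :=
  (1 / 4 : ℂ) * (B (EuclideanSpace.single a 1) (EuclideanSpace.single b 1)
    + I * B (EuclideanSpace.single a 1) (EuclideanSpace.single b I)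
    - I * B (EuclideanSpace.single a I) (EuclideanSpace.single b 1)
    + B (EuclideanSpace.single a I) (EuclideanSpace.single b I))

/-- the `(a, b)` coefficient of a real bilinear form -/
def pc (B : Cn n →L[ℝ] Cn n →L[ℝ] ℂ) (a b : Fin n) : ℂ :=
  (1 / 4 : ℂ) * (B (EuclideanSpace.single a 1) (EuclideanSpace.single b 1)
    - I * B (EuclideanSpace.single a 1) (EuclideanSpace.single b I)
    - I * B (EuclideanSpace.single a I) (EuclideanSpace.single b 1)
    - B (EuclideanSpace.single a I) (EuclideanSpace.single b I))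

/-- the `(ā, b̄)` coefficient of a real bilinear form -/
def sc (B : Cn n →L[ℝ] Cn n →L[ℝ] ℂ) (a b : Fin n) : ℂ :=
  (1 / 4 : ℂ) * (B (EuclideanSpace.single a 1) (EuclideanSpace.single b 1)
    + I * B (EuclideanSpace.single a 1) (EuclideanSpace.single b I)
    + I * B (EuclideanSpace.single a I) (EuclideanSpace.single b 1)
    - B (EuclideanSpace.single a I) (EuclideanSpace.single b I))

theorem bil_expand (B : Cn n →L[ℝ] Cn n →L[ℝ] ℂ)
    (hB : ∀ v w, B v w = B w v) (v w : Cn n) :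
    B v w = ∑ a, ∑ b, (pc B a b * v a * w b + qc B a b * v a * conj (w b)
      + qc B b a * conj (v a) * w b + sc B a b * conj (v a) * conj (w b)) := by
  have h1 : ∀ w, B v w = ∑ b, ((w b) * ((1 / 2 : ℂ) * (B (EuclideanSpace.single b 1) v
      - I * B (EuclideanSpace.single b I) v))
      + conj (w b) * ((1 / 2 : ℂ) * (B (EuclideanSpace.single b 1) v
      + I * B (EuclideanSpace.single b I) v))) := by
    intro w
    have := expand (B v) w
    simp only [smul_eq_mul] at this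
    rw [this]
    refine Finset.sum_congr rfl fun b _ => ?_
    rw [hB v, hB v]
  rw [h1 w, Finset.sum_comm]
  refine Finset.sum_congr rfl fun b _ => ?_
  have h2 : ∀ u, B u v = ∑ a, ((v a) * ((1 / 2 : ℂ) * (B u (EuclideanSpace.single a 1)
      - I * B u (EuclideanSpace.single a I)))
      + conj (v a) * ((1 / 2 : ℂ) * (B u (EuclideanSpace.single a 1)
      + I * B u (EuclideanSpace.single a I)))) := by
    intro u
    have := expand (B u) v
    simpa only [smul_eq_mul] using this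
  rw [h2 (EuclideanSpace.single b 1), h2 (EuclideanSpace.single b I)]
  simp only [Finset.mul_sum, ← Finset.sum_add_distrib, ← Finset.sum_sub_distrib]
  refine Finset.sum_congr rfl fun a _ => ?_
  unfold pc qc sc
  rw [hB (EuclideanSpace.single b 1) (EuclideanSpace.single a 1),
    hB (EuclideanSpace.single b 1) (EuclideanSpace.single a I),
    hB (EuclideanSpace.single b I) (EuclideanSpace.single a 1),
    hB (EuclideanSpace.single b I) (EuclideanSpace.single a I)]
  linear_combination ((1 / 4 : ℂ) * w b * v a * B (EuclideanSpace.single a I)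
    (EuclideanSpace.single b I) - (1 / 4 : ℂ) * w b * conj (v a) * B (EuclideanSpace.single a I)
    (EuclideanSpace.single b I) - (1 / 4 : ℂ) * conj (w b) * v a * B (EuclideanSpace.single a I)
    (EuclideanSpace.single b I) + (1 / 4 : ℂ) * conj (w b) * conj (v a) *
    B (EuclideanSpace.single a I) (EuclideanSpace.single b I)) * Complex.I_mul_I

theorem bil_levi (B : Cn n →L[ℝ] Cn n →L[ℝ] ℂ)
    (hB : ∀ v w, B v w = B w v) (v : Cn n) :
    B v v + B (I • v) (I • v) = 4 * ∑ a, ∑ b, qc B a b * v a * conj (v b) := by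
  have key : ∑ a, ∑ b, qc B b a * conj (v a) * v b = ∑ a, ∑ b, qc B a b * v a * conj (v b) := by
    rw [Finset.sum_comm]
    refine Finset.sum_congr rfl fun a _ => Finset.sum_congr rfl fun b _ => by ring
  rw [bil_expand B hB v v, bil_expand B hB (I • v) (I • v), ← Finset.sum_add_distrib]
  have h2 : ∀ a b : Fin n, (I • v) a = I * v a := fun a _ => rfl
  have h3 : (4 : ℂ) * ∑ a, ∑ b, qc B a b * v a * conj (v b) =
      2 * (∑ a, ∑ b, qc B a b * v a * conj (v b)) +
      2 * (∑ a, ∑ b, qc B b a * conj (v a) * v b) := by rw [key]; ring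
  rw [h3, Finset.mul_sum, Finset.mul_sum, ← Finset.sum_add_distrib]
  refine Finset.sum_congr rfl fun a _ => ?_
  rw [Finset.mul_sum, Finset.mul_sum, ← Finset.sum_add_distrib, ← Finset.sum_add_distrib]
  refine Finset.sum_congr rfl fun b _ => ?_
  have ha : (I • v) a = I * v a := rfl
  have hb : (I • v) b = I * v b := rfl
  rw [ha, hb, map_mul, map_mul, conj_I]
  linear_combination (pc B a b * v a * v b - qc B a b * v a * conj (v b)
    - qc B b a * conj (v a) * v b + sc B a b * conj (v a) * conj (v b)) * Complex.I_mul_I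

/-! ### `∂_a ∂̄_b` -/

section CC

variable {f g : Cn n → ℂ} {z : Cn n}

/-- `∂²f / ∂z_a ∂z̄_b` -/
def hs (f : Cn n → ℂ) (z : Cn n) (a b : Fin n) : ℂ := dj a (dbj b f) z

theorem c2_diff {W : Type*} [NormedAddCommGroup W] [NormedSpace ℝ W] {f : Cn n → W} {z : Cn n}
    (h : ContDiffAt ℝ 2 f z) : DifferentiableAt ℝ f z := h.differentiableAt (by norm_num)

theorem c2_fd {W : Type*} [NormedAddCommGroup W] [NormedSpace ℝ W] {f : Cn n → W} {z : Cn n}
    (h : ContDiffAt ℝ 2 f z) : DifferentiableAt ℝ (fderiv ℝ f) z :=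
  (h.fderiv_right (m := 1) (by norm_num)).differentiableAt (by norm_num)

theorem c2_ev {W : Type*} [NormedAddCommGroup W] [NormedSpace ℝ W] {f : Cn n → W} {z : Cn n}
    (h : ContDiffAt ℝ 2 f z) : ∀ᶠ y in 𝓝 z, ContDiffAt ℝ 2 f y := h.eventually (by simp)

theorem c2_evd {W : Type*} [NormedAddCommGroup W] [NormedSpace ℝ W] {f : Cn n → W} {z : Cn n}
    (h : ContDiffAt ℝ 2 f z) : ∀ᶠ y in 𝓝 z, DifferentiableAt ℝ f y :=
  (c2_ev h).mono fun _ h => c2_diff h

theorem diff_dbj (h : ContDiffAt ℝ 2 f z) (b : Fin n) : DifferentiableAt ℝ (dbj b f) z := by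
  have h1 := c2_fd h
  have h2 : ∀ v : Cn n, DifferentiableAt ℝ (fun w => fderiv ℝ f w v) z := fun v =>
    h1.clm_apply (differentiableAt_const _)
  exact ((h2 _).add ((h2 _).const_smul I)).const_smul (1 / 2 : ℂ)

theorem diff_dj (h : ContDiffAt ℝ 2 f z) (b : Fin n) : DifferentiableAt ℝ (dj b f) z := by
  have h1 := c2_fd h
  have h2 : ∀ v : Cn n, DifferentiableAt ℝ (fun w => fderiv ℝ f w v) z := fun v =>
    h1.clm_apply (differentiableAt_const _)
  exact ((h2 _).sub ((h2 _).const_smul I)).const_smul (1 / 2 : ℂ)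

theorem fderiv_dbj (h : ContDiffAt ℝ 2 f z) (b : Fin n) (v : Cn n) :
    fderiv ℝ (dbj b f) z v = (1 / 2 : ℂ) * (fderiv ℝ (fderiv ℝ f) z v (EuclideanSpace.single b 1)
      + I * fderiv ℝ (fderiv ℝ f) z v (EuclideanSpace.single b I)) := by
  have h1 := c2_fd h
  have h2 : ∀ u : Cn n, HasFDerivAt (fun w => fderiv ℝ f w u)
      ((fderiv ℝ (fderiv ℝ f) z).flip u) z := fun u => by
    have := h1.hasFDerivAt.clm_apply (hasFDerivAt_const u z)
    simpa using this
  have h3 : HasFDerivAt (dbj b f) _ z :=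
    ((h2 (EuclideanSpace.single b 1)).add ((h2 (EuclideanSpace.single b I)).const_smul I)).const_smul
      (1 / 2 : ℂ)
  rw [h3.fderiv]
  simp
  ring

theorem fderiv_dj (h : ContDiffAt ℝ 2 f z) (b : Fin n) (v : Cn n) :
    fderiv ℝ (dj b f) z v = (1 / 2 : ℂ) * (fderiv ℝ (fderiv ℝ f) z v (EuclideanSpace.single b 1)
      - I * fderiv ℝ (fderiv ℝ f) z v (EuclideanSpace.single b I)) := by
  have h1 := c2_fd h
  have h2 : ∀ u : Cn n, HasFDerivAt (fun w => fderiv ℝ f w u)
      ((fderiv ℝ (fderiv ℝ f) z).flip u) z := fun u => by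
    have := h1.hasFDerivAt.clm_apply (hasFDerivAt_const u z)
    simpa using this
  have h3 : HasFDerivAt (dj b f) _ z :=
    ((h2 (EuclideanSpace.single b 1)).sub ((h2 (EuclideanSpace.single b I)).const_smul I)).const_smul
      (1 / 2 : ℂ)
  rw [h3.fderiv]
  simp

theorem fd_symm {W : Type*} [NormedAddCommGroup W] [NormedSpace ℝ W] {f : Cn n → W} {z : Cn n}
    (h : ContDiffAt ℝ 2 f z) (v w : Cn n) :
    fderiv ℝ (fderiv ℝ f) z v w = fderiv ℝ (fderiv ℝ f) z w v :=
  (h.isSymmSndFDerivAt (by simp)).eq v w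

theorem hs_eq_qc (h : ContDiffAt ℝ 2 f z) (a b : Fin n) :
    hs f z a b = qc (fderiv ℝ (fderiv ℝ f) z) a b := by
  unfold hs dj qc
  rw [fderiv_dbj h, fderiv_dbj h]
  simp only [smul_eq_mul]
  linear_combination (-(1 / 4 : ℂ) * fderiv ℝ (fderiv ℝ f) z (EuclideanSpace.single a I)
    (EuclideanSpace.single b I)) * Complex.I_mul_I

theorem dj_dbj_comm (h : ContDiffAt ℝ 2 f z) (a b : Fin n) :
    dj a (dbj b f) z = dbj b (dj a f) z := by
  unfold dj
  rw [fderiv_dbj h, fderiv_dbj h]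
  unfold dbj
  have e : (fun z => (1 / 2 : ℂ) • (fderiv ℝ f z (EuclideanSpace.single a 1) -
    I • fderiv ℝ f z (EuclideanSpace.single a I))) = dj a f := rfl
  rw [e, fderiv_dj h, fderiv_dj h]
  simp only [smul_eq_mul]
  rw [fd_symm h (EuclideanSpace.single b 1) (EuclideanSpace.single a 1),
    fd_symm h (EuclideanSpace.single b 1) (EuclideanSpace.single a I),
    fd_symm h (EuclideanSpace.single b I) (EuclideanSpace.single a 1),
    fd_symm h (EuclideanSpace.single b I) (EuclideanSpace.single a I)]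
  ring

theorem dj_dj_comm (h : ContDiffAt ℝ 2 f z) (a b : Fin n) :
    dj a (dj b f) z = dj b (dj a f) z := by
  unfold dj
  have e : ∀ a, (fun z => (1 / 2 : ℂ) • (fderiv ℝ f z (EuclideanSpace.single a 1) -
    I • fderiv ℝ f z (EuclideanSpace.single a I))) = dj a f := fun _ => rfl
  rw [e, e, fderiv_dj h, fderiv_dj h, fderiv_dj h, fderiv_dj h]
  simp only [smul_eq_mul]
  rw [fd_symm h (EuclideanSpace.single b 1) (EuclideanSpace.single a 1),
    fd_symm h (EuclideanSpace.single b 1) (EuclideanSpace.single a I),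
    fd_symm h (EuclideanSpace.single b I) (EuclideanSpace.single a 1),
    fd_symm h (EuclideanSpace.single b I) (EuclideanSpace.single a I)]
  ring

theorem dbj_dbj_comm (h : ContDiffAt ℝ 2 f z) (a b : Fin n) :
    dbj a (dbj b f) z = dbj b (dbj a f) z := by
  unfold dbj
  have e : ∀ a, (fun z => (1 / 2 : ℂ) • (fderiv ℝ f z (EuclideanSpace.single a 1) +
    I • fderiv ℝ f z (EuclideanSpace.single a I))) = dbj a f := fun _ => rfl
  rw [e, e, fderiv_dbj h, fderiv_dbj h, fderiv_dbj h, fderiv_dbj h]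
  simp only [smul_eq_mul]
  rw [fd_symm h (EuclideanSpace.single b 1) (EuclideanSpace.single a 1),
    fd_symm h (EuclideanSpace.single b 1) (EuclideanSpace.single a I),
    fd_symm h (EuclideanSpace.single b I) (EuclideanSpace.single a 1),
    fd_symm h (EuclideanSpace.single b I) (EuclideanSpace.single a I)]
  ring

theorem hs_congr (h : f =ᶠ[𝓝 z] g) (a b : Fin n) : hs f z a b = hs g z a b := by
  unfold hs
  refine dj_congr ?_
  filter_upwards [h.eventually_nhds] with w hw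
  exact Crest.Agent.R275.OmT75.dbj_congr hw

theorem hs_const (c : ℂ) (a b : Fin n) : hs (fun _ : Cn n => c) z a b = 0 := by
  unfold hs
  have : dbj b (fun _ : Cn n => c) = fun _ => 0 := by funext w; simp [dbj]
  rw [this]; simp [dj]

theorem dj_const (c : ℂ) (a : Fin n) (z : Cn n) : dj a (fun _ : Cn n => c) z = 0 := by
  simp [dj]

theorem dj_add {f g : Cn n → ℂ} {z : Cn n} (hf : DifferentiableAt ℝ f z)
    (hg : DifferentiableAt ℝ g z) (a : Fin n) :
    dj a (fun w => f w + g w) z = dj a f z + dj a g z := by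
  have h : fderiv ℝ (fun w => f w + g w) z = fderiv ℝ f z + fderiv ℝ g z := fderiv_add hf hg
  simp only [dj, h, _root_.add_apply]
  module

theorem dj_conj {f : Cn n → ℂ} {z : Cn n} (hf : DifferentiableAt ℝ f z) (a : Fin n) :
    dj a (fun w => conj (f w)) z = conj (dbj a f z) := by
  have h : HasFDerivAt (fun w => conj (f w))
      ((Complex.conjCLE : ℂ →L[ℝ] ℂ).comp (fderiv ℝ f z)) z :=
    ((Complex.conjCLE : ℂ →L[ℝ] ℂ).hasFDerivAt).comp z hf.hasFDerivAt
  have h2 : conj (1 / 2 : ℂ) = 1 / 2 := by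
    rw [map_div₀, map_one, Complex.conj_ofNat]
  unfold dj dbj
  rw [h.fderiv]
  simp only [smul_eq_mul, map_mul, map_add, h2, conj_I, ContinuousLinearMap.comp_apply]
  simp
  ring

theorem dbj_conj {f : Cn n → ℂ} {z : Cn n} (hf : DifferentiableAt ℝ f z) (a : Fin n) :
    dbj a (fun w => conj (f w)) z = conj (dj a f z) := by
  have h : HasFDerivAt (fun w => conj (f w))
      ((Complex.conjCLE : ℂ →L[ℝ] ℂ).comp (fderiv ℝ f z)) z :=
    ((Complex.conjCLE : ℂ →L[ℝ] ℂ).hasFDerivAt).comp z hf.hasFDerivAt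
  have h2 : conj (1 / 2 : ℂ) = 1 / 2 := by
    rw [map_div₀, map_one, Complex.conj_ofNat]
  unfold dj dbj
  rw [h.fderiv]
  simp only [smul_eq_mul, map_mul, map_sub, h2, conj_I, ContinuousLinearMap.comp_apply]
  simp

/-- a holomorphic function has `∂̄ = 0` -/
theorem dbj_holo {f : Cn n → ℂ} {z : Cn n} (hf : DifferentiableAt ℂ f z) (a : Fin n) :
    dbj a f z = 0 := by
  have h2 : fderiv ℝ f z = (fderiv ℂ f z).restrictScalars ℝ := hf.fderiv_restrictScalars ℝ
  have h3 : (EuclideanSpace.single a I : Cn n) = I • EuclideanSpace.single a (1 : ℂ) := by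
    ext b
    by_cases hb : b = a <;> simp [hb]
  unfold dbj
  rw [h2, h3]
  simp only [ContinuousLinearMap.coe_restrictScalars', map_smul, smul_eq_mul]
  linear_combination ((1 / 2 : ℂ) * (fderiv ℂ f z) (EuclideanSpace.single a 1)) * Complex.I_mul_I

theorem dj_holo {f : Cn n → ℂ} {z : Cn n} (hf : DifferentiableAt ℂ f z) (a : Fin n) :
    dj a f z = fderiv ℂ f z (EuclideanSpace.single a 1) := by
  have h2 : fderiv ℝ f z = (fderiv ℂ f z).restrictScalars ℝ := hf.fderiv_restrictScalars ℝ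
  have h3 : (EuclideanSpace.single a I : Cn n) = I • EuclideanSpace.single a (1 : ℂ) := by
    ext b
    by_cases hb : b = a <;> simp [hb]
  unfold dj
  rw [h2, h3]
  simp only [ContinuousLinearMap.coe_restrictScalars', map_smul, smul_eq_mul]
  linear_combination (-(1 / 2 : ℂ) * (fderiv ℂ f z) (EuclideanSpace.single a 1)) * Complex.I_mul_I

theorem hs_add (hf : ContDiffAt ℝ 2 f z) (hg : ContDiffAt ℝ 2 g z) (a b : Fin n) :
    hs (fun w => f w + g w) z a b = hs f z a b + hs g z a b := by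
  unfold hs
  rw [← dj_add (diff_dbj hf b) (diff_dbj hg b)]
  refine dj_congr ?_
  filter_upwards [c2_evd hf, c2_evd hg] with w h1 h2
  exact dbj_add h1 h2 b

theorem hs_const_mul (c : ℂ) (hf : ContDiffAt ℝ 2 f z) (a b : Fin n) :
    hs (fun w => c * f w) z a b = c * hs f z a b := by
  unfold hs
  have h1 : dj a (fun w => c * dbj b f w) z = c * dj a (dbj b f) z := by
    rw [dj_mul (differentiableAt_const c) (diff_dbj hf b), dj_const]; ring
  rw [← h1]
  refine dj_congr ?_
  filter_upwards [c2_evd hf] with w h1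
  have := dbj_mul' (a := b) (differentiableAt_const c (x := w)) h1
  rw [this, dbj_const]; ring

theorem hs_neg (hf : ContDiffAt ℝ 2 f z) (a b : Fin n) :
    hs (fun w => - f w) z a b = - hs f z a b := by
  have := hs_const_mul (-1) hf a b
  simpa using this

theorem hs_sub (hf : ContDiffAt ℝ 2 f z) (hg : ContDiffAt ℝ 2 g z) (a b : Fin n) :
    hs (fun w => f w - g w) z a b = hs f z a b - hs g z a b := by
  have := hs_add hf hg.neg a b
  simp only [← sub_eq_add_neg] at this
  rw [this, hs_neg hg]; ring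

theorem hs_sum {ι : Type*} (s : Finset ι) {f : ι → Cn n → ℂ}
    (hf : ∀ l ∈ s, ContDiffAt ℝ 2 (f l) z) (a b : Fin n) :
    hs (fun w => ∑ l ∈ s, f l w) z a b = ∑ l ∈ s, hs (f l) z a b := by
  classical
  induction s using Finset.induction_on with
  | empty => simpa using hs_const (z := z) 0 a b
  | insert l s hl ih =>
    simp only [Finset.sum_insert hl]
    have h2 : ContDiffAt ℝ 2 (fun w => ∑ l ∈ s, f l w) z :=
      ContDiffAt.sum fun i hi => hf i (Finset.mem_insert_of_mem hi)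
    rw [hs_add (hf l (by simp)) h2, ih fun i hi => hf i (Finset.mem_insert_of_mem hi)]

theorem hs_mul (hf : ContDiffAt ℝ 2 f z) (hg : ContDiffAt ℝ 2 g z) (a b : Fin n) :
    hs (fun w => f w * g w) z a b = hs f z a b * g z + f z * hs g z a b
      + dj a f z * dbj b g z + dbj b f z * dj a g z := by
  unfold hs
  have h1 : dj a (fun w => dbj b f w * g w + f w * dbj b g w) z =
      dj a (dbj b f) z * g z + f z * dj a (dbj b g) z
      + dj a f z * dbj b g z + dbj b f z * dj a g z := by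
    have e := dj_add (f := fun w => dbj b f w * g w) (g := fun w => f w * dbj b g w)
      ((diff_dbj hf b).mul (c2_diff hg)) ((c2_diff hf).mul (diff_dbj hg b)) a
    rw [e, dj_mul (diff_dbj hf b) (c2_diff hg), dj_mul (c2_diff hf) (diff_dbj hg b)]
    ring
  rw [← h1]
  refine dj_congr ?_
  filter_upwards [c2_evd hf, c2_evd hg] with w h1 h2
  exact dbj_mul' h1 h2

/-- smoothness of `hs` -/
theorem contDiffOn_hs {U : Set (Cn n)} (hU : IsOpen U) (hf : ContDiffOn ℝ ∞ f U) (a b : Fin n) :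
    ContDiffOn ℝ ∞ (fun z => hs f z a b) U :=
  dj_contDiffOn hU (Crest.Agent.R275.OmT75.dbj_contDiffOn hU hf)

theorem hs_holo (hf : ∀ᶠ w in 𝓝 z, DifferentiableAt ℂ f w) (a b : Fin n) : hs f z a b = 0 := by
  have : dbj b f =ᶠ[𝓝 z] fun _ => (0 : ℂ) := by
    filter_upwards [hf] with w hw
    exact dbj_holo hw b
  unfold hs
  rw [dj_congr this, dj_const]

/-- product of a holomorphic and an antiholomorphic function -/
theorem hs_mul_conj (hf : ∀ᶠ w in 𝓝 z, DifferentiableAt ℂ f w)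
    (hg : ∀ᶠ w in 𝓝 z, DifferentiableAt ℂ g w) (a b : Fin n) :
    hs (fun w => f w * conj (g w)) z a b
      = fderiv ℂ f z (EuclideanSpace.single a 1) *
        conj (fderiv ℂ g z (EuclideanSpace.single b 1)) := by
  have han : AnalyticAt ℂ g z := by
    obtain ⟨U, hU, hUo, hzU⟩ := eventually_nhds_iff.1 hg
    exact Crest.Agent.R266.SCV.analyticOnNhd_of_differentiableOn hUo
      (fun w hw => (hU w hw).differentiableWithinAt) z hzU
  have hg' : ∀ᶠ w in 𝓝 z, DifferentiableAt ℂ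
      (fun y => fderiv ℂ g y (EuclideanSpace.single b 1)) w := by
    filter_upwards [han.eventually_analyticAt] with w hw
    exact (hw.fderiv.differentiableAt).clm_apply (differentiableAt_const _)
  have h1 : dbj b (fun w => f w * conj (g w)) =ᶠ[𝓝 z]
      fun w => f w * conj (fderiv ℂ g w (EuclideanSpace.single b 1)) := by
    filter_upwards [hf, hg] with w h1 h2
    have hgr : DifferentiableAt ℝ g w := h2.restrictScalars ℝ
    have hgc : DifferentiableAt ℝ (fun y => conj (g y)) w :=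
      (Complex.conjCLE : ℂ →L[ℝ] ℂ).differentiableAt.comp w hgr
    have e := dbj_mul' (a := b) (g := fun y => conj (g y)) (h1.restrictScalars ℝ) hgc
    rw [e, dbj_holo h1, dbj_conj hgr, dj_holo h2]
    ring
  unfold hs
  rw [dj_congr h1]
  have hzf := hf.self_of_nhds
  have hzg := hg'.self_of_nhds
  have hzgr := hzg.restrictScalars ℝ
  have hgc : DifferentiableAt ℝ (fun y => conj (fderiv ℂ g y (EuclideanSpace.single b 1))) z :=
    (Complex.conjCLE : ℂ →L[ℝ] ℂ).differentiableAt.comp z hzgr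
  have e := dj_mul (a := a) (g := fun y => conj (fderiv ℂ g y (EuclideanSpace.single b 1)))
    (hzf.restrictScalars ℝ) hgc
  rw [e, dj_conj hzgr, dbj_holo hzg, dj_holo hzf]
  simp

end CC

/-! ### change of variables -/

section Chain

variable {m : ℕ} {f : Cn m → ℂ} {T : Cn n → Cn m} {z : Cn n}

theorem hs_comp (hT : AnalyticAt ℂ T z) (hf : ContDiffAt ℝ 2 f (T z)) (a b : Fin n) :
    hs (fun w => f (T w)) z a b = ∑ c, ∑ d, hs f (T z) c d *
      (fderiv ℂ T z (EuclideanSpace.single a 1)) c *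
      conj ((fderiv ℂ T z (EuclideanSpace.single b 1)) d) := by
  have hTc : ContinuousAt T z := hT.continuousAt
  have hev : ∀ᶠ w in 𝓝 z, DifferentiableAt ℂ T w :=
    hT.eventually_analyticAt.mono fun w hw => hw.differentiableAt
  have hfd : ∀ᶠ w in 𝓝 z, DifferentiableAt ℝ f (T w) := hTc.eventually (c2_evd hf)
  have h1 : dbj b (fun w => f (T w)) =ᶠ[𝓝 z] fun w => ∑ d,
      dbj d f (T w) * conj ((fderiv ℂ T w (EuclideanSpace.single b 1)) d) := by
    filter_upwards [hev, hfd] with w h1 h2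
    rw [Crest.Agent.R275.OmT75.dbj_comp h2 h1 b]
    exact Finset.sum_congr rfl fun d _ => by rw [smul_eq_mul]; ring
  have hJ : ∀ d, ∀ᶠ w in 𝓝 z, DifferentiableAt ℂ
      (fun y => (fderiv ℂ T y (EuclideanSpace.single b 1)) d) w := by
    intro d
    filter_upwards [hT.eventually_analyticAt] with w hw
    have h3 : DifferentiableAt ℂ (fun y => fderiv ℂ T y (EuclideanSpace.single b 1)) w :=
      hw.fderiv.differentiableAt.clm_apply (differentiableAt_const _)
    exact (EuclideanSpace.proj (𝕜 := ℂ) d : Cn m →L[ℂ] ℂ).differentiableAt.comp w h3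
  have hdf : ∀ d, DifferentiableAt ℝ (fun w => dbj d f (T w)) z := fun d =>
    (diff_dbj hf d).comp z (hT.differentiableAt.restrictScalars ℝ)
  have hJc : ∀ d, DifferentiableAt ℝ
      (fun w => conj ((fderiv ℂ T w (EuclideanSpace.single b 1)) d)) z := fun d =>
    (Complex.conjCLE : ℂ →L[ℝ] ℂ).differentiableAt.comp z
      ((hJ d).self_of_nhds.restrictScalars ℝ)
  unfold hs
  rw [dj_congr h1, dj_sum (f := fun d w => dbj d f (T w) *
    conj ((fderiv ℂ T w (EuclideanSpace.single b 1)) d)) fun d _ => (hdf d).mul (hJc d)]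
  rw [Finset.sum_comm]
  refine Finset.sum_congr rfl fun d _ => ?_
  rw [dj_mul (hdf d) (hJc d), dj_conj ((hJ d).self_of_nhds.restrictScalars ℝ),
    dbj_holo (hJ d).self_of_nhds, dj_comp (diff_dbj hf d) hT.differentiableAt]
  simp only [map_zero, mul_zero, add_zero, smul_eq_mul, Finset.sum_mul]
  exact Finset.sum_congr rfl fun c _ => by ring

end Chain

/-! ### real functions -/

section RR

variable {u v : Cn n → ℝ} {z : Cn n}

/-- complexification of a real function -/
def cx {α : Type*} (u : α → ℝ) : α → ℂ := fun w => (u w : ℂ)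

/-- Levi form `∑ u_{a b̄} v_a conj v_b` -/
def lev (u : Cn n → ℝ) (z v : Cn n) : ℝ :=
  (fderiv ℝ (fderiv ℝ u) z v v + fderiv ℝ (fderiv ℝ u) z (I • v) (I • v)) / 4

theorem cx_c2 (h : ContDiffAt ℝ 2 u z) : ContDiffAt ℝ 2 (cx u) z :=
  Complex.ofRealCLM.contDiff.contDiffAt.comp z h

theorem cx_diff (h : DifferentiableAt ℝ u z) : DifferentiableAt ℝ (cx u) z :=
  Complex.ofRealCLM.differentiableAt.comp z h

theorem fderiv_cx (h : DifferentiableAt ℝ u z) (w : Cn n) :
    fderiv ℝ (cx u) z w = (fderiv ℝ u z w : ℂ) := by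
  have h1 : HasFDerivAt (cx u) (Complex.ofRealCLM.comp (fderiv ℝ u z)) z :=
    (Complex.ofRealCLM.hasFDerivAt).comp z h.hasFDerivAt
  rw [h1.fderiv]; rfl

theorem fd2_cx (h : ContDiffAt ℝ 2 u z) (v w : Cn n) :
    fderiv ℝ (fderiv ℝ (cx u)) z v w = (fderiv ℝ (fderiv ℝ u) z v w : ℂ) := by
  have h1 : fderiv ℝ (cx u) =ᶠ[𝓝 z]
      fun y => (ContinuousLinearMap.compL ℝ (Cn n) ℝ ℂ Complex.ofRealCLM) (fderiv ℝ u y) := by
    filter_upwards [c2_evd h] with y hy
    exact ((Complex.ofRealCLM.hasFDerivAt).comp y hy.hasFDerivAt).fderiv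
  have h2 : HasFDerivAt
      (fun y => (ContinuousLinearMap.compL ℝ (Cn n) ℝ ℂ Complex.ofRealCLM) (fderiv ℝ u y))
      ((ContinuousLinearMap.compL ℝ (Cn n) ℝ ℂ Complex.ofRealCLM).comp
        (fderiv ℝ (fderiv ℝ u) z)) z :=
    (ContinuousLinearMap.compL ℝ (Cn n) ℝ ℂ Complex.ofRealCLM).hasFDerivAt.comp z
      (c2_fd h).hasFDerivAt
  rw [h1.fderiv_eq, h2.fderiv]
  rfl

/-- the Levi form through the matrix `u_{a b̄}` -/
theorem lev_eq (h : ContDiffAt ℝ 2 u z) (v : Cn n) :
    ((lev u z v : ℝ) : ℂ) = ∑ a, ∑ b, hs (cx u) z a b * v a * conj (v b) := by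
  have h1 := bil_levi (fderiv ℝ (fderiv ℝ (cx u)) z) (fd_symm (cx_c2 h)) v
  rw [fd2_cx h, fd2_cx h] at h1
  unfold lev
  push_cast
  rw [h1]
  simp only [hs_eq_qc (cx_c2 h)]
  ring

theorem hs_herm (h : ContDiffAt ℝ 2 u z) (a b : Fin n) :
    conj (hs (cx u) z a b) = hs (cx u) z b a := by
  unfold hs
  rw [← dbj_conj (diff_dbj (cx_c2 h) b), dj_dbj_comm (cx_c2 h)]
  refine Crest.Agent.R275.OmT75.dbj_congr ?_
  filter_upwards [c2_evd (cx_c2 h)] with w hw
  rw [← dj_conj hw]
  congr 1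
  funext y
  simp [cx]

theorem lev_congr (h : u =ᶠ[𝓝 z] v) (w : Cn n) : lev u z w = lev v z w := by
  have h2 : fderiv ℝ u =ᶠ[𝓝 z] fderiv ℝ v := h.fderiv
  unfold lev
  rw [h2.fderiv_eq]

theorem cx_congr (h : u =ᶠ[𝓝 z] v) : cx u =ᶠ[𝓝 z] cx v := h.mono fun w hw => by simp [cx, hw]

theorem lev_re (h : ContDiffAt ℝ 2 u z) (w : Cn n) :
    lev u z w = (∑ a, ∑ b, hs (cx u) z a b * w a * conj (w b)).re := by
  rw [← lev_eq h, ofReal_re]

theorem lev_add (hu : ContDiffAt ℝ 2 u z) (hv : ContDiffAt ℝ 2 v z) (w : Cn n) :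
    lev (fun y => u y + v y) z w = lev u z w + lev v z w := by
  have h1 : fderiv ℝ (fun y => u y + v y) =ᶠ[𝓝 z] fun y => fderiv ℝ u y + fderiv ℝ v y := by
    filter_upwards [c2_evd hu, c2_evd hv] with y h1 h2
    exact fderiv_fun_add h1 h2
  have h2 : fderiv ℝ (fderiv ℝ (fun y => u y + v y)) z =
      fderiv ℝ (fderiv ℝ u) z + fderiv ℝ (fderiv ℝ v) z := by
    rw [h1.fderiv_eq, fderiv_fun_add (c2_fd hu) (c2_fd hv)]
  unfold lev
  rw [h2]
  simp only [_root_.add_apply]
  ring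

theorem lev_const_mul (c : ℝ) (hu : ContDiffAt ℝ 2 u z) (w : Cn n) :
    lev (fun y => c * u y) z w = c * lev u z w := by
  have h1 : fderiv ℝ (fun y => c * u y) =ᶠ[𝓝 z] fun y => c • fderiv ℝ u y := by
    filter_upwards [c2_evd hu] with y h1
    exact fderiv_const_mul h1 c
  have h2 : fderiv ℝ (fderiv ℝ (fun y => c * u y)) z = c • fderiv ℝ (fderiv ℝ u) z := by
    rw [h1.fderiv_eq, fderiv_fun_const_smul (c2_fd hu)]
  unfold lev
  rw [h2]
  simp only [_root_.smul_apply, smul_eq_mul]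
  ring

theorem lev_neg (hu : ContDiffAt ℝ 2 u z) (w : Cn n) :
    lev (fun y => - u y) z w = - lev u z w := by
  have := lev_const_mul (-1) hu w
  simpa using this

theorem lev_sub (hu : ContDiffAt ℝ 2 u z) (hv : ContDiffAt ℝ 2 v z) (w : Cn n) :
    lev (fun y => u y - v y) z w = lev u z w - lev v z w := by
  have := lev_add hu hv.neg w
  simp only [← sub_eq_add_neg] at this
  rw [this, lev_neg hv]; ring

theorem lev_const (c : ℝ) (w : Cn n) : lev (fun _ => c) z w = 0 := by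
  have h1 : fderiv ℝ (fun _ : Cn n => c) = fun _ => 0 := by
    funext y; exact fderiv_const_apply c
  unfold lev
  rw [h1]
  simp

theorem lev_sum {ι : Type*} (s : Finset ι) {f : ι → Cn n → ℝ}
    (hf : ∀ l ∈ s, ContDiffAt ℝ 2 (f l) z) (w : Cn n) :
    lev (fun y => ∑ l ∈ s, f l y) z w = ∑ l ∈ s, lev (f l) z w := by
  classical
  induction s using Finset.induction_on with
  | empty => simpa using lev_const (z := z) 0 w
  | insert l s hl ih =>
    simp only [Finset.sum_insert hl]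
    have h2 : ContDiffAt ℝ 2 (fun w => ∑ l ∈ s, f l w) z :=
      ContDiffAt.sum fun i hi => hf i (Finset.mem_insert_of_mem hi)
    rw [lev_add (hf l (by simp)) h2, ih fun i hi => hf i (Finset.mem_insert_of_mem hi)]

theorem lev_zero (u : Cn n → ℝ) (z : Cn n) : lev u z 0 = 0 := by simp [lev]

/-- homogeneity over `ℂ` -/
theorem lev_smul (hu : ContDiffAt ℝ 2 u z) (c : ℂ) (w : Cn n) :
    lev u z (c • w) = ‖c‖ ^ 2 * lev u z w := by
  have h : ((lev u z (c • w) : ℝ) : ℂ) = ((‖c‖ ^ 2 * lev u z w : ℝ) : ℂ) := by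
    rw [lev_eq hu]
    push_cast
    rw [lev_eq hu, ← Complex.mul_conj', Finset.mul_sum]
    refine Finset.sum_congr rfl fun a _ => ?_
    rw [Finset.mul_sum]
    refine Finset.sum_congr rfl fun b _ => ?_
    simp only [PiLp.smul_apply, smul_eq_mul, map_mul]
    ring
  exact_mod_cast h

end RR

theorem sum4_comm {α β γ δ : Type*} [Fintype α] [Fintype β] [Fintype γ] [Fintype δ]
    (F : α → β → γ → δ → ℂ) :
    ∑ a, ∑ b, ∑ c, ∑ d, F a b c d = ∑ c, ∑ d, ∑ a, ∑ b, F a b c d := by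
  calc ∑ a, ∑ b, ∑ c, ∑ d, F a b c d = ∑ a, ∑ c, ∑ b, ∑ d, F a b c d :=
        Finset.sum_congr rfl fun a _ => Finset.sum_comm
    _ = ∑ c, ∑ a, ∑ b, ∑ d, F a b c d := Finset.sum_comm
    _ = ∑ c, ∑ a, ∑ d, ∑ b, F a b c d :=
        Finset.sum_congr rfl fun c _ => Finset.sum_congr rfl fun a _ => Finset.sum_comm
    _ = ∑ c, ∑ d, ∑ a, ∑ b, F a b c d := Finset.sum_congr rfl fun c _ => Finset.sum_comm

theorem quad_change {m : ℕ} (H : Fin m → Fin m → ℂ) (T : Fin m → Fin n → ℂ) (v : Fin n → ℂ) :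
    ∑ a, ∑ b, (∑ c, ∑ d, H c d * T c a * conj (T d b)) * v a * conj (v b)
      = ∑ c, ∑ d, H c d * (∑ a, v a * T c a) * conj (∑ a, v a * T d a) := by
  have h1 : ∀ a b, (∑ c, ∑ d, H c d * T c a * conj (T d b)) * v a * conj (v b) =
      ∑ c, ∑ d, (H c d * (v a * T c a)) * conj (v b * T d b) := by
    intro a b
    rw [Finset.sum_mul, Finset.sum_mul]
    refine Finset.sum_congr rfl fun c _ => ?_
    rw [Finset.sum_mul, Finset.sum_mul]
    exact Finset.sum_congr rfl fun d _ => by rw [map_mul]; ring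
  simp only [h1]
  rw [sum4_comm (fun a b c d => (H c d * (v a * T c a)) * conj (v b * T d b))]
  refine Finset.sum_congr rfl fun c _ => Finset.sum_congr rfl fun d _ => ?_
  rw [map_sum, Finset.mul_sum, Finset.mul_sum, Finset.sum_comm]
  exact Finset.sum_congr rfl fun b _ => by rw [Finset.sum_mul]

/-- chain rule of the Levi form for a holomorphic map -/
theorem lev_comp {m : ℕ} {u : Cn m → ℝ} {T : Cn n → Cn m} {z : Cn n}
    (hT : AnalyticAt ℂ T z) (hu : ContDiffAt ℝ 2 u (T z)) (v : Cn n) :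
    lev (fun w => u (T w)) z v = lev u (T z) (fderiv ℂ T z v) := by
  have hTc : ContDiffAt ℝ 2 T z := (hT.contDiffAt.restrict_scalars ℝ)
  have hc : ContDiffAt ℝ 2 (fun w => u (T w)) z := hu.comp z hTc
  have hv : ∀ c, (fderiv ℂ T z v) c =
      ∑ a, v a * (fderiv ℂ T z (EuclideanSpace.single a 1)) c := by
    intro c
    have e : v = ∑ a, v a • (EuclideanSpace.single a (1 : ℂ) : Cn n) := by
      ext d
      simp [Finset.sum_apply, Pi.single_apply]
    conv_lhs => rw [e, map_sum]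
    simp [Finset.sum_apply]
  have h : ((lev (fun w => u (T w)) z v : ℝ) : ℂ) = ((lev u (T z) (fderiv ℂ T z v) : ℝ) : ℂ) := by
    rw [lev_eq hc, lev_eq hu]
    have e : cx (fun w => u (T w)) = fun w => (cx u) (T w) := rfl
    rw [e]
    simp only [hs_comp hT (cx_c2 hu), hv]
    exact quad_change (fun c d => hs (cx u) (T z) c d)
      (fun c a => (fderiv ℂ T z (EuclideanSpace.single a 1)) c) (fun a => v a)
  exact_mod_cast h

/-! ### compositions with functions of one real variable -/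

section Comp

variable {u : Cn n → ℝ} {z : Cn n}

/-- `∂u(v) = ∑ (∂u/∂z_a) v_a` -/
def gr (u : Cn n → ℝ) (z v : Cn n) : ℂ := ∑ a, dj a (cx u) z * v a

theorem gr_eq (h : DifferentiableAt ℝ u z) (v : Cn n) :
    gr u z v = (1 / 2 : ℂ) * (fderiv ℝ u z v - I * fderiv ℝ u z (I • v)) := by
  have h1 := expand (fderiv ℝ (cx u) z) v
  have h2 := expand (fderiv ℝ (cx u) z) (I • v)
  have hb : ∀ b, (I • v) b = I * v b := fun b => rfl
  simp only [smul_eq_mul, hb, map_mul, conj_I] at h1 h2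
  rw [← fderiv_cx h, ← fderiv_cx h, h1, h2, Finset.mul_sum, ← Finset.sum_sub_distrib,
    Finset.mul_sum]
  unfold gr dj
  refine Finset.sum_congr rfl fun a _ => ?_
  simp only [smul_eq_mul]
  linear_combination ((1 / 4 : ℂ) * v a * (fderiv ℝ (cx u) z (EuclideanSpace.single a 1)
    - I * fderiv ℝ (cx u) z (EuclideanSpace.single a I)) - (1 / 4 : ℂ) * conj (v a) *
    (fderiv ℝ (cx u) z (EuclideanSpace.single a 1) + I * fderiv ℝ (cx u) z
    (EuclideanSpace.single a I))) * Complex.I_mul_I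

theorem norm_gr_sq (h : DifferentiableAt ℝ u z) (v : Cn n) :
    ‖gr u z v‖ ^ 2 = ((fderiv ℝ u z v) ^ 2 + (fderiv ℝ u z (I • v)) ^ 2) / 4 := by
  rw [gr_eq h]
  set p := fderiv ℝ u z v
  set q := fderiv ℝ u z (I • v)
  have : (1 / 2 : ℂ) * (p - I * q) = ⟨p / 2, - q / 2⟩ := by
    apply Complex.ext <;> simp <;> ring
  rw [this, ← Complex.normSq_eq_norm_sq, Complex.normSq_mk]
  ring

theorem fd2_comp {χ χ' : ℝ → ℝ} {χ'' : ℝ} (hu : ContDiffAt ℝ 2 u z)
    (h1 : ∀ᶠ t in 𝓝 (u z), HasDerivAt χ (χ' t) t) (h2 : HasDerivAt χ' χ'' (u z)) (v w : Cn n) :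
    fderiv ℝ (fderiv ℝ (fun y => χ (u y))) z v w = χ'' * fderiv ℝ u z v * fderiv ℝ u z w +
      χ' (u z) * fderiv ℝ (fderiv ℝ u) z v w := by
  have e1 : fderiv ℝ (fun y => χ (u y)) =ᶠ[𝓝 z] fun y => χ' (u y) • fderiv ℝ u y := by
    filter_upwards [c2_evd hu, hu.continuousAt.eventually h1] with y hy hy2
    exact (hy2.comp_hasFDerivAt y hy.hasFDerivAt).fderiv
  have e2 : HasFDerivAt (fun y => χ' (u y) • fderiv ℝ u y) _ z :=
    (h2.comp_hasFDerivAt z (c2_diff hu).hasFDerivAt).smul (c2_fd hu).hasFDerivAt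
  rw [e1.fderiv_eq, e2.fderiv]
  simp only [_root_.add_apply, _root_.smul_apply, ContinuousLinearMap.smulRight_apply, smul_eq_mul,
    Function.comp_apply]
  ring

/-- Levi form of `χ ∘ u` -/
theorem lev_comp_real {χ χ' : ℝ → ℝ} {χ'' : ℝ} (hu : ContDiffAt ℝ 2 u z)
    (h1 : ∀ᶠ t in 𝓝 (u z), HasDerivAt χ (χ' t) t) (h2 : HasDerivAt χ' χ'' (u z)) (v : Cn n) :
    lev (fun y => χ (u y)) z v = χ'' * ‖gr u z v‖ ^ 2 + χ' (u z) * lev u z v := by
  unfold lev
  rw [fd2_comp hu h1 h2, fd2_comp hu h1 h2, norm_gr_sq (c2_diff hu)]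
  ring

theorem hs_comp_real {χ χ' : ℝ → ℝ} {χ'' : ℝ} (hu : ContDiffAt ℝ 2 u z)
    (h1 : ∀ᶠ t in 𝓝 (u z), HasDerivAt χ (χ' t) t) (h2 : HasDerivAt χ' χ'' (u z)) (a b : Fin n) :
    hs (cx fun y => χ (u y)) z a b = χ'' * dj a (cx u) z * dbj b (cx u) z
      + χ' (u z) * hs (cx u) z a b := by
  have hd : ∀ᶠ w in 𝓝 z, ∀ a : Fin n, dbj b (cx fun y => χ (u y)) w =
      ((χ' (u w) : ℝ) : ℂ) * dbj b (cx u) w := by
    filter_upwards [c2_evd hu, hu.continuousAt.eventually h1] with y hy hy2 _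
    have e : HasFDerivAt (fun y => χ (u y)) _ y := hy2.comp_hasFDerivAt y hy.hasFDerivAt
    unfold dbj
    rw [fderiv_cx e.differentiableAt, fderiv_cx e.differentiableAt, fderiv_cx hy, fderiv_cx hy,
      e.fderiv]
    simp only [_root_.smul_apply, smul_eq_mul]
    push_cast
    ring
  have hd' : dbj b (cx fun y => χ (u y)) =ᶠ[𝓝 z]
      fun w => (cx (fun y => χ' (u y))) w * dbj b (cx u) w := hd.mono fun w hw => hw a
  have e2 : HasFDerivAt (fun y => χ' (u y)) _ z :=
    h2.comp_hasFDerivAt z (c2_diff hu).hasFDerivAt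
  unfold hs
  rw [dj_congr hd', dj_mul (cx_diff e2.differentiableAt) (diff_dbj (cx_c2 hu) b)]
  have e3 : dj a (cx fun y => χ' (u y)) z = χ'' * dj a (cx u) z := by
    unfold dj
    rw [fderiv_cx e2.differentiableAt, fderiv_cx e2.differentiableAt, fderiv_cx (c2_diff hu),
      fderiv_cx (c2_diff hu), e2.fderiv]
    simp only [_root_.smul_apply, smul_eq_mul]
    push_cast
    ring
  rw [e3]
  rfl

/-- Levi form of the exponential -/
theorem lev_exp (hu : ContDiffAt ℝ 2 u z) (v : Cn n) :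
    lev (fun y => Real.exp (u y)) z v = Real.exp (u z) * (lev u z v + ‖gr u z v‖ ^ 2) := by
  rw [lev_comp_real (χ := Real.exp) (χ' := Real.exp) (χ'' := Real.exp (u z)) hu
    (Eventually.of_forall fun t => Real.hasDerivAt_exp t) (Real.hasDerivAt_exp _)]
  ring

/-- Levi form of the logarithm -/
theorem lev_log (hu : ContDiffAt ℝ 2 u z) (h0 : 0 < u z) (v : Cn n) :
    lev (fun y => Real.log (u y)) z v = lev u z v / u z - ‖gr u z v‖ ^ 2 / (u z) ^ 2 := by
  rw [lev_comp_real (χ := Real.log) (χ' := fun t => t⁻¹) (χ'' := -((u z) ^ 2)⁻¹) hu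
    ((lt_mem_nhds h0).mono fun t ht => Real.hasDerivAt_log ht.ne') (hasDerivAt_inv h0.ne')]
  field_simp
  ring

theorem hs_log (hu : ContDiffAt ℝ 2 u z) (h0 : 0 < u z) (a b : Fin n) :
    hs (cx fun y => Real.log (u y)) z a b = hs (cx u) z a b / u z
      - dj a (cx u) z * dbj b (cx u) z / (u z) ^ 2 := by
  rw [hs_comp_real (χ := Real.log) (χ' := fun t => t⁻¹) (χ'' := -((u z) ^ 2)⁻¹) hu
    ((lt_mem_nhds h0).mono fun t ht => Real.hasDerivAt_log ht.ne') (hasDerivAt_inv h0.ne')]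
  have : (u z : ℂ) ≠ 0 := by exact_mod_cast h0.ne'
  push_cast
  field_simp
  ring

end Comp

/-! ### sums of squares of holomorphic functions -/

section Hol

variable {z : Cn n} {f g : Cn n → ℂ}

theorem anal_of_ev (hf : ∀ᶠ w in 𝓝 z, DifferentiableAt ℂ f w) : AnalyticAt ℂ f z := by
  obtain ⟨U, hU, hUo, hzU⟩ := eventually_nhds_iff.1 hf
  exact Crest.Agent.R266.SCV.analyticOnNhd_of_differentiableOn hUo
    (fun w hw => (hU w hw).differentiableWithinAt) z hzU

theorem ev_of_anal (hf : AnalyticAt ℂ f z) : ∀ᶠ w in 𝓝 z, DifferentiableAt ℂ f w :=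
  hf.eventually_analyticAt.mono fun _ hw => hw.differentiableAt

theorem c2_of_anal {W : Type*} [NormedAddCommGroup W] [NormedSpace ℂ W] [CompleteSpace W]
    {f : Cn n → W} (hf : AnalyticAt ℂ f z) (k : ℕ∞ω) :
    ContDiffAt ℝ k f z := (hf.contDiffAt (n := k)).restrict_scalars ℝ

theorem cx_normSq (f : Cn n → ℂ) : (cx fun w => ‖f w‖ ^ 2) = fun w => f w * conj (f w) := by
  funext w
  simp only [cx]
  rw [Complex.mul_conj']
  push_cast
  rfl

theorem c2_normSq (hf : AnalyticAt ℂ f z) (k : ℕ∞ω) :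
    ContDiffAt ℝ k (fun w => ‖f w‖ ^ 2) z := by
  have h1 : ContDiffAt ℝ k f z := c2_of_anal hf k
  have e : (fun w => ‖f w‖ ^ 2) = fun w => (f w).re * (f w).re + (f w).im * (f w).im := by
    funext w
    rw [← Complex.normSq_eq_norm_sq, Complex.normSq_apply]
  rw [e]
  have hre : ContDiffAt ℝ k (fun w => (f w).re) z := Complex.reCLM.contDiff.contDiffAt.comp z h1
  have him : ContDiffAt ℝ k (fun w => (f w).im) z := Complex.imCLM.contDiff.contDiffAt.comp z h1
  exact (hre.mul hre).add (him.mul him)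

theorem vec_exp (v : Cn n) : v = ∑ a, v a • (EuclideanSpace.single a (1 : ℂ) : Cn n) := by
  ext d
  simp [Finset.sum_apply, Pi.single_apply]

theorem fderiv_exp {W : Type*} [NormedAddCommGroup W] [NormedSpace ℂ W] (L : Cn n →L[ℂ] W)
    (v : Cn n) : L v = ∑ a, v a • L (EuclideanSpace.single a (1 : ℂ)) := by
  conv_lhs => rw [vec_exp v, map_sum]
  simp

/-- `∂` of `|f|²` -/
theorem dj_normSq (hf : DifferentiableAt ℂ f z) (a : Fin n) :
    dj a (fun w => f w * conj (f w)) z = conj (f z) *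
      fderiv ℂ f z (EuclideanSpace.single a 1) := by
  have hr : DifferentiableAt ℝ f z := hf.restrictScalars ℝ
  have hc : DifferentiableAt ℝ (fun y => conj (f y)) z :=
    (Complex.conjCLE : ℂ →L[ℝ] ℂ).differentiableAt.comp z hr
  rw [dj_mul (g := fun y => conj (f y)) hr hc, dj_conj hr, dbj_holo hf, dj_holo hf]
  simp [mul_comm]

theorem dbj_normSq (hf : DifferentiableAt ℂ f z) (a : Fin n) :
    dbj a (fun w => f w * conj (f w)) z = f z *
      conj (fderiv ℂ f z (EuclideanSpace.single a 1)) := by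
  have hr : DifferentiableAt ℝ f z := hf.restrictScalars ℝ
  have hc : DifferentiableAt ℝ (fun y => conj (f y)) z :=
    (Complex.conjCLE : ℂ →L[ℝ] ℂ).differentiableAt.comp z hr
  have e := dbj_mul' (a := a) (g := fun y => conj (f y)) hr hc
  rw [e, dbj_conj hr, dbj_holo hf, dj_holo hf]
  simp

/-- `S = ∑ |f_j|²` -/
def sumSq {ι : Type*} [Fintype ι] (f : ι → Cn n → ℂ) (w : Cn n) : ℝ := ∑ j, ‖f j w‖ ^ 2

variable {ι : Type*} [Fintype ι] {F : ι → Cn n → ℂ}

theorem sumSq_nonneg (F : ι → Cn n → ℂ) (w : Cn n) : 0 ≤ sumSq F w :=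
  Finset.sum_nonneg fun _ _ => by positivity

theorem sumSq_pos {w : Cn n} (h : ∃ j, F j w ≠ 0) : 0 < sumSq F w := by
  obtain ⟨j, hj⟩ := h
  exact Finset.sum_pos' (fun _ _ => by positivity) ⟨j, Finset.mem_univ j, by positivity⟩

theorem c2_sumSq (hF : ∀ j, AnalyticAt ℂ (F j) z) (k : ℕ∞ω) :
    ContDiffAt ℝ k (sumSq F) z :=
  ContDiffAt.sum fun j _ => c2_normSq (hF j) k

theorem hs_normSq (hf : AnalyticAt ℂ f z) (a b : Fin n) :
    hs (cx fun w => ‖f w‖ ^ 2) z a b = fderiv ℂ f z (EuclideanSpace.single a 1) *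
      conj (fderiv ℂ f z (EuclideanSpace.single b 1)) := by
  rw [cx_normSq, hs_mul_conj (ev_of_anal hf) (ev_of_anal hf)]

theorem lev_normSq (hf : AnalyticAt ℂ f z) (v : Cn n) :
    lev (fun w => ‖f w‖ ^ 2) z v = ‖fderiv ℂ f z v‖ ^ 2 := by
  have h : ((lev (fun w => ‖f w‖ ^ 2) z v : ℝ) : ℂ) = ((‖fderiv ℂ f z v‖ ^ 2 : ℝ) : ℂ) := by
    rw [lev_eq (c2_normSq hf 2)]
    simp only [hs_normSq hf]
    push_cast
    rw [← Complex.mul_conj', fderiv_exp (fderiv ℂ f z) v, map_sum, Finset.sum_mul_sum]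
    refine Finset.sum_congr rfl fun a _ => Finset.sum_congr rfl fun b _ => ?_
    simp only [smul_eq_mul, map_mul]
    ring
  exact_mod_cast h

theorem lev_sumSq (hF : ∀ j, AnalyticAt ℂ (F j) z) (v : Cn n) :
    lev (sumSq F) z v = ∑ j, ‖fderiv ℂ (F j) z v‖ ^ 2 := by
  have h : lev (sumSq F) z v = ∑ j, lev (fun w => ‖F j w‖ ^ 2) z v :=
    lev_sum Finset.univ (fun j _ => c2_normSq (hF j) 2) v
  rw [h]
  exact Finset.sum_congr rfl fun j _ => lev_normSq (hF j) v

theorem gr_sumSq (hF : ∀ j, AnalyticAt ℂ (F j) z) (v : Cn n) :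
    gr (sumSq F) z v = ∑ j, conj (F j z) * fderiv ℂ (F j) z v := by
  have h1 : ∀ a, dj a (cx (sumSq F)) z = ∑ j, conj (F j z) *
      fderiv ℂ (F j) z (EuclideanSpace.single a 1) := by
    intro a
    have e : cx (sumSq F) = fun w => ∑ j, F j w * conj (F j w) := by
      funext w
      simp only [cx, sumSq]
      push_cast
      exact Finset.sum_congr rfl fun j _ => by rw [Complex.mul_conj']
    rw [e, dj_sum (f := fun j w => F j w * conj (F j w))]
    · exact Finset.sum_congr rfl fun j _ => dj_normSq (hF j).differentiableAt a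
    · intro j _
      have hr : DifferentiableAt ℝ (F j) z := (hF j).differentiableAt.restrictScalars ℝ
      exact hr.mul ((Complex.conjCLE : ℂ →L[ℝ] ℂ).differentiableAt.comp z hr)
  unfold gr
  simp only [h1]
  simp only [Finset.sum_mul]
  rw [Finset.sum_comm]
  refine Finset.sum_congr rfl fun j _ => ?_
  rw [fderiv_exp (fderiv ℂ (F j) z) v, Finset.mul_sum]
  exact Finset.sum_congr rfl fun a _ => by rw [smul_eq_mul]; ring

/-- Lagrange's identity -/
theorem lagrange (x y : ι → ℂ) :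
    2 * ((∑ j, ‖x j‖ ^ 2) * (∑ j, ‖y j‖ ^ 2) - ‖∑ j, conj (x j) * y j‖ ^ 2)
      = ∑ i, ∑ j, ‖x i * y j - x j * y i‖ ^ 2 := by
  have h : ((2 * ((∑ j, ‖x j‖ ^ 2) * (∑ j, ‖y j‖ ^ 2) - ‖∑ j, conj (x j) * y j‖ ^ 2) : ℝ) : ℂ)
      = ((∑ i, ∑ j, ‖x i * y j - x j * y i‖ ^ 2 : ℝ) : ℂ) := by
    push_cast
    simp only [← Complex.mul_conj']
    have e1 : ∀ i j, (x i * y j - x j * y i) * conj (x i * y j - x j * y i) =
        (x i * conj (x i)) * (y j * conj (y j)) + (y i * conj (y i)) * (x j * conj (x j))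
        - (conj (x i) * y i) * (conj (conj (x j) * y j))
        - (conj (conj (x i) * y i)) * ((conj (x j) * y j)) := by
      intro i j
      simp only [map_sub, map_mul, Complex.conj_conj]
      ring
    simp only [e1, Finset.sum_sub_distrib, Finset.sum_add_distrib, ← Finset.mul_sum,
      ← Finset.sum_mul, ← map_sum]
    ring
  exact_mod_cast h

/-- **Levi form of `log ∑ |f_j|²`** -/
theorem lev_log_sumSq (hF : ∀ j, AnalyticAt ℂ (F j) z) (h0 : ∃ j, F j z ≠ 0) (v : Cn n) :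
    lev (fun w => Real.log (sumSq F w)) z v =
      (∑ i, ∑ j, ‖F i z * fderiv ℂ (F j) z v - F j z * fderiv ℂ (F i) z v‖ ^ 2)
        / (2 * (sumSq F z) ^ 2) := by
  have hp := sumSq_pos h0
  rw [lev_log (c2_sumSq hF 2) hp, lev_sumSq hF, gr_sumSq hF, ← lagrange]
  have e : ∑ j, ‖F j z‖ ^ 2 = sumSq F z := rfl
  rw [e]
  field_simp

theorem lev_log_sumSq_nonneg (hF : ∀ j, AnalyticAt ℂ (F j) z) (h0 : ∃ j, F j z ≠ 0) (v : Cn n) :
    0 ≤ lev (fun w => Real.log (sumSq F w)) z v := by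
  rw [lev_log_sumSq hF h0]
  positivity

/-- strict positivity: the Levi form vanishes only if the derivative is proportional to `F` -/
theorem lev_log_sumSq_eq_zero (hF : ∀ j, AnalyticAt ℂ (F j) z) (h0 : ∃ j, F j z ≠ 0) {v : Cn n}
    (h : lev (fun w => Real.log (sumSq F w)) z v = 0) :
    ∃ c : ℂ, ∀ j, fderiv ℂ (F j) z v = c * F j z := by
  have hp := sumSq_pos h0
  rw [lev_log_sumSq hF h0, div_eq_zero_iff] at h
  have h1 : ∑ i, ∑ j, ‖F i z * fderiv ℂ (F j) z v - F j z * fderiv ℂ (F i) z v‖ ^ 2 = 0 := by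
    rcases h with h | h
    · exact h
    · exact absurd h (by positivity)
  have h2 : ∀ i j, F i z * fderiv ℂ (F j) z v - F j z * fderiv ℂ (F i) z v = 0 := by
    intro i j
    have h3 := (Finset.sum_eq_zero_iff_of_nonneg
      (fun i _ => Finset.sum_nonneg fun j _ => by positivity)).1 h1 i (Finset.mem_univ i)
    have h4 := (Finset.sum_eq_zero_iff_of_nonneg (fun j _ => by positivity)).1 h3 j
      (Finset.mem_univ j)
    simpa using h4
  obtain ⟨i, hi⟩ := h0
  refine ⟨fderiv ℂ (F i) z v / F i z, fun j => ?_⟩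
  have := h2 i j
  field_simp
  linear_combination this

/-- `log |f|²` is pluriharmonic -/
theorem lev_log_normSq (hf : AnalyticAt ℂ f z) (h0 : f z ≠ 0) (v : Cn n) :
    lev (fun w => Real.log (‖f w‖ ^ 2)) z v = 0 := by
  have hp : 0 < ‖f z‖ ^ 2 := by positivity
  have h1 := lev_log_sumSq (F := fun _ : Unit => f) (fun _ => hf) ⟨(), h0⟩ v
  simpa [sumSq] using h1

theorem c2_log_normSq (hf : AnalyticAt ℂ f z) (h0 : f z ≠ 0) (k : ℕ∞ω) :
    ContDiffAt ℝ k (fun w => Real.log (‖f w‖ ^ 2)) z :=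
  (c2_normSq hf k).log (by positivity)

theorem hs_log_normSq (hf : AnalyticAt ℂ f z) (h0 : f z ≠ 0) (a b : Fin n) :
    hs (cx fun w => Real.log (‖f w‖ ^ 2)) z a b = 0 := by
  have hp : 0 < ‖f z‖ ^ 2 := by positivity
  rw [hs_log (c2_normSq hf 2) hp, hs_normSq hf, cx_normSq, dj_normSq hf.differentiableAt,
    dbj_normSq hf.differentiableAt]
  have e : ((‖f z‖ ^ 2 : ℝ) : ℂ) = f z * conj (f z) := by
    rw [Complex.mul_conj']; push_cast; rfl
  rw [e]
  have h2 : conj (f z) ≠ 0 := by simpa using h0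
  field_simp
  ring

end Hol

/-! ### closedness -/

/-- `∂_c (u_{a b̄}) = ∂_a (u_{c b̄})` -/
theorem dj_hs {f : Cn n → ℂ} {z : Cn n} (hf : ContDiffAt ℝ 3 f z) (c a b : Fin n) :
    dj c (fun w => hs f w a b) z = dj a (fun w => hs f w c b) z := by
  have h : ContDiffAt ℝ 2 (dbj b f) z := by
    have h1 : ContDiffAt ℝ 2 (fderiv ℝ f) z := hf.fderiv_right (m := 2) (by norm_num)
    have h2 : ∀ v : Cn n, ContDiffAt ℝ 2 (fun w => fderiv ℝ f w v) z := fun v =>
      h1.clm_apply contDiffAt_const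
    exact ((h2 _).add ((h2 _).const_smul I)).const_smul (1 / 2 : ℂ)
  exact dj_dj_comm h c a

end

end Crest.Agent.R273.Levi_145
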