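import Crest.Agent.R273.Defs_333
import Crest.Agent.R273.Levi_145

/-!
# R273 (S0416), Part C, YAU (helper635): frozen statements

* `cH u z`      : complex Hessian `∂²u/∂z_a∂z̄_b` of a real function on `Cn n`
                  (`cH_eq_hs`: the same as `Levi_145.hs (Levi_145.cx u) z a b` at `C²` points)
* `pot H φ i`   : local potential of the metric `H` plus the global function `φ`, in the chart `i`
* `YauStmt`     : Yau's theorem (Monge-Ampere equation with smooth right hand side)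
* `C0Stmt`, `C2Stmt`, `C3Stmt` : the a priori estimates consumed by the continuity method
* `RegStmt`     : local regularity of `C^{2,a}` solutions
* `OpenStmt`, `CloseStmt` : the two halves of the continuity method
-/

set_option autoImplicit false
set_option linter.unusedSectionVars false

open Set Filter Topology Complex
open scoped ContDiff Matrix ComplexConjugate

namespace Crest.Agent.R273.YauDefs_635

open Crest.Agent.R275.Geo Crest.Agent.R275.Core144 Crest.Agent.R275.GC293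
open Crest.Agent.R273.Defs_333

noncomputable section

variable {n : ℕ}

/-- second derivative of `u` at `z` in the directions `v`, `w` -/
def D2 (u : Cn n → ℝ) (z v w : Cn n) : ℝ := fderiv ℝ (fderiv ℝ u) z v w

/-- complex Hessian `∂²u/∂z_a∂z̄_b` -/
def cH (u : Cn n → ℝ) (z : Cn n) : Matrix (Fin n) (Fin n) ℂ := Matrix.of fun a b =>
  (1 / 4 : ℂ) *
    (((D2 u z (EuclideanSpace.single a 1) (EuclideanSpace.single b 1)
        + D2 u z (EuclideanSpace.single a I) (EuclideanSpace.single b I) : ℝ) : ℂ)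
      + I * ((D2 u z (EuclideanSpace.single a 1) (EuclideanSpace.single b I)
        - D2 u z (EuclideanSpace.single a I) (EuclideanSpace.single b 1) : ℝ) : ℂ))

variable {M : Type} [TopologicalSpace M] {A : Atl n M}

/-- `φ` read in the chart `i` -/
def inC (A : Atl n M) (i : A.ι) (φ : M → ℝ) : Cn n → ℝ := fun z => φ ((A.e i).symm z)

/-- local potential of `H` plus `φ`, read in the chart `i` -/
def pot {L : LB A} (H : HM L) (φ : M → ℝ) (i : A.ι) : Cn n → ℝ :=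
  fun z => H.wt i z + inC A i φ z

/-- `ω_H + i∂∂̄ φ > 0` -/
def KPos {L : LB A} (H : HM L) (φ : M → ℝ) : Prop :=
  ∀ i, ∀ z ∈ (A.e i).target, ∀ v : Cn n, v ≠ 0 → 0 < lev (pot H φ i) z v

/-- `(ω_H + i∂∂̄ φ)^n = e^f ω_H^n` -/
def MA {L : LB A} (H : HM L) (φ f : M → ℝ) : Prop :=
  ∀ i, ∀ z ∈ (A.e i).target,
    (cH (pot H φ i) z).det = (Real.exp (inC A i f z) : ℂ) * (cH (H.wt i) z).det

/-- smooth solution of `(ω_H + i∂∂̄ φ)^n = e^(t F + c) ω_H^n` -/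
def Sol {L : LB A} (H : HM L) (F : M → ℝ) (t : ℝ) (φ : M → ℝ) (c : ℝ) : Prop :=
  A.Sm φ ∧ KPos H φ ∧ MA H φ (fun x => t * F x + c)

/-- Yau's theorem -/
def YauStmt : Prop :=
  ∀ (n : ℕ) (M : Type) [TopologicalSpace M] [T2Space M] [CompactSpace M] [ConnectedSpace M]
    (A : Atl n M) [Finite A.ι], GoodA A → Nonempty (Part A) →
    ∀ (L : LB A) (H : HM L), H.Pos → ∀ F : M → ℝ, A.Sm F →
      ∃ (φ : M → ℝ) (c : ℝ), A.Sm φ ∧ KPos H φ ∧ MA H φ (fun x => F x + c)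

/-- C0 estimate -/
def C0Stmt : Prop :=
  ∀ (n : ℕ) (M : Type) [TopologicalSpace M] [T2Space M] [CompactSpace M] [ConnectedSpace M]
    (A : Atl n M) [Finite A.ι], GoodA A → Nonempty (Part A) →
    ∀ (L : LB A) (H : HM L), H.Pos → ∀ K : ℝ, ∃ C : ℝ,
      ∀ φ f : M → ℝ, A.Sm φ → A.Sm f → KPos H φ → MA H φ f → (∀ x, |f x| ≤ K) →
        ∀ x y, φ x - φ y ≤ C

/-- C2 estimate -/
def C2Stmt : Prop :=
  ∀ (n : ℕ) (M : Type) [TopologicalSpace M] [T2Space M] [CompactSpace M] [ConnectedSpace M]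
    (A : Atl n M) [Finite A.ι], GoodA A → Nonempty (Part A) →
    ∀ (L : LB A) (H : HM L), H.Pos → ∀ K : ℝ, ∃ C : ℝ, 0 < C ∧
      ∀ φ f : M → ℝ, A.Sm φ → A.Sm f → KPos H φ → MA H φ f → (∀ x, |f x| ≤ K) →
        (∀ i, ∀ z ∈ (A.e i).target, ∀ v, |lev (inC A i f) z v| ≤ K * lev (H.wt i) z v) →
        (∀ x y, φ x - φ y ≤ K) →
        ∀ i, ∀ z ∈ (A.e i).target, ∀ v,
          lev (pot H φ i) z v ≤ C * lev (H.wt i) z v ∧ lev (H.wt i) z v ≤ C * lev (pot H φ i) z v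

/-- C3 estimate, local form (Calabi), flat background; `u` = local potential of the new metric -/
def C3Stmt : Prop :=
  ∀ (n : ℕ) (r lo hi K : ℝ), 0 < r → 0 < lo → ∃ C : ℝ,
    ∀ (z₀ : Cn n) (u f : Cn n → ℝ), ContDiffOn ℝ ∞ u (Metric.ball z₀ r) →
      ContDiffOn ℝ ∞ f (Metric.ball z₀ r) →
      (∀ z ∈ Metric.ball z₀ r, ∀ v, lo * ‖v‖ ^ 2 ≤ lev u z v ∧ lev u z v ≤ hi * ‖v‖ ^ 2) →
      (∀ z ∈ Metric.ball z₀ r, (cH u z).det = (Real.exp (f z) : ℂ)) →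
      (∀ z ∈ Metric.ball z₀ r, ∀ k : ℕ, 1 ≤ k → k ≤ 3 → ‖iteratedFDeriv ℝ k f z‖ ≤ K) →
      ∀ z ∈ Metric.ball z₀ (r / 2), ∀ a b, ‖fderiv ℝ (fun w => cH u w a b) z‖ ≤ C

/-- local regularity: a `C^{2,a}` solution of `det ∂∂̄u = e^f` with `f` smooth is smooth -/
def RegStmt : Prop :=
  ∀ (n : ℕ) (U : Set (Cn n)) (u f : Cn n → ℝ) (a : ℝ), IsOpen U → 0 < a → a < 1 →
    ContDiffOn ℝ 2 u U → ContDiffOn ℝ ∞ f U →
    (∀ z₀ ∈ U, ∃ r > 0, ∃ C, Metric.ball z₀ r ⊆ U ∧ ∀ z ∈ Metric.ball z₀ r,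
      ∀ w ∈ Metric.ball z₀ r,
        ‖fderiv ℝ (fderiv ℝ u) z - fderiv ℝ (fderiv ℝ u) w‖ ≤ C * ‖z - w‖ ^ a) →
    (∀ z ∈ U, ∀ v : Cn n, v ≠ 0 → 0 < lev u z v) →
    (∀ z ∈ U, (cH u z).det = (Real.exp (f z) : ℂ)) →
    ContDiffOn ℝ ∞ u U

/-- openness of the continuity path -/
def OpenStmt : Prop :=
  ∀ (n : ℕ) (M : Type) [TopologicalSpace M] [T2Space M] [CompactSpace M] [ConnectedSpace M]
    (A : Atl n M) [Finite A.ι], GoodA A → Nonempty (Part A) →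
    ∀ (L : LB A) (H : HM L), H.Pos → ∀ F : M → ℝ, A.Sm F →
      ∀ (t₀ : ℝ) (φ₀ : M → ℝ) (c₀ : ℝ), Sol H F t₀ φ₀ c₀ →
        ∃ δ > 0, ∀ t, |t - t₀| < δ → ∃ φ c, Sol H F t φ c

/-- closedness of the continuity path -/
def CloseStmt : Prop :=
  ∀ (n : ℕ) (M : Type) [TopologicalSpace M] [T2Space M] [CompactSpace M] [ConnectedSpace M]
    (A : Atl n M) [Finite A.ι], GoodA A → Nonempty (Part A) →
    ∀ (L : LB A) (H : HM L), H.Pos → ∀ F : M → ℝ, A.Sm F →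
      ∀ (t : ℕ → ℝ) (T : ℝ), (∀ k, 0 ≤ t k ∧ t k ≤ 1) → Tendsto t atTop (𝓝 T) →
        (∀ k, ∃ φ c, Sol H F (t k) φ c) → ∃ φ c, Sol H F T φ c

/-! ### bridges -/

theorem lev333_eq (u : Cn n → ℝ) (z v : Cn n) :
    lev u z v = D2 u z v v + D2 u z (I • v) (I • v) := by
  simp only [lev, D2, iteratedFDeriv_two_apply]
  rfl

theorem lev333_eq_lev145 (u : Cn n → ℝ) (z v : Cn n) :
    lev u z v = 4 * Levi_145.lev u z v := by
  rw [lev333_eq]
  simp only [Levi_145.lev, D2]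
  ring

theorem cH_eq_hs {u : Cn n → ℝ} {z : Cn n} (h : ContDiffAt ℝ 2 u z) (a b : Fin n) :
    cH u z a b = Levi_145.hs (Levi_145.cx u) z a b := by
  rw [Levi_145.hs_eq_qc (Levi_145.cx_c2 h)]
  simp only [Levi_145.qc, Levi_145.fd2_cx h, cH, Matrix.of_apply, D2]
  push_cast
  ring

end

end Crest.Agent.R273.YauDefs_635
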