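import Crest.Agent.R273.SchD_152
import Crest.Agent.R273.YauDefs_635

/-!
Row 273 (S0416), leaf L1 (helper152): LOCAL interior Schauder estimate, part E:
the complex form, for `tr(G ∂∂̄u)` on balls of `Cn n`.
-/

set_option autoImplicit false

open Set Metric Filter
open scoped ContDiff Topology Matrix ComplexConjugate

namespace Crest.Agent.R273.SchE_152

open Crest.Agent.R275.Geo (Cn)
open Crest.Agent.R238.Sch Crest.Agent.R273.SchA_152 Crest.Agent.R273.SchB_152
  Crest.Agent.R273.SchC_152 Crest.Agent.R273.SchD_152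
open Crest.Agent.R273.YauDefs_635 (cH)
open Crest.Agent.R238 (Ell Hs)
open Complex (I)

noncomputable section

variable {n : ℕ}

/-- real index of the real (`s = 0`) or imaginary (`s = 1`) part of the coordinate `b` -/
def q (b : Fin n) (s : Fin 2) : Fin (n * 2) := finProdFinEquiv (b, s)

/-- `1, i` -/
def cs (s : Fin 2) : ℂ := if s = 0 then 1 else I

theorem sum_q {F : Type*} [AddCommMonoid F] (f : Fin (n * 2) → F) :
    ∑ p, f p = ∑ b : Fin n, (f (q b 0) + f (q b 1)) := by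
  rw [← finProdFinEquiv.sum_comp, Fintype.sum_prod_type]
  refine Finset.sum_congr rfl fun b _ => ?_
  rw [Fin.sum_univ_two]
  rfl

theorem q_inj {b c : Fin n} {s t : Fin 2} (h : q b s = q c t) : b = c ∧ s = t := by
  have := finProdFinEquiv.injective h
  exact Prod.mk.inj this

/-- the real coordinates of `Cn n`, as a linear isometry -/
def Tl (n : ℕ) : EuclideanSpace ℝ (Fin (n * 2)) ≃ₗᵢ[ℝ] Cn n where
  toFun ξ := WithLp.toLp 2 fun b => (ξ (q b 0) : ℂ) + (ξ (q b 1) : ℂ) * I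
  invFun z := WithLp.toLp 2 fun p =>
    if (finProdFinEquiv.symm p).2 = 0 then (z (finProdFinEquiv.symm p).1).re
      else (z (finProdFinEquiv.symm p).1).im
  left_inv ξ := by
    ext p
    obtain ⟨⟨b, s⟩, rfl⟩ := finProdFinEquiv.surjective p
    simp only [Equiv.symm_apply_apply]
    fin_cases s
    · simp [q]
    · simp [q]
  right_inv z := by
    ext b
    simp [q, Complex.re_add_im]
  map_add' ξ η := by
    ext b
    simp
    ring
  map_smul' c ξ := by
    ext b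
    simp
    ring
  norm_map' ξ := by
    show ‖(WithLp.toLp 2 fun b => (ξ (q b 0) : ℂ) + (ξ (q b 1) : ℂ) * I : Cn n)‖ = ‖ξ‖
    rw [EuclideanSpace.norm_eq, EuclideanSpace.norm_eq, sum_q]
    congr 1
    refine Finset.sum_congr rfl fun b _ => ?_
    simp only [Real.norm_eq_abs, sq_abs]
    rw [Complex.sq_norm, Complex.normSq_add_mul_I]

theorem Tl_apply (ξ : EuclideanSpace ℝ (Fin (n * 2))) (b : Fin n) :
    Tl n ξ b = (ξ (q b 0) : ℂ) + (ξ (q b 1) : ℂ) * I := rfl

theorem Tl_ee (b : Fin n) (s : Fin 2) : Tl n (ee (q b s)) = EuclideanSpace.single b (cs s) := by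
  ext c
  rw [Tl_apply]
  by_cases h : c = b
  · subst h
    fin_cases s
    · have h1 : q c 1 ≠ q c 0 := fun h => absurd (q_inj h).2 (by decide)
      simp [ee, cs, h1]
    · have h1 : q c 0 ≠ q c 1 := fun h => absurd (q_inj h).2 (by decide)
      simp [ee, cs, h1]
  · have h0 : q c 0 ≠ q b s := fun h' => h (q_inj h').1
    have h1 : q c 1 ≠ q b s := fun h' => h (q_inj h').1
    simp [ee, h0, h1, h]

/-- Hermitian matrix with `lo ≤ G ≤ hi` -/
def EllC (lo hi : ℝ) (G : Matrix (Fin n) (Fin n) ℂ) : Prop :=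
  G.IsHermitian ∧ ∀ ζ : Fin n → ℂ, lo * ∑ a, ‖ζ a‖ ^ 2 ≤ (star ζ ⬝ᵥ (G *ᵥ ζ)).re ∧
    (star ζ ⬝ᵥ (G *ᵥ ζ)).re ≤ hi * ∑ a, ‖ζ a‖ ^ 2

/-- the real symmetric matrix of `G` -/
def tau (G : Matrix (Fin n) (Fin n) ℂ) : Matrix (Fin (n * 2)) (Fin (n * 2)) ℝ :=
  Matrix.of fun p p' => 1 / 4 * (G (finProdFinEquiv.symm p').1 (finProdFinEquiv.symm p).1 *
    conj (cs (finProdFinEquiv.symm p).2) * cs (finProdFinEquiv.symm p').2).re

theorem tau_q (G : Matrix (Fin n) (Fin n) ℂ) (b a : Fin n) (s t : Fin 2) :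
    tau G (q b s) (q a t) = 1 / 4 * (G a b * conj (cs s) * cs t).re := by
  simp only [tau, Matrix.of_apply, q, Equiv.symm_apply_apply]

theorem tau_symm {G : Matrix (Fin n) (Fin n) ℂ} (hG : G.IsHermitian) (p p' : Fin (n * 2)) :
    tau G p p' = tau G p' p := by
  simp only [tau, Matrix.of_apply]
  congr 1
  have h := hG.apply (finProdFinEquiv.symm p').1 (finProdFinEquiv.symm p).1
  rw [← h, ← Complex.conj_re]
  congr 1
  simp only [map_mul, Complex.conj_conj]
  have : conj (star (G (finProdFinEquiv.symm p).1 (finProdFinEquiv.symm p').1))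
      = G (finProdFinEquiv.symm p).1 (finProdFinEquiv.symm p').1 := by
    simp
  rw [this]
  ring

/-- contraction of `tau G` with a real bilinear form -/
theorem tau_sum (G : Matrix (Fin n) (Fin n) ℂ) (B : Fin (n * 2) → Fin (n * 2) → ℝ) :
    ∑ p, ∑ p', tau G p p' * B p p' =
      (∑ a, ∑ b, G a b * ((1 / 4 : ℂ) * (((B (q b 0) (q a 0) + B (q b 1) (q a 1) : ℝ) : ℂ)
        + I * ((B (q b 0) (q a 1) - B (q b 1) (q a 0) : ℝ) : ℂ)))).re := by
  rw [Finset.sum_comm (f := fun a b => G a b * _)]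
  rw [sum_q, Complex.re_sum]
  refine Finset.sum_congr rfl fun b _ => ?_
  rw [sum_q, sum_q, ← Finset.sum_add_distrib, Complex.re_sum]
  refine Finset.sum_congr rfl fun a _ => ?_
  simp only [tau_q, cs]
  norm_num
  ring

theorem tau_quad (G : Matrix (Fin n) (Fin n) ℂ) (ξ : Fin (n * 2) → ℝ) :
    ∑ p, ∑ p', tau G p p' * ξ p * ξ p' =
      1 / 4 * (star (fun b : Fin n => conj ((ξ (q b 0) : ℂ) + (ξ (q b 1) : ℂ) * I)) ⬝ᵥ
        (G *ᵥ (fun b : Fin n => conj ((ξ (q b 0) : ℂ) + (ξ (q b 1) : ℂ) * I)))).re := by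
  have h := tau_sum G (fun p p' => ξ p * ξ p')
  simp only [← mul_assoc] at h ⊢
  rw [h]
  simp only [Matrix.mulVec, dotProduct, Finset.mul_sum, Complex.re_sum]
  refine Finset.sum_congr rfl fun a _ => Finset.sum_congr rfl fun b _ => ?_
  simp
  ring

theorem ell_tau {lo hi : ℝ} {G : Matrix (Fin n) (Fin n) ℂ} (hG : EllC lo hi G) :
    Ell (lo / 4) (hi / 4) (tau G) := by
  refine ⟨tau_symm hG.1, fun ξ => ?_⟩
  rw [tau_quad]
  have h := hG.2 (fun b : Fin n => conj ((ξ (q b 0) : ℂ) + (ξ (q b 1) : ℂ) * I))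
  have e : ∑ a : Fin n, ‖conj ((ξ (q a 0) : ℂ) + (ξ (q a 1) : ℂ) * I)‖ ^ 2 = ∑ p, ξ p ^ 2 := by
    rw [sum_q]
    refine Finset.sum_congr rfl fun b _ => ?_
    rw [Complex.norm_conj, Complex.sq_norm, Complex.normSq_add_mul_I]
  rw [e] at h
  constructor <;> linarith [h.1, h.2]

/-- the real operator of `tau G` on `u ∘ T` is `tr (G ∂∂̄u)` -/
theorem P2_tau {G : Cn n → Matrix (Fin n) (Fin n) ℂ} {u : Cn n → ℝ}
    {x : EuclideanSpace ℝ (Fin (n * 2))}
    (hu : DifferentiableAt ℝ (fderiv ℝ u) (Tl n x)) :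
    P2 (fun x => tau (G (Tl n x))) (fun x => u (Tl n x)) x
      = ((G (Tl n x) * cH u (Tl n x)).trace).re := by
  have hD : ∀ p p', D2 (fun x => u (Tl n x)) x (ee p) (ee p')
      = fderiv ℝ (fderiv ℝ u) (Tl n x) (Tl n (ee p)) (Tl n (ee p')) := fun p p' => by
    show fderiv ℝ (fderiv ℝ (fun x => u (Tl n x))) x (ee p) (ee p') = _
    rw [fderiv2_comp_iso (Tl n) hu]
    rfl
  unfold P2
  simp only [hD]
  rw [tau_sum]
  simp only [Matrix.trace, Matrix.diag_apply, Matrix.mul_apply]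
  congr 1
  refine Finset.sum_congr rfl fun a _ => Finset.sum_congr rfl fun b _ => ?_
  congr 1
  simp only [cH, Matrix.of_apply, YauDefs_635.D2, Tl_ee, cs]
  norm_num

theorem ho_tau {a M : ℝ} {s : Set (Cn n)} {G : Cn n → Matrix (Fin n) (Fin n) ℂ}
    (hG : ∀ i j, HO a M s (fun z => G z i j)) (p p' : Fin (n * 2)) :
    HO a M ((Tl n) ⁻¹' s) (fun x => tau (G (Tl n x)) p p') := by
  obtain ⟨⟨b, s1⟩, rfl⟩ := finProdFinEquiv.surjective p
  obtain ⟨⟨c, t1⟩, rfl⟩ := finProdFinEquiv.surjective p'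
  have hcs : ∀ s, ‖cs s‖ ≤ 1 := fun s => by
    unfold cs
    split_ifs <;> simp
  have key : ∀ w : ℂ, ‖1 / 4 * (w * conj (cs s1) * cs t1).re‖ ≤ ‖w‖ := by
    intro w
    rw [Real.norm_eq_abs, abs_mul]
    have h1 := Complex.abs_re_le_norm (w * conj (cs s1) * cs t1)
    rw [norm_mul, norm_mul, Complex.norm_conj] at h1
    have h2 : ‖w‖ * ‖cs s1‖ * ‖cs t1‖ ≤ ‖w‖ * 1 * 1 := by
      gcongr
      · exact hcs _
      · exact hcs _
    have h3 : |(1 / 4 : ℝ)| = 1 / 4 := by norm_num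
    rw [h3]
    nlinarith [norm_nonneg w]
  have h := ho_comp_iso (Tl n) (hG c b)
  refine ⟨fun x hx => ?_, fun x hx y hy => ?_⟩
  · show ‖tau (G (Tl n x)) (q b s1) (q c t1)‖ ≤ M
    rw [tau_q]
    exact (key _).trans (h.bdd x hx)
  · show ‖tau (G (Tl n x)) (q b s1) (q c t1) - tau (G (Tl n y)) (q b s1) (q c t1)‖ ≤ _
    rw [tau_q, tau_q]
    refine le_trans (le_of_eq ?_) ((key _).trans (h.hol x hx y hy))
    congr 1
    simp only [sub_mul, Complex.sub_re]
    ring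

theorem preimage_ball_T (x0 : EuclideanSpace ℝ (Fin (n * 2))) (R : ℝ) :
    (Tl n) ⁻¹' closedBall (Tl n x0) R = closedBall x0 R := by
  ext x
  simp only [mem_preimage, mem_closedBall, (Tl n).dist_map]

/-- **Interior Schauder estimate**, complex form. -/
theorem int_schauder_cx (n : ℕ) {a lo hi : ℝ} (ha : 0 < a) (ha1 : a < 1) (hlo : 0 < lo)
    (hlohi : lo ≤ hi) (M : ℝ) {R : ℝ} (hR0 : 0 < R) (hR1 : R ≤ 1) :
    ∃ C : ℝ, 0 < C ∧ ∀ (z0 : Cn n) (G : Cn n → Matrix (Fin n) (Fin n) ℂ),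
      (∀ z ∈ closedBall z0 R, EllC lo hi (G z)) →
      (∀ i j, HO a M (closedBall z0 R) (fun z => G z i j)) →
      ∀ (U : Set (Cn n)), IsOpen U → closedBall z0 R ⊆ U →
      ∀ (u : Cn n → ℝ) (N S : ℝ), ContDiffOn ℝ 2 u U →
        (∃ V, HO a V (closedBall z0 R) (fderiv ℝ (fderiv ℝ u))) →
        HO a N (closedBall z0 R) (fun z => ((G z * cH u z).trace).re) →
        (∀ z ∈ closedBall z0 R, |u z| ≤ S) →
        C2A a (C * (N + S)) (closedBall z0 (R / 2)) u := by
  obtain ⟨C, hC, H⟩ := int_schauder_on (n * 2) (lo := lo / 4) (hi := hi / 4) ha ha1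
    (by positivity) (by linarith) M hR0 hR1
  refine ⟨C, hC, fun z0 G hell hG U hU hRU u N S hu hV hN hS => ?_⟩
  obtain ⟨x0, rfl⟩ := (Tl n).surjective z0
  have hdf : ContDiffOn ℝ 1 (fderiv ℝ u) U := hu.fderiv_of_isOpen hU (by norm_num)
  have hd : ∀ z ∈ U, DifferentiableAt ℝ (fderiv ℝ u) z := fun z hz =>
    (hdf.contDiffAt (hU.mem_nhds hz)).differentiableAt (by norm_num)
  have hU' : IsOpen ((Tl n) ⁻¹' U) := hU.preimage (Tl n).continuous
  have hRU' : closedBall x0 R ⊆ (Tl n) ⁻¹' U := by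
    rw [← preimage_ball_T]
    exact preimage_mono hRU
  have hu' : ContDiffOn ℝ 2 (fun x => u (Tl n x)) ((Tl n) ⁻¹' U) :=
    hu.comp (Tl n).contDiff.contDiffOn fun x hx => hx
  obtain ⟨V, hV⟩ := hV
  have h1 := H x0 (fun x => tau (G (Tl n x)))
    (fun x hx => ell_tau (hell _ (by rw [← preimage_ball_T] at hx; exact hx)))
    (fun i j => by rw [← preimage_ball_T]; exact ho_tau hG i j)
    _ hU' hRU' (fun x => u (Tl n x)) N S hu'
    ⟨V, by
      rw [← preimage_ball_T]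
      exact (ho_pull (Tl n) hV).congr fun x hx => fderiv2_comp_iso (Tl n) (hd _ (hRU hx))⟩
    (by
      rw [← preimage_ball_T]
      exact (ho_comp_iso (Tl n) hN).congr fun x hx => P2_tau (hd _ (hRU hx)))
    (fun x hx => hS _ (by rw [← preimage_ball_T] at hx; exact hx))
  have hd' : ∀ y ∈ closedBall x0 (R / 2),
      DifferentiableAt ℝ (fderiv ℝ (fun x => u (Tl n x))) y := fun y hy =>
    ((hu'.fderiv_of_isOpen (m := 1) hU' (by norm_num)).contDiffAt
      (hU'.mem_nhds (hRU' (closedBall_subset_closedBall (by linarith) hy)))).differentiableAt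
      (by norm_num)
  have h2 := C2A.comp_iso (Tl n).symm h1 hd'
  have e1 : (Tl n).symm ⁻¹' closedBall x0 (R / 2) = closedBall (Tl n x0) (R / 2) := by
    ext z
    simp only [mem_preimage, mem_closedBall]
    rw [← (Tl n).dist_map, (Tl n).apply_symm_apply]
  have e2 : (fun z => u (Tl n ((Tl n).symm z))) = u := by
    funext z
    rw [(Tl n).apply_symm_apply]
  rw [e1] at h2
  simpa only [e2] using h2

end

end Crest.Agent.R273.SchE_152
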