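import Crest.Agent.R273.YauLoc_635
import Crest.Agent.R273.SchE_152

/-!
# R273 (S0416), Part C, YAU (helper635): `SchFlat` from 152's interior Schauder estimate
-/

set_option autoImplicit false
set_option linter.unusedSectionVars false

open Set Filter Topology Complex Metric
open scoped ContDiff Matrix ComplexConjugate

namespace Crest.Agent.R273.YauSchF_635

open Crest.Agent.R275.Geo Crest.Agent.R275.Core144 Crest.Agent.R275.GC293
open Crest.Agent.R273.Defs_333 Crest.Agent.R273.YauDefs_635 Crest.Agent.R273.HM_333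
open Crest.Agent.R273.YauCh_635 Crest.Agent.R273.YauLoc_635
open Crest.Agent.R273.SchA_152 Crest.Agent.R273.SchD_152 Crest.Agent.R273.SchE_152

noncomputable section

variable {n : ℕ}

theorem ell_one : EllC 1 1 (1 : Matrix (Fin n) (Fin n) ℂ) := by
  refine ⟨Matrix.isHermitian_one, fun ζ => ?_⟩
  have h : (star ζ ⬝ᵥ ((1 : Matrix (Fin n) (Fin n) ℂ) *ᵥ ζ)).re = ∑ a, ‖ζ a‖ ^ 2 := by
    rw [Matrix.one_mulVec, dotProduct, Complex.re_sum]
    refine Finset.sum_congr rfl fun a _ => ?_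
    rw [Pi.star_apply, RCLike.star_def, mul_comm, Complex.mul_conj, Complex.normSq_eq_norm_sq,
      Complex.ofReal_re]
  rw [h, one_mul]
  exact ⟨le_rfl, le_rfl⟩

theorem le_two_rpow {t : ℝ} (h0 : 0 ≤ t) (h2 : t ≤ 2) : t ≤ 2 * t ^ (1 / 2 : ℝ) := by
  rw [← Real.sqrt_eq_rpow]
  have h1 := Real.mul_self_sqrt h0
  have h3 := Real.sqrt_nonneg t
  have h4 : Real.sqrt t ≤ 2 := by
    rw [Real.sqrt_le_left (by norm_num)]
    linarith
  nlinarith

theorem norm_sub_le_two {z x y : Cn n} {R : ℝ} (hR : R ≤ 1) (hx : x ∈ closedBall z R)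
    (hy : y ∈ closedBall z R) : ‖x - y‖ ≤ 2 := by
  rw [mem_closedBall, dist_eq_norm] at hx hy
  calc ‖x - y‖ = ‖(x - z) - (y - z)‖ := by congr 1; abel
    _ ≤ ‖x - z‖ + ‖y - z‖ := norm_sub_le _ _
    _ ≤ 2 := by linarith

theorem ho_c1 {F : Type*} [NormedAddCommGroup F] [NormedSpace ℝ F] {g : Cn n → F}
    {U : Set (Cn n)} (hU : IsOpen U) (hg : ContDiffOn ℝ 1 g U)
    {z : Cn n} {R : ℝ} (hR : R ≤ 1) (hRU : closedBall z R ⊆ U) :
    ∃ V, HO (1 / 2) V (closedBall z R) g := by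
  have h3 : ContinuousOn (fun z => fderiv ℝ g z) U :=
    hg.continuousOn_fderiv_of_isOpen hU le_rfl
  have hK : IsCompact (closedBall z R) := isCompact_closedBall _ _
  obtain ⟨B0, hB0⟩ := hK.exists_bound_of_continuousOn (hg.continuousOn.mono hRU)
  obtain ⟨B1, hB1⟩ := hK.exists_bound_of_continuousOn (h3.mono hRU)
  refine ⟨max B0 (B1 * 2), fun x hx => (hB0 x hx).trans (le_max_left _ _), fun x hx y hy => ?_⟩
  have h4 : ‖g x - g y‖ ≤ B1 * ‖x - y‖ :=
    (convex_closedBall z R).norm_image_sub_le_of_norm_fderiv_le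
      (fun w hw => (hg.contDiffAt (hU.mem_nhds (hRU hw))).differentiableAt (by simp)) hB1 hy hx
  have hB : 0 ≤ B1 := (norm_nonneg _).trans (hB1 x hx)
  calc _ ≤ B1 * ‖x - y‖ := h4
    _ ≤ B1 * (2 * ‖x - y‖ ^ (1 / 2 : ℝ)) :=
      mul_le_mul_of_nonneg_left (le_two_rpow (norm_nonneg _) (norm_sub_le_two hR hx hy)) hB
    _ = B1 * 2 * ‖x - y‖ ^ (1 / 2 : ℝ) := by ring
    _ ≤ _ := mul_le_mul_of_nonneg_right (le_max_right _ _) (Real.rpow_nonneg (norm_nonneg _) _)

theorem ho_smooth {u : Cn n → ℝ} {U : Set (Cn n)} (hU : IsOpen U) (hu : ContDiffOn ℝ ∞ u U)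
    {z : Cn n} {R : ℝ} (hR : R ≤ 1) (hRU : closedBall z R ⊆ U) :
    ∃ V, HO (1 / 2) V (closedBall z R) (fderiv ℝ (fderiv ℝ u)) := by
  have h1 : ContDiffOn ℝ ∞ (fderiv ℝ u) U := hu.fderiv_of_isOpen hU (by simp)
  have h2 : ContDiffOn ℝ ∞ (fderiv ℝ (fderiv ℝ u)) U := h1.fderiv_of_isOpen hU (by simp)
  exact ho_c1 hU (h2.of_le (by simp)) hR hRU

theorem schFlat_holds : SchFlat := by
  intro n r N hr
  set R : ℝ := min (r / 4) 1 with hR
  have hR0 : 0 < R := lt_min (by linarith) one_pos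
  have hR1 : R ≤ 1 := min_le_right _ _
  have hRr : R ≤ r / 4 := min_le_left _ _
  obtain ⟨C, hC, H⟩ := int_schauder_cx n (a := 1 / 2) (lo := 1) (hi := 1) (by norm_num)
    (by norm_num) one_pos le_rfl 1 hR0 hR1
  set Q : ℝ := C * (2 * |N| + |N|) with hQ
  have hQ0 : 0 ≤ Q := by positivity
  set P : ℝ := (R / 2) ^ (1 / 2 : ℝ) with hP
  have hP0 : 0 < P := Real.rpow_pos_of_pos (by linarith) _
  refine ⟨max Q (2 * Q / P), fun z₀ u hu h0 htr hlip => ?_⟩
  have key : ∀ z ∈ ball z₀ (r / 2), C2A (1 / 2) Q (closedBall z (R / 2)) u := by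
    intro z hz
    have hsub : closedBall z R ⊆ ball z₀ r := by
      intro w hw
      rw [mem_closedBall] at hw
      rw [mem_ball] at hz ⊢
      have := dist_triangle w z z₀
      linarith
    refine H z (fun _ => 1) (fun _ _ => ell_one) (fun i j => ⟨fun x _ => ?_, fun x _ y _ => ?_⟩)
      (ball z₀ r) isOpen_ball hsub u (2 * |N|) |N| (hu.of_le two_le_inf)
      (ho_smooth isOpen_ball hu hR1 hsub) ⟨fun x hx => ?_, fun x hx y hy => ?_⟩
      (fun w hw => (h0 w (hsub hw)).trans (le_abs_self _))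
    · rw [Matrix.one_apply]
      split_ifs <;> simp
    · rw [sub_self, norm_zero, one_mul]
      exact Real.rpow_nonneg (norm_nonneg _) _
    · simp only [Matrix.one_mul]
      calc ‖(cH u x).trace.re‖ ≤ ‖(cH u x).trace‖ := Complex.abs_re_le_norm _
        _ ≤ N := htr x (hsub hx)
        _ ≤ 2 * |N| := by linarith [le_abs_self N, abs_nonneg N]
    · simp only [Matrix.one_mul]
      rw [← Complex.sub_re]
      have h2 := norm_sub_le_two hR1 hx hy
      calc ‖((cH u x).trace - (cH u y).trace).re‖ ≤ ‖(cH u x).trace - (cH u y).trace‖ :=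
            Complex.abs_re_le_norm _
        _ ≤ N * ‖x - y‖ := hlip x (hsub hx) y (hsub hy)
        _ ≤ |N| * ‖x - y‖ := mul_le_mul_of_nonneg_right (le_abs_self _) (norm_nonneg _)
        _ ≤ |N| * (2 * ‖x - y‖ ^ (1 / 2 : ℝ)) :=
          mul_le_mul_of_nonneg_left (le_two_rpow (norm_nonneg _) h2) (abs_nonneg _)
        _ = 2 * |N| * ‖x - y‖ ^ (1 / 2 : ℝ) := by ring
  have hself : ∀ z : Cn n, z ∈ closedBall z (R / 2) := fun z => mem_closedBall_self (by linarith)
  refine ⟨fun z hz => ((key z hz).h2.bdd z (hself z)).trans (le_max_left _ _),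
    fun z hz w hw => ?_⟩
  rcases le_or_gt (dist w z) (R / 2) with hd | hd
  · refine ((key z hz).h2.hol z (hself z) w hd).trans ?_
    exact mul_le_mul_of_nonneg_right (le_max_left _ _) (Real.rpow_nonneg (norm_nonneg _) _)
  · have h1 := (key z hz).h2.bdd z (hself z)
    have h2 := (key w hw).h2.bdd w (hself w)
    have h3 : P ≤ ‖z - w‖ ^ (1 / 2 : ℝ) := by
      rw [dist_comm, dist_eq_norm] at hd
      exact Real.rpow_le_rpow (by linarith) hd.le (by norm_num)
    calc _ ≤ ‖fderiv ℝ (fderiv ℝ u) z‖ + ‖fderiv ℝ (fderiv ℝ u) w‖ :=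
          norm_sub_le (fderiv ℝ (fderiv ℝ u) z) (fderiv ℝ (fderiv ℝ u) w)
      _ ≤ 2 * Q := by linarith
      _ = 2 * Q / P * P := by field_simp
      _ ≤ 2 * Q / P * ‖z - w‖ ^ (1 / 2 : ℝ) := mul_le_mul_of_nonneg_left h3 (by positivity)
      _ ≤ _ := mul_le_mul_of_nonneg_right (le_max_right _ _)
          (Real.rpow_nonneg (norm_nonneg _) _)

end

end Crest.Agent.R273.YauSchF_635
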