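import Crest.Agent.R273.YauQ_635
import Crest.Agent.R273.YauSchF_635
import Crest.Agent.R273.YauClose_635

/-!
# R273 (S0416), Part C, YAU (helper635): the Monge-Ampere operator on `M`

* `pr H φ v i z` = `det (∂∂̄ (pot φ + v)) / det (∂∂̄ pot φ)` in the chart `i`; `Pf` : the function on `M`
* `lr H φ w i z` = `tr ((∂∂̄ pot φ)⁻¹ ∂∂̄ w)`; `Lf` : the function on `M`
* `Pf_eq`, `Lf_eq` (chart independence), `Pf_sm`, `Lf_sm`
* `pr_quad` : quadratic estimate on one closed ball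
-/

set_option autoImplicit false
set_option linter.unusedSectionVars false

open Set Filter Topology Complex Metric
open scoped ContDiff Matrix ComplexConjugate ComplexOrder

namespace Crest.Agent.R273.YauPf_635

open Crest.Agent.R275.Geo Crest.Agent.R275.Core144 Crest.Agent.R275.GC293
open Crest.Agent.R273.Defs_333 Crest.Agent.R273.YauDefs_635 Crest.Agent.R273.HM_333
open Crest.Agent.R273.YauCh_635 Crest.Agent.R273.Hess_333 Crest.Agent.R273.HessB_333
open Crest.Agent.R273.Kah_333 Crest.Agent.R273.YauMax_635 Crest.Agent.R273.YauLoc_635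
open Crest.Agent.R273.SchA_152 Crest.Agent.R273.SchD_152 Crest.Agent.R273.YauQ_635
open Crest.Agent.R273.YauSchF_635 Crest.Agent.R273.YauClose_635

noncomputable section

section Mat

variable {n : ℕ} {m : Type*} [Fintype m] [DecidableEq m] {E : Type*} [NormedAddCommGroup E]
  [NormedSpace ℝ E]

theorem contDiffOn_det {f : E → Matrix m m ℂ} {U : Set E}
    (h : ∀ a b, ContDiffOn ℝ ∞ (fun z => f z a b) U) : ContDiffOn ℝ ∞ (fun z => (f z).det) U := by
  simp only [Matrix.det_apply']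
  exact ContDiffOn.sum fun σ _ => contDiffOn_const.mul (contDiffOn_prod fun a _ => h _ _)

theorem contDiffOn_inv {f : E → Matrix m m ℂ} {U : Set E}
    (h : ∀ a b, ContDiffOn ℝ ∞ (fun z => f z a b) U) (h0 : ∀ z ∈ U, (f z).det ≠ 0) (a b : m) :
    ContDiffOn ℝ ∞ (fun z => (f z)⁻¹ a b) U := by
  have h1 : ContDiffOn ℝ ∞ (fun z => (f z).det⁻¹ * (f z).adjugate a b) U := by
    refine ((contDiffOn_det h).inv h0).mul ?_
    simp only [Matrix.adjugate_apply]
    refine contDiffOn_det fun c d => ?_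
    rcases eq_or_ne c b with rfl | hc
    · simp only [Matrix.updateRow_self]
      exact contDiffOn_const
    · simp only [Matrix.updateRow_ne hc]
      exact h c d
  refine h1.congr fun z hz => ?_
  rw [Matrix.inv_def, Ring.inverse_eq_inv', Matrix.smul_apply, smul_eq_mul]

theorem det_conj_ratio {J B C : Matrix m m ℂ} (hJ : J.det ≠ 0) :
    (Jᵀ * B * J.map conj).det / (Jᵀ * C * J.map conj).det = B.det / C.det := by
  have h2 : (J.map conj).det = conj J.det := by
    rw [← RingHom.mapMatrix_apply, ← RingHom.map_det]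
  have h3 : conj J.det ≠ 0 := by simpa using hJ
  rw [Matrix.det_mul, Matrix.det_mul, Matrix.det_mul, Matrix.det_mul, Matrix.det_transpose, h2]
  field_simp

theorem trace_conj {J B C : Matrix m m ℂ} (hJ : J.det ≠ 0) :
    ((Jᵀ * C * J.map conj)⁻¹ * (Jᵀ * B * J.map conj)).trace = (C⁻¹ * B).trace := by
  have h2 : (J.map conj).det = conj J.det := by
    rw [← RingHom.mapMatrix_apply, ← RingHom.map_det]
  have h3 : IsUnit (J.map conj).det := by
    rw [h2, isUnit_iff_ne_zero]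
    simpa using hJ
  have h4 : IsUnit (Jᵀ).det := by
    rw [Matrix.det_transpose, isUnit_iff_ne_zero]
    exact hJ
  rw [Matrix.mul_inv_rev, Matrix.mul_inv_rev]
  calc _ = ((J.map conj)⁻¹ * (C⁻¹ * (((Jᵀ)⁻¹ * Jᵀ) * B)) * J.map conj).trace := by
        simp only [Matrix.mul_assoc]
    _ = (C⁻¹ * B).trace := by
        rw [Matrix.nonsing_inv_mul _ h4, Matrix.one_mul, Matrix.trace_mul_comm, ← Matrix.mul_assoc,
          Matrix.mul_nonsing_inv _ h3, Matrix.one_mul]

theorem det_add_ratio {G V : Matrix m m ℂ} (hG : G.det ≠ 0) :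
    (G + V).det / G.det = (1 + G⁻¹ * V).det := by
  have h : G + V = G * (1 + G⁻¹ * V) := by
    rw [Matrix.mul_add, Matrix.mul_one, ← Matrix.mul_assoc,
      Matrix.mul_nonsing_inv _ (isUnit_iff_ne_zero.2 hG), Matrix.one_mul]
  rw [h, Matrix.det_mul]
  field_simp

end Mat

variable {n : ℕ} {M : Type} [TopologicalSpace M] {A : Atl n M} {L : LB A}

/-- a chart at `x` -/
def ch (A : Atl n M) (x : M) : A.ι := Classical.choose (A.cover x)

theorem ch_mem (A : Atl n M) (x : M) : x ∈ (A.e (ch A x)).source :=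
  Classical.choose_spec (A.cover x)

/-- the ratio of the determinants in the chart `i` -/
def pr (H : HM L) (φ v : M → ℝ) (i : A.ι) (z : Cn n) : ℝ :=
  ((cH (pot H (fun y => φ y + v y) i) z).det / (cH (pot H φ i) z).det).re

/-- the linearised operator in the chart `i` -/
def lr (H : HM L) (φ w : M → ℝ) (i : A.ι) (z : Cn n) : ℝ :=
  ((cH (pot H φ i) z)⁻¹ * cH (inC A i w) z).trace.re

/-- the ratio of the determinants on `M` -/
def Pf (H : HM L) (φ v : M → ℝ) (x : M) : ℝ := pr H φ v (ch A x) (A.e (ch A x) x)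

/-- the linearised operator on `M` -/
def Lf (H : HM L) (φ w : M → ℝ) (x : M) : ℝ := lr H φ w (ch A x) (A.e (ch A x) x)

theorem det_J {i j : A.ι} {x : M} (hx : x ∈ (A.e i).source ∩ (A.e j).source) :
    (Jm A i j x).det ≠ 0 := by
  rw [← KB_g hx]
  exact (KB A).ne_zero i j x

theorem cH_pot_tr (H : HM L) {φ : M → ℝ} (hφ : A.Sm φ) {i j : A.ι} {x : M}
    (hx : x ∈ (A.e i).source ∩ (A.e j).source) :
    cH (pot H φ i) (A.e i x) =
      (Jm A i j x)ᵀ * cH (pot H φ j) (A.e j x) * (Jm A i j x).map conj := by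
  have key : ∀ k : A.ι, x ∈ (A.e k).source →
      cH (pot H φ k) (A.e k x) = cur (tw H φ hφ) k x := by
    intro k hk
    have hz := (A.e k).map_source hk
    rw [cH_eq_hess (pot_contDiffAt H hφ k hz), hess_pot H hφ k hz, cur_tw H hφ k hk]
    rfl
  rw [key i hx.1, key j hx.2]
  exact cur_tr _ hx

theorem cH_inC_tr {w : M → ℝ} (hw : A.Sm w) {i j : A.ι} {x : M}
    (hx : x ∈ (A.e i).source ∩ (A.e j).source) :
    cH (inC A i w) (A.e i x) =
      (Jm A i j x)ᵀ * cH (inC A j w) (A.e j x) * (Jm A i j x).map conj := by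
  rw [cH_eq_hess (inC_contDiffAt hw i ((A.e i).map_source hx.1)),
    cH_eq_hess (inC_contDiffAt hw j ((A.e j).map_source hx.2))]
  exact hsf_tr hw hx

theorem sm_add {φ v : M → ℝ} (hφ : A.Sm φ) (hv : A.Sm v) : A.Sm (fun y => φ y + v y) :=
  fun i => (hφ i).add (hv i)

theorem Pf_eq (H : HM L) {φ v : M → ℝ} (hφ : A.Sm φ) (hv : A.Sm v) {i : A.ι} {x : M}
    (hx : x ∈ (A.e i).source) : Pf H φ v x = pr H φ v i (A.e i x) := by
  have h := ch_mem A x
  rw [Pf, pr, cH_pot_tr H (sm_add hφ hv) ⟨h, hx⟩, cH_pot_tr H hφ ⟨h, hx⟩,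
    det_conj_ratio (det_J ⟨h, hx⟩), pr]

theorem Lf_eq (H : HM L) {φ w : M → ℝ} (hφ : A.Sm φ) (hw : A.Sm w) {i : A.ι} {x : M}
    (hx : x ∈ (A.e i).source) : Lf H φ w x = lr H φ w i (A.e i x) := by
  have h := ch_mem A x
  rw [Lf, lr, cH_inC_tr hw ⟨h, hx⟩, cH_pot_tr H hφ ⟨h, hx⟩,
    trace_conj (det_J ⟨h, hx⟩), lr]

theorem Pf_read (H : HM L) {φ v : M → ℝ} (hφ : A.Sm φ) (hv : A.Sm v) {i : A.ι} {z : Cn n}
    (hz : z ∈ (A.e i).target) : inC A i (Pf H φ v) z = pr H φ v i z := by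
  rw [inC, Pf_eq H hφ hv ((A.e i).map_target hz), (A.e i).right_inv hz]

theorem Lf_read (H : HM L) {φ w : M → ℝ} (hφ : A.Sm φ) (hw : A.Sm w) {i : A.ι} {z : Cn n}
    (hz : z ∈ (A.e i).target) : inC A i (Lf H φ w) z = lr H φ w i z := by
  rw [inC, Lf_eq H hφ hw ((A.e i).map_target hz), (A.e i).right_inv hz]

theorem posDef_pot {H : HM L} {φ : M → ℝ} (hφ : A.Sm φ) (hK : KPos H φ) {i : A.ι} {z : Cn n}
    (hz : z ∈ (A.e i).target) : (cH (pot H φ i) z).PosDef := by
  rw [cH_eq_hess (pot_contDiffAt H hφ i hz)]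
  exact posDef_hess (pot_contDiffAt H hφ i hz) (hK i z hz)

theorem det_pot_ne {H : HM L} {φ : M → ℝ} (hφ : A.Sm φ) (hK : KPos H φ) {i : A.ι} {z : Cn n}
    (hz : z ∈ (A.e i).target) : (cH (pot H φ i) z).det ≠ 0 :=
  (posDef_pot hφ hK hz).det_pos.ne'

theorem cH_pot_smooth (H : HM L) {φ : M → ℝ} (hφ : A.Sm φ) (i : A.ι) (a b : Fin n) :
    ContDiffOn ℝ ∞ (fun z => cH (pot H φ i) z a b) (A.e i).target :=
  contDiffOn_cH (A.e i).open_target ((wt_smooth H i).add (inC_smooth hφ i)) a b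

theorem Pf_sm {H : HM L} {φ v : M → ℝ} (hφ : A.Sm φ) (hK : KPos H φ) (hv : A.Sm v) :
    A.Sm (Pf H φ v) := by
  intro i
  have h1 : ContDiffOn ℝ ∞ (fun z => (cH (pot H (fun y => φ y + v y) i) z).det *
      ((cH (pot H φ i) z).det)⁻¹) (A.e i).target :=
    (contDiffOn_det (cH_pot_smooth H (sm_add hφ hv) i)).mul
      ((contDiffOn_det (cH_pot_smooth H hφ i)).inv fun z hz => det_pot_ne hφ hK hz)
  refine (Complex.reCLM.contDiff.comp_contDiffOn h1).congr fun z hz => ?_
  have := Pf_read H hφ hv hz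
  simp only [inC] at this
  rw [this, pr, div_eq_mul_inv]
  rfl

theorem Lf_sm {H : HM L} {φ w : M → ℝ} (hφ : A.Sm φ) (hK : KPos H φ) (hw : A.Sm w) :
    A.Sm (Lf H φ w) := by
  intro i
  have h1 : ContDiffOn ℝ ∞ (fun z => ((cH (pot H φ i) z)⁻¹ * cH (inC A i w) z).trace)
      (A.e i).target := by
    simp only [Matrix.trace, Matrix.diag_apply, Matrix.mul_apply]
    refine ContDiffOn.sum fun a _ => ContDiffOn.sum fun b _ => ?_
    exact (contDiffOn_inv (cH_pot_smooth H hφ i) (fun z hz => det_pot_ne hφ hK hz) a b).mul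
      (contDiffOn_cH (A.e i).open_target (inC_smooth hw i) b a)
  refine (Complex.reCLM.contDiff.comp_contDiffOn h1).congr fun z hz => ?_
  have := Lf_read H hφ hw hz
  simp only [inC] at this
  rw [this, lr]
  rfl

theorem cH_add' {u v : Cn n → ℝ} {z : Cn n} (hu : ContDiffAt ℝ ∞ u z) (hv : ContDiffAt ℝ ∞ v z) :
    cH (fun w => u w + v w) z = cH u z + cH v z := by
  rw [cH_eq_hess (hu.add hv), cH_eq_hess hu, cH_eq_hess hv]
  exact hess_add hu hv

theorem cH_pot_add (H : HM L) {φ v : M → ℝ} (hφ : A.Sm φ) (hv : A.Sm v) {i : A.ι} {z : Cn n}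
    (hz : z ∈ (A.e i).target) :
    cH (pot H (fun y => φ y + v y) i) z = cH (pot H φ i) z + cH (inC A i v) z := by
  have e : pot H (fun y => φ y + v y) i = fun w => pot H φ i w + inC A i v w := by
    funext w
    simp only [pot, inC]
    ring
  rw [e, cH_add' (pot_contDiffAt H hφ i hz) (inC_contDiffAt hv i hz)]

theorem pr_eq {H : HM L} {φ v : M → ℝ} (hφ : A.Sm φ) (hK : KPos H φ) (hv : A.Sm v) {i : A.ι}
    {z : Cn n} (hz : z ∈ (A.e i).target) :
    pr H φ v i z = ((1 + (cH (pot H φ i) z)⁻¹ * cH (inC A i v) z).det).re := by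
  rw [pr, cH_pot_add H hφ hv hz, det_add_ratio (det_pot_ne hφ hK hz)]

theorem Pf_zero {H : HM L} {φ : M → ℝ} (hφ : A.Sm φ) (hK : KPos H φ) :
    Pf H φ (fun _ => 0) = fun _ => (1 : ℝ) := by
  funext x
  have h := ch_mem A x
  have hz := (A.e (ch A x)).map_source h
  have e : (fun y => φ y + (fun _ => (0 : ℝ)) y) = φ := by
    funext y
    simp
  rw [Pf, pr, e, div_self (det_pot_ne hφ hK hz), Complex.one_re]

/-! ### the quadratic estimate on one ball -/

/-- linear form of `cH` -/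
def cHL (a b : Fin n) (Q : Cn n →L[ℝ] Cn n →L[ℝ] ℝ) : ℂ :=
  (1 / 4 : ℂ) *
    (((Q (EuclideanSpace.single a 1) (EuclideanSpace.single b 1)
        + Q (EuclideanSpace.single a I) (EuclideanSpace.single b I) : ℝ) : ℂ)
      + I * ((Q (EuclideanSpace.single a 1) (EuclideanSpace.single b I)
        - Q (EuclideanSpace.single a I) (EuclideanSpace.single b 1) : ℝ) : ℂ))

theorem cHL_le (a b : Fin n) (Q : Cn n →L[ℝ] Cn n →L[ℝ] ℝ) : ‖cHL a b Q‖ ≤ 1 * ‖Q‖ := by
  have hQ : ∀ v w : Cn n, ‖v‖ = 1 → ‖w‖ = 1 → |Q v w| ≤ ‖Q‖ := by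
    intro v w hv hw
    have h1 := (Q v).le_opNorm w
    have h2 := Q.le_opNorm v
    rw [hw, mul_one] at h1
    rw [hv, mul_one] at h2
    exact h1.trans h2
  have h1 : ∀ a : Fin n, ‖(EuclideanSpace.single a (1 : ℂ) : Cn n)‖ = 1 := fun a => by simp
  have h2 : ∀ a : Fin n, ‖(EuclideanSpace.single a I : Cn n)‖ = 1 := fun a => by simp
  have a1 := hQ _ _ (h1 a) (h1 b)
  have a2 := hQ _ _ (h2 a) (h2 b)
  have a3 := hQ _ _ (h1 a) (h2 b)
  have a4 := hQ _ _ (h2 a) (h1 b)
  rw [cHL, norm_mul]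
  have e1 : ‖(1 / 4 : ℂ)‖ = 1 / 4 := by norm_num
  rw [e1]
  refine le_trans (mul_le_mul_of_nonneg_left (norm_add_le _ _) (by norm_num)) ?_
  rw [norm_mul, Complex.norm_I, one_mul, Complex.norm_real, Complex.norm_real]
  have b1 := abs_add_le (Q (EuclideanSpace.single a 1) (EuclideanSpace.single b 1))
    (Q (EuclideanSpace.single a I) (EuclideanSpace.single b I))
  have b2 := abs_sub (Q (EuclideanSpace.single a 1) (EuclideanSpace.single b I))
    (Q (EuclideanSpace.single a I) (EuclideanSpace.single b 1))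
  simp only [Real.norm_eq_abs]
  linarith

theorem cHL_sub (a b : Fin n) (Q Q' : Cn n →L[ℝ] Cn n →L[ℝ] ℝ) :
    cHL a b Q - cHL a b Q' = cHL a b (Q - Q') := by
  simp only [cHL, _root_.sub_apply]
  push_cast
  ring

theorem ho_cH {u : Cn n → ℝ} {a d : ℝ} {s : Set (Cn n)} (h : HO a d s (fderiv ℝ (fderiv ℝ u)))
    (b c : Fin n) : HO a d s (fun z => cH u z b c) := by
  have := ho_clm (cHL b c) zero_le_one (cHL_le b c) (cHL_sub b c) h
  rw [one_mul] at this
  exact this

theorem ho_re {X : Type*} [NormedAddCommGroup X] {a N : ℝ} {s : Set X} {f : X → ℂ}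
    (h : HO a N s f) : HO a N s (fun z => (f z).re) :=
  ⟨fun z hz => (Complex.abs_re_le_norm _).trans (h.bdd z hz), fun z hz w hw => by
    rw [← Complex.sub_re]
    exact (Complex.abs_re_le_norm _).trans (h.hol z hz w hw)⟩

theorem pr_quad {H : HM L} {φ : M → ℝ} (hφ : A.Sm φ) (hK : KPos H φ) {i : A.ι} {z₀ : Cn n} {R : ℝ}
    (hR : R ≤ 1) (hRt : closedBall z₀ R ⊆ (A.e i).target) : ∃ C : ℝ, 0 ≤ C ∧
      ∀ (δ d : ℝ) (v w : M → ℝ), 0 ≤ d → d ≤ δ → δ ≤ 1 → A.Sm v → A.Sm w →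
        C2A (1 / 2) δ (closedBall z₀ R) (inC A i v) → C2A (1 / 2) d (closedBall z₀ R) (inC A i w) →
        HO (1 / 2) (C * δ * d) (closedBall z₀ R) (fun z =>
          pr H φ (fun y => v y + w y) i z - pr H φ v i z - lr H φ w i z) := by
  have hinv : ∀ a b : Fin n, ∃ V, HO (1 / 2) V (closedBall z₀ R)
      (fun z => (cH (pot H φ i) z)⁻¹ a b) := fun a b =>
    ho_c1 (A.e i).open_target ((contDiffOn_inv (cH_pot_smooth H hφ i)
      (fun z hz => det_pot_ne hφ hK hz) a b).of_le (by simp)) hR hRt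
  choose V hV using hinv
  set K : ℝ := ∑ a, ∑ b, |V a b| with hKdef
  have hK0 : 0 ≤ K := Finset.sum_nonneg fun a _ => Finset.sum_nonneg fun b _ => abs_nonneg _
  have hVK : ∀ a b, V a b ≤ K := fun a b =>
    (le_abs_self _).trans ((Finset.single_le_sum (f := fun b => |V a b|)
      (fun b _ => abs_nonneg _) (Finset.mem_univ b)).trans
      (Finset.single_le_sum (f := fun a => ∑ b, |V a b|)
        (fun a _ => Finset.sum_nonneg fun b _ => abs_nonneg _) (Finset.mem_univ a)))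
  have hprod : ∀ (d : ℝ) (w : M → ℝ), 0 ≤ d → C2A (1 / 2) d (closedBall z₀ R) (inC A i w) →
      HO (1 / 2) (n * (2 * K) * d) (closedBall z₀ R) (fun z (a b : Fin n) =>
        ((cH (pot H φ i) z)⁻¹ * cH (inC A i w) z) a b) := by
    intro d w hd hw
    refine ho_pi (by positivity) fun a => ho_pi (by positivity) fun b => ?_
    simp only [Matrix.mul_apply]
    have h1 := ho_sum (Finset.univ : Finset (Fin n)) (a := 1 / 2) (M := 2 * K * d)
      (s := closedBall z₀ R)
      (f := fun l z => (cH (pot H φ i) z)⁻¹ a l * cH (inC A i w) z l b)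
      (fun l _ => ho_mul hK0 hd ((hV a l).mono (hVK a l)) (ho_cH hw.h2 l b))
    rw [Finset.card_univ, Fintype.card_fin] at h1
    exact h1.mono (by ring_nf; rfl)
  obtain ⟨C, hC0, hC⟩ := ho_det n (n * (2 * K))
  refine ⟨C * (n * (2 * K)) * (n * (2 * K)), by positivity,
    fun δ d v w hd hdδ hδ hv hw hv2 hw2 => ?_⟩
  have hδ0 : 0 ≤ δ := hd.trans hdδ
  have hX := hprod δ v hδ0 hv2
  have hY := hprod d w hd hw2
  have hq := hC (α := n * (2 * K) * δ) (β := n * (2 * K) * d) (by positivity)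
    (mul_le_mul_of_nonneg_left hdδ (by positivity))
    (by
      have : (0 : ℝ) ≤ n * (2 * K) := by positivity
      nlinarith) hX hY
  refine ((ho_re hq).mono (le_of_eq (by ring))).congr fun z hz => ?_
  have hzt := hRt hz
  have hvw : A.Sm (fun y => v y + w y) := sm_add hv hw
  rw [pr_eq hφ hK hvw hzt, pr_eq hφ hK hv hzt, lr]
  have e1 : cH (inC A i (fun y => v y + w y)) z = cH (inC A i v) z + cH (inC A i w) z :=
    cH_add' (inC_contDiffAt hv i hzt) (inC_contDiffAt hw i hzt)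
  rw [e1, Matrix.mul_add, ← add_assoc, ← Complex.sub_re, ← Complex.sub_re]
  rfl

end

end Crest.Agent.R273.YauPf_635
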