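import Crest.Agent.R273.CRegD_933
import Crest.Agent.R273.YauDefs_635

/-!
# R273 (S0416), Part C, C-REG (helper933), file E: the complex Monge-Ampere equation

`reg_holds : RegStmt` : a `C^{2,a}` solution of `det ∂∂̄u = e^f` with `f` smooth is smooth.
-/

set_option autoImplicit false

open MeasureTheory Set Filter Metric Complex
open scoped ContDiff Topology ComplexConjugate Matrix ComplexOrder

namespace Crest.Agent.R273.CReg_933

open Crest.Agent.R238 Crest.Agent.R238.Boot
open Crest.Agent.R273.Defs_333 Crest.Agent.R273.YauDefs_635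
open Crest.Agent.R275.Geo Crest.Agent.R275.Core144 Crest.Agent.R275.GC293

noncomputable section

variable {n : ℕ}

/-- real dimension of `ℂⁿ` -/
abbrev dC (n : ℕ) : ℕ := Module.finrank ℝ (Cn n)

/-- real linear coordinates on `ℂⁿ` -/
def TT (n : ℕ) : Cn n ≃L[ℝ] E (dC n) := toEuclidean

/-- real coordinate number `i` of the vector `v` -/
def rc (v : Cn n) (i : Fin (dC n)) : ℝ := (TT n v) i

theorem rc_expand (v : Cn n) : v = ∑ i, rc v i • (TT n).symm (ee i) := by
  have h : TT n v = ∑ i, rc v i • (ee i : E (dC n)) := by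
    have := (EuclideanSpace.basisFun (Fin (dC n)) ℝ).sum_repr (TT n v)
    rw [← this]
    simp [rc, ee]
  calc v = (TT n).symm (TT n v) := ((TT n).symm_apply_apply v).symm
    _ = _ := by rw [h]; simp

/-- the bilinear form of the real matrix `H` in the coordinates `TT` -/
def bl (H : VM (dC n)) (v w : Cn n) : ℝ := ∑ i, ∑ j, rc v i * rc w j * H i j

/-- the Hermitian part of the real matrix `H` -/
def cHV (H : VM (dC n)) : Matrix (Fin n) (Fin n) ℂ := Matrix.of fun a b =>
  (1 / 4 : ℂ) *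
    (((bl H (EuclideanSpace.single a 1) (EuclideanSpace.single b 1)
        + bl H (EuclideanSpace.single a I) (EuclideanSpace.single b I) : ℝ) : ℂ)
      + I * ((bl H (EuclideanSpace.single a 1) (EuclideanSpace.single b I)
        - bl H (EuclideanSpace.single a I) (EuclideanSpace.single b 1) : ℝ) : ℂ))

/-- the Monge-Ampere operator on real matrices -/
def PhiC (H : VM (dC n)) : ℝ := (cHV H).det.re

theorem bl_smooth (v w : Cn n) : ContDiff ℝ ∞ fun H : VM (dC n) => bl H v w := by
  unfold bl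
  fun_prop

theorem cHV_smooth (a b : Fin n) : ContDiff ℝ ∞ fun H : VM (dC n) => cHV H a b := by
  have h : ∀ v w : Cn n, ContDiff ℝ ∞ fun H : VM (dC n) => bl H v w := bl_smooth
  have h1 : ∀ v w v' w' : Cn n, ContDiff ℝ ∞ fun H : VM (dC n) => ((bl H v w + bl H v' w' : ℝ) : ℂ) :=
    fun v w v' w' => Complex.ofRealCLM.contDiff.comp ((h v w).add (h v' w'))
  have h2 : ∀ v w v' w' : Cn n, ContDiff ℝ ∞ fun H : VM (dC n) => ((bl H v w - bl H v' w' : ℝ) : ℂ) :=
    fun v w v' w' => Complex.ofRealCLM.contDiff.comp ((h v w).sub (h v' w'))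
  exact contDiff_const.mul ((h1 _ _ _ _).add (contDiff_const.mul (h2 _ _ _ _)))

theorem PhiC_smooth : ContDiff ℝ ∞ (PhiC (n := n)) := by
  have h : ContDiff ℝ ∞ fun H : VM (dC n) => (cHV H).det := by
    simp only [Matrix.det_apply]
    refine ContDiff.sum fun σ _ => ContDiff.const_smul _ ?_
    exact contDiff_prod fun i _ => cHV_smooth _ _
  exact Complex.reCLM.contDiff.comp h

theorem bl_add (H K : VM (dC n)) (v w : Cn n) : bl (H + K) v w = bl H v w + bl K v w := by
  simp only [bl, Pi.add_apply, mul_add, Finset.sum_add_distrib]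

theorem bl_smul (t : ℝ) (H : VM (dC n)) (v w : Cn n) : bl (t • H) v w = t * bl H v w := by
  simp only [bl, Pi.smul_apply, smul_eq_mul, Finset.mul_sum]
  refine Finset.sum_congr rfl fun i _ => Finset.sum_congr rfl fun j _ => by ring

theorem cHV_add_smul (H K : VM (dC n)) (t : ℝ) : cHV (H + t • K) = cHV H + (t : ℂ) • cHV K := by
  ext a b
  simp only [cHV, bl_add, bl_smul, Matrix.of_apply, Matrix.add_apply, Matrix.smul_apply,
    smul_eq_mul]
  push_cast
  ring

/-- rank one matrices -/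
def r1 (z : Fin (dC n) → ℝ) : VM (dC n) := fun i j => z i * z j

/-- the linear form with coefficients `z` -/
def lf (z : Fin (dC n) → ℝ) (v : Cn n) : ℝ := ∑ i, rc v i * z i

theorem bl_r1 (z : Fin (dC n) → ℝ) (v w : Cn n) : bl (r1 z) v w = lf z v * lf z w := by
  simp only [bl, r1, lf, Finset.sum_mul_sum]
  refine Finset.sum_congr rfl fun i _ => Finset.sum_congr rfl fun j _ => by ring

/-- the `(1,0)` part of the linear form -/
def pz (z : Fin (dC n) → ℝ) (a : Fin n) : ℂ :=
  (lf z (EuclideanSpace.single a 1) : ℂ) - I * (lf z (EuclideanSpace.single a I) : ℂ)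

theorem cHV_r1 (z : Fin (dC n) → ℝ) :
    cHV (r1 z) = (1 / 4 : ℂ) • Matrix.of fun a b => pz z a * conj (pz z b) := by
  ext a b
  simp only [cHV, bl_r1, Matrix.of_apply, Matrix.smul_apply, smul_eq_mul, pz, map_sub, map_mul,
    Complex.conj_ofReal, Complex.conj_I]
  push_cast
  ring_nf
  simp only [Complex.I_sq]
  ring

theorem lf_add (z : Fin (dC n) → ℝ) (v w : Cn n) : lf z (v + w) = lf z v + lf z w := by
  simp only [lf, rc, map_add, PiLp.add_apply, add_mul, Finset.sum_add_distrib]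

theorem lf_smul (z : Fin (dC n) → ℝ) (c : ℝ) (v : Cn n) : lf z (c • v) = c * lf z v := by
  simp only [lf, rc, map_smul, PiLp.smul_apply, smul_eq_mul, Finset.mul_sum]
  refine Finset.sum_congr rfl fun i _ => by ring

theorem lf_sum {ι : Type*} (s : Finset ι) (z : Fin (dC n) → ℝ) (v : ι → Cn n) :
    lf z (∑ i ∈ s, v i) = ∑ i ∈ s, lf z (v i) := by
  classical
  induction s using Finset.induction_on with
  | empty => simp [lf, rc]
  | insert i s hi ih => rw [Finset.sum_insert hi, Finset.sum_insert hi, lf_add, ih]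

theorem vec_real (v : Cn n) : v = ∑ a, ((v a).re • (EuclideanSpace.single a (1 : ℂ) : Cn n)
    + (v a).im • (EuclideanSpace.single a I : Cn n)) := by
  ext b
  simp only [PiLp.add_apply, WithLp.ofLp_sum, Finset.sum_apply, PiLp.smul_apply,
    PiLp.single_apply, smul_ite, smul_zero, Finset.sum_add_distrib,
    Finset.sum_ite_eq, Finset.mem_univ, if_true, Complex.real_smul, mul_one]
  exact (Complex.re_add_im (v b)).symm

theorem pz_ne {z : Fin (dC n) → ℝ} (hz : z ≠ 0) : pz z ≠ 0 := by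
  intro h
  apply hz
  have h1 : ∀ a : Fin n, lf z (EuclideanSpace.single a 1) = 0 ∧ lf z (EuclideanSpace.single a I) = 0 := by
    intro a
    have h2 : pz z a = 0 := congrFun h a
    have h3 := congrArg Complex.re h2
    have h4 := congrArg Complex.im h2
    simp [pz] at h3 h4
    exact ⟨h3, h4⟩
  have h5 : ∀ v : Cn n, lf z v = 0 := by
    intro v
    rw [vec_real v, lf_sum]
    refine Finset.sum_eq_zero fun a _ => ?_
    rw [lf_add, lf_smul, lf_smul, (h1 a).1, (h1 a).2]
    ring
  funext i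
  have h6 := h5 ((TT n).symm (ee i))
  simp only [lf, rc, ContinuousLinearEquiv.apply_symm_apply, ee] at h6
  simpa using h6

/-! ### positivity -/

theorem posDef_cH {u : Cn n → ℝ} {z : Cn n} (hu : ContDiffAt ℝ 2 u z)
    (h : ∀ v, v ≠ 0 → 0 < lev u z v) : (cH u z).PosDef := by
  have hh : (cH u z).IsHermitian := by
    ext a b
    rw [Matrix.conjTranspose_apply, cH_eq_hs hu, cH_eq_hs hu]
    exact Levi_145.hs_herm hu b a
  refine Matrix.PosDef.of_dotProduct_mulVec_pos hh fun x hx => ?_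
  set v : Cn n := WithLp.toLp 2 (fun a => conj (x a)) with hv
  have h0 : v ≠ 0 := by
    intro h1
    apply hx
    funext a
    have := congrArg (fun v : Cn n => v a) h1
    simpa [hv] using this
  have h1 := h v h0
  rw [lev333_eq_lev145] at h1
  have h2 := Levi_145.lev_eq hu v
  have h3 : star x ⬝ᵥ (cH u z) *ᵥ x
      = ∑ a, ∑ b, Levi_145.hs (Levi_145.cx u) z a b * v a * conj (v b) := by
    simp only [dotProduct, Matrix.mulVec, Pi.star_apply, RCLike.star_def, Finset.mul_sum, hv,
      Complex.conj_conj, cH_eq_hs hu]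
    refine Finset.sum_congr rfl fun a _ => Finset.sum_congr rfl fun b _ => ?_
    ring
  rw [h3, ← h2]
  exact_mod_cast (by linarith : (0 : ℝ) < Levi_145.lev u z v)

/-- derivative of the Monge-Ampere operator in rank one directions -/
theorem deriv_r1 {H : VM (dC n)} (hH : (cHV H).PosDef) {z : Fin (dC n) → ℝ} (hz : z ≠ 0) :
    0 < fderiv ℝ (PhiC (n := n)) H (r1 z) := by
  set G := cHV H with hG
  have hdet : IsUnit G.det := isUnit_iff_ne_zero.2 hH.det_pos.ne'
  set q : ℂ := star (fun b => pz z b) ⬝ᵥ (G⁻¹ *ᵥ (fun a => pz z a)) with hq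
  have hq0 : 0 < q := by
    have := hH.inv.dotProduct_mulVec_pos (pz_ne hz)
    exact this
  have hdq : ∀ t : ℝ, PhiC (H + t • r1 z) = (G.det * (1 + (t : ℂ) * ((1 / 4) * q))).re := by
    intro t
    have e1 : cHV (H + t • r1 z) = G + Matrix.replicateCol Unit (fun a => (t : ℂ) * (1 / 4) * pz z a)
        * Matrix.replicateRow Unit (star (fun b => pz z b)) := by
      rw [cHV_add_smul, cHV_r1]
      congr 1
      ext a b
      simp only [Matrix.smul_apply, Matrix.of_apply, smul_eq_mul, Matrix.mul_apply,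
        Matrix.replicateCol_apply, Matrix.replicateRow_apply, Pi.star_apply, RCLike.star_def,
        Finset.univ_unique, Finset.sum_const, Finset.card_singleton, one_smul]
      ring
    unfold PhiC
    rw [e1, Matrix.det_add_replicateCol_mul_replicateRow hdet]
    congr 2
    rw [Matrix.det_unique, Matrix.add_apply, Matrix.one_apply_eq, Matrix.mul_assoc]
    congr 1
    simp only [Matrix.mul_apply, Matrix.replicateRow_apply, Matrix.replicateCol_apply]
    rw [hq]
    simp only [dotProduct, Matrix.mulVec, Finset.mul_sum]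
    refine Finset.sum_congr rfl fun i _ => Finset.sum_congr rfl fun j _ => ?_
    ring
  have hd1 : HasDerivAt (fun t : ℝ => PhiC (H + t • r1 z)) (fderiv ℝ (PhiC (n := n)) H (r1 z)) 0 := by
    have h1 : HasDerivAt (fun t : ℝ => H + t • r1 z) (r1 z) 0 := by
      have := ((hasDerivAt_id (0 : ℝ)).smul_const (r1 z)).const_add H
      simpa using this
    have h2 : HasFDerivAt (PhiC (n := n)) (fderiv ℝ (PhiC (n := n)) H) (H + (0 : ℝ) • r1 z) := by
      rw [zero_smul, add_zero]
      exact ((PhiC_smooth (n := n)).differentiable (by simp) H).hasFDerivAt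
    exact h2.comp_hasDerivAt (0 : ℝ) h1
  have hd2 : HasDerivAt (fun t : ℝ => PhiC (H + t • r1 z)) (G.det * ((1 / 4) * q)).re 0 := by
    have e : (fun t : ℝ => PhiC (H + t • r1 z))
        = fun t : ℝ => G.det.re + t * (G.det * ((1 / 4) * q)).re := by
      funext t
      rw [hdq t]
      have : G.det * (1 + (t : ℂ) * ((1 / 4) * q)) = G.det + (t : ℂ) * (G.det * ((1 / 4) * q)) := by
        ring
      rw [this, Complex.add_re, Complex.re_ofReal_mul]
    rw [e]
    simpa using ((hasDerivAt_id (0 : ℝ)).mul_const (G.det * ((1 / 4) * q)).re).const_add G.det.re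
  rw [hd1.unique hd2]
  have h3 : 0 < G.det * ((1 / 4) * q) :=
    mul_pos hH.det_pos (mul_pos (by norm_num [Complex.lt_def]) hq0)
  exact (Complex.pos_iff.1 h3).1

theorem pd_PhiC {H : VM (dC n)} (hH : (cHV H).PosDef) :
    PD (fun i j => fderiv ℝ (PhiC (n := n)) H (Es i j)) := by
  refine ⟨fun i j => by simp only [Es_comm i j], fun z hz => ?_⟩
  have h1 := deriv_r1 hH hz
  have h2 : r1 z = ∑ i, ∑ j, (r1 z) i j • (Es i j : VM (dC n)) :=
    (sum_Es fun i j => by simp only [r1]; ring).symm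
  rw [h2] at h1
  simp only [map_sum, map_smul, smul_eq_mul] at h1
  refine lt_of_lt_of_eq h1 (Finset.sum_congr rfl fun i _ => Finset.sum_congr rfl fun j _ => ?_)
  simp only [r1]
  ring

/-! ### the Hessian in real coordinates -/

theorem fd2_comp_equiv {u : Cn n → ℝ} {x : E (dC n)} (hu : ContDiffAt ℝ 2 u ((TT n).symm x))
    (h k : E (dC n)) :
    fderiv ℝ (fderiv ℝ fun y => u ((TT n).symm y)) x h k
      = D2 u ((TT n).symm x) ((TT n).symm h) ((TT n).symm k) := by
  set T : E (dC n) →L[ℝ] Cn n := ((TT n).symm : E (dC n) →L[ℝ] Cn n) with hT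
  have e1 : fderiv ℝ (fun y => u ((TT n).symm y))
      =ᶠ[𝓝 x] fun y => (fderiv ℝ u (T y)).comp T := by
    have h1 : ∀ᶠ z in 𝓝 ((TT n).symm x), DifferentiableAt ℝ u z := by
      filter_upwards [hu.eventually (by simp)] with z hz using hz.differentiableAt (by norm_num)
    filter_upwards [(TT n).symm.continuous.continuousAt.eventually h1] with y hy
    have h2 : HasFDerivAt u (fderiv ℝ u (T y)) (T y) := hy.hasFDerivAt
    exact (h2.comp y T.hasFDerivAt).fderiv
  rw [e1.fderiv_eq]
  have h3 : HasFDerivAt (fderiv ℝ u) (fderiv ℝ (fderiv ℝ u) (T x)) (T x) := by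
    have : ContDiffAt ℝ 1 (fderiv ℝ u) (T x) := hu.fderiv_right (by norm_num)
    exact (this.differentiableAt (by norm_num)).hasFDerivAt
  have h4 : HasFDerivAt (fun y => fderiv ℝ u (T y)) ((fderiv ℝ (fderiv ℝ u) (T x)).comp T) x :=
    h3.comp x T.hasFDerivAt
  have h5 : HasFDerivAt (fun y => (fderiv ℝ u (T y)).comp T)
      (((ContinuousLinearMap.compL ℝ (E (dC n)) (Cn n) ℝ).flip T).comp
        ((fderiv ℝ (fderiv ℝ u) (T x)).comp T)) x :=
    (((ContinuousLinearMap.compL ℝ (E (dC n)) (Cn n) ℝ).flip T).hasFDerivAt).comp x h4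
  rw [h5.fderiv]
  rfl

theorem bl_HM2 {u : Cn n → ℝ} {x : E (dC n)} (hu : ContDiffAt ℝ 2 u ((TT n).symm x)) (v w : Cn n) :
    bl (HM2 (fun y => u ((TT n).symm y)) x) v w = D2 u ((TT n).symm x) v w := by
  have hv := rc_expand v
  have hw := rc_expand w
  have e : D2 u ((TT n).symm x) v w = D2 u ((TT n).symm x)
      (∑ i, rc v i • (TT n).symm (ee i)) (∑ i, rc w i • (TT n).symm (ee i)) := by
    rw [← hv, ← hw]
  rw [e]
  simp only [bl, HM2, Hs, fd2_comp_equiv hu, D2, map_sum, map_smul, smul_eq_mul,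
    FunLike.coe_sum, Finset.sum_apply, _root_.smul_apply, Finset.mul_sum]
  rw [Finset.sum_comm]
  refine Finset.sum_congr rfl fun i _ => Finset.sum_congr rfl fun j _ => ?_
  ring

theorem cHV_HM2 {u : Cn n → ℝ} {x : E (dC n)} (hu : ContDiffAt ℝ 2 u ((TT n).symm x)) :
    cHV (HM2 (fun y => u ((TT n).symm y)) x) = cH u ((TT n).symm x) := by
  ext a b
  simp only [cHV, cH, bl_HM2 hu, Matrix.of_apply]

theorem lck_two {m : ℕ} {a : ℝ} (ha0 : 0 ≤ a) (ha : a ≤ 1) {U : Set (E m)} (hU : IsOpen U)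
    {u : E m → ℝ} (hc : ContDiffOn ℝ 2 u U) (hh : ∀ i j, LH a U (fun x => Hs u x i j)) :
    LCK a 2 U u := by
  have h1 : ∀ j, ContDiffOn ℝ 1 (Boot.pd j u) U := fun j =>
    (hc.fderiv_of_isOpen hU (m := 1) (by norm_num)).clm_apply contDiffOn_const
  refine ⟨lh_of_contDiffOn ha0 ha hU (hc.of_le (by norm_num)), hc.differentiableOn (by norm_num),
    fun j => ⟨lh_of_contDiffOn ha0 ha hU (h1 j), (h1 j).differentiableOn (by norm_num),
      fun i => ?_⟩⟩
  exact (hh i j).congr hU fun x hx => (pd_pd_on hU hc i j hx).symm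

theorem reg_holds : RegStmt := by
  intro n U u f a hU ha ha1 hu hf hH hpos heq
  set T : E (dC n) →L[ℝ] Cn n := ((TT n).symm : E (dC n) →L[ℝ] Cn n) with hT
  set U' : Set (E (dC n)) := (fun x => T x) ⁻¹' U with hU'
  have hU'o : IsOpen U' := hU.preimage T.continuous
  have hcT : ContDiff ℝ ∞ (fun x : E (dC n) => T x) := T.contDiff
  set u' : E (dC n) → ℝ := fun x => u ((TT n).symm x) with hu'
  have hcT2 : ContDiff ℝ 2 (fun x : E (dC n) => T x) := T.contDiff
  have hu'c : ContDiffOn ℝ 2 u' U' := hu.comp hcT2.contDiffOn fun x hx => hx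
  have hc2 : ∀ x ∈ U', ContDiffAt ℝ 2 u ((TT n).symm x) := fun x hx =>
    hu.contDiffAt (hU.mem_nhds hx)
  have hLH : ∀ i j, LH a U' (fun x => Hs u' x i j) := by
    intro i j x0 hx0
    obtain ⟨r, hr, C, hrU, hC⟩ := hH (T x0) hx0
    have hb : ∃ r' > 0, ∀ x ∈ ball x0 r', T x ∈ ball (T x0) r :=
      Metric.continuousAt_iff.1 T.continuous.continuousAt r hr
    obtain ⟨r', hr', hb⟩ := hb
    set C' : ℝ := |C| * ‖T‖ ^ a * (‖(TT n).symm (ee i)‖ * ‖(TT n).symm (ee j)‖) with hC'
    have hC'0 : 0 ≤ C' := by positivity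
    have key : ∀ x ∈ ball x0 r', ∀ y ∈ ball x0 r', |Hs u' x i j - Hs u' y i j| ≤ C' * ‖x - y‖ ^ a := by
      intro x hx y hy
      have hx' := hb x hx
      have hy' := hb y hy
      simp only [Hs, hu', fd2_comp_equiv (hc2 x (hrU hx')), fd2_comp_equiv (hc2 y (hrU hy')), D2]
      have h1 := hC _ hx' _ hy'
      have h2 : fderiv ℝ (fderiv ℝ u) ((TT n).symm x) ((TT n).symm (ee i)) ((TT n).symm (ee j))
          - fderiv ℝ (fderiv ℝ u) ((TT n).symm y) ((TT n).symm (ee i)) ((TT n).symm (ee j))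
          = (fderiv ℝ (fderiv ℝ u) (T x) - fderiv ℝ (fderiv ℝ u) (T y)) ((TT n).symm (ee i))
            ((TT n).symm (ee j)) := rfl
      rw [h2, ← Real.norm_eq_abs]
      refine (ContinuousLinearMap.le_opNorm₂ _ _ _).trans ?_
      have h3 : ‖T x - T y‖ ^ a ≤ ‖T‖ ^ a * ‖x - y‖ ^ a := by
        rw [← map_sub, ← Real.mul_rpow (norm_nonneg _) (norm_nonneg _)]
        exact Real.rpow_le_rpow (norm_nonneg _) (T.le_opNorm _) ha.le
      have h4 : ‖fderiv ℝ (fderiv ℝ u) (T x) - fderiv ℝ (fderiv ℝ u) (T y)‖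
          ≤ |C| * (‖T‖ ^ a * ‖x - y‖ ^ a) :=
        h1.trans ((mul_le_mul_of_nonneg_right (le_abs_self C)
          (Real.rpow_nonneg (norm_nonneg _) _)).trans
          (mul_le_mul_of_nonneg_left h3 (abs_nonneg _)))
      calc _ = ‖fderiv ℝ (fderiv ℝ u) (T x) - fderiv ℝ (fderiv ℝ u) (T y)‖
            * (‖(TT n).symm (ee i)‖ * ‖(TT n).symm (ee j)‖) := by ring
        _ ≤ (|C| * (‖T‖ ^ a * ‖x - y‖ ^ a)) * (‖(TT n).symm (ee i)‖ * ‖(TT n).symm (ee j)‖) :=
          mul_le_mul_of_nonneg_right h4 (by positivity)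
        _ = _ := by rw [hC']; ring
    refine ⟨r', hr', max C' (|Hs u' x0 i j| + C' * r' ^ a), fun x hx => ?_, fun x hx y hy => ?_⟩
    · have h1 := key x hx x0 (mem_ball_self hr')
      have h2 : ‖x - x0‖ ^ a ≤ r' ^ a :=
        Real.rpow_le_rpow (norm_nonneg _) (by rw [← dist_eq_norm]; exact (mem_ball.1 hx).le) ha.le
      have h3 : |Hs u' x i j| ≤ |Hs u' x i j - Hs u' x0 i j| + |Hs u' x0 i j| := by
        have := abs_add_le (Hs u' x i j - Hs u' x0 i j) (Hs u' x0 i j)
        simpa using this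
      have h4 := mul_le_mul_of_nonneg_left h2 hC'0
      exact (by linarith : |Hs u' x i j| ≤ |Hs u' x0 i j| + C' * r' ^ a).trans (le_max_right _ _)
    · exact (key x hx y hy).trans
        (mul_le_mul_of_nonneg_right (le_max_left _ _) (Real.rpow_nonneg (norm_nonneg _) _))
  have hlck : LCK a 2 U' u' := lck_two ha.le ha1.le hU'o hu'c hLH
  have hG : ∀ x ∈ U', cHV (HM2 u' x) = cH u ((TT n).symm x) := fun x hx => cHV_HM2 (hc2 x hx)
  have hsm : ContDiffOn ℝ ∞ u' U' := by
    refine nonlin_smooth ha ha1 hU'o (f := fun x => Real.exp (f (T x))) (PhiC_smooth (n := n))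
      hlck (fun x hx => pd_PhiC ?_) (fun x hx => ?_) ?_
    · rw [hG x hx]
      exact posDef_cH (hc2 x hx) (hpos _ hx)
    · unfold PhiC
      have h1 : (cH u ((TT n).symm x)).det = (Real.exp (f (T x)) : ℂ) := heq _ hx
      rw [hG x hx, h1, Complex.ofReal_re]
    · exact Real.contDiff_exp.comp_contDiffOn (hf.comp hcT.contDiffOn fun x hx => hx)
  have hTT : ContDiff ℝ ∞ (fun z : Cn n => TT n z) := (TT n).contDiff
  have h := hsm.comp hTT.contDiffOn (s := U) fun z hz => by
    show T (TT n z) ∈ U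
    have : T (TT n z) = z := (TT n).symm_apply_apply z
    rwa [this]
  refine h.congr fun z hz => ?_
  simp [hu']

end

end Crest.Agent.R273.CReg_933
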