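import Crest.Agent.R273.YauPf_635
import Crest.Agent.R273.CRegE_933

/-!
# R273 (S0416), Part C, YAU (helper635): preparations for openness

* `c2a_add`, `c2a_zero`, `ho_exp`, `abs_lev_le`
* `ball_limit` : limits of `C^{2,a}`-bounded sequences on a ball
* `sm_of_local`, `ma_of_local`, `kpos_of_local`
-/

set_option autoImplicit false
set_option linter.unusedSectionVars false

open Set Filter Topology Complex Metric
open scoped ContDiff Matrix ComplexConjugate ComplexOrder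

namespace Crest.Agent.R273.YauOpA_635

open Crest.Agent.R275.Geo Crest.Agent.R275.Core144 Crest.Agent.R275.GC293
open Crest.Agent.R273.Defs_333 Crest.Agent.R273.YauDefs_635 Crest.Agent.R273.HM_333
open Crest.Agent.R273.YauCh_635 Crest.Agent.R273.Hess_333 Crest.Agent.R273.HessB_333
open Crest.Agent.R273.Kah_333 Crest.Agent.R273.YauMax_635 Crest.Agent.R273.YauLoc_635
open Crest.Agent.R273.SchA_152 Crest.Agent.R273.SchD_152 Crest.Agent.R273.YauQ_635
open Crest.Agent.R273.YauSchF_635 Crest.Agent.R273.YauClose_635 Crest.Agent.R273.YauPf_635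
open Crest.Agent.R273.YauLim_635

noncomputable section

section Local

variable {n : ℕ}

theorem fd_add {u v : Cn n → ℝ} {U : Set (Cn n)} (hU : IsOpen U) (hu : ContDiffOn ℝ ∞ u U)
    (hv : ContDiffOn ℝ ∞ v U) {z : Cn n} (hz : z ∈ U) :
    fderiv ℝ (fun w => u w + v w) z = fderiv ℝ u z + fderiv ℝ v z :=
  fderiv_fun_add ((hu.contDiffAt (hU.mem_nhds hz)).differentiableAt (by simp))
    ((hv.contDiffAt (hU.mem_nhds hz)).differentiableAt (by simp))

theorem fd2_add {u v : Cn n → ℝ} {U : Set (Cn n)} (hU : IsOpen U) (hu : ContDiffOn ℝ ∞ u U)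
    (hv : ContDiffOn ℝ ∞ v U) {z : Cn n} (hz : z ∈ U) :
    fderiv ℝ (fderiv ℝ (fun w => u w + v w)) z =
      fderiv ℝ (fderiv ℝ u) z + fderiv ℝ (fderiv ℝ v) z := by
  have h1 : fderiv ℝ (fun w => u w + v w) =ᶠ[𝓝 z] fun w => fderiv ℝ u w + fderiv ℝ v w := by
    filter_upwards [hU.mem_nhds hz] with w hw
    exact fd_add hU hu hv hw
  have hu1 : ContDiffOn ℝ ∞ (fderiv ℝ u) U := hu.fderiv_of_isOpen hU (by simp)
  have hv1 : ContDiffOn ℝ ∞ (fderiv ℝ v) U := hv.fderiv_of_isOpen hU (by simp)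
  rw [h1.fderiv_eq]
  exact fderiv_fun_add ((hu1.contDiffAt (hU.mem_nhds hz)).differentiableAt (by simp))
    ((hv1.contDiffAt (hU.mem_nhds hz)).differentiableAt (by simp))

theorem c2a_add {u v : Cn n → ℝ} {U s : Set (Cn n)} (hU : IsOpen U) (hs : s ⊆ U)
    (hu : ContDiffOn ℝ ∞ u U) (hv : ContDiffOn ℝ ∞ v U) {a p q : ℝ} (h : C2A a p s u)
    (h' : C2A a q s v) : C2A a (p + q) s (fun w => u w + v w) :=
  ⟨h.h0.add h'.h0, (h.h1.add h'.h1).congr fun _ hx => fd_add hU hu hv (hs hx),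
    (h.h2.add h'.h2).congr fun _ hx => fd2_add hU hu hv (hs hx)⟩

theorem ho_zero' {X F : Type*} [NormedAddCommGroup X] [NormedAddCommGroup F] {a : ℝ} {s : Set X}
    {f : X → F} (h : ∀ x, f x = 0) : HO a 0 s f :=
  ⟨fun x _ => by simp [h], fun x _ y _ => by simp [h]⟩

theorem c2a_zero {a : ℝ} {s : Set (Cn n)} : C2A a 0 s (fun _ : Cn n => (0 : ℝ)) := by
  have e1 : fderiv ℝ (fun _ : Cn n => (0 : ℝ)) = fun _ => 0 := by
    funext z
    exact fderiv_const_apply _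
  have e2 : fderiv ℝ (fderiv ℝ (fun _ : Cn n => (0 : ℝ))) = fun _ => 0 := by
    rw [e1]
    funext z
    exact fderiv_const_apply _
  exact ⟨ho_zero' fun _ => rfl, ho_zero' fun _ => by rw [e1], ho_zero' fun _ => by rw [e2]⟩

theorem ho_smul {X : Type*} [NormedAddCommGroup X] {a N : ℝ} {s : Set X} {f : X → ℝ} (c : ℝ)
    (h : HO a N s f) : HO a (|c| * N) s (fun z => c * f z) := by
  refine ⟨fun z hz => ?_, fun z hz w hw => ?_⟩
  · rw [norm_mul, Real.norm_eq_abs]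
    exact mul_le_mul_of_nonneg_left (h.bdd z hz) (abs_nonneg _)
  · rw [← mul_sub, norm_mul, Real.norm_eq_abs, mul_assoc]
    exact mul_le_mul_of_nonneg_left (h.hol z hz w hw) (abs_nonneg _)

theorem ho_exp {X : Type*} [NormedAddCommGroup X] {a K : ℝ} {s : Set X} {f : X → ℝ} (hK : 0 ≤ K)
    (h : HO a K s f) {t : ℝ} (ht : |t| * (2 * K + 1) ≤ 1) :
    HO a (6 * |t| * K) s (fun z => Real.exp (t * f z) - 1) := by
  have ht0 := abs_nonneg t
  have htK : 2 * (|t| * K) ≤ 1 := by nlinarith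
  have hb : ∀ z ∈ s, |t * f z| ≤ |t| * K := fun z hz => by
    rw [abs_mul]
    exact mul_le_mul_of_nonneg_left (h.bdd z hz) ht0
  have he : Real.exp 1 ≤ 3 := Real.exp_one_lt_three.le
  refine ⟨fun z hz => ?_, fun z hz w hw => ?_⟩
  · have h1 := hb z hz
    have h2 := Real.abs_exp_sub_one_le (x := t * f z) (by linarith)
    rw [Real.norm_eq_abs]
    nlinarith [mul_nonneg ht0 hK]
  · have h1 := hb z hz
    have h2 := hb w hw
    have e1 : Real.exp (t * f z) - 1 - (Real.exp (t * f w) - 1) =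
        Real.exp (t * f w) * (Real.exp (t * f z - t * f w) - 1) := by
      rw [mul_sub, ← Real.exp_add]
      ring_nf
    have h3 : |t * f z - t * f w| ≤ 1 := by
      have := abs_sub (t * f z) (t * f w)
      linarith
    have h4 := Real.abs_exp_sub_one_le h3
    have h5 : |t * f z - t * f w| ≤ |t| * (K * ‖z - w‖ ^ a) := by
      rw [← mul_sub, abs_mul]
      exact mul_le_mul_of_nonneg_left (h.hol z hz w hw) ht0
    have h6 : Real.exp (t * f w) ≤ 3 :=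
      (Real.exp_le_exp.2 ((le_abs_self _).trans (by linarith))).trans he
    have h7 : 0 ≤ |t| * (K * ‖z - w‖ ^ a) := (abs_nonneg _).trans h5
    rw [e1, Real.norm_eq_abs, abs_mul, abs_of_pos (Real.exp_pos _)]
    calc Real.exp (t * f w) * |Real.exp (t * f z - t * f w) - 1|
        ≤ 3 * (2 * (|t| * (K * ‖z - w‖ ^ a))) :=
          mul_le_mul h6 (h4.trans (by linarith)) (abs_nonneg _) (by norm_num)
      _ = 6 * |t| * K * ‖z - w‖ ^ a := by ring

theorem abs_lev_le (u : Cn n → ℝ) (z v : Cn n) :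
    |lev u z v| ≤ 2 * ‖fderiv ℝ (fderiv ℝ u) z‖ * ‖v‖ ^ 2 := by
  have h : ∀ w : Cn n, |D2 u z w w| ≤ ‖fderiv ℝ (fderiv ℝ u) z‖ * ‖w‖ ^ 2 := by
    intro w
    have h1 := (fderiv ℝ (fderiv ℝ u) z w).le_opNorm w
    have h2 := (fderiv ℝ (fderiv ℝ u) z).le_opNorm w
    rw [Real.norm_eq_abs] at h1
    calc |D2 u z w w| ≤ ‖fderiv ℝ (fderiv ℝ u) z w‖ * ‖w‖ := h1
      _ ≤ ‖fderiv ℝ (fderiv ℝ u) z‖ * ‖w‖ * ‖w‖ :=
        mul_le_mul_of_nonneg_right h2 (norm_nonneg _)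
      _ = _ := by ring
  have h1 := h v
  have h2 := h (I • v)
  have h3 : ‖I • v‖ = ‖v‖ := by rw [norm_smul, Complex.norm_I, one_mul]
  rw [h3] at h2
  rw [lev_D2]
  have := abs_add_le (D2 u z v v) (D2 u z (I • v) (I • v))
  linarith

theorem lim_norm_le {F : Type*} [NormedAddCommGroup F] {U : Ultrafilter ℕ} {f : ℕ → F} {y : F}
    (h : Tendsto f U (𝓝 y)) {C : ℝ} (hC : ∀ k, ‖f k‖ ≤ C) : ‖y‖ ≤ C :=
  le_of_tendsto h.norm (Eventually.of_forall hC)

theorem lim_norm_sub_le {F : Type*} [NormedAddCommGroup F] {U : Ultrafilter ℕ} {f g : ℕ → F}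
    {y y' : F} (h : Tendsto f U (𝓝 y)) (h' : Tendsto g U (𝓝 y')) {C : ℝ}
    (hC : ∀ k, ‖f k - g k‖ ≤ C) : ‖y - y'‖ ≤ C :=
  le_of_tendsto (h.sub h').norm (Eventually.of_forall hC)

/-- limits on a whole ball -/
theorem ball_limit (U : Ultrafilter ℕ) {z₀ : Cn n} {r a S : ℝ} (ha : 0 < a) (hS0 : 0 ≤ S)
    {u : ℕ → Cn n → ℝ} {V : Cn n → ℝ}
    (hu : ∀ k, ContDiffOn ℝ 2 (u k) (ball z₀ r))
    (h0 : ∀ k, ∀ z ∈ ball z₀ r, |u k z| ≤ S)
    (h2 : ∀ k, HO a S (ball z₀ r) (fderiv ℝ (fderiv ℝ (u k))))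
    (hV : ∀ z ∈ ball z₀ r, Tendsto (fun k => u k z) U (𝓝 (V z))) :
    ContDiffOn ℝ 2 V (ball z₀ r) ∧
      (∀ z ∈ ball z₀ r,
        Tendsto (fun k => fderiv ℝ (fderiv ℝ (u k)) z) U (𝓝 (fderiv ℝ (fderiv ℝ V) z))) ∧
      HO a S (ball z₀ r) (fderiv ℝ (fderiv ℝ V)) := by
  have key : ∀ z ∈ ball z₀ r, ∃ ρ > 0, ContDiffOn ℝ 2 V (ball z ρ) ∧
      ∀ w ∈ ball z ρ,
        Tendsto (fun k => fderiv ℝ (fderiv ℝ (u k)) w) U (𝓝 (fderiv ℝ (fderiv ℝ V) w)) := by
    intro z hz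
    obtain ⟨ρ, hρ, hρs⟩ := Metric.isOpen_iff.1 isOpen_ball z hz
    have e : 2 * (ρ / 2) = ρ := by ring
    have hsub : ball z (2 * (ρ / 2)) ⊆ ball z₀ r := by rwa [e]
    obtain ⟨g1, g2, -⟩ := lim_c2 U (z₀ := z) (r := ρ / 2) (a := a) (S := S) (by linarith)
      ha hS0 (v := u) (V := V) (fun k => (hu k).mono hsub) (fun k w hw => h0 k w (hsub hw))
      (fun k w hw => (h2 k).bdd w (hsub hw))
      (fun k w hw y hy => (h2 k).hol w (hsub hw) y (hsub hy))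
      (fun w hw => hV w (hρs (ball_subset_ball (by linarith) hw)))
    exact ⟨ρ / 2, by linarith, g1, g2⟩
  have hpt : ∀ z ∈ ball z₀ r,
      Tendsto (fun k => fderiv ℝ (fderiv ℝ (u k)) z) U (𝓝 (fderiv ℝ (fderiv ℝ V) z)) := by
    intro z hz
    obtain ⟨ρ, hρ, -, g2⟩ := key z hz
    exact g2 z (mem_ball_self hρ)
  refine ⟨fun z hz => ?_, hpt, ⟨fun z hz => ?_, fun z hz w hw => ?_⟩⟩
  · obtain ⟨ρ, hρ, g1, -⟩ := key z hz
    exact (g1.contDiffAt (isOpen_ball.mem_nhds (mem_ball_self hρ))).contDiffWithinAt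
  · exact lim_norm_le (hpt z hz) fun k => (h2 k).bdd z hz
  · exact lim_norm_sub_le (hpt z hz) (hpt w hw) fun k => (h2 k).hol z hz w hw

end Local

theorem exists_pos_lb {κ : Type*} [Finite κ] {c : κ → ℝ} (h : ∀ k, 0 < c k) :
    ∃ lo > 0, ∀ k, lo ≤ c k := by
  obtain ⟨B, hB⟩ := (Set.finite_range fun k => (c k)⁻¹).bddAbove
  refine ⟨(max B 1)⁻¹, by positivity, fun k => ?_⟩
  have h1 : (c k)⁻¹ ≤ max B 1 := (hB ⟨k, rfl⟩).trans (le_max_left _ _)
  exact inv_le_of_inv_le₀ (h k) h1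

theorem exists_ub {κ : Type*} [Finite κ] (c : κ → ℝ) : ∃ B, 0 ≤ B ∧ ∀ k, c k ≤ B := by
  obtain ⟨B, hB⟩ := (Set.finite_range c).bddAbove
  exact ⟨max B 0, le_max_right _ _, fun k => (hB ⟨k, rfl⟩).trans (le_max_left _ _)⟩

variable {n : ℕ} {M : Type} [TopologicalSpace M] {A : Atl n M} {L : LB A}

theorem sm_of_local {Ψ : M → ℝ}
    (h : ∀ x, ∃ k : A.ι, x ∈ (A.e k).source ∧ ContDiffAt ℝ ∞ (inC A k Ψ) (A.e k x)) :
    A.Sm Ψ := by
  intro i z hz
  refine ContDiffAt.contDiffWithinAt ?_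
  have hx := (A.e i).map_target hz
  obtain ⟨k, hk, hc⟩ := h ((A.e i).symm z)
  have hxx : (A.e i).symm z ∈ (A.e i).source ∩ (A.e k).source := ⟨hx, hk⟩
  have hT := anal_Tm (A := A) hxx
  rw [(A.e i).right_inv hz] at hT
  have hTz : Tm A i k z = A.e k ((A.e i).symm z) := rfl
  have h1 : ContDiffAt ℝ ∞ (fun w => inC A k Ψ (Tm A i k w)) z := by
    refine ContDiffAt.comp z (g := inC A k Ψ) (f := Tm A i k) ?_ (hT.contDiffAt.restrict_scalars ℝ)
    rw [hTz]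
    exact hc
  refine h1.congr_of_eventuallyEq ?_
  have ho : IsOpen (A.ov i k) := isOpen_ov i k
  have hm : z ∈ A.ov i k := by
    have := mem_ov hxx
    rwa [(A.e i).right_inv hz] at this
  filter_upwards [ho.mem_nhds hm] with w hw
  simp [inC, Tm, (A.e k).left_inv hw.2]

theorem pot_zero (H : HM L) (i : A.ι) : pot H (fun _ => 0) i = H.wt i := by
  funext z
  simp [pot, inC]

theorem ma_of_local {H : HM L} (hH : H.Pos) {Ψ f : M → ℝ} (hΨ : A.Sm Ψ)
    (h : ∀ x, ∃ k : A.ι, x ∈ (A.e k).source ∧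
      (cH (pot H Ψ k) (A.e k x)).det = (Real.exp (f x) : ℂ) * (cH (H.wt k) (A.e k x)).det) :
    MA H Ψ f := by
  intro i z hz
  have hx := (A.e i).map_target hz
  obtain ⟨k, hk, hd⟩ := h ((A.e i).symm z)
  have hxx : (A.e i).symm z ∈ (A.e i).source ∩ (A.e k).source := ⟨hx, hk⟩
  have h0 : A.Sm (fun _ : M => (0 : ℝ)) := fun i => contDiffOn_const
  have t1 := cH_pot_tr H hΨ hxx
  have t2 := cH_pot_tr H h0 hxx
  rw [(A.e i).right_inv hz] at t1 t2
  rw [pot_zero, pot_zero] at t2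
  have hne : (cH (H.wt k) (A.e k ((A.e i).symm z))).det ≠ 0 :=
    (det_wt_pos hH ((A.e k).map_source hk)).ne'
  have hne' : (cH (H.wt i) z).det ≠ 0 := (det_wt_pos hH hz).ne'
  have hr := det_conj_ratio (B := cH (pot H Ψ k) (A.e k ((A.e i).symm z)))
    (C := cH (H.wt k) (A.e k ((A.e i).symm z))) (det_J hxx)
  rw [← t1, ← t2, hd, mul_div_assoc, div_self hne, mul_one, div_eq_iff hne'] at hr
  exact hr

theorem kpos_of_local {H : HM L} {Ψ : M → ℝ} (hΨ : A.Sm Ψ)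
    (h : ∀ x, ∃ k : A.ι, x ∈ (A.e k).source ∧ (cH (pot H Ψ k) (A.e k x)).PosDef) :
    KPos H Ψ := by
  intro i z hz v hv
  have hx := (A.e i).map_target hz
  obtain ⟨k, hk, hd⟩ := h ((A.e i).symm z)
  have hxx : (A.e i).symm z ∈ (A.e i).source ∩ (A.e k).source := ⟨hx, hk⟩
  have t1 := cH_pot_tr H hΨ hxx
  rw [(A.e i).right_inv hz] at t1
  have hJ := det_J hxx
  set J := Jm A i k ((A.e i).symm z) with hJd
  have e1 : (J.map conj)ᴴ = Jᵀ := by
    ext a b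
    simp [Matrix.conjTranspose_apply, Matrix.transpose_apply]
  have hunit : IsUnit (J.map conj) := by
    rw [Matrix.isUnit_iff_isUnit_det, isUnit_iff_ne_zero]
    have h2 : (J.map conj).det = conj J.det := by
      rw [← RingHom.mapMatrix_apply, ← RingHom.map_det]
    rw [h2]
    simpa using hJ
  have hp : (cH (pot H Ψ i) z).PosDef := by
    rw [t1, ← e1]
    exact hd.conjTranspose_mul_mul_same (Matrix.mulVec_injective_iff_isUnit.2 hunit)
  have hc := pot_contDiffAt H hΨ i hz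
  rw [cH_eq_hess hc] at hp
  exact lev_pos_of_posDef hc hp hv

end

end Crest.Agent.R273.YauOpA_635
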