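import Crest.Agent.R273.HessB_333

/-!
# R273 (S0416), Part E (helper333): curvature matrices of Hermitian metrics on `(M, A)`

`Hm A f i x`      : `∂_a ∂_{b̄} f` at `x` in the chart `i` for a family `f : A.ι → Cn n → ℝ`
`cur h i x`       : curvature matrix of `h : HM L` in the chart `i`, `∂_a ∂_{b̄} (-log w_i)`
* `cur_tr`        : `cur i = Jᵀ (cur j) conj J`
* `cur_posDef`, `cur_posSemidef`
* `cur_smooth`, `cur_closed`, `cur_closed'`
* `cur_mul`, `cur_inv`, `cur_pow`, `cur_tw`
* `Kah A`         : Kaehler metrics (Hermitian matrices in charts, closed, positive);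
  `HM.Pos.kah` : the Kaehler metric of a positively curved metric.
-/

set_option autoImplicit false
set_option linter.unusedSectionVars false

open Set Filter Topology Complex
open scoped ContDiff Matrix ComplexConjugate Manifold ComplexOrder

namespace Crest.Agent.R273.Kah_333

open Crest.Agent.R275.Geo Crest.Agent.R275.Core144 Crest.Agent.R275.EDR890
open Crest.Agent.R273.Defs_333 Crest.Agent.R273.Hess_333 Crest.Agent.R273.HessB_333
open Crest.Agent.R273.HM_333

noncomputable section

variable {n : ℕ} {M : Type} [TopologicalSpace M] {A : Atl n M} {L L' : LB A}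

/-- a Kaehler metric on `(M, A)`: `g i x a b = g_{a b̄}` in the chart `i` -/
structure Kah (A : Atl n M) where
  g : A.ι → M → Matrix (Fin n) (Fin n) ℂ
  sm : ∀ i a b, A.SmAt i (fun x => g i x a b)
  pos : ∀ i, ∀ x ∈ (A.e i).source, (g i x).PosDef
  tr : ∀ i j, ∀ x ∈ (A.e i).source ∩ (A.e j).source,
    g i x = (Jm A i j x)ᵀ * g j x * (Jm A i j x).map conj
  closed : ∀ i, ∀ z ∈ (A.e i).target, ∀ a b c,
    wd (false, c) (fun w => g i ((A.e i).symm w) a b) z =
      wd (false, a) (fun w => g i ((A.e i).symm w) c b) z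
  closed' : ∀ i, ∀ z ∈ (A.e i).target, ∀ a b c,
    wd (true, c) (fun w => g i ((A.e i).symm w) a b) z =
      wd (true, b) (fun w => g i ((A.e i).symm w) a c) z

/-- the curvature matrix -/
def cur (h : HM L) (i : A.ι) (x : M) : Matrix (Fin n) (Fin n) ℂ := hess (h.wt i) (A.e i x)

theorem wt_contDiffAt (h : HM L) (i : A.ι) {z : Cn n} (hz : z ∈ (A.e i).target) :
    ContDiffAt ℝ ∞ (h.wt i) z :=
  (wt_smooth h i).contDiffAt ((A.e i).open_target.mem_nhds hz)

theorem cur_read (h : HM L) (i : A.ι) {z : Cn n} (hz : z ∈ (A.e i).target) :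
    cur h i ((A.e i).symm z) = hess (h.wt i) z := by
  unfold cur
  rw [(A.e i).right_inv hz]

theorem cur_smooth (h : HM L) (i : A.ι) (a b : Fin n) : A.SmAt i (fun x => cur h i x a b) := by
  refine (contDiffOn_hess (A.e i).open_target (wt_smooth h i) a b).congr fun z hz => ?_
  simp only [cur_read h i hz]

theorem cur_herm (h : HM L) (i : A.ι) {x : M} (hx : x ∈ (A.e i).source) :
    (cur h i x).IsHermitian :=
  hess_herm (wt_contDiffAt h i ((A.e i).map_source hx))

theorem cur_posSemidef {h : HM L} (hp : h.Semipos) (i : A.ι) {x : M} (hx : x ∈ (A.e i).source) :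
    (cur h i x).PosSemidef :=
  posSemidef_hess (wt_contDiffAt h i ((A.e i).map_source hx))
    (hp i _ ((A.e i).map_source hx))

theorem cur_posDef {h : HM L} (hp : h.Pos) (i : A.ι) {x : M} (hx : x ∈ (A.e i).source) :
    (cur h i x).PosDef :=
  posDef_hess (wt_contDiffAt h i ((A.e i).map_source hx))
    (hp i _ ((A.e i).map_source hx))

theorem semipos_of_cur {h : HM L} (H : ∀ i, ∀ x ∈ (A.e i).source, (cur h i x).PosSemidef) :
    h.Semipos := by
  intro i z hz v
  have h1 := H i _ ((A.e i).map_target hz)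
  rw [cur_read h i hz] at h1
  exact lev_nonneg_of_posSemidef (wt_contDiffAt h i hz) h1 v

theorem pos_of_cur {h : HM L} (H : ∀ i, ∀ x ∈ (A.e i).source, (cur h i x).PosDef) :
    h.Pos := by
  intro i z hz v hv
  have h1 := H i _ ((A.e i).map_target hz)
  rw [cur_read h i hz] at h1
  exact lev_pos_of_posDef (wt_contDiffAt h i hz) h1 hv

theorem Pos.semipos {h : HM L} (hp : h.Pos) : h.Semipos :=
  semipos_of_cur fun _ _ hx => (cur_posDef hp _ hx).posSemidef

theorem cur_closed (h : HM L) (i : A.ι) {z : Cn n} (hz : z ∈ (A.e i).target) (a b c : Fin n) :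
    wd (false, c) (fun w => cur h i ((A.e i).symm w) a b) z =
      wd (false, a) (fun w => cur h i ((A.e i).symm w) c b) z := by
  have h1 : ∀ a, (fun w => cur h i ((A.e i).symm w) a b) =ᶠ[𝓝 z] fun w => hess (h.wt i) w a b := by
    intro a
    filter_upwards [(A.e i).open_target.mem_nhds hz] with w hw
    rw [cur_read h i hw]
  rw [wd_congr (h1 a), wd_congr (h1 c)]
  exact wd_hess (wt_contDiffAt h i hz) a b c

theorem cur_closed' (h : HM L) (i : A.ι) {z : Cn n} (hz : z ∈ (A.e i).target) (a b c : Fin n) :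
    wd (true, c) (fun w => cur h i ((A.e i).symm w) a b) z =
      wd (true, b) (fun w => cur h i ((A.e i).symm w) a c) z := by
  have h1 : ∀ b, (fun w => cur h i ((A.e i).symm w) a b) =ᶠ[𝓝 z] fun w => hess (h.wt i) w a b := by
    intro b
    filter_upwards [(A.e i).open_target.mem_nhds hz] with w hw
    rw [cur_read h i hw]
  rw [wd_congr (h1 b), wd_congr (h1 c)]
  exact wdb_hess (A.e i).open_target (wt_smooth h i) hz a b c

/-- transformation of the Hessian of a family of functions differing by pluriharmonic functions -/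
theorem hess_tr {u v : Cn n → ℝ} {i j : A.ι} {x : M} {f : Cn n → ℂ}
    (hx : x ∈ (A.e i).source ∩ (A.e j).source)
    (hu : ContDiffAt ℝ ∞ u (A.e i x)) (hv : ContDiffAt ℝ ∞ v (A.e j x))
    (hf : ∀ᶠ w in 𝓝 (A.e i x), DifferentiableAt ℂ f w) (h0 : f (A.e i x) ≠ 0)
    (huv : ∀ᶠ w in 𝓝 (A.e i x), u w = v (A.e j ((A.e i).symm w)) + Real.log (‖f w‖ ^ 2)) :
    hess u (A.e i x) = (Jm A i j x)ᵀ * hess v (A.e j x) * (Jm A i j x).map conj := by
  set T : Cn n → Cn n := fun w => A.e j ((A.e i).symm w) with hT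
  have hTx : T (A.e i x) = A.e j x := by rw [hT]; simp only [(A.e i).left_inv hx.1]
  have hTd : ∀ᶠ w in 𝓝 (A.e i x), DifferentiableAt ℂ T w := by
    have ho : IsOpen (A.ov i j) := isOpen_ov i j
    filter_upwards [ho.mem_nhds (mem_ov hx)] with w hw
    exact (A.holo i j).differentiableAt (ho.mem_nhds hw)
  have hTc : ContDiffAt ℝ ∞ T (A.e i x) := by
    obtain ⟨U, hU, hUo, hUz⟩ := eventually_nhds_iff.1 hTd
    have h1 : DifferentiableOn ℂ T U := fun w hw => (hU w hw).differentiableWithinAt
    exact (((Crest.Agent.R266.SCV.contDiffOn_omega_of_differentiableOn hUo h1).restrict_scalars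
      ℝ).of_le le_top).contDiffAt (hUo.mem_nhds hUz)
  have hfc : ContDiffAt ℝ ∞ f (A.e i x) := by
    obtain ⟨U, hU, hUo, hUz⟩ := eventually_nhds_iff.1 hf
    have h1 : DifferentiableOn ℂ f U := fun w hw => (hU w hw).differentiableWithinAt
    exact (((Crest.Agent.R266.SCV.contDiffOn_omega_of_differentiableOn hUo h1).restrict_scalars
      ℝ).of_le le_top).contDiffAt (hUo.mem_nhds hUz)
  have hvT : ContDiffAt ℝ ∞ (fun w => v (T w)) (A.e i x) := by
    have h1 : ContDiffAt ℝ ∞ v (T (A.e i x)) := by rwa [hTx]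
    exact h1.comp (A.e i x) hTc
  have hlog : ContDiffAt ℝ ∞ (fun w => Real.log (‖f w‖ ^ 2)) (A.e i x) :=
    (hfc.norm_sq ℝ).log (by positivity)
  have h1 : hess u (A.e i x) = hess (fun w => v (T w)) (A.e i x) := by
    have h2 : u =ᶠ[𝓝 (A.e i x)] fun w => (fun w => v (T w)) w + (fun w => Real.log (‖f w‖ ^ 2)) w :=
      huv
    rw [hess_congr h2, hess_add hvT hlog, hess_log_norm hf h0, add_zero]
  rw [h1]
  ext a b
  rw [hess_comp (u := v) (T := T) (by rwa [hTx]) hTd, hTx]
  simp only [Matrix.mul_apply, Matrix.transpose_apply, Matrix.map_apply, Finset.sum_mul]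
  rw [Finset.sum_comm]
  rfl

theorem cur_tr (h : HM L) {i j : A.ι} {x : M} (hx : x ∈ (A.e i).source ∩ (A.e j).source) :
    cur h i x = (Jm A i j x)ᵀ * cur h j x * (Jm A i j x).map conj := by
  have ho : IsOpen (A.ov i j) := isOpen_ov i j
  have hm : A.e i x ∈ A.ov i j := mem_ov hx
  refine hess_tr (f := fun w => L.g i j ((A.e i).symm w)) hx
    (wt_contDiffAt h i ((A.e i).map_source hx.1)) (wt_contDiffAt h j ((A.e j).map_source hx.2))
    ?_ ?_ ?_
  · filter_upwards [ho.mem_nhds hm] with w hw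
    exact (L.hol i j).differentiableAt (ho.mem_nhds hw)
  · exact L.ne_zero i j _
  · filter_upwards [ho.mem_nhds hm] with w hw
    rw [wt_tr h hw]
    ring

/-- a function: the Hessian matrices of `f : M → ℝ` -/
def hsf (A : Atl n M) (f : M → ℝ) (i : A.ι) (x : M) : Matrix (Fin n) (Fin n) ℂ :=
  hess (fun z => f ((A.e i).symm z)) (A.e i x)

theorem hsf_read (f : M → ℝ) (i : A.ι) {z : Cn n} (hz : z ∈ (A.e i).target) :
    hsf A f i ((A.e i).symm z) = hess (fun z => f ((A.e i).symm z)) z := by
  unfold hsf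
  rw [(A.e i).right_inv hz]

theorem sm_contDiffAt {f : M → ℝ} (hf : A.Sm f) (i : A.ι) {z : Cn n} (hz : z ∈ (A.e i).target) :
    ContDiffAt ℝ ∞ (fun z => f ((A.e i).symm z)) z :=
  (hf i).contDiffAt ((A.e i).open_target.mem_nhds hz)

theorem hsf_tr {f : M → ℝ} (hf : A.Sm f) {i j : A.ι} {x : M}
    (hx : x ∈ (A.e i).source ∩ (A.e j).source) :
    hsf A f i x = (Jm A i j x)ᵀ * hsf A f j x * (Jm A i j x).map conj := by
  have ho : IsOpen (A.ov i j) := isOpen_ov i j
  have hm : A.e i x ∈ A.ov i j := mem_ov hx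
  refine hess_tr (f := fun _ => (1 : ℂ)) hx
    (sm_contDiffAt hf i ((A.e i).map_source hx.1)) (sm_contDiffAt hf j ((A.e j).map_source hx.2))
    (Eventually.of_forall fun w => differentiableAt_const _) one_ne_zero ?_
  filter_upwards [ho.mem_nhds hm] with w hw
  rw [(A.e j).left_inv hw.2]
  simp

theorem cur_mul (h : HM L) (h' : HM L') (i : A.ι) {x : M} (hx : x ∈ (A.e i).source) :
    cur (mul h h') i x = cur h i x + cur h' i x := by
  have hz := (A.e i).map_source hx
  unfold cur
  have h1 : (mul h h').wt i =ᶠ[𝓝 (A.e i x)] fun w => h.wt i w + h'.wt i w := by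
    filter_upwards [(A.e i).open_target.mem_nhds hz] with w hw
    exact wt_mul h h' i hw
  rw [hess_congr h1, hess_add (wt_contDiffAt h i hz) (wt_contDiffAt h' i hz)]

theorem cur_inv (h : HM L) (i : A.ι) {x : M} (hx : x ∈ (A.e i).source) :
    cur (inv h) i x = - cur h i x := by
  have hz := (A.e i).map_source hx
  unfold cur
  have h1 : (inv h).wt i = fun w => - h.wt i w := by
    funext w
    exact wt_inv h i w
  rw [h1, hess_neg (wt_contDiffAt h i hz)]

theorem cur_pow (h : HM L) (m : ℕ) (i : A.ι) {x : M} (hx : x ∈ (A.e i).source) :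
    cur (pow h m) i x = (m : ℂ) • cur h i x := by
  have hz := (A.e i).map_source hx
  unfold cur
  have h1 : (pow h m).wt i = fun w => (m : ℝ) * h.wt i w := by
    funext w
    exact wt_pow h m i w
  rw [h1, hess_const_mul _ (wt_contDiffAt h i hz)]
  norm_num

theorem cur_tw (h : HM L) {f : M → ℝ} (hf : A.Sm f) (i : A.ι) {x : M}
    (hx : x ∈ (A.e i).source) : cur (tw h f hf) i x = cur h i x + hsf A f i x := by
  have hz := (A.e i).map_source hx
  unfold cur hsf
  have h1 : (tw h f hf).wt i =ᶠ[𝓝 (A.e i x)] fun w => h.wt i w + f ((A.e i).symm w) := by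
    filter_upwards [(A.e i).open_target.mem_nhds hz] with w hw
    exact wt_tw h f hf i hw
  rw [hess_congr h1, hess_add (wt_contDiffAt h i hz) (sm_contDiffAt hf i hz)]

/-- the Kaehler metric of a positively curved line bundle -/
def kah (h : HM L) (hp : h.Pos) : Kah A where
  g := cur h
  sm := cur_smooth h
  pos i x hx := cur_posDef hp i hx
  tr i j x hx := cur_tr h hx
  closed i z hz a b c := cur_closed h i hz a b c
  closed' i z hz a b c := cur_closed' h i hz a b c

end

end Crest.Agent.R273.Kah_333
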