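import Crest.Agent.R273.YauCh_635
import Crest.Agent.R273.Kah_333
import Crest.Agent.R273.C0a_390

/-!
# R273 (S0416), Part C, YAU (helper635): maximum principle for the Monge-Ampere equation

* `cH_eq_hess`
* `det_le_det_add` : `det A ≤ det (A + P)`, `A > 0`, `P ≥ 0`
* `f_nonneg_of_min`, `f_nonpos_of_max`
* `Sol.abs_c_le` : `|c| ≤ sup |F|`
-/

set_option autoImplicit false
set_option linter.unusedSectionVars false

open Set Filter Topology Complex
open scoped ContDiff Matrix ComplexConjugate ComplexOrder MatrixOrder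

namespace Crest.Agent.R273.YauMax_635

open Crest.Agent.R275.Geo Crest.Agent.R275.Core144 Crest.Agent.R275.GC293
open Crest.Agent.R275.OmT75 Crest.Agent.R275.EDR890
open Crest.Agent.R273.Defs_333 Crest.Agent.R273.YauDefs_635 Crest.Agent.R273.HM_333
open Crest.Agent.R273.YauCh_635 Crest.Agent.R273.Hess_333 Crest.Agent.R273.HessB_333
open Crest.Agent.R273.Kah_333

noncomputable section

section Mat

variable {m : Type*} [Fintype m] [DecidableEq m]

theorem one_le_det_one_add {K : Matrix m m ℂ} (hK : K.PosSemidef) : 1 ≤ (1 + K).det := by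
  have h1 : (1 + K).det = ∏ i, (1 + (hK.1.eigenvalues i : ℂ)) := by
    have hs := hK.1.spectral_theorem
    set U := hK.1.eigenvectorUnitary
    have h4 : (U : Matrix m m ℂ) * star (U : Matrix m m ℂ) = 1 := Unitary.coe_mul_star_self U
    have h2 : 1 + K = (U : Matrix m m ℂ) *
        (Matrix.diagonal fun i => 1 + (hK.1.eigenvalues i : ℂ)) * star (U : Matrix m m ℂ) := by
      have h3 : (Matrix.diagonal fun i => 1 + (hK.1.eigenvalues i : ℂ)) =
          (1 : Matrix m m ℂ) + Matrix.diagonal (RCLike.ofReal ∘ hK.1.eigenvalues) := by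
        rw [← Matrix.diagonal_one, Matrix.diagonal_add]
        rfl
      rw [h3, Matrix.mul_add, Matrix.add_mul, Matrix.mul_one]
      rw [h4]
      congr 1
    rw [h2, Matrix.det_mul, Matrix.det_mul, Matrix.det_diagonal]
    have h7 : (U : Matrix m m ℂ).det * (star (U : Matrix m m ℂ)).det = 1 := by
      rw [← Matrix.det_mul, h4, Matrix.det_one]
    linear_combination (∏ i, (1 + (hK.1.eigenvalues i : ℂ))) * h7
  rw [h1]
  have h5 : (∏ i, (1 + (hK.1.eigenvalues i : ℂ))) =
      ((∏ i, (1 + hK.1.eigenvalues i) : ℝ) : ℂ) := by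
    push_cast
    rfl
  rw [h5]
  have h6 : (1 : ℝ) ≤ ∏ i, (1 + hK.1.eigenvalues i) := by
    calc (1 : ℝ) = ∏ _i : m, (1 : ℝ) := by simp
      _ ≤ ∏ i, (1 + hK.1.eigenvalues i) :=
        Finset.prod_le_prod (fun _ _ => zero_le_one) (fun i _ => by
          have := hK.eigenvalues_nonneg i
          linarith)
  exact_mod_cast h6

theorem det_le_det_add {X P : Matrix m m ℂ} (hX : X.PosDef) (hP : P.PosSemidef) :
    X.det ≤ (X + P).det := by
  obtain ⟨C, hXC⟩ := CStarAlgebra.nonneg_iff_eq_star_mul_self.mp hX.posSemidef.nonneg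
  rw [Matrix.star_eq_conjTranspose] at hXC
  have hdet : X.det ≠ 0 := hX.det_pos.ne'
  have hC : IsUnit C.det := by
    rw [isUnit_iff_ne_zero]
    intro h0
    apply hdet
    rw [hXC, Matrix.det_mul, h0, mul_zero]
  set K : Matrix m m ℂ := (C⁻¹)ᴴ * P * C⁻¹ with hK
  have hKp : K.PosSemidef := hP.conjTranspose_mul_mul_same C⁻¹
  have e1 : Cᴴ * (C⁻¹)ᴴ = 1 := by
    rw [← Matrix.conjTranspose_mul, Matrix.nonsing_inv_mul _ hC, Matrix.conjTranspose_one]
  have hY : X + P = Cᴴ * (1 + K) * C := by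
    have h1 : Cᴴ * K * C = P := by
      rw [hK]
      calc _ = (Cᴴ * (C⁻¹)ᴴ) * P * (C⁻¹ * C) := by simp only [Matrix.mul_assoc]
        _ = P := by rw [e1, Matrix.nonsing_inv_mul _ hC, Matrix.one_mul, Matrix.mul_one]
    rw [Matrix.mul_add, Matrix.add_mul, h1, Matrix.mul_one, ← hXC]
  have h2 : (X + P).det = X.det * (1 + K).det := by
    rw [hY]
    conv_rhs => rw [hXC]
    rw [Matrix.det_mul, Matrix.det_mul, Matrix.det_mul]
    ring
  rw [h2]
  exact le_mul_of_one_le_right hX.det_pos.le (one_le_det_one_add hKp)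

end Mat

variable {n : ℕ}

theorem cH_eq_hess {u : Cn n → ℝ} {z : Cn n} (h : ContDiffAt ℝ ∞ u z) : cH u z = hess u z := by
  ext a b
  rw [cH_eq_hs (h.of_le two_le_inf), hess_apply]
  simp only [Levi_145.hs, dj, wd, wdL, cI_false]
  rw [neg_smul, ← sub_eq_add_neg]
  rfl

variable {M : Type} [TopologicalSpace M] {A : Atl n M} {L : LB A}

theorem inC_contDiffAt {φ : M → ℝ} (hφ : A.Sm φ) (i : A.ι) {z : Cn n} (hz : z ∈ (A.e i).target) :
    ContDiffAt ℝ ∞ (inC A i φ) z :=
  (inC_smooth hφ i).contDiffAt ((A.e i).open_target.mem_nhds hz)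

theorem pot_contDiffAt (H : HM L) {φ : M → ℝ} (hφ : A.Sm φ) (i : A.ι) {z : Cn n}
    (hz : z ∈ (A.e i).target) : ContDiffAt ℝ ∞ (pot H φ i) z :=
  (wt_contDiffAt H i hz).add (inC_contDiffAt hφ i hz)

theorem hess_pot (H : HM L) {φ : M → ℝ} (hφ : A.Sm φ) (i : A.ι) {z : Cn n}
    (hz : z ∈ (A.e i).target) : hess (pot H φ i) z = hess (H.wt i) z + hess (inC A i φ) z :=
  hess_add (wt_contDiffAt H i hz) (inC_contDiffAt hφ i hz)

theorem continuous_of_sm {φ : M → ℝ} (hφ : A.Sm φ) : Continuous φ := by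
  rw [continuous_iff_continuousAt]
  intro x
  obtain ⟨i, hi⟩ := A.cover x
  have h1 : ContinuousAt (inC A i φ) (A.e i x) :=
    (inC_contDiffAt hφ i ((A.e i).map_source hi)).continuousAt
  have h2 : ContinuousAt (fun y => inC A i φ (A.e i y)) x :=
    ContinuousAt.comp (f := A.e i) h1 ((A.e i).continuousAt hi)
  refine h2.congr ?_
  filter_upwards [(A.e i).open_source.mem_nhds hi] with y hy
  simp [inC, (A.e i).left_inv hy]

theorem inC_localMin {φ : M → ℝ} {x : M} (hm : IsLocalMin φ x) {i : A.ι}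
    (hx : x ∈ (A.e i).source) : IsLocalMin (inC A i φ) (A.e i x) := by
  have h1 : Tendsto (A.e i).symm (𝓝 (A.e i x)) (𝓝 x) := by
    have := (A.e i).continuousAt_symm ((A.e i).map_source hx)
    rw [ContinuousAt, (A.e i).left_inv hx] at this
    exact this
  have h2 := h1.eventually hm
  simp only [IsLocalMin, IsMinFilter, inC, (A.e i).left_inv hx]
  exact h2

theorem lev_nonneg_of_localMin {u : Cn n → ℝ} {z : Cn n} (hu : ContDiffAt ℝ 2 u z)
    (hm : IsLocalMin u z) (v : Cn n) : 0 ≤ lev u z v := by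
  rw [lev_D2]
  exact add_nonneg (C0a_390.fderiv2_nonneg hu hm v) (C0a_390.fderiv2_nonneg hu hm _)

theorem exp_ge_one_of {H : HM L} (hH : H.Pos) {i : A.ι} {z : Cn n} (hz : z ∈ (A.e i).target)
    {P : Matrix (Fin n) (Fin n) ℂ} (hP : P.PosSemidef) {t : ℝ}
    (h : (hess (H.wt i) z + P).det = (Real.exp t : ℂ) * (hess (H.wt i) z).det) : 0 ≤ t := by
  have hpd : (hess (H.wt i) z).PosDef := posDef_hess (wt_contDiffAt H i hz) (hH i z hz)
  have h1 := det_le_det_add hpd hP
  rw [h] at h1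
  have h2 := hpd.det_pos
  have h3 : (hess (H.wt i) z).det = (((hess (H.wt i) z).det.re : ℝ) : ℂ) := by
    have := (Complex.pos_iff.1 h2).2
    apply Complex.ext <;> simp [this]
  rw [h3] at h1 h2
  rw [← Complex.ofReal_mul] at h1
  have h4 : (hess (H.wt i) z).det.re ≤ Real.exp t * (hess (H.wt i) z).det.re := by
    exact_mod_cast h1
  have h5 : 0 < (hess (H.wt i) z).det.re := by exact_mod_cast h2
  have h6 : 1 ≤ Real.exp t := by
    by_contra hc
    push Not at hc
    nlinarith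
  exact Real.one_le_exp_iff.1 h6

theorem f_nonneg_of_min {H : HM L} (hH : H.Pos) {φ f : M → ℝ} (hφ : A.Sm φ)
    (hMA : MA H φ f) {x : M} (hm : IsLocalMin φ x) : 0 ≤ f x := by
  obtain ⟨i, hi⟩ := A.cover x
  have hz := (A.e i).map_source hi
  have h1 := hMA i _ hz
  rw [cH_eq_hess (pot_contDiffAt H hφ i hz), cH_eq_hess (wt_contDiffAt H i hz),
    hess_pot H hφ i hz] at h1
  have h2 : (hess (inC A i φ) (A.e i x)).PosSemidef :=
    posSemidef_hess (inC_contDiffAt hφ i hz)
      (lev_nonneg_of_localMin (inC_c2 hφ i hz) (inC_localMin hm hi))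
  have h3 := exp_ge_one_of hH hz h2 h1
  simpa [inC, (A.e i).left_inv hi] using h3

theorem exp_le_one_of {H : HM L} {φ : M → ℝ} (hφ : A.Sm φ) (hK : KPos H φ) (hH : H.Pos)
    {i : A.ι} {z : Cn n} (hz : z ∈ (A.e i).target)
    (hP : (- hess (inC A i φ) z).PosSemidef) {t : ℝ}
    (h : (hess (pot H φ i) z).det = (Real.exp t : ℂ) * (hess (H.wt i) z).det) : t ≤ 0 := by
  have hpd : (hess (H.wt i) z).PosDef := posDef_hess (wt_contDiffAt H i hz) (hH i z hz)
  have hpd' : (hess (pot H φ i) z).PosDef := posDef_hess (pot_contDiffAt H hφ i hz) (hK i z hz)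
  have h1 := det_le_det_add hpd' hP
  have e1 : hess (pot H φ i) z + - hess (inC A i φ) z = hess (H.wt i) z := by
    rw [hess_pot H hφ i hz]
    abel
  rw [e1, h] at h1
  have h2 := hpd.det_pos
  have h3 : (hess (H.wt i) z).det = (((hess (H.wt i) z).det.re : ℝ) : ℂ) := by
    have := (Complex.pos_iff.1 h2).2
    apply Complex.ext <;> simp [this]
  rw [h3] at h1 h2
  rw [← Complex.ofReal_mul] at h1
  have h4 : Real.exp t * (hess (H.wt i) z).det.re ≤ (hess (H.wt i) z).det.re := by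
    exact_mod_cast h1
  have h5 : 0 < (hess (H.wt i) z).det.re := by exact_mod_cast h2
  have h6 : Real.exp t ≤ 1 := by
    by_contra hc
    push Not at hc
    nlinarith
  exact Real.exp_le_one_iff.1 h6

theorem f_nonpos_of_max {H : HM L} (hH : H.Pos) {φ f : M → ℝ} (hφ : A.Sm φ) (hK : KPos H φ)
    (hMA : MA H φ f) {x : M} (hm : IsLocalMax φ x) : f x ≤ 0 := by
  obtain ⟨i, hi⟩ := A.cover x
  have hz := (A.e i).map_source hi
  have h1 := hMA i _ hz
  rw [cH_eq_hess (pot_contDiffAt H hφ i hz), cH_eq_hess (wt_contDiffAt H i hz)] at h1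
  have hφ' : A.Sm (fun y => - φ y) := fun j => (hφ j).neg
  have hm' : IsLocalMin (fun y => - φ y) x := hm.neg
  have h2 : (hess (inC A i fun y => - φ y) (A.e i x)).PosSemidef :=
    posSemidef_hess (inC_contDiffAt hφ' i hz)
      (lev_nonneg_of_localMin (inC_c2 hφ' i hz) (inC_localMin hm' hi))
  have h4 : hess (inC A i fun y => - φ y) (A.e i x) = - hess (inC A i φ) (A.e i x) :=
    hess_neg (inC_contDiffAt hφ i hz)
  rw [h4] at h2
  have h3 := exp_le_one_of hφ hK hH hz h2 h1
  simpa [inC, (A.e i).left_inv hi] using h3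

/-- the constant of a solution is bounded -/
theorem abs_c_le [CompactSpace M] [Nonempty M] {H : HM L} (hH : H.Pos) {F φ : M → ℝ} {t c K : ℝ}
    (hF : ∀ x, |F x| ≤ K) (ht0 : 0 ≤ t) (ht1 : t ≤ 1) (hs : Sol H F t φ c) : |c| ≤ K := by
  obtain ⟨hφ, hKp, hMA⟩ := hs
  have hc := continuous_of_sm hφ
  obtain ⟨x, -, hx⟩ := isCompact_univ.exists_isMinOn univ_nonempty hc.continuousOn
  obtain ⟨y, -, hy⟩ := isCompact_univ.exists_isMaxOn univ_nonempty hc.continuousOn
  have h1 : IsLocalMin φ x := hx.isLocalMin univ_mem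
  have h2 : IsLocalMax φ y := hy.isLocalMax univ_mem
  have h3 := f_nonneg_of_min hH hφ hMA h1
  have h4 := f_nonpos_of_max hH hφ hKp hMA h2
  have hK : 0 ≤ K := (abs_nonneg _).trans (hF x)
  have h5 : |t * F x| ≤ K := by
    rw [abs_mul, abs_of_nonneg ht0]
    calc t * |F x| ≤ 1 * K := mul_le_mul ht1 (hF x) (abs_nonneg _) zero_le_one
      _ = K := one_mul K
  have h6 : |t * F y| ≤ K := by
    rw [abs_mul, abs_of_nonneg ht0]
    calc t * |F y| ≤ 1 * K := mul_le_mul ht1 (hF y) (abs_nonneg _) zero_le_one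
      _ = K := one_mul K
  rw [abs_le]
  constructor
  · have := (abs_le.1 h5).2
    linarith
  · have := (abs_le.1 h6).1
    linarith

end

end Crest.Agent.R273.YauMax_635
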