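import Crest.Agent.R273.SchE_152
import Crest.Agent.R273.YauMax_635

/-!
# R273 (S0416), Part C, YAU (helper635): quadratic estimate for the determinant in Hölder classes

* `two_point` : second differences of a `C²` map with `p'(0) = 0`
* `ho_quad`   : `X = O(α)`, `Y = O(β)` in `C^a`, `β ≤ α` => `p (X + Y) - p X = O(α β)` in `C^a`
* `pd`        : `X ↦ det (1 + X) - 1 - tr X`
-/

set_option autoImplicit false
set_option linter.unusedSectionVars false

open Set Filter Topology Complex Metric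
open scoped ContDiff Matrix ComplexConjugate

namespace Crest.Agent.R273.YauQ_635

open Crest.Agent.R273.SchA_152

noncomputable section

section two

variable {E F : Type*} [NormedAddCommGroup E] [NormedSpace ℝ E] [NormedAddCommGroup F]
  [NormedSpace ℝ F]

theorem exists_bd [ProperSpace E] {F' : Type*} [NormedAddCommGroup F'] {g : E → F'}
    (hg : Continuous g) (R : ℝ) : ∃ C, 0 ≤ C ∧ ∀ x ∈ closedBall (0 : E) R, ‖g x‖ ≤ C := by
  obtain ⟨C, hC⟩ := (isCompact_closedBall (0 : E) R).exists_bound_of_continuousOn hg.continuousOn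
  exact ⟨max C 0, le_max_right _ _, fun x hx => (hC x hx).trans (le_max_left _ _)⟩

theorem two_point [FiniteDimensional ℝ E] {p : E → F} (hp : ContDiff ℝ 2 p)
    (h0 : fderiv ℝ p 0 = 0) (R : ℝ) : ∃ C : ℝ, 0 ≤ C ∧
      ∀ X ∈ closedBall (0 : E) R, ∀ X' ∈ closedBall (0 : E) R, ∀ Y ∈ closedBall (0 : E) R,
      ∀ Y' ∈ closedBall (0 : E) R,
        ‖(p (X + Y) - p X) - (p (X' + Y') - p X')‖ ≤
          C * ((2 * ‖X‖ + ‖Y‖ + ‖Y'‖) * ‖Y - Y'‖ + ‖Y'‖ * ‖X - X'‖) := by
  have : ProperSpace E := FiniteDimensional.proper ℝ E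
  rcases lt_or_ge R 0 with hR | hR
  · refine ⟨0, le_rfl, fun X hX => ?_⟩
    rw [closedBall_eq_empty.2 hR] at hX
    exact absurd hX (notMem_empty _)
  have hd : Differentiable ℝ p := hp.differentiable (by norm_num)
  have h1 : ContDiff ℝ 1 (fderiv ℝ p) := hp.fderiv_right (by norm_num)
  have hd1 : Differentiable ℝ (fderiv ℝ p) := h1.differentiable (by norm_num)
  have h2 : Continuous (fun x => fderiv ℝ (fderiv ℝ p) x) := h1.continuous_fderiv (by norm_num)
  obtain ⟨C, hC0, hC⟩ := exists_bd (F' := E →L[ℝ] E →L[ℝ] F) h2 (2 * R)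
  have hlip : ∀ x ∈ closedBall (0 : E) (2 * R), ∀ y ∈ closedBall (0 : E) (2 * R),
      ‖fderiv ℝ p x - fderiv ℝ p y‖ ≤ C * ‖x - y‖ := fun x hx y hy =>
    (convex_closedBall (0 : E) (2 * R)).norm_image_sub_le_of_norm_fderiv_le
      (fun w _ => hd1 w) hC hy hx
  have hz : (0 : E) ∈ closedBall (0 : E) (2 * R) := mem_closedBall_self (by linarith)
  have hb : ∀ x ∈ closedBall (0 : E) (2 * R), ‖fderiv ℝ p x‖ ≤ C * ‖x‖ := by
    intro x hx
    have := hlip x hx 0 hz
    rwa [h0, sub_zero, sub_zero] at this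
  -- first order differences
  have hA : ∀ A ∈ closedBall (0 : E) (2 * R), ∀ B ∈ closedBall (0 : E) (2 * R),
      ‖p A - p B‖ ≤ C * (‖A‖ + ‖B‖) * ‖A - B‖ := by
    intro A hA B hB
    rw [mem_closedBall_zero_iff] at hA hB
    set ρ : ℝ := max ‖A‖ ‖B‖ with hρ
    have hρR : ρ ≤ 2 * R := max_le hA hB
    have hρs : ρ ≤ ‖A‖ + ‖B‖ := max_le (by linarith [norm_nonneg B]) (by linarith [norm_nonneg A])
    have h3 : ‖p A - p B‖ ≤ C * ρ * ‖A - B‖ := by
      refine (convex_closedBall (0 : E) ρ).norm_image_sub_le_of_norm_fderiv_le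
        (fun w _ => hd w) (fun w hw => ?_) (mem_closedBall_zero_iff.2 (le_max_right _ _))
        (mem_closedBall_zero_iff.2 (le_max_left _ _))
      rw [mem_closedBall_zero_iff] at hw
      exact (hb w (mem_closedBall_zero_iff.2 (hw.trans hρR))).trans
        (mul_le_mul_of_nonneg_left hw hC0)
    refine h3.trans (mul_le_mul_of_nonneg_right ?_ (norm_nonneg _))
    exact mul_le_mul_of_nonneg_left hρs hC0
  refine ⟨C, hC0, fun X hX X' hX' Y hY Y' hY' => ?_⟩
  rw [mem_closedBall_zero_iff] at hX hX' hY hY'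
  have hsum : ∀ U W : E, ‖U‖ ≤ R → ‖W‖ ≤ R → U + W ∈ closedBall (0 : E) (2 * R) := by
    intro U W hU hW
    rw [mem_closedBall_zero_iff]
    exact (norm_add_le _ _).trans (by linarith)
  have e1 : (p (X + Y) - p X) - (p (X' + Y') - p X') =
      (p (X + Y) - p (X + Y')) + ((p (X + Y') - p X) - (p (X' + Y') - p X')) := by abel
  have t1 : ‖p (X + Y) - p (X + Y')‖ ≤ C * ((2 * ‖X‖ + ‖Y‖ + ‖Y'‖) * ‖Y - Y'‖) := by
    have h3 := hA (X + Y) (hsum X Y hX hY) (X + Y') (hsum X Y' hX hY')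
    rw [add_sub_add_left_eq_sub] at h3
    refine h3.trans ?_
    rw [mul_assoc]
    refine mul_le_mul_of_nonneg_left (mul_le_mul_of_nonneg_right ?_ (norm_nonneg _)) hC0
    linarith [norm_add_le X Y, norm_add_le X Y']
  have t2 : ‖(p (X + Y') - p X) - (p (X' + Y') - p X')‖ ≤ C * (‖Y'‖ * ‖X - X'‖) := by
    have hq : ∀ Z ∈ closedBall (0 : E) R, HasFDerivAt (fun Z => p (Z + Y') - p Z)
        (fderiv ℝ p (Z + Y') - fderiv ℝ p Z) Z := by
      intro Z _
      have g1 : HasFDerivAt (fun Z => p (Z + Y')) (fderiv ℝ p (Z + Y')) Z := by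
        have g0 := HasFDerivAt.comp (g := p) (f := fun Z : E => Z + Y') Z
          (hd (Z + Y')).hasFDerivAt ((hasFDerivAt_id Z).add_const Y')
        rw [ContinuousLinearMap.comp_id] at g0
        exact g0
      exact g1.sub (hd Z).hasFDerivAt
    have h4 : ‖(fun Z => p (Z + Y') - p Z) X - (fun Z => p (Z + Y') - p Z) X'‖ ≤
        (C * ‖Y'‖) * ‖X - X'‖ := by
      refine (convex_closedBall (0 : E) R).norm_image_sub_le_of_norm_fderiv_le
        (fun w hw => (hq w hw).differentiableAt) (fun w hw => ?_)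
        (mem_closedBall_zero_iff.2 hX') (mem_closedBall_zero_iff.2 hX)
      rw [(hq w hw).fderiv]
      rw [mem_closedBall_zero_iff] at hw
      have h5 := hlip (w + Y') (hsum w Y' hw hY') w
        (mem_closedBall_zero_iff.2 (hw.trans (by linarith)))
      rwa [add_sub_cancel_left] at h5
    calc _ ≤ (C * ‖Y'‖) * ‖X - X'‖ := h4
      _ = C * (‖Y'‖ * ‖X - X'‖) := by ring
  rw [e1]
  calc _ ≤ _ := norm_add_le _ _
    _ ≤ C * ((2 * ‖X‖ + ‖Y‖ + ‖Y'‖) * ‖Y - Y'‖) + C * (‖Y'‖ * ‖X - X'‖) := add_le_add t1 t2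
    _ = _ := by ring

/-- quadratic estimate in Hölder classes -/
theorem ho_quad [FiniteDimensional ℝ E] {p : E → F} (hp : ContDiff ℝ 2 p)
    (h0 : fderiv ℝ p 0 = 0) (R : ℝ) : ∃ C : ℝ, 0 ≤ C ∧
      ∀ {Z : Type*} [NormedAddCommGroup Z] {s : Set Z} {a α β : ℝ} {X Y : Z → E},
        0 ≤ β → β ≤ α → α ≤ R → HO a α s X → HO a β s Y →
        HO a (C * α * β) s (fun z => p (X z + Y z) - p (X z)) := by
  obtain ⟨C, hC0, hC⟩ := two_point hp h0 R
  refine ⟨5 * C, by positivity, fun {Z} _ {s a α β X Y} hβ0 hβ hα hX hY => ?_⟩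
  have hα0 : 0 ≤ α := hβ0.trans hβ
  have hXR : ∀ z ∈ s, X z ∈ closedBall (0 : E) R := fun z hz =>
    mem_closedBall_zero_iff.2 ((hX.bdd z hz).trans hα)
  have hYR : ∀ z ∈ s, Y z ∈ closedBall (0 : E) R := fun z hz =>
    mem_closedBall_zero_iff.2 ((hY.bdd z hz).trans (hβ.trans hα))
  have hz0 : (0 : E) ∈ closedBall (0 : E) R := mem_closedBall_self (hα0.trans hα)
  refine ⟨fun z hz => ?_, fun z hz w hw => ?_⟩
  · have h1 := hC (X z) (hXR z hz) (X z) (hXR z hz) (Y z) (hYR z hz) 0 hz0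
    simp only [add_zero, sub_self, sub_zero, norm_zero, zero_mul] at h1
    refine h1.trans ?_
    have h2 := hX.bdd z hz
    have h3 := hY.bdd z hz
    have h4 : (2 * ‖X z‖ + ‖Y z‖) * ‖Y z‖ ≤ (3 * α) * β :=
      mul_le_mul (by linarith) h3 (norm_nonneg _) (by positivity)
    calc C * ((2 * ‖X z‖ + ‖Y z‖) * ‖Y z‖) ≤ C * ((3 * α) * β) :=
          mul_le_mul_of_nonneg_left h4 hC0
      _ = 3 * (C * α * β) := by ring
      _ ≤ 5 * (C * α * β) := by nlinarith [mul_nonneg (mul_nonneg hC0 hα0) hβ0]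
      _ = 5 * C * α * β := by ring
  · have h1 := hC (X z) (hXR z hz) (X w) (hXR w hw) (Y z) (hYR z hz) (Y w) (hYR w hw)
    refine h1.trans ?_
    have h2 := hX.bdd z hz
    have h3 := hY.bdd z hz
    have h3' := hY.bdd w hw
    have h5 := hX.hol z hz w hw
    have h6 := hY.hol z hz w hw
    set τ : ℝ := ‖z - w‖ ^ a with hτ
    have hτ0 : 0 ≤ τ := Real.rpow_nonneg (norm_nonneg _) _
    have h7 : (2 * ‖X z‖ + ‖Y z‖ + ‖Y w‖) * ‖Y z - Y w‖ ≤ (4 * α) * (β * τ) :=
      mul_le_mul (by linarith) h6 (norm_nonneg _) (by positivity)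
    have h8 : ‖Y w‖ * ‖X z - X w‖ ≤ β * (α * τ) :=
      mul_le_mul h3' h5 (norm_nonneg _) hβ0
    calc _ ≤ C * ((4 * α) * (β * τ) + β * (α * τ)) :=
          mul_le_mul_of_nonneg_left (add_le_add h7 h8) hC0
      _ = _ := by ring

end two

/-! ### algebra of Hölder classes -/

section alg

variable {X : Type*} [NormedAddCommGroup X] {a M N : ℝ} {s : Set X}

theorem ho_mul {R : Type*} [NormedRing R] {f g : X → R} (hM : 0 ≤ M) (hN : 0 ≤ N)
    (hf : HO a M s f) (hg : HO a N s g) : HO a (2 * M * N) s (fun z => f z * g z) := by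
  refine ⟨fun z hz => ?_, fun z hz w hw => ?_⟩
  · refine (norm_mul_le _ _).trans ?_
    have := mul_le_mul (hf.bdd z hz) (hg.bdd z hz) (norm_nonneg _) hM
    nlinarith [mul_nonneg hM hN]
  · have e : f z * g z - f w * g w = f z * (g z - g w) + (f z - f w) * g w := by noncomm_ring
    rw [e]
    have hτ0 : 0 ≤ ‖z - w‖ ^ a := Real.rpow_nonneg (norm_nonneg _) _
    calc _ ≤ ‖f z * (g z - g w)‖ + ‖(f z - f w) * g w‖ := norm_add_le _ _
      _ ≤ ‖f z‖ * ‖g z - g w‖ + ‖f z - f w‖ * ‖g w‖ :=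
        add_le_add (norm_mul_le _ _) (norm_mul_le _ _)
      _ ≤ M * (N * ‖z - w‖ ^ a) + (M * ‖z - w‖ ^ a) * N :=
        add_le_add (mul_le_mul (hf.bdd z hz) (hg.hol z hz w hw) (norm_nonneg _) hM)
          (mul_le_mul (hf.hol z hz w hw) (hg.bdd w hw) (norm_nonneg _)
            (mul_nonneg hM hτ0))
      _ = 2 * M * N * ‖z - w‖ ^ a := by ring

theorem ho_sum {ι F : Type*} [NormedAddCommGroup F] {f : ι → X → F} (t : Finset ι)
    (hf : ∀ i ∈ t, HO a M s (f i)) : HO a (t.card * M) s (fun z => ∑ i ∈ t, f i z) := by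
  refine ⟨fun z hz => ?_, fun z hz w hw => ?_⟩
  · refine (norm_sum_le _ _).trans ((Finset.sum_le_sum fun i hi => (hf i hi).bdd z hz).trans ?_)
    simp
  · rw [← Finset.sum_sub_distrib]
    refine (norm_sum_le _ _).trans
      ((Finset.sum_le_sum fun i hi => (hf i hi).hol z hz w hw).trans ?_)
    simp [mul_assoc]

theorem ho_pi {ι : Type*} [Fintype ι] {F : Type*} [NormedAddCommGroup F] {f : ι → X → F}
    (hM : 0 ≤ M) (hf : ∀ i, HO a M s (f i)) : HO a M s (fun z i => f i z) := by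
  refine ⟨fun z hz => (pi_norm_le_iff_of_nonneg hM).2 fun i => (hf i).bdd z hz,
    fun z hz w hw => (pi_norm_le_iff_of_nonneg
      (mul_nonneg hM (Real.rpow_nonneg (norm_nonneg _) _))).2 fun i => (hf i).hol z hz w hw⟩

theorem ho_clm {E F : Type*} [NormedAddCommGroup E] [NormedSpace ℝ E] [NormedAddCommGroup F]
    [NormedSpace ℝ F] {f : X → E} (L : E → F) {c : ℝ} (hc : 0 ≤ c)
    (hL0 : ∀ x, ‖L x‖ ≤ c * ‖x‖) (hL : ∀ x y, L x - L y = L (x - y)) (hf : HO a M s f) :
    HO a (c * M) s (fun z => L (f z)) := by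
  refine ⟨fun z hz => (hL0 _).trans (mul_le_mul_of_nonneg_left (hf.bdd z hz) hc),
    fun z hz w hw => ?_⟩
  rw [hL, mul_assoc]
  exact (hL0 _).trans (mul_le_mul_of_nonneg_left (hf.hol z hz w hw) hc)

end alg

/-! ### the determinant -/

section det

variable {n : ℕ}

/-- matrices with the sup norm -/
abbrev VC (n : ℕ) : Type := Fin n → Fin n → ℂ

/-- `det (1 + X) - 1 - tr X` -/
def pd (X : VC n) : ℂ := (1 + Matrix.of X).det - 1 - (Matrix.of X).trace

theorem contDiff_pd : ContDiff ℝ ∞ (pd (n := n)) := by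
  have h1 : ∀ a b : Fin n, ContDiff ℝ ∞ (fun X : VC n => X a b) := fun a b =>
    contDiff_apply_apply ℝ ℂ a b
  have h2 : ContDiff ℝ ∞ (fun X : VC n => (1 + Matrix.of X).det) := by
    simp only [Matrix.det_apply']
    refine ContDiff.sum fun σ _ => contDiff_const.mul ?_
    refine contDiff_prod fun a _ => ?_
    exact contDiff_const.add (h1 _ _)
  have h3 : ContDiff ℝ ∞ (fun X : VC n => (Matrix.of X).trace) := by
    simp only [Matrix.trace, Matrix.diag_apply, Matrix.of_apply]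
    exact ContDiff.sum fun a _ => h1 a a
  exact (h2.sub contDiff_const).sub h3

theorem pd_zero : pd (0 : VC n) = 0 := by
  have : (Matrix.of (0 : VC n)) = (0 : Matrix (Fin n) (Fin n) ℂ) := rfl
  simp [pd, this]

theorem fderiv_pd : fderiv ℝ (pd (n := n)) 0 = 0 := by
  have hd : DifferentiableAt ℝ (pd (n := n)) 0 :=
    (contDiff_pd.differentiable (by simp)) 0
  ext1 B
  have h1 : HasDerivAt (fun t : ℝ => pd (t • B)) (fderiv ℝ (pd (n := n)) 0 B) 0 := by
    have h2 : HasDerivAt (fun t : ℝ => t • B) B 0 := by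
      simpa using (hasDerivAt_id (0 : ℝ)).smul_const B
    have h3 : HasFDerivAt (pd (n := n)) (fderiv ℝ (pd (n := n)) 0) ((0 : ℝ) • B) := by
      rw [zero_smul]
      exact hd.hasFDerivAt
    exact h3.comp_hasDerivAt (0 : ℝ) h2
  have h4 : HasDerivAt (fun t : ℝ => pd (t • B)) 0 0 := by
    set q : Polynomial ℂ := ((1 + (Polynomial.X : Polynomial ℂ) •
      (Matrix.of B).map Polynomial.C).det).divX.divX with hq
    have h5 : ∀ t : ℝ, pd (t • B) = q.eval (t : ℂ) * (t : ℂ) ^ 2 := by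
      intro t
      have h6 : Matrix.of (t • B) = (t : ℂ) • Matrix.of B := by
        ext a b
        simp
      rw [pd, h6, Matrix.det_one_add_smul, Matrix.trace_smul]
      simp only [smul_eq_mul, hq]
      ring
    have h7 : (fun t : ℝ => pd (t • B)) = fun t : ℝ => q.eval (t : ℂ) * (t : ℂ) ^ 2 :=
      funext h5
    rw [h7]
    have h8 : HasDerivAt (fun t : ℂ => q.eval t * t ^ 2) 0 ((0 : ℝ) : ℂ) := by
      have h9 := (q.hasDerivAt ((0 : ℝ) : ℂ)).mul (hasDerivAt_pow 2 ((0 : ℝ) : ℂ))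
      exact h9.congr_deriv (by simp)
    exact h8.comp_ofReal
  simpa using h1.unique h4

/-- the quadratic estimate for the determinant -/
theorem ho_det (n : ℕ) (R : ℝ) : ∃ C : ℝ, 0 ≤ C ∧
      ∀ {Z : Type} [NormedAddCommGroup Z] {s : Set Z} {a α β : ℝ} {X Y : Z → VC n},
        0 ≤ β → β ≤ α → α ≤ R → HO a α s X → HO a β s Y →
        HO a (C * α * β) s (fun z => (1 + Matrix.of (X z) + Matrix.of (Y z)).det -
          (1 + Matrix.of (X z)).det - (Matrix.of (Y z)).trace) := by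
  obtain ⟨C, hC0, hC⟩ := ho_quad (E := VC n) (contDiff_pd.of_le Crest.Agent.R273.YauCh_635.two_le_inf) fderiv_pd R
  refine ⟨C, hC0, fun {Z} _ {s a α β X Y} h1 h2 h3 hX hY => ?_⟩
  refine (hC h1 h2 h3 hX hY).congr fun z _ => ?_
  have e : Matrix.of (X z + Y z) = Matrix.of (X z) + Matrix.of (Y z) := rfl
  simp only [pd, e, Matrix.trace_add, ← add_assoc]
  ring

end det

end

end Crest.Agent.R273.YauQ_635
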