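import Crest.Agent.R273.Vol_333
import Crest.Agent.R275.PaiB_323
import Mathlib.MeasureTheory.Function.Jacobian

/-!
# R273 (S0416), Part E (helper333): the measure of a volume form

`h : HM (KB A)⁻¹` is a smooth positive volume form `h.w i dλ` (`λ` = Lebesgue measure of the real
coordinates `RI n → ℝ`).
* `chm h i`        : the measure on the chart `i`; `lintegral_chm`
* `chm_restrict`   : compatibility on overlaps
* `vm h`           : the global measure (countable atlas); `vm_restrict : vm|_(source i) = chm h i`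
* `setIntegral_vm`, `lintegral_vm` : local formulas
* `isFiniteMeasure_vm`, `isOpenPos_vm`
* `integral_vm_part` : `∫ f = ∑ lint A i (ψ_i f w_i)`
* `vm_tw`          : change of `h` by a function
-/

set_option autoImplicit false
set_option linter.unusedSectionVars false

open Set Filter Topology Complex MeasureTheory
open scoped ContDiff Matrix ComplexConjugate Manifold ComplexOrder ENNReal

namespace Crest.Agent.R273.Vm_333

open Crest.Agent.R275.Geo Crest.Agent.R275.Core144 Crest.Agent.R275.EDR890
open Crest.Agent.R273.Defs_333 Crest.Agent.R273.Hess_333 Crest.Agent.R273.HessB_333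
open Crest.Agent.R273.HM_333 Crest.Agent.R273.Kah_333 Crest.Agent.R273.Vol_333
open Crest.Agent.R275.Pai323 Crest.Agent.R275.C1d194

noncomputable section

variable {n : ℕ} {M : Type} [TopologicalSpace M] {A : Atl n M}

/-! ### parametrisation of the charts by real coordinates -/

/-- the point with real coordinates `y` in the chart `i` -/
def sg (A : Atl n M) (i : A.ι) (y : RI n → ℝ) : M := (A.e i).symm (cc y)

theorem isOpen_Ui (i : A.ι) : IsOpen (Ui A i) := (A.e i).open_target.preimage continuous_cc

theorem continuousOn_sg (i : A.ι) : ContinuousOn (sg A i) (Ui A i) :=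
  (A.e i).continuousOn_symm.comp continuous_cc.continuousOn fun _ hy => hy

theorem sg_mem {i : A.ι} {y : RI n → ℝ} (hy : y ∈ Ui A i) : sg A i y ∈ (A.e i).source :=
  (A.e i).map_target hy

theorem mem_Ui {i : A.ι} {x : M} (hx : x ∈ (A.e i).source) : rc (A.e i x) ∈ Ui A i := by
  change cc (rc (A.e i x)) ∈ (A.e i).target
  rw [cc_rc]
  exact (A.e i).map_source hx

theorem sg_rc {i : A.ι} {x : M} (hx : x ∈ (A.e i).source) : sg A i (rc (A.e i x)) = x := by
  unfold sg
  rw [cc_rc, (A.e i).left_inv hx]

theorem sg_phi {i j : A.ι} {y : RI n → ℝ} (hy : y ∈ Vij A i j) :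
    sg A j (phi A i j y) = sg A i y := by
  unfold sg phi
  rw [cc_rc, (A.e j).left_inv hy.2]

theorem mem_Vij {i j : A.ι} {y : RI n → ℝ} : y ∈ Vij A i j ↔ y ∈ Ui A i ∧ sg A i y ∈ (A.e j).source :=
  Iff.rfl

/-- an enumeration of the charts -/
def en (A : Atl n M) [Countable A.ι] : A.ι → ℕ := (Countable.exists_injective_nat A.ι).choose

theorem en_inj (A : Atl n M) [Countable A.ι] : Function.Injective (en A) :=
  (Countable.exists_injective_nat A.ι).choose_spec

/-- disjoint pieces -/
def Dj (A : Atl n M) [Countable A.ι] (i : A.ι) : Set M :=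
  {x | x ∈ (A.e i).source ∧ ∀ j, en A j < en A i → x ∉ (A.e j).source}

theorem exists_Dj [Countable A.ι] (x : M) : ∃ i, x ∈ Dj A i := by
  classical
  have hne : ∃ k, ∃ i, en A i = k ∧ x ∈ (A.e i).source := by
    obtain ⟨i, hi⟩ := A.cover x
    exact ⟨_, i, rfl, hi⟩
  obtain ⟨i, hi, hxi⟩ := Nat.find_spec hne
  refine ⟨i, hxi, fun j hj hxj => ?_⟩
  rw [hi] at hj
  exact Nat.find_min hne hj ⟨j, rfl, hxj⟩

theorem Dj_disjoint [Countable A.ι] : Pairwise (Function.onFun Disjoint (Dj A)) := by
  intro i j hij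
  rw [Function.onFun, Set.disjoint_left]
  intro x hx hy
  rcases lt_trichotomy (en A i) (en A j) with h | h | h
  · exact hy.2 i h hx.1
  · exact hij (en_inj A h)
  · exact hx.2 j h hy.1

theorem iUnion_Dj [Countable A.ι] : ⋃ j, Dj A j = univ :=
  eq_univ_of_forall fun x => mem_iUnion.2 (exists_Dj x)

variable [MeasurableSpace M] [BorelSpace M]

theorem aemeas_sg (i : A.ι) : AEMeasurable (sg A i) (volume.restrict (Ui A i)) :=
  (continuousOn_sg i).aemeasurable (isOpen_Ui i).measurableSet

/-! ### the measure of a chart -/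

section Chart

variable (h : HM (KB A)⁻¹)

/-- the density in real coordinates -/
def dn (i : A.ι) (y : RI n → ℝ) : ℝ≥0∞ := ENNReal.ofReal (h.w i (sg A i y))

theorem continuousOn_w (i : A.ι) : ContinuousOn (fun y => h.w i (sg A i y)) (Ui A i) := by
  have h1 : ContinuousOn (fun z => h.w i ((A.e i).symm z)) (A.e i).target := (h.sm i).continuousOn
  exact h1.comp continuous_cc.continuousOn fun _ hy => hy

theorem aemeas_dn (i : A.ι) : AEMeasurable (dn h i) (volume.restrict (Ui A i)) :=
  ((continuousOn_w h i).aemeasurable (isOpen_Ui i).measurableSet).ennreal_ofReal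

/-- the measure of the chart `i` -/
def chm (i : A.ι) : Measure M :=
  ((volume.restrict (Ui A i)).withDensity (dn h i)).map (sg A i)

theorem aemeas_sg' (i : A.ι) :
    AEMeasurable (sg A i) ((volume.restrict (Ui A i)).withDensity (dn h i)) :=
  (aemeas_sg i).mono_ac (withDensity_absolutelyContinuous _ _)

theorem lintegral_chm (i : A.ι) {f : M → ℝ≥0∞} (hf : Measurable f) :
    ∫⁻ x, f x ∂(chm h i) = ∫⁻ y in Ui A i, dn h i y * f (sg A i y) := by
  unfold chm
  rw [lintegral_map' hf.aemeasurable (aemeas_sg' h i),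
    lintegral_withDensity_eq_lintegral_mul₀ (aemeas_dn h i)]
  · rfl
  · exact hf.comp_aemeasurable (aemeas_sg i)

theorem chm_apply (i : A.ι) {E : Set M} (hE : MeasurableSet E) :
    chm h i E = ∫⁻ y in {y | y ∈ Ui A i ∧ sg A i y ∈ E}, dn h i y := by
  have h0 : NullMeasurableSet (sg A i ⁻¹' E) (volume.restrict (Ui A i)) :=
    (aemeas_sg i).nullMeasurable hE
  unfold chm
  rw [Measure.map_apply_of_aemeasurable (aemeas_sg' h i) hE, withDensity_apply₀ _ h0,
    Measure.restrict_restrict₀ h0]
  congr 2
  ext y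
  exact and_comm

theorem meas_inter (i : A.ι) {E : Set M} (hE : MeasurableSet E) :
    MeasurableSet {y | y ∈ Ui A i ∧ sg A i y ∈ E} := by
  have h1 : Measurable ((Ui A i).domRestrict (sg A i)) :=
    (continuousOn_iff_continuous_domRestrict.1 (continuousOn_sg i)).measurable
  have h2 := (isOpen_Ui (A := A) i).measurableSet.subtype_image (h1 hE)
  convert h2 using 1
  ext y
  constructor
  · rintro ⟨hy, hyE⟩
    exact ⟨⟨y, hy⟩, hyE, rfl⟩
  · rintro ⟨⟨a, ha⟩, haE, rfl⟩
    exact ⟨ha, haE⟩

theorem chm_compl (i : A.ι) : chm h i ((A.e i).source)ᶜ = 0 := by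
  rw [chm_apply h i (A.e i).open_source.measurableSet.compl]
  have : {y | y ∈ Ui A i ∧ sg A i y ∈ ((A.e i).source)ᶜ} = ∅ := by
    ext y
    simp only [mem_ofPred_eq, mem_compl_iff, mem_empty_iff_false, iff_false, not_and, not_not]
    exact fun hy => sg_mem hy
  rw [this]
  simp

theorem w_jac {i j : A.ι} {x : M} (hx : x ∈ (A.e i).source ∩ (A.e j).source) :
    h.w i x = jac A i j x * h.w j x := by
  have h1 := h.tr i j x hx
  rw [LB.inv_g, KB_g hx] at h1
  have h4 : (Jm A i j x).det ≠ 0 := by
    rw [← KB_g hx]; exact (KB A).ne_zero i j x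
  have h5 : jac A i j x = ‖(Jm A i j x).det‖ ^ 2 := rfl
  rw [h1, h5, norm_inv, ← mul_assoc, inv_pow, mul_inv_cancel₀ (by positivity), one_mul]

/-- compatibility on overlaps -/
theorem chm_eq {i j : A.ι} {E : Set M} (hE : MeasurableSet E)
    (hs : E ⊆ (A.e i).source ∩ (A.e j).source) : chm h i E = chm h j E := by
  rw [chm_apply h i hE, chm_apply h j hE]
  set S : Set (RI n → ℝ) := {y | y ∈ Ui A i ∧ sg A i y ∈ E} with hS
  have hSV : S ⊆ Vij A i j := fun y hy => ⟨hy.1, (hs hy.2).2⟩
  have himg : {y | y ∈ Ui A j ∧ sg A j y ∈ E} = phi A i j '' S := by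
    ext y
    constructor
    · rintro ⟨hy, hyE⟩
      have hV : y ∈ Vij A j i := ⟨hy, (hs hyE).1⟩
      refine ⟨phi A j i y, ⟨(phi_mem hV).1, ?_⟩, phi_phi hV⟩
      rw [sg_phi hV]
      exact hyE
    · rintro ⟨z, hz, rfl⟩
      refine ⟨(phi_mem (hSV hz)).1, ?_⟩
      rw [sg_phi (hSV hz)]
      exact hz.2
  have hL : ∀ x : RI n → ℝ, ∃ L : (RI n → ℝ) →L[ℝ] (RI n → ℝ), x ∈ Vij A i j →
      (HasFDerivAt (phi A i j) L x ∧ |L.det| = jac A i j ((A.e i).symm (cc x))) := by
    intro x
    by_cases hx : x ∈ Vij A i j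
    · obtain ⟨L, hL⟩ := hasFDerivAt_phi hx
      exact ⟨L, fun _ => hL⟩
    · exact ⟨0, fun h => absurd h hx⟩
  choose L hL using hL
  rw [himg, lintegral_image_eq_lintegral_abs_det_fderiv_mul volume (meas_inter i hE)
    (fun x hx => (hL x (hSV hx)).1.hasFDerivWithinAt)
    ((phi_injOn i j).mono hSV) (dn h j)]
  refine setLIntegral_congr_fun (meas_inter i hE) fun y hy => ?_
  have hx : sg A i y ∈ (A.e i).source ∩ (A.e j).source := hs hy.2
  rw [(hL y (hSV hy)).2]
  unfold dn
  rw [sg_phi (hSV hy), w_jac h hx, ENNReal.ofReal_mul]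
  · rfl
  · unfold jac; positivity

theorem chm_restrict (i j : A.ι) :
    (chm h i).restrict (A.e j).source = (chm h j).restrict (A.e i).source := by
  ext E hE
  rw [Measure.restrict_apply hE, Measure.restrict_apply hE]
  have h1 : chm h i (E ∩ (A.e j).source) = chm h i (E ∩ (A.e j).source ∩ (A.e i).source) := by
    exact (measure_inter_conull (chm_compl h i)).symm
  have h2 : chm h j (E ∩ (A.e i).source) = chm h j (E ∩ (A.e j).source ∩ (A.e i).source) := by
    rw [inter_right_comm]
    exact (measure_inter_conull (chm_compl h j)).symm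
  rw [h1, h2]
  exact chm_eq h ((hE.inter (A.e j).open_source.measurableSet).inter
    (A.e i).open_source.measurableSet) fun x hx => ⟨hx.2, hx.1.2⟩

end Chart

/-! ### the global measure -/

section Global

variable [Countable A.ι] (h : HM (KB A)⁻¹)

theorem meas_Dj (i : A.ι) : MeasurableSet (Dj A i) := by
  have : Dj A i = (A.e i).source ∩ ⋂ j, {x | en A j < en A i → x ∉ (A.e j).source} := by
    ext x
    simp [Dj]
  rw [this]
  refine (A.e i).open_source.measurableSet.inter (MeasurableSet.iInter fun j => ?_)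
  by_cases hj : en A j < en A i
  · simp only [hj, forall_const]
    exact (A.e j).open_source.measurableSet.compl
  · simp [hj]

/-- **the measure of the volume form `h`** -/
def vm : Measure M := Measure.sum fun i => (chm h i).restrict (Dj A i)

theorem vm_apply_chart {i : A.ι} {E : Set M} (hE : MeasurableSet E) (hs : E ⊆ (A.e i).source) :
    vm h E = chm h i E := by
  unfold vm
  rw [Measure.sum_apply _ hE]
  have h1 : ∀ j, (chm h j).restrict (Dj A j) E = chm h i (E ∩ Dj A j) := by
    intro j
    rw [Measure.restrict_apply hE]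
    exact (chm_eq h (hE.inter (meas_Dj j)) fun x hx => ⟨hs hx.1, hx.2.1⟩).symm
  simp only [h1]
  rw [← measure_iUnion]
  · congr 1
    rw [← inter_iUnion, iUnion_Dj, inter_univ]
  · intro a b hab
    exact (Dj_disjoint hab).mono inter_subset_right inter_subset_right
  · exact fun j => hE.inter (meas_Dj j)

theorem vm_restrict (i : A.ι) : (vm h).restrict (A.e i).source = chm h i := by
  ext E hE
  rw [Measure.restrict_apply hE,
    vm_apply_chart h (hE.inter (A.e i).open_source.measurableSet) inter_subset_right,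
    measure_inter_conull (chm_compl h i)]

/-- local formula -/
theorem setLIntegral_vm (i : A.ι) {f : M → ℝ≥0∞} (hf : Measurable f) :
    ∫⁻ x in (A.e i).source, f x ∂(vm h) = ∫⁻ y in Ui A i, dn h i y * f (sg A i y) := by
  rw [vm_restrict, lintegral_chm h i hf]

theorem ext_vm {μ : Measure M} (H : ∀ i, μ.restrict (A.e i).source = chm h i) : μ = vm h := by
  ext E hE
  have h1 : ∀ ν : Measure M, ν E = ∑' j, ν (E ∩ Dj A j) := by
    intro ν
    rw [← measure_iUnion]
    · rw [← inter_iUnion, iUnion_Dj, inter_univ]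
    · intro a b hab
      exact (Dj_disjoint hab).mono inter_subset_right inter_subset_right
    · exact fun j => hE.inter (meas_Dj j)
  rw [h1 μ, h1 (vm h)]
  refine tsum_congr fun j => ?_
  have h2 : ∀ ν : Measure M, ν (E ∩ Dj A j) = ν.restrict (A.e j).source (E ∩ Dj A j) := by
    intro ν
    rw [Measure.restrict_eq_self _ fun x hx => hx.2.1]
  rw [h2 μ, h2 (vm h), H j, vm_restrict]

/-- integrals of functions with values in a Banach space over a chart -/
theorem setIntegral_vm {W : Type*} [NormedAddCommGroup W] [NormedSpace ℝ W] (i : A.ι) {f : M → W}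
    (hf : AEStronglyMeasurable f (vm h)) :
    ∫ x in (A.e i).source, f x ∂(vm h) = ∫ y in Ui A i, h.w i (sg A i y) • f (sg A i y) := by
  rw [vm_restrict]
  have hf' : AEStronglyMeasurable f (chm h i) := by
    rw [← vm_restrict]
    exact hf.restrict
  unfold chm at hf' ⊢
  rw [integral_map (aemeas_sg' h i) hf']
  have h1 : (volume.restrict (Ui A i)).withDensity (dn h i) =
      (volume.restrict (Ui A i)).withDensity (fun y => ((h.w i (sg A i y)).toNNReal : ℝ≥0∞)) := rfl
  rw [h1, integral_withDensity_eq_integral_smul₀]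
  · refine setIntegral_congr_fun (isOpen_Ui i).measurableSet fun y hy => ?_
    have h2 : (h.w i (sg A i y)).toNNReal • f (sg A i y) =
        ((h.w i (sg A i y)).toNNReal : ℝ) • f (sg A i y) := rfl
    simp only [h2, Real.coe_toNNReal _ (h.pos i _ (sg_mem hy)).le]
  · exact ((continuousOn_w h i).aemeasurable (isOpen_Ui i).measurableSet).real_toNNReal

/-- the measure is locally finite, hence finite on compact spaces -/
theorem isLocallyFinite_vm : IsLocallyFiniteMeasure (vm h) := by
  refine ⟨fun x => ?_⟩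
  obtain ⟨i, hi⟩ := A.cover x
  -- a compact neighbourhood in the chart
  obtain ⟨K, hK, hxK, hKU⟩ := exists_compact_subset (isOpen_Ui i) (mem_Ui hi)
  obtain ⟨C, hC⟩ := hK.exists_bound_of_continuousOn ((continuousOn_w h i).mono hKU)
  set V : Set M := (A.e i).source ∩ (A.e i) ⁻¹' (rc ⁻¹' interior K) with hV
  have hVo : IsOpen V := by
    refine (A.e i).isOpen_inter_preimage (isOpen_interior.preimage ?_)
    rw [rc_eq]
    exact (rcL n).continuous
  refine ⟨V, hVo.mem_nhds ⟨hi, hxK⟩, ?_⟩
  rw [vm_apply_chart h hVo.measurableSet inter_subset_left, chm_apply h i hVo.measurableSet]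
  have hsub : {y | y ∈ Ui A i ∧ sg A i y ∈ V} ⊆ K := by
    rintro y ⟨hy, hyV⟩
    have h1 : rc (A.e i (sg A i y)) ∈ interior K := hyV.2
    have h2 : A.e i (sg A i y) = cc y := (A.e i).right_inv hy
    rw [h2, rc_cc] at h1
    exact interior_subset h1
  calc ∫⁻ y in {y | y ∈ Ui A i ∧ sg A i y ∈ V}, dn h i y
      ≤ ∫⁻ y in K, dn h i y := lintegral_mono_set hsub
    _ ≤ ∫⁻ _ in K, ENNReal.ofReal C := by
        refine setLIntegral_mono' hK.measurableSet fun y hy => ?_
        exact ENNReal.ofReal_le_ofReal ((le_abs_self _).trans (hC y hy))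
    _ < ⊤ := by
        rw [setLIntegral_const]
        exact ENNReal.mul_lt_top ENNReal.ofReal_lt_top hK.measure_lt_top

theorem isFinite_vm [CompactSpace M] : IsFiniteMeasure (vm h) := by
  have := isLocallyFinite_vm h
  exact ⟨isCompact_univ.measure_lt_top⟩

theorem isOpenPos_vm : (vm h).IsOpenPosMeasure := by
  refine ⟨fun V hV hne h0 => ?_⟩
  obtain ⟨x, hx⟩ := hne
  obtain ⟨i, hi⟩ := A.cover x
  have h1 : vm h (V ∩ (A.e i).source) = 0 := measure_mono_null inter_subset_left h0
  have hm : MeasurableSet (V ∩ (A.e i).source) := (hV.inter (A.e i).open_source).measurableSet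
  rw [vm_apply_chart h hm inter_subset_right, chm_apply h i hm] at h1
  set S : Set (RI n → ℝ) := {y | y ∈ Ui A i ∧ sg A i y ∈ V ∩ (A.e i).source} with hS
  have hSo : IsOpen S := by
    have : S = Ui A i ∩ sg A i ⁻¹' V := by
      ext y
      constructor
      · rintro ⟨hy, hyV⟩
        exact ⟨hy, hyV.1⟩
      · rintro ⟨hy, hyV⟩
        exact ⟨hy, hyV, sg_mem hy⟩
    rw [this]
    exact (continuousOn_sg i).isOpen_inter_preimage (isOpen_Ui i) hV
  have hSne : S.Nonempty := ⟨rc (A.e i x), mem_Ui hi, by rw [sg_rc hi]; exact ⟨hx, hi⟩⟩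
  have hpos : 0 < volume S := hSo.measure_pos volume hSne
  rw [lintegral_eq_zero_iff' ((aemeas_dn h i).mono_measure
    (Measure.restrict_mono (fun y hy => hy.1) le_rfl))] at h1
  have h2 : ∀ᵐ y ∂(volume.restrict S), False := by
    filter_upwards [h1, ae_restrict_mem hSo.measurableSet] with y hy hyS
    have h3 : 0 < h.w i (sg A i y) := h.pos i _ (sg_mem hyS.1)
    have h4 : dn h i y = 0 := hy
    unfold dn at h4
    rw [ENNReal.ofReal_eq_zero] at h4
    linarith
  have h3 : volume.restrict S = 0 := by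
    rw [ae_iff] at h2
    simpa using h2
  rw [Measure.restrict_eq_zero] at h3
  exact hpos.ne' h3

/-- a smooth function is continuous -/
theorem sm_continuous {W : Type*} [NormedAddCommGroup W] [NormedSpace ℝ W] {f : M → W}
    (hf : A.Sm f) : Continuous f := by
  rw [continuous_iff_continuousAt]
  intro x
  obtain ⟨i, hi⟩ := A.cover x
  have h1 : ContinuousOn (fun z => f ((A.e i).symm z)) (A.e i).target := (hf i).continuousOn
  have h2 : ContinuousOn (fun y => f ((A.e i).symm (A.e i y))) (A.e i).source :=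
    h1.comp (A.e i).continuousOn fun y hy => (A.e i).map_source hy
  have h3 : ContinuousOn f (A.e i).source :=
    h2.congr fun y hy => by
      change f y = f ((A.e i).symm (A.e i y))
      rw [(A.e i).left_inv hy]
  exact h3.continuousAt ((A.e i).open_source.mem_nhds hi)

/-- **global formula with a partition of unity** -/
theorem integral_vm_part [CompactSpace M] [Fintype A.ι] (P : Part A) {f : M → ℂ}
    (hf : Integrable f (vm h)) :
    ∫ x, f x ∂(vm h) =
      ∑ i, Crest.Agent.R275.SerG398.lint A i (fun x => (P.ψ i x : ℂ) * ((h.w i x : ℂ) * f x)) := by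
  have hint : ∀ i, Integrable (fun x => (P.ψ i x : ℂ) * f x) (vm h) := by
    intro i
    have hc : Continuous fun x => (P.ψ i x : ℂ) :=
      Complex.continuous_ofReal.comp (sm_continuous (P.ψ_sm i))
    obtain ⟨C, hC⟩ := isCompact_univ.exists_bound_of_continuousOn hc.continuousOn
    exact hf.bdd_mul (c := C) hc.measurable.aestronglyMeasurable
      (Eventually.of_forall fun x => hC x (mem_univ x))
  have h1 : (fun x => f x) = fun x => ∑ i, (P.ψ i x : ℂ) * f x := by
    funext x
    rw [← Finset.sum_mul]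
    have h2 : ∑ i, (P.ψ i x : ℂ) = 1 := by
      rw [← Complex.ofReal_sum, ← finsum_eq_sum_of_fintype, P.sum_one, Complex.ofReal_one]
    rw [h2, one_mul]
  calc ∫ x, f x ∂(vm h) = ∫ x, ∑ i, (P.ψ i x : ℂ) * f x ∂(vm h) := by rw [← h1]
    _ = ∑ i, ∫ x, (P.ψ i x : ℂ) * f x ∂(vm h) := integral_finsetSum _ fun i _ => hint i
    _ = _ := by
      refine Finset.sum_congr rfl fun i _ => ?_
      have h3 : ∫ x, (P.ψ i x : ℂ) * f x ∂(vm h) =
          ∫ x in (A.e i).source, (P.ψ i x : ℂ) * f x ∂(vm h) := by
        symm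
        refine setIntegral_eq_integral_of_forall_compl_eq_zero fun x hx => ?_
        rw [psi_off P hx, Complex.ofReal_zero, zero_mul]
      rw [h3, setIntegral_vm h i (hint i).aestronglyMeasurable]
      unfold Crest.Agent.R275.SerG398.lint
      symm
      rw [← setIntegral_eq_integral_of_forall_compl_eq_zero (s := Ui A i)
        (fun y hy => rd_off hy)]
      refine setIntegral_congr_fun (isOpen_Ui i).measurableSet fun y hy => ?_
      rw [rd_of_mem hy]
      change (P.ψ i (sg A i y) : ℂ) * ((h.w i (sg A i y) : ℂ) * f (sg A i y)) =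
        (h.w i (sg A i y)) • ((P.ψ i (sg A i y) : ℂ) * f (sg A i y))
      rw [Complex.real_smul]
      ring

end Global

/-! ### change of the volume form -/

section Tw

variable [Countable A.ι]

theorem chm_tw (h : HM (KB A)⁻¹) (f : M → ℝ) (hf : A.Sm f) (i : A.ι) :
    chm (tw h f hf) i = (chm h i).withDensity (fun x => ENNReal.ofReal (Real.exp (-f x))) := by
  have hm : Measurable fun x => ENNReal.ofReal (Real.exp (-f x)) :=
    (Real.measurable_exp.comp (sm_continuous hf).measurable.neg).ennreal_ofReal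
  ext E hE
  rw [withDensity_apply _ hE, ← lintegral_indicator hE, lintegral_chm h i (hm.indicator hE),
    chm_apply _ i hE]
  have h0 : ∀ y, dn h i y * E.indicator (fun x => ENNReal.ofReal (Real.exp (-f x))) (sg A i y) =
      ({y | sg A i y ∈ E} : Set (RI n → ℝ)).indicator
        (fun y => dn h i y * ENNReal.ofReal (Real.exp (-f (sg A i y)))) y := by
    intro y
    by_cases hy : sg A i y ∈ E
    · rw [indicator_of_mem hy, indicator_of_mem (show y ∈ {y | sg A i y ∈ E} from hy)]
    · rw [indicator_of_notMem hy, indicator_of_notMem (show y ∉ {y | sg A i y ∈ E} from hy),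
        mul_zero]
  simp only [h0]
  have h1 : {y | y ∈ Ui A i ∧ sg A i y ∈ E} = {y | sg A i y ∈ E} ∩ Ui A i := by
    ext y; exact and_comm
  have h2 : NullMeasurableSet {y | sg A i y ∈ E} (volume.restrict (Ui A i)) :=
    (aemeas_sg i).nullMeasurable hE
  rw [lintegral_indicator₀ h2, Measure.restrict_restrict₀ h2, ← h1]
  refine setLIntegral_congr_fun (meas_inter i hE) fun y hy => ?_
  have h3 : (tw h f hf).w i (sg A i y) = h.w i (sg A i y) * Real.exp (-f (sg A i y)) := rfl
  unfold dn
  rw [h3, ENNReal.ofReal_mul (h.pos i _ (sg_mem hy.1)).le]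

theorem vm_tw (h : HM (KB A)⁻¹) (f : M → ℝ) (hf : A.Sm f) :
    vm (tw h f hf) = (vm h).withDensity (fun x => ENNReal.ofReal (Real.exp (-f x))) := by
  symm
  apply ext_vm
  intro i
  rw [restrict_withDensity (A.e i).open_source.measurableSet, vm_restrict, chm_tw]

end Tw

end

end Crest.Agent.R273.Vm_333
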