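import Crest.Agent.R273.VolInv_5
import Crest.Agent.R273.Vm_333

/-!
# R273 (S0416), Green's formula for the measure of a Kaehler metric (helper5)

`K : Kah A`, measure `vm (volK K)` (helper333).
* `fnD K f` : the function of a density `f : A.ι → M → ℂ`, `f i x = fnD K f x * det (K.g i x)`;
  `sm_fnD`, `integral_fnD : ∫ fnD K f = totc P f`
* `Tn A S` : `S : A.ι → M → Matrix` transforms as a tensor of type `(1,1)`;
  `trK K S x = tr (g⁻¹ S)`, `trK_eq`, `trK_nonneg`
* `lapK K u`, `grK K φ u` (real); `integral_lapK`, `integral_mul_lapK`, `grK_nonneg`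
-/

set_option autoImplicit false
set_option linter.unusedSectionVars false

open Set Filter Topology Complex MeasureTheory
open scoped ContDiff Matrix ComplexConjugate ComplexOrder

namespace Crest.Agent.R273.GreenM_5

open Crest.Agent.R275 Crest.Agent.R275.Geo Crest.Agent.R275.Core144 Crest.Agent.R275.EDR890
open Crest.Agent.R275.Pai323 Crest.Agent.R275.C1d194
open Crest.Agent.R275.SerG398 (lint dens OffZ)
open Crest.Agent.R275.OmT75 (dj dl dl_chain dl_mul db_chain dj_sum dj_congr)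
open Crest.Agent.R273.Defs_333 Crest.Agent.R273.Hess_333 Crest.Agent.R273.HessB_333
open Crest.Agent.R273.HM_333 Crest.Agent.R273.Kah_333 Crest.Agent.R273.Vol_333
open Crest.Agent.R273.Vm_333
open Crest.Agent.R273.StV_37 Crest.Agent.R273.Piola_5 Crest.Agent.R273.Green_5
open Crest.Agent.R273.VolInv_5

noncomputable section

variable {n : ℕ} {M : Type} [TopologicalSpace M] {A : Atl n M}

/-- a chart at `x` -/
def ci (A : Atl n M) (x : M) : A.ι := (A.cover x).choose

theorem mem_ci (x : M) : x ∈ (A.e (ci A x)).source := (A.cover x).choose_spec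

/-- transformation law of tensors of type `(1,1)` -/
def Tn (A : Atl n M) (S : A.ι → M → Matrix (Fin n) (Fin n) ℂ) : Prop :=
  ∀ i j, ∀ x ∈ (A.e i).source ∩ (A.e j).source,
    S i x = (Jm A i j x)ᵀ * S j x * (Jm A i j x).map conj

/-- transformation law of densities -/
def Dn (A : Atl n M) (f : A.ι → M → ℂ) : Prop :=
  ∀ i j, ∀ x ∈ (A.e i).source ∩ (A.e j).source, f i x = dens A i j x * f j x

theorem dens_Jm (i j : A.ι) (x : M) :
    dens A i j x = (Jm A i j x).det * conj (Jm A i j x).det := SerG398.dens_eq i j x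

theorem Jm_det_ne {i j : A.ι} {x : M} (hx : x ∈ (A.e i).source ∩ (A.e j).source) :
    (Jm A i j x).det ≠ 0 := by
  rw [← KB_g hx]; exact (KB A).ne_zero i j x

theorem det_map_conj (m : Matrix (Fin n) (Fin n) ℂ) : (m.map conj).det = conj m.det := by
  rw [← RingHom.mapMatrix_apply, ← RingHom.map_det]

theorem Tn.det {S : A.ι → M → Matrix (Fin n) (Fin n) ℂ} (h : Tn A S) :
    Dn A (fun i x => (S i x).det) := by
  intro i j x hx
  change (S i x).det = _
  rw [h i j x hx, Matrix.det_mul, Matrix.det_mul, Matrix.det_transpose, det_map_conj, dens_Jm]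
  ring

theorem Tn.add {S S' : A.ι → M → Matrix (Fin n) (Fin n) ℂ} (h : Tn A S) (h' : Tn A S') :
    Tn A (fun i x => S i x + S' i x) := by
  intro i j x hx
  change S i x + S' i x = _
  rw [h i j x hx, h' i j x hx, Matrix.mul_add, Matrix.add_mul]

theorem CF.tn {g : A.ι → M → Matrix (Fin n) (Fin n) ℂ} (h : CF A g) : Tn A g := h.tr

theorem K_tn (K : Kah A) : Tn A K.g := K.tr

theorem K_det_ne (K : Kah A) {i : A.ι} {x : M} (hx : x ∈ (A.e i).source) :
    (K.g i x).det ≠ 0 := (K.pos i x hx).det_pos.ne'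

/-! ### functions of densities -/

/-- the function `f / det g` of a density -/
def fnD (K : Kah A) (f : A.ι → M → ℂ) (x : M) : ℂ := f (ci A x) x / (K.g (ci A x) x).det

theorem fnD_eq (K : Kah A) {f : A.ι → M → ℂ} (hf : Dn A f) {i : A.ι} {x : M}
    (hx : x ∈ (A.e i).source) : f i x = fnD K f x * (K.g i x).det := by
  have h1 := hf i (ci A x) x ⟨hx, mem_ci x⟩
  have h2 := (K_tn K).det i (ci A x) x ⟨hx, mem_ci x⟩
  have h3 := K_det_ne K (mem_ci x)
  unfold fnD
  rw [h1]
  change _ = _ * (K.g i x).det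
  rw [show (K.g i x).det = dens A i (ci A x) x * (K.g (ci A x) x).det from h2]
  field_simp

theorem fnD_div (K : Kah A) {f : A.ι → M → ℂ} (hf : Dn A f) {i : A.ι} {x : M}
    (hx : x ∈ (A.e i).source) : fnD K f x = f i x / (K.g i x).det := by
  rw [fnD_eq K hf hx, mul_div_cancel_right₀ _ (K_det_ne K hx)]

theorem sm_fnD (K : Kah A) {f : A.ι → M → ℂ} (hf : Dn A f) (hs : ∀ i, A.SmAt i (f i)) :
    A.Sm (fnD K f) := by
  intro i
  have h2 : ContDiffOn ℝ ∞ (fun z => f i ((A.e i).symm z)) (A.e i).target := hs i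
  have h3 : ContDiffOn ℝ ∞ (fun z => (K.g i ((A.e i).symm z)).det) (A.e i).target :=
    smAt_det (K.sm i)
  have h1 : ContDiffOn ℝ ∞ (fun z => f i ((A.e i).symm z) * ((K.g i ((A.e i).symm z)).det)⁻¹)
      (A.e i).target :=
    h2.mul (h3.inv fun z hz => K_det_ne K ((A.e i).map_target hz))
  refine h1.congr fun z hz => ?_
  change fnD K f ((A.e i).symm z) = _
  rw [fnD_div K hf ((A.e i).map_target hz), div_eq_mul_inv]

theorem sm_re {f : M → ℂ} (hf : A.Sm f) : A.Sm (fun x => (f x).re) := fun i =>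
  Complex.reCLM.contDiff.comp_contDiffOn (hf i)

section meas

variable [T2Space M] [CompactSpace M] [MeasurableSpace M] [BorelSpace M] [Finite A.ι]

theorem integrable_sm {W : Type*} [NormedAddCommGroup W] [NormedSpace ℝ W] [FiniteDimensional ℝ W]
    (h : HM (KB A)⁻¹) {f : M → W} (hf : A.Sm f) : Integrable f (vm h) := by
  have := isFinite_vm h
  have hc : Continuous f := sm_continuous hf
  exact hc.integrable_of_hasCompactSupport (HasCompactSupport.of_compactSpace f)

/-- the integral of a density -/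
theorem integral_fnD (K : Kah A) (P : Part A) {f : A.ι → M → ℂ} (hf : Dn A f)
    (hs : ∀ i, A.SmAt i (f i)) : ∫ x, fnD K f x ∂(vm (volK K)) = totc P f := by
  classical
  have := Fintype.ofFinite A.ι
  rw [integral_vm_part (volK K) P (integrable_sm (volK K) (sm_fnD K hf hs))]
  have h1 : ∀ i, lint A i (fun x => (P.ψ i x : ℂ) * (((volK K).w i x : ℂ) * fnD K f x)) =
      lint A i (fun x => (P.ψ i x : ℂ) * f i x) := by
    intro i
    refine lint_congr fun x hx => ?_
    rw [volK_w K i hx, fnD_eq K hf hx]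
    ring
  rw [Finset.sum_congr rfl fun i _ => h1 i]
  unfold totc tot
  symm
  refine Finset.sum_subset (Finset.subset_univ _) fun i _ hi => ?_
  have h2 : ∀ x ∈ (A.e i).source, (P.ψ i x : ℂ) * f i x = 0 := by
    intro x _
    have : P.ψ i x = 0 := psi_zero_of_notMem P isCompact_univ (Finset.Subset.refl _) hi (mem_univ x)
    rw [this, ofReal_zero, zero_mul]
  rw [lint_congr (g := fun _ => 0) h2, lint_zero]

theorem integral_fnD_re (K : Kah A) (P : Part A) {f : A.ι → M → ℂ} (hf : Dn A f)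
    (hs : ∀ i, A.SmAt i (f i)) : ∫ x, (fnD K f x).re ∂(vm (volK K)) = (totc P f).re := by
  rw [← integral_fnD K P hf hs]
  have h := integrable_sm (volK K) (sm_fnD K hf hs)
  exact integral_re h

end meas

/-! ### traces -/

/-- `tr (g⁻¹ S)` -/
def trK (K : Kah A) (S : A.ι → M → Matrix (Fin n) (Fin n) ℂ) (x : M) : ℂ :=
  ((K.g (ci A x) x)⁻¹ * S (ci A x) x).trace

theorem trace_tr {S : A.ι → M → Matrix (Fin n) (Fin n) ℂ} (hS : Tn A S) (K : Kah A)
    {i j : A.ι} {x : M} (hx : x ∈ (A.e i).source ∩ (A.e j).source) :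
    ((K.g i x)⁻¹ * S i x).trace = ((K.g j x)⁻¹ * S j x).trace := by
  set J := Jm A i j x with hJ
  have hJd : J.det ≠ 0 := Jm_det_ne hx
  have hJu : IsUnit J.det := isUnit_iff_ne_zero.2 hJd
  have hJt : IsUnit Jᵀ.det := by rw [Matrix.det_transpose]; exact hJu
  have hJc : IsUnit (J.map conj).det := by
    rw [det_map_conj, isUnit_iff_ne_zero]
    exact (map_ne_zero _).2 hJd
  rw [K.tr i j x hx, hS i j x hx, ← hJ, Matrix.mul_inv_rev, Matrix.mul_inv_rev]
  have h1 : (J.map conj)⁻¹ * ((K.g j x)⁻¹ * Jᵀ⁻¹) * (Jᵀ * S j x * J.map conj) =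
      (J.map conj)⁻¹ * ((K.g j x)⁻¹ * S j x) * J.map conj := by
    calc (J.map conj)⁻¹ * ((K.g j x)⁻¹ * Jᵀ⁻¹) * (Jᵀ * S j x * J.map conj)
        = (J.map conj)⁻¹ * ((K.g j x)⁻¹ * ((Jᵀ⁻¹ * Jᵀ) * S j x)) * J.map conj := by
          simp only [Matrix.mul_assoc]
      _ = _ := by rw [Matrix.nonsing_inv_mul _ hJt, Matrix.one_mul]
  rw [h1, Matrix.trace_mul_comm, ← Matrix.mul_assoc, Matrix.mul_nonsing_inv _ hJc, Matrix.one_mul]

theorem trK_eq (K : Kah A) {S : A.ι → M → Matrix (Fin n) (Fin n) ℂ} (hS : Tn A S) {i : A.ι} {x : M}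
    (hx : x ∈ (A.e i).source) : trK K S x = ((K.g i x)⁻¹ * S i x).trace :=
  trace_tr hS K ⟨mem_ci x, hx⟩

theorem trace_adj (K : Kah A) (S : Matrix (Fin n) (Fin n) ℂ) {i : A.ι} {x : M}
    (hx : x ∈ (A.e i).source) :
    ((K.g i x).adjugate * S).trace = ((K.g i x)⁻¹ * S).trace * (K.g i x).det := by
  have h1 : (K.g i x).adjugate = (K.g i x).det • (K.g i x)⁻¹ := by
    rw [Matrix.inv_def, smul_smul, Ring.mul_inverse_cancel _ (isUnit_iff_ne_zero.2 (K_det_ne K hx)),
      one_smul]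
  rw [h1, Matrix.smul_mul, Matrix.trace_smul, smul_eq_mul, mul_comm]

theorem adj_dn (K : Kah A) {S : A.ι → M → Matrix (Fin n) (Fin n) ℂ} (hS : Tn A S) :
    Dn A (fun i x => ((K.g i x).adjugate * S i x).trace) := by
  intro i j x hx
  change ((K.g i x).adjugate * S i x).trace = dens A i j x * ((K.g j x).adjugate * S j x).trace
  rw [trace_adj K _ hx.1, trace_adj K _ hx.2, trace_tr hS K hx]
  have h2 : (K.g i x).det = dens A i j x * (K.g j x).det := (K_tn K).det i j x hx
  rw [h2]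
  ring

theorem fnD_adj (K : Kah A) (S : A.ι → M → Matrix (Fin n) (Fin n) ℂ) (x : M) :
    fnD K (fun i x => ((K.g i x).adjugate * S i x).trace) x = trK K S x := by
  change ((K.g (ci A x) x).adjugate * S (ci A x) x).trace / (K.g (ci A x) x).det = _
  rw [trace_adj K _ (mem_ci x), mul_div_cancel_right₀ _ (K_det_ne K (mem_ci x))]
  rfl

open scoped MatrixOrder in
theorem exists_msqrt {S : Matrix (Fin n) (Fin n) ℂ} (hS : S.PosSemidef) :
    ∃ B : Matrix (Fin n) (Fin n) ℂ, S = Bᴴ * B := by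
  obtain ⟨B, hB⟩ := CStarAlgebra.nonneg_iff_eq_star_mul_self.mp hS.nonneg
  exact ⟨B, by rw [hB, Matrix.star_eq_conjTranspose]⟩

theorem trace_inv_mul_nonneg {G S : Matrix (Fin n) (Fin n) ℂ} (hG : G.PosDef)
    (hS : S.PosSemidef) : 0 ≤ (G⁻¹ * S).trace := by
  obtain ⟨B, rfl⟩ := exists_msqrt hS
  rw [← Matrix.mul_assoc, Matrix.trace_mul_comm, ← Matrix.mul_assoc]
  exact (hG.inv.posSemidef.mul_mul_conjTranspose_same B).trace_nonneg

theorem trK_nonneg (K : Kah A) {S : A.ι → M → Matrix (Fin n) (Fin n) ℂ} {x : M}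
    (hx : (S (ci A x) x).PosSemidef) : 0 ≤ trK K S x :=
  trace_inv_mul_nonneg (K.pos _ _ (mem_ci x)) hx

theorem hsf_tn {u : M → ℝ} (hu : A.Sm u) : Tn A (hsf A u) := (hsf_cf hu).tr

/-- the Laplacian (`g^{b̄ a} ∂_a ∂̄_b`) -/
def lapK (K : Kah A) (u : M → ℝ) (x : M) : ℝ := (trK K (hsf A u) x).re

theorem trace_real {G S : Matrix (Fin n) (Fin n) ℂ} (hG : G.IsHermitian)
    (hS : S.IsHermitian) : (((G⁻¹ * S).trace.re : ℝ) : ℂ) = (G⁻¹ * S).trace := by
  have h1 : conj (G⁻¹ * S).trace = (G⁻¹ * S).trace := by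
    have h2 := Matrix.trace_conjTranspose (G⁻¹ * S)
    rw [Matrix.conjTranspose_mul, hS.eq, hG.inv.eq, Matrix.trace_mul_comm] at h2
    exact h2.symm
  exact Complex.conj_eq_iff_re.1 h1

theorem hsf_herm {u : M → ℝ} (hu : A.Sm u) {i : A.ι} {x : M} (hx : x ∈ (A.e i).source) :
    (hsf A u i x).IsHermitian := hess_herm (sm_contDiffAt hu i ((A.e i).map_source hx))

theorem lapK_ofReal (K : Kah A) {u : M → ℝ} (hu : A.Sm u) (x : M) :
    ((lapK K u x : ℝ) : ℂ) = trK K (hsf A u) x :=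
  trace_real (K.pos _ _ (mem_ci x)).1 (hsf_herm hu (mem_ci x))

theorem lapK_eq (K : Kah A) {u : M → ℝ} (hu : A.Sm u) {i : A.ι} {x : M}
    (hx : x ∈ (A.e i).source) : lapK K u x = ((K.g i x)⁻¹ * hsf A u i x).trace.re := by
  unfold lapK
  rw [trK_eq K (hsf_tn hu) hx]

/-! ### gradients -/

/-- `g^{b̄ a} ∂_a φ ∂̄_b u` -/
def gc (K : Kah A) (φ u : M → ℂ) (i : A.ι) (x : M) : ℂ :=
  ∑ a, ∑ b, (K.g i x)⁻¹ b a * dl A i a φ x * A.db i b u x

theorem gadj_dn (K : Kah A) {φ u : M → ℂ} (hφ : ∀ i, A.SmAt i φ) (hu : ∀ i, A.SmAt i u) :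
    Dn A (fun i x => ∑ a, ∑ b, (K.g i x).adjugate b a * dl A i a φ x * A.db i b u x) := by
  intro i j x hx
  have hv := v10_adj (kah_cf K) (φ := fun _ => 1) (fun i => contDiffOn_const) hu
  have e : ∀ k, (∑ a, ∑ b, (K.g k x).adjugate b a * dl A k a φ x * A.db k b u x) =
      ∑ a, dl A k a φ x * adjY A K.g (fun _ => 1) u k x a := by
    intro k
    refine Finset.sum_congr rfl fun a _ => ?_
    unfold adjY
    rw [one_mul, Finset.mul_sum]
    exact Finset.sum_congr rfl fun b _ => by ring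
  change (∑ a, ∑ b, (K.g i x).adjugate b a * dl A i a φ x * A.db i b u x) =
    dens A i j x * ∑ a, ∑ b, (K.g j x).adjugate b a * dl A j a φ x * A.db j b u x
  rw [e i, e j]
  have h1 : ∀ a, dl A i a φ x = ∑ b, A.J i j x b a * dl A j b φ x := fun a =>
    dl_chain (Atl.SmAt.diffAt (hφ j) hx.2) hx a
  calc ∑ a, dl A i a φ x * adjY A K.g (fun _ => 1) u i x a
      = ∑ b, dl A j b φ x * ∑ a, A.J i j x b a * adjY A K.g (fun _ => 1) u i x a := by
        simp only [h1, Finset.sum_mul, Finset.mul_sum]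
        rw [Finset.sum_comm]
        exact Finset.sum_congr rfl fun b _ => Finset.sum_congr rfl fun a _ => by ring
    _ = _ := by
        rw [Finset.mul_sum]
        refine Finset.sum_congr rfl fun b _ => ?_
        rw [hv.tr i j x hx b]
        ring

theorem gadj_eq (K : Kah A) (φ u : M → ℂ) {i : A.ι} {x : M} (hx : x ∈ (A.e i).source) :
    (∑ a, ∑ b, (K.g i x).adjugate b a * dl A i a φ x * A.db i b u x) =
      gc K φ u i x * (K.g i x).det := by
  have h1 : (K.g i x).adjugate = (K.g i x).det • (K.g i x)⁻¹ := by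
    rw [Matrix.inv_def, smul_smul, Ring.mul_inverse_cancel _ (isUnit_iff_ne_zero.2 (K_det_ne K hx)),
      one_smul]
  unfold gc
  rw [Finset.sum_mul]
  refine Finset.sum_congr rfl fun a _ => ?_
  rw [Finset.sum_mul]
  refine Finset.sum_congr rfl fun b _ => ?_
  rw [h1, Matrix.smul_apply, smul_eq_mul]
  ring

theorem gc_tr (K : Kah A) {φ u : M → ℂ} (hφ : ∀ i, A.SmAt i φ) (hu : ∀ i, A.SmAt i u)
    {i j : A.ι} {x : M} (hx : x ∈ (A.e i).source ∩ (A.e j).source) :
    gc K φ u i x = gc K φ u j x := by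
  have h1 := gadj_dn K hφ hu i j x hx
  change (∑ a, ∑ b, (K.g i x).adjugate b a * dl A i a φ x * A.db i b u x) =
    dens A i j x * ∑ a, ∑ b, (K.g j x).adjugate b a * dl A j a φ x * A.db j b u x at h1
  rw [gadj_eq K φ u hx.1, gadj_eq K φ u hx.2,
    show (K.g i x).det = dens A i j x * (K.g j x).det from (K_tn K).det i j x hx] at h1
  have h2 : dens A i j x * (K.g j x).det ≠ 0 := by
    rw [← show (K.g i x).det = dens A i j x * (K.g j x).det from (K_tn K).det i j x hx]
    exact K_det_ne K hx.1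
  apply mul_right_cancel₀ h2
  rw [h1]
  ring

/-- `Re g^{b̄ a} ∂_a φ ∂̄_b u` for real functions -/
def grK (K : Kah A) (φ u : M → ℝ) (x : M) : ℝ :=
  (gc K (fun y => (φ y : ℂ)) (fun y => (u y : ℂ)) (ci A x) x).re

theorem grK_eq (K : Kah A) {φ u : M → ℝ} (hφ : A.Sm φ) (hu : A.Sm u) {i : A.ι} {x : M}
    (hx : x ∈ (A.e i).source) :
    grK K φ u x = (gc K (fun y => (φ y : ℂ)) (fun y => (u y : ℂ)) i x).re := by
  unfold grK
  rw [gc_tr K (fun i => smAt_ofReal (hφ i)) (fun i => smAt_ofReal (hu i)) ⟨mem_ci x, hx⟩]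

theorem gc_self_nonneg (K : Kah A) (u : M → ℝ) {i : A.ι} {x : M} (hx : x ∈ (A.e i).source) :
    0 ≤ gc K (fun y => (u y : ℂ)) (fun y => (u y : ℂ)) i x := by
  have h1 := (K.pos i x hx).inv.posSemidef.dotProduct_mulVec_nonneg
    (fun a => dl A i a (fun y => (u y : ℂ)) x)
  have h2 : gc K (fun y => (u y : ℂ)) (fun y => (u y : ℂ)) i x =
      star (fun a => dl A i a (fun y => (u y : ℂ)) x) ⬝ᵥ
        (K.g i x)⁻¹ *ᵥ (fun a => dl A i a (fun y => (u y : ℂ)) x) := by
    unfold gc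
    simp only [dotProduct, Matrix.mulVec, Finset.mul_sum, Pi.star_apply]
    rw [Finset.sum_comm]
    refine Finset.sum_congr rfl fun b _ => Finset.sum_congr rfl fun a _ => ?_
    have h3 : A.db i b (fun y => (u y : ℂ)) x = star (dl A i b (fun y => (u y : ℂ)) x) := by
      have h4 := db_conj (A := A) i b (fun y => (u y : ℂ)) x
      simp only [conj_ofReal] at h4
      exact h4
    rw [h3]
    ring
  rw [h2]
  exact h1

theorem grK_nonneg (K : Kah A) (u : M → ℝ) (x : M) : 0 ≤ grK K u u x :=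
  (Complex.le_def.1 (gc_self_nonneg K u (mem_ci x))).1

/-! ### integrals -/

section int

variable [T2Space M] [CompactSpace M] [MeasurableSpace M] [BorelSpace M] [Finite A.ι]

theorem sm_trK (K : Kah A) {S : A.ι → M → Matrix (Fin n) (Fin n) ℂ} (hS : Tn A S)
    (hs : ∀ i a b, A.SmAt i (fun x => S i x a b)) : A.Sm (trK K S) := by
  have h1 : trK K S = fnD K (fun i x => ((K.g i x).adjugate * S i x).trace) := by
    funext x
    rw [fnD_adj K]
  rw [h1]
  refine sm_fnD K (adj_dn K hS) fun i => ?_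
  have h2 : (fun x => ((K.g i x).adjugate * S i x).trace) =
      fun x => ∑ b, ∑ a, (K.g i x).adjugate b a * S i x a b := by
    funext x
    simp only [Matrix.trace, Matrix.diag, Matrix.mul_apply]
  rw [h2]
  exact ContDiffOn.sum fun b _ => ContDiffOn.sum fun a _ =>
    (smAt_adj (kah_cf K) i a b).mul (hs i a b)

theorem sm_lapK (K : Kah A) {u : M → ℝ} (hu : A.Sm u) : A.Sm (lapK K u) :=
  sm_re (sm_trK K (hsf_tn hu) (hsf_cf hu).sm)

theorem sm_grK (K : Kah A) {φ u : M → ℝ} (hφ : A.Sm φ) (hu : A.Sm u) : A.Sm (grK K φ u) := by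
  have hφ' : ∀ i, A.SmAt i (fun y => (φ y : ℂ)) := fun i => smAt_ofReal (hφ i)
  have hu' : ∀ i, A.SmAt i (fun y => (u y : ℂ)) := fun i => smAt_ofReal (hu i)
  have h1 := sm_re (sm_fnD K (gadj_dn K hφ' hu') fun i => smAt_grad (kah_cf K) (hφ' i) (hu' i))
  intro i
  refine (h1 i).congr fun z hz => ?_
  have hx := (A.e i).map_target hz
  change grK K φ u ((A.e i).symm z) = (fnD K _ ((A.e i).symm z)).re
  rw [fnD_div K (gadj_dn K hφ' hu') hx, gadj_eq K _ _ hx,
    mul_div_cancel_right₀ _ (K_det_ne K hx), grK_eq K hφ hu hx]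

/-- **Green's formula** -/
theorem integral_mul_lapK (K : Kah A) (P : Part A) {φ u : M → ℝ} (hφ : A.Sm φ) (hu : A.Sm u) :
    ∫ x, φ x * lapK K u x ∂(vm (volK K)) = - ∫ x, grK K φ u x ∂(vm (volK K)) := by
  have hφ' : ∀ i, A.SmAt i (fun y => (φ y : ℂ)) := fun i => smAt_ofReal (hφ i)
  have hu' : ∀ i, A.SmAt i (fun y => (u y : ℂ)) := fun i => smAt_ofReal (hu i)
  have h1 := greenc P (kah_cf K) hφ' hu'
  set f1 : A.ι → M → ℂ := fun i x => (φ x : ℂ) *
    ((K.g i x).adjugate * hm A (fun y => (u y : ℂ)) i x).trace with hf1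
  set f2 : A.ι → M → ℂ := fun i x => ∑ a, ∑ b, (K.g i x).adjugate b a *
    dl A i a (fun y => (φ y : ℂ)) x * A.db i b (fun y => (u y : ℂ)) x with hf2
  have e1 : ∀ i, ∀ x ∈ (A.e i).source, f1 i x =
      (φ x : ℂ) * ((K.g i x).adjugate * hsf A u i x).trace := by
    intro i x hx
    simp only [hf1]
    rw [hm_ofReal u i hx]
  have hd1 : Dn A f1 := by
    intro i j x hx
    rw [e1 i x hx.1, e1 j x hx.2,
      show ((K.g i x).adjugate * hsf A u i x).trace = dens A i j x *
        ((K.g j x).adjugate * hsf A u j x).trace from adj_dn K (hsf_tn hu) i j x hx]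
    ring
  have hs1 : ∀ i, A.SmAt i (f1 i) := fun i => (hφ' i).mul (smAt_tr (kah_cf K) (hu' i))
  have hd2 : Dn A f2 := gadj_dn K hφ' hu'
  have hs2 : ∀ i, A.SmAt i (f2 i) := fun i => smAt_grad (kah_cf K) (hφ' i) (hu' i)
  have g1 : ∀ x, φ x * lapK K u x = (fnD K f1 x).re := by
    intro x
    have hx := mem_ci (A := A) x
    rw [fnD_div K hd1 hx, e1 _ x hx, trace_adj K _ hx, ← mul_assoc,
      mul_div_cancel_right₀ _ (K_det_ne K hx), Complex.re_ofReal_mul]
    rfl
  have g2 : ∀ x, grK K φ u x = (fnD K f2 x).re := by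
    intro x
    have hx := mem_ci (A := A) x
    rw [fnD_div K hd2 hx]
    simp only [hf2]
    rw [gadj_eq K _ _ hx, mul_div_cancel_right₀ _ (K_det_ne K hx)]
    rfl
  simp only [g1, g2]
  rw [integral_fnD_re K P hd1 hs1, integral_fnD_re K P hd2 hs2, h1, Complex.neg_re]

theorem integral_lapK (K : Kah A) (P : Part A) {u : M → ℝ} (hu : A.Sm u) :
    ∫ x, lapK K u x ∂(vm (volK K)) = 0 := by
  have h1 := integral_mul_lapK K P (φ := fun _ => 1) (fun i => contDiffOn_const) hu
  have h2 : ∀ x, grK K (fun _ => 1) u x = 0 := by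
    intro x
    unfold grK gc
    simp [dl_const]
  simpa [h2] using h1

/-- the integral of a trace does not change under `S + ∂∂̄u` -/
theorem integral_trK_add (K : Kah A) (P : Part A) {S : A.ι → M → Matrix (Fin n) (Fin n) ℂ}
    (hS : Tn A S) (hs : ∀ i a b, A.SmAt i (fun x => S i x a b)) {u : M → ℝ} (hu : A.Sm u) :
    ∫ x, (trK K (fun i x => S i x + hsf A u i x) x).re ∂(vm (volK K)) =
      ∫ x, (trK K S x).re ∂(vm (volK K)) := by
  have h1 : ∀ x, (trK K (fun i x => S i x + hsf A u i x) x).re = (trK K S x).re + lapK K u x := by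
    intro x
    unfold trK lapK trK
    rw [Matrix.mul_add, Matrix.trace_add, Complex.add_re]
  simp only [h1]
  rw [integral_add (integrable_sm _ (sm_re (sm_trK K hS hs))) (integrable_sm _ (sm_lapK K hu)),
    integral_lapK K P hu, add_zero]

/-- invariance of the volume, measure form -/
theorem integral_det_add (K : Kah A) (P : Part A) {g : A.ι → M → Matrix (Fin n) (Fin n) ℂ}
    (hg : CF A g) {u : M → ℝ} (hu : A.Sm u) :
    ∫ x, (fnD K (fun i x => (g i x + hsf A u i x).det) x).re ∂(vm (volK K)) =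
      ∫ x, (fnD K (fun i x => (g i x).det) x).re ∂(vm (volK K)) := by
  have h1 := hg.add (hsf_cf hu)
  rw [integral_fnD_re K P (CF.tn h1).det fun i => smAt_det (h1.sm i),
    integral_fnD_re K P (CF.tn hg).det fun i => smAt_det (hg.sm i), volinv P hg hu]

end int

end

end Crest.Agent.R273.GreenM_5
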