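import Crest.Agent.R273.YauMax_635
import Crest.Agent.R273.GreenM_5

/-!
# R273 (S0416), Part C, C2 estimate (helper289), part 1: linear algebra

`bf M x y = ∑ M a b x_a conj y_b`.
-/

set_option autoImplicit false
set_option linter.unusedSectionVars false

open Set Filter Topology Complex Matrix
open scoped ContDiff Matrix ComplexConjugate ComplexOrder

namespace Crest.Agent.R273.C2a_289

open Crest.Agent.R273.GreenM_5

noncomputable section

variable {n : ℕ}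

/-- the sesquilinear form of a matrix -/
def bf (M : Matrix (Fin n) (Fin n) ℂ) (x y : Fin n → ℂ) : ℂ := x ⬝ᵥ (M *ᵥ star y)

theorem bf_eq_sum (M : Matrix (Fin n) (Fin n) ℂ) (x y : Fin n → ℂ) :
    bf M x y = ∑ a, ∑ b, M a b * x a * conj (y b) := by
  simp only [bf, dotProduct, Matrix.mulVec, Pi.star_apply, RCLike.star_def, Finset.mul_sum]
  refine Finset.sum_congr rfl fun a _ => Finset.sum_congr rfl fun b _ => ?_
  ring

variable (M N : Matrix (Fin n) (Fin n) ℂ) (x y x' y' : Fin n → ℂ)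

theorem bf_add : bf (M + N) x y = bf M x y + bf N x y := by
  simp [bf, Matrix.add_mulVec, dotProduct_add]

theorem bf_sub : bf (M - N) x y = bf M x y - bf N x y := by
  simp [bf, Matrix.sub_mulVec, dotProduct_sub]

theorem bf_smul (c : ℂ) : bf (c • M) x y = c * bf M x y := by
  simp [bf, Matrix.smul_mulVec, dotProduct_smul]

theorem bf_add_left : bf M (x + x') y = bf M x y + bf M x' y := by
  simp [bf, add_dotProduct]

theorem bf_add_right : bf M x (y + y') = bf M x y + bf M x y' := by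
  simp [bf, Matrix.mulVec_add, dotProduct_add]

theorem bf_neg_left : bf M (-x) y = - bf M x y := by
  simp [bf, neg_dotProduct]

theorem bf_neg_right : bf M x (-y) = - bf M x y := by
  simp [bf, Matrix.mulVec_neg, dotProduct_neg]

theorem bf_smul_left (c : ℂ) : bf M (c • x) y = c * bf M x y := by
  simp [bf, smul_dotProduct]

theorem bf_smul_right (c : ℂ) : bf M x (c • y) = conj c * bf M x y := by
  simp [bf, star_smul, Matrix.mulVec_smul, dotProduct_smul]

theorem bf_vecMul_left : bf M (x ᵥ* N) y = bf (N * M) x y := by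
  unfold bf
  rw [← Matrix.mulVec_mulVec, Matrix.dotProduct_mulVec x N]

theorem bf_vecMul_right : bf M x (y ᵥ* N) = bf (M * Nᴴ) x y := by
  unfold bf
  rw [Matrix.star_vecMul, Matrix.mulVec_mulVec]

theorem bf_conj : conj (bf M x y) = bf Mᴴ y x := by
  rw [bf_eq_sum, bf_eq_sum, map_sum, Finset.sum_comm]
  refine Finset.sum_congr rfl fun a _ => ?_
  rw [map_sum]
  refine Finset.sum_congr rfl fun b _ => ?_
  rw [map_mul, map_mul, Complex.conj_conj, Matrix.conjTranspose_apply, RCLike.star_def]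
  ring

variable {M N x y x' y'}

theorem bf_real (h : M.IsHermitian) (x : Fin n → ℂ) : (((bf M x x).re : ℝ) : ℂ) = bf M x x := by
  have h1 := bf_conj M x x
  rw [h.eq] at h1
  exact Complex.conj_eq_iff_re.1 h1

theorem bf_star (M : Matrix (Fin n) (Fin n) ℂ) (x : Fin n → ℂ) :
    bf M x x = star (star x) ⬝ᵥ (M *ᵥ star x) := by
  rw [star_star]; rfl

theorem bf_nonneg (h : M.PosSemidef) (x : Fin n → ℂ) : 0 ≤ bf M x x := by
  rw [bf_star]
  exact h.dotProduct_mulVec_nonneg (star x)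

theorem bf_pos (h : M.PosDef) {x : Fin n → ℂ} (hx : x ≠ 0) : 0 < bf M x x := by
  rw [bf_star]
  exact h.dotProduct_mulVec_pos (star_ne_zero.2 hx)

/-- second derivative of a form along a field which is normal for `X` -/
theorem normal_eq {X : Matrix (Fin n) (Fin n) ℂ} (hX : X.det ≠ 0)
    (X2 Xf Xb : Matrix (Fin n) (Fin n) ℂ) (v y : Fin n → ℂ) :
    bf X2 v v + bf Xb (-(v ᵥ* (Xf * X⁻¹))) v + bf Xf v y + bf X (-(v ᵥ* (Xf * X⁻¹))) y
      = bf (X2 - Xf * X⁻¹ * Xb) v v := by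
  have h : X⁻¹ * X = 1 := Matrix.nonsing_inv_mul _ (isUnit_iff_ne_zero.2 hX)
  rw [bf_neg_left, bf_neg_left, bf_vecMul_left, bf_vecMul_left, Matrix.mul_assoc Xf X⁻¹ X, h,
    Matrix.mul_one, bf_sub]
  ring

theorem normal_eq1 {X : Matrix (Fin n) (Fin n) ℂ} (hX : X.det ≠ 0)
    (Xf : Matrix (Fin n) (Fin n) ℂ) (v : Fin n → ℂ) :
    bf Xf v v + bf X (-(v ᵥ* (Xf * X⁻¹))) v = 0 := by
  have h : X⁻¹ * X = 1 := Matrix.nonsing_inv_mul _ (isUnit_iff_ne_zero.2 hX)
  rw [bf_neg_left, bf_vecMul_left, Matrix.mul_assoc Xf X⁻¹ X, h, Matrix.mul_one]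
  ring

/-- completing the square -/
theorem square_eq {G : Matrix (Fin n) (Fin n) ℂ} (hG : G.det ≠ 0) (hGh : G.IsHermitian)
    (G2 Gk Gl : Matrix (Fin n) (Fin n) ℂ) (v p p' : Fin n → ℂ) :
    bf G2 v v + bf Glᴴ p v + bf Gk v p' + bf G p p'
      = bf G (p + v ᵥ* (Gk * G⁻¹)) (p' + v ᵥ* (Gl * G⁻¹)) + bf (G2 - Gk * G⁻¹ * Glᴴ) v v := by
  have h : G⁻¹ * G = 1 := Matrix.nonsing_inv_mul _ (isUnit_iff_ne_zero.2 hG)
  have h' : G * G⁻¹ = 1 := Matrix.mul_nonsing_inv _ (isUnit_iff_ne_zero.2 hG)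
  have hi : (Gl * G⁻¹)ᴴ = G⁻¹ * Glᴴ := by
    rw [Matrix.conjTranspose_mul, Matrix.conjTranspose_nonsing_inv, hGh.eq]
  have e1 : bf G p (v ᵥ* (Gl * G⁻¹)) = bf Glᴴ p v := by
    rw [bf_vecMul_right, hi, ← Matrix.mul_assoc, h', Matrix.one_mul]
  have e2 : bf G (v ᵥ* (Gk * G⁻¹)) p' = bf Gk v p' := by
    rw [bf_vecMul_left, Matrix.mul_assoc, h, Matrix.mul_one]
  have e3 : bf G (v ᵥ* (Gk * G⁻¹)) (v ᵥ* (Gl * G⁻¹)) = bf (Gk * G⁻¹ * Glᴴ) v v := by
    rw [bf_vecMul_left, Matrix.mul_assoc Gk, h, Matrix.mul_one, bf_vecMul_right, hi,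
      Matrix.mul_assoc]
  rw [bf_add_left, bf_add_right, bf_add_right, e1, e2, e3, bf_sub]
  ring

theorem square_eq1 {G : Matrix (Fin n) (Fin n) ℂ} (hG : G.det ≠ 0)
    (Gk : Matrix (Fin n) (Fin n) ℂ) (v p : Fin n → ℂ) :
    bf Gk v v + bf G p v = bf G (p + v ᵥ* (Gk * G⁻¹)) v := by
  have h : G⁻¹ * G = 1 := Matrix.nonsing_inv_mul _ (isUnit_iff_ne_zero.2 hG)
  rw [bf_add_left, bf_vecMul_left, Matrix.mul_assoc, h, Matrix.mul_one]
  ring

theorem square_eq2 {G : Matrix (Fin n) (Fin n) ℂ} (hG : G.det ≠ 0) (hGh : G.IsHermitian)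
    (Gl : Matrix (Fin n) (Fin n) ℂ) (v p : Fin n → ℂ) :
    bf Glᴴ v v + bf G v p = bf G v (p + v ᵥ* (Gl * G⁻¹)) := by
  have h' : G * G⁻¹ = 1 := Matrix.mul_nonsing_inv _ (isUnit_iff_ne_zero.2 hG)
  have hi : (Gl * G⁻¹)ᴴ = G⁻¹ * Glᴴ := by
    rw [Matrix.conjTranspose_mul, Matrix.conjTranspose_nonsing_inv, hGh.eq]
  rw [bf_add_right, bf_vecMul_right, hi, ← Matrix.mul_assoc, h', Matrix.one_mul]
  ring

theorem gram_psd {G : Matrix (Fin n) (Fin n) ℂ} (hG : G.PosSemidef) (r : Fin n → Fin n → ℂ) :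
    (Matrix.of fun k l => bf G (r k) (r l)).PosSemidef := by
  have h := hG.mul_mul_conjTranspose_same (Matrix.of r)
  convert h using 1
  ext k l
  simp only [Matrix.of_apply, bf_eq_sum, Matrix.mul_apply, Matrix.conjTranspose_apply,
    RCLike.star_def, Finset.sum_mul]
  rw [Finset.sum_comm]
  refine Finset.sum_congr rfl fun a _ => Finset.sum_congr rfl fun b _ => ?_
  ring

/-- the Cauchy-Schwarz matrix is positive semidefinite -/
theorem cs_psd {G : Matrix (Fin n) (Fin n) ℂ} (hG : G.PosDef) {v : Fin n → ℂ} (hv : v ≠ 0)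
    (q : Fin n → Fin n → ℂ) :
    (Matrix.of fun k l => bf G (q k) (q l) * bf G v v - bf G (q k) v * bf G v (q l)).PosSemidef := by
  have h0 : 0 < bf G v v := bf_pos hG hv
  set g := bf G v v with hg
  have hgr : conj g = g := by rw [hg, bf_conj, hG.1.eq]
  have h := (gram_psd hG.posSemidef fun k => q k + (-(bf G (q k) v / g)) • v).smul h0.le
  convert h using 1
  ext k l
  simp only [Matrix.of_apply, Matrix.smul_apply, smul_eq_mul, bf_add_left, bf_add_right,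
    bf_smul_left, bf_smul_right, map_neg, map_div₀, hgr, bf_conj, hG.1.eq]
  rw [← hg]
  have h1 : g ≠ 0 := h0.ne'
  field_simp
  ring

theorem trace_mul_nonneg {N S : Matrix (Fin n) (Fin n) ℂ} (hN : N.PosSemidef)
    (hS : S.PosSemidef) : 0 ≤ (N * S).trace := by
  obtain ⟨B, rfl⟩ := exists_msqrt hS
  rw [← Matrix.mul_assoc, Matrix.trace_mul_comm, ← Matrix.mul_assoc]
  exact (hN.mul_mul_conjTranspose_same B).trace_nonneg

/-- `G ≤ tr(X⁻¹ G) X` -/
theorem bf_le_trace {X G : Matrix (Fin n) (Fin n) ℂ} (hX : X.PosDef) (hG : G.PosSemidef)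
    {v : Fin n → ℂ} (hv : v ≠ 0) : bf G v v ≤ (X⁻¹ * G).trace * bf X v v := by
  have hd : X.det ≠ 0 := hX.det_pos.ne'
  have h : X⁻¹ * X = 1 := Matrix.nonsing_inv_mul _ (isUnit_iff_ne_zero.2 hd)
  have hTh : (X⁻¹)ᴴ = X⁻¹ := hX.inv.1.eq
  have h1 := trace_mul_nonneg (cs_psd hX hv fun k => X⁻¹ k) hG
  have e1 : ∀ k l, bf X (X⁻¹ k) (X⁻¹ l) = X⁻¹ k l := by
    intro k l
    have : (X⁻¹ * X * (X⁻¹)ᴴ) k l = bf X (X⁻¹ k) (X⁻¹ l) := by
      simp only [bf_eq_sum, Matrix.mul_apply, Matrix.conjTranspose_apply, RCLike.star_def,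
        Finset.sum_mul]
      rw [Finset.sum_comm]
      refine Finset.sum_congr rfl fun a _ => Finset.sum_congr rfl fun b _ => ?_
      ring
    rw [← this, h, Matrix.one_mul, hTh]
  have e2 : ∀ k, bf X (X⁻¹ k) v = conj (v k) := by
    intro k
    have : (X⁻¹ *ᵥ (X *ᵥ star v)) k = bf X (X⁻¹ k) v := rfl
    rw [← this, Matrix.mulVec_mulVec, h, Matrix.one_mulVec]
    rfl
  have e3 : ∀ k, bf X v (X⁻¹ k) = v k := by
    intro k
    have := bf_conj X (X⁻¹ k) v
    rw [hX.1.eq, e2, Complex.conj_conj] at this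
    exact this.symm
  have h2 : ((Matrix.of fun k l => bf X (X⁻¹ k) (X⁻¹ l) * bf X v v
      - bf X (X⁻¹ k) v * bf X v (X⁻¹ l)) * G).trace = (X⁻¹ * G).trace * bf X v v - bf G v v := by
    simp only [Matrix.trace, Matrix.diag_apply, Matrix.mul_apply, Matrix.of_apply, e1, e2, e3,
      sub_mul, Finset.sum_sub_distrib]
    congr 1
    · rw [Finset.sum_mul]
      refine Finset.sum_congr rfl fun a _ => ?_
      rw [Finset.sum_mul]
      refine Finset.sum_congr rfl fun b _ => ?_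
      ring
    · rw [bf_eq_sum, Finset.sum_comm]
      refine Finset.sum_congr rfl fun a _ => Finset.sum_congr rfl fun b _ => ?_
      ring
  rw [h2] at h1
  exact sub_nonneg.1 h1

theorem norm_entry_le {T : Matrix (Fin n) (Fin n) ℂ} (hT : T.PosSemidef) (k l : Fin n) :
    ‖T k l‖ ≤ T.trace.re := by
  obtain ⟨B, rfl⟩ := exists_msqrt hT
  have e : ∀ k l, (Bᴴ * B) k l = ∑ c, conj (B c k) * B c l := by
    intro k l
    simp [Matrix.mul_apply, Matrix.conjTranspose_apply]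
  have e2 : ∀ k, ((Bᴴ * B) k k).re = ∑ c, ‖B c k‖ ^ 2 := by
    intro k
    rw [e, Complex.re_sum]
    refine Finset.sum_congr rfl fun c _ => ?_
    rw [← Complex.normSq_eq_conj_mul_self, Complex.ofReal_re, Complex.normSq_eq_norm_sq]
  have e3 : (Bᴴ * B).trace.re = ∑ k, ∑ c, ‖B c k‖ ^ 2 := by
    simp only [Matrix.trace, Matrix.diag_apply, Complex.re_sum, e2]
  have e4 : ∀ k, ∑ c, ‖B c k‖ ^ 2 ≤ ∑ k, ∑ c, ‖B c k‖ ^ 2 := fun k =>
    Finset.single_le_sum (f := fun k => ∑ c, ‖B c k‖ ^ 2)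
      (fun i _ => Finset.sum_nonneg fun c _ => by positivity) (Finset.mem_univ k)
  rw [e3, e]
  calc ‖∑ c, conj (B c k) * B c l‖ ≤ ∑ c, ‖conj (B c k) * B c l‖ := norm_sum_le _ _
    _ ≤ ∑ c, (‖B c k‖ ^ 2 / 2 + ‖B c l‖ ^ 2 / 2) := by
      refine Finset.sum_le_sum fun c _ => ?_
      rw [norm_mul, Complex.norm_conj]
      nlinarith [sq_nonneg (‖B c k‖ - ‖B c l‖)]
    _ = (∑ c, ‖B c k‖ ^ 2) / 2 + (∑ c, ‖B c l‖ ^ 2) / 2 := by
      rw [Finset.sum_add_distrib, Finset.sum_div, Finset.sum_div]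
    _ ≤ _ := by linarith [e4 k, e4 l]

theorem norm_bf_le {M : Matrix (Fin n) (Fin n) ℂ} {R : ℝ} (hM : ∀ a b, ‖M a b‖ ≤ R)
    {v : Fin n → ℂ} {s : ℝ} (hv : ∀ a, ‖v a‖ ≤ s) : ‖bf M v v‖ ≤ n ^ 2 * (R * s ^ 2) := by
  rw [bf_eq_sum]
  calc ‖∑ a, ∑ b, M a b * v a * conj (v b)‖ ≤ ∑ a : Fin n, ∑ b : Fin n, R * s ^ 2 := by
        refine (norm_sum_le _ _).trans (Finset.sum_le_sum fun a _ => ?_)
        refine (norm_sum_le _ _).trans (Finset.sum_le_sum fun b _ => ?_)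
        rw [norm_mul, norm_mul, Complex.norm_conj, sq, ← mul_assoc]
        have hs : 0 ≤ s := (norm_nonneg _).trans (hv a)
        have hR : 0 ≤ R := (norm_nonneg _).trans (hM a b)
        exact mul_le_mul (mul_le_mul (hM a b) (hv a) (norm_nonneg _) hR) (hv b) (norm_nonneg _)
          (by positivity)
    _ = _ := by simp; ring

theorem one_add_sum_le_prod {ι : Type*} (s : Finset ι) {f : ι → ℝ} (hf : ∀ i ∈ s, 0 ≤ f i) :
    1 + ∑ i ∈ s, f i ≤ ∏ i ∈ s, (1 + f i) := by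
  classical
  induction s using Finset.induction_on with
  | empty => simp
  | insert a t ha ih =>
    rw [Finset.sum_insert ha, Finset.prod_insert ha]
    have h1 := ih fun i hi => hf i (Finset.mem_insert_of_mem hi)
    have h2 := hf a (Finset.mem_insert_self a t)
    have h3 : 0 ≤ ∑ i ∈ t, f i := Finset.sum_nonneg fun i hi => hf i (Finset.mem_insert_of_mem hi)
    nlinarith

theorem one_add_trace_le {K : Matrix (Fin n) (Fin n) ℂ} (hK : K.PosSemidef) :
    1 + K.trace ≤ (1 + K).det := by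
  have h1 : (1 + K).det = ∏ i, (1 + (hK.1.eigenvalues i : ℂ)) := by
    have hs := hK.1.spectral_theorem
    set U := hK.1.eigenvectorUnitary
    have h4 : (U : Matrix (Fin n) (Fin n) ℂ) * star (U : Matrix (Fin n) (Fin n) ℂ) = 1 :=
      Unitary.coe_mul_star_self U
    have h2 : 1 + K = (U : Matrix (Fin n) (Fin n) ℂ) *
        (Matrix.diagonal fun i => 1 + (hK.1.eigenvalues i : ℂ)) *
          star (U : Matrix (Fin n) (Fin n) ℂ) := by
      have h3 : (Matrix.diagonal fun i => 1 + (hK.1.eigenvalues i : ℂ)) =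
          (1 : Matrix (Fin n) (Fin n) ℂ) + Matrix.diagonal (RCLike.ofReal ∘ hK.1.eigenvalues) := by
        rw [← Matrix.diagonal_one, Matrix.diagonal_add]
        rfl
      rw [h3, Matrix.mul_add, Matrix.add_mul, Matrix.mul_one]
      rw [h4]
      congr 1
    rw [h2, Matrix.det_mul, Matrix.det_mul, Matrix.det_diagonal]
    have h7 : (U : Matrix (Fin n) (Fin n) ℂ).det * (star (U : Matrix (Fin n) (Fin n) ℂ)).det = 1 := by
      rw [← Matrix.det_mul, h4, Matrix.det_one]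
    linear_combination (∏ i, (1 + (hK.1.eigenvalues i : ℂ))) * h7
  rw [h1, hK.1.trace_eq_sum_eigenvalues]
  have h6 := one_add_sum_le_prod Finset.univ (f := hK.1.eigenvalues)
    (fun i _ => hK.eigenvalues_nonneg i)
  have h7 : ((1 + ∑ i, hK.1.eigenvalues i : ℝ) : ℂ) ≤ ((∏ i, (1 + hK.1.eigenvalues i) : ℝ) : ℂ) :=
    Complex.real_le_real.2 h6
  push_cast at h7
  exact h7

theorem det_add_ge {G P : Matrix (Fin n) (Fin n) ℂ} (hG : G.PosDef) (hP : P.PosSemidef) :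
    G.det * (1 + (G⁻¹ * P).trace) ≤ (G + P).det := by
  obtain ⟨C, hXC⟩ := exists_msqrt hG.posSemidef
  have hdet : G.det ≠ 0 := hG.det_pos.ne'
  have hC : IsUnit C.det := by
    rw [isUnit_iff_ne_zero]
    intro h0
    apply hdet
    rw [hXC, Matrix.det_mul, h0, mul_zero]
  set K : Matrix (Fin n) (Fin n) ℂ := (C⁻¹)ᴴ * P * C⁻¹ with hK
  have hKp : K.PosSemidef := hP.conjTranspose_mul_mul_same C⁻¹
  have e1 : Cᴴ * (C⁻¹)ᴴ = 1 := by
    rw [← Matrix.conjTranspose_mul, Matrix.nonsing_inv_mul _ hC, Matrix.conjTranspose_one]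
  have e2 : (C⁻¹)ᴴ * Cᴴ = 1 := by
    rw [← Matrix.conjTranspose_mul, Matrix.mul_nonsing_inv _ hC, Matrix.conjTranspose_one]
  have hGi : G⁻¹ = C⁻¹ * (C⁻¹)ᴴ := by
    apply Matrix.inv_eq_left_inv
    rw [hXC]
    calc C⁻¹ * (C⁻¹)ᴴ * (Cᴴ * C) = C⁻¹ * ((C⁻¹)ᴴ * Cᴴ) * C := by simp only [Matrix.mul_assoc]
      _ = 1 := by rw [e2, Matrix.mul_one, Matrix.nonsing_inv_mul _ hC]
  have htr : (G⁻¹ * P).trace = K.trace := by
    rw [hGi, hK, Matrix.mul_assoc, Matrix.trace_mul_comm]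
  have hY : G + P = Cᴴ * (1 + K) * C := by
    have h1 : Cᴴ * K * C = P := by
      rw [hK]
      calc _ = (Cᴴ * (C⁻¹)ᴴ) * P * (C⁻¹ * C) := by simp only [Matrix.mul_assoc]
        _ = P := by rw [e1, Matrix.nonsing_inv_mul _ hC, Matrix.one_mul, Matrix.mul_one]
    rw [Matrix.mul_add, Matrix.add_mul, h1, Matrix.mul_one, ← hXC]
  have h2 : (G + P).det = G.det * (1 + K).det := by
    rw [hY]
    conv_rhs => rw [hXC]
    rw [Matrix.det_mul, Matrix.det_mul, Matrix.det_mul]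
    ring
  rw [h2, htr]
  exact mul_le_mul_of_nonneg_left (one_add_trace_le hKp) hG.det_pos.le

/-- `X ≤ (det X / det G) G` if `X ≥ G > 0` -/
theorem le_det_mul {G X : Matrix (Fin n) (Fin n) ℂ} (hG : G.PosDef) (hX : (X - G).PosSemidef)
    (v : Fin n → ℂ) : G.det * bf X v v ≤ X.det * bf G v v := by
  rcases eq_or_ne v 0 with rfl | hv
  · simp [bf]
  · have h1 := bf_le_trace hG hX hv
    have h2 := det_add_ge hG hX
    rw [add_sub_cancel] at h2
    have h3 : bf X v v ≤ (1 + (G⁻¹ * (X - G)).trace) * bf G v v := by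
      rw [bf_sub] at h1
      have := add_le_add_left h1 (bf G v v)
      calc bf X v v = bf X v v - bf G v v + bf G v v := by ring
        _ ≤ (G⁻¹ * (X - G)).trace * bf G v v + bf G v v := this
        _ = _ := by ring
    calc G.det * bf X v v ≤ G.det * ((1 + (G⁻¹ * (X - G)).trace) * bf G v v) :=
          mul_le_mul_of_nonneg_left h3 hG.det_pos.le
      _ = G.det * (1 + (G⁻¹ * (X - G)).trace) * bf G v v := by ring
      _ ≤ X.det * bf G v v := mul_le_mul_of_nonneg_right h2 (bf_pos hG hv).le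

end

end Crest.Agent.R273.C2a_289
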