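import Crest.Agent.R273.YC3e_812
import Crest.Agent.R273.YauDefs_635

/-!
Row 273 (S0416), Part C (Yau), helper812: `C3Stmt` of `YauDefs_635` (Calabi's interior third order
estimate), and the dictionary between `D2`, `lev`, `cH` and the algebra `Sm`.
-/

set_option autoImplicit false
set_option linter.unusedSimpArgs false
set_option linter.unusedSectionVars false

open Set Filter Topology Complex
open scoped ContDiff ComplexConjugate ComplexOrder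

namespace Crest.Agent.R273.YauC3_812

open Crest.Agent.R273.YSm_812 Crest.Agent.R273.YJet_812 Crest.Agent.R273.YC3_812
open Crest.Agent.R273.Defs_333 Crest.Agent.R273.YauDefs_635

variable {n : ℕ} {Ω : Set (W n)}

/-- complexification of a real smooth function -/
noncomputable def rl (f : W n → ℝ) (hf : ContDiffOn ℝ ∞ f Ω) : Sm Ω :=
  mk (fun z => ((f z : ℝ) : ℂ)) (ofRealCLM.contDiff.comp_contDiffOn hf)

theorem rl_apply (f : W n → ℝ) (hf : ContDiffOn ℝ ∞ f Ω) (z : Ω) :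
    (rl f hf).1 z = ((f z : ℝ) : ℂ) := rfl

theorem cj_rl (f : W n → ℝ) (hf : ContDiffOn ℝ ∞ f Ω) : cj (rl f hf) = rl f hf :=
  Sm.ext' fun z => by rw [cj_apply, rl_apply, conj_ofReal]

theorem dr_ofReal {f : W n → ℝ} {z : W n} (hf : DifferentiableAt ℝ f z) (ξ : W n) :
    dr ξ (fun w => ((f w : ℝ) : ℂ)) z = ((fderiv ℝ f z ξ : ℝ) : ℂ) := by
  have h := ofRealCLM.hasFDerivAt.comp z hf.hasFDerivAt
  have h2 : fderiv ℝ (fun w => ((f w : ℝ) : ℂ)) z = ofRealCLM.comp (fderiv ℝ f z) := h.fderiv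
  rw [dr, h2]; rfl

theorem dr_dr_rl (hΩ : IsOpen Ω) {f : W n → ℝ} (hf : ContDiffOn ℝ ∞ f Ω) {z : W n} (hz : z ∈ Ω)
    (ξ η : W n) : dr ξ (dr η (fun w => ((f w : ℝ) : ℂ))) z = ((D2 f z ξ η : ℝ) : ℂ) := by
  have h1 : ∀ w ∈ Ω, dr η (fun w => ((f w : ℝ) : ℂ)) w = ((fderiv ℝ f w η : ℝ) : ℂ) := fun w hw =>
    dr_ofReal ((hf.differentiableOn (by simp)).differentiableAt (hΩ.mem_nhds hw)) η
  rw [dr_congr hΩ h1 hz]
  have h2 : ContDiffOn ℝ ∞ (fderiv ℝ f) Ω := hf.fderiv_of_isOpen hΩ (by simp)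
  have h3 : DifferentiableAt ℝ (fderiv ℝ f) z :=
    (h2.differentiableOn (by simp)).differentiableAt (hΩ.mem_nhds hz)
  rw [dr_ofReal (h3.clm_apply (differentiableAt_const η))]
  congr 1
  rw [fderiv_clm_apply h3 (differentiableAt_const η)]
  simp [D2]

/-- general formula for `∂_ξ ∂̄_η` -/
theorem U2_dr (hΩ : IsOpen Ω) (g : Sm Ω) (ξ η : W n) (z : Ω) :
    (U2 hΩ g ξ η).1 z = (1 / 4 : ℂ) * ((dr ξ (dr η (ex g.1)) z
        + dr (I • ξ) (dr (I • η) (ex g.1)) z)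
      + I * (dr ξ (dr (I • η) (ex g.1)) z - dr (I • ξ) (dr η (ex g.1)) z)) := by
  have e : ∀ ζ : W n, dr ζ (ex (B hΩ η g).1) z = (1 / 2 : ℂ) * dr ζ (dr η (ex g.1)) z
      + (I / 2) * dr ζ (dr (I • η) (ex g.1)) z := by
    intro ζ
    have h1 : dr ζ (ex (B hΩ η g).1) z = dr ζ (fun w => (1 / 2 : ℂ) * dr η (ex g.1) w
        + (I / 2) * dr (I • η) (ex g.1) w) z :=
      dr_congr hΩ (fun w hw => by rw [ex_of_mem _ hw, B_apply, db_dab]; rfl) z.2 ζ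
    have h2 := contDiffOn_dr hΩ η g.2
    have h3 := contDiffOn_dr hΩ (I • η) g.2
    rw [h1, dr_add ((diffAt hΩ h2 z.2).const_mul _) ((diffAt hΩ h3 z.2).const_mul _),
      dr_const_mul hΩ h2 z.2, dr_const_mul hΩ h3 z.2]
  rw [U2, D_apply, dz_dab, dab, e, e]
  have := I_mul_I
  linear_combination (-(1 / 4 : ℂ) * dr (I • ξ) (dr (I • η) (ex g.1)) z) * this

theorem dr_ex_rl (hΩ : IsOpen Ω) {f : W n → ℝ} (hf : ContDiffOn ℝ ∞ f Ω) (z : Ω) (ξ η : W n) :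
    dr ξ (dr η (ex (rl f hf).1)) z = ((D2 f z ξ η : ℝ) : ℂ) := by
  rw [← dr_dr_rl hΩ hf z.2]
  exact dr_congr hΩ (fun w hw => dr_congr hΩ (fun v hv => by rw [ex_of_mem _ hv]; rfl) hw η) z.2 ξ

theorem U2_rl (hΩ : IsOpen Ω) {f : W n → ℝ} (hf : ContDiffOn ℝ ∞ f Ω) (z : Ω) (ξ η : W n) :
    (U2 hΩ (rl f hf) ξ η).1 z = (1 / 4 : ℂ) *
      (((D2 f z ξ η + D2 f z (I • ξ) (I • η) : ℝ) : ℂ)
      + I * ((D2 f z ξ (I • η) - D2 f z (I • ξ) η : ℝ) : ℂ)) := by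
  rw [U2_dr]
  simp only [dr_ex_rl hΩ hf]
  push_cast
  ring

theorem single_I (a : Fin n) : (EuclideanSpace.single a I : W n)
    = I • (EuclideanSpace.single a (1 : ℂ) : W n) := by
  ext i
  by_cases h : i = a
  · subst h; simp
  · simp [h]

theorem cH_eq (hΩ : IsOpen Ω) {f : W n → ℝ} (hf : ContDiffOn ℝ ∞ f Ω) (z : Ω) (a b : Fin n) :
    cH f z a b = (U2 hΩ (rl f hf) (eb n a) (eb n b)).1 z := by
  rw [U2_rl, cH, Matrix.of_apply, single_I, single_I, eb_apply, eb_apply]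

theorem lev_eq4 (hΩ : IsOpen Ω) {f : W n → ℝ} (hf : ContDiffOn ℝ ∞ f Ω) (z : Ω) (v : W n) :
    lev f z v = 4 * ((U2 hΩ (rl f hf) v v).1 z).re := by
  rw [lev333_eq, U2_rl]
  have h2 : ContDiffAt ℝ ∞ f z := hf.contDiffAt (hΩ.mem_nhds z.2)
  have hsym : D2 f z v (I • v) = D2 f z (I • v) v := by
    exact (h2.isSymmSndFDerivAt (by
      rw [minSmoothness_of_isRCLikeNormedField]; exact two_le)) _ _
  rw [hsym, sub_self, ofReal_zero, mul_zero, add_zero]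
  have : (1 / 4 : ℂ) = ((1 / 4 : ℝ) : ℂ) := by push_cast; rfl
  rw [this, ← ofReal_mul, ofReal_re]
  ring

theorem det_eq (hΩ : IsOpen Ω) {f : W n → ℝ} (hf : ContDiffOn ℝ ∞ f Ω) (z : Ω) :
    ((Matrix.of fun i j => U2 hΩ (rl f hf) (eb n i) (eb n j)).det).1 z = (cH f z).det := by
  have h1 : ((Matrix.of fun i j => U2 hΩ (rl f hf) (eb n i) (eb n j)).det).1 z
      = (ev z) ((Matrix.of fun i j => U2 hΩ (rl f hf) (eb n i) (eb n j)).det) := rfl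
  rw [h1, AlgHom.map_det]
  congr 1
  ext a b
  rw [cH_eq hΩ hf]
  rfl

/-- third derivatives -/
theorem norm_dr3_le (hΩ : IsOpen Ω) {g : W n → ℂ} (hg : ContDiffOn ℝ ∞ g Ω) {z : W n}
    (hz : z ∈ Ω) (a b c : W n) :
    ‖dr a (dr b (dr c g)) z‖ ≤ ‖iteratedFDeriv ℝ 3 g z‖ * ‖a‖ * ‖b‖ * ‖c‖ := by
  have h1 : ∀ w ∈ Ω, dr b (dr c g) w = iteratedFDeriv ℝ 2 g w ![b, c] := by
    intro w hw
    rw [dr_dr hΩ hg hw, iteratedFDeriv_two_apply]
    rfl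
  have h2 : DifferentiableAt ℝ (iteratedFDeriv ℝ 2 g) z := by
    have h3 : ContDiffAt ℝ ∞ g z := hg.contDiffAt (hΩ.mem_nhds hz)
    have h4 : ContDiffAt ℝ 3 g z := h3.of_le (by
      exact WithTop.coe_le_coe.2 le_top)
    exact (h4.differentiableAt_iteratedFDeriv (m := 2) (by norm_cast))
  have h3 : dr a (dr b (dr c g)) z = iteratedFDeriv ℝ 3 g z ![a, b, c] := by
    rw [dr_congr hΩ h1 hz, iteratedFDeriv_succ_apply_left]
    have h4 : HasFDerivAt (fun w => iteratedFDeriv ℝ 2 g w ![b, c])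
        ((ContinuousMultilinearMap.apply ℝ (fun _ : Fin 2 => W n) ℂ ![b, c]).comp
          (fderiv ℝ (iteratedFDeriv ℝ 2 g) z)) z :=
      (ContinuousMultilinearMap.apply ℝ (fun _ : Fin 2 => W n) ℂ ![b, c]).hasFDerivAt.comp z
        h2.hasFDerivAt
    rw [dr, h4.fderiv]
    rfl
  rw [h3]
  refine ((iteratedFDeriv ℝ 3 g z).le_opNorm _).trans (le_of_eq ?_)
  simp [Fin.prod_univ_succ]
  ring

/-- norm of the derivatives of the complexification -/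
theorem norm_iter_rl (hΩ : IsOpen Ω) {f : W n → ℝ} (hf : ContDiffOn ℝ ∞ f Ω) {z : W n}
    (hz : z ∈ Ω) (k : ℕ) :
    ‖iteratedFDeriv ℝ k (fun w => ((f w : ℝ) : ℂ)) z‖ = ‖iteratedFDeriv ℝ k f z‖ := by
  have h1 : ContDiffAt ℝ k f z := (hf.contDiffAt (hΩ.mem_nhds hz)).of_le (by
    exact WithTop.coe_le_coe.2 le_top)
  exact ofRealLI.norm_iteratedFDeriv_comp_left h1 le_rfl

/-- general formula for `∂_ξ ∂_ζ ∂̄_η` in terms of real derivatives, as a bound -/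
theorem norm_U3_le (hΩ : IsOpen Ω) {f : W n → ℝ} (hf : ContDiffOn ℝ ∞ f Ω) {K : ℝ} (z : Ω)
    (hK : ‖iteratedFDeriv ℝ 3 f z‖ ≤ K) (ξ ζ η : W n) :
    ‖(U3 hΩ (rl f hf) ξ ζ η).1 z‖ ≤ K * ‖ξ‖ * ‖ζ‖ * ‖η‖ := by
  have hc : ContDiffOn ℝ ∞ (fun w => ((f w : ℝ) : ℂ)) Ω := ofRealCLM.contDiff.comp_contDiffOn hf
  have hexp : (U3 hΩ (rl f hf) ξ ζ η).1 z
      = dab (1 / 2) (-(I / 2)) ξ (fun w => (1 / 4 : ℂ) *
        ((dr ζ (dr η (fun w => ((f w : ℝ) : ℂ))) w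
        + dr (I • ζ) (dr (I • η) (fun w => ((f w : ℝ) : ℂ))) w)
      + I * (dr ζ (dr (I • η) (fun w => ((f w : ℝ) : ℂ))) w
        - dr (I • ζ) (dr η (fun w => ((f w : ℝ) : ℂ))) w))) z := by
    rw [U3, D_apply, dz_dab]
    have e : ∀ w ∈ Ω, ex (D hΩ ζ (B hΩ η (rl f hf))).1 w = (1 / 4 : ℂ) *
        ((dr ζ (dr η (fun w => ((f w : ℝ) : ℂ))) w
        + dr (I • ζ) (dr (I • η) (fun w => ((f w : ℝ) : ℂ))) w)
      + I * (dr ζ (dr (I • η) (fun w => ((f w : ℝ) : ℂ))) w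
        - dr (I • ζ) (dr η (fun w => ((f w : ℝ) : ℂ))) w)) := by
      intro w hw
      rw [ex_of_mem _ hw]
      have h1 := U2_dr hΩ (rl f hf) ζ η ⟨w, hw⟩
      have h2 : ∀ a b : W n, dr a (dr b (ex (rl f hf).1)) w
          = dr a (dr b (fun w => ((f w : ℝ) : ℂ))) w := fun a b =>
        dr_congr hΩ (fun w hw => dr_congr hΩ (fun v hv => by rw [ex_of_mem _ hv]; rfl) hw b) hw a
      simp only [h2] at h1
      exact h1
    simp only [dab]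
    rw [dr_congr hΩ e z.2, dr_congr hΩ e z.2]
  have hs : ∀ a b : W n, DifferentiableAt ℝ (dr a (dr b (fun w => ((f w : ℝ) : ℂ)))) z :=
    fun a b => diffAt hΩ (contDiffOn_dr hΩ a (contDiffOn_dr hΩ b hc)) z.2
  have hlin : ∀ x : W n, dr x (fun w => (1 / 4 : ℂ) *
        ((dr ζ (dr η (fun w => ((f w : ℝ) : ℂ))) w
        + dr (I • ζ) (dr (I • η) (fun w => ((f w : ℝ) : ℂ))) w)
      + I * (dr ζ (dr (I • η) (fun w => ((f w : ℝ) : ℂ))) w
        - dr (I • ζ) (dr η (fun w => ((f w : ℝ) : ℂ))) w))) z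
      = (1 / 4 : ℂ) * ((dr x (dr ζ (dr η (fun w => ((f w : ℝ) : ℂ)))) z
        + dr x (dr (I • ζ) (dr (I • η) (fun w => ((f w : ℝ) : ℂ)))) z)
      + I * (dr x (dr ζ (dr (I • η) (fun w => ((f w : ℝ) : ℂ)))) z
        - dr x (dr (I • ζ) (dr η (fun w => ((f w : ℝ) : ℂ)))) z)) := by
    intro x
    have d1 := (hs ζ η).hasFDerivAt
    have d2 := (hs (I • ζ) (I • η)).hasFDerivAt
    have d3 := (hs ζ (I • η)).hasFDerivAt
    have d4 := (hs (I • ζ) η).hasFDerivAt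
    have d5 := ((d1.add d2).add ((d3.sub d4).const_mul I)).const_mul (1 / 4 : ℂ)
    have d6 := d5.fderiv
    simp only [dr] at d6 ⊢
    have d7 := congrArg (fun L => L x) d6
    refine Eq.trans ?_ (d7.trans ?_)
    · rfl
    · simp
      ring
  have hb : ∀ a b c : W n, ‖dr a (dr b (dr c (fun w => ((f w : ℝ) : ℂ)))) z‖
      ≤ K * ‖a‖ * ‖b‖ * ‖c‖ := by
    intro a b c
    refine (norm_dr3_le hΩ hc z.2 a b c).trans ?_
    rw [norm_iter_rl hΩ hf z.2]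
    gcongr
  have hK0 : 0 ≤ K := (norm_nonneg _).trans hK
  have nI : ∀ v : W n, ‖I • v‖ = ‖v‖ := fun v => by rw [norm_smul, norm_I, one_mul]
  have hx : ∀ x : W n, ‖x‖ ≤ ‖ξ‖ → ‖dr x (fun w => (1 / 4 : ℂ) *
        ((dr ζ (dr η (fun w => ((f w : ℝ) : ℂ))) w
        + dr (I • ζ) (dr (I • η) (fun w => ((f w : ℝ) : ℂ))) w)
      + I * (dr ζ (dr (I • η) (fun w => ((f w : ℝ) : ℂ))) w
        - dr (I • ζ) (dr η (fun w => ((f w : ℝ) : ℂ))) w))) z‖ ≤ K * ‖ξ‖ * ‖ζ‖ * ‖η‖ := by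
    intro x hx
    rw [hlin x, norm_mul]
    have b1 := hb x ζ η
    have b2 := hb x (I • ζ) (I • η)
    have b3 := hb x ζ (I • η)
    have b4 := hb x (I • ζ) η
    rw [nI, nI] at b2
    rw [nI] at b3 b4
    have hle : K * ‖x‖ * ‖ζ‖ * ‖η‖ ≤ K * ‖ξ‖ * ‖ζ‖ * ‖η‖ := by gcongr
    have n1 : ‖(1 / 4 : ℂ)‖ = 1 / 4 := by simp
    rw [n1]
    have t1 := norm_add_le (dr x (dr ζ (dr η (fun w => ((f w : ℝ) : ℂ)))) z
        + dr x (dr (I • ζ) (dr (I • η) (fun w => ((f w : ℝ) : ℂ)))) z)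
      (I * (dr x (dr ζ (dr (I • η) (fun w => ((f w : ℝ) : ℂ)))) z
        - dr x (dr (I • ζ) (dr η (fun w => ((f w : ℝ) : ℂ)))) z))
    have t2 := norm_add_le (dr x (dr ζ (dr η (fun w => ((f w : ℝ) : ℂ)))) z)
      (dr x (dr (I • ζ) (dr (I • η) (fun w => ((f w : ℝ) : ℂ)))) z)
    have t3 := norm_sub_le (dr x (dr ζ (dr (I • η) (fun w => ((f w : ℝ) : ℂ)))) z)
      (dr x (dr (I • ζ) (dr η (fun w => ((f w : ℝ) : ℂ)))) z)
    rw [norm_mul, norm_I, one_mul] at t1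
    linarith
  rw [hexp, dab]
  refine (norm_add_le _ _).trans ?_
  rw [norm_mul, norm_mul]
  have n1 : ‖(1 / 2 : ℂ)‖ = 1 / 2 := by simp
  have n2 : ‖-(I / 2)‖ = 1 / 2 := by simp
  rw [n1, n2]
  have x1 := hx ξ le_rfl
  have x2 := hx (I • ξ) (nI ξ).le
  linarith

theorem norm_D2_le {f : W n → ℝ} {z : W n} {K : ℝ} (hK : ‖iteratedFDeriv ℝ 2 f z‖ ≤ K)
    (a b : W n) : |D2 f z a b| ≤ K * ‖a‖ * ‖b‖ := by
  have h1 : D2 f z a b = iteratedFDeriv ℝ 2 f z ![a, b] := by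
    rw [iteratedFDeriv_two_apply]; rfl
  rw [h1, ← Real.norm_eq_abs]
  refine ((iteratedFDeriv ℝ 2 f z).le_opNorm _).trans ?_
  simp only [Fin.prod_univ_succ, Matrix.cons_val_zero, Matrix.cons_val_succ, Fin.prod_univ_zero,
    mul_one]
  calc ‖iteratedFDeriv ℝ 2 f z‖ * (‖a‖ * ‖b‖) ≤ K * (‖a‖ * ‖b‖) := by gcongr
    _ = _ := by ring

theorem norm_U2_le (hΩ : IsOpen Ω) {f : W n → ℝ} (hf : ContDiffOn ℝ ∞ f Ω) {K : ℝ} (z : Ω)
    (hK : ‖iteratedFDeriv ℝ 2 f z‖ ≤ K) (ξ : W n) :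
    ‖(U2 hΩ (rl f hf) ξ ξ).1 z‖ ≤ K * ‖ξ‖ ^ 2 := by
  rw [re_eq (cj_U2 hΩ (cj_rl f hf) ξ ξ) z, norm_real, Real.norm_eq_abs]
  have h1 : ((U2 hΩ (rl f hf) ξ ξ).1 z).re
      = (1 / 4) * (D2 f z ξ ξ + D2 f z (I • ξ) (I • ξ)) := by
    have := lev_eq4 hΩ hf z ξ
    rw [lev333_eq] at this
    linarith
  rw [h1, abs_mul]
  have nI : ∀ v : W n, ‖I • v‖ = ‖v‖ := fun v => by rw [norm_smul, norm_I, one_mul]
  have b1 := norm_D2_le hK ξ ξ
  have b2 := norm_D2_le hK (I • ξ) (I • ξ)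
  rw [nI] at b2
  have b3 := abs_add_le (D2 f z ξ ξ) (D2 f z (I • ξ) (I • ξ))
  have hK0 : 0 ≤ K := (norm_nonneg _).trans hK
  have b4 : 0 ≤ K * ‖ξ‖ ^ 2 := by positivity
  rw [abs_of_pos (show (0 : ℝ) < 1 / 4 by norm_num)]
  nlinarith

/-- the real derivative of a component of the complex Hessian -/
theorem norm_dr_U2_le (hΩ : IsOpen Ω) {u : Sm Ω} (hu : cj u = u) {C : ℝ} (z : Ω)
    (hC : ∀ ξ ζ η : W n, ‖(U3 hΩ u ξ ζ η).1 z‖ ≤ C * ‖ξ‖ * ‖ζ‖ * ‖η‖) (v : W n)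
    (a b : Fin n) : ‖dr v (ex (U2 hΩ u (eb n a) (eb n b)).1) z‖ ≤ 2 * C * ‖v‖ := by
  have h1 : dr v (ex (U2 hΩ u (eb n a) (eb n b)).1) z
      = (U3 hΩ u v (eb n a) (eb n b)).1 z + conj ((U3 hΩ u v (eb n b) (eb n a)).1 z) := by
    have e1 : (U3 hΩ u v (eb n a) (eb n b)).1 z = dz v (ex (U2 hΩ u (eb n a) (eb n b)).1) z :=
      D_apply hΩ v _ z
    have e2 : conj ((U3 hΩ u v (eb n b) (eb n a)).1 z)
        = db v (ex (U2 hΩ u (eb n a) (eb n b)).1) z := by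
      rw [← B_apply hΩ v _ z, ← cj_apply, U3]
      have : cj (D hΩ v (D hΩ (eb n b) (B hΩ (eb n a) u)))
          = B hΩ v (U2 hΩ u (eb n a) (eb n b)) := by
        rw [← B_cj]
        congr 1
        exact cj_U2 hΩ hu (eb n b) (eb n a)
      rw [this]
    rw [e1, e2, dz_dab, db_dab, dab, dab]
    ring
  rw [h1]
  refine (norm_add_le _ _).trans ?_
  rw [norm_conj]
  have b1 := hC v (eb n a) (eb n b)
  have b2 := hC v (eb n b) (eb n a)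
  rw [norm_eb, norm_eb, mul_one, mul_one] at b1 b2
  linarith

/-- **`C3Stmt`** : Calabi's interior third order estimate -/
theorem c3Stmt : C3Stmt := by
  intro n r lo hi K hr hlo
  obtain ⟨C, hC0, hC⟩ := calabi n r (lo / 4) (max hi 0 / 4) (max K 0) hr (by positivity)
    (le_max_right _ _) (by positivity)
  refine ⟨2 * C, ?_⟩
  intro z₀ u f hu hf hlev hdet hb z hz a b
  have hΩ : IsOpen (Metric.ball z₀ r) := Metric.isOpen_ball
  let d : Dat hΩ (eb n) (lo / 4) (max hi 0 / 4) (max K 0) :=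
    { u := rl u hu
      F := rl f hf
      eps := 0
      c0 := 1
      hu := cj_rl u hu
      c0pos := one_pos
      heps := by simp
      det := by
        intro w
        rw [det_eq hΩ hu w, hdet w w.2, rl_apply]
        simp
      low := by
        intro w ξ
        have h1 := (hlev w w.2 ξ).1
        rw [lev_eq4 hΩ hu w ξ] at h1
        linarith
      upp := by
        intro w ξ
        have h1 := (hlev w w.2 ξ).2
        rw [lev_eq4 hΩ hu w ξ] at h1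
        have h2 : hi * ‖ξ‖ ^ 2 ≤ max hi 0 * ‖ξ‖ ^ 2 :=
          mul_le_mul_of_nonneg_right (le_max_left _ _) (sq_nonneg _)
        linarith
      F2 := by
        intro w ξ
        exact norm_U2_le hΩ hf w ((hb w w.2 2 (by norm_num) (by norm_num)).trans
          (le_max_left _ _)) ξ
      F3 := by
        intro w ξ ζ η
        exact norm_U3_le hΩ hf w ((hb w w.2 3 (by norm_num) (by norm_num)).trans
          (le_max_left _ _)) ξ ζ η }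
  have hz' : z ∈ Metric.ball z₀ r := Metric.ball_subset_ball (by linarith) hz
  have h1 : ∀ ξ ζ η : W n, ‖(U3 hΩ d.u ξ ζ η).1 ⟨z, hz'⟩‖ ≤ C * ‖ξ‖ * ‖ζ‖ * ‖η‖ :=
    hC z₀ hΩ d ⟨z, hz'⟩ (le_of_lt hz)
  refine ContinuousLinearMap.opNorm_le_bound _ (by positivity) fun v => ?_
  have h2 := norm_dr_U2_le hΩ (cj_rl u hu) ⟨z, hz'⟩ h1 v a b
  have h3 : dr v (ex (U2 hΩ (rl u hu) (eb n a) (eb n b)).1) z
      = fderiv ℝ (fun w => cH u w a b) z v := by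
    show _ = dr v (fun w => cH u w a b) z
    refine dr_congr hΩ (fun w hw => ?_) hz' v
    rw [ex_of_mem _ hw, cH_eq hΩ hu ⟨w, hw⟩]
  rw [← h3]
  exact h2


end Crest.Agent.R273.YauC3_812
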