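import Crest.Agent.R273.Sub_835

/-!
# R273 (S0416), Part E (helper835): inverse function theorem in charts, level sets of submersions

* `exists_invFun`  : holomorphic inverse function theorem as an `OpenPartialHomeomorph`;
* `exists_split`   : a surjective linear map `Cn n → Cn k` is the first component of an isomorphism;
* `subCh_of_submersion`, `isSub_of_submersion` : level sets;
* `isSub_fibre`    : the fibres of a submersion `p : M → N`.
-/

set_option autoImplicit false
set_option linter.unusedSectionVars false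

open Set Filter Topology Complex
open scoped ContDiff Matrix ComplexConjugate Manifold

namespace Crest.Agent.R273.Reg_835

open Crest.Agent.R275.Geo Crest.Agent.R275.Core144 Crest.Agent.R275.GC293
open Crest.Agent.R273.Defs_333 Crest.Agent.R273.Map_835 Crest.Agent.R273.PB_835
open Crest.Agent.R273.Fam_835 Crest.Agent.R273.Sub_835

noncomputable section

variable {n m k d : ℕ}

/-- holomorphic inverse function theorem -/
theorem exists_invFun {Φ : Cn n → Cn n} {V : Set (Cn n)} (hV : IsOpen V)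
    (hΦ : DifferentiableOn ℂ Φ V) {z : Cn n} (hz : z ∈ V) (T : Cn n ≃L[ℂ] Cn n)
    (hT : HasFDerivAt Φ (T : Cn n →L[ℂ] Cn n) z) :
    ∃ R : OpenPartialHomeomorph (Cn n) (Cn n), z ∈ R.source ∧ R.source ⊆ V ∧ (⇑R = Φ) ∧
      DifferentiableOn ℂ R.symm R.target := by
  have han := Crest.Agent.R266.SCV.analyticOnNhd_of_differentiableOn hV hΦ
  have hs : HasStrictFDerivAt Φ (T : Cn n →L[ℂ] Cn n) z := by
    have h1 := (han z hz).hasStrictFDerivAt
    rwa [hT.fderiv] at h1
  set R₀ := hs.toOpenPartialHomeomorph Φ with hR₀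
  have hc : ContinuousOn (fderiv ℂ Φ) V := han.fderiv.continuousOn
  have hW : IsOpen (V ∩ (fderiv ℂ Φ) ⁻¹' (range ((↑) : (Cn n ≃L[ℂ] Cn n) → Cn n →L[ℂ] Cn n))) :=
    hc.isOpen_inter_preimage hV (ContinuousLinearEquiv.isOpen)
  refine ⟨R₀.restrOpen _ hW, ?_, ?_, ?_, ?_⟩
  · rw [OpenPartialHomeomorph.restrOpen_source]
    exact ⟨hs.mem_toOpenPartialHomeomorph_source, hz, ⟨T, hT.fderiv.symm⟩⟩
  · rw [OpenPartialHomeomorph.restrOpen_source]
    exact fun w hw => hw.2.1
  · rfl
  · intro w hw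
    have h1 := (R₀.restrOpen _ hW).map_target hw
    rw [OpenPartialHomeomorph.restrOpen_source] at h1
    obtain ⟨-, h2, T', hT'⟩ := h1
    have h3 : HasFDerivAt (R₀.restrOpen _ hW) (T' : Cn n →L[ℂ] Cn n)
        ((R₀.restrOpen _ hW).symm w) := by
      rw [hT']
      exact (hΦ.differentiableAt (hV.mem_nhds h2)).hasFDerivAt
    exact ((R₀.restrOpen _ hW).hasFDerivAt_symm hw h3).differentiableAt.differentiableWithinAt

/-- a surjective linear map is a coordinate projection -/
theorem exists_split (hkd : k + d = n) (T : Cn n →L[ℂ] Cn k) (hT : Function.Surjective T) :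
    ∃ Θ : Cn n ≃L[ℂ] (Cn k × Cn d), ∀ v, (Θ v).1 = T v := by
  -- a linear isomorphism `Cn d ≃ ker T`
  have h1 : Module.finrank ℂ (LinearMap.ker T.toLinearMap) = d := by
    have h2 := LinearMap.finrank_range_add_finrank_ker T.toLinearMap
    have h3 : LinearMap.range T.toLinearMap = ⊤ := LinearMap.range_eq_top.2 hT
    rw [h3, finrank_top, finrank_euclideanSpace_fin, finrank_euclideanSpace_fin] at h2
    omega
  have h4 : Module.finrank ℂ (Cn d) = Module.finrank ℂ (LinearMap.ker T.toLinearMap) := by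
    rw [h1, finrank_euclideanSpace_fin]
  let E : Cn d ≃ₗ[ℂ] LinearMap.ker T.toLinearMap := LinearEquiv.ofFinrankEq _ _ h4
  let ι : Cn d →ₗ[ℂ] Cn n := (LinearMap.ker T.toLinearMap).subtype ∘ₗ E.toLinearMap
  have hι : LinearMap.ker ι = ⊥ := by
    rw [LinearMap.ker_eq_bot]
    exact (Submodule.subtype_injective _).comp E.injective
  obtain ⟨K, hK⟩ := LinearMap.exists_leftInverse_of_injective ι hι
  let Θ₀ : Cn n →ₗ[ℂ] (Cn k × Cn d) := T.toLinearMap.prod K
  have hinj : Function.Injective Θ₀ := by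
    rw [injective_iff_map_eq_zero]
    intro v hv
    have hv1 : T v = 0 := congrArg Prod.fst hv
    have hv2 : K v = 0 := congrArg Prod.snd hv
    have hmem : v ∈ LinearMap.ker T.toLinearMap := hv1
    have h5 : ι (E.symm ⟨v, hmem⟩) = v := by
      simp [ι]
    have h6 := congrArg (fun f : Cn d →ₗ[ℂ] Cn d => f (E.symm ⟨v, hmem⟩)) hK
    simp only [LinearMap.comp_apply, LinearMap.id_apply] at h6
    rw [h5, hv2] at h6
    rw [← h5, ← h6, map_zero]
  have hfin : Module.finrank ℂ (Cn n) = Module.finrank ℂ (Cn k × Cn d) := by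
    rw [Module.finrank_prod, finrank_euclideanSpace_fin, finrank_euclideanSpace_fin,
      finrank_euclideanSpace_fin, hkd]
  refine ⟨(LinearEquiv.ofBijective Θ₀ ⟨hinj,
    (LinearMap.injective_iff_surjective_of_finrank_eq_finrank hfin).1 hinj⟩).toContinuousLinearEquiv,
    fun v => rfl⟩

variable {M N : Type} [TopologicalSpace M] [TopologicalSpace N] {C : Fam n M} {D : Fam k N}
  {S : Set M}

/-- a chart composed with a local biholomorphism is a compatible chart -/
theorem compat_trans {i : C.ι} {R : OpenPartialHomeomorph (Cn n) (Cn n)}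
    (hR : DifferentiableOn ℂ R R.source) (hR' : DifferentiableOn ℂ R.symm R.target) :
    (∀ j, DifferentiableOn ℂ (fun z => ((C.e i).trans R) ((C.e j).symm z))
      ((C.e j).target ∩ (C.e j).symm ⁻¹' ((C.e i).trans R).source)) ∧
    (∀ j, DifferentiableOn ℂ (fun z => C.e j (((C.e i).trans R).symm z))
      (((C.e i).trans R).target ∩ ((C.e i).trans R).symm ⁻¹' (C.e j).source)) := by
  refine ⟨fun j => ?_, fun j => ?_⟩
  · intro z hz
    have h1 : (C.e j).symm z ∈ (C.e i).source ∧ C.e i ((C.e j).symm z) ∈ R.source := by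
      have := hz.2
      rw [mem_preimage, OpenPartialHomeomorph.trans_source] at this
      exact this
    have h2 : DifferentiableAt ℂ (fun w => C.e i ((C.e j).symm w)) z :=
      (C.holo j i).differentiableAt (((C.e j).isOpen_inter_preimage_symm
        (C.e i).open_source).mem_nhds ⟨hz.1, h1.1⟩)
    have h3 : DifferentiableAt ℂ R (C.e i ((C.e j).symm z)) :=
      hR.differentiableAt (R.open_source.mem_nhds h1.2)
    exact (DifferentiableAt.comp z h3 h2).differentiableWithinAt
  · intro z hz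
    have h1 : z ∈ R.target ∧ R.symm z ∈ (C.e i).target := by
      have := hz.1
      rw [OpenPartialHomeomorph.trans_target] at this
      exact this
    have h2 : DifferentiableAt ℂ R.symm z :=
      hR'.differentiableAt (R.open_target.mem_nhds h1.1)
    have h4 : (C.e i).symm (R.symm z) ∈ (C.e j).source := hz.2
    have h3 : DifferentiableAt ℂ (fun w => C.e j ((C.e i).symm w)) (R.symm z) :=
      (C.holo i j).differentiableAt (((C.e i).isOpen_inter_preimage_symm
        (C.e j).open_source).mem_nhds ⟨h1.2, h4⟩)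
    exact (DifferentiableAt.comp z (g := fun w => C.e j ((C.e i).symm w)) h3
      h2).differentiableWithinAt

/-- level sets of submersions are submanifolds (local form) -/
theorem subCh_of_submersion (hkd : k + d = n) {i : C.ι} {x : M} (hx : x ∈ (C.e i).source)
    {U : Set M} (hU : IsOpen U) (hxU : x ∈ U) {f : M → Cn k}
    (hf : DifferentiableOn ℂ (fun z => f ((C.e i).symm z)) ((C.e i).target ∩ (C.e i).symm ⁻¹' U))
    (hs : Function.Surjective (fderiv ℂ (fun z => f ((C.e i).symm z)) (C.e i x)))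
    (hS : ∀ y ∈ U, y ∈ S ↔ f y = f x) : ∃ c : SubCh C S d, x ∈ c.ψ.source := by
  set g : Cn n → Cn k := fun z => f ((C.e i).symm z) with hg
  set V : Set (Cn n) := (C.e i).target ∩ (C.e i).symm ⁻¹' U with hVdef
  have hV : IsOpen V := (C.e i).isOpen_inter_preimage_symm hU
  have hzV : C.e i x ∈ V := ⟨(C.e i).map_source hx, by
    rw [mem_preimage, (C.e i).left_inv hx]; exact hxU⟩
  obtain ⟨Θ, hΘ⟩ := exists_split hkd (fderiv ℂ g (C.e i x)) hs
  set Φ : Cn n → Cn n := fun z => Θ.symm (g z - f x, (Θ z).2) with hΦdef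
  have hΦ : DifferentiableOn ℂ Φ V := by
    refine Θ.symm.differentiable.comp_differentiableOn (DifferentiableOn.prodMk ?_ ?_)
    · exact hf.sub (differentiableOn_const _)
    · exact (differentiable_snd.comp Θ.differentiable).differentiableOn
  have hT : HasFDerivAt Φ ((ContinuousLinearEquiv.refl ℂ (Cn n) : Cn n ≃L[ℂ] Cn n) :
      Cn n →L[ℂ] Cn n) (C.e i x) := by
    have h1 : HasFDerivAt g (fderiv ℂ g (C.e i x)) (C.e i x) :=
      (hf.differentiableAt (hV.mem_nhds hzV)).hasFDerivAt
    have h2 : HasFDerivAt (fun z => (Θ z).2)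
        ((ContinuousLinearMap.snd ℂ (Cn k) (Cn d)).comp (Θ : Cn n →L[ℂ] (Cn k × Cn d)))
        (C.e i x) :=
      ((ContinuousLinearMap.snd ℂ (Cn k) (Cn d)).comp
        (Θ : Cn n →L[ℂ] (Cn k × Cn d))).hasFDerivAt
    have h3 := (Θ.symm : (Cn k × Cn d) →L[ℂ] Cn n).hasFDerivAt.comp (C.e i x)
      ((h1.sub_const (f x)).prodMk h2)
    refine h3.congr_fderiv ?_
    ext v
    have h4 : (fderiv ℂ g (C.e i x) v, (Θ v).2) = Θ v := Prod.ext (hΘ v).symm rfl
    show (Θ.symm (fderiv ℂ g (C.e i x) v, (Θ v).2)) _ = v _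
    rw [h4, Θ.symm_apply_apply]
  obtain ⟨R, hR1, hR2, hR3, hR4⟩ := exists_invFun hV hΦ hzV _ hT
  have hR5 : DifferentiableOn ℂ R R.source := by
    rw [hR3]
    exact hΦ.mono hR2
  obtain ⟨hc1, hc2⟩ := compat_trans (C := C) (i := i) hR5 hR4
  have hpi : ∀ v : Cn d, ((ContinuousLinearMap.snd ℂ (Cn k) (Cn d)).comp
      (Θ : Cn n →L[ℂ] (Cn k × Cn d))) (((Θ.symm : (Cn k × Cn d) →L[ℂ] Cn n).comp
        (ContinuousLinearMap.inr ℂ (Cn k) (Cn d))) v) = v := by
    intro v
    show (Θ (Θ.symm (0, v))).2 = v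
    rw [Θ.apply_symm_apply]
  refine ⟨⟨(C.e i).trans R, hc1, hc2, (Θ.symm : (Cn k × Cn d) →L[ℂ] Cn n).comp
    (ContinuousLinearMap.inr ℂ (Cn k) (Cn d)), (ContinuousLinearMap.snd ℂ (Cn k) (Cn d)).comp
      (Θ : Cn n →L[ℂ] (Cn k × Cn d)), hpi, ?_⟩, ?_⟩
  · intro y hy
    rw [OpenPartialHomeomorph.trans_source] at hy
    have hyV := hR2 hy.2
    have hyU : y ∈ U := by
      have := hyV.2
      rw [mem_preimage, (C.e i).left_inv hy.1] at this
      exact this
    have hval : ((C.e i).trans R) y = Θ.symm (f y - f x, (Θ (C.e i y)).2) := by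
      show R (C.e i y) = _
      rw [hR3]
      show Θ.symm (f ((C.e i).symm (C.e i y)) - f x, (Θ (C.e i y)).2) = _
      rw [(C.e i).left_inv hy.1]
    rw [hval, hS y hyU]
    show f y = f x ↔ Θ.symm (0, (Θ (Θ.symm (f y - f x, (Θ (C.e i y)).2))).2) = _
    rw [Θ.apply_symm_apply, Θ.symm.injective.eq_iff]
    constructor
    · intro h
      rw [h, sub_self]
    · intro h
      have h1 := congrArg Prod.fst h
      exact (sub_eq_zero.1 h1.symm)
  · show x ∈ ((C.e i).trans R).source
    rw [OpenPartialHomeomorph.trans_source]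
    exact ⟨hx, hR1⟩

/-- level sets of submersions are submanifolds -/
theorem isSub_of_submersion (hkd : k + d = n)
    (h : ∀ x ∈ S, ∃ (i : C.ι) (U : Set M) (f : M → Cn k), x ∈ (C.e i).source ∧ IsOpen U ∧ x ∈ U ∧
      DifferentiableOn ℂ (fun z => f ((C.e i).symm z)) ((C.e i).target ∩ (C.e i).symm ⁻¹' U) ∧
      Function.Surjective (fderiv ℂ (fun z => f ((C.e i).symm z)) (C.e i x)) ∧
      ∀ y ∈ U, y ∈ S ↔ f y = f x) : IsSub C S d := by
  intro x hx
  obtain ⟨i, U, f, h1, h2, h3, h4, h5, h6⟩ := h x hx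
  exact subCh_of_submersion hkd h1 h2 h3 h4 h5 h6

/-- the fibres of a submersion -/
theorem isSub_fibre (hkd : k + d = n) {p : M → N} (hp : HolC C D p) (c : N)
    (hs : ∀ x, p x = c → ∃ i j, x ∈ (C.e i).source ∧ p x ∈ (D.e j).source ∧
      Function.Surjective (fderiv ℂ (fun z => D.e j (p ((C.e i).symm z))) (C.e i x))) :
    IsSub C (p ⁻¹' {c}) d := by
  refine isSub_of_submersion hkd fun x hx => ?_
  have hx' : p x = c := hx
  obtain ⟨i, j, hi, hj, hsur⟩ := hs x hx'
  refine ⟨i, p ⁻¹' (D.e j).source, fun y => D.e j (p y), hi,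
    (D.e j).open_source.preimage hp.cont, hj, hp.hol i j, hsur, fun y hy => ?_⟩
  constructor
  · intro h
    have h' : p y = c := h
    show D.e j (p y) = D.e j (p x)
    rw [h', hx']
  · intro h
    have h1 := (D.e j).injOn hy hj h
    show p y = c
    rw [h1, hx']

end

end Crest.Agent.R273.Reg_835
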