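import Crest.Agent.R273.C2d_793

/-!
# R273 / Yau C² estimate (helper793), part e: the maximum point

* `at_max` : at a local maximum of `log u_{V V̄} - log w_{V V̄} - A (u - w)` the new metric is
  bounded by the background metric
-/

set_option autoImplicit false
set_option linter.unusedSectionVars false

open Set Filter Topology Complex
open scoped ContDiff Matrix ComplexConjugate ComplexOrder

namespace Crest.Agent.R273.C2e_793

open Crest.Agent.R275.Geo Crest.Agent.R275.Core144 Crest.Agent.R275.GC293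
open Crest.Agent.R275.OmT75
open Crest.Agent.R273.Levi_145 Crest.Agent.R273.C2a_793 Crest.Agent.R273.C2b_793
open Crest.Agent.R273.C2c_793 Crest.Agent.R273.C2d_793

noncomputable section

variable {n : ℕ} {x : Cn n}

theorem lev_nonpos_of_localMax {F : Cn n → ℝ} (hF : ContDiffAt ℝ 2 F x) (hm : IsLocalMax F x)
    (v : Cn n) : lev F x v ≤ 0 := by
  have h1 : IsLocalMin (fun z => - F z) x := hm.neg
  have h2 := YauMax_635.lev_nonneg_of_localMin hF.neg h1 v
  rw [YauDefs_635.lev333_eq_lev145, lev_neg hF] at h2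
  linarith

theorem ld_eq {w u f : Cn n → ℝ} (hw : ContDiffAt ℝ ∞ w x) (hwp : (Um w x).PosDef)
    (hMA : ∀ᶠ z in 𝓝 x, (Um u z).det = (Real.exp (f z) : ℂ) * (Um w z).det) :
    ld u =ᶠ[𝓝 x] fun z => f z + ld w z := by
  have hdp : 0 < (Um w x).det.re := (Complex.pos_iff.1 hwp.det_pos).1
  have hdc : ContinuousAt (fun z => (Um w z).det.re) x :=
    (Complex.reCLM.contDiff.contDiffAt.comp x (cd_det (sm_Um hw))).continuousAt
  filter_upwards [hMA, hdc.eventually (lt_mem_nhds hdp)] with z h1 h2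
  unfold ld
  rw [h1, Complex.re_ofReal_mul, Real.log_mul (Real.exp_pos _).ne' h2.ne', Real.log_exp]

theorem QV_pos {u : Cn n → ℝ} {V : Cn n → Cn n} (hu0 : ∀ v, v ≠ 0 → 0 < lev u x v)
    (hV0 : V x ≠ 0) : 0 < QV u V x := hu0 _ hV0

/-- **the estimate at the maximum point** -/
theorem at_max {w u f : Cn n → ℝ} {V : Cn n → Cn n} {β γ K A : ℝ}
    (hw : ContDiffAt ℝ ∞ w x) (hu : ContDiffAt ℝ ∞ u x) (hf : ContDiffAt ℝ ∞ f x)
    (hw0 : ∀ v, v ≠ 0 → 0 < lev w x v) (hu0 : ∀ v, v ≠ 0 → 0 < lev u x v)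
    (hMA : ∀ᶠ z in 𝓝 x, (Um u z).det = (Real.exp (f z) : ℂ) * (Um w z).det)
    (hV : ∀ᶠ z in 𝓝 x, DifferentiableAt ℂ V z) (hV0 : V x ≠ 0)
    (hβ : ∀ ξ, lev (fun z => Real.log (QV w V z)) x ξ ≤ β * lev w x ξ)
    (hγ : -(γ * lev w x (V x)) ≤ lev (ld w) x (V x))
    (hK : -(K * lev w x (V x)) ≤ lev f x (V x)) (hγ0 : 0 ≤ γ) (hK0 : 0 ≤ K)
    (hA : A = K + γ + β + 1)
    (hmax : IsLocalMax (fun z => Real.log (QV u V z) - Real.log (QV w V z) - A * (u z - w z)) x)
    (v : Cn n) : lev u x v ≤ Real.exp (f x) * (A * n) ^ (n - 1) * lev w x v := by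
  have hwp := Um_posDef (sm2 hw) hw0
  have hup := Um_posDef (sm2 hu) hu0
  have hwn : ∀ v, 0 ≤ lev w x v := lev_nn_zero hw0
  obtain ⟨e, he1, he2, he3⟩ := new_metric hu hup hV hV0
  set τ : ℝ := ∑ c, lev w x (e c) with hτ
  have hWτ := he3 w hw hwn
  have hQu : 0 < QV u V x := QV_pos hu0 hV0
  have hQw : 0 < QV w V x := QV_pos hw0 hV0
  have hVu : 0 < lev u x (V x) := hu0 _ hV0
  have hVw : 0 < lev w x (V x) := hw0 _ hV0
  have hτ0 : 0 < τ := by
    have h1 := hWτ (V x)
    by_contra hc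
    push Not at hc
    nlinarith
  have hlu : ContDiffAt ℝ 2 (fun z => Real.log (QV u V z)) x := (c2_QV hu hV).log hQu.ne'
  have hlw : ContDiffAt ℝ 2 (fun z => Real.log (QV w V z)) x := (c2_QV hw hV).log hQw.ne'
  have hφ : ContDiffAt ℝ 2 (fun z => u z - w z) x := (sm2 hu).sub (sm2 hw)
  have hlev : ∀ ξ, lev (fun z => Real.log (QV u V z)) x ξ ≤
      lev (fun z => Real.log (QV w V z)) x ξ + A * (lev u x ξ - lev w x ξ) := by
    intro ξ
    have h1 := lev_nonpos_of_localMax ((hlu.sub hlw).sub (contDiffAt_const.mul hφ)) hmax ξ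
    rw [lev_sub (u := fun z => Real.log (QV u V z) - Real.log (QV w V z))
      (v := fun z => A * (u z - w z)) (hlu.sub hlw) (contDiffAt_const.mul hφ),
      lev_sub hlu hlw, lev_const_mul A hφ, lev_sub (sm2 hu) (sm2 hw)] at h1
    linarith
  have hsum : ∑ c, lev (fun z => Real.log (QV u V z)) x (e c) ≤ β * τ + A * (n - τ) := by
    calc ∑ c, lev (fun z => Real.log (QV u V z)) x (e c)
        ≤ ∑ c, (β * lev w x (e c) + A * (lev u x (e c) - lev w x (e c))) :=
          Finset.sum_le_sum fun c _ => (hlev (e c)).trans (by linarith [hβ (e c)])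
      _ = β * τ + A * (n - τ) := by
          rw [Finset.sum_add_distrib, ← Finset.mul_sum, ← Finset.mul_sum, Finset.sum_sub_distrib]
          simp only [he2]
          rw [hτ]
          simp
  have hldu : lev (ld u) x (V x) = lev f x (V x) + lev (ld w) x (V x) := by
    have hdp : 0 < (Um w x).det.re := (Complex.pos_iff.1 hwp.det_pos).1
    rw [lev_congr (ld_eq hw hwp hMA), lev_add (sm2 hf) (sm2 (sm_ld hw hdp.ne'))]
  have h1 : -((K + γ) * τ) ≤ lev (ld u) x (V x) / lev u x (V x) := by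
    rw [le_div_iff₀ hVu, hldu]
    have h2 := hWτ (V x)
    have h3 : (K + γ) * lev w x (V x) ≤ (K + γ) * (τ * lev u x (V x)) :=
      mul_le_mul_of_nonneg_left h2 (by positivity)
    nlinarith
  have hτA : τ ≤ A * n := by
    have h2 := h1.trans (he1.trans hsum)
    rw [hA] at h2 ⊢
    nlinarith
  have hAn : 0 < A * n := hτ0.trans_le hτA
  have hle : ∀ v, lev w x v ≤ (A * n) * lev u x v := fun v =>
    (hWτ v).trans (mul_le_mul_of_nonneg_right hτA (lev_nn_zero hu0 v))
  exact lev_le_of_det hu hw hwp hAn hle hMA.self_of_nhds v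

end

end Crest.Agent.R273.C2e_793
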