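import Crest.Agent.R273.Kah_333

/-!
# R273 (S0416), Part E (helper333): the Fubini-Study metric

For `P : ProjD A`:
* `lb P : LB A`        : the hyperplane bundle `O(1)` (`F i x = g i j x • F j x`);
* `sec P k`, `isHS_sec`: the sections `F_k`, without common zeros (`exists_sec_ne`);
* `fs P : HM (lb P)`   : `w i = 1 / ∑ |F_k|²`; `fs_pos : (fs P).Pos`.
-/

set_option autoImplicit false
set_option linter.unusedSectionVars false

open Set Filter Topology Complex
open scoped ContDiff Matrix ComplexConjugate Manifold ComplexOrder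

namespace Crest.Agent.R273.FS_333

open Crest.Agent.R275.Geo Crest.Agent.R275.Core144 Crest.Agent.R275.EDR890
open Crest.Agent.R273.Defs_333 Crest.Agent.R273.Hess_333 Crest.Agent.R273.HessB_333
open Crest.Agent.R273.HM_333 Crest.Agent.R273.Kah_333

noncomputable section

variable {n : ℕ} {M : Type} [TopologicalSpace M] {A : Atl n M}

/-! ### the line bundle -/

section Bundle

variable (P : ProjD A)

open Classical in
/-- the transition function -/
def gij (i j : A.ι) (x : M) : ℂ :=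
  if hx : x ∈ (A.e i).source ∩ (A.e j).source then (P.tr i j x hx).choose else 1

theorem gij_spec {i j : A.ι} {x : M} (hx : x ∈ (A.e i).source ∩ (A.e j).source) :
    P.F i x = gij P i j x • P.F j x := by
  unfold gij
  rw [dif_pos hx]
  exact (P.tr i j x hx).choose_spec

theorem gij_off {i j : A.ι} {x : M} (hx : x ∉ (A.e i).source ∩ (A.e j).source) :
    gij P i j x = 1 := dif_neg hx

theorem exists_F_ne {j : A.ι} {x : M} (hx : x ∈ (A.e j).source) : ∃ k, P.F j x k ≠ 0 := by
  by_contra h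
  push Not at h
  exact P.ne j x hx (funext h)

theorem gij_eq {i j : A.ι} {x : M} (hx : x ∈ (A.e i).source ∩ (A.e j).source) {k : Fin (P.N + 1)}
    (hk : P.F j x k ≠ 0) : gij P i j x = P.F i x k / P.F j x k := by
  have h := congrFun (gij_spec P hx) k
  rw [Pi.smul_apply, smul_eq_mul] at h
  rw [h, mul_div_assoc, div_self hk, mul_one]

theorem hol_chg {i j : A.ι} (k : Fin (P.N + 1)) : HolAt A i (A.e j).source (fun x => P.F j x k) := by
  have h := (P.hol j k).chg isOpen_univ i
  rwa [univ_inter] at h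

/-- the hyperplane bundle -/
def lb : LB A where
  g := gij P
  hol i j := by
    intro z hz
    set x := (A.e i).symm z with hxd
    have hx : x ∈ (A.e i).source ∩ (A.e j).source := ⟨(A.e i).map_target hz.1, hz.2⟩
    obtain ⟨k, hk⟩ := exists_F_ne P hx.2
    have ho : IsOpen ((A.e i).target ∩ (A.e i).symm ⁻¹' (A.e j).source) :=
      isOpen_ti (A.e j).open_source
    have h1 : DifferentiableAt ℂ (fun w => P.F i ((A.e i).symm w) k) z := by
      have := (P.hol i k).mono (subset_univ (A.e j).source)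
      exact DifferentiableOn.differentiableAt this (ho.mem_nhds hz)
    have h2 : DifferentiableAt ℂ (fun w => P.F j ((A.e i).symm w) k) z :=
      DifferentiableOn.differentiableAt (hol_chg P k) (ho.mem_nhds hz)
    have h3 : (fun w => gij P i j ((A.e i).symm w)) =ᶠ[𝓝 z]
        fun w => P.F i ((A.e i).symm w) k * (P.F j ((A.e i).symm w) k)⁻¹ := by
      filter_upwards [ho.mem_nhds hz, h2.continuousAt.eventually_ne hk] with w hw hwk
      rw [gij_eq P ⟨(A.e i).map_target hw.1, hw.2⟩ hwk, div_eq_mul_inv]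
    exact ((h1.mul (h2.inv hk)).congr_of_eventuallyEq h3).differentiableWithinAt
  off i j x hx := gij_off P hx
  self i x := by
    by_cases hx : x ∈ (A.e i).source
    · obtain ⟨k, hk⟩ := exists_F_ne P hx
      rw [gij_eq P ⟨hx, hx⟩ hk, div_self hk]
    · exact gij_off P fun h => hx h.1
  mul i j k x hx := by
    obtain ⟨l, hl⟩ := exists_F_ne P hx.2
    have h1 := gij_spec P (i := j) (j := k) ⟨hx.1.2, hx.2⟩
    have h2 := gij_spec P (i := i) (j := j) hx.1
    have h3 := gij_spec P (i := i) (j := k) ⟨hx.1.1, hx.2⟩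
    rw [h1, smul_smul, h3] at h2
    have h4 := congrFun h2 l
    simp only [Pi.smul_apply, smul_eq_mul] at h4
    exact (mul_right_cancel₀ hl h4).symm

open Classical in
/-- the section `F_k` -/
def sec (k : Fin (P.N + 1)) : A.ι → M → ℂ := fun i x =>
  if x ∈ (A.e i).source then P.F i x k else 0

theorem sec_eq {i : A.ι} {x : M} (hx : x ∈ (A.e i).source) (k : Fin (P.N + 1)) :
    sec P k i x = P.F i x k := if_pos hx

theorem isHS_sec (k : Fin (P.N + 1)) : IsHS (lb P) univ (sec P k) where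
  hol i := (P.hol i k).congr fun x hx _ => (sec_eq P hx k).symm
  off i x hx := if_neg hx
  tr i j x hx _ := by
    rw [sec_eq P hx.1, sec_eq P hx.2]
    exact congrFun (gij_spec P hx) k

theorem exists_sec_ne {i : A.ι} {x : M} (hx : x ∈ (A.e i).source) : ∃ k, sec P k i x ≠ 0 := by
  obtain ⟨k, hk⟩ := exists_F_ne P hx
  exact ⟨k, by rwa [sec_eq P hx]⟩

end Bundle

/-! ### the local computation -/

section Local

variable {N : ℕ}

/-- `∑ |F_k|²` -/
def sq (F : Cn n → Fin N → ℂ) (z : Cn n) : ℝ := ∑ k, ‖F z k‖ ^ 2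

theorem sq_nonneg' (F : Cn n → Fin N → ℂ) (z : Cn n) : 0 ≤ sq F z :=
  Finset.sum_nonneg fun _ _ => by positivity

theorem sq_pos {F : Cn n → Fin N → ℂ} {z : Cn n} (h : F z ≠ 0) : 0 < sq F z := by
  obtain ⟨k, hk⟩ : ∃ k, F z k ≠ 0 := by
    by_contra h1
    push Not at h1
    exact h (funext h1)
  refine lt_of_lt_of_le (by positivity : 0 < ‖F z k‖ ^ 2) ?_
  exact Finset.single_le_sum (f := fun k => ‖F z k‖ ^ 2) (fun _ _ => by positivity)
    (Finset.mem_univ k)

theorem contDiffAt_of_hol {E' : Type*} [NormedAddCommGroup E'] [NormedSpace ℂ E'] [CompleteSpace E']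
    {f : Cn n → E'} {U : Set (Cn n)} (hU : IsOpen U) (hf : DifferentiableOn ℂ f U) {z : Cn n}
    (hz : z ∈ U) : ContDiffAt ℝ ∞ f z :=
  (((Crest.Agent.R266.SCV.contDiffOn_omega_of_differentiableOn hU hf).restrict_scalars
      ℝ).of_le le_top).contDiffAt (hU.mem_nhds hz)

theorem cu_sq (F : Cn n → Fin N → ℂ) : cu (sq F) = fun z => ∑ k, F z k * conj (F z k) := by
  funext z
  simp only [cu, sq, ofReal_sum]
  refine Finset.sum_congr rfl fun k _ => ?_
  rw [Complex.mul_conj, Complex.normSq_eq_norm_sq]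

/-- first derivatives of `∑ |F_k|²` -/
theorem wd_sq {F : Cn n → Fin N → ℂ} {U : Set (Cn n)} (hU : IsOpen U)
    (hF : ∀ k, DifferentiableOn ℂ (fun z => F z k) U) {z : Cn n} (hz : z ∈ U) (b : Fin n) :
    wd (true, b) (cu (sq F)) z =
      ∑ k, F z k * conj (fderiv ℂ (fun z => F z k) z (EuclideanSpace.single b 1)) := by
  have hd : ∀ k, DifferentiableAt ℂ (fun z => F z k) z := fun k =>
    (hF k).differentiableAt (hU.mem_nhds hz)
  have hr : ∀ k, DifferentiableAt ℝ (fun z => F z k) z := fun k => (hd k).restrictScalars ℝ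
  have hc : ∀ k, DifferentiableAt ℝ (fun z => conj (F z k)) z := fun k =>
    (conjCLE : ℂ →L[ℝ] ℂ).differentiableAt.comp z (hr k)
  rw [cu_sq, wd_sum Finset.univ (fun k _ => (hr k).fun_mul (hc k))]
  refine Finset.sum_congr rfl fun k _ => ?_
  rw [wd_mul (hr k) (hc k), wd_hol (hd k), zero_mul, zero_add]
  have h1 := conj_wd (false, b) (hr k)
  simp only [Bool.not_false] at h1
  rw [← h1, wd_hol' (hd k)]

theorem wd_sq' {F : Cn n → Fin N → ℂ} {U : Set (Cn n)} (hU : IsOpen U)
    (hF : ∀ k, DifferentiableOn ℂ (fun z => F z k) U) {z : Cn n} (hz : z ∈ U) (a : Fin n) :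
    wd (false, a) (cu (sq F)) z =
      ∑ k, fderiv ℂ (fun z => F z k) z (EuclideanSpace.single a 1) * conj (F z k) := by
  have hs : ContDiffAt ℝ ∞ (sq F) z := by
    refine ContDiffAt.sum fun k _ => ?_
    exact (contDiffAt_of_hol hU (hF k) hz).norm_sq ℝ
  have h1 := conj_wd_real (true, a) (hs.differentiableAt (by simp))
  simp only [Bool.not_true] at h1
  rw [← h1, wd_sq hU hF hz, map_sum]
  refine Finset.sum_congr rfl fun k _ => ?_
  rw [map_mul, Complex.conj_conj, mul_comm]

/-- Hessian of `∑ |F_k|²` -/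
theorem hess_sq {F : Cn n → Fin N → ℂ} {U : Set (Cn n)} (hU : IsOpen U)
    (hF : ∀ k, DifferentiableOn ℂ (fun z => F z k) U) {z : Cn n} (hz : z ∈ U) (a b : Fin n) :
    hess (sq F) z a b = ∑ k, fderiv ℂ (fun z => F z k) z (EuclideanSpace.single a 1) *
      conj (fderiv ℂ (fun z => F z k) z (EuclideanSpace.single b 1)) := by
  have hg : ∀ k, DifferentiableOn ℂ (fun w => fderiv ℂ (fun z => F z k) w
      (EuclideanSpace.single b 1)) U := by
    intro k
    have h3 : AnalyticOnNhd ℂ (fderiv ℂ (fun z => F z k)) U :=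
      (Crest.Agent.R266.SCV.analyticOnNhd_of_differentiableOn hU (hF k)).fderiv
    exact h3.differentiableOn.clm_apply (differentiableOn_const _)
  have h1 : wd (true, b) (cu (sq F)) =ᶠ[𝓝 z] fun w => ∑ k, F w k *
      conj (fderiv ℂ (fun z => F z k) w (EuclideanSpace.single b 1)) := by
    filter_upwards [hU.mem_nhds hz] with w hw
    exact wd_sq hU hF hw b
  have hd : ∀ k, DifferentiableAt ℂ (fun z => F z k) z := fun k =>
    (hF k).differentiableAt (hU.mem_nhds hz)
  have hr : ∀ k, DifferentiableAt ℝ (fun z => F z k) z := fun k => (hd k).restrictScalars ℝ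
  have hgd : ∀ k, DifferentiableAt ℂ (fun w => fderiv ℂ (fun z => F z k) w
      (EuclideanSpace.single b 1)) z := fun k => (hg k).differentiableAt (hU.mem_nhds hz)
  have hgr : ∀ k, DifferentiableAt ℝ (fun w => fderiv ℂ (fun z => F z k) w
      (EuclideanSpace.single b 1)) z := fun k => (hgd k).restrictScalars ℝ
  have hc : ∀ k, DifferentiableAt ℝ (fun w => conj (fderiv ℂ (fun z => F z k) w
      (EuclideanSpace.single b 1))) z := fun k =>
    (conjCLE : ℂ →L[ℝ] ℂ).differentiableAt.comp z (hgr k)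
  rw [hess_apply, wd_congr h1, wd_sum Finset.univ (fun k _ => (hr k).fun_mul (hc k))]
  refine Finset.sum_congr rfl fun k _ => ?_
  rw [wd_mul (hr k) (hc k), wd_hol' (hd k)]
  have h2 := conj_wd (true, a) (hgr k)
  simp only [Bool.not_true] at h2
  rw [← h2, wd_hol (hgd k), map_zero, mul_zero, add_zero]

/-- Hessian of a logarithm -/
theorem hess_log {u : Cn n → ℝ} {z : Cn n} (hu : ContDiffAt ℝ ∞ u z) (h0 : 0 < u z) (a b : Fin n) :
    hess (fun w => Real.log (u w)) z a b = (u z : ℂ)⁻¹ * hess u z a b -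
      ((u z : ℂ)⁻¹) ^ 2 * (wd (false, a) (cu u) z * wd (true, b) (cu u) z) := by
  have hpos : ∀ᶠ w in 𝓝 z, 0 < u w := hu.continuousAt.eventually (lt_mem_nhds h0)
  have hdu : ∀ᶠ w in 𝓝 z, DifferentiableAt ℝ u w := by
    have := (hu.of_le (m := 1) (by exact_mod_cast le_top)).eventually (by simp)
    filter_upwards [this] with y hy
    exact hy.differentiableAt (by simp)
  -- first derivative
  have h1 : wd (true, b) (cu fun w => Real.log (u w)) =ᶠ[𝓝 z] fun w =>
      cu (fun y => (u y)⁻¹) w * wd (true, b) (cu u) w := by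
    filter_upwards [hpos, hdu] with w hw hdw
    have h2 : fderiv ℝ (cu fun w => Real.log (u w)) w =
        ((u w)⁻¹ : ℝ) • fderiv ℝ (cu u) w := by
      have e1 : HasFDerivAt (fun w => Real.log (u w)) ((u w)⁻¹ • fderiv ℝ u w) w :=
        hdw.hasFDerivAt.log hw.ne'
      have e2 := (Complex.ofRealCLM.hasFDerivAt.comp w e1).fderiv
      have e3 := (Complex.ofRealCLM.hasFDerivAt.comp w hdw.hasFDerivAt).fderiv
      change fderiv ℝ (cu fun w => Real.log (u w)) w = _ at e2
      change fderiv ℝ (cu u) w = _ at e3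
      rw [e2, e3]
      ext v
      simp
    rw [wd, h2]
    have h3 : ((u w)⁻¹ : ℝ) • fderiv ℝ (cu u) w = (((u w)⁻¹ : ℝ) : ℂ) • fderiv ℝ (cu u) w := rfl
    rw [h3, wdL_smul]
    rfl
  have hui : ContDiffAt ℝ ∞ (fun y => (u y)⁻¹) z := hu.inv h0.ne'
  have hd1 : DifferentiableAt ℝ (cu (fun y => (u y)⁻¹)) z :=
    (contDiffAt_cu hui).differentiableAt (by simp)
  have hd2 : DifferentiableAt ℝ (wd (true, b) (cu u)) z :=
    (contDiffAt_wd (contDiffAt_cu hu) _).differentiableAt (by simp)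
  rw [hess_apply, wd_congr h1, wd_mul hd1 hd2]
  have h4 : wd (false, a) (cu (fun y => (u y)⁻¹)) z =
      - ((u z : ℂ)⁻¹) ^ 2 * wd (false, a) (cu u) z := by
    have hdz := hdu.self_of_nhds
    have e1 : HasFDerivAt (fun y => (u y)⁻¹) (-((u z) ^ 2)⁻¹ • fderiv ℝ u z) z :=
      (hasDerivAt_inv h0.ne').comp_hasFDerivAt z hdz.hasFDerivAt
    have e2 := (Complex.ofRealCLM.hasFDerivAt.comp z e1).fderiv
    have e3 := (Complex.ofRealCLM.hasFDerivAt.comp z hdz.hasFDerivAt).fderiv
    change fderiv ℝ (cu fun y => (u y)⁻¹) z = _ at e2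
    change fderiv ℝ (cu u) z = _ at e3
    have e4 : fderiv ℝ (cu fun y => (u y)⁻¹) z = (- ((u z : ℂ)⁻¹) ^ 2) • fderiv ℝ (cu u) z := by
      rw [e2, e3]
      ext v
      simp
    rw [wd, e4, wdL_smul]
    rfl
  rw [h4, hess_apply]
  simp only [cu, ofReal_inv]
  ring

/-- Lagrange identity -/
theorem lagrange {N : ℕ} (p q : Fin N → ℂ) :
    (∑ k, ‖p k‖ ^ 2) * (∑ k, ‖q k‖ ^ 2) - ‖∑ k, q k * conj (p k)‖ ^ 2 =
      (∑ k, ‖(∑ l, ‖p l‖ ^ 2 : ℝ) • q k - (∑ l, q l * conj (p l)) * p k‖ ^ 2) /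
        (∑ k, ‖p k‖ ^ 2) ∨ (∑ k, ‖p k‖ ^ 2) = 0 := by
  by_cases hp : (∑ k, ‖p k‖ ^ 2) = 0
  · exact Or.inr hp
  left
  rw [eq_div_iff hp]
  set S : ℝ := ∑ l, ‖p l‖ ^ 2 with hS
  set c : ℂ := ∑ l, q l * conj (p l) with hc
  have h1 : ∀ k, ((‖(S : ℝ) • q k - c * p k‖ ^ 2 : ℝ) : ℂ) =
      (S : ℂ) ^ 2 * (q k * conj (q k)) - (S : ℂ) * conj c * (q k * conj (p k)) -
        (S : ℂ) * c * conj (q k * conj (p k)) + c * conj c * (p k * conj (p k)) := by
    intro k
    rw [← Complex.normSq_eq_norm_sq, ← Complex.mul_conj]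
    simp only [real_smul, map_sub, map_mul, conj_ofReal, Complex.conj_conj]
    ring
  have h2 : ∑ k, (p k * conj (p k)) = (S : ℂ) := by
    rw [hS, ofReal_sum]
    exact Finset.sum_congr rfl fun k _ => by rw [Complex.mul_conj, Complex.normSq_eq_norm_sq]
  have h3 : ((∑ k, ‖q k‖ ^ 2 : ℝ) : ℂ) = ∑ k, (q k * conj (q k)) := by
    rw [ofReal_sum]
    exact Finset.sum_congr rfl fun k _ => by rw [Complex.mul_conj, Complex.normSq_eq_norm_sq]
  apply Complex.ofReal_injective
  rw [ofReal_sum, Finset.sum_congr rfl fun k _ => h1 k]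
  simp only [Finset.sum_add_distrib, Finset.sum_sub_distrib, ← Finset.mul_sum, ← map_sum]
  rw [← hc, h2, ← h3]
  have h4 : ((‖c‖ ^ 2 : ℝ) : ℂ) = c * conj c := by
    rw [Complex.mul_conj, Complex.normSq_eq_norm_sq]
  push_cast at h4 ⊢
  rw [h4]
  ring

/-- the Levi form of `log ∑ |F_k|²` -/
theorem lev_log_sq {F : Cn n → Fin N → ℂ} {U : Set (Cn n)} (hU : IsOpen U)
    (hF : ∀ k, DifferentiableOn ℂ (fun z => F z k) U) {z : Cn n} (hz : z ∈ U) (h0 : F z ≠ 0)
    (v : Cn n) : lev (fun w => Real.log (sq F w)) z v =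
      4 * ((sq F z * (∑ k, ‖fderiv ℂ (fun z => F z k) z v‖ ^ 2) -
        ‖∑ k, fderiv ℂ (fun z => F z k) z v * conj (F z k)‖ ^ 2) / (sq F z) ^ 2) := by
  have hs : ContDiffAt ℝ ∞ (sq F) z := by
    refine ContDiffAt.sum fun k _ => ?_
    exact (contDiffAt_of_hol hU (hF k) hz).norm_sq ℝ
  have hp := sq_pos h0
  have hl : ContDiffAt ℝ ∞ (fun w => Real.log (sq F w)) z := hs.log hp.ne'
  have hexp : ∀ k, fderiv ℂ (fun z => F z k) z v =
      ∑ a, v a * fderiv ℂ (fun z => F z k) z (EuclideanSpace.single a 1) := by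
    intro k
    have hv : v = ∑ c, v c • (EuclideanSpace.single c (1 : ℂ) : Cn n) := by
      ext d
      simp [Finset.sum_apply, Pi.single_apply]
    conv_lhs => rw [hv, map_sum]
    simp
  apply Complex.ofReal_injective
  rw [lev_eq hl]
  unfold hq
  have h1 : ∀ a b, hess (fun w => Real.log (sq F w)) z a b * v a * conj (v b) =
      (sq F z : ℂ)⁻¹ * (∑ k, (v a * fderiv ℂ (fun z => F z k) z (EuclideanSpace.single a 1)) *
        conj (v b * fderiv ℂ (fun z => F z k) z (EuclideanSpace.single b 1))) -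
      ((sq F z : ℂ)⁻¹) ^ 2 * ((∑ k, (v a * fderiv ℂ (fun z => F z k) z
        (EuclideanSpace.single a 1)) * conj (F z k)) *
        conj (∑ k, (v b * fderiv ℂ (fun z => F z k) z
        (EuclideanSpace.single b 1)) * conj (F z k))) := by
    intro a b
    rw [hess_log hs hp, hess_sq hU hF hz, wd_sq hU hF hz, wd_sq' hU hF hz]
    simp only [map_sum, map_mul, Complex.conj_conj, Finset.mul_sum, Finset.sum_mul, sub_mul]
    congr 1
    · refine Finset.sum_congr rfl fun k _ => by ring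
    · refine Finset.sum_congr rfl fun k _ => Finset.sum_congr rfl fun l _ => by ring
  rw [Finset.sum_congr rfl fun a _ => Finset.sum_congr rfl fun b _ => h1 a b]
  simp only [Finset.sum_sub_distrib, ← Finset.mul_sum]
  have h2 : ∑ a, ∑ b, ∑ k, (v a * fderiv ℂ (fun z => F z k) z (EuclideanSpace.single a 1)) *
        conj (v b * fderiv ℂ (fun z => F z k) z (EuclideanSpace.single b 1)) =
      ∑ k, fderiv ℂ (fun z => F z k) z v * conj (fderiv ℂ (fun z => F z k) z v) := by
    simp only [hexp, map_sum, Finset.sum_mul_sum]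
    rw [Finset.sum_congr rfl fun a _ => Finset.sum_comm, Finset.sum_comm]
  have h3 : ∑ a, ∑ k, (v a * fderiv ℂ (fun z => F z k) z (EuclideanSpace.single a 1)) *
        conj (F z k) = ∑ k, fderiv ℂ (fun z => F z k) z v * conj (F z k) := by
    rw [Finset.sum_comm]
    refine Finset.sum_congr rfl fun k _ => ?_
    rw [hexp, Finset.sum_mul]
  rw [h2, ← Finset.sum_mul, h3]
  simp only [← map_sum, h3]
  have h4 : ∑ k, fderiv ℂ (fun z => F z k) z v * conj (fderiv ℂ (fun z => F z k) z v) =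
      ((∑ k, ‖fderiv ℂ (fun z => F z k) z v‖ ^ 2 : ℝ) : ℂ) := by
    rw [ofReal_sum]
    exact Finset.sum_congr rfl fun k _ => by rw [Complex.mul_conj, Complex.normSq_eq_norm_sq]
  rw [h4, Complex.mul_conj, Complex.normSq_eq_norm_sq]
  have h5 : (sq F z : ℂ) ≠ 0 := by exact_mod_cast hp.ne'
  push_cast
  field_simp

/-- strict positivity -/
theorem lev_log_sq_pos {F : Cn n → Fin N → ℂ} {U : Set (Cn n)} (hU : IsOpen U)
    (hF : DifferentiableOn ℂ F U) {z : Cn n} (hz : z ∈ U) (h0 : F z ≠ 0)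
    {v : Cn n} (hv : ∀ c : ℂ, fderiv ℂ F z v ≠ c • F z) :
    0 < lev (fun w => Real.log (sq F w)) z v := by
  have hF' : ∀ k, DifferentiableOn ℂ (fun z => F z k) U := fun k => differentiableOn_pi.1 hF k
  have hd := hF.differentiableAt (hU.mem_nhds hz)
  have hc : ∀ k, fderiv ℂ (fun z => F z k) z v = fderiv ℂ F z v k := by
    intro k
    have := fderiv_pi (h := fun k => (hF' k).differentiableAt (hU.mem_nhds hz))
    rw [show (fun z => fun k => F z k) = F from rfl] at this
    rw [this]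
    rfl
  rw [lev_log_sq hU hF' hz h0]
  simp only [hc]
  have hp := sq_pos h0
  have hL := (lagrange (F z) (fderiv ℂ F z v)).resolve_right hp.ne'
  change sq F z * _ - _ = _ / sq F z at hL
  rw [hL]
  have h1 : 0 < ∑ k, ‖(∑ l, ‖F z l‖ ^ 2 : ℝ) • fderiv ℂ F z v k -
      (∑ l, fderiv ℂ F z v l * conj (F z l)) * F z k‖ ^ 2 := by
    refine lt_of_le_of_ne (Finset.sum_nonneg fun _ _ => by positivity) fun h => ?_
    have h2 := (Finset.sum_eq_zero_iff_of_nonneg (fun _ _ => by positivity)).1 h.symm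
    refine hv ((sq F z : ℂ)⁻¹ * ∑ l, fderiv ℂ F z v l * conj (F z l)) ?_
    funext k
    have h3 := h2 k (Finset.mem_univ k)
    have h4 := norm_eq_zero.1 (pow_eq_zero_iff (two_ne_zero) |>.1 h3)
    rw [sub_eq_zero] at h4
    have h5 : (sq F z : ℂ) ≠ 0 := by exact_mod_cast hp.ne'
    rw [Pi.smul_apply, smul_eq_mul, mul_assoc, ← h4]
    change _ = (sq F z : ℂ)⁻¹ * ((sq F z : ℂ) * _)
    rw [← mul_assoc, inv_mul_cancel₀ h5, one_mul]
  positivity

end Local

/-! ### the metric -/

section Metric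

variable (P : ProjD A)

/-- the Fubini-Study metric -/
def fs : HM (lb P) where
  w i x := (∑ k, ‖P.F i x k‖ ^ 2)⁻¹
  pos i x hx := by
    have h : P.F i x ≠ 0 := P.ne i x hx
    have := sq_pos (n := 0) (F := fun _ => P.F i x) (z := 0) h
    exact inv_pos.2 this
  sm i := by
    have h1 : ContDiffOn ℝ ∞ (fun z => ∑ k, ‖P.F i ((A.e i).symm z) k‖ ^ 2) (A.e i).target := by
      refine ContDiffOn.sum fun k _ => ?_
      have h2 : ContDiffOn ℝ ∞ (fun z => P.F i ((A.e i).symm z) k) (A.e i).target := by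
        have := (P.hol i k).contDiffOn isOpen_univ
        simpa using this
      exact h2.norm_sq ℝ
    refine h1.inv fun z hz => ?_
    have h : P.F i ((A.e i).symm z) ≠ 0 := P.ne i _ ((A.e i).map_target hz)
    exact (sq_pos (n := 0) (F := fun _ => P.F i ((A.e i).symm z)) (z := 0) h).ne'
  tr i j x hx := by
    have h1 := gij_spec P hx
    have h2 : (∑ k, ‖P.F i x k‖ ^ 2) = ‖gij P i j x‖ ^ 2 * ∑ k, ‖P.F j x k‖ ^ 2 := by
      rw [Finset.mul_sum]
      refine Finset.sum_congr rfl fun k _ => ?_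
      rw [h1, Pi.smul_apply, smul_eq_mul, norm_mul, mul_pow]
    change (∑ k, ‖P.F j x k‖ ^ 2)⁻¹ = ‖gij P i j x‖ ^ 2 * (∑ k, ‖P.F i x k‖ ^ 2)⁻¹
    have h3 : gij P i j x ≠ 0 := (lb P).ne_zero i j x
    rw [h2, mul_inv, ← mul_assoc, mul_inv_cancel₀ (by positivity), one_mul]

theorem fs_pos : (fs P).Pos := by
  intro i z hz v hv
  have h1 : (fs P).wt i = fun w => Real.log (sq (fun w => P.F i ((A.e i).symm w)) w) := by
    funext w
    simp only [HM.wt, fs, Real.log_inv, neg_neg, sq]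
  have hF : DifferentiableOn ℂ (fun w => P.F i ((A.e i).symm w)) (A.e i).target := by
    refine differentiableOn_pi.2 fun k => ?_
    have := P.hol i k
    unfold HolAt at this
    simpa using this
  rw [h1]
  refine lev_log_sq_pos (A.e i).open_target hF hz (P.ne i _ ((A.e i).map_target hz)) ?_
  intro c hc
  exact hv (P.imm i z hz v ⟨c, hc⟩)

/-- the Kaehler metric of the projective embedding -/
def fsKah : Kah A := kah (fs P) (fs_pos P)

end Metric

end

end Crest.Agent.R273.FS_333
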