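import Crest.Agent.R275.PaiB_323
import Crest.Agent.R275.Del_75

/-!
# R273, BP-D leaf D.5 (helper37): Stokes for vector densities

* `tot P F f` : `∑_{i ∈ F} ∫_i ψ_i f_i`  (total integral of a density `f`, `F` a finite set of charts
  containing all charts which meet the support; on compact `M` use `totc`).
* `IsD A f` : `f : A.ι → M → ℂ` is a smooth density.
* `V01 A Y`, `V10 A Y` : `Y : A.ι → M → Fin n → ℂ` is a smooth vector density of type `(0,1)`
  (pairs with `∂̄_a`), resp. `(1,0)` (pairs with `∂_a`).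
* `stokes01`, `stokes10` : `∫ ∑_a ∂̄_a Y^a = 0`, `∫ ∑_a ∂_a Y^a = 0`.
* `tot_loc` : localisation of `tot` for densities supported in one chart, independence of `F`.
-/

set_option autoImplicit false
set_option linter.unusedSectionVars false

open Set Filter Topology Complex MeasureTheory
open scoped ContDiff Matrix ComplexConjugate

namespace Crest.Agent.R273.StV_37

open Crest.Agent.R275 Crest.Agent.R275.Geo
open Crest.Agent.R275.Pai323 Crest.Agent.R275.C1d194
open Crest.Agent.R275.SerG398 (lint dens OffZ)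
open Crest.Agent.R275.OmT75 (dj dl dl_chain dl_mul dj_sum dj_congr)

noncomputable section

variable {n : ℕ} {M : Type} [TopologicalSpace M] {A : Atl n M}

/-! ### conjugation -/

theorem fderiv_conj {E : Type*} [NormedAddCommGroup E] [NormedSpace ℝ E] (f : E → ℂ) (z v : E) :
    fderiv ℝ (fun w => conj (f w)) z v = conj (fderiv ℝ f z v) := by
  have h : fderiv ℝ (fun w => Complex.conjCLE (f w)) z =
      (Complex.conjCLE : ℂ →L[ℝ] ℂ).comp (fderiv ℝ f z) := Complex.conjCLE.comp_fderiv
  have h2 : (fun w => conj (f w)) = fun w => Complex.conjCLE (f w) := rfl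
  rw [h2, h]
  rfl

theorem dj_conj (a : Fin n) (f : Cn n → ℂ) (z : Cn n) :
    dj a (fun w => conj (f w)) z = conj (dbj a f z) := by
  unfold dj dbj
  rw [fderiv_conj, fderiv_conj]
  simp only [smul_eq_mul, map_mul, map_add, map_div₀, map_one, map_ofNat, conj_I]
  ring

theorem dbj_conj (a : Fin n) (f : Cn n → ℂ) (z : Cn n) :
    dbj a (fun w => conj (f w)) z = conj (dj a f z) := by
  unfold dj dbj
  rw [fderiv_conj, fderiv_conj]
  simp only [smul_eq_mul, map_mul, map_sub, map_div₀, map_one, map_ofNat, conj_I]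
  ring

theorem dl_conj (i : A.ι) (a : Fin n) (f : M → ℂ) (x : M) :
    dl A i a (fun y => conj (f y)) x = conj (A.db i a f x) := dj_conj a _ _

theorem db_conj (i : A.ι) (a : Fin n) (f : M → ℂ) (x : M) :
    A.db i a (fun y => conj (f y)) x = conj (dl A i a f x) := dbj_conj a _ _

theorem smAt_conj {i : A.ι} {f : M → ℂ} (hf : A.SmAt i f) : A.SmAt i (fun x => conj (f x)) :=
  Complex.conjCLE.contDiff.comp_contDiffOn hf

theorem smAt_dl {i : A.ι} {f : M → ℂ} (hf : A.SmAt i f) (a : Fin n) : A.SmAt i (dl A i a f) := by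
  have h := smAt_conj ((smAt_conj hf).db a)
  refine h.congr fun z _ => ?_
  show dl A i a f _ = conj (A.db i a (fun x => conj (f x)) _)
  rw [db_conj, conj_conj]

theorem lint_conj (i : A.ι) (f : M → ℂ) :
    lint A i (fun x => conj (f x)) = conj (lint A i f) := by
  unfold SerG398.lint
  rw [← integral_conj]
  congr 1
  funext x
  by_cases hx : x ∈ Ui A i
  · rw [rd_of_mem hx, rd_of_mem hx]
  · rw [rd_off hx, rd_off hx, map_zero]

/-! ### densities -/

/-- smooth density -/
structure IsD (A : Atl n M) (f : A.ι → M → ℂ) : Prop where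
  sm : ∀ i, A.SmAt i (f i)
  tr : ∀ i j, ∀ x ∈ (A.e i).source ∩ (A.e j).source, f i x = dens A i j x * f j x

/-- smooth vector density of type `(0,1)` -/
structure V01 (A : Atl n M) (Y : A.ι → M → Fin n → ℂ) : Prop where
  sm : ∀ i a, A.SmAt i (fun x => Y i x a)
  tr : ∀ i j, ∀ x ∈ (A.e i).source ∩ (A.e j).source, ∀ b,
    ∑ a, conj (A.J i j x b a) * Y i x a = dens A i j x * Y j x b

/-- smooth vector density of type `(1,0)` -/
structure V10 (A : Atl n M) (Y : A.ι → M → Fin n → ℂ) : Prop where
  sm : ∀ i a, A.SmAt i (fun x => Y i x a)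
  tr : ∀ i j, ∀ x ∈ (A.e i).source ∩ (A.e j).source, ∀ b,
    ∑ a, A.J i j x b a * Y i x a = dens A i j x * Y j x b

theorem dens_conj (i j : A.ι) (x : M) : conj (dens A i j x) = dens A i j x := by
  unfold SerG398.dens
  rw [Complex.conj_ofReal]

theorem V10.conj {Y : A.ι → M → Fin n → ℂ} (h : V10 A Y) :
    V01 A (fun i x a => conj (Y i x a)) where
  sm i a := smAt_conj (h.sm i a)
  tr i j x hx b := by
    have h1 := congrArg (starRingEnd ℂ) (h.tr i j x hx b)
    rw [map_sum, map_mul, dens_conj] at h1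
    rw [← h1]
    exact Finset.sum_congr rfl fun a _ => (map_mul _ _ _).symm

/-- the total integral over a finite set of charts -/
def tot (P : Part A) (F : Finset A.ι) (f : A.ι → M → ℂ) : ℂ :=
  ∑ i ∈ F, lint A i (fun x => (P.ψ i x : ℂ) * f i x)

theorem tot_congr (P : Part A) (F : Finset A.ι) {f g : A.ι → M → ℂ}
    (h : ∀ i ∈ F, ∀ x ∈ (A.e i).source, f i x = g i x) : tot P F f = tot P F g :=
  Finset.sum_congr rfl fun i hi => lint_congr fun x hx => by rw [h i hi x hx]

theorem tot_conj (P : Part A) (F : Finset A.ι) (f : A.ι → M → ℂ) :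
    tot P F (fun i x => conj (f i x)) = conj (tot P F f) := by
  unfold tot
  rw [map_sum]
  refine Finset.sum_congr rfl fun i _ => ?_
  rw [← lint_conj]
  congr 1
  funext x
  rw [map_mul, Complex.conj_ofReal]

variable [T2Space M]

theorem cc_psi (P : Part A) {i : A.ι} {f : M → ℂ} (hf : A.SmAt i f) :
    CC A i (fun x => (P.ψ i x : ℂ) * f x) := by
  refine CC.of_zero_off ?_ (P.χ_cpt i) (P.χ_sub i) ?_
  · show ContDiffOn ℝ ∞ (fun z => (P.ψ i ((A.e i).symm z) : ℂ) * f ((A.e i).symm z)) _
    exact (smAt_ofReal (P.ψ_sm i i)).mul hf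
  · intro x hx
    have : P.ψ i x = 0 := image_eq_zero_of_notMem_tsupport fun h => hx (tsupport_psi P i h)
    rw [this]; simp

theorem tot_add (P : Part A) (F : Finset A.ι) {f g : A.ι → M → ℂ}
    (hf : ∀ i, A.SmAt i (f i)) (hg : ∀ i, A.SmAt i (g i)) :
    tot P F (fun i x => f i x + g i x) = tot P F f + tot P F g := by
  unfold tot
  rw [← Finset.sum_add_distrib]
  refine Finset.sum_congr rfl fun i _ => ?_
  rw [← lint_add (cc_psi P (hf i)).integrable (cc_psi P (hg i)).integrable]
  congr 1
  funext x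
  ring

theorem tot_smul (P : Part A) (F : Finset A.ι) (c : ℂ) (f : A.ι → M → ℂ) :
    tot P F (fun i x => c * f i x) = c * tot P F f := by
  unfold tot
  rw [Finset.mul_sum]
  refine Finset.sum_congr rfl fun i _ => ?_
  rw [← lint_smul]
  congr 1
  funext x
  ring

theorem tot_sub (P : Part A) (F : Finset A.ι) {f g : A.ι → M → ℂ}
    (hf : ∀ i, A.SmAt i (f i)) (hg : ∀ i, A.SmAt i (g i)) :
    tot P F (fun i x => f i x - g i x) = tot P F f - tot P F g := by
  have h1 : tot P F (fun i x => f i x - g i x) = tot P F (fun i x => f i x + (-1) * g i x) :=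
    tot_congr P F fun i _ x _ => by ring
  have h2 : ∀ i, A.SmAt i (fun x => (-1 : ℂ) * g i x) := fun i =>
    (contDiffOn_const (c := (-1 : ℂ))).mul (hg i)
  rw [h1, tot_add P F (f := f) (g := fun i x => (-1 : ℂ) * g i x) hf h2, tot_smul]
  ring

theorem tot_sum (P : Part A) (F : Finset A.ι) {σ : Type*} (s : Finset σ) {f : σ → A.ι → M → ℂ}
    (hf : ∀ t ∈ s, ∀ i, A.SmAt i (f t i)) :
    tot P F (fun i x => ∑ t ∈ s, f t i x) = ∑ t ∈ s, tot P F (f t) := by
  unfold tot
  rw [Finset.sum_comm]
  refine Finset.sum_congr rfl fun i _ => ?_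
  rw [← lint_sum s fun t ht => (cc_psi P (hf t ht i)).integrable]
  congr 1
  funext x
  rw [Finset.mul_sum]

/-- localisation: a density which vanishes off a compact subset of the chart `j` -/
theorem tot_loc (P : Part A) {F : Finset A.ι} {f : A.ι → M → ℂ} (hf : IsD A f)
    {j : A.ι} {K : Set M} (hK : IsCompact K) (hKj : K ⊆ (A.e j).source) (hF : Fn P hK ⊆ F)
    (h0 : ∀ i, ∀ x ∉ K, f i x = 0) : tot P F f = lint A j (f j) := by
  unfold tot
  have h1 : ∀ i ∈ F, lint A i (fun x => (P.ψ i x : ℂ) * f i x) =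
      lint A j (fun x => (P.ψ i x : ℂ) * f j x) := by
    intro i _
    apply lint_change
    · intro x hx
      by_cases hi : x ∈ (A.e i).source
      · rw [h0 i x fun hxK => hx ⟨hi, hKj hxK⟩, mul_zero]
      · rw [psi_off P hi]; simp
    · intro x hx
      by_cases hi : x ∈ (A.e i).source
      · rw [h0 j x fun hxK => hx ⟨hi, hKj hxK⟩, mul_zero]
      · rw [psi_off P hi]; simp
    · intro x hx
      rw [hf.tr i j x hx]
      ring
  rw [Finset.sum_congr rfl h1, ← lint_sum]
  · congr 1
    funext x
    rw [← Finset.sum_mul]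
    by_cases hx : x ∈ K
    · rw [sum_psiC P hK hF hx, one_mul]
    · rw [h0 j x hx, mul_zero]
  · intro i _
    refine (CC.of_zero_off ?_ hK hKj ?_).integrable
    · show ContDiffOn ℝ ∞ (fun z => (P.ψ i ((A.e j).symm z) : ℂ) * f j ((A.e j).symm z)) _
      exact (smAt_ofReal (P.ψ_sm i j)).mul (hf.sm j)
    · intro x hx
      rw [h0 j x hx, mul_zero]

/-! ### Stokes -/

theorem smAt_chi (P : Part A) (i j : A.ι) : A.SmAt j (fun x => (P.χ i x : ℂ)) :=
  smAt_ofReal (P.χ_sm i j)

theorem smAt_psi (P : Part A) (i j : A.ι) : A.SmAt j (fun x => (P.ψ i x : ℂ)) :=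
  smAt_ofReal (P.ψ_sm i j)

/-- `∂̄_a ψ_i` vanishes where `χ_i ≠ 1` -/
theorem chi_db_psi (P : Part A) (i j : A.ι) (a : Fin n) {x : M} (hx : x ∈ (A.e j).source) :
    (P.χ i x : ℂ) * A.db j a (fun y => (P.ψ i y : ℂ)) x = A.db j a (fun y => (P.ψ i y : ℂ)) x := by
  by_cases h : x ∈ tsupport (P.ψ i)
  · have h1 : P.χ i x = 1 := (P.χ_one i x h).self_of_nhds
    rw [h1]; simp
  · have h1 : (fun y => (P.ψ i y : ℂ)) =ᶠ[𝓝 x] fun _ => (0 : ℂ) := by
      have h2 : P.ψ i =ᶠ[𝓝 x] 0 := notMem_tsupport_iff_eventuallyEq.1 h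
      filter_upwards [h2] with y hy
      rw [hy]; simp
    have h2 : A.db j a (fun y => (P.ψ i y : ℂ)) x = 0 := by
      unfold Atl.db
      have h3 : (fun z => (P.ψ i ((A.e j).symm z) : ℂ)) =ᶠ[𝓝 (A.e j x)] fun _ => (0 : ℂ) := by
        have hc : Tendsto (A.e j).symm (𝓝 (A.e j x)) (𝓝 x) := by
          have := (A.e j).continuousAt_symm ((A.e j).map_source hx)
          rw [ContinuousAt, (A.e j).left_inv hx] at this
          exact this
        exact hc.eventually h1
      rw [OmT75.dbj_congr h3]
      simp [dbj]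
    rw [h2, mul_zero]

/-- the sum of the `∂̄_a ψ_i` vanishes inside `K` -/
theorem sum_db_psi (P : Part A) {K : Set M} (hK : IsCompact K) {F : Finset A.ι}
    (hF : Fn P hK ⊆ F) (j : A.ι) (a : Fin n) {x : M} (hx : x ∈ (A.e j).source)
    (hxK : K ∈ 𝓝 x) : ∑ i ∈ F, A.db j a (fun y => (P.ψ i y : ℂ)) x = 0 := by
  unfold Atl.db
  rw [← OmT75.dbj_sum (s := F) (f := fun i z => (P.ψ i ((A.e j).symm z) : ℂ))
    (fun i _ => Atl.SmAt.diffAt (smAt_psi P i j) hx)]
  have h3 : (fun z => ∑ i ∈ F, (P.ψ i ((A.e j).symm z) : ℂ)) =ᶠ[𝓝 (A.e j x)]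
      fun _ => (1 : ℂ) := by
    have hc : Tendsto (A.e j).symm (𝓝 (A.e j x)) (𝓝 x) := by
      have := (A.e j).continuousAt_symm ((A.e j).map_source hx)
      rw [ContinuousAt, (A.e j).left_inv hx] at this
      exact this
    filter_upwards [hc.eventually hxK] with z hz
    exact sum_psiC P hK hF hz
  rw [OmT75.dbj_congr h3]
  simp [dbj]

/-- **Stokes for vector densities of type `(0,1)`** -/
theorem stokes01 (P : Part A) {Y : A.ι → M → Fin n → ℂ} (hY : V01 A Y) {K : Set M}
    (hK : IsCompact K) {F : Finset A.ι} (hF : Fn P hK ⊆ F)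
    (h0 : ∀ i, ∀ x ∉ K, Y i x = 0) :
    tot P F (fun i x => ∑ a, A.db i a (fun y => Y i y a) x) = 0 := by
  classical
  -- the correction term
  set g : A.ι → A.ι → M → ℂ := fun i j x =>
    (P.χ i x : ℂ) * ∑ a, Y j x a * A.db j a (fun y => (P.ψ i y : ℂ)) x with hg
  have hgs : ∀ i j, A.SmAt j (g i j) := by
    intro i j
    show ContDiffOn ℝ ∞ (fun z => (P.χ i ((A.e j).symm z) : ℂ) * ∑ a, Y j ((A.e j).symm z) a *
      A.db j a (fun y => (P.ψ i y : ℂ)) ((A.e j).symm z)) _
    exact (smAt_chi P i j).mul (ContDiffOn.sum fun a _ =>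
      (hY.sm j a).mul ((smAt_psi P i j).db a))
  have hgcc : ∀ i, CC A i (g i i) := by
    intro i
    refine CC.of_zero_off (hgs i i) (P.χ_cpt i) (P.χ_sub i) fun x hx => ?_
    have : P.χ i x = 0 := image_eq_zero_of_notMem_tsupport hx
    simp only [hg, this, ofReal_zero, zero_mul]
  -- Step 1: in every chart
  have h1 : ∀ i ∈ F, lint A i (fun x => (P.ψ i x : ℂ) * ∑ a, A.db i a (fun y => Y i y a) x) =
      - lint A i (g i i) := by
    intro i _
    have hcc : ∀ a, CC A i (fun x => (P.ψ i x : ℂ) * Y i x a) := fun a => cc_psi P (hY.sm i a)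
    have hid : ∀ x ∈ (A.e i).source, (P.ψ i x : ℂ) * ∑ a, A.db i a (fun y => Y i y a) x =
        ∑ a, A.db i a (fun y => (P.ψ i y : ℂ) * Y i y a) x + (-1) * g i i x := by
      intro x hx
      have e1 : ∀ a, A.db i a (fun y => (P.ψ i y : ℂ) * Y i y a) x =
          A.db i a (fun y => (P.ψ i y : ℂ)) x * Y i x a +
            (P.ψ i x : ℂ) * A.db i a (fun y => Y i y a) x := fun a =>
        db_mul (Atl.SmAt.diffAt (smAt_psi P i i) hx) (Atl.SmAt.diffAt (hY.sm i a) hx) hx
      have e2 : g i i x = ∑ a, Y i x a * A.db i a (fun y => (P.ψ i y : ℂ)) x := by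
        simp only [hg]
        rw [Finset.mul_sum]
        refine Finset.sum_congr rfl fun a _ => ?_
        conv_rhs => rw [← chi_db_psi P i i a hx]
        ring
      rw [e2, Finset.mul_sum, Finset.mul_sum, ← Finset.sum_add_distrib]
      refine Finset.sum_congr rfl fun a _ => ?_
      rw [e1 a]
      ring
    have hint : ∀ a, Integrable (rd A i (A.db i a (fun y => (P.ψ i y : ℂ) * Y i y a))) := by
      intro a
      have h1 : rd A i (A.db i a (fun y => (P.ψ i y : ℂ) * Y i y a)) = fun x =>
          (1 / 2 : ℂ) * (fderiv ℝ (rd A i _) x (Tor812.ev (a, 0)) +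
            I * fderiv ℝ (rd A i _) x (Tor812.ev (a, 1))) :=
        funext fun x => rd_db (hcc a) a x
      rw [h1]
      have h2 : ∀ p : RI n, Integrable (fun x => fderiv ℝ
          (rd A i (fun y => (P.ψ i y : ℂ) * Y i y a)) x (Tor812.ev p)) := fun p =>
        ((hcc a).isCC.fderiv_apply (Tor812.ev p)).smooth.continuous.integrable_of_hasCompactSupport
          ((hcc a).isCC.fderiv_apply (Tor812.ev p)).hasCompactSupport
      exact ((h2 _).add ((h2 _).const_mul I)).const_mul _
    have hint2 : Integrable (rd A i (fun x =>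
        ∑ a, A.db i a (fun y => (P.ψ i y : ℂ) * Y i y a) x)) := by
      have h3 : rd A i (fun x => ∑ a, A.db i a (fun y => (P.ψ i y : ℂ) * Y i y a) x) =
          fun x => ∑ a, rd A i (A.db i a (fun y => (P.ψ i y : ℂ) * Y i y a)) x :=
        funext fun x => rd_sum Finset.univ i _ x
      rw [h3]
      exact integrable_finsetSum _ fun a _ => hint a
    have hint3 : Integrable (rd A i (fun x => (-1 : ℂ) * g i i x)) := by
      have : CC A i (fun x => (-1 : ℂ) * g i i x) := by
        refine CC.of_zero_off ((contDiffOn_const (c := (-1 : ℂ))).mul (hgs i i)) (P.χ_cpt i)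
          (P.χ_sub i) fun x hx => ?_
        have : P.χ i x = 0 := image_eq_zero_of_notMem_tsupport hx
        simp only [hg, this, ofReal_zero, zero_mul, mul_zero]
      exact this.integrable
    rw [lint_congr hid, lint_add hint2 hint3, lint_sum _ fun a _ => hint a, lint_smul]
    rw [Finset.sum_eq_zero fun a _ => lint_db (hcc a) a, zero_add, neg_one_mul]
  unfold tot
  rw [Finset.sum_congr rfl h1, Finset.sum_neg_distrib, neg_eq_zero]
  -- Step 2: insert the partition of unity and change charts
  have hgz : ∀ i j, ∀ x ∉ K, g i j x = 0 := by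
    intro i j x hx
    simp only [hg]
    rw [Finset.sum_eq_zero fun a _ => by rw [h0 j x hx]; simp, mul_zero]
  have h2 : ∀ i ∈ F, lint A i (g i i) =
      ∑ j ∈ F, lint A j (fun x => (P.ψ j x : ℂ) * g i j x) := by
    intro i _
    have e1 : lint A i (g i i) = lint A i (fun x => ∑ j ∈ F, (P.ψ j x : ℂ) * g i i x) := by
      congr 1
      funext x
      rw [← Finset.sum_mul]
      by_cases hx : x ∈ K
      · rw [sum_psiC P hK hF hx, one_mul]
      · rw [hgz i i x hx, mul_zero]
    rw [e1, lint_sum]
    · refine Finset.sum_congr rfl fun j _ => ?_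
      apply lint_change
      · intro x hx
        by_cases hi : x ∈ (A.e i).source
        · have hj : x ∉ (A.e j).source := fun h => hx ⟨hi, h⟩
          rw [psi_off P hj]; simp
        · have : P.χ i x = 0 := image_eq_zero_of_notMem_tsupport fun h => hi (P.χ_sub i h)
          simp only [hg, this, ofReal_zero, zero_mul, mul_zero]
      · intro x hx
        by_cases hi : x ∈ (A.e i).source
        · have hj : x ∉ (A.e j).source := fun h => hx ⟨hi, h⟩
          rw [psi_off P hj]; simp
        · have : P.χ i x = 0 := image_eq_zero_of_notMem_tsupport fun h => hi (P.χ_sub i h)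
          simp only [hg, this, ofReal_zero, zero_mul, mul_zero]
      · intro x hx
        have e2 : ∀ a, A.db i a (fun y => (P.ψ i y : ℂ)) x =
            ∑ b, conj (A.J i j x b a) * A.db j b (fun y => (P.ψ i y : ℂ)) x := fun a => by
          rw [OmT75.db_chain (Atl.SmAt.diffAt (smAt_psi P i j) hx.2) hx a]
          rfl
        have e3 : ∑ a, Y i x a * A.db i a (fun y => (P.ψ i y : ℂ)) x =
            dens A i j x * ∑ b, Y j x b * A.db j b (fun y => (P.ψ i y : ℂ)) x := by
          calc ∑ a, Y i x a * A.db i a (fun y => (P.ψ i y : ℂ)) x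
              = ∑ a, ∑ b, (conj (A.J i j x b a) * Y i x a) *
                  A.db j b (fun y => (P.ψ i y : ℂ)) x := by
                refine Finset.sum_congr rfl fun a _ => ?_
                rw [e2 a, Finset.mul_sum]
                exact Finset.sum_congr rfl fun b _ => by ring
            _ = ∑ b, (∑ a, conj (A.J i j x b a) * Y i x a) *
                  A.db j b (fun y => (P.ψ i y : ℂ)) x := by
                rw [Finset.sum_comm]
                exact Finset.sum_congr rfl fun b _ => by rw [Finset.sum_mul]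
            _ = _ := by
                rw [Finset.mul_sum]
                exact Finset.sum_congr rfl fun b _ => by rw [hY.tr i j x hx b]; ring
        simp only [hg]
        rw [e3]
        ring
    · intro j _
      refine (CC.of_zero_off ?_ (P.χ_cpt i) (P.χ_sub i) ?_).integrable
      · exact (smAt_psi P j i).mul (hgs i i)
      · intro x hx
        have : P.χ i x = 0 := image_eq_zero_of_notMem_tsupport hx
        simp only [hg, this, ofReal_zero, zero_mul, mul_zero]
  rw [Finset.sum_congr rfl h2, Finset.sum_comm]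
  refine Finset.sum_eq_zero fun j _ => ?_
  rw [← lint_sum]
  · have h3 : ∀ x ∈ (A.e j).source, ∑ i ∈ F, (P.ψ j x : ℂ) * g i j x = 0 := by
      intro x hx
      by_cases hYx : ∀ᶠ y in 𝓝 x, y ∈ K
      · have e1 : ∑ i ∈ F, (P.ψ j x : ℂ) * g i j x =
            (P.ψ j x : ℂ) * ∑ a, Y j x a * ∑ i ∈ F, A.db j a (fun y => (P.ψ i y : ℂ)) x := by
          rw [← Finset.mul_sum]
          congr 1
          simp only [hg]
          rw [Finset.sum_congr rfl fun i _ => Finset.mul_sum _ _ _, Finset.sum_comm]
          refine Finset.sum_congr rfl fun a _ => ?_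
          rw [Finset.mul_sum]
          refine Finset.sum_congr rfl fun i _ => ?_
          conv_rhs => rw [← chi_db_psi P i j a hx]
          ring
        rw [e1, Finset.sum_eq_zero fun a _ => by rw [sum_db_psi P hK hF j a hx hYx, mul_zero],
          mul_zero]
      · -- `Y j x = 0` since otherwise a neighbourhood of `x` is inside `K`
        have hY0 : Y j x = 0 := by
          by_contra hne
          obtain ⟨a, ha⟩ := Function.ne_iff.1 hne
          apply hYx
          have hcont : ContinuousAt (fun y => Y j y a) x := by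
            have hc1 : ContinuousOn (fun z => Y j ((A.e j).symm z) a) (A.e j).target :=
              (hY.sm j a).continuousOn
            have hc2 : ContinuousAt (fun z => Y j ((A.e j).symm z) a) (A.e j x) :=
              hc1.continuousAt ((A.e j).open_target.mem_nhds ((A.e j).map_source hx))
            have hc3 : ContinuousAt (fun y => Y j ((A.e j).symm (A.e j y)) a) x :=
              ContinuousAt.comp (g := fun z => Y j ((A.e j).symm z) a) (f := A.e j) hc2
                ((A.e j).continuousAt hx)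
            refine hc3.congr ?_
            filter_upwards [(A.e j).open_source.mem_nhds hx] with y hy
            rw [(A.e j).left_inv hy]
          filter_upwards [hcont.eventually_ne ha] with y hy
          by_contra hyK
          exact hy (by rw [h0 j y hyK])
        refine Finset.sum_eq_zero fun i _ => ?_
        simp only [hg]
        rw [Finset.sum_eq_zero fun a _ => by rw [hY0]; simp, mul_zero, mul_zero]
    rw [lint_congr (g := fun _ => 0) h3, lint_zero]
  · intro i _
    exact (cc_psi P (hgs i j)).integrable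

/-- **Stokes for vector densities of type `(1,0)`** -/
theorem stokes10 (P : Part A) {Y : A.ι → M → Fin n → ℂ} (hY : V10 A Y) {K : Set M}
    (hK : IsCompact K) {F : Finset A.ι} (hF : Fn P hK ⊆ F)
    (h0 : ∀ i, ∀ x ∉ K, Y i x = 0) :
    tot P F (fun i x => ∑ a, dl A i a (fun y => Y i y a) x) = 0 := by
  have h1 := stokes01 P hY.conj hK hF fun i x hx => by
    funext a
    rw [h0 i x hx]
    simp
  have h2 : tot P F (fun i x => ∑ a, A.db i a (fun y => conj (Y i y a)) x) =
      conj (tot P F (fun i x => ∑ a, dl A i a (fun y => Y i y a) x)) := by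
    rw [← tot_conj]
    refine tot_congr P F fun i _ x _ => ?_
    rw [map_sum]
    exact Finset.sum_congr rfl fun a _ => db_conj i a _ x
  rw [h2] at h1
  exact (map_eq_zero _).1 h1

/-! ### compact `M` -/

section compact

variable [CompactSpace M]

/-- total integral on a compact manifold -/
def totc (P : Part A) (f : A.ι → M → ℂ) : ℂ :=
  tot P (Fn P (isCompact_univ : IsCompact (univ : Set M))) f

theorem stokes01c (P : Part A) {Y : A.ι → M → Fin n → ℂ} (hY : V01 A Y) :
    totc P (fun i x => ∑ a, A.db i a (fun y => Y i y a) x) = 0 :=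
  stokes01 P hY isCompact_univ (Finset.Subset.refl _) fun _ x hx => absurd (mem_univ x) hx

theorem stokes10c (P : Part A) {Y : A.ι → M → Fin n → ℂ} (hY : V10 A Y) :
    totc P (fun i x => ∑ a, dl A i a (fun y => Y i y a) x) = 0 :=
  stokes10 P hY isCompact_univ (Finset.Subset.refl _) fun _ x hx => absurd (mem_univ x) hx

end compact

end

end Crest.Agent.R273.StV_37
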