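import Crest.Agent.R273.DelLaw_37
import Crest.Agent.R273.Kah_333
import Crest.Agent.R273.StV_37
import Crest.Agent.R275.OmTot_75

/-!
# R273 (S0416), BP-D leaf D.8 (helper37), part 2: integrated Bochner-Kodaira-Nakano identity

`M` any manifold with atlas `A`, `K : Kah A` a Kaehler metric, `N : LB A`,
`h : HM ((KB A)⁻¹ * N)`, `v`, `w` smooth polyvector fields (all degrees) with values in `N`:

* `IsV N v` : smooth polyvector fields with values in `N`;
* `dbV`, `dlV` : componentwise derivatives; `delV h v` : the weighted divergence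
  `w⁻¹ ∑ i_l ∂_l (w v)`; `duV K v` : `∑ e_k ∂̄_k (Γ(K) v)`;
* `delV_isV` : `delV h v` is again a polyvector field with values in `N`;
* densities `inG`, `inD`, `inT`, `inU`;
* `bkn` : `∫ inD + ∫ inT = ∫ inU + ∫ inG (delV v) (delV w)`.
-/

set_option autoImplicit false
set_option linter.unusedSectionVars false

open Set Filter Topology Complex Matrix
open scoped ContDiff Matrix ComplexConjugate Manifold ComplexOrder

namespace Crest.Agent.R273.BKNa_37

open Crest.Agent.R275 Crest.Agent.R275.Geo Crest.Agent.R275.Core144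
open Crest.Agent.R275.EDR890 (wd wd_comm)
open Crest.Agent.R275.Pai323 Crest.Agent.R275.C1d194
open Crest.Agent.R275.SerG398 (lint dens dens_eq detJ)
open Crest.Agent.R275.OmT75 (dl dl_chain db_chain dl_mul dl_J_symm J_analytic)
open Crest.Agent.R273.Defs_333 Crest.Agent.R273.HM_333 Crest.Agent.R273.Kah_333
open Crest.Agent.R273.Hess_333
open Crest.Agent.R273.Fock_243 Crest.Agent.R273.Calc_243 Crest.Agent.R273.Bkn_243
open Crest.Agent.R273.DelLaw_37 Crest.Agent.R273.StV_37

noncomputable section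

variable {n : ℕ} {M : Type} [TopologicalSpace M] {A : Atl n M} {N L : LB A}

/-- smooth polyvector fields (all degrees) with values in the line bundle `N` -/
structure IsV (N : LB A) (v : A.ι → M → FI n → ℂ) : Prop where
  sm : ∀ i T, A.SmAt i (fun x => v i x T)
  tr : ∀ i j, ∀ x ∈ (A.e i).source ∩ (A.e j).source,
    v i x = N.g i j x • (Gam (Jm A j i x) *ᵥ v j x)

theorem Gam_J_J {i j : A.ι} {x : M} (hx : x ∈ (A.e i).source ∩ (A.e j).source) :
    Gam (Jm A i j x) * Gam (Jm A j i x) = 1 := by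
  rw [← Gam_mul, J_mul j i j ⟨⟨hx.2, hx.1⟩, hx.2⟩, J_self j hx.2, Gam_one]

theorem J_J {i j : A.ι} {x : M} (hx : x ∈ (A.e i).source ∩ (A.e j).source) :
    Jm A j i x * Jm A i j x = 1 := by
  rw [J_mul i j i ⟨hx, hx.1⟩, J_self i hx.1]

theorem IsV.tr' {v : A.ι → M → FI n → ℂ} (hv : IsV N v) {i j : A.ι} {x : M}
    (hx : x ∈ (A.e i).source ∩ (A.e j).source) :
    Gam (Jm A i j x) *ᵥ v i x = N.g i j x • v j x := by
  rw [hv.tr i j x hx, Matrix.mulVec_smul, Matrix.mulVec_mulVec, Gam_J_J hx, Matrix.one_mulVec]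

theorem isV_of_tr' {v : A.ι → M → FI n → ℂ} (hs : ∀ i T, A.SmAt i (fun x => v i x T))
    (h : ∀ i j, ∀ x ∈ (A.e i).source ∩ (A.e j).source,
      Gam (Jm A i j x) *ᵥ v i x = N.g i j x • v j x) : IsV N v where
  sm := hs
  tr i j x hx := by
    rw [← Matrix.mulVec_smul, ← h i j x hx, Matrix.mulVec_mulVec, Gam_J_J ⟨hx.2, hx.1⟩,
      Matrix.one_mulVec]

/-- reading in a chart -/
def rV (v : A.ι → M → FI n → ℂ) (i : A.ι) : Cn n → FI n → ℂ := fun z => v i ((A.e i).symm z)

/-- the lowering matrix read in a chart -/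
def Kr (K : Kah A) (i : A.ι) : Cn n → Matrix (Fin n) (Fin n) ℂ :=
  fun z => (K.g i ((A.e i).symm z))ᵀ

/-- the logarithm of the weight read in a chart -/
def lamr (h : HM L) (i : A.ι) : Cn n → ℂ := fun z => ((-(h.wt i z) : ℝ) : ℂ)

/-- `∂̄_k v` -/
def dbV (v : A.ι → M → FI n → ℂ) (i : A.ι) (k : Fin n) (x : M) : FI n → ℂ :=
  fun T => A.db i k (fun y => v i y T) x

/-- `∂_l v` -/
def dlV (v : A.ι → M → FI n → ℂ) (i : A.ι) (l : Fin n) (x : M) : FI n → ℂ :=
  fun T => dl A i l (fun y => v i y T) x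

/-- the weighted divergence -/
def delV (h : HM L) (v : A.ι → M → FI n → ℂ) (i : A.ι) (x : M) : FI n → ℂ :=
  ((h.w i x : ℂ))⁻¹ • ∑ l, iW (ep l) *ᵥ fun T => dl A i l (fun y => (h.w i y : ℂ) * v i y T) x

/-- `∂̄` of the lowered polyvector field -/
def duV (K : Kah A) (v : A.ι → M → FI n → ℂ) (i : A.ι) (x : M) : FI n → ℂ :=
  ∑ k, eW (ep k) *ᵥ fun T => A.db i k (fun y => (Gam ((K.g i y)ᵀ) *ᵥ v i y) T) x

/-! ### bridge to helper243's calculus -/

theorem dl_eq_dS (i : A.ι) (a : Fin n) (f : M → ℂ) (x : M) :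
    dl A i a f x = dS (-I) a (fun z => f ((A.e i).symm z)) (A.e i x) := by
  unfold OmT75.dl OmT75.dj dS
  simp only [smul_eq_mul]
  ring

theorem db_eq_dS (i : A.ι) (a : Fin n) (f : M → ℂ) (x : M) :
    A.db i a f x = dS I a (fun z => f ((A.e i).symm z)) (A.e i x) := rfl

theorem dbV_eq (v : A.ι → M → FI n → ℂ) (i : A.ι) (k : Fin n) (x : M) :
    dbV v i k x = dV I k (rV v i) (A.e i x) := rfl

theorem dlV_eq (v : A.ι → M → FI n → ℂ) (i : A.ι) (l : Fin n) (x : M) :
    dlV v i l x = dV (-I) l (rV v i) (A.e i x) := by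
  funext T
  exact dl_eq_dS _ _ _ _

theorem duV_eq (K : Kah A) (v : A.ι → M → FI n → ℂ) (i : A.ι) (x : M) :
    duV K v i x = du (Kr K i) (rV v i) (A.e i x) := rfl

theorem sm_rd {i : A.ι} {f : M → ℂ} (hf : A.SmAt i f) {z : Cn n} (hz : z ∈ (A.e i).target) :
    Sm z (fun y => f ((A.e i).symm y)) :=
  ContDiffOn.contDiffAt hf ((A.e i).open_target.mem_nhds hz)

theorem smAt_of_sm {i : A.ι} {f : M → ℂ}
    (h : ∀ z ∈ (A.e i).target, Sm z (fun y => f ((A.e i).symm y))) : A.SmAt i f :=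
  fun z hz => (h z hz).contDiffWithinAt

theorem smV_rV {v : A.ι → M → FI n → ℂ} (hs : ∀ i T, A.SmAt i (fun x => v i x T)) (i : A.ι)
    {z : Cn n} (hz : z ∈ (A.e i).target) : SmV z (rV v i) := fun T => sm_rd (hs i T) hz

theorem smM_Kr (K : Kah A) (i : A.ι) {z : Cn n} (hz : z ∈ (A.e i).target) : SmM z (Kr K i) :=
  fun b a => sm_rd (K.sm i a b) hz

theorem sm_lamr (h : HM L) (i : A.ι) {z : Cn n} (hz : z ∈ (A.e i).target) : Sm z (lamr h i) :=
  Complex.ofRealCLM.contDiff.contDiffAt.comp z (wt_contDiffAt h i hz).neg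

theorem lamr_real (h : HM L) (i : A.ι) (z : Cn n) : conj (lamr h i z) = lamr h i z :=
  Complex.conj_ofReal _

theorem exp_lamr (h : HM L) (i : A.ι) {z : Cn n} (hz : z ∈ (A.e i).target) :
    Complex.exp (lamr h i z) = (h.w i ((A.e i).symm z) : ℂ) := by
  unfold lamr HM.wt
  rw [neg_neg, ← Complex.ofReal_exp, Real.exp_log (h.pos i _ ((A.e i).map_target hz))]

theorem wd_eq_dS (a : Fin n) (f : Cn n → ℂ) (z : Cn n) :
    wd (false, a) f z = dS (-I) a f z := by
  unfold EDR890.wd EDR890.wdL dS EDR890.cI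
  simp only [smul_eq_mul]
  rfl

theorem wd_eq_dS' (a : Fin n) (f : Cn n → ℂ) (z : Cn n) :
    wd (true, a) f z = dS I a f z := by
  unfold EDR890.wd EDR890.wdL dS EDR890.cI
  simp only [smul_eq_mul]
  rfl

theorem kahAt (K : Kah A) (i : A.ι) {z : Cn n} (hz : z ∈ (A.e i).target) :
    KahAt (Kr K i) z where
  bar k b c := by
    have h := K.closed' i z hz c b k
    rw [wd_eq_dS', wd_eq_dS'] at h
    exact h
  hol k b c := by
    have h := K.closed i z hz b c k
    rw [wd_eq_dS, wd_eq_dS] at h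
    exact h

theorem herm_T {P : Matrix (Fin n) (Fin n) ℂ} (h : P.IsHermitian) :
    (Pᵀ).map (starRingEnd ℂ) = (Pᵀ)ᵀ := by
  ext a b
  have := congrFun (congrFun h b) a
  simp only [Matrix.conjTranspose_apply] at this
  rw [Matrix.transpose_transpose, Matrix.map_apply, Matrix.transpose_apply]
  have h2 := congrFun (congrFun h a) b
  rw [Matrix.conjTranspose_apply] at h2
  exact h2

theorem inv_T {P : Matrix (Fin n) (Fin n) ℂ} (h : P.PosDef) : (Pᵀ)⁻¹ * Pᵀ = 1 := by
  apply Matrix.nonsing_inv_mul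
  rw [Matrix.det_transpose]
  exact h.det_pos.ne'.isUnit

theorem cur_eq_dS (h : HM L) (i : A.ι) {x : M} (hx : x ∈ (A.e i).source) :
    (Matrix.of fun l k => - dS I k (dS (-I) l (lamr h i)) (A.e i x)) = cur h i x := by
  have hz := (A.e i).map_source hx
  ext l k
  rw [Matrix.of_apply]
  unfold cur
  rw [hess_apply, wd_eq_dS]
  have h1 : ∀ y, wd (true, k) (cu (h.wt i)) y = dS I k (cu (h.wt i)) y := fun y => wd_eq_dS' _ _ _
  have h2 : wd (true, k) (cu (h.wt i)) = dS I k (cu (h.wt i)) := funext h1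
  have hs : Sm (A.e i x) (cu (h.wt i)) := contDiffAt_cu (wt_contDiffAt h i hz)
  rw [h2, dS_comm hs]
  have h3 : ∀ᶠ y in 𝓝 (A.e i x), dS (-I) l (lamr h i) y = - dS (-I) l (cu (h.wt i)) y := by
    refine Eventually.of_forall fun y => ?_
    rw [← dS_neg]
    congr 1
    funext y
    simp [lamr, cu]
  rw [dS_congr h3, dS_neg, neg_neg]

theorem delV_eq (h : HM L) {v : A.ι → M → FI n → ℂ} (hs : ∀ i T, A.SmAt i (fun x => v i x T))
    (i : A.ι) {x : M} (hx : x ∈ (A.e i).source) :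
    delV h v i x = del (lamr h i) (rV v i) (A.e i x) := by
  have hz := (A.e i).map_source hx
  have h1 := del_eq (w := fun z => (h.w i ((A.e i).symm z) : ℂ)) (sm_lamr h i hz)
    (smV_rV hs i hz) (by
      filter_upwards [(A.e i).open_target.mem_nhds hz] with y hy
      exact (exp_lamr h i hy).symm)
  have h0 : (h.w i ((A.e i).symm (A.e i x)) : ℂ) ≠ 0 := by
    rw [(A.e i).left_inv hx]
    exact_mod_cast (h.pos i x hx).ne'
  unfold delV
  have h2 : ∑ l, iW (ep l) *ᵥ (fun T => dl A i l (fun y => (h.w i y : ℂ) * v i y T) x)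
      = ∑ l, iW (ep l) *ᵥ dV (-I) l (fun z => (h.w i ((A.e i).symm z) : ℂ) • rV v i z)
        (A.e i x) := by
    refine Finset.sum_congr rfl fun l _ => ?_
    congr 1
    funext T
    exact dl_eq_dS _ _ _ _
  rw [h2, h1, smul_smul]
  rw [(A.e i).left_inv hx] at h0 ⊢
  rw [inv_mul_cancel₀ h0, one_smul]

theorem delV_sm (h : HM L) {v : A.ι → M → FI n → ℂ} (hs : ∀ i T, A.SmAt i (fun x => v i x T))
    (i : A.ι) (T : FI n) : A.SmAt i (fun x => delV h v i x T) := by
  refine smAt_of_sm fun z hz => ?_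
  have h1 : (fun y => delV h v i ((A.e i).symm y) T) =ᶠ[𝓝 z]
      fun y => del (lamr h i) (rV v i) y T := by
    filter_upwards [(A.e i).open_target.mem_nhds hz] with y hy
    rw [delV_eq h hs i ((A.e i).map_target hy), (A.e i).right_inv hy]
  exact ContDiffAt.congr_of_eventuallyEq (Sm.del (sm_lamr h i hz) (smV_rV hs i hz) T) h1

/-! ### the change of charts -/

/-- the weight law in the form used here -/
theorem w_law (h : HM ((KB A)⁻¹ * N)) {i j : A.ι} {x : M}
    (hx : x ∈ (A.e i).source ∩ (A.e j).source) :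
    (h.w i x : ℂ) * (N.g i j x * conj (N.g i j x)) = dens A i j x * (h.w j x : ℂ) := by
  have h1 := h.tr i j x hx
  rw [LB.mul_g, LB.inv_g, KB_g hx] at h1
  have hd : (Jm A i j x).det ≠ 0 := by
    have := (KB A).ne_zero i j x
    rwa [KB_g hx] at this
  rw [h1, Complex.mul_conj, Complex.normSq_eq_norm_sq]
  unfold SerG398.dens
  rw [← Complex.ofReal_mul, ← Complex.ofReal_mul]
  congr 1
  have h2 : ‖(Matrix.of (A.J i j x)).det‖ = ‖(Jm A i j x).det‖ := rfl
  have h3 : ‖(Jm A i j x).det‖ ≠ 0 := norm_ne_zero_iff.2 hd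
  rw [h2, norm_mul, norm_inv]
  field_simp

/-- the Jacobian matrix read in the chart `i` -/
def Jr (A : Atl n M) (i j : A.ι) : Cn n → Matrix (Fin n) (Fin n) ℂ :=
  fun z => Jm A i j ((A.e i).symm z)

theorem smM_Jr {i j : A.ι} {z : Cn n} (hz : z ∈ A.ov i j) : SmM z (Jr A i j) := fun b a =>
  (((J_analytic i j b a) z hz).contDiffAt (n := ω)).restrict_scalars ℝ |>.of_le le_top

theorem dS_hol {f : Cn n → ℂ} {z : Cn n} (hf : DifferentiableAt ℂ f z) (k : Fin n) :
    dS I k f z = 0 := OmT75.dbj_eq_zero hf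

theorem dM_Jr {i j : A.ι} {z : Cn n} (hz : z ∈ A.ov i j) (k : Fin n) :
    dM I k (Jr A i j) z = 0 := by
  ext b a
  exact dS_hol ((J_analytic i j b a) z hz).differentiableAt k

theorem Jr_symm {i j : A.ι} {x : M} (hx : x ∈ (A.e i).source ∩ (A.e j).source)
    (k b c : Fin n) :
    dM (-I) k (Jr A i j) (A.e i x) c b = dM (-I) b (Jr A i j) (A.e i x) c k := by
  have h := dl_J_symm hx k c b
  rw [dl_eq_dS, dl_eq_dS] at h
  exact h

/-- **the weighted divergence is a polyvector field with values in `N`** -/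
theorem delV_isV (h : HM ((KB A)⁻¹ * N)) {v : A.ι → M → FI n → ℂ} (hv : IsV N v) :
    IsV N (delV h v) := by
  refine isV_of_tr' (delV_sm h hv.sm) fun i j x hx => ?_
  have hz : A.e i x ∈ A.ov i j := mem_ov hx
  have ht : A.e i x ∈ (A.e i).target := (A.e i).map_source hx.1
  have ho : IsOpen (A.ov i j) := isOpen_ov i j
  have hxx : (A.e i).symm (A.e i x) = x := (A.e i).left_inv hx.1
  have hm : SmM (A.e i x) (Jr A i j) := smM_Jr hz
  have hi : Jm A j i x * Jr A i j (A.e i x) = 1 := by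
    unfold Jr; rw [hxx]; exact J_J hx
  -- reading of the objects of the chart `j` in the chart `i`
  have hrd : ∀ {f : M → ℂ}, A.SmAt j f → Sm (A.e i x) (fun y => f ((A.e i).symm y)) := by
    intro f hf
    have h1 : Sm (A.e j x) (fun y => f ((A.e j).symm y)) := sm_rd hf ((A.e j).map_source hx.2)
    have h2 : (fun z => f ((A.e i).symm z)) =ᶠ[𝓝 (A.e i x)]
      fun z => (fun w => f ((A.e j).symm w)) (OmT75.tr A i j z) := OmT75.read_eq f hx
    have h3 : ContDiffAt ℝ ∞ (OmT75.tr A i j) (A.e i x) :=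
      ((((OmT75.tr_analytic i j) _ hz).contDiffAt (n := ω)).restrict_scalars ℝ).of_le le_top
    rw [← OmT75.tr_val hx] at h1
    exact (h1.comp (A.e i x) h3).congr_of_eventuallyEq h2
  have hVi : SmV (A.e i x) (fun z => v i ((A.e i).symm z)) := smV_rV hv.sm i ht
  have hVj : SmV (A.e i x) (fun z => v j ((A.e i).symm z)) := fun T => hrd (hv.sm j T)
  have hg : Sm (A.e i x) (fun z => N.g i j ((A.e i).symm z)) :=
    ContDiffOn.contDiffAt (s := A.ov i j) ((N.hol i j).contDiffOn (A.e j).open_source)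
      (ho.mem_nhds hz)
  have hgh : ∀ k, dS I k (fun z => N.g i j ((A.e i).symm z)) (A.e i x) = 0 := fun k =>
    dS_hol ((N.hol i j).differentiableAt (ho.mem_nhds hz)) k
  have hwi : Sm (A.e i x) (fun z => (h.w i ((A.e i).symm z) : ℂ)) :=
    Complex.ofRealCLM.contDiff.contDiffAt.comp _
      (ContDiffOn.contDiffAt (h.sm i) ((A.e i).open_target.mem_nhds ht))
  have hwjs : A.SmAt j (fun y => (h.w j y : ℂ)) :=
    Complex.ofRealCLM.contDiff.comp_contDiffOn (h.sm j)
  have hwj : Sm (A.e i x) (fun z => (h.w j ((A.e i).symm z) : ℂ)) := hrd hwjs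
  have hV : ∀ᶠ y in 𝓝 (A.e i x), Gam (Jr A i j y) *ᵥ v i ((A.e i).symm y)
      = N.g i j ((A.e i).symm y) • v j ((A.e i).symm y) := by
    filter_upwards [ho.mem_nhds hz] with y hy
    exact hv.tr' ⟨(A.e i).map_target hy.1, hy.2⟩
  have hw : ∀ᶠ y in 𝓝 (A.e i x), (h.w i ((A.e i).symm y) : ℂ) *
      (N.g i j ((A.e i).symm y) * conj (N.g i j ((A.e i).symm y)))
      = (Jr A i j y).det * conj ((Jr A i j y).det) * (h.w j ((A.e i).symm y) : ℂ) := by
    filter_upwards [ho.mem_nhds hz] with y hy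
    rw [w_law h ⟨(A.e i).map_target hy.1, hy.2⟩, dens_eq]
    rfl
  have key := del_law (m := Jr A i j) (mi := Jm A j i x) (z := A.e i x) hm hi
    (fun k b c => Jr_symm hx k b c) (fun k b c => by rw [dM_Jr hz]; rfl) hVi hVj hg hgh hwi hwj
    hV hw
  -- the left hand side
  have hL : ∑ l, iW (ep l) *ᵥ dV (-I) l (fun y => (h.w i ((A.e i).symm y) : ℂ) •
      v i ((A.e i).symm y)) (A.e i x) = (h.w i x : ℂ) • delV h v i x := by
    unfold delV
    rw [smul_smul, mul_inv_cancel₀ (by exact_mod_cast (h.pos i x hx.1).ne'), one_smul]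
    refine Finset.sum_congr rfl fun l _ => ?_
    congr 1
    funext T
    exact (dl_eq_dS i l (fun y => (h.w i y : ℂ) * v i y T) x).symm
  -- the right hand side: chain rule
  have hR : ∑ l, iW (Jm A j i x l) *ᵥ dV (-I) l (fun y => (h.w j ((A.e i).symm y) : ℂ) •
      v j ((A.e i).symm y)) (A.e i x) = (h.w j x : ℂ) • delV h v j x := by
    unfold delV
    rw [smul_smul, mul_inv_cancel₀ (by exact_mod_cast (h.pos j x hx.2).ne'), one_smul]
    have e1 : ∀ l, dV (-I) l (fun y => (h.w j ((A.e i).symm y) : ℂ) •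
        v j ((A.e i).symm y)) (A.e i x)
        = ∑ b, A.J i j x b l • fun T => dl A j b (fun y => (h.w j y : ℂ) * v j y T) x := by
      intro l
      funext T
      have e2 : A.SmAt j (fun y => (h.w j y : ℂ) * v j y T) := ContDiffOn.mul hwjs (hv.sm j T)
      have e3 := dl_chain (A := A) (f := fun y => (h.w j y : ℂ) * v j y T)
        (sm_rd e2 ((A.e j).map_source hx.2)).diff hx l
      rw [dl_eq_dS] at e3
      rw [Finset.sum_apply]
      exact e3
    have e4 : ∀ l, iW (Jm A j i x l) *ᵥ dV (-I) l (fun y => (h.w j ((A.e i).symm y) : ℂ) •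
        v j ((A.e i).symm y)) (A.e i x)
        = ∑ b, ∑ c, (Jm A j i x l c * Jm A i j x b l) •
          (iW (ep c) *ᵥ fun T => dl A j b (fun y => (h.w j y : ℂ) * v j y T) x) := by
      intro l
      rw [e1, Matrix.mulVec_sum]
      refine Finset.sum_congr rfl fun b _ => ?_
      rw [iW_eq_sum, Matrix.sum_mulVec]
      refine Finset.sum_congr rfl fun c _ => ?_
      rw [Matrix.smul_mulVec, Matrix.mulVec_smul, smul_smul]
      rfl
    rw [Finset.sum_congr rfl fun l _ => e4 l, Finset.sum_comm]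
    refine Finset.sum_congr rfl fun b _ => ?_
    rw [Finset.sum_comm]
    have e5 : ∀ c, ∑ l, (Jm A j i x l c * Jm A i j x b l) •
        (iW (ep c) *ᵥ fun T => dl A j b (fun y => (h.w j y : ℂ) * v j y T) x)
        = (if b = c then (1 : ℂ) else 0) •
          (iW (ep c) *ᵥ fun T => dl A j b (fun y => (h.w j y : ℂ) * v j y T) x) := by
      intro c
      rw [← Finset.sum_smul]
      congr 1
      have e6 := congrFun (congrFun (J_J (A := A) (i := j) (j := i) ⟨hx.2, hx.1⟩) b) c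
      rw [Matrix.mul_apply, Matrix.one_apply] at e6
      rw [← e6]
      exact Finset.sum_congr rfl fun l _ => mul_comm _ _
    rw [Finset.sum_congr rfl fun c _ => e5 c]
    simp
  rw [hL, hR] at key
  unfold Jr at key
  rw [hxx] at key
  have hw1 := w_law h hx
  rw [dens_eq] at hw1
  have hwi0 : (h.w i x : ℂ) ≠ 0 := by exact_mod_cast (h.pos i x hx.1).ne'
  have hg0 : conj (N.g i j x) ≠ 0 := (map_ne_zero _).2 (N.ne_zero i j x)
  rw [Matrix.mulVec_smul, smul_smul, smul_smul] at key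
  have e7 : (Jm A i j x).det * conj (Jm A i j x).det * (h.w j x : ℂ)
      = (conj (N.g i j x) * (h.w i x : ℂ)) * N.g i j x := by
    have : (Jm A i j x).det * conj (Jm A i j x).det * (h.w j x : ℂ)
      = detJ A i j x * conj (detJ A i j x) * (h.w j x : ℂ) := rfl
    rw [this, ← hw1]
    ring
  rw [e7, mul_smul (conj (N.g i j x) * (h.w i x : ℂ))] at key
  exact smul_right_injective _ (mul_ne_zero hg0 hwi0) key

end

end Crest.Agent.R273.BKNa_37
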