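import Crest.Agent.R273.BKNb_37

/-!
# R273 (S0416), BP-D leaf D.8 (helper37), part 4: the integrated identity and its consequences

* `inG_isD`, `inD_isD`, `inT_isD` : densities;
* `bkn_x` : the pointwise identity on `M`;
* `bkn` : `∫ inD + ∫ inT = ∫ inU + ∫ inG (delV v) (delV w)` (`w` compactly supported);
* `bknc` : the same on compact `M`.
-/

set_option autoImplicit false
set_option linter.unusedSectionVars false

open Set Filter Topology Complex Matrix
open scoped ContDiff Matrix ComplexConjugate Manifold ComplexOrder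

namespace Crest.Agent.R273.BKNc_37

open Crest.Agent.R275 Crest.Agent.R275.Geo Crest.Agent.R275.Core144
open Crest.Agent.R275.EDR890 (wd wd_comm)
open Crest.Agent.R275.Pai323 Crest.Agent.R275.C1d194
open Crest.Agent.R275.SerG398 (lint dens dens_eq detJ)
open Crest.Agent.R275.OmT75 (dl dl_chain db_chain dl_mul dl_J_symm J_analytic)
open Crest.Agent.R273.Defs_333 Crest.Agent.R273.HM_333 Crest.Agent.R273.Kah_333
open Crest.Agent.R273.Hess_333
open Crest.Agent.R273.Fock_243 Crest.Agent.R273.Calc_243 Crest.Agent.R273.Bkn_243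
open Crest.Agent.R273.Pos_243
open Crest.Agent.R273.DelLaw_37 Crest.Agent.R273.StV_37 Crest.Agent.R273.BKNa_37
open Crest.Agent.R273.BKNb_37

noncomputable section

variable {n : ℕ} {M : Type} [TopologicalSpace M] {A : Atl n M} {N L : LB A}
variable {K : Kah A} {v w : A.ι → M → FI n → ℂ}

/-! ### smoothness -/

theorem SmM.inv {m : Cn n → Matrix (Fin n) (Fin n) ℂ} {z : Cn n} (hm : SmM z m)
    (h : (m z).det ≠ 0) : SmM z (fun y => (m y)⁻¹) := by
  intro a b
  have h1 : (fun y => (m y)⁻¹ a b) = fun y => ((m y).det)⁻¹ * (m y).adjugate a b := by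
    funext y
    rw [Matrix.inv_def, Matrix.smul_apply, Ring.inverse_eq_inv', smul_eq_mul]
  rw [h1]
  refine ((SmM.det hm).inv h).mul ?_
  have h2 : (fun y => (m y).adjugate a b)
      = fun y => ((m y).updateRow b (Pi.single a 1)).det := by
    funext y
    rw [Matrix.adjugate_apply]
  rw [h2]
  refine SmM.det fun i j => ?_
  by_cases hi : i = b
  · subst hi
    simp only [Matrix.updateRow_self]
    exact contDiffAt_const
  · simp only [Matrix.updateRow_ne hi]
    exact hm i j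

theorem Sm.T1 {G : Cn n → Matrix (FI n) (FI n) ℂ} {Ki : Cn n → Matrix (Fin n) (Fin n) ℂ}
    {a b : Cn n → Fin n → FI n → ℂ} {z : Cn n} (hG : SmM z G) (hKi : SmM z Ki)
    (ha : ∀ k, SmV z (fun y => a y k)) (hb : ∀ k, SmV z (fun y => b y k)) :
    Sm z (fun y => T1 (G y) (Ki y) (a y) (b y)) := by
  unfold Bkn_243.T1
  exact ContDiffAt.sum fun k _ => ContDiffAt.sum fun l _ =>
    (hKi l k).mul (SmV.dot (hb l).star (SmM.mulVec hG (ha k)))

theorem Sm.Cv {G : Cn n → Matrix (FI n) (FI n) ℂ} {th : Cn n → Matrix (Fin n) (Fin n) ℂ}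
    {a b : Cn n → FI n → ℂ} {z : Cn n} (hG : SmM z G) (hth : SmM z th)
    (ha : SmV z a) (hb : SmV z b) :
    Sm z (fun y => Cv (G y) (th y) (a y) (b y)) := by
  unfold Bkn_243.Cv
  exact ContDiffAt.sum fun k _ => ContDiffAt.sum fun l _ =>
    (hth l k).mul (SmV.dot (SmV.const_mulVec _ hb.star)
      (SmM.mulVec hG (SmV.const_mulVec _ ha)))

theorem sm_w (h : HM L) (i : A.ι) {z : Cn n} (hz : z ∈ (A.e i).target) :
    Sm z (fun y => (h.w i ((A.e i).symm y) : ℂ)) :=
  Complex.ofRealCLM.contDiff.contDiffAt.comp z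
    (ContDiffOn.contDiffAt (h.sm i) ((A.e i).open_target.mem_nhds hz))

theorem smM_G (K : Kah A) (i : A.ι) {z : Cn n} (hz : z ∈ (A.e i).target) :
    SmM z (fun y => Gam ((K.g i ((A.e i).symm y))ᵀ)) := SmM.Gam (smM_Kr K i hz)

theorem smM_Ki (K : Kah A) (i : A.ι) {z : Cn n} (hz : z ∈ (A.e i).target) :
    SmM z (fun y => ((K.g i ((A.e i).symm y))ᵀ)⁻¹) := by
  refine SmM.inv (smM_Kr K i hz) ?_
  rw [Matrix.det_transpose]
  exact (K.pos i _ ((A.e i).map_target hz)).det_pos.ne'

theorem smV_dbV {v : A.ι → M → FI n → ℂ} (hs : ∀ i T, A.SmAt i (fun x => v i x T)) (i : A.ι)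
    (k : Fin n) {z : Cn n} (hz : z ∈ (A.e i).target) :
    SmV z (fun y => dbV v i k ((A.e i).symm y)) := fun T => sm_rd ((hs i T).db k) hz

theorem inG_sm (K : Kah A) (h : HM L) (hv : ∀ i T, A.SmAt i (fun x => v i x T))
    (hw : ∀ i T, A.SmAt i (fun x => w i x T)) (i : A.ι) : A.SmAt i (inG K h v w i) :=
  smAt_of_sm fun _ hz => (sm_w h i hz).mul
    (SmV.dot (smV_rV hw i hz).star (SmM.mulVec (smM_G K i hz) (smV_rV hv i hz)))

theorem inD_sm (K : Kah A) (h : HM L) (hv : ∀ i T, A.SmAt i (fun x => v i x T))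
    (hw : ∀ i T, A.SmAt i (fun x => w i x T)) (i : A.ι) : A.SmAt i (inD K h v w i) :=
  smAt_of_sm fun _ hz => (sm_w h i hz).mul
    (Sm.T1 (smM_G K i hz) (smM_Ki K i hz) (fun k => smV_dbV hv i k hz)
      (fun k => smV_dbV hw i k hz))

theorem inT_sm (K : Kah A) (h : HM L) (hv : ∀ i T, A.SmAt i (fun x => v i x T))
    (hw : ∀ i T, A.SmAt i (fun x => w i x T)) (i : A.ι) : A.SmAt i (inT K h v w i) :=
  smAt_of_sm fun _ hz => (sm_w h i hz).mul
    (Sm.Cv (smM_G K i hz) (fun a b => sm_rd (cur_smooth h i a b) hz) (smV_rV hv i hz)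
      (smV_rV hw i hz))

theorem duV_sm (K : Kah A) (hv : ∀ i T, A.SmAt i (fun x => v i x T)) (i : A.ι) (T : FI n) :
    A.SmAt i (fun x => duV K v i x T) := by
  refine smAt_of_sm fun z hz => ?_
  have h1 : ∀ S, A.SmAt i (fun x => (Gam ((K.g i x)ᵀ) *ᵥ v i x) S) := fun S =>
    smAt_of_sm fun _ hz => SmM.mulVec (smM_G K i hz) (smV_rV hv i hz) S
  unfold duV
  have h2 : (fun y => (∑ k, eW (ep k) *ᵥ fun T => A.db i k
      (fun y => (Gam ((K.g i y)ᵀ) *ᵥ v i y) T) ((A.e i).symm y)) T)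
      = fun y => ∑ k, (eW (ep k) *ᵥ fun T => A.db i k
      (fun y => (Gam ((K.g i y)ᵀ) *ᵥ v i y) T) ((A.e i).symm y)) T := by
    funext y; rw [Finset.sum_apply]
  rw [h2]
  exact ContDiffAt.sum fun k _ => SmV.const_mulVec _ (fun S => sm_rd ((h1 S).db k) hz) T

theorem inU_sm (K : Kah A) (h : HM L) (hv : ∀ i T, A.SmAt i (fun x => v i x T))
    (hw : ∀ i T, A.SmAt i (fun x => w i x T)) (i : A.ι) : A.SmAt i (inU K h v w i) :=
  smAt_of_sm fun _ hz => (sm_w h i hz).mul
    (SmV.dot (SmV.star fun T => sm_rd (duV_sm K hw i T) hz)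
      (SmM.mulVec (SmM.Gam (smM_Ki K i hz)) fun T => sm_rd (duV_sm K hv i T) hz))

theorem inG_isD (h : HM ((KB A)⁻¹ * N)) (hv : IsV N v) (hw : IsV N w) :
    IsD A (inG K h v w) where
  sm i := inG_sm K h hv.sm hw.sm i
  tr _ _ _ hx := inG_law h hv hw hx

theorem inD_isD (h : HM ((KB A)⁻¹ * N)) (hv : IsV N v) (hw : IsV N w) :
    IsD A (inD K h v w) where
  sm i := inD_sm K h hv.sm hw.sm i
  tr _ _ _ hx := inD_law h hv hw hx

theorem inT_isD (h : HM ((KB A)⁻¹ * N)) (hv : IsV N v) (hw : IsV N w) :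
    IsD A (inT K h v w) where
  sm i := inT_sm K h hv.sm hw.sm i
  tr _ _ _ hx := inT_law h hv hw hx

/-! ### the identity -/

/-- the pointwise Bochner-Kodaira-Nakano identity on `M` -/
theorem bkn_x (K : Kah A) (h : HM L) (hv : ∀ i T, A.SmAt i (fun x => v i x T))
    (hw : ∀ i T, A.SmAt i (fun x => w i x T)) (i : A.ι) {x : M} (hx : x ∈ (A.e i).source) :
    inD K h v w i x + inT K h v w i x
      = (inU K h v w i x + inG K h (delV h v) (delV h w) i x)
        + (∑ l, dl A i l (fun y => fX K h v w i y l) x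
          + ∑ k, A.db i k (fun y => fY K h v w i y k) x) := by
  have hz : A.e i x ∈ (A.e i).target := (A.e i).map_source hx
  have hxx : (A.e i).symm (A.e i x) = x := (A.e i).left_inv hx
  have hKx : Kr K i (A.e i x) = (K.g i x)ᵀ := by unfold Kr; rw [hxx]
  have hvx : rV v i (A.e i x) = v i x := by unfold rV; rw [hxx]
  have hwx : rV w i (A.e i x) = w i x := by unfold rV; rw [hxx]
  have key := bkn_pt (K := Kr K i) (lam := lamr h i) (v := rV v i) (w := rV w i)
    (z := A.e i x) (Ki := ((K.g i x)ᵀ)⁻¹) (smM_Kr K i hz) (kahAt K i hz)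
    (by rw [hKx]; exact inv_T' K i hx)
    (by rw [hKx]; exact herm_T (K.pos i x hx).isHermitian) (sm_lamr h i hz)
    (Eventually.of_forall fun y => lamr_real h i y) (smV_rV hv i hz) (smV_rV hw i hz)
  rw [cur_eq_dS h i hx, exp_x h i hx, hKx, hvx, hwx, ← delV_eq h hv i hx, ← delV_eq h hw i hx,
    ← duV_eq, ← duV_eq] at key
  have e1 : ∀ l, dl A i l (fun y => fX K h v w i y l) x
      = dS (-I) l (Xf (Kr K i) (lamr h i) (rV v i) (rV w i) l) (A.e i x) := by
    intro l
    rw [dl_eq_dS]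
    refine dS_congr ?_
    filter_upwards [(A.e i).open_target.mem_nhds hz] with y hy
    exact fX_read h v w i hy l
  have e2 : ∀ k, A.db i k (fun y => fY K h v w i y k) x
      = dS I k (Yf (Kr K i) (lamr h i) (rV v i) (rV w i) k) (A.e i x) := by
    intro k
    rw [db_eq_dS]
    refine dS_congr ?_
    filter_upwards [(A.e i).open_target.mem_nhds hz] with y hy
    exact fY_read h hv w i hy k
  rw [Finset.sum_congr rfl fun l _ => e1 l, Finset.sum_congr rfl fun k _ => e2 k]
  unfold inD inT inU inG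
  simp only [dbV_eq]
  linear_combination key

variable [T2Space M]

theorem smAt_sum {τ : Type*} (s : Finset τ) {i : A.ι} {f : τ → M → ℂ}
    (hf : ∀ t ∈ s, A.SmAt i (f t)) : A.SmAt i (fun x => ∑ t ∈ s, f t x) :=
  ContDiffOn.sum hf

theorem smAt_add {i : A.ι} {f g : M → ℂ} (hf : A.SmAt i f) (hg : A.SmAt i g) :
    A.SmAt i (fun x => f x + g x) := ContDiffOn.add hf hg

/-- **the integrated Bochner-Kodaira-Nakano identity** -/
theorem bkn (P : Part A) (K : Kah A) (h : HM ((KB A)⁻¹ * N)) (hv : IsV N v) (hw : IsV N w)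
    {Kc : Set M} (hK : IsCompact Kc) {F : Finset A.ι} (hF : Fn P hK ⊆ F)
    (h0 : ∀ i, ∀ x ∉ Kc, w i x = 0) :
    tot P F (inD K h v w) + tot P F (inT K h v w)
      = tot P F (inU K h v w) + tot P F (inG K h (delV h v) (delV h w)) := by
  have hdv := delV_isV h hv
  have hdw := delV_isV h hw
  have sX : ∀ i, A.SmAt i (fun x => ∑ l, dl A i l (fun y => fX K h v w i y l) x) := fun i =>
    smAt_sum _ fun l _ => smAt_dl (fX_sm K h hv.sm hw.sm i l) l
  have sY : ∀ i, A.SmAt i (fun x => ∑ k, A.db i k (fun y => fY K h v w i y k) x) := fun i =>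
    smAt_sum _ fun k _ => (fY_sm K h hv.sm hw.sm i k).db k
  have e1 : tot P F (fun i x => inD K h v w i x + inT K h v w i x)
      = tot P F (fun i x => (inU K h v w i x + inG K h (delV h v) (delV h w) i x)
        + (∑ l, dl A i l (fun y => fX K h v w i y l) x
          + ∑ k, A.db i k (fun y => fY K h v w i y k) x)) :=
    tot_congr P F fun i _ x hx => bkn_x K h hv.sm hw.sm i hx
  rw [tot_add P F (fun i => inD_sm K h hv.sm hw.sm i) (fun i => inT_sm K h hv.sm hw.sm i),
    tot_add P F (fun i => smAt_add (inU_sm K h hv.sm hw.sm i) (inG_sm K h hdv.sm hdw.sm i))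
      (fun i => smAt_add (sX i) (sY i)),
    tot_add P F (fun i => inU_sm K h hv.sm hw.sm i) (fun i => inG_sm K h hdv.sm hdw.sm i),
    tot_add P F sX sY,
    stokes10 P (fX_V10 h hv hw) hK hF (fun i x hx => by
      funext l
      unfold fX
      simp [h0 i x hx]),
    stokes01 P (fY_V01 h hv hw) hK hF (fun i x hx => by
      funext l
      unfold fY
      simp [h0 i x hx])] at e1
  rw [e1]
  ring

/-- the integrated identity on a compact manifold -/
theorem bknc [CompactSpace M] (P : Part A) (K : Kah A) (h : HM ((KB A)⁻¹ * N)) (hv : IsV N v)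
    (hw : IsV N w) :
    totc P (inD K h v w) + totc P (inT K h v w)
      = totc P (inU K h v w) + totc P (inG K h (delV h v) (delV h w)) :=
  bkn P K h hv hw isCompact_univ (Finset.Subset.refl _) fun _ x hx => absurd (mem_univ x) hx

end

end Crest.Agent.R273.BKNc_37
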