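import Crest.Agent.R273.C2a_289
import Crest.Agent.R273.BKNc_37

/-!
# R273 (S0416), Part C, C2 estimate (helper289), part 2: calculus

* `wM s m` : componentwise Wirtinger derivative of a matrix
* `hess_log_of`, `hess_log_det`, `kahler_sum`
* `wd_bf`, `wd2_form` : derivatives of `m(z)(v(z), v(z))`, `v` affine
-/

set_option autoImplicit false
set_option linter.unusedSectionVars false

open Set Filter Topology Complex Matrix
open scoped ContDiff Matrix ComplexConjugate ComplexOrder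

namespace Crest.Agent.R273.C2b_289

open Crest.Agent.R275.Geo Crest.Agent.R275.EDR890
open Crest.Agent.R273.Defs_333 Crest.Agent.R273.Hess_333 Crest.Agent.R273.HessB_333
open Crest.Agent.R273.C2a_289
open Crest.Agent.R273.Calc_243 (SmM SmM.det)

noncomputable section

variable {n : ℕ}

theorem dat {f : Cn n → ℂ} {z : Cn n} (h : ContDiffAt ℝ ∞ f z) : DifferentiableAt ℝ f z :=
  h.differentiableAt (by simp)

theorem ev_diff {f : Cn n → ℂ} {z : Cn n} (h : ContDiffAt ℝ ∞ f z) :
    ∀ᶠ y in 𝓝 z, DifferentiableAt ℝ f y := by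
  have := (h.of_le (m := 1) (by exact_mod_cast le_top)).eventually (by simp)
  filter_upwards [this] with y hy
  exact hy.differentiableAt (by simp)

theorem wd_inv {f : Cn n → ℂ} {z : Cn n} (hf : DifferentiableAt ℝ f z) (h0 : f z ≠ 0) (s : WI n) :
    wd s (fun y => (f y)⁻¹) z = - wd s f z / (f z) ^ 2 := by
  have h1 : (fun y => f y * (f y)⁻¹) =ᶠ[𝓝 z] fun _ => (1 : ℂ) := by
    filter_upwards [hf.continuousAt.eventually_ne h0] with y hy
    exact mul_inv_cancel₀ hy
  have h2 := wd_congr h1 s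
  rw [wd_const, wd_mul (g := fun y => (f y)⁻¹) hf (hf.inv h0)] at h2
  have h3 : f z * wd s (fun y => (f y)⁻¹) z = - (wd s f z * (f z)⁻¹) := by
    linear_combination h2
  field_simp
  field_simp at h3
  linear_combination h3

theorem wd_cu_log {ρ : Cn n → ℝ} {z : Cn n} (h : DifferentiableAt ℝ ρ z) (h0 : ρ z ≠ 0)
    (s : WI n) : wd s (cu fun y => Real.log (ρ y)) z = wd s (cu ρ) z / ρ z := by
  have h1 : fderiv ℝ (cu ρ) z = Complex.ofRealCLM.comp (fderiv ℝ ρ z) :=
    (Complex.ofRealCLM.hasFDerivAt.comp z h.hasFDerivAt).fderiv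
  have h2 : fderiv ℝ (cu fun y => Real.log (ρ y)) z
      = Complex.ofRealCLM.comp ((ρ z)⁻¹ • fderiv ℝ ρ z) :=
    (Complex.ofRealCLM.hasFDerivAt.comp z (h.hasFDerivAt.log h0)).fderiv
  have h3 : Complex.ofRealCLM.comp ((ρ z)⁻¹ • fderiv ℝ ρ z)
      = ((ρ z : ℂ))⁻¹ • Complex.ofRealCLM.comp (fderiv ℝ ρ z) := by
    ext v
    simp
  rw [wd, h2, h3, wdL_smul, wd, h1, smul_eq_mul, div_eq_inv_mul]

/-- the complex Hessian of a logarithm -/
theorem hess_log_of {B : Cn n → ℂ} {ρ : Cn n → ℝ} {z : Cn n} (hB : ContDiffAt ℝ ∞ B z)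
    (hρ : ∀ᶠ y in 𝓝 z, (ρ y : ℂ) = B y) (h0 : 0 < ρ z) (k l : Fin n) :
    hess (fun y => Real.log (ρ y)) z k l =
      wd (false, k) (wd (true, l) B) z / B z - wd (false, k) B z * wd (true, l) B z / (B z) ^ 2 := by
  have hcu : cu ρ =ᶠ[𝓝 z] B := hρ
  have hBz : B z = ρ z := hρ.self_of_nhds.symm
  have hB0 : B z ≠ 0 := by rw [hBz]; exact_mod_cast h0.ne'
  have hρd : ∀ᶠ y in 𝓝 z, DifferentiableAt ℝ ρ y := by
    filter_upwards [ev_diff hB, hcu.eventually_nhds] with y hy hy'
    have h1 : ρ =ᶠ[𝓝 y] fun w => (B w).re := by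
      filter_upwards [hy'] with w hw
      rw [← hw]
      rfl
    exact (Complex.reCLM.differentiableAt.comp y hy).congr_of_eventuallyEq h1
  have hρc : ContinuousAt ρ z := hρd.self_of_nhds.continuousAt
  have h1 : wd (true, l) (cu fun y => Real.log (ρ y)) =ᶠ[𝓝 z]
      fun y => (B y)⁻¹ * wd (true, l) B y := by
    filter_upwards [hρd, hρc.eventually (lt_mem_nhds h0), hcu.eventually_nhds] with y hy hy0 hyB
    rw [wd_cu_log hy hy0.ne', wd_congr hyB, ← hyB.self_of_nhds, div_eq_inv_mul]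
    rfl
  rw [hess_apply, wd_congr h1,
    wd_mul (f := fun y => (B y)⁻¹) ((dat hB).inv hB0) (dat (contDiffAt_wd hB _)),
    wd_inv (dat hB) hB0]
  field_simp
  ring

/-! ### matrices -/

/-- componentwise Wirtinger derivative -/
def wM (s : WI n) (m : Cn n → Matrix (Fin n) (Fin n) ℂ) (z : Cn n) :
    Matrix (Fin n) (Fin n) ℂ := Matrix.of fun a b => wd s (fun y => m y a b) z

theorem wM_apply (s : WI n) (m : Cn n → Matrix (Fin n) (Fin n) ℂ) (z : Cn n) (a b : Fin n) :
    wM s m z a b = wd s (fun y => m y a b) z := rfl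

variable {m m' : Cn n → Matrix (Fin n) (Fin n) ℂ} {z : Cn n}

theorem smM_wM (hm : SmM z m) (s : WI n) : SmM z (wM s m) := fun a b => contDiffAt_wd (hm a b) s

theorem wM_mul (hm : ∀ a b, DifferentiableAt ℝ (fun y => m y a b) z)
    (hm' : ∀ a b, DifferentiableAt ℝ (fun y => m' y a b) z) (s : WI n) :
    wM s (fun y => m y * m' y) z = wM s m z * m' z + m z * wM s m' z := by
  ext a b
  simp only [wM, Matrix.of_apply, Matrix.mul_apply, Matrix.add_apply]
  rw [wd_sum Finset.univ (f := fun c y => m y a c * m' y c b)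
    (fun c _ => (hm a c).mul (hm' c b)) s, ← Finset.sum_add_distrib]
  exact Finset.sum_congr rfl fun c _ => wd_mul (hm a c) (hm' c b) s

theorem wM_congr (h : ∀ᶠ y in 𝓝 z, m y = m' y) (s : WI n) : wM s m z = wM s m' z := by
  ext a b
  apply wd_congr
  filter_upwards [h] with y hy
  rw [hy]

theorem ev_det (hm : SmM z m) (h0 : (m z).det ≠ 0) : ∀ᶠ y in 𝓝 z, (m y).det ≠ 0 :=
  (SmM.det hm).continuousAt.eventually_ne h0

theorem wM_inv (hm : SmM z m) (h0 : (m z).det ≠ 0) (s : WI n) :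
    wM s (fun y => (m y)⁻¹) z = - ((m z)⁻¹ * wM s m z * (m z)⁻¹) := by
  have h1 : ∀ᶠ y in 𝓝 z, m y * (m y)⁻¹ = (fun _ => (1 : Matrix (Fin n) (Fin n) ℂ)) y := by
    filter_upwards [ev_det hm h0] with y hy
    exact Matrix.mul_nonsing_inv _ (isUnit_iff_ne_zero.2 hy)
  have h2 := wM_congr h1 s
  have h3 : wM s (fun _ => (1 : Matrix (Fin n) (Fin n) ℂ)) z = 0 := by
    ext a b
    exact wd_const _ _ _
  have hi := BKNc_37.SmM.inv hm h0
  rw [h3, wM_mul (fun a b => dat (hm a b)) (fun a b => dat (hi a b))] at h2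
  have h4 : (m z)⁻¹ * m z = 1 := Matrix.nonsing_inv_mul _ (isUnit_iff_ne_zero.2 h0)
  have h5 : m z * wM s (fun y => (m y)⁻¹) z = - (wM s m z * (m z)⁻¹) := by
    rw [eq_neg_iff_add_eq_zero, add_comm]
    exact h2
  calc wM s (fun y => (m y)⁻¹) z = (m z)⁻¹ * (m z * wM s (fun y => (m y)⁻¹) z) := by
        rw [← Matrix.mul_assoc, h4, Matrix.one_mul]
    _ = _ := by rw [h5, Matrix.mul_neg, Matrix.mul_assoc]

theorem wd_trace (hm : ∀ a b, DifferentiableAt ℝ (fun y => m y a b) z) (s : WI n) :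
    wd s (fun y => (m y).trace) z = (wM s m z).trace := by
  simp only [Matrix.trace, Matrix.diag_apply]
  exact wd_sum Finset.univ (f := fun c y => m y c c) (fun c _ => hm c c) s

theorem wd_det (hm : SmM z m) (s : WI n) :
    wd s (fun y => (m y).det) z = ((m z).adjugate * wM s m z).trace := by
  have h := (DelLaw_37.hasFDerivAt_det (A := m) (x := z)
    (A' := fun i j => fderiv ℝ (fun y => m y i j) z) fun i j => (dat (hm i j)).hasFDerivAt).fderiv
  rw [wd, h]
  simp only [Matrix.trace, Matrix.diag_apply, Matrix.mul_apply, wM_apply]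
  have h1 : ∀ G : Cn n →L[ℝ] ℂ, wdL s G = wdLc s G := fun _ => rfl
  rw [h1, map_sum]
  refine Finset.sum_congr rfl fun i _ => ?_
  rw [map_sum]
  refine Finset.sum_congr rfl fun j _ => ?_
  rw [wdLc_apply, wdL_smul]
  rfl

theorem smM_hess {w : Cn n → ℝ} (hw : ContDiffAt ℝ ∞ w z) : SmM z (hess w) :=
  fun a b => contDiffAt_hess hw a b

/-- the conjugate of a derivative of a Hessian -/
theorem wM_hess_conj {w : Cn n → ℝ} {U : Set (Cn n)} (hU : IsOpen U) (hw : ContDiffOn ℝ ∞ w U)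
    (hz : z ∈ U) (k : Fin n) : (wM (false, k) (hess w) z)ᴴ = wM (true, k) (hess w) z := by
  have hwc : ∀ y ∈ U, ContDiffAt ℝ ∞ w y := fun y hy => hw.contDiffAt (hU.mem_nhds hy)
  ext a b
  rw [Matrix.conjTranspose_apply, wM_apply, wM_apply, RCLike.star_def,
    conj_wd _ (dat (contDiffAt_hess (hwc z hz) b a))]
  apply wd_congr
  filter_upwards [hU.mem_nhds hz] with y hy
  exact hess_symm (hwc y hy) b a

/-- Jacobi's formula for the logarithm -/
theorem wd_log_det {w : Cn n → ℝ} (hw : ContDiffAt ℝ ∞ w z) (hp : (hess w z).PosDef)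
    (hev : ∀ᶠ y in 𝓝 z, ContDiffAt ℝ ∞ w y) (s : WI n) :
    wd s (cu fun y => Real.log (hess w y).det.re) z = ((hess w z)⁻¹ * wM s (hess w) z).trace := by
  have hm := smM_hess hw
  have h1 : cu (fun y => (hess w y).det.re) =ᶠ[𝓝 z] fun y => (hess w y).det := by
    filter_upwards [hev] with y hy
    exact Vol_333.det_real (hess_herm hy)
  have h0 := Vol_333.det_re_pos hp
  have hd : DifferentiableAt ℝ (fun y => (hess w y).det.re) z :=
    Complex.reCLM.differentiableAt.comp z (dat (SmM.det hm))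
  have h2 : (((hess w z).det.re : ℝ) : ℂ) = (hess w z).det := Vol_333.det_real hp.1
  rw [wd_cu_log hd h0.ne', wd_congr h1, wd_det hm, h2, Matrix.inv_def, Ring.inverse_eq_inv',
    Matrix.smul_mul, Matrix.trace_smul, smul_eq_mul, div_eq_inv_mul]

theorem hess_log_det {w : Cn n → ℝ} {U : Set (Cn n)} (hU : IsOpen U) (hw : ContDiffOn ℝ ∞ w U)
    (hp : ∀ y ∈ U, (hess w y).PosDef) (hz : z ∈ U) (a b : Fin n) :
    hess (fun y => Real.log (hess w y).det.re) z a b =
      ((hess w z)⁻¹ * wM (false, a) (wM (true, b) (hess w)) z).trace -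
      ((hess w z)⁻¹ * wM (false, a) (hess w) z * (hess w z)⁻¹ * wM (true, b) (hess w) z).trace := by
  have hwc : ∀ y ∈ U, ContDiffAt ℝ ∞ w y := fun y hy => hw.contDiffAt (hU.mem_nhds hy)
  have hm := smM_hess (hwc z hz)
  have hdet : (hess w z).det ≠ 0 := (hp z hz).det_pos.ne'
  have hi := BKNc_37.SmM.inv hm hdet
  have h1 : wd (true, b) (cu fun y => Real.log (hess w y).det.re) =ᶠ[𝓝 z]
      fun y => ((hess w y)⁻¹ * wM (true, b) (hess w) y).trace := by
    filter_upwards [hU.mem_nhds hz] with y hy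
    exact wd_log_det (hwc y hy) (hp y hy) (eventually_of_mem (hU.mem_nhds hy) hwc) _
  have hb := smM_wM hm (true, b)
  have hprod : ∀ c d, DifferentiableAt ℝ
      (fun y => ((hess w y)⁻¹ * wM (true, b) (hess w) y) c d) z := by
    intro c d
    simp only [Matrix.mul_apply]
    exact DifferentiableAt.fun_sum fun e _ => (dat (hi c e)).mul (dat (hb e d))
  rw [hess_apply, wd_congr h1,
    wd_trace (m := fun y => (hess w y)⁻¹ * wM (true, b) (hess w) y) hprod,
    wM_mul (fun a b => dat (hi a b)) (fun a b => dat (hb a b)), wM_inv hm hdet,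
    Matrix.trace_add, Matrix.neg_mul, Matrix.trace_neg]
  ring

theorem wM_symm {w : Cn n → ℝ} (hw : ContDiffAt ℝ ∞ w z) (k a c : Fin n) :
    wM (false, k) (hess w) z a c = wM (false, a) (hess w) z k c := wd_hess hw a c k

theorem wM_symm' {w : Cn n → ℝ} {U : Set (Cn n)} (hU : IsOpen U) (hw : ContDiffOn ℝ ∞ w U)
    (hz : z ∈ U) (l d b : Fin n) :
    wM (true, l) (hess w) z d b = wM (true, b) (hess w) z d l := wdb_hess hU hw hz d b l

theorem wM2_symm {w : Cn n → ℝ} {U : Set (Cn n)} (hU : IsOpen U) (hw : ContDiffOn ℝ ∞ w U)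
    (hz : z ∈ U) (k l a b : Fin n) :
    wM (false, k) (wM (true, l) (hess w)) z a b = wM (false, a) (wM (true, b) (hess w)) z k l := by
  have hwc : ∀ y ∈ U, ContDiffAt ℝ ∞ w y := fun y hy => hw.contDiffAt (hU.mem_nhds hy)
  have e1 : wM (false, k) (wM (true, l) (hess w)) z a b
      = wd (false, k) (wd (true, b) (fun y => hess w y a l)) z := by
    rw [wM_apply]
    apply wd_congr
    filter_upwards [hU.mem_nhds hz] with y hy
    exact wM_symm' hU hw hy l a b
  have e2 : wM (false, a) (wM (true, b) (hess w)) z k l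
      = wd (false, a) (wd (true, b) (fun y => hess w y k l)) z := rfl
  rw [e1, e2, wd_comm (contDiffAt_hess (hwc z hz) a l), wd_comm (contDiffAt_hess (hwc z hz) k l)]
  apply wd_congr
  filter_upwards [hU.mem_nhds hz] with y hy
  exact wM_symm (hwc y hy) k a l

theorem sum4 (F : Fin n → Fin n → Fin n → Fin n → ℂ) :
    ∑ a, ∑ b, ∑ k, ∑ l, F a b k l = ∑ k, ∑ l, ∑ a, ∑ b, F a b k l := by
  calc ∑ a, ∑ b, ∑ k, ∑ l, F a b k l = ∑ a, ∑ k, ∑ b, ∑ l, F a b k l :=
        Finset.sum_congr rfl fun a _ => Finset.sum_comm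
    _ = ∑ k, ∑ a, ∑ b, ∑ l, F a b k l := Finset.sum_comm
    _ = ∑ k, ∑ a, ∑ l, ∑ b, F a b k l :=
        Finset.sum_congr rfl fun k _ => Finset.sum_congr rfl fun a _ => Finset.sum_comm
    _ = _ := Finset.sum_congr rfl fun k _ => Finset.sum_comm

/-- the Ricci form as a trace over the other pair of indices -/
theorem kahler_sum {w : Cn n → ℝ} {U : Set (Cn n)} (hU : IsOpen U) (hw : ContDiffOn ℝ ∞ w U)
    (hp : ∀ y ∈ U, (hess w y).PosDef) (hz : z ∈ U) (v : Fin n → ℂ) :
    bf (hess (fun y => Real.log (hess w y).det.re) z) v v = ∑ k, ∑ l, (hess w z)⁻¹ l k *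
      bf (wM (false, k) (wM (true, l) (hess w)) z -
        wM (false, k) (hess w) z * (hess w z)⁻¹ * wM (true, l) (hess w) z) v v := by
  have hwc : ∀ y ∈ U, ContDiffAt ℝ ∞ w y := fun y hy => hw.contDiffAt (hU.mem_nhds hy)
  set T := (hess w z)⁻¹ with hT
  have e1 : ∀ a b, hess (fun y => Real.log (hess w y).det.re) z a b = ∑ k, ∑ l, T l k *
      (wM (false, k) (wM (true, l) (hess w)) z -
        wM (false, k) (hess w) z * T * wM (true, l) (hess w) z) a b := by
    intro a b
    rw [hess_log_det hU hw hp hz]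
    simp only [Matrix.sub_apply, mul_sub, Finset.sum_sub_distrib]
    congr 1
    · rw [Finset.sum_comm]
      simp only [Matrix.trace, Matrix.diag_apply, Matrix.mul_apply]
      refine Finset.sum_congr rfl fun l _ => Finset.sum_congr rfl fun k _ => ?_
      rw [wM2_symm hU hw hz k l a b]
    · have e : ∀ k l, (wM (false, k) (hess w) z * T * wM (true, l) (hess w) z) a b =
          (wM (false, a) (hess w) z * T * wM (true, b) (hess w) z) k l := by
        intro k l
        simp only [Matrix.mul_apply]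
        refine Finset.sum_congr rfl fun x _ => ?_
        rw [wM_symm' hU hw hz l x b]
        congr 1
        refine Finset.sum_congr rfl fun y _ => ?_
        rw [wM_symm (hwc z hz) k a y]
      have e' : T * wM (false, a) (hess w) z * T * wM (true, b) (hess w) z
          = T * (wM (false, a) (hess w) z * T * wM (true, b) (hess w) z) := by
        simp only [Matrix.mul_assoc]
      rw [Finset.sum_comm, e', Matrix.trace]
      refine Finset.sum_congr rfl fun l _ => ?_
      rw [Matrix.diag_apply, Matrix.mul_apply]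
      refine Finset.sum_congr rfl fun k _ => ?_
      rw [e]
  rw [bf_eq_sum]
  simp only [e1, bf_eq_sum, Finset.sum_mul, Finset.mul_sum]
  rw [sum4]
  refine Finset.sum_congr rfl fun k _ => Finset.sum_congr rfl fun l _ =>
    Finset.sum_congr rfl fun a _ => Finset.sum_congr rfl fun b _ => ?_
  ring

/-! ### forms along affine fields -/

theorem wd_bf {x y : Cn n → Fin n → ℂ} {s : WI n} {dx dy : Fin n → ℂ}
    (hm : ∀ a b, DifferentiableAt ℝ (fun z => m z a b) z)
    (hx : ∀ a, DifferentiableAt ℝ (fun z => x z a) z)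
    (hy : ∀ a, DifferentiableAt ℝ (fun z => y z a) z)
    (hdx : ∀ a, wd s (fun z => x z a) z = dx a)
    (hdy : ∀ b, wd s (fun z => conj (y z b)) z = conj (dy b)) :
    wd s (fun z => bf (m z) (x z) (y z)) z =
      bf (wM s m z) (x z) (y z) + bf (m z) dx (y z) + bf (m z) (x z) dy := by
  have hyc : ∀ b, DifferentiableAt ℝ (fun z => conj (y z b)) z := fun b =>
    (conjCLE : ℂ →L[ℝ] ℂ).differentiableAt.comp z (hy b)
  simp only [bf_eq_sum]
  rw [wd_sum Finset.univ (f := fun a z => ∑ b, m z a b * x z a * conj (y z b))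
    (fun a _ => DifferentiableAt.fun_sum fun b _ => ((hm a b).mul (hx a)).mul (hyc b)) s,
    ← Finset.sum_add_distrib, ← Finset.sum_add_distrib]
  refine Finset.sum_congr rfl fun a _ => ?_
  rw [wd_sum Finset.univ (f := fun b z => m z a b * x z a * conj (y z b))
    (fun b _ => ((hm a b).mul (hx a)).mul (hyc b)) s,
    ← Finset.sum_add_distrib, ← Finset.sum_add_distrib]
  refine Finset.sum_congr rfl fun b _ => ?_
  rw [wd_mul (f := fun z => m z a b * x z a) (g := fun z => conj (y z b))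
    ((hm a b).mul (hx a)) (hyc b), wd_mul (f := fun z => m z a b) (g := fun z => x z a)
    (hm a b) (hx a), hdx, hdy, wM_apply]
  ring

/-- an affine field -/
def fld (z₀ v₀ : Cn n) (p : Fin n → Fin n → ℂ) (z : Cn n) : Fin n → ℂ :=
  fun a => v₀ a + ∑ k, (z k - z₀ k) * p k a

theorem fld_self (z₀ v₀ : Cn n) (p : Fin n → Fin n → ℂ) : fld z₀ v₀ p z₀ = fun a => v₀ a := by
  funext a
  simp [fld]

variable {z₀ v₀ : Cn n} {p : Fin n → Fin n → ℂ}

theorem fld_smooth (a : Fin n) : ContDiff ℝ ∞ (fun z => fld z₀ v₀ p z a) := by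
  unfold fld
  refine contDiff_const.add (ContDiff.sum fun k _ => ContDiff.mul (ContDiff.sub ?_ contDiff_const)
    contDiff_const)
  exact (ze (false, k) : Cn n →L[ℝ] ℂ).contDiff

theorem wd_fld (s : WI n) (a : Fin n) :
    wd s (fun z => fld z₀ v₀ p z a) z = ∑ k, (if s = (false, k) then 1 else 0) * p k a := by
  have h1 : (fun z => fld z₀ v₀ p z a) = fun z => (v₀ a - ∑ k, z₀ k * p k a) +
      (∑ k, p k a • ze (false, k) : Cn n →L[ℝ] ℂ) z := by
    funext z
    simp only [fld, _root_.sum_apply, _root_.smul_apply, ze_apply, cj_false, smul_eq_mul, sub_mul,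
      Finset.sum_sub_distrib]
    have : ∑ k, z k * p k a = ∑ k, p k a * z k := Finset.sum_congr rfl fun k _ => mul_comm _ _
    rw [this]
    ring
  have h2 : fderiv ℝ (fun z => fld z₀ v₀ p z a) z = ∑ k, p k a • ze (false, k) := by
    rw [h1]
    exact ((ContinuousLinearMap.hasFDerivAt (∑ k, p k a • ze (false, k) : Cn n →L[ℝ] ℂ)).const_add
      _).fderiv
  have h3 : ∀ G : Cn n →L[ℝ] ℂ, wdL s G = wdLc s G := fun _ => rfl
  rw [wd, h2, h3, map_sum]
  refine Finset.sum_congr rfl fun k _ => ?_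
  rw [wdLc_apply, wdL_smul, wdL_ze, smul_eq_mul, mul_comm]

theorem wd_fld_f (k a : Fin n) : wd (false, k) (fun z => fld z₀ v₀ p z a) z = p k a := by
  rw [wd_fld]
  simp

theorem wd_fld_t (k a : Fin n) : wd (true, k) (fun z => fld z₀ v₀ p z a) z = 0 := by
  rw [wd_fld]
  simp

theorem wd_fldc_t (k a : Fin n) :
    wd (true, k) (fun z => conj (fld z₀ v₀ p z a)) z = conj (p k a) := by
  have h := conj_wd (false, k) ((fld_smooth (z₀ := z₀) (v₀ := v₀) (p := p) a).differentiable
    (by simp) z)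
  rw [wd_fld_f] at h
  exact h.symm

theorem wd_fldc_f (k a : Fin n) :
    wd (false, k) (fun z => conj (fld z₀ v₀ p z a)) z = 0 := by
  have h := conj_wd (true, k) ((fld_smooth (z₀ := z₀) (v₀ := v₀) (p := p) a).differentiable
    (by simp) z)
  rw [wd_fld_t, map_zero] at h
  exact h.symm

theorem bf_zero_left (M : Matrix (Fin n) (Fin n) ℂ) (y : Fin n → ℂ) : bf M 0 y = 0 := by
  simp [bf]

theorem bf_zero_right (M : Matrix (Fin n) (Fin n) ℂ) (x : Fin n → ℂ) : bf M x 0 = 0 := by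
  simp [bf]

theorem fld_diff (a : Fin n) : DifferentiableAt ℝ (fun z => fld z₀ v₀ p z a) z :=
  (fld_smooth a).differentiable (by simp) z

theorem wd_form_f (hm : ∀ a b, DifferentiableAt ℝ (fun z => m z a b) z) (k : Fin n) :
    wd (false, k) (fun z => bf (m z) (fld z₀ v₀ p z) (fld z₀ v₀ p z)) z =
      bf (wM (false, k) m z) (fld z₀ v₀ p z) (fld z₀ v₀ p z) + bf (m z) (p k) (fld z₀ v₀ p z) := by
  rw [wd_bf (dx := p k) (dy := 0) hm fld_diff fld_diff (wd_fld_f k)
    (fun b => by rw [wd_fldc_f]; simp), bf_zero_right, add_zero]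

theorem wd_form_t (hm : ∀ a b, DifferentiableAt ℝ (fun z => m z a b) z) (l : Fin n) :
    wd (true, l) (fun z => bf (m z) (fld z₀ v₀ p z) (fld z₀ v₀ p z)) z =
      bf (wM (true, l) m z) (fld z₀ v₀ p z) (fld z₀ v₀ p z) + bf (m z) (fld z₀ v₀ p z) (p l) := by
  rw [wd_bf (dx := 0) (dy := p l) hm fld_diff fld_diff (fun a => by rw [wd_fld_t]; rfl)
    (wd_fldc_t l), bf_zero_left, add_zero]

theorem form_smooth (hm : SmM z m) {x y : Cn n → Fin n → ℂ}
    (hx : ∀ a, ContDiffAt ℝ ∞ (fun z => x z a) z) (hy : ∀ a, ContDiffAt ℝ ∞ (fun z => y z a) z) :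
    ContDiffAt ℝ ∞ (fun z => bf (m z) (x z) (y z)) z := by
  simp only [bf_eq_sum]
  exact ContDiffAt.sum fun a _ => ContDiffAt.sum fun b _ => ((hm a b).mul (hx a)).mul
    ((conjCLE : ℂ →L[ℝ] ℂ).contDiff.contDiffAt.comp z (hy b))

theorem wd2_form {U : Set (Cn n)} (hU : IsOpen U) (hm : ∀ y ∈ U, SmM y m) (hz : z₀ ∈ U)
    (k l : Fin n) :
    wd (false, k) (wd (true, l) (fun z => bf (m z) (fld z₀ v₀ p z) (fld z₀ v₀ p z))) z₀ =
      bf (wM (false, k) (wM (true, l) m) z₀) (fun a => v₀ a) (fun a => v₀ a)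
      + bf (wM (true, l) m z₀) (p k) (fun a => v₀ a)
      + bf (wM (false, k) m z₀) (fun a => v₀ a) (p l) + bf (m z₀) (p k) (p l) := by
  have h1 : wd (true, l) (fun z => bf (m z) (fld z₀ v₀ p z) (fld z₀ v₀ p z)) =ᶠ[𝓝 z₀] fun z =>
      bf (wM (true, l) m z) (fld z₀ v₀ p z) (fld z₀ v₀ p z) + bf (m z) (fld z₀ v₀ p z) (p l) := by
    filter_upwards [hU.mem_nhds hz] with y hy
    exact wd_form_t (fun a b => dat (hm y hy a b)) l
  have hm0 := hm z₀ hz
  have hml := smM_wM hm0 (true, l)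
  have hf : ∀ a, ContDiffAt ℝ ∞ (fun z => fld z₀ v₀ p z a) z₀ := fun a =>
    (fld_smooth a).contDiffAt
  have d1 := dat (form_smooth hml hf hf)
  have d2 := dat (form_smooth hm0 hf (y := fun _ => p l) (fun a => contDiffAt_const))
  rw [wd_congr h1, wd_add d1 d2, wd_form_f (fun a b => dat (hml a b)),
    wd_bf (x := fld z₀ v₀ p) (y := fun _ => p l) (dx := p k) (dy := 0)
      (fun a b => dat (hm0 a b)) fld_diff
      (fun a => differentiableAt_const _) (wd_fld_f k) (fun b => by rw [wd_const]; simp),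
    bf_zero_right, add_zero, fld_self]
  ring

end

end Crest.Agent.R273.C2b_289
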