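import Crest.Agent.R273.YauLim_635
import Crest.Agent.R273.YauMax_635

/-!
# R273 (S0416), Part C, YAU (helper635): local compactness of solutions

* `SchFlat`     : interior Schauder estimate for the flat Laplacian (statement)
* `local_limit` : `C3Stmt`, `SchFlat` => limits of solutions of the Monge-Ampere equation
-/

set_option autoImplicit false
set_option linter.unusedSectionVars false

open Set Filter Topology Complex Metric
open scoped ContDiff Matrix ComplexConjugate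

namespace Crest.Agent.R273.YauLoc_635

open Crest.Agent.R275.Geo Crest.Agent.R275.Core144 Crest.Agent.R275.GC293
open Crest.Agent.R273.Defs_333 Crest.Agent.R273.YauDefs_635 Crest.Agent.R273.HM_333
open Crest.Agent.R273.YauCh_635 Crest.Agent.R273.Hess_333 Crest.Agent.R273.HessB_333
open Crest.Agent.R273.Kah_333 Crest.Agent.R273.YauMax_635 Crest.Agent.R273.YauLim_635

noncomputable section

/-- interior Schauder estimate for the flat Laplacian `4 tr ∂∂̄` -/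
def SchFlat : Prop :=
  ∀ (n : ℕ) (r N : ℝ), 0 < r → ∃ C : ℝ,
    ∀ (z₀ : Cn n) (u : Cn n → ℝ), ContDiffOn ℝ ∞ u (ball z₀ r) →
      (∀ z ∈ ball z₀ r, |u z| ≤ N) →
      (∀ z ∈ ball z₀ r, ‖(cH u z).trace‖ ≤ N) →
      (∀ z ∈ ball z₀ r, ∀ w ∈ ball z₀ r, ‖(cH u z).trace - (cH u w).trace‖ ≤ N * ‖z - w‖) →
      (∀ z ∈ ball z₀ (r / 2), ‖fderiv ℝ (fderiv ℝ u) z‖ ≤ C) ∧
        ∀ z ∈ ball z₀ (r / 2), ∀ w ∈ ball z₀ (r / 2),
          ‖fderiv ℝ (fderiv ℝ u) z - fderiv ℝ (fderiv ℝ u) w‖ ≤ C * ‖z - w‖ ^ (1 / 2 : ℝ)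

variable {n : ℕ}

theorem contDiffOn_cH {u : Cn n → ℝ} {U : Set (Cn n)} (hU : IsOpen U) (hu : ContDiffOn ℝ ∞ u U)
    (a b : Fin n) : ContDiffOn ℝ ∞ (fun z => cH u z a b) U :=
  (contDiffOn_hess hU hu a b).congr fun z hz => by
    rw [cH_eq_hess (hu.contDiffAt (hU.mem_nhds hz))]

theorem cH_diag {u : Cn n → ℝ} {z : Cn n} (hu : ContDiffAt ℝ 2 u z) (a : Fin n) :
    cH u z a a = ((lev u z (EuclideanSpace.single a 1) / 4 : ℝ) : ℂ) := by
  have hs : D2 u z (EuclideanSpace.single a 1) (EuclideanSpace.single a I) =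
      D2 u z (EuclideanSpace.single a I) (EuclideanSpace.single a 1) :=
    Levi_145.fd_symm hu _ _
  have h1 : (I • (EuclideanSpace.single a (1 : ℂ) : Cn n)) = EuclideanSpace.single a I := by
    ext b
    simp [Pi.single_apply]
  rw [lev_D2, h1]
  simp only [cH, Matrix.of_apply, hs, sub_self]
  push_cast
  ring

theorem trace_le {u : Cn n → ℝ} {z : Cn n} (hu : ContDiffAt ℝ 2 u z) {hi : ℝ}
    (h0 : ∀ v, 0 ≤ lev u z v) (h1 : ∀ v, lev u z v ≤ hi * ‖v‖ ^ 2) :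
    ‖(cH u z).trace‖ ≤ n * hi := by
  rw [Matrix.trace]
  refine (norm_sum_le _ _).trans ?_
  have h2 : ∀ a ∈ (Finset.univ : Finset (Fin n)), ‖(cH u z).diag a‖ ≤ hi := by
    intro a _
    rw [Matrix.diag_apply, cH_diag hu, Complex.norm_real, Real.norm_of_nonneg
      (div_nonneg (h0 _) (by norm_num))]
    have h3 := h1 (EuclideanSpace.single a 1)
    have h4 := h0 (EuclideanSpace.single a 1)
    rw [EuclideanSpace.norm_single] at h3
    simp only [norm_one, one_pow, mul_one] at h3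
    linarith
  refine (Finset.sum_le_sum h2).trans ?_
  simp

theorem trace_lip {u : Cn n → ℝ} {z₀ : Cn n} {r C : ℝ} (hu : ContDiffOn ℝ ∞ u (ball z₀ r))
    (hC : ∀ z ∈ ball z₀ r, ∀ a b, ‖fderiv ℝ (fun w => cH u w a b) z‖ ≤ C) {z w : Cn n}
    (hz : z ∈ ball z₀ r) (hw : w ∈ ball z₀ r) :
    ‖(cH u z).trace - (cH u w).trace‖ ≤ n * C * ‖z - w‖ := by
  have h1 : ∀ a, ‖cH u z a a - cH u w a a‖ ≤ C * ‖z - w‖ := by
    intro a
    refine (convex_ball z₀ r).norm_image_sub_le_of_norm_fderiv_le (f := fun w => cH u w a a)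
      (fun y hy => ?_) (fun y hy => hC y hy a a) hw hz
    exact ((contDiffOn_cH isOpen_ball hu a a).contDiffAt (isOpen_ball.mem_nhds hy)).differentiableAt
      (by simp)
  rw [Matrix.trace, Matrix.trace, ← Finset.sum_sub_distrib]
  refine (norm_sum_le _ _).trans ((Finset.sum_le_sum fun a _ => h1 a).trans ?_)
  simp [mul_assoc]

theorem local_limit (h3 : C3Stmt) (hS : SchFlat) (U : Ultrafilter ℕ) {z₀ : Cn n}
    {r lo hi K N : ℝ} (hr : 0 < r) (hlo : 0 < lo)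
    {u f : ℕ → Cn n → ℝ} {V : Cn n → ℝ}
    (hu : ∀ k, ContDiffOn ℝ ∞ (u k) (ball z₀ r)) (hf : ∀ k, ContDiffOn ℝ ∞ (f k) (ball z₀ r))
    (hlev : ∀ k, ∀ z ∈ ball z₀ r, ∀ v, lo * ‖v‖ ^ 2 ≤ lev (u k) z v ∧
      lev (u k) z v ≤ hi * ‖v‖ ^ 2)
    (hdet : ∀ k, ∀ z ∈ ball z₀ r, (cH (u k) z).det = (Real.exp (f k z) : ℂ))
    (hfK : ∀ k, ∀ z ∈ ball z₀ r, ∀ j : ℕ, 1 ≤ j → j ≤ 3 → ‖iteratedFDeriv ℝ j (f k) z‖ ≤ K)
    (huN : ∀ k, ∀ z ∈ ball z₀ r, |u k z| ≤ N)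
    (hV : ∀ z ∈ ball z₀ r, Tendsto (fun k => u k z) U (𝓝 (V z))) :
    ∃ ρ C : ℝ, 0 < ρ ∧ ρ ≤ r ∧ ContDiffOn ℝ 2 V (ball z₀ ρ) ∧
      (∀ z ∈ ball z₀ ρ, Tendsto (fun k => fderiv ℝ (fderiv ℝ (u k)) z) U
        (𝓝 (fderiv ℝ (fderiv ℝ V) z))) ∧
      ∀ z ∈ ball z₀ ρ, ∀ w ∈ ball z₀ ρ,
        ‖fderiv ℝ (fderiv ℝ V) z - fderiv ℝ (fderiv ℝ V) w‖ ≤ C * ‖z - w‖ ^ (1 / 2 : ℝ) := by
  obtain ⟨C₃, hC₃⟩ := h3 n r lo hi K hr hlo
  set N' : ℝ := max N (max (n * hi) (n * C₃)) with hN'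
  obtain ⟨C, hC⟩ := hS n (r / 2) N' (by linarith)
  have hsub : ball z₀ (r / 2) ⊆ ball z₀ r := ball_subset_ball (by linarith)
  have key : ∀ k, (∀ z ∈ ball z₀ (r / 2 / 2), ‖fderiv ℝ (fderiv ℝ (u k)) z‖ ≤ C) ∧
        ∀ z ∈ ball z₀ (r / 2 / 2), ∀ w ∈ ball z₀ (r / 2 / 2),
          ‖fderiv ℝ (fderiv ℝ (u k)) z - fderiv ℝ (fderiv ℝ (u k)) w‖
            ≤ C * ‖z - w‖ ^ (1 / 2 : ℝ) := by
    intro k
    have hc := hC₃ z₀ (u k) (f k) (hu k) (hf k) (hlev k) (hdet k) (hfK k)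
    refine hC z₀ (u k) ((hu k).mono hsub) (fun z hz => ?_) (fun z hz => ?_) (fun z hz w hw => ?_)
    · exact (huN k z (hsub hz)).trans (le_max_left _ _)
    · have hz' := hsub hz
      have h2 : ContDiffAt ℝ 2 (u k) z :=
        ((hu k).contDiffAt (isOpen_ball.mem_nhds hz')).of_le two_le_inf
      refine (trace_le h2 (hi := hi) (fun v => ?_) (fun v => (hlev k z hz' v).2)).trans
        ((le_max_left _ _).trans (le_max_right _ _))
      exact le_trans (by positivity) (hlev k z hz' v).1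
    · refine (trace_lip ((hu k).mono hsub) hc hz hw).trans ?_
      exact mul_le_mul_of_nonneg_right ((le_max_right _ _).trans (le_max_right _ _))
        (norm_nonneg _)
  set S : ℝ := max (max N C) 0 with hSdef
  have hCS : C ≤ S := (le_max_right _ _).trans (le_max_left _ _)
  have hNS : N ≤ S := (le_max_left _ _).trans (le_max_left _ _)
  have e2 : 2 * (r / 8) = r / 2 / 2 := by ring
  have hsub2 : ball z₀ (2 * (r / 8)) ⊆ ball z₀ r := ball_subset_ball (by linarith)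
  obtain ⟨g1, g2, g3⟩ := lim_c2 U (z₀ := z₀) (r := r / 8) (a := 1 / 2) (S := S) (by linarith)
    (by norm_num) (le_max_right _ _) (v := u) (V := V)
    (fun k => ((hu k).mono hsub2).of_le two_le_inf)
    (fun k z hz => (huN k z (hsub2 hz)).trans hNS)
    (fun k z hz => ((key k).1 z (by rwa [e2] at hz)).trans hCS)
    (fun k z hz w hw => ((key k).2 z (by rwa [e2] at hz) w (by rwa [e2] at hw)).trans
      (mul_le_mul_of_nonneg_right hCS (Real.rpow_nonneg (norm_nonneg _) _)))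
    (fun z hz => hV z (ball_subset_ball (by linarith) hz))
  exact ⟨r / 8, S, by linarith, by linarith, g1, g2, g3⟩

end

end Crest.Agent.R273.YauLoc_635
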