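import Crest.Agent.R273.MassA_5

/-!
# R273 (S0416), T-LEMMA, non-pluripolar mass (helper5): `mass_holds : MassStmt h D`
-/

set_option autoImplicit false
set_option linter.unusedSectionVars false

open Set Filter Topology Complex MeasureTheory
open scoped ContDiff Matrix ComplexConjugate ComplexOrder ENNReal NNReal

namespace Crest.Agent.R273.Mass_5

open Crest.Agent.R275 Crest.Agent.R275.Geo Crest.Agent.R275.Core144 Crest.Agent.R275.EDR890
open Crest.Agent.R275.Pai323 Crest.Agent.R275.C1d194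
open Crest.Agent.R275.SerG398 (lint dens OffZ)
open Crest.Agent.R273.Defs_333 Crest.Agent.R273.Hess_333 Crest.Agent.R273.HessB_333
open Crest.Agent.R273.HM_333 Crest.Agent.R273.Kah_333 Crest.Agent.R273.Vol_333
open Crest.Agent.R273.Vm_333 Crest.Agent.R273.StV_37
open Crest.Agent.R273.Green_5 Crest.Agent.R273.VolInv_5
open Crest.Agent.R273.GreenM_5 Crest.Agent.R273.GreenG_5
open Crest.Agent.R273.LogCut_5 (th th_contDiff th_nonneg th_le th_one th_zero th_deriv fatou)
open Crest.Agent.R273.TLd_201 Crest.Agent.R273.MassA_5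
open Crest.Agent.R273.FIa0_597 (gr hess_log_add_mat)

noncomputable section

variable {n : ℕ} {M : Type} [TopologicalSpace M] {A : Atl n M}

/-! ### functions of densities, any metric -/

theorem w_dens (h : HM (KB A)⁻¹) {i j : A.ι} {x : M} (hx : x ∈ (A.e i).source ∩ (A.e j).source) :
    ((h.w i x : ℝ) : ℂ) = dens A i j x * ((h.w j x : ℝ) : ℂ) := by
  have h1 := h.tr i j x hx
  rw [LB.inv_g, KB_g hx] at h1
  have h4 := Jm_det_ne hx
  have h5 : h.w i x = ‖(Jm A i j x).det‖ ^ 2 * h.w j x := by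
    rw [h1, norm_inv]
    have h6 : ‖(Jm A i j x).det‖ ≠ 0 := norm_ne_zero_iff.2 h4
    field_simp
  rw [h5, dens_Jm, Complex.mul_conj, Complex.normSq_eq_norm_sq]
  push_cast
  ring

/-- `f / h` -/
def fH (h : HM (KB A)⁻¹) (f : A.ι → M → ℂ) (x : M) : ℂ :=
  f (ci A x) x / ((h.w (ci A x) x : ℝ) : ℂ)

theorem wC_ne (h : HM (KB A)⁻¹) {i : A.ι} {x : M} (hx : x ∈ (A.e i).source) :
    ((h.w i x : ℝ) : ℂ) ≠ 0 := by exact_mod_cast (h.pos i x hx).ne'

theorem fH_div (h : HM (KB A)⁻¹) {f : A.ι → M → ℂ} (hf : Dn A f) {i : A.ι} {x : M}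
    (hx : x ∈ (A.e i).source) : fH h f x = f i x / ((h.w i x : ℝ) : ℂ) := by
  have h1 := hf i (ci A x) x ⟨hx, mem_ci x⟩
  have h2 := w_dens h ⟨hx, mem_ci (A := A) x⟩
  have h3 := wC_ne h (mem_ci (A := A) x)
  have h4 := wC_ne h hx
  unfold fH
  rw [h1, h2]
  rw [h2] at h4
  have h5 := left_ne_zero_of_mul h4
  field_simp

theorem sm_fH (h : HM (KB A)⁻¹) {f : A.ι → M → ℂ} (hf : Dn A f) (hs : ∀ i, A.SmAt i (f i)) :
    A.Sm (fH h f) := by
  intro i
  have h2 : ContDiffOn ℝ ∞ (fun z => f i ((A.e i).symm z)) (A.e i).target := hs i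
  have h3 : ContDiffOn ℝ ∞ (fun z => ((h.w i ((A.e i).symm z) : ℝ) : ℂ)) (A.e i).target :=
    Complex.ofRealCLM.contDiff.comp_contDiffOn (h.sm i)
  have h1 : ContDiffOn ℝ ∞ (fun z => f i ((A.e i).symm z) * ((h.w i ((A.e i).symm z) : ℝ) : ℂ)⁻¹)
      (A.e i).target :=
    h2.mul (h3.inv fun z hz => wC_ne h ((A.e i).map_target hz))
  refine h1.congr fun z hz => ?_
  rw [fH_div h hf ((A.e i).map_target hz), div_eq_mul_inv]

section meas

variable [T2Space M] [CompactSpace M] [MeasurableSpace M] [BorelSpace M] [Finite A.ι]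

theorem integral_fH (h : HM (KB A)⁻¹) (P : Part A) {f : A.ι → M → ℂ} (hf : Dn A f)
    (hs : ∀ i, A.SmAt i (f i)) : ∫ x, fH h f x ∂(vm h) = totc P f := by
  classical
  have := Fintype.ofFinite A.ι
  rw [integral_vm_part h P (integrable_sm h (sm_fH h hf hs))]
  have h1 : ∀ i, lint A i (fun x => (P.ψ i x : ℂ) * ((h.w i x : ℂ) * fH h f x)) =
      lint A i (fun x => (P.ψ i x : ℂ) * f i x) := by
    intro i
    refine lint_congr fun x hx => ?_
    rw [fH_div h hf hx, mul_div_cancel₀ _ (wC_ne h hx)]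
  rw [Finset.sum_congr rfl fun i _ => h1 i]
  unfold totc tot
  symm
  refine Finset.sum_subset (Finset.subset_univ _) fun i _ hi => ?_
  have h2 : ∀ x ∈ (A.e i).source, (P.ψ i x : ℂ) * f i x = 0 := by
    intro x _
    have : P.ψ i x = 0 := psi_zero_of_notMem P isCompact_univ (Finset.Subset.refl _) hi (mem_univ x)
    rw [this, ofReal_zero, zero_mul]
  rw [lint_congr (g := fun _ => 0) h2, lint_zero]

/-! ### the functions -/

variable (h : HM (KB A)⁻¹) (D : TD A) (K : Kah A)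

theorem mdens_eq (g S : A.ι → M → Matrix (Fin n) (Fin n) ℂ) (x : M) :
    mdens h g S x = (fH h (fun i x => ((g i x).adjugate * S i x).trace) x).re := by
  unfold mdens fH
  rw [Complex.div_ofReal_re]
  rfl

theorem sm_mdens {S : A.ι → M → Matrix (Fin n) (Fin n) ℂ} (hS : CF A S) :
    A.Sm (mdens h K.g S) := by
  have h1 : mdens h K.g S = fun x => (fH h (fun i x => ((K.g i x).adjugate * S i x).trace) x).re :=
    funext fun x => mdens_eq h K.g S x
  rw [h1]
  exact sm_re (sm_fH h (trA_dn (K_tn K) (CF.tn hS)) fun i => smAt_trA (kah_cf K) hS i)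

theorem integral_chi (P : Part A) {S : A.ι → M → Matrix (Fin n) (Fin n) ℂ} (hS : CF A S)
    {χ : M → ℝ} (hχ : A.Sm χ) :
    ∫ x, χ x * mdens h K.g S x ∂(vm h) =
      (totc P (fun i x => (χ x : ℂ) * ((K.g i x).adjugate * S i x).trace)).re := by
  have d1 := dn_mul (trA_dn (K_tn K) (CF.tn hS)) fun x => (χ x : ℂ)
  have s1 : ∀ i, A.SmAt i (fun x => (χ x : ℂ) * ((K.g i x).adjugate * S i x).trace) := fun i =>
    (smAt_ofReal (hχ i)).mul (smAt_trA (kah_cf K) hS i)
  rw [← integral_fH h P d1 s1]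
  have h2 := integrable_sm h (sm_fH h d1 s1)
  have h3 := integral_re h2
  change ∫ x, (fH h (fun i x => (χ x : ℂ) * ((K.g i x).adjugate * S i x).trace) x).re ∂(vm h) =
    (∫ x, fH h (fun i x => (χ x : ℂ) * ((K.g i x).adjugate * S i x).trace) x ∂(vm h)).re at h3
  rw [← h3]
  congr 1
  funext x
  rw [mdens_eq]
  unfold fH
  rw [mul_div_assoc, Complex.re_ofReal_mul]

theorem mdens_nonneg {S : A.ι → M → Matrix (Fin n) (Fin n) ℂ} {x : M}
    (hS : (S (ci A x) x).PosSemidef) : 0 ≤ mdens h K.g S x := by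
  have hx := mem_ci (A := A) x
  exact div_nonneg (Complex.le_def.1 (trace_adj_nonneg (K.pos _ x hx) hS)).1 (h.pos _ x hx).le

/-! ### the limit `κ → 0` -/

variable {D}

theorem bk_eq (κ : ℝ) {i : A.ι} {x : M} (hx : x ∈ (A.e i).source) (hp : 0 < D.N x + κ) :
    D.bk' κ i x = D.om i x + (((D.N x + κ)⁻¹ : ℝ) • hsf A D.N i x -
      (((D.N x + κ) ^ 2)⁻¹ : ℝ) • Matrix.vecMulVec (gr (fun z => D.N ((A.e i).symm z)) (A.e i x))
        (star (gr (fun z => D.N ((A.e i).symm z)) (A.e i x)))) := by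
  have hz := (A.e i).map_source hx
  have h1 := hess_log_add_mat (U := fun z => D.N ((A.e i).symm z)) (z := A.e i x) κ
    (sm_contDiffAt D.smN i hz) (by simpa only [(A.e i).left_inv hx] using hp)
  simp only [(A.e i).left_inv hx] at h1
  unfold TD.bk' hsf
  rw [h1]

theorem be_eq {i : A.ι} {x : M} (hx : x ∈ (A.e i).source) (hp : x ∈ D.U) :
    D.be i x = D.om i x + (((D.N x + 0)⁻¹ : ℝ) • hsf A D.N i x -
      (((D.N x + 0) ^ 2)⁻¹ : ℝ) • Matrix.vecMulVec (gr (fun z => D.N ((A.e i).symm z)) (A.e i x))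
        (star (gr (fun z => D.N ((A.e i).symm z)) (A.e i x)))) := by
  have hp' : 0 < D.N x + 0 := by
    rw [add_zero]
    exact hp
  rw [← bk_eq 0 hx hp']
  unfold TD.be TD.bk'
  simp only [add_zero]

theorem tendsto_bk {i : A.ι} {x : M} (hx : x ∈ (A.e i).source) (hU : x ∈ D.U) {κ : ℕ → ℝ}
    (hκ : ∀ k, 0 < κ k) (hκ0 : Tendsto κ atTop (𝓝 0)) :
    Tendsto (fun k => D.bk' (κ k) i x) atTop (𝓝 (D.be i x)) := by
  have hN : 0 < D.N x := hU
  have h0 : (fun k => D.bk' (κ k) i x) = fun k => D.om i x + (((D.N x + κ k)⁻¹ : ℝ) • hsf A D.N i x -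
      (((D.N x + κ k) ^ 2)⁻¹ : ℝ) • Matrix.vecMulVec (gr (fun z => D.N ((A.e i).symm z)) (A.e i x))
        (star (gr (fun z => D.N ((A.e i).symm z)) (A.e i x)))) :=
    funext fun k => bk_eq (κ k) hx (by have := hκ k; linarith)
  rw [h0, be_eq hx hU]
  have h1 : Tendsto (fun k => D.N x + κ k) atTop (𝓝 (D.N x + 0)) := tendsto_const_nhds.add hκ0
  have h2 : Tendsto (fun k => (D.N x + κ k)⁻¹) atTop (𝓝 (D.N x + 0)⁻¹) :=
    h1.inv₀ (by rw [add_zero]; exact hN.ne')
  have h3 : Tendsto (fun k => ((D.N x + κ k) ^ 2)⁻¹) atTop (𝓝 ((D.N x + 0) ^ 2)⁻¹) :=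
    (h1.pow 2).inv₀ (by rw [add_zero]; exact (pow_pos hN 2).ne')
  exact tendsto_const_nhds.add ((h2.smul tendsto_const_nhds).sub (h3.smul tendsto_const_nhds))

theorem be_psd {i : A.ι} {x : M} (hx : x ∈ (A.e i).source) (hU : x ∈ D.U) :
    (D.be i x).PosSemidef := by
  have h1 := tendsto_bk (D := D) hx hU (fun k => LogCut_5.dm_pos k) LogCut_5.tendsto_dm
  refine Matrix.PosSemidef.of_dotProduct_mulVec_nonneg ?_ fun v => ?_
  · have h2 : ∀ k, (D.bk' (LogCut_5.dm k) i x)ᴴ = D.bk' (LogCut_5.dm k) i x := fun k =>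
      (D.psd_bk (LogCut_5.dm_pos k) i hx).1
    have h3 : Tendsto (fun k => (D.bk' (LogCut_5.dm k) i x)ᴴ) atTop (𝓝 (D.be i x)ᴴ) :=
      ((continuous_id.matrix_conjTranspose).tendsto _).comp h1
    simp only [h2] at h3
    exact tendsto_nhds_unique h3 h1
  · have h2 : Tendsto (fun k => star v ⬝ᵥ (D.bk' (LogCut_5.dm k) i x *ᵥ v)) atTop
        (𝓝 (star v ⬝ᵥ (D.be i x *ᵥ v))) := by
      have hc : Continuous fun S : Matrix (Fin n) (Fin n) ℂ => star v ⬝ᵥ (S *ᵥ v) :=
        continuous_const.dotProduct (continuous_id.matrix_mulVec continuous_const)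
      exact (hc.tendsto _).comp h1
    exact ge_of_tendsto' h2 fun k =>
      (D.psd_bk (LogCut_5.dm_pos k) i hx).dotProduct_mulVec_nonneg v

theorem tendsto_mdens {x : M} (hU : x ∈ D.U) {κ : ℕ → ℝ} (hκ : ∀ k, 0 < κ k)
    (hκ0 : Tendsto κ atTop (𝓝 0)) :
    Tendsto (fun k => mdens h K.g (D.bk' (κ k)) x) atTop (𝓝 (mdens h K.g D.be x)) := by
  have h1 := tendsto_bk (D := D) (mem_ci x) hU hκ hκ0
  have h2 : Continuous fun S : Matrix (Fin n) (Fin n) ℂ =>
      ((K.g (ci A x) x).adjugate * S).trace.re / h.w (ci A x) x := by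
    refine Continuous.div_const ?_ _
    exact Complex.continuous_re.comp (continuous_const.matrix_mul continuous_id).matrix_trace
  exact (h2.tendsto _).comp h1

/-- upper bound -/
theorem mdens_le {κ : ℝ} (hκ : 0 < κ) (x : M) :
    mdens h K.g (D.bk' κ) x ≤ mdens h K.g D.om x + (D.N x + κ)⁻¹ * mdens h K.g (hsf A D.N) x := by
  have hx := mem_ci (A := A) x
  have hN := D.nn x
  have h1 := bk_eq (D := D) κ hx (by linarith)
  have h3 := (Complex.le_def.1 (trace_adj_nonneg (K.pos _ x hx)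
    (Matrix.posSemidef_vecMulVec_self_star
      (gr (fun z => D.N ((A.e (ci A x)).symm z)) (A.e (ci A x) x))))).1
  have h4 : mdens h K.g (D.bk' κ) x = mdens h K.g D.om x +
      (D.N x + κ)⁻¹ * mdens h K.g (hsf A D.N) x - ((D.N x + κ) ^ 2)⁻¹ *
        (((K.g (ci A x) x).adjugate * Matrix.vecMulVec
          (gr (fun z => D.N ((A.e (ci A x)).symm z)) (A.e (ci A x) x))
        (star (gr (fun z => D.N ((A.e (ci A x)).symm z)) (A.e (ci A x) x)))).trace.re /
          h.w (ci A x) x) := by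
    change ((K.g (ci A x) x).adjugate * D.bk' κ (ci A x) x).trace.re / h.w (ci A x) x =
      ((K.g (ci A x) x).adjugate * D.om (ci A x) x).trace.re / h.w (ci A x) x +
      (D.N x + κ)⁻¹ * (((K.g (ci A x) x).adjugate * hsf A D.N (ci A x) x).trace.re /
        h.w (ci A x) x) - _
    rw [h1, Matrix.mul_add, Matrix.mul_sub, Matrix.mul_smul, Matrix.mul_smul, Matrix.trace_add,
      Matrix.trace_sub, Matrix.trace_smul, Matrix.trace_smul, Complex.add_re, Complex.sub_re,
      Complex.real_smul, Complex.real_smul, Complex.re_ofReal_mul, Complex.re_ofReal_mul]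
    ring
  rw [h4]
  have h5 : 0 ≤ ((D.N x + κ) ^ 2)⁻¹ * (((K.g (ci A x) x).adjugate * Matrix.vecMulVec
          (gr (fun z => D.N ((A.e (ci A x)).symm z)) (A.e (ci A x) x))
        (star (gr (fun z => D.N ((A.e (ci A x)).symm z)) (A.e (ci A x) x)))).trace.re /
          h.w (ci A x) x) :=
    mul_nonneg (by positivity) (div_nonneg h3 (h.pos _ x hx).le)
  linarith

/-- the support of the cut-off -/
theorem chi_supp {C e : ℝ} (hC2 : 2 ≤ C) (he : 0 < e) (he1 : e ≤ 1) :
    ∃ c : ℝ, 0 < c ∧ ∀ x, chE D C e x ≠ 0 → c ≤ D.N x := by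
  have hm := me_pos hC2 he he1
  set Z : Set M := {x | ge D C e x / me C e ≤ 2 / 3} with hZ
  have hcg : Continuous (ge D C e) := sm_continuous (ge_sm D C he)
  have hZc : IsCompact Z := (isClosed_le (hcg.div_const _) continuous_const).isCompact
  have hZp : ∀ x ∈ Z, 0 < D.N x := by
    intro x hx
    rcases (D.nn x).lt_or_eq with h1 | h1
    · exact h1
    · exfalso
      have h2 : ge D C e x = me C e := by
        unfold ge me
        rw [← h1, zero_add]
      have h3 : ge D C e x / me C e ≤ 2 / 3 := hx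
      rw [h2, div_self hm.ne'] at h3
      norm_num at h3
  have hsub : ∀ x, chE D C e x ≠ 0 → x ∈ Z := by
    intro x hx
    by_contra h1
    have h2 : ¬ ge D C e x / me C e ≤ 2 / 3 := h1
    exact hx (th_zero (not_le.1 h2).le)
  rcases Z.eq_empty_or_nonempty with h1 | h1
  · refine ⟨1, one_pos, fun x hx => ?_⟩
    have := hsub x hx
    rw [h1] at this
    exact this.elim
  · obtain ⟨x0, hx0, hmin⟩ := hZc.exists_isMinOn h1 (sm_continuous D.smN).continuousOn
    exact ⟨D.N x0, hZp x0 hx0, fun x hx => hmin (hsub x hx)⟩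

theorem chi_zero {C e : ℝ} (hC2 : 2 ≤ C) (he : 0 < e) (he1 : e ≤ 1) {x : M} (hx : x ∉ D.U) :
    chE D C e x = 0 := by
  by_contra h0
  obtain ⟨c, hc, hcN⟩ := chi_supp (D := D) hC2 he he1
  exact hx (lt_of_lt_of_le hc (hcN x h0))

theorem exists_bdd {f : M → ℝ} (hf : Continuous f) : ∃ B : ℝ, 0 ≤ B ∧ ∀ x, |f x| ≤ B := by
  obtain ⟨B, hB⟩ := isCompact_univ.exists_bound_of_continuousOn hf.continuousOn
  exact ⟨max B 0, le_max_right _ _, fun x => (hB x (mem_univ x)).trans (le_max_left _ _)⟩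

/-- the limit `κ → 0` of `∫ χ_e F_κ` and measurability -/
theorem lim_kappa {C e : ℝ} (hC2 : 2 ≤ C) (he : 0 < e) (he1 : e ≤ 1) :
    Measurable (fun x => chE D C e x * mdens h K.g D.be x) ∧
    Integrable (fun x => chE D C e x * mdens h K.g D.be x) (vm h) ∧
    Tendsto (fun k => ∫ x, chE D C e x * mdens h K.g (D.bk' (LogCut_5.dm k)) x ∂(vm h)) atTop
      (𝓝 (∫ x, chE D C e x * mdens h K.g D.be x ∂(vm h))) := by
  have := isFinite_vm h
  obtain ⟨c, hc, hcN⟩ := chi_supp (D := D) hC2 he he1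
  obtain ⟨Ba, hBa0, hBa⟩ := exists_bdd (sm_continuous (sm_mdens h K D.cf))
  obtain ⟨Bp, hBp0, hBp⟩ := exists_bdd (sm_continuous (sm_mdens h K (hsf_cf D.smN)))
  have hlim : ∀ x, Tendsto (fun k => chE D C e x * mdens h K.g (D.bk' (LogCut_5.dm k)) x) atTop
      (𝓝 (chE D C e x * mdens h K.g D.be x)) := by
    intro x
    by_cases hx : x ∈ D.U
    · exact tendsto_const_nhds.mul (tendsto_mdens h K hx (fun k => LogCut_5.dm_pos k)
        LogCut_5.tendsto_dm)
    · simp only [chi_zero hC2 he he1 hx, zero_mul]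
      exact tendsto_const_nhds
  have hcont : ∀ k, Continuous (fun x => chE D C e x * mdens h K.g (D.bk' (LogCut_5.dm k)) x) :=
    fun k => (sm_continuous (chE_sm D C he)).mul
      (sm_continuous (sm_mdens h K (D.cf_bk (LogCut_5.dm_pos k))))
  have hmeas : Measurable (fun x => chE D C e x * mdens h K.g D.be x) :=
    measurable_of_tendsto_metrizable (fun k => (hcont k).measurable) (tendsto_pi_nhds.2 hlim)
  have hbd : ∀ k x, ‖chE D C e x * mdens h K.g (D.bk' (LogCut_5.dm k)) x‖ ≤ Ba + c⁻¹ * Bp := by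
    intro k x
    have hκ := LogCut_5.dm_pos k
    have h1 : 0 ≤ mdens h K.g (D.bk' (LogCut_5.dm k)) x :=
      mdens_nonneg h K (D.psd_bk hκ _ (mem_ci x))
    have h2 := mdens_le (D := D) h K hκ x
    rw [norm_mul, Real.norm_of_nonneg (chE_nonneg D C e x), Real.norm_of_nonneg h1]
    by_cases h0 : chE D C e x = 0
    · rw [h0, zero_mul]
      positivity
    · have h3 := hcN x h0
      have h4 : (D.N x + LogCut_5.dm k)⁻¹ ≤ c⁻¹ := inv_anti₀ hc (by linarith)
      have h5 : 0 < (D.N x + LogCut_5.dm k)⁻¹ := inv_pos.2 (by linarith)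
      have h6 := le_abs_self (mdens h K.g D.om x)
      have h7 := le_abs_self (mdens h K.g (hsf A D.N) x)
      have h8 : (D.N x + LogCut_5.dm k)⁻¹ * mdens h K.g (hsf A D.N) x ≤ c⁻¹ * Bp :=
        (mul_le_mul_of_nonneg_left (h7.trans (hBp x)) h5.le).trans
          (mul_le_mul_of_nonneg_right h4 hBp0)
      calc chE D C e x * mdens h K.g (D.bk' (LogCut_5.dm k)) x
          ≤ 1 * mdens h K.g (D.bk' (LogCut_5.dm k)) x :=
            mul_le_mul_of_nonneg_right (chE_le D C e x) h1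
        _ ≤ Ba + c⁻¹ * Bp := by
            rw [one_mul]
            linarith [hBa x]
  refine ⟨hmeas, ?_, ?_⟩
  · refine Integrable.of_bound hmeas.aestronglyMeasurable (Ba + c⁻¹ * Bp)
      (Eventually.of_forall fun x => ?_)
    exact le_of_tendsto' (hlim x).norm fun k => hbd k x
  · exact tendsto_integral_of_dominated_convergence (fun _ => Ba + c⁻¹ * Bp)
      (fun k => (hcont k).measurable.aestronglyMeasurable) (integrable_const _)
      (fun k => Eventually.of_forall (hbd k)) (Eventually.of_forall hlim)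

/-- the inequality after `κ → 0` -/
theorem ineq2 (Pt : Part A) {K K' : Kah A} {w : M → ℝ} (hw : A.Sm w)
    (hK : ∀ i, ∀ x ∈ (A.e i).source, K'.g i x = K.g i x + hsf A w i x) {b : ℝ}
    (hb : 0 < b) (hb1 : b ≤ 1) {C e : ℝ} (hC2 : 2 ≤ C)
    (hC : ∀ x, D.N x + 1 ≤ C) (he : 0 < e) (he1 : e ≤ 1) {Cθ : ℝ}
    (hθ : ∀ y ∈ Icc (0 : ℝ) 1, |deriv th y| ≤ Cθ) {W : ℝ} (hW : ∀ x, |w x| ≤ W) :
    ∫ x, chE D C e x * mdens h K'.g D.be x ∂(vm h) ≤
      ∫ x, chE D C e x * mdens h K.g D.be x ∂(vm h) + b * VV K D Pt +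
        (Bd K D Pt Cθ W b + Bd K D Pt Cθ W 0) / b / √(me C e) := by
  have h1 := (lim_kappa (D := D) h K' hC2 he he1).2.2
  have h2 := (lim_kappa (D := D) h K hC2 he he1).2.2
  have h3 : ∀ k, ∫ x, chE D C e x * mdens h K'.g (D.bk' (LogCut_5.dm k)) x ∂(vm h) ≤
      ∫ x, chE D C e x * mdens h K.g (D.bk' (LogCut_5.dm k)) x ∂(vm h) + b * VV K D Pt +
        (Bd K D Pt Cθ W b + Bd K D Pt Cθ W 0) / b / √(me C e) := by
    intro k
    have hκ := LogCut_5.dm_pos k
    have h4 := main_ineq (D := D) Pt hw hK hb.le hb1 hκ hC2 hC he he1 hθ hW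
    rw [← integral_chi h K' Pt (D.cf_bk hκ) (chE_sm D C he),
      ← integral_chi h K Pt (D.cf_bk hκ) (chE_sm D C he)] at h4
    refine le_of_mul_le_mul_left (h4.trans (le_of_eq ?_)) hb
    field_simp
  exact le_of_tendsto_of_tendsto' h1 ((h2.add tendsto_const_nhds).add tendsto_const_nhds) h3

/-! ### the limit `e → 0` -/

theorem chi_tendsto {C : ℝ} (hC : ∀ x, D.N x + 1 ≤ C) {e : ℕ → ℝ} (he : ∀ m, 0 < e m)
    (hm : Tendsto (fun m => me C (e m)) atTop atTop) {x : M} (hx : x ∈ D.U) :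
    Tendsto (fun m => chE D C (e m) x) atTop (𝓝 1) := by
  have hN : 0 < D.N x := hx
  have h1 : ∀ᶠ m in atTop, 3 * (Real.log C - Real.log (D.N x)) ≤ me C (e m) ∧ 0 < me C (e m) :=
    (hm.eventually_ge_atTop _).and (hm.eventually_gt_atTop _)
  refine tendsto_const_nhds.congr' ?_
  filter_upwards [h1] with m hm1
  symm
  refine th_one ?_
  rw [div_le_iff₀ hm1.2]
  have h2 : Real.log (D.N x) ≤ Real.log (D.N x + e m) :=
    Real.log_le_log hN (by have := he m; linarith)
  unfold ge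
  linarith [hm1.1]

/-- **non-pluripolar mass** -/
theorem mass_holds (Pt : Part A) (h : HM (KB A)⁻¹) (D : TD A) : MassStmt h D := by
  intro K K' w hw hK
  set R := ∫⁻ x in D.U, ENNReal.ofReal (mdens h K.g D.be x) ∂(vm h) with hR
  refine ENNReal.le_of_forall_pos_le_add fun δ hδ hRt => ?_
  -- constants
  obtain ⟨Cθ, -, hθ⟩ := th_deriv
  obtain ⟨W, -, hW⟩ := exists_bdd (sm_continuous hw)
  obtain ⟨BN, hBN0, hBN⟩ := exists_bdd (sm_continuous D.smN)
  set C : ℝ := BN + 2 with hCd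
  have hC2 : 2 ≤ C := by linarith
  have hC : ∀ x, D.N x + 1 ≤ C := fun x => by
    have := (le_abs_self _).trans (hBN x)
    linarith
  have hδ' : (0 : ℝ) < δ := by exact_mod_cast hδ
  set V := VV K D Pt with hV
  set b : ℝ := min 1 (δ / (2 * (|V| + 1))) with hbd
  have hb : 0 < b := lt_min one_pos (by positivity)
  have hb1 : b ≤ 1 := min_le_left _ _
  have hbV : b * V ≤ δ / 2 := by
    have h1 : b * V ≤ b * (|V| + 1) := mul_le_mul_of_nonneg_left (by linarith [le_abs_self V]) hb.le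
    have h2 : b * (|V| + 1) ≤ (δ / (2 * (|V| + 1))) * (|V| + 1) :=
      mul_le_mul_of_nonneg_right (min_le_right _ _) (by positivity)
    have h3 : ((δ : ℝ) / (2 * (|V| + 1))) * (|V| + 1) = δ / 2 := by
      have : |V| + 1 ≠ 0 := by positivity
      field_simp
    linarith
  set E : ℝ := (Bd K D Pt Cθ W b + Bd K D Pt Cθ W 0) / b with hE
  obtain ⟨m₀, hm₀⟩ := exists_nat_gt ((2 * |E| / δ) ^ 2)
  -- the sequence
  set e : ℕ → ℝ := fun m => Real.exp (-((m : ℝ) + m₀)) with hed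
  have he : ∀ m, 0 < e m := fun m => Real.exp_pos _
  have he1 : ∀ m, e m ≤ 1 := fun m => Real.exp_le_one_iff.2 (by
    have h1 : (0 : ℝ) ≤ m := m.cast_nonneg
    have h2 : (0 : ℝ) ≤ m₀ := m₀.cast_nonneg
    linarith)
  have hlC : 0 ≤ Real.log C := Real.log_nonneg (by linarith)
  have hme : ∀ m, me C (e m) = Real.log C + ((m : ℝ) + m₀) := by
    intro m
    unfold me
    rw [hed]
    simp only [Real.log_exp]
    ring
  have hmt : Tendsto (fun m => me C (e m)) atTop atTop := by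
    simp only [hme]
    refine tendsto_atTop_add_const_left _ _ ?_
    exact tendsto_atTop_add_const_right _ _ tendsto_natCast_atTop_atTop
  have herr : ∀ m, E / √(me C (e m)) ≤ δ / 2 := by
    intro m
    have h1 : (2 * |E| / δ) ^ 2 ≤ me C (e m) := by
      rw [hme]
      have : (0 : ℝ) ≤ m := m.cast_nonneg
      linarith
    have h2 : 2 * |E| / δ ≤ √(me C (e m)) := Real.le_sqrt_of_sq_le h1
    have h3 : 0 < √(me C (e m)) := Real.sqrt_pos.2 (me_pos hC2 (he m) (he1 m))
    rw [div_le_iff₀ h3]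
    rw [div_le_iff₀ hδ'] at h2
    have h4 := le_abs_self E
    nlinarith
  -- bound of the truncated integrals
  have hbe : ∀ (K : Kah A), ∀ x ∈ D.U, 0 ≤ mdens h K.g D.be x := fun K x hx =>
    mdens_nonneg h K (be_psd (mem_ci x) hx)
  have hnn : ∀ (K : Kah A) m x, 0 ≤ chE D C (e m) x * mdens h K.g D.be x := by
    intro K m x
    by_cases hx : x ∈ D.U
    · exact mul_nonneg (chE_nonneg D C _ x) (hbe K x hx)
    · rw [chi_zero hC2 (he m) (he1 m) hx, zero_mul]
  have hRb : ∀ m, ∫ x, chE D C (e m) x * mdens h K.g D.be x ∂(vm h) ≤ R.toReal := by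
    intro m
    obtain ⟨_, hi, _⟩ := lim_kappa (D := D) h K hC2 (he m) (he1 m)
    have h1 := ofReal_integral_eq_lintegral_ofReal hi (Eventually.of_forall (hnn K m))
    have h2 : ∫⁻ x, ENNReal.ofReal (chE D C (e m) x * mdens h K.g D.be x) ∂(vm h) ≤ R := by
      rw [hR, ← lintegral_indicator (D.isOpen_U).measurableSet]
      refine lintegral_mono fun x => ?_
      by_cases hx : x ∈ D.U
      · rw [indicator_of_mem hx]
        refine ENNReal.ofReal_le_ofReal ?_
        have := mul_le_mul_of_nonneg_right (chE_le D C (e m) x) (hbe K x hx)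
        rwa [one_mul] at this
      · rw [indicator_of_notMem hx, chi_zero hC2 (he m) (he1 m) hx, zero_mul, ENNReal.ofReal_zero]
    rw [← h1] at h2
    exact (ENNReal.ofReal_le_iff_le_toReal hRt.ne).1 h2
  have hfin : ∀ m, ∫ x, chE D C (e m) x * mdens h K'.g D.be x ∂(vm h) ≤ R.toReal + δ := by
    intro m
    have h1 := ineq2 (D := D) h Pt hw hK hb hb1 hC2 hC (he m) (he1 m) hθ hW
    have h2 := hRb m
    have h3 := herr m
    linarith
  have h4 : ∫⁻ x in D.U, ENNReal.ofReal (mdens h K'.g D.be x) ∂(vm h) ≤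
      ENNReal.ofReal (R.toReal + δ) := by
    refine fatou (f := fun m x => chE D C (e m) x * mdens h K'.g D.be x)
      (D.isOpen_U).measurableSet (fun m => (lim_kappa (D := D) h K' hC2 (he m) (he1 m)).1)
      (hnn K') (fun m => (lim_kappa (D := D) h K' hC2 (he m) (he1 m)).2.1) hfin fun x hx => ?_
    have h5 := (chi_tendsto (D := D) hC he hmt hx).mul_const (mdens h K'.g D.be x)
    rwa [one_mul] at h5
  refine h4.trans (le_of_eq ?_)
  rw [ENNReal.ofReal_add ENNReal.toReal_nonneg δ.coe_nonneg, ENNReal.ofReal_toReal hRt.ne,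
    ENNReal.ofReal_coe_nnreal]

end meas

end

end Crest.Agent.R273.Mass_5
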