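import Crest.Agent.R273.YC3b_812

/-!
Row 273 (S0416), Part C (Yau), helper812: local Calabi third order estimate, part 3:
unitary frames, the cutoff, the estimate on a ball.
-/

set_option autoImplicit false
set_option linter.unusedSimpArgs false
set_option linter.unusedSectionVars false

open Set Filter Topology Complex
open scoped ContDiff ComplexConjugate ComplexOrder

namespace Crest.Agent.R273.YC3_812

open Crest.Agent.R273.YSm_812 Crest.Agent.R273.YJet_812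

variable {n : ℕ}

/-- diagonalisation of a positive definite matrix by congruence -/
theorem exists_congr_one (A : Matrix (Fin n) (Fin n) ℂ) (hA : A.PosDef) :
    ∃ C : Matrix (Fin n) (Fin n) ℂ, C * A * C.conjTranspose = 1 := by
  have hH := hA.isHermitian
  have h1 := hH.conjStarAlgAut_star_eigenvectorUnitary
  rw [Unitary.conjStarAlgAut_star_apply] at h1
  set Um : Matrix (Fin n) (Fin n) ℂ := (hH.eigenvectorUnitary : Matrix (Fin n) (Fin n) ℂ) with hUm
  have hpos := fun i => hA.eigenvalues_pos i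
  let Dm : Matrix (Fin n) (Fin n) ℂ := Matrix.diagonal fun i => (((Real.sqrt (hH.eigenvalues i))⁻¹ : ℝ) : ℂ)
  have hD : Dm.conjTranspose = Dm := by
    simp only [Dm, Matrix.diagonal_conjTranspose]
    congr 1
    funext i
    simp
  refine ⟨Dm * star Um, ?_⟩
  have h2 : (Dm * star Um) * A * (Dm * star Um).conjTranspose = Dm * (star Um * A * Um) * Dm := by
    rw [Matrix.conjTranspose_mul, hD, Matrix.star_eq_conjTranspose,
      Matrix.conjTranspose_conjTranspose]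
    simp only [Matrix.mul_assoc]
  rw [h2, h1]
  simp only [Dm, Matrix.diagonal_mul_diagonal]
  rw [← Matrix.diagonal_one]
  congr 1
  funext i
  have hs : Real.sqrt (hH.eigenvalues i) ≠ 0 := (Real.sqrt_pos.2 (hpos i)).ne'
  simp only [Function.comp_apply, Pi.one_apply]
  have h3 : ((hH.eigenvalues i : ℝ) : ℂ)
      = (((Real.sqrt (hH.eigenvalues i)) * (Real.sqrt (hH.eigenvalues i)) : ℝ) : ℂ) := by
    rw [Real.mul_self_sqrt (hpos i).le]
  show _ * ((hH.eigenvalues i : ℝ) : ℂ) * _ = 1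
  rw [h3]
  simp only [← ofReal_mul]
  rw [← ofReal_one]
  congr 1
  field_simp

variable {V : Type*} [NormedAddCommGroup V] [NormedSpace ℂ V] {Ω : Set V}
  [FiniteDimensional ℂ V]

/-- the quadratic form in a basis -/
theorem U2_repr (hΩ : IsOpen Ω) (u : Sm Ω) (e : Module.Basis (Fin n) ℂ V) (ξ : V) (z : Ω) :
    (U2 hΩ u ξ ξ).1 z
      = ∑ i, ∑ j, e.repr ξ i * conj (e.repr ξ j) * (U2 hΩ u (e i) (e j)).1 z := by
  conv_lhs => rw [← e.sum_repr ξ]
  exact U2_expand hΩ u _ _ _ z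

/-- the Gram matrix is positive definite -/
theorem posDef_gram (hΩ : IsOpen Ω) {u : Sm Ω} (hu : cj u = u) (e : Module.Basis (Fin n) ℂ V)
    (z : Ω) (hpos : ∀ ξ : V, ξ ≠ 0 → 0 < ((U2 hΩ u ξ ξ).1 z).re) :
    (Matrix.of fun i j => (U2 hΩ u (e i) (e j)).1 z).PosDef := by
  refine Matrix.PosDef.of_dotProduct_mulVec_pos ?_ fun x hx => ?_
  · ext i j
    simp only [Matrix.conjTranspose_apply, Matrix.of_apply]
    exact conj_U2 hΩ hu (e j) (e i) z
  · set ξ : V := ∑ i, conj (x i) • e i with hξ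
    have hr : ∀ i, e.repr ξ i = conj (x i) := fun i => by
      rw [hξ]; simp [Finsupp.single_apply]
    have hξ0 : ξ ≠ 0 := by
      intro h0
      apply hx
      funext i
      have := hr i
      rw [h0] at this
      simp at this
      exact (map_eq_zero _).1 this.symm
    have h1 := hpos ξ hξ0
    have h2 : star x ⬝ᵥ (Matrix.of fun i j => (U2 hΩ u (e i) (e j)).1 z).mulVec x
        = (U2 hΩ u ξ ξ).1 z := by
      rw [U2_repr hΩ u e ξ z]
      simp only [hr, dotProduct, Matrix.mulVec, Matrix.of_apply, Finset.mul_sum, Pi.star_apply]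
      refine Finset.sum_congr rfl fun i _ => Finset.sum_congr rfl fun j _ => ?_
      simp only [RCLike.star_def, conj_conj]
      ring
    rw [h2, re_eq (cj_U2 hΩ hu ξ ξ) z]
    exact_mod_cast h1

/-- unitary frames -/
theorem exists_frame (hΩ : IsOpen Ω) {u : Sm Ω} (hu : cj u = u) (e : Module.Basis (Fin n) ℂ V)
    (z : Ω) (hpos : ∀ ξ : V, ξ ≠ 0 → 0 < ((U2 hΩ u ξ ξ).1 z).re) :
    ∃ w : Module.Basis (Fin n) ℂ V, ∀ a b, (U2 hΩ u (w a) (w b)).1 z = if a = b then 1 else 0 := by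
  obtain ⟨C, hC⟩ := exists_congr_one _ (posDef_gram hΩ hu e z hpos)
  let w0 : Fin n → V := fun a => ∑ i, C a i • e i
  have hw0 : ∀ a b, (U2 hΩ u (w0 a) (w0 b)).1 z = if a = b then 1 else 0 := by
    intro a b
    have h1 : (U2 hΩ u (w0 a) (w0 b)).1 z
        = (C * (Matrix.of fun i j => (U2 hΩ u (e i) (e j)).1 z) * C.conjTranspose) a b := by
      rw [U2_expand]
      simp only [Matrix.mul_apply, Matrix.conjTranspose_apply, Matrix.of_apply, Finset.sum_mul]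
      rw [Finset.sum_comm]
      refine Finset.sum_congr rfl fun i _ => Finset.sum_congr rfl fun j _ => ?_
      simp only [RCLike.star_def]
      ring
    rw [h1, hC, Matrix.one_apply]
  have hli : LinearIndependent ℂ w0 := by
    rw [Fintype.linearIndependent_iff]
    intro g hg i
    have h1 : (U2 hΩ u (∑ a, g a • w0 a) (w0 i)).1 z = g i := by
      rw [U2_sum_left]
      show (ev z) _ = _
      simp only [map_sum, map_smul, smul_eq_mul, ev_apply, hw0, mul_ite, mul_one, mul_zero,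
        Finset.sum_ite_eq', Finset.mem_univ, if_true]
    rw [hg] at h1
    have h2 : U2 hΩ u 0 (w0 i) = 0 := by
      have := U2_sum_left hΩ u (∅ : Finset (Fin n)) (fun _ => 0) w0 (w0 i)
      simpa using this
    rw [h2] at h1
    exact h1.symm
  have hcard : Fintype.card (Fin n) = Module.finrank ℂ V := by
    rw [Module.finrank_eq_card_basis e]
  rcases Nat.eq_zero_or_pos n with h0 | h0
  · subst h0
    exact ⟨e, fun a => a.elim0⟩
  · have : Nonempty (Fin n) := ⟨⟨0, h0⟩⟩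
    refine ⟨basisOfLinearIndependentOfCardEqFinrank hli hcard, fun a b => ?_⟩
    rw [coe_basisOfLinearIndependentOfCardEqFinrank]
    exact hw0 a b

/-! ### the cutoff on `EuclideanSpace ℂ (Fin n)` -/

section cut

variable {Ω' : Set (EuclideanSpace ℂ (Fin n))}

/-- coordinate functions centred at `z₀` -/
noncomputable def co (Ω' : Set (EuclideanSpace ℂ (Fin n))) (z₀ : EuclideanSpace ℂ (Fin n))
    (k : Fin n) : Sm Ω' := aff Ω' (EuclideanSpace.proj k) (-(z₀ k))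

/-- the cutoff `ρ² - |z - z₀|²` -/
noncomputable def cut (Ω' : Set (EuclideanSpace ℂ (Fin n))) (z₀ : EuclideanSpace ℂ (Fin n))
    (ρ : ℝ) : Sm Ω' :=
  algebraMap ℂ (Sm Ω') ((ρ ^ 2 : ℝ) : ℂ) - ∑ k, co Ω' z₀ k * cj (co Ω' z₀ k)

theorem cut_val (z₀ : EuclideanSpace ℂ (Fin n)) (ρ : ℝ) (z : Ω') :
    (cut Ω' z₀ ρ).1 z = ((ρ ^ 2 - ‖(z : EuclideanSpace ℂ (Fin n)) - z₀‖ ^ 2 : ℝ) : ℂ) := by
  rw [← ev_apply z (cut Ω' z₀ ρ), cut, map_sub, map_sum]
  have h1 : (ev z) (algebraMap ℂ (Sm Ω') ((ρ ^ 2 : ℝ) : ℂ)) = ((ρ ^ 2 : ℝ) : ℂ) := rfl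
  rw [h1, EuclideanSpace.norm_sq_eq]
  push_cast
  congr 1
  refine Finset.sum_congr rfl fun k _ => ?_
  have h2 : (ev z) (co Ω' z₀ k * cj (co Ω' z₀ k))
      = ((z : EuclideanSpace ℂ (Fin n)) k - z₀ k) * conj ((z : EuclideanSpace ℂ (Fin n)) k - z₀ k) := by
    show (co Ω' z₀ k).1 z * conj ((co Ω' z₀ k).1 z) = _
    simp only [co, aff_apply, ← sub_eq_add_neg]
    rfl
  rw [h2, mul_conj, normSq_eq_norm_sq]
  push_cast
  rfl

theorem cj_cut (z₀ : EuclideanSpace ℂ (Fin n)) (ρ : ℝ) : cj (cut Ω' z₀ ρ) = cut Ω' z₀ ρ := by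
  refine Sm.ext' fun z => ?_
  rw [cj_apply, cut_val, conj_ofReal]

theorem D_co (hΩ : IsOpen Ω') (z₀ ξ : EuclideanSpace ℂ (Fin n)) (k : Fin n) :
    D hΩ ξ (co Ω' z₀ k) = algebraMap ℂ (Sm Ω') (ξ k) := by
  rw [co, D_aff]; rfl

theorem B_co (hΩ : IsOpen Ω') (z₀ ξ : EuclideanSpace ℂ (Fin n)) (k : Fin n) :
    B hΩ ξ (co Ω' z₀ k) = 0 := B_aff hΩ _ _ _

theorem cj_algebraMap (c : ℂ) : cj (algebraMap ℂ (Sm Ω') c) = algebraMap ℂ (Sm Ω') (conj c) :=
  Sm.ext' fun _ => rfl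

theorem D_cut (hΩ : IsOpen Ω') (z₀ ξ : EuclideanSpace ℂ (Fin n)) (ρ : ℝ) :
    D hΩ ξ (cut Ω' z₀ ρ) = - ∑ k, ξ k • cj (co Ω' z₀ k) := by
  rw [cut, map_sub, Derivation.map_algebraMap, zero_sub, map_sum]
  congr 1
  refine Finset.sum_congr rfl fun k _ => ?_
  rw [Derivation.leibniz, D_cj, B_co, D_co]
  have : cj (0 : Sm Ω') = 0 := Sm.ext' fun z => by simp
  rw [this, smul_zero, zero_add, smul_eq_mul, Algebra.smul_def, mul_comm]

theorem norm_D_cut (hΩ : IsOpen Ω') (z₀ ξ : EuclideanSpace ℂ (Fin n)) (ρ : ℝ) (z : Ω') :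
    ‖(D hΩ ξ (cut Ω' z₀ ρ)).1 z‖ ≤ ‖ξ‖ * ‖(z : EuclideanSpace ℂ (Fin n)) - z₀‖ := by
  have h1 : (D hΩ ξ (cut Ω' z₀ ρ)).1 z = - inner ℂ ((z : EuclideanSpace ℂ (Fin n)) - z₀) ξ := by
    rw [D_cut, ← ev_apply z (-∑ k, ξ k • cj (co Ω' z₀ k))]
    simp only [map_neg, map_sum, map_smul, smul_eq_mul, PiLp.inner_apply]
    congr 1
  rw [h1, norm_neg, mul_comm]
  exact norm_inner_le_norm _ _

theorem U2_cut (hΩ : IsOpen Ω') (z₀ ξ : EuclideanSpace ℂ (Fin n)) (ρ : ℝ) (z : Ω') :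
    (U2 hΩ (cut Ω' z₀ ρ) ξ ξ).1 z = ((-‖ξ‖ ^ 2 : ℝ) : ℂ) := by
  rw [U2, DB, D_cut, map_neg, map_sum]
  have h1 : ∀ k, B hΩ ξ (ξ k • cj (co Ω' z₀ k)) = ξ k • algebraMap ℂ (Sm Ω') (conj (ξ k)) := by
    intro k
    rw [Derivation.map_smul, B_cj, D_co, cj_algebraMap]
  simp only [h1]
  rw [← ev_apply z (-∑ k, ξ k • algebraMap ℂ (Sm Ω') (conj (ξ k)))]
  simp only [map_neg, map_sum, map_smul, smul_eq_mul]
  rw [EuclideanSpace.norm_sq_eq]
  push_cast
  congr 1
  refine Finset.sum_congr rfl fun k _ => ?_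
  have h2 : (ev z) (algebraMap ℂ (Sm Ω') (conj (ξ k))) = conj (ξ k) := rfl
  rw [h2, mul_conj, normSq_eq_norm_sq]
  push_cast
  rfl

end cut

end Crest.Agent.R273.YC3_812
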