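import Crest.Agent.R273.FIe0_597

/-!
# R273 (S0416), leaf FI (a) (helper332): linear algebra for pairs `(G, S)`, `G > 0`, `S ≥ 0`

`simd` : simultaneous diagonalisation; `dp_eq` : `det (G + X S) = |det B|² ∏ (1 + dᵢ X)`;
`coeff_dp_nonneg`, `coeff_dp_pos`; `linS : LinS n` (the input of `FIe0_597.fi_abs`).
-/

set_option autoImplicit false
set_option linter.unusedSectionVars false

open Set Filter Topology Complex
open scoped ContDiff Matrix ComplexConjugate ComplexOrder

namespace Crest.Agent.R273.FIlin_332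

open Crest.Agent.R273.VolInv_5 Crest.Agent.R273.FIa0_597 Crest.Agent.R273.FIe0_597

noncomputable section

variable {n : ℕ}

/-- simultaneous diagonalisation of a positive definite and a positive semidefinite matrix -/
theorem simd {G S : Matrix (Fin n) (Fin n) ℂ} (hG : G.PosDef) (hS : S.PosSemidef) :
    ∃ (B : Matrix (Fin n) (Fin n) ℂ) (d : Fin n → ℝ), IsUnit B.det ∧ (∀ i, 0 ≤ d i) ∧
      G = Bᴴ * B ∧ S = Bᴴ * Matrix.diagonal (fun i => (d i : ℂ)) * B := by
  obtain ⟨C, hGC⟩ := exists_sq hG.posSemidef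
  have hC : IsUnit C.det := by
    have h1 : IsUnit G.det := (Matrix.isUnit_iff_isUnit_det _).1 hG.isUnit
    rw [hGC, Matrix.det_mul] at h1
    exact isUnit_of_mul_isUnit_right h1
  have hCh : Cᴴ * (C⁻¹)ᴴ = 1 := by
    rw [← Matrix.conjTranspose_mul, Matrix.nonsing_inv_mul _ hC, Matrix.conjTranspose_one]
  set K : Matrix (Fin n) (Fin n) ℂ := (C⁻¹)ᴴ * S * C⁻¹ with hK
  have hKp : K.PosSemidef := hS.conjTranspose_mul_mul_same C⁻¹
  set U : Matrix (Fin n) (Fin n) ℂ := (hKp.1.eigenvectorUnitary : Matrix (Fin n) (Fin n) ℂ) with hU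
  have hU1 : Uᴴ * U = 1 := by
    have := Unitary.coe_star_mul_self hKp.1.eigenvectorUnitary
    rwa [Matrix.star_eq_conjTranspose] at this
  have hU2 : U * Uᴴ = 1 := mul_eq_one_comm.1 hU1
  have hspec : K = U * Matrix.diagonal (fun i => (hKp.1.eigenvalues i : ℂ)) * Uᴴ := by
    have h := hKp.1.spectral_theorem
    rw [Unitary.conjStarAlgAut_apply] at h
    exact h
  have hUd : IsUnit (Uᴴ).det := by
    have h1 : (Uᴴ * U).det = 1 := by rw [hU1, Matrix.det_one]
    rw [Matrix.det_mul] at h1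
    exact IsUnit.of_mul_eq_one _ h1
  refine ⟨Uᴴ * C, hKp.1.eigenvalues, ?_, fun i => hKp.eigenvalues_nonneg i, ?_, ?_⟩
  · rw [Matrix.det_mul]
    exact hUd.mul hC
  · rw [Matrix.conjTranspose_mul, Matrix.conjTranspose_conjTranspose]
    calc G = Cᴴ * C := hGC
      _ = Cᴴ * (U * Uᴴ) * C := by rw [hU2, Matrix.mul_one]
      _ = _ := by simp only [Matrix.mul_assoc]
  · rw [Matrix.conjTranspose_mul, Matrix.conjTranspose_conjTranspose]
    have h4 : S = Cᴴ * K * C := by
      rw [hK]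
      calc S = (Cᴴ * (C⁻¹)ᴴ) * S * (C⁻¹ * C) := by
            rw [hCh, Matrix.nonsing_inv_mul _ hC, Matrix.one_mul, Matrix.mul_one]
        _ = _ := by simp only [Matrix.mul_assoc]
    calc S = Cᴴ * K * C := h4
      _ = Cᴴ * (U * Matrix.diagonal (fun i => (hKp.1.eigenvalues i : ℂ)) * Uᴴ) * C := by
          rw [← hspec]
      _ = _ := by simp only [Matrix.mul_assoc]

/-- `|det B|²` -/
def nd (B : Matrix (Fin n) (Fin n) ℂ) : ℝ := Complex.normSq B.det

theorem nd_pos {B : Matrix (Fin n) (Fin n) ℂ} (hB : IsUnit B.det) : 0 < nd B :=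
  Complex.normSq_pos.2 hB.ne_zero

theorem det_nd (B : Matrix (Fin n) (Fin n) ℂ) : (Bᴴ).det * B.det = (nd B : ℂ) := by
  rw [Matrix.det_conjTranspose, nd]
  exact (Complex.normSq_eq_conj_mul_self).symm

theorem det_add_smul {G S B : Matrix (Fin n) (Fin n) ℂ} {d : Fin n → ℝ} (hG : G = Bᴴ * B)
    (hS : S = Bᴴ * Matrix.diagonal (fun i => (d i : ℂ)) * B) (t : ℂ) :
    (G + t • S).det = (nd B : ℂ) * ∏ i, (1 + t * (d i : ℂ)) := by
  have h1 : G + t • S = Bᴴ * Matrix.diagonal (fun i => 1 + t * (d i : ℂ)) * B := by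
    have h2 : Matrix.diagonal (fun i => 1 + t * (d i : ℂ))
        = (1 : Matrix (Fin n) (Fin n) ℂ) + t • Matrix.diagonal (fun i => (d i : ℂ)) := by
      rw [← Matrix.diagonal_one, ← Matrix.diagonal_smul, Matrix.diagonal_add]
      rfl
    rw [h2, hG, hS, Matrix.mul_add, Matrix.add_mul, Matrix.mul_one, Matrix.mul_smul,
      Matrix.smul_mul]
  rw [h1, Matrix.det_mul, Matrix.det_mul, Matrix.det_diagonal, ← det_nd]
  ring

theorem det_add_smul_re {G S B : Matrix (Fin n) (Fin n) ℂ} {d : Fin n → ℝ} (hG : G = Bᴴ * B)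
    (hS : S = Bᴴ * Matrix.diagonal (fun i => (d i : ℂ)) * B) (t : ℝ) :
    ((G + (t : ℂ) • S).det).re = nd B * ∏ i, (1 + t * d i) := by
  rw [det_add_smul hG hS]
  have : ((nd B : ℂ) * ∏ i, (1 + (t : ℂ) * (d i : ℂ))) = ((nd B * ∏ i, (1 + t * d i) : ℝ) : ℂ) := by
    push_cast
    rfl
  rw [this, Complex.ofReal_re]

theorem tr_eq {G S B : Matrix (Fin n) (Fin n) ℂ} {d : Fin n → ℝ} (hB : IsUnit B.det)
    (hG : G = Bᴴ * B) (hS : S = Bᴴ * Matrix.diagonal (fun i => (d i : ℂ)) * B) :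
    (G⁻¹ * S).trace = ((∑ i, d i : ℝ) : ℂ) := by
  have hBh : IsUnit (Bᴴ).det := by
    rw [Matrix.det_conjTranspose]
    exact hB.star
  have h1 : G⁻¹ * S = B⁻¹ * (Matrix.diagonal (fun i => (d i : ℂ)) * B) := by
    rw [hG, hS, Matrix.mul_inv_rev]
    calc B⁻¹ * (Bᴴ)⁻¹ * (Bᴴ * Matrix.diagonal (fun i => (d i : ℂ)) * B)
        = B⁻¹ * ((Bᴴ)⁻¹ * Bᴴ) * (Matrix.diagonal (fun i => (d i : ℂ)) * B) := by
          simp only [Matrix.mul_assoc]
      _ = _ := by rw [Matrix.nonsing_inv_mul _ hBh, Matrix.mul_one]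
  rw [h1, Matrix.trace_mul_comm, Matrix.mul_assoc, Matrix.mul_nonsing_inv _ hB, Matrix.mul_one,
    Matrix.trace_diagonal]
  push_cast
  rfl

theorem rank_eq {S B : Matrix (Fin n) (Fin n) ℂ} {d : Fin n → ℝ} (hB : IsUnit B.det)
    (hS : S = Bᴴ * Matrix.diagonal (fun i => (d i : ℂ)) * B) :
    S.rank = Fintype.card {i // d i ≠ 0} := by
  have hBh : IsUnit (Bᴴ).det := by
    rw [Matrix.det_conjTranspose]
    exact hB.star
  rw [hS, Matrix.rank_mul_eq_left_of_isUnit_det _ _ hB, Matrix.rank_mul_eq_right_of_isUnit_det _ _ hBh,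
    Matrix.rank_diagonal]
  refine Fintype.card_congr (Equiv.subtypeEquivRight fun i => ?_)
  simp

theorem dp_eq {G S B : Matrix (Fin n) (Fin n) ℂ} {d : Fin n → ℝ} (hG : G = Bᴴ * B)
    (hS : S = Bᴴ * Matrix.diagonal (fun i => (d i : ℂ)) * B) :
    dp G S = ∑ s : Finset (Fin n), Polynomial.C (((nd B * ∏ i ∈ s, d i : ℝ) : ℂ)) *
      Polynomial.X ^ s.card := by
  refine Polynomial.funext fun t => ?_
  rw [eval_dp, det_add_smul hG hS, Finset.prod_one_add, Polynomial.eval_finsetSum, Finset.mul_sum,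
    Finset.powerset_univ]
  refine Finset.sum_congr rfl fun s _ => ?_
  simp only [Polynomial.eval_mul, Polynomial.eval_C, Polynomial.eval_pow, Polynomial.eval_X]
  rw [Finset.prod_mul_distrib, Finset.prod_const]
  push_cast
  ring

theorem coeff_dp_eq {G S B : Matrix (Fin n) (Fin n) ℂ} {d : Fin n → ℝ} (hG : G = Bᴴ * B)
    (hS : S = Bᴴ * Matrix.diagonal (fun i => (d i : ℂ)) * B) (k : ℕ) :
    (dp G S).coeff k = ((∑ s : Finset (Fin n), if s.card = k then nd B * ∏ i ∈ s, d i else 0 : ℝ) : ℂ) := by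
  rw [dp_eq hG hS, Polynomial.finsetSum_coeff]
  push_cast
  refine Finset.sum_congr rfl fun s _ => ?_
  rw [Polynomial.coeff_C_mul, Polynomial.coeff_X_pow]
  by_cases h : s.card = k
  · rw [if_pos h, if_pos h.symm, mul_one]
    push_cast
    rfl
  · rw [if_neg h, if_neg fun h' => h h'.symm, mul_zero, Complex.ofReal_zero]

theorem coeff_dp_real {G S : Matrix (Fin n) (Fin n) ℂ} (hG : G.PosDef) (hS : S.PosSemidef) (k : ℕ) :
    (dp G S).coeff k = (((dp G S).coeff k).re : ℂ) := by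
  obtain ⟨B, d, hB, hd, h1, h2⟩ := simd hG hS
  rw [coeff_dp_eq h1 h2, Complex.ofReal_re]

theorem coeff_dp_nonneg {G S : Matrix (Fin n) (Fin n) ℂ} (hG : G.PosDef) (hS : S.PosSemidef)
    (k : ℕ) : 0 ≤ ((dp G S).coeff k).re := by
  obtain ⟨B, d, hB, hd, h1, h2⟩ := simd hG hS
  rw [coeff_dp_eq h1 h2, Complex.ofReal_re]
  refine Finset.sum_nonneg fun s _ => ?_
  split_ifs
  · exact mul_nonneg (nd_pos hB).le (Finset.prod_nonneg fun i _ => hd i)
  · exact le_rfl

theorem coeff_dp_pos {G S : Matrix (Fin n) (Fin n) ℂ} (hG : G.PosDef) (hS : S.PosSemidef)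
    {k : ℕ} (hk : k ≤ S.rank) : 0 < ((dp G S).coeff k).re := by
  obtain ⟨B, d, hB, hd, h1, h2⟩ := simd hG hS
  rw [rank_eq hB h2, Fintype.card_subtype] at hk
  obtain ⟨s, hs, hsk⟩ := Finset.exists_subset_card_eq hk
  rw [coeff_dp_eq h1 h2, Complex.ofReal_re]
  refine Finset.sum_pos' (fun s _ => ?_) ⟨s, Finset.mem_univ _, ?_⟩
  · split_ifs
    · exact mul_nonneg (nd_pos hB).le (Finset.prod_nonneg fun i _ => hd i)
    · exact le_rfl
  · rw [if_pos hsk]
    refine mul_pos (nd_pos hB) (Finset.prod_pos fun i hi => ?_)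
    have := (Finset.mem_filter.1 (hs hi)).2
    exact lt_of_le_of_ne (hd i) (Ne.symm this)

theorem coeff_dp_zero {G S : Matrix (Fin n) (Fin n) ℂ} (hG : G.PosDef) (hS : S.PosSemidef)
    {k : ℕ} (hk : S.rank < k) : (dp G S).coeff k = 0 := by
  obtain ⟨B, d, hB, hd, h1, h2⟩ := simd hG hS
  rw [rank_eq hB h2, Fintype.card_subtype] at hk
  rw [coeff_dp_eq h1 h2]
  rw [Finset.sum_eq_zero fun s _ => ?_, Complex.ofReal_zero]
  split_ifs with h
  · by_cases hz : ∃ i ∈ s, d i = 0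
    · obtain ⟨i, hi, h0⟩ := hz
      rw [Finset.prod_eq_zero hi h0, mul_zero]
    · push Not at hz
      exfalso
      have : s.card ≤ (Finset.univ.filter fun i => d i ≠ 0).card :=
        Finset.card_le_card fun i hi => Finset.mem_filter.2 ⟨Finset.mem_univ _, hz i hi⟩
      omega
  · rfl

theorem det_eq_sum (G S : Matrix (Fin n) (Fin n) ℂ) (t : ℂ) :
    (G + t • S).det = ∑ k ∈ Finset.range (n + 1), (dp G S).coeff k * t ^ k := by
  rw [← eval_dp, Polynomial.eval_eq_sum_range' (Nat.lt_succ_of_le (natDegree_dp G S))]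

theorem det_re_eq_sum {G S : Matrix (Fin n) (Fin n) ℂ} (hG : G.PosDef) (hS : S.PosSemidef)
    (t : ℝ) : ((G + (t : ℂ) • S).det).re
      = ∑ k ∈ Finset.range (n + 1), ((dp G S).coeff k).re * t ^ k := by
  rw [det_eq_sum, Complex.re_sum]
  refine Finset.sum_congr rfl fun k _ => ?_
  rw [coeff_dp_real hG hS k]
  have : ((((dp G S).coeff k).re : ℂ) * (t : ℂ) ^ k) = ((((dp G S).coeff k).re * t ^ k : ℝ) : ℂ) := by
    push_cast
    rfl
  rw [this, Complex.ofReal_re, Complex.ofReal_re]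

/-- coefficients of products of polynomials depend continuously on the data -/
theorem continuousAt_coeff_prod {X : Type*} [TopologicalSpace X] {κ : Type*} (s : Finset κ)
    {f : κ → X → Polynomial ℂ} {p : X}
    (hf : ∀ a ∈ s, ∀ k, ContinuousAt (fun x => (f a x).coeff k) p) (k : ℕ) :
    ContinuousAt (fun x => (∏ a ∈ s, f a x).coeff k) p := by
  classical
  induction s using Finset.induction_on generalizing k with
  | empty =>
    simp only [Finset.prod_empty]
    exact continuousAt_const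
  | insert a s ha ih =>
    simp only [Finset.prod_insert ha, Polynomial.coeff_mul]
    refine tendsto_finsetSum _ fun c _ => ?_
    exact (hf a (Finset.mem_insert_self a s) c.1).mul
      (ih (fun b hb => hf b (Finset.mem_insert_of_mem hb)) c.2)

theorem continuousAt_coeff_dp {X : Type*} [TopologicalSpace X]
    {G S : X → Matrix (Fin n) (Fin n) ℂ} {p : X}
    (hG : ∀ a b, ContinuousAt (fun x => G x a b) p) (hS : ∀ a b, ContinuousAt (fun x => S x a b) p)
    (k : ℕ) : ContinuousAt (fun x => (dp (G x) (S x)).coeff k) p := by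
  have h1 : (fun x => (dp (G x) (S x)).coeff k) = fun x => ∑ σ : Equiv.Perm (Fin n),
      ((Equiv.Perm.sign σ : ℤ) : ℂ) * (∏ i, (Polynomial.C (G x (σ i) i) +
        Polynomial.X * Polynomial.C (S x (σ i) i))).coeff k := by
    funext x
    rw [dp, Matrix.det_apply, Polynomial.finsetSum_coeff]
    refine Finset.sum_congr rfl fun σ _ => ?_
    simp only [Matrix.of_apply]
    rw [Units.smul_def, Polynomial.coeff_smul, zsmul_eq_mul]
  rw [h1]
  refine tendsto_finsetSum _ fun σ _ => ?_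
  refine ContinuousAt.mul continuousAt_const ?_
  refine continuousAt_coeff_prod _ (fun i _ m => ?_) k
  have e1 : (fun x => (Polynomial.C (G x (σ i) i) + Polynomial.X * Polynomial.C (S x (σ i) i)).coeff m)
      = fun x => (if m = 0 then G x (σ i) i else 0) +
          (Polynomial.X : Polynomial ℂ).coeff m * S x (σ i) i := by
    funext x
    rw [Polynomial.coeff_add, Polynomial.coeff_C, Polynomial.coeff_mul_C]
  rw [e1]
  refine ContinuousAt.add ?_ (continuousAt_const.mul (hS (σ i) i))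
  by_cases hm : m = 0
  · simpa only [if_pos hm] using hG (σ i) i
  · simpa only [if_neg hm] using continuousAt_const

/-! ### the three statements -/

theorem amgm (hn : 0 < n) {G S : Matrix (Fin n) (Fin n) ℂ} (hG : G.PosDef) (hS : S.PosSemidef) :
    (n : ℝ) * (S.det.re / G.det.re) ^ ((1 : ℝ) / n) ≤ ((G⁻¹ * S).trace).re := by
  obtain ⟨B, d, hB, hd, h1, h2⟩ := simd hG hS
  have hn' : (0 : ℝ) < n := by exact_mod_cast hn
  have hGd : G.det = (nd B : ℂ) := by
    rw [h1, Matrix.det_mul, det_nd]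
  have hSd : S.det = ((nd B * ∏ i, d i : ℝ) : ℂ) := by
    rw [h2, Matrix.det_mul, Matrix.det_mul, Matrix.det_diagonal]
    push_cast
    rw [← det_nd]
    ring
  rw [tr_eq hB h1 h2, Complex.ofReal_re, hGd, hSd, Complex.ofReal_re, Complex.ofReal_re,
    mul_div_cancel_left₀ _ (nd_pos hB).ne']
  have h3 := Real.geom_mean_le_arith_mean_weighted Finset.univ (fun _ : Fin n => (1 : ℝ) / n) d
    (fun _ _ => by positivity) (by simp [hn'.ne']) (fun i _ => hd i)
  have h4 : (∏ i, d i) ^ ((1 : ℝ) / n) = ∏ i, d i ^ ((1 : ℝ) / n) :=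
    (Real.finsetProd_rpow _ _ (fun i _ => hd i) _).symm
  rw [h4]
  calc (n : ℝ) * ∏ i, d i ^ ((1 : ℝ) / n) ≤ n * ∑ i, (1 : ℝ) / n * d i :=
        mul_le_mul_of_nonneg_left h3 hn'.le
    _ = ∑ i, d i := by
        rw [← Finset.mul_sum]
        field_simp

theorem low {X : Type*} [TopologicalSpace X] {G S : X → Matrix (Fin n) (Fin n) ℂ} {p : X} {k : ℕ}
    (hG : ∀ a b, ContinuousAt (fun x => G x a b) p) (hS : ∀ a b, ContinuousAt (fun x => S x a b) p)
    (hGp : ∀ᶠ x in 𝓝 p, (G x).PosDef) (hSp : ∀ᶠ x in 𝓝 p, (S x).PosSemidef)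
    (hk : k ≤ (S p).rank) :
    ∃ c : ℝ, 0 < c ∧ ∀ᶠ x in 𝓝 p, ∀ t : ℝ, 0 ≤ t → c * t ^ k ≤ ((G x + (t : ℂ) • S x).det).re := by
  have hkn : k ≤ n := hk.trans ((Matrix.rank_le_card_height _).trans (by simp))
  have h0 : 0 < ((dp (G p) (S p)).coeff k).re :=
    coeff_dp_pos hGp.self_of_nhds hSp.self_of_nhds hk
  refine ⟨((dp (G p) (S p)).coeff k).re / 2, by positivity, ?_⟩
  have h1 : ContinuousAt (fun x => ((dp (G x) (S x)).coeff k).re) p :=
    Complex.continuous_re.continuousAt.comp (continuousAt_coeff_dp hG hS k)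
  have h2 : ∀ᶠ x in 𝓝 p, ((dp (G p) (S p)).coeff k).re / 2 < ((dp (G x) (S x)).coeff k).re :=
    h1.eventually (lt_mem_nhds (by linarith))
  filter_upwards [h2, hGp, hSp] with x hx hGx hSx t ht
  rw [det_re_eq_sum hGx hSx]
  calc ((dp (G p) (S p)).coeff k).re / 2 * t ^ k ≤ ((dp (G x) (S x)).coeff k).re * t ^ k :=
        mul_le_mul_of_nonneg_right hx.le (pow_nonneg ht k)
    _ ≤ _ := Finset.single_le_sum (f := fun j => ((dp (G x) (S x)).coeff j).re * t ^ j)
        (fun j _ => mul_nonneg (coeff_dp_nonneg hGx hSx j) (pow_nonneg ht j))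
        (Finset.mem_range.2 (Nat.lt_succ_of_le hkn))

theorem up {G S : Matrix (Fin n) (Fin n) ℂ} {k : ℕ} {t : ℝ} (hG : G.PosDef) (hS : S.PosSemidef)
    (hk : S.rank ≤ k) (ht : 1 ≤ t) :
    ((G + (t : ℂ) • S).det).re ≤ t ^ k * ((G + S).det).re := by
  obtain ⟨B, d, hB, hd, h1, h2⟩ := simd hG hS
  have h3 := det_add_smul_re h1 h2 t
  have h4 : ((G + S).det).re = nd B * ∏ i, (1 + d i) := by
    have := det_add_smul_re h1 h2 1
    simpa using this
  have hc : Fintype.card {i // d i ≠ 0} ≤ k := rank_eq hB h2 ▸ hk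
  rw [Fintype.card_subtype] at hc
  rw [h3, h4]
  have h5 : ∏ i, (1 + t * d i) ≤ t ^ k * ∏ i, (1 + d i) := by
    have h6 : ∏ i, (1 + t * d i) ≤ ∏ i, ((if d i ≠ 0 then t else 1) * (1 + d i)) := by
      refine Finset.prod_le_prod (fun i _ => ?_) fun i _ => ?_
      · have := mul_nonneg (by linarith : (0 : ℝ) ≤ t) (hd i)
        linarith
      · by_cases h : d i = 0
        · simp [h]
        · rw [if_pos h]
          nlinarith [hd i]
    refine h6.trans ?_
    rw [Finset.prod_mul_distrib, Finset.prod_ite, Finset.prod_const_one, mul_one, Finset.prod_const]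
    refine mul_le_mul_of_nonneg_right (pow_le_pow_right₀ ht hc) (Finset.prod_nonneg fun i _ => ?_)
    linarith [hd i]
  calc nd B * ∏ i, (1 + t * d i) ≤ nd B * (t ^ k * ∏ i, (1 + d i)) :=
        mul_le_mul_of_nonneg_left h5 (nd_pos hB).le
    _ = t ^ k * (nd B * ∏ i, (1 + d i)) := by ring

/-- **linear algebra input of `fi_abs`** -/
theorem linS (n : ℕ) : LinS n where
  amgm hn _ _ hG hS := amgm hn hG hS
  low _ _ _ _ _ _ hG hS hGp hSp hk := low hG hS hGp hSp hk
  up _ _ _ _ hG hS hk ht := up hG hS hk ht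

end

end Crest.Agent.R273.FIlin_332
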