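import Crest.Agent.R273.YC3c_812

/-!
Row 273 (S0416), Part C (Yau), helper812: local Calabi third order estimate, part 4:
constants at the maximum point and the estimate on a ball.
-/

set_option autoImplicit false
set_option linter.unusedSimpArgs false
set_option linter.unusedSectionVars false

open Set Filter Topology Complex
open scoped ContDiff ComplexConjugate ComplexOrder

namespace Crest.Agent.R273.YC3_812

open Crest.Agent.R273.YSm_812 Crest.Agent.R273.YJet_812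

variable {n : ℕ}

theorem cs {ι : Type*} (s : Finset ι) (a b : ι → ℂ) :
    ‖∑ i ∈ s, a i * b i‖ ^ 2 ≤ (∑ i ∈ s, ‖a i‖ ^ 2) * ∑ i ∈ s, ‖b i‖ ^ 2 := by
  have h1 : ‖∑ i ∈ s, a i * b i‖ ≤ ∑ i ∈ s, ‖a i‖ * ‖b i‖ := by
    refine (norm_sum_le _ _).trans (le_of_eq ?_)
    exact Finset.sum_congr rfl fun i _ => norm_mul _ _
  calc ‖∑ i ∈ s, a i * b i‖ ^ 2 ≤ (∑ i ∈ s, ‖a i‖ * ‖b i‖) ^ 2 :=
        pow_le_pow_left₀ (norm_nonneg _) h1 2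
    _ ≤ _ := Finset.sum_mul_sq_le_sq_mul_sq s _ _

theorem cs2 {ι κ : Type*} (s : Finset ι) (t : Finset κ) (a : ι → ℂ) (b : κ → ℂ)
    (M : ι → κ → ℂ) :
    ‖∑ i ∈ s, ∑ j ∈ t, a i * b j * M i j‖ ^ 2
      ≤ (∑ i ∈ s, ‖a i‖ ^ 2) * (∑ j ∈ t, ‖b j‖ ^ 2) * ∑ i ∈ s, ∑ j ∈ t, ‖M i j‖ ^ 2 := by
  have h1 : ∑ i ∈ s, ∑ j ∈ t, a i * b j * M i j = ∑ i ∈ s, a i * ∑ j ∈ t, b j * M i j := by
    refine Finset.sum_congr rfl fun i _ => ?_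
    rw [Finset.mul_sum]
    exact Finset.sum_congr rfl fun j _ => by ring
  rw [h1]
  refine (cs s _ _).trans ?_
  rw [mul_assoc]
  refine mul_le_mul_of_nonneg_left ?_ (Finset.sum_nonneg fun i _ => sq_nonneg _)
  rw [Finset.mul_sum]
  exact Finset.sum_le_sum fun i _ => cs t _ _

/-- the model space -/
abbrev W (n : ℕ) : Type := EuclideanSpace ℂ (Fin n)

/-- the standard basis -/
noncomputable def eb (n : ℕ) : Module.Basis (Fin n) ℂ (W n) :=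
  (EuclideanSpace.basisFun (Fin n) ℂ).toBasis

theorem eb_apply (k : Fin n) : eb n k = EuclideanSpace.single k 1 := by
  simp [eb]

theorem eb_repr (ξ : W n) (k : Fin n) : (eb n).repr ξ k = ξ k := by
  simp [eb]

theorem norm_eb (k : Fin n) : ‖eb n k‖ = 1 := by
  rw [eb_apply]; simp

theorem sum_eb (ξ : W n) : ∑ k, ξ k • eb n k = ξ := by
  have := (eb n).sum_repr ξ
  simpa only [eb_repr] using this

/-- trace of the complex Hessian -/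
noncomputable def trU {Ω : Set (W n)} (hΩ : IsOpen Ω) (u : Sm Ω) : Sm Ω :=
  ∑ k, U2 hΩ u (eb n k) (eb n k)

theorem cj_zero {Ω : Set (W n)} : cj (0 : Sm Ω) = 0 := Sm.ext' fun z => by simp

theorem cj_sum {Ω : Set (W n)} {ι : Type*} (s : Finset ι) (f : ι → Sm Ω) :
    cj (∑ i ∈ s, f i) = ∑ i ∈ s, cj (f i) := by
  classical
  induction s using Finset.induction_on with
  | empty => simp [cj_zero]
  | insert a s ha ih => rw [Finset.sum_insert ha, Finset.sum_insert ha, cj_add, ih]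

theorem cj_trU {Ω : Set (W n)} (hΩ : IsOpen Ω) {u : Sm Ω} (hu : cj u = u) :
    cj (trU hΩ u) = trU hΩ u := by
  rw [trU, cj_sum]
  exact Finset.sum_congr rfl fun k _ => cj_U2 hΩ hu _ _

theorem trU_re {Ω : Set (W n)} (hΩ : IsOpen Ω) (u : Sm Ω) (z : Ω) :
    ((trU hΩ u).1 z).re = ∑ k, ((U2 hΩ u (eb n k) (eb n k)).1 z).re := by
  rw [← ev_apply z (trU hΩ u), trU, map_sum, re_sum]
  rfl

section atmax

variable {z₀ : W n} {r lam Lam K : ℝ} {hΩ : IsOpen (Metric.ball z₀ r)}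
  (d : Dat hΩ (eb n) lam Lam K)

theorem size_le {Ω : Set (W n)} {hΩ : IsOpen Ω} (d : Dat hΩ (eb n) lam Lam K) (hlam : 0 < lam)
    {μ : ℝ} (hμ : 0 ≤ μ) (hμ2 : μ ^ 2 * lam = 1) (O : Ω) (v : W n)
    (hv : ((U2 hΩ d.u v v).1 O).re = 1) : ‖v‖ ≤ μ := by
  have h1 := d.low O v
  rw [hv] at h1
  have h2 : ‖v‖ ^ 2 ≤ μ ^ 2 := by
    have h3 : lam * ‖v‖ ^ 2 ≤ lam * μ ^ 2 := by rw [mul_comm lam (μ ^ 2), hμ2]; exact h1
    exact le_of_mul_le_mul_left h3 hlam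
  exact le_of_sq_le_sq h2 hμ

theorem coef_one {Ω : Set (W n)} {hΩ : IsOpen Ω} (d : Dat hΩ (eb n) lam Lam K) (O : Ω)
    (w : Module.Basis (Fin n) ℂ (W n))
    (hw : ∀ a b, (U2 hΩ d.u (w a) (w b)).1 O = if a = b then 1 else 0) (v : W n)
    (hv : ((U2 hΩ d.u v v).1 O).re = 1) : ∑ k, w.repr v k * conj (w.repr v k) = 1 := by
  have h1 := U2_repr hΩ d.u w v O
  simp only [hw, mul_ite, mul_one, mul_zero, Finset.sum_ite_eq, Finset.mem_univ, if_true] at h1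
  rw [← h1, re_eq (cj_U2 hΩ d.hu v v) O, hv, ofReal_one]

theorem coefn_one {Ω : Set (W n)} {hΩ : IsOpen Ω} (d : Dat hΩ (eb n) lam Lam K) (O : Ω)
    (w : Module.Basis (Fin n) ℂ (W n))
    (hw : ∀ a b, (U2 hΩ d.u (w a) (w b)).1 O = if a = b then 1 else 0) (v : W n)
    (hv : ((U2 hΩ d.u v v).1 O).re = 1) : ∑ k, ‖w.repr v k‖ ^ 2 = 1 := by
  have h1 := coef_one d O w hw v hv
  have h2 : ∀ k, w.repr v k * conj (w.repr v k) = ((‖w.repr v k‖ ^ 2 : ℝ) : ℂ) := fun k => by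
    rw [mul_conj, normSq_eq_norm_sq]
  simp only [h2] at h1
  rw [← ofReal_sum] at h1
  exact_mod_cast h1

/-- Cauchy-Schwarz for the third derivatives -/
theorem cs_U3 {Ω : Set (W n)} {hΩ : IsOpen Ω} (d : Dat hΩ (eb n) lam Lam K) (hlam : 0 < lam)
    {μ : ℝ} (hμ : 0 ≤ μ) (hμ2 : μ ^ 2 * lam = 1) (O : Ω) (w : Module.Basis (Fin n) ℂ (W n))
    (hw : ∀ a b, (U2 hΩ d.u (w a) (w b)).1 O = if a = b then 1 else 0) (ξ ζ η : W n)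
    (hξ : ((U2 hΩ d.u ξ ξ).1 O).re = 1)
    (hζ : ((U2 hΩ d.u ζ ζ).1 O).re = 1)
    (hη : ((U2 hΩ d.u η η).1 O).re = 1) :
    lam * ‖(U3 hΩ d.u ξ ζ η).1 O‖ ^ 2
        ≤ ∑ k, ∑ x, ∑ y, ‖(U3 hΩ d.u (eb n k) (w x) (w y)).1 O‖ ^ 2 := by
  have hsumw : ∀ v : W n, ∑ k, w.repr v k • w k = v := fun v => w.sum_repr v
  have b1 : (U3 hΩ d.u ξ ζ η).1 O = ∑ k, ξ k * (U3 hΩ d.u (eb n k) ζ η).1 O := by
    conv_lhs => rw [← sum_eb ξ]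
    rw [U3_sum_left, ← ev_apply O (∑ k, ξ k • U3 hΩ d.u (eb n k) ζ η), map_sum]
    simp only [map_smul, smul_eq_mul, ev_apply]
  have b2 : ∀ k, ‖(U3 hΩ d.u (eb n k) ζ η).1 O‖ ^ 2
      ≤ ∑ x, ∑ y, ‖(U3 hΩ d.u (eb n k) (w x) (w y)).1 O‖ ^ 2 := by
    intro k
    have c1 : (U3 hΩ d.u (eb n k) ζ η).1 O
        = ∑ x, ∑ y, w.repr ζ x * conj (w.repr η y) * (U3 hΩ d.u (eb n k) (w x) (w y)).1 O := by
      conv_lhs => rw [← hsumw ζ, ← hsumw η]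
      rw [U3_sum_mid]
      have : ∀ x, U3 hΩ d.u (eb n k) (w x) (∑ y, w.repr η y • w y)
          = ∑ y, conj (w.repr η y) • U3 hΩ d.u (eb n k) (w x) (w y) :=
        fun x => U3_sum_right hΩ d.u _ _ _ _ _
      simp only [this]
      rw [← ev_apply O]
      simp only [map_sum, map_smul, smul_eq_mul, ev_apply, Finset.mul_sum]
      refine Finset.sum_congr rfl fun x _ => Finset.sum_congr rfl fun y _ => ?_
      ring
    have c2 := cs2 Finset.univ Finset.univ (fun x => w.repr ζ x) (fun y => conj (w.repr η y))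
      (fun x y => (U3 hΩ d.u (eb n k) (w x) (w y)).1 O)
    simp only [norm_conj] at c2
    rw [coefn_one d O w hw ζ hζ, coefn_one d O w hw η hη, one_mul, one_mul, ← c1] at c2
    exact c2
  have b3 : ‖(U3 hΩ d.u ξ ζ η).1 O‖ ^ 2
      ≤ μ ^ 2 * ∑ k, ∑ x, ∑ y, ‖(U3 hΩ d.u (eb n k) (w x) (w y)).1 O‖ ^ 2 := by
    rw [b1]
    refine (cs _ _ _).trans ?_
    refine mul_le_mul ?_ (Finset.sum_le_sum fun k _ => b2 k)
      (Finset.sum_nonneg fun k _ => sq_nonneg _) (sq_nonneg _)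
    rw [← EuclideanSpace.norm_sq_eq]
    exact pow_le_pow_left₀ (norm_nonneg _) (size_le d hlam hμ hμ2 O ξ hξ) 2
  calc lam * ‖(U3 hΩ d.u ξ ζ η).1 O‖ ^ 2 ≤ lam * (μ ^ 2 * ∑ k, ∑ x, ∑ y,
        ‖(U3 hΩ d.u (eb n k) (w x) (w y)).1 O‖ ^ 2) := mul_le_mul_of_nonneg_left b3 hlam.le
    _ = (μ ^ 2 * lam) * ∑ k, ∑ x, ∑ y, ‖(U3 hΩ d.u (eb n k) (w x) (w y)).1 O‖ ^ 2 := by ring
    _ = _ := by rw [hμ2, one_mul]

/-- lower bound for the Laplacian of the trace -/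
theorem lap_tr_ge {Ω : Set (W n)} {hΩ : IsOpen Ω} (d : Dat hΩ (eb n) lam Lam K) (hlam : 0 < lam)
    (hK : 0 ≤ K) {μ : ℝ} (hμ : 0 ≤ μ) (hμ2 : μ ^ 2 * lam = 1) (O : Ω)
    (w : Module.Basis (Fin n) ℂ (W n))
    (hw : ∀ a b, (U2 hΩ d.u (w a) (w b)).1 O = if a = b then 1 else 0) (ξ ζ η : W n)
    (hξ : ((U2 hΩ d.u ξ ξ).1 O).re = 1)
    (hζ : ((U2 hΩ d.u ζ ζ).1 O).re = 1)
    (hη : ((U2 hΩ d.u η η).1 O).re = 1) :
    - (n * (K + K * Lam)) + lam * ‖(U3 hΩ d.u ξ ζ η).1 O‖ ^ 2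
      ≤ (∑ q, ev O (D hΩ (w q) (B hΩ (w q) (trU hΩ d.u)))).re := by
  have h1 : ∑ q, ev O (D hΩ (w q) (B hΩ (w q) (trU hΩ d.u)))
      = ∑ k, ((U2 hΩ d.f (eb n k) (eb n k)).1 O
        + ((∑ x, ∑ y, ‖(U3 hΩ d.u (eb n k) (w x) (w y)).1 O‖ ^ 2 : ℝ) : ℂ)) := by
    simp only [trU, map_sum]
    rw [Finset.sum_comm]
    exact Finset.sum_congr rfl fun k _ => lap_tr_val d w O hw (eb n k)
  rw [h1, re_sum]
  simp only [add_re, ofReal_re, Finset.sum_add_distrib]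
  have h2 : - (n * (K + K * Lam)) ≤ ∑ k, ((U2 hΩ d.f (eb n k) (eb n k)).1 O).re := by
    have h3 : ∀ k : Fin n, -(K + K * Lam) ≤ ((U2 hΩ d.f (eb n k) (eb n k)).1 O).re := by
      intro k
      rw [U2_f, add_re, re_ofReal_mul]
      have a1 := d.F2 O (eb n k)
      rw [norm_eb, one_pow, mul_one] at a1
      have a2 : -K ≤ ((U2 hΩ d.F (eb n k) (eb n k)).1 O).re :=
        neg_le_of_abs_le ((abs_re_le_norm _).trans a1)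
      have a3 := d.upp O (eb n k)
      have a4 := d.low O (eb n k)
      rw [norm_eb, one_pow, mul_one] at a3 a4
      have a5 : |d.eps * ((U2 hΩ d.u (eb n k) (eb n k)).1 O).re| ≤ K * Lam := by
        rw [abs_mul, abs_of_nonneg (hlam.le.trans a4)]
        exact mul_le_mul d.heps a3 (hlam.le.trans a4) hK
      have a6 := neg_le_of_abs_le a5
      linarith
    calc -(n * (K + K * Lam)) = ∑ _k : Fin n, -(K + K * Lam) := by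
          rw [Finset.sum_const, Finset.card_univ, Fintype.card_fin, nsmul_eq_mul]; ring
      _ ≤ _ := Finset.sum_le_sum fun k _ => h3 k
  have h4 := cs_U3 d hlam hμ hμ2 O w hw ξ ζ η hξ hζ hη
  linarith

theorem A4 (hK : 0 ≤ K) {μ : ℝ} (hμ : 0 ≤ μ) (O : Metric.ball z₀ r) (X : ℝ) (hr : 0 < r)
    (hX2 : X ^ 2 ≤ r ^ 4) (ξ ζ η : W n) (hξ : ‖ξ‖ ≤ μ) (hζ : ‖ζ‖ ≤ μ) (hη : ‖η‖ ≤ μ) :
    - (r ^ 4 * K * μ ^ 3 * (1 + ‖(U3 hΩ d.u ξ ζ η).1 O‖ ^ 2)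
        + 2 * r ^ 4 * K * ‖(U3 hΩ d.u ξ ζ η).1 O‖ ^ 2)
      ≤ 2 * X ^ 2 * ((U3 hΩ d.f ξ ζ η).1 O * conj ((U3 hΩ d.u ξ ζ η).1 O)).re := by
  have h1 : ‖(U3 hΩ d.f ξ ζ η).1 O‖ ≤ K * μ ^ 3 + K * ‖(U3 hΩ d.u ξ ζ η).1 O‖ := by
    rw [U3_f]
    refine (norm_add_le _ _).trans (add_le_add ?_ ?_)
    · refine (d.F3 O ξ ζ η).trans ?_
      calc K * ‖ξ‖ * ‖ζ‖ * ‖η‖ ≤ K * μ * μ * μ := by gcongr
        _ = K * μ ^ 3 := by ring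
    · rw [norm_mul, norm_real, Real.norm_eq_abs]
      exact mul_le_mul_of_nonneg_right d.heps (norm_nonneg _)
  generalize (U3 hΩ d.u ξ ζ η).1 O = T at *
  generalize (U3 hΩ d.f ξ ζ η).1 O = S at *
  have h2 : |(S * conj T).re| ≤ (K * μ ^ 3 + K * ‖T‖) * ‖T‖ := by
    refine (abs_re_le_norm _).trans ?_
    rw [norm_mul, norm_conj]
    exact mul_le_mul_of_nonneg_right h1 (norm_nonneg _)
  have h3 := neg_le_of_abs_le h2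
  have h4 : 0 ≤ (K * μ ^ 3 + K * ‖T‖) * ‖T‖ := by positivity
  have h5 : X ^ 2 * ((K * μ ^ 3 + K * ‖T‖) * ‖T‖) ≤ r ^ 4 * ((K * μ ^ 3 + K * ‖T‖) * ‖T‖) :=
    mul_le_mul_of_nonneg_right hX2 h4
  have h6 : -(X ^ 2 * ((K * μ ^ 3 + K * ‖T‖) * ‖T‖)) ≤ X ^ 2 * (S * conj T).re := by
    have := mul_le_mul_of_nonneg_left h3 (sq_nonneg X)
    linarith
  have h7 : 2 * (r ^ 4 * (K * μ ^ 3 * ‖T‖)) ≤ r ^ 4 * K * μ ^ 3 * (1 + ‖T‖ ^ 2) := by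
    have h8 : 2 * ‖T‖ ≤ 1 + ‖T‖ ^ 2 := by nlinarith [sq_nonneg (‖T‖ - 1)]
    have h9 : 0 ≤ r ^ 4 * K * μ ^ 3 := by positivity
    calc 2 * (r ^ 4 * (K * μ ^ 3 * ‖T‖)) = (r ^ 4 * K * μ ^ 3) * (2 * ‖T‖) := by ring
      _ ≤ _ := mul_le_mul_of_nonneg_left h8 h9
  have h9 : r ^ 4 * ((K * μ ^ 3 + K * ‖T‖) * ‖T‖)
      = r ^ 4 * (K * μ ^ 3 * ‖T‖) + r ^ 4 * K * ‖T‖ ^ 2 := by ring
  rw [h9] at h5
  linarith

theorem A3 {μ : ℝ} (hμ : 0 ≤ μ) (O : Metric.ball z₀ r) (X : ℝ)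
    (hX1 : X ≤ r ^ 2) (w : Fin n → W n) (hwq : ∀ q, ‖w q‖ ≤ μ)
    (hdist : ‖(O : W n) - z₀‖ ≤ r) (T2 : ℝ) (hT2 : 0 ≤ T2) :
    - (8 * n * r ^ 2 * μ ^ 2) * T2
      ≤ ∑ q, ((2 * X * ((U2 hΩ (cut (Metric.ball z₀ r) z₀ (3 * r / 4)) (w q) (w q)).1 O).re
          - 6 * ‖(D hΩ (w q) (cut (Metric.ball z₀ r) z₀ (3 * r / 4))).1 O‖ ^ 2) * T2) := by
  have h1 : ∀ q : Fin n, - (8 * r ^ 2 * μ ^ 2) * T2
      ≤ (2 * X * ((U2 hΩ (cut (Metric.ball z₀ r) z₀ (3 * r / 4)) (w q) (w q)).1 O).re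
        - 6 * ‖(D hΩ (w q) (cut (Metric.ball z₀ r) z₀ (3 * r / 4))).1 O‖ ^ 2) * T2 := by
    intro q
    refine mul_le_mul_of_nonneg_right ?_ hT2
    rw [U2_cut, ofReal_re]
    have a1 := norm_D_cut hΩ z₀ (w q) (3 * r / 4) O
    have a2 : ‖w q‖ ^ 2 ≤ μ ^ 2 := pow_le_pow_left₀ (norm_nonneg _) (hwq q) 2
    have a3 : ‖w q‖ * ‖(O : W n) - z₀‖ ≤ μ * r :=
      mul_le_mul (hwq q) hdist (norm_nonneg _) hμ
    have a4 : ‖(D hΩ (w q) (cut (Metric.ball z₀ r) z₀ (3 * r / 4))).1 O‖ ^ 2 ≤ (μ * r) ^ 2 :=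
      pow_le_pow_left₀ (norm_nonneg _) (a1.trans a3) 2
    have a5 : X * ‖w q‖ ^ 2 ≤ r ^ 2 * μ ^ 2 := mul_le_mul hX1 a2 (sq_nonneg _) (sq_nonneg _)
    nlinarith
  calc - (8 * n * r ^ 2 * μ ^ 2) * T2 = ∑ _q : Fin n, (- (8 * r ^ 2 * μ ^ 2) * T2) := by
        rw [Finset.sum_const, Finset.card_univ, Fintype.card_fin, nsmul_eq_mul]; ring
    _ ≤ _ := Finset.sum_le_sum fun q _ => h1 q

theorem at_max (hr : 0 < r) (hlam : 0 < lam) (hK : 0 ≤ K)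
    (O : Metric.ball z₀ r) (hO : dist (O : W n) z₀ < 3 * r / 4) (K' m μ : ℝ)
    (hμ : 0 ≤ μ) (hμ2 : μ ^ 2 * lam = 1)
    (hK' : 1 + r ^ 4 * 3 * (K * μ ^ 2 + K) + 8 * n * r ^ 2 * μ ^ 2 + 2 * r ^ 4 * K
      + r ^ 4 * K * μ ^ 3 ≤ K' * lam)
    (ξ ζ η : W n) (hξ : ((U2 hΩ d.u ξ ξ).1 O).re = 1)
    (hζ : ((U2 hΩ d.u ζ ζ).1 O).re = 1)
    (hη : ((U2 hΩ d.u η η).1 O).re = 1)
    (hmax : ∀ z : Metric.ball z₀ r, dist (z : W n) z₀ ≤ 3 * r / 4 → ∀ ξ ζ η : W n,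
      (((cut _ z₀ (3 * r / 4)).1 z).re) ^ 2 * ‖(U3 hΩ d.u ξ ζ η).1 z‖ ^ 2
        ≤ (m - K' * ((trU hΩ d.u).1 z).re)
          * ((U2 hΩ d.u ξ ξ).1 z).re
          * ((U2 hΩ d.u ζ ζ).1 z).re * ((U2 hΩ d.u η η).1 z).re)
    (heq : (((cut _ z₀ (3 * r / 4)).1 O).re) ^ 2
      * ‖(U3 hΩ d.u ξ ζ η).1 O‖ ^ 2
        = m - K' * ((trU hΩ d.u).1 O).re) :
    m ≤ r ^ 4 * (K' * n * (K + K * Lam) + r ^ 4 * K * μ ^ 3) + K' * n * Lam := by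
  have hpos : ∀ v : W n, v ≠ 0 → 0 < ((U2 hΩ d.u v v).1 O).re := fun v hv =>
    lt_of_lt_of_le (by positivity) (d.low O v)
  obtain ⟨w, hw⟩ := exists_frame hΩ d.hu (eb n) O hpos
  have hsize : ∀ v : W n, ((U2 hΩ d.u v v).1 O).re = 1 → ‖v‖ ≤ μ := fun v hv =>
    size_le d hlam hμ hμ2 O v hv
  have hwq : ∀ q, ‖w q‖ ≤ μ := fun q => hsize _ (by rw [hw]; simp)
  have hsumw : ∀ v : W n, ∑ k, w.repr v k • w k = v := fun v => w.sum_repr v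
  -- the core inequality
  have hmaxev : ∀ᶠ z in 𝓝 (O : W n), ∀ (hz : z ∈ Metric.ball z₀ r) (ξ ζ η : W n),
      ((cut (Metric.ball z₀ r) z₀ (3 * r / 4)).1 ⟨z, hz⟩).re ^ 2
        * ‖(U3 hΩ d.u ξ ζ η).1 ⟨z, hz⟩‖ ^ 2
        ≤ (m - K' * ((trU hΩ d.u).1 ⟨z, hz⟩).re) * ((U2 hΩ d.u ξ ξ).1 ⟨z, hz⟩).re
          * ((U2 hΩ d.u ζ ζ).1 ⟨z, hz⟩).re * ((U2 hΩ d.u η η).1 ⟨z, hz⟩).re := by
    have h1 : ∀ᶠ z in 𝓝 (O : W n), dist z z₀ < 3 * r / 4 :=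
      Metric.isOpen_ball.mem_nhds hO
    filter_upwards [h1] with z hz hz' ξ ζ η
    exact hmax ⟨z, hz'⟩ hz.le ξ ζ η
  have hcore := core_ineq d w O hw (cut (Metric.ball z₀ r) z₀ (3 * r / 4)) (trU hΩ d.u)
    (cj_cut _ _) (cj_trU hΩ d.hu) m K' (fun k => w.repr ξ k) (fun k => w.repr ζ k)
    (fun k => w.repr η k) (coef_one d O w hw ξ hξ) (coef_one d O w hw ζ hζ)
    (coef_one d O w hw η hη) hmaxev
    (by rw [hsumw ξ, hsumw ζ, hsumw η]; exact heq)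
  simp only [hsumw ξ, hsumw ζ, hsumw η] at hcore
  obtain ⟨X, hX⟩ : ∃ X, X = ((cut (Metric.ball z₀ r) z₀ (3 * r / 4)).1 O).re := ⟨_, rfl⟩
  rw [← hX] at hcore heq
  have hXv : X = (3 * r / 4) ^ 2 - ‖(O : W n) - z₀‖ ^ 2 := by
    rw [hX, cut_val, ofReal_re]
  have hdist : ‖(O : W n) - z₀‖ < 3 * r / 4 := by rw [← dist_eq_norm]; exact hO
  have hX0 : 0 ≤ X := by
    rw [hXv]
    have := norm_nonneg ((O : W n) - z₀)
    nlinarith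
  have hX1 : X ≤ r ^ 2 := by
    rw [hXv]
    have := sq_nonneg ‖(O : W n) - z₀‖
    nlinarith
  have hX2 : X ^ 2 ≤ r ^ 4 := by nlinarith
  have hn0 : (0 : ℝ) ≤ n := Nat.cast_nonneg n
  have hK'0 : 0 < K' := by
    have h1 : 0 < K' * lam := by
      have : 0 ≤ r ^ 4 * 3 * (K * μ ^ 2 + K) + 8 * n * r ^ 2 * μ ^ 2 + 2 * r ^ 4 * K
        + r ^ 4 * K * μ ^ 3 := by positivity
      linarith
    exact (pos_iff_pos_of_mul_pos h1).2 hlam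
  -- A2
  have A2 : ∀ v : W n, ((U2 hΩ d.u v v).1 O).re = 1 →
      ((U2 hΩ d.f v v).1 O).re ≤ K * μ ^ 2 + K := by
    intro v hv
    rw [U2_f, add_re, re_ofReal_mul, hv, mul_one]
    have h1 : ((U2 hΩ d.F v v).1 O).re ≤ K * μ ^ 2 := by
      refine (re_le_norm _).trans ((d.F2 O v).trans ?_)
      exact mul_le_mul_of_nonneg_left (pow_le_pow_left₀ (norm_nonneg _) (hsize v hv) 2) hK
    have h2 : d.eps ≤ K := (le_abs_self _).trans d.heps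
    linarith
  have hA1 := lap_tr_ge d hlam hK hμ hμ2 O w hw ξ ζ η hξ hζ hη
  have hA3 := A3 (hΩ := hΩ) hμ O X hX1 w hwq (by linarith)
    (‖(U3 hΩ d.u ξ ζ η).1 O‖ ^ 2) (sq_nonneg _)
  have hA4 := A4 d hK hμ O X hr hX2 ξ ζ η (hsize ξ hξ) (hsize ζ hζ) (hsize η hη)
  have h1 := A2 ξ hξ
  have h2 := A2 ζ hζ
  have h3 := A2 η hη
  have htr : ((trU hΩ d.u).1 O).re ≤ n * Lam := by
    rw [trU_re]
    calc ∑ k, ((U2 hΩ d.u (eb n k) (eb n k)).1 O).re ≤ ∑ _k : Fin n, Lam := by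
          refine Finset.sum_le_sum fun k _ => ?_
          have := d.upp O (eb n k)
          rwa [norm_eb, one_pow, mul_one] at this
      _ = n * Lam := by simp
  generalize ((∑ q, ev O (D hΩ (w q) (B hΩ (w q) (trU hΩ d.u))))).re = L1 at *
  generalize ((U2 hΩ d.f ξ ξ).1 O).re = s1 at *
  generalize ((U2 hΩ d.f ζ ζ).1 O).re = s2 at *
  generalize ((U2 hΩ d.f η η).1 O).re = s3 at *
  generalize ((U3 hΩ d.f ξ ζ η).1 O * conj ((U3 hΩ d.u ξ ζ η).1 O)).re = L4 at *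
  generalize (∑ q, ((2 * X * ((U2 hΩ (cut (Metric.ball z₀ r) z₀ (3 * r / 4)) (w q) (w q)).1 O).re
          - 6 * ‖(D hΩ (w q) (cut (Metric.ball z₀ r) z₀ (3 * r / 4))).1 O‖ ^ 2)
          * ‖(U3 hΩ d.u ξ ζ η).1 O‖ ^ 2)) = L3 at *
  have hTn : 0 ≤ ‖(U3 hΩ d.u ξ ζ η).1 O‖ ^ 2 := sq_nonneg _
  generalize ‖(U3 hΩ d.u ξ ζ η).1 O‖ ^ 2 = T2 at *
  generalize ((trU hΩ d.u).1 O).re = tr at *
  have A5 : (m - K' * tr) * (s1 + s2 + s3) ≤ r ^ 4 * 3 * (K * μ ^ 2 + K) * T2 := by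
    rw [← heq]
    have h4 : 0 ≤ K * μ ^ 2 + K := by positivity
    calc X ^ 2 * T2 * (s1 + s2 + s3)
        ≤ X ^ 2 * T2 * (3 * (K * μ ^ 2 + K)) :=
          mul_le_mul_of_nonneg_left (by linarith) (by positivity)
      _ ≤ r ^ 4 * T2 * (3 * (K * μ ^ 2 + K)) :=
          mul_le_mul_of_nonneg_right (mul_le_mul_of_nonneg_right hX2 hTn) (by positivity)
      _ = _ := by ring
  have hTT : T2 ≤ K' * n * (K + K * Lam) + r ^ 4 * K * μ ^ 3 := by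
    have g2 := mul_le_mul_of_nonneg_left hA1 hK'0.le
    have g3 := mul_le_mul_of_nonneg_right hK' hTn
    linarith [hcore, hA3, hA4, A5, g2, g3]
  have hm : m = X ^ 2 * T2 + K' * tr := by linarith
  rw [hm]
  have g1 : X ^ 2 * T2 ≤ r ^ 4 * (K' * n * (K + K * Lam) + r ^ 4 * K * μ ^ 3) :=
    mul_le_mul hX2 hTT hTn (by positivity)
  have g2 : K' * tr ≤ K' * n * Lam := by
    have := mul_le_mul_of_nonneg_left htr hK'0.le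
    linarith
  linarith

end atmax

end Crest.Agent.R273.YC3_812
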