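import Crest.Agent.R273.GreenM_5

/-!
# R273 (S0416), Green's formula for closed fields of type `(1,1)` (helper5)

* `qa X p q = ∑ X b a * p a * q b`, `qa_tr`, `qa_nonneg`
* `grd G φ u i x = ∑ adj(G)_{b a} ∂_a φ ∂̄_b u` : a density (`grd_tr`, `grd_dn`)
* `mixed` : `∫ tr (adj (g + ∂∂̄u) (S + ∂∂̄v)) = ∫ tr (adj g S)`
* `grd_le` : energy estimate for `∫ adj(G)(∂g, ∂̄g)`
-/

set_option autoImplicit false
set_option linter.unusedSectionVars false

open Set Filter Topology Complex MeasureTheory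
open scoped ContDiff Matrix ComplexConjugate ComplexOrder Polynomial

namespace Crest.Agent.R273.GreenG_5

open Crest.Agent.R275 Crest.Agent.R275.Geo Crest.Agent.R275.Core144 Crest.Agent.R275.EDR890
open Crest.Agent.R275.Pai323 Crest.Agent.R275.C1d194
open Crest.Agent.R275.SerG398 (lint dens OffZ)
open Crest.Agent.R275.OmT75 (dj dl dl_chain dl_mul db_chain dj_sum dj_congr)
open Crest.Agent.R273.Defs_333 Crest.Agent.R273.Hess_333 Crest.Agent.R273.HessB_333
open Crest.Agent.R273.HM_333 Crest.Agent.R273.Kah_333 Crest.Agent.R273.Vol_333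
open Crest.Agent.R273.Vm_333
open Crest.Agent.R273.StV_37 Crest.Agent.R273.Piola_5 Crest.Agent.R273.Green_5
open Crest.Agent.R273.VolInv_5 Crest.Agent.R273.GreenM_5

noncomputable section

/-! ### linear algebra -/

section LA

variable {n : ℕ}

/-- `∑ X b a * p a * q b` -/
def qa (X : Matrix (Fin n) (Fin n) ℂ) (p q : Fin n → ℂ) : ℂ := ∑ a, ∑ b, X b a * p a * q b

theorem qa_eq (X : Matrix (Fin n) (Fin n) ℂ) (p q : Fin n → ℂ) : qa X p q = q ⬝ᵥ (X *ᵥ p) := by
  unfold qa
  simp only [dotProduct, Matrix.mulVec, Finset.mul_sum]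
  rw [Finset.sum_comm]
  exact Finset.sum_congr rfl fun b _ => Finset.sum_congr rfl fun a _ => by ring

theorem qa_tr (J G : Matrix (Fin n) (Fin n) ℂ) (p q : Fin n → ℂ) :
    qa (Jᵀ * G * J.map conj).adjugate (Jᵀ *ᵥ p) ((J.map conj)ᵀ *ᵥ q) =
      (J.det * conj J.det) * qa G.adjugate p q := by
  rw [qa_eq, qa_eq, Matrix.adjugate_mul_distrib, Matrix.adjugate_mul_distrib,
    Matrix.mulVec_transpose (J.map conj) q, ← Matrix.dotProduct_mulVec, Matrix.mulVec_mulVec,
    Matrix.mulVec_mulVec]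
  have h1 : J.map conj * ((J.map conj).adjugate * (G.adjugate * Jᵀ.adjugate)) * Jᵀ =
      (J.det * conj J.det) • G.adjugate := by
    calc J.map conj * ((J.map conj).adjugate * (G.adjugate * Jᵀ.adjugate)) * Jᵀ
        = (J.map conj * (J.map conj).adjugate) * (G.adjugate * (Jᵀ.adjugate * Jᵀ)) := by
          simp only [Matrix.mul_assoc]
      _ = _ := by
          rw [Matrix.mul_adjugate, Matrix.adjugate_mul, Matrix.det_transpose, det_map_conj,
            Matrix.smul_mul, Matrix.mul_smul, Matrix.mul_one, Matrix.one_mul, smul_smul,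
            mul_comm (conj J.det)]
  rw [h1, Matrix.smul_mulVec, dotProduct_smul, smul_eq_mul]

theorem qa_smul (X : Matrix (Fin n) (Fin n) ℂ) (p q : Fin n → ℂ) (s t : ℂ) :
    qa X (fun a => s * p a) (fun b => t * q b) = s * t * qa X p q := by
  unfold qa
  simp only [Finset.mul_sum]
  exact Finset.sum_congr rfl fun a _ => Finset.sum_congr rfl fun b _ => by ring

theorem adjugate_eq {G : Matrix (Fin n) (Fin n) ℂ} (hG : G.PosDef) : G.adjugate = G.det • G⁻¹ := by
  rw [Matrix.inv_def, smul_smul, Ring.mul_inverse_cancel _ (isUnit_iff_ne_zero.2 hG.det_pos.ne'),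
    one_smul]

theorem qa_nonneg {G : Matrix (Fin n) (Fin n) ℂ} (hG : G.PosDef) (p : Fin n → ℂ) :
    0 ≤ qa G.adjugate p (fun b => conj (p b)) := by
  rw [qa_eq, adjugate_eq hG, Matrix.smul_mulVec, dotProduct_smul, smul_eq_mul]
  exact mul_nonneg hG.det_pos.le (hG.inv.posSemidef.dotProduct_mulVec_nonneg p)

theorem trace_adj_nonneg {G S : Matrix (Fin n) (Fin n) ℂ} (hG : G.PosDef)
    (hS : S.PosSemidef) : 0 ≤ (G.adjugate * S).trace := by
  rw [adjugate_eq hG, Matrix.smul_mul, Matrix.trace_smul, smul_eq_mul]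
  exact mul_nonneg hG.det_pos.le (trace_inv_mul_nonneg hG hS)

theorem coeff_one_dp (g H : Matrix (Fin n) (Fin n) ℂ) :
    (dp g H).coeff 1 = (g.adjugate * H).trace := by
  have h1 := eval_derivative_dp g H 0
  rw [ofReal_zero, zero_smul, add_zero, ← Polynomial.coeff_zero_eq_eval_zero,
    Polynomial.coeff_derivative] at h1
  simpa using h1

end LA

variable {n : ℕ} {M : Type} [TopologicalSpace M] {A : Atl n M}

/-! ### gradients -/

/-- `∑ adj(G)_{b a} ∂_a φ ∂̄_b u` -/
def grd (G : A.ι → M → Matrix (Fin n) (Fin n) ℂ) (φ u : M → ℂ) (i : A.ι) (x : M) : ℂ :=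
  ∑ a, ∑ b, (G i x).adjugate b a * dl A i a φ x * A.db i b u x

theorem grd_qa (G : A.ι → M → Matrix (Fin n) (Fin n) ℂ) (φ u : M → ℂ) (i : A.ι) (x : M) :
    grd G φ u i x = qa (G i x).adjugate (fun a => dl A i a φ x) (fun b => A.db i b u x) := rfl

theorem dl_vec {φ : M → ℂ} {i j : A.ι} {x : M} (hx : x ∈ (A.e i).source ∩ (A.e j).source)
    (hφ : A.SmAt j φ) :
    (fun a => dl A i a φ x) = (Jm A i j x)ᵀ *ᵥ fun b => dl A j b φ x := by
  funext a
  rw [dl_chain (Atl.SmAt.diffAt hφ hx.2) hx a]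
  rfl

theorem db_vec {u : M → ℂ} {i j : A.ι} {x : M} (hx : x ∈ (A.e i).source ∩ (A.e j).source)
    (hu : A.SmAt j u) :
    (fun b => A.db i b u x) = ((Jm A i j x).map conj)ᵀ *ᵥ fun c => A.db j c u x := by
  funext b
  rw [db_chain (Atl.SmAt.diffAt hu hx.2) hx b]
  rfl

theorem grd_tr {G : A.ι → M → Matrix (Fin n) (Fin n) ℂ} {φ u : M → ℂ} {i j : A.ι} {x : M}
    (hx : x ∈ (A.e i).source ∩ (A.e j).source)
    (hG : G i x = (Jm A i j x)ᵀ * G j x * (Jm A i j x).map conj)
    (hφ : A.SmAt j φ) (hu : A.SmAt j u) :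
    grd G φ u i x = dens A i j x * grd G φ u j x := by
  rw [grd_qa, grd_qa, dl_vec hx hφ, db_vec hx hu, hG, qa_tr, dens_Jm]

theorem grd_dn {G : A.ι → M → Matrix (Fin n) (Fin n) ℂ} (hG : Tn A G) {φ u : M → ℂ}
    (hφ : ∀ i, A.SmAt i φ) (hu : ∀ i, A.SmAt i u) : Dn A (grd G φ u) :=
  fun i j x hx => grd_tr hx (hG i j x hx) (hφ j) (hu j)

theorem smAt_grd {G : A.ι → M → Matrix (Fin n) (Fin n) ℂ} (hG : CF A G) {φ u : M → ℂ}
    (hφ : ∀ i, A.SmAt i φ) (hu : ∀ i, A.SmAt i u) (i : A.ι) : A.SmAt i (grd G φ u i) :=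
  ContDiffOn.sum fun a _ => ContDiffOn.sum fun b _ =>
    ((smAt_adj hG i a b).mul (smAt_dl (hφ i) a)).mul ((hu i).db b)

theorem db_ofReal (u : M → ℝ) (i : A.ι) (b : Fin n) (x : M) :
    A.db i b (fun y => (u y : ℂ)) x = conj (dl A i b (fun y => (u y : ℂ)) x) := by
  have h4 := db_conj (A := A) i b (fun y => (u y : ℂ)) x
  simp only [conj_ofReal] at h4
  exact h4

theorem grd_nonneg {G : A.ι → M → Matrix (Fin n) (Fin n) ℂ} (u : M → ℝ) {i : A.ι} {x : M}
    (hG : (G i x).PosDef) : 0 ≤ grd G (fun y => (u y : ℂ)) (fun y => (u y : ℂ)) i x := by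
  rw [grd_qa]
  have h1 : (fun b => A.db i b (fun y => (u y : ℂ)) x) =
      fun b => conj (dl A i b (fun y => (u y : ℂ)) x) := funext fun b => db_ofReal u i b x
  rw [h1]
  exact qa_nonneg hG _

theorem trA_dn {G S : A.ι → M → Matrix (Fin n) (Fin n) ℂ} (hG : Tn A G) (hS : Tn A S) :
    Dn A (fun i x => ((G i x).adjugate * S i x).trace) := by
  intro i j x hx
  change ((G i x).adjugate * S i x).trace = dens A i j x * ((G j x).adjugate * S j x).trace
  rw [hG i j x hx, hS i j x hx, Matrix.adjugate_mul_distrib, Matrix.adjugate_mul_distrib]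
  set J := Jm A i j x with hJ
  have h1 : (J.map conj).adjugate * ((G j x).adjugate * Jᵀ.adjugate) * (Jᵀ * S j x * J.map conj) =
      J.det • ((J.map conj).adjugate * ((G j x).adjugate * S j x) * J.map conj) := by
    calc (J.map conj).adjugate * ((G j x).adjugate * Jᵀ.adjugate) * (Jᵀ * S j x * J.map conj)
        = (J.map conj).adjugate * ((G j x).adjugate * ((Jᵀ.adjugate * Jᵀ) * S j x)) *
            J.map conj := by simp only [Matrix.mul_assoc]
      _ = _ := by
        rw [Matrix.adjugate_mul, Matrix.det_transpose, Matrix.smul_mul, Matrix.one_mul,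
          Matrix.mul_smul, Matrix.mul_smul, Matrix.smul_mul]
  rw [h1, Matrix.trace_smul, Matrix.trace_mul_comm, ← Matrix.mul_assoc, Matrix.mul_adjugate,
    Matrix.smul_mul, Matrix.one_mul, Matrix.trace_smul, smul_eq_mul, smul_eq_mul, det_map_conj,
    dens_Jm, ← hJ]
  ring

theorem smAt_trA {G S : A.ι → M → Matrix (Fin n) (Fin n) ℂ} (hG : CF A G) (hS : CF A S)
    (i : A.ι) : A.SmAt i (fun x => ((G i x).adjugate * S i x).trace) := by
  have h2 : (fun x => ((G i x).adjugate * S i x).trace) =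
      fun x => ∑ b, ∑ a, (G i x).adjugate b a * S i x a b := by
    funext x
    simp only [Matrix.trace, Matrix.diag, Matrix.mul_apply]
  rw [h2]
  exact ContDiffOn.sum fun b _ => ContDiffOn.sum fun a _ => (smAt_adj hG i a b).mul (hS.sm i a b)

/-! ### mixed traces -/

section compact

variable [T2Space M] [CompactSpace M]

theorem totc_dp (Pt : Part A) {g S : A.ι → M → Matrix (Fin n) (Fin n) ℂ} (hg : CF A g)
    (hS : CF A S) (t : ℂ) :
    totc Pt (fun i x => (g i x + t • S i x).det) =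
      ∑ k ∈ Finset.range (n + 2), t ^ k * totc Pt (fun i x => (dp (g i x) (S i x)).coeff k) := by
  have hcs : ∀ k i, A.SmAt i (fun x => (dp (g i x) (S i x)).coeff k) :=
    fun k i => smAt_coeff_dp (hg.sm i) (hS.sm i) k
  have h1 : totc Pt (fun i x => (g i x + t • S i x).det) =
      totc Pt (fun i x => ∑ k ∈ Finset.range (n + 2), t ^ k * (dp (g i x) (S i x)).coeff k) := by
    refine totc_congr Pt fun i x _ => ?_
    rw [← eval_dp, Polynomial.eval_eq_sum_range' (n := n + 2)
      (lt_of_le_of_lt (natDegree_dp _ _) (by omega))]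
    exact Finset.sum_congr rfl fun k _ => mul_comm _ _
  rw [h1, totc_sum Pt _ (f := fun (k : ℕ) i x => t ^ k * (dp (g i x) (S i x)).coeff k) fun k _ i =>
    (contDiffOn_const (c := t ^ k)).mul (hcs k i)]
  exact Finset.sum_congr rfl fun k _ => totc_smul Pt _ _

/-- mixed traces do not change -/
theorem mixed (Pt : Part A) {g S : A.ι → M → Matrix (Fin n) (Fin n) ℂ} (hg : CF A g)
    (hS : CF A S) {u v : M → ℝ} (hu : A.Sm u) (hv : A.Sm v) :
    totc Pt (fun i x => ((g i x + hsf A u i x).adjugate * (S i x + hsf A v i x)).trace) =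
      totc Pt (fun i x => ((g i x).adjugate * S i x).trace) := by
  have hg' : CF A (fun i x => g i x + hsf A u i x) := hg.add (hsf_cf hu)
  -- the second argument
  have h1 : totc Pt (fun i x => ((g i x + hsf A u i x).adjugate * (S i x + hsf A v i x)).trace) =
      totc Pt (fun i x => ((g i x + hsf A u i x).adjugate * S i x).trace) := by
    have e1 : totc Pt (fun i x => ((g i x + hsf A u i x).adjugate *
          (S i x + hsf A v i x)).trace) =
        totc Pt (fun i x => ((g i x + hsf A u i x).adjugate * S i x).trace +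
          ((g i x + hsf A u i x).adjugate * hm A (fun y => (v y : ℂ)) i x).trace) := by
      refine totc_congr Pt fun i x hx => ?_
      rw [hm_ofReal v i hx, Matrix.mul_add, Matrix.trace_add]
    rw [e1, totc_add Pt (fun i => smAt_trA hg' hS i)
      (fun i => smAt_tr hg' (smAt_ofReal (hv i))), green1c Pt hg' fun i => smAt_ofReal (hv i),
      add_zero]
  rw [h1]
  -- the first argument
  set Q : (A.ι → M → Matrix (Fin n) (Fin n) ℂ) → ℂ[X] := fun g =>
    ∑ k ∈ Finset.range (n + 2), Polynomial.monomial k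
      (totc Pt (fun i x => (dp (g i x) (S i x)).coeff k)) with hQ
  have hev : ∀ g, CF A g → ∀ t : ℂ, (Q g).eval t =
      totc Pt (fun i x => (g i x + t • S i x).det) := by
    intro g hg t
    rw [totc_dp Pt hg hS, hQ]
    simp only [Polynomial.eval_finsetSum, Polynomial.eval_monomial]
    exact Finset.sum_congr rfl fun k _ => mul_comm _ _
  have hco : ∀ g, (Q g).coeff 1 = totc Pt (fun i x => ((g i x).adjugate * S i x).trace) := by
    intro g
    rw [hQ]
    simp only [Polynomial.finsetSum_coeff, Polynomial.coeff_monomial]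
    rw [Finset.sum_ite_eq' (Finset.range (n + 2)) 1, if_pos (Finset.mem_range.2 (by omega))]
    simp only [coeff_one_dp]
  rw [← hco (fun i x => g i x + hsf A u i x), ← hco g]
  congr 1
  refine Polynomial.eq_of_infinite_eval_eq _ _ ?_
  refine Set.infinite_of_injective_forall_mem (f := fun t : ℝ => (t : ℂ)) ofReal_injective ?_
  intro t
  change (Q fun i x => g i x + hsf A u i x).eval (t : ℂ) = (Q g).eval (t : ℂ)
  rw [hev _ hg', hev _ hg]
  have h2 := volinv Pt (hg.add (hS.smul (t : ℂ))) hu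
  rw [← h2]
  refine totc_congr Pt fun i x _ => ?_
  congr 1
  abel

/-- the energy as an integral -/
theorem totc_grd (Pt : Part A) {G : A.ι → M → Matrix (Fin n) (Fin n) ℂ} (hG : CF A G)
    {φ u : M → ℝ} (hφ : A.Sm φ) (hu : A.Sm u) :
    totc Pt (grd G (fun y => (φ y : ℂ)) (fun y => (u y : ℂ))) =
      - totc Pt (fun i x => (φ x : ℂ) * ((G i x).adjugate * hsf A u i x).trace) := by
  have h1 := greenc Pt hG (φ := fun y => (φ y : ℂ)) (u := fun y => (u y : ℂ))
    (fun i => smAt_ofReal (hφ i)) (fun i => smAt_ofReal (hu i))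
  have h2 : totc Pt (fun i x => (φ x : ℂ) * ((G i x).adjugate * hsf A u i x).trace) =
      totc Pt (fun i x => (φ x : ℂ) * ((G i x).adjugate *
        hm A (fun y => (u y : ℂ)) i x).trace) := by
    refine totc_congr Pt fun i x hx => ?_
    rw [hm_ofReal u i hx]
  rw [h2, h1, neg_neg]
  rfl

end compact

section meas

variable [T2Space M] [CompactSpace M] [MeasurableSpace M] [BorelSpace M] [Finite A.ι]

theorem totc_mono (K : Kah A) (Pt : Part A) {f f' : A.ι → M → ℂ} (hf : Dn A f) (hf' : Dn A f')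
    (hs : ∀ i, A.SmAt i (f i)) (hs' : ∀ i, A.SmAt i (f' i))
    (h : ∀ i, ∀ x ∈ (A.e i).source, f i x ≤ f' i x) : (totc Pt f).re ≤ (totc Pt f').re := by
  rw [← integral_fnD_re K Pt hf hs, ← integral_fnD_re K Pt hf' hs']
  refine integral_mono (integrable_sm (volK K) (sm_re (sm_fnD K hf hs)))
    (integrable_sm (volK K) (sm_re (sm_fnD K hf' hs'))) fun x => ?_
  have hx := mem_ci (A := A) x
  have h1 := (K.pos _ _ hx).det_pos
  have h2 : f (ci A x) x / (K.g (ci A x) x).det ≤ f' (ci A x) x / (K.g (ci A x) x).det :=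
    div_le_div_of_nonneg_right (h _ _ hx) h1.le
  exact (Complex.le_def.1 h2).1

/-- **energy estimate** -/
theorem grd_le (K : Kah A) (Pt : Part A) {G S₀ S₁ : A.ι → M → Matrix (Fin n) (Fin n) ℂ}
    (hG : CF A G) (hS₀ : CF A S₀) (hS₁ : CF A S₁)
    (pG : ∀ i, ∀ x ∈ (A.e i).source, (G i x).PosDef)
    (p₀ : ∀ i, ∀ x ∈ (A.e i).source, (S₀ i x).PosSemidef)
    (p₁ : ∀ i, ∀ x ∈ (A.e i).source, (S₁ i x).PosSemidef)
    {g : M → ℝ} (hg : A.Sm g) (hgs : ∀ i, ∀ x ∈ (A.e i).source, hsf A g i x = S₀ i x - S₁ i x)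
    {m : ℝ} (h0 : ∀ x, 0 ≤ g x) (hm : ∀ x, g x ≤ m) :
    (totc Pt (grd G (fun y => (g y : ℂ)) (fun y => (g y : ℂ)))).re ≤
      m * (totc Pt (fun i x => ((G i x).adjugate * S₁ i x).trace)).re := by
  have hgc : ∀ i, A.SmAt i (fun y => (g y : ℂ)) := fun i => smAt_ofReal (hg i)
  have h1 : totc Pt (grd G (fun y => (g y : ℂ)) (fun y => (g y : ℂ))) =
      totc Pt (fun i x => (g x : ℂ) * ((G i x).adjugate * S₁ i x).trace) -
        totc Pt (fun i x => (g x : ℂ) * ((G i x).adjugate * S₀ i x).trace) := by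
    rw [totc_grd Pt hG hg hg]
    have e1 : totc Pt (fun i x => (g x : ℂ) * ((G i x).adjugate * S₀ i x).trace) =
        totc Pt (fun i x => (g x : ℂ) * ((G i x).adjugate * hsf A g i x).trace) +
          totc Pt (fun i x => (g x : ℂ) * ((G i x).adjugate * S₁ i x).trace) := by
      rw [← totc_add Pt (f := fun i x => (g x : ℂ) * ((G i x).adjugate * hsf A g i x).trace)
        (f' := fun i x => (g x : ℂ) * ((G i x).adjugate * S₁ i x).trace)
        (fun i => (hgc i).mul (smAt_trA hG (hsf_cf hg) i))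
        (fun i => (hgc i).mul (smAt_trA hG hS₁ i))]
      refine totc_congr Pt fun i x hx => ?_
      rw [hgs i x hx, Matrix.mul_sub, Matrix.trace_sub]
      ring
    rw [e1]
    ring
  rw [h1, Complex.sub_re]
  have d₁ := trA_dn (CF.tn hG) (CF.tn hS₁)
  have d₀ := trA_dn (CF.tn hG) (CF.tn hS₀)
  have gd : ∀ {f : A.ι → M → ℂ}, Dn A f → Dn A (fun i x => (g x : ℂ) * f i x) := by
    intro f hf i j x hx
    change (g x : ℂ) * f i x = dens A i j x * ((g x : ℂ) * f j x)
    rw [hf i j x hx]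
    ring
  have md : ∀ {f : A.ι → M → ℂ}, Dn A f → Dn A (fun i x => (m : ℂ) * f i x) := by
    intro f hf i j x hx
    change (m : ℂ) * f i x = dens A i j x * ((m : ℂ) * f j x)
    rw [hf i j x hx]
    ring
  have h2 : (totc Pt (fun i x => (g x : ℂ) * ((G i x).adjugate * S₁ i x).trace)).re ≤
      (totc Pt (fun i x => (m : ℂ) * ((G i x).adjugate * S₁ i x).trace)).re := by
    refine totc_mono K Pt (gd d₁) (md d₁) (fun i => (hgc i).mul (smAt_trA hG hS₁ i))
      (fun i => (contDiffOn_const (c := (m : ℂ))).mul (smAt_trA hG hS₁ i)) fun i x hx => ?_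
    exact mul_le_mul_of_nonneg_right (by exact_mod_cast hm x)
      (trace_adj_nonneg (pG i x hx) (p₁ i x hx))
  rw [totc_smul, Complex.re_ofReal_mul] at h2
  have h3 : 0 ≤ (totc Pt (fun i x => (g x : ℂ) * ((G i x).adjugate * S₀ i x).trace)).re := by
    have h4 := totc_mono K Pt (f := fun _ _ => 0) (f' := fun i x => (g x : ℂ) *
      ((G i x).adjugate * S₀ i x).trace) (fun i j x _ => by simp) (gd d₀)
      (fun i => contDiffOn_const) (fun i => (hgc i).mul (smAt_trA hG hS₀ i)) fun i x hx =>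
        mul_nonneg (by exact_mod_cast h0 x) (trace_adj_nonneg (pG i x hx) (p₀ i x hx))
    have h5 : totc Pt (fun (_ : A.ι) (_ : M) => (0 : ℂ)) = 0 := by
      unfold totc tot
      simp only [mul_zero, lint_zero, Finset.sum_const_zero]
    rwa [h5, Complex.zero_re] at h4
  linarith

end meas

end

end Crest.Agent.R273.GreenG_5
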