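import Crest.Agent.R275.PaiB_323
import Crest.Agent.R275.Del_75

/-!
# R273 (S0416), leaf D.5 (helper332): integration of densities, Stokes for vector densities

`M` need not be compact (everything has compact support then).

* `Den A f`      : `f : A.ι → M → ℂ` is a smooth density, `f i = |det ∂z^j/∂z^i|² f j`;
* `OffK A f K`   : `f` vanishes off `K`;
* `intD P f`     : the integral `∑_i ∫_i ψ_i f_i` of a density with compact support
  (`intD_eq_sum`, `intD_local`, `intD_indep`, `intD_add`, `intD_smul`, ...; `pr_eq_intD`);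
* `VD01 A Y`, `VD10 A Y` : vector densities of type `(0,1)` / `(1,0)`;
* `stokes01`, `stokes10` : `∫ ∑_a ∂̄_a Y^a = 0`, `∫ ∑_a ∂_a Y^a = 0`;
* `parts01`, `parts10`   : integration by parts with a smooth function;
* `VD01.of_inv`, `VD10.of_inv` : the transformation law `Y_i = dens_ij J_ji Y_j`;
* `intD_nonneg`, `eq_zero_of_intD` : positivity and definiteness.
-/

set_option autoImplicit false
set_option linter.unusedSectionVars false

open Set Filter Topology Complex MeasureTheory
open scoped ContDiff Matrix ComplexConjugate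

namespace Crest.Agent.R273.StokesV_332

open Crest.Agent.R275.Geo Crest.Agent.R275.Tor812 Crest.Agent.R275.TorS666
open Crest.Agent.R275.C1d194 Crest.Agent.R275.Pai323 Crest.Agent.R275.OmT75
open Crest.Agent.R275.SerG398 (lint dens DPair)

noncomputable section

variable {n : ℕ} {M : Type} [TopologicalSpace M] {A : Atl n M}

/-- a smooth density: `f i = |det ∂z^j/∂z^i|² f j` -/
structure Den (A : Atl n M) (f : A.ι → M → ℂ) : Prop where
  sm : ∀ i, A.SmAt i (f i)
  tr : ∀ i j, ∀ x ∈ (A.e i).source ∩ (A.e j).source, f i x = dens A i j x * f j x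

/-- `f` vanishes off `K` (only the values on the charts matter) -/
def OffK (A : Atl n M) (f : A.ι → M → ℂ) (K : Set M) : Prop :=
  ∀ i, ∀ x ∈ (A.e i).source, x ∉ K → f i x = 0

/-- the integral of a density with compact support -/
def intD (P : Part A) (f : A.ι → M → ℂ) : ℂ :=
  ∑ᶠ i, lint A i (fun x => (P.ψ i x : ℂ) * f i x)

theorem OffK.mono {f : A.ι → M → ℂ} {K K' : Set M} (h : OffK A f K) (hK : K ⊆ K') :
    OffK A f K' := fun i x hx hxK => h i x hx fun h' => hxK (hK h')

theorem offK_univ (f : A.ι → M → ℂ) : OffK A f univ := fun _ x _ hx => absurd (mem_univ x) hx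

theorem OffK.add {f g : A.ι → M → ℂ} {K : Set M} (hf : OffK A f K) (hg : OffK A g K) :
    OffK A (fun i x => f i x + g i x) K := fun i x hx hxK => by
  show f i x + g i x = 0
  rw [hf i x hx hxK, hg i x hx hxK, add_zero]

theorem OffK.mul_left {f : A.ι → M → ℂ} {K : Set M} (hf : OffK A f K) (g : A.ι → M → ℂ) :
    OffK A (fun i x => g i x * f i x) K := fun i x hx hxK => by
  show g i x * f i x = 0
  rw [hf i x hx hxK, mul_zero]

theorem OffK.mul_right {f : A.ι → M → ℂ} {K : Set M} (hf : OffK A f K) (g : A.ι → M → ℂ) :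
    OffK A (fun i x => f i x * g i x) K := fun i x hx hxK => by
  show f i x * g i x = 0
  rw [hf i x hx hxK, zero_mul]

theorem OffK.sum {σ : Type*} {s : Finset σ} {f : σ → A.ι → M → ℂ} {K : Set M}
    (hf : ∀ t ∈ s, OffK A (f t) K) : OffK A (fun i x => ∑ t ∈ s, f t i x) K :=
  fun i x hx hxK => Finset.sum_eq_zero fun t ht => hf t ht i x hx hxK

namespace Den

variable {f g : A.ι → M → ℂ}

theorem add (hf : Den A f) (hg : Den A g) : Den A (fun i x => f i x + g i x) where
  sm i := (hf.sm i).add (hg.sm i)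
  tr i j x hx := by rw [hf.tr i j x hx, hg.tr i j x hx, mul_add]

theorem smul (c : ℂ) (hf : Den A f) : Den A (fun i x => c * f i x) where
  sm i := ContDiffOn.mul contDiffOn_const (hf.sm i)
  tr i j x hx := by rw [hf.tr i j x hx]; ring

theorem mulF {φ : M → ℂ} (hφ : A.Sm φ) (hf : Den A f) : Den A (fun i x => φ x * f i x) where
  sm i := (hφ i).mul (hf.sm i)
  tr i j x hx := by rw [hf.tr i j x hx]; ring

theorem sum {σ : Type*} {s : Finset σ} {f : σ → A.ι → M → ℂ} (hf : ∀ t ∈ s, Den A (f t)) :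
    Den A (fun i x => ∑ t ∈ s, f t i x) where
  sm i := ContDiffOn.sum fun t ht => (hf t ht).sm i
  tr i j x hx := by
    rw [Finset.mul_sum]
    exact Finset.sum_congr rfl fun t ht => (hf t ht).tr i j x hx

theorem dens_conj (i j : A.ι) (x : M) : conj (dens A i j x) = dens A i j x := by
  unfold dens
  exact Complex.conj_ofReal _

theorem smAt_conj {i : A.ι} {f : M → ℂ} (hf : A.SmAt i f) : A.SmAt i (fun x => conj (f x)) :=
  (Complex.conjCLE.contDiff.comp_contDiffOn hf :)

theorem conjD (hf : Den A f) : Den A (fun i x => conj (f i x)) where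
  sm i := smAt_conj (hf.sm i)
  tr i j x hx := by rw [hf.tr i j x hx, map_mul, dens_conj]

end Den

/-! ### cutting off outside the chart -/

open Classical in
/-- `f` set to zero off the chart `i` -/
def cut (A : Atl n M) (i : A.ι) (f : M → ℂ) : M → ℂ := fun x => if x ∈ (A.e i).source then f x else 0

theorem cut_of_mem {i : A.ι} {f : M → ℂ} {x : M} (hx : x ∈ (A.e i).source) : cut A i f x = f x :=
  if_pos hx

theorem cut_off {i : A.ι} {f : M → ℂ} {x : M} (hx : x ∉ (A.e i).source) : cut A i f x = 0 :=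
  if_neg hx

theorem rd_cut (i : A.ι) (f : M → ℂ) : rd A i (cut A i f) = rd A i f := by
  funext x
  by_cases hx : x ∈ Ui A i
  · rw [rd_of_mem hx, rd_of_mem hx, cut_of_mem ((A.e i).map_target hx)]
  · rw [rd_off hx, rd_off hx]

theorem lint_cut (i : A.ι) (f : M → ℂ) : lint A i (cut A i f) = lint A i f :=
  lint_congr fun _ hx => cut_of_mem hx

theorem smAt_cut {i : A.ι} {f : M → ℂ} (hf : A.SmAt i f) : A.SmAt i (cut A i f) := by
  refine ContDiffOn.congr hf fun z hz => ?_
  exact cut_of_mem ((A.e i).map_target hz)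

section t2

variable [T2Space M]

theorem cc_cut {i : A.ι} {f : M → ℂ} (hf : A.SmAt i f) {K : Set M} (hK : IsCompact K)
    (hKi : K ⊆ (A.e i).source) (h0 : ∀ x ∈ (A.e i).source, x ∉ K → f x = 0) :
    CC A i (cut A i f) := by
  refine CC.of_zero_off (smAt_cut hf) hK hKi fun x hx => ?_
  by_cases hxi : x ∈ (A.e i).source
  · rw [cut_of_mem hxi, h0 x hxi hx]
  · exact cut_off hxi

theorem integrable_of_off {i : A.ι} {f : M → ℂ} (hf : A.SmAt i f) {K : Set M} (hK : IsCompact K)
    (hKi : K ⊆ (A.e i).source) (h0 : ∀ x ∈ (A.e i).source, x ∉ K → f x = 0) :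
    Integrable (rd A i f) := by
  rw [← rd_cut]
  exact (cc_cut hf hK hKi h0).integrable

theorem psi_zero_off (P : Part A) (i : A.ι) {x : M} (hx : x ∉ tsupport (P.χ i)) : P.ψ i x = 0 :=
  image_eq_zero_of_notMem_tsupport fun h => hx (tsupport_psi P i h)

theorem integrable_psi (P : Part A) {i : A.ι} {f : M → ℂ} (hf : A.SmAt i f) :
    Integrable (rd A i (fun x => (P.ψ i x : ℂ) * f x)) := by
  refine integrable_of_off (ContDiffOn.mul (smAt_ofReal (P.ψ_sm i i)) hf) (P.χ_cpt i) (P.χ_sub i)
    fun x _ hx => ?_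
  rw [psi_zero_off P i hx]
  simp

/-! ### the integral -/

variable {f g : A.ι → M → ℂ} {K : Set M}

theorem lint_psi_zero (P : Part A) {F : Finset A.ι} (hK : IsCompact K) (hF : Fn P hK ⊆ F)
    (h0 : OffK A f K) {i : A.ι} (hi : i ∉ F) :
    lint A i (fun x => (P.ψ i x : ℂ) * f i x) = 0 := by
  rw [← lint_zero (A := A) i]
  refine lint_congr fun x hx => ?_
  by_cases hxK : x ∈ K
  · rw [psi_zero_of_notMem P hK hF hi hxK]; simp
  · rw [h0 i x hx hxK, mul_zero]

theorem intD_eq_sum (P : Part A) {F : Finset A.ι} (hK : IsCompact K) (hF : Fn P hK ⊆ F)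
    (h0 : OffK A f K) : intD P f = ∑ i ∈ F, lint A i (fun x => (P.ψ i x : ℂ) * f i x) := by
  refine finsum_eq_sum_of_support_subset _ ?_
  intro i hi
  by_contra hi'
  exact hi (lint_psi_zero P hK hF h0 hi')

theorem intD_congr (P : Part A) (h : ∀ i, ∀ x ∈ (A.e i).source, f i x = g i x) :
    intD P f = intD P g := by
  unfold intD
  refine finsum_congr fun i => lint_congr fun x hx => ?_
  rw [h i x hx]

theorem intD_zero (P : Part A) : intD P (fun _ _ => 0) = 0 := by
  unfold intD
  have h : ∀ i : A.ι, lint A i (fun x => (P.ψ i x : ℂ) * 0) = 0 := fun i => by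
    conv_rhs => rw [← lint_zero (A := A) i]
    exact lint_congr fun x _ => mul_zero _
  rw [finsum_congr h, finsum_zero]

theorem intD_smul (P : Part A) (c : ℂ) (hK : IsCompact K) (h0 : OffK A f K) :
    intD P (fun i x => c * f i x) = c * intD P f := by
  rw [intD_eq_sum P hK (Finset.Subset.refl _) (h0.mul_left fun _ _ => c),
    intD_eq_sum P hK (Finset.Subset.refl _) h0, Finset.mul_sum]
  refine Finset.sum_congr rfl fun i _ => ?_
  rw [← lint_smul]
  refine lint_congr fun x _ => by ring

theorem intD_add (P : Part A) (hf : ∀ i, A.SmAt i (f i)) (hg : ∀ i, A.SmAt i (g i))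
    (hK : IsCompact K) (h0 : OffK A f K) (h0' : OffK A g K) :
    intD P (fun i x => f i x + g i x) = intD P f + intD P g := by
  rw [intD_eq_sum P hK (Finset.Subset.refl _) (h0.add h0'),
    intD_eq_sum P hK (Finset.Subset.refl _) h0, intD_eq_sum P hK (Finset.Subset.refl _) h0',
    ← Finset.sum_add_distrib]
  refine Finset.sum_congr rfl fun i _ => ?_
  rw [← lint_add (integrable_psi P (hf i)) (integrable_psi P (hg i))]
  refine lint_congr fun x _ => by ring

theorem intD_neg (P : Part A) (hK : IsCompact K) (h0 : OffK A f K) :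
    intD P (fun i x => - f i x) = - intD P f := by
  rw [← neg_one_mul, ← intD_smul P (-1) hK h0]
  exact intD_congr P fun i x _ => by ring

theorem intD_sub (P : Part A) (hf : ∀ i, A.SmAt i (f i)) (hg : ∀ i, A.SmAt i (g i))
    (hK : IsCompact K) (h0 : OffK A f K) (h0' : OffK A g K) :
    intD P (fun i x => f i x - g i x) = intD P f - intD P g := by
  have h1 : OffK A (fun i x => - g i x) K := fun i x hx hxK => by
    show - g i x = 0
    rw [h0' i x hx hxK, neg_zero]
  have h2 := intD_add P (f := f) (g := fun i x => - g i x) hf (fun i => ContDiffOn.neg (hg i)) hK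
    h0 h1
  rw [sub_eq_add_neg, ← intD_neg P hK h0', ← h2]
  exact intD_congr P fun i x _ => by ring

theorem intD_sum {σ : Type*} (P : Part A) (s : Finset σ) {F : σ → A.ι → M → ℂ}
    (hf : ∀ t ∈ s, ∀ i, A.SmAt i (F t i)) (hK : IsCompact K) (h0 : ∀ t ∈ s, OffK A (F t) K) :
    intD P (fun i x => ∑ t ∈ s, F t i x) = ∑ t ∈ s, intD P (F t) := by
  classical
  induction s using Finset.induction_on with
  | empty => simpa using intD_zero P
  | insert t s ht ih =>
    have h1 : ∀ t' ∈ s, ∀ i, A.SmAt i (F t' i) := fun t' h => hf t' (Finset.mem_insert_of_mem h)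
    have h2 : ∀ t' ∈ s, OffK A (F t') K := fun t' h => h0 t' (Finset.mem_insert_of_mem h)
    have h3 := intD_add P (f := F t) (g := fun i x => ∑ t ∈ s, F t i x)
      (hf t (Finset.mem_insert_self t s)) (fun i => ContDiffOn.sum fun t' h => h1 t' h i) hK
      (h0 t (Finset.mem_insert_self t s)) (OffK.sum h2)
    rw [Finset.sum_insert ht, ← ih h1 h2, ← h3]
    exact intD_congr P fun i x _ => Finset.sum_insert ht

theorem lint_conj (i : A.ι) (f : M → ℂ) : lint A i (fun x => conj (f x)) = conj (lint A i f) := by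
  show ∫ x, rd A i (fun x => conj (f x)) x = conj (∫ x, rd A i f x)
  rw [← integral_conj]
  congr 1
  funext x
  by_cases hx : x ∈ Ui A i
  · rw [rd_of_mem hx, rd_of_mem hx]
  · rw [rd_off hx, rd_off hx, map_zero]

theorem intD_conj (P : Part A) (hK : IsCompact K) (h0 : OffK A f K) :
    intD P (fun i x => conj (f i x)) = conj (intD P f) := by
  have h1 : OffK A (fun i x => conj (f i x)) K := fun i x hx hxK => by
    show conj (f i x) = 0
    rw [h0 i x hx hxK, map_zero]
  rw [intD_eq_sum P hK (Finset.Subset.refl _) h1, intD_eq_sum P hK (Finset.Subset.refl _) h0,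
    map_sum]
  refine Finset.sum_congr rfl fun i _ => ?_
  rw [← lint_conj]
  refine lint_congr fun x _ => ?_
  rw [map_mul, Complex.conj_ofReal]

/-- **local formula**: the integral of a density supported in a compact subset of one chart -/
theorem intD_local (P : Part A) (hf : Den A f) {j : A.ι} (hK : IsCompact K)
    (hKj : K ⊆ (A.e j).source) (h0 : OffK A f K) : intD P f = lint A j (f j) := by
  have hF : Fn P hK ⊆ Fn P hK := Finset.Subset.refl _
  rw [intD_eq_sum P hK hF h0]
  have h1 : ∀ i ∈ Fn P hK, lint A i (fun x => (P.ψ i x : ℂ) * f i x) =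
      lint A j (fun x => (P.ψ i x : ℂ) * f j x) := by
    intro i _
    rw [← lint_cut i, ← lint_cut j (fun x => (P.ψ i x : ℂ) * f j x)]
    apply lint_change
    · intro x hx
      by_cases hi : x ∈ (A.e i).source
      · rw [cut_of_mem hi, h0 i x hi fun hxK => hx ⟨hi, hKj hxK⟩, mul_zero]
      · exact cut_off hi
    · intro x hx
      by_cases hj : x ∈ (A.e j).source
      · rw [cut_of_mem hj]
        have : x ∉ (A.e i).source := fun hi => hx ⟨hi, hj⟩
        rw [psi_off P this]; simp
      · exact cut_off hj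
    · intro x hx
      rw [cut_of_mem hx.1, cut_of_mem hx.2, hf.tr i j x hx]
      ring
  rw [Finset.sum_congr rfl h1, ← lint_sum]
  · refine lint_congr fun x hx => ?_
    rw [← Finset.sum_mul]
    by_cases hxK : x ∈ K
    · rw [sum_psiC P hK hF hxK, one_mul]
    · rw [h0 j x hx hxK, mul_zero]
  · intro i _
    refine integrable_of_off (ContDiffOn.mul (smAt_ofReal (P.ψ_sm i j)) (hf.sm j)) hK hKj
      fun x hx hxK => ?_
    rw [h0 j x hx hxK, mul_zero]

/-- splitting along a partition of unity -/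
theorem intD_split (P P' : Part A) (hf : Den A f) (hK : IsCompact K) (h0 : OffK A f K) :
    intD P f = ∑ l ∈ Fn P' hK, intD P (fun i x => (P'.ψ l x : ℂ) * f i x) := by
  rw [← intD_sum P (Fn P' hK) (F := fun l i x => (P'.ψ l x : ℂ) * f i x)
    (fun l _ i => ContDiffOn.mul (smAt_ofReal (P'.ψ_sm l i)) (hf.sm i)) hK
    (fun l _ => h0.mul_left _)]
  refine intD_congr P fun i x hx => ?_
  rw [← Finset.sum_mul]
  by_cases hxK : x ∈ K
  · rw [sum_psiC P' hK (Finset.Subset.refl _) hxK, one_mul]
  · rw [h0 i x hx hxK, mul_zero]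

/-- the integral does not depend on the partition of unity -/
theorem intD_indep (P P' : Part A) (hf : Den A f) (hK : IsCompact K) (h0 : OffK A f K) :
    intD P f = intD P' f := by
  rw [intD_split P P' hf hK h0, intD_eq_sum P' hK (Finset.Subset.refl _) h0]
  refine Finset.sum_congr rfl fun l _ => ?_
  exact intD_local P (f := fun i x => (P'.ψ l x : ℂ) * f i x)
    (hf.mulF (φ := fun x => (P'.ψ l x : ℂ)) (sm_psiC P' l)) (P'.χ_cpt l) (P'.χ_sub l)
    fun i x hx hxK => by
      show (P'.ψ l x : ℂ) * f i x = 0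
      rw [psi_zero_off P' l hxK]; simp

/-- relation with helper323's pairing -/
theorem pr_eq_intD [CompactSpace M] {B B' : FBun A} (D : DPair B B') (P : Part A) (u : Sec B)
    (w : Sec B') : pr D P u w = intD P (dn D u.1 w.1) := by
  rw [intD_eq_sum P isCompact_univ (Finset.Subset.refl _) (offK_univ _)]
  rfl

theorem dn_den {B B' : FBun A} (D : DPair B B') (u : Sec B) (w : Sec B') :
    Den A (dn D u.1 w.1) where
  sm i := dn_smAt D u.2 w.2 i
  tr _ _ _ hx := dn_tr D u.2 w.2 hx

/-! ### vector densities -/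

/-- vector density of type `(0,1)`: `Y = ∑ Y^a ∂/∂z̄_a ⊗ density` -/
structure VD01 (A : Atl n M) (Y : A.ι → Fin n → M → ℂ) : Prop where
  sm : ∀ i a, A.SmAt i (Y i a)
  tr : ∀ i j, ∀ x ∈ (A.e i).source ∩ (A.e j).source, ∀ b,
    ∑ a, conj (A.J i j x b a) * Y i a x = dens A i j x * Y j b x

/-- vector density of type `(1,0)`: `Y = ∑ Y^a ∂/∂z_a ⊗ density` -/
structure VD10 (A : Atl n M) (Y : A.ι → Fin n → M → ℂ) : Prop where
  sm : ∀ i a, A.SmAt i (Y i a)
  tr : ∀ i j, ∀ x ∈ (A.e i).source ∩ (A.e j).source, ∀ b,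
    ∑ a, A.J i j x b a * Y i a x = dens A i j x * Y j b x

theorem dl_conj (i : A.ι) (a : Fin n) (f : M → ℂ) (x : M) :
    dl A i a (fun y => conj (f y)) x = conj (A.db i a f x) := by
  have h : fderiv ℝ (fun z => conj (f ((A.e i).symm z))) (A.e i x) =
      (Complex.conjCLE : ℂ →L[ℝ] ℂ).comp (fderiv ℝ (fun z => f ((A.e i).symm z)) (A.e i x)) := by
    have := (Complex.conjCLE).comp_fderiv (f := fun z => f ((A.e i).symm z)) (x := A.e i x)
    exact this
  unfold dl Atl.db dj dbj
  rw [h]
  have h2 : (conj (1 / 2 : ℂ)) = 1 / 2 := by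
    rw [map_div₀, map_one, map_ofNat]
  simp only [ContinuousLinearMap.comp_apply, smul_eq_mul, map_mul, map_add, h2, Complex.conj_I]
  show (1 / 2 : ℂ) * (conj _ - I * conj _) = _
  ring

theorem db_conj (i : A.ι) (a : Fin n) (f : M → ℂ) (x : M) :
    A.db i a (fun y => conj (f y)) x = conj (dl A i a f x) := by
  have h := dl_conj i a (fun y => conj (f y)) x
  simp only [Complex.conj_conj] at h
  rw [h, Complex.conj_conj]

theorem VD10.conjV {Y : A.ι → Fin n → M → ℂ} (h : VD10 A Y) :
    VD01 A (fun i a x => conj (Y i a x)) where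
  sm i a := Den.smAt_conj (h.sm i a)
  tr i j x hx b := by
    have := congrArg conj (h.tr i j x hx b)
    rw [map_sum, map_mul, Den.dens_conj] at this
    rw [← this]
    exact Finset.sum_congr rfl fun a _ => by rw [map_mul]

theorem VD01.conjV {Y : A.ι → Fin n → M → ℂ} (h : VD01 A Y) :
    VD10 A (fun i a x => conj (Y i a x)) where
  sm i a := Den.smAt_conj (h.sm i a)
  tr i j x hx b := by
    have := congrArg conj (h.tr i j x hx b)
    rw [map_sum, map_mul, Den.dens_conj] at this
    rw [← this]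
    exact Finset.sum_congr rfl fun a _ => by rw [map_mul, Complex.conj_conj]

section st

variable {Y : A.ι → Fin n → M → ℂ}

/-- the density `∑_a (∂̄_a φ) Y^a` -/
theorem VD01.den (h : VD01 A Y) {φ : M → ℂ} (hφ : A.Sm φ) :
    Den A (fun i x => ∑ a, A.db i a φ x * Y i a x) where
  sm i := ContDiffOn.sum fun a _ => ContDiffOn.mul (Atl.SmAt.db (hφ i) a) (h.sm i a)
  tr i j x hx := by
    have h1 : ∀ a, A.db i a φ x = ∑ b, (starRingEnd ℂ) (A.J i j x b a) * A.db j b φ x := fun a =>
      db_chain (Atl.SmAt.diffAt (hφ j) hx.2) hx a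
    simp only [h1, Finset.sum_mul]
    rw [Finset.sum_comm, Finset.mul_sum]
    refine Finset.sum_congr rfl fun b _ => ?_
    calc ∑ a, (starRingEnd ℂ) (A.J i j x b a) * A.db j b φ x * Y i a x
        = A.db j b φ x * ∑ a, (starRingEnd ℂ) (A.J i j x b a) * Y i a x := by
          rw [Finset.mul_sum]
          exact Finset.sum_congr rfl fun a _ => by ring
      _ = dens A i j x * (A.db j b φ x * Y j b x) := by
          rw [h.tr i j x hx b]; ring

theorem offK_db {φ : M → ℂ} (hK : IsClosed K) (h0 : ∀ x, x ∉ K → φ x = 0) {i : A.ι} {x : M}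
    (hx : x ∈ (A.e i).source) (hxK : x ∉ K) (a : Fin n) : A.db i a φ x = 0 := by
  have h1 : φ =ᶠ[𝓝 x] fun _ => (0 : ℂ) := by
    filter_upwards [hK.isOpen_compl.mem_nhds hxK] with y hy
    exact h0 y hy
  rw [Atl.db_congr hx h1]
  exact dbj_const (0 : ℂ) _ a

/-- **Stokes** for a vector density of type `(0,1)` with compact support -/
theorem stokes01 (P : Part A) (h : VD01 A Y) (hK : IsCompact K)
    (h0 : ∀ a, OffK A (fun i => Y i a) K) :
    intD P (fun i x => ∑ a, A.db i a (Y i a) x) = 0 := by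
  classical
  have hKc : IsClosed K := hK.isClosed
  -- the divergence vanishes off `K`
  have hd0 : ∀ i, ∀ x ∈ (A.e i).source, x ∉ K → ∀ a, A.db i a (Y i a) x = 0 := by
    intro i x hx hxK a
    have h1 : Y i a =ᶠ[𝓝 x] fun _ => (0 : ℂ) := by
      filter_upwards [hKc.isOpen_compl.mem_nhds hxK, (A.e i).open_source.mem_nhds hx] with y hy hy'
      exact h0 a i y hy' hy
    rw [Atl.db_congr hx h1]
    exact dbj_const (0 : ℂ) _ a
  have hOff : OffK A (fun i x => ∑ a, A.db i a (Y i a) x) K := fun i x hx hxK =>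
    Finset.sum_eq_zero fun a _ => hd0 i x hx hxK a
  rw [intD_eq_sum P hK (Finset.Subset.refl _) hOff]
  set F := Fn P hK with hFdef
  have hψC : ∀ l, A.Sm (fun x => (P.ψ l x : ℂ)) := sm_psiC P
  -- the densities `g l`
  set g : A.ι → A.ι → M → ℂ := fun l i x => ∑ a, A.db i a (fun y => (P.ψ l y : ℂ)) x * Y i a x
    with hg
  have hgD : ∀ l, Den A (g l) := fun l => h.den (hψC l)
  have hgoff : ∀ l, OffK A (g l) (tsupport (P.χ l)) := fun l i x hx hxK =>
    Finset.sum_eq_zero fun a _ => by
      rw [offK_db (isClosed_tsupport _) (fun y hy => by rw [psi_zero_off P l hy]; simp) hx hxK a,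
        zero_mul]
  have hgK : ∀ l, OffK A (g l) K := fun l i x hx hxK =>
    Finset.sum_eq_zero fun a _ => by
      have : Y i a x = 0 := h0 a i x hx hxK
      rw [this, mul_zero]
  -- chart by chart
  have h1 : ∀ l, lint A l (fun x => (P.ψ l x : ℂ) * ∑ a, A.db l a (Y l a) x) =
      - lint A l (g l l) := by
    intro l
    have hsm : ∀ a, A.SmAt l (fun y => (P.ψ l y : ℂ) * Y l a y) := fun a =>
      ContDiffOn.mul (hψC l l) (h.sm l a)
    have hcc : ∀ a, CC A l (cut A l (fun y => (P.ψ l y : ℂ) * Y l a y)) := fun a =>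
      cc_cut (hsm a) (P.χ_cpt l) (P.χ_sub l) fun x _ hx => by rw [psi_zero_off P l hx]; simp
    have hst : ∀ a, lint A l (A.db l a (fun y => (P.ψ l y : ℂ) * Y l a y)) = 0 := by
      intro a
      rw [← lint_db (hcc a) a]
      refine lint_congr fun x hx => ?_
      refine Atl.db_congr hx ?_ a
      filter_upwards [(A.e l).open_source.mem_nhds hx] with y hy
      exact (cut_of_mem (f := fun y => (P.ψ l y : ℂ) * Y l a y) hy).symm
    have hleib : ∀ a, ∀ x ∈ (A.e l).source, A.db l a (fun y => (P.ψ l y : ℂ) * Y l a y) x =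
        A.db l a (fun y => (P.ψ l y : ℂ)) x * Y l a x + (P.ψ l x : ℂ) * A.db l a (Y l a) x := by
      intro a x hx
      rw [db_mul (Atl.SmAt.diffAt (f := fun x => (P.ψ l x : ℂ)) (hψC l l) hx)
        (Atl.SmAt.diffAt (h.sm l a) hx) hx]
      try ring
    have hi1 : ∀ a, Integrable (rd A l (A.db l a (fun y => (P.ψ l y : ℂ) * Y l a y))) := by
      intro a
      refine integrable_of_off (Atl.SmAt.db (hsm a) a) (P.χ_cpt l) (P.χ_sub l) fun x hx hxK => ?_
      exact offK_db (isClosed_tsupport _) (fun y hy => by rw [psi_zero_off P l hy]; simp) hx hxK a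
    have hi2 : Integrable (rd A l (g l l)) :=
      integrable_of_off ((hgD l).sm l) (P.χ_cpt l) (P.χ_sub l) fun x hx hxK => hgoff l l x hx hxK
    have h2 : lint A l (fun x => (P.ψ l x : ℂ) * ∑ a, A.db l a (Y l a) x) =
        lint A l (fun x => (∑ a, A.db l a (fun y => (P.ψ l y : ℂ) * Y l a y) x)
          + (-1) * g l l x) := by
      refine lint_congr fun x hx => ?_
      rw [Finset.sum_congr rfl fun a _ => hleib a x hx, Finset.sum_add_distrib, ← Finset.mul_sum]
      simp only [hg]
      ring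
    have hi3 : Integrable (rd A l (fun x => (-1) * g l l x)) := by
      have : rd A l (fun x => (-1) * g l l x) = fun x => (-1) * rd A l (g l l) x := by
        funext x
        by_cases hx : x ∈ Ui A l
        · rw [rd_of_mem hx, rd_of_mem hx]
        · rw [rd_off hx, rd_off hx, mul_zero]
      rw [this]
      exact hi2.const_mul _
    have hi4 : Integrable (rd A l (fun x => ∑ a, A.db l a (fun y => (P.ψ l y : ℂ) * Y l a y) x)) := by
      have : rd A l (fun x => ∑ a, A.db l a (fun y => (P.ψ l y : ℂ) * Y l a y) x) =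
          fun x => ∑ a, rd A l (A.db l a (fun y => (P.ψ l y : ℂ) * Y l a y)) x :=
        funext fun x => rd_sum Finset.univ l _ x
      rw [this]
      exact integrable_finsetSum _ fun a _ => hi1 a
    rw [h2, lint_add hi4 hi3, lint_sum _ fun a _ => hi1 a, Finset.sum_eq_zero fun a _ => hst a,
      lint_smul]
    ring
  rw [Finset.sum_congr rfl fun l _ => h1 l, Finset.sum_neg_distrib]
  have h2 : ∀ l ∈ F, lint A l (g l l) = intD P (g l) := fun l _ =>
    (intD_local P (hgD l) (P.χ_cpt l) (P.χ_sub l) (hgoff l)).symm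
  rw [Finset.sum_congr rfl h2, ← intD_sum P F (fun l _ i => (hgD l).sm i) hK fun l _ => hgK l]
  rw [neg_eq_zero, ← intD_zero P]
  refine intD_congr P fun i x hx => ?_
  -- `∑_{l ∈ F} ∂̄ ψ_l = 0` where `Y ≠ 0`
  by_cases hY : ∀ a, Y i a x = 0
  · exact Finset.sum_eq_zero fun l _ => Finset.sum_eq_zero fun a _ => by rw [hY a, mul_zero]
  · push Not at hY
    obtain ⟨a₀, ha₀⟩ := hY
    have hcont : ContinuousAt (Y i a₀) x := by
      have h3 : ContinuousAt (fun z => Y i a₀ ((A.e i).symm z)) (A.e i x) :=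
        ((h.sm i a₀).contDiffAt ((A.e i).open_target.mem_nhds ((A.e i).map_source hx))).continuousAt
      have h4 : ContinuousAt (fun y => Y i a₀ ((A.e i).symm (A.e i y))) x :=
        ContinuousAt.comp (f := fun y => A.e i y) (g := fun z => Y i a₀ ((A.e i).symm z)) h3
          ((A.e i).continuousAt hx)
      refine h4.congr ?_
      filter_upwards [(A.e i).open_source.mem_nhds hx] with y hy
      rw [(A.e i).left_inv hy]
    have hne : ∀ᶠ y in 𝓝 x, Y i a₀ y ≠ 0 := hcont.eventually_ne ha₀
    have hone : (fun y => ∑ l ∈ F, (P.ψ l y : ℂ)) =ᶠ[𝓝 x] fun _ => (1 : ℂ) := by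
      filter_upwards [hne, (A.e i).open_source.mem_nhds hx] with y hy hy'
      have hyK : y ∈ K := by
        by_contra hyK
        exact hy (h0 a₀ i y hy' hyK)
      exact sum_psiC P hK (Finset.Subset.refl _) hyK
    have hz : ∀ a, ∑ l ∈ F, A.db i a (fun y => (P.ψ l y : ℂ)) x = 0 := by
      intro a
      have h5 : A.db i a (fun y => ∑ l ∈ F, (P.ψ l y : ℂ)) x =
          ∑ l ∈ F, A.db i a (fun y => (P.ψ l y : ℂ)) x := by
        unfold Atl.db
        exact dbj_sum fun l _ => Atl.SmAt.diffAt (f := fun x => (P.ψ l x : ℂ)) (hψC l i) hx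
      rw [← h5, Atl.db_congr hx hone]
      exact dbj_const (1 : ℂ) _ a
    simp only [hg]
    rw [Finset.sum_comm]
    refine Finset.sum_eq_zero fun a _ => ?_
    rw [← Finset.sum_mul, hz a, zero_mul]

/-- **Stokes** for a vector density of type `(1,0)` with compact support -/
theorem stokes10 (P : Part A) (h : VD10 A Y) (hK : IsCompact K)
    (h0 : ∀ a, OffK A (fun i => Y i a) K) :
    intD P (fun i x => ∑ a, dl A i a (Y i a) x) = 0 := by
  have hKc : IsClosed K := hK.isClosed
  have h1 := stokes01 P h.conjV hK (fun a i x hx hxK => by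
    show conj (Y i a x) = 0
    have : Y i a x = 0 := h0 a i x hx hxK
    rw [this, map_zero])
  have h2 : OffK A (fun i x => ∑ a, dl A i a (Y i a) x) K := by
    intro i x hx hxK
    refine Finset.sum_eq_zero fun a _ => ?_
    have h3 : Y i a =ᶠ[𝓝 x] fun _ => (0 : ℂ) := by
      filter_upwards [hKc.isOpen_compl.mem_nhds hxK, (A.e i).open_source.mem_nhds hx] with y hy hy'
      exact h0 a i y hy' hy
    have h4 : (fun y => conj (Y i a y)) =ᶠ[𝓝 x] fun _ => (0 : ℂ) := by
      filter_upwards [h3] with y hy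
      rw [hy, map_zero]
    have h5 := db_conj i a (Y i a) x
    rw [Atl.db_congr hx h4] at h5
    have h6 : A.db i a (fun _ => (0 : ℂ)) x = 0 := dbj_const (0 : ℂ) _ a
    rw [h6] at h5
    have h7 := congrArg conj h5
    rw [map_zero, Complex.conj_conj] at h7
    exact h7.symm
  have h3 : intD P (fun i x => ∑ a, A.db i a (fun x => conj (Y i a x)) x) =
      conj (intD P (fun i x => ∑ a, dl A i a (Y i a) x)) := by
    rw [← intD_conj P hK h2]
    refine intD_congr P fun i x _ => ?_
    rw [map_sum]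
    exact Finset.sum_congr rfl fun a _ => db_conj i a (Y i a) x
  rw [h3] at h1
  have h4 := congrArg conj h1
  rwa [map_zero, Complex.conj_conj] at h4

/-! ### integration by parts -/

theorem VD01.mulF (h : VD01 A Y) {φ : M → ℂ} (hφ : A.Sm φ) :
    VD01 A (fun i a x => φ x * Y i a x) where
  sm i a := (hφ i).mul (h.sm i a)
  tr i j x hx b := by
    have := h.tr i j x hx b
    calc ∑ a, conj (A.J i j x b a) * (φ x * Y i a x)
        = φ x * ∑ a, conj (A.J i j x b a) * Y i a x := by
          rw [Finset.mul_sum]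
          exact Finset.sum_congr rfl fun a _ => by ring
      _ = dens A i j x * (φ x * Y j b x) := by rw [this]; ring

theorem VD10.mulF (h : VD10 A Y) {φ : M → ℂ} (hφ : A.Sm φ) :
    VD10 A (fun i a x => φ x * Y i a x) where
  sm i a := (hφ i).mul (h.sm i a)
  tr i j x hx b := by
    have := h.tr i j x hx b
    calc ∑ a, A.J i j x b a * (φ x * Y i a x)
        = φ x * ∑ a, A.J i j x b a * Y i a x := by
          rw [Finset.mul_sum]
          exact Finset.sum_congr rfl fun a _ => by ring
      _ = dens A i j x * (φ x * Y j b x) := by rw [this]; ring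

theorem smAt_dl {i : A.ι} {f : M → ℂ} (hf : A.SmAt i f) (a : Fin n) : A.SmAt i (dl A i a f) := by
  refine (dj_contDiffOn (a := a) (A.e i).open_target hf).congr fun z hz => ?_
  unfold dl
  rw [(A.e i).right_inv hz]

theorem dl_off {f : A.ι → M → ℂ} (hK : IsClosed K) (h0 : OffK A f K) {i : A.ι} {x : M}
    (hx : x ∈ (A.e i).source) (hxK : x ∉ K) (a : Fin n) : dl A i a (f i) x = 0 := by
  have h3 : (fun y => conj (f i y)) =ᶠ[𝓝 x] fun _ => (0 : ℂ) := by
    filter_upwards [hK.isOpen_compl.mem_nhds hxK, (A.e i).open_source.mem_nhds hx] with y hy hy'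
    rw [h0 i y hy' hy, map_zero]
  have h5 := db_conj i a (f i) x
  rw [Atl.db_congr hx h3] at h5
  have h6 : A.db i a (fun _ => (0 : ℂ)) x = 0 := dbj_const (0 : ℂ) _ a
  rw [h6] at h5
  have h7 := congrArg conj h5
  rw [map_zero, Complex.conj_conj] at h7
  exact h7.symm

theorem db_off {f : A.ι → M → ℂ} (hK : IsClosed K) (h0 : OffK A f K) {i : A.ι} {x : M}
    (hx : x ∈ (A.e i).source) (hxK : x ∉ K) (a : Fin n) : A.db i a (f i) x = 0 := by
  have h1 : f i =ᶠ[𝓝 x] fun _ => (0 : ℂ) := by
    filter_upwards [hK.isOpen_compl.mem_nhds hxK, (A.e i).open_source.mem_nhds hx] with y hy hy'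
    exact h0 i y hy' hy
  rw [Atl.db_congr hx h1]
  exact dbj_const (0 : ℂ) _ a

/-- integration by parts, type `(0,1)` -/
theorem parts01 (P : Part A) (h : VD01 A Y) {φ : M → ℂ} (hφ : A.Sm φ) (hK : IsCompact K)
    (h0 : ∀ a, OffK A (fun i => Y i a) K) :
    intD P (fun i x => φ x * ∑ a, A.db i a (Y i a) x) =
      - intD P (fun i x => ∑ a, A.db i a φ x * Y i a x) := by
  have h0' : ∀ a, OffK A (fun i x => φ x * Y i a x) K := fun a => (h0 a).mul_left fun _ x => φ x
  have h1 := stokes01 P (h.mulF hφ) hK h0'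
  have h2 : intD P (fun i x => ∑ a, A.db i a (fun y => φ y * Y i a y) x) =
      intD P (fun i x => (φ x * ∑ a, A.db i a (Y i a) x) + ∑ a, A.db i a φ x * Y i a x) := by
    refine intD_congr P fun i x hx => ?_
    rw [Finset.mul_sum, ← Finset.sum_add_distrib]
    refine Finset.sum_congr rfl fun a _ => ?_
    rw [db_mul (Atl.SmAt.diffAt (hφ i) hx) (Atl.SmAt.diffAt (h.sm i a) hx) hx]
    try ring
  have h3 : OffK A (fun i x => φ x * ∑ a, A.db i a (Y i a) x) K := fun i x hx hxK => by
    show φ x * _ = 0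
    rw [Finset.sum_eq_zero fun a _ => db_off hK.isClosed (h0 a) hx hxK a, mul_zero]
  have h4 : OffK A (fun i x => ∑ a, A.db i a φ x * Y i a x) K := fun i x hx hxK =>
    Finset.sum_eq_zero fun a _ => by
      have : Y i a x = 0 := h0 a i x hx hxK
      rw [this, mul_zero]
  have h5 := intD_add P (f := fun i x => φ x * ∑ a, A.db i a (Y i a) x)
    (g := fun i x => ∑ a, A.db i a φ x * Y i a x)
    (fun i => (hφ i).mul (ContDiffOn.sum fun a _ => Atl.SmAt.db (h.sm i a) a))
    (fun i => (h.den hφ).sm i) hK h3 h4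
  rw [h2, h5] at h1
  exact eq_neg_of_add_eq_zero_left h1

/-- integration by parts, type `(1,0)` -/
theorem parts10 (P : Part A) (h : VD10 A Y) {φ : M → ℂ} (hφ : A.Sm φ) (hK : IsCompact K)
    (h0 : ∀ a, OffK A (fun i => Y i a) K) :
    intD P (fun i x => φ x * ∑ a, dl A i a (Y i a) x) =
      - intD P (fun i x => ∑ a, dl A i a φ x * Y i a x) := by
  have h0' : ∀ a, OffK A (fun i x => φ x * Y i a x) K := fun a => (h0 a).mul_left fun _ x => φ x
  have h1 := stokes10 P (h.mulF hφ) hK h0'
  have h2 : intD P (fun i x => ∑ a, dl A i a (fun y => φ y * Y i a y) x) =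
      intD P (fun i x => (φ x * ∑ a, dl A i a (Y i a) x) + ∑ a, dl A i a φ x * Y i a x) := by
    refine intD_congr P fun i x hx => ?_
    rw [Finset.mul_sum, ← Finset.sum_add_distrib]
    refine Finset.sum_congr rfl fun a _ => ?_
    rw [dl_mul (Atl.SmAt.diffAt (hφ i) hx) (Atl.SmAt.diffAt (h.sm i a) hx) hx]
    ring
  have h3 : OffK A (fun i x => φ x * ∑ a, dl A i a (Y i a) x) K := fun i x hx hxK => by
    show φ x * _ = 0
    rw [Finset.sum_eq_zero fun a _ => dl_off hK.isClosed (h0 a) hx hxK a, mul_zero]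
  have h4 : OffK A (fun i x => ∑ a, dl A i a φ x * Y i a x) K := fun i x hx hxK =>
    Finset.sum_eq_zero fun a _ => by
      have : Y i a x = 0 := h0 a i x hx hxK
      rw [this, mul_zero]
  have h5 := intD_add P (f := fun i x => φ x * ∑ a, dl A i a (Y i a) x)
    (g := fun i x => ∑ a, dl A i a φ x * Y i a x)
    (fun i => (hφ i).mul (ContDiffOn.sum fun a _ => smAt_dl (h.sm i a) a))
    (fun i => ContDiffOn.sum fun a _ => (smAt_dl (hφ i) a).mul (h.sm i a)) hK h3 h4
  rw [h2, h5] at h1
  exact eq_neg_of_add_eq_zero_left h1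

/-! ### compact `M` -/

theorem stokes01_compact [CompactSpace M] (P : Part A) (h : VD01 A Y) :
    intD P (fun i x => ∑ a, A.db i a (Y i a) x) = 0 :=
  stokes01 P h isCompact_univ fun _ => offK_univ _

theorem stokes10_compact [CompactSpace M] (P : Part A) (h : VD10 A Y) :
    intD P (fun i x => ∑ a, dl A i a (Y i a) x) = 0 :=
  stokes10 P h isCompact_univ fun _ => offK_univ _

theorem parts01_compact [CompactSpace M] (P : Part A) (h : VD01 A Y) {φ : M → ℂ} (hφ : A.Sm φ) :
    intD P (fun i x => φ x * ∑ a, A.db i a (Y i a) x) =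
      - intD P (fun i x => ∑ a, A.db i a φ x * Y i a x) :=
  parts01 P h hφ isCompact_univ fun _ => offK_univ _

theorem parts10_compact [CompactSpace M] (P : Part A) (h : VD10 A Y) {φ : M → ℂ} (hφ : A.Sm φ) :
    intD P (fun i x => φ x * ∑ a, dl A i a (Y i a) x) =
      - intD P (fun i x => ∑ a, dl A i a φ x * Y i a x) :=
  parts10 P h hφ isCompact_univ fun _ => offK_univ _

end st

/-- the sum over all charts, for a finite atlas -/
theorem intD_fintype [Fintype A.ι] (P : Part A) (f : A.ι → M → ℂ) :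
    intD P f = ∑ i, lint A i (fun x => (P.ψ i x : ℂ) * f i x) :=
  finsum_eq_sum_of_fintype _

/-! ### the other form of the transformation law -/

theorem J_mul_J {i j : A.ι} {x : M} (hx : x ∈ (A.e i).source ∩ (A.e j).source) :
    Matrix.of (A.J j i x) * Matrix.of (A.J i j x) = 1 := by
  ext c a
  have hm : MapsTo (fun z => A.e j ((A.e i).symm z)) (A.ov i j) (A.e j).target := fun z hz =>
    (A.e j).map_source hz.2
  have h1 := Atl.diff_trans (A := A) hx
  have h2 := Atl.diff_trans (A := A) (i := j) (j := i) (x := x) ⟨hx.2, hx.1⟩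
  have hv : A.e j ((A.e i).symm (A.e i x)) = A.e j x := by rw [(A.e i).left_inv hx.1]
  have h3 : (fun z => A.e i ((A.e j).symm (A.e j ((A.e i).symm z)))) =ᶠ[𝓝 (A.e i x)] id := by
    filter_upwards [(isOpen_ov i j).mem_nhds (mem_ov hx)] with z hz
    rw [(A.e j).left_inv hz.2, (A.e i).right_inv hz.1]
    rfl
  have h4 : HasFDerivAt (fun z => A.e i ((A.e j).symm (A.e j ((A.e i).symm z))))
      ((fderiv ℂ (fun z => A.e i ((A.e j).symm z)) (A.e j x)).comp
        (fderiv ℂ (fun z => A.e j ((A.e i).symm z)) (A.e i x))) (A.e i x) := by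
    have h5 : HasFDerivAt (fun z => A.e i ((A.e j).symm z))
        (fderiv ℂ (fun z => A.e i ((A.e j).symm z)) (A.e j x))
        ((fun z => A.e j ((A.e i).symm z)) (A.e i x)) := by
      show HasFDerivAt _ _ (A.e j ((A.e i).symm (A.e i x)))
      rw [hv]
      exact h2.hasFDerivAt
    exact h5.comp (A.e i x) h1.hasFDerivAt
  have h6 := h4.fderiv
  rw [h3.fderiv_eq, fderiv_id] at h6
  have h7 := congrArg (fun L : Cn n →L[ℂ] Cn n => (L (EuclideanSpace.single a 1)) c) h6
  simp only [ContinuousLinearMap.id_apply, ContinuousLinearMap.comp_apply] at h7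
  rw [Matrix.mul_apply]
  simp only [Matrix.of_apply]
  have h8 : fderiv ℂ (fun z => A.e j ((A.e i).symm z)) (A.e i x) (EuclideanSpace.single a 1) =
      ∑ b, (A.J i j x b a) • (EuclideanSpace.single b (1 : ℂ) : Cn n) := by
    ext b
    simp [Atl.J, Pi.single_apply]
  rw [h8, map_sum] at h7
  simp only [map_smul] at h7
  have h9 : (∑ b, A.J i j x b a • (fderiv ℂ (fun z => A.e i ((A.e j).symm z)) (A.e j x))
      (EuclideanSpace.single b 1)) c = ∑ b, A.J j i x c b * A.J i j x b a := by
    simp only [WithLp.ofLp_sum, WithLp.ofLp_smul, Finset.sum_apply, Pi.smul_apply, smul_eq_mul]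
    exact Finset.sum_congr rfl fun b _ => mul_comm _ _
  rw [h9] at h7
  rw [← h7, Matrix.one_apply]
  by_cases hca : c = a
  · subst hca; simp
  · simp [hca]

/-- `Y_i = dens_ij • J_ji Y_j` (vector fields transform by the Jacobian) -/
theorem VD10.of_inv {Y : A.ι → Fin n → M → ℂ} (sm : ∀ i a, A.SmAt i (Y i a))
    (tr : ∀ i j, ∀ x ∈ (A.e i).source ∩ (A.e j).source, ∀ a,
      Y i a x = dens A i j x * ∑ b, A.J j i x a b * Y j b x) : VD10 A Y where
  sm := sm
  tr i j x hx b := by
    have h1 : ∀ c, ∑ a, A.J i j x b a * A.J j i x a c = if b = c then 1 else 0 := by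
      intro c
      have := congrFun (congrFun (J_mul_J (A := A) (i := j) (j := i) ⟨hx.2, hx.1⟩) b) c
      rw [Matrix.mul_apply, Matrix.one_apply] at this
      exact this
    calc ∑ a, A.J i j x b a * Y i a x
        = dens A i j x * ∑ c, (∑ a, A.J i j x b a * A.J j i x a c) * Y j c x := by
          rw [Finset.mul_sum]
          simp only [Finset.sum_mul, Finset.mul_sum]
          rw [Finset.sum_comm]
          refine Finset.sum_congr rfl fun a _ => ?_
          rw [tr i j x hx a, Finset.mul_sum, Finset.mul_sum]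
          exact Finset.sum_congr rfl fun c _ => by ring
      _ = dens A i j x * Y j b x := by
          simp only [h1]
          simp

theorem VD01.of_inv {Y : A.ι → Fin n → M → ℂ} (sm : ∀ i a, A.SmAt i (Y i a))
    (tr : ∀ i j, ∀ x ∈ (A.e i).source ∩ (A.e j).source, ∀ a,
      Y i a x = dens A i j x * ∑ b, conj (A.J j i x a b) * Y j b x) : VD01 A Y where
  sm := sm
  tr i j x hx b := by
    have h1 : ∀ c, ∑ a, conj (A.J i j x b a) * conj (A.J j i x a c) = if b = c then 1 else 0 := by
      intro c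
      have := congrFun (congrFun (J_mul_J (A := A) (i := j) (j := i) ⟨hx.2, hx.1⟩) b) c
      rw [Matrix.mul_apply, Matrix.one_apply] at this
      have h2 := congrArg conj this
      rw [map_sum] at h2
      simp only [Matrix.of_apply, map_mul] at h2
      rw [h2]
      split <;> simp
    calc ∑ a, conj (A.J i j x b a) * Y i a x
        = dens A i j x * ∑ c, (∑ a, conj (A.J i j x b a) * conj (A.J j i x a c)) * Y j c x := by
          rw [Finset.mul_sum]
          simp only [Finset.sum_mul, Finset.mul_sum]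
          rw [Finset.sum_comm]
          refine Finset.sum_congr rfl fun a _ => ?_
          rw [tr i j x hx a, Finset.mul_sum, Finset.mul_sum]
          exact Finset.sum_congr rfl fun c _ => by ring
      _ = dens A i j x * Y j b x := by
          simp only [h1]
          simp

/-! ### positivity -/

/-- `s ↦ 1/s` for `s ≥ 1`, cut off near `0` -/
def ginv (s : ℝ) : ℝ := Real.smoothTransition (2 * s - 1) * s⁻¹

theorem ginv_nonneg (s : ℝ) : 0 ≤ ginv s := by
  unfold ginv
  rcases le_or_gt s 0 with hs | hs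
  · rw [Real.smoothTransition.zero_of_nonpos (by linarith), zero_mul]
  · exact mul_nonneg (Real.smoothTransition.nonneg _) (inv_nonneg.2 hs.le)

theorem ginv_mul {s : ℝ} (hs : 1 ≤ s) : s * ginv s = 1 := by
  unfold ginv
  rw [Real.smoothTransition.one_of_one_le (by linarith), one_mul, mul_inv_cancel₀ (by linarith)]

theorem ginv_contDiff : ContDiff ℝ ∞ ginv := by
  rw [contDiff_iff_contDiffAt]
  intro s
  rcases lt_or_ge s (1 / 2) with hs | hs
  · have : ginv =ᶠ[𝓝 s] fun _ => (0 : ℝ) := by
      filter_upwards [isOpen_Iio.mem_nhds hs] with t ht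
      unfold ginv
      rw [Real.smoothTransition.zero_of_nonpos (by linarith [show t < 1 / 2 from ht]), zero_mul]
    exact contDiffAt_const.congr_of_eventuallyEq this
  · refine ContDiffAt.mul ?_ (contDiffAt_inv _ (by linarith))
    exact (Real.smoothTransition.contDiff.comp
      ((contDiff_const.mul contDiff_id).sub contDiff_const)).contDiffAt

/-- the sum of squares of the cut-off functions of the charts meeting `K` -/
def ssq (P : Part A) (F : Finset A.ι) (x : M) : ℝ := ∑ j ∈ F, P.χ j x ^ 2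

/-- a nonnegative partition of unity near `K` -/
def rho (P : Part A) (F : Finset A.ι) (l : A.ι) (x : M) : ℝ := P.χ l x ^ 2 * ginv (ssq P F x)

omit [T2Space M] in
theorem ssq_sm (P : Part A) (F : Finset A.ι) : A.Sm (ssq P F) := fun i =>
  ContDiffOn.sum fun j _ => (P.χ_sm j i).pow 2

omit [T2Space M] in
theorem rho_sm (P : Part A) (F : Finset A.ι) (l : A.ι) : A.Sm (rho P F l) := fun i =>
  ((P.χ_sm l i).pow 2).mul (ginv_contDiff.comp_contDiffOn (ssq_sm P F i))

omit [T2Space M] in
theorem rho_nonneg (P : Part A) (F : Finset A.ι) (l : A.ι) (x : M) : 0 ≤ rho P F l x :=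
  mul_nonneg (sq_nonneg _) (ginv_nonneg _)

omit [T2Space M] in
theorem rho_off (P : Part A) (F : Finset A.ι) (l : A.ι) {x : M} (hx : x ∉ tsupport (P.χ l)) :
    rho P F l x = 0 := by
  unfold rho
  rw [image_eq_zero_of_notMem_tsupport hx]
  simp

omit [T2Space M] in
theorem one_le_ssq (P : Part A) {F : Finset A.ι} (hK : IsCompact K) (hF : Fn P hK ⊆ F) {x : M}
    (hx : x ∈ K) : 1 ≤ ssq P F x := by
  have h1 := sum_psi P hK hF hx
  have h2 : ∃ i ∈ F, P.ψ i x ≠ 0 := by
    by_contra h
    push Not at h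
    rw [Finset.sum_eq_zero h] at h1
    exact zero_ne_one h1
  obtain ⟨i, hi, hne⟩ := h2
  have h3 : P.χ i x = 1 := (P.χ_one i x (subset_tsupport _ hne)).self_of_nhds
  have h4 : P.χ i x ^ 2 ≤ ssq P F x :=
    Finset.single_le_sum (f := fun j => P.χ j x ^ 2) (fun j _ => sq_nonneg _) hi
  rw [h3] at h4
  linarith

omit [T2Space M] in
theorem sum_rho (P : Part A) {F : Finset A.ι} (hK : IsCompact K) (hF : Fn P hK ⊆ F) {x : M}
    (hx : x ∈ K) : ∑ l ∈ F, rho P F l x = 1 := by
  unfold rho
  rw [← Finset.sum_mul]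
  exact ginv_mul (one_le_ssq P hK hF hx)

omit [T2Space M] in
theorem rhoC_sm (P : Part A) (F : Finset A.ι) (l : A.ι) : A.Sm (fun x => (rho P F l x : ℂ)) :=
  fun i => smAt_ofReal (rho_sm P F l i)

/-- the integral of a density, computed with the nonnegative partition `rho` -/
theorem intD_rho (P : Part A) (hf : Den A f) (hK : IsCompact K) (h0 : OffK A f K) :
    intD P f = ∑ l ∈ Fn P hK, lint A l (fun x => (rho P (Fn P hK) l x : ℂ) * f l x) := by
  have h1 : intD P f = ∑ l ∈ Fn P hK, intD P (fun i x => (rho P (Fn P hK) l x : ℂ) * f i x) := by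
    rw [← intD_sum P (Fn P hK) (F := fun l i x => (rho P (Fn P hK) l x : ℂ) * f i x)
      (fun l _ i => ContDiffOn.mul (rhoC_sm P _ l i) (hf.sm i)) hK (fun l _ => h0.mul_left _)]
    refine intD_congr P fun i x hx => ?_
    rw [← Finset.sum_mul, ← Complex.ofReal_sum]
    by_cases hxK : x ∈ K
    · rw [sum_rho P hK (Finset.Subset.refl _) hxK, Complex.ofReal_one, one_mul]
    · rw [h0 i x hx hxK, mul_zero]
  rw [h1]
  refine Finset.sum_congr rfl fun l _ => ?_
  exact intD_local P (f := fun i x => (rho P (Fn P hK) l x : ℂ) * f i x)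
    (hf.mulF (φ := fun x => (rho P (Fn P hK) l x : ℂ)) (rhoC_sm P _ l)) (P.χ_cpt l) (P.χ_sub l)
    fun i x hx hxK => by
      show (rho P (Fn P hK) l x : ℂ) * f i x = 0
      rw [rho_off P _ l hxK]; simp

/-- `f` takes nonnegative real values on the charts -/
def NonnegD (A : Atl n M) (f : A.ι → M → ℂ) : Prop :=
  ∀ i, ∀ x ∈ (A.e i).source, 0 ≤ (f i x).re ∧ (f i x).im = 0

omit [T2Space M] in
theorem rd_real {i : A.ι} {f : M → ℂ} (h : ∀ x ∈ (A.e i).source, 0 ≤ (f x).re ∧ (f x).im = 0)
    (y : RI n → ℝ) : rd A i f y = (((rd A i f y).re : ℝ) : ℂ) ∧ 0 ≤ (rd A i f y).re := by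
  by_cases hy : y ∈ Ui A i
  · rw [rd_of_mem hy]
    obtain ⟨h1, h2⟩ := h _ ((A.e i).map_target hy)
    refine ⟨?_, h1⟩
    apply Complex.ext
    · simp
    · rw [h2]; simp
  · rw [rd_off hy]
    simp

omit [T2Space M] in
theorem lint_real {i : A.ι} {f : M → ℂ} (h : ∀ x ∈ (A.e i).source, 0 ≤ (f x).re ∧ (f x).im = 0) :
    lint A i f = ((∫ y, (rd A i f y).re : ℝ) : ℂ) := by
  show ∫ y, rd A i f y = _
  have h1 : ∫ y, (((rd A i f y).re : ℝ) : ℂ) = ((∫ y, (rd A i f y).re : ℝ) : ℂ) :=
    integral_ofReal (𝕜 := ℂ)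
  rw [← h1]
  refine integral_congr_ae (Filter.Eventually.of_forall fun y => ?_)
  exact (rd_real h y).1

theorem intD_nonneg (P : Part A) (hf : Den A f) (hp : NonnegD A f) (hK : IsCompact K)
    (h0 : OffK A f K) : 0 ≤ (intD P f).re ∧ (intD P f).im = 0 := by
  rw [intD_rho P hf hK h0]
  have h1 : ∀ l, ∀ x ∈ (A.e l).source, 0 ≤ ((rho P (Fn P hK) l x : ℂ) * f l x).re ∧
      ((rho P (Fn P hK) l x : ℂ) * f l x).im = 0 := by
    intro l x hx
    rw [Complex.re_ofReal_mul, Complex.im_ofReal_mul, (hp l x hx).2, mul_zero]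
    exact ⟨mul_nonneg (rho_nonneg P _ l x) (hp l x hx).1, rfl⟩
  rw [Complex.re_sum, Complex.im_sum]
  constructor
  · refine Finset.sum_nonneg fun l _ => ?_
    rw [lint_real (h1 l), Complex.ofReal_re]
    exact integral_nonneg fun y => (rd_real (h1 l) y).2
  · refine Finset.sum_eq_zero fun l _ => ?_
    rw [lint_real (h1 l), Complex.ofReal_im]

/-- a nonnegative density with integral zero vanishes -/
theorem eq_zero_of_intD (P : Part A) (hf : Den A f) (hp : NonnegD A f) (hK : IsCompact K)
    (h0 : OffK A f K) (hz : (intD P f).re = 0) : ∀ i, ∀ x ∈ (A.e i).source, f i x = 0 := by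
  rw [intD_rho P hf hK h0] at hz
  have h1 : ∀ l, ∀ x ∈ (A.e l).source, 0 ≤ ((rho P (Fn P hK) l x : ℂ) * f l x).re ∧
      ((rho P (Fn P hK) l x : ℂ) * f l x).im = 0 := by
    intro l x hx
    rw [Complex.re_ofReal_mul, Complex.im_ofReal_mul, (hp l x hx).2, mul_zero]
    exact ⟨mul_nonneg (rho_nonneg P _ l x) (hp l x hx).1, rfl⟩
  rw [Complex.re_sum] at hz
  have h2 : ∀ l ∈ Fn P hK, (lint A l (fun x => (rho P (Fn P hK) l x : ℂ) * f l x)).re = 0 := by
    refine (Finset.sum_eq_zero_iff_of_nonneg fun l _ => ?_).1 hz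
    rw [lint_real (h1 l), Complex.ofReal_re]
    exact integral_nonneg fun y => (rd_real (h1 l) y).2
  intro i x hx
  by_cases hxK : x ∈ K
  swap
  · exact h0 i x hx hxK
  have h3 : ∃ l ∈ Fn P hK, rho P (Fn P hK) l x ≠ 0 := by
    by_contra h
    push Not at h
    have := sum_rho P hK (Finset.Subset.refl _) hxK
    rw [Finset.sum_eq_zero h] at this
    exact zero_ne_one this
  obtain ⟨l, hl, hne⟩ := h3
  have hxl : x ∈ (A.e l).source := by
    by_contra hxl
    exact hne (rho_off P _ l fun h => hxl (P.χ_sub l h))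
  have h4 := h2 l hl
  rw [lint_real (h1 l), Complex.ofReal_re] at h4
  have hsm : A.SmAt l (fun x => (rho P (Fn P hK) l x : ℂ) * f l x) :=
    ContDiffOn.mul (rhoC_sm P _ l l) (hf.sm l)
  have hcc : CC A l (cut A l (fun x => (rho P (Fn P hK) l x : ℂ) * f l x)) :=
    cc_cut hsm (P.χ_cpt l) (P.χ_sub l) fun x _ hx => by rw [rho_off P _ l hx]; simp
  have hcont : Continuous (rd A l (fun x => (rho P (Fn P hK) l x : ℂ) * f l x)) := by
    rw [← rd_cut]
    exact hcc.isCC.smooth.continuous
  have hint : Integrable (rd A l (fun x => (rho P (Fn P hK) l x : ℂ) * f l x)) := by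
    rw [← rd_cut]
    exact hcc.integrable
  have h5 : (fun y => (rd A l (fun x => (rho P (Fn P hK) l x : ℂ) * f l x) y).re) =
      fun _ => (0 : ℝ) := by
    have h9 : Continuous (fun y => (rd A l (fun x => (rho P (Fn P hK) l x : ℂ) * f l x) y).re) :=
      Complex.continuous_re.comp hcont
    exact (Continuous.ae_eq_iff_eq volume h9 continuous_const).1
      ((integral_eq_zero_iff_of_nonneg (fun y => (rd_real (h1 l) y).2) hint.re).1 h4)
  have h6 := congrFun h5 (rc (A.e l x))
  have hmem : rc (A.e l x) ∈ Ui A l := by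
    show cc (rc (A.e l x)) ∈ (A.e l).target
    rw [cc_rc]
    exact (A.e l).map_source hxl
  have h7 := (rd_real (h1 l) (rc (A.e l x))).1
  rw [h6, rd_of_mem hmem, cc_rc, (A.e l).left_inv hxl] at h7
  have h8 : f l x = 0 := by
    rcases mul_eq_zero.1 (h7.trans Complex.ofReal_zero) with h | h
    · exact absurd (Complex.ofReal_eq_zero.1 h) hne
    · exact h
  rw [hf.tr i l x ⟨hx, hxl⟩, h8, mul_zero]

end t2

end

end Crest.Agent.R273.StokesV_332
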