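import Crest.Agent.R273.FIc0_597
import Crest.Agent.R273.YauKah_635

/-!
# R273 (S0416), T-LEMMA (helper201): definitions and frozen interfaces

* `TD A`       : data: `om` closed psd, `N ≥ 0` smooth, `om + ∂∂̄ log (N+κ) ≥ 0` for all `κ > 0`;
  `D.U = {N > 0}`, `D.be = om + ∂∂̄ log N` (used on `U` only)
* `mdens h g S x = tr (adj (g) S) / h`
* `MassStmt`   : non-pluripolar mass: `∫_U tr(adj(g + ∂∂̄w) β) ≤ ∫_U tr(adj(g) β)`
* `VolStmt`    : `∫_U tr(adj(g + sθ) β) ≤ C s^(ν-1)`, `∫ det(g + sθ) ≥ c s^ν`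
* `Tst D`      : smooth compactly supported psd test matrices on `U` in one chart; `Tst.B h t T`
* `ExpStmt`    : uniform exponential integrability
* `TLStmt`     : the T-lemma
-/

set_option autoImplicit false
set_option linter.unusedSectionVars false

open Set Filter Topology Complex MeasureTheory
open scoped ContDiff Matrix ComplexConjugate ComplexOrder ENNReal

namespace Crest.Agent.R273.TLd_201

open Crest.Agent.R275 Crest.Agent.R275.Geo Crest.Agent.R275.Core144 Crest.Agent.R275.EDR890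
open Crest.Agent.R273.Defs_333 Crest.Agent.R273.Hess_333 Crest.Agent.R273.HessB_333
open Crest.Agent.R273.HM_333 Crest.Agent.R273.Kah_333 Crest.Agent.R273.Vol_333
open Crest.Agent.R273.Vm_333
open Crest.Agent.R273.Green_5 Crest.Agent.R273.FIa0_597 Crest.Agent.R273.FIb0_597
open Crest.Agent.R273.YauDefs_635

noncomputable section

variable {n : ℕ} {M : Type} [TopologicalSpace M] {A : Atl n M} {L L' : LB A}

/-- data of the T-lemma: `N = |t|²` for a family of sections `t` of a semipositive bundle with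
curvature `om` -/
structure TD (A : Atl n M) where
  om : A.ι → M → Matrix (Fin n) (Fin n) ℂ
  cf : CF A om
  psd : ∀ i, ∀ x ∈ (A.e i).source, (om i x).PosSemidef
  N : M → ℝ
  smN : A.Sm N
  nn : ∀ x, 0 ≤ N x
  bk : ∀ κ : ℝ, 0 < κ → ∀ i, ∀ x ∈ (A.e i).source,
    (om i x + hsf A (fun y => Real.log (N y + κ)) i x).PosSemidef

namespace TD

/-- the open set `{N > 0}` -/
def U (D : TD A) : Set M := {x | 0 < D.N x}

/-- `β = om + ∂∂̄ log N`, used on `U` only -/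
def be (D : TD A) (i : A.ι) (x : M) : Matrix (Fin n) (Fin n) ℂ :=
  D.om i x + hsf A (fun y => Real.log (D.N y)) i x

/-- `β_κ = om + ∂∂̄ log (N + κ)` -/
def bk' (D : TD A) (κ : ℝ) (i : A.ι) (x : M) : Matrix (Fin n) (Fin n) ℂ :=
  D.om i x + hsf A (fun y => Real.log (D.N y + κ)) i x

theorem isOpen_U (D : TD A) : IsOpen D.U :=
  isOpen_lt continuous_const (FIc0_597.cont_sm D.smN)

theorem sm_log (D : TD A) {κ : ℝ} (hκ : 0 < κ) : A.Sm (fun y => Real.log (D.N y + κ)) :=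
  FIc0_597.sm_log_add D.smN D.nn hκ

theorem cf_bk (D : TD A) {κ : ℝ} (hκ : 0 < κ) : CF A (D.bk' κ) :=
  D.cf.add (hsf_cf (D.sm_log hκ))

theorem psd_bk (D : TD A) {κ : ℝ} (hκ : 0 < κ) (i : A.ι) {x : M} (hx : x ∈ (A.e i).source) :
    (D.bk' κ i x).PosSemidef := D.bk κ hκ i x hx

end TD

/-- `tr (adj (g) S) / h` -/
def mdens (h : HM (KB A)⁻¹) (g S : A.ι → M → Matrix (Fin n) (Fin n) ℂ) (x : M) : ℝ :=
  ((g (ch A x) x).adjugate * S (ch A x) x).trace.re / h.w (ch A x) x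

section stmts

variable [T2Space M] [CompactSpace M] [MeasurableSpace M] [BorelSpace M] [Finite A.ι]

/-- **non-pluripolar mass** -/
def MassStmt (h : HM (KB A)⁻¹) (D : TD A) : Prop :=
  ∀ (K K' : Kah A) (w : M → ℝ), A.Sm w →
    (∀ i, ∀ x ∈ (A.e i).source, K'.g i x = K.g i x + hsf A w i x) →
    ∫⁻ x in D.U, ENNReal.ofReal (mdens h K'.g D.be x) ∂(vm h) ≤
      ∫⁻ x in D.U, ENNReal.ofReal (mdens h K.g D.be x) ∂(vm h)

/-- the first integral condition: `ker θ ⊆ ker β` at the points of `U` where `rank θ = ν` -/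
def FIc (h : HM L) (D : TD A) (ν : ℕ) : Prop :=
  ∀ x ∈ D.U, ∀ i, x ∈ (A.e i).source → (cur h i x).rank = ν →
    ∀ v : Fin n → ℂ, cur h i x *ᵥ v = 0 → D.be i x *ᵥ v = 0

/-- **volumes**: upper bound of the mass of `β` -/
def VolStmt (h : HM (KB A)⁻¹) (D : TD A) (ν : ℕ) (K : Kah A) : Prop :=
  ∃ C : ℝ, 0 ≤ C ∧ ∀ (s : ℕ), 1 ≤ s → ∀ Ks : Kah A,
    (∀ i, ∀ x ∈ (A.e i).source, Ks.g i x = K.g i x + (s : ℂ) • cur h i x) →
    ∫⁻ x in D.U, ENNReal.ofReal (mdens h Ks.g D.be x) ∂(vm h) ≤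
      ENNReal.ofReal (C * (s : ℝ) ^ (ν - 1))

/-- **volumes**: lower bound of the volume -/
def VolLow (h : HM (KB A)⁻¹) (ν : ℕ) (K : Kah A) : Prop :=
  ∃ c : ℝ, 0 < c ∧ ∀ (s : ℕ), 1 ≤ s → ∀ Ks : Kah A,
    (∀ i, ∀ x ∈ (A.e i).source, Ks.g i x = K.g i x + (s : ℂ) • cur h i x) →
    c * (s : ℝ) ^ ν ≤ ∫ x, dtM h Ks.g x ∂(vm h)

end stmts

/-- test matrices: smooth, psd, compact support in `U` and in the chart `i` -/
structure Tst (D : TD A) where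
  i : A.ι
  S : M → Matrix (Fin n) (Fin n) ℂ
  sm : ∀ a b, A.SmAt i (fun x => S x a b)
  psd : ∀ x, (S x).PosSemidef
  K : Set M
  cK : IsCompact K
  KU : K ⊆ (A.e i).source ∩ D.U
  zero : ∀ x, x ∉ K → S x = 0

/-- `∫ tr (T S)` -/
def Tst.B {D : TD A} [MeasurableSpace M] [BorelSpace M] [Countable A.ι] (h : HM (KB A)⁻¹)
    (t : Tst D) (T : A.ι → M → Matrix (Fin n) (Fin n) ℂ) : ℝ :=
  ∫ x, ((T t.i x) * t.S x).trace.re ∂(vm h)

/-- **exponential integrability** (smooth functions): `cur H + ∂∂̄v ≥ 0`, `v ≤ 0`, `v = 0` somewhere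
imply `∫ e^(-ηv) ≤ C`, with `η`, `C` independent of `v`.  (`H` any metric on any line bundle.) -/
def ExpStmt [MeasurableSpace M] [BorelSpace M] [Countable A.ι] (h : HM (KB A)⁻¹) (H : HM L) :
    Prop :=
  ∃ η : ℝ, 0 < η ∧ ∃ C : ℝ, ∀ v : M → ℝ, A.Sm v →
    (∀ i, ∀ x ∈ (A.e i).source, (cur H i x + hsf A v i x).PosSemidef) →
    (∀ x, v x ≤ 0) → (∃ x, v x = 0) →
    ∫⁻ x, ENNReal.ofReal (Real.exp (-(η * v x))) ∂(vm h) ≤ ENNReal.ofReal C

/-- **T-LEMMA**: `u ∈ L²`, `u ≤ 0`, `∫ e^(-ηu) < ∞`, and `u` is the `L²` limit of smooth `v ≤ 0`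
with `θ + K/(m+1) + ∂∂̄v ≥ 0` on `M` and `∫ tr((θ + K/(m+1) + ∂∂̄v) S) ≥ δ ∫ tr(β S)` for the
tests `S` of any given finite family. -/
def TLStmt [MeasurableSpace M] [BorelSpace M] [Countable A.ι] (h : HM (KB A)⁻¹) (D : TD A)
    (K : Kah A) : Prop :=
  ∃ (δ η : ℝ) (u : M → ℝ), 0 < δ ∧ 0 < η ∧ Measurable u ∧ (∀ x, u x ≤ 0) ∧ MemLp u 2 (vm h) ∧
    Integrable (fun x => Real.exp (-(η * u x))) (vm h) ∧
    ∀ (m : ℕ) (ε : ℝ), 0 < ε → ∀ T : Finset (Tst D),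
      ∃ v : M → ℝ, A.Sm v ∧ (∀ x, v x ≤ 0) ∧
        (∀ i, ∀ x ∈ (A.e i).source,
          (cur h i x + (1 / ((m : ℂ) + 1)) • K.g i x + hsf A v i x).PosSemidef) ∧
        ∫ x, (v x - u x) ^ 2 ∂(vm h) ≤ ε ∧
        ∀ t ∈ T, δ * t.B h D.be ≤
          t.B h (fun i x => cur h i x + (1 / ((m : ℂ) + 1)) • K.g i x + hsf A v i x)

end

end Crest.Agent.R273.TLd_201
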