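import Crest.Agent.R273.LogCut_5
import Crest.Agent.R273.TLd_201
import Crest.Agent.R273.FIlin_332

/-!
# R273 (S0416), T-LEMMA, non-pluripolar mass, part A (helper5): the inequality with cut-offs

* `det_add_ge`, `det_add_le`, `qa_cs` : linear algebra
* `hasDerivAt_totc` : derivative of `r ↦ ∫ χ det (G + r H)`
* `main_ineq` : `b ∫ χ_e tr(adj K' β_κ) ≤ b ∫ χ_e tr(adj K β_κ) + b² V + B / √m_e`
-/

set_option autoImplicit false
set_option linter.unusedSectionVars false

open Set Filter Topology Complex MeasureTheory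
open scoped ContDiff Matrix ComplexConjugate ComplexOrder ENNReal

namespace Crest.Agent.R273.MassA_5

open Crest.Agent.R275 Crest.Agent.R275.Geo Crest.Agent.R275.Core144 Crest.Agent.R275.EDR890
open Crest.Agent.R275.Pai323 Crest.Agent.R275.C1d194
open Crest.Agent.R275.SerG398 (lint dens OffZ)
open Crest.Agent.R275.OmT75 (dj dl)
open Crest.Agent.R273.Defs_333 Crest.Agent.R273.Hess_333 Crest.Agent.R273.HessB_333
open Crest.Agent.R273.HM_333 Crest.Agent.R273.Kah_333 Crest.Agent.R273.Vol_333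
open Crest.Agent.R273.Vm_333 Crest.Agent.R273.StV_37
open Crest.Agent.R273.Green_5 Crest.Agent.R273.VolInv_5
open Crest.Agent.R273.GreenM_5 Crest.Agent.R273.GreenG_5
open Crest.Agent.R273.LogCut_5 (hsf_neg wd_comp_real dl_comp_real grd_comp th th_contDiff th_nonneg
  th_le th_one th_zero th_deriv)
open Crest.Agent.R273.TLd_201
open Crest.Agent.R273.FIlin_332 (det_re_eq_sum coeff_dp_nonneg)

noncomputable section

/-! ### linear algebra -/

section LA

variable {n : ℕ}

theorem dp_coeff_zero (G S : Matrix (Fin n) (Fin n) ℂ) : (dp G S).coeff 0 = G.det := by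
  rw [Polynomial.coeff_zero_eq_eval_zero, eval_dp, zero_smul, add_zero]

theorem det_split {G S : Matrix (Fin n) (Fin n) ℂ} (hG : G.PosDef) (hS : S.PosSemidef) (t : ℝ) :
    ((G + (t : ℂ) • S).det).re =
      (∑ k ∈ Finset.range n, ((dp G S).coeff (k + 2)).re * t ^ (k + 2)) +
        ((G.adjugate * S).trace).re * t + G.det.re := by
  have h1 : ((G + (t : ℂ) • S).det).re =
      ∑ k ∈ Finset.range (n + 2), ((dp G S).coeff k).re * t ^ k := by
    rw [det_re_eq_sum hG hS, Finset.sum_range_succ _ (n + 1),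
      Polynomial.coeff_eq_zero_of_natDegree_lt (lt_of_le_of_lt (natDegree_dp G S) (by omega)),
      Complex.zero_re, zero_mul, add_zero]
  rw [h1, Finset.sum_range_succ', Finset.sum_range_succ', dp_coeff_zero, zero_add, coeff_one_dp,
    pow_zero, pow_one, mul_one]

theorem det_add_ge {G S : Matrix (Fin n) (Fin n) ℂ} (hG : G.PosDef) (hS : S.PosSemidef) {t : ℝ}
    (ht : 0 ≤ t) : G.det.re + t * ((G.adjugate * S).trace).re ≤ ((G + (t : ℂ) • S).det).re := by
  rw [det_split hG hS]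
  have h1 : 0 ≤ ∑ k ∈ Finset.range n, ((dp G S).coeff (k + 2)).re * t ^ (k + 2) :=
    Finset.sum_nonneg fun k _ => mul_nonneg (coeff_dp_nonneg hG hS _) (by positivity)
  linarith

theorem det_add_le {G S : Matrix (Fin n) (Fin n) ℂ} (hG : G.PosDef) (hS : S.PosSemidef) {t : ℝ}
    (h0 : 0 ≤ t) (h1 : t ≤ 1) : ((G + (t : ℂ) • S).det).re ≤
      G.det.re + t * ((G.adjugate * S).trace).re + t ^ 2 * ((G + S).det).re := by
  have h2 := det_split hG hS 1
  have h3 : ((G + S).det).re = ((G + ((1 : ℝ) : ℂ) • S).det).re := by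
    rw [ofReal_one, one_smul]
  have h4 : 0 < G.det.re := (Complex.lt_def.1 hG.det_pos).1
  have h5 : 0 ≤ ((G.adjugate * S).trace).re := (Complex.le_def.1 (trace_adj_nonneg hG hS)).1
  have h6 : ∑ k ∈ Finset.range n, ((dp G S).coeff (k + 2)).re * t ^ (k + 2) ≤
      t ^ 2 * ∑ k ∈ Finset.range n, ((dp G S).coeff (k + 2)).re * 1 ^ (k + 2) := by
    rw [Finset.mul_sum]
    refine Finset.sum_le_sum fun k _ => ?_
    have h7 : t ^ (k + 2) ≤ t ^ 2 := pow_le_pow_of_le_one h0 h1 (by omega)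
    have h8 := coeff_dp_nonneg hG hS (k + 2)
    rw [one_pow, mul_one, mul_comm (t ^ 2)]
    exact mul_le_mul_of_nonneg_left h7 h8
  rw [det_split hG hS, h3, h2]
  nlinarith [sq_nonneg t]

theorem qa_conj {X : Matrix (Fin n) (Fin n) ℂ} (hX : X.IsHermitian) (p q : Fin n → ℂ) :
    conj (qa X p (fun b => conj (q b))) = qa X q (fun b => conj (p b)) := by
  unfold qa
  rw [map_sum, Finset.sum_comm]
  refine Finset.sum_congr rfl fun b _ => ?_
  rw [map_sum]
  refine Finset.sum_congr rfl fun a _ => ?_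
  have h1 : conj (X a b) = X b a := hX.apply b a
  rw [map_mul, map_mul, Complex.conj_conj, h1]
  ring

theorem qa_add_self (X : Matrix (Fin n) (Fin n) ℂ) (p q : Fin n → ℂ) (t : ℝ) :
    qa X (fun a => (t : ℂ) * p a + q a) (fun b => conj ((t : ℂ) * p b + q b)) =
      (t : ℂ) ^ 2 * qa X p (fun b => conj (p b)) + (t : ℂ) * qa X p (fun b => conj (q b)) +
        (t : ℂ) * qa X q (fun b => conj (p b)) + qa X q (fun b => conj (q b)) := by
  unfold qa
  simp only [map_add, map_mul, conj_ofReal, Finset.mul_sum, ← Finset.sum_add_distrib]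
  exact Finset.sum_congr rfl fun a _ => Finset.sum_congr rfl fun b _ => by ring

/-- Cauchy-Schwarz -/
theorem qa_cs {G : Matrix (Fin n) (Fin n) ℂ} (hG : G.PosDef) (p q : Fin n → ℂ) (t : ℝ) :
    -(2 * t * (qa G.adjugate p (fun b => conj (q b))).re) ≤
      t ^ 2 * (qa G.adjugate p (fun b => conj (p b))).re +
        (qa G.adjugate q (fun b => conj (q b))).re := by
  have h1 := (Complex.le_def.1 (qa_nonneg hG (fun a => (t : ℂ) * p a + q a))).1
  rw [qa_add_self, ← qa_conj hG.1.adjugate p q] at h1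
  have h2 : ((t : ℂ) ^ 2 * qa G.adjugate p (fun b => conj (p b)) +
      (t : ℂ) * qa G.adjugate p (fun b => conj (q b)) +
        (t : ℂ) * conj (qa G.adjugate p (fun b => conj (q b))) +
          qa G.adjugate q (fun b => conj (q b))).re =
      t ^ 2 * (qa G.adjugate p (fun b => conj (p b))).re +
        2 * t * (qa G.adjugate p (fun b => conj (q b))).re +
          (qa G.adjugate q (fun b => conj (q b))).re := by
    rw [← ofReal_pow]
    simp only [Complex.add_re, Complex.re_ofReal_mul, Complex.conj_re]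
    ring
  rw [h2, Complex.zero_re] at h1
  linarith

end LA

variable {n : ℕ} {M : Type} [TopologicalSpace M] {A : Atl n M}

/-! ### Hessians -/

theorem hsf_lin {u w : M → ℝ} (hu : A.Sm u) (hw : A.Sm w) (b r : ℝ) {i : A.ι} {x : M}
    (hx : x ∈ (A.e i).source) : hsf A (fun x => b * u x + r * w x) i x =
      (b : ℂ) • hsf A u i x + (r : ℂ) • hsf A w i x := by
  have hz := (A.e i).map_source hx
  have cu' := sm_contDiffAt hu i hz
  have cw := sm_contDiffAt hw i hz
  unfold hsf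
  rw [hess_add (contDiffAt_const.mul cu') (contDiffAt_const.mul cw), hess_const_mul b cu',
    hess_const_mul r cw]

theorem hsf_const (c : ℝ) (i : A.ι) (x : M) : hsf A (fun _ => c) i x = 0 := by
  unfold hsf
  have h1 : (fun _ : Cn n => c) = fun z => (0 : ℝ) * (fun _ : Cn n => c) z + c := by
    funext z; simp
  ext a b
  rw [hess_apply, Matrix.zero_apply]
  have h2 : wd (true, b) (cu fun _ : Cn n => c) = fun _ => 0 := by
    funext z
    exact wd_const _ _ _
  rw [h2]
  exact wd_const _ _ _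

/-! ### the derivative of the volume -/

section compact

variable [T2Space M] [CompactSpace M]

theorem totc_chi_det (Pt : Part A) {G H : A.ι → M → Matrix (Fin n) (Fin n) ℂ}
    (hG : ∀ i a b, A.SmAt i (fun x => G i x a b)) (hH : ∀ i a b, A.SmAt i (fun x => H i x a b))
    {χ : M → ℂ} (hχ : ∀ i, A.SmAt i χ) (r : ℂ) :
    totc Pt (fun i x => χ x * (G i x + r • H i x).det) =
      ∑ k ∈ Finset.range (n + 1), r ^ k *
        totc Pt (fun i x => χ x * (dp (G i x) (H i x)).coeff k) := by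
  have hcs : ∀ k i, A.SmAt i (fun x => (dp (G i x) (H i x)).coeff k) :=
    fun k i => smAt_coeff_dp (hG i) (hH i) k
  have h1 : totc Pt (fun i x => χ x * (G i x + r • H i x).det) =
      totc Pt (fun i x => ∑ k ∈ Finset.range (n + 1),
        r ^ k * (χ x * (dp (G i x) (H i x)).coeff k)) := by
    refine totc_congr Pt fun i x _ => ?_
    rw [← eval_dp, Polynomial.eval_eq_sum_range' (n := n + 1)
      (lt_of_le_of_lt (natDegree_dp _ _) (by omega)), Finset.mul_sum]
    exact Finset.sum_congr rfl fun k _ => by ring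
  rw [h1, totc_sum Pt _ (f := fun (k : ℕ) i x => r ^ k * (χ x * (dp (G i x) (H i x)).coeff k))
    fun k _ i => (contDiffOn_const (c := r ^ k)).mul ((hχ i).mul (hcs k i))]
  exact Finset.sum_congr rfl fun k _ => totc_smul Pt _ _

theorem hasDerivAt_totc (Pt : Part A) {G H : A.ι → M → Matrix (Fin n) (Fin n) ℂ}
    (hG : ∀ i a b, A.SmAt i (fun x => G i x a b)) (hH : ∀ i a b, A.SmAt i (fun x => H i x a b))
    {χ : M → ℂ} (hχ : ∀ i, A.SmAt i χ) (t : ℝ) :
    HasDerivAt (fun r : ℝ => totc Pt (fun i x => χ x * (G i x + (r : ℂ) • H i x).det))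
      (totc Pt (fun i x => χ x * ((G i x + (t : ℂ) • H i x).adjugate * H i x).trace)) t := by
  have hcs : ∀ k i, A.SmAt i (fun x => (dp (G i x) (H i x)).coeff k) :=
    fun k i => smAt_coeff_dp (hG i) (hH i) k
  have h0 : (fun r : ℝ => totc Pt (fun i x => χ x * (G i x + (r : ℂ) • H i x).det)) =
      fun r : ℝ => ∑ k ∈ Finset.range (n + 1), (r : ℂ) ^ k *
        totc Pt (fun i x => χ x * (dp (G i x) (H i x)).coeff k) :=
    funext fun r => totc_chi_det Pt hG hH hχ r
  rw [h0]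
  have h1 : HasDerivAt (fun r : ℝ => ∑ k ∈ Finset.range (n + 1), (r : ℂ) ^ k *
        totc Pt (fun i x => χ x * (dp (G i x) (H i x)).coeff k))
      (∑ k ∈ Finset.range (n + 1), ((k : ℂ) * (t : ℂ) ^ (k - 1)) *
        totc Pt (fun i x => χ x * (dp (G i x) (H i x)).coeff k)) t := by
    refine HasDerivAt.fun_sum fun k _ => ?_
    exact ((hasDerivAt_pow k (t : ℂ)).comp_ofReal).mul_const _
  convert h1 using 1
  have h3 : ∑ k ∈ Finset.range (n + 1), ((k : ℂ) * (t : ℂ) ^ (k - 1)) *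
        totc Pt (fun i x => χ x * (dp (G i x) (H i x)).coeff k) =
      totc Pt (fun i x => ∑ k ∈ Finset.range (n + 1), ((k : ℂ) * (t : ℂ) ^ (k - 1)) *
        (χ x * (dp (G i x) (H i x)).coeff k)) := by
    rw [totc_sum Pt _ (f := fun (k : ℕ) i x => ((k : ℂ) * (t : ℂ) ^ (k - 1)) *
        (χ x * (dp (G i x) (H i x)).coeff k))
      fun k _ i => (contDiffOn_const (c := (k : ℂ) * (t : ℂ) ^ (k - 1))).mul
        ((hχ i).mul (hcs k i))]
    exact Finset.sum_congr rfl fun k _ => (totc_smul Pt _ _).symm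
  rw [h3]
  refine totc_congr Pt fun i x hx => ?_
  symm
  rw [← eval_derivative_dp]
  rw [Polynomial.eval_eq_sum_range' (n := n + 1)
    ((Polynomial.natDegree_derivative_le _).trans_lt
      (lt_of_le_of_lt (Nat.sub_le _ _) (Nat.lt_succ_of_le (natDegree_dp _ _))))]
  rw [Finset.sum_range_succ']
  simp only [Nat.cast_zero, zero_mul, add_zero]
  rw [Finset.sum_range_succ]
  have h5 : (Polynomial.derivative (dp (G i x) (H i x))).coeff n = 0 := by
    rw [Polynomial.coeff_derivative, Polynomial.coeff_eq_zero_of_natDegree_lt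
      (lt_of_le_of_lt (natDegree_dp _ _) (Nat.lt_succ_self n)), zero_mul]
  rw [h5, zero_mul, add_zero, Finset.mul_sum]
  refine Finset.sum_congr rfl fun k _ => ?_
  rw [Polynomial.coeff_derivative]
  simp only [Nat.add_sub_cancel]
  push_cast
  ring

end compact

/-! ### the estimate -/

section meas

variable [T2Space M] [CompactSpace M] [MeasurableSpace M] [BorelSpace M] [Finite A.ι]

theorem totc_mono_re (K : Kah A) (Pt : Part A) {f f' : A.ι → M → ℂ} (hf : Dn A f) (hf' : Dn A f')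
    (hs : ∀ i, A.SmAt i (f i)) (hs' : ∀ i, A.SmAt i (f' i))
    (h : ∀ i, ∀ x ∈ (A.e i).source, (f i x).re ≤ (f' i x).re) :
    (totc Pt f).re ≤ (totc Pt f').re := by
  rw [← integral_fnD_re K Pt hf hs, ← integral_fnD_re K Pt hf' hs']
  refine integral_mono (integrable_sm (volK K) (sm_re (sm_fnD K hf hs)))
    (integrable_sm (volK K) (sm_re (sm_fnD K hf' hs'))) fun x => ?_
  have hx := mem_ci (A := A) x
  have h1 := (volK K).pos _ _ hx
  have h2 := volK_w K _ hx
  change (f (ci A x) x / (K.g (ci A x) x).det).re ≤ (f' (ci A x) x / (K.g (ci A x) x).det).re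
  rw [← h2, Complex.div_ofReal_re, Complex.div_ofReal_re]
  exact div_le_div_of_nonneg_right (h _ _ hx) h1.le

variable (K K' : Kah A) (w : M → ℝ) (D : TD A)

/-- `K + b β_κ + r ∂∂̄w` -/
def Gr (b κ r : ℝ) (i : A.ι) (x : M) : Matrix (Fin n) (Fin n) ℂ :=
  K.g i x + (b : ℂ) • D.bk' κ i x + (r : ℂ) • hsf A w i x

/-- `K + b om` -/
def G0 (b : ℝ) (i : A.ι) (x : M) : Matrix (Fin n) (Fin n) ℂ := K.g i x + (b : ℂ) • D.om i x

variable {K K' w D}

theorem Gr_cf (hw : A.Sm w) {b κ r : ℝ} (hκ : 0 < κ) : CF A (Gr K w D b κ r) :=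
  ((kah_cf K).add ((D.cf_bk hκ).smul _)).add ((hsf_cf hw).smul _)

theorem G0_cf (b : ℝ) : CF A (G0 K D b) := (kah_cf K).add (D.cf.smul _)

theorem Gr_eq (hw : A.Sm w) {b κ r : ℝ} (hκ : 0 < κ) {i : A.ι} {x : M}
    (hx : x ∈ (A.e i).source) : Gr K w D b κ r i x = G0 K D b i x +
      hsf A (fun y => b * Real.log (D.N y + κ) + r * w y) i x := by
  rw [hsf_lin (D.sm_log hκ) hw b r hx]
  unfold Gr G0 TD.bk'
  rw [smul_add]
  abel

theorem smul_posSemidef {S : Matrix (Fin n) (Fin n) ℂ} (hS : S.PosSemidef) {b : ℝ} (hb : 0 ≤ b) :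
    ((b : ℂ) • S).PosSemidef := hS.smul (by exact_mod_cast hb)

theorem Gr_pos (hK : ∀ i, ∀ x ∈ (A.e i).source, K'.g i x = K.g i x + hsf A w i x) {b κ r : ℝ}
    (hb : 0 ≤ b) (hκ : 0 < κ) (h0 : 0 ≤ r) (h1 : r ≤ 1) {i : A.ι} {x : M}
    (hx : x ∈ (A.e i).source) : (Gr K w D b κ r i x).PosDef := by
  have h2 : Gr K w D b κ r i x = (((1 - r : ℝ) : ℂ) • K.g i x + (r : ℂ) • K'.g i x) +
      (b : ℂ) • D.bk' κ i x := by
    unfold Gr
    rw [hK i x hx]
    push_cast
    module
  rw [h2]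
  refine Matrix.PosDef.add_posSemidef ?_ (smul_posSemidef (D.psd_bk hκ i hx) hb)
  rcases eq_or_lt_of_le h0 with h3 | h3
  · rw [← h3]
    simpa using K.pos i x hx
  · exact Matrix.PosDef.posSemidef_add (smul_posSemidef (K.pos i x hx).posSemidef (by linarith))
      ((K'.pos i x hx).smul (by exact_mod_cast h3))

/-- energy bound for `w` -/
def T2 (K : Kah A) (D : TD A) (Pt : Part A) (b : ℝ) : ℝ :=
  (totc Pt (fun i x => ((G0 K D b i x).adjugate * (K.g i x + K.g i x)).trace)).re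

/-- energy bound for `g_e` -/
def T1 (K : Kah A) (D : TD A) (Pt : Part A) (b : ℝ) : ℝ :=
  (totc Pt (fun i x => ((G0 K D b i x).adjugate * D.om i x).trace)).re

theorem T1_eq (Pt : Part A) (hw : A.Sm w) {b κ r e : ℝ} (hκ : 0 < κ) (he : 0 < e) :
    (totc Pt (fun i x => ((Gr K w D b κ r i x).adjugate * D.bk' e i x).trace)).re =
      T1 K D Pt b := by
  have hu : A.Sm (fun y => b * Real.log (D.N y + κ) + r * w y) := fun i =>
    (contDiffOn_const.mul (D.sm_log hκ i)).add (contDiffOn_const.mul (hw i))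
  have h2 := mixed Pt (G0_cf (K := K) (D := D) b) D.cf hu (D.sm_log he)
  have h3 : totc Pt (fun i x => ((Gr K w D b κ r i x).adjugate * D.bk' e i x).trace) =
      totc Pt (fun i x => ((G0 K D b i x +
        hsf A (fun y => b * Real.log (D.N y + κ) + r * w y) i x).adjugate *
        (D.om i x + hsf A (fun y => Real.log (D.N y + e)) i x)).trace) := by
    refine totc_congr Pt fun i x hx => ?_
    rw [Gr_eq hw hκ hx]
    rfl
  unfold T1
  rw [h3, h2]

theorem T2_eq (Pt : Part A) (hw : A.Sm w)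
    (hK : ∀ i, ∀ x ∈ (A.e i).source, K'.g i x = K.g i x + hsf A w i x) {b κ r : ℝ}
    (hκ : 0 < κ) :
    (totc Pt (fun i x => ((Gr K w D b κ r i x).adjugate * (K.g i x + K'.g i x)).trace)).re =
      T2 K D Pt b := by
  have hu : A.Sm (fun y => b * Real.log (D.N y + κ) + r * w y) := fun i =>
    (contDiffOn_const.mul (D.sm_log hκ i)).add (contDiffOn_const.mul (hw i))
  have h2 := mixed Pt (G0_cf (K := K) (D := D) b) ((kah_cf K).add (kah_cf K)) hu hw
  have h3 : totc Pt (fun i x => ((Gr K w D b κ r i x).adjugate * (K.g i x + K'.g i x)).trace) =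
      totc Pt (fun i x => ((G0 K D b i x +
        hsf A (fun y => b * Real.log (D.N y + κ) + r * w y) i x).adjugate *
        (K.g i x + K.g i x + hsf A w i x)).trace) := by
    refine totc_congr Pt fun i x hx => ?_
    rw [Gr_eq hw hκ hx, hK i x hx, add_assoc (K.g i x) (K.g i x)]
  unfold T2
  rw [h3, h2]

theorem dn_mul {f : A.ι → M → ℂ} (hf : Dn A f) (φ : M → ℂ) : Dn A (fun i x => φ x * f i x) := by
  intro i j x hx
  change φ x * f i x = dens A i j x * (φ x * f j x)
  rw [hf i j x hx]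
  ring

theorem energy_w (Pt : Part A) (hw : A.Sm w)
    (hK : ∀ i, ∀ x ∈ (A.e i).source, K'.g i x = K.g i x + hsf A w i x) {b κ r : ℝ}
    (hb : 0 ≤ b) (hκ : 0 < κ) (h0 : 0 ≤ r) (h1 : r ≤ 1) {W : ℝ} (hW : ∀ x, |w x| ≤ W) :
    (totc Pt (grd (Gr K w D b κ r) (fun y => (w y : ℂ)) (fun y => (w y : ℂ)))).re ≤
      W * T2 K D Pt b := by
  have hcf := Gr_cf (K := K) (D := D) hw (b := b) (r := r) hκ
  have hwc : ∀ i, A.SmAt i (fun y => (w y : ℂ)) := fun i => smAt_ofReal (hw i)
  have e1 : totc Pt (grd (Gr K w D b κ r) (fun y => (w y : ℂ)) (fun y => (w y : ℂ))) =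
      totc Pt (fun i x => (-1 : ℂ) * ((w x : ℂ) * ((Gr K w D b κ r i x).adjugate *
        hsf A w i x).trace)) := by
    rw [totc_grd Pt hcf hw hw, totc_smul]
    ring
  rw [e1, ← T2_eq Pt hw hK hκ (b := b) (r := r), ← Complex.re_ofReal_mul, ← totc_smul]
  have d1 := trA_dn (CF.tn hcf) (CF.tn (hsf_cf hw))
  have d2 := trA_dn (CF.tn hcf) (CF.tn ((kah_cf K).add (kah_cf K')))
  refine totc_mono_re K Pt (dn_mul (dn_mul d1 _) fun _ => -1) (dn_mul d2 fun _ => (W : ℂ))
    (fun i => (contDiffOn_const (c := (-1 : ℂ))).mul ((hwc i).mul (smAt_trA hcf (hsf_cf hw) i)))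
    (fun i => (contDiffOn_const (c := (W : ℂ))).mul
      (smAt_trA hcf ((kah_cf K).add (kah_cf K')) i)) fun i x hx => ?_
  have hp := Gr_pos (K := K) (D := D) hK hb hκ h0 h1 hx
  have p0 := (Complex.le_def.1 (trace_adj_nonneg hp (K.pos i x hx).posSemidef)).1
  have p1 := (Complex.le_def.1 (trace_adj_nonneg hp (K'.pos i x hx).posSemidef)).1
  have e2 : hsf A w i x = K'.g i x - K.g i x := by rw [hK i x hx]; abel
  have e3 : ((Gr K w D b κ r i x).adjugate * hsf A w i x).trace =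
      ((Gr K w D b κ r i x).adjugate * K'.g i x).trace -
        ((Gr K w D b κ r i x).adjugate * K.g i x).trace := by
    rw [e2, Matrix.mul_sub, Matrix.trace_sub]
  rw [e3, Matrix.mul_add, Matrix.trace_add]
  rw [show (-1 : ℂ) = ((-1 : ℝ) : ℂ) by push_cast; ring, Complex.re_ofReal_mul,
    Complex.re_ofReal_mul, Complex.re_ofReal_mul, Complex.sub_re, Complex.add_re]
  have h3 := abs_le.1 (hW x)
  rw [Complex.zero_re] at p0 p1
  nlinarith [mul_nonneg (by linarith [h3.2] : 0 ≤ W - w x) p0,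
    mul_nonneg (by linarith [h3.1] : 0 ≤ W + w x) p1]

/-! ### the cut-off functions -/

/-- `log C - log (N + e)` -/
def ge (D : TD A) (C e : ℝ) (x : M) : ℝ := Real.log C - Real.log (D.N x + e)

theorem ge_sm (D : TD A) (C : ℝ) {e : ℝ} (he : 0 < e) : A.Sm (ge D C e) := fun i =>
  contDiffOn_const.sub (D.sm_log he i)

theorem hsf_ge (D : TD A) (C : ℝ) {e : ℝ} (he : 0 < e) {i : A.ι} {x : M}
    (hx : x ∈ (A.e i).source) : hsf A (ge D C e) i x = D.om i x - D.bk' e i x := by
  have hc : A.Sm (fun _ : M => Real.log C) := fun i => contDiffOn_const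
  have h1 := hsf_lin (D.sm_log he) hc (-1) 1 hx
  have h2 : (fun x => (-1 : ℝ) * Real.log (D.N x + e) + 1 * Real.log C) = ge D C e := by
    funext x
    unfold ge
    ring
  rw [h2, hsf_const] at h1
  rw [h1]
  unfold TD.bk'
  push_cast
  module

/-- `m_e` -/
def me (C e : ℝ) : ℝ := Real.log C - Real.log e

theorem me_pos {C e : ℝ} (hC : 2 ≤ C) (he : 0 < e) (h1 : e ≤ 1) : 0 < me C e := by
  have h2 := Real.log_pos (show (1 : ℝ) < C by linarith)
  have h3 := Real.log_nonpos he.le h1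
  unfold me
  linarith

theorem ge_nonneg (D : TD A) {C e : ℝ} (hC : ∀ x, D.N x + 1 ≤ C) (he : 0 < e) (h1 : e ≤ 1)
    (x : M) : 0 ≤ ge D C e x := by
  have h2 := Real.log_le_log (show 0 < D.N x + e by have := D.nn x; linarith)
    (show D.N x + e ≤ C by have := hC x; linarith)
  unfold ge
  linarith

theorem ge_le (D : TD A) (C : ℝ) {e : ℝ} (he : 0 < e) (x : M) : ge D C e x ≤ me C e := by
  have h2 := Real.log_le_log he (show e ≤ D.N x + e by have := D.nn x; linarith)
  unfold ge me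
  linarith

/-- the cut-off -/
def chE (D : TD A) (C e : ℝ) (x : M) : ℝ := th (ge D C e x / me C e)

theorem chE_sm (D : TD A) (C : ℝ) {e : ℝ} (he : 0 < e) : A.Sm (chE D C e) := fun i =>
  th_contDiff.comp_contDiffOn ((ge_sm D C he i).div_const _)

theorem chE_nonneg (D : TD A) (C e : ℝ) (x : M) : 0 ≤ chE D C e x := th_nonneg _

theorem chE_le (D : TD A) (C e : ℝ) (x : M) : chE D C e x ≤ 1 := th_le _

theorem energy_chi (Pt : Part A) (hw : A.Sm w)
    (hK : ∀ i, ∀ x ∈ (A.e i).source, K'.g i x = K.g i x + hsf A w i x) {b κ r : ℝ}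
    (hb : 0 ≤ b) (hκ : 0 < κ) (h0 : 0 ≤ r) (h1 : r ≤ 1) {C e : ℝ} (hC2 : 2 ≤ C)
    (hC : ∀ x, D.N x + 1 ≤ C) (he : 0 < e) (he1 : e ≤ 1) {Cθ : ℝ}
    (hθ : ∀ y ∈ Icc (0 : ℝ) 1, |deriv th y| ≤ Cθ) :
    me C e * (totc Pt (grd (Gr K w D b κ r) (fun y => (chE D C e y : ℂ))
      (fun y => (chE D C e y : ℂ)))).re ≤ Cθ ^ 2 * T1 K D Pt b := by
  have hm := me_pos hC2 he he1
  set m := me C e with hmd
  have hcf := Gr_cf (K := K) (D := D) hw (b := b) (r := r) hκ
  have hgs := ge_sm D C he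
  have hgc : ∀ i, A.SmAt i (fun y => (ge D C e y : ℂ)) := fun i => smAt_ofReal (hgs i)
  have hcc : ∀ i, A.SmAt i (fun y => (chE D C e y : ℂ)) := fun i => smAt_ofReal (chE_sm D C he i)
  have hGp : ∀ i, ∀ x ∈ (A.e i).source, (Gr K w D b κ r i x).PosDef := fun i x hx =>
    Gr_pos hK hb hκ h0 h1 hx
  have e1 : (totc Pt (grd (Gr K w D b κ r) (fun y => (ge D C e y : ℂ))
      (fun y => (ge D C e y : ℂ)))).re ≤ m * T1 K D Pt b := by
    rw [← T1_eq Pt hw hκ he (r := r)]
    exact grd_le K Pt hcf D.cf (D.cf_bk he) hGp D.psd (fun i x hx => D.psd_bk he i hx) hgs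
      (fun i x hx => hsf_ge D C he hx) (ge_nonneg D hC he he1) (ge_le D C he)
  have e2 : (totc Pt (grd (Gr K w D b κ r) (fun y => (chE D C e y : ℂ))
      (fun y => (chE D C e y : ℂ)))).re ≤ (Cθ / m) ^ 2 *
        (totc Pt (grd (Gr K w D b κ r) (fun y => (ge D C e y : ℂ))
      (fun y => (ge D C e y : ℂ)))).re := by
    rw [← Complex.re_ofReal_mul, ← totc_smul]
    refine totc_mono_re K Pt (grd_dn (CF.tn hcf) hcc hcc)
      (dn_mul (grd_dn (CF.tn hcf) hgc hgc) fun _ => (((Cθ / m) ^ 2 : ℝ) : ℂ))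
      (fun i => smAt_grd hcf hcc hcc i)
      (fun i => (contDiffOn_const (c := (((Cθ / m) ^ 2 : ℝ) : ℂ))).mul (smAt_grd hcf hgc hgc i))
      fun i x hx => ?_
    set θ : ℝ → ℝ := fun y => th (y / m) with hθd
    have hθs : Differentiable ℝ θ := by
      have : ContDiff ℝ ∞ θ := th_contDiff.comp (contDiff_id.div_const _)
      exact this.differentiable (by simp)
    have hdθ : ∀ y, deriv θ y = deriv th (y / m) / m := by
      intro y
      have h1 : HasDerivAt th (deriv th (y / m)) (y / m) :=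
        ((th_contDiff.differentiable (by simp)) _).hasDerivAt
      have h2 : HasDerivAt (fun y : ℝ => y / m) (1 / m) y := (hasDerivAt_id y).div_const _
      have h3 := h1.comp y h2
      have h4 : HasDerivAt θ (deriv th (y / m) * (1 / m)) y := h3
      rw [h4.deriv]
      ring
    have e3 : grd (Gr K w D b κ r) (fun y => (chE D C e y : ℂ)) (fun y => (chE D C e y : ℂ)) i x =
        (((deriv θ (ge D C e x)) ^ 2 : ℝ) : ℂ) * grd (Gr K w D b κ r)
          (fun y => (ge D C e y : ℂ)) (fun y => (ge D C e y : ℂ)) i x :=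
      grd_comp (θ := θ) hθs hgs hx
    rw [e3, Complex.re_ofReal_mul, Complex.re_ofReal_mul]
    have e4 := (Complex.le_def.1 (grd_nonneg (G := Gr K w D b κ r) (ge D C e) (hGp i x hx))).1
    refine mul_le_mul_of_nonneg_right ?_ e4
    rw [hdθ]
    have h4 : ge D C e x / m ∈ Icc (0 : ℝ) 1 :=
      ⟨div_nonneg (ge_nonneg D hC he he1 x) hm.le, (div_le_one hm).2 (ge_le D C he x)⟩
    have h5 := hθ _ h4
    rw [div_pow, div_pow]
    refine div_le_div_of_nonneg_right ?_ (by positivity)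
    rw [← sq_abs]
    exact pow_le_pow_left₀ (abs_nonneg _) h5 2
  calc m * (totc Pt (grd (Gr K w D b κ r) (fun y => (chE D C e y : ℂ))
        (fun y => (chE D C e y : ℂ)))).re
      ≤ m * ((Cθ / m) ^ 2 * (m * T1 K D Pt b)) := by
        refine mul_le_mul_of_nonneg_left (e2.trans ?_) hm.le
        exact mul_le_mul_of_nonneg_left e1 (by positivity)
    _ = Cθ ^ 2 * T1 K D Pt b := by field_simp

/-- integrated Cauchy-Schwarz inequality -/
theorem cs_int (K : Kah A) (Pt : Part A) {G : A.ι → M → Matrix (Fin n) (Fin n) ℂ} (hG : CF A G)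
    (pG : ∀ i, ∀ x ∈ (A.e i).source, (G i x).PosDef) {φ u : M → ℝ} (hφ : A.Sm φ) (hu : A.Sm u)
    (t : ℝ) : -(2 * t * (totc Pt (grd G (fun y => (φ y : ℂ)) (fun y => (u y : ℂ)))).re) ≤
      t ^ 2 * (totc Pt (grd G (fun y => (φ y : ℂ)) (fun y => (φ y : ℂ)))).re +
        (totc Pt (grd G (fun y => (u y : ℂ)) (fun y => (u y : ℂ)))).re := by
  have hφc : ∀ i, A.SmAt i (fun y => (φ y : ℂ)) := fun i => smAt_ofReal (hφ i)
  have huc : ∀ i, A.SmAt i (fun y => (u y : ℂ)) := fun i => smAt_ofReal (hu i)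
  have dφφ := grd_dn (CF.tn hG) hφc hφc
  have dφu := grd_dn (CF.tn hG) hφc huc
  have duu := grd_dn (CF.tn hG) huc huc
  have h1 : (totc Pt (fun i x => ((-(2 * t) : ℝ) : ℂ) *
      grd G (fun y => (φ y : ℂ)) (fun y => (u y : ℂ)) i x)).re ≤
      (totc Pt (fun i x => ((t ^ 2 : ℝ) : ℂ) * grd G (fun y => (φ y : ℂ)) (fun y => (φ y : ℂ)) i x +
        grd G (fun y => (u y : ℂ)) (fun y => (u y : ℂ)) i x)).re := by
    refine totc_mono_re K Pt (dn_mul dφu fun _ => _) ?_
      (fun i => (contDiffOn_const (c := ((-(2 * t) : ℝ) : ℂ))).mul (smAt_grd hG hφc huc i))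
      (fun i => ((contDiffOn_const (c := ((t ^ 2 : ℝ) : ℂ))).mul (smAt_grd hG hφc hφc i)).add
        (smAt_grd hG huc huc i)) fun i x hx => ?_
    · intro i j x hx
      have a1 := dφφ i j x hx
      have a2 := duu i j x hx
      change ((t ^ 2 : ℝ) : ℂ) * grd G (fun y => (φ y : ℂ)) (fun y => (φ y : ℂ)) i x +
        grd G (fun y => (u y : ℂ)) (fun y => (u y : ℂ)) i x = dens A i j x *
        (((t ^ 2 : ℝ) : ℂ) * grd G (fun y => (φ y : ℂ)) (fun y => (φ y : ℂ)) j x +
        grd G (fun y => (u y : ℂ)) (fun y => (u y : ℂ)) j x)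
      rw [a1, a2]
      ring
    · have h2 := qa_cs (pG i x hx) (fun a => dl A i a (fun y => (φ y : ℂ)) x)
        (fun a => dl A i a (fun y => (u y : ℂ)) x) t
      have h3 : ∀ v : M → ℝ, (fun b => A.db i b (fun y => (v y : ℂ)) x) =
          fun b => conj (dl A i b (fun y => (v y : ℂ)) x) := fun v => funext fun b =>
        db_ofReal v i b x
      rw [← h3 u, ← h3 φ] at h2
      rw [Complex.add_re, Complex.re_ofReal_mul, Complex.re_ofReal_mul]
      simp only [grd_qa]
      linarith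
  rw [totc_smul, totc_add Pt (f := fun i x => ((t ^ 2 : ℝ) : ℂ) *
      grd G (fun y => (φ y : ℂ)) (fun y => (φ y : ℂ)) i x)
    (f' := grd G (fun y => (u y : ℂ)) (fun y => (u y : ℂ)))
    (fun i => (contDiffOn_const (c := ((t ^ 2 : ℝ) : ℂ))).mul (smAt_grd hG hφc hφc i))
    (fun i => smAt_grd hG huc huc i), totc_smul, Complex.add_re, Complex.re_ofReal_mul,
    Complex.re_ofReal_mul] at h1
  linarith

/-- the constant of the error term -/
def Bd (K : Kah A) (D : TD A) (Pt : Part A) (Cθ W b : ℝ) : ℝ :=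
  (Cθ ^ 2 * T1 K D Pt b + W * T2 K D Pt b) / 2

/-- the derivative of the truncated volume is small -/
theorem deriv_small (Pt : Part A) (hw : A.Sm w)
    (hK : ∀ i, ∀ x ∈ (A.e i).source, K'.g i x = K.g i x + hsf A w i x) {b κ r : ℝ}
    (hb : 0 ≤ b) (hκ : 0 < κ) (h0 : 0 ≤ r) (h1 : r ≤ 1) {C e : ℝ} (hC2 : 2 ≤ C)
    (hC : ∀ x, D.N x + 1 ≤ C) (he : 0 < e) (he1 : e ≤ 1) {Cθ : ℝ}
    (hθ : ∀ y ∈ Icc (0 : ℝ) 1, |deriv th y| ≤ Cθ) {W : ℝ} (hW : ∀ x, |w x| ≤ W) :
    |(totc Pt (fun i x => (chE D C e x : ℂ) * ((Gr K w D b κ r i x).adjugate *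
      hsf A w i x).trace)).re| ≤ Bd K D Pt Cθ W b / √(me C e) := by
  have hm := me_pos hC2 he he1
  have hs : 0 < √(me C e) := Real.sqrt_pos.2 hm
  have hss : √(me C e) ^ 2 = me C e := Real.sq_sqrt hm.le
  have hcf := Gr_cf (K := K) (D := D) hw (b := b) (r := r) hκ
  have hGp : ∀ i, ∀ x ∈ (A.e i).source, (Gr K w D b κ r i x).PosDef := fun i x hx =>
    Gr_pos hK hb hκ h0 h1 hx
  have h2 := totc_grd Pt hcf (chE_sm D C he) hw
  have h3 : totc Pt (fun i x => (chE D C e x : ℂ) * ((Gr K w D b κ r i x).adjugate *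
      hsf A w i x).trace) = - totc Pt (grd (Gr K w D b κ r) (fun y => (chE D C e y : ℂ))
        (fun y => (w y : ℂ))) := by
    rw [h2, neg_neg]
  have h4 := cs_int K Pt hcf hGp (chE_sm D C he) hw (√(me C e))
  have h5 := cs_int K Pt hcf hGp (chE_sm D C he) hw (-√(me C e))
  have h6 := energy_chi Pt hw hK hb hκ h0 h1 hC2 hC he he1 hθ
  have h7 := energy_w (D := D) Pt hw hK hb hκ h0 h1 hW
  rw [neg_sq, hss] at h5
  rw [hss] at h4
  rw [h3, Complex.neg_re, abs_neg, le_div_iff₀ hs]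
  unfold Bd
  rw [← abs_of_pos hs, ← abs_mul, abs_le]
  constructor
  · linarith
  · linarith

/-- the truncated volumes of `K + b β_κ` and `K' + b β_κ` are close -/
theorem vol_close (Pt : Part A) (hw : A.Sm w)
    (hK : ∀ i, ∀ x ∈ (A.e i).source, K'.g i x = K.g i x + hsf A w i x) {b κ : ℝ}
    (hb : 0 ≤ b) (hκ : 0 < κ) {C e : ℝ} (hC2 : 2 ≤ C)
    (hC : ∀ x, D.N x + 1 ≤ C) (he : 0 < e) (he1 : e ≤ 1) {Cθ : ℝ}
    (hθ : ∀ y ∈ Icc (0 : ℝ) 1, |deriv th y| ≤ Cθ) {W : ℝ} (hW : ∀ x, |w x| ≤ W) :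
    |(totc Pt (fun i x => (chE D C e x : ℂ) * (K'.g i x + (b : ℂ) • D.bk' κ i x).det)).re -
      (totc Pt (fun i x => (chE D C e x : ℂ) * (K.g i x + (b : ℂ) • D.bk' κ i x).det)).re| ≤
      Bd K D Pt Cθ W b / √(me C e) := by
  set F : ℝ → ℝ := fun r => (totc Pt (fun i x => (chE D C e x : ℂ) *
    (K.g i x + (b : ℂ) • D.bk' κ i x + (r : ℂ) • hsf A w i x).det)).re with hF
  have hcf : CF A (fun i x => K.g i x + (b : ℂ) • D.bk' κ i x) :=
    (kah_cf K).add ((D.cf_bk hκ).smul _)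
  have hcc : ∀ i, A.SmAt i (fun y => (chE D C e y : ℂ)) := fun i => smAt_ofReal (chE_sm D C he i)
  have hd : ∀ r : ℝ, HasDerivAt F (totc Pt (fun i x => (chE D C e x : ℂ) *
      ((Gr K w D b κ r i x).adjugate * hsf A w i x).trace)).re r := by
    intro r
    have h1 := hasDerivAt_totc Pt hcf.sm (hsf_cf hw).sm hcc r
    exact Complex.reCLM.hasFDerivAt.comp_hasDerivAt r h1
  have h1 := Convex.norm_image_sub_le_of_norm_hasDerivWithin_le (f := F)
    (f' := fun r => (totc Pt (fun i x => (chE D C e x : ℂ) *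
      ((Gr K w D b κ r i x).adjugate * hsf A w i x).trace)).re) (s := Icc (0 : ℝ) 1)
    (C := Bd K D Pt Cθ W b / √(me C e)) (x := 0) (y := 1)
    (fun r _ => (hd r).hasDerivWithinAt)
    (fun r hr => deriv_small Pt hw hK hb hκ hr.1 hr.2 hC2 hC he he1 hθ hW)
    (convex_Icc 0 1) (left_mem_Icc.2 zero_le_one) (right_mem_Icc.2 zero_le_one)
  rw [sub_zero, norm_one, mul_one, Real.norm_eq_abs] at h1
  have e0 : F 0 = (totc Pt (fun i x => (chE D C e x : ℂ) *
      (K.g i x + (b : ℂ) • D.bk' κ i x).det)).re := by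
    simp only [hF, ofReal_zero, zero_smul, add_zero]
  have e1 : F 1 = (totc Pt (fun i x => (chE D C e x : ℂ) *
      (K'.g i x + (b : ℂ) • D.bk' κ i x).det)).re := by
    have h3 : totc Pt (fun i x => (chE D C e x : ℂ) *
        (K.g i x + (b : ℂ) • D.bk' κ i x + ((1 : ℝ) : ℂ) • hsf A w i x).det) =
        totc Pt (fun i x => (chE D C e x : ℂ) * (K'.g i x + (b : ℂ) • D.bk' κ i x).det) := by
      refine totc_congr Pt fun i x hx => ?_
      rw [hK i x hx, ofReal_one, one_smul, add_right_comm]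
    simp only [hF]
    rw [h3]
  rw [e0, e1] at h1
  exact h1

/-- the total volume of `K + om` -/
def VV (K : Kah A) (D : TD A) (Pt : Part A) : ℝ := (totc Pt (fun i x => (K.g i x + D.om i x).det)).re

/-- **the inequality with cut-offs** -/
theorem main_ineq (Pt : Part A) (hw : A.Sm w)
    (hK : ∀ i, ∀ x ∈ (A.e i).source, K'.g i x = K.g i x + hsf A w i x) {b κ : ℝ}
    (hb : 0 ≤ b) (hb1 : b ≤ 1) (hκ : 0 < κ) {C e : ℝ} (hC2 : 2 ≤ C)
    (hC : ∀ x, D.N x + 1 ≤ C) (he : 0 < e) (he1 : e ≤ 1) {Cθ : ℝ}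
    (hθ : ∀ y ∈ Icc (0 : ℝ) 1, |deriv th y| ≤ Cθ) {W : ℝ} (hW : ∀ x, |w x| ≤ W) :
    b * (totc Pt (fun i x => (chE D C e x : ℂ) * ((K'.g i x).adjugate * D.bk' κ i x).trace)).re ≤
      b * (totc Pt (fun i x => (chE D C e x : ℂ) * ((K.g i x).adjugate * D.bk' κ i x).trace)).re +
        b ^ 2 * VV K D Pt + (Bd K D Pt Cθ W b + Bd K D Pt Cθ W 0) / √(me C e) := by
  have hcb := D.cf_bk hκ
  have hcc : ∀ i, A.SmAt i (fun y => (chE D C e y : ℂ)) := fun i => smAt_ofReal (chE_sm D C he i)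
  have cb : ∀ (K : Kah A) (b : ℂ), CF A (fun i x => K.g i x + b • D.bk' κ i x) := fun K b =>
    (kah_cf K).add (hcb.smul _)
  have a1 := abs_le.1 (vol_close (D := D) Pt hw hK hb hκ hC2 hC he he1 hθ hW)
  have a0 := abs_le.1 (vol_close (D := D) Pt hw hK le_rfl hκ hC2 hC he he1 hθ hW)
  simp only [ofReal_zero, zero_smul, add_zero] at a0
  -- lower bound
  have h1 : (totc Pt (fun i x => (chE D C e x : ℂ) * (K'.g i x).det +
      (b : ℂ) * ((chE D C e x : ℂ) * ((K'.g i x).adjugate * D.bk' κ i x).trace))).re ≤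
      (totc Pt (fun i x => (chE D C e x : ℂ) * (K'.g i x + (b : ℂ) • D.bk' κ i x).det)).re := by
    refine totc_mono_re K Pt ?_ (dn_mul (CF.tn (cb K' b)).det _)
      (fun i => ((hcc i).mul (smAt_det (K'.sm i))).add ((contDiffOn_const (c := (b : ℂ))).mul
        ((hcc i).mul (smAt_trA (kah_cf K') hcb i))))
      (fun i => (hcc i).mul (smAt_det ((cb K' b).sm i))) fun i x hx => ?_
    · intro i j x hx
      have d1 := (K_tn K').det i j x hx
      have d2 := trA_dn (K_tn K') (CF.tn hcb) i j x hx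
      change (chE D C e x : ℂ) * (K'.g i x).det +
        (b : ℂ) * ((chE D C e x : ℂ) * ((K'.g i x).adjugate * D.bk' κ i x).trace) =
        dens A i j x * ((chE D C e x : ℂ) * (K'.g j x).det +
        (b : ℂ) * ((chE D C e x : ℂ) * ((K'.g j x).adjugate * D.bk' κ j x).trace))
      rw [show (K'.g i x).det = dens A i j x * (K'.g j x).det from d1,
        show ((K'.g i x).adjugate * D.bk' κ i x).trace =
          dens A i j x * ((K'.g j x).adjugate * D.bk' κ j x).trace from d2]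
      ring
    · have h2 := det_add_ge (K'.pos i x hx) (D.psd_bk hκ i hx) hb
      simp only [Complex.add_re, Complex.re_ofReal_mul]
      nlinarith [mul_le_mul_of_nonneg_left h2 (chE_nonneg D C e x)]
  rw [totc_add Pt (f := fun i x => (chE D C e x : ℂ) * (K'.g i x).det)
    (f' := fun i x => (b : ℂ) * ((chE D C e x : ℂ) * ((K'.g i x).adjugate * D.bk' κ i x).trace))
    (fun i => (hcc i).mul (smAt_det (K'.sm i))) (fun i => (contDiffOn_const (c := (b : ℂ))).mul
        ((hcc i).mul (smAt_trA (kah_cf K') hcb i))), totc_smul, Complex.add_re,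
    Complex.re_ofReal_mul] at h1
  -- upper bound
  have hKb : CF A (fun i x => K.g i x + D.bk' κ i x) := (kah_cf K).add hcb
  have h3 : (totc Pt (fun i x => (chE D C e x : ℂ) * (K.g i x + (b : ℂ) • D.bk' κ i x).det)).re ≤
      (totc Pt (fun i x => ((chE D C e x : ℂ) * (K.g i x).det +
      (b : ℂ) * ((chE D C e x : ℂ) * ((K.g i x).adjugate * D.bk' κ i x).trace)) +
      ((b ^ 2 : ℝ) : ℂ) * (K.g i x + D.bk' κ i x).det)).re := by
    refine totc_mono_re K Pt (dn_mul (CF.tn (cb K b)).det _) ?_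
      (fun i => (hcc i).mul (smAt_det ((cb K b).sm i)))
      (fun i => (((hcc i).mul (smAt_det (K.sm i))).add ((contDiffOn_const (c := (b : ℂ))).mul
        ((hcc i).mul (smAt_trA (kah_cf K) hcb i)))).add
          ((contDiffOn_const (c := ((b ^ 2 : ℝ) : ℂ))).mul (smAt_det (hKb.sm i))))
      fun i x hx => ?_
    · intro i j x hx
      have d1 := (K_tn K).det i j x hx
      have d2 := trA_dn (K_tn K) (CF.tn hcb) i j x hx
      have d3 := (CF.tn hKb).det i j x hx
      change ((chE D C e x : ℂ) * (K.g i x).det +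
        (b : ℂ) * ((chE D C e x : ℂ) * ((K.g i x).adjugate * D.bk' κ i x).trace)) +
        ((b ^ 2 : ℝ) : ℂ) * (K.g i x + D.bk' κ i x).det =
        dens A i j x * (((chE D C e x : ℂ) * (K.g j x).det +
        (b : ℂ) * ((chE D C e x : ℂ) * ((K.g j x).adjugate * D.bk' κ j x).trace)) +
        ((b ^ 2 : ℝ) : ℂ) * (K.g j x + D.bk' κ j x).det)
      rw [show (K.g i x).det = dens A i j x * (K.g j x).det from d1,
        show ((K.g i x).adjugate * D.bk' κ i x).trace =
          dens A i j x * ((K.g j x).adjugate * D.bk' κ j x).trace from d2,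
        show (K.g i x + D.bk' κ i x).det = dens A i j x * (K.g j x + D.bk' κ j x).det from d3]
      ring
    · have h2 := det_add_le (K.pos i x hx) (D.psd_bk hκ i hx) hb hb1
      have h4 : 0 ≤ ((K.g i x + D.bk' κ i x).det).re :=
        (Complex.lt_def.1 ((K.pos i x hx).add_posSemidef (D.psd_bk hκ i hx)).det_pos).1.le
      simp only [Complex.add_re, Complex.re_ofReal_mul]
      have h5 := mul_le_mul_of_nonneg_left h2 (chE_nonneg D C e x)
      have h6 := mul_le_mul_of_nonneg_right (chE_le D C e x)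
        (mul_nonneg (sq_nonneg b) h4)
      nlinarith
  have hVV : (totc Pt (fun i x => (K.g i x + D.bk' κ i x).det)).re = VV K D Pt := by
    have hKo : CF A (fun i x => K.g i x + D.om i x) := (kah_cf K).add D.cf
    have h4 := volinv Pt hKo (D.sm_log hκ)
    have h5 : totc Pt (fun i x => (K.g i x + D.bk' κ i x).det) =
        totc Pt (fun i x => (K.g i x + D.om i x +
          hsf A (fun y => Real.log (D.N y + κ)) i x).det) := by
      refine totc_congr Pt fun i x hx => ?_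
      unfold TD.bk'
      rw [add_assoc]
    unfold VV
    rw [h5, h4]
  rw [totc_add Pt (f := fun i x => (chE D C e x : ℂ) * (K.g i x).det +
      (b : ℂ) * ((chE D C e x : ℂ) * ((K.g i x).adjugate * D.bk' κ i x).trace))
    (f' := fun i x => ((b ^ 2 : ℝ) : ℂ) * (K.g i x + D.bk' κ i x).det)
    (fun i => ((hcc i).mul (smAt_det (K.sm i))).add ((contDiffOn_const (c := (b : ℂ))).mul
        ((hcc i).mul (smAt_trA (kah_cf K) hcb i))))
    (fun i => (contDiffOn_const (c := ((b ^ 2 : ℝ) : ℂ))).mul (smAt_det (hKb.sm i))),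
    totc_add Pt (f := fun i x => (chE D C e x : ℂ) * (K.g i x).det)
    (f' := fun i x => (b : ℂ) * ((chE D C e x : ℂ) * ((K.g i x).adjugate * D.bk' κ i x).trace))
    (fun i => (hcc i).mul (smAt_det (K.sm i))) (fun i => (contDiffOn_const (c := (b : ℂ))).mul
        ((hcc i).mul (smAt_trA (kah_cf K) hcb i))), totc_smul, totc_smul, Complex.add_re,
    Complex.add_re, Complex.re_ofReal_mul, Complex.re_ofReal_mul, hVV] at h3
  rw [add_div]
  linarith [a1.1, a1.2, a0.1, a0.2]

end meas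

end

end Crest.Agent.R273.MassA_5
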