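import Crest.Agent.R273.FIc0_597
import Crest.Agent.R273.YauKah_635

/-!
# R273 (S0416), leaf FI, part d (helper597): volumes and total traces of Yau's metrics

* `int_dtM`   : `∫ det S / h d(vm h) = ∫ det S`
* `int_trM_class` : `K.g = α + ∂∂̄u` implies `∫ tr_K α = n vol`
* `exists_Kt` : Yau metrics in the classes `cur H + t cur h`
-/

set_option autoImplicit false
set_option linter.unusedSectionVars false

open Set Filter Topology Complex MeasureTheory
open scoped ContDiff Matrix ComplexConjugate ComplexOrder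

namespace Crest.Agent.R273.FId0_597

open Crest.Agent.R275 Crest.Agent.R275.Geo Crest.Agent.R275.Core144 Crest.Agent.R275.EDR890
open Crest.Agent.R275.GC293
open Crest.Agent.R273.Defs_333 Crest.Agent.R273.Hess_333 Crest.Agent.R273.HessB_333
open Crest.Agent.R273.HM_333 Crest.Agent.R273.Kah_333 Crest.Agent.R273.Vol_333
open Crest.Agent.R273.Vm_333 Crest.Agent.R273.StV_37 Crest.Agent.R273.VolInv_5
open Crest.Agent.R273.YauDefs_635 Crest.Agent.R273.YauKah_635
open Crest.Agent.R273.Green_5 Crest.Agent.R273.FIa0_597 Crest.Agent.R273.FIb0_597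
open Crest.Agent.R273.FIc0_597

noncomputable section

variable {n : ℕ} {M : Type} [TopologicalSpace M] {A : Atl n M} {L L' : LB A}

/-- `det S / h` as a complex function on `M` -/
def dtC (h : HM (KB A)⁻¹) (S : A.ι → M → Matrix (Fin n) (Fin n) ℂ) (x : M) : ℂ :=
  (S (ch A x) x).det / h.w (ch A x) x

theorem dtC_eq (h : HM (KB A)⁻¹) {S : A.ι → M → Matrix (Fin n) (Fin n) ℂ} (hS : TF A S)
    {i : A.ι} {x : M} (hx : x ∈ (A.e i).source) : dtC h S x = (S i x).det / h.w i x := by
  have key : ∀ i j, x ∈ (A.e i).source ∩ (A.e j).source →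
      (S i x).det / (h.w i x : ℂ) = (S j x).det / (h.w j x : ℂ) := by
    intro i j hij
    have h1 : (S i x).det = (‖(Jm A i j x).det‖ ^ 2 : ℝ) * (S j x).det := by
      rw [hS.tr i j x hij, Matrix.det_mul, Matrix.det_mul, Matrix.det_transpose]
      have h2 : ((Jm A i j x).map conj).det = conj (Jm A i j x).det := by
        rw [← RingHom.mapMatrix_apply, ← RingHom.map_det]
      have h3 : ((‖(Jm A i j x).det‖ ^ 2 : ℝ) : ℂ) =
          (Jm A i j x).det * conj (Jm A i j x).det := by
        rw [Complex.mul_conj, Complex.normSq_eq_norm_sq]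
      rw [h2, h3]
      ring
    have h4 := h.tr i j x hij
    rw [LB.inv_g, KB_g hij, norm_inv, inv_pow] at h4
    have h5 : ((‖(Jm A i j x).det‖ ^ 2 : ℝ) : ℂ) ≠ 0 := by
      have := det_Jm_ne hij
      exact_mod_cast (by positivity : (0:ℝ) < ‖(Jm A i j x).det‖ ^ 2).ne'
    have h6 : (h.w i x : ℂ) ≠ 0 := by exact_mod_cast (h.pos i x hij.1).ne'
    rw [h1, h4, Complex.ofReal_mul, Complex.ofReal_inv]
    field_simp
  exact key _ _ ⟨mem_ch A x, hx⟩

theorem dtC_re (h : HM (KB A)⁻¹) (S : A.ι → M → Matrix (Fin n) (Fin n) ℂ) (x : M) :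
    (dtC h S x).re = dtM h S x := by
  unfold dtC dtM
  rw [Complex.div_ofReal_re]

theorem sm_dtC (h : HM (KB A)⁻¹) {S : A.ι → M → Matrix (Fin n) (Fin n) ℂ} (hS : TF A S) :
    A.Sm (dtC h S) := by
  intro i
  have h1 : ContDiffOn ℝ ∞ (fun z => (S i ((A.e i).symm z)).det / (h.w i ((A.e i).symm z) : ℂ))
      (A.e i).target := by
    simp only [div_eq_mul_inv]
    refine ContDiffOn.mul (smAt_det (hS.sm i)) (ContDiffOn.inv ?_ fun z hz => ?_)
    · exact Complex.ofRealCLM.contDiff.comp_contDiffOn (h.sm i)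
    · exact_mod_cast (h.pos i _ ((A.e i).map_target hz)).ne'
  exact h1.congr fun z hz => dtC_eq h hS ((A.e i).map_target hz)

section int

variable [T2Space M] [CompactSpace M] [Fintype A.ι] [MeasurableSpace M] [BorelSpace M]

theorem cont_dtM (h : HM (KB A)⁻¹) {S : A.ι → M → Matrix (Fin n) (Fin n) ℂ} (hS : TF A S) :
    Continuous (dtM h S) := by
  have h1 : dtM h S = fun x => (dtC h S x).re := by
    funext x; rw [dtC_re]
  rw [h1]
  exact Complex.continuous_re.comp (sm_continuous (sm_dtC h hS))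

theorem int_dtM (P : Part A) (h : HM (KB A)⁻¹) {S : A.ι → M → Matrix (Fin n) (Fin n) ℂ}
    (hS : TF A S) : ∫ x, dtM h S x ∂(vm h) = (totc P (fun i x => (S i x).det)).re := by
  have := isFinite_vm h
  have hGc : Continuous (dtC h S) := sm_continuous (sm_dtC h hS)
  have h2 : Integrable (dtC h S) (vm h) := by
    obtain ⟨C, hC⟩ := isCompact_univ.exists_bound_of_continuousOn hGc.continuousOn
    exact Integrable.of_bound hGc.measurable.aestronglyMeasurable C
      (Eventually.of_forall fun x => hC x (mem_univ x))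
  rw [← int_eq_totc P h (f := dtC h S) hGc fun i x hx => ?_]
  · rw [← RCLike.re_eq_complex_re, ← integral_re h2]
    refine integral_congr_ae (Eventually.of_forall fun x => ?_)
    exact (dtC_re h S x).symm
  · have h6 : (h.w i x : ℂ) ≠ 0 := by exact_mod_cast (h.pos i x hx).ne'
    rw [dtC_eq h hS hx]
    field_simp

/-- total trace of a representative of the class of `K` -/
theorem int_trM_class (P : Part A) (K : Kah A) (h : HM (KB A)⁻¹) {c : ℝ}
    (hc : ∀ i, ∀ x ∈ (A.e i).source, (volK K).w i x = Real.exp c * h.w i x)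
    {α : A.ι → M → Matrix (Fin n) (Fin n) ℂ} {u : M → ℝ} (hu : A.Sm u)
    (hg : ∀ i, ∀ x ∈ (A.e i).source, K.g i x = α i x + hsf A u i x) :
    ∫ x, trM K α x ∂(vm h) = n * (vm h).real univ := by
  have h1 : ∀ x, trM K α x = n - Lap K u x := by
    intro x
    have hx := mem_ch A x
    unfold Lap trM
    have h2 : trC K K.g (ch A x) x = n := by
      unfold trC
      exact tr_self (K.pos _ x hx)
    have h3 : trC K K.g (ch A x) x = trC K α (ch A x) x + trC K (hsf A u) (ch A x) x := by
      rw [← trC_add]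
      unfold trC
      rw [hg _ x hx]
    have h4 : trC K α (ch A x) x = n - trC K (hsf A u) (ch A x) x := by
      rw [← h2, h3]; ring
    rw [h4, Complex.sub_re, Complex.natCast_re]
  have := isFinite_vm h
  simp only [h1]
  rw [integral_sub (integrable_const _) (integrable_cont h (cont_sm (sm_Lap K hu))),
    int_Lap P K h hc hu, sub_zero, integral_const, smul_eq_mul, mul_comm]

theorem cf_t (H : HM L) (h : HM (KB A)⁻¹) (t : ℂ) :
    CF A (fun i x => cur H i x + t • cur h i x) := (cur_cf H).add ((cur_cf h).smul t)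

theorem pos_t {H : HM L} (hH : H.Pos) {h : HM (KB A)⁻¹} (hs : h.Semipos) (t : ℕ) :
    (mul H (pow h t)).Pos := pos_of_cur fun i x hx => by
  rw [cur_mul H (pow h t) i hx, cur_pow h t i hx]
  refine (cur_posDef hH i hx).add_posSemidef ?_
  have := (cur_posSemidef hs i hx)
  exact this.smul (by exact_mod_cast Nat.zero_le t)

/-- Yau's metric in the class `cur H + t cur h` -/
theorem exists_Kt [ConnectedSpace M] (hY : YauStmt) (hG : GoodA A) (P : Part A) {H : HM L}
    (hH : H.Pos) {h : HM (KB A)⁻¹} (hs : h.Semipos) (t : ℕ) :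
    ∃ (K : Kah A) (c : ℝ) (u : M → ℝ), A.Sm u ∧
      (∀ i, ∀ x ∈ (A.e i).source, (volK K).w i x = Real.exp c * h.w i x) ∧
      (∀ i, ∀ x ∈ (A.e i).source, cur (volK K) i x = cur h i x) ∧
      (∀ i, ∀ x ∈ (A.e i).source,
        K.g i x = (cur H i x + (t : ℂ) • cur h i x) + hsf A u i x) ∧
      Real.exp c * (vm h).real univ =
        ∫ x, dtM h (fun i x => cur H i x + (t : ℂ) • cur h i x) x ∂(vm h) := by
  obtain ⟨u, hu, hp', c, hc1, hc2⟩ := yau_HM hY hG ⟨P⟩ (pos_t hH hs t) h
  set K := kah (tw (mul H (pow h t)) u hu) hp' with hK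
  have hg : ∀ i, ∀ x ∈ (A.e i).source,
        K.g i x = (cur H i x + (t : ℂ) • cur h i x) + hsf A u i x := by
    intro i x hx
    have h1 : K.g i x = cur (tw (mul H (pow h t)) u hu) i x := rfl
    rw [h1, cur_tw _ hu i hx, cur_mul H (pow h t) i hx, cur_pow h t i hx]
  refine ⟨K, c, u, hu, hc1, hc2, hg, ?_⟩
  have h1 : ∫ x, dtM h K.g x ∂(vm h) = Real.exp c * (vm h).real univ := by
    have h2 : ∀ x, dtM h K.g x = Real.exp c := by
      intro x
      have hx := mem_ch A x
      have h3 := hc1 _ x hx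
      have h4 : (volK K).w (ch A x) x = (K.g (ch A x) x).det.re := rfl
      unfold dtM
      rw [← h4, h3]
      have := h.pos _ x hx
      field_simp
    simp only [h2]
    rw [integral_const, smul_eq_mul, mul_comm]
  rw [← h1, int_dtM P h (tf_kah K), int_dtM P h (tf_of_cf (cf_t H h t)),
    ← volinv P (cf_t H h t) hu]
  congr 1
  exact totc_congr P fun i x hx => by rw [hg i x hx]

end int

end

end Crest.Agent.R273.FId0_597
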