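import Mathlib

/-!
# R273 (S0416), T-LEMMA (helper201): abstract tools

* `exists_mem_iInter` : a directed decreasing family of nonempty closed convex sets in a ball of a
  Hilbert space has a common point
* `exists_pos_coord`  : finite dimensional separation: a convex set `C ⊆ ℝ^J` on which no nonzero
  functional with nonnegative coefficients is `≤ 0` contains a point with positive coordinates
-/

set_option autoImplicit false
set_option linter.unusedSectionVars false

open Set Filter Topology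

namespace Crest.Agent.R273.TLh_201

section hilbert

variable {E : Type*} [NormedAddCommGroup E] [InnerProductSpace ℝ E] [CompleteSpace E]

/-- the minimal distance estimate -/
theorem min_sq {C : Set E} (hc : Convex ℝ C) {p q : E} (hp : p ∈ C) (hq : q ∈ C)
    (hmin : ∀ x ∈ C, ‖p‖ ≤ ‖x‖) : ‖p - q‖ ^ 2 ≤ 2 * (‖q‖ ^ 2 - ‖p‖ ^ 2) := by
  have h1 : (1 / 2 : ℝ) • p + (1 / 2 : ℝ) • q ∈ C :=
    hc hp hq (by norm_num) (by norm_num) (by norm_num)
  have h2 := hmin _ h1
  have h3 := parallelogram_law_with_norm ℝ p q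
  have h4 : ‖(1 / 2 : ℝ) • p + (1 / 2 : ℝ) • q‖ = 1 / 2 * ‖p + q‖ := by
    rw [← smul_add, norm_smul]
    norm_num
  rw [h4] at h2
  have h5 : 0 ≤ ‖p‖ := norm_nonneg _
  nlinarith [norm_nonneg (p + q)]

theorem exists_mem_iInter {I : Type*} [SemilatticeSup I] [Nonempty I] {C : I → Set E}
    (hc : ∀ i, Convex ℝ (C i)) (hcl : ∀ i, IsClosed (C i)) (hne : ∀ i, (C i).Nonempty)
    (hanti : Antitone C) {R : ℝ} (hR : ∀ i, ∀ x ∈ C i, ‖x‖ ≤ R) : ∃ p, ∀ i, p ∈ C i := by
  have hmin : ∀ i, ∃ p ∈ C i, ∀ x ∈ C i, ‖p‖ ≤ ‖x‖ := by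
    intro i
    obtain ⟨p, hp, h⟩ := exists_norm_eq_iInf_of_complete_convex (hne i) (hcl i).isComplete (hc i) 0
    refine ⟨p, hp, fun x hx => ?_⟩
    have h1 : ⨅ w : C i, ‖(0 : E) - w‖ ≤ ‖(0 : E) - x‖ :=
      ciInf_le (f := fun w : C i => ‖(0 : E) - w‖) ⟨0, by rintro _ ⟨w, rfl⟩; positivity⟩ ⟨x, hx⟩
    rw [← h] at h1
    simpa using h1
  choose p hp hpm using hmin
  have hmono : ∀ i j, i ≤ j → ‖p i‖ ≤ ‖p j‖ := fun i j hij => hpm i _ (hanti hij (hp j))
  have hbd : BddAbove (range fun i => ‖p i‖ ^ 2) := by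
    refine ⟨R ^ 2, ?_⟩
    rintro _ ⟨i, rfl⟩
    exact pow_le_pow_left₀ (norm_nonneg _) (hR i _ (hp i)) 2
  set S : ℝ := ⨆ i, ‖p i‖ ^ 2 with hS
  have hle : ∀ i, ‖p i‖ ^ 2 ≤ S := fun i => le_ciSup hbd i
  have hcau : CauchySeq p := by
    rw [Metric.cauchySeq_iff']
    intro ε hε
    have h1 : S - ε ^ 2 / 4 < S := by nlinarith [pow_pos hε 2]
    obtain ⟨N, hN⟩ := exists_lt_of_lt_ciSup h1
    refine ⟨N, fun j hj => ?_⟩
    have h2 := min_sq (hc N) (hp N) (hanti hj (hp j)) (hpm N)
    have h3 := hle j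
    rw [dist_comm, dist_eq_norm]
    have h4 : ‖p N - p j‖ ^ 2 < ε ^ 2 := by nlinarith [pow_pos hε 2]
    exact lt_of_pow_lt_pow_left₀ 2 hε.le h4
  obtain ⟨q, hq⟩ := cauchySeq_tendsto_of_complete hcau
  refine ⟨q, fun i => (hcl i).mem_of_tendsto hq ?_⟩
  filter_upwards [eventually_ge_atTop i] with j hj
  exact hanti hj (hp j)

end hilbert

/-- finite dimensional separation -/
theorem exists_pos_coord {J : Type*} [Fintype J] {C : Set (J → ℝ)} (hc : Convex ℝ C)
    (hne : C.Nonempty)
    (h : ∀ l : J → ℝ, (∀ j, 0 ≤ l j) → (∃ j, l j ≠ 0) → ∃ x ∈ C, 0 < ∑ j, l j * x j) :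
    ∃ x ∈ C, ∀ j, 0 < x j := by
  classical
  by_contra hcon
  push Not at hcon
  set O : Set (J → ℝ) := {x | ∀ j, 0 < x j} with hO
  have hOo : IsOpen O := by
    have : O = ⋂ j, {x | 0 < x j} := by ext x; simp [hO]
    rw [this]
    exact isOpen_iInter_of_finite fun j => isOpen_lt continuous_const (continuous_apply j)
  have hOc : Convex ℝ O := by
    intro x hx y hy a b ha hb hab j
    simp only [Pi.add_apply, Pi.smul_apply, smul_eq_mul]
    rcases ha.eq_or_lt with rfl | ha'
    · rw [zero_add] at hab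
      subst hab
      have := hy j
      simpa using this
    · have h1 := mul_pos ha' (hx j)
      have h2 := mul_nonneg hb (hy j).le
      linarith
  have hd : Disjoint O C := by
    rw [Set.disjoint_left]
    intro x hx hxC
    obtain ⟨j, hj⟩ := hcon x hxC
    exact absurd (hx j) (not_lt.2 hj)
  obtain ⟨f, u, hf, hu⟩ := geometric_hahn_banach_open hOc hOo hc hd
  have hfs : ∀ x : J → ℝ, f x = ∑ j, x j * f (Pi.single j 1) := by
    intro x
    have h1 : x = ∑ j, x j • (Pi.single j (1 : ℝ) : J → ℝ) := by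
      ext k
      simp [Finset.sum_apply, Pi.single_apply]
    conv_lhs => rw [h1]
    rw [map_sum]
    exact Finset.sum_congr rfl fun j _ => by rw [map_smul, smul_eq_mul]
  set l : J → ℝ := fun j => - f (Pi.single j 1) with hl
  have hu0 : 0 ≤ u := by
    by_contra hneg
    rw [not_le] at hneg
    -- take `a = r • 1` with `r → 0`
    set c : ℝ := f (fun _ => 1) with hcdef
    have h1 : ∀ r : ℝ, 0 < r → r * c < u := by
      intro r hr
      have h2 : (fun _ : J => r) ∈ O := fun j => hr
      have h3 := hf _ h2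
      have h4 : (fun _ : J => r) = r • (fun _ : J => (1 : ℝ)) := by ext j; simp
      rw [h4, map_smul, smul_eq_mul] at h3
      exact h3
    have h2 : Tendsto (fun r : ℝ => r * c) (𝓝[>] 0) (𝓝 (0 * c)) :=
      ((continuous_id.mul continuous_const).tendsto 0).mono_left nhdsWithin_le_nhds
    rw [zero_mul] at h2
    have h3 : (0 : ℝ) ≤ u := le_of_tendsto h2 (by
      filter_upwards [self_mem_nhdsWithin] with r hr
      exact (h1 r hr).le)
    linarith
  have hl0 : ∀ j, 0 ≤ l j := by
    intro j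
    by_contra hneg
    rw [not_le] at hneg
    have hpos : 0 < f (Pi.single j 1) := by
      simp only [hl] at hneg
      linarith
    set c : ℝ := f (fun _ => 1) with hcdef
    have h1 : ∀ R : ℝ, 0 ≤ R → c + R * f (Pi.single j 1) < u := by
      intro R hR
      have h2 : (fun _ : J => (1 : ℝ)) + R • (Pi.single j (1 : ℝ) : J → ℝ) ∈ O := by
        intro k
        simp only [Pi.add_apply, Pi.smul_apply, smul_eq_mul, Pi.single_apply]
        split_ifs
        · linarith
        · linarith
      have h3 := hf _ h2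
      rw [map_add, map_smul, smul_eq_mul] at h3
      exact h3
    have h2 := h1 (|u - c| / f (Pi.single j 1)) (by positivity)
    rw [div_mul_cancel₀ _ hpos.ne'] at h2
    have := le_abs_self (u - c)
    linarith
  have hl1 : ∃ j, l j ≠ 0 := by
    by_contra hall
    push Not at hall
    have hf0 : ∀ x, f x = 0 := by
      intro x
      rw [hfs]
      refine Finset.sum_eq_zero fun j _ => ?_
      have := hall j
      simp only [hl, neg_eq_zero] at this
      rw [this, mul_zero]
    obtain ⟨y, hy⟩ := hne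
    have h1 := hu y hy
    have h2 : (fun _ : J => (1 : ℝ)) ∈ O := fun j => one_pos
    have h3 := hf _ h2
    rw [hf0] at h1 h3
    linarith
  obtain ⟨x, hx, hpos⟩ := h l hl0 hl1
  have h1 := hu x hx
  rw [hfs] at h1
  have h2 : ∑ j, l j * x j = - ∑ j, x j * f (Pi.single j 1) := by
    rw [← Finset.sum_neg_distrib]
    exact Finset.sum_congr rfl fun j _ => by simp only [hl]; ring
  rw [h2] at hpos
  linarith

end Crest.Agent.R273.TLh_201
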