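import Crest.Agent.R273.TLb_201
import Crest.Agent.R273.TLh_201
import Crest.Agent.R273.FId0_597

/-!
# R273 (S0416), T-LEMMA (helper201): the separation step

* `hsf_add`, `hsf_smul`, `hsf_const`, `hsf_sub_const`
* `q_sm`, `B_add`, `B_smul`, `B_congr`, `B_nonneg`
* `exists_F` : Yau's theorem with right hand side `F > 0`
* `sep`      : for `s ≥ 1` and finitely many tests there is `w` smooth, `cur H + s θ + ∂∂̄w > 0`,
  `∫ tr((cur H + s θ + ∂∂̄w) S) ≥ s δ ∫ tr(β S)`
-/

set_option autoImplicit false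
set_option linter.unusedSectionVars false

open Set Filter Topology Complex MeasureTheory
open scoped ContDiff Matrix ComplexConjugate ComplexOrder ENNReal

namespace Crest.Agent.R273.TLs_201

open Crest.Agent.R275 Crest.Agent.R275.Geo Crest.Agent.R275.Core144 Crest.Agent.R275.EDR890
open Crest.Agent.R275.GC293
open Crest.Agent.R273.Defs_333 Crest.Agent.R273.Hess_333 Crest.Agent.R273.HessB_333
open Crest.Agent.R273.HM_333 Crest.Agent.R273.Kah_333 Crest.Agent.R273.Vol_333
open Crest.Agent.R273.Vm_333 Crest.Agent.R273.StV_37 Crest.Agent.R273.VolInv_5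
open Crest.Agent.R273.YauDefs_635 Crest.Agent.R273.YauKah_635
open Crest.Agent.R273.Green_5 Crest.Agent.R273.FIa0_597 Crest.Agent.R273.FIb0_597
open Crest.Agent.R273.FIc0_597 Crest.Agent.R273.FId0_597
open Crest.Agent.R273.TLd_201 Crest.Agent.R273.TLb_201 Crest.Agent.R273.TLh_201
open Crest.Agent.R275.Dg199 (SmN smN_iff sm_iff ev_symm)

noncomputable section

variable {n : ℕ} {M : Type} [TopologicalSpace M] {A : Atl n M} {L L' : LB A}

/-! ### linearity of the Hessian -/

theorem hsf_add {u v : M → ℝ} (hu : A.Sm u) (hv : A.Sm v) {i : A.ι} {x : M}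
    (hx : x ∈ (A.e i).source) : hsf A (fun y => u y + v y) i x = hsf A u i x + hsf A v i x :=
  hess_add (sm_contDiffAt hu i ((A.e i).map_source hx))
    (sm_contDiffAt hv i ((A.e i).map_source hx))

theorem hsf_smul (c : ℝ) {u : M → ℝ} (hu : A.Sm u) {i : A.ι} {x : M}
    (hx : x ∈ (A.e i).source) : hsf A (fun y => c * u y) i x = (c : ℂ) • hsf A u i x :=
  hess_const_mul c (sm_contDiffAt hu i ((A.e i).map_source hx))

theorem hsf_const (c : ℝ) (i : A.ι) (x : M) : hsf A (fun _ => c) i x = 0 := by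
  unfold hsf
  ext a b
  rw [hess_apply]
  have h4 : wd (true, b) (cu fun _ : Cn n => c) = fun _ => 0 := by
    funext w
    exact wd_const _ _ _
  rw [h4, wd_const]
  rfl

theorem sm_const (c : ℝ) : A.Sm (fun _ : M => c) := fun _ => contDiffOn_const

theorem sm_add {u v : M → ℝ} (hu : A.Sm u) (hv : A.Sm v) : A.Sm (fun y => u y + v y) :=
  fun i => (hu i).add (hv i)

theorem sm_smul (c : ℝ) {u : M → ℝ} (hu : A.Sm u) : A.Sm (fun y => c * u y) :=
  fun i => contDiffOn_const.mul (hu i)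

theorem hsf_sub_const {u : M → ℝ} (hu : A.Sm u) (c : ℝ) {i : A.ι} {x : M}
    (hx : x ∈ (A.e i).source) : hsf A (fun y => u y - c) i x = hsf A u i x := by
  have h1 : (fun y => u y - c) = fun y => u y + (fun _ => -c) y := by
    funext y; ring
  rw [h1, hsf_add hu (sm_const (-c)) hx, hsf_const, add_zero]

/-! ### tests -/

theorem smN_re {f : M → ℂ} {p : M} (hf : SmN A f p) : SmN A (fun x => (f x).re) p := by
  obtain ⟨i, hi, h⟩ := hf
  exact ⟨i, hi, Complex.reCLM.contDiff.contDiffAt.comp _ h⟩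

/-- `tr (F S)` is smooth if `F` is smooth on the support of the test -/
theorem q_sm [T2Space M] {D : TD A} (t : Tst D) {F : M → Matrix (Fin n) (Fin n) ℂ}
    (hF : ∀ x ∈ t.K, ∀ a b, SmN A (fun y => F y a b) x) :
    A.Sm (fun x => (F x * t.S x).trace.re) := by
  rw [sm_iff]
  intro p
  by_cases hp : p ∈ t.K
  · have hs : p ∈ (A.e t.i).source := (t.KU hp).1
    have hS : ∀ a b, SmN A (fun y => t.S y a b) p := fun a b =>
      Crest.Agent.R275.Dg199.SmAt.smN (t.sm a b) hs
    have h1 : (fun x => (F x * t.S x).trace) = fun x => ∑ a, ∑ b, F x a b * t.S x b a := by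
      funext x
      simp only [Matrix.trace, Matrix.diag, Matrix.mul_apply]
    refine smN_re ?_
    rw [h1]
    exact Crest.Agent.R275.Dg199.SmN.sum fun a _ => Crest.Agent.R275.Dg199.SmN.sum fun b _ =>
      Crest.Agent.R275.Dg199.SmN.mul (hF p hp a b) (hS b a)
  · refine Crest.Agent.R275.Dg199.SmN.congr (Crest.Agent.R275.Dg199.smN_const (0 : ℝ) p) ?_
    filter_upwards [t.cK.isClosed.isOpen_compl.mem_nhds hp] with x hx
    rw [t.zero x hx, Matrix.mul_zero, Matrix.trace_zero, Complex.zero_re]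

theorem q_sm_tf [T2Space M] {D : TD A} (t : Tst D) {T : A.ι → M → Matrix (Fin n) (Fin n) ℂ}
    (hT : TF A T) : A.Sm (fun x => (T t.i x * t.S x).trace.re) :=
  q_sm t fun _ hx a b => Crest.Agent.R275.Dg199.SmAt.smN (hT.sm t.i a b) (t.KU hx).1

theorem f_sm [T2Space M] {D : TD A} (t : Tst D) :
    A.Sm (fun x => (D.be t.i x * t.S x).trace.re) :=
  q_sm t fun _ hx a b => be_smN D (t.KU hx).1 (t.KU hx).2 a b

theorem f_nonneg {D : TD A} (t : Tst D) (x : M) : 0 ≤ (D.be t.i x * t.S x).trace.re := by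
  by_cases hx : x ∈ t.K
  · exact tr_mul_nonneg (psd_be D (t.KU hx).1 (t.KU hx).2) (t.psd x)
  · rw [t.zero x hx, Matrix.mul_zero, Matrix.trace_zero, Complex.zero_re]

theorem q_nonneg {D : TD A} (t : Tst D) {T : A.ι → M → Matrix (Fin n) (Fin n) ℂ}
    (hT : ∀ i, ∀ x ∈ (A.e i).source, (T i x).PosSemidef) (x : M) :
    0 ≤ (T t.i x * t.S x).trace.re := by
  by_cases hx : x ∈ t.K
  · exact tr_mul_nonneg (hT _ _ (t.KU hx).1) (t.psd x)
  · rw [t.zero x hx, Matrix.mul_zero, Matrix.trace_zero, Complex.zero_re]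

section int

variable [T2Space M] [CompactSpace M] [Fintype A.ι] [MeasurableSpace M] [BorelSpace M]

theorem integrable_sm (h : HM (KB A)⁻¹) {f : M → ℝ} (hf : A.Sm f) : Integrable f (vm h) :=
  integrable_cont h (cont_sm hf)

theorem B_congr (h : HM (KB A)⁻¹) {D : TD A} (t : Tst D)
    {T T' : A.ι → M → Matrix (Fin n) (Fin n) ℂ}
    (hT : ∀ x ∈ (A.e t.i).source, T t.i x = T' t.i x) : t.B h T = t.B h T' := by
  unfold Tst.B
  refine integral_congr_ae (Eventually.of_forall fun x => ?_)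
  simp only
  by_cases hx : x ∈ t.K
  · rw [hT x (t.KU hx).1]
  · rw [t.zero x hx, Matrix.mul_zero, Matrix.mul_zero]

theorem B_add (h : HM (KB A)⁻¹) {D : TD A} (t : Tst D)
    {T T' : A.ι → M → Matrix (Fin n) (Fin n) ℂ} (hT : TF A T) (hT' : TF A T') :
    t.B h (fun i x => T i x + T' i x) = t.B h T + t.B h T' := by
  unfold Tst.B
  rw [← integral_add (integrable_sm h (q_sm_tf t hT)) (integrable_sm h (q_sm_tf t hT'))]
  refine integral_congr_ae (Eventually.of_forall fun x => ?_)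
  simp only [Matrix.add_mul, Matrix.trace_add, Complex.add_re]

theorem B_smul (h : HM (KB A)⁻¹) {D : TD A} (t : Tst D)
    {T : A.ι → M → Matrix (Fin n) (Fin n) ℂ} (c : ℝ) :
    t.B h (fun i x => (c : ℂ) • T i x) = c * t.B h T := by
  unfold Tst.B
  rw [← integral_const_mul]
  refine integral_congr_ae (Eventually.of_forall fun x => ?_)
  simp only [Matrix.smul_mul, Matrix.trace_smul, smul_eq_mul, Complex.re_ofReal_mul]

theorem B_nonneg (h : HM (KB A)⁻¹) {D : TD A} (t : Tst D)
    {T : A.ι → M → Matrix (Fin n) (Fin n) ℂ}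
    (hT : ∀ i, ∀ x ∈ (A.e i).source, (T i x).PosSemidef) : 0 ≤ t.B h T :=
  integral_nonneg fun x => q_nonneg t hT x

theorem Bbe_nonneg (h : HM (KB A)⁻¹) {D : TD A} (t : Tst D) : 0 ≤ t.B h D.be :=
  integral_nonneg fun x => f_nonneg t x

/-! ### Yau's theorem with right hand side `F` -/

theorem tw_w {h : HM L} {f : M → ℝ} (hf : A.Sm f) {i : A.ι} {x : M} (hx : x ∈ (A.e i).source) :
    (tw h f hf).w i x = Real.exp (-(f x)) * h.w i x := by
  have hz := (A.e i).map_source hx
  have h1 := wt_tw h f hf i hz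
  have h2 := (tw h f hf).pos i x hx
  have h3 := h.pos i x hx
  unfold HM.wt at h1
  rw [(A.e i).left_inv hx] at h1
  rw [← Real.exp_log h2, ← Real.exp_log h3, ← Real.exp_add]
  congr 1
  linarith

theorem exists_F [ConnectedSpace M] (hY : YauStmt) (hG : GoodA A) (P : Part A) {H : HM L}
    (hH : H.Pos) (h : HM (KB A)⁻¹) {F : M → ℝ} (hF : A.Sm F) (hF0 : ∀ x, 0 < F x) :
    ∃ (w : M → ℝ) (K' : Kah A) (c : ℝ), A.Sm w ∧
      (∀ i, ∀ x ∈ (A.e i).source, K'.g i x = cur H i x + hsf A w i x) ∧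
      (∀ x, dtM h K'.g x = Real.exp c * F x) ∧
      Real.exp c * ∫ x, F x ∂(vm h) = ∫ x, dtM h (cur H) x ∂(vm h) := by
  have hl : A.Sm (fun x => - Real.log (F x)) := fun i =>
    ((hF i).log fun z _ => (hF0 _).ne').neg
  obtain ⟨u, hu, hp', c, hc1, -⟩ := yau_HM hY hG ⟨P⟩ hH (tw h _ hl)
  set K := kah (tw H u hu) hp' with hK
  have hg : ∀ i, ∀ x ∈ (A.e i).source, K.g i x = cur H i x + hsf A u i x := by
    intro i x hx
    have h1 : K.g i x = cur (tw H u hu) i x := rfl
    rw [h1, cur_tw _ hu i hx]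
  have h2 : ∀ x, dtM h K.g x = Real.exp c * F x := by
    intro x
    have hx := mem_ch A x
    have h3 := hc1 _ x hx
    have h4 : (volK K).w (ch A x) x = (K.g (ch A x) x).det.re := rfl
    rw [tw_w hl hx, neg_neg, Real.exp_log (hF0 x)] at h3
    unfold dtM
    rw [← h4, h3]
    have := h.pos _ x hx
    field_simp
  refine ⟨u, K, c, hu, hg, h2, ?_⟩
  have h3 : ∫ x, dtM h K.g x ∂(vm h) = Real.exp c * ∫ x, F x ∂(vm h) := by
    simp only [h2]
    rw [integral_const_mul]
  rw [← h3, int_dtM P h (tf_kah K), int_dtM P h (tf_cur H), ← volinv P (cur_cf H) hu]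
  congr 1
  exact totc_congr P fun i x hx => by rw [hg i x hx]

/-! ### the key estimate -/

/-- `mdens` of a Kähler metric as `det · tr` -/
theorem mdens_kah (h : HM (KB A)⁻¹) (K : Kah A) (S : A.ι → M → Matrix (Fin n) (Fin n) ℂ) (x : M) :
    mdens h K.g S x = dtM h K.g x * trM K S x := by
  have hx := mem_ch A x
  unfold mdens dtM trM
  rw [← trC_det K S hx]
  have h1 : (K.g (ch A x) x).det = ((K.g (ch A x) x).det.re : ℂ) := by
    have := volK_w K (ch A x) hx
    rw [← this]
    simp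
  rw [h1, Complex.re_ofReal_mul, Complex.ofReal_re]
  ring

/-- pointwise: `tr(βS) ≤ tr_K(β) tr(K S)` -/
theorem key_pt {D : TD A} (K : Kah A) (t : Tst D) {x : M} (hU : x ∈ D.U) :
    (D.be t.i x * t.S x).trace.re ≤ trM K D.be x * (K.g t.i x * t.S x).trace.re := by
  by_cases hx : x ∈ t.K
  · have hs := (t.KU hx).1
    have h1 : trM K D.be x = ((K.g t.i x)⁻¹ * D.be t.i x).trace.re := by
      have h2 := mem_ch A x
      have e : trC K D.be (ch A x) x = trC K D.be t.i x := by
        unfold trC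
        rw [K.tr (ch A x) t.i x ⟨h2, hs⟩, be_tr D ⟨h2, hs⟩ hU]
        set J := Jm A (ch A x) t.i x with hJ
        have h1 : IsUnit (Jᵀ).det := by
          rw [Matrix.det_transpose]; exact (det_Jm_ne ⟨h2, hs⟩).isUnit
        have h2 : IsUnit (J.map conj).det := (det_conj_ne ⟨h2, hs⟩).isUnit
        rw [Matrix.mul_inv_rev, Matrix.mul_inv_rev]
        have e : (J.map conj)⁻¹ * ((K.g t.i x)⁻¹ * (Jᵀ)⁻¹) * (Jᵀ * D.be t.i x * J.map conj) =
            (J.map conj)⁻¹ * ((K.g t.i x)⁻¹ * D.be t.i x * J.map conj) := by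
          calc (J.map conj)⁻¹ * ((K.g t.i x)⁻¹ * (Jᵀ)⁻¹) * (Jᵀ * D.be t.i x * J.map conj)
              = (J.map conj)⁻¹ * ((K.g t.i x)⁻¹ * (((Jᵀ)⁻¹ * Jᵀ) * D.be t.i x) * J.map conj) := by
                simp only [Matrix.mul_assoc]
            _ = _ := by rw [Matrix.nonsing_inv_mul _ h1, Matrix.one_mul]
        rw [e, Matrix.trace_mul_comm, Matrix.mul_assoc, Matrix.mul_nonsing_inv _ h2,
          Matrix.mul_one]
      unfold trM
      rw [e]
      rfl
    rw [h1]
    exact key_mat (K.pos _ x hs) (psd_be D hs hU) (t.psd x)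
  · rw [t.zero x hx, Matrix.mul_zero, Matrix.mul_zero, Matrix.trace_zero, Complex.zero_re,
      mul_zero]

theorem trM_be_nonneg {D : TD A} (K : Kah A) {x : M} (hU : x ∈ D.U) : 0 ≤ trM K D.be x :=
  tr_re_nonneg (K.pos _ x (mem_ch A x)) (psd_be D (mem_ch A x) hU)

/-- AM-GM -/
theorem amgm2 {a b f r : ℝ} (ha : 0 ≤ a) (hb : 0 ≤ b) (hr : 0 < r)
    (h : f ^ 2 ≤ a * b) : f ≤ r / 2 * a + 1 / (2 * r) * b := by
  have h1 : 0 ≤ r / 2 * a + 1 / (2 * r) * b := by positivity
  have h2 : a * b ≤ (r / 2 * a + 1 / (2 * r) * b) ^ 2 := by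
    have h3 : (r / 2 * a + 1 / (2 * r) * b) ^ 2 - a * b = (r / 2 * a - 1 / (2 * r) * b) ^ 2 := by
      field_simp
      ring
    nlinarith [sq_nonneg (r / 2 * a - 1 / (2 * r) * b)]
  exact le_of_sq_le_sq (h.trans h2) h1

/-- the key estimate for a nonnegative combination of tests -/
theorem key_sum [ConnectedSpace M] (hY : YauStmt) (hG : GoodA A) (P : Part A) {H : HM L}
    (hH : H.Pos) {h : HM (KB A)⁻¹} (hs : h.Semipos) {D : TD A} (hmass : MassStmt h D)
    {ν : ℕ} (hν : 1 ≤ ν) {C c : ℝ} (hC : 0 ≤ C) (hc : 0 < c) {s : ℕ} (hs1 : 1 ≤ s)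
    (hup : ∫⁻ x in D.U, ENNReal.ofReal
      (mdens h (fun i x => cur H i x + (s : ℂ) • cur h i x) D.be x) ∂(vm h) ≤
      ENNReal.ofReal (C * (s : ℝ) ^ (ν - 1)))
    (hlo : c * (s : ℝ) ^ ν ≤ ∫ x, dtM h (fun i x => cur H i x + (s : ℂ) • cur h i x) x ∂(vm h))
    {J : Type*} [Fintype J] (t : J → Tst D) {l : J → ℝ} (hl : ∀ j, 0 ≤ l j)
    (hpos : 0 < ∑ j, l j * (t j).B h D.be) :
    ∃ w : M → ℝ, A.Sm w ∧ (∀ i, ∀ x ∈ (A.e i).source,
      (cur H i x + (s : ℂ) • cur h i x + hsf A w i x).PosDef) ∧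
      (s : ℝ) * (1 / (4 * (C / c + 1))) * ∑ j, l j * (t j).B h D.be <
        ∑ j, l j * (t j).B h (fun i x => cur H i x + (s : ℂ) • cur h i x + hsf A w i x) := by
  have := isFinite_vm h
  have hs0 : (0 : ℝ) < s := by exact_mod_cast hs1
  set I0 : ℝ := ∑ j, l j * (t j).B h D.be with hI0
  set F0 : M → ℝ := fun x => ∑ j, l j * (D.be (t j).i x * (t j).S x).trace.re with hF0
  have hF0s : A.Sm F0 := fun i => ContDiffOn.sum fun j _ => contDiffOn_const.mul (f_sm (t j) i)
  have hF0n : ∀ x, 0 ≤ F0 x := fun x => Finset.sum_nonneg fun j _ =>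
    mul_nonneg (hl j) (f_nonneg (t j) x)
  have hF0i : ∫ x, F0 x ∂(vm h) = I0 := by
    rw [hF0, integral_finsetSum _ fun j _ => (integrable_sm h (f_sm (t j))).const_mul _]
    exact Finset.sum_congr rfl fun j _ => integral_const_mul _ _
  set m : ℝ := (vm h).real univ with hm
  have hm0 : 0 ≤ m := measureReal_nonneg
  set ε : ℝ := I0 / (4 * (m + 1)) with hε
  have hε0 : 0 < ε := by positivity
  have hεm : ε * m ≤ I0 / 4 := by
    rw [hε, div_mul_eq_mul_div, div_le_div_iff₀ (by positivity) (by norm_num)]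
    nlinarith
  set F : M → ℝ := fun x => F0 x + ε with hFd
  have hFs : A.Sm F := sm_add hF0s (sm_const ε)
  have hFp : ∀ x, 0 < F x := fun x => by have := hF0n x; simp only [hFd]; linarith
  have hFi : ∫ x, F x ∂(vm h) = I0 + ε * m := by
    rw [hFd, integral_add (integrable_sm h hF0s) (integrable_const _), hF0i, integral_const,
      smul_eq_mul, mul_comm]
  obtain ⟨w, K', e, hw, hg, hdt, hint⟩ := exists_F hY hG P (pos_t hH hs s) h hFs hFp
  have hcs : ∀ i, ∀ x ∈ (A.e i).source,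
      cur (mul H (pow h s)) i x = cur H i x + (s : ℂ) • cur h i x := fun i x hx => by
    rw [cur_mul H (pow h s) i hx, cur_pow h s i hx]
  have hg' : ∀ i, ∀ x ∈ (A.e i).source,
      K'.g i x = cur H i x + (s : ℂ) • cur h i x + hsf A w i x := fun i x hx => by
    rw [hg i x hx, hcs i x hx]
  -- the total mass
  have hp1 : Real.exp e * ∫ x, F x ∂(vm h) =
      ∫ x, dtM h (fun i x => cur H i x + (s : ℂ) • cur h i x) x ∂(vm h) := by
    rw [hint]
    refine integral_congr_ae (Eventually.of_forall fun x => ?_)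
    show (cur (mul H (pow h s)) (ch A x) x).det.re / _ = _ / _
    rw [hcs _ x (mem_ch A x)]
  rw [← hp1, hFi] at hlo
  -- the mass inequality
  have hmm := hmass (kah (mul H (pow h s)) (pos_t hH hs s)) K' w hw hg
  have hmm' : ∫⁻ x in D.U, ENNReal.ofReal (mdens h K'.g D.be x) ∂(vm h) ≤
      ENNReal.ofReal (C * (s : ℝ) ^ (ν - 1)) := by
    refine hmm.trans (le_trans (le_of_eq ?_) hup)
    refine lintegral_congr fun x => ?_
    unfold mdens
    have : (kah (mul H (pow h s)) (pos_t hH hs s)).g (ch A x) x =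
        cur H (ch A x) x + (s : ℂ) • cur h (ch A x) x := hcs _ x (mem_ch A x)
    rw [this]
  set C0 : ℝ := C / c + 1 with hC0
  have hC00 : 0 < C0 := by positivity
  set r : ℝ := s / C0 with hr
  have hr0 : 0 < r := by positivity
  set Q : M → ℝ := fun x => ∑ j, l j * (K'.g (t j).i x * (t j).S x).trace.re with hQ
  have hQs : A.Sm Q := fun i => ContDiffOn.sum fun j _ =>
    contDiffOn_const.mul (q_sm_tf (t j) (tf_kah K') i)
  have hQn : ∀ x, 0 ≤ Q x := fun x => Finset.sum_nonneg fun j _ =>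
    mul_nonneg (hl j) (q_nonneg (t j) (fun i x hx => (K'.pos i x hx).posSemidef) x)
  have hQi : ∫ x, Q x ∂(vm h) = ∑ j, l j * (t j).B h K'.g := by
    rw [hQ, integral_finsetSum _ fun j _ =>
      (integrable_sm h (q_sm_tf (t j) (tf_kah K'))).const_mul _]
    exact Finset.sum_congr rfl fun j _ => integral_const_mul _ _
  -- pointwise
  have hpt : ∀ x, ENNReal.ofReal (F0 x) ≤
      D.U.indicator (fun x => ENNReal.ofReal (r / 2 * Real.exp (-e) * mdens h K'.g D.be x)) x +
        ENNReal.ofReal (1 / (2 * r) * Q x) := by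
    intro x
    by_cases hU : x ∈ D.U
    · rw [indicator_of_mem hU, ← ENNReal.ofReal_add]
      · refine ENNReal.ofReal_le_ofReal ?_
        have h1 : r / 2 * Real.exp (-e) * mdens h K'.g D.be x = r / 2 * (F x * trM K' D.be x) := by
          rw [mdens_kah, hdt x]
          have : Real.exp (-e) * Real.exp e = 1 := by rw [← Real.exp_add]; simp
          calc r / 2 * Real.exp (-e) * (Real.exp e * F x * trM K' D.be x) =
              (Real.exp (-e) * Real.exp e) * (r / 2 * (F x * trM K' D.be x)) := by ring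
            _ = _ := by rw [this, one_mul]
        rw [h1]
        have ht := trM_be_nonneg K' hU
        refine amgm2 (mul_nonneg (hFp x).le ht) (hQn x) hr0 ?_
        have h2 : F0 x ≤ trM K' D.be x * Q x := by
          rw [hF0, hQ]
          simp only [Finset.mul_sum]
          refine Finset.sum_le_sum fun j _ => ?_
          have := mul_le_mul_of_nonneg_left (key_pt K' (t j) hU) (hl j)
          linarith
        have h3 : F0 x ≤ F x := by simp only [hFd]; linarith
        calc F0 x ^ 2 = F0 x * F0 x := sq _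
          _ ≤ F x * (trM K' D.be x * Q x) := mul_le_mul h3 h2 (hF0n x) (hFp x).le
          _ = _ := by ring
      · have := mdens_nonneg h (x := x) (g := K'.g) (S := D.be) (K'.pos _ x (mem_ch A x))
          (psd_be D (mem_ch A x) hU)
        positivity
      · have := hQn x
        positivity
    · rw [indicator_of_notMem hU, zero_add]
      have : F0 x = 0 := by
        rw [hF0]
        refine Finset.sum_eq_zero fun j _ => ?_
        have hx : x ∉ (t j).K := fun hx => hU ((t j).KU hx).2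
        rw [(t j).zero x hx, Matrix.mul_zero, Matrix.trace_zero, Complex.zero_re, mul_zero]
      rw [this, ENNReal.ofReal_zero]
      exact bot_le
  -- integrate
  have hUm : MeasurableSet D.U := D.isOpen_U.measurableSet
  have hQm : Measurable fun x => ENNReal.ofReal (1 / (2 * r) * Q x) :=
    ((cont_sm hQs).const_mul _ |>.measurable).ennreal_ofReal
  have h1 : ENNReal.ofReal I0 ≤ ENNReal.ofReal (r / 2 * Real.exp (-e) * (C * (s : ℝ) ^ (ν - 1))) +
      ENNReal.ofReal (1 / (2 * r) * ∫ x, Q x ∂(vm h)) := by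
    have e1 : ENNReal.ofReal I0 = ∫⁻ x, ENNReal.ofReal (F0 x) ∂(vm h) := by
      rw [← hF0i, ofReal_integral_eq_lintegral_ofReal (integrable_sm h hF0s)
        (Eventually.of_forall hF0n)]
    have e2 : ENNReal.ofReal (1 / (2 * r) * ∫ x, Q x ∂(vm h)) =
        ∫⁻ x, ENNReal.ofReal (1 / (2 * r) * Q x) ∂(vm h) := by
      rw [← integral_const_mul, ofReal_integral_eq_lintegral_ofReal
        ((integrable_sm h hQs).const_mul _)
        (Eventually.of_forall fun x => mul_nonneg (by positivity) (hQn x))]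
    rw [e1, e2]
    refine (lintegral_mono hpt).trans ?_
    rw [lintegral_add_right _ hQm, lintegral_indicator hUm]
    refine add_le_add ?_ le_rfl
    have e3 : ∀ x, ENNReal.ofReal (r / 2 * Real.exp (-e) * mdens h K'.g D.be x) =
        ENNReal.ofReal (r / 2 * Real.exp (-e)) * ENNReal.ofReal (mdens h K'.g D.be x) := fun x =>
      ENNReal.ofReal_mul (by positivity)
    simp only [e3]
    rw [lintegral_const_mul' _ _ ENNReal.ofReal_ne_top,
      ENNReal.ofReal_mul (p := r / 2 * Real.exp (-e)) (by positivity)]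
    exact mul_le_mul_right hmm' _
  rw [← ENNReal.ofReal_add (by positivity) (mul_nonneg (by positivity) (integral_nonneg hQn)),
    ENNReal.ofReal_le_ofReal_iff (by
      have : 0 ≤ ∫ x, Q x ∂(vm h) := integral_nonneg hQn
      positivity)] at h1
  -- `exp (-e) s^(ν-1) c s ≤ ∫ F`
  have h2 : Real.exp (-e) * (c * (s : ℝ) ^ ν) ≤ I0 + ε * m := by
    have : Real.exp (-e) * Real.exp e = 1 := by rw [← Real.exp_add]; simp
    calc Real.exp (-e) * (c * (s : ℝ) ^ ν) ≤ Real.exp (-e) * (Real.exp e * (I0 + ε * m)) :=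
          mul_le_mul_of_nonneg_left hlo (Real.exp_pos _).le
      _ = (Real.exp (-e) * Real.exp e) * (I0 + ε * m) := by ring
      _ = _ := by rw [this, one_mul]
  have h3 : (s : ℝ) ^ ν = s * (s : ℝ) ^ (ν - 1) := by
    rw [← pow_succ']
    congr 1
    omega
  rw [h3] at h2
  have h4 : r / 2 * Real.exp (-e) * (C * (s : ℝ) ^ (ν - 1)) ≤ (I0 + ε * m) / 2 := by
    have h5 : Real.exp (-e) * (s : ℝ) ^ (ν - 1) * s * C0 ≥ 0 := by positivity
    have h6 : C ≤ c * C0 := by
      rw [hC0]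
      field_simp
      linarith
    have h7 : r / 2 * Real.exp (-e) * (C * (s : ℝ) ^ (ν - 1)) ≤
        r / 2 * Real.exp (-e) * ((c * C0) * (s : ℝ) ^ (ν - 1)) := by gcongr
    have h8 : r / 2 * Real.exp (-e) * ((c * C0) * (s : ℝ) ^ (ν - 1)) =
        (Real.exp (-e) * (c * (s * (s : ℝ) ^ (ν - 1)))) / 2 := by
      rw [hr]
      field_simp
    linarith
  have h9 : (3 / 8 : ℝ) * I0 ≤ 1 / (2 * r) * ∫ x, Q x ∂(vm h) := by linarith
  have h10 : ∫ x, Q x ∂(vm h) ≥ s * (3 / (4 * C0)) * I0 := by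
    have h11 : (2 * r) * ((3 / 8 : ℝ) * I0) ≤ (2 * r) * (1 / (2 * r) * ∫ x, Q x ∂(vm h)) :=
      mul_le_mul_of_nonneg_left h9 (by positivity)
    have h12 : (2 * r) * (1 / (2 * r) * ∫ x, Q x ∂(vm h)) = ∫ x, Q x ∂(vm h) := by
      field_simp
    have h13 : (2 * r) * ((3 / 8 : ℝ) * I0) = s * (3 / (4 * C0)) * I0 := by
      rw [hr]
      field_simp
      ring
    linarith
  refine ⟨w, hw, fun i x hx => ?_, ?_⟩
  · rw [← hg' i x hx]
    exact K'.pos i x hx
  · have e1 : ∑ j, l j * (t j).B h (fun i x => cur H i x + (s : ℂ) • cur h i x + hsf A w i x) =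
        ∫ x, Q x ∂(vm h) := by
      rw [hQi]
      refine Finset.sum_congr rfl fun j _ => ?_
      rw [B_congr h (t j) fun x hx => (hg' _ x hx).symm]
    rw [e1]
    have h14 : s * (1 / (4 * C0)) * I0 < s * (3 / (4 * C0)) * I0 := by
      have : (1 : ℝ) / (4 * C0) < 3 / (4 * C0) := by
        rw [div_lt_div_iff_of_pos_right (by positivity)]
        norm_num
      gcongr
    linarith

theorem tf_w (H : HM L) (h : HM (KB A)⁻¹) (s : ℂ) {w : M → ℝ} (hw : A.Sm w) :
    TF A (fun i x => cur H i x + s • cur h i x + hsf A w i x) :=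
  TF.add (tf_of_cf (cf_t H h s)) (tf_hsf hw)

/-- convex combination of the fields -/
theorem comb_eq {H : HM L} {h : HM (KB A)⁻¹} {s : ℂ} {w w' : M → ℝ} (hw : A.Sm w) (hw' : A.Sm w')
    {a b : ℝ} (hab : a + b = 1) {i : A.ι} {x : M} (hx : x ∈ (A.e i).source) :
    cur H i x + s • cur h i x + hsf A (fun y => a * w y + b * w' y) i x =
      (a : ℂ) • (cur H i x + s • cur h i x + hsf A w i x) +
      (b : ℂ) • (cur H i x + s • cur h i x + hsf A w' i x) := by
  rw [hsf_add (sm_smul a hw) (sm_smul b hw') hx, hsf_smul a hw hx, hsf_smul b hw' hx]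
  have h1 : (b : ℂ) = 1 - a := by
    have : b = 1 - a := by linarith
    rw [this]; push_cast; ring
  rw [h1]
  module

/-- **separation**: one `w` for finitely many tests -/
theorem sep [ConnectedSpace M] (hY : YauStmt) (hG : GoodA A) (P : Part A) {H : HM L}
    (hH : H.Pos) {h : HM (KB A)⁻¹} (hs : h.Semipos) {D : TD A} (hmass : MassStmt h D)
    {ν : ℕ} (hν : 1 ≤ ν) {C c : ℝ} (hC : 0 ≤ C) (hc : 0 < c) {s : ℕ} (hs1 : 1 ≤ s)
    (hup : ∫⁻ x in D.U, ENNReal.ofReal
      (mdens h (fun i x => cur H i x + (s : ℂ) • cur h i x) D.be x) ∂(vm h) ≤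
      ENNReal.ofReal (C * (s : ℝ) ^ (ν - 1)))
    (hlo : c * (s : ℝ) ^ ν ≤ ∫ x, dtM h (fun i x => cur H i x + (s : ℂ) • cur h i x) x ∂(vm h))
    (T : Finset (Tst D)) :
    ∃ w : M → ℝ, A.Sm w ∧ (∀ i, ∀ x ∈ (A.e i).source,
      (cur H i x + (s : ℂ) • cur h i x + hsf A w i x).PosDef) ∧
      ∀ t ∈ T, (s : ℝ) * (1 / (4 * (C / c + 1))) * t.B h D.be ≤
        t.B h (fun i x => cur H i x + (s : ℂ) • cur h i x + hsf A w i x) := by
  classical
  set δ : ℝ := 1 / (4 * (C / c + 1)) with hδ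
  set T' : Finset (Tst D) := T.filter fun t => 0 < t.B h D.be with hT'
  set Cs : Set (T' → ℝ) := {y | ∃ w : M → ℝ, A.Sm w ∧ (∀ i, ∀ x ∈ (A.e i).source,
      (cur H i x + (s : ℂ) • cur h i x + hsf A w i x).PosDef) ∧
      ∀ t : T', y t = (t : Tst D).B h (fun i x => cur H i x + (s : ℂ) • cur h i x + hsf A w i x) -
        s * δ * (t : Tst D).B h D.be} with hCs
  have hconv : Convex ℝ Cs := by
    rintro y ⟨w, hw, hp, hy⟩ y' ⟨w', hw', hp', hy'⟩ a b ha hb hab
    refine ⟨fun z => a * w z + b * w' z, sm_add (sm_smul a hw) (sm_smul b hw'), ?_, ?_⟩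
    · intro i x hx
      rw [comb_eq hw hw' hab hx]
      rcases ha.eq_or_lt with rfl | ha'
      · rw [zero_add] at hab
        subst hab
        simpa using hp' i x hx
      · have h1 : ((a : ℂ) • (cur H i x + (s : ℂ) • cur h i x + hsf A w i x)).PosDef :=
          (hp i x hx).smul (by exact_mod_cast ha')
        exact h1.add_posSemidef ((hp' i x hx).posSemidef.smul (by exact_mod_cast hb))
    · intro t
      have e1 : (t : Tst D).B h (fun i x => cur H i x + (s : ℂ) • cur h i x +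
          hsf A (fun z => a * w z + b * w' z) i x) =
          (t : Tst D).B h (fun i x => (a : ℂ) • (cur H i x + (s : ℂ) • cur h i x + hsf A w i x) +
            (b : ℂ) • (cur H i x + (s : ℂ) • cur h i x + hsf A w' i x)) :=
        B_congr h _ fun x hx => comb_eq hw hw' hab hx
      rw [e1, B_add h _ ((tf_w H h s hw).smul a) ((tf_w H h s hw').smul b), B_smul, B_smul]
      simp only [Pi.add_apply, Pi.smul_apply, smul_eq_mul, hy t, hy' t]
      have : b = 1 - a := by linarith
      rw [this]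
      ring
  have hposG : ∀ i, ∀ x ∈ (A.e i).source,
      (cur H i x + (s : ℂ) • cur h i x + hsf A (fun _ => (0 : ℝ)) i x).PosDef := by
    intro i x hx
    rw [hsf_const, add_zero]
    exact (cur_posDef hH i hx).add_posSemidef
      ((cur_posSemidef hs i hx).smul (by exact_mod_cast Nat.zero_le s))
  have hne : Cs.Nonempty := ⟨_, fun _ => 0, sm_const 0, hposG, fun t => rfl⟩
  obtain ⟨y, ⟨w, hw, hp, hy⟩, hy0⟩ := exists_pos_coord hconv hne fun l hl hl1 => by
    have hpos : 0 < ∑ t : T', l t * (t : Tst D).B h D.be := by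
      obtain ⟨t0, ht0⟩ := hl1
      have hB : ∀ t : T', 0 < (t : Tst D).B h D.be := fun t => (Finset.mem_filter.1 t.2).2
      refine Finset.sum_pos' (fun t _ => mul_nonneg (hl t) (hB t).le) ⟨t0, Finset.mem_univ _, ?_⟩
      exact mul_pos (lt_of_le_of_ne (hl t0) (Ne.symm ht0)) (hB t0)
    obtain ⟨w, hw, hp, hlt⟩ := key_sum hY hG P hH hs hmass hν hC hc hs1 hup hlo
      (fun t : T' => (t : Tst D)) hl hpos
    refine ⟨_, ⟨w, hw, hp, fun t => rfl⟩, ?_⟩
    simp only [mul_sub, Finset.sum_sub_distrib]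
    have e : ∑ t : T', l t * (s * δ * (t : Tst D).B h D.be) =
        s * δ * ∑ t : T', l t * (t : Tst D).B h D.be := by
      rw [Finset.mul_sum]
      exact Finset.sum_congr rfl fun t _ => by ring
    rw [e]
    linarith
  refine ⟨w, hw, hp, fun t ht => ?_⟩
  by_cases hB : 0 < t.B h D.be
  · have h1 := hy0 ⟨t, Finset.mem_filter.2 ⟨ht, hB⟩⟩
    rw [hy] at h1
    simp only at h1
    linarith
  · have h1 : t.B h D.be = 0 := le_antisymm (not_lt.1 hB) (Bbe_nonneg h t)
    rw [h1, mul_zero]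
    exact B_nonneg h t fun i x hx => (hp i x hx).posSemidef

end int

end

end Crest.Agent.R273.TLs_201
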