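import Crest.Agent.R273.Nrm_835

/-!
# R273 (S0416), Part E (helper835): families of holomorphic charts, refinement to good atlases

`Fam n M`      : a covering family of holomorphically compatible charts (no normalisation of the
                 targets, arbitrary index type); `Atl.fam`;
`HolC C D p`   : `p` is continuous and holomorphic in the charts of `C`, `D`;
`Fam.exists_atl` : on a compact Hausdorff space every `Fam` has a finite good atlas with a partition
                 of unity, subordinate to a given open cover and to the charts of the family.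
-/

set_option autoImplicit false
set_option linter.unusedSectionVars false

open Set Filter Topology Complex
open scoped ContDiff Matrix ComplexConjugate Manifold

namespace Crest.Agent.R273.Fam_835

open Crest.Agent.R275.Geo Crest.Agent.R275.Core144 Crest.Agent.R275.GC293
open Crest.Agent.R273.Defs_333 Crest.Agent.R273.Map_835 Crest.Agent.R273.PB_835

noncomputable section

/-- a covering family of holomorphically compatible charts -/
structure Fam (n : ℕ) (M : Type) [TopologicalSpace M] where
  ι : Type
  e : ι → OpenPartialHomeomorph M (Cn n)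
  cover : ∀ x, ∃ i, x ∈ (e i).source
  holo : ∀ i j, DifferentiableOn ℂ (fun z => e j ((e i).symm z))
    {z | z ∈ (e i).target ∧ (e i).symm z ∈ (e j).source}

variable {n m k : ℕ} {M N P : Type} [TopologicalSpace M] [TopologicalSpace N] [TopologicalSpace P]
  {C : Fam n M} {D : Fam m N} {E : Fam k P} {p : M → N} {q : N → P}

/-- the family of an atlas -/
def fam (A : Atl n M) : Fam n M where
  ι := A.ι
  e := A.e
  cover := A.cover
  holo := A.holo

/-- `p` is continuous and holomorphic in the charts -/
structure HolC (C : Fam n M) (D : Fam m N) (p : M → N) : Prop where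
  cont : Continuous p
  hol : ∀ i j, DifferentiableOn ℂ (fun z => D.e j (p ((C.e i).symm z)))
    ((C.e i).target ∩ (C.e i).symm ⁻¹' (p ⁻¹' (D.e j).source))

theorem holC_iff {A : Atl n M} {B : Atl m N} : HolC (fam A) (fam B) p ↔ HolMap A B p :=
  ⟨fun h => ⟨h.cont, h.hol⟩, fun h => ⟨h.cont, h.hol⟩⟩

theorem HolC.isOpen_dm (h : HolC C D p) (i : C.ι) (j : D.ι) :
    IsOpen ((C.e i).target ∩ (C.e i).symm ⁻¹' (p ⁻¹' (D.e j).source)) :=
  (C.e i).isOpen_inter_preimage_symm ((D.e j).open_source.preimage h.cont)

theorem HolC.diffAt (h : HolC C D p) {i : C.ι} {j : D.ι} {z : Cn n} (hz : z ∈ (C.e i).target)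
    (hj : p ((C.e i).symm z) ∈ (D.e j).source) :
    DifferentiableAt ℂ (fun z => D.e j (p ((C.e i).symm z))) z :=
  (h.hol i j).differentiableAt ((h.isOpen_dm i j).mem_nhds ⟨hz, hj⟩)

theorem HolC.id (C : Fam n M) : HolC C C _root_.id := ⟨continuous_id, fun i j => C.holo i j⟩

theorem HolC.comp (hq : HolC D E q) (hp : HolC C D p) : HolC C E (fun x => q (p x)) := by
  refine ⟨hq.cont.comp hp.cont, fun i l => ?_⟩
  intro z hz
  obtain ⟨j, hj⟩ := D.cover (p ((C.e i).symm z))
  have h1 := hp.diffAt hz.1 hj
  have h2 := hq.diffAt (i := j) (j := l) ((D.e j).map_source hj)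
    (by rw [(D.e j).left_inv hj]; exact hz.2)
  have h3 : DifferentiableAt ℂ ((fun w => E.e l (q ((D.e j).symm w))) ∘
      (fun w => D.e j (p ((C.e i).symm w)))) z :=
    DifferentiableAt.comp z h2 h1
  refine (h3.congr_of_eventuallyEq ?_).differentiableWithinAt
  filter_upwards [(hp.isOpen_dm i j).mem_nhds ⟨hz.1, hj⟩] with w hw
  simp only [Function.comp]
  rw [(D.e j).left_inv hw.2]

/-- a locally checkable criterion: near every point some pair of charts works -/
theorem holC_of_local (hc : Continuous p)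
    (h : ∀ x, ∃ i j, x ∈ (C.e i).source ∧ p x ∈ (D.e j).source ∧
      DifferentiableAt ℂ (fun z => D.e j (p ((C.e i).symm z))) (C.e i x)) : HolC C D p := by
  refine ⟨hc, fun i' j' => ?_⟩
  intro z hz
  set x := (C.e i').symm z with hx
  have hx' : x ∈ (C.e i').source := (C.e i').map_target hz.1
  obtain ⟨i, j, hi, hj, hd⟩ := h x
  have e1 : C.e i' x = z := (C.e i').right_inv hz.1
  have h1 : DifferentiableAt ℂ (fun w => C.e i ((C.e i').symm w)) z :=
    (C.holo i' i).differentiableAt (((C.e i').isOpen_inter_preimage_symm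
      (C.e i).open_source).mem_nhds ⟨hz.1, hi⟩)
  have e2 : C.e i ((C.e i').symm z) = C.e i x := rfl
  have h2 : DifferentiableAt ℂ (fun w => D.e j' ((D.e j).symm w)) (D.e j (p x)) :=
    (D.holo j j').differentiableAt (((D.e j).isOpen_inter_preimage_symm
      (D.e j').open_source).mem_nhds ⟨(D.e j).map_source hj, by
        rw [mem_preimage, (D.e j).left_inv hj]; exact hz.2⟩)
  have h3 : DifferentiableAt ℂ (fun w => D.e j (p ((C.e i).symm (C.e i ((C.e i').symm w))))) z :=
    DifferentiableAt.comp z (g := fun z => D.e j (p ((C.e i).symm z))) hd h1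
  have e3 : D.e j (p ((C.e i).symm (C.e i ((C.e i').symm z)))) = D.e j (p x) := by
    rw [← hx, (C.e i).left_inv hi]
  have h4 : DifferentiableAt ℂ (fun w => D.e j' ((D.e j).symm
      (D.e j (p ((C.e i).symm (C.e i ((C.e i').symm w))))))) z := by
    refine DifferentiableAt.comp z (g := fun w => D.e j' ((D.e j).symm w)) ?_ h3
    rw [e3]
    exact h2
  refine (h4.congr_of_eventuallyEq ?_).differentiableWithinAt
  have hcont : ContinuousAt (C.e i').symm z := (C.e i').continuousAt_symm hz.1
  have h5 : ∀ᶠ w in 𝓝 z, (C.e i').symm w ∈ (C.e i).source ∩ p ⁻¹' (D.e j).source :=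
    hcont.preimage_mem_nhds (((C.e i).open_source.inter
      ((D.e j).open_source.preimage hc)).mem_nhds ⟨hi, hj⟩)
  filter_upwards [h5] with w hw
  rw [(C.e i).left_inv hw.1, (D.e j).left_inv hw.2]

/-! ### the associated manifold and the good atlas -/

/-- the charted space of a family -/
@[reducible] def Fam.cs (C : Fam n M) : ChartedSpace (Cn n) M where
  atlas := range C.e
  chartAt x := C.e (C.cover x).choose
  mem_chart_source x := (C.cover x).choose_spec
  chart_mem_atlas _ := mem_range_self _

theorem Fam.isManifold (C : Fam n M) :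
    letI := C.cs
    IsManifold 𝓘(ℂ, Cn n) 1 M := by
  let _ := C.cs
  refine isManifold_of_contDiffOn _ _ _ ?_
  rintro _ _ ⟨i, rfl⟩ ⟨j, rfl⟩
  have ho : IsOpen ((C.e i).target ∩ (C.e i).symm ⁻¹' (C.e j).source) :=
    (C.e i).isOpen_inter_preimage_symm (C.e j).open_source
  have h1 := (Crest.Agent.R266.SCV.contDiffOn_omega_of_differentiableOn ho (C.holo i j)).of_le
    (show (1 : WithTop ℕ∞) ≤ ω from le_top)
  simp only [modelWithCornersSelf_coe, modelWithCornersSelf_coe_symm, Function.id_comp,
    Function.comp_id, range_id, inter_univ, preimage_id]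
  exact h1

/-- refinement to a finite good atlas with partition of unity -/
theorem Fam.exists_atl [CompactSpace M] [T2Space M] (C : Fam n M) {κ : Type*} (O : κ → Set M)
    (hO : ∀ k, IsOpen (O k)) (hOc : ∀ x, ∃ k, x ∈ O k) :
    ∃ A : Atl n M, Finite A.ι ∧ GoodA A ∧ Nonempty (Part A) ∧
      (∀ i, ∃ k, (A.e i).source ⊆ O k) ∧ HolC (fam A) C id ∧ HolC C (fam A) id := by
  let _ := C.cs
  have _ := C.isManifold
  obtain ⟨G, h1, h2, h3, h4⟩ := exists_goodAtl (m := n) (M := M) O hO hOc
  have key : ∀ (i : Fin G.n) (x : M), x ∈ ((goodAtl G).e i).source → ∃ j : C.ι, x ∈ (C.e j).source ∧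
      DifferentiableAt ℂ (fun z => C.e j (((goodAtl G).e i).symm z)) ((goodAtl G).e i x) ∧
      DifferentiableAt ℂ (fun z => (goodAtl G).e i ((C.e j).symm z)) (C.e j x) := by
    intro i x hx
    obtain ⟨j, hj⟩ := G.e_mem i
    have hx1 : x ∈ G.B i := by rw [← goodAtl_source G i]; exact hx
    have hx2 : x ∈ (C.e j).source := by
      rw [hj]
      exact cball_subset_source _ _ _ hx1
    refine ⟨j, hx2, ?_, ?_⟩
    · have h5 : DifferentiableAt ℂ (fun z => (aff (G.e i (G.c i)) G.r G.r_pos).symm z)
          ((goodAtl G).e i x) := (differentiable_aff_symm _ _ _).differentiableAt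
      refine h5.congr_of_eventuallyEq ?_
      filter_upwards [((goodAtl G).e i).open_target.mem_nhds (((goodAtl G).e i).map_source hx)]
        with z hz
      have h6 : ((goodAtl G).e i).symm z =
        (G.e i).symm ((aff (G.e i (G.c i)) G.r G.r_pos).symm z) := rfl
      rw [h6, hj]
      refine (G.e i).right_inv ?_
      have h7 : z ∈ (G.ch i).target := hz
      rw [G.ch_target] at h7
      exact G.ball_sub_target i h7
    · have h5 : DifferentiableAt ℂ (fun z => aff (G.e i (G.c i)) G.r G.r_pos z)
          (C.e j x) := (differentiable_aff _ _ _).differentiableAt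
      refine h5.congr_of_eventuallyEq ?_
      filter_upwards [(C.e j).open_target.mem_nhds ((C.e j).map_source hx2)] with z hz
      have h6 : (goodAtl G).e i ((C.e j).symm z) =
        aff (G.e i (G.c i)) G.r G.r_pos (G.e i ((C.e j).symm z)) := rfl
      rw [h6, ← hj, (C.e j).right_inv hz]
  refine ⟨goodAtl G, h3, h1, h2, h4, ?_, ?_⟩
  · refine holC_of_local continuous_id fun x => ?_
    obtain ⟨i, hi⟩ := (goodAtl G).cover x
    obtain ⟨j, hj, h5, -⟩ := key i x hi
    exact ⟨i, j, hi, hj, h5⟩
  · refine holC_of_local continuous_id fun x => ?_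
    obtain ⟨i, hi⟩ := (goodAtl G).cover x
    obtain ⟨j, hj, -, h5⟩ := key i x hi
    exact ⟨j, i, hj, hi, h5⟩

/-- the identity between two atlases holomorphic both ways is locally biholomorphic -/
theorem lBih_of_inv {A : Atl n M} {B : Atl n N} {p : M → N} {q : N → M} (hp : HolMap A B p)
    (hq : HolMap B A q) (hqp : ∀ x, q (p x) = x) : LBih A B p := by
  refine ⟨hp, fun i j x hx hj h0 => ?_⟩
  have h3 := Jp_comp hq hp (x := x) (l := i) hx hj (by rw [hqp]; exact hx)
  have h4 : Jp A A (fun x => q (p x)) i i x = 1 := by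
    have h5 : (fun x => q (p x)) = id := funext hqp
    rw [h5]
    exact J_self i hx
  rw [h4] at h3
  have h5 := congrArg Matrix.det h3
  rw [Matrix.det_mul, h0, mul_zero, Matrix.det_one] at h5
  exact zero_ne_one h5

/-- refinement of an atlas -/
theorem exists_refine [CompactSpace M] [T2Space M] (A : Atl n M) {κ : Type*} (O : κ → Set M)
    (hO : ∀ k, IsOpen (O k)) (hOc : ∀ x, ∃ k, x ∈ O k) :
    ∃ A' : Atl n M, Finite A'.ι ∧ GoodA A' ∧ Nonempty (Part A') ∧
      (∀ i, ∃ k, (A'.e i).source ⊆ O k) ∧ Nonempty (Ref A' A id) ∧ LBih A' A id ∧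
      LBih A A' id := by
  obtain ⟨A', h1, h2, h3, h4, h5, h6⟩ := (fam A).exists_atl
    (fun q : κ × A.ι => O q.1 ∩ (A.e q.2).source) (fun q => (hO q.1).inter (A.e q.2).open_source)
    (fun x => by
      obtain ⟨k, hk⟩ := hOc x
      obtain ⟨i, hi⟩ := A.cover x
      exact ⟨(k, i), hk, hi⟩)
  refine ⟨A', h1, h2, h3, fun i => ?_, ?_, ?_, ?_⟩
  · obtain ⟨q, hq⟩ := h4 i
    exact ⟨q.1, fun x hx => (hq hx).1⟩
  · choose r hr using h4
    exact ⟨⟨fun i => (r i).2, fun i x hx => (hr i hx).2⟩⟩
  · exact lBih_of_inv (holC_iff.1 h5) (holC_iff.1 h6) fun x => rfl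
  · exact lBih_of_inv (holC_iff.1 h6) (holC_iff.1 h5) fun x => rfl

end

end Crest.Agent.R273.Fam_835
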