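import Crest.Agent.R273.SteinN_794
import Crest.Agent.R271.Null_821
import Crest.Agent.R271.RExt2_747

/-!
# R273, STEIN complements, part L (helper794): null complement, `L²` extension

* `null_nz`  : the zero set of a nonzero section is a null set for `vm h`;
* `l2_ext`   : `F` holomorphic on `Mo S`, `S.U = nz d`, square integrable with respect to a smooth metric
               of `N` in the frame `σ`, gives a global holomorphic section of `K ⊗ N`;
* `rat`      : sections of `K ⊗ N` as functions on `Mo S`; `mem_range_rat`.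
-/

set_option autoImplicit false
set_option linter.unusedSectionVars false

open Set Filter Topology Complex MeasureTheory
open scoped ContDiff Matrix ENNReal

namespace Crest.Agent.R273.SteinL_794

open Crest.Agent.R275.Geo Crest.Agent.R275.Core144 Crest.Agent.R273.SteinA_794
open Crest.Agent.R273.SteinB_794 Crest.Agent.R273.SteinC_794 Crest.Agent.R273.SteinD_794
open Crest.Agent.R273.SteinM_794 Crest.Agent.R273.SteinN_794
open Crest.Agent.R273.Defs_333 (ProjD HM HM.wt)
open Crest.Agent.R275.Pai323 Crest.Agent.R275.C1d194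
open Crest.Agent.R273.Vm_333 (sg isOpen_Ui sg_mem sg_rc mem_Ui vm chm chm_apply vm_apply_chart
  meas_inter)
open Crest.Agent.R271.Ho51 (RDom cp ch IsCh IsLeb Hol Sm mem_ch isCh_ch)

noncomputable section

variable {n : ℕ} {M : Type} [TopologicalSpace M] {A : Atl n M}

/-! ### null sets -/

/-- zero sets of analytic functions in real coordinates -/
theorem null_real {f : Cn n → ℂ} {U : Set (Cn n)} (hU : IsOpen U) (hf : AnalyticOnNhd ℂ f U)
    (hne : ∀ a ∈ U, ¬ ∀ᶠ z in 𝓝 a, f z = 0) :
    volume {y : RI n → ℝ | cc y ∈ U ∧ f (cc y) = 0} = 0 := by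
  set ν : Measure (Cn n) := (volume : Measure (RI n → ℝ)).map
    (rcE n).symm.toContinuousLinearEquiv with hν
  have hH : ν.IsAddHaarMeasure := ContinuousLinearEquiv.isAddHaarMeasure_map _ _
  have h1 : ν {z | z ∈ U ∧ f z = 0} = 0 := by
    refine measure_null_of_locally_null _ fun z hz => ?_
    obtain ⟨r, hr, hb⟩ := Metric.isOpen_iff.1 hU z hz.1
    obtain ⟨z₁, hz₁, hz₁b⟩ := ((Filter.not_eventually.1 (hne z hz.1)).and_eventually
      (Metric.ball_mem_nhds z hr)).exists
    refine ⟨{w ∈ Metric.ball z r | f w = 0}, ?_, Crest.Agent.R271.Local821.null_zero_ball ν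
      (hf.mono hb) hz₁b hz₁⟩
    filter_upwards [mem_nhdsWithin_of_mem_nhds (Metric.ball_mem_nhds z hr),
      self_mem_nhdsWithin] with w hw hw'
    exact ⟨hw, hw'.2⟩
  have h2 := (rcE n).symm.toContinuousLinearEquiv.toHomeomorph.measurableEmbedding.map_apply
    (volume : Measure (RI n → ℝ)) {z | z ∈ U ∧ f z = 0}
  have h3 : (volume : Measure (RI n → ℝ)) ((rcE n).symm.toContinuousLinearEquiv.toHomeomorph ⁻¹'
      {z | z ∈ U ∧ f z = 0}) = 0 := by
    rw [← h2]; exact h1
  exact h3

section null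

variable [MeasurableSpace M] [BorelSpace M] [Countable A.ι] (h : HM (KB A)⁻¹)

/-- the zero set of a nonzero section is null -/
theorem null_nz [ConnectedSpace M] {L : LB A} {s : A.ι → M → ℂ} (hs : IsHS L univ s)
    (h0 : ∃ i, ∃ x ∈ (A.e i).source, s i x ≠ 0) : vm h (nz s)ᶜ = 0 := by
  have hcov : (nz s)ᶜ = ⋃ i, (nz s)ᶜ ∩ (A.e i).source := by
    rw [← inter_iUnion]
    have : (⋃ i, (A.e i).source) = univ := eq_univ_of_forall fun x => mem_iUnion.2 (A.cover x)
    rw [this, inter_univ]
  rw [hcov]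
  refine measure_iUnion_null fun i => ?_
  have hm : MeasurableSet ((nz s)ᶜ ∩ (A.e i).source) :=
    (isOpen_nz hs).measurableSet.compl.inter (A.e i).open_source.measurableSet
  rw [vm_apply_chart h hm inter_subset_right, chm_apply h i hm]
  have hz : volume {y : RI n → ℝ | y ∈ Ui A i ∧ sg A i y ∈ (nz s)ᶜ ∩ (A.e i).source} = 0 := by
    have hd : DifferentiableOn ℂ (fun w => s i ((A.e i).symm w)) (A.e i).target :=
      DifferentiableOn.mono (hs.hol i) fun w hw => ⟨hw, mem_univ _⟩
    have han := Crest.Agent.R266.SCV.analyticOnNhd_of_differentiableOn (A.e i).open_target hd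
    refine measure_mono_null ?_ (null_real (A.e i).open_target han fun a ha hev => ?_)
    · rintro y ⟨hy, hyn, hys⟩
      refine ⟨hy, ?_⟩
      by_contra hne
      exact hyn ((mem_nz hs hys).2 hne)
    · have h1 := id_thm hs h0 i ((A.e i).map_target ha)
      apply h1
      rw [ev_zero_chart ((A.e i).map_target ha), (A.e i).right_inv ha]
      exact hev
  have h3 : (volume : Measure (RI n → ℝ)).restrict
      {y : RI n → ℝ | y ∈ Ui A i ∧ sg A i y ∈ (nz s)ᶜ ∩ (A.e i).source} = 0 :=
    Measure.restrict_eq_zero.2 hz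
  rw [h3, lintegral_zero_measure]

end null

/-! ### `L²` extension -/

variable {S : SD A}

/-- gluing: a family of local extensions is a section -/
theorem glue [ConnectedSpace M] {LD N : LB A} {d : A.ι → M → ℂ} (hd : IsHS LD univ d)
    (hd0 : ∃ i, ∃ x ∈ (A.e i).source, d i x ≠ 0) {u : A.ι → M → ℂ}
    (hu : ∀ i j, ∀ x ∈ (A.e i).source ∩ (A.e j).source, x ∈ nz d → u i x = N.g i j x * u j x)
    {g : A.ι → M → ℂ} (hg : ∀ i, HolAt A i univ (g i))
    (hgu : ∀ i, ∀ x ∈ (A.e i).source, x ∈ nz d → g i x = u i x) :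
    ∃ s, IsHS N univ s ∧ ∀ i, ∀ x ∈ (A.e i).source, s i x = g i x := by
  classical
  refine ⟨fun i x => if x ∈ (A.e i).source then g i x else 0,
    ⟨fun i => (hg i).congr fun x hx _ => by simp [hx], fun i x hx => by simp [hx],
      fun i j x hx _ => ?_⟩, fun i x hx => by simp [hx]⟩
  simp only [hx.1, hx.2, if_true]
  -- continuity and density
  have hO : IsOpen ((A.e i).source ∩ (A.e j).source) :=
    (A.e i).open_source.inter (A.e j).open_source
  have c1 : ∀ y ∈ (A.e i).source ∩ (A.e j).source, ContinuousAt (g i) y := fun y hy =>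
    continuousAt_of_holAt isOpen_univ (hg i) hy.1 (mem_univ y)
  have c2 : ∀ y ∈ (A.e i).source ∩ (A.e j).source,
      ContinuousAt (fun y => N.g i j y * g j y) y := fun y hy =>
    (continuousAt_of_holAt (A.e j).open_source (N.hol i j) hy.1 hy.2).mul
      (continuousAt_of_holAt isOpen_univ (hg j) hy.2 (mem_univ y))
  have hxcl : x ∈ closure (((A.e i).source ∩ (A.e j).source) ∩ nz d) := by
    have := (dense_nz hd hd0).open_subset_closure_inter hO
    exact this hx
  have hne : (𝓝[((A.e i).source ∩ (A.e j).source) ∩ nz d] x).NeBot :=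
    mem_closure_iff_nhdsWithin_neBot.1 hxcl
  have t1 : Tendsto (g i) (𝓝[((A.e i).source ∩ (A.e j).source) ∩ nz d] x) (𝓝 (g i x)) :=
    (c1 x hx).tendsto.mono_left nhdsWithin_le_nhds
  have t2 : Tendsto (g i) (𝓝[((A.e i).source ∩ (A.e j).source) ∩ nz d] x)
      (𝓝 (N.g i j x * g j x)) := by
    refine ((c2 x hx).tendsto.mono_left nhdsWithin_le_nhds).congr' ?_
    filter_upwards [self_mem_nhdsWithin] with y hy
    rw [hgu i y hy.1.1 hy.2, hgu j y hy.1.2 hy.2, hu i j y hy.1 hy.2]
  exact tendsto_nhds_unique t1 t2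

section ext

variable [MeasurableSpace M] [BorelSpace M] [Countable A.ι] [SecondCountableTopology M]
  {μ : Measure (Mo S)} {N : LB A} {σ : A.ι → M → ℂ}

/-- integration over the chart `i` -/
theorem lintegral_chart_le (h : HM (KB A)⁻¹) (hμ : IsLeb μ) (i : A.ι) (f : M → ℝ≥0∞)
    (hf : Measurable fun x : Mo S => f x.val) :
    ∫⁻ y in {y : RI n → ℝ | y ∈ Ui A i ∧ sg A i y ∈ S.U},
      ENNReal.ofReal (‖zf S i (sg A i y)‖ ^ 2) * f (sg A i y) ≤ ∫⁻ x : Mo S, f x.val ∂μ := by
  classical
  -- the quotient by the density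
  set f' : M → ℝ≥0∞ := fun x => if hx : x ∈ S.U then f x / vS h S ⟨x, hx⟩ else 0 with hf'
  have hv0 : ∀ x : Mo S, vS h S x ≠ 0 := fun x => by
    unfold vS
    exact (ENNReal.ofReal_pos.2 (Real.exp_pos _)).ne'
  have hvt : ∀ x : Mo S, vS h S x ≠ ⊤ := fun x => ENNReal.ofReal_ne_top
  have e1 : ∀ x : Mo S, f' x.val = f x.val / vS h S x := by
    intro x
    have : x.val ∈ S.U := x.prop
    simp only [hf', this, dif_pos]
    rfl
  have hf'm : Measurable fun x : Mo S => f' x.val := by
    simp only [e1]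
    exact hf.div (vS_meas h)
  have hUm : MeasurableSet S.U := S.isOpen.measurableSet
  have hf'M : Measurable f' := by
    have hM : (Subtype.instMeasurableSpace : MeasurableSpace (S.U : Set M)) = borel _ :=
      BorelSpace.measurable_eq
    refine measurable_of_restrict_of_restrict_compl hUm ?_ ?_
    · rw [hM]
      exact hf'm
    · have : (S.Uᶜ).domRestrict f' = fun _ => 0 := by
        funext x
        have hx : (x : M) ∉ S.U := x.2
        simp [hf', Set.domRestrict, hx]
      rw [this]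
      exact measurable_const
  have e2 : ∫⁻ x : Mo S, f x.val ∂μ = ∫⁻ x in S.U, f' x ∂(vm h) := by
    rw [← lintegral_mu h hμ f' hf'm]
    refine lintegral_congr fun x => ?_
    rw [e1, ENNReal.mul_div_cancel (hv0 x) (hvt x)]
  rw [e2]
  have e3 : ∫⁻ x in S.U ∩ (A.e i).source, f' x ∂(vm h) ≤ ∫⁻ x in S.U, f' x ∂(vm h) :=
    lintegral_mono_set inter_subset_left
  refine le_trans (le_of_eq ?_) e3
  have e4 : ∫⁻ x in S.U ∩ (A.e i).source, f' x ∂(vm h) =
      ∫⁻ x in (A.e i).source, S.U.indicator f' x ∂(vm h) := by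
    rw [inter_comm, ← Measure.restrict_restrict_of_subset (s := (A.e i).source ∩ S.U)
      (t := (A.e i).source) inter_subset_left]
    rw [Measure.restrict_restrict_of_subset inter_subset_left, lintegral_indicator hUm,
      Measure.restrict_restrict hUm, inter_comm]
  rw [e4, Vm_333.setLIntegral_vm h i (hf'M.indicator hUm)]
  have hsm : MeasurableSet {y : RI n → ℝ | y ∈ Ui A i ∧ sg A i y ∈ S.U} := meas_inter i hUm
  have e5 : ∫⁻ y in Ui A i, Vm_333.dn h i y * S.U.indicator f' (sg A i y) =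
      ∫⁻ y in Ui A i, ({y : RI n → ℝ | y ∈ Ui A i ∧ sg A i y ∈ S.U}).indicator
        (fun y => ENNReal.ofReal (‖zf S i (sg A i y)‖ ^ 2) * f (sg A i y)) y := by
    refine setLIntegral_congr_fun (Vm_333.isOpen_Ui i).measurableSet fun y hy => ?_
    by_cases hyU : sg A i y ∈ S.U
    · have hmem : y ∈ {y : RI n → ℝ | y ∈ Ui A i ∧ sg A i y ∈ S.U} := ⟨hy, hyU⟩
      rw [Set.indicator_of_mem hmem, Set.indicator_of_mem hyU]
      set x : Mo S := ⟨sg A i y, hyU⟩ with hx
      have hxv : x.val = sg A i y := rfl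
      have hxs : x.val ∈ (A.e i).source := sg_mem hy
      have h5 := vS_eq h x hxs
      have h6 : Vm_333.dn h i y = ENNReal.ofReal (h.w i x.val) := rfl
      rw [h6, ← h5, ← hxv, e1 x, mul_assoc, ENNReal.mul_div_cancel (hv0 x) (hvt x)]
    · have hmem : y ∉ {y : RI n → ℝ | y ∈ Ui A i ∧ sg A i y ∈ S.U} := fun h => hyU h.2
      rw [Set.indicator_of_notMem hmem, Set.indicator_of_notMem hyU, mul_zero]
  rw [e5, lintegral_indicator hsm, Measure.restrict_restrict_of_subset (fun y hy => hy.1)]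

/-- **`L²` extension** -/
theorem l2_ext [ConnectedSpace M] (h : HM (KB A)⁻¹) (hμ : IsLeb μ) (hN : HM N)
    (hσ : IsHS N S.U σ) (h0 : ∀ i, ∀ x ∈ (A.e i).source, x ∈ S.U → σ i x ≠ 0)
    {LD : LB A} {d : A.ι → M → ℂ} (hd : IsHS LD univ d)
    (hd0 : ∃ i, ∃ x ∈ (A.e i).source, d i x ≠ 0) (hU : S.U = nz d)
    {F : Mo S → ℂ} (hF : Hol F)
    (hL : ∫⁻ x, ‖F x‖ₑ ^ 2 * ENNReal.ofReal (Real.exp (-(wtS hN σ x.val))) ∂μ < ⊤) :
    ∃ s, IsHS (KB A * N) univ s ∧ ∀ i, ∀ x : Mo S, x.val ∈ (A.e i).source →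
      s i x.val = F x * (zf S i x.val * σ i x.val) := by
  classical
  set u : A.ι → M → ℂ := fun i x => ext0 F x * (zf S i x * σ i x) with hu
  have hFM : ∀ i, HolAt A i S.U (ext0 F) := fun i => holAt_ext0 hF i
  have hFc : Continuous F := (w_hol hF).sm.continuous
  have huh : ∀ i, HolAt A i S.U (u i) := fun i =>
    (hFM i).mul (((isHS_zf S).hol i).mul (hσ.hol i))
  have hutr : ∀ i j, ∀ x ∈ (A.e i).source ∩ (A.e j).source, x ∈ nz d →
      u i x = (KB A * N).g i j x * u j x := by
    intro i j x hx hxd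
    rw [← hU] at hxd
    simp only [hu, LB.mul_g]
    rw [(isHS_zf S).tr i j x hx hxd, hσ.tr i j x hx hxd]
    ring
  -- local extension
  have hloc : ∀ i, ∃ g : M → ℂ, HolAt A i univ g ∧
      ∀ x ∈ (A.e i).source, x ∈ nz d → g x = u i x := by
    intro i
    -- in the coordinates `Fin n → ℂ`
    let T : (Fin n → ℂ) → Cn n := fun w => WithLp.toLp 2 w
    have hTc : Continuous T := PiLp.continuous_toLp 2 _
    have hTd : Differentiable ℂ T :=
      (((EuclideanSpace.equiv (Fin n) ℂ).symm : (Fin n → ℂ) →L[ℂ] Cn n)).differentiable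
    set O : Set (Fin n → ℂ) := T ⁻¹' (A.e i).target with hO
    have hOo : IsOpen O := (A.e i).open_target.preimage hTc
    set Dd : (Fin n → ℂ) → ℂ := fun w => d i ((A.e i).symm (T w)) with hDd
    set f : (Fin n → ℂ) → ℂ := fun w => u i ((A.e i).symm (T w)) with hf
    have hDdiff : DifferentiableOn ℂ Dd O := by
      have h1 : DifferentiableOn ℂ (fun w => d i ((A.e i).symm w)) (A.e i).target :=
        DifferentiableOn.mono (hd.hol i) fun w hw => ⟨hw, mem_univ _⟩
      exact h1.comp hTd.differentiableOn fun w hw => hw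
    have hDan := Crest.Agent.R266.SCV.analyticOnNhd_of_differentiableOn hOo hDdiff
    have hmemU : ∀ w ∈ O, (Dd w ≠ 0 ↔ (A.e i).symm (T w) ∈ S.U) := by
      intro w hw
      rw [hU, mem_nz hd ((A.e i).map_target hw)]
    have hfdiff : DifferentiableOn ℂ f (O ∩ {w | Dd w ≠ 0}) := by
      have h1 : DifferentiableOn ℂ (fun w => u i ((A.e i).symm w)) (S.dom i) := huh i
      refine h1.comp hTd.differentiableOn fun w hw => ⟨hw.1, ?_⟩
      exact (hmemU w hw.1).1 hw.2
    have hTe : ∀ a ∈ O, T a ∈ (A.e i).target := fun a ha => ha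
    have hne : ∀ a ∈ O, ¬ ∀ᶠ z in 𝓝 a, Dd z = 0 := by
      intro a ha hev
      have h1 := id_thm hd hd0 i ((A.e i).map_target (hTe a ha))
      apply h1
      rw [ev_zero_chart ((A.e i).map_target (hTe a ha)), (A.e i).right_inv (hTe a ha)]
      have h2 : Tendsto (fun v : Cn n => WithLp.ofLp v) (𝓝 (T a)) (𝓝 a) :=
        (PiLp.continuous_ofLp 2 _).tendsto (T a)
      exact (h2.eventually hev).mono fun v hv => hv
    have hLi : ∀ a ∈ O, ∃ W ∈ 𝓝 a, ∫⁻ z in W ∩ {z | Dd z ≠ 0}, ‖f z‖ₑ ^ 2 < ⊤ := by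
      intro a ha
      -- lower bound of the metric
      have hwc : ContinuousAt (fun w => hN.w i ((A.e i).symm (T w))) a := by
        have h1 : ContinuousAt (fun w => hN.w i ((A.e i).symm w)) (T a) :=
          (hN.sm i).continuousOn.continuousAt ((A.e i).open_target.mem_nhds ha)
        exact ContinuousAt.comp (f := T) h1 hTc.continuousAt
      set c := hN.w i ((A.e i).symm (T a)) / 2 with hc
      have hpos : 0 < hN.w i ((A.e i).symm (T a)) := hN.pos i _ ((A.e i).map_target ha)
      have hc0 : 0 < c := by positivity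
      have hev : ∀ᶠ w in 𝓝 a, c < hN.w i ((A.e i).symm (T w)) :=
        hwc.eventually (lt_mem_nhds (half_lt_self hpos))
      obtain ⟨W, hWsub, hWo, haW⟩ := _root_.mem_nhds_iff.1 (hev.and (hOo.mem_nhds ha))
      refine ⟨W, hWo.mem_nhds haW, ?_⟩
      -- the function on `M`
      set φ : M → ℝ≥0∞ := fun x => if hx : x ∈ S.U then
        ‖F ⟨x, hx⟩‖ₑ ^ 2 * ENNReal.ofReal (Real.exp (-(wtS hN σ x))) else 0 with hφ
      have hφe : ∀ x : Mo S, φ x.val =
          ‖F x‖ₑ ^ 2 * ENNReal.ofReal (Real.exp (-(wtS hN σ x.val))) := by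
        intro x
        have : x.val ∈ S.U := x.prop
        simp only [hφ, this, dif_pos]
        rfl
      have hφm : Measurable fun x : Mo S => φ x.val := by
        simp only [hφe]
        have m1 : Measurable fun x : Mo S => ‖F x‖ₑ ^ 2 := (hFc.measurable.enorm).pow_const 2
        have m2 : Measurable fun x : Mo S => ENNReal.ofReal (Real.exp (-(wtS hN σ x.val))) :=
          (ENNReal.continuous_ofReal.comp (Real.continuous_exp.comp
            (wtS_sm hN hσ h0).continuous.neg)).measurable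
        exact m1.mul m2
      have hfin := lt_of_le_of_lt (lintegral_chart_le h hμ i φ hφm)
        (by simpa only [hφe] using hL)
      -- compare
      have hOm : MeasurableSet (W ∩ {z | Dd z ≠ 0}) := by
        have h1 : IsOpen (O ∩ {z | Dd z ≠ 0}) := by
          have := hDan.continuousOn.isOpen_inter_preimage hOo isOpen_ne (t := {w : ℂ | w ≠ 0})
          exact this
        have h2 : W ∩ {z | Dd z ≠ 0} = W ∩ (O ∩ {z | Dd z ≠ 0}) := by
          ext w
          constructor
          · rintro ⟨hw, hw'⟩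
            exact ⟨hw, (hWsub hw).2, hw'⟩
          · rintro ⟨hw, _, hw'⟩
            exact ⟨hw, hw'⟩
        rw [h2]
        exact (hWo.inter h1).measurableSet
      have hcmp : ∫⁻ z in W ∩ {z | Dd z ≠ 0}, ENNReal.ofReal c * ‖f z‖ₑ ^ 2 ≤
          ∫⁻ y in {y : RI n → ℝ | y ∈ Ui A i ∧ sg A i y ∈ S.U},
            ENNReal.ofReal (‖zf S i (sg A i y)‖ ^ 2) * φ (sg A i y) := by
        rw [← (mp_kap n).setLIntegral_comp_preimage_emb (me_kap n)]
        have hsub : kap ⁻¹' (W ∩ {z | Dd z ≠ 0}) ⊆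
            {y : RI n → ℝ | y ∈ Ui A i ∧ sg A i y ∈ S.U} := by
          rintro y ⟨hyW, hyD⟩
          have h1 : kap y ∈ O := (hWsub hyW).2
          exact ⟨h1, (hmemU _ h1).1 hyD⟩
        refine le_trans ?_ (lintegral_mono_set hsub)
        refine setLIntegral_mono' ((me_kap n).measurable hOm) fun y hy => ?_
        obtain ⟨hyW, hyD⟩ := hy
        have h1 : kap y ∈ O := (hWsub hyW).2
        have hyU : sg A i y ∈ S.U := (hmemU _ h1).1 hyD
        have hys : sg A i y ∈ (A.e i).source := sg_mem h1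
        set x : Mo S := ⟨sg A i y, hyU⟩ with hx
        have hxv : x.val = sg A i y := rfl
        have e1 : f (kap y) = F x * (zf S i x.val * σ i x.val) := by
          have : ext0 F x.val = F x := ext0_val F x
          rw [← this]
          rfl
        have hxs : x.val ∈ (A.e i).source := hys
        rw [← hxv, hφe, e1, exp_wtS hN hσ h0 hxs x.prop]
        have e2 : ‖F x * (zf S i x.val * σ i x.val)‖ₑ ^ 2 =
            ‖F x‖ₑ ^ 2 * ENNReal.ofReal (‖zf S i x.val‖ ^ 2 * ‖σ i x.val‖ ^ 2) := by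
          rw [enorm_mul, mul_pow, ← ofReal_norm (zf S i x.val * σ i x.val), norm_mul,
            ← ENNReal.ofReal_pow (by positivity), mul_pow]
        rw [e2]
        have e3 : c ≤ hN.w i x.val := (hWsub hyW).1.le
        calc ENNReal.ofReal c * (‖F x‖ₑ ^ 2 *
              ENNReal.ofReal (‖zf S i x.val‖ ^ 2 * ‖σ i x.val‖ ^ 2))
            ≤ ENNReal.ofReal (hN.w i x.val) * (‖F x‖ₑ ^ 2 *
              ENNReal.ofReal (‖zf S i x.val‖ ^ 2 * ‖σ i x.val‖ ^ 2)) := by gcongr
          _ = _ := by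
            rw [ENNReal.ofReal_mul (by positivity), ENNReal.ofReal_mul (by positivity)]
            ring
      have hfin2 : ENNReal.ofReal c * ∫⁻ z in W ∩ {z | Dd z ≠ 0}, ‖f z‖ₑ ^ 2 < ⊤ := by
        rw [← lintegral_const_mul' _ _ ENNReal.ofReal_ne_top]
        exact lt_of_le_of_lt hcmp hfin
      exact (ENNReal.mul_lt_top_iff.1 hfin2).elim (fun h => h.2) fun h => by
        rcases h with h | h
        · exact absurd h (ENNReal.ofReal_pos.2 hc0).ne'
        · rw [h]; exact ENNReal.zero_lt_top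
    obtain ⟨g, hg, hgf⟩ := Crest.Agent.R271.RExt747.riemann_ext hOo hDan hne hfdiff hLi
    refine ⟨fun x => g (WithLp.ofLp (A.e i x)), ?_, ?_⟩
    · have h1 : DifferentiableOn ℂ (fun v : Cn n => g (WithLp.ofLp v)) (A.e i).target := by
        refine hg.comp (f := fun v : Cn n => (WithLp.ofLp v : Fin n → ℂ)) ?_ fun v hv => hv
        exact (((EuclideanSpace.equiv (Fin n) ℂ) : Cn n →L[ℂ] (Fin n → ℂ))).differentiable.differentiableOn
      refine (h1.mono inter_subset_left).congr fun v hv => ?_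
      simp only [(A.e i).right_inv hv.1]
    · intro x hx hxd
      have h1 : WithLp.ofLp (A.e i x) ∈ O := (A.e i).map_source hx
      have h2 : (A.e i).symm (T (WithLp.ofLp (A.e i x))) = x := (A.e i).left_inv hx
      have h3 := hgf _ h1 (by
        rw [hmemU _ h1, h2, hU]
        exact hxd)
      show g (WithLp.ofLp (A.e i x)) = u i x
      rw [h3]
      simp only [hf, h2]
  choose g hg hgu using hloc
  obtain ⟨s, hs, hsg⟩ := glue hd hd0 hutr hg hgu
  refine ⟨s, hs, fun i x hx => ?_⟩
  rw [hsg i _ hx, hgu i _ hx (hU ▸ x.prop)]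
  simp only [hu, ext0_val]

end ext

end

end Crest.Agent.R273.SteinL_794
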