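import Crest.Agent.R273.Defs_333

/-!
# R273 (S0416), Part E (helper333): algebra and existence of Hermitian metrics on line bundles
-/

set_option autoImplicit false
set_option linter.unusedSectionVars false

open Set Filter Topology Complex
open scoped ContDiff Matrix ComplexConjugate Manifold

namespace Crest.Agent.R273.HM_333

open Crest.Agent.R275.Geo Crest.Agent.R275.Core144
open Crest.Agent.R273.Defs_333

noncomputable section

variable {n : ℕ} {M : Type} [TopologicalSpace M] {A : Atl n M} {L L' : LB A}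

@[ext] theorem hm_ext {h h' : HM L} (H : h.w = h'.w) : h = h' := by
  cases h; cases h'; simp_all

/-- the trivial metric -/
def one (A : Atl n M) : HM (1 : LB A) where
  w _ _ := 1
  pos _ _ _ := one_pos
  sm _ := contDiffOn_const
  tr _ _ _ _ := by simp

/-- product metric -/
def mul (h : HM L) (h' : HM L') : HM (L * L') where
  w i x := h.w i x * h'.w i x
  pos i x hx := mul_pos (h.pos i x hx) (h'.pos i x hx)
  sm i := (h.sm i).mul (h'.sm i)
  tr i j x hx := by
    rw [h.tr i j x hx, h'.tr i j x hx, LB.mul_g, norm_mul]; ring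

/-- inverse metric -/
def inv (h : HM L) : HM L⁻¹ where
  w i x := (h.w i x)⁻¹
  pos i x hx := inv_pos.2 (h.pos i x hx)
  sm i := by
    have h1 : ContDiffOn ℝ ∞ (fun z => (h.w i ((A.e i).symm z))⁻¹) (A.e i).target :=
      (h.sm i).inv fun z hz => (h.pos i _ ((A.e i).map_target hz)).ne'
    exact h1
  tr i j x hx := by
    rw [h.tr i j x hx, LB.inv_g, norm_inv, mul_inv, inv_pow]

/-- power of a metric -/
def pow (h : HM L) : (m : ℕ) → HM (L ^ m)
  | 0 => { w := fun _ _ => 1
           pos := fun _ _ _ => one_pos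
           sm := fun _ => contDiffOn_const
           tr := fun _ _ _ _ => by simp }
  | m + 1 => { w := fun i x => (h.w i x) ^ (m + 1)
               pos := fun i x hx => pow_pos (h.pos i x hx) _
               sm := fun i => (h.sm i).pow _
               tr := fun i j x hx => by
                have h0 : ∀ k : ℕ, (L ^ k : LB A).g i j x = L.g i j x ^ k := by
                  intro k
                  induction k with
                  | zero => simp
                  | succ k ih => rw [pow_succ, pow_succ, LB.mul_g, ih]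
                rw [h.tr i j x hx, h0, norm_pow, mul_pow]
                ring }

theorem pow_w (h : HM L) (m : ℕ) (i : A.ι) (x : M) : (pow h m).w i x = (h.w i x) ^ m := by
  cases m with
  | zero => simp [pow]
  | succ m => rfl

theorem LB_pow_g (L : LB A) (m : ℕ) (i j : A.ι) (x : M) : (L ^ m : LB A).g i j x = L.g i j x ^ m := by
  induction m with
  | zero => simp
  | succ k ih => rw [pow_succ, pow_succ, LB.mul_g, ih]

/-- change of a metric by a smooth function: `|s|² e^{-f}` -/
def tw (h : HM L) (f : M → ℝ) (hf : A.Sm f) : HM L where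
  w i x := h.w i x * Real.exp (- f x)
  pos i x hx := mul_pos (h.pos i x hx) (Real.exp_pos _)
  sm i := (h.sm i).mul ((Real.contDiff_exp.comp_contDiffOn (hf i).neg))
  tr i j x hx := by rw [h.tr i j x hx]; ring

/-- the squared length of a section -/
def nsq (h : HM L) (s : A.ι → M → ℂ) (i : A.ι) (x : M) : ℝ := ‖s i x‖ ^ 2 * h.w i x

theorem nsq_indep (h : HM L) {s : A.ι → M → ℂ} {U : Set M} (hs : IsHS L U s) {i j : A.ι} {x : M}
    (hx : x ∈ (A.e i).source ∩ (A.e j).source) (hU : x ∈ U) : nsq h s i x = nsq h s j x := by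
  unfold nsq
  rw [hs.tr i j x hx hU, h.tr i j x hx, norm_mul]
  ring

/-- existence of a metric -/
theorem exists_hm [Finite A.ι] (P : Part A) (L : LB A) : Nonempty (HM L) := by
  classical
  have := Fintype.ofFinite A.ι
  have hψ : ∀ k x, x ∉ (A.e k).source → P.ψ k x = 0 := by
    intro k x hx
    by_contra h0
    have h1 : x ∈ tsupport (P.ψ k) := subset_tsupport _ h0
    have h2 := (P.χ_one k x h1).self_of_nhds
    have h3 : x ∈ tsupport (P.χ k) := subset_tsupport _ (by rw [Function.mem_support, h2]; exact one_ne_zero)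
    exact hx (P.χ_sub k h3)
  have hts : ∀ k, tsupport (P.ψ k) ⊆ (A.e k).source := by
    intro k x hx
    have h2 := (P.χ_one k x hx).self_of_nhds
    have h3 : x ∈ tsupport (P.χ k) := subset_tsupport _ (by rw [Function.mem_support, h2]; exact one_ne_zero)
    exact P.χ_sub k h3
  have hsum : ∀ x, ∑ k, P.ψ k x = 1 := by
    intro x
    rw [← P.sum_one x, finsum_eq_sum_of_fintype]
  refine ⟨⟨fun i x => Real.exp (∑ k, P.ψ k x * Real.log (‖L.g k i x‖ ^ 2)),
    fun _ _ _ => Real.exp_pos _, ?_, ?_⟩⟩
  · intro i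
    refine Real.contDiff_exp.comp_contDiffOn ?_
    refine ContDiffOn.sum fun k _ => ?_
    intro z hz
    set x := (A.e i).symm z with hx
    have hxi : x ∈ (A.e i).source := (A.e i).map_target hz
    by_cases hk : x ∈ (A.e k).source
    · -- smooth near
      have ho : IsOpen {w | w ∈ (A.e i).target ∧ (A.e i).symm w ∈ (A.e k).source} :=
        (A.e i).isOpen_inter_preimage_symm (A.e k).open_source
      have h1 : ContDiffAt ℝ ∞ (fun w => L.g k i ((A.e i).symm w)) z := by
        have h2 : ContDiffOn ℝ ∞ (fun w => (L.g i k ((A.e i).symm w))⁻¹)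
            {w | w ∈ (A.e i).target ∧ (A.e i).symm w ∈ (A.e k).source} := by
          have h3 : ContDiffOn ℝ ∞ (fun w => L.g i k ((A.e i).symm w))
            {w | w ∈ (A.e i).target ∧ (A.e i).symm w ∈ (A.e k).source} :=
            (L.hol i k).contDiffOn (A.e k).open_source
          exact h3.inv fun w _ => L.ne_zero i k _
        have h4 := h2.contDiffAt (ho.mem_nhds ⟨hz, hk⟩)
        simpa only [LB.inv_eq] using h4
      have h5 : ContDiffAt ℝ ∞ (fun w => ‖L.g k i ((A.e i).symm w)‖ ^ 2) z := h1.norm_sq ℝ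
      have h6 : ContDiffAt ℝ ∞ (fun w => Real.log (‖L.g k i ((A.e i).symm w)‖ ^ 2)) z :=
        h5.log (by
          have := L.ne_zero k i ((A.e i).symm z)
          positivity)
      have h7 : ContDiffAt ℝ ∞ (fun w => P.ψ k ((A.e i).symm w)) z :=
        (P.ψ_sm k i).contDiffAt ((A.e i).open_target.mem_nhds hz)
      exact (h7.mul h6).contDiffWithinAt
    · have h1 : x ∉ tsupport (P.ψ k) := fun h => hk (hts k h)
      have h2 : ∀ᶠ y in 𝓝 x, P.ψ k y = 0 := notMem_tsupport_iff_eventuallyEq.1 h1
      have h3 : ∀ᶠ w in 𝓝 z, P.ψ k ((A.e i).symm w) = 0 :=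
        ((A.e i).continuousAt_symm hz).eventually h2
      have h4 : (fun w => P.ψ k ((A.e i).symm w) * Real.log (‖L.g k i ((A.e i).symm w)‖ ^ 2))
          =ᶠ[𝓝 z] fun _ => (0 : ℝ) := by
        filter_upwards [h3] with w hw
        rw [hw, zero_mul]
      exact (contDiffAt_const.congr_of_eventuallyEq h4).contDiffWithinAt
  · intro i j x hx
    have h1 : ∀ k, P.ψ k x * Real.log (‖L.g k j x‖ ^ 2) =
        P.ψ k x * Real.log (‖L.g i j x‖ ^ 2) + P.ψ k x * Real.log (‖L.g k i x‖ ^ 2) := by
      intro k
      by_cases hk : x ∈ (A.e k).source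
      · rw [← L.mul k i j x ⟨⟨hk, hx.1⟩, hx.2⟩, norm_mul, mul_pow, Real.log_mul]
        · ring
        · have := L.ne_zero k i x
          positivity
        · have := L.ne_zero i j x
          positivity
      · rw [hψ k x hk]; ring
    simp only [h1]
    rw [Finset.sum_add_distrib, ← Finset.sum_mul, hsum, one_mul, Real.exp_add, Real.exp_log]
    have := L.ne_zero i j x
    positivity

theorem wt_mul (h : HM L) (h' : HM L') (i : A.ι) {z : Cn n} (hz : z ∈ (A.e i).target) :
    (mul h h').wt i z = h.wt i z + h'.wt i z := by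
  have h1 := (A.e i).map_target hz
  simp only [HM.wt, mul]
  rw [Real.log_mul (h.pos i _ h1).ne' (h'.pos i _ h1).ne']
  ring

theorem wt_inv (h : HM L) (i : A.ι) (z : Cn n) : (inv h).wt i z = - h.wt i z := by
  simp only [HM.wt, inv, Real.log_inv]

theorem wt_pow (h : HM L) (m : ℕ) (i : A.ι) (z : Cn n) : (pow h m).wt i z = m * h.wt i z := by
  simp only [HM.wt, pow_w, Real.log_pow]
  ring

theorem wt_tw (h : HM L) (f : M → ℝ) (hf : A.Sm f) (i : A.ι) {z : Cn n}
    (hz : z ∈ (A.e i).target) : (tw h f hf).wt i z = h.wt i z + f ((A.e i).symm z) := by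
  have h1 := (A.e i).map_target hz
  simp only [HM.wt, tw]
  rw [Real.log_mul (h.pos i _ h1).ne' (Real.exp_pos _).ne', Real.log_exp]
  ring

theorem wt_smooth (h : HM L) (i : A.ι) : ContDiffOn ℝ ∞ (h.wt i) (A.e i).target := by
  have h1 : ContDiffOn ℝ ∞ (fun z => Real.log (h.w i ((A.e i).symm z))) (A.e i).target :=
    (h.sm i).log fun z hz => (h.pos i _ ((A.e i).map_target hz)).ne'
  exact h1.neg

/-- change of chart for the weights -/
theorem wt_tr (h : HM L) {i j : A.ι} {z : Cn n} (hz : z ∈ A.ov i j) :
    h.wt j (A.e j ((A.e i).symm z)) =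
      h.wt i z - Real.log (‖L.g i j ((A.e i).symm z)‖ ^ 2) := by
  have hx : (A.e i).symm z ∈ (A.e i).source ∩ (A.e j).source := ⟨(A.e i).map_target hz.1, hz.2⟩
  simp only [HM.wt]
  rw [(A.e j).left_inv hx.2, h.tr i j _ hx, Real.log_mul]
  · ring
  · have := L.ne_zero i j ((A.e i).symm z)
    positivity
  · exact (h.pos i _ hx.1).ne'

end

end Crest.Agent.R273.HM_333
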