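import Crest.Agent.R273.YauDefs_635
import Crest.Agent.R273.HM_333

/-!
# R273 (S0416), Part C, YAU (helper635): comparison of Levi forms on compact manifolds

* `lev_change` : the Levi form of functions (up to pluriharmonic functions) is chart independent
* `lev_inC_change`, `lev_wt_change`
* `lev_upper`, `lev_lower` : bounds on compact sets of one chart
* `exists_lev_bound` : on compact `M` the Levi form of a smooth function is bounded by the curvature
  of a positive metric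
-/

set_option autoImplicit false
set_option linter.unusedSectionVars false

open Set Filter Topology Complex
open scoped ContDiff Matrix ComplexConjugate

namespace Crest.Agent.R273.YauCh_635

open Crest.Agent.R275.Geo Crest.Agent.R275.Core144 Crest.Agent.R275.GC293
open Crest.Agent.R273.Defs_333 Crest.Agent.R273.YauDefs_635 Crest.Agent.R273.HM_333

noncomputable section

theorem two_le_inf : (2 : WithTop ℕ∞) ≤ ∞ := WithTop.coe_le_coe.2 (le_top : (2 : ℕ∞) ≤ ⊤)

section Local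

variable {n : ℕ}

theorem lev_D2 (u : Cn n → ℝ) (z v : Cn n) :
    lev u z v = D2 u z v v + D2 u z (I • v) (I • v) := lev333_eq u z v

theorem lev_smul_real (u : Cn n → ℝ) (z v : Cn n) (c : ℝ) :
    lev u z (c • v) = c ^ 2 * lev u z v := by
  rw [lev_D2, lev_D2, smul_comm I c v]
  simp only [D2, map_smul, _root_.smul_apply, smul_eq_mul]
  ring

theorem contDiffOn_fd2 {u : Cn n → ℝ} {U : Set (Cn n)} (hU : IsOpen U) (hu : ContDiffOn ℝ 2 u U) :
    ContinuousOn (fun z => fderiv ℝ (fderiv ℝ u) z) U := by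
  have h1 : ContDiffOn ℝ 1 (fderiv ℝ u) U := hu.fderiv_of_isOpen hU (by norm_num)
  exact h1.continuousOn_fderiv_of_isOpen hU le_rfl

theorem continuousOn_lev {u : Cn n → ℝ} {U : Set (Cn n)} (hU : IsOpen U) (hu : ContDiffOn ℝ 2 u U) :
    ContinuousOn (fun p : Cn n × Cn n => lev u p.1 p.2) (U ×ˢ univ) := by
  have h1 := contDiffOn_fd2 hU hu
  have h2 : ContinuousOn (fun p : Cn n × Cn n => fderiv ℝ (fderiv ℝ u) p.1) (U ×ˢ univ) :=
    h1.comp continuousOn_fst fun p hp => hp.1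
  simp only [lev_D2, D2]
  have h3 : ContinuousOn (fun p : Cn n × Cn n => p.2) (U ×ˢ univ) := continuousOn_snd
  have h4 : ContinuousOn (fun p : Cn n × Cn n => I • p.2) (U ×ˢ univ) := h3.const_smul I
  exact ((h2.clm_apply h3).clm_apply h3).add ((h2.clm_apply h4).clm_apply h4)

theorem lev_norm (u : Cn n → ℝ) (z : Cn n) {v : Cn n} (hv : v ≠ 0) :
    lev u z v = ‖v‖ ^ 2 * lev u z ((‖v‖⁻¹ : ℝ) • v) := by
  have h := norm_ne_zero_iff.2 hv
  rw [lev_smul_real, inv_pow, ← mul_assoc, mul_inv_cancel₀ (pow_ne_zero 2 h), one_mul]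

theorem mem_sphere_norm {v : Cn n} (hv : v ≠ 0) : (‖v‖⁻¹ : ℝ) • v ∈ Metric.sphere (0 : Cn n) 1 := by
  rw [mem_sphere_zero_iff_norm, norm_smul, norm_inv, norm_norm,
    inv_mul_cancel₀ (norm_ne_zero_iff.2 hv)]

theorem lev_zero (u : Cn n → ℝ) (z : Cn n) : lev u z 0 = 0 := by
  rw [lev_D2]
  simp [D2]

/-- upper bound of the Levi form on compact sets -/
theorem lev_upper {u : Cn n → ℝ} {U : Set (Cn n)} (hU : IsOpen U) (hu : ContDiffOn ℝ 2 u U)
    {K : Set (Cn n)} (hK : IsCompact K) (hKU : K ⊆ U) :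
    ∃ C : ℝ, 0 ≤ C ∧ ∀ z ∈ K, ∀ v, |lev u z v| ≤ C * ‖v‖ ^ 2 := by
  have hc := (continuousOn_lev hU hu).mono (prod_mono hKU (subset_univ (Metric.sphere (0 : Cn n) 1)))
  obtain ⟨C, hC⟩ := (hK.prod (isCompact_sphere (0 : Cn n) 1)).exists_bound_of_continuousOn hc
  refine ⟨max C 0, le_max_right _ _, fun z hz v => ?_⟩
  rcases eq_or_ne v 0 with rfl | hv
  · simp [lev_zero]
  · rw [lev_norm u z hv, abs_mul, abs_of_nonneg (by positivity : (0 : ℝ) ≤ ‖v‖ ^ 2), mul_comm]
    refine mul_le_mul_of_nonneg_right ?_ (by positivity)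
    exact (hC (z, (‖v‖⁻¹ : ℝ) • v) ⟨hz, mem_sphere_norm hv⟩).trans (le_max_left _ _)

/-- lower bound of the Levi form on compact sets -/
theorem lev_lower {u : Cn n → ℝ} {U : Set (Cn n)} (hU : IsOpen U) (hu : ContDiffOn ℝ 2 u U)
    {K : Set (Cn n)} (hK : IsCompact K) (hKU : K ⊆ U)
    (hp : ∀ z ∈ K, ∀ v : Cn n, v ≠ 0 → 0 < lev u z v) :
    ∃ c : ℝ, 0 < c ∧ ∀ z ∈ K, ∀ v, c * ‖v‖ ^ 2 ≤ lev u z v := by
  have hc := (continuousOn_lev hU hu).mono (prod_mono hKU (subset_univ (Metric.sphere (0 : Cn n) 1)))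
  obtain ⟨c, hc0, hc1⟩ := (hK.prod (isCompact_sphere (0 : Cn n) 1)).exists_forall_le' hc (a := 0)
    (fun p hq => hp p.1 hq.1 p.2 (by
      have := hq.2
      rw [mem_sphere_zero_iff_norm] at this
      intro h0
      rw [h0, norm_zero] at this
      exact zero_ne_one this))
  refine ⟨c, hc0, fun z hz v => ?_⟩
  rcases eq_or_ne v 0 with rfl | hv
  · simp [lev_zero]
  · rw [lev_norm u z hv, mul_comm c]
    exact mul_le_mul_of_nonneg_left (hc1 (z, (‖v‖⁻¹ : ℝ) • v) ⟨hz, mem_sphere_norm hv⟩)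
      (by positivity)

end Local

variable {n : ℕ} {M : Type} [TopologicalSpace M] {A : Atl n M} {L : LB A}

/-- change of charts -/
def Tm (A : Atl n M) (i j : A.ι) (w : Cn n) : Cn n := A.e j ((A.e i).symm w)

theorem anal_Tm {i j : A.ι} {x : M} (hx : x ∈ (A.e i).source ∩ (A.e j).source) :
    AnalyticAt ℂ (Tm A i j) (A.e i x) :=
  Crest.Agent.R266.SCV.analyticOnNhd_of_differentiableOn (isOpen_ov i j) (A.holo i j) _
    (mem_ov hx)

theorem Tm_apply {i j : A.ι} {x : M} (hx : x ∈ (A.e i).source) :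
    Tm A i j (A.e i x) = A.e j x := by
  simp only [Tm, (A.e i).left_inv hx]

/-- chart independence of the Levi form -/
theorem lev_change {u v : Cn n → ℝ} {i j : A.ι} {x : M} {f : Cn n → ℂ}
    (hx : x ∈ (A.e i).source ∩ (A.e j).source) (hv : ContDiffAt ℝ 2 v (A.e j x))
    (hf : AnalyticAt ℂ f (A.e i x)) (h0 : f (A.e i x) ≠ 0)
    (huv : ∀ᶠ w in 𝓝 (A.e i x), u w = v (Tm A i j w) + Real.log (‖f w‖ ^ 2)) (w : Cn n) :
    lev u (A.e i x) w = lev v (A.e j x) (fderiv ℂ (Tm A i j) (A.e i x) w) := by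
  have hT := anal_Tm (A := A) hx
  have hTx : Tm A i j (A.e i x) = A.e j x := Tm_apply hx.1
  have hv' : ContDiffAt ℝ 2 v (Tm A i j (A.e i x)) := by rwa [hTx]
  have hvT : ContDiffAt ℝ 2 (fun w => v (Tm A i j w)) (A.e i x) :=
    hv'.comp _ (hT.contDiffAt.restrict_scalars ℝ)
  rw [lev333_eq_lev145, lev333_eq_lev145]
  have h1 : u =ᶠ[𝓝 (A.e i x)] fun w => v (Tm A i j w) + Real.log (‖f w‖ ^ 2) := huv
  rw [Levi_145.lev_congr h1, Levi_145.lev_add hvT (Levi_145.c2_log_normSq hf h0 2),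
    Levi_145.lev_log_normSq hf h0, add_zero, Levi_145.lev_comp hT hv', hTx]

theorem inC_smooth {φ : M → ℝ} (hφ : A.Sm φ) (i : A.ι) : ContDiffOn ℝ ∞ (inC A i φ) (A.e i).target :=
  hφ i

theorem inC_c2 {φ : M → ℝ} (hφ : A.Sm φ) (i : A.ι) {z : Cn n} (hz : z ∈ (A.e i).target) :
    ContDiffAt ℝ 2 (inC A i φ) z :=
  ((inC_smooth hφ i).contDiffAt ((A.e i).open_target.mem_nhds hz)).of_le two_le_inf

theorem wt_c2 (H : HM L) (i : A.ι) {z : Cn n} (hz : z ∈ (A.e i).target) :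
    ContDiffAt ℝ 2 (H.wt i) z :=
  ((wt_smooth H i).contDiffAt ((A.e i).open_target.mem_nhds hz)).of_le two_le_inf

theorem lev_inC_change {φ : M → ℝ} (hφ : A.Sm φ) {i j : A.ι} {x : M}
    (hx : x ∈ (A.e i).source ∩ (A.e j).source) (w : Cn n) :
    lev (inC A i φ) (A.e i x) w
      = lev (inC A j φ) (A.e j x) (fderiv ℂ (Tm A i j) (A.e i x) w) := by
  refine lev_change (f := fun _ => (1 : ℂ)) hx (inC_c2 hφ j ((A.e j).map_source hx.2))
    analyticAt_const one_ne_zero ?_ w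
  have ho : IsOpen (A.ov i j) := isOpen_ov i j
  filter_upwards [ho.mem_nhds (mem_ov hx)] with w hw
  simp [inC, Tm, (A.e j).left_inv hw.2]

theorem lev_wt_change (H : HM L) {i j : A.ι} {x : M}
    (hx : x ∈ (A.e i).source ∩ (A.e j).source) (w : Cn n) :
    lev (H.wt i) (A.e i x) w
      = lev (H.wt j) (A.e j x) (fderiv ℂ (Tm A i j) (A.e i x) w) := by
  have ho : IsOpen (A.ov i j) := isOpen_ov i j
  refine lev_change (f := fun w => L.g i j ((A.e i).symm w)) hx
    (wt_c2 H j ((A.e j).map_source hx.2))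
    (Crest.Agent.R266.SCV.analyticOnNhd_of_differentiableOn ho (L.hol i j) _ (mem_ov hx))
    (L.ne_zero i j _) ?_ w
  filter_upwards [ho.mem_nhds (mem_ov hx)] with w hw
  have := wt_tr H hw
  simp only [Tm]
  linarith

/-- on compact `M` the Levi form of a smooth function is bounded by a positive curvature -/
theorem exists_lev_bound [CompactSpace M] {H : HM L} (hH : H.Pos) {F : M → ℝ} (hF : A.Sm F) :
    ∃ K : ℝ, 0 ≤ K ∧ ∀ i, ∀ z ∈ (A.e i).target, ∀ v,
      |lev (inC A i F) z v| ≤ K * lev (H.wt i) z v := by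
  have key : ∀ x : M, ∃ V ∈ 𝓝 x, ∃ K : ℝ, 0 ≤ K ∧ ∀ y ∈ V, ∀ i, y ∈ (A.e i).source → ∀ v,
      |lev (inC A i F) (A.e i y) v| ≤ K * lev (H.wt i) (A.e i y) v := by
    intro x
    obtain ⟨j, hj⟩ := A.cover x
    have ht := (A.e j).map_source hj
    obtain ⟨ρ, hρ, hρs⟩ := Metric.nhds_basis_closedBall.mem_iff.1 ((A.e j).open_target.mem_nhds ht)
    have hK : IsCompact (Metric.closedBall (A.e j x) ρ) := isCompact_closedBall _ _
    obtain ⟨C, hC0, hC⟩ := lev_upper (A.e j).open_target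
      ((inC_smooth hF j).of_le two_le_inf) hK hρs
    obtain ⟨c, hc0, hc⟩ := lev_lower (A.e j).open_target
      ((wt_smooth H j).of_le two_le_inf) hK hρs
      (fun z hz v hv => hH j z (hρs hz) v hv)
    refine ⟨(A.e j).source ∩ (A.e j) ⁻¹' Metric.ball (A.e j x) ρ, ?_, C / c, by positivity, ?_⟩
    · exact ((A.e j).isOpen_inter_preimage Metric.isOpen_ball).mem_nhds
        ⟨hj, Metric.mem_ball_self hρ⟩
    · rintro y ⟨hyj, hyb⟩ i hyi v
      have hyc : A.e j y ∈ Metric.closedBall (A.e j x) ρ := Metric.ball_subset_closedBall hyb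
      rw [lev_inC_change hF ⟨hyi, hyj⟩, lev_wt_change H ⟨hyi, hyj⟩]
      set w := fderiv ℂ (Tm A i j) (A.e i y) v
      calc |lev (inC A j F) (A.e j y) w| ≤ C * ‖w‖ ^ 2 := hC _ hyc w
        _ = C / c * (c * ‖w‖ ^ 2) := by field_simp
        _ ≤ C / c * lev (H.wt j) (A.e j y) w :=
          mul_le_mul_of_nonneg_left (hc _ hyc w) (by positivity)
  choose V hV K hK0 hK using key
  obtain ⟨t, ht⟩ := CompactSpace.elim_nhds_subcover V hV
  refine ⟨∑ x ∈ t, K x, Finset.sum_nonneg fun x _ => hK0 x, fun i z hz v => ?_⟩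
  have hy := (A.e i).map_target hz
  have h1 : (A.e i).symm z ∈ (⊤ : Set M) := mem_univ _
  rw [← ht] at h1
  simp only [mem_iUnion, exists_prop] at h1
  obtain ⟨x, hxt, hx⟩ := h1
  have h2 := hK x _ hx i hy v
  rw [(A.e i).right_inv hz] at h2
  refine h2.trans (mul_le_mul_of_nonneg_right
    (Finset.single_le_sum (f := K) (fun y _ => hK0 y) hxt) ?_)
  rcases eq_or_ne v 0 with rfl | hv
  · rw [lev_zero]
  · exact (hH i z hz v hv).le

end

end Crest.Agent.R273.YauCh_635
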