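import Crest.Agent.R273.VolInv_5
import Crest.Agent.R273.Vm_333

/-!
# R273 (S0416), leaf FI, part c (helper597): Laplacians and traces on `(M, K)`

* `wd_comp_real`, `hess_comp_real`, `hess_log` : chain rules for `φ ∘ u`, `u` real
* `tr_nonneg` : `0 ≤ tr (G⁻¹ S)` for `G` positive definite and `S` positive semidefinite
* `trK K S i x = tr (g⁻¹ S)`; `TF` : tensor fields of type `(1,1)`; `trM K S : M → ℝ`; smoothness
* `Lap K f = tr (g⁻¹ ∂∂̄f)`
-/

set_option autoImplicit false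
set_option linter.unusedSectionVars false

open Set Filter Topology Complex MeasureTheory
open scoped ContDiff Matrix ComplexConjugate ComplexOrder

namespace Crest.Agent.R273.FIa0_597

open Crest.Agent.R275.Geo Crest.Agent.R275.Core144 Crest.Agent.R275.EDR890
open Crest.Agent.R273.Defs_333 Crest.Agent.R273.Hess_333 Crest.Agent.R273.HessB_333
open Crest.Agent.R273.HM_333 Crest.Agent.R273.Kah_333 Crest.Agent.R273.Vol_333
open Crest.Agent.R273.Green_5

noncomputable section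

variable {n : ℕ}

/-! ### chain rules -/

theorem wd_comp_real {φ : ℝ → ℝ} {d : ℝ} {u : Cn n → ℝ} {z : Cn n} (s : WI n)
    (hu : DifferentiableAt ℝ u z) (hφ : HasDerivAt φ d (u z)) :
    wd s (cu fun w => φ (u w)) z = (d : ℂ) * wd s (cu u) z := by
  have h1 : HasFDerivAt (cu u) (Complex.ofRealCLM.comp (fderiv ℝ u z)) z :=
    Complex.ofRealCLM.hasFDerivAt.comp z hu.hasFDerivAt
  have h2 : HasFDerivAt (cu fun w => φ (u w)) (Complex.ofRealCLM.comp (d • fderiv ℝ u z)) z :=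
    Complex.ofRealCLM.hasFDerivAt.comp z (hφ.comp_hasFDerivAt z hu.hasFDerivAt)
  have h3 : Complex.ofRealCLM.comp (d • fderiv ℝ u z) =
      (d : ℂ) • Complex.ofRealCLM.comp (fderiv ℝ u z) := by
    ext v
    simp
  rw [wd, wd, h1.fderiv, h2.fderiv, h3, wdL_smul, smul_eq_mul]

/-- `∂_a ∂_{b̄} (φ ∘ u)` -/
theorem hess_comp_real {φ φ' : ℝ → ℝ} {d2 : ℝ} {u : Cn n → ℝ} {z : Cn n}
    (hu : ContDiffAt ℝ ∞ u z) (h1 : ∀ᶠ s in 𝓝 (u z), HasDerivAt φ (φ' s) s)
    (h2 : HasDerivAt φ' d2 (u z)) (a b : Fin n) :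
    hess (fun w => φ (u w)) z a b = (φ' (u z) : ℂ) * hess u z a b +
      (d2 : ℂ) * (wd (false, a) (cu u) z * wd (true, b) (cu u) z) := by
  have hd : ∀ᶠ w in 𝓝 z, DifferentiableAt ℝ u w := by
    have := (hu.of_le (m := 1) (by exact_mod_cast le_top)).eventually (by simp)
    filter_upwards [this] with w hw
    exact hw.differentiableAt (by simp)
  have e1 : wd (true, b) (cu fun w => φ (u w)) =ᶠ[𝓝 z] fun w =>
      (cu fun w => φ' (u w)) w * wd (true, b) (cu u) w := by
    filter_upwards [hd, hu.continuousAt.eventually h1] with w hw hw'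
    exact wd_comp_real (true, b) hw hw'
  have hd0 : DifferentiableAt ℝ u z := hu.differentiableAt (by simp)
  have d1 : DifferentiableAt ℝ (cu fun w => φ' (u w)) z :=
    Complex.ofRealCLM.differentiableAt.comp z (h2.differentiableAt.comp z hd0)
  have d3 : DifferentiableAt ℝ (wd (true, b) (cu u)) z :=
    (contDiffAt_wd (contDiffAt_cu hu) _).differentiableAt (by simp)
  rw [hess_apply, wd_congr e1, wd_mul d1 d3, wd_comp_real (φ := φ') (false, a) hd0 h2, hess_apply]
  simp only [cu]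
  ring

/-- `∂_a ∂_{b̄} log (U + δ)` -/
theorem hess_log_add {U : Cn n → ℝ} {z : Cn n} (δ : ℝ) (hU : ContDiffAt ℝ ∞ U z)
    (hp : 0 < U z + δ) (a b : Fin n) :
    hess (fun w => Real.log (U w + δ)) z a b = ((U z + δ)⁻¹ : ℝ) * hess U z a b -
      (((U z + δ) ^ 2)⁻¹ : ℝ) * (wd (false, a) (cu U) z * wd (true, b) (cu U) z) := by
  have h1 : ∀ᶠ s in 𝓝 (U z), HasDerivAt (fun s => Real.log (s + δ)) ((s + δ)⁻¹) s := by
    have : ∀ᶠ s in 𝓝 (U z), 0 < s + δ :=
      (continuous_id.add continuous_const).continuousAt.eventually (lt_mem_nhds hp)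
    filter_upwards [this] with s hs
    have h := ((hasDerivAt_id s).add_const δ).log hs.ne'
    simpa using h
  have h2 : HasDerivAt (fun s : ℝ => (s + δ)⁻¹) (-((U z + δ) ^ 2)⁻¹) (U z) := by
    have h := ((hasDerivAt_id (U z)).add_const δ).inv hp.ne'
    have e : -((U z + δ) ^ 2)⁻¹ = -1 / (id (U z) + δ) ^ 2 := by
      simp only [id, neg_div, one_div]
    rw [e]
    exact h
  rw [hess_comp_real (φ := fun s => Real.log (s + δ)) (φ' := fun s => (s + δ)⁻¹) hU h1 h2]
  push_cast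
  ring

/-- `∂u` as a vector -/
def gr (u : Cn n → ℝ) (z : Cn n) : Fin n → ℂ := fun a => wd (false, a) (cu u) z

theorem star_gr {u : Cn n → ℝ} {z : Cn n} (hu : DifferentiableAt ℝ u z) (b : Fin n) :
    star (gr u z) b = wd (true, b) (cu u) z := by
  show conj (wd (false, b) (cu u) z) = _
  rw [conj_wd_real _ hu]
  rfl

theorem hess_log_add_mat {U : Cn n → ℝ} {z : Cn n} (δ : ℝ) (hU : ContDiffAt ℝ ∞ U z)
    (hp : 0 < U z + δ) :
    hess (fun w => Real.log (U w + δ)) z = ((U z + δ)⁻¹ : ℝ) • hess U z -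
      (((U z + δ) ^ 2)⁻¹ : ℝ) • Matrix.vecMulVec (gr U z) (star (gr U z)) := by
  ext a b
  rw [hess_log_add δ hU hp, Matrix.sub_apply, Matrix.smul_apply, Matrix.smul_apply,
    Matrix.vecMulVec_apply, star_gr (hU.differentiableAt (by simp))]
  simp only [gr, Complex.real_smul]

/-- comparison of `∂∂̄ log (U+δ)` with `∂∂̄ log U` -/
theorem hess_log_cmp {U : Cn n → ℝ} {z : Cn n} {δ : ℝ} (hδ : 0 ≤ δ) (hU : ContDiffAt ℝ ∞ U z)
    (hp : 0 < U z) :
    hess (fun w => Real.log (U w + δ)) z = (U z / (U z + δ) : ℝ) • hess (fun w => Real.log (U w)) z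
      + (δ / (U z * (U z + δ) ^ 2) : ℝ) • Matrix.vecMulVec (gr U z) (star (gr U z)) := by
  have hp' : 0 < U z + δ := by positivity
  have h0 := hess_log_add_mat 0 hU (by simpa using hp)
  simp only [add_zero] at h0
  rw [hess_log_add_mat δ hU hp', h0, smul_sub, smul_smul, smul_smul, sub_add, ← sub_smul]
  congr 2
  · field_simp
  · field_simp
    ring

/-! ### linear algebra -/

theorem exists_sq {S : Matrix (Fin n) (Fin n) ℂ} (hS : S.PosSemidef) :
    ∃ B : Matrix (Fin n) (Fin n) ℂ, S = Bᴴ * B := by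
  open scoped MatrixOrder in
  exact CStarAlgebra.nonneg_iff_eq_star_mul_self.mp hS.nonneg

theorem tr_nonneg {G S : Matrix (Fin n) (Fin n) ℂ} (hG : G.PosDef) (hS : S.PosSemidef) :
    0 ≤ (G⁻¹ * S).trace := by
  obtain ⟨B, hB⟩ := exists_sq hG.inv.posSemidef
  rw [hB, Matrix.mul_assoc, Matrix.trace_mul_comm]
  exact (hS.mul_mul_conjTranspose_same B).trace_nonneg

theorem tr_re_nonneg {G S : Matrix (Fin n) (Fin n) ℂ} (hG : G.PosDef) (hS : S.PosSemidef) :
    0 ≤ ((G⁻¹ * S).trace).re := (Complex.le_def.1 (tr_nonneg hG hS)).1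

theorem tr_self {G : Matrix (Fin n) (Fin n) ℂ} (hG : G.PosDef) : (G⁻¹ * G).trace = n := by
  rw [Matrix.nonsing_inv_mul _ ((Matrix.isUnit_iff_isUnit_det _).1 hG.isUnit), Matrix.trace_one,
    Fintype.card_fin]

end

end Crest.Agent.R273.FIa0_597
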