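import Crest.Agent.R273.Wdg_578
import Crest.Agent.R273.Fock_243
import Crest.Agent.R273.Kah_333

/-!
# R273 (S0416), leaf D.14 (helper578): null holomorphic polyvectors

* `PV N q`      : holomorphic `q`-vectors with values in the line bundle `N`
* `NV N h q`    : those which are null for the curvature of `h : HM L'` (any line bundle `L'`)
* `NV_mid`      : `NV N (mid h h') q = NV N h q ⊓ NV N h' q` (semipositive `h`, `h'` on one bundle)
* `NV_indep`    : if all `NV N h q` (`h` semipositive on `L'`) have the same finite dimension, then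
                  they are equal
* `wdgS`, `NV.wdg` : wedge product `NV N h q × NV N' h' q' → NV (N * N') h'' (q + q')`
-/

set_option autoImplicit false
set_option linter.unusedSectionVars false

open Set Filter Topology Complex Matrix
open scoped ContDiff Matrix ComplexConjugate Manifold ComplexOrder

namespace Crest.Agent.R273.NV_578

open Crest.Agent.R275.Geo Crest.Agent.R275.Core144 Crest.Agent.R275.Kos798
open Crest.Agent.R273.Defs_333 Crest.Agent.R273.HM_333 Crest.Agent.R273.Kah_333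
open Crest.Agent.R273.Hess_333 Crest.Agent.R273.HessB_333
open Crest.Agent.R273.Fock_243 (FI Gam eW iW ep)
open Crest.Agent.R273.Wdg_578

noncomputable section

variable {n : ℕ} {M : Type} [TopologicalSpace M] {A : Atl n M} {L L' L'' : LB A}

/-- holomorphic `q`-vectors with values in `N` -/
def PV (N : LB A) (q : ℕ) : Submodule ℂ (A.ι → M → FI n → ℂ) where
  carrier := {v | (∀ i T, HolAt A i univ (fun x => v i x T)) ∧
    (∀ i, ∀ x ∉ (A.e i).source, v i x = 0) ∧ (∀ i x T, T.card ≠ q → v i x T = 0) ∧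
    ∀ i j, ∀ x ∈ (A.e i).source ∩ (A.e j).source,
      v i x = N.g i j x • (Gam (Jm A j i x) *ᵥ v j x)}
  add_mem' := by
    rintro u v ⟨h1, h2, h3, h4⟩ ⟨k1, k2, k3, k4⟩
    refine ⟨fun i T => (h1 i T).add (k1 i T), fun i x hx => ?_, fun i x T hT => ?_,
      fun i j x hx => ?_⟩
    · simp [h2 i x hx, k2 i x hx]
    · simp [h3 i x T hT, k3 i x T hT]
    · simp only [Pi.add_apply, h4 i j x hx, k4 i j x hx, Matrix.mulVec_add, smul_add]
  zero_mem' := ⟨fun i T => holAt_const 0, fun _ _ _ => rfl, fun _ _ _ _ => rfl,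
    fun _ _ _ _ => by simp⟩
  smul_mem' := by
    rintro c u ⟨h1, h2, h3, h4⟩
    refine ⟨fun i T => (h1 i T).const_mul c, fun i x hx => ?_, fun i x T hT => ?_,
      fun i j x hx => ?_⟩
    · simp [h2 i x hx]
    · simp [h3 i x T hT]
    · simp only [Pi.smul_apply, h4 i j x hx, Matrix.mulVec_smul]
      rw [smul_comm]

/-- families of vectors which are null for the curvature of `h` -/
def NulS (h : HM L') : Submodule ℂ (A.ι → M → FI n → ℂ) where
  carrier := {v | ∀ i, ∀ x ∈ (A.e i).source, Nul (cur h i x) (v i x)}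
  add_mem' hu hv i x hx := (hu i x hx).add (hv i x hx)
  zero_mem' := fun _ _ _ => fun _ => ii_zero_right _
  smul_mem' c _ hu i x hx := (hu i x hx).smul c

/-- null holomorphic `q`-vectors with values in `N` -/
def NV (N : LB A) (h : HM L') (q : ℕ) : Submodule ℂ (A.ι → M → FI n → ℂ) := PV N q ⊓ NulS h

theorem mem_NulS {h : HM L'} {v : A.ι → M → FI n → ℂ} :
    v ∈ NulS h ↔ ∀ i, ∀ x ∈ (A.e i).source, ∀ c, ∑ d, cur h i x d c • (iW (ep d) *ᵥ v i x) = 0 := by
  refine forall_congr' fun i => forall_congr' fun x => forall_congr' fun _ => ?_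
  rw [nul_iff]
  refine forall_congr' fun c => ?_
  simp only [ii_eq]
  rfl

/-! ### independence of the metric -/

/-- the geometric mean of two metrics -/
def mid (h h' : HM L') : HM L' where
  w i x := Real.sqrt (h.w i x * h'.w i x)
  pos i x hx := Real.sqrt_pos.2 (mul_pos (h.pos i x hx) (h'.pos i x hx))
  sm i := by
    have h1 : ContDiffOn ℝ ∞ (fun z => h.w i ((A.e i).symm z) * h'.w i ((A.e i).symm z))
        (A.e i).target := (h.sm i).mul (h'.sm i)
    exact h1.sqrt fun z hz => (mul_pos (h.pos i _ ((A.e i).map_target hz))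
      (h'.pos i _ ((A.e i).map_target hz))).ne'
  tr i j x hx := by
    rw [h.tr i j x hx, h'.tr i j x hx]
    have : ‖L'.g i j x‖ ^ 2 * h.w i x * (‖L'.g i j x‖ ^ 2 * h'.w i x) =
        (‖L'.g i j x‖ ^ 2) ^ 2 * (h.w i x * h'.w i x) := by ring
    rw [this, Real.sqrt_mul (by positivity), Real.sqrt_sq (by positivity)]

theorem wt_mid (h h' : HM L') (i : A.ι) {z : Cn n} (hz : z ∈ (A.e i).target) :
    (mid h h').wt i z = (1 / 2) * (h.wt i z + h'.wt i z) := by
  have h1 := (A.e i).map_target hz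
  simp only [HM.wt, mid]
  rw [Real.log_sqrt (mul_pos (h.pos i _ h1) (h'.pos i _ h1)).le,
    Real.log_mul (h.pos i _ h1).ne' (h'.pos i _ h1).ne']
  ring

theorem cur_mid (h h' : HM L') (i : A.ι) {x : M} (hx : x ∈ (A.e i).source) :
    cur (mid h h') i x = (1 / 2 : ℂ) • (cur h i x + cur h' i x) := by
  have hz := (A.e i).map_source hx
  unfold cur
  have h1 : (mid h h').wt i =ᶠ[𝓝 (A.e i x)] fun w => (1 / 2 : ℝ) * (h.wt i w + h'.wt i w) := by
    filter_upwards [(A.e i).open_target.mem_nhds hz] with w hw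
    exact wt_mid h h' i hw
  rw [hess_congr h1, hess_const_mul _ ((wt_contDiffAt h i hz).add (wt_contDiffAt h' i hz)),
    hess_add (wt_contDiffAt h i hz) (wt_contDiffAt h' i hz)]
  norm_num

theorem mid_semipos {h h' : HM L'} (hp : h.Semipos) (hp' : h'.Semipos) : (mid h h').Semipos := by
  refine semipos_of_cur fun i x hx => ?_
  rw [cur_mid h h' i hx]
  have h1 := (cur_posSemidef hp i hx).add (cur_posSemidef hp' i hx)
  have h2 : (0 : ℂ) ≤ 1 / 2 := by
    rw [show (1 / 2 : ℂ) = ((1 / 2 : ℝ) : ℂ) by norm_num]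
    exact_mod_cast (by norm_num : (0 : ℝ) ≤ 1 / 2)
  exact h1.smul h2

theorem NV_mid {h h' : HM L'} (hp : h.Semipos) (hp' : h'.Semipos) (N : LB A) (q : ℕ) :
    NV N (mid h h') q = NV N h q ⊓ NV N h' q := by
  ext v
  constructor
  · rintro ⟨h1, h2⟩
    have h3 : ∀ i, ∀ x ∈ (A.e i).source, Nul (cur h i x) (v i x) ∧ Nul (cur h' i x) (v i x) := by
      intro i x hx
      have h4 := h2 i x hx
      rw [cur_mid h h' i hx] at h4
      exact Nul.of_add (cur_posSemidef hp i hx) (cur_posSemidef hp' i hx)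
        (h4.of_smul (by norm_num))
    exact ⟨⟨h1, fun i x hx => (h3 i x hx).1⟩, ⟨h1, fun i x hx => (h3 i x hx).2⟩⟩
  · rintro ⟨⟨h1, h2⟩, ⟨_, h3⟩⟩
    refine ⟨h1, fun i x hx => ?_⟩
    rw [cur_mid h h' i hx]
    exact ((h2 i x hx).add_form (h3 i x hx)).smul_form _

/-- independence of the metric -/
theorem NV_indep {N : LB A} {q d : ℕ}
    (H : ∀ h : HM L', h.Semipos → FiniteDimensional ℂ (NV N h q) ∧
      Module.finrank ℂ (NV N h q) = d)
    {h h' : HM L'} (hp : h.Semipos) (hp' : h'.Semipos) : NV N h q = NV N h' q := by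
  have h1 : NV N (mid h h') q ≤ NV N h q := by
    rw [NV_mid hp hp']; exact inf_le_left
  have h2 : NV N (mid h h') q ≤ NV N h' q := by
    rw [NV_mid hp hp']; exact inf_le_right
  have hm := mid_semipos hp hp'
  have := (H h hp).1
  have := (H h' hp').1
  have e1 := Submodule.eq_of_le_of_finrank_eq h1 (by rw [(H _ hm).2, (H _ hp).2])
  have e2 := Submodule.eq_of_le_of_finrank_eq h2 (by rw [(H _ hm).2, (H _ hp').2])
  rw [← e1, e2]

/-! ### wedge products -/

/-- wedge product of families -/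
def wdgS (v w : A.ι → M → FI n → ℂ) : A.ι → M → FI n → ℂ := fun i x => wdg (v i x) (w i x)

theorem Gam_wdg (J : Matrix (Fin n) (Fin n) ℂ) (v w : FI n → ℂ) :
    Gam J *ᵥ wdg v w = wdg (Gam J *ᵥ v) (Gam J *ᵥ w) := by
  have h0 : (Gam J).mulVecLin vac = vac := by
    rw [Matrix.mulVecLin_apply]
    ext S
    have := Fock_243.Gam_vac J S
    unfold vac
    rw [Matrix.mulVec_single_one]
    simp only [Matrix.col_apply]
    rw [this]
    simp [Pi.single_apply]
  have he : ∀ (s : Fin n → ℂ) (f : Fk n ℂ), (Gam J).mulVecLin (ee s f) =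
      ee (J *ᵥ s) ((Gam J).mulVecLin f) := by
    intro s f
    rw [ee_eq, ee_eq, Matrix.mulVecLin_apply, Matrix.mulVecLin_apply, Matrix.mulVec_mulVec,
      Matrix.mulVec_mulVec]
    have := Fock_243.Gam_eW J s
    unfold eW at this
    rw [this]
  have := wdg_map h0 he v w
  simpa using this

theorem PV.wdg {N N' : LB A} {q q' : ℕ} {v w : A.ι → M → FI n → ℂ} (hv : v ∈ PV N q)
    (hw : w ∈ PV N' q') : wdgS v w ∈ PV (N * N') (q + q') := by
  obtain ⟨h1, h2, h3, h4⟩ := hv
  obtain ⟨k1, k2, k3, k4⟩ := hw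
  refine ⟨fun i T => ?_, fun i x hx => ?_, fun i x T hT => ?_, fun i j x hx => ?_⟩
  · unfold wdgS Wdg_578.wdg
    refine HolAt.sum _ fun S _ => ?_
    have := ((h1 i S).mul (k1 i (T \ S))).const_mul (eps ℂ S (T \ S))
    refine this.congr fun x _ _ => ?_
    ring
  · unfold wdgS
    rw [h2 i x hx, wdg_zero_left]
  · exact Dg.wdg (fun T hT => h3 i x T hT) (fun T hT => k3 i x T hT) T hT
  · unfold wdgS
    rw [h4 i j x hx, k4 i j x hx, wdg_smul_left, wdg_smul_right, Gam_wdg, smul_smul]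
    rfl

/-- wedge products of null vectors are null -/
theorem NV.wdg {N N' : LB A} {h : HM L} {h' : HM L'} {h'' : HM L''} {q q' : ℕ}
    (H : ∀ i, ∀ x ∈ (A.e i).source, ∃ r r' : ℂ, cur h'' i x = r • cur h i x ∧
      cur h'' i x = r' • cur h' i x)
    {v w : A.ι → M → FI n → ℂ} (hv : v ∈ NV N h q) (hw : w ∈ NV N' h' q') :
    wdgS v w ∈ NV (N * N') h'' (q + q') := by
  refine ⟨PV.wdg hv.1 hw.1, fun i x hx => ?_⟩
  obtain ⟨r, r', e, e'⟩ := H i x hx
  refine Nul.wdg ?_ ?_
  · rw [e]; exact (hv.2 i x hx).smul_form r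
  · rw [e']; exact (hw.2 i x hx).smul_form r'

end

end Crest.Agent.R273.NV_578
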