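import Crest.Agent.R273.DMet_733
import Crest.Agent.R273.BKNa_37
import Crest.Agent.R273.NV_578

/-!
# R273 (S0416), Part D, leaf D.6 (helper733), part 3: the operators

* `pr_low_cj`  : `pr (DN N) P (low v) (cj w) = intD P (ip h K v w)`;
* `oB_nab`, `nab_low` : `∇ (low v) = du v`;
* `dlt h : MV N →ₗ[ℂ] MV N`, `dlt_apply` : `= del (log w) v`, `nab_cj : ∇ (cj w) = - cj (dlt w)`;
* `adj` : `⟨∇ low v, w⟩ = - ⟨low v, dlt w⟩`.
-/

set_option autoImplicit false
set_option linter.unusedSectionVars false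

open Set Filter Topology Complex
open scoped ContDiff Matrix ComplexConjugate ComplexOrder Kronecker

namespace Crest.Agent.R273.DMetB_733

open Crest.Agent.R275 Crest.Agent.R275.Geo Crest.Agent.R275.Core144
open Crest.Agent.R273.Defs_333 Crest.Agent.R273.Kah_333
open Crest.Agent.R273.Fock_243 Crest.Agent.R273.Calc_243 Crest.Agent.R273.Bkn_243
open Crest.Agent.R273.DVec_733 Crest.Agent.R273.LamN127 Crest.Agent.R273.Berezin_505
open Crest.Agent.R273.DMet_733

noncomputable section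

variable {n : ℕ} {M : Type} [TopologicalSpace M] {A : Atl n M}

/-! ### the operator of `BN N` in a chart -/

theorem BN_e (N : LB A) (a : Fin n) : (BN N).e a = kB N N (eW (ep a)) 1 := by
  show eW (ep a) ⊗ₖ (1 : Matrix Unit Unit ℂ) = eW (ep a) ⊗ₖ (Matrix.of fun _ _ => 1)
  congr 1

theorem oB_sum {N : LB A} {σ : Type*} (s : Finset σ) (f : σ → (BN N).κ → ℂ) :
    oB (∑ a ∈ s, f a) = ∑ a ∈ s, oB (f a) := by
  classical
  induction s using Finset.induction_on with
  | empty => rfl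
  | insert a s ha ih => rw [Finset.sum_insert ha, Finset.sum_insert ha, oB_add, ih]

theorem oB_nab {N : LB A} {u : A.ι → M → (BN N).κ → ℂ} (hu : ∀ i k, A.SmAt i (fun x => u i x k))
    {i : A.ι} {x : M} (hx : x ∈ (A.e i).source) :
    oB (nab (BN N) u i x) =
      ∑ k, eW (ep k) *ᵥ dV I k (fun z => oB (u i ((A.e i).symm z))) (A.e i x) := by
  have hz : A.e i x ∈ (A.e i).target := (A.e i).map_source hx
  have hd : DifferentiableAt ℝ (fun z => u i ((A.e i).symm z)) (A.e i x) :=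
    differentiableAt_pi.2 fun k => ((smAt_iff.1 (hu i k)) _ hz).diff
  rw [nab_apply (BN N) hx, BN_α N i x hx, Matrix.zero_mulVec, add_zero]
  have h1 : ∀ a, (BN N).e a *ᵥ A.db i a (u i) x =
      iB N (eW (ep a) *ᵥ dV I a (fun z => oB (u i ((A.e i).symm z))) (A.e i x)) := by
    intro a
    have h2 : A.db i a (u i) x = iB N (dV I a (fun z => oB (u i ((A.e i).symm z))) (A.e i x)) := by
      funext ⟨T, ⟨⟩⟩
      exact dbj_pi hd a (T, ())
    rw [h2, BN_e, kB_iB, one_smul]
  simp only [h1]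
  rw [oB_sum]
  rfl

/-- `∇` of a lowered multivector -/
theorem nab_low (K : Kah A) {N : LB A} (v : MV N) {i : A.ι} {x : M} (hx : x ∈ (A.e i).source) :
    oB ((nabL (BN N) (low K N v)).1 i x) =
      du (fun z => (K.g i ((A.e i).symm z))ᵀ) (fun z => v.1 i ((A.e i).symm z)) (A.e i x) :=
  oB_nab (low K N v).2.1 hx

/-! ### the divergence -/

section dlt

variable {N : LB A} (h : HM ((KB A)⁻¹ * N))

/-- the weighted divergence -/
def dlt : MV N →ₗ[ℂ] MV N where
  toFun v := (cj h).symm (-(nabL (BN (KB A * N⁻¹)) (cj h v)))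
  map_add' v w := by simp only [map_add, neg_add]
  map_smul' c v := by
    simp only [map_smulₛₗ, map_neg, smul_neg, conj_conj, RingHom.id_apply]

theorem nab_cj (v : MV N) :
    nabL (BN (KB A * N⁻¹)) (cj h v) = -(cj h (dlt h v)) := by
  show _ = -(cj h ((cj h).symm (-(nabL (BN (KB A * N⁻¹)) (cj h v)))))
  rw [LinearEquiv.apply_symm_apply, neg_neg]

/-- the logarithm of the weight -/
def lamw (i : A.ι) : Cn n → ℂ := fun z => ((-(h.wt i z) : ℝ) : ℂ)

theorem lamw_sm {i : A.ι} {z : Cn n} (hz : z ∈ (A.e i).target) : Sm z (lamw h i) := by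
  have h1 : ContDiffAt ℝ ∞ (fun z => h.w i ((A.e i).symm z)) z :=
    (h.sm i).contDiffAt ((A.e i).open_target.mem_nhds hz)
  have h2 : h.w i ((A.e i).symm z) ≠ 0 := (h.pos i _ ((A.e i).map_target hz)).ne'
  have h3 : ContDiffAt ℝ ∞ (fun z => -(h.wt i z)) z := by
    unfold HM.wt
    simp only [neg_neg]
    exact h1.log h2
  exact ofRealCLM.contDiff.contDiffAt.comp z h3

theorem exp_lamw {i : A.ι} {z : Cn n} (hz : z ∈ (A.e i).target) :
    Complex.exp (lamw h i z) = (h.w i ((A.e i).symm z) : ℂ) := by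
  unfold lamw HM.wt
  rw [neg_neg, ← Complex.ofReal_exp, Real.exp_log (h.pos i _ ((A.e i).map_target hz))]

theorem dlt_apply (v : MV N) {i : A.ι} {x : M} (hx : x ∈ (A.e i).source) :
    (dlt h v).1 i x = del (lamw h i) (fun z => v.1 i ((A.e i).symm z)) (A.e i x) := by
  have hz : A.e i x ∈ (A.e i).target := (A.e i).map_source hx
  have hw := w_ne h i hx
  have hv : SmV (A.e i x) (fun z => v.1 i ((A.e i).symm z)) := fun T => smAt_iff.1 (v.2.1 i T) _ hz
  show star (((h.w i x : ℂ))⁻¹ • (Sb ℂ n *ᵥ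
    oB ((-(nabL (BN (KB A * N⁻¹)) (cj h v))).1 i x))) = _
  have h0 : oB ((-(nabL (BN (KB A * N⁻¹)) (cj h v))).1 i x) =
      -(∑ k, eW (ep k) *ᵥ dV I k (fun z => Sbi ℂ n *ᵥ
        ((h.w i ((A.e i).symm z) : ℂ) • star (v.1 i ((A.e i).symm z)))) (A.e i x)) := by
    have h1 := oB_nab (cj h v).2.1 hx
    have h2 : oB ((-(nabL (BN (KB A * N⁻¹)) (cj h v))).1 i x) =
      -(oB (nab (BN (KB A * N⁻¹)) (cj h v).1 i x)) := rfl
    rw [h2, h1]
    rfl
  have hwS : Sm (A.e i x) (fun z => (h.w i ((A.e i).symm z) : ℂ)) :=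
    smAt_iff.1 (smAt_ofReal (h.sm i)) _ hz
  have hvs : SmV (A.e i x) (fun z => star (v.1 i ((A.e i).symm z))) := SmV.star hv
  have e1 : ∀ k, dV I k (fun z => Sbi ℂ n *ᵥ
        ((h.w i ((A.e i).symm z) : ℂ) • star (v.1 i ((A.e i).symm z)))) (A.e i x) =
      Sbi ℂ n *ᵥ ((h.w i x : ℂ) • star (dV (-I) k (fun z => v.1 i ((A.e i).symm z)) (A.e i x) +
        dS (-I) k (lamw h i) (A.e i x) • v.1 i x)) := by
    intro k
    have e2 : SmV (A.e i x) (fun z => (h.w i ((A.e i).symm z) : ℂ) •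
        star (v.1 i ((A.e i).symm z))) := fun T => hwS.mul (hvs T)
    rw [dV_const_mulVec (Sbi ℂ n) (v := fun z => (h.w i ((A.e i).symm z) : ℂ) •
      star (v.1 i ((A.e i).symm z))) (fun T => (e2 T).diff),
      dV_smul hwS.diff (fun T => (hvs T).diff), dV_conj (fun T => (hv T).diff)]
    have e3 : conj I = -I := Complex.conj_I
    have e4 : dS I k (fun z => (h.w i ((A.e i).symm z) : ℂ)) (A.e i x) =
        (h.w i x : ℂ) * conj (dS (-I) k (lamw h i) (A.e i x)) := by
      have e5 : (fun z => (h.w i ((A.e i).symm z) : ℂ)) =ᶠ[𝓝 (A.e i x)]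
          fun z => Complex.exp (lamw h i z) := by
        filter_upwards [(A.e i).open_target.mem_nhds hz] with z hz'
        exact (exp_lamw h hz').symm
      rw [dS_congr e5, dS_exp (lamw_sm h hz).diff, exp_lamw h hz, (A.e i).left_inv hx]
      congr 1
      have e6 := dS_conj (s := I) (a := k) (lamw_sm h hz).diff
      rw [Complex.conj_I] at e6
      rw [← e6]
      congr 1
      funext z
      exact (Complex.conj_ofReal _).symm
    rw [e3, e4, (A.e i).left_inv hx]
    congr 1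
    rw [star_add, star_smul', smul_add, smul_smul, add_comm]
  rw [h0]
  simp only [e1]
  have e7 : ∀ k (a : FI n → ℂ), eW (ep k) *ᵥ (Sbi ℂ n *ᵥ a) = -(Sbi ℂ n *ᵥ (iW (ep k) *ᵥ a)) := by
    intro k a
    have h1 := Sbi_skew (R := ℂ) (ep k : Fin n → ℂ) 0
    have h2 : (Crest.Agent.R275.Kos798.K (ep k : Fin n → ℂ) (0 : Fin n → ℂ))ᵀ = iW (ep k) :=
      eW_transpose (ep k)
    have h3 : eW (ep k) * Sbi ℂ n = -(Sbi ℂ n * iW (ep k)) := by
      rw [h2] at h1
      exact eq_neg_of_add_eq_zero_right h1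
    rw [Matrix.mulVec_mulVec, h3, Matrix.neg_mulVec, Matrix.mulVec_mulVec]
  simp only [e7, Finset.sum_neg_distrib, neg_neg]
  rw [← Matrix.mulVec_sum, Matrix.mulVec_mulVec, Sb_mul_Sbi, Matrix.one_mulVec]
  have e8 : ∀ (k : Fin n) (a : FI n → ℂ), iW (ep k) *ᵥ ((h.w i x : ℂ) • star a) =
      (h.w i x : ℂ) • star (iW (ep k) *ᵥ a) := by
    intro k a
    rw [Matrix.mulVec_smul, star_iW]
  simp only [e8]
  rw [← Finset.smul_sum, smul_smul, inv_mul_cancel₀ hw, one_smul, star_sum]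
  simp only [star_star]
  unfold del
  simp only [(A.e i).left_inv hx]

/-! ### pairing and adjointness -/

variable [T2Space M] [CompactSpace M]

theorem pr_low_cj (K : Kah A) (P : Part A) (v w : MV N) :
    Pai323.pr (DN N) P (low K N v) (cj h w) = StokesV_332.intD P (ip h K v.1 w.1) := by
  rw [StokesV_332.pr_eq_intD]
  congr 1
  funext i x
  exact dn_low_cj h K v w i x

theorem adj (K : Kah A) (P : Part A) (v w : MV N) :
    Pai323.pr (DN N) P (nabL (BN N) (low K N v)) (cj h w) =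
      -(Pai323.pr (DN N) P (low K N v) (cj h (dlt h w))) := by
  rw [Pai323.pr_nab, nab_cj, map_neg]

end dlt

/-! ### degrees -/

section degree

variable {N : LB A} (h : HM ((KB A)⁻¹ * N))

theorem Sbi_degree {S T : FI n} (hne : Sbi ℂ n S T ≠ 0) : S.card + T.card = n := by
  by_contra hc
  apply hne
  unfold Sbi
  rw [Matrix.smul_apply]
  have : Sb ℂ n S T = 0 := by
    by_contra h0
    exact hc (Sb_degree h0)
  rw [this, smul_zero]

theorem cj_pq {q : ℕ} (hq : q ≤ n) (v : MV N) :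
    cj h (pqM N q v) = Geo.pqL (BN (KB A * N⁻¹)) (n - q) (cj h v) := by
  apply Subtype.ext
  funext i x ⟨T, ⟨⟩⟩
  have h1 : (Geo.pqL (BN (KB A * N⁻¹)) (n - q) (cj h v)).1 i x (T, ()) =
      if T.card = n - q then (cj h v).1 i x (T, ()) else 0 :=
    IndLink509.pqL_apply (BN (KB A * N⁻¹)) (n - q) (cj h v) i x (T, ())
  rw [h1]
  show ∑ S, Sbi ℂ n T S * ((h.w i x : ℂ) * conj (if S.card = q then v.1 i x S else (0 : ℂ))) =
    if T.card = n - q then ∑ S, Sbi ℂ n T S * ((h.w i x : ℂ) * conj (v.1 i x S)) else 0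
  split_ifs with hT
  · refine Finset.sum_congr rfl fun S _ => ?_
    by_cases h' : S.card = q
    · rw [if_pos h']
    · rw [if_neg h']
      have : Sbi ℂ n T S = 0 := by
        by_contra h0
        have := Sbi_degree h0
        omega
      rw [this, zero_mul, zero_mul]
  · refine Finset.sum_eq_zero fun S _ => ?_
    by_cases h' : S.card = q
    · have : Sbi ℂ n T S = 0 := by
        by_contra h0
        have := Sbi_degree h0
        omega
      rw [this, zero_mul]
    · rw [if_neg h', map_zero, mul_zero, mul_zero]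

end degree

/-! ### bridges -/

/-- elements of `MV N` are helper37's `IsV` -/
theorem isV {N : LB A} (v : MV N) : BKNa_37.IsV N v.1 where
  sm := v.2.1
  tr i j x hx := by
    rw [v.2.2.2 i j x hx]
    unfold Tv
    rw [Matrix.smul_mulVec]

/-- helper37's `IsV` vanishing off the sources is `MV` -/
theorem mem_MV {N : LB A} {v : A.ι → M → FI n → ℂ} (hv : BKNa_37.IsV N v)
    (h0 : ∀ i, ∀ x ∉ (A.e i).source, v i x = 0) : v ∈ MV N := by
  refine ⟨hv.sm, h0, fun i j x hx => ?_⟩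
  rw [hv.tr i j x hx]
  unfold Tv
  rw [Matrix.smul_mulVec]

theorem dlt_eq_delV {N : LB A} (h : HM ((KB A)⁻¹ * N)) (v : MV N) {i : A.ι} {x : M}
    (hx : x ∈ (A.e i).source) : (dlt h v).1 i x = BKNa_37.delV h v.1 i x := by
  rw [dlt_apply h v hx, BKNa_37.delV_eq h v.2.1 i hx]
  rfl

theorem nab_low_eq_duV (K : Kah A) {N : LB A} (v : MV N) {i : A.ι} {x : M}
    (hx : x ∈ (A.e i).source) : oB ((nabL (BN N) (low K N v)).1 i x) = BKNa_37.duV K v.1 i x := by
  rw [nab_low K v hx, BKNa_37.duV_eq]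
  rfl

/-- holomorphic polyvectors (helper578's `PV`) are smooth ones -/
theorem PV_le {N : LB A} {q : ℕ} {v : A.ι → M → FI n → ℂ} (hv : v ∈ NV_578.PV N q) :
    v ∈ MV N := by
  refine ⟨fun i T => ?_, hv.2.1, fun i j x hx => ?_⟩
  · have h1 := hv.1 i T
    refine (Crest.Agent.R275.Core144.HolAt.contDiffOn h1 isOpen_univ).mono fun z hz => ?_
    exact ⟨hz, mem_univ _⟩
  · rw [hv.2.2.2 i j x hx]
    unfold Tv
    rw [Matrix.smul_mulVec]

end

end Crest.Agent.R273.DMetB_733
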