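import Crest.Agent.R273.BKNd_37
import Crest.Agent.R273.DMetB_733
import Crest.Agent.R273.NV_578
import Crest.Agent.R275.GeoHol_912

/-!
# R273 (S0416), BP-D leaf D.8 (helper37), part 6: consequences in the language of `MV N`, `Sec (BN N)`

* `intD_eq_totc`, `ip_eq_inG`;
* `bkn_MV` : the integrated identity for `v w : MV N`;
* `mem_NV_of_closed` (a), `nab_low_zero`, `dlt_zero`, `nab_cj_zero` (b), `eq_zero_of_ip`,
  `eq_zero_of_exact` (c).
-/

set_option autoImplicit false
set_option linter.unusedSectionVars false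

open Set Filter Topology Complex Matrix MeasureTheory
open scoped ContDiff Matrix ComplexConjugate Manifold ComplexOrder

namespace Crest.Agent.R273.BKNe_37

open Crest.Agent.R275 Crest.Agent.R275.Geo Crest.Agent.R275.Core144
open Crest.Agent.R275.SerG398 (lint)
open Crest.Agent.R273.Defs_333 Crest.Agent.R273.Kah_333
open Crest.Agent.R273.Fock_243 Crest.Agent.R273.Calc_243 Crest.Agent.R273.Bkn_243
open Crest.Agent.R273.StV_37 Crest.Agent.R273.BKNa_37
open Crest.Agent.R273.BKNb_37 Crest.Agent.R273.BKNc_37 Crest.Agent.R273.BKNd_37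
open Crest.Agent.R273.DVec_733 Crest.Agent.R273.LamN127
open Crest.Agent.R273.DMet_733 Crest.Agent.R273.DMetB_733

noncomputable section

variable {n : ℕ} {M : Type} [TopologicalSpace M] {A : Atl n M} {N : LB A}

theorem ip_eq_inG (h : HM ((KB A)⁻¹ * N)) (K : Kah A) (v w : A.ι → M → FI n → ℂ) :
    ip h K v w = inG K h v w := rfl

/-! ### holomorphic and null polyvectors -/

/-- `∂̄ v = 0` in the charts -/
def HolV (v : A.ι → M → FI n → ℂ) : Prop :=
  ∀ i, ∀ x ∈ (A.e i).source, ∀ k, dbV v i k x = 0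

theorem holAt_of_db {i : A.ι} {f : M → ℂ} (hf : A.SmAt i f)
    (h : ∀ x ∈ (A.e i).source, ∀ k, A.db i k f x = 0) : HolAt A i univ f := by
  refine (GeoHol912.differentiableOn_of_dbj (A.e i).open_target hf fun z hz k => ?_).mono
    inter_subset_left
  have h1 := h _ ((A.e i).map_target hz) k
  unfold Atl.db at h1
  rwa [(A.e i).right_inv hz] at h1

theorem holV_iff {v : A.ι → M → FI n → ℂ} (hs : ∀ i T, A.SmAt i (fun x => v i x T)) :
    HolV v ↔ ∀ i T, HolAt A i univ (fun x => v i x T) := by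
  constructor
  · intro h i T
    refine holAt_of_db (hs i T) fun x hx k => ?_
    exact congrFun (h i x hx k) T
  · intro h i x hx k
    funext T
    exact (h i T).db_zero isOpen_univ hx (mem_univ x) k

/-- characterisation of `NV N h q` inside `MV N` -/
theorem mem_NV_iff {h : HM ((KB A)⁻¹ * N)} {q : ℕ} {v : MV N} (hq : pqM N q v = v) :
    v.1 ∈ NV_578.NV N h q ↔ HolV v.1 ∧ NullV h v.1 := by
  rw [NV_578.NV, Submodule.mem_inf, NV_578.mem_NulS]
  constructor
  · rintro ⟨h1, h2⟩
    exact ⟨(holV_iff v.2.1).2 h1.1, h2⟩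
  · rintro ⟨h1, h2⟩
    refine ⟨⟨(holV_iff v.2.1).1 h1, v.2.2.1, fun i x T hT => ?_, (isV v).tr⟩, h2⟩
    rw [← hq, pqM_apply, if_neg hT]

theorem pqM_of_PV {q : ℕ} {v : MV N} (hv : v.1 ∈ NV_578.PV N q) : pqM N q v = v := by
  apply Subtype.ext
  funext i x T
  rw [pqM_apply]
  split_ifs with h
  · rfl
  · exact (hv.2.2.1 i x T h).symm

section compact

variable [T2Space M] [CompactSpace M]

theorem intD_eq_totc (P : Part A) (f : A.ι → M → ℂ) : StokesV_332.intD P f = totc P f := by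
  unfold StokesV_332.intD totc tot
  refine finsum_eq_sum_of_support_subset _ fun i hi => ?_
  rw [Finset.mem_coe]
  by_contra hc
  apply hi
  have h1 : ∀ x, P.ψ i x = 0 := fun x => by
    by_contra h0
    exact hc (Pai323.mem_Fn P _ (mem_univ x) h0)
  show lint A i (fun x => (P.ψ i x : ℂ) * f i x) = 0
  simp only [h1, ofReal_zero, zero_mul]
  exact Pai323.lint_zero i

/-- the geometric inner product -/
theorem pr_low_cj' (h : HM ((KB A)⁻¹ * N)) (K : Kah A) (P : Part A) (v w : MV N) :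
    Pai323.pr (DN N) P (low K N v) (cj h w) = totc P (inG K h v.1 w.1) := by
  rw [pr_low_cj, intD_eq_totc, ip_eq_inG]

/-- the integrated identity for `MV` -/
theorem bkn_MV (P : Part A) (K : Kah A) (h : HM ((KB A)⁻¹ * N)) (v w : MV N) :
    totc P (inD K h v.1 w.1) + totc P (inT K h v.1 w.1)
      = totc P (inU K h v.1 w.1)
        + Pai323.pr (DN N) P (low K N (dlt h v)) (cj h (dlt h w)) := by
  rw [bknc P K h (isV v) (isV w), pr_low_cj']
  congr 1
  refine tot_congr P _ fun i _ x hx => ?_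
  unfold inG
  rw [dlt_eq_delV h v hx, dlt_eq_delV h w hx]

/-- (a) -/
theorem hol_null (P : Part A) (K : Kah A) {h : HM ((KB A)⁻¹ * N)} (hp : h.Semipos) {v : MV N}
    (h1 : nabL (BN N) (low K N v) = 0) (h2 : dlt h v = 0) : HolV v.1 ∧ NullV h v.1 := by
  refine hol_null_of_closed P K hp (isV v) (fun i x hx => ?_) fun i x hx => ?_
  · rw [← nab_low_eq_duV K v hx, h1]
    rfl
  · rw [← dlt_eq_delV h v hx, h2]
    rfl

/-- (a) in a fixed degree -/
theorem mem_NV_of_closed (P : Part A) (K : Kah A) {h : HM ((KB A)⁻¹ * N)} (hp : h.Semipos)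
    {v : MV N} {q : ℕ} (hq : pqM N q v = v) (h1 : nabL (BN N) (low K N v) = 0)
    (h2 : dlt h v = 0) : v.1 ∈ NV_578.NV N h q :=
  (mem_NV_iff hq).2 (hol_null P K hp h1 h2)

theorem sec_ext {u : Sec (BN N)} (h : ∀ i, ∀ x ∈ (A.e i).source, oB (u.1 i x) = 0) : u = 0 := by
  apply Subtype.ext
  funext i x
  by_cases hx : x ∈ (A.e i).source
  · funext p
    exact congrFun (h i x hx) p.1
  · exact u.2.2.1 i x hx

/-- (b1) `v` holomorphic implies that `low v` is closed -/
theorem nab_low_zero (K : Kah A) {v : MV N} (hh : HolV v.1) : nabL (BN N) (low K N v) = 0 :=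
  sec_ext fun i x hx => by
    rw [nab_low_eq_duV K v hx]
    exact duV_of_hol K v.2.1 hh i hx

/-- (b2) `v` holomorphic and null implies `δ v = 0` -/
theorem dlt_zero (P : Part A) (K : Kah A) {h : HM ((KB A)⁻¹ * N)} {v : MV N}
    (hh : HolV v.1) (hn : NullV h v.1) : dlt h v = 0 :=
  MV.ext fun i x hx => by
    rw [dlt_eq_delV h v hx, delV_of_hol_null P K (isV v) hh hn i hx]
    rfl

/-- (b3) `cj v` is closed -/
theorem nab_cj_zero (P : Part A) (K : Kah A) {h : HM ((KB A)⁻¹ * N)} {v : MV N}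
    (hh : HolV v.1) (hn : NullV h v.1) : nabL (BN (KB A * N⁻¹)) (cj h v) = 0 := by
  rw [nab_cj, dlt_zero P K hh hn, map_zero, neg_zero]

/-- (b) for elements of `NV N h q` -/
theorem closed_of_mem_NV (P : Part A) (K : Kah A) {h : HM ((KB A)⁻¹ * N)} {q : ℕ} {v : MV N}
    (hv : v.1 ∈ NV_578.NV N h q) : nabL (BN N) (low K N v) = 0 ∧ dlt h v = 0 ∧
      nabL (BN (KB A * N⁻¹)) (cj h v) = 0 := by
  have h1 := (mem_NV_iff (pqM_of_PV hv.1)).1 hv
  exact ⟨nab_low_zero K h1.1, dlt_zero P K h1.1 h1.2, nab_cj_zero P K h1.1 h1.2⟩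

/-- positivity of the geometric inner product -/
theorem pr_nonneg (h : HM ((KB A)⁻¹ * N)) (K : Kah A) (P : Part A) (v : MV N) :
    0 ≤ Pai323.pr (DN N) P (low K N v) (cj h v) := by
  rw [pr_low_cj']
  exact totc_nonneg P (inG_isD h (isV v) (isV v)) fun i x hx => inG_nonneg K h _ i hx

/-- definiteness of the geometric inner product -/
theorem eq_zero_of_pr (h : HM ((KB A)⁻¹ * N)) (K : Kah A) (P : Part A) {v : MV N}
    (h0 : Pai323.pr (DN N) P (low K N v) (cj h v) = 0) : v = 0 := by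
  rw [pr_low_cj'] at h0
  refine MV.ext fun i x hx => ?_
  exact inG_eq_zero hx (totc_eq_zero P (inG_isD h (isV v) (isV v))
    (fun i x hx => inG_nonneg K h _ i hx) h0 i hx)

/-- (c) an exact holomorphic null polyvector vanishes -/
theorem eq_zero_of_exact (P : Part A) (K : Kah A) {h : HM ((KB A)⁻¹ * N)} {v : MV N}
    (hh : HolV v.1) (hn : NullV h v.1) {y : Sec (BN N)} (hy : nabL (BN N) y = low K N v) :
    v = 0 := by
  refine eq_zero_of_pr h K P ?_
  rw [← hy, Pai323.pr_nab, nab_cj_zero P K hh hn, map_zero]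

/-- pairing of an exact section with `cj w`, `w` holomorphic and null -/
theorem pr_exact (P : Part A) (K : Kah A) {h : HM ((KB A)⁻¹ * N)} {w : MV N}
    (hh : HolV w.1) (hn : NullV h w.1) (y : Sec (BN N)) :
    Pai323.pr (DN N) P (nabL (BN N) y) (cj h w) = 0 := by
  rw [Pai323.pr_nab, nab_cj_zero P K hh hn, map_zero]

/-- the two inequalities of BKN for `MV` -/
theorem bkn_le_MV (P : Part A) (K : Kah A) {h : HM ((KB A)⁻¹ * N)} (hp : h.Semipos) (v : MV N) :
    totc P (inD K h v.1 v.1) ≤ totc P (inU K h v.1 v.1)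
        + Pai323.pr (DN N) P (low K N (dlt h v)) (cj h (dlt h v)) ∧
    totc P (inT K h v.1 v.1) ≤ totc P (inU K h v.1 v.1)
        + Pai323.pr (DN N) P (low K N (dlt h v)) (cj h (dlt h v)) := by
  rw [← bkn_MV]
  exact ⟨le_add_of_nonneg_right (totc_nonneg P (inT_isD h (isV v) (isV v))
      fun i x hx => inT_nonneg K hp _ i hx),
    le_add_of_nonneg_left (totc_nonneg P (inD_isD h (isV v) (isV v))
      fun i x hx => inD_nonneg K h _ i hx)⟩

end compact

end

end Crest.Agent.R273.BKNe_37
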