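import Crest.Agent.R273.SteinE_794
import Crest.Agent.R273.Vm_333

/-!
# R273, STEIN complements, part M (helper794): the measure

* `kap`, `mp_kap` : real coordinates `RI n → ℝ` to `Fin n → ℂ`, measure preserving;
* `zf S`          : the Jacobian determinant of the coordinates: frame `dz₁ ∧ … ∧ dzₙ` of `K` on `S.U`;
* `kf S`          : the dual frame of `K⁻¹`;
* `map_mu`        : `e^{-wtS h (kf S)} μ = vm h` on `S.U`, `μ` = Lebesgue measure of `Mo S`.
-/

set_option autoImplicit false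
set_option linter.unusedSectionVars false

open Set Filter Topology Complex MeasureTheory
open scoped ContDiff Matrix ENNReal

namespace Crest.Agent.R273.SteinM_794

open Crest.Agent.R275.Geo Crest.Agent.R275.Core144 Crest.Agent.R273.SteinA_794
open Crest.Agent.R273.SteinB_794 Crest.Agent.R273.SteinC_794 Crest.Agent.R273.SteinD_794
open Crest.Agent.R273.Defs_333 (ProjD HM HM.wt)
open Crest.Agent.R275.Pai323 Crest.Agent.R275.C1d194
open Crest.Agent.R273.Vm_333 (sg isOpen_Ui sg_mem vm chm_apply vm_apply_chart meas_inter)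
open Crest.Agent.R271.Ho51 (RDom cp ch IsCh IsLeb Hol Sm mem_ch isCh_ch)

noncomputable section

/-! ### real coordinates -/

/-- real coordinates to complex coordinates -/
def kap {n : ℕ} (y : RI n → ℝ) : Fin n → ℂ := fun a => (y (a, 0) : ℂ) + (y (a, 1) : ℂ) * I

theorem kap_eq {n : ℕ} (y : RI n → ℝ) : kap y = WithLp.ofLp (cc y) := rfl

theorem mp_curry (n : ℕ) : MeasurePreserving (MeasurableEquiv.curry (Fin n) (Fin 2) ℝ)
    (volume : Measure (RI n → ℝ)) (volume : Measure (Fin n → Fin 2 → ℝ)) := by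
  have h : MeasurePreserving (MeasurableEquiv.curry (Fin n) (Fin 2) ℝ).symm
      (volume : Measure (Fin n → Fin 2 → ℝ)) (volume : Measure (RI n → ℝ)) := by
    refine ⟨(MeasurableEquiv.curry (Fin n) (Fin 2) ℝ).symm.measurable, ?_⟩
    symm
    refine Measure.pi_eq fun s hs => ?_
    rw [(MeasurableEquiv.curry (Fin n) (Fin 2) ℝ).symm.map_apply]
    have h1 : (MeasurableEquiv.curry (Fin n) (Fin 2) ℝ).symm ⁻¹' (Set.pi univ s) =
        Set.pi univ fun a => Set.pi univ fun b => s (a, b) := by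
      ext f
      simp [MeasurableEquiv.coe_curry_symm, Function.uncurry]
    rw [h1, volume_pi_pi]
    simp only [volume_pi_pi]
    exact (Fintype.prod_prod_type fun p => volume (s p)).symm
  exact h.symm _

theorem mp_kap (n : ℕ) : MeasurePreserving (kap : (RI n → ℝ) → (Fin n → ℂ)) volume volume := by
  have h1 : MeasurePreserving (fun (f : Fin n → Fin 2 → ℝ) (a : Fin n) =>
      Complex.measurableEquivPi.symm (f a)) volume volume :=
    volume_preserving_pi fun _ => Complex.volume_preserving_equiv_pi.symm _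
  have h2 := h1.comp (mp_curry n)
  have h3 : (fun (f : Fin n → Fin 2 → ℝ) (a : Fin n) =>
      Complex.measurableEquivPi.symm (f a)) ∘ (MeasurableEquiv.curry (Fin n) (Fin 2) ℝ) = kap := by
    funext y a
    simp [kap, MeasurableEquiv.coe_curry, Function.curry, Complex.measurableEquivPi_symm_apply]
  rwa [h3] at h2

theorem rc_kap {n : ℕ} (y : RI n → ℝ) : rc (WithLp.toLp 2 (kap y) : Cn n) = y := by
  rw [kap_eq]
  exact rc_cc y

theorem kap_rc {n : ℕ} (ζ : Fin n → ℂ) : kap (rc (WithLp.toLp 2 ζ : Cn n)) = ζ := by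
  rw [kap_eq, cc_rc]

theorem me_kap (n : ℕ) : MeasurableEmbedding (kap : (RI n → ℝ) → (Fin n → ℂ)) := by
  have hm : Measurable (fun ζ : Fin n → ℂ => rc (WithLp.toLp 2 ζ : Cn n)) := by
    rw [rc_eq]
    exact ((rcL n).continuous.comp (PiLp.continuous_toLp 2 _)).measurable
  exact (MeasurableEquiv.mk ⟨kap, fun ζ => rc (WithLp.toLp 2 ζ : Cn n), rc_kap, kap_rc⟩
    (mp_kap n).measurable hm).measurableEmbedding

variable {n : ℕ} {M : Type} [TopologicalSpace M] {A : Atl n M}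

/-! ### the Jacobian frame -/

/-- the Jacobian matrix of the coordinates -/
def Zm (S : SD A) (i : A.ι) (x : M) : Matrix (Fin n) (Fin n) ℂ :=
  Matrix.of fun k a => df A i (S.z k) x (EuclideanSpace.single a 1)

open Classical in
/-- `dz₁ ∧ … ∧ dzₙ` as a section of `K` on `S.U` -/
def zf (S : SD A) (i : A.ι) (x : M) : ℂ := if x ∈ (A.e i).source then (Zm S i x).det else 0

variable {S : SD A}

theorem zf_eq {i : A.ι} {x : M} (hx : x ∈ (A.e i).source) : zf S i x = (Zm S i x).det :=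
  if_pos hx

theorem zf_ne {i : A.ι} {x : M} (hx : x ∈ (A.e i).source) (hxU : x ∈ S.U) : zf S i x ≠ 0 := by
  rw [zf_eq hx]
  intro hdet
  obtain ⟨v, hv0, hv⟩ := Matrix.exists_mulVec_eq_zero_iff.2 hdet
  have h1 : (WithLp.toLp 2 v : Cn n) = 0 := by
    refine S.inj i x hx hxU _ ?_
    rw [fderiv_rd S.isOpen (S.hol i) hx hxU]
    funext k
    have h2 := congrFun hv k
    rw [clm_single]
    simp only [Matrix.mulVec, dotProduct, Zm, Matrix.of_apply, Pi.zero_apply] at h2
    rw [Pi.zero_apply, ← h2]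
    exact Finset.sum_congr rfl fun a _ => mul_comm _ _
  apply hv0
  funext a
  exact congrArg (fun u : Cn n => u a) h1

theorem isHS_zf (S : SD A) : IsHS (KB A) S.U (zf S) := by
  refine ⟨fun i => ?_, fun i x hx => if_neg hx, fun i j x hx hxU => ?_⟩
  · have h1 : ∀ k a, HolAt A i S.U (fun x => Zm S i x k a) := fun k a =>
      hol_df S.isOpen (S.hol i k) _
    have h2 : HolAt A i S.U fun x => (Zm S i x).det := by
      simp only [Matrix.det_apply]
      refine HolAt.sum _ fun σ _ => ?_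
      have h2 : HolAt A i S.U fun x => ∏ b, Zm S i x (σ b) b :=
        HolAt.prod _ fun b _ => h1 (σ b) b
      simp only [Units.smul_def, zsmul_eq_mul]
      exact h2.const_mul _
    exact h2.congr fun x hx _ => (zf_eq hx).symm
  · rw [zf_eq hx.1, zf_eq hx.2, KB_g hx]
    have h1 : Zm S i x = Zm S j x * Jm A i j x := by
      ext k a
      rw [Matrix.mul_apply]
      simp only [Zm, Matrix.of_apply, Jm_apply]
      rw [df_chg S.isOpen (S.hol j k) hx.1 hx.2 hxU, dJ_eq, map_sum]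
      refine Finset.sum_congr rfl fun b _ => ?_
      rw [map_smul, smul_eq_mul, mul_comm]
    rw [h1, Matrix.det_mul, mul_comm]

/-- the dual frame of `K⁻¹` -/
def kf (S : SD A) : A.ι → M → ℂ := (zf S)⁻¹

theorem isHS_kf (S : SD A) : IsHS (KB A)⁻¹ S.U (kf S) :=
  (isHS_zf S).inv fun _ _ hx hxU => zf_ne hx hxU

theorem kf_ne (i : A.ι) (x : M) (hx : x ∈ (A.e i).source) (hxU : x ∈ S.U) : kf S i x ≠ 0 :=
  inv_ne_zero (zf_ne hx hxU)

/-! ### the coordinates in real coordinates -/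

/-- the coordinates of `Mo S` in real coordinates of the chart `i` -/
def rr (S : SD A) (i : A.ι) (y : RI n → ℝ) : RI n → ℝ :=
  rc (WithLp.toLp 2 (rd A i S.z (cc y)) : Cn n)

theorem kap_rr (i : A.ι) (y : RI n → ℝ) : kap (rr S i y) = rd A i S.z (cc y) := kap_rc _

theorem det_Zm {i : A.ι} {x : M} (hx : x ∈ (A.e i).source) (hxU : x ∈ S.U) :
    (Zm S i x).det = LinearMap.det (((EuclideanSpace.equiv (Fin n) ℂ).symm : (Fin n → ℂ) →L[ℂ] Cn n).comp
      (fderiv ℂ (rd A i S.z) (A.e i x)) : Cn n →ₗ[ℂ] Cn n) := by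
  rw [← LinearMap.det_toMatrix (EuclideanSpace.basisFun (Fin n) ℂ).toBasis]
  congr 1
  ext k a
  rw [LinearMap.toMatrix_apply]
  have h1 := fderiv_rd S.isOpen (S.hol i) hx hxU (EuclideanSpace.single a 1)
  simp [Zm, h1]

theorem hasFDerivAt_rr {i : A.ι} {y : RI n → ℝ} (hy : y ∈ Ui A i) (hyU : sg A i y ∈ S.U) :
    ∃ L : (RI n → ℝ) →L[ℝ] (RI n → ℝ), HasFDerivAt (rr S i) L y ∧
      |L.det| = ‖zf S i (sg A i y)‖ ^ 2 := by
  have hx := sg_mem hy
  have hxe : A.e i (sg A i y) = cc y := (A.e i).right_inv hy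
  have hd : DifferentiableAt ℂ (rd A i S.z) (cc y) :=
    (S.rd_diff i).differentiableAt ((S.isOpen_dom i).mem_nhds ⟨hy, hyU⟩)
  let E1 : (Fin n → ℂ) →L[ℂ] Cn n := ((EuclideanSpace.equiv (Fin n) ℂ).symm : (Fin n → ℂ) →L[ℂ] Cn n)
  set D : Cn n →L[ℂ] Cn n := E1.comp (fderiv ℂ (rd A i S.z) (cc y)) with hD
  have h0 : HasFDerivAt (fun w => (WithLp.toLp 2 (rd A i S.z w) : Cn n)) D (cc y) := by
    exact (E1.hasFDerivAt).comp (cc y) hd.hasFDerivAt
  have h1 : HasFDerivAt (fun w => (WithLp.toLp 2 (rd A i S.z w) : Cn n)) (D.restrictScalars ℝ)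
      (cc y) := h0.restrictScalars ℝ
  let ccL : (RI n → ℝ) →L[ℝ] Cn n := ((rcE n).symm.toContinuousLinearEquiv : (RI n → ℝ) →L[ℝ] Cn n)
  have h2 : HasFDerivAt (cc : (RI n → ℝ) → Cn n) ccL y := by
    exact ((rcE n).symm.toContinuousLinearEquiv).hasFDerivAt
  have h3 : HasFDerivAt (rc : Cn n → RI n → ℝ) (rcL n) (WithLp.toLp 2 (rd A i S.z (cc y))) := by
    rw [rc_eq]; exact (rcL n).hasFDerivAt
  have h4 := h3.comp y (h1.comp y h2)
  refine ⟨_, h4, ?_⟩
  have h5 : ((((rcL n).comp ((D.restrictScalars ℝ).comp ccL)) : (RI n → ℝ) →L[ℝ] (RI n → ℝ)) :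
      (RI n → ℝ) →ₗ[ℝ] (RI n → ℝ)) = ((rcE n : Cn n →ₗ[ℝ] (RI n → ℝ)) ∘ₗ
        ((D : Cn n →ₗ[ℂ] Cn n).restrictScalars ℝ)) ∘ₗ ((rcE n).symm : (RI n → ℝ) →ₗ[ℝ] Cn n) := by
    ext v p
    rfl
  have h6 : ((rcL n).comp ((D.restrictScalars ℝ).comp ccL)).det =
      ‖LinearMap.det (D : Cn n →ₗ[ℂ] Cn n)‖ ^ 2 := by
    rw [← det_real D, ← h5]
  rw [h6, abs_of_nonneg (by positivity), zf_eq hx, det_Zm hx hyU, hxe]

end

end Crest.Agent.R273.SteinM_794
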