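import Crest.Agent.R273.Defs_333
import Crest.Agent.R273.Levi_145

/-!
# R273 (S0416), Part E (helper835): holomorphic maps between manifolds with atlases

`HolMap A B p`  : `p : M → N` is continuous and holomorphic in the charts of `A`, `B`;
`Jp A B p i j x`: the Jacobian matrix of `p` in the charts `i` (at `x`) and `j` (at `p x`);
`LBih A B p`    : holomorphic and locally biholomorphic (`det Jp ≠ 0`);
`PB p L' L`     : an isomorphism of the line bundle `L'` on `M` with the pull-back `p^* L`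
                  (frame comparison `c i j`), closed under `1`, `*`, `⁻¹`, `^ m`;
`PB.KB`         : the case of the canonical bundles, for a locally biholomorphic map;
`PB.pull`       : pull-back of sections; `PB.pullHM`: pull-back of metrics.
-/

set_option autoImplicit false
set_option linter.unusedSectionVars false

open Set Filter Topology Complex
open scoped ContDiff Matrix ComplexConjugate Manifold

namespace Crest.Agent.R273.Map_835

open Crest.Agent.R275.Geo Crest.Agent.R275.Core144 Crest.Agent.R273.Defs_333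

noncomputable section

variable {n m k : ℕ} {M N P : Type} [TopologicalSpace M] [TopologicalSpace N] [TopologicalSpace P]
  {A : Atl n M} {B : Atl m N} {C : Atl k P} {p : M → N} {q : N → P}

/-- `p` is continuous and holomorphic in the charts -/
structure HolMap (A : Atl n M) (B : Atl m N) (p : M → N) : Prop where
  cont : Continuous p
  hol : ∀ i j, DifferentiableOn ℂ (fun z => B.e j (p ((A.e i).symm z)))
    ((A.e i).target ∩ (A.e i).symm ⁻¹' (p ⁻¹' (B.e j).source))

/-- the map `p` read in the charts `i`, `j` -/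
def rd (A : Atl n M) (B : Atl m N) (p : M → N) (i : A.ι) (j : B.ι) : Cn n → Cn m :=
  fun z => B.e j (p ((A.e i).symm z))

/-- the domain of `rd` -/
def dm (A : Atl n M) (B : Atl m N) (p : M → N) (i : A.ι) (j : B.ι) : Set (Cn n) :=
  (A.e i).target ∩ (A.e i).symm ⁻¹' (p ⁻¹' (B.e j).source)

theorem HolMap.isOpen_dm (h : HolMap A B p) (i : A.ι) (j : B.ι) : IsOpen (dm A B p i j) :=
  (A.e i).isOpen_inter_preimage_symm ((B.e j).open_source.preimage h.cont)

theorem mem_dm {i : A.ι} {j : B.ι} {x : M} (hx : x ∈ (A.e i).source)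
    (hj : p x ∈ (B.e j).source) : A.e i x ∈ dm A B p i j :=
  ⟨(A.e i).map_source hx, by
    rw [mem_preimage, (A.e i).left_inv hx]
    exact hj⟩

theorem HolMap.diffAt (h : HolMap A B p) {i : A.ι} {j : B.ι} {z : Cn n}
    (hz : z ∈ dm A B p i j) : DifferentiableAt ℂ (rd A B p i j) z :=
  (h.hol i j).differentiableAt ((h.isOpen_dm i j).mem_nhds hz)

theorem HolMap.analyticAt (h : HolMap A B p) {i : A.ι} {j : B.ι} {z : Cn n}
    (hz : z ∈ dm A B p i j) : AnalyticAt ℂ (rd A B p i j) z :=
  Crest.Agent.R266.SCV.analyticOnNhd_of_differentiableOn (h.isOpen_dm i j) (h.hol i j) z hz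

theorem holMap_id (A : Atl n M) : HolMap A A id :=
  ⟨continuous_id, fun i j => A.holo i j⟩

/-- pull-back of holomorphic functions -/
theorem HolMap.comp_holAt (h : HolMap A B p) {i : A.ι} {j : B.ι} {V : Set N} {f : N → ℂ}
    (hf : HolAt B j V f) : HolAt A i (p ⁻¹' (V ∩ (B.e j).source)) (fun x => f (p x)) := by
  have h1 : DifferentiableOn ℂ (fun z => f ((B.e j).symm (B.e j (p ((A.e i).symm z)))))
      ((A.e i).target ∩ (A.e i).symm ⁻¹' (p ⁻¹' (V ∩ (B.e j).source))) := by
    refine DifferentiableOn.comp (t := (B.e j).target ∩ (B.e j).symm ⁻¹' V)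
      (g := fun z => f ((B.e j).symm z)) hf ((h.hol i j).mono ?_) ?_
    · rintro z ⟨h1, h2⟩
      exact ⟨h1, h2.2⟩
    · rintro z ⟨_, h2⟩
      refine ⟨(B.e j).map_source h2.2, ?_⟩
      rw [mem_preimage, (B.e j).left_inv h2.2]
      exact h2.1
  refine DifferentiableOn.congr h1 fun z hz => ?_
  show f (p ((A.e i).symm z)) = _
  rw [(B.e j).left_inv hz.2.2]

/-- local holomorphy is enough -/
theorem holAt_of_local {i : A.ι} {U : Set M} {f : M → ℂ} (h : ∀ x ∈ (A.e i).source, x ∈ U →
    ∃ V, IsOpen V ∧ x ∈ V ∧ HolAt A i V f) : HolAt A i U f := by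
  intro z hz
  obtain ⟨V, hV, hxV, hf⟩ := h _ ((A.e i).map_target hz.1) hz.2
  have h2 := hf.diffAt hV ((A.e i).map_target hz.1) hxV
  rw [(A.e i).right_inv hz.1] at h2
  exact h2.differentiableWithinAt

theorem HolMap.comp (hq : HolMap B C q) (hp : HolMap A B p) : HolMap A C (fun x => q (p x)) := by
  refine ⟨hq.cont.comp hp.cont, fun i l => ?_⟩
  intro z hz
  obtain ⟨j, hj⟩ := B.cover (p ((A.e i).symm z))
  have hzd : z ∈ dm A B p i j := ⟨hz.1, hj⟩
  have hwd : B.e j (p ((A.e i).symm z)) ∈ dm B C q j l := mem_dm hj hz.2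
  have h1 := hp.diffAt hzd
  have h2 := hq.diffAt hwd
  have h3 : DifferentiableAt ℂ ((rd B C q j l) ∘ (rd A B p i j)) z :=
    DifferentiableAt.comp z (f := rd A B p i j) h2 h1
  refine (h3.congr_of_eventuallyEq ?_).differentiableWithinAt
  filter_upwards [(hp.isOpen_dm i j).mem_nhds hzd] with w hw
  simp only [Function.comp, rd]
  rw [(B.e j).left_inv hw.2]

/-! ### the Jacobian -/

/-- Jacobian matrix of `p` at `x` in the charts `i`, `j` -/
def Jp (A : Atl n M) (B : Atl m N) (p : M → N) (i : A.ι) (j : B.ι) (x : M) :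
    Matrix (Fin m) (Fin n) ℂ :=
  Matrix.of fun b a => (fderiv ℂ (rd A B p i j) (A.e i x) (EuclideanSpace.single a 1)) b

/-- the matrix of a linear map `Cn n → Cn m` -/
def mt (T : Cn n →L[ℂ] Cn m) : Matrix (Fin m) (Fin n) ℂ :=
  Matrix.of fun b a => (T (EuclideanSpace.single a 1)) b

theorem mt_apply (T : Cn n →L[ℂ] Cn m) (v : Cn n) (b : Fin m) :
    (T v) b = ∑ a, mt T b a * v a := by
  have e : v = ∑ a, v a • (EuclideanSpace.single a (1 : ℂ) : Cn n) := by
    ext d
    simp [Finset.sum_apply, Pi.single_apply]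
  conv_lhs => rw [e, map_sum]
  simp [mt, Finset.sum_apply, mul_comm]

theorem mt_comp (T : Cn m →L[ℂ] Cn k) (S : Cn n →L[ℂ] Cn m) : mt (T.comp S) = mt T * mt S := by
  ext b a
  rw [Matrix.mul_apply]
  show (T (S (EuclideanSpace.single a 1))) b = _
  rw [mt_apply]
  rfl

theorem mt_id : mt (ContinuousLinearMap.id ℂ (Cn n)) = 1 := by
  ext b a
  simp only [mt, ContinuousLinearMap.coe_id', id_eq, Matrix.of_apply, Matrix.one_apply]
  by_cases hb : b = a <;> simp [hb]

theorem mt_injective {T S : Cn n →L[ℂ] Cn m} (h : mt T = mt S) : T = S := by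
  ext v b
  rw [mt_apply, mt_apply, h]

theorem Jp_eq (i : A.ι) (j : B.ι) (x : M) :
    Jp A B p i j x = mt (fderiv ℂ (rd A B p i j) (A.e i x)) := rfl

theorem Jm_eq (i j : A.ι) (x : M) :
    Jm A i j x = mt (fderiv ℂ (fun z => A.e j ((A.e i).symm z)) (A.e i x)) := rfl

/-- change of the source chart -/
theorem HolMap.Jp_left (h : HolMap A B p) {i i' : A.ι} {j : B.ι} {x : M}
    (hx : x ∈ (A.e i).source ∩ (A.e i').source) (hj : p x ∈ (B.e j).source) :
    Jp A B p i' j x * Jm A i i' x = Jp A B p i j x := by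
  rw [Jp_eq, Jm_eq, ← mt_comp, Jp_eq]
  congr 1
  have h1 : DifferentiableAt ℂ (fun z => A.e i' ((A.e i).symm z)) (A.e i x) :=
    (A.holo i i').differentiableAt ((isOpen_ov (A := A) i i').mem_nhds (mem_ov hx))
  have hval : A.e i' ((A.e i).symm (A.e i x)) = A.e i' x := by rw [(A.e i).left_inv hx.1]
  have h2 : DifferentiableAt ℂ (rd A B p i' j) (A.e i' ((A.e i).symm (A.e i x))) := by
    rw [hval]
    exact h.diffAt (mem_dm hx.2 hj)
  have he : rd A B p i j =ᶠ[𝓝 (A.e i x)] (rd A B p i' j) ∘ (fun z => A.e i' ((A.e i).symm z)) := by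
    filter_upwards [(isOpen_ov (A := A) i i').mem_nhds (mem_ov hx)] with z hz
    simp only [rd, Function.comp]
    rw [(A.e i').left_inv hz.2]
  have h3 := fderiv_comp (A.e i x) (g := rd A B p i' j)
    (f := fun z => A.e i' ((A.e i).symm z)) h2 h1
  rw [he.fderiv_eq, h3, hval]

/-- change of the target chart -/
theorem HolMap.Jp_right (h : HolMap A B p) {i : A.ι} {j j' : B.ι} {x : M}
    (hx : x ∈ (A.e i).source) (hj : p x ∈ (B.e j).source ∩ (B.e j').source) :
    Jm B j j' (p x) * Jp A B p i j x = Jp A B p i j' x := by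
  rw [Jp_eq, Jm_eq, ← mt_comp, Jp_eq]
  congr 1
  have hval : rd A B p i j (A.e i x) = B.e j (p x) := by
    simp only [rd]
    rw [(A.e i).left_inv hx]
  have h1 : DifferentiableAt ℂ (fun z => B.e j' ((B.e j).symm z)) (rd A B p i j (A.e i x)) := by
    rw [hval]
    exact (B.holo j j').differentiableAt ((isOpen_ov (A := B) j j').mem_nhds (mem_ov hj))
  have h2 : DifferentiableAt ℂ (rd A B p i j) (A.e i x) := h.diffAt (mem_dm hx hj.1)
  have he : rd A B p i j' =ᶠ[𝓝 (A.e i x)] (fun z => B.e j' ((B.e j).symm z)) ∘ (rd A B p i j) := by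
    filter_upwards [(h.isOpen_dm i j).mem_nhds (mem_dm hx hj.1)] with z hz
    simp only [rd, Function.comp]
    rw [(B.e j).left_inv hz.2]
  rw [he.fderiv_eq, fderiv_comp _ h1 h2, hval]

/-- chain rule -/
theorem Jp_comp (hq : HolMap B C q) (hp : HolMap A B p) {i : A.ι} {j : B.ι} {l : C.ι} {x : M}
    (hx : x ∈ (A.e i).source) (hj : p x ∈ (B.e j).source) (hl : q (p x) ∈ (C.e l).source) :
    Jp B C q j l (p x) * Jp A B p i j x = Jp A C (fun x => q (p x)) i l x := by
  rw [Jp_eq, Jp_eq, ← mt_comp, Jp_eq]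
  congr 1
  have hval : rd A B p i j (A.e i x) = B.e j (p x) := by
    simp only [rd]
    rw [(A.e i).left_inv hx]
  have h1 : DifferentiableAt ℂ (rd B C q j l) (rd A B p i j (A.e i x)) := by
    rw [hval]
    exact hq.diffAt (mem_dm hj hl)
  have h2 : DifferentiableAt ℂ (rd A B p i j) (A.e i x) := hp.diffAt (mem_dm hx hj)
  have he : rd A C (fun x => q (p x)) i l =ᶠ[𝓝 (A.e i x)] (rd B C q j l) ∘ (rd A B p i j) := by
    filter_upwards [(hp.isOpen_dm i j).mem_nhds (mem_dm hx hj)] with z hz
    simp only [rd, Function.comp]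
    rw [(B.e j).left_inv hz.2]
  rw [he.fderiv_eq, fderiv_comp _ h1 h2, hval]

/-- the entries of the Jacobian are holomorphic -/
theorem HolMap.holAt_Jp (h : HolMap A B p) (i : A.ι) (j : B.ι) (b : Fin m) (a : Fin n) :
    HolAt A i (p ⁻¹' (B.e j).source) (fun x => Jp A B p i j x b a) := by
  have ho := h.isOpen_dm i j
  have h1 : DifferentiableOn ℂ (fderiv ℂ (rd A B p i j)) (dm A B p i j) :=
    ((Crest.Agent.R266.SCV.analyticOnNhd_of_differentiableOn ho (h.hol i j)).fderiv).differentiableOn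
  have h2 : DifferentiableOn ℂ (fun z => (fderiv ℂ (rd A B p i j) z
      (EuclideanSpace.single a 1)) b) (dm A B p i j) := by
    have h3 : DifferentiableOn ℂ (fun z => (fderiv ℂ (rd A B p i j) z
      (EuclideanSpace.single a 1))) (dm A B p i j) := h1.clm_apply (differentiableOn_const _)
    exact ((EuclideanSpace.proj b : Cn m →L[ℂ] ℂ).differentiable).comp_differentiableOn h3
  refine DifferentiableOn.congr h2 fun z hz => ?_
  simp only [Jp, Matrix.of_apply, (A.e i).right_inv hz.1]

/-- holomorphy of a determinant of holomorphic functions -/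
theorem holAt_det {i : A.ι} {U : Set M} {F : M → Matrix (Fin k) (Fin k) ℂ}
    (h : ∀ a b, HolAt A i U (fun x => F x a b)) : HolAt A i U (fun x => (F x).det) := by
  simp only [Matrix.det_apply]
  refine HolAt.sum _ fun σ _ => ?_
  have h2 : HolAt A i U fun x => ∏ b, F x (σ b) b := HolAt.prod _ fun b _ => h (σ b) b
  simp only [Units.smul_def, zsmul_eq_mul]
  exact h2.const_mul _

end

end Crest.Agent.R273.Map_835
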