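import Crest.Agent.R273.Hess_333

/-!
# R273 (S0416), Part E (helper333): complex Hessians, part 2

* `hess_add`, `hess_neg`, `hess_const_mul`, `hess_congr`, `hess_const`
* `hess_log_norm` : `hess (log |f|²) = 0` for `f` holomorphic, `f ≠ 0`
* `wd_hess`      : `∂_c ∂_a ∂_{b̄}` is symmetric in `a, c`; `wdb_hess` the same for `b̄, c̄`
* `contDiffAt_hess`
* `hq_real`, `lev_nonneg_iff`, `posSemidef_hess`, `posDef_hess`
-/

set_option autoImplicit false
set_option linter.unusedSectionVars false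

open Set Filter Topology Complex
open scoped ContDiff Matrix ComplexConjugate Manifold ComplexOrder

namespace Crest.Agent.R273.HessB_333

open Crest.Agent.R275.Geo Crest.Agent.R275.Core144 Crest.Agent.R275.EDR890
open Crest.Agent.R273.Defs_333 Crest.Agent.R273.Hess_333

noncomputable section

variable {n : ℕ}

theorem hess_congr {u v : Cn n → ℝ} {z : Cn n} (h : u =ᶠ[𝓝 z] v) : hess u z = hess v z := by
  ext a b
  rw [hess_apply, hess_apply]
  apply wd_congr
  filter_upwards [h.eventually_nhds] with w hw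
  apply wd_congr
  filter_upwards [hw] with y hy
  simp only [cu, hy]

theorem eventually_diff {u : Cn n → ℝ} {z : Cn n} (hu : ContDiffAt ℝ ∞ u z) :
    ∀ᶠ w in 𝓝 z, DifferentiableAt ℝ (cu u) w := by
  have := ((contDiffAt_cu hu).of_le (m := 1) (by exact_mod_cast le_top)).eventually (by simp)
  filter_upwards [this] with y hy
  exact hy.differentiableAt (by simp)

theorem hess_add {u v : Cn n → ℝ} {z : Cn n} (hu : ContDiffAt ℝ ∞ u z) (hv : ContDiffAt ℝ ∞ v z) :
    hess (fun w => u w + v w) z = hess u z + hess v z := by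
  ext a b
  rw [Matrix.add_apply, hess_apply, hess_apply, hess_apply]
  have h1 : wd (true, b) (cu fun w => u w + v w) =ᶠ[𝓝 z] fun w =>
      wd (true, b) (cu u) w + wd (true, b) (cu v) w := by
    filter_upwards [eventually_diff hu, eventually_diff hv] with w hw hw'
    rw [← wd_add hw hw']
    congr 1
    funext y
    simp [cu]
  rw [wd_congr h1, wd_add]
  · exact (contDiffAt_wd (contDiffAt_cu hu) _).differentiableAt (by simp)
  · exact (contDiffAt_wd (contDiffAt_cu hv) _).differentiableAt (by simp)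

theorem hess_const_mul {u : Cn n → ℝ} {z : Cn n} (c : ℝ) (hu : ContDiffAt ℝ ∞ u z) :
    hess (fun w => c * u w) z = (c : ℂ) • hess u z := by
  ext a b
  rw [Matrix.smul_apply, hess_apply, hess_apply, smul_eq_mul]
  have h1 : wd (true, b) (cu fun w => c * u w) =ᶠ[𝓝 z] fun w =>
      (c : ℂ) • wd (true, b) (cu u) w := by
    filter_upwards [eventually_diff hu] with w hw
    rw [← wd_const_smul (c : ℂ) hw]
    congr 1
    funext y
    simp [cu]
  rw [wd_congr h1, wd_const_smul, smul_eq_mul]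
  exact (contDiffAt_wd (contDiffAt_cu hu) _).differentiableAt (by simp)

theorem hess_neg {u : Cn n → ℝ} {z : Cn n} (hu : ContDiffAt ℝ ∞ u z) :
    hess (fun w => - u w) z = - hess u z := by
  have h1 : (fun w => - u w) = fun w => (-1 : ℝ) * u w := by funext w; ring
  rw [h1, hess_const_mul _ hu]
  simp

theorem hess_sub {u v : Cn n → ℝ} {z : Cn n} (hu : ContDiffAt ℝ ∞ u z) (hv : ContDiffAt ℝ ∞ v z) :
    hess (fun w => u w - v w) z = hess u z - hess v z := by
  have h1 : (fun w => u w - v w) = fun w => u w + (fun y => - v y) w := by funext w; ring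
  rw [h1, hess_add hu hv.neg, hess_neg hv]
  abel

/-- `∂̄` of a holomorphic function vanishes -/
theorem wd_hol {W : Type*} [NormedAddCommGroup W] [NormedSpace ℂ W] {f : Cn n → W} {z : Cn n}
    (hf : DifferentiableAt ℂ f z) (a : Fin n) : wd (true, a) f z = 0 := by
  have h7 : fderiv ℝ f z = (fderiv ℂ f z).restrictScalars ℝ := hf.fderiv_restrictScalars ℝ
  have hI : (EuclideanSpace.single a I : Cn n) = I • EuclideanSpace.single a (1 : ℂ) := by
    ext c
    simp [PiLp.single_apply]
  rw [wd, wdL, h7]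
  simp only [ContinuousLinearMap.coe_restrictScalars', hI, map_smul, cI_true, smul_smul, I_mul_I]
  simp

/-- `∂_a` of a holomorphic function is the complex derivative -/
theorem wd_hol' {W : Type*} [NormedAddCommGroup W] [NormedSpace ℂ W] {f : Cn n → W} {z : Cn n}
    (hf : DifferentiableAt ℂ f z) (a : Fin n) :
    wd (false, a) f z = fderiv ℂ f z (EuclideanSpace.single a 1) := by
  have h7 : fderiv ℝ f z = (fderiv ℂ f z).restrictScalars ℝ := hf.fderiv_restrictScalars ℝ
  have hI : (EuclideanSpace.single a I : Cn n) = I • EuclideanSpace.single a (1 : ℂ) := by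
    ext c
    simp [PiLp.single_apply]
  rw [wd, wdL, h7]
  simp only [ContinuousLinearMap.coe_restrictScalars', hI, map_smul, cI_false, smul_smul,
    neg_mul, I_mul_I]
  module

/-- a function with locally a holomorphic logarithm -/
theorem hess_re_hol {f : Cn n → ℂ} {z : Cn n} (hf : ∀ᶠ w in 𝓝 z, DifferentiableAt ℂ f w) :
    hess (fun w => (f w).re) z = 0 := by
  obtain ⟨U, hU, hUo, hUz⟩ := eventually_nhds_iff.1 hf
  have hdo : DifferentiableOn ℂ f U := fun w hw => (hU w hw).differentiableWithinAt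
  have hfc : ∀ w ∈ U, ContDiffAt ℝ ∞ f w := fun w hw =>
    (((Crest.Agent.R266.SCV.contDiffOn_omega_of_differentiableOn hUo hdo).restrict_scalars
      ℝ).of_le le_top).contDiffAt (hUo.mem_nhds hw)
  ext a b
  rw [hess_apply, Matrix.zero_apply]
  -- `∂̄_b (Re f) = (1/2) conj (∂_b f)`
  have h1 : wd (true, b) (cu fun w => (f w).re) =ᶠ[𝓝 z] fun w =>
      (1 / 2 : ℂ) * wd (true, b) (fun y => conj (f y)) w := by
    filter_upwards [hUo.mem_nhds hUz] with w hw
    have hdf : DifferentiableAt ℝ f w := (hfc w hw).differentiableAt (by simp)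
    have hdc : DifferentiableAt ℝ (fun y => conj (f y)) w :=
      (conjCLE : ℂ →L[ℝ] ℂ).differentiableAt.comp w hdf
    have e1 : (cu fun w => (f w).re) = fun y => (1 / 2 : ℂ) • (f y + conj (f y)) := by
      funext y
      rw [Complex.add_conj, smul_eq_mul, cu]
      push_cast
      ring
    have hda : DifferentiableAt ℝ (fun y => f y + conj (f y)) w := hdf.add hdc
    rw [e1, wd_const_smul (1 / 2 : ℂ) hda, wd_add hdf hdc, wd_hol (hU w hw) b, zero_add,
      smul_eq_mul]
  have h2 : ContDiffAt ℝ ∞ (fun y => conj (f y)) z :=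
    (conjCLE : ℂ →L[ℝ] ℂ).contDiff.contDiffAt.comp z (hfc z hUz)
  have h3 : wd (false, a) (fun w => (1 / 2 : ℂ) • wd (true, b) (fun y => conj (f y)) w) z =
      (1 / 2 : ℂ) • wd (false, a) (wd (true, b) (fun y => conj (f y))) z :=
    wd_const_smul _ ((contDiffAt_wd h2 _).differentiableAt (by simp)) _
  rw [wd_congr h1]
  simp only [smul_eq_mul] at h3
  rw [h3, wd_comm h2]
  have h4 : wd (false, a) (fun y => conj (f y)) =ᶠ[𝓝 z] fun _ => (0 : ℂ) := by
    filter_upwards [hUo.mem_nhds hUz] with w hw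
    have h5 := conj_wd (true, a) ((hfc w hw).differentiableAt (by simp))
    rw [wd_hol (hU w hw) a, map_zero] at h5
    exact h5.symm
  rw [wd_congr h4, wd_const, mul_zero]

/-- `log |f|²` is pluriharmonic -/
theorem hess_log_norm {f : Cn n → ℂ} {z : Cn n} (hf : ∀ᶠ w in 𝓝 z, DifferentiableAt ℂ f w)
    (h0 : f z ≠ 0) : hess (fun w => Real.log (‖f w‖ ^ 2)) z = 0 := by
  have hfz : DifferentiableAt ℂ f z := hf.self_of_nhds
  -- `log |f|² = log |f z|² + 2 Re log (f w / f z)` near `z`
  have h1 : ∀ᶠ w in 𝓝 z, f w / f z ∈ Complex.slitPlane := by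
    have hc : ContinuousAt (fun w => f w / f z) z := hfz.continuousAt.div_const _
    refine hc.eventually (Complex.isOpen_slitPlane.mem_nhds ?_)
    change f z / f z ∈ _
    rw [div_self h0]
    exact Complex.one_mem_slitPlane
  have h2 : (fun w => Real.log (‖f w‖ ^ 2)) =ᶠ[𝓝 z] fun w =>
      ((2 : ℂ) * Complex.log (f w / f z) + ((Real.log (‖f z‖ ^ 2) : ℝ) : ℂ)).re := by
    filter_upwards [h1] with w hw
    have hne : f w / f z ≠ 0 := Complex.slitPlane_ne_zero hw
    have hne' : f w ≠ 0 := fun h => hne (by rw [h, zero_div])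
    rw [add_re, ofReal_re, mul_re, Complex.log_re, norm_div, Real.log_div (by simpa using hne')
      (by simpa using h0), Real.log_pow, Real.log_pow]
    simp
    ring
  rw [hess_congr h2]
  apply hess_re_hol
  filter_upwards [h1, hf] with w hw hw'
  have h3 : DifferentiableAt ℂ (fun y => f y / f z) w := by
    simp only [div_eq_mul_inv]
    exact hw'.mul_const _
  exact ((h3.clog hw).const_mul 2).add_const _

theorem contDiffAt_hess {u : Cn n → ℝ} {z : Cn n} (hu : ContDiffAt ℝ ∞ u z) (a b : Fin n) :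
    ContDiffAt ℝ ∞ (fun w => hess u w a b) z :=
  contDiffAt_wd (contDiffAt_wd (contDiffAt_cu hu) _) _

theorem contDiffOn_hess {u : Cn n → ℝ} {U : Set (Cn n)} (hU : IsOpen U)
    (hu : ContDiffOn ℝ ∞ u U) (a b : Fin n) : ContDiffOn ℝ ∞ (fun w => hess u w a b) U :=
  fun _ hz => (contDiffAt_hess (hu.contDiffAt (hU.mem_nhds hz)) a b).contDiffWithinAt

/-- closedness of `i ∂∂̄ u` -/
theorem wd_hess {u : Cn n → ℝ} {z : Cn n} (hu : ContDiffAt ℝ ∞ u z) (a b c : Fin n) :
    wd (false, c) (fun w => hess u w a b) z = wd (false, a) (fun w => hess u w c b) z :=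
  wd_comm (contDiffAt_wd (contDiffAt_cu hu) _) _ _

theorem wdb_hess {u : Cn n → ℝ} {U : Set (Cn n)} (hU : IsOpen U) (hu : ContDiffOn ℝ ∞ u U)
    {z : Cn n} (hz : z ∈ U) (a b c : Fin n) :
    wd (true, c) (fun w => hess u w a b) z = wd (true, b) (fun w => hess u w a c) z := by
  have h1 : ∀ d, (fun w => hess u w a d) =ᶠ[𝓝 z] wd (true, d) (wd (false, a) (cu u)) := by
    intro d
    filter_upwards [hU.mem_nhds hz] with w hw
    exact wd_comm (contDiffAt_cu (hu.contDiffAt (hU.mem_nhds hw))) _ _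
  rw [wd_congr (h1 b), wd_congr (h1 c)]
  exact wd_comm (contDiffAt_wd (contDiffAt_cu (hu.contDiffAt (hU.mem_nhds hz))) _) _ _

/-! ### positivity -/

theorem hq_real {u : Cn n → ℝ} {z : Cn n} (hu : ContDiffAt ℝ ∞ u z) (v : Cn n) :
    hq u z v = ((lev u z v / 4 : ℝ) : ℂ) := by
  have h := lev_eq hu v
  push_cast
  rw [h]
  ring

theorem hq_re {u : Cn n → ℝ} {z : Cn n} (hu : ContDiffAt ℝ ∞ u z) (v : Cn n) :
    (hq u z v).re = lev u z v / 4 := by
  rw [hq_real hu, ofReal_re]

/-- the Hermitian form as `star x ⬝ᵥ (H *ᵥ x)`, `x = conj v` -/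
theorem hq_eq_dot (u : Cn n → ℝ) (z : Cn n) (x : Fin n → ℂ) :
    star x ⬝ᵥ ((hess u z) *ᵥ x) = hq u z (WithLp.toLp 2 (fun a => conj (x a))) := by
  unfold hq
  simp only [dotProduct, Matrix.mulVec, Pi.star_apply, RCLike.star_def, Finset.mul_sum,
    Complex.conj_conj]
  refine Finset.sum_congr rfl fun a _ => Finset.sum_congr rfl fun b _ => ?_
  ring

theorem posSemidef_hess {u : Cn n → ℝ} {z : Cn n} (hu : ContDiffAt ℝ ∞ u z)
    (h : ∀ v, 0 ≤ lev u z v) : (hess u z).PosSemidef := by
  refine Matrix.PosSemidef.of_dotProduct_mulVec_nonneg (hess_herm hu) fun x => ?_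
  rw [hq_eq_dot, hq_real hu]
  have := h (WithLp.toLp 2 (fun a => conj (x a)))
  exact_mod_cast (by positivity : (0 : ℝ) ≤ lev u z (WithLp.toLp 2 fun a => conj (x a)) / 4)

theorem posDef_hess {u : Cn n → ℝ} {z : Cn n} (hu : ContDiffAt ℝ ∞ u z)
    (h : ∀ v, v ≠ 0 → 0 < lev u z v) : (hess u z).PosDef := by
  refine Matrix.PosDef.of_dotProduct_mulVec_pos (hess_herm hu) fun x hx => ?_
  rw [hq_eq_dot, hq_real hu]
  have h0 : (WithLp.toLp 2 (fun a => conj (x a)) : Cn n) ≠ 0 := by
    intro h1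
    apply hx
    funext a
    have := congrArg (fun v : Cn n => v a) h1
    simpa using this
  have := h _ h0
  exact_mod_cast (by positivity : (0 : ℝ) < lev u z (WithLp.toLp 2 fun a => conj (x a)) / 4)

theorem lev_nonneg_of_posSemidef {u : Cn n → ℝ} {z : Cn n} (hu : ContDiffAt ℝ ∞ u z)
    (h : (hess u z).PosSemidef) (v : Cn n) : 0 ≤ lev u z v := by
  have h1 := h.dotProduct_mulVec_nonneg (fun a => conj (v a))
  rw [hq_eq_dot, hq_real hu] at h1
  simp only [Complex.conj_conj] at h1
  have h2 : (0 : ℝ) ≤ lev u z (WithLp.toLp 2 fun a => v a) / 4 := by exact_mod_cast h1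
  have h3 : (WithLp.toLp 2 (fun a => v a) : Cn n) = v := rfl
  rw [h3] at h2
  linarith

theorem lev_pos_of_posDef {u : Cn n → ℝ} {z : Cn n} (hu : ContDiffAt ℝ ∞ u z)
    (h : (hess u z).PosDef) {v : Cn n} (hv : v ≠ 0) : 0 < lev u z v := by
  have h0 : (fun a => conj (v a)) ≠ 0 := by
    intro h1
    apply hv
    ext a
    have := congrFun h1 a
    simpa using this
  have h1 := h.dotProduct_mulVec_pos h0
  rw [hq_eq_dot, hq_real hu] at h1
  simp only [Complex.conj_conj] at h1
  have h2 : (0 : ℝ) < lev u z (WithLp.toLp 2 fun a => v a) / 4 := by exact_mod_cast h1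
  have h3 : (WithLp.toLp 2 (fun a => v a) : Cn n) = v := rfl
  rw [h3] at h2
  linarith

end

end Crest.Agent.R273.HessB_333
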