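import Crest.Agent.R273.SerB_945

/-!
# R273 (S0416), leaf SERRE, part C (helper945): global generation and very ampleness

* `FD O`    : finitely many sections `F k` of `O` without common zero, immersive, finite fibres;
  `ofProj P : FD (lb P)`, `FD.toProj` (injective), `lb_toProj`.
* `gg`      : with `hV : ∀ m ≥ m0, ∀ q ≥ 1, Solv (L * O ^ m) q`, for `m ≥ m0 + n` and every point
  `x0` a section of `L * O ^ m` not vanishing at `x0`, vanishing at the other points of the fibre.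
* `GGen L`  : a finite family of sections of `L` without common zero; `gg_fin`, `GGen.mul/pow`.
* `FD.mul`  : `GGen L` ⟹ `FD (L * O)`; `projMul`.
* `exists_projD` : `L * O ^ m` is very ample for `m ≥ m0 + n + 1`.
-/

set_option autoImplicit false
set_option linter.unusedSectionVars false

open Set Filter Topology Complex
open scoped ContDiff Matrix ComplexConjugate Kronecker

namespace Crest.Agent.R273.SerC_945

open Crest.Agent.R275 Crest.Agent.R275.Geo Crest.Agent.R275.Core144 Crest.Agent.R275.Dg199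
open Crest.Agent.R273.Defs_333 Crest.Agent.R273.FS_333
open Crest.Agent.R273.LamN127 Crest.Agent.R273.SerA_945 Crest.Agent.R273.SerB_945

noncomputable section

variable {n : ℕ} {M : Type} [TopologicalSpace M] {A : Atl n M}

/-- `F(y)` is proportional to `F(x)` -/
def Rel {N : ℕ} (F : Fin (N + 1) → Fn A) (x y : M) : Prop :=
  ∃ i j, x ∈ (A.e i).source ∧ y ∈ (A.e j).source ∧ ∃ c : ℂ, ∀ k, F k j y = c * F k i x

/-- sections of `O` without common zeros, immersive, with finite fibres -/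
structure FD (O : LB A) where
  N : ℕ
  F : Fin (N + 1) → Fn A
  hs : ∀ k, IsHS O univ (F k)
  ne : ∀ i, ∀ x ∈ (A.e i).source, ∃ k, F k i x ≠ 0
  imm : ∀ i, ∀ z ∈ (A.e i).target, ∀ v : Cn n, (∃ c : ℂ, ∀ k,
    fderiv ℂ (fun w => F k i ((A.e i).symm w)) z v = c * F k i ((A.e i).symm z)) → v = 0
  fin : ∀ x, {y | Rel F x y}.Finite

theorem rel_iff {O : LB A} {N : ℕ} {F : Fin (N + 1) → Fn A} (hs : ∀ k, IsHS O univ (F k))
    {x y : M} {i j : A.ι} (hi : x ∈ (A.e i).source) (hj : y ∈ (A.e j).source) :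
    Rel F x y ↔ ∃ c : ℂ, ∀ k, F k j y = c * F k i x := by
  constructor
  · rintro ⟨i', j', hi', hj', c, hc⟩
    refine ⟨O.g j j' y * c * O.g i' i x, fun k => ?_⟩
    rw [(hs k).tr j j' y ⟨hj, hj'⟩ (mem_univ y), hc k,
      (hs k).tr i' i x ⟨hi', hi⟩ (mem_univ x)]
    ring
  · rintro ⟨c, hc⟩
    exact ⟨i, j, hi, hj, c, hc⟩

namespace FD

variable {O : LB A} (D : FD O)

/-! ### linear forms vanishing at a point -/

/-- the linear forms `a k0 F_k - a k F_{k0}` -/
def lform (a : Fin (D.N + 1) → ℂ) (k0 k : Fin (D.N + 1)) : Fn A :=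
  a k0 • D.F k - a k • D.F k0

theorem isHS_lform (a : Fin (D.N + 1) → ℂ) (k0 k : Fin (D.N + 1)) :
    IsHS O univ (D.lform a k0 k) := by
  have h := ((D.hs k).smul (a k0)).add ((D.hs k0).smul (- a k))
  have e : D.lform a k0 k = a k0 • D.F k + (- a k) • D.F k0 := by
    rw [lform, neg_smul, sub_eq_add_neg]
  rw [e]
  exact h

theorem lform_apply (a : Fin (D.N + 1) → ℂ) (k0 k : Fin (D.N + 1)) (i : A.ι) (x : M) :
    D.lform a k0 k i x = a k0 * D.F k i x - a k * D.F k0 i x := rfl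

theorem exists_forms (x0 : M) : ∃ ℓ : Fin (D.N + 1) → Fn A, (∀ j, IsHS O univ (ℓ j)) ∧
    (∀ j i y, Rel D.F x0 y → ℓ j i y = 0) ∧
    ∀ i, ∀ y ∈ (A.e i).source, ¬ Rel D.F x0 y → ∃ j, ℓ j i y ≠ 0 := by
  obtain ⟨i0, hi0⟩ := A.cover x0
  obtain ⟨k0, hk0⟩ := D.ne i0 x0 hi0
  refine ⟨fun k => D.lform (fun k => D.F k i0 x0) k0 k, fun k => D.isHS_lform _ _ _,
    fun k i y hy => ?_, fun i y hy hn => ?_⟩
  · show D.lform (fun k => D.F k i0 x0) k0 k i y = 0
    by_cases hi : y ∈ (A.e i).source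
    · obtain ⟨c, hc⟩ := (rel_iff D.hs hi0 hi).1 hy
      rw [lform_apply, hc, hc]
      ring
    · exact (D.isHS_lform _ _ _).off i y hi
  · by_contra h
    push Not at h
    refine hn ((rel_iff D.hs hi0 hy).2 ⟨D.F k0 i y / D.F k0 i0 x0, fun k => ?_⟩)
    have h1 : D.F k0 i0 x0 * D.F k i y - D.F k i0 x0 * D.F k0 i y = 0 := h k
    rw [sub_eq_zero] at h1
    rw [div_mul_eq_mul_div, eq_div_iff hk0, mul_comm, h1, mul_comm]

theorem rel_self (x : M) : Rel D.F x x := by
  obtain ⟨i, hi⟩ := A.cover x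
  exact ⟨i, i, hi, hi, 1, fun k => (one_mul _).symm⟩

end FD

/-! ### the projective case -/

theorem exists_sec_ne' (P : ProjD A) : ∀ i, ∀ x ∈ (A.e i).source, ∃ k, sec P k i x ≠ 0 :=
  fun _ _ hx => exists_sec_ne P hx

theorem rel_sec_iff (P : ProjD A) {x y : M} : Rel (fun k => sec P k) x y ↔ x = y := by
  constructor
  · rintro ⟨i, j, hi, hj, c, hc⟩
    refine (P.inj j i y hj x hi ⟨c, funext fun k => ?_⟩).symm
    have h1 : sec P k j y = c * sec P k i x := hc k
    rw [sec_eq P hi, sec_eq P hj] at h1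
    exact h1
  · rintro rfl
    obtain ⟨i, hi⟩ := A.cover x
    exact ⟨i, i, hi, hi, 1, fun k => (one_mul _).symm⟩

/-- the hyperplane sections of a projective embedding -/
def ofProj (P : ProjD A) : FD (lb P) where
  N := P.N
  F k := sec P k
  hs := isHS_sec P
  ne := exists_sec_ne' P
  imm i z hz v := by
    rintro ⟨c, hc⟩
    refine P.imm i z hz v ⟨c, funext fun k => ?_⟩
    have hFd : ∀ k, DifferentiableAt ℂ (fun w => P.F i ((A.e i).symm w) k) z := by
      intro k
      have h1 := (P.hol i k).diffAt isOpen_univ ((A.e i).map_target hz) (mem_univ _)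
      rwa [(A.e i).right_inv hz] at h1
    have h5 : fderiv ℂ (fun w => P.F i ((A.e i).symm w)) z v k =
        fderiv ℂ (fun w => P.F i ((A.e i).symm w) k) z v := by
      have h3 := fderiv_pi (h := fun k => hFd k)
      rw [show (fun w => fun k => P.F i ((A.e i).symm w) k) =
        fun w => P.F i ((A.e i).symm w) from rfl] at h3
      rw [h3]
      rfl
    have h6 : (fun w => sec P k i ((A.e i).symm w)) =ᶠ[𝓝 z]
        fun w => P.F i ((A.e i).symm w) k := by
      filter_upwards [(A.e i).open_target.mem_nhds hz] with w hw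
      exact sec_eq P ((A.e i).map_target hw) k
    rw [h5, ← h6.fderiv_eq, hc k, sec_eq P ((A.e i).map_target hz)]
    rfl
  fin x := by
    refine (finite_singleton x).subset fun y hy => ?_
    exact ((rel_sec_iff P).1 hy).symm

theorem lb_eq_of {P : ProjD A} {L : LB A}
    (h : ∀ i j, ∀ x ∈ (A.e i).source ∩ (A.e j).source, P.F i x = L.g i j x • P.F j x) :
    lb P = L := by
  ext i j x
  by_cases hx : x ∈ (A.e i).source ∩ (A.e j).source
  · obtain ⟨k, hk⟩ := exists_F_ne P hx.2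
    have h1 := congrFun (h i j x hx) k
    have h2 := congrFun (gij_spec P hx) k
    rw [Pi.smul_apply, smul_eq_mul] at h1 h2
    show gij P i j x = L.g i j x
    exact mul_right_cancel₀ hk (h2.symm.trans h1)
  · rw [L.off i j x hx]
    exact gij_off P hx

/-- an injective `FD` is a projective embedding -/
def FD.toProj {O : LB A} (D : FD O) (inj : ∀ x y, Rel D.F x y → x = y) : ProjD A where
  N := D.N
  F i x k := D.F k i x
  hol i k := (D.hs k).hol i
  ne i x hx h := by
    obtain ⟨k, hk⟩ := D.ne i x hx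
    exact hk (congrFun h k)
  tr i j x hx := ⟨O.g i j x, funext fun k => (D.hs k).tr i j x hx (mem_univ x)⟩
  inj i j x hx y hy := by
    rintro ⟨c, hc⟩
    exact (inj y x ⟨j, i, hy, hx, c, fun k => congrFun hc k⟩).symm
  imm i z hz v := by
    rintro ⟨c, hc⟩
    refine D.imm i z hz v ⟨c, fun k => ?_⟩
    have hFd : ∀ k, DifferentiableAt ℂ (fun w => D.F k i ((A.e i).symm w)) z := by
      intro k
      have h1 := ((D.hs k).hol i).diffAt isOpen_univ ((A.e i).map_target hz) (mem_univ _)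
      rwa [(A.e i).right_inv hz] at h1
    have h3 := fderiv_pi (h := fun k => hFd k)
    have h4 := congrFun hc k
    rw [show (fun w => fun k => D.F k i ((A.e i).symm w)) =
      fun w k => D.F k i ((A.e i).symm w) from rfl] at h3
    rw [h3] at h4
    exact h4

theorem lb_toProj {O : LB A} (D : FD O) (inj : ∀ x y, Rel D.F x y → x = y) :
    lb (D.toProj inj) = O :=
  lb_eq_of fun i j x hx => funext fun k => (D.hs k).tr i j x hx (mem_univ x)

/-! ### global generation -/

/-- a finite family of sections without common zeros -/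
def GGen (L : LB A) : Prop := ∃ r : ℕ, ∃ s : Fin r → Fn A, (∀ j, IsHS L univ (s j)) ∧
  ∀ i, ∀ x ∈ (A.e i).source, ∃ j, s j i x ≠ 0

section Gen

variable [T2Space M] {O : LB A}

/-- **global generation at a point**, with prescribed zeros at the other points of the fibre -/
theorem gg (D : FD O) (L : LB A) {m0 : ℕ}
    (hV : ∀ m, m0 ≤ m → ∀ q, 1 ≤ q → Solv (L * O ^ m) q) {m : ℕ} (hm : m0 + n ≤ m) (x0 : M) :
    ∃ s, IsHS (L * O ^ m) univ s ∧ (∀ i, x0 ∈ (A.e i).source → s i x0 ≠ 0) ∧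
      ∀ i y, Rel D.F x0 y → y ≠ x0 → s i y = 0 := by
  obtain ⟨ℓ, h1, h2, h3⟩ := D.exists_forms x0
  have hN : ∀ p : ℕ, (L * O ^ m * O⁻¹ ^ (p + 1)) * O = L * O ^ m * O⁻¹ ^ p := by
    intro p
    rw [pow_succ, ← mul_assoc, inv_mul_cancel_right]
  obtain ⟨s, h4, h5, h6⟩ := exists_at_fin O (fun p => L * O ^ m * O⁻¹ ^ p) hN ℓ h1
    (D.fin x0) (D.rel_self x0) (fun j i y hy => h2 j i y hy) (fun i y hy hn => h3 i y hy hn)
    (fun q hq hqn => by
      have e : L * O ^ m * O⁻¹ ^ q = L * O ^ (m - q) := by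
        have e1 : O ^ m = O ^ (m - q) * O ^ q := by
          rw [← pow_add, Nat.sub_add_cancel (by omega)]
        rw [e1, mul_assoc, mul_assoc, inv_pow, mul_inv_cancel, mul_one]
      show Solv (L * O ^ m * O⁻¹ ^ q) q
      rw [e]
      exact hV (m - q) (by omega) q hq)
  refine ⟨s, by simpa using h4, h5, fun i y hy hne => h6 i y hy hne⟩

variable [CompactSpace M]

theorem gg_fin_of {L : LB A}
    (h : ∀ x0 : M, ∃ s, IsHS L univ s ∧ ∀ i, x0 ∈ (A.e i).source → s i x0 ≠ 0) : GGen L := by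
  choose s hs hne using h
  let U : M → Set M := fun x0 => {x | ∃ i, x ∈ (A.e i).source ∧ s x0 i x ≠ 0}
  have hU : ∀ x0, IsOpen (U x0) := by
    intro x0
    rw [isOpen_iff_mem_nhds]
    rintro x ⟨i, hx, hxs⟩
    have hc : ContinuousAt (s x0 i) x :=
      (Dg199.SmAt.smN ((IsHS.smS (hs x0)).sm i) hx).continuousAt
    filter_upwards [(A.e i).open_source.mem_nhds hx, hc.eventually_ne hxs] with y hy hys
    exact ⟨i, hy, hys⟩
  have hxU : ∀ x, x ∈ U x := by
    intro x
    obtain ⟨i, hi⟩ := A.cover x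
    exact ⟨i, hi, hne x i hi⟩
  obtain ⟨t, ht⟩ := isCompact_univ.elim_nhds_subcover U fun x _ => (hU x).mem_nhds (hxU x)
  refine ⟨t.card, fun j => s (t.equivFin.symm j), fun j => hs _, fun i x hx => ?_⟩
  obtain ⟨y, hy, hxy⟩ := mem_iUnion₂.1 (ht.2 (mem_univ x))
  obtain ⟨k, hk, hks⟩ := hxy
  refine ⟨t.equivFin ⟨y, hy⟩, ?_⟩
  show s (t.equivFin.symm (t.equivFin ⟨y, hy⟩)) i x ≠ 0
  rw [Equiv.symm_apply_apply]
  intro h0
  exact hks (((hs y).zero_iff ⟨hx, hk⟩ (mem_univ x)).1 h0)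

/-- **global generation** -/
theorem gg_fin (D : FD O) (L : LB A) {m0 : ℕ}
    (hV : ∀ m, m0 ≤ m → ∀ q, 1 ≤ q → Solv (L * O ^ m) q) {m : ℕ} (hm : m0 + n ≤ m) :
    GGen (L * O ^ m) := gg_fin_of fun x0 => by
  obtain ⟨s, h1, h2, -⟩ := gg D L hV hm x0
  exact ⟨s, h1, h2⟩

end Gen

/-! ### products -/

theorem FD.ggen {O : LB A} (D : FD O) : GGen O := ⟨D.N + 1, D.F, D.hs, D.ne⟩

theorem ggen_lb (P : ProjD A) : GGen (lb P) := (ofProj P).ggen

theorem ggen_one : GGen (1 : LB A) :=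
  ⟨1, fun _ => oneS A, fun _ => isHS_oneS univ, fun i x hx => ⟨0, by simp [oneS, hx]⟩⟩

theorem GGen.mul {L L' : LB A} (h : GGen L) (h' : GGen L') : GGen (L * L') := by
  obtain ⟨r, s, hs, hne⟩ := h
  obtain ⟨r', s', hs', hne'⟩ := h'
  refine ⟨r * r', fun j => s (finProdFinEquiv.symm j).1 * s' (finProdFinEquiv.symm j).2,
    fun j => (hs _).mul (hs' _), fun i x hx => ?_⟩
  obtain ⟨a, ha⟩ := hne i x hx
  obtain ⟨b, hb⟩ := hne' i x hx
  refine ⟨finProdFinEquiv (a, b), ?_⟩
  show (s (finProdFinEquiv.symm (finProdFinEquiv (a, b))).1 *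
    s' (finProdFinEquiv.symm (finProdFinEquiv (a, b))).2) i x ≠ 0
  rw [Equiv.symm_apply_apply]
  exact mul_ne_zero ha hb

theorem GGen.pow {L : LB A} (h : GGen L) (m : ℕ) : GGen (L ^ m) := by
  induction m with
  | zero => rw [pow_zero]; exact ggen_one
  | succ m ih => rw [pow_succ]; exact ih.mul h

/-- every globally generated bundle has a generating family indexed by `Fin (r + 1)` -/
theorem GGen.succ {L : LB A} (h : GGen L) : ∃ r : ℕ, ∃ s : Fin (r + 1) → Fn A,
    (∀ j, IsHS L univ (s j)) ∧ ∀ i, ∀ x ∈ (A.e i).source, ∃ j, s j i x ≠ 0 := by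
  obtain ⟨r, s, hs, hne⟩ := h
  refine ⟨r, Fin.cons 0 s, fun j => ?_, fun i x hx => ?_⟩
  · refine Fin.cases ?_ (fun j => ?_) j
    · exact IsHS.zero
    · exact hs j
  · obtain ⟨j, hj⟩ := hne i x hx
    exact ⟨j.succ, hj⟩

section Mul

variable {O L : LB A} (D : FD O) {r : ℕ} (s : Fin (r + 1) → Fn A)
  (e : Fin (r * (D.N + 1) + D.N + 1) ≃ Fin (r + 1) × Fin (D.N + 1))

/-- the products `s a * F k` -/
def mulF (j : Fin (r * (D.N + 1) + D.N + 1)) : Fn A := s (e j).1 * D.F (e j).2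

theorem mulF_apply (a : Fin (r + 1)) (k : Fin (D.N + 1)) (i : A.ι) (x : M) :
    mulF D s e (e.symm (a, k)) i x = s a i x * D.F k i x := by
  unfold mulF
  rw [Equiv.apply_symm_apply]
  rfl

theorem mulF_rel (hne : ∀ i, ∀ x ∈ (A.e i).source, ∃ j, s j i x ≠ 0) {x y : M}
    (h : Rel (mulF D s e) x y) : Rel D.F x y := by
  obtain ⟨i, j, hi, hj, c, hc⟩ := h
  obtain ⟨a, ha⟩ := hne j y hj
  refine ⟨i, j, hi, hj, c * s a i x / s a j y, fun k => ?_⟩
  have h1 := hc (e.symm (a, k))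
  rw [mulF_apply, mulF_apply] at h1
  rw [div_mul_eq_mul_div, eq_div_iff ha, mul_comm, h1]
  ring

/-- the product of an `FD` with a generating family -/
def FD.mul (hs : ∀ j, IsHS L univ (s j)) (hne : ∀ i, ∀ x ∈ (A.e i).source, ∃ j, s j i x ≠ 0) :
    FD (L * O) where
  N := r * (D.N + 1) + D.N
  F := mulF D s e
  hs j := (hs _).mul (D.hs _)
  ne i x hx := by
    obtain ⟨a, ha⟩ := hne i x hx
    obtain ⟨k, hk⟩ := D.ne i x hx
    exact ⟨e.symm (a, k), by rw [mulF_apply]; exact mul_ne_zero ha hk⟩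
  imm i z hz v := by
    rintro ⟨c, hc⟩
    have hx := (A.e i).map_target hz
    obtain ⟨a, ha⟩ := hne i _ hx
    have hFd : ∀ k, DifferentiableAt ℂ (fun w => D.F k i ((A.e i).symm w)) z := by
      intro k
      have h1 := ((D.hs k).hol i).diffAt isOpen_univ hx (mem_univ _)
      rwa [(A.e i).right_inv hz] at h1
    have hsd : DifferentiableAt ℂ (fun w => s a i ((A.e i).symm w)) z := by
      have h1 := ((hs a).hol i).diffAt isOpen_univ hx (mem_univ _)
      rwa [(A.e i).right_inv hz] at h1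
    refine D.imm i z hz v ⟨c - fderiv ℂ (fun w => s a i ((A.e i).symm w)) z v /
      s a i ((A.e i).symm z), fun k => ?_⟩
    have h1 := hc (e.symm (a, k))
    have h4 : (fun w => mulF D s e (e.symm (a, k)) i ((A.e i).symm w)) =
        fun w => s a i ((A.e i).symm w) * D.F k i ((A.e i).symm w) := by
      funext w
      exact mulF_apply D s e a k i _
    rw [h4, fderiv_fun_mul hsd (hFd k), mulF_apply] at h1
    simp only [_root_.add_apply, _root_.smul_apply, smul_eq_mul] at h1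
    field_simp
    linear_combination h1
  fin x := (D.fin x).subset fun _ hy => mulF_rel D s e hne hy

end Mul

/-- the index equivalence -/
def eqv (r N : ℕ) : Fin (r * (N + 1) + N + 1) ≃ Fin (r + 1) × Fin (N + 1) :=
  (finCongr (by ring)).trans finProdFinEquiv.symm

/-- **very ampleness** -/
theorem projMul (P : ProjD A) {L : LB A} (hL : GGen L) : ∃ P' : ProjD A, lb P' = L * lb P := by
  obtain ⟨r, s, hs, hne⟩ := hL.succ
  have inj : ∀ x y, Rel ((ofProj P).mul s (eqv r P.N) hs hne).F x y → x = y := fun x y h =>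
    (rel_sec_iff P).1 (mulF_rel (ofProj P) s (eqv r P.N) hne h)
  exact ⟨((ofProj P).mul s (eqv r P.N) hs hne).toProj inj, lb_toProj _ inj⟩

/-- powers of the hyperplane bundle are very ample -/
theorem exists_proj_pow (P : ProjD A) (m : ℕ) : ∃ P' : ProjD A, lb P' = lb P ^ (m + 1) := by
  obtain ⟨P', h⟩ := projMul P ((ggen_lb P).pow m)
  exact ⟨P', by rw [h, pow_succ]⟩

/-- **very ampleness of `L * O ^ m`** -/
theorem exists_projD [T2Space M] [CompactSpace M] {O : LB A} (D : FD O) (L : LB A)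
    (hfd : ∀ N : LB A, FiniteDimensional ℂ (HS N univ)) {m0 : ℕ}
    (hV : ∀ m, m0 ≤ m → ∀ q, 1 ≤ q → Solv (L * O ^ m) q) {m : ℕ} (hm : m0 + n + 1 ≤ m) :
    ∃ P' : ProjD A, lb P' = L * O ^ m := by
  have hm' : m0 + n ≤ m - 1 := by omega
  have := hfd (L * O ^ (m - 1))
  let b := Module.finBasis ℂ (HS (L * O ^ (m - 1)) univ)
  let r := Module.finrank ℂ (HS (L * O ^ (m - 1)) univ)
  let s : Fin (r + 1) → Fn A := Fin.cons 0 fun a => (b a : Fn A)
  have hs : ∀ j, IsHS (L * O ^ (m - 1)) univ (s j) := by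
    intro j
    refine Fin.cases ?_ (fun j => ?_) j
    · exact IsHS.zero
    · exact (b j).2
  have hcomb : ∀ t, IsHS (L * O ^ (m - 1)) univ t → ∃ c : Fin (r + 1) → ℂ, ∀ i x,
      t i x = ∑ a, c a * s a i x := by
    intro t ht
    refine ⟨Fin.cons 0 fun a => b.repr ⟨t, ht⟩ a, fun i x => ?_⟩
    rw [Fin.sum_univ_succ]
    have h1 : t = ∑ a, b.repr ⟨t, ht⟩ a • (b a : Fn A) := by
      have h2 := congrArg Subtype.val (b.sum_repr ⟨t, ht⟩)
      rw [AddSubmonoidClass.coe_finsetSum] at h2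
      exact h2.symm
    have h3 : t i x = ∑ a, (b.repr ⟨t, ht⟩ a • (b a : Fn A)) i x := by
      conv_lhs => rw [h1]
      rw [Finset.sum_apply, Finset.sum_apply]
    rw [h3]
    simp only [s, Fin.cons_zero, Fin.cons_succ, Pi.smul_apply, smul_eq_mul, zero_mul, zero_add]
    rfl
  have hne : ∀ i, ∀ x ∈ (A.e i).source, ∃ j, s j i x ≠ 0 := by
    intro i x hx
    obtain ⟨t, ht, htx, -⟩ := gg D L hV hm' x
    obtain ⟨c, hc⟩ := hcomb t ht
    by_contra h
    push Not at h
    refine htx i hx ?_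
    rw [hc]
    exact Finset.sum_eq_zero fun a _ => by rw [h a, mul_zero]
  have inj : ∀ x y, Rel (D.mul s (eqv r D.N) hs hne).F x y → x = y := by
    intro x y h
    by_contra hxy
    have hr : Rel D.F x y := mulF_rel D s (eqv r D.N) hne h
    obtain ⟨i, j, hi, hj, c, hc⟩ := h
    obtain ⟨t, ht, htx, hty⟩ := gg D L hV hm' x
    obtain ⟨d, hd⟩ := hcomb t ht
    have h1 : ∀ k a, s a j y * D.F k j y = c * (s a i x * D.F k i x) := by
      intro k a
      have := hc ((eqv r D.N).symm (a, k))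
      have h2 : (D.mul s (eqv r D.N) hs hne).F = mulF D s (eqv r D.N) := rfl
      rw [h2, mulF_apply, mulF_apply] at this
      exact this
    have h2 : ∀ k, t j y * D.F k j y = c * (t i x * D.F k i x) := by
      intro k
      rw [hd, hd, Finset.sum_mul, Finset.sum_mul, Finset.mul_sum]
      refine Finset.sum_congr rfl fun a _ => ?_
      linear_combination d a * h1 k a
    have h3 : c = 0 := by
      obtain ⟨k, hk⟩ := D.ne i x hi
      have h4 := h2 k
      rw [hty j y hr (Ne.symm hxy), zero_mul] at h4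
      rcases mul_eq_zero.1 h4.symm with h5 | h5
      · exact h5
      · exact absurd h5 (mul_ne_zero (htx i hi) hk)
    obtain ⟨l, hl⟩ := (D.mul s (eqv r D.N) hs hne).ne j y hj
    exact hl (by rw [hc l, h3, zero_mul])
  refine ⟨(D.mul s (eqv r D.N) hs hne).toProj inj, ?_⟩
  rw [lb_toProj, mul_assoc, ← pow_succ, Nat.sub_add_cancel (by omega)]

end

end Crest.Agent.R273.SerC_945
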