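import Crest.Agent.R273.Chow_313
import Mathlib.RingTheory.Polynomial.Basic
import Mathlib.LinearAlgebra.Matrix.Charpoly.Basic
import Mathlib.FieldTheory.IsAlgClosed.Basic

/-!
# R273 (S0416), leaf CHOW, part 3 (helper313): sections of `O^d` are integral and rational over the
coordinates

`L = lf F l = ∑ l k • F k`, `ρ k = F k / L`, `v = t / L^d` for `t ∈ H⁰(O^d)`, on `nz L = {L ≠ 0}`.
* `chow_vec'`, `chow_alg'` : Chow's theorem for an arbitrary finite index type;
* `exists_monic` : `v` satisfies a monic equation over `ℂ[X]` evaluated at `ρ`;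
* `exists_rat`   : `q(ρ) v = a(ρ)`, `q(ρ) ≢ 0` (if `F` separates the points).
-/

set_option autoImplicit false
set_option linter.unusedSectionVars false

open Set Filter Topology Complex
open scoped ContDiff Matrix ComplexConjugate Kronecker Polynomial

namespace Crest.Agent.R273.Chow_313

open Crest.Agent.R275 Crest.Agent.R275.Geo Crest.Agent.R275.Core144 Crest.Agent.R275.Dg199
open Crest.Agent.R273.LamN127 Crest.Agent.R273.KosAb_619 Crest.Agent.R273.SerA_945
open Crest.Agent.R273.SerB_945 Crest.Agent.R273.SerC_945 Crest.Agent.R273.KosGen_313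
open Crest.Agent.R273.Defs_333 Crest.Agent.R273.FS_333 Crest.Agent.R273.SteinC_794

noncomputable section

variable {n : ℕ} {M : Type} [TopologicalSpace M] {A : Atl n M} {r : ℕ} {O : LB A}

section Main

variable [T2Space M] [ConnectedSpace M]

/-! ### arbitrary finite index types -/

theorem chow_vec' {σ : Type*} [Fintype σ] {F : σ → Fn A} (hF : ∀ k, IsHS O univ (F k))
    (hne : ∀ i, ∀ x ∈ (A.e i).source, ∃ k, F k i x ≠ 0)
    (hfd : ∀ k : ℕ, FiniteDimensional ℂ (HS (O ^ k) univ)) {m0 : ℕ}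
    (hV : ∀ m, m0 ≤ m → ∀ q, 1 ≤ q → Solv (O ^ m) q) (v : σ → ℂ) (hv : v ≠ 0)
    (hrel : ∀ d, ∀ p : MvPolynomial σ ℂ, p.IsHomogeneous d →
      (∀ i, ∀ x ∈ (A.e i).source, MvPolynomial.eval (fun k => F k i x) p = 0) →
      MvPolynomial.eval v p = 0) :
    ∃ i, ∃ x ∈ (A.e i).source, ∃ c : ℂ, c ≠ 0 ∧ v = c • fun k => F k i x := by
  let e := (Fintype.equivFin σ).symm
  obtain ⟨i, x, hx, c, hc, h⟩ := chow_vec (F := fun k => F (e k)) (fun k => hF (e k))
    (fun i x hx => by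
      obtain ⟨k, hk⟩ := hne i x hx
      exact ⟨e.symm k, by rw [Equiv.apply_symm_apply]; exact hk⟩) hfd hV (v ∘ e)
    (fun h => hv (by
      funext k
      have := congrFun h (e.symm k)
      rwa [Function.comp_apply, Equiv.apply_symm_apply] at this))
    (fun d p hp h => by
      have h1 := hrel d (MvPolynomial.rename e p) (MvPolynomial.IsHomogeneous.rename_isHomogeneous hp)
        fun i x hx => by
          rw [MvPolynomial.eval_rename]
          exact h i x hx
      rwa [MvPolynomial.eval_rename] at h1)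
  refine ⟨i, x, hx, c, hc, funext fun k => ?_⟩
  have := congrFun h (e.symm k)
  simpa using this

theorem chow_alg' {σ : Type*} [Fintype σ] {F : σ → Fn A} (hF : ∀ k, IsHS O univ (F k))
    (hne : ∀ i, ∀ x ∈ (A.e i).source, ∃ k, F k i x ≠ 0)
    (hfd : ∀ k : ℕ, FiniteDimensional ℂ (HS (O ^ k) univ)) {m0 : ℕ}
    (hV : ∀ m, m0 ≤ m → ∀ q, 1 ≤ q → Solv (O ^ m) q) {B : Type*} [CommRing B] [Algebra ℂ B]
    (R : σ → B) (l : σ → ℂ) (hl : ∑ k, l k • R k = 1)
    (hrel : ∀ d, ∀ p : MvPolynomial σ ℂ, p.IsHomogeneous d →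
      (∀ i, ∀ x ∈ (A.e i).source, MvPolynomial.eval (fun k => F k i x) p = 0) →
      MvPolynomial.aeval R p = 0) (χ : B →ₐ[ℂ] ℂ) :
    ∃ i, ∃ x ∈ (A.e i).source, ∑ k, l k * F k i x ≠ 0 ∧
      ∀ k, χ (R k) = F k i x / ∑ k, l k * F k i x := by
  have h1 : ∑ k, l k * χ (R k) = 1 := by
    have := congrArg χ hl
    rw [map_sum, map_one] at this
    rw [← this]
    exact Finset.sum_congr rfl fun k _ => by rw [map_smul, smul_eq_mul]
  have hv : (fun k => χ (R k)) ≠ 0 := by
    intro h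
    rw [Finset.sum_eq_zero fun k _ => by rw [congrFun h k, Pi.zero_apply, mul_zero]] at h1
    exact zero_ne_one h1
  obtain ⟨i, x, hx, c, hc, h2⟩ := chow_vec' hF hne hfd hV (fun k => χ (R k)) hv
    fun d p hp h => by
      have h3 := hrel d p hp h
      have h4 : MvPolynomial.eval (fun k => χ (R k)) p = χ (MvPolynomial.aeval R p) := by
        have h5 : (χ.comp (MvPolynomial.aeval R)) p = MvPolynomial.aeval (fun k => χ (R k)) p := by
          rw [MvPolynomial.comp_aeval]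
        rw [← MvPolynomial.coe_aeval_eq_eval]
        exact h5.symm
      rw [h4, h3, map_zero]
  have h3 : ∀ k, χ (R k) = c * F k i x := fun k => congrFun h2 k
  have h4 : c * ∑ k, l k * F k i x = 1 := by
    rw [← h1, Finset.mul_sum]
    exact Finset.sum_congr rfl fun k _ => by rw [h3 k]; ring
  have h5 : ∑ k, l k * F k i x ≠ 0 := fun h => by
    rw [h, mul_zero] at h4
    exact zero_ne_one h4
  refine ⟨i, x, hx, h5, fun k => ?_⟩
  rw [h3 k, eq_div_iff h5, mul_assoc, mul_comm (F k i x), ← mul_assoc, h4, one_mul]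

/-! ### generation by the coordinates -/

/-- one step of generation -/
theorem exists_gen {F : Fin r → Fn A} (hF : ∀ k, IsHS O univ (F k))
    (hne : ∀ i, ∀ x ∈ (A.e i).source, ∃ k, F k i x ≠ 0) {m0 m : ℕ} (hm : m0 + n ≤ m)
    (hV : ∀ m, m0 ≤ m → ∀ q, 1 ≤ q → Solv (O ^ m) q) {t : Fn A}
    (ht : IsHS (O ^ (m + 1)) univ t) :
    ∃ w : Fin r → Fn A, (∀ k, IsHS (O ^ m) univ (w k)) ∧ t = ∑ k, F k * w k := by
  have hN : ∀ p : ℕ, (O ^ (m + 1) * O⁻¹ ^ (p + 1)) * O = O ^ (m + 1) * O⁻¹ ^ p := by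
    intro p
    rw [pow_succ O⁻¹, ← mul_assoc, inv_mul_cancel_right]
  have hNq : ∀ q : ℕ, q ≤ m + 1 → O ^ (m + 1) * O⁻¹ ^ q = O ^ (m + 1 - q) := by
    intro q hq
    have e1 : O ^ (m + 1) = O ^ (m + 1 - q) * O ^ q := by
      rw [← pow_add, Nat.sub_add_cancel hq]
    rw [e1, mul_assoc, inv_pow, mul_inv_cancel, mul_one]
  have h1 : IsHS ((fun p : ℕ => O ^ (m + 1) * O⁻¹ ^ p) 0) univ t := by
    show IsHS (O ^ (m + 1) * O⁻¹ ^ 0) univ _
    rw [hNq 0 (Nat.zero_le _), Nat.sub_zero]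
    exact ht
  obtain ⟨w, hw, hs⟩ := kosgen O (fun p => O ^ (m + 1) * O⁻¹ ^ p) hN F hF hne
    (fun q hq hqn => by
      show Solv (O ^ (m + 1) * O⁻¹ ^ (q + 1)) q
      rw [hNq (q + 1) (by omega)]
      exact hV _ (by omega) q hq) h1
  refine ⟨w, fun k => ?_, hs⟩
  have h2 := hw k
  rw [hNq 1 (by omega)] at h2
  exact h2

/-- sections of `O^(m+d)` are combinations of sections of `O^m` with coefficients which are
homogeneous polynomials of degree `d` -/
theorem exists_poly_coef {F : Fin r → Fn A} (hF : ∀ k, IsHS O univ (F k))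
    (hne : ∀ i, ∀ x ∈ (A.e i).source, ∃ k, F k i x ≠ 0) {m0 m : ℕ} (hm : m0 + n ≤ m)
    (hV : ∀ m, m0 ≤ m → ∀ q, 1 ≤ q → Solv (O ^ m) q)
    {D : ℕ} (b : Module.Basis (Fin D) ℂ (HS (O ^ m) univ)) (d : ℕ) :
    ∀ t : Fn A, IsHS (O ^ (m + d)) univ t → ∃ p : Fin D → MvPolynomial (Fin r) ℂ,
      (∀ a, (p a).IsHomogeneous d) ∧ ∀ i, ∀ x ∈ (A.e i).source,
        t i x = ∑ a, MvPolynomial.eval (fun k => F k i x) (p a) * (b a : Fn A) i x := by
  induction d with
  | zero =>
    intro t ht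
    refine ⟨fun a => MvPolynomial.C (b.repr ⟨t, ht⟩ a), fun a => MvPolynomial.isHomogeneous_C _ _,
      fun i x hx => ?_⟩
    have h3 := congrArg Subtype.val (b.sum_repr ⟨t, ht⟩)
    rw [AddSubmonoidClass.coe_finsetSum] at h3
    have h4 := congrFun (congrFun h3 i) x
    rw [Finset.sum_apply, Finset.sum_apply] at h4
    refine (show t i x = _ from h4.symm).trans (Finset.sum_congr rfl fun a _ => ?_)
    rw [MvPolynomial.eval_C]
    rfl
  | succ d ih =>
    intro t ht
    obtain ⟨w, hw, hs⟩ := exists_gen hF hne (m := m + d) (by omega) hV ht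
    choose p hp1 hp2 using fun k => ih (w k) (hw k)
    refine ⟨fun a => ∑ k, MvPolynomial.X k * p k a, fun a => ?_, fun i x hx => ?_⟩
    · refine MvPolynomial.IsHomogeneous.sum _ _ _ fun k _ => ?_
      rw [add_comm d 1]
      exact (MvPolynomial.isHomogeneous_X ℂ k).mul (hp1 k a)
    · have h1 : t i x = ∑ k, F k i x * w k i x := by
        rw [hs, Finset.sum_apply, Finset.sum_apply]
        rfl
      rw [h1]
      have h2 : ∀ k, F k i x * w k i x = ∑ a, MvPolynomial.eval (fun k => F k i x)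
          (MvPolynomial.X k * p k a) * (b a : Fn A) i x := by
        intro k
        rw [hp2 k i x hx, Finset.mul_sum]
        refine Finset.sum_congr rfl fun a _ => ?_
        rw [map_mul, MvPolynomial.eval_X, mul_assoc]
      rw [Finset.sum_congr rfl fun k _ => h2 k, Finset.sum_comm]
      refine Finset.sum_congr rfl fun a _ => ?_
      rw [map_sum, Finset.sum_mul]

/-! ### the affine part -/

/-- the linear form `∑ l k F k` -/
def lf (F : Fin r → Fn A) (l : Fin r → ℂ) : Fn A := ∑ k, l k • F k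

theorem lf_apply (F : Fin r → Fn A) (l : Fin r → ℂ) (i : A.ι) (x : M) :
    lf F l i x = ∑ k, l k * F k i x := by
  unfold lf
  rw [Finset.sum_apply, Finset.sum_apply]
  rfl

theorem isHS_lf {F : Fin r → Fn A} (hF : ∀ k, IsHS O univ (F k)) (l : Fin r → ℂ) :
    IsHS O univ (lf F l) := isHS_sum _ fun k _ => (hF k).smul (l k)

/-- power of a section (corrected off the charts for the exponent `0`) -/
theorem isHS_one : IsHS (1 : LB A) univ (evF (fun _ : Fin 0 => (0 : Fn A)) 1) :=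
  isHS_evF (O := 1) (d := 0) (fun k => k.elim0) (MvPolynomial.isHomogeneous_one _ _)

/-- the powers of `L` as sections of `O^d` -/
def Lp (F : Fin r → Fn A) (l : Fin r → ℂ) (d : ℕ) : Fn A :=
  evF (fun _ : Fin 1 => lf F l) (MvPolynomial.X 0 ^ d)

theorem isHS_Lp {F : Fin r → Fn A} (hF : ∀ k, IsHS O univ (F k)) (l : Fin r → ℂ) (d : ℕ) :
    IsHS (O ^ d) univ (Lp F l d) := by
  refine isHS_evF (fun _ => isHS_lf hF l) ?_
  have := (MvPolynomial.isHomogeneous_X ℂ (0 : Fin 1)).pow d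
  rwa [one_mul] at this

theorem Lp_apply (F : Fin r → Fn A) (l : Fin r → ℂ) (d : ℕ) {i : A.ι} {x : M}
    (hx : x ∈ (A.e i).source) : Lp F l d i x = lf F l i x ^ d := by
  unfold Lp
  rw [evF_apply _ _ hx, map_pow, MvPolynomial.eval_X]

/-- the affine coordinates -/
def rh (F : Fin r → Fn A) (l : Fin r → ℂ) (x : M) (k : Fin r) : ℂ := qt (F k) (lf F l) x

/-- the function `t / L^d` -/
def vt (F : Fin r → Fn A) (l : Fin r → ℂ) (d : ℕ) (t : Fn A) (x : M) : ℂ := qt t (Lp F l d) x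

section Aff

variable {F : Fin r → Fn A} (hF : ∀ k, IsHS O univ (F k)) (l : Fin r → ℂ)

include hF

theorem rh_eq {i : A.ι} {x : M} (hx : x ∈ (A.e i).source) :
    rh F l x = fun k => F k i x / lf F l i x :=
  funext fun k => qt_eq (hF k) (isHS_lf hF l) hx

theorem vt_eq {d : ℕ} {t : Fn A} (ht : IsHS (O ^ d) univ t) {i : A.ι} {x : M}
    (hx : x ∈ (A.e i).source) : vt F l d t x = t i x / lf F l i x ^ d := by
  unfold vt
  rw [qt_eq ht (isHS_Lp hF l d) hx, Lp_apply F l d hx]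

/-- a homogeneous polynomial at the affine coordinates -/
theorem eval_rh {d : ℕ} {p : MvPolynomial (Fin r) ℂ} (hp : p.IsHomogeneous d) {i : A.ι} {x : M}
    (hx : x ∈ (A.e i).source) : MvPolynomial.eval (rh F l x) p =
      MvPolynomial.eval (fun k => F k i x) p / lf F l i x ^ d := by
  have h1 : rh F l x = (lf F l i x)⁻¹ • fun k => F k i x := by
    rw [rh_eq hF l hx]
    funext k
    rw [Pi.smul_apply, smul_eq_mul, div_eq_mul_inv, mul_comm]
  rw [h1, eval_smul hp, inv_pow, div_eq_mul_inv, mul_comm]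

theorem continuousAt_rh {x : M} (hx : x ∈ nz (lf F l)) (k : Fin r) :
    ContinuousAt (fun x => rh F l x k) x := by
  obtain ⟨i, hi⟩ := A.cover x
  exact continuousAt_of_holAt (isOpen_nz (isHS_lf hF l)) (qt_hol (hF k) (isHS_lf hF l) i) hi hx

theorem nz_Lp {d : ℕ} {x : M} (hx : x ∈ nz (lf F l)) : x ∈ nz (Lp F l d) := by
  obtain ⟨i, hi⟩ := A.cover x
  rw [mem_nz (isHS_Lp hF l d) hi, Lp_apply F l d hi]
  exact pow_ne_zero _ ((mem_nz (isHS_lf hF l) hi).1 hx)

theorem continuousAt_vt {d : ℕ} {t : Fn A} (ht : IsHS (O ^ d) univ t) {x : M}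
    (hx : x ∈ nz (lf F l)) : ContinuousAt (vt F l d t) x := by
  obtain ⟨i, hi⟩ := A.cover x
  exact continuousAt_of_holAt (isOpen_nz (isHS_Lp hF l d)) (qt_hol ht (isHS_Lp hF l d) i) hi
    (nz_Lp hF l hx)

theorem continuousAt_eval {x : M} (hx : x ∈ nz (lf F l)) (p : MvPolynomial (Fin r) ℂ) :
    ContinuousAt (fun x => MvPolynomial.eval (rh F l x) p) x := by
  have h1 : ContinuousAt (rh F l) x := continuousAt_pi.2 fun k => continuousAt_rh hF l hx k
  exact ContinuousAt.comp (g := fun u => MvPolynomial.eval u p)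
    (MvPolynomial.continuous_eval p).continuousAt h1

theorem continuousAt_evalG {d : ℕ} {t : Fn A} (ht : IsHS (O ^ d) univ t) {x : M}
    (hx : x ∈ nz (lf F l)) (G : (MvPolynomial (Fin r) ℂ)[X]) :
    ContinuousAt (fun x => (G.map (MvPolynomial.eval (rh F l x))).eval (vt F l d t x)) x := by
  have h1 : (fun x => (G.map (MvPolynomial.eval (rh F l x))).eval (vt F l d t x)) =
      fun x => ∑ e ∈ Finset.range (G.natDegree + 1),
        MvPolynomial.eval (rh F l x) (G.coeff e) * vt F l d t x ^ e := by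
    funext x
    rw [Polynomial.eval_map, Polynomial.eval₂_eq_sum_range]
  rw [h1]
  exact tendsto_finsetSum _ fun e _ =>
    (continuousAt_eval hF l hx (G.coeff e)).mul ((continuousAt_vt hF l ht hx).pow e)

end Aff

/-- the zero set of a section is nowhere dense -/
theorem eq_zero_of_mul' {L' : LB A} {t : Fn A} (ht : IsHS L' univ t) (hne : ∃ i x, t i x ≠ 0)
    {V : Set M} (hV : IsOpen V) {f : M → ℂ} (hf : ∀ x ∈ V, ContinuousAt f x)
    (h : ∀ i, ∀ x ∈ (A.e i).source, x ∈ V → f x * t i x = 0) : ∀ x ∈ V, f x = 0 := by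
  intro x hx
  obtain ⟨i, hi⟩ := A.cover x
  by_contra hcon
  have h2 := UCov_914.IsHS.dense_ne ht hne hi
  have h3 : ∀ᶠ y in 𝓝 x, y ∈ (A.e i).source := (A.e i).open_source.mem_nhds hi
  have h4 : ∀ᶠ y in 𝓝 x, y ∈ V := hV.mem_nhds hx
  obtain ⟨y, hy1, hy2, hy3, hy4⟩ := (h2.and_eventually (((hf x hx).eventually_ne hcon).and
      (h3.and h4))).exists
  exact (mul_ne_zero hy2 hy1) (h i y hy3 hy4)

/-- **integrality** : `t / L^d` satisfies a monic equation with polynomial coefficients -/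
theorem exists_monic {F : Fin r → Fn A} (hF : ∀ k, IsHS O univ (F k))
    (hne : ∀ i, ∀ x ∈ (A.e i).source, ∃ k, F k i x ≠ 0)
    (hfd : ∀ k : ℕ, FiniteDimensional ℂ (HS (O ^ k) univ)) {m0 : ℕ}
    (hV : ∀ m, m0 ≤ m → ∀ q, 1 ≤ q → Solv (O ^ m) q) (l : Fin r → ℂ) {d : ℕ} {t : Fn A}
    (ht : IsHS (O ^ d) univ t) :
    ∃ G : (MvPolynomial (Fin r) ℂ)[X], G.Monic ∧ ∀ x ∈ nz (lf F l),
      (G.map (MvPolynomial.eval (rh F l x))).eval (vt F l d t x) = 0 := by
  have := hfd (m0 + n + 1)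
  let b := Module.finBasis ℂ (HS (O ^ (m0 + n + 1)) univ)
  have key : ∀ a, ∃ p : Fin _ → MvPolynomial (Fin r) ℂ, (∀ a', (p a').IsHomogeneous d) ∧
      ∀ i, ∀ x ∈ (A.e i).source, (t * (b a : Fn A)) i x =
        ∑ a', MvPolynomial.eval (fun k => F k i x) (p a') * (b a' : Fn A) i x := by
    intro a
    refine exists_poly_coef hF hne (by omega) hV b d _ ?_
    rw [pow_add, mul_comm (O ^ (m0 + n + 1))]
    exact ht.mul (b a).2
  choose p hp1 hp2 using key
  let T : Matrix _ _ (MvPolynomial (Fin r) ℂ) := Matrix.of p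
  refine ⟨T.charpoly, T.charpoly_monic, ?_⟩
  -- the point of reference
  obtain ⟨x0⟩ := (inferInstance : Nonempty M)
  obtain ⟨i0, hi0⟩ := A.cover x0
  obtain ⟨k, hk⟩ := hne i0 x0 hi0
  obtain ⟨a, ha⟩ := exists_basis_ne b (isHS_pow (hF k) (m0 + n)) (i := i0) (x := x0)
    (show F k i0 x0 ^ (m0 + n + 1) ≠ 0 from pow_ne_zero _ hk)
  refine eq_zero_of_mul' (b a).2 ⟨i0, x0, ha⟩ (isOpen_nz (isHS_lf hF l))
    (fun x hx => continuousAt_evalG hF l ht hx T.charpoly) fun i x hx hxn => ?_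
  have hL : lf F l i x ≠ 0 := (mem_nz (isHS_lf hF l) hx).1 hxn
  rw [← Matrix.charpoly_map, Matrix.eval_charpoly]
  refine det_mul_eq_zero _ (fun a => (b a : Fn A) i x) ?_ a
  funext a
  rw [Matrix.sub_mulVec, Matrix.scalar_apply, Pi.sub_apply, Matrix.mulVec_diagonal]
  show vt F l d t x * (b a : Fn A) i x - (∑ a', MvPolynomial.eval (rh F l x) (p a a') *
    (b a' : Fn A) i x) = 0
  have h1 := hp2 a i x hx
  have h2 : (t * (b a : Fn A)) i x = t i x * (b a : Fn A) i x := rfl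
  rw [h2] at h1
  rw [vt_eq hF l ht hx, div_mul_eq_mul_div, h1, sub_eq_zero, Finset.sum_div]
  refine Finset.sum_congr rfl fun a' _ => ?_
  rw [eval_rh hF l (hp1 a a') hx, div_mul_eq_mul_div]

end Main

end

end Crest.Agent.R273.Chow_313
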