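import Mathlib.Algebra.Group.ForwardDiff
import Mathlib.Algebra.Polynomial.Module.Basic
import Mathlib.Algebra.Polynomial.BigOperators
import Mathlib.Algebra.Polynomial.Roots
import Mathlib.Algebra.Polynomial.AlgebraMap
import Mathlib.Data.Int.Basic
import Mathlib.LinearAlgebra.Span.Basic
import Mathlib.RingTheory.Polynomial.Basic
import Mathlib.Tactic.Abel
import Mathlib.Tactic.Module
import Mathlib.Tactic.LinearCombination
import Mathlib.Algebra.Order.Floor.Ring
import Mathlib.Algebra.Order.Archimedean.Basic

/-!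
# R273, D.4 (helper290), algebra: functions on `ℤ` with a vanishing iterated difference

* `exists_poly_of_fwdDiff` : `Δ^k F = 0` for `F : ℤ → ℚ` gives a polynomial;
* `exists_coeff_of_fwdDiff` : the same for values in a `ℚ`-vector space;
* `exists_poly₂` : two variables.
-/

set_option autoImplicit false

open Polynomial

namespace Crest.Agent.R273.DiffPoly_290

/-- every polynomial is a difference of a polynomial -/
theorem exists_antidiff (q : ℚ[X]) : ∃ p : ℚ[X], p.comp (X + 1) - p = q := by
  induction hn : q.natDegree using Nat.strong_induction_on generalizing q with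
  | _ d ih =>
    by_cases hd : q = 0
    · exact ⟨0, by simp [hd]⟩
    -- leading term
    set c : ℚ := q.leadingCoeff / (d + 1) with hc
    set r : ℚ[X] := C c * X ^ (d + 1) with hr
    set q' : ℚ[X] := q - (r.comp (X + 1) - r) with hq'
    have hd1 : ((d : ℚ) + 1) ≠ 0 := by positivity
    have key : q'.natDegree < d ∨ q' = 0 := by
      have h1 : (r.comp (X + 1) - r) = C c * ((X + 1) ^ (d + 1) - X ^ (d + 1)) := by
        rw [hr]; simp [mul_sub]
      have h2 : ((X + 1 : ℚ[X]) ^ (d + 1) - X ^ (d + 1)) =
          ∑ j ∈ Finset.range (d + 1), ((d + 1).choose j : ℚ[X]) * X ^ j := by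
        rw [add_pow, Finset.sum_range_succ]
        simp [mul_comm]
      have h3 : (r.comp (X + 1) - r) = C c * (∑ j ∈ Finset.range d, ((d + 1).choose j : ℚ[X]) * X ^ j)
          + C q.leadingCoeff * X ^ d := by
        rw [h1, h2, Finset.sum_range_succ, mul_add]
        congr 1
        have : ((d + 1).choose d : ℚ[X]) = C ((d : ℚ) + 1) := by
          rw [Nat.choose_succ_self_right]; simp
        rw [this, ← mul_assoc, ← C_mul, hc, div_mul_cancel₀ _ hd1]
      have h4 : q' = q.eraseLead - C c * (∑ j ∈ Finset.range d, ((d + 1).choose j : ℚ[X]) * X ^ j) := by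
        rw [hq', h3]
        have := q.eraseLead_add_C_mul_X_pow
        rw [hn] at this
        linear_combination (-1 : ℚ[X]) * this
      by_cases h0 : q' = 0
      · exact Or.inr h0
      left
      have hdpos : 0 < d := by
        by_contra h
        have : d = 0 := by omega
        subst this
        apply h0
        rw [h4]
        have : q.eraseLead = 0 := by
          rw [Polynomial.eraseLead_natDegree_lt_or_eraseLead_eq_zero q |>.resolve_left (by omega)]
        simp [this]
      have h5 : q'.degree < d := by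
        rw [h4]
        refine (degree_sub_le _ _).trans_lt (max_lt ?_ ?_)
        · have := degree_eraseLead_lt hd
          rwa [degree_eq_natDegree hd, hn] at this
        · rw [degree_lt_iff_coeff_zero]
          intro m hm
          rw [coeff_C_mul, finsetSum_coeff]
          refine mul_eq_zero_of_right _ (Finset.sum_eq_zero fun j hj => ?_)
          have hj' : j < d := Finset.mem_range.1 hj
          have : ((d + 1).choose j : ℚ[X]) = C (((d + 1).choose j : ℕ) : ℚ) := by simp
          rw [this, coeff_C_mul, coeff_X_pow, if_neg (by omega), mul_zero]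
      rwa [degree_eq_natDegree h0, Nat.cast_lt] at h5
    rcases key with h | h
    · obtain ⟨p, hp⟩ := ih _ h q' rfl
      refine ⟨p + r, ?_⟩
      have : (p + r).comp (X + 1) - (p + r) = (p.comp (X + 1) - p) + (r.comp (X + 1) - r) := by
        rw [add_comp]; ring
      rw [this, hp, hq']; ring
    · refine ⟨r, ?_⟩
      rw [hq', sub_eq_zero] at h
      exact h.symm

/-- evaluation of a "polynomial with coefficients in `V`" -/
def ev {V : Type*} [AddCommGroup V] [Module ℚ V] (c : ℕ → V) (k : ℕ) (m : ℤ) : V :=
  ∑ j ∈ Finset.range k, ((m : ℚ) ^ j) • c j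

theorem const_of_diff {V : Type*} [AddCommGroup V] {F : ℤ → V} (h : ∀ m, F (m + 1) = F m) (m : ℤ) :
    F m = F 0 := by
  induction m using Int.induction_on with
  | zero => rfl
  | succ i ih => rw [h, ih]
  | pred i ih =>
    have := h (-(i : ℤ) - 1)
    rw [sub_add_cancel] at this
    rw [← this, ih]

/-- module valued functions with vanishing `k`-th difference are polynomial -/
theorem exists_coeff {V : Type*} [AddCommGroup V] [Module ℚ V] (k : ℕ) (F : ℤ → V)
    (h : ∀ m, (fwdDiff (1 : ℤ))^[k] F m = 0) :
    ∃ (N : ℕ) (c : ℕ → V), ∀ m : ℤ, F m = ev c N m := by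
  induction k generalizing F with
  | zero => exact ⟨0, 0, fun m => by simpa [ev] using h m⟩
  | succ k ih =>
    obtain ⟨N, c, hc⟩ := ih (fwdDiff (1 : ℤ) F) h
    -- antidifferences of the monomials
    choose p hp using fun j : ℕ => exists_antidiff (X ^ j : ℚ[X])
    obtain ⟨D, hD⟩ : ∃ D : ℕ, ∀ j < N, (p j).natDegree < D := by
      refine ⟨(Finset.range N).sup (fun j => (p j).natDegree) + 1, fun j hj => ?_⟩
      exact Nat.lt_succ_of_le (Finset.le_sup (f := fun j => (p j).natDegree) (Finset.mem_range.2 hj))
    set G : ℤ → V := fun m => ∑ j ∈ Finset.range N, ((p j).eval (m : ℚ)) • c j with hG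
    have hG1 : ∀ m, G (m + 1) - G m = F (m + 1) - F m := by
      intro m
      have e1 : F (m + 1) - F m = ev c N m := by
        have := hc m
        simpa [fwdDiff] using this
      rw [e1, hG]
      simp only [ev]
      rw [← Finset.sum_sub_distrib]
      refine Finset.sum_congr rfl fun j _ => ?_
      rw [← sub_smul]
      congr 1
      have := congrArg (eval (m : ℚ)) (hp j)
      simp only [eval_sub, eval_comp, eval_add, eval_X, eval_one, eval_pow] at this
      rw [← this]
      push_cast
      rfl
    have hconst : ∀ m, F m - G m = F 0 - G 0 := by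
      refine const_of_diff (F := fun m => F m - G m) fun m => ?_
      have := hG1 m
      have h2 : F (m + 1) = F m + (G (m + 1) - G m) := by rw [this]; abel
      show F (m + 1) - G (m + 1) = F m - G m
      rw [h2]; abel
    refine ⟨D + 1, fun i => (∑ j ∈ Finset.range N, (p j).coeff i • c j) +
      (if i = 0 then F 0 - G 0 else 0), fun m => ?_⟩
    have e2 : G m = ∑ i ∈ Finset.range (D + 1), ((m : ℚ) ^ i) •
        (∑ j ∈ Finset.range N, (p j).coeff i • c j) := by
      rw [hG]
      simp only [Finset.smul_sum]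
      rw [Finset.sum_comm]
      refine Finset.sum_congr rfl fun j hj => ?_
      rw [eval_eq_sum_range' (lt_trans (hD j (Finset.mem_range.1 hj)) (Nat.lt_succ_self D)),
        Finset.sum_smul]
      refine Finset.sum_congr rfl fun i _ => ?_
      rw [smul_smul, mul_comm]
    have e3 : F m = G m + (F 0 - G 0) := by
      rw [← hconst m]; abel
    rw [e3, e2]
    simp only [ev, smul_add, Finset.sum_add_distrib]
    congr 1
    rw [Finset.sum_eq_single 0]
    · simp
    · intro b _ hb
      simp [hb]
    · intro hb
      exact absurd (Finset.mem_range.2 (Nat.succ_pos D)) hb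

theorem exists_poly (k : ℕ) (F : ℤ → ℚ) (h : ∀ m, (fwdDiff (1 : ℤ))^[k] F m = 0) :
    ∃ p : ℚ[X], ∀ m : ℤ, F m = p.eval (m : ℚ) := by
  obtain ⟨N, c, hc⟩ := exists_coeff k F h
  refine ⟨∑ j ∈ Finset.range N, C (c j) * X ^ j, fun m => ?_⟩
  rw [hc, ev, eval_finsetSum]
  refine Finset.sum_congr rfl fun j _ => ?_
  rw [eval_mul, eval_C, eval_pow, eval_X, smul_eq_mul, mul_comm]

/-- two variables -/
theorem exists_poly₂ (k l : ℕ) (F : ℤ → ℤ → ℚ)
    (h1 : ∀ b m, (fwdDiff (1 : ℤ))^[k] (fun a => F a b) m = 0)
    (h2 : ∀ a m, (fwdDiff (1 : ℤ))^[l] (fun b => F a b) m = 0) :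
    ∃ (N : ℕ) (p : ℕ → ℚ[X]), ∀ a b : ℤ,
      F a b = ∑ j ∈ Finset.range N, ((a : ℚ) ^ j) * (p j).eval (b : ℚ) := by
  -- the space of polynomial functions
  let T : ℚ[X] →ₗ[ℚ] (ℤ → ℚ) :=
    { toFun := fun p b => p.eval (b : ℚ)
      map_add' := fun p q => by funext b; simp
      map_smul' := fun c p => by funext b; simp [Polynomial.smul_eq_C_mul] }
  have hF : ∀ a, (fun b => F a b) ∈ LinearMap.range T := by
    intro a
    obtain ⟨p, hp⟩ := exists_poly l (fun b => F a b) (h2 a)
    exact ⟨p, funext fun b => (hp b).symm⟩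
  let G : ℤ → LinearMap.range T := fun a => ⟨fun b => F a b, hF a⟩
  have hit : ∀ (k : ℕ) (H : ℤ → LinearMap.range T) (m : ℤ) (b : ℤ),
      ((fwdDiff (1 : ℤ))^[k] H m).1 b = (fwdDiff (1 : ℤ))^[k] (fun a => (H a).1 b) m := by
    intro k
    induction k with
    | zero => intro H m b; rfl
    | succ k ih =>
      intro H m b
      rw [Function.iterate_succ_apply, ih, Function.iterate_succ_apply]
      rfl
  obtain ⟨N, c, hc⟩ := exists_coeff k G (fun m => by
    apply Subtype.ext
    funext b
    rw [hit]
    exact h1 b m)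
  choose p hp using fun j => (c j).2
  refine ⟨N, p, fun a b => ?_⟩
  have e1 : F a b = (G a).1 b := rfl
  rw [e1, hc]
  simp only [ev, Submodule.coe_sum, Submodule.coe_smul, Finset.sum_apply, Pi.smul_apply,
    smul_eq_mul]
  refine Finset.sum_congr rfl fun j _ => ?_
  rw [← hp j]
  rfl

/-- a polynomial vanishing at infinitely many naturals is zero, contrapositive form: if the value
at one integer is nonzero then the value is nonzero for all large `m` -/
theorem eventually_ne {p : ℚ[X]} (h : p ≠ 0) : ∃ m0 : ℤ, ∀ m : ℤ, m0 ≤ m → p.eval (m : ℚ) ≠ 0 := by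
  have hfin : {x : ℚ | p.IsRoot x}.Finite := by
    refine (p.roots.toFinset.finite_toSet).subset fun x hx => ?_
    simpa [h] using hx
  obtain ⟨B, hB⟩ := hfin.bddAbove
  refine ⟨⌈B⌉ + 1, fun m hm h0 => ?_⟩
  have h1 : (m : ℚ) ≤ B := hB h0
  have h2 : (m : ℤ) ≤ ⌈B⌉ := by
    have : (m : ℚ) ≤ (⌈B⌉ : ℚ) := h1.trans (Int.le_ceil B)
    exact_mod_cast this
  omega

end Crest.Agent.R273.DiffPoly_290
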