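import Crest.Agent.R275.CIdxB_509
import Crest.Agent.R275.SerH_398
import Crest.Agent.R275.BrixB_509
import Crest.Agent.R275.Core_144
import Crest.Agent.R273.DiffPoly_290

/-!
# R273 (S0416), D.4 (helper290): nilpotency of `1 - [L]` and polynomiality of `χ`

* `nilp`        : `(1 - [p])^k = 0` for a rank one idempotent `k × k` matrix of trace one;
* `nilp_E`      : the same for smooth line bundles, `cE P I E`;
* `chB B m`     : `∑_{q ≤ m} (-1)^q hB B q`; `chB_eq` : equals the index for integrable bundles;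
* `poly_tw`     : `m ↦ χ (N0 * L^m)` is a polynomial on `ℤ`;
* `poly_tw₂`    : two line bundles;
-/

set_option autoImplicit false
set_option linter.unusedSectionVars false

open Filter Topology Complex
open scoped ContDiff Matrix ComplexConjugate Kronecker

namespace Crest.Agent.R273.ChiPoly_290

open Crest.Agent.R275
open Crest.Agent.R275.Geo Crest.Agent.R275.Smf798 Crest.Agent.R275.KR798 Crest.Agent.R275.SB798
open Crest.Agent.R275.Core144 Crest.Agent.R275.CIdx509 Crest.Agent.R275.MI683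
open Crest.Agent.R275.SerG398 Crest.Agent.R275.NA7763

noncomputable section

/-! ### nilpotency -/

section nilp

variable {R : Type*} [CommRing R]

/-- the class of the empty matrix -/
theorem c_empty (I : KIndex R) (hp : (0 : Matrix (Fin 0) (Fin 0) R) * 0 = 0) :
    I.c (0 : Matrix (Fin 0) (Fin 0) R) hp = 0 := by
  have h1 := I.c_blocks hp hp
  have h2 : I.c (Matrix.fromBlocks (0 : Matrix (Fin 0) (Fin 0) R) 0 0 0) (idem_blocks hp hp) =
      I.c (0 : Matrix (Fin 0) (Fin 0) R) hp :=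
    I.c_congr _ _ ⟨0, 0, by ext i; rcases i with i | i <;> exact i.elim0, by
      ext i; exact i.elim0⟩
  rw [h2] at h1
  have h3 : I.c (0 : Matrix (Fin 0) (Fin 0) R) hp + 0 =
      I.c (0 : Matrix (Fin 0) (Fin 0) R) hp + I.c (0 : Matrix (Fin 0) (Fin 0) R) hp := by
    rw [add_zero]; exact h1
  exact (add_left_cancel h3).symm

/-- the unit triple -/
def triOne (R : Type*) [CommRing R] : Tri R where
  n0 := Fin 1
  n1 := Fin 0
  p0 := 1
  p1 := 0
  d := 0
  h := 0
  g := 0
  i0 := one_idem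
  i1 := Matrix.zero_mul _
  pd := Matrix.zero_mul _
  dp := Matrix.zero_mul _
  ph := Matrix.mul_zero _
  hp := Matrix.mul_zero _
  hd := by rw [Matrix.mul_zero, zero_smul]
  dh := by rw [Matrix.mul_zero, zero_smul]

theorem kap_triOne (I : KIndex R) : (triOne R).kap I = 1 := by
  unfold Tri.kap
  show I.c (1 : Matrix (Fin 1) (Fin 1) R) one_idem -
    I.c (0 : Matrix (Fin 0) (Fin 0) R) (Matrix.zero_mul _) = 1
  rw [I.c_one, c_empty I (Matrix.zero_mul _), sub_zero]

theorem exists_tri (I : KIndex R) {n : Type} [Fintype n] [DecidableEq n] {p : Matrix n n R}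
    (hp : p * p = p) (h1 : RankOne p) (s : Finset n) :
    ∃ T : Tri R, T.kap I = (1 - I.c p hp) ^ s.card ∧ T.g = ∑ a ∈ s, p a a := by
  induction s using Finset.induction_on with
  | empty => exact ⟨triOne R, by simp [kap_triOne], by simp [triOne]⟩
  | insert a s ha ih =>
    obtain ⟨T, hT1, hT2⟩ := ih
    have hs : p * (Matrix.of fun i (_ : Fin 1) => p i a) = Matrix.of fun i (_ : Fin 1) => p i a := by
      ext i j
      rw [Matrix.mul_apply]
      simp only [Matrix.of_apply]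
      have := congrFun (congrFun hp i) a
      rwa [Matrix.mul_apply] at this
    have ht : (Matrix.of fun (_ : Fin 1) j => p a j) * p = Matrix.of fun (_ : Fin 1) j => p a j := by
      ext i j
      rw [Matrix.mul_apply]
      simp only [Matrix.of_apply]
      have := congrFun (congrFun hp a) j
      rwa [Matrix.mul_apply] at this
    refine ⟨(triLine p hp h1 _ _ hs ht).mul T, ?_, ?_⟩
    · rw [Tri.kap_mul, kap_triLine, hT1, Finset.card_insert_of_notMem ha, pow_succ, mul_comm]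
    · rw [Tri.mul_g, hT2, Finset.sum_insert ha]
      congr 1
      show ((Matrix.of fun (_ : Fin 1) j => p a j) * (Matrix.of fun i (_ : Fin 1) => p i a)) 0 0 = _
      rw [Matrix.mul_apply]
      simp only [Matrix.of_apply]
      have := congrFun (congrFun hp a) a
      rwa [Matrix.mul_apply] at this

/-- **nilpotency of `1 - [L]`** -/
theorem nilp (I : KIndex R) {n : Type} [Fintype n] {p : Matrix n n R}
    (hp : p * p = p) (h1 : RankOne p) (ht : p.trace = 1) :
    (1 - I.c p hp) ^ (Fintype.card n) = 0 := by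
  classical
  obtain ⟨T, h2, h3⟩ := exists_tri I hp h1 Finset.univ
  rw [← Finset.card_univ, ← h2]
  refine T.kap_eq_zero I ?_
  have : T.g = 1 := by rw [h3, ← ht]; rfl
  rw [this]
  exact isUnit_one

end nilp

variable {n : ℕ} {M : Type} [TopologicalSpace M] {A : Atl n M}

section ring

variable (P : Part A) [CompactSpace M] (I : KIndex (smf A))

theorem nilp_E (E : SB A) [Unique E.ρ] :
    (1 - cE P I E) ^ (Fintype.card (Ix P × E.ρ)) = 0 :=
  nilp I (pr_idem P E) (rankOne_pr E) (trace_pr E)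

theorem ones_mul_ones {α β : Type} [Unique α] [Unique β] [Fintype β] [DecidableEq α] :
    (Matrix.of fun (_ : α) (_ : β) => (1 : ℂ)) * (Matrix.of fun (_ : β) (_ : α) => (1 : ℂ)) =
      (1 : Matrix α α ℂ) := by
  ext a b
  rw [Matrix.mul_apply, Fintype.sum_unique, Subsingleton.elim a b, Matrix.one_apply_eq,
    Matrix.of_apply, Matrix.of_apply, one_mul]

/-- isomorphism of rank one bundles with the same cocycle up to the index types -/
def isoOfEq {E F : SB A} [Unique E.ρ] [Unique F.ρ]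
    (h : ∀ i j, ∀ x ∈ (A.e i).source ∩ (A.e j).source, E.g i j x default default =
      F.g i j x default default) : SB.Iso E F where
  hom :=
    { φ := fun _ _ => Matrix.of fun _ _ => 1
      sm := fun _ _ _ => contDiffOn_const
      tr := fun i j x hx => by
        ext a b
        rw [Matrix.mul_apply, Matrix.mul_apply, Fintype.sum_unique, Fintype.sum_unique,
          Matrix.of_apply, Matrix.of_apply, Subsingleton.elim a default,
          Subsingleton.elim b default, h i j x hx, one_mul, mul_one] }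
  inv :=
    { φ := fun _ _ => Matrix.of fun _ _ => 1
      sm := fun _ _ _ => contDiffOn_const
      tr := fun i j x hx => by
        ext a b
        rw [Matrix.mul_apply, Matrix.mul_apply, Fintype.sum_unique, Fintype.sum_unique,
          Matrix.of_apply, Matrix.of_apply, Subsingleton.elim a default,
          Subsingleton.elim b default, h i j x hx, one_mul, mul_one] }
  hom_inv i x _ := ones_mul_ones
  inv_hom i x _ := ones_mul_ones

instance uniqueMul (E F : SB A) [Unique E.ρ] [Unique F.ρ] : Unique (E.mul F).ρ where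
  default := ((default : E.ρ), (default : F.ρ))
  uniq := fun _ => Prod.ext (Subsingleton.elim _ _) (Subsingleton.elim _ _)

instance uniqueOne : Unique (SB.one A).ρ := inferInstanceAs (Unique (Fin 1))

instance uniqueLB (L : LB A) : Unique L.toVB.sb.ρ := inferInstanceAs (Unique Unit)

omit [CompactSpace M] in
theorem sub_one_pow_zero {R : Type*} [CommRing R] {x : R} {k : ℕ} (h : (1 - x) ^ k = 0) :
    (x - 1) ^ k = 0 := by
  have : x - 1 = -(1 - x) := by ring
  rw [this, neg_pow, h, mul_zero]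

/-- the class of a holomorphic line bundle, as a monoid homomorphism -/
def cL : LB A →* I.Rg where
  toFun L := cE P I L.toVB.sb
  map_one' := by
    rw [← cE_one (P := P) (I := I)]
    exact cE_congr (isoOfEq fun i j x _ => rfl)
  map_mul' L L' := by
    rw [← cE_mul]
    exact cE_congr (isoOfEq fun i j x _ => rfl)

theorem cL_apply (L : LB A) : cL P I L = cE P I L.toVB.sb := rfl

/-- the class is a unit -/
def uL : LB A →* (I.Rg)ˣ := (cL P I).toHomUnits

theorem uL_val (L : LB A) : (uL P I L : I.Rg) = cL P I L := rfl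

theorem cL_zpow (L : LB A) (m : ℤ) : cL P I (L ^ m) = ((uL P I L ^ m : (I.Rg)ˣ) : I.Rg) := by
  rw [← uL_val, map_zpow]

/-- differences of `m ↦ ind (e * u^m)` -/
theorem fwdDiff_ind {R : Type*} [CommRing R] (f : R →+ ℤ) (e : R) (u : Rˣ) (k : ℕ) (m : ℤ) :
    (fwdDiff (1 : ℤ))^[k] (fun m : ℤ => ((f (e * ((u ^ m : Rˣ) : R)) : ℤ) : ℚ)) m =
      ((f (e * ((u : R) - 1) ^ k * ((u ^ m : Rˣ) : R)) : ℤ) : ℚ) := by
  induction k generalizing e with
  | zero => simp
  | succ k ih =>
    rw [Function.iterate_succ_apply]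
    have : fwdDiff (1 : ℤ) (fun m : ℤ => ((f (e * ((u ^ m : Rˣ) : R)) : ℤ) : ℚ)) =
        fun m : ℤ => ((f ((e * ((u : R) - 1)) * ((u ^ m : Rˣ) : R)) : ℤ) : ℚ) := by
      funext m
      simp only [fwdDiff]
      have h2 : ((u ^ (m + 1) : Rˣ) : R) = (u : R) * ((u ^ m : Rˣ) : R) := by
        rw [zpow_add, zpow_one, Units.val_mul, mul_comm]
      rw [h2, ← Int.cast_sub, ← map_sub]
      congr 2
      ring
    rw [this, ih]
    congr 3
    ring

/-- **polynomiality** in the ring of classes -/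
theorem poly_ring (e : I.Rg) (L : LB A) : ∃ p : Polynomial ℚ, ∀ m : ℤ,
    ((I.data.indR (e * cL P I (L ^ m)) : ℤ) : ℚ) = p.eval (m : ℚ) := by
  obtain ⟨p, hp⟩ := DiffPoly_290.exists_poly (Fintype.card (Ix P × L.toVB.sb.ρ))
    (fun m : ℤ => ((I.data.indR (e * ((uL P I L ^ m : (I.Rg)ˣ) : I.Rg)) : ℤ) : ℚ)) (fun m => by
      rw [fwdDiff_ind]
      have h1 : ((uL P I L : I.Rg) - 1) ^ (Fintype.card (Ix P × L.toVB.sb.ρ)) = 0 :=
        sub_one_pow_zero (nilp_E P I L.toVB.sb)
      rw [h1, mul_zero, zero_mul, map_zero, Int.cast_zero])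
  refine ⟨p, fun m => ?_⟩
  rw [cL_zpow]
  exact hp m

/-- two line bundles -/
theorem poly_ring₂ (e : I.Rg) (L L' : LB A) : ∃ (N : ℕ) (p : ℕ → Polynomial ℚ), ∀ a b : ℤ,
    ((I.data.indR (e * cL P I (L ^ a) * cL P I (L' ^ b)) : ℤ) : ℚ) =
      ∑ j ∈ Finset.range N, ((a : ℚ) ^ j) * (p j).eval (b : ℚ) := by
  have key : ∀ (L : LB A) (e : I.Rg) (m : ℤ), (fwdDiff (1 : ℤ))^[Fintype.card (Ix P × L.toVB.sb.ρ)]
      (fun m : ℤ => ((I.data.indR (e * ((uL P I L ^ m : (I.Rg)ˣ) : I.Rg)) : ℤ) : ℚ)) m = 0 := by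
    intro L e m
    rw [fwdDiff_ind]
    have h1 : ((uL P I L : I.Rg) - 1) ^ (Fintype.card (Ix P × L.toVB.sb.ρ)) = 0 :=
      sub_one_pow_zero (nilp_E P I L.toVB.sb)
    rw [h1, mul_zero, zero_mul, map_zero, Int.cast_zero]
  obtain ⟨N, p, hp⟩ := DiffPoly_290.exists_poly₂ (Fintype.card (Ix P × L.toVB.sb.ρ))
    (Fintype.card (Ix P × L'.toVB.sb.ρ))
    (fun a b : ℤ => ((I.data.indR (e * ((uL P I L ^ a : (I.Rg)ˣ) : I.Rg) *
      ((uL P I L' ^ b : (I.Rg)ˣ) : I.Rg)) : ℤ) : ℚ)) (fun b m => by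
      have h1 : (fun a : ℤ => ((I.data.indR (e * ((uL P I L ^ a : (I.Rg)ˣ) : I.Rg) *
          ((uL P I L' ^ b : (I.Rg)ˣ) : I.Rg)) : ℤ) : ℚ)) =
          fun a : ℤ => ((I.data.indR ((e * ((uL P I L' ^ b : (I.Rg)ˣ) : I.Rg)) *
            ((uL P I L ^ a : (I.Rg)ˣ) : I.Rg)) : ℤ) : ℚ) := by
        funext a
        rw [mul_right_comm]
      rw [h1]
      exact key L (e * ((uL P I L' ^ b : (I.Rg)ˣ) : I.Rg)) m) (fun a m => key L' (e * ((uL P I L ^ a : (I.Rg)ˣ) : I.Rg)) m)
  refine ⟨N, p, fun a b => ?_⟩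
  rw [cL_zpow, cL_zpow]
  exact hp a b

end ring

/-! ### the Euler characteristic -/

section euler

/-- `∑_{q ≤ m} (-1)^q dim H^q` -/
def chB (B : FBun A) (m : ℕ) : ℤ := ∑ q ∈ Finset.range (m + 1), (-1 : ℤ) ^ q * (hB B q : ℤ)

variable [Finite A.ι] (P : Part A) (B : FBun A) (m : ℕ) (hm : topDeg B ≤ m)

theorem Zq_eq (q : ℕ) : Eul473.Zq (qc P B m hm) q = Zd B q := by
  ext u
  rw [Eul473.mem_Zq, mem_Zd]
  rfl

theorem fr_congr {V : Type*} [AddCommGroup V] [Module ℂ V] {Z Z' B B' : Submodule ℂ V}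
    (h : Z = Z') (hB : ∀ z ∈ Z, z ∈ B ↔ z ∈ B') :
    (Module.finrank ℂ (Z ⧸ B.submoduleOf Z) = Module.finrank ℂ (Z' ⧸ B'.submoduleOf Z')) ∧
      (FiniteDimensional ℂ (Z ⧸ B.submoduleOf Z) → FiniteDimensional ℂ (Z' ⧸ B'.submoduleOf Z')) := by
  subst h
  have h1 : B.submoduleOf Z = B'.submoduleOf Z := by
    ext z
    exact hB z z.2
  rw [h1]
  exact ⟨rfl, id⟩

theorem Hq_aux (q : ℕ) : (Module.finrank ℂ (Eul473.Hq (qc P B m hm) q) = hB B q) ∧
    (FiniteDimensional ℂ (Eul473.Hq (qc P B m hm) q) → FinS (Zd B q) (Bd B q)) :=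
  fr_congr (Zq_eq P B m hm q) fun z hz => by
    rw [mem_Bd]
    refine ⟨fun h => ⟨h, ?_⟩, fun h => h.1⟩
    exact ((Eul473.mem_Zq (qc P B m hm)).1 hz).2

theorem finrank_Hq (q : ℕ) : Module.finrank ℂ (Eul473.Hq (qc P B m hm) q) = hB B q :=
  (Hq_aux P B m hm q).1

include P hm in
/-- the Euler characteristic is the index -/
theorem chB_eq_ind (h : ∀ u : Sec B, nabL B (nabL B u) = 0) : chB B m = indB P B := by
  obtain ⟨_, h2⟩ := indB_euler P B m hm h
  rw [h2]
  unfold chB
  refine Finset.sum_congr rfl fun q _ => ?_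
  rw [finrank_Hq]

include P hm in
/-- finite dimensionality in the `Zd/Bd` form -/
theorem finS (h : ∀ u : Sec B, nabL B (nabL B u) = 0) (q : ℕ) : FinS (Zd B q) (Bd B q) :=
  (Hq_aux P B m hm q).2 ((indB_euler P B m hm h).1 q)

end euler

/-! ### line bundles -/

section line

variable [Finite A.ι] [CompactSpace M] {B : FBun A}
  (hα : ∀ i, ∀ x ∈ (A.e i).source, B.α i x = 0)

include hα in
theorem dd_tw (L : LB A) (u : Sec (tw B L.toVB)) :
    nabL (tw B L.toVB) (nabL (tw B L.toVB) u) = 0 :=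
  Brix509.nabL_nabL_tw hα (fun _ _ _ _ => rfl) u

theorem topDeg_tw {m : ℕ} (hm : topDeg B ≤ m) (E : VBun A) : topDeg (tw B E) ≤ m :=
  Finset.sup_le fun k _ => deg_le hm k.1

include hα in
theorem chB_tw (P : Part A) {m : ℕ} (hm : topDeg B ≤ m) (L : LB A) :
    chB (tw B L.toVB) m =
      (geoI P (Brix509.nabL_nabL_zero hα)).data.indR (cL P (geoI P (Brix509.nabL_nabL_zero hα)) L) := by
  rw [chB_eq_ind P (tw B L.toVB) m (topDeg_tw hm _) (dd_tw hα L),
    indB_tw_eq_indE P P (Brix509.nabL_nabL_zero hα)]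
  rfl

include hα in
/-- **`χ` is a polynomial**: for all line bundles `N0`, `L`, the Euler characteristic of `N0 * L^m`
(with values in the Dolbeault bundle `B`, `α = 0`) is a polynomial in `m : ℤ`. -/
theorem poly_tw (P : Part A) {m : ℕ} (hm : topDeg B ≤ m) (N0 L : LB A) :
    ∃ p : Polynomial ℚ, ∀ k : ℤ, ((chB (tw B (N0 * L ^ k).toVB) m : ℤ) : ℚ) = p.eval (k : ℚ) := by
  obtain ⟨p, hp⟩ := poly_ring P (geoI P (Brix509.nabL_nabL_zero hα))
    (cL P (geoI P (Brix509.nabL_nabL_zero hα)) N0) L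
  refine ⟨p, fun k => ?_⟩
  rw [chB_tw hα P hm, (cL P (geoI P (Brix509.nabL_nabL_zero hα))).map_mul, hp]

include hα in
/-- **two line bundles** -/
theorem poly_tw₂ (P : Part A) {m : ℕ} (hm : topDeg B ≤ m) (N0 L L' : LB A) :
    ∃ (N : ℕ) (p : ℕ → Polynomial ℚ), ∀ a b : ℤ,
      ((chB (tw B (N0 * L ^ a * L' ^ b).toVB) m : ℤ) : ℚ) =
        ∑ j ∈ Finset.range N, ((a : ℚ) ^ j) * (p j).eval (b : ℚ) := by
  obtain ⟨N, p, hp⟩ := poly_ring₂ P (geoI P (Brix509.nabL_nabL_zero hα))
    (cL P (geoI P (Brix509.nabL_nabL_zero hα)) N0) L L'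
  refine ⟨N, p, fun a b => ?_⟩
  rw [chB_tw hα P hm, (cL P (geoI P (Brix509.nabL_nabL_zero hα))).map_mul,
    (cL P (geoI P (Brix509.nabL_nabL_zero hα))).map_mul, hp]

include hα in
/-- the form used for the nonvanishing: if `χ (N0) ≠ 0` then `χ (N0 * L^k) ≠ 0` for all large
`k`, and hence some cohomology is nonzero for all large `k` -/
theorem exists_hB_ne (P : Part A) {m : ℕ} (hm : topDeg B ≤ m) (N0 L : LB A)
    (h0 : chB (tw B N0.toVB) m ≠ 0) : ∃ k0 : ℤ, ∀ k : ℤ, k0 ≤ k →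
      chB (tw B (N0 * L ^ k).toVB) m ≠ 0 ∧
        ∃ q ∈ Finset.range (m + 1), hB (tw B (N0 * L ^ k).toVB) q ≠ 0 := by
  obtain ⟨p, hp⟩ := poly_tw hα P hm N0 L
  have hp0 : p ≠ 0 := by
    rintro rfl
    apply h0
    have := hp 0
    rw [zpow_zero, mul_one] at this
    simpa using this
  obtain ⟨k0, hk0⟩ := DiffPoly_290.eventually_ne hp0
  refine ⟨k0, fun k hk => ?_⟩
  have h1 : chB (tw B (N0 * L ^ k).toVB) m ≠ 0 := by
    intro h
    apply hk0 k hk
    rw [← hp k, h, Int.cast_zero]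
  refine ⟨h1, ?_⟩
  by_contra hcon
  push Not at hcon
  apply h1
  unfold chB
  refine Finset.sum_eq_zero fun q hq => ?_
  rw [hcon q hq]
  simp

end line

end

end Crest.Agent.R273.ChiPoly_290
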