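import Crest.Agent.R273.NVPow_578
import Crest.Agent.R273.ChiPoly_290
import Crest.Agent.R273.LamN_127

/-!
# R273 (S0416), Part D (helper733): T-D3

* `D2 A` : the statement of the semipositive Hodge theorem (dimension form);
* `infinite_NV` : `D2 A`, `χ(O) ≠ 0` ⇒ for some `q` there are infinitely many `k` with
  `NV (((KB A)⁻¹ * T) ^ k) h q ≠ 0` (`T` flat);
* `infinite_NV'` : the same with a general line bundle `N0` of semipositive `K⁻¹ N0`.
-/

set_option autoImplicit false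
set_option linter.unusedSectionVars false

open Set Filter Topology Complex
open scoped ContDiff Matrix ComplexConjugate ComplexOrder Kronecker

namespace Crest.Agent.R273.TD3_733

open Crest.Agent.R275 Crest.Agent.R275.Geo Crest.Agent.R275.Core144
open Crest.Agent.R275.SerG398 (hB)
open Crest.Agent.R273.Defs_333 Crest.Agent.R273.Kah_333 Crest.Agent.R273.HM_333
open Crest.Agent.R273.LamN127 Crest.Agent.R273.ChiPoly_290 Crest.Agent.R273.NV_578

noncomputable section

variable {n : ℕ} {M : Type} [TopologicalSpace M] {A : Atl n M}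

/-- **D2** (dimension form): the cohomology of `N` is the space of null holomorphic polyvectors -/
def D2 (A : Atl n M) : Prop := ∀ (N : LB A) (h : HM ((KB A)⁻¹ * N)), h.Semipos → ∀ q,
  FiniteDimensional ℂ (NV N h q) ∧ Module.finrank ℂ (NV N h q) = hB (BN N) q

theorem topDeg_BN (N : LB A) : topDeg (BN N) ≤ n := by
  unfold topDeg
  refine Finset.sup_le fun k _ => ?_
  rw [BN_deg]
  exact (Finset.card_le_univ _).trans (by rw [Fintype.card_fin])

theorem topDeg_lamN (A : Atl n M) : topDeg (lamN A) ≤ n := by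
  unfold topDeg
  refine Finset.sup_le fun k _ => ?_
  show Finset.card (α := Fin n) k ≤ n
  exact (Finset.card_le_univ _).trans (by rw [Fintype.card_fin])

theorem semipos_mul {L L' : LB A} {h : HM L} {h' : HM L'} (hp : h.Semipos) (hp' : h'.Semipos) :
    (mul h h').Semipos := by
  refine semipos_of_cur fun i x hx => ?_
  rw [cur_mul h h' i hx]
  exact (cur_posSemidef hp i hx).add (cur_posSemidef hp' i hx)

/-- general form: `h` on `K⁻¹ N0`, `l` on `L`, both semipositive -/
theorem infinite_NV' [CompactSpace M] [T2Space M] [Finite A.ι] (P : Part A) (hD : D2 A)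
    (N0 L : LB A) (hchi : chB (BN N0) n ≠ 0) (h : HM ((KB A)⁻¹ * N0)) (hs : h.Semipos)
    (l : HM L) (ls : l.Semipos) :
    ∃ q ≤ n, {k : ℕ | NV (N0 * L ^ k) (mul h (pow l k)) q ≠ ⊥}.Infinite := by
  obtain ⟨k0, hk0⟩ := exists_hB_ne (B := lamN A) (fun _ _ _ => rfl) P (topDeg_lamN A) N0 L hchi
  have h1 : ∀ k : ℕ, k0.toNat ≤ k → ∃ q ∈ Finset.range (n + 1),
      NV (N0 * L ^ k) (mul h (pow l k)) q ≠ ⊥ := by
    intro k hk
    have hk' : k0 ≤ (k : ℤ) := by omega
    obtain ⟨_, q, hq, hne⟩ := hk0 k hk'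
    refine ⟨q, hq, fun hbot => hne ?_⟩
    have h2 : N0 * L ^ (k : ℤ) = N0 * L ^ k := by rw [zpow_natCast]
    rw [h2]
    have hm : ((KB A)⁻¹ * N0) * L ^ k = (KB A)⁻¹ * (N0 * L ^ k) := mul_assoc _ _ _
    have h3 := hD (N0 * L ^ k) (castH hm (mul h (pow l k)))
      (castH_semipos hm (semipos_mul hs (pow_semipos ls k))) q
    have h4 : NV (N0 * L ^ k) (castH hm (mul h (pow l k))) q =
        NV (N0 * L ^ k) (mul h (pow l k)) q := NV_congr (fun i x _ => cur_castH _ _ i x) _ _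
    rw [h4, hbot] at h3
    have h5 := h3.2
    rw [finrank_bot] at h5
    exact h5.symm
  by_contra hcon
  push Not at hcon
  have h2 : (⋃ q ∈ Finset.range (n + 1),
      {k : ℕ | NV (N0 * L ^ k) (mul h (pow l k)) q ≠ ⊥}).Finite := by
    refine Set.Finite.biUnion (Finset.finite_toSet _) fun q hq => ?_
    exact hcon q (Nat.lt_succ_iff.1 (Finset.mem_range.1 hq))
  have h3 : Set.Ici k0.toNat ⊆ ⋃ q ∈ Finset.range (n + 1),
      {k : ℕ | NV (N0 * L ^ k) (mul h (pow l k)) q ≠ ⊥} := by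
    intro k hk
    obtain ⟨q, hq, hne⟩ := h1 k hk
    simp only [mem_iUnion]
    exact ⟨q, hq, hne⟩
  exact (Set.Ici_infinite _) (h2.subset h3)

/-- **T-D3** -/
theorem infinite_NV [CompactSpace M] [T2Space M] [Finite A.ι] (P : Part A) (hD : D2 A)
    (hchi : chB (BN (1 : LB A)) n ≠ 0) (h : HM (KB A)⁻¹) (hs : h.Semipos) {T : LB A} (t : HM T)
    (ht : ∀ i, ∀ x ∈ (A.e i).source, cur t i x = 0) :
    ∃ q ≤ n, {k : ℕ | NV (((KB A)⁻¹ * T) ^ k) h q ≠ ⊥}.Infinite := by
  have hts : t.Semipos := semipos_of_cur fun i x hx => by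
    rw [ht i x hx]
    exact Matrix.PosSemidef.zero
  obtain ⟨q, hq, hinf⟩ := infinite_NV' P hD 1 ((KB A)⁻¹ * T) hchi (hone h) hs (mul h t)
    (semipos_mul hs hts)
  refine ⟨q, hq, hinf.mono fun k hk => ?_⟩
  have h1 : NV (1 * ((KB A)⁻¹ * T) ^ k) (mul (hone h) (pow (mul h t) k)) q =
      NV (((KB A)⁻¹ * T) ^ k) h q := by
    rw [one_mul]
    refine NV_smul (c := (k : ℂ) + 1) (Nat.cast_add_one_ne_zero k) (fun i x hx => ?_) _ _
    have h2 : cur (hone h) i x = cur h i x := rfl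
    rw [cur_mul _ _ i hx, cur_pow _ _ i hx, cur_mul _ _ i hx, ht i x hx, add_zero, h2, add_smul,
      one_smul, add_comm]
  have h3 : NV (1 * ((KB A)⁻¹ * T) ^ k) (mul (hone h) (pow (mul h t) k)) q ≠ ⊥ := hk
  rw [h1] at h3
  exact h3

end

end Crest.Agent.R273.TD3_733
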