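import Crest.Agent.R273.LimB_505
import Crest.Agent.R273.TD3_733

/-!
# R273, D.13 (helper505): **Theorem D2**

`d2 (P : Part A) (K : Kah A) : D2 A` : on a compact Kaehler manifold, for every line bundle `N` and
every semipositive `h : HM ((KB A)⁻¹ * N)` the null holomorphic polyvectors of degree `q` with
values in `N` represent the cohomology of `N` in degree `q`.
-/

set_option autoImplicit false
set_option linter.unusedSectionVars false

open Set Filter Topology Complex
open scoped ContDiff Matrix ComplexConjugate Kronecker ComplexOrder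

namespace Crest.Agent.R273.D13_505

open Crest.Agent.R275 Crest.Agent.R275.Geo Crest.Agent.R275.Core144
open Crest.Agent.R275.SerG398 (hB Zd Bd mem_Zd mem_Bd)
open Crest.Agent.R273.Defs_333 Crest.Agent.R273.HM_333 Crest.Agent.R273.Kah_333
open Crest.Agent.R273.Fock_243 Crest.Agent.R273.Calc_243 Crest.Agent.R273.Bkn_243
open Crest.Agent.R273.LamN127 Crest.Agent.R273.NV_578
open Crest.Agent.R273.DVec_733 Crest.Agent.R273.DMet_733 Crest.Agent.R273.DMetB_733
open Crest.Agent.R273.BKNa_37 Crest.Agent.R273.BKNd_37 Crest.Agent.R273.BKNe_37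
open Crest.Agent.R273.Lim_505

noncomputable section

variable {n : ℕ} {M : Type} [TopologicalSpace M] {A : Atl n M} {N : LB A}

/-! ### homogeneous parts -/

theorem pqM_idem (q : ℕ) (v : MV N) : pqM N q (pqM N q v) = pqM N q v := by
  apply Subtype.ext
  funext i x T
  rw [pqM_apply, pqM_apply]
  split_ifs <;> rfl

theorem holV_pq {q : ℕ} {v : MV N} (hv : HolV v.1) : HolV (pqM N q v).1 := by
  intro i x hx k
  funext T
  show A.db i k (fun y => (pqM N q v).1 i y T) x = 0
  by_cases hT : T.card = q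
  · have h1 : (fun y => (pqM N q v).1 i y T) = fun y => v.1 i y T := by
      funext y; rw [pqM_apply, if_pos hT]
    rw [h1]
    exact congrFun (hv i x hx k) T
  · have h1 : (fun y => (pqM N q v).1 i y T) = fun _ => (0 : ℂ) := by
      funext y; rw [pqM_apply, if_neg hT]
    rw [h1]
    simp [Atl.db, dbj]

theorem iW_pq (q : ℕ) (d : Fin n) (v : FI n → ℂ) (S : FI n) :
    (iW (ep d) *ᵥ fun T => if T.card = q then v T else 0) S =
      if S.card + 1 = q then (iW (ep d) *ᵥ v) S else 0 := by
  show ∑ T, iW (ep d) S T * (if T.card = q then v T else 0) =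
    if S.card + 1 = q then ∑ T, iW (ep d) S T * v T else 0
  split_ifs with hS
  · refine Finset.sum_congr rfl fun T _ => ?_
    by_cases hT : T.card = q
    · rw [if_pos hT]
    · rw [if_neg hT]
      have : (iW (ep d) : Matrix (FI n) (FI n) ℂ) S T = 0 := by
        by_contra h0
        exact hT (by rw [← hS]; exact iW_deg h0)
      rw [this, zero_mul, zero_mul]
  · refine Finset.sum_eq_zero fun T _ => ?_
    by_cases hT : T.card = q
    · have : (iW (ep d) : Matrix (FI n) (FI n) ℂ) S T = 0 := by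
        by_contra h0
        exact hS (by rw [← hT]; exact (iW_deg h0).symm)
      rw [this, zero_mul]
    · rw [if_neg hT, mul_zero]

theorem nullV_pq {L : LB A} {h : HM L} {q : ℕ} {v : MV N} (hv : NullV h v.1) :
    NullV h (pqM N q v).1 := by
  intro i x hx c
  have h1 := hv i x hx c
  funext S
  have h2 := congrFun h1 S
  rw [Finset.sum_apply] at h2 ⊢
  have h3 : ∀ d, (cur h i x d c • (iW (ep d) *ᵥ (pqM N q v).1 i x)) S =
      if S.card + 1 = q then (cur h i x d c • (iW (ep d) *ᵥ v.1 i x)) S else 0 := by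
    intro d
    have h4 := iW_pq q d (v.1 i x) S
    have h5 : (pqM N q v).1 i x = fun T => if T.card = q then v.1 i x T else 0 := rfl
    rw [Pi.smul_apply, h5, h4]
    split_ifs
    · rfl
    · rw [smul_zero]
  simp only [h3]
  split_ifs
  · exact h2
  · rw [Finset.sum_const_zero]
    rfl

theorem mem_NV_pq {h : HM ((KB A)⁻¹ * N)} {v : MV N} (h1 : HolV v.1) (h2 : NullV h v.1) (q : ℕ) :
    (pqM N q v).1 ∈ NV N h q :=
  (mem_NV_iff (pqM_idem q v)).2 ⟨holV_pq h1, nullV_pq h2⟩

theorem NV_le_MV {L : LB A} (h : HM L) (q : ℕ) : NV N h q ≤ MV N := fun _ hv => PV_le hv.1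

/-- `∇ (π_q y)`, shifted degrees -/
theorem pqL_exact {B : FBun A} (q : ℕ) (y : Sec B) :
    ∃ y', nabL B y' = Geo.pqL B q (nabL B y) := by
  cases q with
  | zero => exact ⟨0, by
      have := congrArg (fun f => f y) (pqL_zero_nabL (B := B))
      simp only [LinearMap.comp_apply, LinearMap.zero_apply] at this
      rw [this, map_zero]⟩
  | succ q => exact ⟨Geo.pqL B q y, by
      have := congrArg (fun f => f y) (nabL_pqL (B := B) q)
      simpa only [LinearMap.comp_apply] using this⟩

/-- **Theorem D2** -/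
theorem d2 [T2Space M] [CompactSpace M] [Finite A.ι] (P : Part A) (K : Kah A) :
    TD3_733.D2 A := by
  intro N h hs q
  refine ThmD2A_505.finrank_abs' (Zd (BN N) q) (Bd (BN N) q) (BN_finite P N q)
    ((low K N).toLinearMap ∘ₗ Submodule.inclusion (NV_le_MV h q)) (fun v => ?_) (fun v hv => ?_)
    fun z hz => ?_
  · have h1 := closed_of_mem_NV P K (h := h) (v := Submodule.inclusion (NV_le_MV h q) v) v.2
    have h2 := pqM_of_PV (v := Submodule.inclusion (NV_le_MV h q) v) v.2.1
    refine mem_Zd.2 ⟨h1.1, ?_⟩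
    show Geo.pqL (BN N) q (low K N (Submodule.inclusion (NV_le_MV h q) v)) = _
    rw [← low_pq, h2]
    rfl
  · obtain ⟨⟨y, hy⟩, -⟩ := mem_Bd.1 hv
    have h2 := pqM_of_PV (v := Submodule.inclusion (NV_le_MV h q) v) v.2.1
    have h1 := (mem_NV_iff (h := h) h2).1 v.2
    have h3 := eq_zero_of_exact P K h1.1 h1.2 hy
    have h4 := congrArg (fun w : MV N => w.1) h3
    exact Subtype.ext h4
  · obtain ⟨h1, h2⟩ := mem_Zd.1 hz
    obtain ⟨v, hv1, hv2, y, hy⟩ := hodge P K h hs z h1
    refine ⟨⟨(pqM N q v).1, mem_NV_pq hv1 hv2 q⟩, mem_Bd.2 ?_⟩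
    have h3 : z - low K N (pqM N q v) = Geo.pqL (BN N) q (nabL (BN N) y) := by
      rw [hy, map_sub, h2, low_pq]
    have h4 : z - ((low K N).toLinearMap ∘ₗ Submodule.inclusion (NV_le_MV h q))
        ⟨(pqM N q v).1, mem_NV_pq hv1 hv2 q⟩ = Geo.pqL (BN N) q (nabL (BN N) y) := h3
    rw [h4]
    refine ⟨?_, ?_⟩
    · obtain ⟨y', hy'⟩ := pqL_exact q y
      exact ⟨y', hy'⟩
    · have := congrArg (fun f => f (nabL (BN N) y)) (pqL_idem (B := BN N) q)
      exact this

end

end Crest.Agent.R273.D13_505
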