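import Crest.Agent.R273.Kah_333
import Mathlib.Analysis.Matrix.Hermitian

/-!
# R273 (S0416), leaf SERRE, part D (helper945): positivity for large powers

* `exists_pos_add` : `G`, `G0` continuous Hermitian matrix fields transforming like metrics on the
  compact `M`, `G` positive definite ⟹ `G0 + t G` is positive definite for all `t ≥ t0`;
* `exists_pos_pow` : `h : HM O` positive, `h0 : HM L` ⟹ `mul h0 (pow h m)` positive for `m ≥ m0`.
-/

set_option autoImplicit false
set_option linter.unusedSectionVars false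

open Set Filter Topology Complex
open scoped ContDiff Matrix ComplexConjugate Manifold ComplexOrder

namespace Crest.Agent.R273.SerD_945

open Crest.Agent.R275.Geo Crest.Agent.R275.Core144 Crest.Agent.R275.EDR890
open Crest.Agent.R273.Defs_333 Crest.Agent.R273.Hess_333 Crest.Agent.R273.HessB_333
open Crest.Agent.R273.HM_333 Crest.Agent.R273.Kah_333

noncomputable section

/-! ### one matrix -/

section Mat

variable {n : ℕ}

/-- the Hermitian form (real part) -/
def qf (C : Matrix (Fin n) (Fin n) ℂ) (v : Fin n → ℂ) : ℝ := (star v ⬝ᵥ (C *ᵥ v)).re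

theorem qf_eq {C : Matrix (Fin n) (Fin n) ℂ} (hC : C.IsHermitian) (v : Fin n → ℂ) :
    star v ⬝ᵥ (C *ᵥ v) = (qf C v : ℂ) := by
  have h1 : (star v ⬝ᵥ (C *ᵥ v)).im = 0 := hC.im_star_dotProduct_mulVec_self v
  exact Complex.ext rfl (by rw [h1, Complex.ofReal_im])

theorem posDef_of_qf {C : Matrix (Fin n) (Fin n) ℂ} (hC : C.IsHermitian)
    (h : ∀ v, v ≠ 0 → 0 < qf C v) : C.PosDef := by
  refine Matrix.PosDef.of_dotProduct_mulVec_pos hC fun v hv => ?_
  rw [qf_eq hC]
  exact_mod_cast h v hv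

theorem qf_pos {C : Matrix (Fin n) (Fin n) ℂ} (hC : C.PosDef) {v : Fin n → ℂ} (hv : v ≠ 0) :
    0 < qf C v := by
  have h := hC.dotProduct_mulVec_pos hv
  rw [qf_eq hC.1] at h
  exact_mod_cast h

theorem qf_add (C D : Matrix (Fin n) (Fin n) ℂ) (v : Fin n → ℂ) :
    qf (C + D) v = qf C v + qf D v := by
  unfold qf
  rw [Matrix.add_mulVec, dotProduct_add, Complex.add_re]

theorem qf_smul (t : ℝ) (C : Matrix (Fin n) (Fin n) ℂ) (v : Fin n → ℂ) :
    qf ((t : ℂ) • C) v = t * qf C v := by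
  unfold qf
  rw [Matrix.smul_mulVec, dotProduct_smul, smul_eq_mul, Complex.re_ofReal_mul]

theorem qf_smul_vec (t : ℝ) (C : Matrix (Fin n) (Fin n) ℂ) (v : Fin n → ℂ) :
    qf C (t • v) = t ^ 2 * qf C v := by
  unfold qf
  have h1 : star (t • v) = t • star v := by
    rw [star_smul]
    simp
  rw [h1, Matrix.mulVec_smul, smul_dotProduct, dotProduct_smul, smul_smul, Complex.real_smul,
    Complex.re_ofReal_mul]
  ring

theorem qf_expand (C : Matrix (Fin n) (Fin n) ℂ) (v : Fin n → ℂ) :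
    qf C v = (∑ a, ∑ b, conj (v a) * (C a b * v b)).re := by
  unfold qf
  simp only [dotProduct, Matrix.mulVec, Pi.star_apply, RCLike.star_def, Finset.mul_sum]

end Mat

variable {n : ℕ} {M : Type} [TopologicalSpace M] {A : Atl n M}

/-- **positivity for large parameters** -/
theorem exists_pos_add [CompactSpace M] (G G0 : A.ι → M → Matrix (Fin n) (Fin n) ℂ)
    (hc : ∀ i a b, ContinuousOn (fun x => G i x a b) (A.e i).source)
    (hc0 : ∀ i a b, ContinuousOn (fun x => G0 i x a b) (A.e i).source)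
    (hpos : ∀ i, ∀ x ∈ (A.e i).source, (G i x).PosDef)
    (hherm : ∀ i, ∀ x ∈ (A.e i).source, (G0 i x).IsHermitian)
    (tr : ∀ i j, ∀ x ∈ (A.e i).source ∩ (A.e j).source,
      G i x = (Jm A i j x)ᵀ * G j x * (Jm A i j x).map conj)
    (tr0 : ∀ i j, ∀ x ∈ (A.e i).source ∩ (A.e j).source,
      G0 i x = (Jm A i j x)ᵀ * G0 j x * (Jm A i j x).map conj) :
    ∃ t0 : ℝ, ∀ t : ℝ, t0 ≤ t → ∀ i, ∀ x ∈ (A.e i).source,
      (G0 i x + (t : ℂ) • G i x).PosDef := by
  -- local statement
  have loc : ∀ p : M, ∃ j, ∃ U ∈ 𝓝 p, U ⊆ (A.e j).source ∧ ∃ t0 : ℝ, ∀ t : ℝ, t0 ≤ t →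
      ∀ x ∈ U, (G0 j x + (t : ℂ) • G j x).PosDef := by
    intro p
    obtain ⟨j, hj⟩ := A.cover p
    obtain ⟨r, hr, hrs⟩ := Metric.isOpen_iff.1 (A.e j).open_target (A.e j p)
      ((A.e j).map_source hj)
    have hcb : Metric.closedBall (A.e j p) (r / 2) ⊆ (A.e j).target :=
      (Metric.closedBall_subset_ball (by linarith)).trans hrs
    let K : Set M := (A.e j).symm '' Metric.closedBall (A.e j p) (r / 2)
    have hK : IsCompact K :=
      (isCompact_closedBall _ _).image_of_continuousOn ((A.e j).continuousOn_symm.mono hcb)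
    have hKs : K ⊆ (A.e j).source := by
      rintro _ ⟨z, hz, rfl⟩
      exact (A.e j).map_target (hcb hz)
    have hKn : K ∈ 𝓝 p := by
      have h1 : (A.e j) ⁻¹' Metric.ball (A.e j p) (r / 2) ∈ 𝓝 p :=
        ((A.e j).continuousAt hj).preimage_mem_nhds (Metric.ball_mem_nhds _ (by linarith))
      filter_upwards [h1, (A.e j).open_source.mem_nhds hj] with x hx hxs
      exact ⟨A.e j x, Metric.ball_subset_closedBall hx, (A.e j).left_inv hxs⟩
    let S : Set (Fin n → ℂ) := Metric.sphere 0 1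
    have hS : IsCompact S := isCompact_sphere 0 1
    have hcont : ∀ H : A.ι → M → Matrix (Fin n) (Fin n) ℂ,
        (∀ i a b, ContinuousOn (fun x => H i x a b) (A.e i).source) →
        ContinuousOn (fun y : M × (Fin n → ℂ) => qf (H j y.1) y.2) (K ×ˢ S) := by
      intro H hH
      have h1 : (fun y : M × (Fin n → ℂ) => qf (H j y.1) y.2) =
          fun y => (∑ a, ∑ b, conj (y.2 a) * (H j y.1 a b * y.2 b)).re := by
        funext y
        exact qf_expand _ _
      rw [h1]
      refine Complex.continuous_re.comp_continuousOn ?_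
      refine continuousOn_finsetSum _ fun a _ => continuousOn_finsetSum _ fun b _ => ?_
      have h2 : ContinuousOn (fun y : M × (Fin n → ℂ) => H j y.1 a b) (K ×ˢ S) :=
        ((hH j a b).mono hKs).comp continuousOn_fst fun y hy => hy.1
      have h3 : ∀ a, ContinuousOn (fun y : M × (Fin n → ℂ) => y.2 a) (K ×ˢ S) := fun a =>
        ((continuous_apply a).comp continuous_snd).continuousOn
      exact (Complex.continuous_conj.comp_continuousOn (h3 a)).mul (h2.mul (h3 b))
    -- lower bounds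
    obtain ⟨c, hc1, hc2⟩ : ∃ c : ℝ, 0 < c ∧ ∀ y ∈ K ×ˢ S, c ≤ qf (G j y.1) y.2 := by
      rcases (K ×ˢ S).eq_empty_or_nonempty with h | h
      · exact ⟨1, one_pos, fun y hy => by rw [h] at hy; exact hy.elim⟩
      · obtain ⟨y, hy, hmin⟩ := (hK.prod hS).exists_isMinOn h (hcont G hc)
        refine ⟨qf (G j y.1) y.2, qf_pos (hpos j y.1 (hKs hy.1)) ?_, fun z hz => hmin hz⟩
        intro h0
        have := hy.2
        rw [h0] at this
        simp [S] at this
    obtain ⟨C, hC⟩ : ∃ C : ℝ, ∀ y ∈ K ×ˢ S, C ≤ qf (G0 j y.1) y.2 := by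
      rcases (K ×ˢ S).eq_empty_or_nonempty with h | h
      · exact ⟨1, fun y hy => by rw [h] at hy; exact hy.elim⟩
      · obtain ⟨y, hy, hmin⟩ := (hK.prod hS).exists_isMinOn h (hcont G0 hc0)
        exact ⟨_, fun z hz => hmin hz⟩
    refine ⟨j, K, hKn, hKs, |C| / c + 1, fun t ht x hx => ?_⟩
    have ht0 : 0 ≤ t := le_trans (by positivity) ht
    refine posDef_of_qf ?_ fun v hv => ?_
    · refine (hherm j x (hKs hx)).add ?_
      have h1 := (hpos j x (hKs hx)).1
      unfold Matrix.IsHermitian at h1 ⊢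
      rw [Matrix.conjTranspose_smul, h1]
      simp
    · have hn : 0 < ‖v‖ := norm_pos_iff.2 hv
      have hw : ‖v‖⁻¹ • v ∈ S := by
        simp [S, norm_smul, hn.ne']
      have h1 := hc2 (x, ‖v‖⁻¹ • v) ⟨hx, hw⟩
      have h2 := hC (x, ‖v‖⁻¹ • v) ⟨hx, hw⟩
      have h3 : 0 < qf (G0 j x + (t : ℂ) • G j x) (‖v‖⁻¹ • v) := by
        rw [qf_add, qf_smul]
        have h4 : t * c ≤ t * qf (G j x) (‖v‖⁻¹ • v) := mul_le_mul_of_nonneg_left h1 ht0
        have h5 : |C| + c ≤ t * c := by
          have := mul_le_mul_of_nonneg_right ht hc1.le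
          rwa [add_mul, div_mul_cancel₀ _ hc1.ne', one_mul] at this
        have h6 := neg_abs_le C
        linarith
      rw [qf_smul_vec] at h3
      exact (mul_pos_iff_of_pos_left (by positivity)).1 h3
  choose j U hU hUs t0 ht0 using loc
  obtain ⟨s, hs⟩ := isCompact_univ.elim_nhds_subcover U fun p _ => hU p
  refine ⟨∑ p ∈ s, |t0 p|, fun t ht i x hx => ?_⟩
  obtain ⟨p, hp, hxp⟩ := mem_iUnion₂.1 (hs.2 (mem_univ x))
  have h1 : t0 p ≤ t := (le_abs_self _).trans
    ((Finset.single_le_sum (f := fun p => |t0 p|) (fun _ _ => abs_nonneg _) hp).trans ht)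
  have h2 := ht0 p t h1 x hxp
  have hxj := hUs p hxp
  have hxx : x ∈ (A.e i).source ∩ (A.e (j p)).source := ⟨hx, hxj⟩
  have h3 : G0 i x + (t : ℂ) • G i x = ((Jm A i (j p) x).map conj)ᴴ *
      (G0 (j p) x + (t : ℂ) • G (j p) x) * (Jm A i (j p) x).map conj := by
    have h4 : ((Jm A i (j p) x).map conj)ᴴ = (Jm A i (j p) x)ᵀ := by
      ext a b
      simp [Matrix.conjTranspose_apply]
    rw [h4, Matrix.mul_add, Matrix.add_mul, ← tr0 i (j p) x hxx, Matrix.mul_smul,
      Matrix.smul_mul, ← tr i (j p) x hxx]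
  rw [h3]
  refine h2.conjTranspose_mul_mul_same ?_
  intro v w hvw
  have h5 : (Jm A (j p) i x).map conj * (Jm A i (j p) x).map conj = 1 := by
    rw [← Matrix.map_mul, J_mul i (j p) i ⟨hxx, hx⟩, J_self i hx]
    exact Matrix.map_one _ (map_zero _) (map_one _)
  have h6 := congrArg (((Jm A (j p) i x).map conj) *ᵥ ·) hvw
  simpa [Matrix.mulVec_mulVec, h5] using h6

theorem cur_cont {L : LB A} (h : HM L) (i : A.ι) (a b : Fin n) :
    ContinuousOn (fun x => cur h i x a b) (A.e i).source := by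
  have h1 := (cur_smooth h i a b).continuousOn
  have h2 := h1.comp (A.e i).continuousOn fun x hx => (A.e i).map_source hx
  refine h2.congr fun x hx => ?_
  show cur h i x a b = cur h i ((A.e i).symm (A.e i x)) a b
  rw [(A.e i).left_inv hx]

/-- **positivity of large powers** -/
theorem exists_pos_pow [CompactSpace M] {L O : LB A} (h0 : HM L) (h : HM O) (hp : h.Pos) :
    ∃ m0 : ℕ, ∀ m, m0 ≤ m → (mul h0 (pow h m)).Pos := by
  obtain ⟨t0, ht⟩ := exists_pos_add (cur h) (cur h0) (cur_cont h) (cur_cont h0)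
    (fun i x hx => cur_posDef hp i hx) (fun i x hx => cur_herm h0 i hx)
    (fun i j x hx => cur_tr h hx) (fun i j x hx => cur_tr h0 hx)
  obtain ⟨m0, hm0⟩ := exists_nat_ge t0
  refine ⟨m0, fun m hm => pos_of_cur fun i x hx => ?_⟩
  rw [cur_mul h0 (pow h m) i hx, cur_pow h m i hx]
  have := ht m (hm0.trans (by exact_mod_cast hm)) i x hx
  exact_mod_cast this

end

end Crest.Agent.R273.SerD_945
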