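import Crest.Agent.R273.SerC_945
import Crest.Agent.R273.SerD_945
import Crest.Agent.R273.TD3_733

/-!
# R273 (S0416), leaf SERRE, part E (helper945): vanishing, global generation, very ampleness

Input: `D2 A` (TD3_733), the semipositive Hodge theorem.
* `NV_pos`        : `h` positive, `q ≥ 1` ⟹ `NV N h q = ⊥`;
* `solv_of_hB`    : `hB (BN N) q = 0` ⟹ `Solv N q`; `hB_pos`, `solv_pos`;
* `fd_HS`         : `HS N univ` is finite dimensional;
* `solv_large`    : `hO : HM O` positive ⟹ `∃ m0, ∀ m ≥ m0, ∀ q ≥ 1, Solv (L * O ^ m) q`;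
* `ggen_large`, `gg_large`, `proj_large`, `exists_diff` (`L = B * B'⁻¹` with `B`, `B'` very ample).
-/

set_option autoImplicit false
set_option linter.unusedSectionVars false

open Set Filter Topology Complex
open scoped ContDiff Matrix ComplexConjugate ComplexOrder Kronecker

namespace Crest.Agent.R273.SerE_945

open Crest.Agent.R275 Crest.Agent.R275.Geo Crest.Agent.R275.Core144
open Crest.Agent.R275.SerG398 (hB Zd Bd FinS fr mem_Zd mem_Bd)
open Crest.Agent.R275.Kos798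
open Crest.Agent.R273.Defs_333 Crest.Agent.R273.Kah_333 Crest.Agent.R273.HM_333
open Crest.Agent.R273.FS_333 Crest.Agent.R273.Fock_243
open Crest.Agent.R273.LamN127 Crest.Agent.R273.NV_578 Crest.Agent.R273.TD3_733
open Crest.Agent.R273.KosAb_619
open Crest.Agent.R273.SerA_945 Crest.Agent.R273.SerB_945 Crest.Agent.R273.SerC_945
open Crest.Agent.R273.SerD_945

noncomputable section

variable {n : ℕ} {M : Type} [TopologicalSpace M] {A : Atl n M}

/-! ### null vectors of a positive curvature -/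

theorem iW_apply (j : Fin n) (v : FI n → ℂ) {T : FI n} (hj : j ∉ T) :
    ((iW (ep j) : Matrix (FI n) (FI n) ℂ) *ᵥ v) T = sgn ℂ j T * v (insert j T) := by
  have h1 : ((iW (ep j) : Matrix (FI n) (FI n) ℂ) *ᵥ v) T =
      kop (0 : Fin n → ℂ) (ep j) v T := by
    rw [kop_eq_K]
    rfl
  rw [h1, kop_apply, Finset.sum_eq_single j]
  · rw [cf, if_neg hj, tog, if_neg hj]
    simp [ep]
  · intro k _ hk
    by_cases hkT : k ∈ T
    · rw [cf, if_pos hkT]; simp
    · rw [cf, if_neg hkT]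
      simp [ep, hk]
  · intro h
    exact absurd (Finset.mem_univ _) h

theorem eq_zero_of_iW {v : FI n → ℂ} {q : ℕ} (hq : 1 ≤ q) (hv : ∀ T : FI n, T.card ≠ q → v T = 0)
    (h : ∀ j : Fin n, (iW (ep j) : Matrix (FI n) (FI n) ℂ) *ᵥ v = 0) : v = 0 := by
  funext T
  by_cases hT : T.card = q
  · obtain ⟨j, hj⟩ : T.Nonempty := Finset.card_pos.1 (by omega)
    have h1 := congrFun (h j) (T.erase j)
    rw [iW_apply j v (Finset.notMem_erase j T), Finset.insert_erase hj] at h1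
    have h2 : sgn ℂ j (T.erase j) ≠ 0 := by
      intro h3
      have h4 := sgn_mul_self (R := ℂ) j (T.erase j)
      rw [h3, zero_mul] at h4
      exact zero_ne_one h4
    exact (mul_eq_zero.1 h1).resolve_left h2
  · exact hv T hT

/-- **null vectors of a positive curvature** -/
theorem NV_pos {N L' : LB A} {h : HM L'} (hp : h.Pos) {q : ℕ} (hq : 1 ≤ q) :
    NV N h q = ⊥ := by
  rw [eq_bot_iff]
  rintro v ⟨⟨-, hoff, hdeg, -⟩, hnul⟩
  rw [Submodule.mem_bot]
  funext i x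
  by_cases hx : x ∈ (A.e i).source
  · have h1 := mem_NulS.1 hnul i x hx
    have hC := cur_posDef hp i hx
    have hu : IsUnit (cur h i x) := hC.isUnit
    refine eq_zero_of_iW hq (fun T hT => hdeg i x T hT) fun j => ?_
    obtain ⟨u, hu'⟩ := hu
    have h2 : ∑ c, (u⁻¹ : (Matrix (Fin n) (Fin n) ℂ)ˣ).1 c j •
        ∑ d, cur h i x d c • ((iW (ep d) : Matrix (FI n) (FI n) ℂ) *ᵥ v i x) = 0 :=
      Finset.sum_eq_zero fun c _ => by rw [h1 c, smul_zero]
    have h3 : ∑ c, (u⁻¹ : (Matrix (Fin n) (Fin n) ℂ)ˣ).1 c j •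
        ∑ d, cur h i x d c • ((iW (ep d) : Matrix (FI n) (FI n) ℂ) *ᵥ v i x) =
        (iW (ep j) : Matrix (FI n) (FI n) ℂ) *ᵥ v i x := by
      simp only [Finset.smul_sum, smul_smul]
      rw [Finset.sum_comm]
      have h4 : ∀ d, ∑ c, ((u⁻¹ : (Matrix (Fin n) (Fin n) ℂ)ˣ).1 c j * cur h i x d c) •
          ((iW (ep d) : Matrix (FI n) (FI n) ℂ) *ᵥ v i x) =
          (1 : Matrix (Fin n) (Fin n) ℂ) d j •
            ((iW (ep d) : Matrix (FI n) (FI n) ℂ) *ᵥ v i x) := by
        intro d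
        rw [← Finset.sum_smul]
        congr 1
        have h5 : (u.1 * (u⁻¹ : (Matrix (Fin n) (Fin n) ℂ)ˣ).1) d j =
            (1 : Matrix (Fin n) (Fin n) ℂ) d j := by
          rw [u.mul_inv]
        rw [← h5, hu', Matrix.mul_apply]
        exact Finset.sum_congr rfl fun c _ => mul_comm _ _
      rw [Finset.sum_congr rfl fun d _ => h4 d, Finset.sum_eq_single j]
      · rw [Matrix.one_apply_eq, one_smul]
      · intro d _ hd
        rw [Matrix.one_apply_ne hd, zero_smul]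
      · intro h
        exact absurd (Finset.mem_univ _) h
    rw [← h3, h2]
  · exact hoff i x hx

/-! ### subquotients -/

theorem le_of_fr {K V : Type*} [Field K] [AddCommGroup V] [Module K V] {Z B : Submodule K V}
    (hfin : FinS Z B) (h : fr Z B = 0) : Z ≤ B := by
  have hfin' : FiniteDimensional K (Z ⧸ B.submoduleOf Z) := hfin
  have hs : Subsingleton (Z ⧸ B.submoduleOf Z) := Module.finrank_zero_iff.1 h
  intro z hz
  have h1 : (Submodule.Quotient.mk ⟨z, hz⟩ : Z ⧸ B.submoduleOf Z) = 0 := Subsingleton.elim _ _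
  rw [Submodule.Quotient.mk_eq_zero] at h1
  exact h1

theorem fd_of_inj {K V W : Type*} [Field K] [AddCommGroup V] [Module K V] [AddCommGroup W]
    [Module K W] {Z B : Submodule K V} (hfin : FinS Z B) (φ : W →ₗ[K] V) (h1 : ∀ w, φ w ∈ Z)
    (h2 : ∀ w, φ w ∈ B → w = 0) : FiniteDimensional K W := by
  have hfin' : FiniteDimensional K (Z ⧸ B.submoduleOf Z) := hfin
  let ψ : W →ₗ[K] (Z ⧸ B.submoduleOf Z) := (B.submoduleOf Z).mkQ ∘ₗ φ.codRestrict Z h1
  refine Module.Finite.of_injective ψ ?_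
  rw [injective_iff_map_eq_zero]
  intro w hw
  have h3 : (Submodule.Quotient.mk (φ.codRestrict Z h1 w) : Z ⧸ B.submoduleOf Z) = 0 := hw
  rw [Submodule.Quotient.mk_eq_zero] at h3
  exact h2 w h3

/-! ### solvability -/

section Solv

variable [CompactSpace M] [T2Space M] [Finite A.ι]

theorem pq_of_isDeg {B : FBun A} {q : ℕ} {u : A.ι → M → B.κ → ℂ} (hu : IsDeg B q u) :
    pq B q u = u := by
  funext i x k
  rw [pq_apply]
  by_cases h : B.deg k = q
  · rw [if_pos h]
  · rw [if_neg h]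
    by_contra h1
    exact h (hu i x k (Ne.symm h1))

theorem pq_isDeg {B : FBun A} (q : ℕ) (u : A.ι → M → B.κ → ℂ) : IsDeg B q (pq B q u) := by
  intro i x k hk
  rw [pq_apply] at hk
  by_contra h
  exact hk (if_neg h)

theorem solv_of_hB (P : Part A) {N : LB A} {q : ℕ} (hq : 1 ≤ q) (h : hB (BN N) q = 0) :
    Solv N q := by
  intro u hu hDu
  have hz : (⟨u, hu.1⟩ : Sec (BN N)) ∈ Zd (BN N) q := by
    rw [mem_Zd]
    exact ⟨Subtype.ext hDu, Subtype.ext (pq_of_isDeg hu.2)⟩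
  have h2 : (⟨u, hu.1⟩ : Sec (BN N)) ∈ Bd (BN N) q := le_of_fr (BN_finite P N q) h hz
  obtain ⟨⟨w, hw⟩, -⟩ := mem_Bd.1 h2
  obtain ⟨p, rfl⟩ : ∃ p, q = p + 1 := ⟨q - 1, by omega⟩
  refine ⟨pq (BN N) p w.1, ⟨pq_mem p w.2, pq_isDeg p _⟩, ?_⟩
  have h3 : nab (BN N) w.1 = u := congrArg Subtype.val hw
  have h4 := nab_pq p w.2
  rw [h3, pq_of_isDeg hu.2] at h4
  exact h4

theorem hB_pos (hD : D2 A) {N : LB A} {h : HM ((KB A)⁻¹ * N)} (hp : h.Pos) {q : ℕ} (hq : 1 ≤ q) :
    hB (BN N) q = 0 := by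
  have h1 := (hD N h (Kah_333.Pos.semipos hp) q).2
  rw [NV_pos hp hq, finrank_bot] at h1
  exact h1.symm

/-- **vanishing for positive curvature** -/
theorem solv_pos (P : Part A) (hD : D2 A) {N : LB A} {h : HM ((KB A)⁻¹ * N)} (hp : h.Pos) {q : ℕ}
    (hq : 1 ≤ q) : Solv N q :=
  solv_of_hB P hq (hB_pos hD hp hq)

theorem nab_deg_zero {B : FBun A} {w : A.ι → M → B.κ → ℂ} (i : A.ι) (x : M) (k : B.κ)
    (hk : B.deg k = 0) : nab B w i x k = 0 := by
  by_cases hx : x ∈ (A.e i).source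
  · rw [nab_apply B hx, Pi.add_apply, Finset.sum_apply]
    have h1 : ∀ a, (B.e a *ᵥ A.db i a (w i) x) k = 0 := by
      intro a
      have h3 : ∀ l, B.e a k l * A.db i a (w i) x l = 0 := by
        intro l
        by_cases h : B.e a k l = 0
        · rw [h, zero_mul]
        · have := B.e_deg a k l h
          omega
      exact Finset.sum_eq_zero fun l _ => h3 l
    have h2 : (B.α i x *ᵥ w i x) k = 0 := by
      have h3 : ∀ l, B.α i x k l * w i x l = 0 := by
        intro l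
        by_cases h : B.α i x k l = 0
        · rw [h, zero_mul]
        · have := B.α_deg i x k l h
          omega
      exact Finset.sum_eq_zero fun l _ => h3 l
    rw [h2, add_zero]
    exact Finset.sum_eq_zero fun a _ => h1 a
  · rw [nab_off B hx]
    rfl

/-- **finite dimensionality of the space of sections** -/
theorem fd_HS (P : Part A) (N : LB A) : FiniteDimensional ℂ (HS N univ) := by
  have hmem : ∀ s : HS N univ, embN s.1 ∈ FF N 0 := fun s => embN_mem (IsHS.smS s.2) s.2.off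
  let φ : HS N univ →ₗ[ℂ] Sec (BN N) :=
    { toFun := fun s => ⟨embN s.1, (hmem s).1⟩
      map_add' := fun s t => by
        refine Subtype.ext (funext fun i => funext fun x => funext fun k => ?_)
        show embN (s.1 + t.1) i x k = embN s.1 i x k + embN t.1 i x k
        unfold embN
        split_ifs <;> simp
      map_smul' := fun c s => by
        refine Subtype.ext (funext fun i => funext fun x => funext fun k => ?_)
        show embN (c • s.1) i x k = c • embN s.1 i x k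
        unfold embN
        split_ifs <;> simp }
  refine fd_of_inj (BN_finite P N 0) φ (fun s => ?_) (fun s hs => ?_)
  · rw [mem_Zd]
    exact ⟨Subtype.ext (Db_embN_hol s.2), Subtype.ext (pq_of_isDeg (hmem s).2)⟩
  · obtain ⟨⟨w, hw⟩, -⟩ := mem_Bd.1 hs
    have h3 : nab (BN N) w.1 = embN s.1 := congrArg Subtype.val hw
    refine Subtype.ext (funext fun i => funext fun x => ?_)
    have h4 : nab (BN N) w.1 i x ((∅ : Finset (Fin n)), ()) = 0 := nab_deg_zero i x _ rfl
    rw [h3] at h4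
    have h5 : embN s.1 i x (∅, ()) = s.1 i x := if_pos rfl
    exact h5.symm.trans h4

/-! ### large powers -/

/-- **vanishing for large powers** -/
theorem solv_large (P : Part A) (hD : D2 A) {O : LB A} {hO : HM O} (hp : hO.Pos) (L : LB A) :
    ∃ m0 : ℕ, ∀ m, m0 ≤ m → ∀ q, 1 ≤ q → Solv (L * O ^ m) q := by
  obtain ⟨h0⟩ := exists_hm P ((KB A)⁻¹ * L)
  obtain ⟨m0, hm0⟩ := exists_pos_pow h0 hO hp
  refine ⟨m0, fun m hm q hq => ?_⟩
  have e : (KB A)⁻¹ * L * O ^ m = (KB A)⁻¹ * (L * O ^ m) := mul_assoc _ _ _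
  exact solv_pos P hD (castH_pos e (hm0 m hm)) hq

theorem gg_large (P : Part A) (hD : D2 A) {O : LB A} {hO : HM O} (hp : hO.Pos) (D : FD O)
    (L : LB A) : ∃ m0 : ℕ, ∀ m, m0 ≤ m → ∀ x0 : M,
      ∃ s, IsHS (L * O ^ m) univ s ∧ (∀ i, x0 ∈ (A.e i).source → s i x0 ≠ 0) ∧
        ∀ i y, Rel D.F x0 y → y ≠ x0 → s i y = 0 := by
  obtain ⟨m0, h⟩ := solv_large P hD hp L
  exact ⟨m0 + n, fun m hm x0 => gg D L h hm x0⟩

theorem ggen_large (P : Part A) (hD : D2 A) {O : LB A} {hO : HM O} (hp : hO.Pos) (D : FD O)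
    (L : LB A) : ∃ m0 : ℕ, ∀ m, m0 ≤ m → GGen (L * O ^ m) := by
  obtain ⟨m0, h⟩ := solv_large P hD hp L
  exact ⟨m0 + n, fun m hm => gg_fin D L h hm⟩

/-- **very ampleness of large twists** -/
theorem proj_large (P : Part A) (hD : D2 A) {O : LB A} {hO : HM O} (hp : hO.Pos) (D : FD O)
    (L : LB A) : ∃ m0 : ℕ, ∀ m, m0 ≤ m → ∃ P' : ProjD A, lb P' = L * O ^ m := by
  obtain ⟨m0, h⟩ := solv_large P hD hp L
  exact ⟨m0 + n + 1, fun m hm => exists_projD D L (fd_HS P) h hm⟩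

/-! ### the projective case -/

theorem gg_proj (P : Part A) (hD : D2 A) (Pr : ProjD A) (L : LB A) : ∃ m0 : ℕ, ∀ m, m0 ≤ m →
    ∀ x0 : M, ∃ s, IsHS (L * lb Pr ^ m) univ s ∧ ∀ i, x0 ∈ (A.e i).source → s i x0 ≠ 0 := by
  obtain ⟨m0, h⟩ := gg_large P hD (fs_pos Pr) (ofProj Pr) L
  refine ⟨m0, fun m hm x0 => ?_⟩
  obtain ⟨s, h1, h2, -⟩ := h m hm x0
  exact ⟨s, h1, h2⟩

theorem ggen_proj (P : Part A) (hD : D2 A) (Pr : ProjD A) (L : LB A) :
    ∃ m0 : ℕ, ∀ m, m0 ≤ m → GGen (L * lb Pr ^ m) :=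
  ggen_large P hD (fs_pos Pr) (ofProj Pr) L

theorem proj_proj (P : Part A) (hD : D2 A) (Pr : ProjD A) (L : LB A) :
    ∃ m0 : ℕ, ∀ m, m0 ≤ m → ∃ P' : ProjD A, lb P' = L * lb Pr ^ m :=
  proj_large P hD (fs_pos Pr) (ofProj Pr) L

/-- every line bundle is the difference of two very ample ones (the second one a power of `O(1)`) -/
theorem exists_diff (P : Part A) (hD : D2 A) (Pr : ProjD A) (L : LB A) :
    ∃ P1 P2 : ProjD A, L = lb P1 * (lb P2)⁻¹ := by
  obtain ⟨m0, h⟩ := proj_proj P hD Pr L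
  obtain ⟨P1, h1⟩ := h (m0 + 1) (by omega)
  obtain ⟨P2, h2⟩ := exists_proj_pow Pr m0
  exact ⟨P1, P2, by rw [h1, h2, mul_inv_cancel_right]⟩

end Solv

end

end Crest.Agent.R273.SerE_945
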