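import Mathlib
import Crest.Agent.R271.RExt2_747
import Crest.Agent.R266.SCV

/-!
# R273, leaf A-RIG (R1) (helper769): complete integral closedness of the sheaf of holomorphic
functions, by the maximum principle

* `exists_direction`, `bound_of_pow` : if `g ^ N * q_N = f ^ N * s` with `q_N` holomorphic for
  infinitely many `N`, then `|f| ≤ C |g|` locally.
* `exists_quot` : a locally bounded quotient `f / g` is holomorphic (`Cn n = EuclideanSpace ℂ (Fin n)`).
* `cic` : the conclusion `f = lam * g`.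
-/

set_option autoImplicit false

open Set Filter Topology Metric Complex MeasureTheory
open scoped ENNReal

namespace Crest.Agent.R273.Cic769

noncomputable section

section Bound

variable {E : Type*} [NormedAddCommGroup E] [NormedSpace ℂ E]

/-- the zero set of an analytic function which is not locally zero contains no germ of a line in
some direction -/
theorem exists_direction {D : E → ℂ} {U : Set E} (hU : IsOpen U)
    (hD : AnalyticOnNhd ℂ D U) {a : E} (ha : a ∈ U) (hne : ∃ᶠ z in 𝓝 a, D z ≠ 0) :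
    ∃ v : E, ∀ᶠ ζ in 𝓝[≠] (0 : ℂ), D (a + ζ • v) ≠ 0 := by
  obtain ⟨ρ, hρ, hρU⟩ := Metric.isOpen_iff.1 hU a ha
  obtain ⟨b, hDb, hb⟩ := (hne.and_eventually (ball_mem_nhds a hρ)).exists
  set v := b - a with hv
  refine ⟨v, ?_⟩
  set S : Set ℂ := {ζ | a + ζ • v ∈ ball a ρ} with hS
  have hSo : IsOpen S := isOpen_ball.preimage (by fun_prop : Continuous fun ζ : ℂ => a + ζ • v)
  have hSc : Convex ℝ S := by
    intro x hx y hy s t hs ht hst
    have : a + (s • x + t • y) • v = s • (a + x • v) + t • (a + y • v) := by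
      have h2 : a = s • a + t • a := by rw [← add_smul, hst, one_smul]
      conv_lhs => rw [h2]
      rw [add_smul, smul_add, smul_add, smul_assoc, smul_assoc]
      abel
    change a + (s • x + t • y) • v ∈ ball a ρ
    rw [this]
    exact (convex_ball a ρ) hx hy hs ht hst
  have h0 : (0 : ℂ) ∈ S := by simp [hS, hρ]
  have h1' : (1 : ℂ) ∈ S := by
    change a + (1 : ℂ) • v ∈ ball a ρ
    rw [one_smul, hv, add_sub_cancel]; exact hb
  have hA : AnalyticOnNhd ℂ (fun ζ : ℂ => D (a + ζ • v)) S := by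
    intro ζ hζ
    have h3 : AnalyticAt ℂ (fun ζ : ℂ => a + ζ • v) ζ := by fun_prop
    exact AnalyticAt.comp (g := D) (f := fun ζ : ℂ => a + ζ • v) (hD _ (hρU hζ)) h3
  rcases (hA 0 h0).eventually_eq_zero_or_eventually_ne_zero with h | h
  · exfalso
    have := hA.eqOn_zero_of_preconnected_of_eventuallyEq_zero hSc.isPreconnected h0 h h1'
    apply hDb
    simpa [hv] using this
  · exact h

/-- the key bound: `f / g` is locally bounded -/
theorem bound_of_pow {f g s : E → ℂ} {U : Set E} (hU : IsOpen U) (hf : AnalyticOnNhd ℂ f U)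
    (hg : AnalyticOnNhd ℂ g U) (hs : AnalyticOnNhd ℂ s U) {p : E} (hp : p ∈ U)
    (hgs : ∃ᶠ z in 𝓝 p, g z * s z ≠ 0)
    (hN : ∀ N₀ : ℕ, ∃ N, N₀ ≤ N ∧ ∃ q : E → ℂ, DifferentiableOn ℂ q U ∧
      ∀ z ∈ U, g z ^ N * q z = f z ^ N * s z) :
    ∃ C : ℝ, ∀ᶠ z in 𝓝 p, ‖f z‖ ≤ C * ‖g z‖ := by
  obtain ⟨ρ, hρ, hρU⟩ := Metric.isOpen_iff.1 hU p hp
  have hD : AnalyticOnNhd ℂ (fun z => g z * s z) U := hg.mul hs
  obtain ⟨v, hv⟩ := exists_direction hU hD hp hgs
  -- the radius of the disc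
  obtain ⟨r, hr, hrv, hrD⟩ : ∃ r : ℝ, 0 < r ∧ r * ‖v‖ < ρ / 2 ∧
      ∀ ζ : ℂ, ‖ζ‖ = r → g (p + ζ • v) * s (p + ζ • v) ≠ 0 := by
    obtain ⟨δ, hδ, hδD⟩ := Metric.mem_nhdsWithin_iff.1 hv
    have h1 : ∃ t : ℝ, 0 < t ∧ t * ‖v‖ < ρ / 2 := by
      refine ⟨ρ / (2 * (‖v‖ + 1)), by positivity, ?_⟩
      rw [div_mul_eq_mul_div, div_lt_iff₀ (by positivity)]
      nlinarith [norm_nonneg v]
    obtain ⟨t, ht, htv⟩ := h1
    refine ⟨min t (δ / 2), lt_min ht (by linarith), ?_, ?_⟩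
    · exact lt_of_le_of_lt (mul_le_mul_of_nonneg_right (min_le_left _ _) (norm_nonneg v)) htv
    · intro ζ hζ
      have h2 : ζ ∈ ball (0 : ℂ) δ ∩ {0}ᶜ := by
        constructor
        · rw [mem_ball_zero_iff, hζ]
          exact lt_of_le_of_lt (min_le_right _ _) (by linarith)
        · intro h0
          rw [mem_singleton_iff] at h0
          rw [h0, norm_zero] at hζ
          have : 0 < min t (δ / 2) := lt_min ht (by linarith)
          linarith
      exact hδD h2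
  -- membership in `U`
  have hmem : ∀ z ∈ ball p (ρ / 2), ∀ ζ : ℂ, ‖ζ‖ ≤ r → z + ζ • v ∈ U := by
    intro z hz ζ hζ
    apply hρU
    rw [mem_ball, dist_eq_norm]
    have h1 : z + ζ • v - p = (z - p) + ζ • v := by abel
    rw [h1]
    refine lt_of_le_of_lt (norm_add_le _ _) ?_
    rw [norm_smul]
    rw [mem_ball, dist_eq_norm] at hz
    have h2 : ‖ζ‖ * ‖v‖ ≤ r * ‖v‖ := mul_le_mul_of_nonneg_right hζ (norm_nonneg v)
    linarith
  have hpball : p ∈ ball p (ρ / 2) := mem_ball_self (by linarith)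
  -- bounds on the compact circle
  have hK : IsCompact (sphere (0 : ℂ) r) := isCompact_sphere 0 r
  have hcont : Continuous fun ζ : ℂ => p + ζ • v := by fun_prop
  have hmaps : MapsTo (fun ζ : ℂ => p + ζ • v) (sphere (0 : ℂ) r) U := fun ζ hζ =>
    hmem p hpball ζ (by rw [mem_sphere_zero_iff_norm] at hζ; exact hζ.le)
  have hSne : (sphere (0 : ℂ) r).Nonempty := ⟨(r : ℂ), by simp [abs_of_pos hr]⟩
  have hgc : ContinuousOn (fun ζ : ℂ => ‖g (p + ζ • v)‖) (sphere (0 : ℂ) r) :=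
    (hg.continuousOn.comp hcont.continuousOn hmaps).norm
  obtain ⟨ζ₀, hζ₀, hmin⟩ := hK.exists_isMinOn hSne hgc
  set c := ‖g (p + ζ₀ • v)‖ with hc
  have hcpos : 0 < c := by
    rw [hc, norm_pos_iff]
    exact left_ne_zero_of_mul (hrD ζ₀ (by rwa [mem_sphere_zero_iff_norm] at hζ₀))
  have hfc : ContinuousOn (fun ζ : ℂ => ‖f (p + ζ • v)‖) (sphere (0 : ℂ) r) :=
    (hf.continuousOn.comp hcont.continuousOn hmaps).norm
  have hsc : ContinuousOn (fun ζ : ℂ => ‖s (p + ζ • v)‖) (sphere (0 : ℂ) r) :=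
    (hs.continuousOn.comp hcont.continuousOn hmaps).norm
  obtain ⟨ζ₁, hζ₁, hmax1⟩ := hK.exists_isMaxOn hSne hfc
  obtain ⟨ζ₂, hζ₂, hmax2⟩ := hK.exists_isMaxOn hSne hsc
  set F := ‖f (p + ζ₁ • v)‖ + 1 with hF
  set S := ‖s (p + ζ₂ • v)‖ + 1 with hS
  have hFpos : 0 < F := by positivity
  have hSpos : 0 < S := by positivity
  have htube : ∀ᶠ z in 𝓝 p, ∀ ζ ∈ sphere (0 : ℂ) r,
      c / 2 ≤ ‖g (z + ζ • v)‖ ∧ ‖f (z + ζ • v)‖ ≤ F ∧ ‖s (z + ζ • v)‖ ≤ S := by
    refine hK.eventually_forall_of_forall_eventually (P := fun z ζ =>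
      c / 2 ≤ ‖g (z + ζ • v)‖ ∧ ‖f (z + ζ • v)‖ ≤ F ∧ ‖s (z + ζ • v)‖ ≤ S) fun ζ hζ => ?_
    have hUx : p + ζ • v ∈ U := hmaps hζ
    have hc2 : ContinuousAt (fun w : E × ℂ => w.1 + w.2 • v) (p, ζ) := by fun_prop
    have hgA : ContinuousAt (fun w : E × ℂ => ‖g (w.1 + w.2 • v)‖) (p, ζ) :=
      (ContinuousAt.comp (g := g) (f := fun w : E × ℂ => w.1 + w.2 • v)
        (hg _ hUx).continuousAt hc2).norm
    have hfA : ContinuousAt (fun w : E × ℂ => ‖f (w.1 + w.2 • v)‖) (p, ζ) :=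
      (ContinuousAt.comp (g := f) (f := fun w : E × ℂ => w.1 + w.2 • v)
        (hf _ hUx).continuousAt hc2).norm
    have hsA : ContinuousAt (fun w : E × ℂ => ‖s (w.1 + w.2 • v)‖) (p, ζ) :=
      (ContinuousAt.comp (g := s) (f := fun w : E × ℂ => w.1 + w.2 • v)
        (hs _ hUx).continuousAt hc2).norm
    have e1 : c / 2 < ‖g (p + ζ • v)‖ := lt_of_lt_of_le (by linarith) (hmin hζ)
    have e2 : ‖f (p + ζ • v)‖ < F := lt_of_le_of_lt (hmax1 hζ) (by rw [hF]; linarith)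
    have e3 : ‖s (p + ζ • v)‖ < S := lt_of_le_of_lt (hmax2 hζ) (by rw [hS]; linarith)
    filter_upwards [hgA.eventually_const_lt e1, hfA.eventually_lt_const e2,
      hsA.eventually_lt_const e3] with w h1 h2 h3
    exact ⟨h1.le, h2.le, h3.le⟩
  obtain ⟨δ, hδ, hδb⟩ := Metric.eventually_nhds_iff_ball.1 htube
  set W := ball p (min δ (ρ / 2)) with hW
  have hWo : IsOpen W := isOpen_ball
  have hWpos : 0 < min δ (ρ / 2) := lt_min hδ (by linarith)
  have hWU : W ⊆ U := fun z hz => hρU (ball_subset_ball (by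
    exact (min_le_right _ _).trans (by linarith)) hz)
  -- the bound at points where `g s ≠ 0`
  have key : ∀ z ∈ W, g z * s z ≠ 0 → ‖f z‖ ≤ (F / (c / 2)) * ‖g z‖ := by
    intro z hz hgs0
    have hgz : g z ≠ 0 := left_ne_zero_of_mul hgs0
    have hsz : s z ≠ 0 := right_ne_zero_of_mul hgs0
    have hzδ : z ∈ ball p δ := ball_subset_ball (min_le_left _ _) hz
    have hzρ : z ∈ ball p (ρ / 2) := ball_subset_ball (min_le_right _ _) hz
    set y := F / (c / 2) with hy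
    have hypos : 0 < y := by positivity
    -- bound of `q`
    have hq : ∀ N : ℕ, ∀ q : E → ℂ, DifferentiableOn ℂ q U →
        (∀ z ∈ U, g z ^ N * q z = f z ^ N * s z) → ‖q z‖ ≤ y ^ N * S := by
      intro N q hqd hqe
      have hd : DiffContOnCl ℂ (fun ζ : ℂ => q (z + ζ • v)) (ball (0 : ℂ) r) := by
        apply DifferentiableOn.diffContOnCl
        rw [closure_ball (0 : ℂ) hr.ne']
        refine DifferentiableOn.comp (t := U) (g := q) (f := fun ζ : ℂ => z + ζ • v) hqd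
          (by fun_prop) ?_
        intro ζ hζ
        exact hmem z hzρ ζ (by simpa using hζ)
      have h1 := Complex.norm_le_of_forall_mem_frontier_norm_le (f := fun ζ : ℂ => q (z + ζ • v))
        (C := y ^ N * S) (z := (0 : ℂ)) isBounded_ball hd ?_ (subset_closure (mem_ball_self hr))
      · simpa using h1
      · intro ζ hζ
        rw [frontier_ball (0 : ℂ) hr.ne'] at hζ
        have hζU : z + ζ • v ∈ U := hmem z hzρ ζ (by
          rw [mem_sphere_zero_iff_norm] at hζ; exact hζ.le)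
        obtain ⟨b1, b2, b3⟩ := hδb z hzδ ζ hζ
        have hgpos : 0 < ‖g (z + ζ • v)‖ := lt_of_lt_of_le (by positivity) b1
        have h2 := congrArg norm (hqe _ hζU)
        rw [norm_mul, norm_pow, norm_mul, norm_pow] at h2
        have h3 : ‖q (z + ζ • v)‖ = ‖f (z + ζ • v)‖ ^ N * ‖s (z + ζ • v)‖ / ‖g (z + ζ • v)‖ ^ N := by
          rw [eq_div_iff (pow_pos hgpos N).ne', mul_comm]
          exact h2
        show ‖q (z + ζ • v)‖ ≤ y ^ N * S
        rw [h3, mul_div_right_comm, ← div_pow]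
        have h4 : ‖f (z + ζ • v)‖ / ‖g (z + ζ • v)‖ ≤ y := by
          rw [hy]
          exact div_le_div₀ hFpos.le b2 (by positivity) b1
        exact mul_le_mul (pow_le_pow_left₀ (by positivity) h4 N) b3 (norm_nonneg _)
          (by positivity)
    by_contra hcon
    push Not at hcon
    have hgpos : 0 < ‖g z‖ := norm_pos_iff.2 hgz
    have hspos : 0 < ‖s z‖ := norm_pos_iff.2 hsz
    have hx : 1 < ‖f z‖ / ‖g z‖ / y := by
      rw [lt_div_iff₀ hypos, one_mul, lt_div_iff₀ hgpos]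
      exact hcon
    obtain ⟨N₀, hN₀⟩ := pow_unbounded_of_one_lt (S / ‖s z‖) hx
    obtain ⟨N, hNN, q, hqd, hqe⟩ := hN N₀
    have h5 := hq N q hqd hqe
    have h6 := congrArg norm (hqe z (hWU hz))
    rw [norm_mul, norm_pow, norm_mul, norm_pow] at h6
    have h7 : (‖f z‖ / ‖g z‖ / y) ^ N ≤ S / ‖s z‖ := by
      rw [div_pow, div_pow, le_div_iff₀ hspos, div_div, div_mul_eq_mul_div,
        div_le_iff₀ (by positivity), ← h6]
      calc ‖g z‖ ^ N * ‖q z‖ ≤ ‖g z‖ ^ N * (y ^ N * S) :=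
            mul_le_mul_of_nonneg_left h5 (by positivity)
        _ = S * (‖g z‖ ^ N * y ^ N) := by ring
    have h8 : (‖f z‖ / ‖g z‖ / y) ^ N₀ ≤ (‖f z‖ / ‖g z‖ / y) ^ N :=
      pow_le_pow_right₀ hx.le hNN
    linarith
  refine ⟨F / (c / 2), ?_⟩
  filter_upwards [hWo.mem_nhds (mem_ball_self hWpos)] with z hz
  -- density
  have hex : ∃ x ∈ W, g x * s x ≠ 0 := by
    obtain ⟨x, hx, hxW⟩ := (hgs.and_eventually (hWo.mem_nhds (mem_ball_self hWpos))).exists
    exact ⟨x, hxW, hx⟩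
  have hdense := Crest.Agent.R266.SCV.dense_ne_zero hWo (convex_ball p _).isPreconnected
    (hD.mono hWU) hex z hz
  have hcontz : ContinuousAt (fun w => (F / (c / 2)) * ‖g w‖ - ‖f w‖) z :=
    (continuousAt_const.mul (hg z (hWU hz)).continuousAt.norm).sub
      (hf z (hWU hz)).continuousAt.norm
  have h9 : ∃ᶠ w in 𝓝 z, 0 ≤ (F / (c / 2)) * ‖g w‖ - ‖f w‖ :=
    hdense.mono fun w hw => sub_nonneg.2 (key w hw.1 hw.2)
  have h10 := ge_of_tendsto_of_frequently hcontz.tendsto h9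
  linarith

end Bound

section Quot

variable {n : ℕ}

/-- a locally bounded quotient of holomorphic functions is holomorphic -/
theorem exists_quot {f g : EuclideanSpace ℂ (Fin n) → ℂ} {U : Set (EuclideanSpace ℂ (Fin n))}
    (hU : IsOpen U) (hf : DifferentiableOn ℂ f U) (hg : DifferentiableOn ℂ g U)
    (hne : ∀ a ∈ U, ∃ᶠ z in 𝓝 a, g z ≠ 0)
    (hb : ∀ a ∈ U, ∃ C : ℝ, ∀ᶠ z in 𝓝 a, ‖f z‖ ≤ C * ‖g z‖) :
    ∃ lam : EuclideanSpace ℂ (Fin n) → ℂ, DifferentiableOn ℂ lam U ∧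
      ∀ z ∈ U, f z = lam z * g z := by
  set Φ := EuclideanSpace.equiv (Fin n) ℂ with hΦ
  set U' : Set (Fin n → ℂ) := Φ.symm ⁻¹' U with hU'
  have hU'o : IsOpen U' := hU.preimage Φ.symm.continuous
  have hmaps : MapsTo Φ.symm U' U := fun z hz => hz
  have hf' : DifferentiableOn ℂ (fun z => f (Φ.symm z)) U' :=
    hf.comp Φ.symm.differentiable.differentiableOn hmaps
  have hg' : DifferentiableOn ℂ (fun z => g (Φ.symm z)) U' :=
    hg.comp Φ.symm.differentiable.differentiableOn hmaps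
  have hgA : AnalyticOnNhd ℂ (fun z => g (Φ.symm z)) U' :=
    Crest.Agent.R266.SCV.analyticOnNhd_of_differentiableOn hU'o hg'
  have htend : ∀ a : Fin n → ℂ, Tendsto Φ.symm (𝓝 a) (𝓝 (Φ.symm a)) := fun a =>
    Φ.symm.continuous.continuousAt
  have hN1 : ∀ a ∈ U', ¬ (∀ᶠ z in 𝓝 a, g (Φ.symm z) = 0) := by
    intro a ha hcon
    refine hne (Φ.symm a) ha ?_
    have h1 : ∀ᶠ z in 𝓝 (Φ.symm a), g (Φ.symm (Φ z)) = 0 := by
      have h2 : Tendsto Φ (𝓝 (Φ.symm a)) (𝓝 a) := by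
        have := Φ.continuous.continuousAt (x := Φ.symm a)
        rwa [ContinuousAt, Φ.apply_symm_apply] at this
      exact h2.eventually hcon
    filter_upwards [h1] with z hz
    rw [Φ.symm_apply_apply] at hz
    exact fun h => h hz
  have hN2 : DifferentiableOn ℂ (fun z => f (Φ.symm z) / g (Φ.symm z))
      (U' ∩ {z | g (Φ.symm z) ≠ 0}) := by
    have h1 : DifferentiableOn ℂ (fun z => f (Φ.symm z)) (U' ∩ {z | g (Φ.symm z) ≠ 0}) :=
      hf'.mono inter_subset_left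
    have h2 : DifferentiableOn ℂ (fun z => g (Φ.symm z)) (U' ∩ {z | g (Φ.symm z) ≠ 0}) :=
      hg'.mono inter_subset_left
    exact (h1.mul (h2.inv fun z hz => hz.2)).congr fun z _ => div_eq_mul_inv _ _
  have hN3 : ∀ a ∈ U', ∃ W ∈ 𝓝 a, ∫⁻ z in W ∩ {z | g (Φ.symm z) ≠ 0},
      ‖f (Φ.symm z) / g (Φ.symm z)‖ₑ ^ 2 < ⊤ := by
    intro a ha
    obtain ⟨C, hC⟩ := hb (Φ.symm a) ha
    have h1 : ∀ᶠ z in 𝓝 a, ‖f (Φ.symm z)‖ ≤ C * ‖g (Φ.symm z)‖ := (htend a).eventually hC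
    have h1' : ∀ᶠ z in 𝓝 a, z ∈ U' ∧ ‖f (Φ.symm z)‖ ≤ C * ‖g (Φ.symm z)‖ :=
      Filter.Eventually.and (hU'o.mem_nhds ha) h1
    obtain ⟨W, hW, hWo, haW⟩ := _root_.mem_nhds_iff.1 h1'
    refine ⟨W ∩ ball a 1, inter_mem (hWo.mem_nhds haW) (ball_mem_nhds a one_pos), ?_⟩
    have hvol : volume (ball a 1) < ⊤ := measure_ball_lt_top
    have hopen : IsOpen (W ∩ ball a 1 ∩ {z | g (Φ.symm z) ≠ 0}) := by
      have h2 : W ∩ ball a 1 ∩ {z | g (Φ.symm z) ≠ 0} =
          (W ∩ ball a 1) ∩ (fun z => g (Φ.symm z)) ⁻¹' {w | w ≠ 0} := rfl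
      rw [h2]
      exact (hg'.continuousOn.mono fun z hz => (hW hz.1).1).isOpen_inter_preimage
        (hWo.inter isOpen_ball) isOpen_ne
    calc ∫⁻ z in (W ∩ ball a 1) ∩ {z | g (Φ.symm z) ≠ 0}, ‖f (Φ.symm z) / g (Φ.symm z)‖ₑ ^ 2
        ≤ ∫⁻ _z in (W ∩ ball a 1) ∩ {z | g (Φ.symm z) ≠ 0}, ENNReal.ofReal C ^ 2 := by
          refine setLIntegral_mono' hopen.measurableSet ?_
          intro z hz
          have h3 : ‖f (Φ.symm z) / g (Φ.symm z)‖ ≤ C := by
            rw [norm_div, div_le_iff₀ (norm_pos_iff.2 hz.2)]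
            exact (hW hz.1.1).2
          have h4 : ‖f (Φ.symm z) / g (Φ.symm z)‖ₑ ≤ ENNReal.ofReal C := by
            rw [← ofReal_norm]
            exact ENNReal.ofReal_le_ofReal h3
          gcongr
      _ ≤ ENNReal.ofReal C ^ 2 * volume (ball a 1) := by
          rw [setLIntegral_const]
          gcongr
          exact fun z hz => hz.1.2
      _ < ⊤ := ENNReal.mul_lt_top (by simp) hvol
  obtain ⟨lam, hlam, hle⟩ := Crest.Agent.R271.RExt747.riemann_ext
    (f := fun z => f (Φ.symm z) / g (Φ.symm z)) (D := fun z => g (Φ.symm z)) hU'o hgA hN1 hN2 hN3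
  refine ⟨fun z => lam (Φ z), ?_, ?_⟩
  · refine hlam.comp Φ.differentiable.differentiableOn fun z hz => ?_
    show Φ.symm (Φ z) ∈ U
    rwa [Φ.symm_apply_apply]
  · intro z hz
    by_cases h0 : g z = 0
    · rw [h0, mul_zero]
      obtain ⟨C, hC⟩ := hb z hz
      have := hC.self_of_nhds
      rw [h0, norm_zero, mul_zero] at this
      exact norm_le_zero_iff.1 this
    · have h1 := hle (Φ z) (by show Φ.symm (Φ z) ∈ U; rwa [Φ.symm_apply_apply])
        (by rwa [Φ.symm_apply_apply])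
      rw [Φ.symm_apply_apply] at h1
      show f z = lam (Φ z) * g z
      rw [h1, div_mul_cancel₀ _ h0]

/-- complete integral closedness of the holomorphic functions on an open subset of `ℂⁿ` -/
theorem cic {f g s : EuclideanSpace ℂ (Fin n) → ℂ} {U : Set (EuclideanSpace ℂ (Fin n))}
    (hU : IsOpen U) (hf : DifferentiableOn ℂ f U) (hg : DifferentiableOn ℂ g U)
    (hs : DifferentiableOn ℂ s U)
    (hgs : ∀ a ∈ U, ∃ᶠ z in 𝓝 a, g z * s z ≠ 0)
    (hN : ∀ N₀ : ℕ, ∃ N, N₀ ≤ N ∧ ∃ q : EuclideanSpace ℂ (Fin n) → ℂ, DifferentiableOn ℂ q U ∧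
      ∀ z ∈ U, g z ^ N * q z = f z ^ N * s z) :
    ∃ lam : EuclideanSpace ℂ (Fin n) → ℂ, DifferentiableOn ℂ lam U ∧
      ∀ z ∈ U, f z = lam z * g z :=
  exists_quot hU hf hg (fun a ha => (hgs a ha).mono fun _ hz => left_ne_zero_of_mul hz)
    fun a ha => bound_of_pow hU
      (Crest.Agent.R266.SCV.analyticOnNhd_of_differentiableOn hU hf)
      (Crest.Agent.R266.SCV.analyticOnNhd_of_differentiableOn hU hg)
      (Crest.Agent.R266.SCV.analyticOnNhd_of_differentiableOn hU hs) ha (hgs a ha) hN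

end Quot

end

end Crest.Agent.R273.Cic769
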