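import Crest.Agent.R275.Core_144
import Crest.Agent.R275.GAtl_293

/-!
# R273 (S0416), Part E (helper333): the Type-level data

`HM L`       : smooth Hermitian metric on the holomorphic line bundle `L : LB A`
               (`w i x` = squared length of the frame of the chart `i`);
`lev u z v`  : `D²u(v,v) + D²u(iv,iv)` (four times the Levi form);
`HM.Semipos` : `-log w` is plurisubharmonic in the charts;
`ProjD A`    : homogeneous coordinates of an injective immersion to a projective space;
`Main`       : the Type-level form of S0416.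
-/

set_option autoImplicit false
set_option linter.unusedSectionVars false

open Set Filter Topology Complex
open scoped ContDiff Matrix ComplexConjugate Manifold

namespace Crest.Agent.R273.Defs_333

open Crest.Agent.R275.Geo Crest.Agent.R275.Core144 Crest.Agent.R275.GC293

noncomputable section

variable {n : ℕ} {M : Type} [TopologicalSpace M] {A : Atl n M}

/-- `D²u(z)(v,v) + D²u(z)(iv,iv)` -/
def lev (u : Cn n → ℝ) (z v : Cn n) : ℝ :=
  iteratedFDeriv ℝ 2 u z ![v, v] + iteratedFDeriv ℝ 2 u z ![Complex.I • v, Complex.I • v]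

/-- smooth Hermitian metric on a holomorphic line bundle: `w i x` is the squared length of the
frame of the chart `i` at `x`, i.e. `|s|² = |s i x|² * w i x` for a section `s` -/
structure HM (L : LB A) where
  w : A.ι → M → ℝ
  pos : ∀ i, ∀ x ∈ (A.e i).source, 0 < w i x
  sm : ∀ i, A.SmAt i (w i)
  tr : ∀ i j, ∀ x ∈ (A.e i).source ∩ (A.e j).source, w j x = ‖L.g i j x‖ ^ 2 * w i x

/-- the local weight `-log w` read in the chart `i` -/
def HM.wt {L : LB A} (h : HM L) (i : A.ι) : Cn n → ℝ :=
  fun z => - Real.log (h.w i ((A.e i).symm z))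

/-- semipositive curvature -/
def HM.Semipos {L : LB A} (h : HM L) : Prop :=
  ∀ i, ∀ z ∈ (A.e i).target, ∀ v : Cn n, 0 ≤ lev (h.wt i) z v

/-- positive curvature -/
def HM.Pos {L : LB A} (h : HM L) : Prop :=
  ∀ i, ∀ z ∈ (A.e i).target, ∀ v : Cn n, v ≠ 0 → 0 < lev (h.wt i) z v

/-- homogeneous coordinates of an injective holomorphic immersion into a projective space -/
structure ProjD (A : Atl n M) where
  N : ℕ
  F : A.ι → M → Fin (N + 1) → ℂ
  hol : ∀ i k, HolAt A i univ (fun x => F i x k)
  ne : ∀ i, ∀ x ∈ (A.e i).source, F i x ≠ 0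
  tr : ∀ i j, ∀ x ∈ (A.e i).source ∩ (A.e j).source, ∃ c : ℂ, F i x = c • F j x
  inj : ∀ i j, ∀ x ∈ (A.e i).source, ∀ y ∈ (A.e j).source, (∃ c : ℂ, F i x = c • F j y) → x = y
  imm : ∀ i, ∀ z ∈ (A.e i).target, ∀ v : Cn n,
    (∃ c : ℂ, fderiv ℂ (fun w => F i ((A.e i).symm w)) z v = c • F i ((A.e i).symm z)) → v = 0

/-- `L ^ m` has a holomorphic section which is not identically zero -/
def HasSec (L : LB A) : Prop :=
  ∃ s, IsHS L univ s ∧ ∃ i, ∃ x ∈ (A.e i).source, s i x ≠ 0

/-- the Type-level form of S0416 -/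
def Main : Prop :=
  ∀ (n : ℕ) (M : Type) [TopologicalSpace M] [T2Space M] [CompactSpace M] [ConnectedSpace M]
    (A : Atl n M) [Finite A.ι], GoodA A → Nonempty (Part A) → ProjD A →
    ∀ h : HM (KB A)⁻¹, h.Semipos → ∃ m : ℕ, 0 < m ∧ HasSec ((KB A)⁻¹ ^ m)

end

end Crest.Agent.R273.Defs_333
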