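import Crest.Agent.R273.ChowR_313
import Crest.Agent.R273.SerE_945

/-!
# R273 (S0416), leaf CHOW, part 5 (helper313): the affine model of `M` minus a hypersurface

`d0 ∈ H⁰(Q)`, `Q = lb P ^ k`, `k ≥ 1`, `d0 ≢ 0`; `Reg Q d0 hd0` = functions `t / d0^j` on `nz d0`,
`t ∈ H⁰(Q^j)`.
* `reg_domain` : it is a domain;
* `reg_fg`     : it is a finitely generated algebra;
* `reg_pt`     : its characters are the points of `nz d0`;
* `reg_quot`   : its fraction field is the field of quotients of sections;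
* `exists_mul` : every section is a factor of a section of a power of `lb P`.
-/

set_option autoImplicit false
set_option linter.unusedSectionVars false

open Set Filter Topology Complex
open scoped ContDiff Matrix ComplexConjugate Kronecker Polynomial

namespace Crest.Agent.R273.Chow_313

open Crest.Agent.R275 Crest.Agent.R275.Geo Crest.Agent.R275.Core144 Crest.Agent.R275.Dg199
open Crest.Agent.R273.LamN127 Crest.Agent.R273.KosAb_619 Crest.Agent.R273.SerA_945
open Crest.Agent.R273.SerB_945 Crest.Agent.R273.SerC_945 Crest.Agent.R273.KosGen_313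
open Crest.Agent.R273.Defs_333 Crest.Agent.R273.FS_333 Crest.Agent.R273.SteinC_794
open Crest.Agent.R273.TD3_733 Crest.Agent.R273.SerE_945

noncomputable section

variable {n : ℕ} {M : Type} [TopologicalSpace M] {A : Atl n M} {r : ℕ} {O Q : LB A}

/-! ### powers of sections -/

/-- the `d`-th power of a section, a section of the `d`-th power of the bundle -/
def pw (s : Fn A) (d : ℕ) : Fn A := evF (fun _ : Fin 1 => s) (MvPolynomial.X 0 ^ d)

theorem isHS_pw {s : Fn A} (hs : IsHS O univ s) (d : ℕ) : IsHS (O ^ d) univ (pw s d) := by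
  refine isHS_evF (fun _ => hs) ?_
  have := (MvPolynomial.isHomogeneous_X ℂ (0 : Fin 1)).pow d
  rwa [one_mul] at this

theorem pw_apply (s : Fn A) (d : ℕ) {i : A.ι} {x : M} (hx : x ∈ (A.e i).source) :
    pw s d i x = s i x ^ d := by
  unfold pw
  rw [evF_apply _ _ hx, map_pow, MvPolynomial.eval_X]

/-! ### the algebra of regular functions -/

/-- `f = t / d0^j` -/
def IsReg (Q : LB A) (d0 : Fn A) (f : nz d0 → ℂ) : Prop :=
  ∃ j t, IsHS (Q ^ j) univ t ∧ ∀ (x : nz d0) (i : A.ι), x.1 ∈ (A.e i).source →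
    f x = t i x / d0 i x ^ j

theorem IsReg.mul {d0 : Fn A} {f g : nz d0 → ℂ} (hf : IsReg Q d0 f) (hg : IsReg Q d0 g) :
    IsReg Q d0 (f * g) := by
  obtain ⟨j, t, ht, h1⟩ := hf
  obtain ⟨j', t', ht', h2⟩ := hg
  refine ⟨j + j', t * t', by rw [pow_add]; exact ht.mul ht', fun x i hx => ?_⟩
  rw [Pi.mul_apply, h1 x i hx, h2 x i hx, div_mul_div_comm, pow_add]
  rfl

/-- change of the exponent -/
theorem IsReg.up {d0 : Fn A} (hd0 : IsHS Q univ d0) {f : nz d0 → ℂ} {j : ℕ} {t : Fn A}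
    (ht : IsHS (Q ^ j) univ t) (h : ∀ (x : nz d0) (i : A.ι), x.1 ∈ (A.e i).source →
      f x = t i x / d0 i x ^ j) (m : ℕ) : ∃ t', IsHS (Q ^ (j + m)) univ t' ∧
    ∀ (x : nz d0) (i : A.ι), x.1 ∈ (A.e i).source → f x = t' i x / d0 i x ^ (j + m) := by
  refine ⟨t * pw d0 m, by rw [pow_add]; exact ht.mul (isHS_pw hd0 m), fun x i hx => ?_⟩
  have h0 : d0 i x ≠ 0 := (mem_nz hd0 hx).1 x.2
  have e : (t * pw d0 m) i x = t i x * d0 i x ^ m := by
    show t i x * pw d0 m i x = _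
    rw [pw_apply d0 m hx]
  rw [h x i hx, e, pow_add, mul_div_mul_right _ _ (pow_ne_zero m h0)]

theorem IsReg.add {d0 : Fn A} (hd0 : IsHS Q univ d0) {f g : nz d0 → ℂ} (hf : IsReg Q d0 f)
    (hg : IsReg Q d0 g) : IsReg Q d0 (f + g) := by
  obtain ⟨j, t, ht, h1⟩ := hf
  obtain ⟨j', t', ht', h2⟩ := hg
  obtain ⟨s, hs, h3⟩ := IsReg.up hd0 ht h1 j'
  obtain ⟨s', hs', h4⟩ := IsReg.up hd0 ht' h2 j
  rw [add_comm j' j] at hs' h4
  refine ⟨j + j', s + s', hs.add hs', fun x i hx => ?_⟩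
  rw [Pi.add_apply, h3 x i hx, h4 x i hx, ← add_div]
  rfl

theorem IsReg.const (Q : LB A) (d0 : Fn A) (hd0 : IsHS Q univ d0) (c : ℂ) :
    IsReg Q d0 (algebraMap ℂ (nz d0 → ℂ) c) := by
  refine ⟨0, c • pw d0 0, (isHS_pw hd0 0).smul c, fun x i hx => ?_⟩
  show c = (c * pw d0 0 i x) / _
  rw [pw_apply d0 0 hx, pow_zero, mul_one, div_one]

/-- **the algebra of the functions `t / d0^j`** -/
def Reg (Q : LB A) (d0 : Fn A) (hd0 : IsHS Q univ d0) : Subalgebra ℂ (nz d0 → ℂ) where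
  carrier := {f | IsReg Q d0 f}
  mul_mem' := IsReg.mul
  add_mem' := IsReg.add hd0
  algebraMap_mem' := IsReg.const Q d0 hd0

theorem mem_Reg {d0 : Fn A} {hd0 : IsHS Q univ d0} {f : nz d0 → ℂ} :
    f ∈ Reg Q d0 hd0 ↔ IsReg Q d0 f := Iff.rfl

/-- `t / d0^j` as an element of the algebra -/
def toReg {d0 : Fn A} (hd0 : IsHS Q univ d0) (j : ℕ) (t : Fn A) (ht : IsHS (Q ^ j) univ t) :
    Reg Q d0 hd0 :=
  ⟨fun x => qt t (pw d0 j) x, j, t, ht, fun x i hx => by
    show qt t (pw d0 j) x = _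
    rw [qt_eq ht (isHS_pw hd0 j) hx, pw_apply d0 j hx]⟩

theorem toReg_apply {d0 : Fn A} (hd0 : IsHS Q univ d0) (j : ℕ) (t : Fn A)
    (ht : IsHS (Q ^ j) univ t) (x : nz d0) {i : A.ι} (hx : x.1 ∈ (A.e i).source) :
    (toReg hd0 j t ht).1 x = t i x / d0 i x ^ j := by
  show qt t (pw d0 j) x = _
  rw [qt_eq ht (isHS_pw hd0 j) hx, pw_apply d0 j hx]

/-- the evaluation at a point -/
def evR {d0 : Fn A} (hd0 : IsHS Q univ d0) (x : nz d0) : Reg Q d0 hd0 →ₐ[ℂ] ℂ :=
  (Pi.evalAlgHom ℂ (fun _ : nz d0 => ℂ) x).comp (Reg Q d0 hd0).val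

theorem evR_apply {d0 : Fn A} (hd0 : IsHS Q univ d0) (x : nz d0) (f : Reg Q d0 hd0) :
    evR hd0 x f = f.1 x := rfl

section Main

variable [T2Space M] [ConnectedSpace M]

theorem reg_continuous {d0 : Fn A} (hd0 : IsHS Q univ d0) {j : ℕ} {t : Fn A}
    (ht : IsHS (Q ^ j) univ t) {x : M} (hx : x ∈ nz d0) : ContinuousAt (qt t (pw d0 j)) x := by
  obtain ⟨i, hi⟩ := A.cover x
  refine continuousAt_of_holAt (isOpen_nz (isHS_pw hd0 j)) (qt_hol ht (isHS_pw hd0 j) i) hi ?_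
  rw [mem_nz (isHS_pw hd0 j) hi, pw_apply d0 j hi]
  exact pow_ne_zero _ ((mem_nz hd0 hi).1 hx)

theorem exists_ne_nz {d0 : Fn A} (hd0 : IsHS Q univ d0) (hne : ∃ i x, d0 i x ≠ 0) :
    (nz d0).Nonempty := by
  obtain ⟨i, x, hx⟩ := hne
  have hxs : x ∈ (A.e i).source := by
    by_contra h
    exact hx (hd0.off i x h)
  exact ⟨x, (mem_nz hd0 hxs).2 hx⟩

/-- a section which vanishes on `nz d0` is zero -/
theorem eq_zero_of_nz {L' : LB A} {t : Fn A} (ht : IsHS L' univ t) {d0 : Fn A}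
    (hd0 : IsHS Q univ d0) (hne : ∃ i x, d0 i x ≠ 0)
    (h : ∀ i, ∀ x ∈ (A.e i).source, x ∈ nz d0 → t i x = 0) : ∀ i x, t i x = 0 :=
  eq_zero_of_mul ht hd0 hne fun i x hx => by
    by_cases h0 : d0 i x = 0
    · rw [h0, mul_zero]
    · rw [h i x hx ((mem_nz hd0 hx).2 h0), zero_mul]

/-- **the algebra is a domain** -/
theorem reg_domain {d0 : Fn A} (hd0 : IsHS Q univ d0) (hne : ∃ i x, d0 i x ≠ 0) :
    IsDomain (Reg Q d0 hd0) := by
  have h0 := exists_ne_nz hd0 hne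
  have : Nonempty (nz d0) := h0.to_subtype
  have h1 : NoZeroDivisors (Reg Q d0 hd0) := by
    refine ⟨fun {a b} hab => ?_⟩
    by_contra hcon
    push Not at hcon
    obtain ⟨ha, hb⟩ := hcon
    obtain ⟨j, t, ht, h1⟩ := a.2
    obtain ⟨j', t', ht', h2⟩ := b.2
    have hb' : ∃ i x, t' i x ≠ 0 := by
      by_contra h
      push Not at h
      refine hb (Subtype.ext (funext fun x => ?_))
      obtain ⟨i, hi⟩ := A.cover x.1
      rw [h2 x i hi, h i x, zero_div]
      rfl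
    refine ha (Subtype.ext (funext fun x => ?_))
    have h3 : a.1 = fun x : nz d0 => qt t (pw d0 j) x := by
      funext y
      obtain ⟨i, hi⟩ := A.cover y.1
      rw [h1 y i hi, qt_eq ht (isHS_pw hd0 j) hi, pw_apply d0 j hi]
    rw [h3]
    refine eq_zero_of_mul' ht' hb' (isOpen_nz hd0) (fun x hx => reg_continuous hd0 ht hx)
      (fun i x hx hxn => ?_) x.1 x.2
    have h4 : a.1 ⟨x, hxn⟩ * b.1 ⟨x, hxn⟩ = 0 := congrFun (congrArg Subtype.val hab) ⟨x, hxn⟩
    have h5 : d0 i x ≠ 0 := (mem_nz hd0 hx).1 hxn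
    rw [h2 ⟨x, hxn⟩ i hx, congrFun h3 ⟨x, hxn⟩, mul_div_assoc', div_eq_zero_iff] at h4
    exact h4.resolve_right (pow_ne_zero _ h5)
  exact NoZeroDivisors.to_isDomain _

/-! ### general data -/

section Data

variable {F : Fin r → Fn A} (hF : ∀ k, IsHS O univ (F k)) (l : Fin r → ℂ)

include hF

/-- **the characters are the points**, general data -/
theorem reg_pt_aux (hne : ∀ i, ∀ x ∈ (A.e i).source, ∃ k, F k i x ≠ 0)
    (hfd : ∀ k : ℕ, FiniteDimensional ℂ (HS (O ^ k) univ)) {m0 : ℕ}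
    (hV : ∀ m, m0 ≤ m → ∀ q, 1 ≤ q → Solv (O ^ m) q)
    (hinj : ∀ x ∈ nz (lf F l), ∀ y ∈ nz (lf F l), rh F l x = rh F l y → x = y)
    (χ : Reg O (lf F l) (isHS_lf hF l) →ₐ[ℂ] ℂ) : ∃ x : nz (lf F l), χ = evR (isHS_lf hF l) x := by
  have hF' : ∀ k, IsHS (O ^ 1) univ (F k) := fun k => by
    rw [pow_one]
    exact hF k
  let R : Fin r → Reg O (lf F l) (isHS_lf hF l) := fun k => toReg (isHS_lf hF l) 1 (F k) (hF' k)
  have hR : ∀ k (x : nz (lf F l)), (R k).1 x = rh F l x k := by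
    intro k x
    obtain ⟨i, hi⟩ := A.cover x.1
    rw [rh_eq hF l hi]
    show (toReg (isHS_lf hF l) 1 (F k) (hF' k)).1 x = _
    rw [toReg_apply _ _ _ _ x hi, pow_one]
  have hR1 : ∑ k, l k • R k = 1 := by
    refine Subtype.ext (funext fun x => ?_)
    obtain ⟨i, hi⟩ := A.cover x.1
    have hLx : lf F l i x ≠ 0 := (mem_nz (isHS_lf hF l) hi).1 x.2
    have h1 : (∑ k, l k • R k : Reg O (lf F l) (isHS_lf hF l)).1 x = ∑ k, l k * (R k).1 x := by
      rw [AddSubmonoidClass.coe_finsetSum, Finset.sum_apply]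
      rfl
    rw [h1]
    have h2 : ∀ k, l k * (R k).1 x = l k * F k i x / lf F l i x := fun k => by
      rw [hR, rh_eq hF l hi]
      ring
    rw [Finset.sum_congr rfl fun k _ => h2 k, ← Finset.sum_div, ← lf_apply, div_self hLx]
    rfl
  have hu : ∑ k, l k * χ (R k) = 1 := by
    have := congrArg χ hR1
    rw [map_sum, map_one] at this
    rw [← this]
    exact Finset.sum_congr rfl fun k _ => by rw [map_smul, smul_eq_mul]
  have key : ∀ f : Reg O (lf F l) (isHS_lf hF l), ∃ y : nz (lf F l),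
      (fun k => χ (R k)) = rh F l y ∧ χ f = f.1 y := by
    intro f
    obtain ⟨j, t0, ht0, h0⟩ := f.2
    obtain ⟨t, ht, h1⟩ := IsReg.up (isHS_lf hF l) ht0 h0 1
    let W : Fin r ⊕ Fin r ⊕ Unit → Reg O (lf F l) (isHS_lf hF l) :=
      Sum.elim R (Sum.elim (fun k => R k ^ (j + 1)) fun _ => f)
    have hW : (fun k => χ (W k)) =
        Sum.elim (fun k => χ (R k)) (Sum.elim (fun k => χ (R k) ^ (j + 1)) fun _ => χ f) := by
      funext k
      rcases k with k | k | k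
      · rfl
      · exact map_pow χ (R k) (j + 1)
      · rfl
    obtain ⟨y, hy, hy1, hy2⟩ := root_eq hF hne hfd hV l ht (fun k => χ (R k)) hu (χ f)
      (fun D p hp hp0 => by
        rw [← hW]
        have h2 : MvPolynomial.eval (fun k => χ (W k)) p = χ (MvPolynomial.aeval W p) := by
          have h5 : (χ.comp (MvPolynomial.aeval W)) p =
              MvPolynomial.aeval (fun k => χ (W k)) p := by
            rw [MvPolynomial.comp_aeval]
          rw [← MvPolynomial.coe_aeval_eq_eval]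
          exact h5.symm
        rw [h2]
        have h3 : MvPolynomial.aeval W p = 0 := by
          refine Subtype.ext (funext fun x => ?_)
          obtain ⟨i, hi⟩ := A.cover x.1
          have h4 : (MvPolynomial.aeval W p).1 x =
              MvPolynomial.eval (fun k => (W k).1 x) p := by
            have h5 : ((evR (isHS_lf hF l) x).comp (MvPolynomial.aeval W)) p =
                MvPolynomial.aeval (fun k => evR (isHS_lf hF l) x (W k)) p := by
              rw [MvPolynomial.comp_aeval]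
            rw [← MvPolynomial.coe_aeval_eq_eval]
            exact h5
          have hLy : lf F l i x ≠ 0 := (mem_nz (isHS_lf hF l) hi).1 x.2
          have h6 : (fun k => (W k).1 x) =
              (lf F l i x ^ (j + 1))⁻¹ • fun k => Gf F l j t k i x := by
            funext k
            rw [Pi.smul_apply, smul_eq_mul]
            rcases k with k | k | k
            · show (R k).1 x = (lf F l i x ^ (j + 1))⁻¹ * (Lp F l j i x * F k i x)
              rw [hR, rh_eq hF l hi, Lp_apply F l j hi, pow_succ]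
              field_simp
            · show (R k).1 x ^ (j + 1) = (lf F l i x ^ (j + 1))⁻¹ * (F k i x) ^ (j + 1)
              rw [hR, rh_eq hF l hi, div_pow, div_eq_mul_inv, mul_comm]
            · show f.1 x = (lf F l i x ^ (j + 1))⁻¹ * t i x
              rw [h1 x i hi, div_eq_mul_inv, mul_comm]
          rw [h4, h6, eval_smul hp, hp0 i x hi, mul_zero]
          rfl
        rw [h3, map_zero])
    refine ⟨⟨y, hy⟩, hy1, ?_⟩
    obtain ⟨i, hi⟩ := A.cover y
    rw [hy2, vt_eq hF l ht hi, h1 ⟨y, hy⟩ i hi]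
  obtain ⟨x, hx, -⟩ := key 1
  refine ⟨x, AlgHom.ext fun f => ?_⟩
  obtain ⟨y, hy, hfy⟩ := key f
  have hxy : y = x := Subtype.ext (hinj y y.2 x x.2 (hy.symm.trans hx))
  rw [hfy, hxy]
  rfl

/-- **finite generation**, general data -/
theorem reg_fg_aux (hne : ∀ i, ∀ x ∈ (A.e i).source, ∃ k, F k i x ≠ 0)
    (hfd : ∀ k : ℕ, FiniteDimensional ℂ (HS (O ^ k) univ)) {m0 : ℕ}
    (hV : ∀ m, m0 ≤ m → ∀ q, 1 ≤ q → Solv (O ^ m) q) : (Reg O (lf F l) (isHS_lf hF l)).FG := by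
  classical
  have hF' : ∀ k, IsHS (O ^ 1) univ (F k) := fun k => by
    rw [pow_one]
    exact hF k
  let R : Fin r → Reg O (lf F l) (isHS_lf hF l) := fun k => toReg (isHS_lf hF l) 1 (F k) (hF' k)
  have hR : ∀ k (x : nz (lf F l)), (R k).1 x = rh F l x k := by
    intro k x
    obtain ⟨i, hi⟩ := A.cover x.1
    rw [rh_eq hF l hi]
    show (toReg (isHS_lf hF l) 1 (F k) (hF' k)).1 x = _
    rw [toReg_apply _ _ _ _ x hi, pow_one]
  have := hfd (m0 + n)
  let b := Module.finBasis ℂ (HS (O ^ (m0 + n)) univ)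
  let E : Fin _ → Reg O (lf F l) (isHS_lf hF l) := fun a =>
    toReg (isHS_lf hF l) (m0 + n) (b a : Fn A) (b a).2
  rw [Subalgebra.fg_def]
  refine ⟨range (fun k => (R k).1) ∪ range (fun a => (E a).1),
    (finite_range _).union (finite_range _), le_antisymm ?_ ?_⟩
  · rw [Algebra.adjoin_le_iff]
    rintro f (⟨k, rfl⟩ | ⟨a, rfl⟩)
    · exact (R k).2
    · exact (E a).2
  · intro f hf
    obtain ⟨j, t0, ht0, h0⟩ := hf
    obtain ⟨t, ht, h1⟩ := IsReg.up (isHS_lf hF l) ht0 h0 (m0 + n)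
    rw [add_comm j (m0 + n)] at ht
    obtain ⟨p, hp1, hp2⟩ := exists_poly_coef hF hne (le_refl (m0 + n)) hV b j t ht
    have hf : f = ∑ a, (MvPolynomial.aeval (fun k => (R k).1) (p a)) * (E a).1 := by
      funext x
      obtain ⟨i, hi⟩ := A.cover x.1
      have hLx : lf F l i x ≠ 0 := (mem_nz (isHS_lf hF l) hi).1 x.2
      rw [h1 x i hi, hp2 i x hi, Finset.sum_div, Finset.sum_apply]
      refine Finset.sum_congr rfl fun a _ => ?_
      have h2 : (MvPolynomial.aeval (fun k => (R k).1) (p a)) x =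
          MvPolynomial.eval (fun k => (R k).1 x) (p a) := by
        have h5 : ((Pi.evalAlgHom ℂ (fun _ : nz (lf F l) => ℂ) x).comp
            (MvPolynomial.aeval (fun k => (R k).1))) (p a) =
            MvPolynomial.aeval (fun k => (R k).1 x) (p a) := by
          rw [MvPolynomial.comp_aeval]
          rfl
        rw [← MvPolynomial.coe_aeval_eq_eval]
        exact h5
      have h3 : (fun k => (R k).1 x) = rh F l x := funext fun k => hR k x
      have h4 : (E a).1 x = (b a : Fn A) i x / lf F l i x ^ (m0 + n) :=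
        toReg_apply (isHS_lf hF l) (m0 + n) (b a : Fn A) (b a).2 x hi
      rw [Pi.mul_apply, h2, h3, h4, eval_rh hF l (hp1 a) hi, div_mul_div_comm, ← pow_add]
    rw [hf]
    refine Subalgebra.sum_mem _ fun a _ => Subalgebra.mul_mem _ ?_ ?_
    · have h6 : (Algebra.adjoin ℂ (range fun k => (R k).1)) ≤
          Algebra.adjoin ℂ (range (fun k => (R k).1) ∪ range fun a => (E a).1) :=
        Algebra.adjoin_mono subset_union_left
      refine h6 ?_
      rw [Algebra.adjoin_range_eq_range_aeval]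
      exact ⟨p a, rfl⟩
    · exact Algebra.subset_adjoin (Or.inr ⟨a, rfl⟩)

end Data

end Main

/-! ### the data of a section of `lb P ^ k` -/

section Proj

variable (P : ProjD A) {k : ℕ} (d0 : Fn A)

/-- the family `s_a^(k-1) s_b`, `d0` -/
def GG (k : ℕ) : (Fin (P.N + 1) × Fin (P.N + 1)) ⊕ Unit → Fn A
  | Sum.inl ab => pw (sec P ab.1) (k - 1) * sec P ab.2
  | Sum.inr _ => d0

/-- the number of its members -/
def NG : ℕ := Fintype.card ((Fin (P.N + 1) × Fin (P.N + 1)) ⊕ Unit)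

/-- the numbering -/
def eG : Fin (NG P) ≃ (Fin (P.N + 1) × Fin (P.N + 1)) ⊕ Unit :=
  (Fintype.equivFin ((Fin (P.N + 1) × Fin (P.N + 1)) ⊕ Unit)).symm

/-- the family with index set `Fin r` -/
def FG (k : ℕ) : Fin (NG P) → Fn A := fun c => GG P d0 k (eG P c)

/-- the index of `d0` -/
def lG : Fin (NG P) → ℂ := Pi.single ((eG P).symm (Sum.inr ())) 1

theorem lf_FG : lf (FG P d0 k) (lG P) = d0 := by
  unfold lf
  rw [Finset.sum_eq_single ((eG P).symm (Sum.inr ()))]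
  · unfold lG FG
    rw [Pi.single_eq_same, one_smul, Equiv.apply_symm_apply]
    rfl
  · intro b _ hb
    unfold lG
    rw [Pi.single_eq_of_ne hb, zero_smul]
  · intro h
    exact absurd (Finset.mem_univ _) h

theorem isHS_FG (hk : 1 ≤ k) (hd0 : IsHS (lb P ^ k) univ d0) (c : Fin (NG P)) :
    IsHS (lb P ^ k) univ (FG P d0 k c) := by
  unfold FG
  rcases eG P c with ab | u
  · show IsHS (lb P ^ k) univ (pw (sec P ab.1) (k - 1) * sec P ab.2)
    obtain ⟨k', rfl⟩ : ∃ k', k = k' + 1 := ⟨k - 1, by omega⟩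
    rw [Nat.add_sub_cancel, pow_succ]
    exact (isHS_pw (isHS_sec P ab.1) k').mul (isHS_sec P ab.2)
  · exact hd0

theorem FG_ne : ∀ i, ∀ x ∈ (A.e i).source, ∃ c, FG P d0 k c i x ≠ 0 := by
  intro i x hx
  obtain ⟨a, ha⟩ := exists_sec_ne' P i x hx
  refine ⟨(eG P).symm (Sum.inl (a, a)), ?_⟩
  unfold FG
  rw [Equiv.apply_symm_apply]
  show pw (sec P a) (k - 1) i x * sec P a i x ≠ 0
  rw [pw_apply _ _ hx]
  exact mul_ne_zero (pow_ne_zero _ ha) ha

theorem FG_inj [T2Space M] [ConnectedSpace M] (hk : 1 ≤ k) (hd0 : IsHS (lb P ^ k) univ d0) :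
    ∀ x ∈ nz (lf (FG P d0 k) (lG P)), ∀ y ∈ nz (lf (FG P d0 k) (lG P)),
      rh (FG P d0 k) (lG P) x = rh (FG P d0 k) (lG P) y → x = y := by
  intro x hx y hy h
  have hF := isHS_FG P d0 hk hd0
  obtain ⟨i, hi⟩ := A.cover x
  obtain ⟨j, hj⟩ := A.cover y
  have hx0 : d0 i x ≠ 0 := by
    have := (mem_nz (isHS_lf hF (lG P)) hi).1 hx
    rwa [lf_FG] at this
  have hy0 : d0 j y ≠ 0 := by
    have := (mem_nz (isHS_lf hF (lG P)) hj).1 hy
    rwa [lf_FG] at this
  rw [rh_eq hF (lG P) hi, rh_eq hF (lG P) hj, lf_FG] at h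
  have h1 : ∀ a b, sec P a i x ^ (k - 1) * sec P b i x / d0 i x =
      sec P a j y ^ (k - 1) * sec P b j y / d0 j y := by
    intro a b
    have h2 := congrFun h ((eG P).symm (Sum.inl (a, b)))
    simp only [FG, Equiv.apply_symm_apply] at h2
    change pw (sec P a) (k - 1) i x * sec P b i x / d0 i x =
      pw (sec P a) (k - 1) j y * sec P b j y / d0 j y at h2
    rwa [pw_apply _ _ hi, pw_apply _ _ hj] at h2
  obtain ⟨a, ha⟩ := exists_sec_ne' P i x hi
  have ha' : sec P a j y ≠ 0 := by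
    intro h0
    have h2 := h1 a a
    rw [h0, mul_zero, zero_div, div_eq_zero_iff] at h2
    rcases h2 with h2 | h2
    · exact (mul_ne_zero (pow_ne_zero _ ha) ha) h2
    · exact hx0 h2
  rw [← rel_sec_iff P]
  refine ⟨i, j, hi, hj, sec P a j y / sec P a i x, fun b => ?_⟩
  have h2 := h1 a a
  have h3 := h1 a b
  have hp : sec P a i x ^ (k - 1) ≠ 0 := pow_ne_zero _ ha
  have hp' : sec P a j y ^ (k - 1) ≠ 0 := pow_ne_zero _ ha'
  rw [div_eq_div_iff hx0 hy0] at h2 h3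
  rw [div_mul_eq_mul_div, eq_div_iff ha]
  have h4 : (sec P a i x ^ (k - 1) * d0 j y) * (sec P b j y * sec P a i x) =
      (sec P a i x ^ (k - 1) * d0 j y) * (sec P a j y * sec P b i x) := by
    calc (sec P a i x ^ (k - 1) * d0 j y) * (sec P b j y * sec P a i x)
        = (sec P a i x ^ (k - 1) * sec P a i x * d0 j y) * sec P b j y := by ring
      _ = (sec P a j y ^ (k - 1) * sec P a j y * d0 i x) * sec P b j y := by rw [h2]
      _ = (sec P a j y ^ (k - 1) * sec P b j y * d0 i x) * sec P a j y := by ring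
      _ = (sec P a i x ^ (k - 1) * sec P b i x * d0 j y) * sec P a j y := by rw [h3]
      _ = _ := by ring
  exact mul_left_cancel₀ (mul_ne_zero hp hy0) h4

variable [T2Space M] [ConnectedSpace M] [CompactSpace M] [Finite A.ι]

theorem fd_pow (PA : Part A) (Q : LB A) (m : ℕ) : FiniteDimensional ℂ (HS (Q ^ m) univ) :=
  fd_HS PA _

theorem solv_pow (PA : Part A) (hD : D2 A) (P : ProjD A) {k : ℕ} (hk : 1 ≤ k) :
    ∃ m0 : ℕ, ∀ m, m0 ≤ m → ∀ q, 1 ≤ q → Solv ((lb P ^ k) ^ m) q := by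
  obtain ⟨m0, h⟩ := solv_large PA hD (fs_pos P) (1 : LB A)
  refine ⟨m0, fun m hm q hq => ?_⟩
  have h1 := h (k * m) (by nlinarith) q hq
  rwa [one_mul, pow_mul] at h1

/-- **the characters of the algebra of regular functions are the points** -/
theorem reg_pt (PA : Part A) (hD : D2 A) (P : ProjD A) {k : ℕ} (hk : 1 ≤ k) {d0 : Fn A}
    (hd0 : IsHS (lb P ^ k) univ d0) (χ : Reg (lb P ^ k) d0 hd0 →ₐ[ℂ] ℂ) :
    ∃ x : nz d0, χ = evR hd0 x := by
  obtain ⟨m0, hV⟩ := solv_pow PA hD P hk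
  have key : ∀ (d : Fn A) (hd : IsHS (lb P ^ k) univ d), d = lf (FG P d0 k) (lG P) →
      ∀ χ : Reg (lb P ^ k) d hd →ₐ[ℂ] ℂ, ∃ x : nz d, χ = evR hd x := by
    rintro d hd rfl χ
    exact reg_pt_aux (isHS_FG P d0 hk hd0) (lG P) (FG_ne P d0) (fd_pow PA (lb P ^ k)) hV
      (FG_inj P d0 hk hd0) χ
  exact key d0 hd0 (lf_FG P d0).symm χ

/-- **finite generation** -/
theorem reg_fg (PA : Part A) (hD : D2 A) (P : ProjD A) {k : ℕ} (hk : 1 ≤ k) {d0 : Fn A}
    (hd0 : IsHS (lb P ^ k) univ d0) : Algebra.FiniteType ℂ (Reg (lb P ^ k) d0 hd0) := by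
  obtain ⟨m0, hV⟩ := solv_pow PA hD P hk
  have key : ∀ (d : Fn A) (hd : IsHS (lb P ^ k) univ d), d = lf (FG P d0 k) (lG P) →
      (Reg (lb P ^ k) d hd).FG := by
    rintro d hd rfl
    exact reg_fg_aux (isHS_FG P d0 hk hd0) (lG P) (FG_ne P d0) (fd_pow PA (lb P ^ k)) hV
  exact (Subalgebra.fg_iff_finiteType _).1 (key d0 hd0 (lf_FG P d0).symm)

/-- two points are separated by the algebra -/
theorem evR_inj (P : ProjD A) {k : ℕ} (hk : 1 ≤ k) {d0 : Fn A} (hd0 : IsHS (lb P ^ k) univ d0)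
    {x y : nz d0} (h : evR hd0 x = evR hd0 y) : x = y := by
  have hF := isHS_FG P d0 hk hd0
  have h1 : ∀ c, FG P d0 k c (A.cover x.1).choose x.1 / d0 (A.cover x.1).choose x.1 =
      FG P d0 k c (A.cover y.1).choose y.1 / d0 (A.cover y.1).choose y.1 := by
    intro c
    have hF' : IsHS ((lb P ^ k) ^ 1) univ (FG P d0 k c) := by
      rw [pow_one]
      exact hF c
    have h2 := congrArg (fun φ : Reg (lb P ^ k) d0 hd0 →ₐ[ℂ] ℂ => φ (toReg hd0 1 _ hF')) h
    simp only [evR_apply] at h2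
    rw [toReg_apply hd0 1 _ hF' x (A.cover x.1).choose_spec,
      toReg_apply hd0 1 _ hF' y (A.cover y.1).choose_spec, pow_one, pow_one] at h2
    exact h2
  refine Subtype.ext (FG_inj P d0 hk hd0 x ?_ y ?_ ?_)
  · rw [lf_FG]
    exact x.2
  · rw [lf_FG]
    exact y.2
  · rw [rh_eq hF (lG P) (A.cover x.1).choose_spec, rh_eq hF (lG P) (A.cover y.1).choose_spec, lf_FG]
    funext c
    exact h1 c

/-- every section is a factor of a section of a power of `lb P` -/
theorem exists_mul (PA : Part A) (hD : D2 A) (P : ProjD A) (L' : LB A) :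
    ∃ m0 : ℕ, ∀ m, m0 ≤ m → ∀ x0 : M, ∃ w, IsHS (L'⁻¹ * lb P ^ m) univ w ∧
      ∀ i, x0 ∈ (A.e i).source → w i x0 ≠ 0 :=
  gg_proj PA hD P L'⁻¹

/-- **the fraction field of the algebra is the field of the quotients of sections** -/
theorem reg_quot (PA : Part A) (hD : D2 A) (P : ProjD A) {k : ℕ} (hk : 1 ≤ k) {d0 : Fn A}
    (hd0 : IsHS (lb P ^ k) univ d0) (hne : ∃ i x, d0 i x ≠ 0) {L' : LB A} {s1 s2 : Fn A}
    (h1 : IsHS L' univ s1) (h2 : IsHS L' univ s2) (h2' : ∃ i x, s2 i x ≠ 0) :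
    ∃ a b : Reg (lb P ^ k) d0 hd0, b ≠ 0 ∧ ∀ (x : nz d0) (i : A.ι), x.1 ∈ (A.e i).source →
      b.1 x * s1 i x = a.1 x * s2 i x := by
  obtain ⟨m0, hm0⟩ := exists_mul PA hD P L'
  obtain ⟨x0⟩ := (inferInstance : Nonempty M)
  obtain ⟨i0, hi0⟩ := A.cover x0
  obtain ⟨w, hw, hw0⟩ := hm0 (k * m0) (by nlinarith) x0
  have e : L' * (L'⁻¹ * lb P ^ (k * m0)) = (lb P ^ k) ^ m0 := by
    rw [mul_inv_cancel_left, pow_mul]
  have ht1 : IsHS ((lb P ^ k) ^ m0) univ (s1 * w) := by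
    rw [← e]
    exact h1.mul hw
  have ht2 : IsHS ((lb P ^ k) ^ m0) univ (s2 * w) := by
    rw [← e]
    exact h2.mul hw
  refine ⟨toReg hd0 m0 _ ht1, toReg hd0 m0 _ ht2, fun h0 => ?_, fun x i hx => ?_⟩
  · have h3 : ∀ i x, (s2 * w) i x = 0 := by
      refine eq_zero_of_nz ht2 hd0 hne fun i x hx hxn => ?_
      have h4 := congrFun (congrArg Subtype.val h0) ⟨x, hxn⟩
      rw [toReg_apply hd0 m0 _ ht2 ⟨x, hxn⟩ hx] at h4
      have h5 : d0 i x ≠ 0 := (mem_nz hd0 hx).1 hxn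
      exact (div_eq_zero_iff.1 h4).resolve_right (pow_ne_zero _ h5)
    have h4 := eq_zero_of_mul h2 hw ⟨i0, x0, hw0 i0 hi0⟩ (fun i x _ => h3 i x)
    obtain ⟨i, x, hx⟩ := h2'
    exact hx (h4 i x)
  · rw [toReg_apply hd0 m0 _ ht1 x hx, toReg_apply hd0 m0 _ ht2 x hx]
    show s2 i x * w i x / _ * s1 i x = s1 i x * w i x / _ * s2 i x
    ring

end Proj

end

end Crest.Agent.R273.Chow_313
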