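import Crest.Agent.R273.RedC_333

/-!
# R273 (S0416), Part E (helper333): the reduction `Main → S0416`
-/

set_option autoImplicit false
set_option linter.unusedSectionVars false

open Set Filter Topology Complex
open scoped ContDiff Manifold

namespace Crest.Agent.R273.Red_333

open Crest.Agent.R275.Geo Crest.Agent.R275.Core144 Crest.Agent.R275.GC293
open Crest.Agent.R273.Defs_333 Crest.Agent.R273.RedA_333 Crest.Agent.R273.RedB_333
open Crest.Agent.R273.RedC_333
open Crest.AlgGeometry.Anticanonical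

noncomputable section

universe u

theorem exists_lk (n : ℕ) {X : Type u} [TopologicalSpace X] [ChartedSpace (Cs n) X]
    [IsManifold 𝓘(ℂ, Cs n) ω X] {M : Type} [TopologicalSpace M] [T2Space M] [CompactSpace M]
    (g : M ≃ₜ X) :
    ∃ A : Atl n M, Finite A.ι ∧ GoodA A ∧ Nonempty (Part A) ∧ Nonempty (Lk A X) := by
  let _ := chartedM (n := n) g
  have : IsManifold 𝓘(ℂ, EuclideanSpace ℂ (Fin n)) 1 M := isManifold_chartedM g
  obtain ⟨G, hG, hP, hF, -⟩ := exists_goodAtl (m := n) (M := M) (κ := Unit) (fun _ => univ)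
    (fun _ => isOpen_univ) (fun x => ⟨(), mem_univ x⟩)
  refine ⟨goodAtl G, hF, hG, hP, ?_⟩
  choose c hc hce using fun i => G.e_mem i
  have key : ∀ (i : Fin G.n) (x : M), x ∈ ((goodAtl G).e i).source → x ∈ (G.e i).source := by
    intro i x hx
    have h0 : x ∈ G.B i := (goodAtl_source G i) ▸ hx
    exact cball_subset_source _ _ _ h0
  refine ⟨⟨g, c, hc, 2 * G.r, by have := G.r_pos; positivity,
    fun i => lpE n (G.e i (G.c i) - ((2 * G.r : ℝ) : ℂ) • ctr n), ?_, ?_⟩⟩
  · intro i x hx
    have h1 := key i x hx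
    rw [← hce i, tc_source] at h1
    exact h1
  · intro i x hx
    have h1 : (goodAtl G).e i x = aff (G.e i (G.c i)) G.r G.r_pos (G.e i x) := rfl
    have h2 : G.e i x = (aff (G.e i (G.c i)) G.r G.r_pos).symm ((goodAtl G).e i x) := by
      rw [h1, Homeomorph.symm_apply_apply]
    have h3 : c i (g x) = lpE n (G.e i x) := by
      rw [← hce i, tc_apply, ContinuousLinearEquiv.apply_symm_apply]
    rw [h3, h2, aff_symm_apply, smul_sub, map_add, map_sub, map_sub, map_smul, map_smul]
    abel

/-- **the reduction** -/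
theorem of_main (hM : Main) (n : ℕ) (X : Type u) [TopologicalSpace X] [T2Space X] [CompactSpace X]
    [ConnectedSpace X] [ChartedSpace (Cs n) X] [IsManifold 𝓘(ℂ, Cs n) ω X]
    (hproj : IsProjective n X) (h : AnticanonicalMetric n X) (hpos : h.IsSemipositive) :
    ∃ m : ℕ, 0 < m ∧ ∃ s : PluriAnticanonicalForm n X m,
      ∃ e ∈ atlas (Cs n) X, ∃ x ∈ e.source, s.coeff e (e x) ≠ 0 := by
  obtain ⟨M, _, ⟨g⟩⟩ := exists_model n X
  have : T2Space M := g.symm.t2Space
  have : CompactSpace M := g.symm.compactSpace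
  have : ConnectedSpace M := g.symm.surjective.connectedSpace g.symm.continuous
  obtain ⟨A, hF, hG, hP, ⟨K⟩⟩ := exists_lk n g
  obtain ⟨P⟩ := exists_proj K hproj
  obtain ⟨m, hm, s, hs, i, x, hx, hne⟩ := hM n M A hG hP P (met K h) (met_semipos K h hpos)
  exact ⟨m, hm, back K hs, back_ne K hs hx hne⟩

end

end Crest.Agent.R273.Red_333
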