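import Crest.Agent.R273.DMetB_733
import Crest.Agent.R275.SerH_398

/-!
# R273 (S0416), Part D (helper733): existence of primitives from orthogonality

* `exact_of_perp` : a closed `z : Sec (BN N)` which is orthogonal to all `cj w`, `dlt w = 0`, is exact.
-/

set_option autoImplicit false
set_option linter.unusedSectionVars false

open Set Filter Topology Complex
open scoped ContDiff Matrix ComplexConjugate ComplexOrder Kronecker

namespace Crest.Agent.R273.DHod_733

open Crest.Agent.R275 Crest.Agent.R275.Geo Crest.Agent.R275.Core144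
open Crest.Agent.R273.Defs_333 Crest.Agent.R273.Kah_333
open Crest.Agent.R273.Fock_243 Crest.Agent.R273.Calc_243 Crest.Agent.R273.Bkn_243
open Crest.Agent.R273.DVec_733 Crest.Agent.R273.LamN127 Crest.Agent.R273.Berezin_505
open Crest.Agent.R273.DMet_733 Crest.Agent.R273.DMetB_733

noncomputable section

variable {n : ℕ} {M : Type} [TopologicalSpace M] {A : Atl n M}

theorem topDeg_BN (N : LB A) : topDeg (BN N) ≤ n := by
  unfold topDeg
  refine Finset.sup_le fun k _ => ?_
  rw [BN_deg]
  exact (Finset.card_le_univ _).trans (by rw [Fintype.card_fin])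

variable [CompactSpace M] [T2Space M] [Finite A.ι]

/-- orthogonality of degrees -/
theorem pr_pq (P : Part A) (N : LB A) {q : ℕ} (hq : q ≤ n) (z : Sec (BN N))
    (w : Sec (BN (KB A * N⁻¹))) :
    Pai323.pr (DN N) P (Geo.pqL (BN N) q z) w =
      Pai323.pr (DN N) P z (Geo.pqL (BN (KB A * N⁻¹)) (n - q) w) := by
  have h1 := (SerG398.gr P (DN N) (nab_nab_BN N) (SerG398.rz P _) (SerG398.rz P _)).bπ q z w
  have h2 : (SerG398.gr P (DN N) (nab_nab_BN N) (SerG398.rz P (BN N)) (SerG398.rz P _)).ρ q =
      Geo.pqL (BN (KB A * N⁻¹)) (n - q) := by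
    have : SerG398.rhoL (DN N) q = Geo.pqL (BN (KB A * N⁻¹)) ((DN N).N - q) := if_pos hq
    exact this
  rw [h2] at h1
  exact h1

/-- **D.13, EX** -/
theorem exact_of_perp (P : Part A) {N : LB A} (h : HM ((KB A)⁻¹ * N)) {z : Sec (BN N)}

    (hp : ∀ w : MV N, dlt h w = 0 → Pai323.pr (DN N) P z (cj h w) = 0) :
    ∃ y, nabL (BN N) y = z := by
  have h1 : ∀ q ∈ Finset.range (n + 1), ∃ y, nabL (BN N) y = Geo.pqL (BN N) q z := by
    intro q hq
    have hq' : q ≤ n := Nat.lt_succ_iff.1 (Finset.mem_range.1 hq)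
    rw [BN_exact_iff P N hq' (by
      have := congrArg (fun f => f z) (pqL_idem (B := BN N) q)
      exact this)]
    intro w hw hwq
    rw [pr_pq P N hq', hwq]
    have h2 : dlt h ((cj h).symm w) = 0 := by
      show (cj h).symm (-(nabL (BN (KB A * N⁻¹)) (cj h ((cj h).symm w)))) = 0
      rw [LinearEquiv.apply_symm_apply, hw, neg_zero, map_zero]
    have h3 := hp _ h2
    rwa [LinearEquiv.apply_symm_apply] at h3
  choose! y hy using h1
  refine ⟨∑ q ∈ Finset.range (n + 1), y q, ?_⟩
  rw [map_sum, Finset.sum_congr rfl hy]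
  exact pqL_sum (topDeg_BN N) z

end

end Crest.Agent.R273.DHod_733
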