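import Crest.Agent.R275.RetG_666

/-!
# R273 (S0416), Part D, leaf D.12 (helper774)

Plain Sobolev norms `nS P B s` on `Sec B` (finite atlas), `s = 0` being an `L²` norm:

* `nS_KML_le`  : the parametrix `KML B P` maps `H^s` to `H^{s+1}` (so it is `L²`-bounded);
* `nS_RML_le`  : the remainder `RML B P` maps `H^s` to `H^{s+1}`;
* `nS_nabL_le` : `nabL B` maps `H^{s+1}` to `H^s`;
* `exists_limit` : a sequence of smooth sections, Cauchy in `L²`, with `v m - R (v m) → 0` in `L²`,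
  has a smooth `L²` limit;
* `nab_limit`  : `∇` is closed;
* `exists_limit_deg0` : a sequence of degree zero sections, Cauchy in `L²`, with `∇ (v m) → 0` in
  `L²`, has a smooth `L²` limit `w`, of degree zero, with `∇ w = 0`.
-/

set_option autoImplicit false
set_option linter.unusedSectionVars false
set_option linter.unusedSimpArgs false
set_option linter.unusedVariables false

open Set Filter Topology Complex
open scoped ContDiff Matrix ComplexConjugate

namespace Crest.Agent.R273.L2K_774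

open Crest.Agent.R275 Crest.Agent.R275.Geo Crest.Agent.R275.Tor812 Crest.Agent.R275.TorS666
  Crest.Agent.R275.C1d194 Crest.Agent.R275.C2812 Crest.Agent.R275.RetC666

noncomputable section

variable {n : ℕ} {M : Type} [TopologicalSpace M] {A : Atl n M}

/-! ### torus operators in the plain norms -/

section torus

variable {κ κ' : Type} [Fintype κ] [Fintype κ']

/-- sum of the norms of a finite family of periodic functions -/
def nv (s : ℕ) (f : κ → SPer (RI n)) : ℝ := ∑ k, nrm s (f k)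

theorem nv_nonneg (s : ℕ) (f : κ → SPer (RI n)) : 0 ≤ nv s f :=
  Finset.sum_nonneg fun _ _ => nrm_nonneg _ _

theorem nrm_le_nv (s : ℕ) (f : κ → SPer (RI n)) (k : κ) : nrm s (f k) ≤ nv s f :=
  Finset.single_le_sum (f := fun k => nrm s (f k)) (fun _ _ => nrm_nonneg _ _)
    (Finset.mem_univ k)

theorem nv_mono {s t : ℕ} (h : s ≤ t) (f : κ → SPer (RI n)) : nv s f ≤ nv t f :=
  Finset.sum_le_sum fun _ _ => nrm_mono h _

theorem nv_mT_le (s : ℕ) (m : Matrix κ κ' ℂ) (f : κ' → SPer (RI n)) :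
    nv s (mT m f) ≤ (∑ k, ∑ l, ‖m k l‖) * nv s f := by
  unfold nv
  rw [Finset.sum_mul]
  refine Finset.sum_le_sum fun k _ => ?_
  unfold mT
  refine (nrm_sum_le _ _ _).trans ?_
  rw [Finset.sum_mul]
  refine Finset.sum_le_sum fun l _ => ?_
  rw [nrm_smul]
  exact mul_le_mul_of_nonneg_left (nrm_le_nv s f l) (norm_nonneg _)

theorem nv_sum_le {ι : Type*} (s : ℕ) (t : Finset ι) (f : ι → κ → SPer (RI n)) :
    nv s (∑ i ∈ t, f i) ≤ ∑ i ∈ t, nv s (f i) := by
  unfold nv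
  rw [Finset.sum_comm]
  refine Finset.sum_le_sum fun k _ => ?_
  rw [Finset.sum_apply]
  exact nrm_sum_le _ _ _

theorem nv_add_le (s : ℕ) (f g : κ → SPer (RI n)) : nv s (f + g) ≤ nv s f + nv s g := by
  unfold nv
  rw [← Finset.sum_add_distrib]
  exact Finset.sum_le_sum fun k _ => nrm_add_le _ _ _

theorem nv_sub_le (s : ℕ) (f g : κ → SPer (RI n)) : nv s (f - g) ≤ nv s f + nv s g := by
  unfold nv
  rw [← Finset.sum_add_distrib]
  exact Finset.sum_le_sum fun k _ => nrm_sub_le _ _ _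

/-- `KT` gains one derivative -/
theorem nv_KT_le (io : Fin n → Matrix κ κ ℂ) (s : ℕ) :
    ∃ C, 0 ≤ C ∧ ∀ f : κ → SPer (RI n), nv (s + 1) (Geo.KT io f) ≤ C * nv s f := by
  refine ⟨∑ a, (∑ k, ∑ l, ‖io a k l‖) * (2 * Real.pi), Finset.sum_nonneg fun a _ =>
    mul_nonneg (Finset.sum_nonneg fun k _ => Finset.sum_nonneg fun l _ => norm_nonneg _)
      (by positivity), fun f => ?_⟩
  unfold Geo.KT
  refine (nv_sum_le _ _ _).trans ?_
  rw [Finset.sum_mul]
  refine Finset.sum_le_sum fun a _ => ?_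
  refine (nv_mT_le _ _ _).trans ?_
  rw [mul_assoc]
  refine mul_le_mul_of_nonneg_left ?_
    (Finset.sum_nonneg fun k _ => Finset.sum_nonneg fun l _ => norm_nonneg _)
  unfold nv
  rw [Finset.mul_sum]
  exact Finset.sum_le_sum fun k _ => nrm_Kop_le s a (f k)

/-- `GT` gains one derivative (in fact two) -/
theorem nv_GT_le (s : ℕ) (f : κ → SPer (RI n)) : nv (s + 1) (GT f) ≤ nv s f :=
  Finset.sum_le_sum fun k _ => (nrm_mono (by omega) _).trans (nrm_G_le s (f k))

/-- `DT` costs one derivative -/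
theorem nv_DT_le (e : Fin n → Matrix κ κ ℂ) (s : ℕ) :
    ∃ C, 0 ≤ C ∧ ∀ f : κ → SPer (RI n), nv s (DT e f) ≤ C * nv (s + 1) f := by
  refine ⟨∑ a, (∑ k, ∑ l, ‖e a k l‖) * (2 * Real.pi), Finset.sum_nonneg fun a _ =>
    mul_nonneg (Finset.sum_nonneg fun k _ => Finset.sum_nonneg fun l _ => norm_nonneg _)
      (by positivity), fun f => ?_⟩
  rw [Geo.DT_eq]
  refine (nv_sum_le _ _ _).trans ?_
  rw [Finset.sum_mul]
  refine Finset.sum_le_sum fun a _ => ?_
  refine (nv_mT_le _ _ _).trans ?_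
  rw [mul_assoc]
  refine mul_le_mul_of_nonneg_left ?_
    (Finset.sum_nonneg fun k _ => Finset.sum_nonneg fun l _ => norm_nonneg _)
  unfold nv
  rw [Finset.mul_sum]
  exact Finset.sum_le_sum fun k _ => nrm_dbar_le s a (f k)

end torus

/-! ### the norms on sections -/

section sections

variable [Finite A.ι] (P : Part A) (B : FBun A)

/-- norm of a family over the (finite) atlas -/
def nF {κ : Type} [Fintype κ] (s : ℕ) (f : A.ι → κ → SPer (RI n)) : ℝ := ∑ᶠ i, nv s (f i)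

theorem nF_eq [Fintype A.ι] {κ : Type} [Fintype κ] (s : ℕ) (f : A.ι → κ → SPer (RI n)) :
    nF s f = ∑ i, nv s (f i) := finsum_eq_sum_of_fintype _

/-- the plain Sobolev norm of order `s` of a section (`s = 0`: an `L²` norm) -/
def nS (s : ℕ) (u : Sec B) : ℝ := nF s (LocF B (P.psi B.κ) u.1)

theorem nS_eq [Fintype A.ι] (s : ℕ) (u : Sec B) :
    nS P B s u = ∑ i, ∑ k, nrm s (loc A i (P.psi B.κ i) (u.1 i) k) := nF_eq _ _

theorem nF_nonneg {κ : Type} [Fintype κ] (s : ℕ) (f : A.ι → κ → SPer (RI n)) : 0 ≤ nF s f :=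
  finsum_nonneg fun _ => nv_nonneg _ _

theorem nv_le_nF {κ : Type} [Fintype κ] (s : ℕ) (f : A.ι → κ → SPer (RI n)) (i : A.ι) :
    nv s (f i) ≤ nF s f := by
  have := Fintype.ofFinite A.ι
  rw [nF_eq]
  exact Finset.single_le_sum (f := fun i => nv s (f i)) (fun _ _ => nv_nonneg _ _)
    (Finset.mem_univ i)

theorem nrm_le_nF {κ : Type} [Fintype κ] (s : ℕ) (f : A.ι → κ → SPer (RI n)) (i : A.ι) (k : κ) :
    nrm s (f i k) ≤ nF s f := (nrm_le_nv s (f i) k).trans (nv_le_nF s f i)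

theorem nF_mono {κ : Type} [Fintype κ] {s t : ℕ} (h : s ≤ t) (f : A.ι → κ → SPer (RI n)) :
    nF s f ≤ nF t f := by
  have := Fintype.ofFinite A.ι
  rw [nF_eq, nF_eq]
  exact Finset.sum_le_sum fun i _ => nv_mono h _

theorem nF_add_le {κ : Type} [Fintype κ] (s : ℕ) (f g : A.ι → κ → SPer (RI n)) :
    nF s (f + g) ≤ nF s f + nF s g := by
  have := Fintype.ofFinite A.ι
  rw [nF_eq, nF_eq, nF_eq, ← Finset.sum_add_distrib]
  exact Finset.sum_le_sum fun i _ => nv_add_le _ _ _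

theorem nF_sub_le {κ : Type} [Fintype κ] (s : ℕ) (f g : A.ι → κ → SPer (RI n)) :
    nF s (f - g) ≤ nF s f + nF s g := by
  have := Fintype.ofFinite A.ι
  rw [nF_eq, nF_eq, nF_eq, ← Finset.sum_add_distrib]
  exact Finset.sum_le_sum fun i _ => nv_sub_le _ _ _

/-- a bound on each chart gives a bound on the family -/
theorem nF_le_of {κ κ' : Type} [Fintype κ] [Fintype κ'] {s t : ℕ}
    {T : A.ι → (κ → SPer (RI n)) → (κ' → SPer (RI n))}
    (h : ∀ i, ∃ C, 0 ≤ C ∧ ∀ f, nv t (T i f) ≤ C * nv s f) :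
    ∃ C, 0 ≤ C ∧ ∀ f : A.ι → κ → SPer (RI n), nF t (fun i => T i (f i)) ≤ C * nF s f := by
  have := Fintype.ofFinite A.ι
  choose C hC0 hC using h
  refine ⟨∑ i, C i, Finset.sum_nonneg fun i _ => hC0 i, fun f => ?_⟩
  rw [nF_eq, Finset.sum_mul]
  refine Finset.sum_le_sum fun i _ => (hC i (f i)).trans ?_
  exact mul_le_mul_of_nonneg_left (nv_le_nF s f i) (hC0 i)

theorem nF_KT_le {κ : Type} [Fintype κ] (io : Fin n → Matrix κ κ ℂ) (s : ℕ) :
    ∃ C, 0 ≤ C ∧ ∀ f : A.ι → κ → SPer (RI n),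
      nF (s + 1) (fun j => Geo.KT io (f j)) ≤ C * nF s f :=
  nF_le_of (T := fun _ f => Geo.KT io f) fun _ => nv_KT_le io s

theorem nF_DT_le {κ : Type} [Fintype κ] (e : Fin n → Matrix κ κ ℂ) (s : ℕ) :
    ∃ C, 0 ≤ C ∧ ∀ f : A.ι → κ → SPer (RI n),
      nF s (fun j => DT e (f j)) ≤ C * nF (s + 1) f :=
  nF_le_of (T := fun _ f => DT e f) fun _ => nv_DT_le e s

theorem nF_GT_le {κ : Type} [Fintype κ] (s : ℕ) (f : A.ι → κ → SPer (RI n)) :
    nF (s + 1) (fun j => GT (f j)) ≤ nF s f := by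
  have := Fintype.ofFinite A.ι
  rw [nF_eq, nF_eq]
  exact Finset.sum_le_sum fun i _ => nv_GT_le s _

variable {B}

/-- localising an extended family is bounded in every norm -/
theorem nF_LocF_ExtF_le {κ₁ κ₂ : Type} [Fintype κ₁] [Fintype κ₂]
    {a : A.ι → M → Matrix κ₁ B.κ ℂ} {b : A.ι → M → Matrix B.κ κ₂ ℂ}
    (ha : AmpF P a) (hb : AmpF P b) (s : ℕ) :
    ∃ C, 0 ≤ C ∧ ∀ f : A.ι → κ₂ → SPer (RI n),
      nF s (LocF B a (ExtF B b f)) ≤ C * nF s f := by
  classical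
  have := Fintype.ofFinite A.ι
  choose C hC0 hC using fun (i : A.ι) (k : κ₁) (j : A.ι) (l : κ₂) =>
    nrm_Tkl_le B s (ha.amp i) (hb.amp j) k l
  refine ⟨∑ i, ∑ k, ∑ j, ∑ l, C i k j l, Finset.sum_nonneg fun i _ => Finset.sum_nonneg fun k _ =>
    Finset.sum_nonneg fun j _ => Finset.sum_nonneg fun l _ => hC0 i k j l, fun f => ?_⟩
  rw [nF_eq, Finset.sum_mul]
  refine Finset.sum_le_sum fun i _ => ?_
  unfold nv
  rw [Finset.sum_mul]
  refine Finset.sum_le_sum fun k _ => ?_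
  rw [show LocF B a (ExtF B b f) i k = ∑ j, ∑ l, Tkl B (ha.amp i) (hb.amp j) k l (f j l) from
    loc_ExtF_fin P B (ha.amp i) hb f k]
  refine (nrm_sum_le _ _ _).trans ?_
  rw [Finset.sum_mul]
  refine Finset.sum_le_sum fun j _ => ?_
  refine (nrm_sum_le _ _ _).trans ?_
  rw [Finset.sum_mul]
  refine Finset.sum_le_sum fun l _ => (hC i k j l (f j l)).trans ?_
  exact mul_le_mul_of_nonneg_left (nrm_le_nF s f j l) (hC0 i k j l)

/-- localisation with an arbitrary family of amplitudes -/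
theorem nF_LocF_le {κ₁ : Type} [Fintype κ₁] {a : A.ι → M → Matrix κ₁ B.κ ℂ} (ha : AmpF P a)
    (s : ℕ) : ∃ C, 0 ≤ C ∧ ∀ u : Sec B, nF s (LocF B a u.1) ≤ C * nS P B s u := by
  obtain ⟨C, hC0, hC⟩ := nF_LocF_ExtF_le P ha (P.amp_chi B.κ) s
  refine ⟨C, hC0, fun u => ?_⟩
  have h := hC (LocF B (P.psi B.κ) u.1)
  rw [ExtF_LocF B P u.2] at h
  exact h

/-- extension with an arbitrary family of amplitudes -/
theorem nS_ExtFL_le {κ₂ : Type} [Fintype κ₂] {b : A.ι → M → Matrix B.κ κ₂ ℂ} (hb : AmpF P b)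
    (s : ℕ) : ∃ C, 0 ≤ C ∧ ∀ f : A.ι → κ₂ → SPer (RI n), nS P B s (ExtFL B hb f) ≤ C * nF s f :=
  nF_LocF_ExtF_le P (P.amp_psi B.κ) hb s

variable (B)

theorem nS_nonneg (s : ℕ) (u : Sec B) : 0 ≤ nS P B s u := nF_nonneg _ _

theorem nS_mono {s t : ℕ} (h : s ≤ t) (u : Sec B) : nS P B s u ≤ nS P B t u := nF_mono h _

theorem nS_add_le (s : ℕ) (u v : Sec B) : nS P B s (u + v) ≤ nS P B s u + nS P B s v := by
  have h : LocF B (P.psi B.κ) (u + v).1 = LocF B (P.psi B.κ) u.1 + LocF B (P.psi B.κ) v.1 :=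
    LocF_add B (P.amp_psi B.κ) u.2 v.2
  unfold nS
  rw [h]
  exact nF_add_le _ _ _

theorem LocF_subS {κ : Type} {a : A.ι → M → Matrix κ B.κ ℂ} (ha : AmpF P a) (u v : Sec B) :
    LocF B a (u - v).1 = LocF B a u.1 - LocF B a v.1 :=
  (LocFL B ha).map_sub u v

theorem nS_sub_le (s : ℕ) (u v : Sec B) : nS P B s (u - v) ≤ nS P B s u + nS P B s v := by
  unfold nS
  rw [LocF_subS P B (P.amp_psi B.κ)]
  exact nF_sub_le _ _ _

theorem nS_smul (s : ℕ) (c : ℂ) (u : Sec B) : nS P B s (c • u) = ‖c‖ * nS P B s u := by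
  have := Fintype.ofFinite A.ι
  have h : LocF B (P.psi B.κ) (c • u).1 = c • LocF B (P.psi B.κ) u.1 :=
    LocF_smul B (P.amp_psi B.κ) c u.2
  unfold nS
  rw [h, nF_eq, nF_eq, Finset.mul_sum]
  refine Finset.sum_congr rfl fun i _ => ?_
  unfold nv
  rw [Finset.mul_sum]
  exact Finset.sum_congr rfl fun k _ => nrm_smul _ _ _

theorem nS_neg (s : ℕ) (u : Sec B) : nS P B s (-u) = nS P B s u := by
  rw [← neg_one_smul ℂ u, nS_smul]
  simp

theorem nS_sub_comm (s : ℕ) (u v : Sec B) : nS P B s (u - v) = nS P B s (v - u) := by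
  rw [← nS_neg, neg_sub]

theorem nS_zero (s : ℕ) : nS P B s 0 = 0 := by
  have h := nS_smul P B s 0 0
  simpa using h

theorem nS_sub_le' (s : ℕ) (u v w : Sec B) :
    nS P B s (u - w) ≤ nS P B s (u - v) + nS P B s (v - w) := by
  have h := nS_add_le P B s (u - v) (v - w)
  rwa [sub_add_sub_cancel] at h

/-- `u` is zero when its `L²` norm is zero -/
theorem eq_zero_of_nS {s : ℕ} {u : Sec B} (h : nS P B s u = 0) : u = 0 := by
  have h1 : LocF B (P.psi B.κ) u.1 = 0 := by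
    funext i k
    refine eq_zero_of_nrm (s := s) (le_antisymm ?_ (nrm_nonneg _ _))
    rw [← h]
    exact nrm_le_nF s _ i k
  have h2 := ExtF_LocF B P u.2
  rw [h1] at h2
  refine Subtype.ext (h2.symm.trans ?_)
  exact congrArg Subtype.val (ExtFL B (P.amp_chi B.κ)).map_zero

/-! ### the operators -/

/-- **the parametrix gains one derivative** -/
theorem nS_KML_le (s : ℕ) : ∃ C, 0 ≤ C ∧ ∀ u : Sec B, nS P B (s + 1) (KML B P u) ≤ C * nS P B s u := by
  obtain ⟨C1, h10, h1⟩ := nS_ExtFL_le P (P.amp_chi B.κ) (s + 1)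
  obtain ⟨C2, h20, h2⟩ := nF_KT_le (A := A) B.io s
  refine ⟨C1 * C2, mul_nonneg h10 h20, fun u => ?_⟩
  refine (h1 (fun j => Geo.KT B.io (LocF B (P.psi B.κ) u.1 j))).trans ?_
  rw [mul_assoc]
  exact mul_le_mul_of_nonneg_left (h2 _) h10

/-- **the remainder gains one derivative** -/
theorem nS_RML_le (s : ℕ) : ∃ C, 0 ≤ C ∧ ∀ u : Sec B, nS P B (s + 1) (RML B P u) ≤ C * nS P B s u := by
  obtain ⟨C1, h10, h1⟩ := nS_ExtFL_le P (P.amp_chi B.κ) (s + 1)
  obtain ⟨C2, h20, h2⟩ := nF_KT_le (A := A) B.io s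
  obtain ⟨C3, h30, h3⟩ := nS_ExtFL_le P (P.amp_chi B.κ).dE (s + 1)
  obtain ⟨C4, h40, h4⟩ := nF_LocF_le P (P.amp_psi B.κ).dL s
  refine ⟨C1 + C3 * C2 + C1 * (C2 * C4), by positivity, fun u => ?_⟩
  have e : RML B P u = ExtFL B (P.amp_chi B.κ) (fun j => GT (LocF B (P.psi B.κ) u.1 j))
      - ExtFL B (P.amp_chi B.κ).dE (fun j => Geo.KT B.io (LocF B (P.psi B.κ) u.1 j))
      + ExtFL B (P.amp_chi B.κ) (fun j => Geo.KT B.io (LocF B (dL B (P.psi B.κ)) u.1 j)) := rfl
  rw [e]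
  have k1 : nS P B (s + 1) (ExtFL B (P.amp_chi B.κ) (fun j => GT (LocF B (P.psi B.κ) u.1 j))) ≤
      C1 * nS P B s u :=
    (h1 _).trans (mul_le_mul_of_nonneg_left (nF_GT_le s _) h10)
  have k2 : nS P B (s + 1) (ExtFL B (P.amp_chi B.κ).dE
      (fun j => Geo.KT B.io (LocF B (P.psi B.κ) u.1 j))) ≤ C3 * C2 * nS P B s u := by
    refine (h3 _).trans ?_
    rw [mul_assoc]
    exact mul_le_mul_of_nonneg_left (h2 _) h30
  have k3 : nS P B (s + 1) (ExtFL B (P.amp_chi B.κ)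
      (fun j => Geo.KT B.io (LocF B (dL B (P.psi B.κ)) u.1 j))) ≤
      C1 * (C2 * C4) * nS P B s u := by
    refine (h1 _).trans ?_
    rw [mul_assoc, mul_assoc]
    refine mul_le_mul_of_nonneg_left ((h2 _).trans ?_) h10
    exact mul_le_mul_of_nonneg_left (h4 u) h20
  refine (nS_add_le P B _ _ _).trans ?_
  rw [add_mul, add_mul]
  exact add_le_add ((nS_sub_le P B _ _ _).trans (add_le_add k1 k2)) k3

/-- `∇` costs one derivative -/
theorem nS_nabL_le (s : ℕ) : ∃ C, 0 ≤ C ∧ ∀ u : Sec B, nS P B s (nabL B u) ≤ C * nS P B (s + 1) u := by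
  obtain ⟨C1, h10, h1⟩ := nF_DT_le (A := A) B.e s
  obtain ⟨C2, h20, h2⟩ := nF_LocF_le P (amp_dpsi B P) s
  refine ⟨C1 + C2, by positivity, fun u => ?_⟩
  have e : LocF B (P.psi B.κ) (nabL B u).1 =
      (fun j => DT B.e (LocF B (P.psi B.κ) u.1 j)) - LocF B (dpsi B P) u.1 := LocF_nab B P u.2
  show nF s (LocF B (P.psi B.κ) (nabL B u).1) ≤ _
  rw [e, add_mul]
  refine (nF_sub_le _ _ _).trans (add_le_add (h1 _) ((h2 u).trans ?_))
  exact mul_le_mul_of_nonneg_left (nS_mono P B (by omega) u) h20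

end sections

/-! ### completeness on the torus -/

section complete

variable {d : Type} [Fintype d]

theorem norm_fc_le_nrm (f : SPer d) (k : d → ℤ) : ‖fc f k‖ ≤ nrm 0 f := by
  have h := norm_fc_sq_le 0 f k
  rw [pow_zero, one_mul] at h
  exact (pow_le_pow_iff_left₀ (norm_nonneg _) (nrm_nonneg _ _) two_ne_zero).1 h

/-- a sequence of smooth periodic functions, Cauchy in `L²` and approximated in `L²` by sequences
bounded in every Sobolev norm, has a smooth `L²` limit -/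
theorem torus_limit {f : ℕ → SPer d}
    (hc : ∀ ε > 0, ∃ N, ∀ m ≥ N, ∀ k ≥ N, nrm 0 (f m - f k) < ε)
    (g : ℕ → ℕ → SPer d) (hg : ∀ s, Tendsto (fun m => nrm 0 (f m - g s m)) atTop (𝓝 0))
    (hb : ∀ s, ∃ C, ∀ m, nrm s (g s m) ≤ C) :
    ∃ F : SPer d, Tendsto (fun m => nrm 0 (f m - F)) atTop (𝓝 0) := by
  have h1 : CauchySeq fun m => emb 0 (f m) := by
    rw [Metric.cauchySeq_iff]
    intro ε hε
    obtain ⟨N, hN⟩ := hc ε hε
    refine ⟨N, fun m hm k hk => ?_⟩
    rw [dist_eq_norm, ← map_sub]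
    exact hN m hm k hk
  obtain ⟨a, ha⟩ := cauchySeq_tendsto_of_complete h1
  have h2 : ∀ k, Tendsto (fun m => fc (f m) k) atTop (𝓝 (a k)) := by
    intro k
    have h3 : ∀ m, ‖fc (f m) k - a k‖ ≤ ‖emb 0 (f m) - a‖ := by
      intro m
      have h4 := lp.norm_apply_le_norm (p := 2) (by norm_num) (emb 0 (f m) - a) k
      have h5 : (emb 0 (f m) - a) k = fc (f m) k - a k := by
        show emb 0 (f m) k - a k = _
        rw [emb_apply]
        simp
      rwa [h5] at h4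
    rw [tendsto_iff_norm_sub_tendsto_zero] at ha ⊢
    exact squeeze_zero (fun _ => norm_nonneg _) h3 ha
  have h6 : ∀ s k, Tendsto (fun m => fc (g s m) k) atTop (𝓝 (a k)) := by
    intro s k
    have h7 : Tendsto (fun m => fc (f m - g s m) k) atTop (𝓝 0) := by
      rw [tendsto_zero_iff_norm_tendsto_zero]
      exact squeeze_zero (fun _ => norm_nonneg _) (fun m => norm_fc_le_nrm _ _) (hg s)
    have h8 := (h2 k).sub h7
    rw [sub_zero] at h8
    refine h8.congr fun m => ?_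
    rw [fc_sub, sub_sub_cancel]
  have hr : Rapid a := by
    intro N
    obtain ⟨C, hC⟩ := hb (2 * N)
    refine ⟨C, fun k => ?_⟩
    have h9 : Tendsto (fun m => wt k ^ N * ‖fc (g (2 * N) m) k‖) atTop (𝓝 (wt k ^ N * ‖a k‖)) :=
      (h6 (2 * N) k).norm.const_mul _
    refine le_of_tendsto' h9 fun m => ?_
    refine le_trans ?_ (hC m)
    have h10 := norm_fc_sq_le (2 * N) (g (2 * N) m) k
    rw [two_mul, pow_add, ← sq, ← mul_pow] at h10
    have h11 := (pow_le_pow_iff_left₀ (mul_nonneg (pow_nonneg (wt_pos k).le N) (norm_nonneg _))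
      (nrm_nonneg _ _) two_ne_zero).1 h10
    rwa [← two_mul] at h11
  refine ⟨syn a hr, ?_⟩
  have h12 : emb 0 (syn a hr) = a := by
    ext k
    rw [emb_apply, fc_syn]
    simp
  rw [tendsto_iff_norm_sub_tendsto_zero] at ha
  refine ha.congr fun m => ?_
  show ‖emb 0 (f m) - a‖ = ‖emb 0 (f m - syn a hr)‖
  rw [map_sub, h12]

end complete

/-! ### limits of sections -/

section limits

variable [Finite A.ι] (P : Part A) (B : FBun A)

/-- iterates of the remainder -/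
theorem nS_iter_le (s : ℕ) : ∃ C, 0 ≤ C ∧ ∀ u : Sec B,
    nS P B s ((RML B P ^ s) u) ≤ C * nS P B 0 u := by
  induction s with
  | zero => exact ⟨1, zero_le_one, fun u => by simp⟩
  | succ s ih =>
    obtain ⟨C, hC0, hC⟩ := ih
    obtain ⟨D, hD0, hD⟩ := nS_RML_le P B s
    refine ⟨D * C, mul_nonneg hD0 hC0, fun u => ?_⟩
    rw [pow_succ', Module.End.mul_apply]
    refine (hD _).trans ?_
    rw [mul_assoc]
    exact mul_le_mul_of_nonneg_left (hC u) hD0

/-- the parametrix is `L²`-bounded -/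
theorem nS_KML_le0 : ∃ C, 0 ≤ C ∧ ∀ u : Sec B, nS P B 0 (KML B P u) ≤ C * nS P B 0 u := by
  obtain ⟨C, hC0, hC⟩ := nS_KML_le P B 0
  exact ⟨C, hC0, fun u => (nS_mono P B (by omega) _).trans (hC u)⟩

/-- the remainder is `L²`-bounded -/
theorem nS_RML_le0 : ∃ C, 0 ≤ C ∧ ∀ u : Sec B, nS P B 0 (RML B P u) ≤ C * nS P B 0 u := by
  obtain ⟨C, hC0, hC⟩ := nS_RML_le P B 0
  exact ⟨C, hC0, fun u => (nS_mono P B (by omega) _).trans (hC u)⟩

theorem tendsto_iter {v : ℕ → Sec B}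
    (hR : Tendsto (fun m => nS P B 0 (v m - RML B P (v m))) atTop (𝓝 0)) (s : ℕ) :
    Tendsto (fun m => nS P B 0 (v m - (RML B P ^ s) (v m))) atTop (𝓝 0) := by
  induction s with
  | zero =>
    refine tendsto_const_nhds.congr fun m => ?_
    rw [pow_zero, Module.End.one_apply, sub_self, nS_zero]
  | succ s ih =>
    obtain ⟨C, hC0, hC⟩ := nS_RML_le0 P B
    have h := hR.add (ih.const_mul C)
    rw [mul_zero, add_zero] at h
    refine squeeze_zero (fun _ => nS_nonneg _ _ _ _) (fun m => ?_) h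
    have h1 : v m - (RML B P ^ (s + 1)) (v m) =
        (v m - RML B P (v m)) + RML B P (v m - (RML B P ^ s) (v m)) := by
      rw [map_sub, pow_succ', Module.End.mul_apply]
      abel
    rw [h1]
    exact (nS_add_le P B _ _ _).trans (add_le_add le_rfl (hC _))

theorem nS_sub_eq_LocF {κ : Type} [Fintype κ] {a : A.ι → M → Matrix κ B.κ ℂ} (ha : AmpF P a)
    (u v : Sec B) (i : A.ι) (k : κ) :
    LocF B a (u - v).1 i k = LocF B a u.1 i k - LocF B a v.1 i k := by
  rw [LocF_subS P B ha]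
  rfl

/-- **smooth limits** : a sequence of smooth sections which is Cauchy in `L²` and satisfies
`v m - R (v m) → 0` in `L²` has a smooth `L²` limit -/
theorem exists_limit {v : ℕ → Sec B}
    (hc : ∀ ε > 0, ∃ N, ∀ m ≥ N, ∀ k ≥ N, nS P B 0 (v m - v k) < ε)
    (hR : Tendsto (fun m => nS P B 0 (v m - RML B P (v m))) atTop (𝓝 0)) :
    ∃ w : Sec B, Tendsto (fun m => nS P B 0 (v m - w)) atTop (𝓝 0) := by
  have := Fintype.ofFinite A.ι
  -- boundedness
  obtain ⟨D, hD⟩ : ∃ D, ∀ m, nS P B 0 (v m) ≤ D := by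
    obtain ⟨N, hN⟩ := hc 1 one_pos
    refine ⟨(∑ m ∈ Finset.range N, nS P B 0 (v m)) + (1 + nS P B 0 (v N)), fun m => ?_⟩
    have h0 : 0 ≤ ∑ m ∈ Finset.range N, nS P B 0 (v m) :=
      Finset.sum_nonneg fun _ _ => nS_nonneg _ _ _ _
    have h0' := nS_nonneg P B 0 (v N)
    by_cases hm : m < N
    · have h1 := Finset.single_le_sum (f := fun m => nS P B 0 (v m))
        (fun _ _ => nS_nonneg P B 0 _) (Finset.mem_range.2 hm)
      linarith
    · have h1 := hN m (not_lt.1 hm) N le_rfl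
      have h2 := nS_add_le P B 0 (v m - v N) (v N)
      rw [sub_add_cancel] at h2
      linarith
  have h1 : ∀ (i : A.ι) (k : B.κ), ∃ F : SPer (RI n),
      Tendsto (fun m => nrm 0 (LocF B (P.psi B.κ) (v m).1 i k - F)) atTop (𝓝 0) := by
    intro i k
    refine torus_limit (fun ε hε => ?_)
      (fun s m => LocF B (P.psi B.κ) ((RML B P ^ s) (v m)).1 i k) (fun s => ?_) fun s => ?_
    · obtain ⟨N, hN⟩ := hc ε hε
      refine ⟨N, fun m hm l hl => lt_of_le_of_lt ?_ (hN m hm l hl)⟩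
      rw [← nS_sub_eq_LocF P B (P.amp_psi B.κ)]
      exact nrm_le_nF 0 _ i k
    · refine squeeze_zero (fun _ => nrm_nonneg _ _) (fun m => ?_) (tendsto_iter P B hR s)
      rw [← nS_sub_eq_LocF P B (P.amp_psi B.κ)]
      exact nrm_le_nF 0 _ i k
    · obtain ⟨C, hC0, hC⟩ := nS_iter_le P B s
      refine ⟨C * D, fun m => (nrm_le_nF s _ i k).trans ((hC (v m)).trans ?_)⟩
      exact mul_le_mul_of_nonneg_left (hD m) hC0
  choose F hF using h1
  refine ⟨ExtFL B (P.amp_chi B.κ) F, ?_⟩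
  obtain ⟨C, hC0, hC⟩ := nS_ExtFL_le P (P.amp_chi B.κ) 0
  have h2 : Tendsto (fun m => ∑ i, ∑ k, nrm 0 (LocF B (P.psi B.κ) (v m).1 i k - F i k)) atTop
      (𝓝 0) := by
    have h3 := tendsto_finsetSum (Finset.univ : Finset A.ι) fun i _ =>
      tendsto_finsetSum (Finset.univ : Finset B.κ) fun k _ => hF i k
    simpa using h3
  have h4 := h2.const_mul C
  rw [mul_zero] at h4
  refine squeeze_zero (fun _ => nS_nonneg _ _ _ _) (fun m => ?_) h4
  have h5 : v m = ExtFL B (P.amp_chi B.κ) (LocF B (P.psi B.κ) (v m).1) :=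
    Subtype.ext (ExtF_LocF B P (v m).2).symm
  have h6 : v m - ExtFL B (P.amp_chi B.κ) F =
      ExtFL B (P.amp_chi B.κ) (LocF B (P.psi B.κ) (v m).1 - F) := by
    rw [map_sub, ← h5]
  rw [h6]
  refine (hC _).trans (mul_le_mul_of_nonneg_left (le_of_eq ?_) hC0)
  rw [nF_eq]
  rfl

/-- `L²` limits are unique -/
theorem limit_unique {v : ℕ → Sec B} {w w' : Sec B}
    (h : Tendsto (fun m => nS P B 0 (v m - w)) atTop (𝓝 0))
    (h' : Tendsto (fun m => nS P B 0 (v m - w')) atTop (𝓝 0)) : w = w' := by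
  have h1 := h.add h'
  rw [add_zero] at h1
  have h2 : nS P B 0 (w - w') ≤ 0 := by
    refine ge_of_tendsto' h1 fun m => ?_
    have h3 := nS_sub_le' P B 0 w (v m) w'
    rwa [nS_sub_comm P B 0 w (v m)] at h3
  exact sub_eq_zero.1 (eq_zero_of_nS P B (le_antisymm h2 (nS_nonneg _ _ _ _)))

/-- Fourier coefficients of `DT` -/
theorem norm_fc_DT_le {κ : Type} [Fintype κ] (e : Fin n → Matrix κ κ ℂ) (k : κ)
    (m : RI n → ℤ) : ∃ C, 0 ≤ C ∧ ∀ f : κ → SPer (RI n), ‖fc (DT e f k) m‖ ≤ C * nv 0 f := by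
  refine ⟨∑ a, ∑ l, ‖e a k l‖ * ‖zb a m‖, Finset.sum_nonneg fun a _ => Finset.sum_nonneg fun l _ =>
    by positivity, fun f => ?_⟩
  rw [Geo.DT_eq, Finset.sum_apply, fc_sum, Finset.sum_mul]
  refine (norm_sum_le _ _).trans (Finset.sum_le_sum fun a _ => ?_)
  unfold mT
  rw [fc_sum, Finset.sum_mul]
  refine (norm_sum_le _ _).trans (Finset.sum_le_sum fun l _ => ?_)
  rw [fc_smul]
  unfold cw
  rw [fc_dbar, norm_mul, norm_mul, mul_assoc]
  refine mul_le_mul_of_nonneg_left (mul_le_mul_of_nonneg_left ?_ (norm_nonneg _)) (norm_nonneg _)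
  exact (norm_fc_le_nrm _ _).trans (nrm_le_nv 0 f l)

/-- **`∇` is closed in `L²`** -/
theorem nab_limit {v : ℕ → Sec B} {w z : Sec B}
    (h : Tendsto (fun m => nS P B 0 (v m - w)) atTop (𝓝 0))
    (h' : Tendsto (fun m => nS P B 0 (nabL B (v m) - z)) atTop (𝓝 0)) : nabL B w = z := by
  rw [← sub_eq_zero]
  have h0 : LocF B (P.psi B.κ) (nabL B w - z).1 = 0 := by
    funext i k
    refine fc_inj fun q => ?_
    show fc (LocF B (P.psi B.κ) (nabL B w - z).1 i k) q = fc (0 : SPer (RI n)) q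
    rw [fc_zero]
    obtain ⟨C1, h10, h1⟩ := norm_fc_DT_le B.e k q
    obtain ⟨C2, h20, h2⟩ := nF_LocF_le P (amp_dpsi B P) 0
    have h3 : ∀ m, ‖fc (LocF B (P.psi B.κ) (nabL B w - z).1 i k) q‖ ≤
        (C1 + C2) * nS P B 0 (v m - w) + nS P B 0 (nabL B (v m) - z) := by
      intro m
      have e1 : nabL B w - z = (nabL B (v m) - z) - nabL B (v m - w) := by
        rw [map_sub]; abel
      have e2 : LocF B (P.psi B.κ) (nabL B w - z).1 i k =
          LocF B (P.psi B.κ) (nabL B (v m) - z).1 i k -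
          LocF B (P.psi B.κ) (nabL B (v m - w)).1 i k := by
        rw [e1]
        exact nS_sub_eq_LocF P B (P.amp_psi B.κ) _ _ i k
      have e3 : LocF B (P.psi B.κ) (nabL B (v m - w)).1 i k =
          DT B.e (LocF B (P.psi B.κ) (v m - w).1 i) k - LocF B (dpsi B P) (v m - w).1 i k := by
        have := congrFun (congrFun (LocF_nab B P (v m - w).2) i) k
        exact this
      rw [e2, e3, fc_sub, fc_sub]
      have k1 : ‖fc (LocF B (P.psi B.κ) (nabL B (v m) - z).1 i k) q‖ ≤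
          nS P B 0 (nabL B (v m) - z) := (norm_fc_le_nrm _ _).trans (nrm_le_nF 0 _ i k)
      have k2 : ‖fc (DT B.e (LocF B (P.psi B.κ) (v m - w).1 i) k) q‖ ≤
          C1 * nS P B 0 (v m - w) :=
        (h1 _).trans (mul_le_mul_of_nonneg_left (nv_le_nF 0 _ i) h10)
      have k3 : ‖fc (LocF B (dpsi B P) (v m - w).1 i k) q‖ ≤ C2 * nS P B 0 (v m - w) :=
        (norm_fc_le_nrm _ _).trans ((nrm_le_nF 0 _ i k).trans (h2 _))
      refine (norm_sub_le _ _).trans ?_
      have k4 := norm_sub_le (fc (DT B.e (LocF B (P.psi B.κ) (v m - w).1 i) k) q)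
        (fc (LocF B (dpsi B P) (v m - w).1 i k) q)
      rw [add_mul]
      linarith
    have h4 := (h.const_mul (C1 + C2)).add h'
    rw [mul_zero, add_zero] at h4
    have h5 := ge_of_tendsto' h4 h3
    exact norm_le_zero_iff.1 h5
  have h1 := ExtF_LocF B P (nabL B w - z).2
  rw [h0] at h1
  refine Subtype.ext (h1.symm.trans ?_)
  exact congrArg Subtype.val (ExtFL B (P.amp_chi B.κ)).map_zero

/-- the degree projections are bounded in every norm -/
theorem nS_pqL_le (s q : ℕ) : ∃ C, 0 ≤ C ∧ ∀ u : Sec B, nS P B s (pqL B q u) ≤ C * nS P B s u := by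
  refine ⟨1, zero_le_one, fun u => ?_⟩
  have := Fintype.ofFinite A.ι
  have h1 : LocF B (P.psi B.κ) (pqL B q u).1 = fun j => mT (Dq B q) (LocF B (P.psi B.κ) u.1 j) :=
    LocF_Dq (P.amp_psi B.κ) q q (fun j x => by
      rw [← P.psi_comm B.κ]) u.2
  rw [one_mul]
  show nF s (LocF B (P.psi B.κ) (pqL B q u).1) ≤ _
  rw [h1]
  show _ ≤ nF s _
  rw [nF_eq, nF_eq]
  refine Finset.sum_le_sum fun i _ => Finset.sum_le_sum fun k _ => ?_
  have h2 : mT (Dq B q) (LocF B (P.psi B.κ) u.1 i) k =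
      (if B.deg k = q then (1 : ℂ) else 0) • LocF B (P.psi B.κ) u.1 i k := by
    unfold mT Dq
    rw [Finset.sum_eq_single k]
    · rw [Matrix.diagonal_apply_eq]
    · intro l _ hl
      rw [Matrix.diagonal_apply_ne _ (Ne.symm hl), zero_smul]
    · intro h; exact absurd (Finset.mem_univ _) h
  rw [h2, nrm_smul]
  split_ifs
  · simp
  · simpa using nrm_nonneg _ _

/-- the degree projections commute with `L²` limits -/
theorem pqL_limit {v : ℕ → Sec B} {w : Sec B} {q : ℕ} (hq : ∀ m, pqL B q (v m) = v m)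
    (h : Tendsto (fun m => nS P B 0 (v m - w)) atTop (𝓝 0)) : pqL B q w = w := by
  obtain ⟨C, hC0, hC⟩ := nS_pqL_le P B 0 q
  refine limit_unique P B (v := v) ?_ h
  have h1 := h.const_mul C
  rw [mul_zero] at h1
  refine squeeze_zero (fun _ => nS_nonneg _ _ _ _) (fun m => ?_) h1
  have h2 : v m - pqL B q w = pqL B q (v m - w) := by rw [map_sub, hq m]
  rw [h2]
  exact hC _

/-- in degree zero `v - R v = K ∇ v` -/
theorem sub_RML_deg0 {u : Sec B} (hu : pqL B 0 u = u) : u - RML B P u = KML B P (nabL B u) := by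
  have h1 := LinearMap.congr_fun (nabL_KML B P) u
  simp only [LinearMap.add_apply, LinearMap.comp_apply, LinearMap.sub_apply,
    LinearMap.id_apply] at h1
  have h2 : KML B P u = 0 := by
    have h3 := LinearMap.congr_fun (KML_pqL_zero (B := B) P) u
    simp only [LinearMap.comp_apply, LinearMap.zero_apply] at h3
    rwa [hu] at h3
  rw [h2, map_zero, zero_add] at h1
  exact h1.symm

/-- **D.12** : degree zero smooth sections, Cauchy in `L²`, with `∇ (v m) → 0` in `L²`, converge in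
`L²` to a smooth degree zero section `w` with `∇ w = 0` -/
theorem exists_limit_deg0 {v : ℕ → Sec B} (hq : ∀ m, pqL B 0 (v m) = v m)
    (hc : ∀ ε > 0, ∃ N, ∀ m ≥ N, ∀ k ≥ N, nS P B 0 (v m - v k) < ε)
    (hn : Tendsto (fun m => nS P B 0 (nabL B (v m))) atTop (𝓝 0)) :
    ∃ w : Sec B, Tendsto (fun m => nS P B 0 (v m - w)) atTop (𝓝 0) ∧ nabL B w = 0 ∧
      pqL B 0 w = w := by
  obtain ⟨C, hC0, hC⟩ := nS_KML_le0 P B
  have hR : Tendsto (fun m => nS P B 0 (v m - RML B P (v m))) atTop (𝓝 0) := by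
    have h1 := hn.const_mul C
    rw [mul_zero] at h1
    refine squeeze_zero (fun _ => nS_nonneg _ _ _ _) (fun m => ?_) h1
    rw [sub_RML_deg0 P B (hq m)]
    exact hC _
  obtain ⟨w, hw⟩ := exists_limit P B hc hR
  refine ⟨w, hw, nab_limit P B hw ?_, pqL_limit P B hq hw⟩
  simpa using hn

end limits

end

end Crest.Agent.R273.L2K_774
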