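import Crest.Agent.R273.DnInt_505
import Crest.Agent.R273.L2K_774

/-!
# R273 (helper505): geometric norms on `Sec B` and comparison with `nS P B 0`

* `HDen B` : a smooth Hermitian positive semidefinite matrix density on the Dolbeault bundle `B`;
  `HDen.Pos`.
* `HDen.ip h P u w = ∫ star u · H w`; `HDen.core` : `InnerProductSpace.Core ℂ (Sec B)`.
* `HDen.le_nS`  : `re ⟪u,u⟫ ≤ (C * nS P B 0 u)^2` (semidefinite case);
* `HDen.nS_le`  : `nS P B 0 u ^ 2 ≤ C^2 * re ⟪u,u⟫` (definite case).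
-/

set_option autoImplicit false
set_option linter.unusedSectionVars false
set_option linter.style.haveILetI false

open Set Filter Topology Complex MeasureTheory
open scoped ContDiff Matrix ComplexConjugate ComplexOrder

namespace Crest.Agent.R273.NormC_505

open Crest.Agent.R275 Crest.Agent.R275.Geo Crest.Agent.R275.Tor812 Crest.Agent.R275.TorS666
  Crest.Agent.R275.C1d194 Crest.Agent.R275.Pai323
open Crest.Agent.R275.SerG398 (lint dens DPair FPair)
open Crest.Agent.R273.DnInt_505 Crest.Agent.R273.L2K_774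

noncomputable section

variable {n : ℕ} {M : Type} [TopologicalSpace M] {A : Atl n M}

/-! ### continuity -/

theorem continuousOn_of_smAt {W : Type*} [NormedAddCommGroup W] [NormedSpace ℝ W] {i : A.ι}
    {f : M → W} (hf : A.SmAt i f) : ContinuousOn f (A.e i).source := by
  have h0 : ContinuousOn (fun z => f ((A.e i).symm z)) (A.e i).target :=
    ContDiffOn.continuousOn hf
  have h1 : ContinuousOn (fun x => (fun z => f ((A.e i).symm z)) (A.e i x)) (A.e i).source :=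
    h0.comp (A.e i).continuousOn (A.e i).mapsTo
  refine h1.congr fun x hx => ?_
  simp only [(A.e i).left_inv hx]

theorem continuous_of_sm {W : Type*} [NormedAddCommGroup W] [NormedSpace ℝ W]
    {f : M → W} (hf : A.Sm f) : Continuous f := by
  rw [continuous_iff_continuousAt]
  intro x
  obtain ⟨i, hi⟩ := A.cover x
  exact (continuousOn_of_smAt (hf i)).continuousAt ((A.e i).open_source.mem_nhds hi)

/-! ### Hermitian forms -/

section herm

variable {κ : Type} [Fintype κ]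

/-- `∑ |v_k|²` -/
def nsq (v : κ → ℂ) : ℝ := ∑ k, ‖v k‖ ^ 2

theorem nsq_nonneg (v : κ → ℂ) : 0 ≤ nsq v := Finset.sum_nonneg fun _ _ => sq_nonneg _

theorem nsq_smul (c : ℂ) (v : κ → ℂ) : nsq (c • v) = ‖c‖ ^ 2 * nsq v := by
  unfold nsq
  rw [Finset.mul_sum]
  refine Finset.sum_congr rfl fun k _ => ?_
  rw [Pi.smul_apply, smul_eq_mul, norm_mul, mul_pow]

theorem nsq_eq_zero {v : κ → ℂ} (h : nsq v = 0) : v = 0 := by
  funext k
  have h1 := (Finset.sum_eq_zero_iff_of_nonneg fun k _ => sq_nonneg (‖v k‖)).1 h k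
    (Finset.mem_univ k)
  simpa using h1

theorem hform_expand (H : Matrix κ κ ℂ) (v : κ → ℂ) :
    star v ⬝ᵥ (H *ᵥ v) = ∑ k, ∑ l, star (v k) * (H k l * v l) := by
  simp only [dotProduct, Matrix.mulVec, Pi.star_apply, Finset.mul_sum]

theorem hform_smul (H : Matrix κ κ ℂ) (c : ℂ) (v : κ → ℂ) :
    star (c • v) ⬝ᵥ (H *ᵥ (c • v)) = ((‖c‖ ^ 2 : ℝ) : ℂ) * (star v ⬝ᵥ (H *ᵥ v)) := by
  rw [star_smul, Matrix.mulVec_smul, smul_dotProduct, dotProduct_smul, smul_eq_mul, smul_eq_mul,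
    ← mul_assoc]
  congr 1
  rw [Complex.star_def, Complex.ofReal_pow, ← Complex.conj_mul', mul_comm]

theorem hform_le {H : Matrix κ κ ℂ} {C : ℝ} (hC : ∀ k l, ‖H k l‖ ≤ C) (v : κ → ℂ) :
    (star v ⬝ᵥ (H *ᵥ v)).re ≤ (C * Fintype.card κ) * nsq v := by
  have h1 : ‖star v ⬝ᵥ (H *ᵥ v)‖ ≤ ∑ k, ∑ l, C * (‖v k‖ * ‖v l‖) := by
    rw [hform_expand]
    refine (norm_sum_le _ _).trans (Finset.sum_le_sum fun k _ => (norm_sum_le _ _).trans
      (Finset.sum_le_sum fun l _ => ?_))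
    rw [norm_mul, norm_mul, norm_star]
    calc ‖v k‖ * (‖H k l‖ * ‖v l‖) = ‖H k l‖ * (‖v k‖ * ‖v l‖) := by ring
      _ ≤ C * (‖v k‖ * ‖v l‖) := mul_le_mul_of_nonneg_right (hC k l) (by positivity)
  have h2 : ∑ k, ∑ l, C * (‖v k‖ * ‖v l‖) = C * (∑ k, ‖v k‖) ^ 2 := by
    rw [sq, Finset.sum_mul_sum, Finset.mul_sum]
    refine Finset.sum_congr rfl fun k _ => ?_
    rw [Finset.mul_sum]
  by_cases hne : Nonempty κ
  · obtain ⟨k0⟩ := hne
    have hC0 : 0 ≤ C := (norm_nonneg _).trans (hC k0 k0)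
    have h3 : (∑ k, ‖v k‖) ^ 2 ≤ (Fintype.card κ : ℝ) * nsq v := by
      have := sq_sum_le_card_mul_sum_sq (s := (Finset.univ : Finset κ)) (f := fun k => ‖v k‖)
      simpa [nsq] using this
    calc (star v ⬝ᵥ (H *ᵥ v)).re ≤ ‖star v ⬝ᵥ (H *ᵥ v)‖ := Complex.re_le_norm _
      _ ≤ C * (∑ k, ‖v k‖) ^ 2 := h1.trans h2.le
      _ ≤ C * ((Fintype.card κ : ℝ) * nsq v) := mul_le_mul_of_nonneg_left h3 hC0
      _ = _ := by ring
  · rw [not_nonempty_iff] at hne
    simp [dotProduct, nsq]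

/-- uniform upper bound of a Hermitian form on a compact set -/
theorem exists_upper {X : Type*} [TopologicalSpace X] {K : Set X} (hK : IsCompact K)
    {H : X → Matrix κ κ ℂ} (hH : ∀ k l, ContinuousOn (fun x => H x k l) K) :
    ∃ C, 0 ≤ C ∧ ∀ x ∈ K, ∀ v : κ → ℂ, (star v ⬝ᵥ (H x *ᵥ v)).re ≤ C * nsq v := by
  have h1 : ∀ k l, ∃ C, ∀ x ∈ K, ‖H x k l‖ ≤ C := fun k l =>
    hK.exists_bound_of_continuousOn (hH k l)
  choose C hC using h1
  refine ⟨(∑ k, ∑ l, |C k l|) * Fintype.card κ, by positivity, fun x hx v => ?_⟩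
  refine hform_le (fun k l => ?_) v
  refine (hC k l x hx).trans ((le_abs_self _).trans ?_)
  refine (Finset.single_le_sum (f := fun l => |C k l|) (fun _ _ => abs_nonneg _)
    (Finset.mem_univ l)).trans ?_
  exact Finset.single_le_sum (f := fun k => ∑ l, |C k l|)
    (fun _ _ => Finset.sum_nonneg fun _ _ => abs_nonneg _) (Finset.mem_univ k)

/-- uniform lower bound of a positive definite Hermitian form on a compact set -/
theorem exists_lower {X : Type*} [TopologicalSpace X] {K : Set X} (hK : IsCompact K)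
    {H : X → Matrix κ κ ℂ} (hH : ∀ k l, ContinuousOn (fun x => H x k l) K)
    (hp : ∀ x ∈ K, (H x).PosDef) :
    ∃ c, 0 < c ∧ ∀ x ∈ K, ∀ v : κ → ℂ, c * nsq v ≤ (star v ⬝ᵥ (H x *ᵥ v)).re := by
  have hS : IsCompact {v : κ → ℂ | nsq v = 1} := by
    refine Metric.isCompact_of_isClosed_isBounded ?_ ?_
    · refine isClosed_eq ?_ continuous_const
      unfold nsq
      fun_prop
    · refine (Metric.isBounded_iff_subset_closedBall (0 : κ → ℂ)).2 ⟨1, fun v hv => ?_⟩
      rw [mem_closedBall_zero_iff, pi_norm_le_iff_of_nonneg zero_le_one]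
      intro k
      have h1 : ‖v k‖ ^ 2 ≤ nsq v :=
        Finset.single_le_sum (f := fun k => ‖v k‖ ^ 2) (fun _ _ => sq_nonneg _) (Finset.mem_univ k)
      rw [hv] at h1
      nlinarith [norm_nonneg (v k)]
  have hf : ContinuousOn (fun p : X × (κ → ℂ) => (star p.2 ⬝ᵥ (H p.1 *ᵥ p.2)).re)
      (K ×ˢ {v : κ → ℂ | nsq v = 1}) := by
    refine Complex.continuous_re.comp_continuousOn ?_
    have e : (fun p : X × (κ → ℂ) => star p.2 ⬝ᵥ (H p.1 *ᵥ p.2)) =
        fun p => ∑ k, ∑ l, star (p.2 k) * (H p.1 k l * p.2 l) :=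
      funext fun p => hform_expand _ _
    rw [e]
    refine continuousOn_finsetSum _ fun k _ => continuousOn_finsetSum _ fun l _ => ?_
    refine ContinuousOn.mul ?_ (ContinuousOn.mul ?_ ?_)
    · exact (by fun_prop : Continuous fun p : X × (κ → ℂ) => star (p.2 k)).continuousOn
    · exact (hH k l).comp continuousOn_fst fun p hp => hp.1
    · exact (by fun_prop : Continuous fun p : X × (κ → ℂ) => p.2 l).continuousOn
  obtain ⟨c, hc0, hc⟩ := (hK.prod hS).exists_forall_le' hf (a := 0) (by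
    rintro ⟨x, v⟩ ⟨hx, hv⟩
    have hv0 : v ≠ 0 := by
      rintro rfl
      have : nsq (0 : κ → ℂ) = 1 := hv
      simp [nsq] at this
    exact (Complex.lt_def.1 ((hp x hx).dotProduct_mulVec_pos hv0)).1)
  refine ⟨c, hc0, fun x hx v => ?_⟩
  by_cases hv : v = 0
  · subst hv
    simp [nsq]
  · have hpos : 0 < nsq v := lt_of_le_of_ne (nsq_nonneg v) fun h => hv (nsq_eq_zero h.symm)
    set t : ℝ := Real.sqrt (nsq v) with ht
    have ht0 : 0 < t := Real.sqrt_pos.2 hpos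
    have ht2 : t ^ 2 = nsq v := Real.sq_sqrt hpos.le
    have hn : ‖((t : ℂ))⁻¹‖ ^ 2 = (nsq v)⁻¹ := by
      rw [norm_inv, Complex.norm_real, Real.norm_of_nonneg ht0.le, inv_pow, ht2]
    have h1 := hc (x, ((t : ℂ))⁻¹ • v) ⟨hx, by
      show nsq _ = 1
      rw [nsq_smul, hn, inv_mul_cancel₀ hpos.ne']⟩
    simp only at h1
    rw [hform_smul, Complex.re_ofReal_mul, hn] at h1
    calc c * nsq v ≤ ((nsq v)⁻¹ * (star v ⬝ᵥ (H x *ᵥ v)).re) * nsq v :=
          mul_le_mul_of_nonneg_right h1 hpos.le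
      _ = _ := by field_simp

end herm

/-! ### Hermitian densities -/

/-- a positive semidefinite Hermitian density on the fibres of `B` -/
structure HDen (B : FBun A) where
  H : A.ι → M → Matrix B.κ B.κ ℂ
  sm : ∀ i k l, A.SmAt i (fun x => H i x k l)
  psd : ∀ i, ∀ x ∈ (A.e i).source, (H i x).PosSemidef
  tr : ∀ i j, ∀ x ∈ (A.e i).source ∩ (A.e j).source,
    (B.τ i j x)ᴴ * H i x * B.τ i j x = dens A i j x • H j x

namespace HDen

variable {B : FBun A} (h : HDen B)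

/-- positive definite -/
def Pos : Prop := ∀ i, ∀ x ∈ (A.e i).source, (h.H i x).PosDef

/-- the density `star u · H w` -/
def hd (u w : A.ι → M → B.κ → ℂ) (i : A.ι) (x : M) : ℂ := star (u i x) ⬝ᵥ (h.H i x *ᵥ w i x)

theorem hd_smAt {u w : A.ι → M → B.κ → ℂ} (hu : u ∈ Sec B) (hw : w ∈ Sec B) (i : A.ι) :
    A.SmAt i (h.hd u w i) := by
  show ContDiffOn ℝ ∞ (fun z => ∑ k, star (u i ((A.e i).symm z)) k *
    ∑ l, h.H i ((A.e i).symm z) k l * w i ((A.e i).symm z) l) _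
  refine ContDiffOn.sum fun k _ => ContDiffOn.mul ?_ (ContDiffOn.sum fun l _ =>
    ContDiffOn.mul (h.sm i k l) (hw.1 i l))
  exact Complex.conjCLE.contDiff.comp_contDiffOn (hu.1 i k)

theorem isDn {u w : A.ι → M → B.κ → ℂ} (hu : u ∈ Sec B) (hw : w ∈ Sec B) :
    IsDn A (h.hd u w) where
  sm := h.hd_smAt hu hw
  tr i j x hx := by
    unfold hd
    rw [hu.2.2 i j x hx, hw.2.2 i j x hx, Matrix.star_mulVec, Matrix.mulVec_mulVec,
      Matrix.dotProduct_mulVec (Matrix.vecMul (star (u j x)) (B.τ i j x)ᴴ), Matrix.vecMul_vecMul,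
      ← Matrix.mul_assoc, ← Matrix.dotProduct_mulVec, h.tr i j x hx, Matrix.smul_mulVec,
      dotProduct_smul, smul_eq_mul]

theorem hd_self_nonneg (u : A.ι → M → B.κ → ℂ) {i : A.ι} {x : M} (hx : x ∈ (A.e i).source) :
    0 ≤ h.hd u u i x := (h.psd i x hx).dotProduct_mulVec_nonneg _

theorem hd_conj (u w : A.ι → M → B.κ → ℂ) {i : A.ι} {x : M} (hx : x ∈ (A.e i).source) :
    conj (h.hd u w i x) = h.hd w u i x := by
  unfold hd
  rw [← Complex.star_def, ← Matrix.star_dotProduct, Matrix.star_mulVec, (h.psd i x hx).1.eq,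
    ← Matrix.dotProduct_mulVec]

variable [T2Space M] [Finite A.ι] (P : Part A)

/-- the inner product `∫ star u · H w` -/
def ip (u w : A.ι → M → B.κ → ℂ) : ℂ := IntP P (h.hd u w)

theorem ip_conj (u w : A.ι → M → B.κ → ℂ) : conj (h.ip P u w) = h.ip P w u := by
  unfold ip
  rw [← IntP_conj]
  exact IntP_congr P fun i x hx => h.hd_conj u w hx

theorem ip_add_left (u u' w : Sec B) :
    h.ip P (u.1 + u'.1) w.1 = h.ip P u.1 w.1 + h.ip P u'.1 w.1 := by
  unfold ip
  rw [← IntP_add P (h.hd_smAt u.2 w.2) (h.hd_smAt u'.2 w.2)]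
  congr 1
  funext i x
  simp only [hd, Pi.add_apply, star_add, add_dotProduct]

theorem ip_smul_left (c : ℂ) (u w : A.ι → M → B.κ → ℂ) :
    h.ip P (c • u) w = conj c * h.ip P u w := by
  unfold ip
  rw [← IntP_const_mul]
  congr 1
  funext i x
  simp only [hd, Pi.smul_apply, star_smul, smul_dotProduct, smul_eq_mul, Complex.star_def]

theorem ip_add_right (u w w' : Sec B) :
    h.ip P u.1 (w.1 + w'.1) = h.ip P u.1 w.1 + h.ip P u.1 w'.1 := by
  unfold ip
  rw [← IntP_add P (h.hd_smAt u.2 w.2) (h.hd_smAt u.2 w'.2)]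
  congr 1
  funext i x
  simp only [hd, Pi.add_apply, Matrix.mulVec_add, dotProduct_add]

theorem ip_smul_right (c : ℂ) (u w : A.ι → M → B.κ → ℂ) :
    h.ip P u (c • w) = c * h.ip P u w := by
  unfold ip
  rw [← IntP_const_mul]
  congr 1
  funext i x
  simp only [hd, Pi.smul_apply, Matrix.mulVec_smul, dotProduct_smul, smul_eq_mul]

theorem ip_self_im (u : A.ι → M → B.κ → ℂ) : (h.ip P u u).im = 0 :=
  Complex.conj_eq_iff_im.1 (h.ip_conj P u u)

theorem ip_self_nonneg (u : Sec B) : 0 ≤ (h.ip P u.1 u.1).re :=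
  IntP_re_nonneg P (h.isDn u.2 u.2) fun _ _ hx => (Complex.le_def.1 (h.hd_self_nonneg u.1 hx)).1

/-- vanishing of the seminorm -/
theorem hd_eq_zero (u : Sec B) (h0 : (h.ip P u.1 u.1).re = 0) {i : A.ι} {x : M}
    (hx : x ∈ (A.e i).source) : h.hd u.1 u.1 i x = 0 := by
  have h1 := IntP_eq_zero P (h.isDn u.2 u.2)
    (fun i x hx => (Complex.le_def.1 (h.hd_self_nonneg u.1 hx)).1) h0 i x hx
  have h2 := (Complex.le_def.1 (h.hd_self_nonneg u.1 hx)).2
  exact Complex.ext h1 h2.symm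

/-- a semidefinite density: the null vectors -/
theorem mulVec_eq_zero (u : Sec B) (h0 : (h.ip P u.1 u.1).re = 0) {i : A.ι} {x : M}
    (hx : x ∈ (A.e i).source) : h.H i x *ᵥ u.1 i x = 0 :=
  ((h.psd i x hx).dotProduct_mulVec_zero_iff _).1 (h.hd_eq_zero P u h0 hx)

theorem eq_zero_of_pos (hp : h.Pos) (u : Sec B) (h0 : (h.ip P u.1 u.1).re = 0) : u = 0 := by
  apply Subtype.ext
  funext i x
  by_cases hx : x ∈ (A.e i).source
  · have h1 := h.hd_eq_zero P u h0 hx
    by_contra hne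
    have h2 := (hp i x hx).dotProduct_mulVec_pos (x := u.1 i x) hne
    unfold hd at h1
    rw [h1] at h2
    exact lt_irrefl _ h2
  · exact u.2.2.1 i x hx

/-- the inner product space core -/
@[reducible] def core (hp : h.Pos) : InnerProductSpace.Core ℂ (Sec B) where
  inner u w := h.ip P u.1 w.1
  conj_inner_symm u w := h.ip_conj P w.1 u.1
  re_inner_nonneg u := h.ip_self_nonneg P u
  add_left u u' w := h.ip_add_left P u u' w
  smul_left u w c := h.ip_smul_left P c u.1 w.1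
  definite u hu := h.eq_zero_of_pos P hp u (by
    have : h.ip P u.1 u.1 = 0 := hu
    rw [this]; rfl)

/-- the semi inner product core -/
@[reducible] def preCore : PreInnerProductSpace.Core ℂ (Sec B) where
  inner u w := h.ip P u.1 w.1
  conj_inner_symm u w := h.ip_conj P w.1 u.1
  re_inner_nonneg u := h.ip_self_nonneg P u
  add_left u u' w := h.ip_add_left P u u' w
  smul_left u w c := h.ip_smul_left P c u.1 w.1

/-- the seminorm of a Hermitian density -/
def sn (u : Sec B) : ℝ := Real.sqrt (h.ip P u.1 u.1).re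

theorem sn_nonneg (u : Sec B) : 0 ≤ h.sn P u := Real.sqrt_nonneg _

theorem sn_sq (u : Sec B) : h.sn P u ^ 2 = (h.ip P u.1 u.1).re :=
  Real.sq_sqrt (h.ip_self_nonneg P u)

theorem sn_add_le (u w : Sec B) : h.sn P (u + w) ≤ h.sn P u + h.sn P w := by
  letI : PreInnerProductSpace.Core ℂ (Sec B) := h.preCore P
  letI : SeminormedAddCommGroup (Sec B) :=
    InnerProductSpace.Core.toSeminormedAddCommGroup (𝕜 := ℂ) (F := Sec B)
  exact norm_add_le u w

theorem sn_sub_le (u w : Sec B) : h.sn P (u - w) ≤ h.sn P u + h.sn P w := by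
  letI : PreInnerProductSpace.Core ℂ (Sec B) := h.preCore P
  letI : SeminormedAddCommGroup (Sec B) :=
    InnerProductSpace.Core.toSeminormedAddCommGroup (𝕜 := ℂ) (F := Sec B)
  exact norm_sub_le u w

/-- Cauchy–Schwarz -/
theorem norm_ip_le (u w : Sec B) : ‖h.ip P u.1 w.1‖ ≤ h.sn P u * h.sn P w := by
  letI : PreInnerProductSpace.Core ℂ (Sec B) := h.preCore P
  exact InnerProductSpace.Core.norm_inner_le_norm (𝕜 := ℂ) (F := Sec B) u w

end HDen

section comparison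

variable {B : FBun A} [T2Space M] [Finite A.ι] (P : Part A)

/-- the local `L²` norm -/
def aN (u : Sec B) (i : A.ι) : ℝ := ∑ k, nrm 0 (loc A i (P.psi B.κ i) (u.1 i) k) ^ 2

theorem aN_nonneg (u : Sec B) (i : A.ι) : 0 ≤ aN P u i := Finset.sum_nonneg fun _ _ => sq_nonneg _

theorem aN_smooth (u : Sec B) (i : A.ι) :
    A.SmAt i (fun x => (P.ψ i x : ℂ) * ((P.ψ i x : ℂ) * ∑ k, conj (u.1 i x k) * u.1 i x k)) := by
  refine smAt_mul (smAt_ofReal (P.ψ_sm i i)) (smAt_mul (smAt_ofReal (P.ψ_sm i i)) ?_)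
  refine smAt_sum _ fun k _ => smAt_mul ?_ (u.2.1 i k)
  exact Complex.conjCLE.contDiff.comp_contDiffOn (u.2.1 i k)

theorem aN_eq (u : Sec B) (i : A.ι) :
    aN P u i = (lint A i (fun x => (P.ψ i x : ℂ) *
      ((P.ψ i x : ℂ) * ∑ k, conj (u.1 i x k) * u.1 i x k))).re := by
  have hcc := cc_psi P (i := i) (f := fun x => (P.ψ i x : ℂ) * ∑ k, conj (u.1 i x k) * u.1 i x k)
    (smAt_mul (smAt_ofReal (P.ψ_sm i i)) (smAt_sum _ fun k _ => smAt_mul
      (Complex.conjCLE.contDiff.comp_contDiffOn (u.2.1 i k)) (u.2.1 i k)))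
  rw [lint_re i hcc.integrable]
  unfold aN
  have h1 : ∀ k, nrm 0 (loc A i (P.psi B.κ i) (u.1 i) k) ^ 2 =
      ∫ x, ‖rd A i (fun x => (P.psi B.κ i x *ᵥ u.1 i x) k) x‖ ^ 2 := by
    intro k
    rw [nrm_zero_sq, loc_eq ((P.amp_psi B.κ).amp i) (u.2.1 i), l2_perz]
  simp only [h1]
  rw [← integral_finsetSum]
  · refine integral_congr_ae (Eventually.of_forall fun x => ?_)
    show ∑ k, ‖rd A i _ x‖ ^ 2 = (rd A i _ x).re
    by_cases hx : x ∈ Ui A i
    · simp only [C1d194.rd_of_mem hx]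
      rw [← mul_assoc, Finset.mul_sum, Complex.re_sum]
      refine Finset.sum_congr rfl fun k _ => ?_
      have h2 : (P.psi B.κ i ((A.e i).symm (cc x)) *ᵥ u.1 i ((A.e i).symm (cc x))) k =
          (P.ψ i ((A.e i).symm (cc x)) : ℂ) * u.1 i ((A.e i).symm (cc x)) k := by
        simp [Part.psi, Matrix.smul_mulVec]
      rw [h2, Complex.conj_mul', ← Complex.ofReal_mul, ← Complex.ofReal_pow, ← Complex.ofReal_mul,
        Complex.ofReal_re, norm_mul, mul_pow, Complex.norm_real, Real.norm_eq_abs, sq_abs]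
      ring
    · simp [C1d194.rd_off hx]
  · intro k _
    have h3 := amp_isCC ((P.amp_psi B.κ).amp i) (u.2.1 i) k
    have h4 : Continuous (fun x => ‖rd A i (fun x => (P.psi B.κ i x *ᵥ u.1 i x) k) x‖ ^ 2) :=
      (h3.smooth.continuous.norm).pow 2
    refine h4.integrable_of_hasCompactSupport ?_
    exact h3.hasCompactSupport.comp_left (g := fun y : ℂ => ‖y‖ ^ 2) (by simp)

theorem aN_le_nS (u : Sec B) (i : A.ι) : aN P u i ≤ nS P B 0 u ^ 2 := by
  have h1 : aN P u i ≤ (∑ k, nrm 0 (loc A i (P.psi B.κ i) (u.1 i) k)) ^ 2 := by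
    unfold aN
    rw [sq, Finset.sum_mul]
    refine Finset.sum_le_sum fun k _ => ?_
    rw [sq]
    exact mul_le_mul_of_nonneg_left (Finset.single_le_sum
      (f := fun k => nrm 0 (loc A i (P.psi B.κ i) (u.1 i) k)) (fun _ _ => nrm_nonneg _ _)
      (Finset.mem_univ k)) (nrm_nonneg _ _)
  refine h1.trans ?_
  refine pow_le_pow_left₀ (Finset.sum_nonneg fun _ _ => nrm_nonneg _ _) ?_ 2
  exact nv_le_nF 0 (LocF B (P.psi B.κ) u.1) i

theorem nS_le_aN [Fintype A.ι] (u : Sec B) :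
    nS P B 0 u ≤ (Fintype.card B.κ : ℝ) * ∑ i, Real.sqrt (aN P u i) := by
  rw [nS_eq, Finset.mul_sum]
  refine Finset.sum_le_sum fun i _ => ?_
  have h1 : ∀ k, nrm 0 (loc A i (P.psi B.κ i) (u.1 i) k) ≤ Real.sqrt (aN P u i) := by
    intro k
    refine Real.le_sqrt_of_sq_le ?_
    exact Finset.single_le_sum (f := fun k => nrm 0 (loc A i (P.psi B.κ i) (u.1 i) k) ^ 2)
      (fun _ _ => sq_nonneg _) (Finset.mem_univ k)
  refine (Finset.sum_le_sum fun k _ => h1 k).trans ?_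
  rw [Finset.sum_const, Finset.card_univ, nsmul_eq_mul]

theorem one_le_sqP [Fintype A.ι] (x : M) : 1 ≤ (Fintype.card A.ι : ℝ) * sqP P x := by
  have h1 := sq_sum_le_card_mul_sum_sq (s := (Finset.univ : Finset A.ι)) (f := fun i => P.ψ i x)
  rw [sum_psi_fin, one_pow, ← sqP_eq] at h1
  simpa using h1

theorem sqP_le [CompactSpace M] : ∃ C, 0 ≤ C ∧ ∀ x, sqP P x ≤ C := by
  obtain ⟨C, hC⟩ := (isCompact_univ : IsCompact (univ : Set M)).exists_bound_of_continuousOn
    (continuous_of_sm (sqP_sm P)).continuousOn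
  refine ⟨|C|, abs_nonneg _, fun x => ?_⟩
  have := hC x (mem_univ x)
  rw [Real.norm_eq_abs] at this
  exact (le_abs_self _).trans (this.trans (le_abs_self _))

theorem ip_re_eq [Fintype A.ι] (h : HDen B) (u : Sec B) :
    (h.ip P u.1 u.1).re = ∑ j, (lint A j (fun x => (th P j x : ℂ) * h.hd u.1 u.1 j x)).re := by
  unfold HDen.ip
  rw [IntP_eq_th P (h.isDn u.2 u.2), Complex.re_sum]

theorem nsq_eq_re {κ : Type} [Fintype κ] (v : κ → ℂ) : (∑ k, conj (v k) * v k).re = nsq v := by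
  rw [Complex.re_sum]
  refine Finset.sum_congr rfl fun k _ => ?_
  rw [Complex.conj_mul', ← Complex.ofReal_pow, Complex.ofReal_re]

theorem nsq_eq_im {κ : Type} [Fintype κ] (v : κ → ℂ) :
    ∑ k, conj (v k) * v k = ((nsq v : ℝ) : ℂ) := by
  unfold nsq
  rw [Complex.ofReal_sum]
  refine Finset.sum_congr rfl fun k _ => ?_
  rw [Complex.conj_mul', ← Complex.ofReal_pow]

/-- **upper comparison** (semidefinite case) -/
theorem HDen.le_nS (h : HDen B) :
    ∃ C, 0 ≤ C ∧ ∀ u : Sec B, (h.ip P u.1 u.1).re ≤ (C * nS P B 0 u) ^ 2 := by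
  have := Fintype.ofFinite A.ι
  have h1 : ∀ j, ∃ C, 0 ≤ C ∧ ∀ x ∈ tsupport (P.χ j), ∀ v : B.κ → ℂ,
      (star v ⬝ᵥ (h.H j x *ᵥ v)).re ≤ C * nsq v := fun j =>
    exists_upper (P.χ_cpt j) fun k l =>
      (continuousOn_of_smAt (h.sm j k l)).mono (P.χ_sub j)
  choose C hC0 hC using h1
  have h2 : ∀ j, ∀ u : Sec B, (lint A j (fun x => (th P j x : ℂ) * h.hd u.1 u.1 j x)).re ≤
      ((Fintype.card A.ι : ℝ) * C j) * aN P u j := by
    intro j u
    have e1 : ((Fintype.card A.ι : ℝ) * C j) * aN P u j =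
        (lint A j (fun x => (((Fintype.card A.ι : ℝ) * C j : ℝ) : ℂ) * ((P.ψ j x : ℂ) *
          ((P.ψ j x : ℂ) * ∑ k, conj (u.1 j x k) * u.1 j x k)))).re := by
      rw [lint_smul, Complex.re_ofReal_mul, aN_eq]
    rw [e1]
    have hcc : CC A j (fun x => (((Fintype.card A.ι : ℝ) * C j : ℝ) : ℂ) * ((P.ψ j x : ℂ) *
          ((P.ψ j x : ℂ) * ∑ k, conj (u.1 j x k) * u.1 j x k))) :=
      cc_psi_mul P (smAt_const j _) (smAt_mul (smAt_ofReal (P.ψ_sm j j)) (smAt_sum _ fun k _ =>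
        smAt_mul (Complex.conjCLE.contDiff.comp_contDiffOn (u.2.1 j k)) (u.2.1 j k)))
    refine lint_re_mono j (cc_th P (h.hd_smAt u.2 u.2 j)).integrable hcc.integrable fun x hx => ?_
    rw [Complex.re_ofReal_mul, Complex.re_ofReal_mul, nsq_eq_im, ← Complex.ofReal_mul,
      ← Complex.ofReal_mul, Complex.ofReal_re]
    by_cases hχ : x ∈ tsupport (P.χ j)
    · have h3 := hC j x hχ (u.1 j x)
      have h4 : th P j x ≤ (Fintype.card A.ι : ℝ) * (P.ψ j x ^ 2) := by
        unfold th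
        rw [div_le_iff₀ (sqP_pos P x)]
        have h5 := one_le_sqP P x
        nlinarith [sq_nonneg (P.ψ j x)]
      calc th P j x * (h.hd u.1 u.1 j x).re ≤ th P j x * (C j * nsq (u.1 j x)) :=
            mul_le_mul_of_nonneg_left h3 (th_nonneg P j x)
        _ ≤ ((Fintype.card A.ι : ℝ) * (P.ψ j x ^ 2)) * (C j * nsq (u.1 j x)) :=
            mul_le_mul_of_nonneg_right h4 (mul_nonneg (hC0 j) (nsq_nonneg _))
        _ = _ := by ring
    · have h3 : P.ψ j x = 0 := image_eq_zero_of_notMem_tsupport fun h' =>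
        hχ (tsupport_psi P j h')
      unfold th
      rw [h3]
      simp
  refine ⟨Real.sqrt (∑ j, (Fintype.card A.ι : ℝ) * C j), Real.sqrt_nonneg _, fun u => ?_⟩
  have hS : 0 ≤ ∑ j, (Fintype.card A.ι : ℝ) * C j :=
    Finset.sum_nonneg fun j _ => mul_nonneg (Nat.cast_nonneg _) (hC0 j)
  rw [ip_re_eq, mul_pow, Real.sq_sqrt hS, Finset.sum_mul]
  refine Finset.sum_le_sum fun j _ => (h2 j u).trans ?_
  exact mul_le_mul_of_nonneg_left (aN_le_nS P u j) (mul_nonneg (Nat.cast_nonneg _) (hC0 j))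

/-- **lower comparison** (definite case) -/
theorem HDen.nS_le [CompactSpace M] (h : HDen B) (hp : h.Pos) :
    ∃ C, 0 ≤ C ∧ ∀ u : Sec B, nS P B 0 u ≤ C * Real.sqrt (h.ip P u.1 u.1).re := by
  have := Fintype.ofFinite A.ι
  have h1 : ∀ j, ∃ c, 0 < c ∧ ∀ x ∈ tsupport (P.χ j), ∀ v : B.κ → ℂ,
      c * nsq v ≤ (star v ⬝ᵥ (h.H j x *ᵥ v)).re := fun j =>
    exists_lower (P.χ_cpt j) (fun k l =>
      (continuousOn_of_smAt (h.sm j k l)).mono (P.χ_sub j)) fun x hx => hp j x (P.χ_sub j hx)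
  choose c hc0 hc using h1
  obtain ⟨S, hS0, hS⟩ := sqP_le P
  have h2 : ∀ j, ∀ u : Sec B, c j * aN P u j ≤
      S * (lint A j (fun x => (th P j x : ℂ) * h.hd u.1 u.1 j x)).re := by
    intro j u
    have e1 : c j * aN P u j =
        (lint A j (fun x => ((c j : ℝ) : ℂ) * ((P.ψ j x : ℂ) *
          ((P.ψ j x : ℂ) * ∑ k, conj (u.1 j x k) * u.1 j x k)))).re := by
      rw [lint_smul, Complex.re_ofReal_mul, aN_eq]
    have e2 : S * (lint A j (fun x => (th P j x : ℂ) * h.hd u.1 u.1 j x)).re =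
        (lint A j (fun x => (S : ℂ) * ((th P j x : ℂ) * h.hd u.1 u.1 j x))).re := by
      rw [lint_smul, Complex.re_ofReal_mul]
    rw [e1, e2]
    have hcc : CC A j (fun x => ((c j : ℝ) : ℂ) * ((P.ψ j x : ℂ) *
          ((P.ψ j x : ℂ) * ∑ k, conj (u.1 j x k) * u.1 j x k))) :=
      cc_psi_mul P (smAt_const j _) (smAt_mul (smAt_ofReal (P.ψ_sm j j)) (smAt_sum _ fun k _ =>
        smAt_mul (Complex.conjCLE.contDiff.comp_contDiffOn (u.2.1 j k)) (u.2.1 j k)))
    have hcc2 : CC A j (fun x => (S : ℂ) * ((th P j x : ℂ) * h.hd u.1 u.1 j x)) := by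
      have := cc_th P (j := j) (smAt_mul (smAt_const j (S : ℂ)) (h.hd_smAt u.2 u.2 j))
      have e : (fun x => (S : ℂ) * ((th P j x : ℂ) * h.hd u.1 u.1 j x)) =
          fun x => (th P j x : ℂ) * ((S : ℂ) * h.hd u.1 u.1 j x) := by
        funext x; ring
      rw [e]; exact this
    refine lint_re_mono j hcc.integrable hcc2.integrable fun x hx => ?_
    rw [nsq_eq_im, ← Complex.ofReal_mul, ← Complex.ofReal_mul, ← Complex.ofReal_mul,
      Complex.ofReal_re, Complex.re_ofReal_mul, Complex.re_ofReal_mul]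
    by_cases hχ : x ∈ tsupport (P.χ j)
    · have h3 := hc j x hχ (u.1 j x)
      have h0 : 0 ≤ (h.hd u.1 u.1 j x).re := (Complex.le_def.1 (h.hd_self_nonneg u.1 hx)).1
      have h4 : P.ψ j x ^ 2 ≤ S * th P j x := by
        unfold th
        rw [mul_div_assoc', le_div_iff₀ (sqP_pos P x)]
        rw [mul_comm]
        exact mul_le_mul_of_nonneg_right (hS x) (sq_nonneg _)
      calc c j * (P.ψ j x * (P.ψ j x * nsq (u.1 j x)))
          = P.ψ j x ^ 2 * (c j * nsq (u.1 j x)) := by ring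
        _ ≤ P.ψ j x ^ 2 * (h.hd u.1 u.1 j x).re := mul_le_mul_of_nonneg_left h3 (sq_nonneg _)
        _ ≤ (S * th P j x) * (h.hd u.1 u.1 j x).re := mul_le_mul_of_nonneg_right h4 h0
        _ = _ := by ring
    · have h3 : P.ψ j x = 0 := image_eq_zero_of_notMem_tsupport fun h' =>
        hχ (tsupport_psi P j h')
      unfold th
      rw [h3]
      simp
  refine ⟨(Fintype.card B.κ : ℝ) * ∑ i, Real.sqrt (S / c i), mul_nonneg (Nat.cast_nonneg _)
    (Finset.sum_nonneg fun _ _ => Real.sqrt_nonneg _), fun u => ?_⟩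
  refine (nS_le_aN P u).trans ?_
  rw [mul_assoc]
  refine mul_le_mul_of_nonneg_left ?_ (Nat.cast_nonneg _)
  rw [Finset.sum_mul]
  refine Finset.sum_le_sum fun i _ => ?_
  rw [← Real.sqrt_mul (div_nonneg hS0 (hc0 i).le)]
  refine Real.sqrt_le_sqrt ?_
  have h3 := h2 i u
  have h4 : (lint A i (fun x => (th P i x : ℂ) * h.hd u.1 u.1 i x)).re ≤ (h.ip P u.1 u.1).re := by
    rw [ip_re_eq]
    refine Finset.single_le_sum (f := fun j =>
      (lint A j (fun x => (th P j x : ℂ) * h.hd u.1 u.1 j x)).re) (fun j _ => ?_)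
      (Finset.mem_univ i)
    refine lint_re_nonneg j (cc_th P (h.hd_smAt u.2 u.2 j)).integrable fun x hx => ?_
    rw [Complex.re_ofReal_mul]
    exact mul_nonneg (th_nonneg P j x) (Complex.le_def.1 (h.hd_self_nonneg u.1 hx)).1
  rw [div_mul_eq_mul_div, le_div_iff₀ (hc0 i), mul_comm]
  exact h3.trans (mul_le_mul_of_nonneg_left h4 hS0)

/-- the seminorm is bounded by `nS` -/
theorem HDen.sn_le_nS (h : HDen B) :
    ∃ C, 0 ≤ C ∧ ∀ u : Sec B, h.sn P u ≤ C * nS P B 0 u := by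
  obtain ⟨C, hC0, hC⟩ := h.le_nS P
  refine ⟨C, hC0, fun u => ?_⟩
  unfold HDen.sn
  rw [Real.sqrt_le_left (mul_nonneg hC0 (nS_nonneg P B 0 u))]
  exact hC u

/-- the norm of a positive density bounds `nS` -/
theorem HDen.nS_le_sn [CompactSpace M] (h : HDen B) (hp : h.Pos) :
    ∃ C, 0 ≤ C ∧ ∀ u : Sec B, nS P B 0 u ≤ C * h.sn P u := h.nS_le P hp

/-- a semidefinite seminorm passes to `L²` limits -/
theorem HDen.sn_limit (h : HDen B) {v : ℕ → Sec B} {w : Sec B}
    (hv : Tendsto (fun m => nS P B 0 (v m - w)) atTop (𝓝 0))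
    (h0 : Tendsto (fun m => h.sn P (v m)) atTop (𝓝 0)) : h.sn P w = 0 := by
  obtain ⟨C, hC0, hC⟩ := h.sn_le_nS P
  have h1 := h0.add (hv.const_mul C)
  rw [mul_zero, add_zero] at h1
  refine le_antisymm (ge_of_tendsto' h1 fun m => ?_) (h.sn_nonneg P w)
  have h2 : w = v m - (v m - w) := by abel
  conv_lhs => rw [h2]
  exact (h.sn_sub_le P _ _).trans (add_le_add le_rfl (hC _))

/-- pairing with a fixed section is continuous -/
theorem HDen.tendsto_ip (h : HDen B) {v : ℕ → Sec B} {w : Sec B}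
    (hv : Tendsto (fun m => nS P B 0 (v m - w)) atTop (𝓝 0)) (u : Sec B) :
    Tendsto (fun m => h.ip P u.1 (v m).1) atTop (𝓝 (h.ip P u.1 w.1)) := by
  obtain ⟨C, hC0, hC⟩ := h.sn_le_nS P
  rw [tendsto_iff_norm_sub_tendsto_zero]
  have h1 := hv.const_mul (h.sn P u * C)
  rw [mul_zero] at h1
  refine squeeze_zero (fun _ => norm_nonneg _) (fun m => ?_) h1
  have h2 : h.ip P u.1 (v m).1 - h.ip P u.1 w.1 = h.ip P u.1 (v m - w).1 := by
    have h3 := h.ip_add_right P u (v m - w) w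
    have h4 : (v m - w).1 + w.1 = (v m).1 := by
      rw [Submodule.coe_sub]; abel
    rw [h4] at h3
    rw [h3]; ring
  rw [h2, mul_assoc]
  exact (h.norm_ip_le P u _).trans (mul_le_mul_of_nonneg_left (hC _) (h.sn_nonneg P u))

end comparison

end

end Crest.Agent.R273.NormC_505
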