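import Crest.Agent.R273.AbsStep_392
import Crest.Agent.R275.SerH_398

/-!
# R273, D.13 (helper505), abstract part: Hodge existence without Laplacian

* `hodge_abs` : from the data of D.11 (`AbsStep392.exists_seq_core`), the limit property `LIM`
  (BKN + ellipticity in degree 0) and the duality criterion `EX`, every closed `z` is
  `u + d y` with `u` satisfying `Q` ("null holomorphic").
* `finrank_abs` : dimension count.
-/

set_option autoImplicit false
set_option linter.style.haveILetI false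

open Filter Topology

namespace Crest.Agent.R273.ThmD2A_505

open AbsStep392

/-! ### facts on `Core` norms -/

section core

variable {S : Type*} [AddCommGroup S] [Module ℂ S] (c : InnerProductSpace.Core ℂ S)

theorem nrm_nonneg (u : S) : 0 ≤ nrm c u := Real.sqrt_nonneg _

theorem norm_inner_le (u w : S) : ‖c.inner u w‖ ≤ nrm c u * nrm c w := by
  letI : NormedAddCommGroup S := c.toNormedAddCommGroup
  letI : InnerProductSpace ℂ S := .ofCore c.toCore
  exact norm_inner_le_norm (𝕜 := ℂ) u w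

theorem nrm_add_le (u w : S) : nrm c (u + w) ≤ nrm c u + nrm c w := by
  letI : NormedAddCommGroup S := c.toNormedAddCommGroup
  letI : InnerProductSpace ℂ S := .ofCore c.toCore
  exact norm_add_le u w

theorem nrm_sub_le (u w : S) : nrm c (u - w) ≤ nrm c u + nrm c w := by
  letI : NormedAddCommGroup S := c.toNormedAddCommGroup
  letI : InnerProductSpace ℂ S := .ofCore c.toCore
  exact norm_sub_le u w

theorem nrm_sub_rev (u w : S) : nrm c (u - w) = nrm c (w - u) := by
  letI : NormedAddCommGroup S := c.toNormedAddCommGroup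
  letI : InnerProductSpace ℂ S := .ofCore c.toCore
  exact norm_sub_rev u w

theorem nrm_smul (a : ℂ) (u : S) : nrm c (a • u) = ‖a‖ * nrm c u := by
  letI : NormedAddCommGroup S := c.toNormedAddCommGroup
  letI : InnerProductSpace ℂ S := .ofCore c.toCore
  exact norm_smul a u

theorem nrm_zero : nrm c (0 : S) = 0 := by
  letI : NormedAddCommGroup S := c.toNormedAddCommGroup
  letI : InnerProductSpace ℂ S := .ofCore c.toCore
  exact norm_zero (E := S)

theorem eq_zero_of_nrm (u : S) (h : nrm c u = 0) : u = 0 := by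
  letI : NormedAddCommGroup S := c.toNormedAddCommGroup
  letI : InnerProductSpace ℂ S := .ofCore c.toCore
  exact norm_eq_zero.1 h

/-- `⟪w, u_N⟫ → ⟪w, u⟫` if `‖u_N - u‖ → 0` -/
theorem tendsto_inner {u : ℕ → S} {v : S} (h : Tendsto (fun N => nrm c (u N - v)) atTop (𝓝 0))
    (w : S) : Tendsto (fun N => c.inner w (u N)) atTop (𝓝 (c.inner w v)) := by
  letI : NormedAddCommGroup S := c.toNormedAddCommGroup
  letI : InnerProductSpace ℂ S := .ofCore c.toCore
  have h1 : Tendsto u atTop (𝓝 v) := tendsto_iff_norm_sub_tendsto_zero.2 h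
  exact tendsto_const_nhds.inner h1

end core

/-- **Hodge existence, abstract form.** -/
theorem hodge_abs {S : Type*} [AddCommGroup S] [Module ℂ S] (c : InnerProductSpace.Core ℂ S)
    (d ds : S →ₗ[ℂ] S) (hadj : ∀ u w, c.inner (d u) w = c.inner u (ds w))
    (hdd : ∀ u, d (d u) = 0) (J : ℕ → S →ₗ[ℂ] S) (C : ℝ)
    (F1b : ∀ N u, nrm c (J N u) ≤ C * nrm c u)
    (F1 : ∀ u, Tendsto (fun N => nrm c (J N u - u)) atTop (𝓝 0))
    (F2b : ∀ N u, nrm c (d (J N u) - J N (d u)) ≤ C * nrm c u)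
    (F2 : ∀ u, Tendsto (fun N => nrm c (d (J N u) - J N (d u))) atTop (𝓝 0))
    (F2sb : ∀ N u, nrm c (ds (J N u) - J N (ds u)) ≤ C * nrm c u)
    (F2s : ∀ u, Tendsto (fun N => nrm c (ds (J N u) - J N (ds u))) atTop (𝓝 0))
    (F3 : ∀ N, ∃ (m : ℕ) (s e : Fin m → S), ∀ v, J N v = ∑ k, c.inner (s k) v • e k)
    (Q : S → Prop) (hQd : ∀ u, Q u → d u = 0)
    (LIM : ∀ u : ℕ → S, (∀ ε > 0, ∃ N, ∀ m ≥ N, ∀ n ≥ N, nrm c (u m - u n) < ε) →
      Tendsto (fun N => nrm c (d (u N))) atTop (𝓝 0) →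
      Tendsto (fun N => nrm c (ds (u N))) atTop (𝓝 0) →
      ∃ v, Q v ∧ Tendsto (fun N => nrm c (u N - v)) atTop (𝓝 0))
    (EX : ∀ z, d z = 0 → (∀ w, ds w = 0 → c.inner w z = 0) → ∃ y, d y = z)
    (z : S) (hz : d z = 0) : ∃ u, Q u ∧ ∃ y, d y = z - u := by
  obtain ⟨y, b, -, hb, -, -, h1, h2, h3, -⟩ :=
    exists_seq_core c c c d d ds hadj hdd J J J C F1b F1 F2b F2 F2sb F2s F3 z hz
  obtain ⟨u, hQ, hu⟩ := LIM b hb h1 h2
  refine ⟨u, hQ, EX _ (by rw [map_sub, hz, hQd u hQ, sub_zero]) fun w hw => ?_⟩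
  have h4 := h3 w hw
  have h5 := tendsto_inner c hu w
  have h6 := tendsto_nhds_unique h4 h5
  have h7 : c.inner w (z - u) = c.inner w z - c.inner w u := by
    letI : NormedAddCommGroup S := c.toNormedAddCommGroup
    letI : InnerProductSpace ℂ S := .ofCore c.toCore
    exact inner_sub_right (𝕜 := ℂ) w z u
  rw [h7, h6, sub_self]

open R275.SerG398 in
/-- dimension count -/
theorem finrank_abs {K S V : Type*} [Field K] [AddCommGroup S] [Module K S] [AddCommGroup V]
    [Module K V] (Z B : Submodule K S) (f : V →ₗ[K] S) (h1 : ∀ v, f v ∈ Z)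
    (h2 : ∀ v, f v ∈ B → v = 0) (h3 : ∀ z ∈ Z, ∃ v, z - f v ∈ B) :
    Nonempty (V ≃ₗ[K] (Z ⧸ B.submoduleOf Z)) := by
  let F : V →ₗ[K] (Z ⧸ B.submoduleOf Z) := (B.submoduleOf Z).mkQ ∘ₗ f.codRestrict Z h1
  refine ⟨LinearEquiv.ofBijective F ⟨?_, ?_⟩⟩
  · rw [injective_iff_map_eq_zero]
    intro v hv
    apply h2
    have : f.codRestrict Z h1 v ∈ B.submoduleOf Z := by
      rw [← Submodule.Quotient.mk_eq_zero]
      exact hv
    exact this
  · intro q
    obtain ⟨z, rfl⟩ := Submodule.Quotient.mk_surjective _ q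
    obtain ⟨v, hv⟩ := h3 z z.2
    refine ⟨v, ?_⟩
    show Submodule.Quotient.mk (f.codRestrict Z h1 v) = Submodule.Quotient.mk z
    symm
    rw [Submodule.Quotient.eq]
    exact hv

open R275.SerG398 in
theorem finrank_abs' {K S V : Type*} [Field K] [AddCommGroup S] [Module K S] [AddCommGroup V]
    [Module K V] (Z B : Submodule K S) (hfin : FinS Z B) (f : V →ₗ[K] S) (h1 : ∀ v, f v ∈ Z)
    (h2 : ∀ v, f v ∈ B → v = 0) (h3 : ∀ z ∈ Z, ∃ v, z - f v ∈ B) :
    FiniteDimensional K V ∧ Module.finrank K V = fr Z B := by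
  obtain ⟨e⟩ := finrank_abs Z B f h1 h2 h3
  have : FiniteDimensional K (Z ⧸ B.submoduleOf Z) := hfin
  exact ⟨e.symm.finiteDimensional, e.finrank_eq⟩

end Crest.Agent.R273.ThmD2A_505
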