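import Crest.Agent.R273.MolJ_106
import Crest.Agent.R273.NormC_505
import Crest.Agent.R273.ThmD2A_505

/-!
# R273, leaf D.10 (helper106), part 3

* `IntP_loc`     : integral of a density supported in one chart;
* `rep`          : smooth representative of the functional `u ↦ fc (loc_j (ψ_j, u) l) k` for the
  inner product `h.ip P` of a positive Hermitian density `h : HDen B`;
* `JN_finite`    : (F3) `J_N v = ∑ α, ⟪s α, v⟫ • e α` (`α : Fin m`).
* `FOp.nab`      : `∇` as a first order operator;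
* `FOp.ofConj`   : `S' ∘ T ∘ S` for conjugate linear bundle maps `S`, `S'`;
* `FOp.ofLin`    : `S' ∘ T ∘ S` for linear bundle maps;
* `hodge_geo`    : 505's `hodge_abs` for the inner product of `h : HDen B`, with `J_N` filled in.
-/

set_option autoImplicit false
set_option linter.unusedSectionVars false
set_option linter.unusedSimpArgs false
set_option linter.unusedVariables false

open Set Filter Topology Complex MeasureTheory
open scoped ContDiff Matrix ComplexConjugate ComplexOrder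

namespace Crest.Agent.R273.Mol_106

open Crest.Agent.R275 Crest.Agent.R275.Geo Crest.Agent.R275.Tor812 Crest.Agent.R275.TorS666
  Crest.Agent.R275.C1d194 Crest.Agent.R275.C2812 Crest.Agent.R275.RetC666
  Crest.Agent.R275.Pai323
  Crest.Agent.R273.L2K_774 Crest.Agent.R273.TorM_106 Crest.Agent.R273.DnInt_505
  Crest.Agent.R273.NormC_505
open Crest.Agent.R275.SerG398 (lint dens DPair FPair)

noncomputable section

variable {n : ℕ} {M : Type} [TopologicalSpace M] {A : Atl n M}

/-! ### inverse matrices -/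

section inv

variable {X : Type*} [NormedAddCommGroup X] [NormedSpace ℝ X] {κ : Type} [Fintype κ]
  [DecidableEq κ] {K : X → Matrix κ κ ℂ} {U : Set X}

theorem contDiffOn_det (hK : ∀ a b, ContDiffOn ℝ ∞ (fun w => K w a b) U) :
    ContDiffOn ℝ ∞ (fun w => (K w).det) U := by
  have h : (fun w => (K w).det) = fun w => ∑ σ : Equiv.Perm κ,
      ((Equiv.Perm.sign σ : ℤ) : ℂ) * ∏ i, K w (σ i) i := by
    funext w
    rw [Matrix.det_apply']
  rw [h]
  refine ContDiffOn.sum fun σ _ => ?_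
  exact contDiffOn_const.mul (contDiffOn_prod fun i _ => hK _ _)

theorem contDiffOn_inv (hK : ∀ a b, ContDiffOn ℝ ∞ (fun w => K w a b) U)
    (hd : ∀ z ∈ U, (K z).det ≠ 0) (a b : κ) :
    ContDiffOn ℝ ∞ (fun w => (K w)⁻¹ a b) U := by
  have h : (fun w => (K w)⁻¹ a b) =
      fun w => ((K w).det)⁻¹ * ((K w).updateRow b (Pi.single a 1)).det := by
    funext w
    rw [Matrix.inv_def, Ring.inverse_eq_inv', Matrix.smul_apply, smul_eq_mul,
      Matrix.adjugate_apply]
  rw [h]
  refine ((contDiffOn_det hK).inv hd).mul (contDiffOn_det fun c d => ?_)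
  by_cases hc : c = b
  · subst hc
    simp only [Matrix.updateRow_self]
    exact contDiffOn_const
  · simp only [Matrix.updateRow_ne hc]
    exact hK c d

theorem smAt_inv {i : A.ι} {H : M → Matrix κ κ ℂ} (hH : ∀ a b, A.SmAt i (fun x => H x a b))
    (hd : ∀ x ∈ (A.e i).source, (H x).det ≠ 0) (a b : κ) : A.SmAt i (fun x => (H x)⁻¹ a b) :=
  contDiffOn_inv (K := fun z => H ((A.e i).symm z)) hH (fun z hz => hd _ ((A.e i).map_target hz))
    a b

end inv

/-! ### densities supported in one chart -/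

theorem IntP_loc [T2Space M] [Finite A.ι] (P : Part A) {f : A.ι → M → ℂ} (hf : IsDn A f)
    {j : A.ι} {K : Set M} (hK : IsCompact K) (hKs : K ⊆ (A.e j).source)
    (h0 : ∀ i, ∀ x ∈ (A.e i).source, x ∉ K → f i x = 0) : IntP P f = lint A j (f j) := by
  have := Fintype.ofFinite A.ι
  -- cut off outside of the chart
  classical
  set g : M → ℂ := fun x => if x ∈ (A.e j).source then f j x else 0 with hg
  have hg0 : ∀ x ∉ K, g x = 0 := by
    intro x hx
    by_cases hxj : x ∈ (A.e j).source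
    · rw [hg]; simp only [if_pos hxj]; exact h0 j x hxj hx
    · rw [hg]; simp only [if_neg hxj]
  have hgs : ∀ x ∈ (A.e j).source, g x = f j x := fun x hx => if_pos hx
  have hgsm : A.SmAt j g := by
    refine ContDiffOn.congr (hf.sm j) fun z hz => ?_
    exact hgs _ ((A.e j).map_target hz)
  have e1 : lint A j (f j) = lint A j g := lint_congr fun x hx => (hgs x hx).symm
  have hcc : ∀ i, CC A j (fun x => (P.ψ i x : ℂ) * g x) := fun i =>
    CC.of_zero_off (smAt_mul (smAt_ofReal (P.ψ_sm i j)) hgsm) hK hKs fun x hx => by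
      rw [hg0 x hx, mul_zero]
  have e2 : lint A j g = ∑ i, lint A j (fun x => (P.ψ i x : ℂ) * g x) := by
    rw [← lint_sum _ fun i _ => (hcc i).integrable]
    congr 1
    funext x
    rw [← Finset.sum_mul, ← Complex.ofReal_sum, sum_psi_fin, Complex.ofReal_one, one_mul]
  rw [e1, e2, IntP_eq]
  refine Finset.sum_congr rfl fun i _ => ?_
  have e3 : lint A i (fun x => (P.ψ i x : ℂ) * f i x) =
      lint A i (fun x => (P.ψ i x : ℂ) * (if x ∈ (A.e i).source then f i x else 0)) :=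
    lint_congr fun x hx => by rw [if_pos hx]
  rw [e3]
  refine lint_change (fun x hx => ?_) (fun x hx => ?_) fun x hx => ?_
  · by_cases hi : x ∈ (A.e i).source
    · rw [if_pos hi, h0 i x hi fun hxK => hx ⟨hi, hKs hxK⟩, mul_zero]
    · rw [if_neg hi, mul_zero]
  · by_cases hi : x ∈ (A.e i).source
    · rw [hg0 x fun hxK => hx ⟨hi, hKs hxK⟩, mul_zero]
    · rw [psi_off P hi]; simp
  · rw [if_pos hx.1, hgs x hx.2, hf.tr i j x hx]
    ring

/-! ### representatives of Fourier coefficients -/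

section rep

variable {B : FBun A} [T2Space M] [Finite A.ι] (P : Part A) (h : HDen B)

theorem conj_ch {d : Type} [Fintype d] (k : d → ℤ) (x : d → ℝ) : conj (ch k x) = ch (-k) x := by
  rw [ch_neg]
  have h1 : ‖ch k x‖ = 1 := by
    unfold ch
    rw [Complex.norm_exp]
    simp
  rw [Complex.inv_def, Complex.normSq_eq_norm_sq, h1]
  simp

/-- Fourier coefficients of a localisation as an integral -/
theorem fc_loc {j : A.ι} {κ₁ κ₂ : Type} [Fintype κ₂] {a : M → Matrix κ₁ κ₂ ℂ} (ha : IsAmp A j a)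
    {v : M → κ₂ → ℂ} (hv : ∀ l, A.SmAt j (fun x => v x l)) (l : κ₁) (k : RI n → ℤ) :
    fc (loc A j a v l) k = lint A j (fun x => ch (-k) (rc (A.e j x)) * (a x *ᵥ v x) l) := by
  have h1 : fc (loc A j a v l) k = SerG398.ip (chS (-k)) (loc A j a v l) := by
    have h2 := TorE812.ip_chS (loc A j a v l) (-k)
    rw [neg_neg] at h2
    rw [← h2, TorE812.ip_comm]
    rfl
  rw [h1, C1d194.loc_eq ha hv, SerG398.ip_perz]
  unfold SerG398.lint
  congr 1
  funext x
  by_cases hx : x ∈ Ui A j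
  · rw [C1d194.rd_of_mem hx, C1d194.rd_of_mem hx, (A.e j).right_inv hx, rc_cc]
    rfl
  · rw [C1d194.rd_off hx, C1d194.rd_off hx, mul_zero]

variable (hp : h.Pos)

include hp in
theorem amp_rep (j : A.ι) : IsAmp A j (fun x => P.psi B.κ j x * (h.H j x)⁻¹) :=
  isAmp_mul_right ((P.amp_psi B.κ).amp j) fun k l =>
    smAt_inv (h.sm j) (fun x hx => (hp j x hx).det_pos.ne') k l

open Classical in
/-- representative of the Fourier coefficient `fc (loc_j (ψ_j, ·) l) k` -/
def rep (j : A.ι) (l : B.κ) (k : RI n → ℤ) : Sec B :=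
  extS B j (amp_rep P h hp j) (Pi.single l (chS k))

open Classical in
theorem rep_coe (j : A.ι) (l : B.κ) (k : RI n → ℤ) :
    (rep P h hp j l k : A.ι → M → B.κ → ℂ) =
      ext B j (fun x => P.psi B.κ j x * (h.H j x)⁻¹) (Pi.single l (chS k)) := by
  unfold rep
  rw [extS_coe]

theorem ip_rep (j : A.ι) (l : B.κ) (k : RI n → ℤ) (v : Sec B) :
    h.ip P (rep P h hp j l k).1 v.1 = fc (loc A j (P.psi B.κ j) (v.1 j) l) k := by
  classical
  have ha := (P.amp_psi B.κ).amp j
  rw [fc_loc ha (v.2.1 j)]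
  unfold HDen.ip
  have hsrc : ∀ x ∈ (A.e j).source, (rep P h hp j l k).1 j x =
      (P.psi B.κ j x * (h.H j x)⁻¹) *ᵥ Pi.single l (ch k (rc (A.e j x))) := by
    intro x hx
    rw [rep_coe, ext_self B j hx]
    congr 1
    funext m
    by_cases hm : m = l
    · subst hm; simp only [Pi.single_eq_same]; rfl
    · simp only [Pi.single_eq_of_ne hm]; rfl
  have hoff : ∀ i x, x ∉ tsupport (P.χ j) → (rep P h hp j l k).1 i x = 0 := by
    intro i x hx
    rw [rep_coe]
    refine ext_zero_off B j (fun hx' => hx ?_) _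
    refine closure_minimal (fun y hy => ?_) (isClosed_tsupport _) hx'
    by_contra hyc
    refine hy ?_
    show P.psi B.κ j y * (h.H j y)⁻¹ = 0
    rw [amp_zero fun hy' => hyc ((P.amp_psi B.κ).sub j hy'), Matrix.zero_mul]
  rw [IntP_loc P (h.isDn (rep P h hp j l k).2 v.2) (P.χ_cpt j) (P.χ_sub j) fun i x hi hx => by
    show star ((rep P h hp j l k).1 i x) ⬝ᵥ _ = 0
    rw [hoff i x hx, star_zero, zero_dotProduct]]
  refine lint_congr fun x hx => ?_
  have hH := (hp j x hx)
  have hdet : IsUnit (h.H j x).det := isUnit_iff_ne_zero.2 hH.det_pos.ne'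
  show star ((rep P h hp j l k).1 j x) ⬝ᵥ (h.H j x *ᵥ v.1 j x) = _
  rw [hsrc x hx, Matrix.star_mulVec, Matrix.conjTranspose_mul, Matrix.conjTranspose_nonsing_inv,
    hH.isHermitian.eq, Matrix.dotProduct_mulVec, Matrix.vecMul_vecMul]
  have h2 : (P.psi B.κ j x)ᴴ = P.psi B.κ j x := by
    simp [Part.psi, Matrix.conjTranspose_smul, Complex.star_def, Complex.conj_ofReal]
  have h3 : (h.H j x)⁻¹ * (P.psi B.κ j x)ᴴ * h.H j x = P.psi B.κ j x := by
    rw [h2]
    simp only [Part.psi, Matrix.mul_smul, Matrix.mul_one, Matrix.smul_mul]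
    rw [Matrix.nonsing_inv_mul _ hdet]
  rw [h3, ← Matrix.dotProduct_mulVec]
  have h4 : star (Pi.single l (ch k (rc (A.e j x))) : B.κ → ℂ) =
      Pi.single l (ch (-k) (rc (A.e j x))) := by
    rw [← conj_ch]
    funext m
    by_cases hm : m = l
    · subst hm; simp
    · simp [hm]
  rw [h4, single_dotProduct]

end rep

/-! ### finite rank -/

section finite

open Classical in
theorem FNv_eq_sum {κ : Type} [Fintype κ] (N : ℕ) (g : κ → SPer (RI n)) :
    FNv κ n N g = ∑ l, ∑ k ∈ SN N, ((mN N k : ℂ) * fc (g l) k) •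
      (Pi.single l (chS k) : κ → SPer (RI n)) := by
  funext m
  rw [FNv_apply, FN_eq_sum, Finset.sum_apply, Finset.sum_eq_single m]
  · rw [Finset.sum_apply]
    refine Finset.sum_congr rfl fun k _ => ?_
    rw [Pi.smul_apply, Pi.single_eq_same]
  · intro l _ hl
    rw [Finset.sum_apply]
    refine Finset.sum_eq_zero fun k _ => ?_
    rw [Pi.smul_apply, Pi.single_eq_of_ne hl.symm, smul_zero]
  · intro h; exact absurd (Finset.mem_univ _) h

variable [Finite A.ι] (P : Part A) (B : FBun A)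

open Classical in
/-- the finitely many sections spanning the range of `J_N` -/
def eS (N : ℕ) (j : A.ι) (l : B.κ) (k : RI n → ℤ) : Sec B :=
  (mN N k : ℂ) • extS B j ((P.amp_chi B.κ).amp j) (Pi.single l (chS k))

theorem JN_eq_sum [Fintype A.ι] (N : ℕ) (v : Sec B) :
    JN P B N v = ∑ j, ∑ l, ∑ k ∈ SN N,
      fc (loc A j (P.psi B.κ j) (v.1 j) l) k • eS P B N j l k := by
  classical
  rw [JN_apply, ExtFL_eq_sum]
  refine Finset.sum_congr rfl fun j _ => ?_
  rw [FNF_apply, FNv_eq_sum, map_sum]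
  refine Finset.sum_congr rfl fun l _ => ?_
  rw [map_sum]
  refine Finset.sum_congr rfl fun k _ => ?_
  rw [map_smul, mul_comm, mul_smul]
  unfold eS
  congr 3
  congr!

/-- (F3) **`J_N` has finite rank, with smooth representatives** -/
theorem JN_finite {B : FBun A} [T2Space M] (h : HDen B) (hp : h.Pos) (N : ℕ) :
    ∃ (m : ℕ) (s e : Fin m → Sec B), ∀ v, JN P B N v = ∑ α, h.ip P (s α).1 v.1 • e α := by
  have := Fintype.ofFinite A.ι
  let X := (A.ι × B.κ) × (SN (d := RI n) N)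
  let E : X ≃ Fin (Fintype.card X) := Fintype.equivFin X
  refine ⟨Fintype.card X, fun α => rep P h hp (E.symm α).1.1 (E.symm α).1.2 (E.symm α).2.1,
    fun α => eS P B N (E.symm α).1.1 (E.symm α).1.2 (E.symm α).2.1, fun v => ?_⟩
  rw [JN_eq_sum, Equiv.sum_comp E.symm (fun a : X => h.ip P (rep P h hp a.1.1 a.1.2 a.2.1).1 v.1 •
    eS P B N a.1.1 a.1.2 a.2.1), Fintype.sum_prod_type, Fintype.sum_prod_type]
  refine Finset.sum_congr rfl fun j _ => Finset.sum_congr rfl fun l _ => ?_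
  simp only [ip_rep]
  exact (Finset.sum_coe_sort (SN N) (fun k => fc (loc A j (P.psi B.κ j) (v.1 j) l) k •
    eS P B N j l k)).symm

end finite

/-! ### the properties in the geometric norms -/

section geo

variable [T2Space M] [CompactSpace M] [Finite A.ι] (P : Part A) {B B' : FBun A}

theorem sn_JN_le (h : HDen B) (hp : h.Pos) : ∃ C, 0 ≤ C ∧ ∀ (N : ℕ) (u : Sec B),
    h.sn P (JN P B N u) ≤ C * h.sn P u := by
  obtain ⟨C1, h10, h1⟩ := h.sn_le_nS P
  obtain ⟨C2, h20, h2⟩ := nS_JN_le P B 0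
  obtain ⟨C3, h30, h3⟩ := h.nS_le_sn P hp
  refine ⟨C1 * (C2 * C3), by positivity, fun N u => (h1 _).trans ?_⟩
  rw [mul_assoc, mul_assoc]
  refine mul_le_mul_of_nonneg_left ((h2 N u).trans ?_) h10
  exact mul_le_mul_of_nonneg_left (h3 u) h20

theorem tendsto_sn_JN (h : HDen B) (u : Sec B) :
    Tendsto (fun N => h.sn P (JN P B N u - u)) atTop (𝓝 0) := by
  obtain ⟨C1, h10, h1⟩ := h.sn_le_nS P
  have h2 := (tendsto_JN P B 0 u).const_mul C1
  rw [mul_zero] at h2
  exact squeeze_zero (fun _ => h.sn_nonneg P _) (fun N => h1 _) h2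

theorem FOp.sn_comm_le (T : FOp B B') (h : HDen B) (hp : h.Pos) (h' : HDen B') :
    ∃ C, 0 ≤ C ∧ ∀ (N : ℕ) (u : Sec B),
      h'.sn P (T.T (JN P B N u) - JN P B' N (T.T u)) ≤ C * h.sn P u := by
  obtain ⟨C1, h10, h1⟩ := h'.sn_le_nS P
  obtain ⟨C2, h20, h2⟩ := T.comm_le P
  obtain ⟨C3, h30, h3⟩ := h.nS_le_sn P hp
  refine ⟨C1 * (C2 * C3), by positivity, fun N u => (h1 _).trans ?_⟩
  rw [mul_assoc, mul_assoc]
  refine mul_le_mul_of_nonneg_left ((h2 N u).trans ?_) h10
  exact mul_le_mul_of_nonneg_left (h3 u) h20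

theorem FOp.tendsto_sn_comm (T : FOp B B') (h' : HDen B') (u : Sec B) :
    Tendsto (fun N => h'.sn P (T.T (JN P B N u) - JN P B' N (T.T u))) atTop (𝓝 0) := by
  obtain ⟨C1, h10, h1⟩ := h'.sn_le_nS P
  have h2 := (T.tendsto_comm P 0 u).const_mul C1
  rw [mul_zero] at h2
  exact squeeze_zero (fun _ => h'.sn_nonneg P _) (fun N => h1 _) h2

end geo

/-! ### constructions of first order operators -/

namespace FOp

variable {B B' B₁ B₂ : FBun A}

/-- `∇` -/
def nab (B : FBun A) : FOp B B where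
  a _ p _ := (if p.2 = 0 then (1 / 2 : ℂ) else I / 2) • B.e p.1
  b i x := B.α i x
  a_sm _ _ _ _ := contDiffOn_const
  b_sm := B.α_smooth
  T := nabL B
  hT u i x hx := by
    have h1 : (nabL B u).1 i x = (∑ a, (B.e a) *ᵥ (A.db i a (u.1 i) x)) + (B.α i x) *ᵥ (u.1 i x) :=
      if_pos hx
    rw [h1, Fintype.sum_prod_type]
    congr 1
    refine Finset.sum_congr rfl fun a _ => ?_
    rw [Fin.sum_univ_two, db_eq_pdM]
    simp only [Matrix.smul_mulVec, Matrix.mulVec_smul, Matrix.mulVec_add, smul_add, smul_smul,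
      if_true, one_ne_zero, if_false]
    congr 2
    ring

@[simp] theorem nab_T (B : FBun A) : (nab B).T = nabL B := rfl

/-- a bundle map -/
def ofLin0 (m : A.ι → M → Matrix B'.κ B.κ ℂ) (m_sm : ∀ i k l, A.SmAt i (fun x => m i x k l))
    (T : Sec B →ₗ[ℂ] Sec B')
    (hT : ∀ (u : Sec B) (i : A.ι), ∀ x ∈ (A.e i).source, (T u).1 i x = m i x *ᵥ u.1 i x) :
    FOp B B' where
  a _ _ _ := 0
  b := m
  a_sm _ _ _ _ := contDiffOn_const
  b_sm := m_sm
  T := T
  hT u i x hx := by
    rw [hT u i x hx]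
    simp

/-- sum of two first order operators -/
def add (S T : FOp B B') : FOp B B' where
  a i p x := S.a i p x + T.a i p x
  b i x := S.b i x + T.b i x
  a_sm i p k l := (S.a_sm i p k l).add (T.a_sm i p k l)
  b_sm i k l := (S.b_sm i k l).add (T.b_sm i k l)
  T := S.T + T.T
  hT u i x hx := by
    have h1 : ((S.T + T.T) u).1 i x = (S.T u).1 i x + (T.T u).1 i x := rfl
    rw [h1, S.hT u i x hx, T.hT u i x hx]
    simp only [Matrix.add_mulVec, Finset.sum_add_distrib]
    abel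

/-- scalar multiple of a first order operator -/
def smul (c : ℂ) (T : FOp B B') : FOp B B' where
  a i p x := c • T.a i p x
  b i x := c • T.b i x
  a_sm i p k l := contDiffOn_const.mul (T.a_sm i p k l)
  b_sm i k l := contDiffOn_const.mul (T.b_sm i k l)
  T := c • T.T
  hT u i x hx := by
    have h1 : ((c • T.T) u).1 i x = c • (T.T u).1 i x := rfl
    rw [h1, T.hT u i x hx]
    simp only [Matrix.smul_mulVec, smul_add, Finset.smul_sum]

/-- derivative of a matrix function -/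
def dmat (A : Atl n M) (i : A.ι) (p : RI n) {κ κ' : Type} (m : M → Matrix κ κ' ℂ) (x : M) :
    Matrix κ κ' ℂ := Matrix.of fun k l => pdM A i p (fun y => m y k l) x

theorem dmat_sm {i : A.ι} (p : RI n) {κ κ' : Type} {m : M → Matrix κ κ' ℂ}
    (hm : ∀ k l, A.SmAt i (fun x => m x k l)) (k : κ) (l : κ') :
    A.SmAt i (fun x => dmat A i p m x k l) := SmAt.pdM (hm k l) p

theorem smAt_matmul {i : A.ι} {κ κ' κ'' : Type} [Fintype κ'] {m : M → Matrix κ κ' ℂ}
    {m' : M → Matrix κ' κ'' ℂ} (hm : ∀ k l, A.SmAt i (fun x => m x k l))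
    (hm' : ∀ k l, A.SmAt i (fun x => m' x k l)) (k : κ) (l : κ'') :
    A.SmAt i (fun x => (m x * m' x) k l) :=
  ContDiffOn.sum fun j _ => (hm k j).mul (hm' j l)

/-- `S' ∘ T ∘ S` for (linear) bundle maps -/
def ofLin (T₁ : FOp B₁ B₂) (m : A.ι → M → Matrix B₁.κ B.κ ℂ)
    (m_sm : ∀ i k l, A.SmAt i (fun x => m i x k l)) (S : Sec B → Sec B₁)
    (hS : ∀ (u : Sec B) (i : A.ι), ∀ x ∈ (A.e i).source, (S u).1 i x = m i x *ᵥ u.1 i x)
    (m' : A.ι → M → Matrix B'.κ B₂.κ ℂ) (m'_sm : ∀ i k l, A.SmAt i (fun x => m' i x k l))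
    (S' : Sec B₂ → Sec B')
    (hS' : ∀ (u : Sec B₂) (i : A.ι), ∀ x ∈ (A.e i).source, (S' u).1 i x = m' i x *ᵥ u.1 i x)
    (T : Sec B →ₗ[ℂ] Sec B') (hT : ∀ u, T u = S' (T₁.T (S u))) : FOp B B' where
  a i p x := m' i x * (T₁.a i p x * m i x)
  b i x := m' i x * ((∑ p, T₁.a i p x * dmat A i p (m i) x) + T₁.b i x * m i x)
  a_sm i p k l := smAt_matmul (m'_sm i) (smAt_matmul (T₁.a_sm i p) (m_sm i)) k l
  b_sm i k l := by
    refine smAt_matmul (m'_sm i) (fun k l => ?_) k l
    refine ContDiffOn.add ?_ (smAt_matmul (T₁.b_sm i) (m_sm i) k l)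
    have h1 : (fun z => (∑ p, T₁.a i p ((A.e i).symm z) * dmat A i p (m i) ((A.e i).symm z)) k l) =
        fun z => ∑ p, (T₁.a i p ((A.e i).symm z) * dmat A i p (m i) ((A.e i).symm z)) k l := by
      funext z
      rw [Matrix.sum_apply]
    rw [h1]
    exact ContDiffOn.sum fun p _ => smAt_matmul (T₁.a_sm i p) (dmat_sm p (m_sm i)) k l
  T := T
  hT u i x hx := by
    have hev : (S u).1 i =ᶠ[𝓝 x] fun y => m i y *ᵥ u.1 i y := by
      filter_upwards [(A.e i).open_source.mem_nhds hx] with y hy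
      exact hS u i y hy
    have h1 : ∀ p, pdM A i p ((S u).1 i) x =
        dmat A i p (m i) x *ᵥ u.1 i x + m i x *ᵥ pdM A i p (u.1 i) x := fun p => by
      rw [pdM_congr hx hev, pdM_mulVec (m_sm i) (u.2.1 i) hx]
      rfl
    rw [hT, hS' _ i x hx, T₁.hT _ i x hx, hS u i x hx]
    simp only [h1, Matrix.mulVec_add, Matrix.mulVec_sum, Matrix.mulVec_mulVec, Matrix.add_mulVec,
      Matrix.sum_mulVec, Finset.sum_add_distrib, Matrix.mul_add, Matrix.mul_sum, Matrix.mul_assoc]
    abel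

theorem pdM_star {κ : Type} [Fintype κ] {i : A.ι} {f : M → κ → ℂ}
    (hf : ∀ k, A.SmAt i (fun x => f x k)) {x : M} (hx : x ∈ (A.e i).source) (p : RI n) :
    pdM A i p (fun y => star (f y)) x = star (pdM A i p f x) := by
  have hf' : ∀ k, A.SmAt i (fun x => star (f x) k) := fun k =>
    Complex.conjCLE.contDiff.comp_contDiffOn (hf k)
  funext k
  rw [pdM_pi (f := fun y => star (f y)) hf' hx, Pi.star_apply, pdM_pi hf hx]
  unfold pdM
  have hd : DifferentiableAt ℝ (fun z => f ((A.e i).symm z) k) (A.e i x) := (hf k).diffAt hx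
  have h : fderiv ℝ (fun z => star (f ((A.e i).symm z)) k) (A.e i x) =
      (Complex.conjCLE : ℂ →L[ℝ] ℂ).comp (fderiv ℝ (fun z => f ((A.e i).symm z) k) (A.e i x)) :=
    ((Complex.conjCLE : ℂ →L[ℝ] ℂ).hasFDerivAt.comp _ hd.hasFDerivAt).fderiv
  rw [h]
  rfl

theorem star_mulVec_star {κ κ' : Type} [Fintype κ'] (m : Matrix κ κ' ℂ) (v : κ' → ℂ) :
    star (m *ᵥ star v) = m.map conj *ᵥ v := by
  funext k
  simp [Matrix.mulVec, dotProduct]

theorem star_mulVec' {κ κ' : Type} [Fintype κ'] (m : Matrix κ κ' ℂ) (v : κ' → ℂ) :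
    star (m *ᵥ v) = m.map conj *ᵥ star v := by
  funext k
  simp [Matrix.mulVec, dotProduct]

/-- `S' ∘ T ∘ S` for conjugate linear bundle maps -/
def ofConj (T₁ : FOp B₁ B₂) (m : A.ι → M → Matrix B₁.κ B.κ ℂ)
    (m_sm : ∀ i k l, A.SmAt i (fun x => m i x k l)) (S : Sec B → Sec B₁)
    (hS : ∀ (u : Sec B) (i : A.ι), ∀ x ∈ (A.e i).source, (S u).1 i x = m i x *ᵥ star (u.1 i x))
    (m' : A.ι → M → Matrix B'.κ B₂.κ ℂ) (m'_sm : ∀ i k l, A.SmAt i (fun x => m' i x k l))
    (S' : Sec B₂ → Sec B')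
    (hS' : ∀ (u : Sec B₂) (i : A.ι), ∀ x ∈ (A.e i).source,
      (S' u).1 i x = m' i x *ᵥ star (u.1 i x))
    (T : Sec B →ₗ[ℂ] Sec B') (hT : ∀ u, T u = S' (T₁.T (S u))) : FOp B B' where
  a i p x := m' i x * (T₁.a i p x * m i x).map conj
  b i x := m' i x * ((∑ p, T₁.a i p x * dmat A i p (m i) x) + T₁.b i x * m i x).map conj
  a_sm i p k l := smAt_matmul (m' := fun x => (T₁.a i p x * m i x).map conj) (m'_sm i)
    (fun k l => Complex.conjCLE.contDiff.comp_contDiffOn
      (smAt_matmul (T₁.a_sm i p) (m_sm i) k l)) k l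
  b_sm i k l := by
    refine smAt_matmul (m'_sm i) (fun k l => ?_) k l
    refine Complex.conjCLE.contDiff.comp_contDiffOn ?_
    refine ContDiffOn.add ?_ (smAt_matmul (T₁.b_sm i) (m_sm i) k l)
    have h1 : (fun z => (∑ p, T₁.a i p ((A.e i).symm z) * dmat A i p (m i) ((A.e i).symm z)) k l) =
        fun z => ∑ p, (T₁.a i p ((A.e i).symm z) * dmat A i p (m i) ((A.e i).symm z)) k l := by
      funext z
      rw [Matrix.sum_apply]
    rw [h1]
    exact ContDiffOn.sum fun p _ => smAt_matmul (T₁.a_sm i p) (dmat_sm p (m_sm i)) k l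
  T := T
  hT u i x hx := by
    have hev : (S u).1 i =ᶠ[𝓝 x] fun y => m i y *ᵥ star (u.1 i y) := by
      filter_upwards [(A.e i).open_source.mem_nhds hx] with y hy
      exact hS u i y hy
    have hus : ∀ l, A.SmAt i (fun x => star (u.1 i x) l) := fun l =>
      Complex.conjCLE.contDiff.comp_contDiffOn (u.2.1 i l)
    have h1 : ∀ p, pdM A i p ((S u).1 i) x =
        dmat A i p (m i) x *ᵥ star (u.1 i x) + m i x *ᵥ star (pdM A i p (u.1 i) x) := fun p => by
      rw [pdM_congr hx hev, pdM_mulVec (v := fun y => star (u.1 i y)) (m_sm i) hus hx,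
        pdM_star (u.2.1 i) hx]
      rfl
    rw [hT, hS' _ i x hx, T₁.hT _ i x hx, hS u i x hx]
    simp only [h1, star_add, star_sum, Matrix.mulVec_add, Matrix.mulVec_sum,
      Matrix.mulVec_mulVec, star_mulVec_star]
    have e1 : ((∑ p, T₁.a i p x * dmat A i p (m i) x) + T₁.b i x * m i x).map conj =
        (∑ p, (T₁.a i p x * dmat A i p (m i) x).map conj) + (T₁.b i x * m i x).map conj := by
      ext k l
      simp only [Matrix.add_apply, Matrix.sum_apply, Matrix.map_apply, map_add, map_sum]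
    rw [e1]
    simp only [Matrix.mul_add, Matrix.mul_sum, Matrix.add_mulVec, Matrix.sum_mulVec,
      Matrix.mulVec_mulVec, Finset.sum_add_distrib]
    abel

end FOp

/-! ### Hodge existence -/

section hodge

variable [T2Space M] [CompactSpace M] [Finite A.ι] (P : Part A) {B : FBun A}

/-- **505's `hodge_abs` for the inner product of a positive Hermitian density**, mollifiers
filled in -/
theorem hodge_geo (h : HDen B) (hp : h.Pos) (ds : FOp B B)
    (hadj : ∀ u w : Sec B, h.ip P (nabL B u).1 w.1 = h.ip P u.1 (ds.T w).1)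
    (hdd : ∀ u : Sec B, nabL B (nabL B u) = 0)
    (Q : Sec B → Prop) (hQd : ∀ u, Q u → nabL B u = 0)
    (LIM : ∀ u : ℕ → Sec B, (∀ ε > 0, ∃ N, ∀ m ≥ N, ∀ n ≥ N, h.sn P (u m - u n) < ε) →
      Tendsto (fun N => h.sn P (nabL B (u N))) atTop (𝓝 0) →
      Tendsto (fun N => h.sn P (ds.T (u N))) atTop (𝓝 0) →
      ∃ v, Q v ∧ Tendsto (fun N => h.sn P (u N - v)) atTop (𝓝 0))
    (EX : ∀ z, nabL B z = 0 → (∀ w, ds.T w = 0 → h.ip P w.1 z.1 = 0) → ∃ y, nabL B y = z)
    (z : Sec B) (hz : nabL B z = 0) : ∃ u, Q u ∧ ∃ y, nabL B y = z - u := by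
  obtain ⟨C1, h10, h1⟩ := sn_JN_le P h hp
  obtain ⟨C2, h20, h2⟩ := (FOp.nab B).sn_comm_le P h hp h
  obtain ⟨C3, h30, h3⟩ := ds.sn_comm_le P h hp h
  have hmax : ∀ {C a b : ℝ}, a ≤ C * b → 0 ≤ b → C ≤ max C1 (max C2 C3) →
      a ≤ max C1 (max C2 C3) * b := fun hab hb hC => hab.trans (mul_le_mul_of_nonneg_right hC hb)
  exact ThmD2A_505.hodge_abs (h.core P hp) (nabL B) ds.T hadj hdd (JN P B)
    (max C1 (max C2 C3))
    (fun N u => hmax (h1 N u) (h.sn_nonneg P u) (le_max_left _ _))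
    (fun u => tendsto_sn_JN P h u)
    (fun N u => hmax (h2 N u) (h.sn_nonneg P u) ((le_max_left _ _).trans (le_max_right _ _)))
    (fun u => (FOp.nab B).tendsto_sn_comm P h u)
    (fun N u => hmax (h3 N u) (h.sn_nonneg P u) ((le_max_right _ _).trans (le_max_right _ _)))
    (fun u => ds.tendsto_sn_comm P h u)
    (fun N => JN_finite P h hp N) Q hQd LIM EX z hz

end hodge

end

end Crest.Agent.R273.Mol_106
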