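import Crest.Agent.R273.LimA_505
import Crest.Agent.R273.DHod_733
import Crest.Agent.R273.MolF_106

/-!
# R273, D.13 (helper505): the formal adjoint as a first order operator, `hadj`, `LIM`, `EX`

* `dsF K h : FOp (BN N) (BN N)`, `dsF_T : (dsF K h).T (low v) = -(low (dlt h v))`;
* `hadj`, `lim`, `ex`; `hodge` : every closed `z : Sec (BN N)` is `low v + ∇ y` with `v`
  holomorphic and null.
-/

set_option autoImplicit false
set_option linter.unusedSectionVars false

open Set Filter Topology Complex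
open scoped ContDiff Matrix ComplexConjugate Kronecker ComplexOrder

namespace Crest.Agent.R273.Lim_505

open Crest.Agent.R275 Crest.Agent.R275.Geo Crest.Agent.R275.Core144
open Crest.Agent.R273.Defs_333 Crest.Agent.R273.HM_333 Crest.Agent.R273.Kah_333
open Crest.Agent.R273.Fock_243 Crest.Agent.R273.Calc_243 Crest.Agent.R273.Bkn_243
open Crest.Agent.R273.Pos_243 Crest.Agent.R273.Berezin_505 Crest.Agent.R273.L2K_774
open Crest.Agent.R273.LamN127 Crest.Agent.R273.NormC_505 Crest.Agent.R273.DnInt_505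
open Crest.Agent.R273.DVec_733 Crest.Agent.R273.DMet_733 Crest.Agent.R273.DMetB_733
open Crest.Agent.R273.StV_37 Crest.Agent.R273.BKNa_37
open Crest.Agent.R273.BKNb_37 Crest.Agent.R273.BKNc_37 Crest.Agent.R273.BKNd_37
open Crest.Agent.R273.BKNe_37 Crest.Agent.R273.Mol_106
open Crest.Agent.R273.HDN_505 (EV B0 B0_α Kl Ku HB HB_pos H0 H0_pos HC HTm HTm_form HT)
open Crest.Agent.R273.B0_505 (IsPV ofV vec un0 ofV_mem vec_ofV ofV_vec pqL_ofV isPV_vec)

noncomputable section

variable {n : ℕ} {M : Type} [TopologicalSpace M] {A : Atl n M} {N : LB A}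

/-! ### the adjoint -/

section adj

variable (K : Kah A) (h : HM ((KB A)⁻¹ * N))

/-- the formal adjoint of `∇`, as a linear map -/
def dsL : Sec (BN N) →ₗ[ℂ] Sec (BN N) :=
  -((low K N).toLinearMap ∘ₗ dlt h ∘ₗ (low K N).symm.toLinearMap)

theorem dsL_low (v : MV N) : dsL K h (low K N v) = -(low K N (dlt h v)) := by
  show -(low K N (dlt h ((low K N).symm (low K N v)))) = _
  rw [LinearEquiv.symm_apply_apply]

theorem dsL_eq (u : Sec (BN N)) : dsL K h u =
    low K N ((cj h).symm (nabL (BN (KB A * N⁻¹)) (cj h ((low K N).symm u)))) := by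
  show -(low K N ((cj h).symm (-(nabL (BN (KB A * N⁻¹)) (cj h ((low K N).symm u)))))) = _
  rw [map_neg, map_neg, neg_neg]

theorem kB_smAt {N N' : LB A} {i : A.ι} {X : M → Matrix (FI n) (FI n) ℂ} {c : M → ℂ}
    (hX : ∀ S T, A.SmAt i (fun x => X x S T)) (hc : A.SmAt i c) (k : (BN N).κ) (l : (BN N').κ) :
    A.SmAt i (fun x => kB N N' (X x) (c x) k l) := by
  have h1 : A.SmAt i (fun x => X x (Prod.fst k) (Prod.fst l) * c x) :=
    smAt_mul (hX (Prod.fst k) (Prod.fst l)) hc
  exact h1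

theorem mat_sm {i : A.ι} {a b : M → Matrix (FI n) (FI n) ℂ}
    (ha : ∀ S T, A.SmAt i (fun x => a x S T)) (hb : ∀ S T, A.SmAt i (fun x => b x S T)) (S T : FI n) :
    A.SmAt i (fun x => (a x * b x) S T) := FOp.smAt_matmul ha hb S T

theorem star_iB (p : FI n → ℂ) : star (iB N p) = iB N (star p) := rfl

theorem star_oB (u : (BN N).κ → ℂ) : oB (star u) = star (oB u) := rfl

theorem winv_smAt (i : A.ι) : A.SmAt i (fun x => ((h.w i x : ℂ))⁻¹) :=
  (DVec_733.smAt_ofReal (h.sm i)).inv fun _ hz => DMet_733.w_ne h i ((A.e i).map_target hz)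

/-- the formal adjoint as a first order operator -/
def dsF : FOp (BN N) (BN N) :=
  FOp.ofConj (FOp.nab (BN (KB A * N⁻¹)))
    (fun i x => kB (KB A * N⁻¹) N (Sbi ℂ n * (GI K i x).map conj) (h.w i x : ℂ))
    (fun i k l => kB_smAt (mat_sm (a := fun _ => Sbi ℂ n)
      (b := fun x => (GI K i x).map conj) (fun _ _ => smAt_const i _)
      fun S T => DVec_733.smAt_conj (GI_smooth K i S T)) (DVec_733.smAt_ofReal (h.sm i)) k l)
    (fun u => cj h ((low K N).symm u))
    (fun u i x _ => by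
      show iB (KB A * N⁻¹) (Sbi ℂ n *ᵥ ((h.w i x : ℂ) • star (GI K i x *ᵥ oB (u.1 i x)))) = _
      rw [← iB_oB N (star (u.1 i x)), kB_iB, star_oB, FOp.star_mulVec', Matrix.mulVec_smul,
        Matrix.mulVec_mulVec])
    (fun i x => kB N (KB A * N⁻¹) (GK K i x * (Sb ℂ n).map conj) ((h.w i x : ℂ))⁻¹)
    (fun i k l => kB_smAt (mat_sm (a := GK K i) (b := fun _ => (Sb ℂ n).map conj)
      (fun S T => GK_smooth K i S T) fun _ _ => smAt_const i _)
      (winv_smAt h i) k l)
    (fun u => low K N ((cj h).symm u))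
    (fun u i x _ => by
      show iB N (GK K i x *ᵥ star (((h.w i x : ℂ))⁻¹ • (Sb ℂ n *ᵥ oB (u.1 i x)))) = _
      rw [← iB_oB (KB A * N⁻¹) (star (u.1 i x)), kB_iB, star_oB, star_smul', FOp.star_mulVec',
        Matrix.mulVec_smul, Matrix.mulVec_mulVec, map_inv₀, Complex.conj_ofReal])
    (dsL K h) (fun u => dsL_eq K h u)

@[simp] theorem dsF_T : (dsF K h).T = dsL K h := rfl

end adj

/-! ### the inner products -/

section compact

variable [T2Space M] [CompactSpace M] [Finite A.ι] (P : Part A) (K : Kah A)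
  (h : HM ((KB A)⁻¹ * N))

theorem IntP_eq_totc (f : A.ι → M → ℂ) : IntP P f = totc P f := intD_eq_totc P f

/-- the inner product is the pairing with `cj` -/
theorem HB_ip (v : MV N) (w : MV N) :
    (HB K h).ip P (low K N v).1 (low K N w).1 = Pai323.pr (DN N) P (low K N w) (cj h v) := by
  rw [pr_low_cj', ← IntP_eq_totc]
  exact IntP_congr P fun i x hx => HB_hd K h v w hx

theorem HB_ip' (v : MV N) (u : Sec (BN N)) :
    (HB K h).ip P (low K N v).1 u.1 = Pai323.pr (DN N) P u (cj h v) := by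
  have h1 := HB_ip P K h v ((low K N).symm u)
  rwa [LinearEquiv.apply_symm_apply] at h1

theorem H0_ip (v w : MV N) :
    (H0 K h).ip P (up N v).1 (up N w).1 = (HB K h).ip P (low K N v).1 (low K N w).1 :=
  IntP_congr P fun i x hx => by rw [H0_hd, HB_hd K h v w hx]

theorem sn_up (v : MV N) : (H0 K h).sn P (up N v) = (HB K h).sn P (low K N v) := by
  unfold HDen.sn
  rw [H0_ip]

/-- `hadj` -/
theorem hadj (u w : Sec (BN N)) :
    (HB K h).ip P (nabL (BN N) u).1 w.1 = (HB K h).ip P u.1 (dsL K h w).1 := by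
  obtain ⟨v, rfl⟩ := (low K N).surjective u
  obtain ⟨w, rfl⟩ := (low K N).surjective w
  rw [dsL_low, ← HDen.ip_conj, HB_ip', adj h K P v w]
  have h1 : (-(low K N (dlt h w))).1 = ((-1 : ℂ)) • (low K N (dlt h w)).1 := by
    rw [Submodule.coe_neg, neg_one_smul]
  rw [h1, HDen.ip_smul_right, map_neg, neg_one_mul, ← HB_ip', HDen.ip_conj]

/-- `EX` -/
theorem ex (z : Sec (BN N))
    (hz : ∀ w, (dsF K h).T w = 0 → (HB K h).ip P w.1 z.1 = 0) : ∃ y, nabL (BN N) y = z := by
  refine DHod_733.exact_of_perp P h fun w hw => ?_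
  rw [← HB_ip' P K h]
  refine hz _ ?_
  rw [dsF_T, dsL_low, hw, map_zero, neg_zero]

/-- the gradient is bounded by `∇` and `∇*` -/
theorem sn_nab_up (hs : h.Semipos) (v : MV N) :
    (H0 K h).sn P (nabL (B0 N) (up N v)) ≤
      (HB K h).sn P (nabL (BN N) (low K N v)) + (HB K h).sn P (dsL K h (low K N v)) ∧
    (HT K h hs).sn P (low K N v) ≤
      (HB K h).sn P (nabL (BN N) (low K N v)) + (HB K h).sn P (dsL K h (low K N v)) := by
  have a0 := (HB K h).sn_nonneg P (nabL (BN N) (low K N v))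
  have b0 := (HB K h).sn_nonneg P (dsL K h (low K N v))
  have hD : (H0 K h).sn P (nabL (B0 N) (up N v)) ^ 2 = (totc P (inD K h v.1 v.1)).re := by
    rw [HDen.sn_sq, ← IntP_eq_totc]
    congr 1
    exact IntP_congr P fun i x hx => H0_hd_nab K h v v hx
  have hT : (HT K h hs).sn P (low K N v) ^ 2 = (totc P (inT K h v.1 v.1)).re := by
    rw [HDen.sn_sq, ← IntP_eq_totc]
    congr 1
    exact IntP_congr P fun i x hx => HT_hd K h hs v v hx
  have hU : (HB K h).sn P (nabL (BN N) (low K N v)) ^ 2 = (totc P (inU K h v.1 v.1)).re := by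
    rw [HDen.sn_sq, ← IntP_eq_totc]
    congr 1
    exact IntP_congr P fun i x hx => HB_hd_nab K h v v hx
  have hG : (HB K h).sn P (dsL K h (low K N v)) ^ 2 =
      (Pai323.pr (DN N) P (low K N (dlt h v)) (cj h (dlt h v))).re := by
    have h1 : (dsL K h (low K N v)).1 = (-1 : ℂ) • (low K N (dlt h v)).1 := by
      rw [dsL_low, Submodule.coe_neg, neg_one_smul]
    rw [HDen.sn_sq, h1, HDen.ip_smul_left, HDen.ip_smul_right, HB_ip]
    simp
  have key := bkn_le_MV P K hs v
  have k1 := (Complex.le_def.1 key.1).1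
  have k2 := (Complex.le_def.1 key.2).1
  rw [Complex.add_re, ← hU, ← hG] at k1 k2
  rw [← hD] at k1
  rw [← hT] at k2
  constructor
  · refine abs_le_of_sq_le_sq' (a := (H0 K h).sn P (nabL (B0 N) (up N v))) ?_ (add_nonneg a0 b0) |>.2
    nlinarith
  · refine abs_le_of_sq_le_sq' (a := (HT K h hs).sn P (low K N v)) ?_ (add_nonneg a0 b0) |>.2
    nlinarith

/-! ### `LIM` -/

/-- null holomorphic sections -/
def Q (u : Sec (BN N)) : Prop :=
  HolV ((low K N).symm u).1 ∧ NullV h ((low K N).symm u).1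

theorem hQd (u : Sec (BN N)) (hu : Q K h u) : nabL (BN N) u = 0 := by
  have h1 := nab_low_zero K hu.1
  rwa [LinearEquiv.apply_symm_apply] at h1

include K h in
/-- a closed degree zero section is a holomorphic polyvector -/
theorem hol_of_nab_up {v : MV N} (hv : nabL (B0 N) (up N v) = 0) : HolV v.1 := by
  intro i x hx
  refine inD_eq_zero (K := K) (h := h) hx ?_
  rw [← H0_hd_nab K h v v hx, hv]
  show star (0 : (B0 N).κ → ℂ) ⬝ᵥ _ = 0
  rw [star_zero, zero_dotProduct]

/-- `LIM` -/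
theorem lim (hs : h.Semipos) (u : ℕ → Sec (BN N))
    (hc : ∀ ε > 0, ∃ N0, ∀ m ≥ N0, ∀ k ≥ N0, (HB K h).sn P (u m - u k) < ε)
    (h1 : Tendsto (fun m => (HB K h).sn P (nabL (BN N) (u m))) atTop (𝓝 0))
    (h2 : Tendsto (fun m => (HB K h).sn P (dsL K h (u m))) atTop (𝓝 0)) :
    ∃ w, Q K h w ∧ Tendsto (fun m => (HB K h).sn P (u m - w)) atTop (𝓝 0) := by
  set v : ℕ → MV N := fun m => (low K N).symm (u m) with hv
  have hlv : ∀ m, low K N (v m) = u m := fun m => (low K N).apply_symm_apply (u m)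
  obtain ⟨C, hC0, hC⟩ := (H0 K h).nS_le_sn P (HDN_505.H0_pos K h)
  obtain ⟨C', hC'0, hC'⟩ := (HB K h).nS_le_sn P (HB_pos K h)
  obtain ⟨D, hD0, hD⟩ := (H0 K h).sn_le_nS P
  have h12 := h1.add h2
  rw [add_zero] at h12
  -- the degree zero sections
  have hcau : ∀ ε > 0, ∃ N0, ∀ m ≥ N0, ∀ k ≥ N0,
      nS P (B0 N) 0 (up N (v m) - up N (v k)) < ε := by
    intro ε hε
    obtain ⟨N0, hN0⟩ := hc (ε / (C + 1)) (by positivity)
    refine ⟨N0, fun m hm k hk => ?_⟩
    have e1 : up N (v m) - up N (v k) = up N (v m - v k) := (map_sub _ _ _).symm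
    have e2 : low K N (v m - v k) = u m - u k := by rw [map_sub, hlv, hlv]
    rw [e1]
    refine (hC _).trans_lt ?_
    rw [sn_up, e2]
    have h3 := hN0 m hm k hk
    rw [lt_div_iff₀ (by positivity)] at h3
    nlinarith [(HB K h).sn_nonneg P (u m - u k)]
  have hnab : Tendsto (fun m => nS P (B0 N) 0 (nabL (B0 N) (up N (v m)))) atTop (𝓝 0) := by
    have h3 := h12.const_mul C
    rw [mul_zero] at h3
    refine squeeze_zero (fun _ => nS_nonneg _ _ _ _) (fun m => (hC _).trans ?_) h3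
    refine mul_le_mul_of_nonneg_left ?_ hC0
    have h4 := (sn_nab_up P K h hs (v m)).1
    rwa [hlv] at h4
  obtain ⟨w0, hw0, hw1, hw2⟩ := exists_limit_deg0 P (B0 N) (fun m => pqL_up (v m)) hcau hnab
  set v0 : MV N := dwn w0 with hv0
  have hup : up N v0 = w0 := up_dwn hw2
  have hlim : Tendsto (fun m => (HB K h).sn P (u m - low K N v0)) atTop (𝓝 0) := by
    have h3 := hw0.const_mul D
    rw [mul_zero] at h3
    refine squeeze_zero (fun _ => (HB K h).sn_nonneg P _) (fun m => ?_) h3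
    have e2 : u m - low K N v0 = low K N (v m - v0) := by rw [map_sub, hlv]
    have e3 : up N (v m - v0) = up N (v m) - w0 := by rw [map_sub, hup]
    rw [e2, ← sn_up, e3]
    exact hD _
  refine ⟨low K N v0, ⟨?_, ?_⟩, hlim⟩
  · rw [LinearEquiv.symm_apply_apply]
    exact hol_of_nab_up K h (by rw [hup, hw1])
  · rw [LinearEquiv.symm_apply_apply]
    have h3 : Tendsto (fun m => nS P (BN N) 0 (u m - low K N v0)) atTop (𝓝 0) := by
      have h4 := hlim.const_mul C'
      rw [mul_zero] at h4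
      exact squeeze_zero (fun _ => nS_nonneg _ _ _ _) (fun m => hC' _) h4
    have h5 : Tendsto (fun m => (HT K h hs).sn P (u m)) atTop (𝓝 0) := by
      refine squeeze_zero (fun _ => (HT K h hs).sn_nonneg P _) (fun m => ?_) h12
      have h4 := (sn_nab_up P K h hs (v m)).2
      rwa [hlv] at h4
    have h6 := (HT K h hs).sn_limit P h3 h5
    have h7 : ((HT K h hs).ip P (low K N v0).1 (low K N v0).1).re = 0 := by
      rw [← HDen.sn_sq, h6, zero_pow two_ne_zero]
    intro i x hx
    refine (inT_eq_zero (K := K) hs hx).1 ?_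
    rw [← HT_hd K h hs v0 v0 hx]
    exact (HT K h hs).hd_eq_zero P _ h7 hx

include P in
/-- **Hodge existence**: a closed section is the sum of a lowered null holomorphic polyvector and
an exact section -/
theorem hodge (hs : h.Semipos) (z : Sec (BN N)) (hz : nabL (BN N) z = 0) :
    ∃ v : MV N, HolV v.1 ∧ NullV h v.1 ∧ ∃ y, nabL (BN N) y = z - low K N v := by
  obtain ⟨u, hu, y, hy⟩ := hodge_geo P (HB K h) (HB_pos K h) (dsF K h) (hadj P K h)
    (nab_nab_BN N) (Q K h) (hQd K h) (lim P K h hs) (fun z _ hz => ex P K h z hz) z hz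
  refine ⟨(low K N).symm u, hu.1, hu.2, y, ?_⟩
  rw [LinearEquiv.apply_symm_apply, hy]

end compact

end

end Crest.Agent.R273.Lim_505
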