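import Crest.Agent.R273.Map_835
import Crest.Agent.R273.HM_333

/-!
# R273 (S0416), Part E (helper835): pull-back of line bundles, sections and metrics

`LBih A B p`    : `p : M → N` holomorphic and locally biholomorphic (`det Jp ≠ 0`);
`PB p L' L`     : an isomorphism of the line bundle `L'` on `M` with the pull-back `p^* L`
                  (frame comparison `c i j`), closed under `1`, `*`, `⁻¹`, `^ m`, composition;
`PB.KB`         : the case of the canonical bundles, for a locally biholomorphic map;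
`PB.pull`       : pull-back of sections; `PB.pullHM`: pull-back of metrics.
-/

set_option autoImplicit false
set_option linter.unusedSectionVars false

open Set Filter Topology Complex
open scoped ContDiff Matrix ComplexConjugate Manifold

namespace Crest.Agent.R273.PB_835

open Crest.Agent.R275.Geo Crest.Agent.R275.Core144 Crest.Agent.R273.Defs_333
open Crest.Agent.R273.Map_835

noncomputable section

variable {n m k : ℕ} {M N P : Type} [TopologicalSpace M] [TopologicalSpace N] [TopologicalSpace P]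
  {A : Atl n M} {B : Atl m N} {C : Atl k P} {p : M → N} {q : N → P}

/-! ### comparison of line bundles -/

/-- an isomorphism of `L'` with `p^* L`: `c i j x` is the frame comparison, a section `s` of `L`
pulls back to `c i j x * s j (p x)` -/
structure PB (p : M → N) (L' : LB A) (L : LB B) where
  c : A.ι → B.ι → M → ℂ
  hol : ∀ i j, HolAt A i (p ⁻¹' (B.e j).source) (c i j)
  ne : ∀ i j, ∀ x ∈ (A.e i).source, p x ∈ (B.e j).source → c i j x ≠ 0
  left : ∀ i i' j, ∀ x ∈ (A.e i).source ∩ (A.e i').source, p x ∈ (B.e j).source →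
    L'.g i i' x * c i' j x = c i j x
  right : ∀ i j j', ∀ x ∈ (A.e i).source, p x ∈ (B.e j).source ∩ (B.e j').source →
    c i j x * L.g j j' (p x) = c i j' x

namespace PB

variable {L' K' : LB A} {L K : LB B}

/-- trivial bundles -/
def one (p : M → N) : PB p (1 : LB A) (1 : LB B) where
  c _ _ _ := 1
  hol _ _ := holAt_const 1
  ne _ _ _ _ _ := one_ne_zero
  left _ _ _ _ _ _ := one_mul 1
  right _ _ _ _ _ _ := one_mul 1

def mul (T : PB p L' L) (S : PB p K' K) : PB p (L' * K') (L * K) where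
  c i j x := T.c i j x * S.c i j x
  hol i j := (T.hol i j).mul (S.hol i j)
  ne i j x hx hj := mul_ne_zero (T.ne i j x hx hj) (S.ne i j x hx hj)
  left i i' j x hx hj := by
    rw [← T.left i i' j x hx hj, ← S.left i i' j x hx hj, LB.mul_g]; ring
  right i j j' x hx hj := by
    rw [← T.right i j j' x hx hj, ← S.right i j j' x hx hj, LB.mul_g]; ring

def inv (T : PB p L' L) : PB p L'⁻¹ L⁻¹ where
  c i j x := (T.c i j x)⁻¹
  hol i j := (T.hol i j).inv fun x hx hj => T.ne i j x hx hj
  ne i j x hx hj := inv_ne_zero (T.ne i j x hx hj)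
  left i i' j x hx hj := by
    rw [← T.left i i' j x hx hj, LB.inv_g, mul_inv]
  right i j j' x hx hj := by
    rw [← T.right i j j' x hx hj, LB.inv_g, mul_inv]

def pow (T : PB p L' L) : (m : ℕ) → PB p (L' ^ m) (L ^ m)
  | 0 => by
      rw [pow_zero, pow_zero]
      exact one p
  | m + 1 => by
      rw [pow_succ, pow_succ]
      exact (T.pow m).mul T

/-- the identity map -/
def refl (L : LB A) : PB (A := A) (B := A) id L L where
  c i j x := L.g i j x
  hol i j := L.hol i j
  ne i j x _ _ := L.ne_zero i j x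
  left i i' j x hx hj := L.mul i i' j x ⟨hx, hj⟩
  right i j j' x hx hj := L.mul i j j' x ⟨⟨hx, hj.1⟩, hj.2⟩

/-- uniqueness of the value in the target charts -/
theorem swap (T : PB p L' L) {i : A.ι} {j j' : B.ι} {x : M} (hx : x ∈ (A.e i).source)
    (hj : p x ∈ (B.e j).source) (hj' : p x ∈ (B.e j').source) {s : B.ι → N → ℂ} {U : Set N}
    (hs : IsHS L U s) (hU : p x ∈ U) : T.c i j x * s j (p x) = T.c i j' x * s j' (p x) := by
  rw [hs.tr j j' (p x) ⟨hj, hj'⟩ hU, ← T.right i j j' x hx ⟨hj, hj'⟩]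
  ring

/-- the chart of `B` chosen at `p x` -/
def ch (B : Atl m N) (y : N) : B.ι := (B.cover y).choose

theorem ch_mem (B : Atl m N) (y : N) : y ∈ (B.e (ch B y)).source := (B.cover y).choose_spec

/-- pull-back of a section -/
def pull (T : PB p L' L) (s : B.ι → N → ℂ) : A.ι → M → ℂ := fun i x =>
  open Classical in
  if x ∈ (A.e i).source then T.c i (ch B (p x)) x * s (ch B (p x)) (p x) else 0

theorem pull_eq (T : PB p L' L) {i : A.ι} {j : B.ι} {x : M} (hx : x ∈ (A.e i).source)
    (hj : p x ∈ (B.e j).source) {s : B.ι → N → ℂ} {U : Set N}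
    (hs : IsHS L U s) (hU : p x ∈ U) : T.pull s i x = T.c i j x * s j (p x) := by
  rw [pull, if_pos hx]
  exact T.swap hx (ch_mem B _) hj hs hU

theorem pull_isHS (T : PB p L' L) (hp : HolMap A B p) {s : B.ι → N → ℂ} {U : Set N}
    (hU : IsOpen U) (hs : IsHS L U s) : IsHS L' (p ⁻¹' U) (T.pull s) := by
  refine ⟨fun i => ?_, fun i x hx => if_neg hx, fun i i' x hx hxU => ?_⟩
  · refine holAt_of_local fun x hx hxU => ?_
    obtain ⟨j, hj⟩ := B.cover (p x)
    refine ⟨p ⁻¹' (U ∩ (B.e j).source), (hU.inter (B.e j).open_source).preimage hp.cont,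
      ⟨hxU, hj⟩, ?_⟩
    have h1 : HolAt A i (p ⁻¹' (U ∩ (B.e j).source)) (fun x => T.c i j x * s j (p x)) :=
      ((T.hol i j).mono fun y hy => hy.2).mul (hp.comp_holAt (hs.hol j))
    exact h1.congr fun y hy hyU => (T.pull_eq hy hyU.2 hs hyU.1).symm
  · obtain ⟨j, hj⟩ := B.cover (p x)
    rw [T.pull_eq hx.1 hj hs hxU, T.pull_eq hx.2 hj hs hxU, ← T.left i i' j x hx hj, mul_assoc]

/-- pull-back of a nonzero section along a map with dense image (or surjective) -/
theorem hasSec_pull (T : PB p L' L) (hp : HolMap A B p) (hsurj : Function.Surjective p)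
    (h : HasSec L) : HasSec L' := by
  obtain ⟨s, hs, j, y, hy, h0⟩ := h
  obtain ⟨x, rfl⟩ := hsurj y
  obtain ⟨i, hi⟩ := A.cover x
  refine ⟨T.pull s, T.pull_isHS hp isOpen_univ hs, i, x, hi, ?_⟩
  rw [T.pull_eq hi hy hs (mem_univ _)]
  exact mul_ne_zero (T.ne i j x hi hy) h0

end PB

/-! ### composition -/

section Comp

variable {L₁ : LB A} {L₂ : LB B} {L₃ : LB C}

theorem PB.comp_aux (T : PB p L₁ L₂) (S : PB q L₂ L₃) {i : A.ι} {j j' : B.ι} {l : C.ι} {x : M}
    (hx : x ∈ (A.e i).source) (hj : p x ∈ (B.e j).source) (hj' : p x ∈ (B.e j').source)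
    (hl : q (p x) ∈ (C.e l).source) :
    T.c i j x * S.c j l (p x) = T.c i j' x * S.c j' l (p x) := by
  rw [← T.right i j j' x hx ⟨hj, hj'⟩, ← S.left j j' l (p x) ⟨hj, hj'⟩ hl]
  ring

/-- composition -/
def PB.comp (hp : HolMap A B p) (hq : HolMap B C q) (T : PB p L₁ L₂) (S : PB q L₂ L₃) :
    PB (fun x => q (p x)) L₁ L₃ where
  c i l x := T.c i (PB.ch B (p x)) x * S.c (PB.ch B (p x)) l (p x)
  hol i l := by
    refine holAt_of_local fun x hx hxU => ?_
    obtain ⟨j, hj⟩ := B.cover (p x)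
    have ho : IsOpen (q ⁻¹' (C.e l).source) := (C.e l).open_source.preimage hq.cont
    refine ⟨p ⁻¹' (q ⁻¹' (C.e l).source ∩ (B.e j).source),
      (ho.inter (B.e j).open_source).preimage hp.cont, ⟨hxU, hj⟩, ?_⟩
    have h1 : HolAt A i (p ⁻¹' (q ⁻¹' (C.e l).source ∩ (B.e j).source))
        (fun x => T.c i j x * S.c j l (p x)) :=
      ((T.hol i j).mono fun y hy => hy.2).mul (hp.comp_holAt (S.hol j l))
    exact h1.congr fun y hy hyU => PB.comp_aux T S hy hyU.2 (PB.ch_mem B _) hyU.1
  ne i l x hx hl := mul_ne_zero (T.ne _ _ _ hx (PB.ch_mem B _)) (S.ne _ _ _ (PB.ch_mem B _) hl)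
  left i i' l x hx hl := by
    rw [← T.left i i' _ x hx (PB.ch_mem B _)]; ring
  right i l l' x hx hl := by
    rw [mul_assoc, S.right _ l l' _ (PB.ch_mem B _) hl]

theorem PB.comp_c (hp : HolMap A B p) (hq : HolMap B C q) (T : PB p L₁ L₂) (S : PB q L₂ L₃)
    {i : A.ι} {j : B.ι} {l : C.ι} {x : M} (hx : x ∈ (A.e i).source) (hj : p x ∈ (B.e j).source)
    (hl : q (p x) ∈ (C.e l).source) :
    (PB.comp hp hq T S).c i l x = T.c i j x * S.c j l (p x) :=
  PB.comp_aux T S hx (PB.ch_mem B _) hj hl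

end Comp

/-! ### pull-back of metrics -/

/-- comparison of the two normalisations of the Levi form -/
theorem lev_bridge (u : Cn n → ℝ) (z v : Cn n) : lev u z v = 4 * Levi_145.lev u z v := by
  simp only [lev, Levi_145.lev, iteratedFDeriv_two_apply]
  simp only [Matrix.cons_val_zero, Matrix.cons_val_one]
  ring

theorem lev_congr' {u v : Cn n → ℝ} {z : Cn n} (h : u =ᶠ[𝓝 z] v) (w : Cn n) :
    lev u z w = lev v z w := by
  rw [lev_bridge, lev_bridge, Levi_145.lev_congr h]

namespace PB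

variable {L' K' : LB A} {L K : LB B}

theorem normSq_right (T : PB p L' L) {i : A.ι} {j j' : B.ι} {x : M} (hx : x ∈ (A.e i).source)
    (hj : p x ∈ (B.e j).source) (hj' : p x ∈ (B.e j').source) (h : HM L) :
    h.w j (p x) / ‖T.c i j x‖ ^ 2 = h.w j' (p x) / ‖T.c i j' x‖ ^ 2 := by
  have h1 := T.ne i j x hx hj
  have h2 := L.ne_zero j j' (p x)
  rw [h.tr j j' (p x) ⟨hj, hj'⟩, ← T.right i j j' x hx ⟨hj, hj'⟩, norm_mul, mul_pow]
  field_simp

/-- pull-back of a metric -/
def pullHM (T : PB p L' L) (hp : HolMap A B p) (h : HM L) : HM L' where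
  w i x := h.w (ch B (p x)) (p x) / ‖T.c i (ch B (p x)) x‖ ^ 2
  pos i x hx := by
    have h1 := h.pos _ _ (ch_mem B (p x))
    have h2 := T.ne i _ x hx (ch_mem B (p x))
    positivity
  sm i := by
    intro z hz
    have hx := (A.e i).map_target hz
    set x := (A.e i).symm z with hxz
    set j := ch B (p x) with hj
    have hjm : p x ∈ (B.e j).source := ch_mem B (p x)
    have hzd : z ∈ dm A B p i j := ⟨hz, hjm⟩
    have h1 : ContDiffAt ℝ ∞ (fun y => h.w j ((B.e j).symm y)) (rd A B p i j z) :=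
      (h.sm j).contDiffAt ((B.e j).open_target.mem_nhds ((B.e j).map_source hjm))
    have h2 : ContDiffAt ℝ ∞ (rd A B p i j) z :=
      (hp.analyticAt hzd).contDiffAt.restrict_scalars ℝ
    have h3 := h1.comp z h2
    have ho : IsOpen (p ⁻¹' (B.e j).source) := (B.e j).open_source.preimage hp.cont
    have h4 : ContDiffAt ℝ ∞ (fun y => T.c i j ((A.e i).symm y)) z :=
      ((T.hol i j).contDiffOn ho).contDiffAt ((isOpen_ti ho).mem_nhds ⟨hz, hjm⟩)
    have h5 : ContDiffAt ℝ ∞ (fun y => ‖T.c i j ((A.e i).symm y)‖ ^ 2) z := h4.norm_sq ℝ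
    have h6 := h3.div h5 (by
      have := T.ne i j x hx hjm
      positivity)
    refine (h6.congr_of_eventuallyEq ?_).contDiffWithinAt
    filter_upwards [(hp.isOpen_dm i j).mem_nhds hzd] with y hy
    show _ = h.w j ((B.e j).symm (B.e j (p ((A.e i).symm y)))) / _
    rw [(B.e j).left_inv hy.2]
    exact (T.normSq_right ((A.e i).map_target hy.1) hy.2 (ch_mem B _) h).symm
  tr i i' x hx := by
    have h1 := T.ne i' _ x hx.2 (ch_mem B (p x))
    have h2 := L'.ne_zero i i' x
    rw [← T.left i i' _ x hx (ch_mem B (p x)), norm_mul, mul_pow]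
    field_simp

theorem pullHM_w (T : PB p L' L) (hp : HolMap A B p) (h : HM L) {i : A.ι} {j : B.ι} {x : M}
    (hx : x ∈ (A.e i).source) (hj : p x ∈ (B.e j).source) :
    (T.pullHM hp h).w i x = h.w j (p x) / ‖T.c i j x‖ ^ 2 :=
  T.normSq_right hx (ch_mem B _) hj h

/-- the weight of the pull-back metric -/
theorem pullHM_wt (T : PB p L' L) (hp : HolMap A B p) (h : HM L) {i : A.ι} {j : B.ι} {z : Cn n}
    (hz : z ∈ dm A B p i j) : (T.pullHM hp h).wt i z =
      h.wt j (rd A B p i j z) + Real.log (‖T.c i j ((A.e i).symm z)‖ ^ 2) := by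
  have hx := (A.e i).map_target hz.1
  have h1 := T.ne i j _ hx hz.2
  simp only [HM.wt]
  rw [T.pullHM_w hp h hx hz.2, Real.log_div (h.pos _ _ hz.2).ne' (by positivity)]
  simp only [rd]
  rw [(B.e j).left_inv hz.2]
  ring

/-- the curvature of the pull-back metric -/
theorem pullHM_lev (T : PB p L' L) (hp : HolMap A B p) (h : HM L) {i : A.ι} {j : B.ι} {z : Cn n}
    (hz : z ∈ dm A B p i j) (v : Cn n) : lev ((T.pullHM hp h).wt i) z v =
      lev (h.wt j) (rd A B p i j z) (fderiv ℂ (rd A B p i j) z v) := by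
  have hx := (A.e i).map_target hz.1
  have h1 := T.ne i j _ hx hz.2
  have ho : IsOpen (p ⁻¹' (B.e j).source) := (B.e j).open_source.preimage hp.cont
  have hc : AnalyticAt ℂ (fun y => T.c i j ((A.e i).symm y)) z :=
    Crest.Agent.R266.SCV.analyticOnNhd_of_differentiableOn (isOpen_ti ho) (T.hol i j) z hz
  have hu : ContDiffAt ℝ 2 (h.wt j) (rd A B p i j z) :=
    ((HM_333.wt_smooth h j).contDiffAt
      ((B.e j).open_target.mem_nhds ((B.e j).map_source hz.2))).of_le (by norm_cast)
  have hcomp : ContDiffAt ℝ 2 (fun y => h.wt j (rd A B p i j y)) z :=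
    hu.comp z ((hp.analyticAt hz).contDiffAt.restrict_scalars ℝ)
  have he : (T.pullHM hp h).wt i =ᶠ[𝓝 z] fun y => h.wt j (rd A B p i j y) +
      Real.log (‖T.c i j ((A.e i).symm y)‖ ^ 2) := by
    filter_upwards [(hp.isOpen_dm i j).mem_nhds hz] with y hy
    exact T.pullHM_wt hp h hy
  rw [lev_congr' he, lev_bridge, Levi_145.lev_add hcomp
    (Levi_145.c2_log_normSq hc h1 2), Levi_145.lev_log_normSq hc h1, add_zero,
    Levi_145.lev_comp (hp.analyticAt hz) hu, ← lev_bridge]

theorem pullHM_semipos (T : PB p L' L) (hp : HolMap A B p) {h : HM L} (hs : h.Semipos) :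
    (T.pullHM hp h).Semipos := by
  intro i z hz v
  obtain ⟨j, hj⟩ := B.cover (p ((A.e i).symm z))
  rw [T.pullHM_lev hp h (j := j) ⟨hz, hj⟩]
  exact hs j _ ((B.e j).map_source hj) _

/-- positivity is preserved by immersions -/
theorem pullHM_pos (T : PB p L' L) (hp : HolMap A B p) {h : HM L} (hs : h.Pos)
    (himm : ∀ i j, ∀ z ∈ dm A B p i j, Function.Injective (fderiv ℂ (rd A B p i j) z)) :
    (T.pullHM hp h).Pos := by
  intro i z hz v hv
  obtain ⟨j, hj⟩ := B.cover (p ((A.e i).symm z))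
  rw [T.pullHM_lev hp h (j := j) ⟨hz, hj⟩]
  refine hs j _ ((B.e j).map_source hj) _ fun h0 => hv ?_
  exact himm i j z ⟨hz, hj⟩ (by rw [h0, map_zero])

end PB

/-! ### refinements: the pull-back bundle, homogeneous coordinates -/

/-- every chart of `A` is mapped by `p` into a chart of `B` -/
structure Ref (A : Atl n M) (B : Atl m N) (p : M → N) where
  r : A.ι → B.ι
  sub : ∀ i, ∀ x ∈ (A.e i).source, p x ∈ (B.e (r i)).source

/-- the pull-back bundle -/
def pullLB (hp : HolMap A B p) (R : Ref A B p) (L : LB B) : LB A where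
  g i j x := open Classical in
    if x ∈ (A.e i).source ∩ (A.e j).source then L.g (R.r i) (R.r j) (p x) else 1
  hol i j := by
    have h1 : HolAt A i (p ⁻¹' ((B.e (R.r j)).source ∩ (B.e (R.r i)).source))
        (fun x => L.g (R.r i) (R.r j) (p x)) := hp.comp_holAt (L.hol (R.r i) (R.r j))
    intro z hz
    have hx := (A.e i).map_target hz.1
    have h2 := HolAt.diffAt h1 (((B.e (R.r j)).open_source.inter
      (B.e (R.r i)).open_source).preimage hp.cont) hx ⟨R.sub j _ hz.2, R.sub i _ hx⟩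
    rw [(A.e i).right_inv hz.1] at h2
    refine (h2.congr_of_eventuallyEq ?_).differentiableWithinAt
    filter_upwards [(isOpen_ti (A := A) (i := i) (A.e j).open_source).mem_nhds hz] with w hw
    rw [if_pos ⟨(A.e i).map_target hw.1, hw.2⟩]
  off i j x hx := if_neg hx
  self i x := by
    split_ifs
    · exact L.self _ _
    · rfl
  mul i j k x hx := by
    rw [if_pos hx.1, if_pos ⟨hx.1.2, hx.2⟩, if_pos ⟨hx.1.1, hx.2⟩]
    exact L.mul _ _ _ _ ⟨⟨R.sub i x hx.1.1, R.sub j x hx.1.2⟩, R.sub k x hx.2⟩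

theorem pullLB_g (hp : HolMap A B p) (R : Ref A B p) (L : LB B) {i j : A.ι} {x : M}
    (hx : x ∈ (A.e i).source ∩ (A.e j).source) :
    (pullLB hp R L).g i j x = L.g (R.r i) (R.r j) (p x) := if_pos hx

/-- the pull-back bundle is the pull-back -/
def PB.ref (hp : HolMap A B p) (R : Ref A B p) (L : LB B) : PB p (pullLB hp R L) L where
  c i j x := L.g (R.r i) j (p x)
  hol i j := by
    have h1 : HolAt A i (p ⁻¹' ((B.e j).source ∩ (B.e (R.r i)).source))
        (fun x => L.g (R.r i) j (p x)) := hp.comp_holAt (L.hol (R.r i) j)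
    intro z hz
    have hx := (A.e i).map_target hz.1
    have h2 := HolAt.diffAt h1 (((B.e j).open_source.inter
      (B.e (R.r i)).open_source).preimage hp.cont) hx ⟨hz.2, R.sub i _ hx⟩
    rw [(A.e i).right_inv hz.1] at h2
    exact h2.differentiableWithinAt
  ne i j x _ _ := L.ne_zero _ _ _
  left i i' j x hx hj := by
    rw [pullLB_g hp R L hx]
    exact L.mul _ _ _ _ ⟨⟨R.sub i x hx.1, R.sub i' x hx.2⟩, hj⟩
  right i j j' x hx hj := L.mul _ _ _ _ ⟨⟨R.sub i x hx, hj.1⟩, hj.2⟩

/-- an injective holomorphic immersion into a manifold with `ProjD` gives `ProjD` -/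
def pullProjD (hp : HolMap A B p) (R : Ref A B p) (hinj : Function.Injective p)
    (himm : ∀ i j, ∀ z ∈ dm A B p i j, Function.Injective (fderiv ℂ (rd A B p i j) z))
    (D : ProjD B) : ProjD A where
  N := D.N
  F i x := D.F (R.r i) (p x)
  hol i k := by
    have h1 := hp.comp_holAt (i := i) (D.hol (R.r i) k)
    exact DifferentiableOn.mono h1 fun z hz =>
      ⟨hz.1, mem_univ _, R.sub i _ ((A.e i).map_target hz.1)⟩
  ne i x hx := D.ne _ _ (R.sub i x hx)
  tr i j x hx := D.tr _ _ _ ⟨R.sub i x hx.1, R.sub j x hx.2⟩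
  inj i j x hx y hy := fun h => hinj (D.inj _ _ _ (R.sub i x hx) _ (R.sub j y hy) h)
  imm i z hz v := by
    rintro ⟨c, hc⟩
    have hx := (A.e i).map_target hz
    have hzd : z ∈ dm A B p i (R.r i) := ⟨hz, R.sub i _ hx⟩
    have hw : rd A B p i (R.r i) z ∈ (B.e (R.r i)).target := (B.e (R.r i)).map_source hzd.2
    have hF : DifferentiableAt ℂ (fun w => D.F (R.r i) ((B.e (R.r i)).symm w))
        (rd A B p i (R.r i) z) := by
      rw [differentiableAt_pi]
      intro k
      have h2 := HolAt.diffAt (D.hol (R.r i) k) isOpen_univ ((B.e (R.r i)).map_target hw)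
        (mem_univ _)
      rwa [(B.e (R.r i)).right_inv hw] at h2
    have he : (fun w => D.F (R.r i) (p ((A.e i).symm w))) =ᶠ[𝓝 z]
        (fun w => D.F (R.r i) ((B.e (R.r i)).symm w)) ∘ (rd A B p i (R.r i)) := by
      filter_upwards [(hp.isOpen_dm i (R.r i)).mem_nhds hzd] with w hw
      show _ = D.F (R.r i) ((B.e (R.r i)).symm (B.e (R.r i) (p ((A.e i).symm w))))
      rw [(B.e (R.r i)).left_inv hw.2]
    have h3 := fderiv_comp z (g := fun w => D.F (R.r i) ((B.e (R.r i)).symm w))
      (f := rd A B p i (R.r i)) hF (hp.diffAt hzd)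
    rw [he.fderiv_eq, h3] at hc
    refine himm i (R.r i) z hzd ?_
    rw [map_zero]
    refine D.imm (R.r i) _ hw _ ⟨c, ?_⟩
    show _ = c • D.F (R.r i) ((B.e (R.r i)).symm (B.e (R.r i) (p ((A.e i).symm z))))
    rw [(B.e (R.r i)).left_inv hzd.2]
    exact hc

/-! ### locally biholomorphic maps -/

variable {B : Atl n N}

/-- holomorphic and locally biholomorphic -/
structure LBih (A : Atl n M) (B : Atl n N) (p : M → N) : Prop extends HolMap A B p where
  det : ∀ i j, ∀ x ∈ (A.e i).source, p x ∈ (B.e j).source → (Jp A B p i j x).det ≠ 0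

/-- the canonical bundle -/
def PB.KB (h : LBih A B p) : PB p (KB A) (KB B) where
  c i j x := (Jp A B p i j x).det
  hol i j := holAt_det fun b a => h.holAt_Jp i j b a
  ne i j x hx hj := h.det i j x hx hj
  left i i' j x hx hj := by
    rw [KB_g hx, ← h.toHolMap.Jp_left hx hj, Matrix.det_mul, mul_comm]
  right i j j' x hx hj := by
    rw [KB_g hj, ← h.toHolMap.Jp_right hx hj, Matrix.det_mul, mul_comm]

theorem mt_inj_of_det {T : Cn n →L[ℂ] Cn n} (h : (mt T).det ≠ 0) : Function.Injective T := by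
  intro v w hvw
  have h1 : (mt T).mulVec (fun a => v a) = (mt T).mulVec (fun a => w a) := by
    ext b
    have h2 := mt_apply T v b
    have h3 := mt_apply T w b
    simp only [Matrix.mulVec, dotProduct]
    rw [← h2, ← h3, hvw]
  have h4 := Matrix.mulVec_injective_of_isUnit ((Matrix.isUnit_iff_isUnit_det _).2
    (isUnit_iff_ne_zero.2 h)) h1
  ext a
  exact congrFun h4 a

theorem LBih.inj (h : LBih A B p) {i : A.ι} {j : B.ι} {z : Cn n} (hz : z ∈ dm A B p i j) :
    Function.Injective (fderiv ℂ (rd A B p i j) z) := by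
  have h1 := h.det i j _ ((A.e i).map_target hz.1) hz.2
  rw [Jp_eq, (A.e i).right_inv hz.1] at h1
  exact mt_inj_of_det h1

theorem lBih_id (A : Atl n M) : LBih A A id := by
  refine ⟨holMap_id A, fun i j x hx hj => ?_⟩
  have h1 := Jm_eq (A := A) i j x
  have h2 : Jp A A id i j x = Jm A i j x := rfl
  rw [h2]
  have h3 := J_mul (A := A) i j i ⟨⟨hx, hj⟩, hx⟩
  rw [J_self i hx] at h3
  intro h0
  have h4 := congrArg Matrix.det h3
  rw [Matrix.det_mul, h0, mul_zero, Matrix.det_one] at h4
  exact zero_ne_one h4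

theorem LBih.comp {P : Type} [TopologicalSpace P] {C : Atl n P} {q : N → P} (hq : LBih B C q)
    (hp : LBih A B p) : LBih A C (fun x => q (p x)) := by
  refine ⟨hq.toHolMap.comp hp.toHolMap, fun i l x hx hl => ?_⟩
  obtain ⟨j, hj⟩ := B.cover (p x)
  rw [← Jp_comp hq.toHolMap hp.toHolMap hx hj hl, Matrix.det_mul]
  exact mul_ne_zero (hq.det j l _ hj hl) (hp.det i j x hx hj)

/-- the invertible derivative -/
theorem LBih.hasFDerivAt (h : LBih A B p) {i : A.ι} {j : B.ι} {z : Cn n}
    (hz : z ∈ dm A B p i j) : ∃ T : Cn n ≃L[ℂ] Cn n,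
      HasFDerivAt (rd A B p i j) (T : Cn n →L[ℂ] Cn n) z := by
  have h1 := h.inj hz
  have h2 := (h.toHolMap.diffAt hz).hasFDerivAt
  refine ⟨(LinearEquiv.ofInjectiveEndo (fderiv ℂ (rd A B p i j) z).toLinearMap
    h1).toContinuousLinearEquiv, ?_⟩
  convert h2 using 1
  ext v
  rfl

/-- continuous local sections of a locally biholomorphic map are holomorphic -/
theorem LBih.sec_diffAt (h : LBih A B p) {σ : N → M} {V : Set N} (hV : IsOpen V)
    (hσ : ContinuousOn σ V) (hs : ∀ y ∈ V, p (σ y) = y) {i : A.ι} {j : B.ι} {y : N}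
    (hy : y ∈ V) (hj : y ∈ (B.e j).source) (hi : σ y ∈ (A.e i).source) :
    DifferentiableAt ℂ (rd B A σ j i) (B.e j y) := by
  have hzd : A.e i (σ y) ∈ dm A B p i j := mem_dm hi (by rw [hs y hy]; exact hj)
  obtain ⟨T, hT⟩ := h.hasFDerivAt hzd
  have e1 : rd B A σ j i (B.e j y) = A.e i (σ y) := by
    simp only [rd]
    rw [(B.e j).left_inv hj]
  have hc : ContinuousAt (rd B A σ j i) (B.e j y) := by
    have h1 : ContinuousAt σ y := hσ.continuousAt (hV.mem_nhds hy)
    have h2 : ContinuousAt (B.e j).symm (B.e j y) :=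
      (B.e j).continuousAt_symm ((B.e j).map_source hj)
    have h3 : ContinuousAt (fun z => σ ((B.e j).symm z)) (B.e j y) := by
      refine ContinuousAt.comp (g := σ) ?_ h2
      rw [(B.e j).left_inv hj]
      exact h1
    refine ContinuousAt.comp (g := A.e i) ?_ h3
    show ContinuousAt (A.e i) (σ ((B.e j).symm (B.e j y)))
    rw [(B.e j).left_inv hj]
    exact (A.e i).continuousAt hi
  have hT' : HasFDerivAt (rd A B p i j) (T : Cn n →L[ℂ] Cn n) (rd B A σ j i (B.e j y)) := by
    rw [e1]; exact hT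
  have hl : ∀ᶠ w in 𝓝 (B.e j y), rd A B p i j (rd B A σ j i w) = w := by
    have h4 : ∀ᶠ w in 𝓝 (B.e j y), w ∈ (B.e j).target ∧ (B.e j).symm w ∈ V ∧
        σ ((B.e j).symm w) ∈ (A.e i).source := by
      have h5 : ContinuousAt (B.e j).symm (B.e j y) :=
        (B.e j).continuousAt_symm ((B.e j).map_source hj)
      have h6 : {y | y ∈ V ∧ σ y ∈ (A.e i).source} ∈ 𝓝 y := by
        have h7 := (hσ.continuousAt (hV.mem_nhds hy)).preimage_mem_nhds
          ((A.e i).open_source.mem_nhds hi)
        filter_upwards [hV.mem_nhds hy, h7] with w h8 h9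
        exact ⟨h8, h9⟩
      have h7 : ∀ᶠ w in 𝓝 (B.e j y), (B.e j).symm w ∈ {y | y ∈ V ∧ σ y ∈ (A.e i).source} :=
        h5.preimage_mem_nhds (by rw [(B.e j).left_inv hj]; exact h6)
      filter_upwards [(B.e j).open_target.mem_nhds ((B.e j).map_source hj), h7] with w h8 h9
      exact ⟨h8, h9.1, h9.2⟩
    filter_upwards [h4] with w hw
    simp only [rd]
    rw [(A.e i).left_inv hw.2.2, hs _ hw.2.1, (B.e j).right_inv hw.1]
  exact (HasFDerivAt.of_local_left_inverse hc hT' hl).differentiableAt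

/-- functions composed with a local section -/
theorem LBih.sec_holAt (h : LBih A B p) {σ : N → M} {V : Set N} (hV : IsOpen V)
    (hσ : ContinuousOn σ V) (hs : ∀ y ∈ V, p (σ y) = y) {i : A.ι} {j : B.ι} {U : Set M}
    (hU : IsOpen U) {f : M → ℂ} (hf : HolAt A i U f) :
    HolAt B j (V ∩ σ ⁻¹' (U ∩ (A.e i).source)) (fun y => f (σ y)) := by
  intro z hz
  have hj := (B.e j).map_target hz.1
  have h1 := h.sec_diffAt hV hσ hs hz.2.1 hj hz.2.2.2
  rw [(B.e j).right_inv hz.1] at h1
  have h2 : DifferentiableAt ℂ (fun w => f ((A.e i).symm w)) (rd B A σ j i z) :=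
    hf.diffAt hU hz.2.2.2 hz.2.2.1
  have h3 := DifferentiableAt.comp z (f := rd B A σ j i) h2 h1
  refine DifferentiableWithinAt.congr_of_eventuallyEq h3.differentiableWithinAt ?_ ?_
  · filter_upwards [self_mem_nhdsWithin] with w hw
    simp only [Function.comp, rd]
    rw [(A.e i).left_inv hw.2.2.2]
  · simp only [Function.comp, rd]
    rw [(A.e i).left_inv hz.2.2.2]

/-- a continuous section of a locally biholomorphic map (in particular the inverse of a
bijective one) is locally biholomorphic -/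
theorem LBih.symm {q : N → M} (h : LBih A B p) (hq : Continuous q) (h1 : ∀ y, p (q y) = y) :
    LBih B A q := by
  have hol : HolMap B A q := by
    refine ⟨hq, fun j i z hz => ?_⟩
    have h3 := h.sec_diffAt isOpen_univ hq.continuousOn (fun y _ => h1 y) (mem_univ _)
      ((B.e j).map_target hz.1) hz.2
    rw [(B.e j).right_inv hz.1] at h3
    exact h3.differentiableWithinAt
  refine ⟨hol, fun j i y hj hi h0 => ?_⟩
  have h3 := Jp_comp h.toHolMap hol (x := y) (l := j) hj hi (by rw [h1]; exact hj)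
  have h4 : Jp B B (fun x => p (q x)) j j y = 1 := by
    have h5 : (fun x => p (q x)) = id := funext h1
    rw [h5]
    exact J_self j hj
  rw [h4] at h3
  have h5 := congrArg Matrix.det h3
  rw [Matrix.det_mul, h0, mul_zero, Matrix.det_one] at h5
  exact zero_ne_one h5

end

end Crest.Agent.R273.PB_835
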