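import Mathlib

/-!
# R273, leaf D.11 (helper392): the abstract pre-Hilbert step (BP-D v1, section 5, STEP 1)

Setting: pre-Hilbert spaces `S0, S1, S2`, operators `T0 : S0 → S1`, `T1 : S1 → S2` with `T1 T0 = 0`,
formal adjoint `T0s : S1 → S0` of `T0`, and mollifiers `J0, J1, J2` (sequences of linear maps) with

* (F1) `‖J1 N u‖ ≤ C ‖u‖`, `J1 N u → u`;
* (F2) `‖T1 (J1 N u) - J2 N (T1 u)‖ ≤ C ‖u‖` and `→ 0`; the same for `T0s`;
* (F3) `J0 N` has finite rank: `J0 N v = ∑ k, ⟪s k, v⟫ • e k`.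

CONCLUSION (`exists_seq`) : if `T1 z = 0` there are `y : ℕ → S0`, `c : ℕ → S1` with, for
`b N = z - T0 (y N)`: `b` and `c` Cauchy, `c - b → 0`, `⟪T0 w, b N⟫ → 0` for all `w`,
`T1 (c N) → 0`, `T0s (c N) → 0`, and `⟪w, c N⟫ → ⟪w, z⟫` for all `w` with `T0s w = 0`.

`exists_seq_core` : the same on plain modules with inner products given by
`InnerProductSpace.Core` (no normed space instances in the statement).
-/

set_option autoImplicit false
set_option linter.style.haveILetI false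

open Filter Topology
open scoped InnerProductSpace

namespace Crest.Agent.R273.AbsStep392

/-- Uniformly bounded linear maps which converge pointwise to `0` converge to `0` along every
Cauchy sequence. -/
theorem tendsto_of_cauchy {S X : Type*} [NormedAddCommGroup S] [NormedSpace ℂ S]
    [NormedAddCommGroup X] [NormedSpace ℂ X] (A : ℕ → S →ₗ[ℂ] X) (C : ℝ)
    (hC : ∀ N u, ‖A N u‖ ≤ C * ‖u‖) (h0 : ∀ u, Tendsto (fun N => A N u) atTop (𝓝 0))
    (b : ℕ → S) (hb : CauchySeq b) :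
    Tendsto (fun N => A N (b N)) atTop (𝓝 0) := by
  have hC0 : 0 ≤ |C| + 1 := by positivity
  rw [Metric.tendsto_atTop]
  intro ε hε
  have hδ : 0 < ε / (2 * (|C| + 1)) := by positivity
  obtain ⟨m, hm⟩ := Metric.cauchySeq_iff'.1 hb _ hδ
  obtain ⟨m', hm'⟩ := Metric.tendsto_atTop.1 (h0 (b m)) (ε / 2) (by positivity)
  refine ⟨max m m', fun N hN => ?_⟩
  have h1 := hm N (le_trans (le_max_left _ _) hN)
  have h2 := hm' N (le_trans (le_max_right _ _) hN)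
  rw [dist_zero_right] at h2 ⊢
  rw [dist_eq_norm] at h1
  have h3 : A N (b N) = A N (b N - b m) + A N (b m) := by rw [map_sub]; abel
  have h4 : ‖A N (b N - b m)‖ ≤ (|C| + 1) * ‖b N - b m‖ :=
    (hC N _).trans (mul_le_mul_of_nonneg_right ((le_abs_self C).trans (by linarith))
      (norm_nonneg _))
  have h5 : (|C| + 1) * ‖b N - b m‖ ≤ ε / 2 := by
    have := mul_le_mul_of_nonneg_left h1.le hC0
    refine this.trans (le_of_eq ?_)
    field_simp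
  calc ‖A N (b N)‖ ≤ ‖A N (b N - b m)‖ + ‖A N (b m)‖ := by rw [h3]; exact norm_add_le _ _
    _ < ε := by linarith

/-- A vector of a pre-Hilbert space modulo the range of an operator: a minimising sequence. -/
theorem exists_min_seq {S0 S1 : Type*} [AddCommGroup S0] [Module ℂ S0]
    [NormedAddCommGroup S1] [InnerProductSpace ℂ S1]
    (T0 : S0 →ₗ[ℂ] S1) (z : S1) :
    ∃ y : ℕ → S0, CauchySeq (fun n => z - T0 (y n)) ∧
      ∀ w : S0, Tendsto (fun n => ⟪T0 w, z - T0 (y n)⟫_ℂ) atTop (𝓝 0) := by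
  let H := UniformSpace.Completion S1
  let ι : S1 →ₗᵢ[ℂ] H := UniformSpace.Completion.toComplₗᵢ
  let K : Submodule ℂ H := ((LinearMap.range T0).map ι.toLinearMap).topologicalClosure
  have : CompleteSpace K := (Submodule.isClosed_topologicalClosure _).completeSpace_coe
  have hKT : ∀ w, ι (T0 w) ∈ K := fun w =>
    Submodule.le_topologicalClosure _ (Submodule.mem_map_of_mem (LinearMap.mem_range_self T0 w))
  set p : H := K.starProjection (ι z) with hp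
  have hpK : p ∈ K := Submodule.starProjection_apply_mem _ _
  have hperp : ι z - p ∈ Kᗮ := Submodule.sub_starProjection_mem_orthogonal _
  -- approximate `p`
  have hcl : p ∈ closure (((LinearMap.range T0).map ι.toLinearMap : Submodule ℂ H) : Set H) := by
    rw [← Submodule.topologicalClosure_coe]; exact hpK
  obtain ⟨x, hx, hxp⟩ := mem_closure_iff_seq_limit.1 hcl
  have hx' : ∀ n, ∃ y : S0, ι (T0 y) = x n := by
    intro n
    obtain ⟨_, ⟨y, rfl⟩, h2⟩ := hx n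
    exact ⟨y, h2⟩
  choose y hy using hx'
  have hlim : Tendsto (fun n => ι (z - T0 (y n))) atTop (𝓝 (ι z - p)) := by
    have h1 : (fun n => ι (z - T0 (y n))) = fun n => ι z - x n := by
      funext n
      rw [map_sub, hy]
    rw [h1]
    exact tendsto_const_nhds.sub hxp
  refine ⟨y, ?_, fun w => ?_⟩
  · have h1 : CauchySeq (fun n => ι (z - T0 (y n))) := hlim.cauchySeq
    rw [Metric.cauchySeq_iff] at h1 ⊢
    intro ε hε
    obtain ⟨N, hN⟩ := h1 ε hε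
    refine ⟨N, fun m hm n hn => ?_⟩
    have := hN m hm n hn
    rwa [ι.isometry.dist_eq] at this
  · have h1 : Tendsto (fun n => ⟪ι (T0 w), ι (z - T0 (y n))⟫_ℂ) atTop
        (𝓝 ⟪ι (T0 w), ι z - p⟫_ℂ) := tendsto_const_nhds.inner hlim
    have h2 : ⟪ι (T0 w), ι z - p⟫_ℂ = 0 := Submodule.inner_right_of_mem_orthogonal (hKT w) hperp
    rw [h2] at h1
    refine h1.congr fun n => ?_
    exact ι.inner_map_map _ _

/-- **D.11, STEP 1 of the Hodge existence theorem without Laplacian** (three spaces version). -/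
theorem exists_seq {S0 S1 S2 : Type*}
    [NormedAddCommGroup S0] [InnerProductSpace ℂ S0]
    [NormedAddCommGroup S1] [InnerProductSpace ℂ S1]
    [NormedAddCommGroup S2] [InnerProductSpace ℂ S2]
    (T0 : S0 →ₗ[ℂ] S1) (T1 : S1 →ₗ[ℂ] S2) (T0s : S1 →ₗ[ℂ] S0)
    (hadj : ∀ u w, ⟪T0 u, w⟫_ℂ = ⟪u, T0s w⟫_ℂ) (hTT : ∀ u, T1 (T0 u) = 0)
    (J0 : ℕ → S0 →ₗ[ℂ] S0) (J1 : ℕ → S1 →ₗ[ℂ] S1) (J2 : ℕ → S2 →ₗ[ℂ] S2) (C : ℝ)
    (F1b : ∀ N u, ‖J1 N u‖ ≤ C * ‖u‖) (F1 : ∀ u, Tendsto (fun N => J1 N u) atTop (𝓝 u))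
    (F2b : ∀ N u, ‖T1 (J1 N u) - J2 N (T1 u)‖ ≤ C * ‖u‖)
    (F2 : ∀ u, Tendsto (fun N => T1 (J1 N u) - J2 N (T1 u)) atTop (𝓝 0))
    (F2sb : ∀ N u, ‖T0s (J1 N u) - J0 N (T0s u)‖ ≤ C * ‖u‖)
    (F2s : ∀ u, Tendsto (fun N => T0s (J1 N u) - J0 N (T0s u)) atTop (𝓝 0))
    (F3 : ∀ N, ∃ (m : ℕ) (s e : Fin m → S0), ∀ v, J0 N v = ∑ k, ⟪s k, v⟫_ℂ • e k)
    (z : S1) (hz : T1 z = 0) :
    ∃ (y : ℕ → S0) (c : ℕ → S1), CauchySeq (fun N => z - T0 (y N)) ∧ CauchySeq c ∧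
      Tendsto (fun N => c N - (z - T0 (y N))) atTop (𝓝 0) ∧
      (∀ w : S0, Tendsto (fun N => ⟪T0 w, z - T0 (y N)⟫_ℂ) atTop (𝓝 0)) ∧
      Tendsto (fun N => T1 (c N)) atTop (𝓝 0) ∧
      Tendsto (fun N => T0s (c N)) atTop (𝓝 0) ∧
      (∀ w : S1, T0s w = 0 → Tendsto (fun N => ⟪w, c N⟫_ℂ) atTop (𝓝 ⟪w, z⟫_ℂ)) ∧
      (∀ N, c N = J1 N (z - T0 (y N))) := by
  obtain ⟨y', hc', hw'⟩ := exists_min_seq T0 z
  -- for fixed `N`, `J0 N (T0s b_n) → 0`
  have hfix : ∀ N, Tendsto (fun n => J0 N (T0s (z - T0 (y' n)))) atTop (𝓝 0) := by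
    intro N
    obtain ⟨m, s, e, hse⟩ := F3 N
    have h1 : (fun n => J0 N (T0s (z - T0 (y' n)))) =
        fun n => ∑ k, ⟪T0 (s k), z - T0 (y' n)⟫_ℂ • e k := by
      funext n
      rw [hse]
      exact Finset.sum_congr rfl fun k _ => by rw [hadj]
    rw [h1]
    have h2 : Tendsto (fun n => ∑ k, ⟪T0 (s k), z - T0 (y' n)⟫_ℂ • e k) atTop
        (𝓝 (∑ k, (0 : ℂ) • e k)) :=
      tendsto_finsetSum _ fun k _ => (hw' (s k)).smul_const (e k)
    simpa using h2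
  have hch : ∀ N : ℕ, ∃ n ≥ N, ‖J0 N (T0s (z - T0 (y' n)))‖ < 1 / ((N : ℝ) + 1) := by
    intro N
    have h1 := Metric.tendsto_atTop.1 (hfix N) (1 / ((N : ℝ) + 1)) (by positivity)
    obtain ⟨n0, hn0⟩ := h1
    refine ⟨max N n0, le_max_left _ _, ?_⟩
    have := hn0 (max N n0) (le_max_right _ _)
    rwa [dist_zero_right] at this
  choose φ hφ1 hφ2 using hch
  have hφ : Tendsto φ atTop atTop := tendsto_atTop_mono hφ1 tendsto_id
  have hb : CauchySeq (fun N => z - T0 (y' (φ N))) := hc'.comp_tendsto hφ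
  set y : ℕ → S0 := fun N => y' (φ N) with hy
  set b : ℕ → S1 := fun N => z - T0 (y N) with hbdef
  have hTb : ∀ N, T1 (b N) = 0 := fun N => by
    simp only [hbdef, map_sub, hz, hTT, sub_zero]
  have hcb : Tendsto (fun N => J1 N (b N) - b N) atTop (𝓝 0) := by
    have h := tendsto_of_cauchy (fun N => J1 N - LinearMap.id) (C + 1)
      (fun N u => by
        have h1 : ‖(J1 N - LinearMap.id : S1 →ₗ[ℂ] S1) u‖ ≤ ‖J1 N u‖ + ‖u‖ := by
          simpa using norm_sub_le (J1 N u) u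
        have h2 := F1b N u
        linarith)
      (fun u => by
        have h1 : Tendsto (fun N => J1 N u - u) atTop (𝓝 (u - u)) := (F1 u).sub_const u
        simpa using h1)
      b hb
    simpa using h
  have hwb : ∀ w : S0, Tendsto (fun N => ⟪T0 w, b N⟫_ℂ) atTop (𝓝 0) := fun w =>
    (hw' w).comp hφ
  have hbw : ∀ w : S1, T0s w = 0 → ∀ N, ⟪w, b N⟫_ℂ = ⟪w, z⟫_ℂ := by
    intro w hw N
    have h1 : ⟪w, T0 (y N)⟫_ℂ = 0 := by
      rw [← inner_conj_symm, hadj, hw, inner_zero_right, map_zero]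
    simp only [hbdef]
    rw [inner_sub_right, h1, sub_zero]
  refine ⟨y, fun N => J1 N (b N), hb, ?_, hcb, hwb, ?_, ?_, ?_, fun N => rfl⟩
  · -- Cauchy: sum of a Cauchy sequence and a null sequence
    have h1 : (fun N => J1 N (b N)) = (fun N => (J1 N (b N) - b N)) + b := by
      funext N; simp
    rw [h1]
    exact hcb.cauchySeq.add hb
  · have h := tendsto_of_cauchy (fun N => T1 ∘ₗ J1 N - J2 N ∘ₗ T1) C
      (fun N u => by simpa using F2b N u) (fun u => by simpa using F2 u) b hb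
    refine h.congr fun N => ?_
    simp [hTb]
  · have h := tendsto_of_cauchy (fun N => T0s ∘ₗ J1 N - J0 N ∘ₗ T0s) C
      (fun N u => by simpa using F2sb N u) (fun u => by simpa using F2s u) b hb
    have h2 : Tendsto (fun N => J0 N (T0s (b N))) atTop (𝓝 0) := by
      refine squeeze_zero_norm (fun N => (hφ2 N).le) ?_
      exact tendsto_one_div_add_atTop_nhds_zero_nat
    have h3 := h.add h2
    rw [add_zero] at h3
    refine h3.congr fun N => ?_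
    simp
  · intro w hw
    have h1 : Tendsto (fun N => ⟪w, J1 N (b N) - b N⟫_ℂ + ⟪w, z⟫_ℂ) atTop
        (𝓝 (⟪w, (0 : S1)⟫_ℂ + ⟪w, z⟫_ℂ)) :=
      (tendsto_const_nhds.inner hcb).add_const _
    rw [inner_zero_right, zero_add] at h1
    refine h1.congr fun N => ?_
    rw [← hbw w hw N, ← inner_add_right, sub_add_cancel]

/-- **D.11, STEP 1**, single space version. -/
theorem exists_seq_one {S : Type*} [NormedAddCommGroup S] [InnerProductSpace ℂ S]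
    (T Ts : S →ₗ[ℂ] S) (hadj : ∀ u w, ⟪T u, w⟫_ℂ = ⟪u, Ts w⟫_ℂ) (hTT : ∀ u, T (T u) = 0)
    (J : ℕ → S →ₗ[ℂ] S) (C : ℝ)
    (F1b : ∀ N u, ‖J N u‖ ≤ C * ‖u‖) (F1 : ∀ u, Tendsto (fun N => J N u) atTop (𝓝 u))
    (F2b : ∀ N u, ‖T (J N u) - J N (T u)‖ ≤ C * ‖u‖)
    (F2 : ∀ u, Tendsto (fun N => T (J N u) - J N (T u)) atTop (𝓝 0))
    (F2sb : ∀ N u, ‖Ts (J N u) - J N (Ts u)‖ ≤ C * ‖u‖)
    (F2s : ∀ u, Tendsto (fun N => Ts (J N u) - J N (Ts u)) atTop (𝓝 0))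
    (F3 : ∀ N, ∃ (m : ℕ) (s e : Fin m → S), ∀ v, J N v = ∑ k, ⟪s k, v⟫_ℂ • e k)
    (z : S) (hz : T z = 0) :
    ∃ (y : ℕ → S) (c : ℕ → S), CauchySeq (fun N => z - T (y N)) ∧ CauchySeq c ∧
      Tendsto (fun N => c N - (z - T (y N))) atTop (𝓝 0) ∧
      (∀ w : S, Tendsto (fun N => ⟪T w, z - T (y N)⟫_ℂ) atTop (𝓝 0)) ∧
      Tendsto (fun N => T (c N)) atTop (𝓝 0) ∧
      Tendsto (fun N => Ts (c N)) atTop (𝓝 0) ∧
      (∀ w : S, Ts w = 0 → Tendsto (fun N => ⟪w, c N⟫_ℂ) atTop (𝓝 ⟪w, z⟫_ℂ)) ∧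
      (∀ N, c N = J N (z - T (y N))) :=
  exists_seq T T Ts hadj hTT J J J C F1b F1 F2b F2 F2sb F2s F3 z hz

/-- The norm of a `Core` inner product on a plain module. -/
noncomputable def nrm {S : Type*} [AddCommGroup S] [Module ℂ S] (c : InnerProductSpace.Core ℂ S)
    (u : S) : ℝ := Real.sqrt (c.inner u u).re

/-- **D.11, STEP 1**, on plain modules with inner products given by `InnerProductSpace.Core`.
`nrm c u = √ re ⟪u, u⟫`. All conclusions are statements about real or complex sequences. -/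
theorem exists_seq_core {S0 S1 S2 : Type*} [AddCommGroup S0] [Module ℂ S0]
    [AddCommGroup S1] [Module ℂ S1] [AddCommGroup S2] [Module ℂ S2]
    (c0 : InnerProductSpace.Core ℂ S0) (c1 : InnerProductSpace.Core ℂ S1)
    (c2 : InnerProductSpace.Core ℂ S2)
    (T0 : S0 →ₗ[ℂ] S1) (T1 : S1 →ₗ[ℂ] S2) (T0s : S1 →ₗ[ℂ] S0)
    (hadj : ∀ u w, c1.inner (T0 u) w = c0.inner u (T0s w)) (hTT : ∀ u, T1 (T0 u) = 0)
    (J0 : ℕ → S0 →ₗ[ℂ] S0) (J1 : ℕ → S1 →ₗ[ℂ] S1) (J2 : ℕ → S2 →ₗ[ℂ] S2) (C : ℝ)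
    (F1b : ∀ N u, nrm c1 (J1 N u) ≤ C * nrm c1 u)
    (F1 : ∀ u, Tendsto (fun N => nrm c1 (J1 N u - u)) atTop (𝓝 0))
    (F2b : ∀ N u, nrm c2 (T1 (J1 N u) - J2 N (T1 u)) ≤ C * nrm c1 u)
    (F2 : ∀ u, Tendsto (fun N => nrm c2 (T1 (J1 N u) - J2 N (T1 u))) atTop (𝓝 0))
    (F2sb : ∀ N u, nrm c0 (T0s (J1 N u) - J0 N (T0s u)) ≤ C * nrm c1 u)
    (F2s : ∀ u, Tendsto (fun N => nrm c0 (T0s (J1 N u) - J0 N (T0s u))) atTop (𝓝 0))
    (F3 : ∀ N, ∃ (m : ℕ) (s e : Fin m → S0), ∀ v, J0 N v = ∑ k, c0.inner (s k) v • e k)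
    (z : S1) (hz : T1 z = 0) :
    ∃ (y : ℕ → S0) (c : ℕ → S1),
      (∀ ε > 0, ∃ N, ∀ m ≥ N, ∀ n ≥ N, nrm c1 ((z - T0 (y m)) - (z - T0 (y n))) < ε) ∧
      (∀ ε > 0, ∃ N, ∀ m ≥ N, ∀ n ≥ N, nrm c1 (c m - c n) < ε) ∧
      Tendsto (fun N => nrm c1 (c N - (z - T0 (y N)))) atTop (𝓝 0) ∧
      (∀ w : S0, Tendsto (fun N => c1.inner (T0 w) (z - T0 (y N))) atTop (𝓝 0)) ∧
      Tendsto (fun N => nrm c2 (T1 (c N))) atTop (𝓝 0) ∧
      Tendsto (fun N => nrm c0 (T0s (c N))) atTop (𝓝 0) ∧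
      (∀ w : S1, T0s w = 0 → Tendsto (fun N => c1.inner w (c N)) atTop (𝓝 (c1.inner w z))) ∧
      (∀ N, c N = J1 N (z - T0 (y N))) := by
  letI : NormedAddCommGroup S0 := c0.toNormedAddCommGroup
  letI : InnerProductSpace ℂ S0 := .ofCore c0.toCore
  letI : NormedAddCommGroup S1 := c1.toNormedAddCommGroup
  letI : InnerProductSpace ℂ S1 := .ofCore c1.toCore
  letI : NormedAddCommGroup S2 := c2.toNormedAddCommGroup
  letI : InnerProductSpace ℂ S2 := .ofCore c2.toCore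
  have n0 : ∀ u : S0, nrm c0 u = ‖u‖ := fun u => rfl
  have n1 : ∀ u : S1, nrm c1 u = ‖u‖ := fun u => rfl
  have n2 : ∀ u : S2, nrm c2 u = ‖u‖ := fun u => rfl
  simp only [n0, n1, n2] at *
  have key := exists_seq T0 T1 T0s hadj hTT J0 J1 J2 C F1b
    (fun u => tendsto_iff_norm_sub_tendsto_zero.2 (F1 u)) F2b
    (fun u => tendsto_zero_iff_norm_tendsto_zero.2 (F2 u)) F2sb
    (fun u => tendsto_zero_iff_norm_tendsto_zero.2 (F2s u)) F3 z hz
  obtain ⟨y, c, h1, h2, h3, h4, h5, h6, h7, h8⟩ := key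
  refine ⟨y, c, ?_, ?_, tendsto_zero_iff_norm_tendsto_zero.1 h3, h4,
    tendsto_zero_iff_norm_tendsto_zero.1 h5, tendsto_zero_iff_norm_tendsto_zero.1 h6, h7, h8⟩
  · intro ε hε
    obtain ⟨N, hN⟩ := Metric.cauchySeq_iff.1 h1 ε hε
    exact ⟨N, fun m hm n hn => by simpa [dist_eq_norm] using hN m hm n hn⟩
  · intro ε hε
    obtain ⟨N, hN⟩ := Metric.cauchySeq_iff.1 h2 ε hε
    exact ⟨N, fun m hm n hn => by simpa [dist_eq_norm] using hN m hm n hn⟩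

end Crest.Agent.R273.AbsStep392
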