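import Crest.Agent.R273.SplD_836

/-!
# R273 (S0416), Part B, ACT (helper836): maps preserving a splitting are product maps

* `const_of_dr` : a holomorphic map with vanishing differential on a connected manifold is constant;
* `Dec.snd_eq`, `Dec.fst_eq` : if `f` maps the image (kernel) of `P` to the image (kernel) of `P'`,
  then the second (first) component of `Φ' ∘ f` depends on the second (first) component only;
* `Pres S S' f` : `f` preserves both; `Dec.f₁`, `Dec.f₂`, `Dec.map_eq` : `Φ' ∘ f = (f₁ × f₂) ∘ Φ`;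
* `Dec.act₁`, `Dec.act₂` : the actions of a group on the factors.
-/

set_option autoImplicit false
set_option linter.unusedSectionVars false

open Set Filter Topology Complex Metric
open scoped ContDiff Matrix ComplexConjugate Manifold

namespace Crest.Agent.R273.SplA_836

open Crest.Agent.R275.Geo Crest.Agent.R275.Core144 Crest.Agent.R275.GC293
open Crest.Agent.R273.Defs_333 Crest.Agent.R273.Map_835 Crest.Agent.R273.Fam_835
open Crest.Agent.R273.Prd_835 Crest.Agent.R273.PB_835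

noncomputable section

section const

variable {n m : ℕ} {M N : Type} [TopologicalSpace M] [TopologicalSpace N] {A : Atl n M}
  {B : Atl m N}

/-- a holomorphic map with vanishing differential is locally constant -/
theorem locConst_of_dr {p : M → N} (hp : HolMap A B p)
    (h : ∀ i j x, x ∈ (A.e i).source → p x ∈ (B.e j).source → dr A B p i j x = 0) :
    IsLocallyConstant p := by
  rw [IsLocallyConstant.iff_eventually_eq]
  intro x
  obtain ⟨i, hi⟩ := A.cover x
  obtain ⟨j, hj⟩ := B.cover (p x)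
  have ho := hp.isOpen_dm i j
  have hm := mem_dm (p := p) (A := A) (B := B) hi hj
  obtain ⟨r, hr, hrU⟩ := Metric.isOpen_iff.1 ho _ hm
  have hconst : ∀ z ∈ ball (A.e i x) r, rd A B p i j z = rd A B p i j (A.e i x) := by
    intro z hz
    have h0 : ∀ w ∈ ball (A.e i x) r, fderiv ℂ (rd A B p i j) w = 0 := by
      intro w hw
      have hw' := hrU hw
      have h1 := h i j ((A.e i).symm w) ((A.e i).map_target hw'.1) hw'.2
      unfold dr at h1
      rwa [(A.e i).right_inv hw'.1] at h1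
    exact (convex_ball (A.e i x) r).is_const_of_fderivWithin_eq_zero (𝕜 := ℂ)
      (fun w hw => (hp.diffAt (hrU hw)).differentiableWithinAt)
      (fun w hw => by rw [fderivWithin_of_isOpen isOpen_ball hw, h0 w hw]) hz (mem_ball_self hr)
  have h1 : ∀ᶠ y in 𝓝 x, A.e i y ∈ ball (A.e i x) r :=
    (A.e i).continuousAt hi (isOpen_ball.mem_nhds (mem_ball_self hr))
  filter_upwards [h1, (A.e i).open_source.mem_nhds hi] with y hy hys
  have h2 := hconst _ hy
  have h3 : p y ∈ (B.e j).source := by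
    have := (hrU hy).2
    rw [mem_preimage, (A.e i).left_inv hys] at this
    exact this
  have h4 : B.e j (p y) = B.e j (p x) := by
    have h5 : rd A B p i j (A.e i y) = B.e j (p y) := by
      show B.e j (p ((A.e i).symm (A.e i y))) = _
      rw [(A.e i).left_inv hys]
    have h6 : rd A B p i j (A.e i x) = B.e j (p x) := by
      show B.e j (p ((A.e i).symm (A.e i x))) = _
      rw [(A.e i).left_inv hi]
    rw [← h5, ← h6, h2]
  exact (B.e j).injOn h3 hj h4

theorem const_of_dr [PreconnectedSpace M] {p : M → N} (hp : HolMap A B p)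
    (h : ∀ i j x, x ∈ (A.e i).source → p x ∈ (B.e j).source → dr A B p i j x = 0) (x y : M) :
    p x = p y :=
  (locConst_of_dr hp h).apply_eq_of_isPreconnected isPreconnected_univ trivial trivial

end const

variable {n n' : ℕ} {M M' : Type} [TopologicalSpace M] [TopologicalSpace M'] {A : Atl n M}
  {A' : Atl n' M'} {S : Spl A} {S' : Spl A'} {r s r' s' : ℕ}

/-- `f` preserves the splittings -/
structure Pres (S : Spl A) (S' : Spl A') (f : M → M') : Prop where
  hol : HolMap A A' f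
  im : ∀ {i : A.ι} {i' : A'.ι} {x : M}, x ∈ (A.e i).source → f x ∈ (A'.e i').source →
    ∀ v, toC (S.P i x) v = v → toC (S'.P i' (f x)) (dr A A' f i i' x v) = dr A A' f i i' x v
  ke : ∀ {i : A.ι} {i' : A'.ι} {x : M}, x ∈ (A.e i).source → f x ∈ (A'.e i').source →
    ∀ v, toC (S.P i x) v = 0 → toC (S'.P i' (f x)) (dr A A' f i i' x v) = 0

/-- matrix criterion -/
theorem Pres.of_matrix {f : M → M'} (hf : HolMap A A' f)
    (h : ∀ i i' x, x ∈ (A.e i).source → f x ∈ (A'.e i').source →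
      S'.P i' (f x) * Jp A A' f i i' x = Jp A A' f i i' x * S.P i x) : Pres S S' f := by
  have key : ∀ {i : A.ι} {i' : A'.ι} {x : M}, x ∈ (A.e i).source → f x ∈ (A'.e i').source →
      ∀ v, toC (S'.P i' (f x)) (dr A A' f i i' x v) = dr A A' f i i' x (toC (S.P i x) v) := by
    intro i i' x hx hx' v
    have h1 := h i i' x hx hx'
    rw [Jp_eq_dr] at h1
    ext b
    rw [toC_apply, mt_apply]
    have h2 : ∀ a, (dr A A' f i i' x v) a = ∑ c, mt (dr A A' f i i' x) a c * v c :=
      fun a => mt_apply _ _ _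
    have h3 : ∀ a, (toC (S.P i x) v) a = ∑ c, S.P i x a c * v c := fun a => toC_apply _ _ _
    simp only [h2, h3, Finset.mul_sum]
    rw [Finset.sum_comm]
    conv_rhs => rw [Finset.sum_comm]
    refine Finset.sum_congr rfl fun c _ => ?_
    have h4 := congrFun (congrFun h1 b) c
    rw [Matrix.mul_apply, Matrix.mul_apply] at h4
    simp only [← mul_assoc, ← Finset.sum_mul]
    rw [h4]
  refine ⟨hf, fun hx hx' v hv => ?_, fun hx hx' v hv => ?_⟩
  · rw [key hx hx', hv]
  · rw [key hx hx', hv, map_zero]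

namespace Dec

variable (D : Dec S r s) (D' : Dec S' r' s') {f : M → M'}

/-- the second component of `Φ' ∘ f` only depends on the second component -/
theorem snd_eq (hf : Pres S S' f) (y y' : D.Y₁) (z : D.Y₂) :
    (D'.Φ (f (D.Φ.symm (y, z)))).2 = (D'.Φ (f (D.Φ.symm (y', z)))).2 := by
  have h1 : HolMap D.B₁ A (D.in₁ z) := D.holIn₁ z
  have h2 : HolMap D.B₁ A' (fun y => f (D.in₁ z y)) := hf.hol.comp h1
  have h3 : HolMap D.B₁ D'.B₂ (fun y => (D'.Φ (f (D.in₁ z y))).2) := D'.hol₂.comp h2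
  refine const_of_dr h3 (fun i j y hy hj => ?_) y y'
  obtain ⟨a, ha⟩ := A.cover (D.in₁ z y)
  obtain ⟨a', ha'⟩ := A'.cover (f (D.in₁ z y))
  ext1 v
  rw [dr_comp (q := fun x => (D'.Φ x).2) (p := fun y => f (D.in₁ z y)) D'.hol₂ h2 hy ha' hj v,
    dr_comp (q := f) (p := D.in₁ z) hf.hol h1 hy ha ha' v]
  exact D'.tan₂ ha' hj _ (hf.im ha ha' _ (D.in₁_tan z hy ha v))

/-- the first component of `Φ' ∘ f` only depends on the first component -/
theorem fst_eq (hf : Pres S S' f) (y : D.Y₁) (z z' : D.Y₂) :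
    (D'.Φ (f (D.Φ.symm (y, z)))).1 = (D'.Φ (f (D.Φ.symm (y, z')))).1 := by
  have h1 : HolMap D.B₂ A (D.in₂ y) := D.holIn₂ y
  have h2 : HolMap D.B₂ A' (fun z => f (D.in₂ y z)) := hf.hol.comp h1
  have h3 : HolMap D.B₂ D'.B₁ (fun z => (D'.Φ (f (D.in₂ y z))).1) := D'.hol₁.comp h2
  refine const_of_dr h3 (fun i j z hz hj => ?_) z z'
  obtain ⟨a, ha⟩ := A.cover (D.in₂ y z)
  obtain ⟨a', ha'⟩ := A'.cover (f (D.in₂ y z))
  ext1 v
  rw [dr_comp (q := fun x => (D'.Φ x).1) (p := fun z => f (D.in₂ y z)) D'.hol₁ h2 hz ha' hj v,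
    dr_comp (q := f) (p := D.in₂ y) hf.hol h1 hz ha ha' v]
  exact D'.tan₁ ha' hj _ (hf.ke ha ha' _ (D.in₂_tan y hz ha v))

/-- base points of the factors -/
def o₁ : D.Y₁ := Classical.arbitrary D.Y₁

def o₂ : D.Y₂ := Classical.arbitrary D.Y₂

/-- the first component of a map preserving the splittings -/
def f₁' (f : M → M') (y : D.Y₁) : D'.Y₁ := (D'.Φ (f (D.Φ.symm (y, D.o₂)))).1

/-- the second component -/
def f₂' (f : M → M') (z : D.Y₂) : D'.Y₂ := (D'.Φ (f (D.Φ.symm (D.o₁, z)))).2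

theorem map_eq (hf : Pres S S' f) (x : M) :
    D'.Φ (f x) = (D.f₁' D' f (D.Φ x).1, D.f₂' D' f (D.Φ x).2) := by
  have h1 := D.fst_eq D' hf (D.Φ x).1 (D.Φ x).2 D.o₂
  have h2 := D.snd_eq D' hf (D.Φ x).1 D.o₁ (D.Φ x).2
  have h3 : D.Φ.symm ((D.Φ x).1, (D.Φ x).2) = x := D.Φ.symm_apply_apply x
  rw [h3] at h1 h2
  exact Prod.ext h1 h2

theorem hol_f₁ (hf : Pres S S' f) : HolMap D.B₁ D'.B₁ (D.f₁' D' f) :=
  D'.hol₁.comp (hf.hol.comp (D.holIn₁ D.o₂))

theorem hol_f₂ (hf : Pres S S' f) : HolMap D.B₂ D'.B₂ (D.f₂' D' f) :=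
  D'.hol₂.comp (hf.hol.comp (D.holIn₂ D.o₁))

/-- uniqueness of the components -/
theorem f₁_unique (hf : Pres S S' f) {g₁ : D.Y₁ → D'.Y₁} {g₂ : D.Y₂ → D'.Y₂}
    (h : ∀ x, D'.Φ (f x) = (g₁ (D.Φ x).1, g₂ (D.Φ x).2)) : D.f₁' D' f = g₁ := by
  funext y
  have h1 := D.map_eq D' hf (D.Φ.symm (y, D.o₂))
  rw [h, D.Φ.apply_symm_apply] at h1
  exact (congrArg Prod.fst h1).symm

theorem f₂_unique (hf : Pres S S' f) {g₁ : D.Y₁ → D'.Y₁} {g₂ : D.Y₂ → D'.Y₂}
    (h : ∀ x, D'.Φ (f x) = (g₁ (D.Φ x).1, g₂ (D.Φ x).2)) : D.f₂' D' f = g₂ := by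
  funext y
  have h1 := D.map_eq D' hf (D.Φ.symm (D.o₁, y))
  rw [h, D.Φ.apply_symm_apply] at h1
  exact (congrArg Prod.snd h1).symm

end Dec

/-! ### group actions -/

section action

variable (D : Dec S r s) {G : Type*} [Group G] [MulAction G M]

/-- the group preserves the splitting -/
def PresG (S : Spl A) (G : Type*) [Group G] [MulAction G M] : Prop :=
  ∀ g : G, Pres S S (fun x : M => g • x)

variable {D}

theorem Dec.one₁ (hG : PresG S G) : D.f₁' D (fun x => (1 : G) • x) = id :=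
  D.f₁_unique D (hG 1) (g₁ := id) (g₂ := id) fun x => by simp

theorem Dec.one₂ (hG : PresG S G) : D.f₂' D (fun x => (1 : G) • x) = id :=
  D.f₂_unique D (hG 1) (g₁ := id) (g₂ := id) fun x => by simp

theorem Dec.mul_eq (hG : PresG S G) (g h : G) (x : M) : D.Φ ((g * h) • x) =
    (D.f₁' D (fun x => g • x) (D.f₁' D (fun x => h • x) (D.Φ x).1),
      D.f₂' D (fun x => g • x) (D.f₂' D (fun x => h • x) (D.Φ x).2)) := by
  rw [mul_smul, D.map_eq D (hG g) (h • x), D.map_eq D (hG h) x]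

variable (D)

/-- the action on the first factor -/
@[reducible] def Dec.act₁ (hG : PresG S G) : MulAction G D.Y₁ where
  smul g y := D.f₁' D (fun x => g • x) y
  one_smul y := congrFun (Dec.one₁ (D := D) hG) y
  mul_smul g h y := congrFun (D.f₁_unique D (hG (g * h))
    (g₁ := fun y => D.f₁' D (fun x => g • x) (D.f₁' D (fun x => h • x) y))
    (g₂ := fun y => D.f₂' D (fun x => g • x) (D.f₂' D (fun x => h • x) y))
    (Dec.mul_eq hG g h)) y

/-- the action on the second factor -/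
@[reducible] def Dec.act₂ (hG : PresG S G) : MulAction G D.Y₂ where
  smul g y := D.f₂' D (fun x => g • x) y
  one_smul y := congrFun (Dec.one₂ (D := D) hG) y
  mul_smul g h y := congrFun (D.f₂_unique D (hG (g * h))
    (g₁ := fun y => D.f₁' D (fun x => g • x) (D.f₁' D (fun x => h • x) y))
    (g₂ := fun y => D.f₂' D (fun x => g • x) (D.f₂' D (fun x => h • x) y))
    (Dec.mul_eq hG g h)) y

theorem Dec.act_eq (hG : PresG S G) (g : G) (x : M) :
    letI := D.act₁ hG
    letI := D.act₂ hG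
    D.Φ (g • x) = (g • (D.Φ x).1, g • (D.Φ x).2) :=
  D.map_eq D (hG g) x

theorem Dec.hol_act₁ (hG : PresG S G) (g : G) :
    letI := D.act₁ hG
    HolMap D.B₁ D.B₁ (fun y => g • y) :=
  D.hol_f₁ D (hG g)

theorem Dec.hol_act₂ (hG : PresG S G) (g : G) :
    letI := D.act₂ hG
    HolMap D.B₂ D.B₂ (fun y => g • y) :=
  D.hol_f₂ D (hG g)

end action

end

end Crest.Agent.R273.SplA_836
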