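import Crest.Agent.R273.UCovE_914
import Mathlib.MeasureTheory.Integral.CurveIntegral.Poincare

/-!
# R273 (S0416), Part B, ALB-1 (helper645): closed holomorphic 1-forms and their primitives

* `H1 A`            : closed holomorphic 1-forms on `(M, A)` (Submodule);
* `IsPrim A b a`    : `a : M → ℂ` is a primitive of `b`;
* `IsPrim.eq_add`   : uniqueness up to constants;
* `exists_prim`     : primitives on simply connected `M` (`GoodA`);
* `plb D b`, `exists_primN` : primitives of the pull-back on a simply connected covering `D.cov F`;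
* `per`             : periods `H1 A →ₗ[ℂ] (Additive G →+ ℂ)`.
-/

set_option autoImplicit false
set_option linter.unusedSectionVars false
set_option linter.style.haveILetI false

open Set Filter Topology Complex Metric
open scoped ContDiff

namespace Crest.Agent.R273.Alb645

open Crest.Agent.R275.Geo Crest.Agent.R275.Core144 Crest.Agent.R275.GC293
open Crest.Agent.R275.ZC352 Crest.Agent.R273.UCov_914

noncomputable section

variable {n : ℕ} {M : Type} [TopologicalSpace M] {A : Atl n M}

/-- closed holomorphic 1-forms, read in the charts -/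
def H1 (A : Atl n M) : Submodule ℂ (A.ι → M → (Cn n →L[ℂ] ℂ)) where
  carrier := {b | (∀ i, DifferentiableOn ℂ (fun z => b i ((A.e i).symm z)) (A.e i).target) ∧
    (∀ i, ∀ x ∉ (A.e i).source, b i x = 0) ∧
    (∀ i j, ∀ x ∈ (A.e i).source ∩ (A.e j).source,
      b i x = (b j x).comp (fderiv ℂ (fun z => A.e j ((A.e i).symm z)) (A.e i x))) ∧
    ∀ i, ∀ z ∈ (A.e i).target, ∀ v w,
      fderiv ℂ (fun z => b i ((A.e i).symm z)) z v w =
        fderiv ℂ (fun z => b i ((A.e i).symm z)) z w v}
  add_mem' := by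
    rintro b b' ⟨h1, h2, h3, h4⟩ ⟨k1, k2, k3, k4⟩
    refine ⟨fun i => (h1 i).add (k1 i), fun i x hx => ?_, fun i j x hx => ?_,
      fun i z hz v w => ?_⟩
    · simp [h2 i x hx, k2 i x hx]
    · simp only [Pi.add_apply, h3 i j x hx, k3 i j x hx, ContinuousLinearMap.add_comp]
    · have e1 := ((h1 i).differentiableAt ((A.e i).open_target.mem_nhds hz))
      have e2 := ((k1 i).differentiableAt ((A.e i).open_target.mem_nhds hz))
      simp only [Pi.add_apply]
      rw [fderiv_fun_add e1 e2]
      simp only [add_apply, h4 i z hz v w, k4 i z hz v w]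
  zero_mem' := by
    refine ⟨fun i => differentiableOn_const _, fun _ _ _ => rfl, fun _ _ _ _ => ?_,
      fun i z hz v w => ?_⟩
    · simp
    · simp
  smul_mem' := by
    rintro c b ⟨h1, h2, h3, h4⟩
    refine ⟨fun i => (h1 i).const_smul c, fun i x hx => ?_, fun i j x hx => ?_,
      fun i z hz v w => ?_⟩
    · simp [h2 i x hx]
    · simp only [Pi.smul_apply, h3 i j x hx, ContinuousLinearMap.smul_comp]
    · have e1 := ((h1 i).differentiableAt ((A.e i).open_target.mem_nhds hz))
      simp only [Pi.smul_apply]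
      rw [fderiv_fun_const_smul e1]
      simp only [smul_apply, h4 i z hz v w]

/-- `a` is a primitive of the family `b` -/
def IsPrim (A : Atl n M) (b : A.ι → M → (Cn n →L[ℂ] ℂ)) (a : M → ℂ) : Prop :=
  ∀ i, ∀ x ∈ (A.e i).source, HasFDerivAt (fun z => a ((A.e i).symm z)) (b i x) (A.e i x)

theorem IsPrim.add {b b' : A.ι → M → (Cn n →L[ℂ] ℂ)} {a a' : M → ℂ} (h : IsPrim A b a)
    (h' : IsPrim A b' a') : IsPrim A (b + b') (fun x => a x + a' x) :=
  fun i x hx => (h i x hx).add (h' i x hx)

theorem IsPrim.sub {b b' : A.ι → M → (Cn n →L[ℂ] ℂ)} {a a' : M → ℂ} (h : IsPrim A b a)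
    (h' : IsPrim A b' a') : IsPrim A (b - b') (fun x => a x - a' x) :=
  fun i x hx => (h i x hx).sub (h' i x hx)

theorem IsPrim.const_smul {b : A.ι → M → (Cn n →L[ℂ] ℂ)} {a : M → ℂ} (h : IsPrim A b a)
    (c : ℂ) : IsPrim A (c • b) (fun x => c * a x) :=
  fun i x hx => (h i x hx).const_smul c

theorem IsPrim.add_const {b : A.ι → M → (Cn n →L[ℂ] ℂ)} {a : M → ℂ} (h : IsPrim A b a)
    (c : ℂ) : IsPrim A b (fun x => a x + c) :=
  fun i x hx => (h i x hx).add_const c

theorem IsPrim.diffOn {b : A.ι → M → (Cn n →L[ℂ] ℂ)} {a : M → ℂ} (h : IsPrim A b a) (i : A.ι) :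
    DifferentiableOn ℂ (fun z => a ((A.e i).symm z)) (A.e i).target := by
  intro z hz
  have h1 := h i _ ((A.e i).map_target hz)
  rw [(A.e i).right_inv hz] at h1
  exact h1.differentiableAt.differentiableWithinAt

theorem IsPrim.holAt {b : A.ι → M → (Cn n →L[ℂ] ℂ)} {a : M → ℂ} (h : IsPrim A b a) (i : A.ι) :
    HolAt A i univ a := by
  refine (h.diffOn i).mono ?_
  exact inter_subset_left

theorem IsPrim.continuous {b : A.ι → M → (Cn n →L[ℂ] ℂ)} {a : M → ℂ} (h : IsPrim A b a) :
    Continuous a := by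
  rw [continuous_iff_continuousAt]
  intro x
  obtain ⟨i, hi⟩ := A.cover x
  have h1 : ContinuousAt (fun z => a ((A.e i).symm z)) (A.e i x) := (h i x hi).continuousAt
  have h2 : ContinuousAt (fun y => a ((A.e i).symm (A.e i y))) x :=
    ContinuousAt.comp (f := A.e i) (g := fun z => a ((A.e i).symm z)) h1
      ((A.e i).continuousAt hi)
  refine h2.congr ?_
  filter_upwards [(A.e i).open_source.mem_nhds hi] with y hy
  rw [(A.e i).left_inv hy]

/-- a function which is holomorphic in all charts with locally constant differences ... :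
a primitive of zero is locally constant -/
theorem IsPrim.locallyConstant {a : M → ℂ} (h : IsPrim A 0 a) : IsLocallyConstant a := by
  rw [IsLocallyConstant.iff_eventually_eq]
  intro x
  obtain ⟨i, hi⟩ := A.cover x
  have hz := (A.e i).map_source hi
  obtain ⟨r, hr, hb⟩ := Metric.isOpen_iff.1 (A.e i).open_target _ hz
  have h1 : ∀ z ∈ ball (A.e i x) r, a ((A.e i).symm z) = a ((A.e i).symm (A.e i x)) := by
    intro z hz'
    refine (convex_ball (A.e i x) r).is_const_of_fderivWithin_eq_zero (𝕜 := ℂ)
      (f := fun z => a ((A.e i).symm z)) ?_ ?_ hz' (mem_ball_self hr)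
    · exact (h.diffOn i).mono hb
    · intro w hw
      rw [fderivWithin_of_isOpen isOpen_ball hw]
      have h2 := h i _ ((A.e i).map_target (hb hw))
      rw [(A.e i).right_inv (hb hw)] at h2
      exact h2.fderiv
  have h2 : ∀ᶠ y in 𝓝 x, A.e i y ∈ ball (A.e i x) r :=
    ((A.e i).continuousAt hi).eventually (ball_mem_nhds _ hr)
  filter_upwards [h2, (A.e i).open_source.mem_nhds hi] with y hy hy'
  have h3 := h1 _ hy
  rwa [(A.e i).left_inv hy', (A.e i).left_inv hi] at h3

theorem IsPrim.const_of_zero [PreconnectedSpace M] {a : M → ℂ} (h : IsPrim A 0 a) (x y : M) :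
    a x = a y :=
  h.locallyConstant.apply_eq_of_isPreconnected isPreconnected_univ (mem_univ x) (mem_univ y)

/-- primitives are unique up to constants -/
theorem IsPrim.sub_eq [PreconnectedSpace M] {b : A.ι → M → (Cn n →L[ℂ] ℂ)} {a a' : M → ℂ}
    (h : IsPrim A b a) (h' : IsPrim A b a') (x y : M) : a x - a' x = a y - a' y := by
  have h1 := h.sub h'
  rw [sub_self] at h1
  exact h1.const_of_zero x y

/-- the form of a primitive is determined -/
theorem IsPrim.form_eq {b b' : A.ι → M → (Cn n →L[ℂ] ℂ)} {a : M → ℂ}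
    (h : IsPrim A b a) (h' : IsPrim A b' a) {i : A.ι} {x : M} (hx : x ∈ (A.e i).source) :
    b i x = b' i x := (h i x hx).unique (h' i x hx)

/-- it is enough to check one chart around every point -/
theorem isPrim_of_exists {b : A.ι → M → (Cn n →L[ℂ] ℂ)}
    (htr : ∀ i j, ∀ x ∈ (A.e i).source ∩ (A.e j).source,
      b i x = (b j x).comp (fderiv ℂ (fun z => A.e j ((A.e i).symm z)) (A.e i x))) {a : M → ℂ}
    (h : ∀ x, ∃ i, x ∈ (A.e i).source ∧
      HasFDerivAt (fun z => a ((A.e i).symm z)) (b i x) (A.e i x)) : IsPrim A b a := by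
  intro j x hx
  obtain ⟨i, hi, h1⟩ := h x
  have h2 : DifferentiableAt ℂ (fun z => A.e i ((A.e j).symm z)) (A.e j x) := by
    refine (A.holo j i).differentiableAt (IsOpen.mem_nhds ?_ ?_)
    · exact (A.e j).isOpen_inter_preimage_symm (A.e i).open_source
    · exact ⟨(A.e j).map_source hx, by rw [(A.e j).left_inv hx]; exact hi⟩
  rw [htr j i x ⟨hx, hi⟩]
  have h3 : A.e i ((A.e j).symm (A.e j x)) = A.e i x := by rw [(A.e j).left_inv hx]
  have h4 := h2.hasFDerivAt
  rw [← h3] at h1
  have h5 := HasFDerivAt.comp (A.e j x) h1 h4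
  refine h5.congr_of_eventuallyEq ?_
  have h6 : ∀ᶠ z in 𝓝 (A.e j x), z ∈ (A.e j).target ∩ (A.e j).symm ⁻¹' (A.e i).source := by
    refine IsOpen.mem_nhds ((A.e j).isOpen_inter_preimage_symm (A.e i).open_source) ?_
    refine ⟨(A.e j).map_source hx, ?_⟩
    rw [mem_preimage, (A.e j).left_inv hx]
    exact hi
  filter_upwards [h6] with z hz
  change a ((A.e j).symm z) = a ((A.e i).symm (A.e i ((A.e j).symm z)))
  rw [(A.e i).left_inv hz.2]

/-- local primitive in the chart `i` -/
theorem exists_loc (hA : GoodA A) {b : A.ι → M → (Cn n →L[ℂ] ℂ)} (hb : b ∈ H1 A) (i : A.ι) :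
    ∃ f : Cn n → ℂ, ∀ z ∈ (A.e i).target, HasFDerivAt f (b i ((A.e i).symm z)) z := by
  have hc : Convex ℝ (A.e i).target := by
    have h1 := hA i i
    have h2 : A.ov i i = (A.e i).target := by
      ext z
      exact ⟨fun h => h.1, fun h => ⟨h, (A.e i).map_target h⟩⟩
    rwa [h2] at h1
  have hd : DifferentiableOn ℂ (fun z => b i ((A.e i).symm z)) (A.e i).target := hb.1 i
  refine hc.exists_forall_hasFDerivAt_of_fderiv_symmetric (𝕜 := ℂ) (A.e i).open_target
    (fun z hz => ((hd z hz).restrictScalars ℝ)) ?_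
  intro z hz v w
  have h1 := (hd.differentiableAt ((A.e i).open_target.mem_nhds hz))
  rw [h1.fderiv_restrictScalars ℝ]
  exact hb.2.2.2 i z hz v w

/-- a space with an atlas is locally path connected -/
theorem locPath (A : Atl n M) : LocallyPathConnectedSpace M := by
  letI : ChartedSpace (Cn n) M :=
    { atlas := range A.e
      chartAt := fun x => A.e (A.cover x).choose
      mem_chart_source := fun x => (A.cover x).choose_spec
      chart_mem_atlas := fun x => ⟨_, rfl⟩ }
  exact ChartedSpace.locallyPathConnectedSpace (Cn n) M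

/-- **primitives exist on simply connected spaces** -/
theorem exists_prim [SimplyConnectedSpace M] (hA : GoodA A) {b : A.ι → M → (Cn n →L[ℂ] ℂ)}
    (hb : b ∈ H1 A) (x0 : M) : ∃ a : M → ℂ, a x0 = 0 ∧ IsPrim A b a := by
  choose f hf using exists_loc hA hb
  have hloc : ∀ i j, ∀ z ∈ (A.e i).source, z ∈ (A.e j).source → ∀ᶠ w in 𝓝 z,
      f i (A.e i w) - f j (A.e j w) = f i (A.e i z) - f j (A.e j z) := by
    intro i j x hi hj
    have hopen : IsOpen ((A.e i).target ∩ (A.e i).symm ⁻¹' (A.e j).source) :=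
      (A.e i).isOpen_inter_preimage_symm (A.e j).open_source
    have hz : A.e i x ∈ (A.e i).target ∩ (A.e i).symm ⁻¹' (A.e j).source := by
      refine ⟨(A.e i).map_source hi, ?_⟩
      rw [mem_preimage, (A.e i).left_inv hi]
      exact hj
    obtain ⟨r, hr, hsub⟩ := Metric.isOpen_iff.1 hopen _ hz
    have hder : ∀ z ∈ ball (A.e i x) r,
        HasFDerivAt (fun z => f i z - f j (A.e j ((A.e i).symm z))) (0 : Cn n →L[ℂ] ℂ) z := by
      intro z hz
      have h1 := hsub hz
      have h2 : DifferentiableAt ℂ (fun z => A.e j ((A.e i).symm z)) z :=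
        (A.holo i j).differentiableAt (hopen.mem_nhds h1)
      have h3 := hf j _ ((A.e j).map_source h1.2)
      have h4 : HasFDerivAt (fun z => f j (A.e j ((A.e i).symm z)))
          ((b j ((A.e j).symm (A.e j ((A.e i).symm z)))).comp
            (fderiv ℂ (fun z => A.e j ((A.e i).symm z)) z)) z :=
        HasFDerivAt.comp z h3 h2.hasFDerivAt
      have h6 := (hf i z h1.1).sub h4
      have h5 := hb.2.2.1 i j ((A.e i).symm z) ⟨(A.e i).map_target h1.1, h1.2⟩
      rw [(A.e j).left_inv h1.2, h5, (A.e i).right_inv h1.1, sub_self] at h6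
      exact h6
    have hconst : ∀ z ∈ ball (A.e i x) r, f i z - f j (A.e j ((A.e i).symm z)) =
        f i (A.e i x) - f j (A.e j ((A.e i).symm (A.e i x))) := by
      intro z hz'
      refine (convex_ball (A.e i x) r).is_const_of_fderivWithin_eq_zero (𝕜 := ℂ)
        (f := fun z => f i z - f j (A.e j ((A.e i).symm z))) ?_ ?_ hz' (mem_ball_self hr)
      · exact fun w hw => (hder w hw).differentiableAt.differentiableWithinAt
      · intro w hw
        rw [fderivWithin_of_isOpen isOpen_ball hw]
        exact (hder w hw).fderiv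
    have h2 : ∀ᶠ y in 𝓝 x, A.e i y ∈ ball (A.e i x) r :=
      ((A.e i).continuousAt hi).eventually (ball_mem_nhds _ hr)
    filter_upwards [h2, (A.e i).open_source.mem_nhds hi] with y hy hy'
    have h3 := hconst _ hy
    rwa [(A.e i).left_inv hy', (A.e i).left_inv hi] at h3
  let P : LPS M ℂ :=
    { ι := A.ι
      U := fun i => (A.e i).source
      isOpen := fun i => (A.e i).open_source
      cover := A.cover
      h := fun i x => f i (A.e i x)
      loc := hloc }
  haveI := locPath A
  obtain ⟨F, hF0, hF⟩ := P.exists_isPrim x0 (0 : ℂ)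
  refine ⟨F, hF0, fun i x hi => ?_⟩
  have h1 := hF i x hi
  have h2 : ∀ᶠ z in 𝓝 (A.e i x), F ((A.e i).symm z) = F x + (f i z - f i (A.e i x)) := by
    have h3 : ContinuousAt (A.e i).symm (A.e i x) := (A.e i).continuousAt_symm
      ((A.e i).map_source hi)
    have h4 : Tendsto (A.e i).symm (𝓝 (A.e i x)) (𝓝 x) := by
      have := h3.tendsto
      rwa [(A.e i).left_inv hi] at this
    filter_upwards [h4.eventually h1, (A.e i).open_target.mem_nhds ((A.e i).map_source hi)]
      with z hz hz'
    change F ((A.e i).symm z) - F x = f i (A.e i ((A.e i).symm z)) - f i (A.e i x) at hz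
    rw [(A.e i).right_inv hz'] at hz
    linear_combination hz
  have h5 := ((hf i _ ((A.e i).map_source hi)).sub_const (f i (A.e i x))).const_add (F x)
  rw [(A.e i).left_inv hi] at h5
  exact h5.congr_of_eventuallyEq h2

/-! ### pull-back to a covering -/

variable {G : Type} [Group G] (D : MonD A G) (F : Type) [MulAction G F]

open Classical in
/-- pull-back of a family of 1-forms -/
def plb (b : A.ι → M → (Cn n →L[ℂ] ℂ)) : (D.atl F).ι → D.cov F → (Cn n →L[ℂ] ℂ) :=
  fun p e => if e ∈ ((D.atl F).e p).source then b p.1 (D.pr e) else 0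

theorem plb_of_mem (b : A.ι → M → (Cn n →L[ℂ] ℂ)) {p : (D.atl F).ι} {e : D.cov F}
    (h : e ∈ ((D.atl F).e p).source) : plb D F b p e = b p.1 (D.pr e) := if_pos h

theorem plb_add (b b' : A.ι → M → (Cn n →L[ℂ] ℂ)) : plb D F (b + b') = plb D F b + plb D F b' := by
  funext p e
  by_cases h : e ∈ ((D.atl F).e p).source
  · simp only [Pi.add_apply, plb_of_mem D F _ h]
  · simp only [Pi.add_apply, plb, if_neg h, add_zero]

theorem plb_smul (c : ℂ) (b : A.ι → M → (Cn n →L[ℂ] ℂ)) : plb D F (c • b) = c • plb D F b := by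
  funext p e
  by_cases h : e ∈ ((D.atl F).e p).source
  · simp only [Pi.smul_apply, plb_of_mem D F _ h]
  · change plb D F (c • b) p e = c • plb D F b p e
    rw [plb, plb, if_neg h, if_neg h]
    exact (smul_zero (A := Cn n →L[ℂ] ℂ) c).symm

theorem plb_mem {b : A.ι → M → (Cn n →L[ℂ] ℂ)} (hb : b ∈ H1 A) : plb D F b ∈ H1 (D.atl F) := by
  have key : ∀ (p : (D.atl F).ι) (z : Cn n), z ∈ ((D.atl F).e p).target →
      plb D F b p (((D.atl F).e p).symm z) = b p.1 ((A.e p.1).symm z) := by
    intro p z hz
    rw [plb_of_mem D F b (((D.atl F).e p).map_target hz)]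
    rfl
  refine ⟨fun p => ?_, fun p e he => if_neg he, fun p q e he => ?_, fun p z hz v w => ?_⟩
  · exact (hb.1 p.1).congr fun z hz => key p z hz
  · rw [plb_of_mem D F b he.1, plb_of_mem D F b he.2, hb.2.2.1 p.1 q.1 (D.pr e) ⟨he.1.1, he.2.1⟩]
    rfl
  · have h1 : fderiv ℂ (fun z => plb D F b p (((D.atl F).e p).symm z)) z =
        fderiv ℂ (fun z => b p.1 ((A.e p.1).symm z)) z := by
      apply Filter.EventuallyEq.fderiv_eq
      filter_upwards [((D.atl F).e p).open_target.mem_nhds hz] with w hw
      exact key p w hw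
    rw [h1]
    exact hb.2.2.2 p.1 z hz v w

/-- deck transformations preserve primitives of pull-backs -/
theorem isPrim_deck {b : A.ι → M → (Cn n →L[ℂ] ℂ)} {a : D.cov G → ℂ}
    (h : IsPrim (D.atl G) (plb D G b) a) (g : G) :
    IsPrim (D.atl G) (plb D G b) (fun e => a (g • e)) := by
  intro p e he
  obtain ⟨i, v⟩ := p
  have hm : g • e ∈ ((D.atl G).e (i, v * g⁻¹)).source := by
    refine ⟨he.1, ?_⟩
    rw [D.co_deck, he.2]
  have h2 := h (i, v * g⁻¹) (g • e) hm
  rw [plb_of_mem D G b hm] at h2
  rw [plb_of_mem D G b he]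
  have h3 : (fun z => a (g • ((D.atl G).e (i, v)).symm z)) =
      fun z => a (((D.atl G).e (i, v * g⁻¹)).symm z) := by
    funext z
    congr 1
    exact D.deck_pt g i v ((A.e i).symm z)
  rw [h3]
  exact h2

/-! ### periods -/

section per

variable [SimplyConnectedSpace (D.cov G)] (hA : GoodA A) (e0 : D.cov G)

/-- the primitive of `b` on the covering, normalised at `e0` -/
def prm (b : H1 A) : D.cov G → ℂ :=
  (exists_prim (D.goodA (F := G) hA) (plb_mem D G b.2) e0).choose

theorem prm_zero (b : H1 A) : prm D hA e0 b e0 = 0 :=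
  (exists_prim (D.goodA (F := G) hA) (plb_mem D G b.2) e0).choose_spec.1

theorem prm_isPrim (b : H1 A) : IsPrim (D.atl G) (plb D G b) (prm D hA e0 b) :=
  (exists_prim (D.goodA (F := G) hA) (plb_mem D G b.2) e0).choose_spec.2

theorem prm_unique (b : H1 A) {a : D.cov G → ℂ} (h0 : a e0 = 0)
    (h : IsPrim (D.atl G) (plb D G b) a) : a = prm D hA e0 b := by
  funext e
  have := h.sub_eq (prm_isPrim D hA e0 b) e e0
  rw [h0, prm_zero, sub_self] at this
  exact sub_eq_zero.1 this

theorem prm_add (b b' : H1 A) (e : D.cov G) :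
    prm D hA e0 (b + b') e = prm D hA e0 b e + prm D hA e0 b' e := by
  have h := (prm_isPrim D hA e0 b).add (prm_isPrim D hA e0 b')
  rw [← plb_add] at h
  exact (congrFun (prm_unique D hA e0 (b + b') (by simp [prm_zero]) h) e).symm

theorem prm_smul (c : ℂ) (b : H1 A) (e : D.cov G) :
    prm D hA e0 (c • b) e = c * prm D hA e0 b e := by
  have h := (prm_isPrim D hA e0 b).const_smul c
  rw [← plb_smul] at h
  exact (congrFun (prm_unique D hA e0 (c • b) (by simp [prm_zero]) h) e).symm

/-- the period of `b` along `g` -/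
def per (b : H1 A) (g : G) : ℂ := prm D hA e0 b (g • e0)

/-- quasi-periodicity of the primitive -/
theorem prm_deck (b : H1 A) (g : G) (e : D.cov G) :
    prm D hA e0 b (g • e) = prm D hA e0 b e + per D hA e0 b g := by
  have h := (isPrim_deck D (prm_isPrim D hA e0 b) g).sub_eq (prm_isPrim D hA e0 b) e e0
  rw [prm_zero, sub_zero] at h
  rw [per]
  linear_combination h

theorem per_mul (b : H1 A) (g h : G) : per D hA e0 b (g * h) = per D hA e0 b g + per D hA e0 b h := by
  have h1 := prm_deck D hA e0 b g (h • e0)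
  rw [smul_smul] at h1
  change per D hA e0 b (g * h) = per D hA e0 b h + _ at h1
  rw [h1, add_comm]

theorem per_one (b : H1 A) : per D hA e0 b 1 = 0 := by
  rw [per, one_smul, prm_zero]

theorem per_add (b b' : H1 A) (g : G) :
    per D hA e0 (b + b') g = per D hA e0 b g + per D hA e0 b' g := prm_add D hA e0 b b' _

theorem per_smul (c : ℂ) (b : H1 A) (g : G) :
    per D hA e0 (c • b) g = c * per D hA e0 b g := prm_smul D hA e0 c b _

/-- periods do not depend on the normalisation -/
theorem per_eq (b : H1 A) {a : D.cov G → ℂ} (h : IsPrim (D.atl G) (plb D G b) a) (g : G)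
    (e : D.cov G) : a (g • e) - a e = per D hA e0 b g := by
  have h1 := h.sub_eq (prm_isPrim D hA e0 b) (g • e) e
  rw [prm_deck D hA e0 b g e] at h1
  linear_combination h1

end per

/-- a function on the covering whose real part is bounded above by its value at a point and which
is a primitive of `b` : then `b = 0` -/
theorem form_eq_zero_of_max [PreconnectedSpace M] {b : A.ι → M → (Cn n →L[ℂ] ℂ)} {a : M → ℂ}
    (h : IsPrim A b a) {x1 : M} (hmax : ∀ x, (a x).re ≤ (a x1).re) :
    ∀ i, ∀ x ∈ (A.e i).source, b i x = 0 := by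
  have hcont : Continuous a := h.continuous
  -- near a maximum point `exp a` is constant
  have hloc : ∀ x, (a x).re = (a x1).re → ∀ i, x ∈ (A.e i).source →
      ∀ᶠ z in 𝓝 (A.e i x), exp (a ((A.e i).symm z)) = exp (a x) := by
    intro x hx i hi
    have h1 : ∀ᶠ z in 𝓝 (A.e i x), DifferentiableAt ℂ (fun z => exp (a ((A.e i).symm z))) z := by
      filter_upwards [(A.e i).open_target.mem_nhds ((A.e i).map_source hi)] with z hz
      exact ((h.diffOn i).differentiableAt ((A.e i).open_target.mem_nhds hz)).cexp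
    have h2 : IsLocalMax (norm ∘ fun z => exp (a ((A.e i).symm z))) (A.e i x) := by
      refine Eventually.of_forall fun z => ?_
      simp only [Function.comp_apply, Complex.norm_exp, (A.e i).left_inv hi, hx]
      exact Real.exp_le_exp.2 (hmax _)
    have h3 := Complex.eventually_eq_of_isLocalMax_norm h1 h2
    rwa [(A.e i).left_inv hi] at h3
  have hall : ∀ x, (a x).re = (a x1).re := by
    have hS : IsClopen {x | (a x).re = (a x1).re} := by
      constructor
      · exact isClosed_eq (continuous_re.comp hcont) continuous_const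
      · rw [isOpen_iff_mem_nhds]
        intro x hx
        obtain ⟨i, hi⟩ := A.cover x
        have h1 := hloc x hx i hi
        have h2 : ∀ᶠ y in 𝓝 x, exp (a ((A.e i).symm (A.e i y))) = exp (a x) :=
          ((A.e i).continuousAt hi).eventually h1
        filter_upwards [h2, (A.e i).open_source.mem_nhds hi] with y hy hy'
        rw [(A.e i).left_inv hy'] at hy
        have h3 := congrArg norm hy
        rw [Complex.norm_exp, Complex.norm_exp] at h3
        exact (Real.exp_injective h3).trans hx
    have h1 := hS.eq_univ ⟨x1, rfl⟩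
    intro x
    have : x ∈ {x | (a x).re = (a x1).re} := by rw [h1]; trivial
    exact this
  intro i x hx
  have h1 := hloc x (hall x) i hx
  have h2 : HasFDerivAt (fun z => exp (a ((A.e i).symm z))) (0 : Cn n →L[ℂ] ℂ) (A.e i x) :=
    (hasFDerivAt_const (exp (a x)) (A.e i x)).congr_of_eventuallyEq h1
  have h3 := (h i x hx).cexp
  have h4 := h3.unique h2
  ext v
  have h5 : exp (a ((A.e i).symm (A.e i x))) * b i x v = 0 :=
    congrArg (fun (L : Cn n →L[ℂ] ℂ) => L v) h4
  rcases mul_eq_zero.1 h5 with h6 | h6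
  · exact absurd h6 (Complex.exp_ne_zero _)
  · exact h6

section rez

variable [SimplyConnectedSpace (D.cov G)] (hA : GoodA A) (e0 : D.cov G)

/-- forms with purely imaginary periods vanish -/
theorem eq_zero_of_re_per [CompactSpace M] [T2Space M] [Finite A.ι] (b : H1 A)
    (h : ∀ g, (per D hA e0 b g).re = 0) : b = 0 := by
  obtain ⟨K, hK, hKc⟩ := D.exists_fund (A := A)
  have hP := prm_isPrim D hA e0 b
  have hinv : ∀ (g : G) (e : D.cov G), (prm D hA e0 b (g • e)).re = (prm D hA e0 b e).re := by
    intro g e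
    rw [prm_deck D hA e0 b g e, Complex.add_re, h g, add_zero]
  have hcont : Continuous (prm D hA e0 b) := hP.continuous
  have hne : K.Nonempty := by
    obtain ⟨g, hg⟩ := hKc e0
    exact ⟨_, hg⟩
  obtain ⟨e1, -, he1⟩ := hK.exists_isMaxOn hne (continuous_re.comp hcont).continuousOn
  have hmax : ∀ e, (prm D hA e0 b e).re ≤ (prm D hA e0 b e1).re := by
    intro e
    obtain ⟨g, hg⟩ := hKc e
    rw [← hinv g e]
    exact he1 hg
  have h1 := form_eq_zero_of_max hP hmax
  apply Subtype.ext
  funext i x
  by_cases hx : x ∈ (A.e i).source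
  · have h2 : D.pt i 1 x ∈ ((D.atl G).e (i, 1)).source := D.pt_mem_source (p := (i, 1)) hx
    have h3 := h1 (i, 1) _ h2
    rw [plb_of_mem D G _ h2] at h3
    exact h3
  · exact b.2.2.1 i x hx

theorem eq_zero_of_im_per [CompactSpace M] [T2Space M] [Finite A.ι] (b : H1 A)
    (h : ∀ g, (per D hA e0 b g).im = 0) : b = 0 := by
  have h1 : I • b = 0 := by
    apply eq_zero_of_re_per D hA e0
    intro g
    rw [per_smul, Complex.mul_re, Complex.I_re, Complex.I_im, h g]
    ring
  have h2 : (-I) • (I • b) = 0 := by rw [h1, smul_zero]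
  rw [smul_smul] at h2
  simpa using h2

end rez

end

end Crest.Agent.R273.Alb645
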