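import Crest.Agent.R275.Core_144
import Crest.Agent.R275.GeoHol_912
import Crest.Agent.R275.Del_75

/-!
# R273 (S0416), Part C, PI-END (E1) (helper836)

A locally constant real cocycle on the charts of a compact connected `M` which is not a
coboundary of locally constant functions gives a `∂̄`-closed `(0,1)`-form which is not `∂̄`-exact.

* `LC U f`     : `f` is locally constant at the points of `U`;
* `ZCoc A`     : real valued locally constant cocycles; `ZCoc.Cob` : coboundaries;
* `ZCoc.prim`  : smooth primitive `f i = ∑ ψ k * c i k`;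
* `ZCoc.cob_of_exact` : if `∂̄ f i = ∂̄ g` on all charts with a global smooth `g`, then `Cob`.
-/

set_option autoImplicit false
set_option linter.unusedSectionVars false

open Set Filter Topology Complex
open scoped ContDiff Matrix ComplexConjugate

namespace Crest.Agent.R273.PiEnd_836

open Crest.Agent.R275.Geo Crest.Agent.R275.OmT75 Crest.Agent.R275.Core144
open Crest.Agent.R275.GeoHol912

noncomputable section

variable {n : ℕ} {M : Type} [TopologicalSpace M] {A : Atl n M}

/-- locally constant at the points of `U` -/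
def LC (U : Set M) (f : M → ℝ) : Prop := ∀ x ∈ U, ∀ᶠ y in 𝓝 x, f y = f x

theorem LC.sub {U : Set M} {f g : M → ℝ} (hf : LC U f) (hg : LC U g) :
    LC U (fun x => f x - g x) := by
  intro x hx
  filter_upwards [hf x hx, hg x hx] with y h1 h2
  rw [h1, h2]

theorem LC.mono {U V : Set M} {f : M → ℝ} (hf : LC U f) (h : V ⊆ U) : LC V f :=
  fun x hx => hf x (h hx)

/-- real valued locally constant cocycles on the chart domains -/
structure ZCoc (A : Atl n M) where
  c : A.ι → A.ι → M → ℝ
  lc : ∀ i j, LC ((A.e i).source ∩ (A.e j).source) (c i j)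
  mul : ∀ i j k, ∀ x ∈ (A.e i).source ∩ (A.e j).source ∩ (A.e k).source,
    c i j x + c j k x = c i k x

/-- coboundaries of locally constant functions -/
def ZCoc.Cob (C : ZCoc A) : Prop :=
  ∃ b : A.ι → M → ℝ, (∀ i, LC (A.e i).source (b i)) ∧
    ∀ i j, ∀ x ∈ (A.e i).source ∩ (A.e j).source, C.c i j x = b i x - b j x

theorem tsupport_ψ_sub (P : Part A) (k : A.ι) : tsupport (P.ψ k) ⊆ (A.e k).source := by
  intro x hx
  have h1 := (P.χ_one k x hx).self_of_nhds
  refine P.χ_sub k (subset_tsupport _ ?_)
  rw [Function.mem_support, h1]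
  exact one_ne_zero

theorem ψ_zero (P : Part A) {k : A.ι} {x : M} (hx : x ∉ (A.e k).source) : P.ψ k x = 0 :=
  image_eq_zero_of_notMem_tsupport fun h => hx (tsupport_ψ_sub P k h)

variable [Finite A.ι]

open Classical in
/-- smooth primitive of a cocycle -/
def ZCoc.prim (C : ZCoc A) (P : Part A) (i : A.ι) (x : M) : ℝ :=
  letI := Fintype.ofFinite A.ι
  ∑ k, P.ψ k x * C.c i k x

theorem sum_ψ (P : Part A) (x : M) :
    letI := Fintype.ofFinite A.ι
    ∑ k, P.ψ k x = 1 := by
  let _ := Fintype.ofFinite A.ι
  have := P.sum_one x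
  rw [finsum_eq_sum_of_fintype] at this
  exact this

theorem ZCoc.prim_sub (C : ZCoc A) (P : Part A) (i j : A.ι) {x : M}
    (hx : x ∈ (A.e i).source ∩ (A.e j).source) : C.prim P i x - C.prim P j x = C.c i j x := by
  letI := Fintype.ofFinite A.ι
  unfold ZCoc.prim
  rw [← Finset.sum_sub_distrib]
  have h1 : ∀ k, P.ψ k x * C.c i k x - P.ψ k x * C.c j k x = P.ψ k x * C.c i j x := by
    intro k
    by_cases hk : x ∈ (A.e k).source
    · have := C.mul i j k x ⟨hx, hk⟩
      rw [← this]; ring
    · simp [ψ_zero P hk]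
  rw [Finset.sum_congr rfl fun k _ => h1 k, ← Finset.sum_mul, sum_ψ P x, one_mul]

theorem ZCoc.prim_sm (C : ZCoc A) (P : Part A) (i : A.ι) : A.SmAt i (C.prim P i) := by
  letI := Fintype.ofFinite A.ι
  unfold ZCoc.prim Atl.SmAt
  refine ContDiffOn.sum fun k _ => ?_
  intro z hz
  have hzs : (A.e i).symm z ∈ (A.e i).source := (A.e i).map_target hz
  have hcont : ContinuousAt (A.e i).symm z := (A.e i).continuousAt_symm hz
  have hψ : ContDiffAt ℝ ∞ (fun w => P.ψ k ((A.e i).symm w)) z :=
    (P.ψ_sm k i).contDiffAt ((A.e i).open_target.mem_nhds hz)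
  by_cases hk : (A.e i).symm z ∈ (A.e k).source
  · have h1 := C.lc i k _ ⟨hzs, hk⟩
    have h2 : (fun w => P.ψ k ((A.e i).symm w) * C.c i k ((A.e i).symm w)) =ᶠ[𝓝 z]
        fun w => P.ψ k ((A.e i).symm w) * C.c i k ((A.e i).symm z) := by
      filter_upwards [hcont.eventually h1] with w hw
      rw [hw]
    exact ((hψ.mul contDiffAt_const).congr_of_eventuallyEq h2).contDiffWithinAt
  · have h3 : (A.e i).symm z ∉ tsupport (P.ψ k) := fun h => hk (tsupport_ψ_sub P k h)
    have h4 : ∀ᶠ y in 𝓝 ((A.e i).symm z), P.ψ k y = 0 :=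
      (notMem_tsupport_iff_eventuallyEq.1 h3)
    have h2 : (fun w => P.ψ k ((A.e i).symm w) * C.c i k ((A.e i).symm w)) =ᶠ[𝓝 z]
        fun _ => (0 : ℝ) := by
      filter_upwards [hcont.eventually h4] with w hw
      rw [hw, zero_mul]
    exact (contDiffAt_const.congr_of_eventuallyEq h2).contDiffWithinAt

omit [Finite A.ι] in
theorem continuous_of_sm {g : M → ℂ} (hg : A.Sm g) : Continuous g := by
  rw [continuous_iff_continuousAt]
  intro x
  obtain ⟨i, hi⟩ := A.cover x
  have h1 : ContinuousAt (fun z => g ((A.e i).symm z)) (A.e i x) :=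
    ((hg i).continuousOn.continuousAt ((A.e i).open_target.mem_nhds ((A.e i).map_source hi)))
  have h2 : ContinuousAt (fun y => g ((A.e i).symm (A.e i y))) x :=
    ContinuousAt.comp (f := A.e i) (g := fun z => g ((A.e i).symm z)) h1
      ((A.e i).continuousAt hi)
  refine h2.congr ?_
  filter_upwards [(A.e i).open_source.mem_nhds hi] with y hy
  rw [(A.e i).left_inv hy]

omit [Finite A.ι] in
/-- **PI-END, analytic core.** -/
theorem ZCoc.cob_of_exact [CompactSpace M] [ConnectedSpace M] (C : ZCoc A) {f : A.ι → M → ℝ}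
    (hf : ∀ i, A.SmAt i (f i))
    (hfc : ∀ i j, ∀ x ∈ (A.e i).source ∩ (A.e j).source, f i x - f j x = C.c i j x)
    {g : M → ℂ} (hg : A.Sm g)
    (hdb : ∀ i, ∀ x ∈ (A.e i).source, ∀ a,
      A.db i a (fun y => (f i y : ℂ)) x = A.db i a g x) : C.Cob := by
  -- the holomorphic functions `F i = f i - g`
  set F : A.ι → M → ℂ := fun i x => (f i x : ℂ) - g x with hF
  have hfs : ∀ i, ContDiffOn ℝ ∞ (fun z => ((f i ((A.e i).symm z) : ℝ) : ℂ)) (A.e i).target :=
    fun i => (Complex.ofRealCLM.contDiff.comp_contDiffOn (hf i) :)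
  have hFs : ∀ i, ContDiffOn ℝ ∞ (fun z => F i ((A.e i).symm z)) (A.e i).target :=
    fun i => (hfs i).sub (hg i)
  have hFh : ∀ i, DifferentiableOn ℂ (fun z => F i ((A.e i).symm z)) (A.e i).target := by
    intro i
    refine differentiableOn_of_dbj (A.e i).open_target (hFs i) fun z hz a => ?_
    have hx := (A.e i).map_target hz
    have h1 := hdb i _ hx a
    unfold Atl.db at h1
    rw [(A.e i).right_inv hz] at h1
    have d1 : DifferentiableAt ℝ (fun z => ((f i ((A.e i).symm z) : ℝ) : ℂ)) z :=
      ((hfs i).contDiffAt ((A.e i).open_target.mem_nhds hz)).differentiableAt (by simp)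
    have d2 : DifferentiableAt ℝ (fun z => g ((A.e i).symm z)) z :=
      ((hg i).contDiffAt ((A.e i).open_target.mem_nhds hz)).differentiableAt (by simp)
    have h2 : dbj a (fun z => F i ((A.e i).symm z)) z
        = dbj a (fun z => ((f i ((A.e i).symm z) : ℝ) : ℂ)) z
          - dbj a (fun z => g ((A.e i).symm z)) z := by
      unfold dbj
      have h3 : fderiv ℝ (fun z => F i ((A.e i).symm z)) z
          = fderiv ℝ (fun z => ((f i ((A.e i).symm z) : ℝ) : ℂ)) z
            - fderiv ℝ (fun z => g ((A.e i).symm z)) z := fderiv_fun_sub d1 d2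
      rw [h3]
      simp only [_root_.sub_apply, smul_sub, smul_add]
      abel
    rw [h2, h1, sub_self]
  -- local maxima of `im g`
  have key : ∀ x, IsLocalMax (fun y => (g y).im) x → ∀ i, x ∈ (A.e i).source →
      ∀ᶠ y in 𝓝 x, F i y = F i x := by
    intro x hx i hi
    have hz : A.e i x ∈ (A.e i).target := (A.e i).map_source hi
    have hnz : (A.e i).target ∈ 𝓝 (A.e i x) := (A.e i).open_target.mem_nhds hz
    set E : Cn n → ℂ := fun z => Complex.exp (I * F i ((A.e i).symm z)) with hE
    have hEd : ∀ᶠ z in 𝓝 (A.e i x), DifferentiableAt ℂ E z := by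
      filter_upwards [(A.e i).open_target.mem_nhds hz] with z hz'
      exact ((((hFh i) z hz').differentiableAt ((A.e i).open_target.mem_nhds hz')).const_mul
        I).cexp
    have hnorm : ∀ z, ‖E z‖ = Real.exp ((g ((A.e i).symm z)).im) := by
      intro z
      rw [hE, Complex.norm_exp]
      congr 1
      simp [hF]
    have hmax : IsLocalMax (norm ∘ E) (A.e i x) := by
      have hc : ContinuousAt (A.e i).symm (A.e i x) := (A.e i).continuousAt_symm hz
      have hx' : ∀ᶠ y in 𝓝 ((A.e i).symm (A.e i x)), (g y).im ≤ (g x).im := by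
        rw [(A.e i).left_inv hi]; exact hx
      filter_upwards [hc.eventually hx'] with z hz'
      simp only [Function.comp_apply, hnorm]
      rw [(A.e i).left_inv hi]
      exact Real.exp_le_exp.2 hz'
    have hEc := Complex.eventually_eq_of_isLocalMax_norm hEd hmax
    -- back to M
    have hcx : ContinuousAt (A.e i) x := (A.e i).continuousAt hi
    have h1 : ∀ᶠ y in 𝓝 x, E (A.e i y) = E (A.e i x) := hcx.eventually hEc
    have hFc : ContinuousAt (F i) x := by
      have h2 : ContinuousAt (fun z => F i ((A.e i).symm z)) (A.e i x) :=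
        (hFs i).continuousOn.continuousAt hnz
      have h3 : ContinuousAt (fun y => F i ((A.e i).symm (A.e i y))) x :=
        ContinuousAt.comp (f := A.e i) (g := fun z => F i ((A.e i).symm z)) h2 hcx
      refine h3.congr ?_
      filter_upwards [(A.e i).open_source.mem_nhds hi] with y hy
      rw [(A.e i).left_inv hy]
    have h4 : ∀ᶠ y in 𝓝 x, ‖F i y - F i x‖ < 1 := by
      have := hFc.eventually (Metric.ball_mem_nhds (F i x) one_pos)
      filter_upwards [this] with y hy
      simpa [dist_eq_norm] using hy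
    filter_upwards [h1, h4, (A.e i).open_source.mem_nhds hi] with y hy1 hy2 hy3
    simp only [hE] at hy1
    rw [(A.e i).left_inv hy3, (A.e i).left_inv hi, Complex.exp_eq_exp_iff_exists_int] at hy1
    obtain ⟨m, hm⟩ := hy1
    have h5 : F i y - F i x = m * (2 * Real.pi) := by
      have h6 : I * (F i y - F i x) = I * (m * (2 * Real.pi)) := by
        rw [mul_sub, hm]; ring
      exact mul_left_cancel₀ I_ne_zero h6
    have h7 : m = 0 := by
      by_contra hm0
      have h8 : (1 : ℝ) ≤ |(m : ℝ)| := by
        have : (1 : ℤ) ≤ |m| := Int.one_le_abs hm0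
        exact_mod_cast this
      have h9 : ‖F i y - F i x‖ = |(m : ℝ)| * (2 * Real.pi) := by
        rw [h5]
        rw [norm_mul, norm_mul, Complex.norm_intCast]
        simp [abs_of_pos Real.pi_pos]
      rw [h9] at hy2
      nlinarith [Real.pi_gt_three]
    rw [h7] at h5
    simp only [Int.cast_zero, zero_mul] at h5
    exact sub_eq_zero.1 h5
  -- `im g` is constant
  have hgc : Continuous fun y => (g y).im := Complex.continuous_im.comp (continuous_of_sm hg)
  obtain ⟨x0, -, hx0⟩ := isCompact_univ.exists_isMaxOn (univ_nonempty (α := M)) hgc.continuousOn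
  have hmax0 : ∀ y, (g y).im ≤ (g x0).im := fun y => hx0 (mem_univ y)
  set S : Set M := {x | (g x).im = (g x0).im} with hS
  have hclosed : IsClosed S := isClosed_eq hgc continuous_const
  have hopen : IsOpen S := by
    rw [isOpen_iff_mem_nhds]
    intro x hx
    obtain ⟨i, hi⟩ := A.cover x
    have hl : IsLocalMax (fun y => (g y).im) x :=
      Filter.Eventually.of_forall fun y => by
        show (g y).im ≤ (g x).im
        rw [show (g x).im = (g x0).im from hx]; exact hmax0 y
    filter_upwards [key x hl i hi] with y hy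
    have h1 : (F i y).im = (F i x).im := by rw [hy]
    simp only [hF, Complex.sub_im, Complex.ofReal_im, zero_sub, neg_inj] at h1
    show (g y).im = (g x0).im
    rw [h1]; exact hx
  have huniv : S = univ := by
    rcases isClopen_iff.1 ⟨hclosed, hopen⟩ with h | h
    · exact absurd (show x0 ∈ S from rfl) (by rw [h]; exact fun h => h)
    · exact h
  have hloc : ∀ x, ∀ i, x ∈ (A.e i).source → ∀ᶠ y in 𝓝 x, F i y = F i x := by
    intro x i hi
    refine key x (Filter.Eventually.of_forall fun y => ?_) i hi
    have h1 : x ∈ S := by rw [huniv]; trivial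
    show (g y).im ≤ (g x).im
    rw [show (g x).im = (g x0).im from h1]
    exact hmax0 y
  refine ⟨fun i x => (F i x).re, fun i x hx => ?_, fun i j x hx => ?_⟩
  · filter_upwards [hloc x i hx] with y hy
    rw [hy]
  · rw [← hfc i j x hx]
    simp [hF]

end

end Crest.Agent.R273.PiEnd_836
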