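import Crest.Agent.R273.AlbA_645
import Crest.Agent.R273.PiEnd_836
import Crest.Agent.R273.Levi_145

/-!
# R273 (S0416), Part B, ALB-2 (helper645): the periods of holomorphic 1-forms give all real
homomorphisms

* `dform f`    : the differential of a holomorphic function, in `H1 A`;
* `descH1`     : descent of deck invariant closed 1-forms;
* `HodgeZ`     : hypothesis (Hodge decomposition of the classes of locally constant cocycles);
* `exists_per` : every additive `φ : G → ℝ` is the real part of the periods of a unique `b ∈ H1 A`.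
-/

set_option autoImplicit false
set_option linter.unusedSectionVars false
set_option linter.style.haveILetI false

open Set Filter Topology Complex Metric
open scoped ContDiff ComplexConjugate

namespace Crest.Agent.R273.Alb645

open Crest.Agent.R275.Geo Crest.Agent.R275.Core144 Crest.Agent.R275.GC293
open Crest.Agent.R275.ZC352 Crest.Agent.R273.UCov_914 Crest.Agent.R273.PiEnd_836

noncomputable section

variable {n : ℕ} {M : Type} [TopologicalSpace M] {A : Atl n M}

/-! ### the differential of a holomorphic function -/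

open Classical in
/-- the differential of a function, read in the charts -/
def dform (A : Atl n M) (f : M → ℂ) : A.ι → M → (Cn n →L[ℂ] ℂ) := fun i x =>
  if x ∈ (A.e i).source then fderiv ℂ (fun z => f ((A.e i).symm z)) (A.e i x) else 0

theorem dform_of_mem (f : M → ℂ) {i : A.ι} {x : M} (hx : x ∈ (A.e i).source) :
    dform A f i x = fderiv ℂ (fun z => f ((A.e i).symm z)) (A.e i x) := if_pos hx

theorem isPrim_dform {f : M → ℂ}
    (hf : ∀ i, DifferentiableOn ℂ (fun z => f ((A.e i).symm z)) (A.e i).target) :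
    IsPrim A (dform A f) f := by
  intro i x hx
  rw [dform_of_mem f hx]
  exact ((hf i).differentiableAt ((A.e i).open_target.mem_nhds
    ((A.e i).map_source hx))).hasFDerivAt

theorem dform_mem {f : M → ℂ}
    (hf : ∀ i, DifferentiableOn ℂ (fun z => f ((A.e i).symm z)) (A.e i).target) :
    dform A f ∈ H1 A := by
  have key : ∀ i, ∀ z ∈ (A.e i).target, dform A f i ((A.e i).symm z) =
      fderiv ℂ (fun z => f ((A.e i).symm z)) z := by
    intro i z hz
    rw [dform_of_mem f ((A.e i).map_target hz), (A.e i).right_inv hz]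
  have han : ∀ i, AnalyticOnNhd ℂ (fun z => f ((A.e i).symm z)) (A.e i).target := fun i =>
    Crest.Agent.R266.SCV.analyticOnNhd_of_differentiableOn (A.e i).open_target (hf i)
  refine ⟨fun i => ?_, fun i x hx => if_neg hx, fun i j x hx => ?_, fun i z hz v w => ?_⟩
  · exact ((han i).fderiv.differentiableOn).congr (key i)
  · rw [dform_of_mem f hx.1, dform_of_mem f hx.2]
    have h1 : DifferentiableAt ℂ (fun z => A.e j ((A.e i).symm z)) (A.e i x) := by
      refine (A.holo i j).differentiableAt (IsOpen.mem_nhds ?_ ?_)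
      · exact (A.e i).isOpen_inter_preimage_symm (A.e j).open_source
      · exact ⟨(A.e i).map_source hx.1, by rw [(A.e i).left_inv hx.1]; exact hx.2⟩
    have h3 : A.e j ((A.e i).symm (A.e i x)) = A.e j x := by rw [(A.e i).left_inv hx.1]
    have h2 : HasFDerivAt (fun z => f ((A.e j).symm z))
        (fderiv ℂ (fun z => f ((A.e j).symm z)) (A.e j x))
        (A.e j ((A.e i).symm (A.e i x))) := by
      rw [h3]
      exact ((hf j).differentiableAt ((A.e j).open_target.mem_nhds
        ((A.e j).map_source hx.2))).hasFDerivAt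
    have h4 := HasFDerivAt.comp (A.e i x) h2 h1.hasFDerivAt
    refine (h4.congr_of_eventuallyEq ?_).fderiv
    have h6 : ∀ᶠ z in 𝓝 (A.e i x), z ∈ (A.e i).target ∩ (A.e i).symm ⁻¹' (A.e j).source := by
      refine IsOpen.mem_nhds ((A.e i).isOpen_inter_preimage_symm (A.e j).open_source) ?_
      refine ⟨(A.e i).map_source hx.1, ?_⟩
      rw [mem_preimage, (A.e i).left_inv hx.1]
      exact hx.2
    filter_upwards [h6] with z hz
    change f ((A.e i).symm z) = f ((A.e j).symm (A.e j ((A.e i).symm z)))
    rw [(A.e j).left_inv hz.2]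
  · have h1 : (fun z => dform A f i ((A.e i).symm z)) =ᶠ[𝓝 z]
        fderiv ℂ (fun z => f ((A.e i).symm z)) := by
      filter_upwards [(A.e i).open_target.mem_nhds hz] with w hw
      exact key i w hw
    rw [h1.fderiv_eq]
    have h2 : ContDiffAt ℂ ω (fun z => f ((A.e i).symm z)) z := (han i z hz).contDiffAt
    exact h2.isSymmSndFDerivAt (by simp) v w

/-! ### descent -/

variable {G : Type} [Group G] (D : MonD A G)

/-- descent of a deck invariant closed holomorphic 1-form -/
theorem descH1 {b : (D.atl G).ι → D.cov G → (Cn n →L[ℂ] ℂ)} (hb : b ∈ H1 (D.atl G))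
    (hinv : ∀ (i : A.ι) (v g : G) (e : D.cov G), e ∈ ((D.atl G).e (i, v)).source →
      b (i, v * g⁻¹) (g • e) = b (i, v) e) : ∃ b' ∈ H1 A, plb D G b' = b := by
  have hm : ∀ (i : A.ι) (x : M), x ∈ (A.e i).source →
      D.pt i (1 : G) x ∈ ((D.atl G).e (i, 1)).source := fun i x hx =>
    D.pt_mem_source (p := (i, 1)) hx
  have hinv2 : ∀ (i : A.ι) (v : G) (x : M), x ∈ (A.e i).source →
      b (i, v) (D.pt i v x) = b (i, 1) (D.pt i 1 x) := by
    intro i v x hx
    have h1 := hinv i v v (D.pt i v x) (D.pt_mem_source (p := (i, v)) hx)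
    rw [D.deck_pt, mul_inv_cancel] at h1
    exact h1.symm
  refine ⟨fun i x => b (i, 1) (D.pt i 1 x), ⟨fun i => hb.1 (i, 1), fun i x hx => ?_,
    fun i j x hx => ?_, fun i z hz v w => hb.2.2.2 (i, 1) z hz v w⟩, ?_⟩
  · refine hb.2.1 (i, 1) _ fun h => hx ?_
    exact h.1
  · have h1 : D.pt i (1 : G) x ∈ ((D.atl G).e (i, 1)).source ∩
        ((D.atl G).e (j, D.c i j x)).source := by
      refine ⟨hm i x hx.1, hx.2, ?_⟩
      change D.co j (D.pt i 1 x) = D.c i j x
      rw [D.co_pt' 1 hx.1 hx.2, smul_eq_mul, mul_one]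
    have h2 := hb.2.2.1 _ _ _ h1
    have h3 : D.pt i (1 : G) x = D.pt j (D.c i j x) x := by
      rw [D.pt_eq (1 : G) hx.1 hx.2, smul_eq_mul, mul_one]
    change b (i, 1) (D.pt i 1 x) = _
    rw [h2]
    congr 1
    rw [h3]
    exact hinv2 j (D.c i j x) x hx.2
  · funext p e
    obtain ⟨i, v⟩ := p
    by_cases he : e ∈ ((D.atl G).e (i, v)).source
    · rw [plb_of_mem D G _ he]
      change b (i, 1) (D.pt i 1 (D.pr e)) = b (i, v) e
      rw [← hinv2 i v _ he.1]
      congr 1
      exact D.pt_of_mem he
    · exact (if_neg he).trans (hb.2.1 _ _ he).symm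

/-- a holomorphic function on the covering whose deck translates differ by constants is the
primitive of a closed form of the base -/
theorem exists_form {H : D.cov G → ℂ}
    (hH : ∀ p, DifferentiableOn ℂ (fun z => H (((D.atl G).e p).symm z)) ((D.atl G).e p).target)
    (hc : ∀ g : G, ∃ c : ℂ, ∀ e, H (g • e) = H e + c) :
    ∃ b ∈ H1 A, IsPrim (D.atl G) (plb D G b) H := by
  obtain ⟨b, hb, hb'⟩ := descH1 D (dform_mem hH) (by
    intro i v g e he
    have hm : g • e ∈ ((D.atl G).e (i, v * g⁻¹)).source := by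
      refine ⟨he.1, ?_⟩
      rw [D.co_deck, he.2]
    rw [dform_of_mem _ hm, dform_of_mem _ he]
    obtain ⟨c, hcc⟩ := hc g
    have h3 : (fun z => H (((D.atl G).e (i, v * g⁻¹)).symm z)) =
        fun z => H (((D.atl G).e (i, v)).symm z) + c := by
      funext z
      rw [← hcc]
      congr 1
      exact (D.deck_pt g i v ((A.e i).symm z)).symm
    rw [h3, fderiv_add_const]
    rfl)
  exact ⟨b, hb, hb' ▸ isPrim_dform hH⟩

theorem plb_sub (b b' : A.ι → M → (Cn n →L[ℂ] ℂ)) :
    plb D G (b - b') = plb D G b - plb D G b' := by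
  funext p e
  by_cases h : e ∈ ((D.atl G).e p).source
  · change plb D G (b - b') p e = plb D G b p e - plb D G b' p e
    rw [plb_of_mem D G _ h, plb_of_mem D G _ h, plb_of_mem D G _ h]
    rfl
  · change plb D G (b - b') p e = plb D G b p e - plb D G b' p e
    have h0 : ∀ c : A.ι → M → (Cn n →L[ℂ] ℂ), plb D G c p e = 0 := fun c => if_neg h
    rw [h0, h0, h0, sub_zero]

/-! ### real homomorphisms are real parts of periods -/

/-- the cocycle of an additive function on `G` -/
def zc (φ : G → ℝ) (hφ : ∀ g h, φ (g * h) = φ g + φ h) : ZCoc A where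
  c i j x := φ (D.c i j x)
  lc i j x hx := by
    filter_upwards [((A.e i).open_source.inter (A.e j).open_source).mem_nhds hx] with y hy
    rw [D.c_loc i j y hy x hx]
  mul i j k x hx := by
    rw [← D.c_mul i j k x hx, hφ, add_comm]

/-- **Hodge decomposition for locally constant cocycles** (hypothesis, from part D) -/
def HodgeZ (A : Atl n M) [Finite A.ι] (P : Part A) : Prop :=
  ∀ C : ZCoc A, ∃ b ∈ H1 A, ∃ v : M → ℂ, A.Sm v ∧ ∀ i, ∀ x ∈ (A.e i).source, ∀ a,
    A.db i a (fun y => (C.prim P i y : ℂ)) x =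
      conj (b i x (EuclideanSpace.single a 1)) + A.db i a v x

/-- the smooth quasi-periodic function on the covering -/
def qf [Finite A.ι] (P : Part A) (φ : G → ℝ) (hφ : ∀ g h, φ (g * h) = φ g + φ h)
    (e : D.cov G) : ℝ :=
  (zc D φ hφ).prim P (A.cover (D.pr e)).choose (D.pr e) + φ (D.co (A.cover (D.pr e)).choose e)

theorem qf_eq [Finite A.ι] (P : Part A) (φ : G → ℝ) (hφ : ∀ g h, φ (g * h) = φ g + φ h)
    {i : A.ι} {e : D.cov G} (hi : D.pr e ∈ (A.e i).source) :
    qf D P φ hφ e = (zc D φ hφ).prim P i (D.pr e) + φ (D.co i e) := by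
  set j := (A.cover (D.pr e)).choose with hj
  have hjs : D.pr e ∈ (A.e j).source := (A.cover (D.pr e)).choose_spec
  have h1 := (zc D φ hφ).prim_sub P i j ⟨hi, hjs⟩
  have h2 : D.co j e = D.c i j (D.pr e) * D.co i e := D.co_eq hi hjs
  have h3 : φ (D.co j e) = φ (D.c i j (D.pr e)) + φ (D.co i e) := by rw [h2, hφ]
  change (zc D φ hφ).prim P j (D.pr e) + φ (D.co j e) = _
  rw [h3]
  change _ = φ (D.c i j (D.pr e)) at h1
  rw [← h1]
  ring

theorem qf_deck [Finite A.ι] (P : Part A) (φ : G → ℝ) (hφ : ∀ g h, φ (g * h) = φ g + φ h)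
    (g : G) (e : D.cov G) : qf D P φ hφ (g • e) = qf D P φ hφ e - φ g := by
  obtain ⟨i, hi⟩ := A.cover (D.pr e)
  have hi' : D.pr (g • e) ∈ (A.e i).source := hi
  rw [qf_eq D P φ hφ hi, qf_eq D P φ hφ hi', D.co_deck, hφ, D.pr_deck]
  have h1 : φ g⁻¹ = - φ g := by
    have h2 : φ (g * g⁻¹) = φ g + φ g⁻¹ := hφ _ _
    have h3 : φ 1 = 0 := by
      have := hφ 1 1
      rw [mul_one] at this
      linarith
    rw [mul_inv_cancel, h3] at h2
    linarith
  rw [h1]
  ring

section univ

variable [SimplyConnectedSpace (D.cov G)] (hA : GoodA A) (e0 : D.cov G)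

/-- **every real homomorphism is the real part of the periods of a closed holomorphic 1-form** -/
theorem exists_per [CompactSpace M] [T2Space M] [Finite A.ι] (P : Part A) (hH : HodgeZ A P)
    (φ : G → ℝ) (hφ : ∀ g h, φ (g * h) = φ g + φ h) :
    ∃ b : H1 A, ∀ g, φ g = (per D hA e0 b g).re := by
  obtain ⟨b, hb, v, hv, hbv⟩ := hH (zc D φ hφ)
  set B : H1 A := ⟨b, hb⟩ with hB
  set a := prm D hA e0 B with ha
  have haP : IsPrim (D.atl G) (plb D G b) a := prm_isPrim D hA e0 B
  -- the holomorphic function `u - v - conj a`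
  set H : D.cov G → ℂ := fun e => (qf D P φ hφ e : ℂ) - v (D.pr e) - conj (a e) with hHdef
  have hHh : ∀ p, DifferentiableOn ℂ (fun z => H (((D.atl G).e p).symm z))
      ((D.atl G).e p).target := by
    rintro ⟨i, w⟩
    -- read in the chart
    have hcong : ∀ z ∈ (A.e i).target, H (((D.atl G).e (i, w)).symm z) =
        ((zc D φ hφ).prim P i ((A.e i).symm z) : ℂ) + φ w - v ((A.e i).symm z) -
          conj (a (((D.atl G).e (i, w)).symm z)) := by
      intro z hz
      have hs : (A.e i).symm z ∈ (A.e i).source := (A.e i).map_target hz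
      have h1 : qf D P φ hφ (D.pt i w ((A.e i).symm z)) =
          (zc D φ hφ).prim P i ((A.e i).symm z) + φ w := by
        rw [qf_eq D P φ hφ (i := i) (by exact hs), D.co_pt w hs]
        rfl
      change (qf D P φ hφ (D.pt i w ((A.e i).symm z)) : ℂ) - v ((A.e i).symm z) -
        conj (a (D.pt i w ((A.e i).symm z))) = _
      rw [h1]
      push_cast
      rfl
    refine DifferentiableOn.congr ?_ hcong
    have ho : IsOpen (A.e i).target := (A.e i).open_target
    have hp : ContDiffOn ℝ ∞ (fun z => ((zc D φ hφ).prim P i ((A.e i).symm z) : ℂ))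
        (A.e i).target := by
      exact Complex.ofRealCLM.contDiff.comp_contDiffOn ((zc D φ hφ).prim_sm P i)
    have hvv : ContDiffOn ℝ ∞ (fun z => v ((A.e i).symm z)) (A.e i).target := hv i
    have haa : DifferentiableOn ℂ (fun z => a (((D.atl G).e (i, w)).symm z)) (A.e i).target :=
      haP.diffOn (i, w)
    have hac : ContDiffOn ℝ ∞ (fun z => a (((D.atl G).e (i, w)).symm z)) (A.e i).target := by
      have h1 := Crest.Agent.R266.SCV.analyticOnNhd_of_differentiableOn ho haa
      intro z hz
      exact ((h1 z hz).contDiffAt.restrict_scalars ℝ).contDiffWithinAt.of_le le_top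
    have hcj : ContDiffOn ℝ ∞ (fun z => conj (a (((D.atl G).e (i, w)).symm z)))
        (A.e i).target := Complex.conjCLE.contDiff.comp_contDiffOn hac
    refine Crest.Agent.R275.GeoHol912.differentiableOn_of_dbj ho
      (((hp.add contDiffOn_const).sub hvv).sub hcj) ?_
    intro z hz c
    have hpd : DifferentiableAt ℝ (fun z => ((zc D φ hφ).prim P i ((A.e i).symm z) : ℂ)) z :=
      (hp.contDiffAt (ho.mem_nhds hz)).differentiableAt (by simp)
    have hvd : DifferentiableAt ℝ (fun z => v ((A.e i).symm z)) z :=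
      (hvv.contDiffAt (ho.mem_nhds hz)).differentiableAt (by simp)
    have had : DifferentiableAt ℝ (fun z => a (((D.atl G).e (i, w)).symm z)) z :=
      (hac.contDiffAt (ho.mem_nhds hz)).differentiableAt (by simp)
    have hcd : DifferentiableAt ℝ (fun z => conj (a (((D.atl G).e (i, w)).symm z))) z :=
      (hcj.contDiffAt (ho.mem_nhds hz)).differentiableAt (by simp)
    have e1 : dbj c (fun z => ((zc D φ hφ).prim P i ((A.e i).symm z) : ℂ) + (φ w : ℂ) -
        v ((A.e i).symm z) - conj (a (((D.atl G).e (i, w)).symm z))) z =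
        dbj c (fun z => ((zc D φ hφ).prim P i ((A.e i).symm z) : ℂ)) z -
        dbj c (fun z => v ((A.e i).symm z)) z -
        dbj c (fun z => conj (a (((D.atl G).e (i, w)).symm z))) z := by
      have h1 : HasFDerivAt (fun z => ((zc D φ hφ).prim P i ((A.e i).symm z) : ℂ) + (φ w : ℂ) -
        v ((A.e i).symm z) - conj (a (((D.atl G).e (i, w)).symm z)))
          (fderiv ℝ (fun z => ((zc D φ hφ).prim P i ((A.e i).symm z) : ℂ)) z -
            fderiv ℝ (fun z => v ((A.e i).symm z)) z -
            fderiv ℝ (fun z => conj (a (((D.atl G).e (i, w)).symm z))) z) z :=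
        ((hpd.hasFDerivAt.add_const _).sub hvd.hasFDerivAt).sub hcd.hasFDerivAt
      simp only [dbj, h1.fderiv, _root_.sub_apply]
      module
    rw [e1, Crest.Agent.R273.Levi_145.dbj_conj had]
    have hs : (A.e i).symm z ∈ (A.e i).source := (A.e i).map_target hz
    have h2 := hbv i _ hs c
    unfold Atl.db at h2
    rw [(A.e i).right_inv hz] at h2
    rw [h2]
    have h3 : DifferentiableAt ℂ (fun z => a (((D.atl G).e (i, w)).symm z)) z :=
      haa.differentiableAt (ho.mem_nhds hz)
    rw [Crest.Agent.R273.Levi_145.dj_holo h3]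
    have h4 := haP (i, w) (((D.atl G).e (i, w)).symm z) (((D.atl G).e (i, w)).map_target hz)
    rw [((D.atl G).e (i, w)).right_inv hz] at h4
    rw [h4.fderiv, plb_of_mem D G _ (((D.atl G).e (i, w)).map_target hz)]
    change conj (b i ((A.e i).symm z) (EuclideanSpace.single c 1)) + _ - _ -
      conj (b i ((A.e i).symm z) (EuclideanSpace.single c 1)) = 0
    ring
  have hHq : ∀ (g : G) (e : D.cov G),
      H (g • e) = H e + (-(φ g : ℂ) - conj (per D hA e0 B g)) := by
    intro g e
    change (qf D P φ hφ (g • e) : ℂ) - v (D.pr (g • e)) - conj (a (g • e)) = _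
    rw [qf_deck, D.pr_deck, ha, prm_deck D hA e0 B g e, map_add, hHdef, ← ha]
    push_cast
    ring
  obtain ⟨b', hb', hHP⟩ := exists_form D hHh fun g => ⟨_, hHq g⟩
  -- compare `b'` with `b`
  set B' : H1 A := ⟨b', hb'⟩ with hB'
  have hdiff : IsPrim (D.atl G) (plb D G ((B' - B : H1 A) : A.ι → M → (Cn n →L[ℂ] ℂ)))
      (fun e => H e - a e) := by
    have h1 := hHP.sub haP
    have h2 : plb D G b' - plb D G b =
        plb D G ((B' - B : H1 A) : A.ι → M → (Cn n →L[ℂ] ℂ)) := (plb_sub D b' b).symm
    rwa [h2] at h1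
  have hper : ∀ g, per D hA e0 (B' - B) g =
      -(φ g : ℂ) - conj (per D hA e0 B g) - per D hA e0 B g := by
    intro g
    rw [← per_eq D hA e0 (B' - B) hdiff g e0, hHq g e0, ha, prm_deck D hA e0 B g e0]
    ring
  have hz : B' - B = 0 := by
    apply eq_zero_of_im_per D hA e0
    intro g
    rw [hper g]
    simp
  have hper0 : ∀ g, per D hA e0 (B' - B) g = 0 := by
    intro g
    rw [hz]
    have := per_smul D hA e0 0 (0 : H1 A) g
    rwa [zero_smul, zero_mul] at this
  refine ⟨(-2 : ℂ) • B, fun g => ?_⟩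
  rw [per_smul]
  have h1 := hper g
  rw [hper0 g] at h1
  have h2 := congrArg Complex.re h1
  simp at h2
  simp
  linarith

/-- uniqueness -/
theorem per_re_injective [CompactSpace M] [T2Space M] [Finite A.ι] {b b' : H1 A}
    (h : ∀ g, (per D hA e0 b g).re = (per D hA e0 b' g).re) : b = b' := by
  rw [← sub_eq_zero]
  apply eq_zero_of_re_per D hA e0
  intro g
  have h1 : per D hA e0 (b - b') g = per D hA e0 b g - per D hA e0 b' g := by
    have h3 : b - b' + b' = b := sub_add_cancel b b'
    have h2 : per D hA e0 b g = per D hA e0 (b - b') g + per D hA e0 b' g :=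
      (congrArg (fun c : H1 A => per D hA e0 c g) h3.symm).trans (per_add D hA e0 (b - b') b' g)
    rw [h2]
    ring
  rw [h1, Complex.sub_re, h g, sub_self]

end univ

end

end Crest.Agent.R273.Alb645
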