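import Mathlib

/-!
# R273, leaf LAT (helper645): the Albanese lattice, group theoretic part

`Γ` finitely generated group, `V` finite dimensional real space, `lam : Γ →* Multiplicative V`
such that every homomorphism `Γ → ℝ` is `ℓ ∘ lam` for a unique linear `ℓ : V → ℝ`.
Then the image `L` of `lam` is a lattice in `V` (discrete, spanning).
-/

set_option autoImplicit false
set_option linter.unusedSectionVars false

namespace Crest.Agent.R273.Lat

open Multiplicative

variable {Γ : Type*} [Group Γ] {V : Type*} [NormedAddCommGroup V] [NormedSpace ℝ V]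
  [FiniteDimensional ℝ V]

/-- every real homomorphism is a linear function of `lam`, uniquely -/
def Univ (lam : Γ →* Multiplicative V) : Prop :=
  ∀ φ : Γ →* Multiplicative ℝ, ∃! ℓ : V →ₗ[ℝ] ℝ, ∀ γ, toAdd (φ γ) = ℓ (toAdd (lam γ))

/-- the image of `lam` -/
def L (lam : Γ →* Multiplicative V) : Submodule ℤ V := AddSubgroup.toIntSubmodule
  { carrier := {v | ∃ γ, toAdd (lam γ) = v}
    add_mem' := by
      rintro _ _ ⟨γ, rfl⟩ ⟨δ, rfl⟩
      exact ⟨γ * δ, by rw [map_mul]; rfl⟩
    zero_mem' := ⟨1, by rw [map_one]; rfl⟩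
    neg_mem' := by
      rintro _ ⟨γ, rfl⟩
      exact ⟨γ⁻¹, by rw [map_inv]; rfl⟩ }

variable (lam : Γ →* Multiplicative V)

theorem mem_L {v : V} : v ∈ L lam ↔ ∃ γ, toAdd (lam γ) = v := Iff.rfl

/-- `Γ → L` -/
def toL : Γ →* Multiplicative (L lam) where
  toFun γ := ofAdd ⟨toAdd (lam γ), γ, rfl⟩
  map_one' := by
    apply toAdd.injective
    apply Subtype.ext
    change toAdd (lam 1) = 0
    rw [map_one]; rfl
  map_mul' x y := by
    apply toAdd.injective
    apply Subtype.ext
    change toAdd (lam (x * y)) = toAdd (lam x) + toAdd (lam y)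
    rw [map_mul]; rfl

theorem toL_surjective : Function.Surjective (toL lam) := by
  intro v
  obtain ⟨γ, hγ⟩ := (toAdd v).2
  refine ⟨γ, ?_⟩
  apply toAdd.injective
  apply Subtype.ext
  exact hγ

theorem fg_L [Group.FG Γ] : Module.Finite ℤ (L lam) := by
  have h1 : Group.FG (Multiplicative (L lam)) := Group.fg_of_surjective (toL_surjective lam)
  have h2 : AddGroup.FG (L lam) := AddGroup.fg_iff_mul_fg.2 h1
  exact Module.Finite.iff_addGroup_fg.2 h2

variable {lam}

theorem span_L (hU : Univ lam) : Submodule.span ℝ (L lam : Set V) = ⊤ := by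
  by_contra hne
  obtain ⟨f, hf0, hf⟩ := Submodule.exists_le_ker_of_lt_top _ (lt_top_iff_ne_top.2 hne)
  obtain ⟨ℓ, -, hu⟩ := hU 1
  have h1 := hu 0 (fun γ => by simp)
  have h2 := hu f (fun γ => by
    have : toAdd (lam γ) ∈ LinearMap.ker f := hf (Submodule.subset_span ⟨γ, rfl⟩)
    rw [LinearMap.mem_ker.1 this]; simp)
  exact hf0 (h2.trans h1.symm)

variable (lam) in
/-- a `ℤ`-basis of the image -/
noncomputable def bas [Group.FG Γ] : Σ n : ℕ, Module.Basis (Fin n) ℤ (L lam) := by
  have := fg_L lam
  have : Module ℚ V := Module.compHom V (algebraMap ℚ ℝ)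
  have : IsAddTorsionFree V := .of_module_rat _
  exact Module.basisOfFiniteTypeTorsionFree'

/-- the `ℤ`-basis is linearly independent over `ℝ` -/
theorem linearIndependent_bas [Group.FG Γ] (hU : Univ lam) :
    LinearIndependent ℝ (fun i => ((bas lam).2 i : V)) := by
  set b := (bas lam).2 with hb
  rw [Fintype.linearIndependent_iff]
  intro g hg i
  -- the coordinate homomorphism
  let c : L lam →+ ℝ := (Int.castAddHom ℝ).comp (b.coord i).toAddMonoidHom
  let φ : Γ →* Multiplicative ℝ := (AddMonoidHom.toMultiplicative c).comp (toL lam)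
  obtain ⟨ℓ, hℓ, -⟩ := hU φ
  have key : ∀ v : L lam, ℓ (v : V) = ((b.coord i v : ℤ) : ℝ) := by
    intro v
    obtain ⟨γ, hγ⟩ := toL_surjective lam (ofAdd v)
    have h1 := hℓ γ
    have h2 : toAdd (lam γ) = (v : V) := by
      have : toAdd (toL lam γ) = v := by rw [hγ]; rfl
      rw [← this]; rfl
    rw [h2] at h1
    rw [← h1]
    change toAdd (AddMonoidHom.toMultiplicative c (toL lam γ)) = _
    rw [hγ]; rfl
  have h3 := congrArg ℓ hg
  rw [map_sum, map_zero] at h3
  have h4 : ∀ j, ℓ (g j • (b j : V)) = if j = i then g j else 0 := by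
    intro j
    rw [map_smul, key, Module.Basis.coord_apply, Module.Basis.repr_self, smul_eq_mul,
      Finsupp.single_apply]
    split_ifs <;> simp
  rw [Finset.sum_congr rfl fun j _ => h4 j] at h3
  simpa using h3

theorem coe_span_bas [Group.FG Γ] :
    Submodule.span ℤ (Set.range fun i => ((bas lam).2 i : V)) = L lam := by
  set b := (bas lam).2 with hb
  have h1 := b.span_eq
  have h2 : Submodule.map (L lam).subtype (Submodule.span ℤ (Set.range b)) = L lam := by
    rw [h1, Submodule.map_top, Submodule.range_subtype]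
  rw [Submodule.map_span, ← Set.range_comp] at h2
  exact h2

/-- the `ℤ`-basis of `L` is an `ℝ`-basis of `V` -/
noncomputable def basV [Group.FG Γ] (hU : Univ lam) : Module.Basis (Fin (bas lam).1) ℝ V :=
  Module.Basis.mk (linearIndependent_bas hU) (by
    rw [← span_L hU]
    apply Submodule.span_le.2
    intro v hv
    rw [SetLike.mem_coe, ← coe_span_bas] at hv
    refine Submodule.span_induction (p := fun v _ => v ∈ Submodule.span ℝ
      (Set.range fun i => ((bas lam).2 i : V))) ?_ ?_ ?_ ?_ hv
    · intro x hx; exact Submodule.subset_span hx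
    · exact Submodule.zero_mem _
    · intro x y _ _ hx hy; exact Submodule.add_mem _ hx hy
    · intro a x _ hx; exact zsmul_mem hx a)

theorem basV_apply [Group.FG Γ] (hU : Univ lam) (i) : basV hU i = ((bas lam).2 i : V) := by
  simp [basV]

theorem span_basV [Group.FG Γ] (hU : Univ lam) :
    Submodule.span ℤ (Set.range (basV hU)) = L lam := by
  refine Eq.trans ?_ (coe_span_bas (lam := lam))
  congr 1
  ext v
  simp [basV_apply]

/-- **LAT** : the image is discrete -/
theorem discrete_L [Group.FG Γ] (hU : Univ lam) : DiscreteTopology (L lam) := by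
  have h : ∀ W : Submodule ℤ V, Submodule.span ℤ (Set.range (basV hU)) = W →
      DiscreteTopology W := by
    rintro _ rfl
    infer_instance
  exact h _ (span_basV hU)

/-- **LAT** : the image is a lattice -/
theorem isZLattice_L [Group.FG Γ] (hU : Univ lam) :
    haveI := discrete_L hU
    IsZLattice ℝ (L lam) := by
  have := discrete_L hU
  exact ⟨span_L hU⟩

theorem finrank_V [Group.FG Γ] (hU : Univ lam) : Module.finrank ℝ V = (bas lam).1 := by
  rw [Module.finrank_eq_card_basis (basV hU), Fintype.card_fin]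

/-- cocompactness: every vector is at bounded distance of the lattice -/
theorem coc_L [Group.FG Γ] (hU : Univ lam) :
    ∃ R : ℝ, ∀ v : V, ∃ γ : Γ, ‖toAdd (lam γ) - v‖ ≤ R := by
  set b := basV hU
  refine ⟨∑ i, ‖b i‖, fun v => ?_⟩
  have h1 : (ZSpan.floor b v : V) ∈ L lam := by
    have h := (ZSpan.floor b v).2
    have e : Submodule.span ℤ (Set.range b) = L lam := span_basV hU
    exact (SetLike.ext_iff.1 e _).1 h
  obtain ⟨γ, hγ⟩ := h1
  refine ⟨γ, ?_⟩
  have h2 := ZSpan.norm_fract_le b v
  rw [ZSpan.fract_apply] at h2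
  rw [hγ, norm_sub_rev]
  exact h2

/-- an element of the kernel of `lam` has a power in the commutator subgroup -/
theorem ker_pow [Group.FG Γ] (hU : Univ lam) {γ : Γ} (hγ : lam γ = 1) :
    ∃ n : ℕ, 0 < n ∧ γ ^ n ∈ commutator Γ := by
  by_contra hcon
  push Not at hcon
  let M := Additive (Abelianization Γ)
  have hfg : Module.Finite ℤ M := by
    have h1 : Group.FG (Abelianization Γ) := Group.fg_of_surjective (f := Abelianization.of)
      (QuotientGroup.mk'_surjective _)
    exact Module.Finite.iff_addGroup_fg.2 (AddGroup.fg_iff_mul_fg.2 h1)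
  let m : M := Additive.ofMul (Abelianization.of γ)
  have hm : m ∉ Submodule.torsion ℤ M := by
    rintro ⟨⟨a, ha⟩, h⟩
    have ha0 : a ≠ 0 := nonZeroDivisors.ne_zero ha
    have h2 : a • m = 0 := h
    have h3 : (Abelianization.of γ) ^ a = 1 := h2
    have h4 : (Abelianization.of γ) ^ a.natAbs = 1 := by
      rcases Int.natAbs_eq a with h | h
      · rw [h, zpow_natCast] at h3; exact h3
      · rw [h, zpow_neg, zpow_natCast, inv_eq_one] at h3; exact h3
    rw [← map_pow] at h4
    have h5 : γ ^ a.natAbs ∈ commutator Γ := (QuotientGroup.eq_one_iff _).1 h4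
    exact hcon _ (Int.natAbs_pos.2 ha0) h5
  obtain ⟨n, b⟩ : Σ n : ℕ, Module.Basis (Fin n) ℤ (M ⧸ Submodule.torsion ℤ M) :=
    Module.basisOfFiniteTypeTorsionFree'
  have hm' : (Submodule.Quotient.mk m : M ⧸ Submodule.torsion ℤ M) ≠ 0 := by
    rw [Ne, Submodule.Quotient.mk_eq_zero]; exact hm
  obtain ⟨i, hi⟩ : ∃ i, b.coord i (Submodule.Quotient.mk m) ≠ 0 := by
    by_contra h
    push Not at h
    exact hm' (b.ext_elem fun i => by simpa using h i)
  let c : M →+ ℝ := (Int.castAddHom ℝ).comp
    ((b.coord i).toAddMonoidHom.comp (Submodule.mkQ (Submodule.torsion ℤ M)).toAddMonoidHom)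
  let φ : Γ →* Multiplicative ℝ :=
    (AddMonoidHom.toMultiplicativeRight (α := Abelianization Γ) c).comp Abelianization.of
  obtain ⟨ℓ, hℓ, -⟩ := hU φ
  have h1 := hℓ γ
  rw [hγ, toAdd_one, map_zero] at h1
  have h2 : toAdd (φ γ) = ((b.coord i (Submodule.Quotient.mk m) : ℤ) : ℝ) := rfl
  rw [h2] at h1
  exact hi (by exact_mod_cast h1)

end Crest.Agent.R273.Lat
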