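import Crest.Agent.R273.AlbB_645
import Crest.Agent.R273.Lat_645

/-!
# R273 (S0416), Part B, ALB-2' (helper645): finite dimension of `H1 A` and the period lattice

* `finiteDimensional_H1` : `H1 A` is finite dimensional;
* `lamB D hA e0 bs`      : the period homomorphism `G →* Multiplicative (Fin g → ℂ)` of a basis;
* `univ_lamB`            : it is universal (`Lat.Univ`), so that its image is a lattice (Lat_645).
-/

set_option autoImplicit false
set_option linter.unusedSectionVars false
set_option linter.style.haveILetI false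

open Set Filter Topology Complex Metric
open scoped ContDiff ComplexConjugate

namespace Crest.Agent.R273.Alb645

open Crest.Agent.R275.Geo Crest.Agent.R275.Core144 Crest.Agent.R275.GC293
open Crest.Agent.R275.ZC352 Crest.Agent.R273.UCov_914 Crest.Agent.R273.PiEnd_836

noncomputable section

variable {n : ℕ} {M : Type} [TopologicalSpace M] {A : Atl n M}
variable {G : Type} [Group G] (D : MonD A G)
variable [SimplyConnectedSpace (D.cov G)] (hA : GoodA A) (e0 : D.cov G)

/-- the period homomorphism of a form -/
def perH (b : H1 A) : G →* Multiplicative ℂ where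
  toFun g := Multiplicative.ofAdd (per D hA e0 b g)
  map_one' := by rw [per_one]; rfl
  map_mul' g h := by rw [per_mul]; rfl

theorem perH_apply (b : H1 A) (g : G) :
    Multiplicative.toAdd (perH D hA e0 b g) = per D hA e0 b g := rfl

/-- restriction of the periods to a set of group elements -/
def perL (S : Set G) : H1 A →ₗ[ℂ] (S → ℂ) where
  toFun b s := per D hA e0 b s
  map_add' b b' := by
    funext s
    exact per_add D hA e0 b b' s
  map_smul' c b := by
    funext s
    exact per_smul D hA e0 c b s

theorem per_eq_of_closure {S : Set G} (hS : Subgroup.closure S = ⊤) {b b' : H1 A}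
    (h : ∀ s ∈ S, per D hA e0 b s = per D hA e0 b' s) (g : G) :
    per D hA e0 b g = per D hA e0 b' g := by
  have h1 : perH D hA e0 b = perH D hA e0 b' := by
    refine MonoidHom.eq_of_eqOn_dense hS fun s hs => ?_
    exact congrArg Multiplicative.ofAdd (h s hs)
  exact congrArg (fun f : G →* Multiplicative ℂ => Multiplicative.toAdd (f g)) h1

theorem perL_injective [CompactSpace M] [T2Space M] [Finite A.ι] {S : Set G}
    (hS : Subgroup.closure S = ⊤) : Function.Injective (perL D hA e0 S) := by
  intro b b' hb
  apply per_re_injective D hA e0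
  intro g
  rw [per_eq_of_closure D hA e0 hS (fun s hs => congrFun hb ⟨s, hs⟩) g]

include D hA e0 in
/-- closed holomorphic 1-forms on a compact manifold form a finite dimensional space -/
theorem finiteDimensional_H1 [CompactSpace M] [T2Space M] [Finite A.ι] [Group.FG G] :
    FiniteDimensional ℂ (H1 A) := by
  obtain ⟨S, hS⟩ := Group.fg_def.1 ‹Group.FG G›
  have h1 : Finite (S : Set G) := inferInstance
  exact FiniteDimensional.of_injective (perL D hA e0 (S : Set G)) (perL_injective D hA e0 hS)

variable {g : ℕ}

/-- the period homomorphism of a family of forms -/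
def lamB (bs : Fin g → H1 A) : G →* Multiplicative (Fin g → ℂ) where
  toFun γ := Multiplicative.ofAdd fun k => per D hA e0 (bs k) γ
  map_one' := by
    change Multiplicative.ofAdd _ = Multiplicative.ofAdd 0
    congr 1
    funext k
    exact per_one D hA e0 (bs k)
  map_mul' γ δ := by
    change Multiplicative.ofAdd _ = Multiplicative.ofAdd _
    congr 1
    funext k
    exact per_mul D hA e0 (bs k) γ δ

theorem lamB_apply (bs : Fin g → H1 A) (γ : G) (k : Fin g) :
    (Multiplicative.toAdd (lamB D hA e0 bs γ) : Fin g → ℂ) k = per D hA e0 (bs k) γ := rfl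

/-- the periods of a linear combination -/
theorem per_sum (bs : Fin g → H1 A) (c : Fin g → ℂ) (γ : G) :
    per D hA e0 (∑ k, c k • bs k) γ = ∑ k, c k * per D hA e0 (bs k) γ := by
  have h1 : ∀ b : H1 A, per D hA e0 b γ = perL D hA e0 {γ} b ⟨γ, rfl⟩ := fun b => rfl
  rw [h1, map_sum, Finset.sum_apply]
  refine Finset.sum_congr rfl fun k _ => ?_
  rw [map_smul]
  rfl

/-- the real functional `z ↦ Re ∑ c_k z_k` -/
def reF (c : Fin g → ℂ) : (Fin g → ℂ) →ₗ[ℝ] ℝ where
  toFun z := (∑ k, c k * z k).re
  map_add' z w := by
    simp only [Pi.add_apply, mul_add, Finset.sum_add_distrib, Complex.add_re]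
  map_smul' r z := by
    have h1 : ∑ k, c k * (r • z) k = (r : ℂ) * ∑ k, c k * z k := by
      rw [Finset.mul_sum]
      refine Finset.sum_congr rfl fun k _ => ?_
      simp only [Pi.smul_apply, Complex.real_smul]
      ring
    rw [h1, Complex.re_ofReal_mul]
    rfl

theorem reF_apply (c z : Fin g → ℂ) : reF c z = (∑ k, c k * z k).re := rfl

theorem exists_reF (ℓ : (Fin g → ℂ) →ₗ[ℝ] ℝ) : ∃ c, ℓ = reF c := by
  refine ⟨fun k => ((ℓ (Pi.single k 1) : ℝ) : ℂ) - (ℓ (Pi.single k I) : ℝ) * I, ?_⟩
  apply LinearMap.ext
  intro z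
  rw [reF_apply, Complex.re_sum]
  have h1 : z = ∑ k, ((z k).re • (Pi.single k (1 : ℂ) : Fin g → ℂ) +
      (z k).im • (Pi.single k I : Fin g → ℂ)) := by
    funext l
    rw [Finset.sum_apply, Finset.sum_eq_single l]
    · simp only [Pi.add_apply, Pi.smul_apply, Pi.single_eq_same, Complex.real_smul, mul_one]
      exact (Complex.re_add_im (z l)).symm
    · intro k _ hk
      simp [Pi.single_eq_of_ne hk.symm]
    · intro h
      exact absurd (Finset.mem_univ l) h
  conv_lhs => rw [h1]
  rw [map_sum]
  refine Finset.sum_congr rfl fun k _ => ?_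
  rw [map_add, map_smul, map_smul]
  simp only [smul_eq_mul, Complex.mul_re, Complex.sub_re, Complex.ofReal_re, Complex.I_re,
    Complex.ofReal_im, Complex.I_im, Complex.sub_im, Complex.mul_im]
  ring

theorem reF_lamB (bs : Fin g → H1 A) (c : Fin g → ℂ) (γ : G) :
    reF c (Multiplicative.toAdd (lamB D hA e0 bs γ)) =
      (per D hA e0 (∑ k, c k • bs k) γ).re := by
  rw [reF_apply, per_sum]
  rfl

theorem reF_injective {c c' : Fin g → ℂ} (h : reF c = reF c') : c = c' := by
  funext k
  have h1 := congrArg (fun ℓ => ℓ (Pi.single k 1)) h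
  have h2 := congrArg (fun ℓ => ℓ (Pi.single k I)) h
  have key : ∀ (d : Fin g → ℂ) (w : ℂ), reF d (Pi.single k w) = (d k * w).re := by
    intro d w
    rw [reF_apply, Finset.sum_eq_single k]
    · rw [Pi.single_eq_same]
    · intro l _ hl
      rw [Pi.single_eq_of_ne hl, mul_zero]
    · intro h
      exact absurd (Finset.mem_univ k) h
  simp only [key, mul_one] at h1 h2
  apply Complex.ext h1
  have h3 : ∀ d : ℂ, (d * I).re = - d.im := by intro d; simp
  rw [h3, h3] at h2
  linarith

/-- **universality of the period homomorphism** of a basis of `H1 A` -/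
theorem univ_lamB [CompactSpace M] [T2Space M] [Finite A.ι] (P : Part A) (hH : HodgeZ A P)
    (bs : Module.Basis (Fin g) ℂ (H1 A)) : Lat.Univ (lamB D hA e0 bs) := by
  intro φ
  obtain ⟨b, hb⟩ := exists_per D hA e0 P hH (fun γ => Multiplicative.toAdd (φ γ))
    (fun γ δ => by rw [map_mul]; rfl)
  refine ⟨reF (fun k => bs.repr b k), fun γ => ?_, fun ℓ hℓ => ?_⟩
  · rw [hb γ, reF_lamB]
    congr 2
    exact (bs.sum_repr b).symm
  · obtain ⟨c, rfl⟩ := exists_reF ℓ
    congr 1
    have h1 : ∑ k, c k • bs k = b := by
      apply per_re_injective D hA e0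
      intro γ
      rw [← reF_lamB, ← hℓ γ, hb γ]
    rw [← h1]
    funext k
    rw [bs.repr_sum_self]

end

end Crest.Agent.R273.Alb645
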