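import Crest.Agent.R273.HFlow5_376

/-!
# R273 (S0416), HFLOW (helper376), file 6: the action of `ℂ^g` of `g` commuting holomorphic vector
fields.
-/

set_option autoImplicit false
set_option linter.unusedSectionVars false

open Set Metric Filter Topology Complex Function
open scoped NNReal ContDiff

namespace Crest.Agent.R273.HFlow6_376

open Crest.Agent.R275.Geo Crest.Agent.R273.HFlow3_376 Crest.Agent.R273.HFlow4_376
open Crest.Agent.R273.HFlow5_376

noncomputable section

variable {n m : ℕ} {M M' : Type} [TopologicalSpace M] [TopologicalSpace M'] {A : Atl n M}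
  {B : Atl m M'}

/-- the action of `ℂ^g` defined by commuting fields `V k` -/
structure MFlow {g : ℕ} (V : Fin g → HVF A) where
  Φ : (Fin g → ℂ) → M → M
  zero : ∀ x, Φ 0 x = x
  add : ∀ c d x, Φ (c + d) x = Φ c (Φ d x)
  int : ∀ k x t, IntAt (V k) (fun s => Φ (Pi.single k s) x) t
  hol : ∀ c x, HolP A A Φ c x

section Construct

variable {g : ℕ} {V : Fin g → HVF A} (F : ∀ k, Flow (V k))

/-- composition of the flows of the indices of a list -/
def comps : List (Fin g) → (Fin g → ℂ) → M → M
  | [], _ => id
  | k :: l, c => (F k).Φ (c k) ∘ comps l c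

variable (hc : ∀ k l s t x, (F k).Φ s ((F l).Φ t x) = (F l).Φ t ((F k).Φ s x))
include hc

theorem comps_comm (k : Fin g) (s : ℂ) (l : List (Fin g)) (c : Fin g → ℂ) (x : M) :
    (F k).Φ s (comps F l c x) = comps F l c ((F k).Φ s x) := by
  induction l with
  | nil => rfl
  | cons k' l ih =>
    simp only [comps, comp_apply]
    rw [hc, ih]

theorem comps_add (l : List (Fin g)) (c d : Fin g → ℂ) (x : M) :
    comps F l (c + d) x = comps F l c (comps F l d x) := by
  induction l with
  | nil => rfl
  | cons k l ih =>
    simp only [comps, comp_apply, Pi.add_apply]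
    rw [ih, (F k).add, ← comps_comm F hc]

omit hc

theorem comps_zero (l : List (Fin g)) (x : M) : comps F l 0 x = x := by
  induction l with
  | nil => rfl
  | cons k l ih =>
    simp only [comps, comp_apply, Pi.zero_apply]
    rw [ih, (F k).zero]

theorem comps_single_notMem (l : List (Fin g)) (k : Fin g) (s : ℂ) (x : M) (hk : k ∉ l) :
    comps F l (Pi.single k s) x = x := by
  induction l with
  | nil => rfl
  | cons k' l ih =>
    simp only [List.mem_cons, not_or] at hk
    simp only [comps, comp_apply]
    rw [ih hk.2, Pi.single_eq_of_ne (Ne.symm hk.1), (F k').zero]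

theorem comps_single (l : List (Fin g)) (hl : l.Nodup) (k : Fin g) (s : ℂ) (x : M) (hk : k ∈ l) :
    comps F l (Pi.single k s) x = (F k).Φ s x := by
  induction l with
  | nil => exact absurd hk List.not_mem_nil
  | cons k' l ih =>
    rw [List.nodup_cons] at hl
    simp only [comps, comp_apply]
    by_cases h : k = k'
    · subst h
      rw [comps_single_notMem F l k s x hl.1, Pi.single_eq_same]
    · rw [ih hl.2 ((List.mem_cons.1 hk).resolve_left h), Pi.single_eq_of_ne (Ne.symm h),
        (F k').zero]

theorem comps_hol (l : List (Fin g)) (c : Fin g → ℂ) (x : M) : HolP A A (comps F l) c x := by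
  induction l with
  | nil => exact holP_id c x
  | cons k l ih =>
    refine HolP.comp (G := fun (c : Fin g → ℂ) y => (F k).Φ (c k) y) (F := comps F l) ?_ ih
    exact HolP.comp_param (F := (F k).Φ) (f := fun c : Fin g → ℂ => c k) ((F k).hol _ _)
      (by fun_prop)

end Construct

theorem Comm.self (V : HVF A) : Comm V V := fun _ _ _ => rfl

/-- **action of `ℂ^g`** of commuting holomorphic vector fields with global flows -/
def MFlow.of [T2Space M] {g : ℕ} {V : Fin g → HVF A} (F : ∀ k, Flow (V k))
    (hV : ∀ k l, Comm (V k) (V l)) : MFlow V where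
  Φ := comps F (List.finRange g)
  zero := comps_zero F _
  add := comps_add F (fun k l s t x => (F k).commute (F l) (hV k l) s t x) _
  int k x t := by
    have : (fun s => comps F (List.finRange g) (Pi.single k s) x) = fun s => (F k).Φ s x := by
      funext s
      exact comps_single F _ (List.nodup_finRange g) k s x (List.mem_finRange k)
    rw [this]
    exact (F k).int x t
  hol := comps_hol F _

theorem exists_mflow [T2Space M] [CompactSpace M] {g : ℕ} (V : Fin g → HVF A)
    (hV : ∀ k l, Comm (V k) (V l)) : Nonempty (MFlow V) :=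
  ⟨MFlow.of (fun k => Flow.of (V k)) hV⟩

namespace MFlow

variable {g : ℕ} {V : Fin g → HVF A} (F : MFlow V)

theorem neg_left (c : Fin g → ℂ) (x : M) : F.Φ (-c) (F.Φ c x) = x := by
  rw [← F.add, neg_add_cancel, F.zero]

theorem neg_right (c : Fin g → ℂ) (x : M) : F.Φ c (F.Φ (-c) x) = x := by
  rw [← F.add, add_neg_cancel, F.zero]

theorem comm (c d : Fin g → ℂ) (x : M) : F.Φ c (F.Φ d x) = F.Φ d (F.Φ c x) := by
  rw [← F.add, ← F.add, add_comm]

theorem holM (c : Fin g → ℂ) : HolM A A (F.Φ c) := HolP.slice fun x => F.hol c x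

theorem continuous_uncurry : Continuous (uncurry F.Φ) :=
  continuous_iff_continuousAt.2 fun p => (F.hol p.1 p.2).cont

/-- the map `Φ c` as a homeomorphism -/
def homeo (c : Fin g → ℂ) : M ≃ₜ M where
  toFun := F.Φ c
  invFun := F.Φ (-c)
  left_inv x := F.neg_left c x
  right_inv x := F.neg_right c x
  continuous_toFun := (F.holM c).continuous
  continuous_invFun := (F.holM (-c)).continuous

/-- the one parameter flow of one of the fields -/
def flow (k : Fin g) : Flow (V k) where
  Φ s x := F.Φ (Pi.single k s) x
  zero x := by simp only [Pi.single_zero, F.zero]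
  add s t x := by simp only [Pi.single_add, F.add]
  int x t := F.int k x t
  hol t x := HolP.comp_param (F := F.Φ) (f := fun s : ℂ => (Pi.single k s : Fin g → ℂ))
    (F.hol _ _) (by
      have : (fun s : ℂ => (Pi.single k s : Fin g → ℂ)) = fun s => s • Pi.single k (1 : ℂ) := by
        funext s; rw [← Pi.single_smul]; simp
      rw [this]; fun_prop)

theorem eq_sum (c : Fin g → ℂ) (s : Finset (Fin g)) (k : Fin g) (hk : k ∉ s) (x : M) :
    F.Φ (∑ l ∈ insert k s, Pi.single l (c l)) x =
      F.Φ (Pi.single k (c k)) (F.Φ (∑ l ∈ s, Pi.single l (c l)) x) := by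
  rw [Finset.sum_insert hk, F.add]

omit [TopologicalSpace M] in
/-- induction principle on `ℂ^g` -/
theorem induct (Q : (Fin g → ℂ) → Prop) (h0 : Q 0) (hk : ∀ k s c, Q c → Q (Pi.single k s + c))
    (c : Fin g → ℂ) : Q c := by
  classical
  have : ∀ s : Finset (Fin g), Q (∑ l ∈ s, Pi.single l (c l)) := by
    intro s
    induction s using Finset.induction_on with
    | empty => simpa using h0
    | insert k s hks ih => rw [Finset.sum_insert hks]; exact hk k _ _ ih
  have h1 := this Finset.univ
  rwa [Finset.univ_sum_single] at h1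

/-- intertwining with another action, e.g. deck transformations (`f : M → M`), coverings -/
theorem related [T2Space M'] {W : Fin g → HVF B} {f : M → M'} (h : ∀ k, Related (V k) (W k) f)
    (G : MFlow W) (c : Fin g → ℂ) (x : M) : f (F.Φ c x) = G.Φ c (f x) := by
  refine induct (fun c => f (F.Φ c x) = G.Φ c (f x)) (by rw [F.zero, G.zero]) ?_ c
  intro k s c ih
  rw [F.add, G.add, ← ih]
  exact (h k).flow (F.flow k) (G.flow k) s (F.Φ c x)

/-- a map to a vector space with `df(V_k) = e_k` is equivariant: `f (Φ_c x) = f x + ∑ c_k e_k` -/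
theorem map_add {E : Type*} [NormedAddCommGroup E] [NormedSpace ℂ E] (f : M → E) (e : Fin g → E)
    (h : ∀ k x, HasDerivAt (fun s => f (F.Φ (Pi.single k s) x)) (e k) 0) (c : Fin g → ℂ) (x : M) :
    f (F.Φ c x) = f x + ∑ k, c k • e k := by
  have h1 : ∀ k s x, f (F.Φ (Pi.single k s) x) = f x + s • e k := by
    intro k s x
    have h2 : ∀ t, HasDerivAt (fun s => f (F.Φ (Pi.single k s) x) - s • e k) 0 t := by
      intro t
      have h3 : HasDerivAt (fun s => f (F.Φ (Pi.single k s) (F.Φ (Pi.single k t) x))) (e k)
          (t - t) := by rw [sub_self]; exact h k _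
      have h4 := h3.comp_sub_const t t
      have h5 : (fun s => f (F.Φ (Pi.single k (s - t)) (F.Φ (Pi.single k t) x))) =
          fun s => f (F.Φ (Pi.single k s) x) := by
        funext s
        rw [← F.add, ← Pi.single_add, sub_add_cancel]
      have h6 : HasDerivAt (fun s => f (F.Φ (Pi.single k s) x)) (e k) t := h5 ▸ h4
      have h7 := h6.fun_sub ((hasDerivAt_id t).smul_const (e k))
      simpa using h7
    have h7 := is_const_of_deriv_eq_zero (fun t => (h2 t).differentiableAt)
      (fun t => (h2 t).deriv) s 0
    simp only [zero_smul, sub_zero, Pi.single_zero, F.zero] at h7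
    rw [← h7]
    abel
  refine induct (fun c => f (F.Φ c x) = f x + ∑ k, c k • e k) (by simp [F.zero]) ?_ c
  intro k s c ih
  rw [F.add, h1, ih]
  have : ∑ l, ((Pi.single k s : Fin g → ℂ) + c) l • e l = s • e k + ∑ l, c l • e l := by
    simp only [Pi.add_apply, add_smul, Finset.sum_add_distrib]
    congr 1
    rw [Finset.sum_eq_single k (fun l _ hl => by simp [hl])
      (fun h => absurd (Finset.mem_univ k) h), Pi.single_eq_same]
  rw [this]
  abel

end MFlow

end

end Crest.Agent.R273.HFlow6_376
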