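import Crest.Agent.R273.AlbC_645
import Crest.Agent.R273.HFlow6_376
import Crest.Agent.R273.Map_835

/-!
# R273 (S0416), Part B, ALB-3 (helper645), file D: commuting fields dual to closed 1-forms on the
universal cover

* `pullV D F V`   : pull-back of a field to a covering; `related_pr`, `related_deck`, `comm_pullV`;
* `mflowN`        : the action of `ℂ^g` on `D.cov G`;
* `avec`          : the vector of primitives; `avec_flow`, `avec_deck`, `flow_deck`;
* `DualD`         : the data (fields, forms).
-/

set_option autoImplicit false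
set_option linter.unusedSectionVars false
set_option linter.style.haveILetI false

open Set Filter Topology Complex Metric Function
open scoped ContDiff ComplexConjugate

namespace Crest.Agent.R273.Alb645

open Crest.Agent.R275.Geo Crest.Agent.R275.Core144 Crest.Agent.R275.GC293
open Crest.Agent.R275.ZC352 Crest.Agent.R273.UCov_914 Crest.Agent.R273.PiEnd_836
open Crest.Agent.R273.HFlow3_376 Crest.Agent.R273.HFlow4_376 Crest.Agent.R273.HFlow5_376
open Crest.Agent.R273.HFlow6_376 Crest.Agent.R273.Map_835

noncomputable section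

variable {n : ℕ} {M : Type} [TopologicalSpace M] {A : Atl n M}

/-! ### comparison of the two notions of holomorphic maps -/

theorem holM_iff {m : ℕ} {M' : Type} [TopologicalSpace M'] {B : Atl m M'} {f : M → M'} :
    HolM A B f ↔ HolMap A B f := by
  constructor
  · intro h
    refine ⟨h.continuous, fun i j z hz => ?_⟩
    have h1 := h.diff (x := (A.e i).symm z) ((A.e i).map_target hz.1) hz.2
    rw [(A.e i).right_inv hz.1] at h1
    exact h1.differentiableWithinAt
  · intro h x
    obtain ⟨i, hi⟩ := A.cover x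
    obtain ⟨j, hj⟩ := B.cover (f x)
    refine ⟨h.cont.continuousAt, i, j, hi, hj, ?_⟩
    refine h.diffAt ⟨(A.e i).map_source hi, ?_⟩
    rw [mem_preimage, mem_preimage, (A.e i).left_inv hi]
    exact hj

/-! ### pull-back of fields -/

variable {G : Type} [Group G] (D : MonD A G)

section pull

variable (F : Type) [MulAction G F]

/-- pull-back of a holomorphic vector field to a covering -/
def pullV (V : HVF A) : HVF (D.atl F) where
  X p e := V.X p.1 (D.pr e)
  hol p := V.hol p.1
  tr p q e he := V.tr p.1 q.1 (D.pr e) ⟨he.1.1, he.2.1⟩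

/-- the projection is holomorphic -/
theorem holM_pr : HolM (D.atl F) A (D.pr (F := F)) := by
  rw [holM_iff]
  exact ⟨D.continuous_pr, fun p j => (A.holo p.1 j).mono fun z hz => ⟨hz.1, hz.2⟩⟩

theorem related_pr (V : HVF A) : Related (pullV D F V) V (D.pr (F := F)) := by
  refine ⟨holM_pr D F, fun p j e he hj => ?_⟩
  exact (V.tr p.1 j (D.pr e) ⟨he.1, hj⟩).symm

theorem comm_pullV {V W : HVF A} (h : Comm V W) : Comm (pullV D F V) (pullV D F W) :=
  fun p z hz => h p.1 z hz

end pull

/-- deck transformations are holomorphic -/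
theorem holM_deck (g : G) : HolM (D.atl G) (D.atl G) (fun e => g • e) := by
  rw [holM_iff]
  refine ⟨continuous_const_smul g, fun p q => ?_⟩
  exact (A.holo p.1 q.1).mono fun z hz => ⟨hz.1, hz.2.1⟩

theorem related_deck (V : HVF A) (g : G) :
    Related (pullV D G V) (pullV D G V) (fun e => g • e) := by
  refine ⟨holM_deck D g, fun p q e he hq => ?_⟩
  exact (V.tr p.1 q.1 (D.pr e) ⟨he.1, hq.1⟩).symm

/-- the deck transformation as a homeomorphism -/
def dkh (g : G) : D.cov G ≃ₜ D.cov G := Homeomorph.smul g

theorem exists_flowN [CompactSpace M] [T2Space M] [Finite A.ι] (V : HVF A) :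
    Nonempty (Flow (pullV D G V)) := by
  obtain ⟨K, hK, hKc⟩ := D.exists_fund (A := A)
  refine exists_flow_of_cocompact _ hK fun x => ?_
  obtain ⟨g, hg⟩ := hKc x
  refine ⟨dkh D g⁻¹, related_deck D V g⁻¹, ?_, ?_⟩
  · have h1 : ((dkh D g⁻¹).symm : D.cov G → D.cov G) = fun e => g • e := by
      funext e
      change (g⁻¹)⁻¹ • e = g • e
      rw [inv_inv]
    rw [h1]
    exact holM_deck D g
  · change (g⁻¹)⁻¹ • x ∈ K
    rw [inv_inv]
    exact hg

/-- commuting fields dual to closed holomorphic 1-forms -/
structure DualD (A : Atl n M) (g : ℕ) where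
  V : Fin g → HVF A
  b : Fin g → H1 A
  comm : ∀ k l, Comm (V k) (V l)
  dual : ∀ k l i, ∀ x ∈ (A.e i).source,
    (b k : A.ι → M → (Cn n →L[ℂ] ℂ)) i x ((V l).X i x) = if k = l then 1 else 0

section flow

variable {g : ℕ} (S : DualD A g) [CompactSpace M] [T2Space M] [Finite A.ι]

/-- the action of `ℂ^g` on the covering -/
def mflowN : MFlow (fun k => pullV D G (S.V k)) :=
  MFlow.of (fun k => (exists_flowN D (S.V k)).some) fun k l => comm_pullV D G (S.comm k l)

/-- the action of `ℂ^g` on the base -/
def mflowM : MFlow S.V := (exists_mflow S.V S.comm).some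

theorem pr_flow (c : Fin g → ℂ) (e : D.cov G) :
    D.pr ((mflowN D S).Φ c e) = (mflowM S).Φ c (D.pr e) :=
  MFlow.related (mflowN D S) (fun k => related_pr D G (S.V k)) (mflowM S) c e

theorem flow_deck (c : Fin g → ℂ) (γ : G) (e : D.cov G) :
    (mflowN D S).Φ c (γ • e) = γ • (mflowN D S).Φ c e :=
  (MFlow.related (mflowN D S) (fun k => related_deck D (S.V k) γ) (mflowN D S) c e).symm

variable [SimplyConnectedSpace (D.cov G)] (hA : GoodA A) (e0 : D.cov G)

/-- the vector of primitives -/
def avec (e : D.cov G) : Fin g → ℂ := fun k => prm D hA e0 (S.b k) e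

omit [CompactSpace M] [T2Space M] [Finite A.ι] in
theorem avec_zero : avec D S hA e0 e0 = 0 := by
  funext k
  exact prm_zero D hA e0 (S.b k)

omit [CompactSpace M] [T2Space M] [Finite A.ι] in
theorem continuous_avec : Continuous (avec D S hA e0) :=
  continuous_pi fun k => (prm_isPrim D hA e0 (S.b k)).continuous

omit [CompactSpace M] [T2Space M] [Finite A.ι] in
theorem avec_deck (γ : G) (e : D.cov G) : avec D S hA e0 (γ • e) =
    avec D S hA e0 e + Multiplicative.toAdd (lamB D hA e0 S.b γ) := by
  funext k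
  exact prm_deck D hA e0 (S.b k) γ e

/-- the primitives along the action -/
theorem avec_flow (c : Fin g → ℂ) (e : D.cov G) :
    avec D S hA e0 ((mflowN D S).Φ c e) = avec D S hA e0 e + c := by
  have h1 : ∀ (k : Fin g) (e : D.cov G),
      HasDerivAt (fun s => avec D S hA e0 ((mflowN D S).Φ (Pi.single k s) e))
        (Pi.single k (1 : ℂ) : Fin g → ℂ) 0 := by
    intro k e
    rw [hasDerivAt_pi]
    intro l
    have h2 := (mflowN D S).int k e 0
    obtain ⟨p, hp⟩ := (D.atl G).cover ((mflowN D S).Φ (Pi.single k (0 : ℂ)) e)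
    have h3 := h2.chart hp
    have h4 := prm_isPrim D hA e0 (S.b l) p _ hp
    have h5 := h4.comp_hasDerivAt_of_eq (0 : ℂ) h3 rfl
    rw [plb_of_mem D G _ hp] at h5
    have h6 : (S.b l : A.ι → M → (Cn n →L[ℂ] ℂ)) p.1
        (D.pr ((mflowN D S).Φ (Pi.single k (0 : ℂ)) e))
        ((pullV D G (S.V k)).X p ((mflowN D S).Φ (Pi.single k (0 : ℂ)) e)) =
        (Pi.single k (1 : ℂ) : Fin g → ℂ) l := by
      have h7 := S.dual l k p.1 _ hp.1
      rw [Pi.single_apply]
      exact h7
    rw [h6] at h5
    refine h5.congr_of_eventuallyEq ?_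
    filter_upwards [h2.cont ((((D.atl G).e p).open_source).mem_nhds hp)] with s hs
    change prm D hA e0 (S.b l) _ = prm D hA e0 (S.b l) (((D.atl G).e p).symm
      (((D.atl G).e p) ((mflowN D S).Φ (Pi.single k s) e)))
    rw [((D.atl G).e p).left_inv hs]
  have h2 := (mflowN D S).map_add (avec D S hA e0) (fun k => Pi.single k (1 : ℂ)) h1 c e
  rw [h2]
  congr 1
  funext l
  rw [Finset.sum_apply, Finset.sum_eq_single l]
  · simp
  · intro k _ hk
    simp [Pi.single_eq_of_ne hk.symm]
  · intro h
    exact absurd (Finset.mem_univ l) h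

end flow

end

end Crest.Agent.R273.Alb645
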