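import Crest.Agent.R273.RetC_155

/-!
# R273 (S0416), torus step (helper155): the compact complex manifold `F = r(U)`

`Adp.move`    : composition of an adapted chart with an affine map;
`FAtl R`      : a finite good atlas (with a partition of unity) of the fixed locus of `R : HRet A`,
                all of whose charts are adapted, and in which `r` is a linear projection;
`HRet.exists_fAtl` : existence (`F` compact and connected, `M` Hausdorff).
-/

set_option autoImplicit false
set_option linter.unusedSectionVars false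

open Set Filter Topology
open scoped ContDiff Manifold

namespace Crest.Agent.R273.Ret_155

open Crest.Agent.R275.Geo Crest.Agent.R275.Core144 Crest.Agent.R273.Map_835
open Crest.Agent.R275.GC293

noncomputable section

variable {n : ℕ} {M : Type} [TopologicalSpace M] {A : Atl n M} {d d' : ℕ}

/-- the affine homeomorphism `v ↦ s • (v - c) + b` -/
def afh {E : Type*} [NormedAddCommGroup E] [NormedSpace ℂ E] (s : ℂ) (hs : s ≠ 0) (c b : E) :
    E ≃ₜ E where
  toFun v := s • (v - c) + b
  invFun v := s⁻¹ • (v - b) + c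
  left_inv v := by
    simp only [add_sub_cancel_right, smul_smul, inv_mul_cancel₀ hs, one_smul, sub_add_cancel]
  right_inv v := by
    simp only [add_sub_cancel_right, smul_smul, mul_inv_cancel₀ hs, one_smul, sub_add_cancel]
  continuous_toFun := by fun_prop
  continuous_invFun := by fun_prop

/-- composition of an adapted chart with an affine map -/
def Adp.move {F : Set M} (a : Adp A F d) (s : ℂ) (hs : s ≠ 0) (c b : Cn d) : Adp A F d where
  φ := a.φ.transHomeomorph (afh s hs (a.K c) (a.K b))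
  hol := by
    intro i
    have h1 : DifferentiableOn ℂ (fun z => s • (a.φ ((A.e i).symm z) - a.K c) + a.K b)
        ((A.e i).target ∩ (A.e i).symm ⁻¹' a.φ.source) :=
      (((a.hol i).sub (differentiableOn_const _)).const_smul s).add (differentiableOn_const _)
    exact h1
  hol' := by
    intro i
    have h1 : DifferentiableOn ℂ (fun w => s⁻¹ • (w - a.K b) + a.K c)
        {w : Cn n | s⁻¹ • (w - a.K b) + a.K c ∈ a.φ.target ∧
          a.φ.symm (s⁻¹ • (w - a.K b) + a.K c) ∈ (A.e i).source} := by fun_prop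
    exact (a.hol' i).comp h1 (fun w hw => hw)
  L := a.L
  K := a.K
  LK := a.LK
  mem_iff := by
    intro x hx
    have hx' : x ∈ a.φ.source := hx
    rw [a.mem_iff x hx']
    show _ ↔ a.K (a.L (s • (a.φ x - a.K c) + a.K b)) = s • (a.φ x - a.K c) + a.K b
    have h2 : a.K (a.L (s • (a.φ x - a.K c) + a.K b)) =
        s • (a.K (a.L (a.φ x)) - a.K c) + a.K b := by
      simp only [map_add, map_smul, map_sub, a.LK]
    rw [h2]
    constructor
    · intro h
      rw [h]
    · intro h
      have h3 := add_right_cancel h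
      have h4 := smul_right_injective _ hs h3
      exact sub_left_injective h4

theorem Adp.move_apply {F : Set M} (a : Adp A F d) (s : ℂ) (hs : s ≠ 0) (c b : Cn d) (x : M) :
    (a.move s hs c b).φ x = s • (a.φ x - a.K c) + a.K b := rfl

theorem Adp.move_source {F : Set M} (a : Adp A F d) (s : ℂ) (hs : s ≠ 0) (c b : Cn d) :
    (a.move s hs c b).φ.source = a.φ.source := rfl

theorem HRet.Cmp.move {R : HRet A} {a : Adp A R.F d} (h : R.Cmp a) (s : ℂ) (hs : s ≠ 0)
    (c b : Cn d) : R.Cmp (a.move s hs c b) where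
  sub := h.sub
  maps := h.maps
  lin := by
    intro x hx
    have hx' : x ∈ a.φ.source := hx
    rw [Adp.move_apply, Adp.move_apply, h.lin x hx']
    show _ = a.K (a.L (s • (a.φ x - a.K c) + a.K b))
    simp only [map_add, map_smul, map_sub, a.LK]
  dom := h.dom

/-- a finite good atlas of the fixed locus, made of adapted charts -/
structure FAtl (R : HRet A) where
  d : ℕ
  B : Atl d R.F
  fin : Finite B.ι
  good : GoodA B
  part : Nonempty (Part B)
  a : B.ι → Adp A R.F d
  cmp : ∀ i, R.Cmp (a i)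
  sub : ∀ i, ∀ x ∈ (B.e i).source, (x : M) ∈ (a i).φ.source
  app : ∀ i, ∀ x ∈ (B.e i).source, B.e i x = (a i).L ((a i).φ x)

/-- the fixed locus is a compact complex manifold -/
theorem HRet.exists_fAtl [T2Space M] (R : HRet A) (hK : IsCompact R.F) (hc : IsConnected R.F) :
    Nonempty (FAtl R) := by
  obtain ⟨d, Φ, hΦ⟩ := R.exists_fam hc
  let _ := Φ.csp
  have hman : IsManifold 𝓘(ℂ, Cn d) 1 R.F := Φ.isManifold
  have hcs : CompactSpace R.F := isCompact_iff_compactSpace.1 hK
  obtain ⟨G, hG, hP, hF, -⟩ := exists_goodAtl (m := d) (M := R.F) (fun _ : Unit => univ)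
    (fun _ => isOpen_univ) (fun x => ⟨(), mem_univ _⟩)
  have h1 : ∀ i : Fin G.n, ∃ x : R.F, (Φ.a x).ch x = G.e i := fun i => G.e_mem i
  choose xx hxx using h1
  have hr : (((2 * G.r : ℝ) : ℂ))⁻¹ ≠ 0 := by
    have h := G.r_pos
    have : ((2 * G.r : ℝ) : ℂ) ≠ 0 := by
      exact_mod_cast (by positivity : (2 * G.r : ℝ) ≠ 0)
    exact inv_ne_zero this
  refine ⟨⟨d, goodAtl G, hF, hG, hP, fun i => (Φ.a (xx i)).move (((2 * G.r : ℝ) : ℂ))⁻¹ hr
    (G.e i (G.c i)) (ctr d), fun i => (hΦ _).move _ hr _ _, ?_, ?_⟩⟩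
  · intro (i : Fin G.n) x hx
    have h0 : ((goodAtl G).e i).source = G.B i := goodAtl_source G i
    rw [h0] at hx
    have h2 : x ∈ (G.e i).source := cball_subset_source _ _ _ hx
    rw [← hxx i] at h2
    exact h2
  · intro (i : Fin G.n) x hx
    have h3 : G.e i x = (Φ.a (xx i)).L ((Φ.a (xx i)).φ x) := by
      rw [← hxx i]
      rfl
    have h4 : (goodAtl G).e i x = aff (G.e i (G.c i)) G.r G.r_pos (G.e i x) :=
      G.ch_apply i x
    rw [h4, aff_apply, Adp.move_apply, h3]
    show _ = (Φ.a (xx i)).L _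
    simp only [map_add, map_smul, map_sub, (Φ.a (xx i)).LK]

namespace FAtl

variable {R : HRet A} (S : FAtl R)

theorem mem_target {i : S.B.ι} {w : Cn S.d} (hw : w ∈ (S.B.e i).target) :
    (S.a i).K w ∈ (S.a i).φ.target := by
  have h1 := (S.B.e i).map_target hw
  have h2 := S.app i _ h1
  rw [(S.B.e i).right_inv hw] at h2
  have h3 := S.sub i _ h1
  have h4 := ((S.a i).mem_iff _ h3).1 ((S.B.e i).symm w).2
  rw [← h2] at h4
  rw [h4]
  exact (S.a i).φ.map_source h3

theorem symm_val {i : S.B.ι} {w : Cn S.d} (hw : w ∈ (S.B.e i).target) :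
    (((S.B.e i).symm w : R.F) : M) = (S.a i).φ.symm ((S.a i).K w) := by
  have h1 := (S.B.e i).map_target hw
  have h2 := S.app i _ h1
  rw [(S.B.e i).right_inv hw] at h2
  have h3 := S.sub i _ h1
  have h4 := ((S.a i).mem_iff _ h3).1 ((S.B.e i).symm w).2
  rw [← h2] at h4
  rw [h4, (S.a i).φ.left_inv h3]

/-- the inclusion is holomorphic -/
theorem holMap_val : HolMap S.B A (Subtype.val : R.F → M) where
  cont := continuous_subtype_val
  hol := by
    intro i j
    have h1 : DifferentiableOn ℂ (fun w => A.e j ((S.a i).φ.symm ((S.a i).K w)))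
        ((S.B.e i).target ∩ (S.B.e i).symm ⁻¹' (Subtype.val ⁻¹' (A.e j).source)) := by
      refine DifferentiableOn.comp (g := fun v => A.e j ((S.a i).φ.symm v))
        (f := fun w => (S.a i).K w) ((S.a i).hol' j)
        (S.a i).K.differentiable.differentiableOn ?_
      rintro w ⟨hw, hw'⟩
      refine ⟨S.mem_target hw, ?_⟩
      rw [mem_preimage, mem_preimage, S.symm_val hw] at hw'
      exact hw'
    refine h1.congr ?_
    rintro w ⟨hw, hw'⟩
    rw [S.symm_val hw]

open Classical in
/-- the retraction, as a map `M → F` -/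
def rho (R : HRet A) (p : R.F) (x : M) : R.F :=
  if h : x ∈ R.U then ⟨R.r x, R.r_mem h⟩ else p

theorem rho_val (p : R.F) {x : M} (hx : x ∈ R.U) : (rho R p x : M) = R.r x := by
  unfold rho
  rw [dif_pos hx]

theorem rho_of_mem (p x : R.F) : rho R p x = x := by
  apply Subtype.ext
  rw [rho_val p x.2.1]
  exact x.2.2

theorem continuousOn_rho (p : R.F) : ContinuousOn (rho R p) R.U := by
  rw [Topology.IsInducing.subtypeVal.continuousOn_iff]
  exact R.cont.congr fun x hx => rho_val p hx

theorem isOpen_rho (p : R.F) {V : Set R.F} (hV : IsOpen V) : IsOpen (R.U ∩ rho R p ⁻¹' V) :=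
  (continuousOn_rho p).isOpen_inter_preimage R.isOpen_U hV

/-- the retraction is holomorphic -/
theorem hol_rho (p : R.F) (i : A.ι) (j : S.B.ι) :
    DifferentiableOn ℂ (fun z => S.B.e j (rho R p ((A.e i).symm z)))
      ((A.e i).target ∩ (A.e i).symm ⁻¹' (R.U ∩ rho R p ⁻¹' (S.B.e j).source)) := by
  rintro z ⟨hz, hz'⟩
  set x := (A.e i).symm z with hx
  have hxU : x ∈ R.U := hz'.1
  have hmem : rho R p x ∈ (S.B.e j).source := hz'.2
  obtain ⟨k, hk⟩ := A.cover (R.r x)
  have hV : (A.e i).target ∩ (A.e i).symm ⁻¹' ((R.U ∩ rho R p ⁻¹' (S.B.e j).source) ∩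
      (R.U ∩ R.r ⁻¹' (A.e k).source)) ∈ 𝓝 z :=
    ((A.e i).isOpen_inter_preimage_symm ((isOpen_rho p (S.B.e j).open_source).inter
      (R.isOpen_pre (A.e k).open_source))).mem_nhds ⟨hz, ⟨hxU, hmem⟩, ⟨hxU, hk⟩⟩
  have h1 : DifferentiableAt ℂ (fun z => A.e k (R.r ((A.e i).symm z))) z := by
    refine (R.hol i k).differentiableAt ?_
    filter_upwards [hV] with w hw
    exact ⟨hw.1, hw.2.2⟩
  have hs : R.r x ∈ (S.a j).φ.source := by
    have := S.sub j _ hmem
    rwa [rho_val p hxU] at this
  have h2 : DifferentiableAt ℂ (fun v => (S.a j).φ ((A.e k).symm v)) (A.e k (R.r x)) := by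
    refine ((S.a j).hol k).differentiableAt ?_
    refine ((A.e k).isOpen_inter_preimage_symm (S.a j).φ.open_source).mem_nhds ?_
    refine ⟨(A.e k).map_source hk, ?_⟩
    rw [mem_preimage, (A.e k).left_inv hk]
    exact hs
  have h3 : DifferentiableAt ℂ ((fun v => (S.a j).φ ((A.e k).symm v)) ∘
      (fun z => A.e k (R.r ((A.e i).symm z)))) z := DifferentiableAt.comp z h2 h1
  have h4 : DifferentiableAt ℂ (fun z => (S.a j).L (((fun v => (S.a j).φ ((A.e k).symm v)) ∘
      (fun z => A.e k (R.r ((A.e i).symm z)))) z)) z :=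
    (S.a j).L.differentiableAt.comp z h3
  refine (h4.congr_of_eventuallyEq ?_).differentiableWithinAt
  filter_upwards [hV] with w hw
  rw [S.app j _ hw.2.1.2, rho_val p hw.2.1.1]
  simp only [Function.comp]
  rw [(A.e k).left_inv hw.2.2.2]

/-- the Jacobian of the inclusion is injective -/
theorem imm {i : S.B.ι} {j : A.ι} {x : R.F} (hi : x ∈ (S.B.e i).source)
    (hj : (x : M) ∈ (A.e j).source) :
    Function.Injective (fderiv ℂ (rd S.B A (Subtype.val : R.F → M) i j) (S.B.e i x)) := by
  have h0 : DifferentiableAt ℂ (rd S.B A (Subtype.val : R.F → M) i j) (S.B.e i x) :=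
    S.holMap_val.diffAt (mem_dm hi hj)
  set g : Cn n → Cn S.d := fun z => (S.a i).L ((S.a i).φ ((A.e j).symm z)) with hg
  have hval : rd S.B A (Subtype.val : R.F → M) i j (S.B.e i x) = A.e j x := by
    simp only [rd]
    rw [(S.B.e i).left_inv hi]
  have h1 : DifferentiableAt ℂ g (rd S.B A (Subtype.val : R.F → M) i j (S.B.e i x)) := by
    rw [hval]
    refine (S.a i).L.differentiableAt.comp _ ?_
    refine ((S.a i).hol j).differentiableAt ?_
    refine ((A.e j).isOpen_inter_preimage_symm (S.a i).φ.open_source).mem_nhds ?_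
    refine ⟨(A.e j).map_source hj, ?_⟩
    rw [mem_preimage, (A.e j).left_inv hj]
    exact S.sub i _ hi
  have h2 : (g ∘ rd S.B A (Subtype.val : R.F → M) i j) =ᶠ[𝓝 (S.B.e i x)] id := by
    have ho := S.holMap_val.isOpen_dm i j
    filter_upwards [ho.mem_nhds (mem_dm hi hj)] with w hw
    simp only [Function.comp, hg, rd, id]
    have h4 : (((S.B.e i).symm w : R.F) : M) ∈ (A.e j).source := hw.2
    rw [(A.e j).left_inv h4, ← S.app i _ ((S.B.e i).map_target hw.1),
      (S.B.e i).right_inv hw.1]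
  have h3 : HasFDerivAt (g ∘ rd S.B A (Subtype.val : R.F → M) i j)
      (ContinuousLinearMap.id ℂ (Cn S.d)) (S.B.e i x) :=
    (hasFDerivAt_id _).congr_of_eventuallyEq h2
  have h4 := h1.hasFDerivAt.comp (S.B.e i x) h0.hasFDerivAt
  have h5 := h4.unique h3
  intro v w hvw
  have h6 : ∀ v, fderiv ℂ g (rd S.B A (Subtype.val : R.F → M) i j (S.B.e i x))
      (fderiv ℂ (rd S.B A (Subtype.val : R.F → M) i j) (S.B.e i x) v) = v := fun v =>
    congrArg (fun T : Cn S.d →L[ℂ] Cn S.d => T v) h5
  rw [← h6 v, ← h6 w, hvw]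

end FAtl

end

end Crest.Agent.R273.Ret_155
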