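import Crest.Agent.R273.AlbD_645
import Crest.Agent.R273.RetD_155

/-!
# R273 (S0416), Part B, ALB-3 (helper645), file E: the fixed locus of a holomorphic retraction of a
possibly noncompact manifold

* `GAtl R`            : an atlas of the fixed locus made of adapted charts (no finiteness);
* `exists_gAtl`       : existence (connected fixed locus);
* `GAtl.holM_val`, `GAtl.imm`, `GAtl.holM_rho`;
* `simplyConnected_retract` : retracts of simply connected spaces.
-/

set_option autoImplicit false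
set_option linter.unusedSectionVars false
set_option linter.style.haveILetI false

open Set Filter Topology Complex Metric Function
open scoped ContDiff ComplexConjugate

namespace Crest.Agent.R273.Alb645

open Crest.Agent.R275.Geo Crest.Agent.R275.Core144 Crest.Agent.R275.GC293
open Crest.Agent.R273.HFlow3_376 Crest.Agent.R273.Ret_155 Crest.Agent.R273.Map_835

noncomputable section

/-! ### retracts of simply connected spaces -/

theorem simplyConnected_retract {X Y : Type} [TopologicalSpace X] [TopologicalSpace Y]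
    [SimplyConnectedSpace X] {i : Y → X} {r : X → Y} (hi : Continuous i) (hr : Continuous r)
    (h : ∀ y, r (i y) = y) : SimplyConnectedSpace Y := by
  have hpc : PathConnectedSpace Y := by
    have hs : Function.Surjective r := fun y => ⟨i y, h y⟩
    exact hs.pathConnectedSpace hr
  rw [simply_connected_iff_paths_homotopic']
  refine ⟨hpc, fun {x y} p q => ?_⟩
  have h1 : (p.map hi).Homotopic (q.map hi) := SimplyConnectedSpace.paths_homotopic _ _
  have h2 := h1.map ⟨r, hr⟩
  have h3 : (((p.map hi).map (ContinuousMap.mk r hr).continuous).cast (h x).symm (h y).symm).Homotopic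
      (((q.map hi).map (ContinuousMap.mk r hr).continuous).cast (h x).symm (h y).symm) :=
    Path.Homotopic.pathCast h2 _ _
  have h4 : ∀ p : Path x y,
      ((p.map hi).map (ContinuousMap.mk r hr).continuous).cast (h x).symm (h y).symm = p := by
    intro p
    ext t
    exact h _
  rwa [h4, h4] at h3

variable {n : ℕ} {M : Type} [TopologicalSpace M] {A : Atl n M} {d : ℕ}

/-- an atlas of the fixed locus, made of adapted charts -/
structure GAtl (R : HRet A) where
  d : ℕ
  B : Atl d R.F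
  a : B.ι → Adp A R.F d
  cmp : ∀ i, R.Cmp (a i)
  sub : ∀ i, ∀ x ∈ (B.e i).source, (x : M) ∈ (a i).φ.source
  app : ∀ i, ∀ x ∈ (B.e i).source, B.e i x = (a i).L ((a i).φ x)

theorem rc_mem_of_ball_ctr {z : Cn d} (hz : z ∈ ball (ctr d) (1 / 2)) (p : RI d) :
    rc z p ∈ Ioo (0 : ℝ) 1 := by
  have h : (0 : ℝ) < 1 / 2 := by norm_num
  refine rc_mem_of_ball (ctr d) (1 / 2) h ?_ p
  rw [aff_symm_apply]
  have h1 : ((2 * (1 / 2) : ℝ) : ℂ) = 1 := by norm_num
  rw [h1, one_smul, sub_add_cancel]
  exact hz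

/-- existence of the atlas -/
theorem exists_gAtl (R : HRet A) (hc : IsConnected R.F) : Nonempty (GAtl R) := by
  obtain ⟨d, Φ, hΦ⟩ := R.exists_fam hc
  let a' : R.F → Adp A R.F d := fun x =>
    (Φ.a x).move 1 one_ne_zero ((Φ.a x).L ((Φ.a x).φ x)) (ctr d)
  have ha' : ∀ x, R.Cmp (a' x) := fun x => (hΦ x).move 1 one_ne_zero _ _
  let e : R.F → OpenPartialHomeomorph R.F (Cn d) := fun x =>
    ((a' x).ch x).trans (OpenPartialHomeomorph.ofSet (ball (ctr d) (1 / 2)) isOpen_ball)
  have hsrc : ∀ x y, y ∈ (e x).source ↔ (y : M) ∈ (a' x).φ.source ∧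
      (a' x).L ((a' x).φ y) ∈ ball (ctr d) (1 / 2) := by
    intro x y
    change y ∈ (((a' x).ch x).trans (OpenPartialHomeomorph.ofSet (ball (ctr d) (1 / 2))
      isOpen_ball)).source ↔ _
    rw [OpenPartialHomeomorph.trans_source]
    exact Iff.rfl
  have htgt : ∀ x z, z ∈ (e x).target ↔ z ∈ ball (ctr d) (1 / 2) ∧ z ∈ ((a' x).ch x).target := by
    intro x z
    change z ∈ (((a' x).ch x).trans (OpenPartialHomeomorph.ofSet (ball (ctr d) (1 / 2))
      isOpen_ball)).target ↔ _
    rw [OpenPartialHomeomorph.trans_target]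
    exact Iff.rfl
  refine ⟨⟨d, ⟨R.F, e, fun x => ⟨x, ?_⟩, ?_, ?_⟩, a', ha', ?_, ?_⟩⟩
  · rw [hsrc]
    refine ⟨Φ.mem x, ?_⟩
    change (Φ.a x).L ((1 : ℂ) • ((Φ.a x).φ x - (Φ.a x).K ((Φ.a x).L ((Φ.a x).φ x))) +
      (Φ.a x).K (ctr d)) ∈ ball (ctr d) (1 / 2)
    rw [one_smul, map_add, map_sub, (Φ.a x).LK, (Φ.a x).LK, sub_self, zero_add]
    exact mem_ball_self (by norm_num)
  · intro x z hz p
    exact rc_mem_of_ball_ctr ((htgt x z).1 hz).1 p
  · intro x y
    refine ((a' x).holo (a' y) x y).mono ?_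
    rintro z ⟨h1, h2⟩
    exact ⟨((htgt x z).1 h1).2, ((hsrc y _).1 h2).1⟩
  · intro x y hy
    exact ((hsrc x y).1 hy).1
  · intro x y hy
    rfl

namespace GAtl

variable {R : HRet A} (S : GAtl R)

theorem mem_target {i : S.B.ι} {w : Cn S.d} (hw : w ∈ (S.B.e i).target) :
    (S.a i).K w ∈ (S.a i).φ.target := by
  have h1 := (S.B.e i).map_target hw
  have h2 := S.app i _ h1
  rw [(S.B.e i).right_inv hw] at h2
  have h3 := S.sub i _ h1
  have h4 := ((S.a i).mem_iff _ h3).1 ((S.B.e i).symm w).2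
  rw [← h2] at h4
  rw [h4]
  exact (S.a i).φ.map_source h3

theorem symm_val {i : S.B.ι} {w : Cn S.d} (hw : w ∈ (S.B.e i).target) :
    (((S.B.e i).symm w : R.F) : M) = (S.a i).φ.symm ((S.a i).K w) := by
  have h1 := (S.B.e i).map_target hw
  have h2 := S.app i _ h1
  rw [(S.B.e i).right_inv hw] at h2
  have h3 := S.sub i _ h1
  have h4 := ((S.a i).mem_iff _ h3).1 ((S.B.e i).symm w).2
  rw [← h2] at h4
  rw [h4, (S.a i).φ.left_inv h3]

/-- the inclusion is holomorphic -/
theorem holMap_val : HolMap S.B A (Subtype.val : R.F → M) where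
  cont := continuous_subtype_val
  hol := by
    intro i j
    have h1 : DifferentiableOn ℂ (fun w => A.e j ((S.a i).φ.symm ((S.a i).K w)))
        ((S.B.e i).target ∩ (S.B.e i).symm ⁻¹' (Subtype.val ⁻¹' (A.e j).source)) := by
      refine DifferentiableOn.comp (g := fun v => A.e j ((S.a i).φ.symm v))
        (f := fun w => (S.a i).K w) ((S.a i).hol' j)
        (S.a i).K.differentiable.differentiableOn ?_
      rintro w ⟨hw, hw'⟩
      refine ⟨S.mem_target hw, ?_⟩
      rw [mem_preimage, mem_preimage, S.symm_val hw] at hw'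
      exact hw'
    refine h1.congr ?_
    rintro w ⟨hw, hw'⟩
    rw [S.symm_val hw]

/-- the retraction is holomorphic -/
theorem hol_rho (p : R.F) (i : A.ι) (j : S.B.ι) :
    DifferentiableOn ℂ (fun z => S.B.e j (FAtl.rho R p ((A.e i).symm z)))
      ((A.e i).target ∩ (A.e i).symm ⁻¹' (R.U ∩ FAtl.rho R p ⁻¹' (S.B.e j).source)) := by
  rintro z ⟨hz, hz'⟩
  set x := (A.e i).symm z with hx
  have hxU : x ∈ R.U := hz'.1
  have hmem : FAtl.rho R p x ∈ (S.B.e j).source := hz'.2
  obtain ⟨k, hk⟩ := A.cover (R.r x)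
  have hV : (A.e i).target ∩ (A.e i).symm ⁻¹' ((R.U ∩ FAtl.rho R p ⁻¹' (S.B.e j).source) ∩
      (R.U ∩ R.r ⁻¹' (A.e k).source)) ∈ 𝓝 z :=
    ((A.e i).isOpen_inter_preimage_symm ((FAtl.isOpen_rho p (S.B.e j).open_source).inter
      (R.isOpen_pre (A.e k).open_source))).mem_nhds ⟨hz, ⟨hxU, hmem⟩, ⟨hxU, hk⟩⟩
  have h1 : DifferentiableAt ℂ (fun z => A.e k (R.r ((A.e i).symm z))) z := by
    refine (R.hol i k).differentiableAt ?_
    filter_upwards [hV] with w hw
    exact ⟨hw.1, hw.2.2⟩
  have hs : R.r x ∈ (S.a j).φ.source := by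
    have := S.sub j _ hmem
    rwa [FAtl.rho_val p hxU] at this
  have h2 : DifferentiableAt ℂ (fun v => (S.a j).φ ((A.e k).symm v)) (A.e k (R.r x)) := by
    refine ((S.a j).hol k).differentiableAt ?_
    refine ((A.e k).isOpen_inter_preimage_symm (S.a j).φ.open_source).mem_nhds ?_
    refine ⟨(A.e k).map_source hk, ?_⟩
    rw [mem_preimage, (A.e k).left_inv hk]
    exact hs
  have h3 : DifferentiableAt ℂ ((fun v => (S.a j).φ ((A.e k).symm v)) ∘
      (fun z => A.e k (R.r ((A.e i).symm z)))) z := DifferentiableAt.comp z h2 h1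
  have h4 : DifferentiableAt ℂ (fun z => (S.a j).L (((fun v => (S.a j).φ ((A.e k).symm v)) ∘
      (fun z => A.e k (R.r ((A.e i).symm z)))) z)) z :=
    (S.a j).L.differentiableAt.comp z h3
  refine (h4.congr_of_eventuallyEq ?_).differentiableWithinAt
  filter_upwards [hV] with w hw
  rw [S.app j _ hw.2.1.2, FAtl.rho_val p hw.2.1.1]
  simp only [Function.comp]
  rw [(A.e k).left_inv hw.2.2.2]

/-- the retraction, globally defined -/
theorem holMap_rho (hU : R.U = univ) (p : R.F) : HolMap A S.B (FAtl.rho R p) where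
  cont := by
    rw [← continuousOn_univ, ← hU]
    exact FAtl.continuousOn_rho p
  hol := by
    intro i j
    refine (S.hol_rho p i j).mono ?_
    rintro z ⟨h1, h2⟩
    refine ⟨h1, ?_, h2⟩
    rw [hU]
    trivial

/-- the Jacobian of the inclusion is injective -/
theorem imm {i : S.B.ι} {j : A.ι} {x : R.F} (hi : x ∈ (S.B.e i).source)
    (hj : (x : M) ∈ (A.e j).source) :
    Function.Injective (fderiv ℂ (rd S.B A (Subtype.val : R.F → M) i j) (S.B.e i x)) := by
  have h0 : DifferentiableAt ℂ (rd S.B A (Subtype.val : R.F → M) i j) (S.B.e i x) :=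
    S.holMap_val.diffAt (mem_dm hi hj)
  set g : Cn n → Cn S.d := fun z => (S.a i).L ((S.a i).φ ((A.e j).symm z)) with hg
  have hval : rd S.B A (Subtype.val : R.F → M) i j (S.B.e i x) = A.e j x := by
    simp only [rd]
    rw [(S.B.e i).left_inv hi]
  have h1 : DifferentiableAt ℂ g (rd S.B A (Subtype.val : R.F → M) i j (S.B.e i x)) := by
    rw [hval]
    refine (S.a i).L.differentiableAt.comp _ ?_
    refine ((S.a i).hol j).differentiableAt ?_
    refine ((A.e j).isOpen_inter_preimage_symm (S.a i).φ.open_source).mem_nhds ?_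
    refine ⟨(A.e j).map_source hj, ?_⟩
    rw [mem_preimage, (A.e j).left_inv hj]
    exact S.sub i _ hi
  have h2 : (g ∘ rd S.B A (Subtype.val : R.F → M) i j) =ᶠ[𝓝 (S.B.e i x)] id := by
    have ho := S.holMap_val.isOpen_dm i j
    filter_upwards [ho.mem_nhds (mem_dm hi hj)] with w hw
    simp only [Function.comp, hg, rd, id]
    have h4 : (((S.B.e i).symm w : R.F) : M) ∈ (A.e j).source := hw.2
    rw [(A.e j).left_inv h4, ← S.app i _ ((S.B.e i).map_target hw.1),
      (S.B.e i).right_inv hw.1]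
  have h3 : HasFDerivAt (g ∘ rd S.B A (Subtype.val : R.F → M) i j)
      (ContinuousLinearMap.id ℂ (Cn S.d)) (S.B.e i x) :=
    (hasFDerivAt_id _).congr_of_eventuallyEq h2
  have h4 := h1.hasFDerivAt.comp (S.B.e i x) h0.hasFDerivAt
  have h5 := h4.unique h3
  intro v w hvw
  have h6 : ∀ v, fderiv ℂ g (rd S.B A (Subtype.val : R.F → M) i j (S.B.e i x))
      (fderiv ℂ (rd S.B A (Subtype.val : R.F → M) i j) (S.B.e i x) v) = v := fun v =>
    congrArg (fun T : Cn S.d →L[ℂ] Cn S.d => T v) h5
  rw [← h6 v, ← h6 w, hvw]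

end GAtl

end

end Crest.Agent.R273.Alb645
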