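import Crest.Agent.R273.AlbE_645

/-!
# R273 (S0416), Part B, ALB-3 (helper645), file F: the normal form `D.cov G ≃ ℂ^g × N`

`S : DualD A g` (commuting fields dual to closed 1-forms on the compact `M`), `a = avec`,
`Φ = (mflowN D S).Φ`, `r e = Φ (-a e) e`, `N = {a = 0}` = fixed locus of `r`.
-/

set_option autoImplicit false
set_option linter.unusedSectionVars false
set_option linter.style.haveILetI false

open Set Filter Topology Complex Metric Function
open scoped ContDiff ComplexConjugate

namespace Crest.Agent.R273.Alb645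

open Crest.Agent.R275.Geo Crest.Agent.R275.Core144 Crest.Agent.R275.GC293
open Crest.Agent.R275.ZC352 Crest.Agent.R273.UCov_914 Crest.Agent.R273.PiEnd_836
open Crest.Agent.R273.HFlow3_376 Crest.Agent.R273.HFlow4_376 Crest.Agent.R273.HFlow5_376
open Crest.Agent.R273.HFlow6_376 Crest.Agent.R273.Map_835 Crest.Agent.R273.Ret_155

noncomputable section

/-- a jointly holomorphic map evaluated along a holomorphic parameter -/
theorem holM_graph {n m : ℕ} {M M' : Type} [TopologicalSpace M] [TopologicalSpace M']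
    {A : Atl n M} {B : Atl m M'} {P : Type*} [NormedAddCommGroup P] [NormedSpace ℂ P]
    {F : P → M → M'} {f : M → P}
    (hf : ∀ i, DifferentiableOn ℂ (fun z => f ((A.e i).symm z)) (A.e i).target)
    (hF : ∀ x, HolP A B F (f x) x) : HolM A B (fun x => F (f x) x) := by
  intro x
  obtain ⟨hc, i, j, hi, hj, hd⟩ := hF x
  have h1 : DifferentiableAt ℂ (fun z => f ((A.e i).symm z)) (A.e i x) :=
    (hf i).differentiableAt ((A.e i).open_target.mem_nhds ((A.e i).map_source hi))
  have hfc : ContinuousAt f x := by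
    have h2 : ContinuousAt (fun y => f ((A.e i).symm (A.e i y))) x :=
      ContinuousAt.comp (f := A.e i) (g := fun z => f ((A.e i).symm z)) h1.continuousAt
        ((A.e i).continuousAt hi)
    refine h2.congr ?_
    filter_upwards [(A.e i).open_source.mem_nhds hi] with y hy
    rw [(A.e i).left_inv hy]
  refine ⟨?_, i, j, hi, hj, ?_⟩
  · exact ContinuousAt.comp (f := fun x => (f x, x)) (g := uncurry F) hc
      (hfc.prodMk continuousAt_id)
  · have h2 : f ((A.e i).symm (A.e i x)) = f x := by rw [(A.e i).left_inv hi]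
    have h3 : DifferentiableAt ℂ (fun z => (f ((A.e i).symm z), z)) (A.e i x) :=
      h1.prodMk differentiableAt_id
    have h4 : DifferentiableAt ℂ (fun q : P × Cn n => B.e j (F q.1 ((A.e i).symm q.2)))
        ((fun z => (f ((A.e i).symm z), z)) (A.e i x)) := by
      change DifferentiableAt ℂ _ (f ((A.e i).symm (A.e i x)), A.e i x)
      rw [h2]
      exact hd
    exact DifferentiableAt.comp (A.e i x)
      (g := fun q : P × Cn n => B.e j (F q.1 ((A.e i).symm q.2)))
      (f := fun z => (f ((A.e i).symm z), z)) h4 h3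

variable {n : ℕ} {M : Type} [TopologicalSpace M] {A : Atl n M}
variable {G : Type} [Group G] (D : MonD A G)
variable {g : ℕ} (S : DualD A g) [CompactSpace M] [T2Space M] [Finite A.ι]
variable [SimplyConnectedSpace (D.cov G)] (hA : GoodA A) (e0 : D.cov G)

/-- the retraction onto the zero fibre -/
def rr (e : D.cov G) : D.cov G := (mflowN D S).Φ (-avec D S hA e0 e) e

theorem avec_rr (e : D.cov G) : avec D S hA e0 (rr D S hA e0 e) = 0 := by
  rw [rr, avec_flow, add_neg_cancel]

theorem rr_of_zero {e : D.cov G} (h : avec D S hA e0 e = 0) : rr D S hA e0 e = e := by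
  rw [rr, h, neg_zero, (mflowN D S).zero]

theorem rr_rr (e : D.cov G) : rr D S hA e0 (rr D S hA e0 e) = rr D S hA e0 e :=
  rr_of_zero D S hA e0 (avec_rr D S hA e0 e)

theorem rr_flow (c : Fin g → ℂ) (e : D.cov G) :
    rr D S hA e0 ((mflowN D S).Φ c e) = rr D S hA e0 e := by
  rw [rr, rr, avec_flow, ← (mflowN D S).add]
  congr 1
  abel

theorem flow_rr (e : D.cov G) :
    (mflowN D S).Φ (avec D S hA e0 e) (rr D S hA e0 e) = e := by
  rw [rr, (mflowN D S).neg_right]

theorem holM_rr : HolM (D.atl G) (D.atl G) (rr D S hA e0) := by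
  refine holM_graph (F := (mflowN D S).Φ) (f := fun e => -avec D S hA e0 e) ?_
    fun e => (mflowN D S).hol _ _
  intro p
  refine DifferentiableOn.neg ?_
  rw [differentiableOn_pi]
  intro k
  exact (prm_isPrim D hA e0 (S.b k)).diffOn p

/-- the holomorphic retraction -/
def HR : HRet (D.atl G) where
  U := univ
  isOpen_U := isOpen_univ
  r := rr D S hA e0
  maps _ _ := trivial
  idem e _ := rr_rr D S hA e0 e
  cont := (holM_rr D S hA e0).continuous.continuousOn
  hol p q := ((holM_iff.1 (holM_rr D S hA e0)).hol p q).mono fun _ hz => ⟨hz.1, hz.2.2⟩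

theorem mem_N {e : D.cov G} : e ∈ (HR D S hA e0).F ↔ avec D S hA e0 e = 0 := by
  constructor
  · rintro ⟨-, h⟩
    have h1 := avec_rr D S hA e0 e
    have h2 : rr D S hA e0 e = e := h
    rwa [h2] at h1
  · intro h
    exact ⟨trivial, rr_of_zero D S hA e0 h⟩

theorem e0_mem : e0 ∈ (HR D S hA e0).F := by
  rw [mem_N]
  exact avec_zero D S hA e0

/-- the zero fibre -/
abbrev NN : Type := ↥(HR D S hA e0).F

/-- the retraction, with values in `N` -/
def rN (e : D.cov G) : NN D S hA e0 :=
  ⟨rr D S hA e0 e, (mem_N D S hA e0).2 (avec_rr D S hA e0 e)⟩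

theorem rN_val (e : D.cov G) : (rN D S hA e0 e : D.cov G) = rr D S hA e0 e := rfl

theorem rN_coe (y : NN D S hA e0) : rN D S hA e0 (y : D.cov G) = y :=
  Subtype.ext (rr_of_zero D S hA e0 ((mem_N D S hA e0).1 y.2))

theorem avec_coe (y : NN D S hA e0) : avec D S hA e0 (y : D.cov G) = 0 :=
  (mem_N D S hA e0).1 y.2

theorem continuous_rN : Continuous (rN D S hA e0) :=
  (holM_rr D S hA e0).continuous.subtype_mk _

theorem isConnected_N : IsConnected (HR D S hA e0).F := by
  rw [(HR D S hA e0).F_eq]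
  have h1 : IsConnected (univ : Set (D.cov G)) := isConnected_univ
  exact h1.image _ (holM_rr D S hA e0).continuous.continuousOn

instance simplyConnected_N : SimplyConnectedSpace (NN D S hA e0) :=
  simplyConnected_retract (i := Subtype.val) (r := rN D S hA e0) continuous_subtype_val
    (continuous_rN D S hA e0) (rN_coe D S hA e0)

instance t2_N : T2Space (NN D S hA e0) := inferInstance

/-- the atlas of the zero fibre -/
def gA : GAtl (HR D S hA e0) := (exists_gAtl (HR D S hA e0) (isConnected_N D S hA e0)).some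

theorem holM_valT (T : GAtl (HR D S hA e0)) :
    HolM T.B (D.atl G) (Subtype.val : NN D S hA e0 → D.cov G) :=
  holM_iff.2 T.holMap_val

theorem holM_val : HolM (gA D S hA e0).B (D.atl G) (Subtype.val : NN D S hA e0 → D.cov G) :=
  holM_iff.2 (gA D S hA e0).holMap_val

theorem rho_eq (p : NN D S hA e0) : FAtl.rho (HR D S hA e0) p = rN D S hA e0 := by
  funext e
  apply Subtype.ext
  exact FAtl.rho_val p trivial

theorem holM_rNT (T : GAtl (HR D S hA e0)) : HolM (D.atl G) T.B (rN D S hA e0) := by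
  rw [holM_iff, ← rho_eq D S hA e0 ⟨e0, e0_mem D S hA e0⟩]
  exact T.holMap_rho rfl _

theorem holM_rN : HolM (D.atl G) (gA D S hA e0).B (rN D S hA e0) :=
  holM_rNT D S hA e0 (gA D S hA e0)

/-! ### the product structure -/

/-- the product decomposition -/
def psi : (Fin g → ℂ) × NN D S hA e0 ≃ₜ D.cov G where
  toFun q := (mflowN D S).Φ q.1 (q.2 : D.cov G)
  invFun e := (avec D S hA e0 e, rN D S hA e0 e)
  left_inv := by
    rintro ⟨c, y⟩
    refine Prod.ext ?_ ?_
    · change avec D S hA e0 ((mflowN D S).Φ c (y : D.cov G)) = c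
      rw [avec_flow, avec_coe, zero_add]
    · apply Subtype.ext
      change rr D S hA e0 ((mflowN D S).Φ c (y : D.cov G)) = (y : D.cov G)
      rw [rr_flow]
      exact rr_of_zero D S hA e0 (avec_coe D S hA e0 y)
  right_inv e := flow_rr D S hA e0 e
  continuous_toFun := (mflowN D S).continuous_uncurry.comp
    (continuous_fst.prodMk (continuous_subtype_val.comp continuous_snd))
  continuous_invFun := (continuous_avec D S hA e0).prodMk (continuous_rN D S hA e0)

theorem psi_apply (c : Fin g → ℂ) (y : NN D S hA e0) :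
    psi D S hA e0 (c, y) = (mflowN D S).Φ c (y : D.cov G) := rfl

theorem psi_symm_apply (e : D.cov G) :
    (psi D S hA e0).symm e = (avec D S hA e0 e, rN D S hA e0 e) := rfl

/-- `psi` is jointly holomorphic -/
theorem holP_psiT (T : GAtl (HR D S hA e0)) (c : Fin g → ℂ) (y : NN D S hA e0) :
    HolP T.B (D.atl G) (fun c y => psi D S hA e0 (c, y)) c y :=
  HolP.comp (G := (mflowN D S).Φ) (F := fun _ (y : NN D S hA e0) => (y : D.cov G))
    ((mflowN D S).hol _ _) ((holM_valT D S hA e0 T).toP c y)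

/-- `psi` is jointly holomorphic -/
theorem holP_psi (c : Fin g → ℂ) (y : NN D S hA e0) :
    HolP (gA D S hA e0).B (D.atl G) (fun c y => psi D S hA e0 (c, y)) c y :=
  holP_psiT D S hA e0 (gA D S hA e0) c y

/-- `avec` is holomorphic -/
theorem diffOn_avec (p : (D.atl G).ι) :
    DifferentiableOn ℂ (fun z => avec D S hA e0 (((D.atl G).e p).symm z))
      ((D.atl G).e p).target := by
  rw [differentiableOn_pi]
  intro k
  exact (prm_isPrim D hA e0 (S.b k)).diffOn p

/-- the dimension of the zero fibre -/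
theorem dim_NT (T : GAtl (HR D S hA e0)) : g + T.d = n := by
  set y0 : NN D S hA e0 := ⟨e0, e0_mem D S hA e0⟩ with hy0
  obtain ⟨p, hp⟩ := (D.atl G).cover e0
  obtain ⟨j, hj⟩ := T.B.cover y0
  have hval : psi D S hA e0 (0, y0) = e0 := by
    rw [psi_apply, (mflowN D S).zero]
  set T1 : (Fin g → ℂ) × Cn T.d → Cn n := fun q =>
    (D.atl G).e p (psi D S hA e0 (q.1, (T.B.e j).symm q.2)) with hT1
  set T2 : Cn n → (Fin g → ℂ) × Cn T.d := fun z =>
    (avec D S hA e0 (((D.atl G).e p).symm z), T.B.e j (rN D S hA e0 (((D.atl G).e p).symm z)))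
    with hT2
  set w0 : (Fin g → ℂ) × Cn T.d := (0, T.B.e j y0) with hw0
  set z0 : Cn n := (D.atl G).e p e0 with hz0
  have h10 : T1 w0 = z0 := by
    change (D.atl G).e p (psi D S hA e0 (0, (T.B.e j).symm (T.B.e j y0))) = _
    rw [(T.B.e j).left_inv hj, hval]
  have h20 : T2 z0 = w0 := by
    change (avec D S hA e0 (((D.atl G).e p).symm ((D.atl G).e p e0)),
      T.B.e j (rN D S hA e0 (((D.atl G).e p).symm ((D.atl G).e p e0)))) = _
    rw [((D.atl G).e p).left_inv hp, avec_zero]
    have : rN D S hA e0 e0 = y0 := rN_coe D S hA e0 y0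
    rw [this]
  have d1 : DifferentiableAt ℂ T1 w0 := by
    have h := (holP_psiT D S hA e0 T 0 y0).diff (i := j) (j := p) hj (by rw [hval]; exact hp)
    exact h
  have d2 : DifferentiableAt ℂ T2 z0 := by
    refine DifferentiableAt.prodMk ?_ ?_
    · exact (diffOn_avec D S hA e0 p).differentiableAt
        (((D.atl G).e p).open_target.mem_nhds (((D.atl G).e p).map_source hp))
    · have h := (holM_rNT D S hA e0 T).diff (i := p) (j := j) (x := e0) hp
        (by rw [show rN D S hA e0 e0 = y0 from rN_coe D S hA e0 y0]; exact hj)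
      exact h
  have e21 : T2 ∘ T1 =ᶠ[𝓝 w0] id := by
    have hc : ContinuousAt (fun q : (Fin g → ℂ) × Cn T.d =>
        psi D S hA e0 (q.1, (T.B.e j).symm q.2)) w0 := by
      have h1 : ContinuousAt (fun q : (Fin g → ℂ) × Cn T.d => (q.1, (T.B.e j).symm q.2)) w0 := by
        refine continuousAt_fst.prodMk ?_
        exact ContinuousAt.comp (f := Prod.snd) (g := (T.B.e j).symm)
          ((T.B.e j).continuousAt_symm ((T.B.e j).map_source hj)) continuousAt_snd
      exact ContinuousAt.comp (g := psi D S hA e0)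
        (f := fun q : (Fin g → ℂ) × Cn T.d => (q.1, (T.B.e j).symm q.2))
        (psi D S hA e0).continuous.continuousAt h1
    have h1 : ∀ᶠ q in 𝓝 w0, psi D S hA e0 (q.1, (T.B.e j).symm q.2) ∈
        ((D.atl G).e p).source := by
      refine hc.eventually_mem (((D.atl G).e p).open_source.mem_nhds ?_)
      change psi D S hA e0 (0, (T.B.e j).symm (T.B.e j y0)) ∈ _
      rw [(T.B.e j).left_inv hj, hval]
      exact hp
    have h2 : ∀ᶠ q : (Fin g → ℂ) × Cn T.d in 𝓝 w0, q.2 ∈ (T.B.e j).target :=
      continuousAt_snd.eventually_mem ((T.B.e j).open_target.mem_nhds ((T.B.e j).map_source hj))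
    filter_upwards [h1, h2] with q hq hq2
    change (avec D S hA e0 (((D.atl G).e p).symm ((D.atl G).e p
      (psi D S hA e0 (q.1, (T.B.e j).symm q.2)))), T.B.e j (rN D S hA e0 (((D.atl G).e p).symm
      ((D.atl G).e p (psi D S hA e0 (q.1, (T.B.e j).symm q.2)))))) = q
    rw [((D.atl G).e p).left_inv hq]
    have h3 := (psi D S hA e0).symm_apply_apply (q.1, (T.B.e j).symm q.2)
    rw [psi_symm_apply] at h3
    have h4 := congrArg Prod.fst h3
    have h5 := congrArg Prod.snd h3
    simp only at h4 h5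
    rw [h4, h5, (T.B.e j).right_inv hq2]
  have e12 : T1 ∘ T2 =ᶠ[𝓝 z0] id := by
    have h2 : ∀ᶠ z in 𝓝 z0, z ∈ ((D.atl G).e p).target :=
      ((D.atl G).e p).open_target.mem_nhds (((D.atl G).e p).map_source hp)
    have h3 : ∀ᶠ z in 𝓝 z0, rN D S hA e0 (((D.atl G).e p).symm z) ∈ (T.B.e j).source := by
      have hc : ContinuousAt (fun z => rN D S hA e0 (((D.atl G).e p).symm z)) z0 :=
        ContinuousAt.comp (g := rN D S hA e0) (continuous_rN D S hA e0).continuousAt
          (((D.atl G).e p).continuousAt_symm (((D.atl G).e p).map_source hp))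
      refine hc.eventually_mem ((T.B.e j).open_source.mem_nhds ?_)
      rw [((D.atl G).e p).left_inv hp]
      rw [show rN D S hA e0 e0 = y0 from rN_coe D S hA e0 y0]
      exact hj
    filter_upwards [h2, h3] with z hz hz3
    change (D.atl G).e p (psi D S hA e0 (avec D S hA e0 (((D.atl G).e p).symm z),
      (T.B.e j).symm (T.B.e j (rN D S hA e0 (((D.atl G).e p).symm z))))) = z
    rw [(T.B.e j).left_inv hz3, ← psi_symm_apply, Homeomorph.apply_symm_apply,
      ((D.atl G).e p).right_inv hz]
  -- linear algebra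
  have f1 : HasFDerivAt T1 (fderiv ℂ T1 w0) (T2 z0) := by rw [h20]; exact d1.hasFDerivAt
  have f2 : HasFDerivAt T2 (fderiv ℂ T2 z0) (T1 w0) := by rw [h10]; exact d2.hasFDerivAt
  have c21 : (fderiv ℂ T2 z0).comp (fderiv ℂ T1 w0) =
      ContinuousLinearMap.id ℂ ((Fin g → ℂ) × Cn T.d) :=
    (f2.comp w0 d1.hasFDerivAt).unique ((hasFDerivAt_id w0).congr_of_eventuallyEq e21)
  have c12 : (fderiv ℂ T1 w0).comp (fderiv ℂ T2 z0) = ContinuousLinearMap.id ℂ (Cn n) :=
    (f1.comp z0 d2.hasFDerivAt).unique ((hasFDerivAt_id z0).congr_of_eventuallyEq e12)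
  let E : ((Fin g → ℂ) × Cn T.d) ≃ₗ[ℂ] Cn n :=
    LinearEquiv.ofLinearMap (fderiv ℂ T1 w0 : ((Fin g → ℂ) × Cn T.d) →ₗ[ℂ] Cn n)
      (fderiv ℂ T2 z0 : Cn n →ₗ[ℂ] ((Fin g → ℂ) × Cn T.d))
      (by
        ext1 v
        exact congrArg (fun R : Cn n →L[ℂ] Cn n => R v) c12)
      (by
        apply LinearMap.ext
        intro v
        exact congrArg (fun R : ((Fin g → ℂ) × Cn T.d) →L[ℂ] ((Fin g → ℂ) × Cn T.d) => R v) c21)
  have h := E.finrank_eq
  rw [Module.finrank_prod, finrank_euclideanSpace_fin, finrank_euclideanSpace_fin,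
    Module.finrank_fin_fun] at h
  exact h

/-- the dimension of the zero fibre -/
theorem dim_N : g + (gA D S hA e0).d = n := dim_NT D S hA e0 (gA D S hA e0)

end

end Crest.Agent.R273.Alb645
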