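import Crest.Agent.R273.AlbF_645

/-!
# R273 (S0416), Part B, ALB-3 (helper645), file G: the action of `G` on the zero fibre

`γ • y := rN (γ • y)`; `γ • psi (c, y) = psi (c + lam γ, γ • y)`;
`P = ker lam` acts freely, properly discontinuously and cocompactly on `N`.
-/

set_option autoImplicit false
set_option linter.unusedSectionVars false
set_option linter.style.haveILetI false

open Set Filter Topology Complex Metric Function
open scoped ContDiff ComplexConjugate

namespace Crest.Agent.R273.Alb645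

open Crest.Agent.R275.Geo Crest.Agent.R275.Core144 Crest.Agent.R275.GC293
open Crest.Agent.R275.ZC352 Crest.Agent.R273.UCov_914 Crest.Agent.R273.PiEnd_836
open Crest.Agent.R273.HFlow3_376 Crest.Agent.R273.HFlow4_376 Crest.Agent.R273.HFlow5_376
open Crest.Agent.R273.HFlow6_376 Crest.Agent.R273.Map_835 Crest.Agent.R273.Ret_155

noncomputable section

variable {n : ℕ} {M : Type} [TopologicalSpace M] {A : Atl n M}
variable {G : Type} [Group G] (D : MonD A G)
variable {g : ℕ} (S : DualD A g) [CompactSpace M] [T2Space M] [Finite A.ι]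
variable [SimplyConnectedSpace (D.cov G)] (hA : GoodA A) (e0 : D.cov G)

theorem rr_deck (γ : G) (e : D.cov G) :
    rr D S hA e0 (γ • rr D S hA e0 e) = rr D S hA e0 (γ • e) := by
  conv_rhs => rw [← flow_rr D S hA e0 e, ← flow_deck, rr_flow]

/-- the action on the zero fibre -/
instance actN : MulAction G (NN D S hA e0) where
  smul γ y := rN D S hA e0 (γ • (y : D.cov G))
  one_smul y := by
    change rN D S hA e0 ((1 : G) • (y : D.cov G)) = y
    rw [one_smul, rN_coe]
  mul_smul γ δ y := by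
    change rN D S hA e0 ((γ * δ) • (y : D.cov G)) =
      rN D S hA e0 (γ • (rN D S hA e0 (δ • (y : D.cov G)) : D.cov G))
    apply Subtype.ext
    rw [rN_val, rN_val, rN_val, rr_deck, mul_smul]

theorem smulN_def (γ : G) (y : NN D S hA e0) : γ • y = rN D S hA e0 (γ • (y : D.cov G)) := rfl

theorem smulN_val (γ : G) (y : NN D S hA e0) :
    ((γ • y : NN D S hA e0) : D.cov G) = rr D S hA e0 (γ • (y : D.cov G)) := rfl

/-- the retraction is equivariant -/
theorem rN_deck (γ : G) (e : D.cov G) : rN D S hA e0 (γ • e) = γ • rN D S hA e0 e := by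
  apply Subtype.ext
  rw [smulN_val, rN_val, rN_val, rr_deck]

instance contN : ContinuousConstSMul G (NN D S hA e0) :=
  ⟨fun γ => (continuous_rN D S hA e0).comp
    ((continuous_const_smul γ).comp continuous_subtype_val)⟩

/-- the action is holomorphic -/
theorem holM_smulN (T : GAtl (HR D S hA e0)) (γ : G) :
    HolM T.B T.B (fun y : NN D S hA e0 => γ • y) :=
  HolM.comp (g := rN D S hA e0) (holM_rNT D S hA e0 T)
    (HolM.comp (g := fun e : D.cov G => γ • e) (holM_deck D γ) (holM_valT D S hA e0 T))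

/-- the translation part -/
def tr (γ : G) : Fin g → ℂ := Multiplicative.toAdd (lamB D hA e0 S.b γ)

theorem tr_mul (γ δ : G) : tr D S hA e0 (γ * δ) = tr D S hA e0 γ + tr D S hA e0 δ := by
  rw [tr, map_mul]
  rfl

theorem tr_inv (γ : G) : tr D S hA e0 γ⁻¹ = - tr D S hA e0 γ := by
  rw [tr, map_inv]
  rfl

theorem tr_one : tr D S hA e0 1 = 0 := by
  rw [tr, map_one]
  rfl

theorem tr_eq_zero_iff {γ : G} : tr D S hA e0 γ = 0 ↔ γ ∈ (lamB D hA e0 S.b).ker := by
  rw [MonoidHom.mem_ker]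
  rfl

/-- **equivariance** of the product decomposition -/
theorem deck_psi (γ : G) (c : Fin g → ℂ) (y : NN D S hA e0) :
    γ • psi D S hA e0 (c, y) = psi D S hA e0 (c + tr D S hA e0 γ, γ • y) := by
  have h1 : avec D S hA e0 (γ • (y : D.cov G)) = tr D S hA e0 γ := by
    rw [avec_deck, avec_coe, zero_add]
    rfl
  rw [psi_apply, psi_apply, smulN_val, ← flow_deck, rr, h1, ← (mflowN D S).add]
  congr 1
  abel

/-- the kernel acts by deck transformations -/
theorem ker_smul_val {γ : G} (hγ : tr D S hA e0 γ = 0) (y : NN D S hA e0) :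
    ((γ • y : NN D S hA e0) : D.cov G) = γ • (y : D.cov G) := by
  rw [smulN_val]
  apply rr_of_zero
  rw [avec_deck, avec_coe, zero_add]
  exact hγ

/-- the kernel acts freely -/
theorem ker_free {γ : G} (hγ : tr D S hA e0 γ = 0) {y : NN D S hA e0} (h : γ • y = y) :
    γ = 1 := by
  have h1 := congrArg (Subtype.val : NN D S hA e0 → D.cov G) h
  rw [ker_smul_val D S hA e0 hγ] at h1
  exact D.deck_free h1

/-- the kernel acts properly discontinuously -/
theorem ker_finite {K L : Set (NN D S hA e0)} (hK : IsCompact K) (hL : IsCompact L) :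
    {γ : G | tr D S hA e0 γ = 0 ∧ ∃ y ∈ K, γ • y ∈ L}.Finite := by
  refine (D.finite_deck (hK.image continuous_subtype_val)
    (hL.image continuous_subtype_val)).subset ?_
  rintro γ ⟨hγ, y, hy, hy'⟩
  refine ⟨_, mem_image_of_mem _ hy, ?_⟩
  rw [← ker_smul_val D S hA e0 hγ]
  exact mem_image_of_mem _ hy'

theorem isClosed_N : IsClosed (HR D S hA e0).F := by
  have h1 : (HR D S hA e0).F = avec D S hA e0 ⁻¹' {0} := by
    ext e
    rw [mem_N]
    rfl
  rw [h1]
  exact isClosed_singleton.preimage (continuous_avec D S hA e0)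

/-- the kernel acts cocompactly -/
theorem ker_fund [DiscreteTopology (Lat.L (lamB D hA e0 S.b))] :
    ∃ K : Set (NN D S hA e0), IsCompact K ∧
      ∀ y : NN D S hA e0, ∃ γ : G, tr D S hA e0 γ = 0 ∧ γ • y ∈ K := by
  classical
  obtain ⟨K, hK, hKc⟩ := D.exists_fund (A := A)
  set Λ := Lat.L (lamB D hA e0 S.b) with hΛ
  have hdis : DiscreteTopology Λ.toAddSubgroup := ‹DiscreteTopology Λ›
  have hcl : IsClosed (Λ : Set (Fin g → ℂ)) :=
    AddSubgroup.isClosed_of_discrete (H := Λ.toAddSubgroup)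
  have hcp : IsCompact (avec D S hA e0 '' K) := hK.image (continuous_avec D S hA e0)
  have hfin : (avec D S hA e0 '' K ∩ (Λ : Set (Fin g → ℂ))).Finite := by
    have h1 : IsCompact (avec D S hA e0 '' K ∩ (Λ : Set (Fin g → ℂ))) := hcp.inter_right hcl
    have h2 : IsCompact ((Subtype.val : Λ → (Fin g → ℂ)) ⁻¹' (avec D S hA e0 '' K)) :=
      (hcl.isClosedEmbedding_subtypeVal).isCompact_preimage hcp
    have h3 := h2.finite_of_discrete
    have h4 := h3.image (Subtype.val : Λ → (Fin g → ℂ))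
    refine h4.subset ?_
    rintro v ⟨hv, hv'⟩
    exact ⟨⟨v, hv'⟩, hv, rfl⟩
  have hch : ∀ v : Fin g → ℂ, ∃ γ : G, v ∈ Λ → tr D S hA e0 γ = v := by
    intro v
    by_cases hv : v ∈ Λ
    · obtain ⟨γ, hγ⟩ := (Lat.mem_L _).1 hv
      exact ⟨γ, fun _ => hγ⟩
    · exact ⟨1, fun h => absurd h hv⟩
  choose s hs using hch
  set F := avec D S hA e0 '' K ∩ (Λ : Set (Fin g → ℂ)) with hF
  set K' : Set (D.cov G) := ⋃ v ∈ F, (fun e => (s v)⁻¹ • e) '' K with hK'
  have hK'c : IsCompact K' := hfin.isCompact_biUnion fun v _ =>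
    hK.image (continuous_const_smul _)
  refine ⟨(Subtype.val : NN D S hA e0 → D.cov G) ⁻¹' K',
    ((isClosed_N D S hA e0).isClosedEmbedding_subtypeVal).isCompact_preimage hK'c, fun y => ?_⟩
  obtain ⟨γ, hγ⟩ := hKc (y : D.cov G)
  have h1 : avec D S hA e0 (γ • (y : D.cov G)) = tr D S hA e0 γ := by
    rw [avec_deck, avec_coe, zero_add]
    rfl
  have h2 : tr D S hA e0 γ ∈ F := ⟨⟨_, hγ, h1⟩, (Lat.mem_L _).2 ⟨γ, rfl⟩⟩
  have h3 : tr D S hA e0 (s (tr D S hA e0 γ)) = tr D S hA e0 γ := hs _ h2.2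
  have h4 : tr D S hA e0 ((s (tr D S hA e0 γ))⁻¹ * γ) = 0 := by
    rw [tr_mul, tr_inv, h3, neg_add_cancel]
  refine ⟨(s (tr D S hA e0 γ))⁻¹ * γ, h4, ?_⟩
  rw [mem_preimage, ker_smul_val D S hA e0 h4, hK', mem_iUnion₂]
  refine ⟨tr D S hA e0 γ, h2, γ • (y : D.cov G), hγ, ?_⟩
  change (s (tr D S hA e0 γ))⁻¹ • γ • (y : D.cov G) = _
  rw [mul_smul]

/-- the zero fibre is compact if the kernel is finite -/
theorem compactSpace_N [DiscreteTopology (Lat.L (lamB D hA e0 S.b))]
    (hfin : ((lamB D hA e0 S.b).ker : Set G).Finite) : CompactSpace (NN D S hA e0) := by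
  obtain ⟨K, hK, hKc⟩ := ker_fund D S hA e0
  refine ⟨?_⟩
  have h1 : (univ : Set (NN D S hA e0)) = ⋃ γ ∈ ((lamB D hA e0 S.b).ker : Set G),
      (fun y => γ⁻¹ • y) '' K := by
    symm
    rw [eq_univ_iff_forall]
    intro y
    obtain ⟨γ, hγ, hy⟩ := hKc y
    refine mem_iUnion₂.2 ⟨γ, (tr_eq_zero_iff D S hA e0).1 hγ, _, hy, ?_⟩
    change γ⁻¹ • γ • y = y
    rw [inv_smul_smul]
  rw [h1]
  exact hfin.isCompact_biUnion fun γ _ => hK.image (continuous_const_smul _)

/-- the finite good atlas of the zero fibre -/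
theorem exists_fN [CompactSpace (NN D S hA e0)] : Nonempty (FAtl (HR D S hA e0)) :=
  (HR D S hA e0).exists_fAtl (isCompact_iff_compactSpace.2 ‹_›) (isConnected_N D S hA e0)

/-- forget the finiteness -/
def FAtl.toG {R : HRet A} (T : FAtl R) : GAtl R where
  d := T.d
  B := T.B
  a := T.a
  cmp := T.cmp
  sub := T.sub
  app := T.app

end

end Crest.Agent.R273.Alb645
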