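import Crest.Agent.R273.UCovB_914

/-!
# R273, leaf UCOV (helper914), part C: deck group, compactness, countability

* `deck`, the action of `G` on `D.cov G` (free, transitive on fibres, properly discontinuous);
* compactness for finite fibre; compact fundamental domain;
* second countability, `σ`-compactness for countable fibre;
* `Group.FG (FundamentalGroup M x0)` for a finite good atlas.
-/

set_option autoImplicit false
set_option linter.unusedSectionVars false

open Set Filter Topology unitInterval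

namespace Crest.Agent.R273.UCov_914

open Crest.Agent.R275.Geo Crest.Agent.R275.ZC352 Crest.Agent.R275.GC293

noncomputable section

variable {n : ℕ} {M : Type} [TopologicalSpace M] {A : Atl n M}

namespace MonD

variable {G : Type} [Group G] (D : MonD A G)

/-! ### deck transformations -/

/-- right multiplication by `g⁻¹` as an equivariant map -/
def rmul (g : G) : G →[G] G where
  toFun v := v * g⁻¹
  map_smul' h v := mul_assoc h v g⁻¹

@[simp] theorem rmul_apply (g v : G) : rmul g v = v * g⁻¹ := rfl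

instance : MulAction G (D.cov G) where
  smul g e := D.map (rmul g) e
  one_smul e := by
    obtain ⟨i, hi⟩ := A.cover (D.pr e)
    refine D.ext_co (i := i) hi rfl ?_
    change D.co i (D.map (rmul 1) e) = _
    rw [D.co_map, rmul_apply, inv_one, mul_one]
  mul_smul g h e := by
    obtain ⟨i, hi⟩ := A.cover (D.pr e)
    refine D.ext_co (i := i) hi rfl ?_
    change D.co i (D.map (rmul (g * h)) e) = D.co i (D.map (rmul g) (D.map (rmul h) e))
    rw [D.co_map, D.co_map, D.co_map, rmul_apply, rmul_apply, rmul_apply, mul_inv_rev, mul_assoc]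

theorem deck_eq (g : G) (e : D.cov G) : g • e = D.map (rmul g) e := rfl

@[simp] theorem pr_deck (g : G) (e : D.cov G) : D.pr (g • e) = D.pr e := rfl

theorem co_deck (g : G) (i : A.ι) (e : D.cov G) : D.co i (g • e) = D.co i e * g⁻¹ := by
  rw [deck_eq, D.co_map, rmul_apply]

theorem deck_pt (g : G) (i : A.ι) (v : G) (x : M) :
    g • D.pt i v x = D.pt i (v * g⁻¹) x := by
  rw [deck_eq, D.map_pt, rmul_apply]

instance : ContinuousConstSMul G (D.cov G) := ⟨fun g => D.continuous_map (rmul g)⟩

theorem deck_free {g : G} {e : D.cov G} (h : g • e = e) : g = 1 := by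
  obtain ⟨i, _⟩ := A.cover (D.pr e)
  have h1 := congrArg (D.co i) h
  rw [co_deck] at h1
  simpa using h1

theorem exists_deck {e e' : D.cov G} (h : D.pr e = D.pr e') : ∃ g : G, g • e = e' := by
  obtain ⟨i, hi⟩ := A.cover (D.pr e)
  refine ⟨(D.co i e')⁻¹ * D.co i e, D.ext_co (i := i) hi h ?_⟩
  rw [co_deck]
  group

theorem deck_mem_sheet {g : G} {i : A.ι} {v : G} {e : D.cov G} :
    g • e ∈ D.sheet i v ↔ e ∈ D.sheet i (v * g) := by
  unfold sheet
  simp only [mem_ofPred_eq, pr_deck, co_deck, mul_inv_eq_iff_eq_mul]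

/-- proper discontinuity -/
theorem finite_deck {K L : Set (D.cov G)} (hK : IsCompact K) (hL : IsCompact L) :
    {g : G | ∃ e ∈ K, g • e ∈ L}.Finite := by
  classical
  -- finitely many sheets cover a compact set
  have hfin : ∀ K : Set (D.cov G), IsCompact K → ∃ T : Finset (A.ι × G), K ⊆ ⋃ p ∈ T,
      D.sheet p.1 p.2 := by
    intro K hK
    refine hK.elim_finite_subcover (fun p : A.ι × G => D.sheet p.1 p.2)
      (fun p => D.isOpen_sheet _ _) fun e _ => ?_
    obtain ⟨i, hi⟩ := A.cover (D.pr e)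
    exact mem_iUnion.2 ⟨(i, D.co i e), hi, rfl⟩
  obtain ⟨T, hT⟩ := hfin K hK
  obtain ⟨S, hS⟩ := hfin L hL
  -- the element is determined by the sheets
  have key : ∀ p q : A.ι × G, {g : G | ∃ e ∈ D.sheet p.1 p.2, g • e ∈ D.sheet q.1 q.2}.Subsingleton := by
    rintro p q g ⟨e, he, he'⟩ h ⟨e2, he2, he2'⟩
    have h1 : D.c p.1 q.1 (D.pr e) * p.2 * g⁻¹ = q.2 := by
      have := D.co_eq (F := G) (i := p.1) (j := q.1) (e := e) he.1 he'.1
      rw [← he'.2, co_deck, this, he.2]
      rfl
    have h2 : D.c p.1 q.1 (D.pr e2) * p.2 * h⁻¹ = q.2 := by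
      have := D.co_eq (F := G) (i := p.1) (j := q.1) (e := e2) he2.1 he2'.1
      rw [← he2'.2, co_deck, this, he2.2]
      rfl
    rw [D.c_loc p.1 q.1 (D.pr e2) ⟨he2.1, he2'.1⟩ (D.pr e) ⟨he.1, he'.1⟩, ← h1] at h2
    exact (inv_injective (mul_left_cancel h2)).symm
  refine Set.Finite.subset (Set.Finite.biUnion T.finite_toSet fun p _ =>
    Set.Finite.biUnion S.finite_toSet fun q _ => (key p q).finite) ?_
  rintro g ⟨e, he, he'⟩
  obtain ⟨p, hp⟩ := mem_iUnion.1 (hT he)
  obtain ⟨hp1, hp2⟩ := mem_iUnion.1 hp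
  obtain ⟨q, hq⟩ := mem_iUnion.1 (hS he')
  obtain ⟨hq1, hq2⟩ := mem_iUnion.1 hq
  exact mem_iUnion₂.2 ⟨p, hp1, mem_iUnion₂.2 ⟨q, hq1, e, hp2, hq2⟩⟩

/-! ### compactness -/

/-- compact sets in the charts which cover `M` -/
theorem exists_shrink (A : Atl n M) [CompactSpace M] [T2Space M] [Finite A.ι] :
    ∃ K : A.ι → Set M, (∀ i, IsCompact (K i)) ∧ (∀ i, K i ⊆ (A.e i).source) ∧ ⋃ i, K i = univ := by
  obtain ⟨K, h1, h2, h3⟩ := exists_iUnion_eq_closed_subset (u := fun i => (A.e i).source)
    (fun i => (A.e i).open_source) (fun x => Set.toFinite _)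
    (by rw [eq_univ_iff_forall]; exact fun x => mem_iUnion.2 (A.cover x))
  exact ⟨K, fun i => (h2 i).isCompact, h3, h1⟩

variable (F : Type) [MulAction G F]

theorem isCompact_pt {i : A.ι} (v : F) {K : Set M} (hK : IsCompact K) (h : K ⊆ (A.e i).source) :
    IsCompact (D.pt i v '' K) :=
  hK.image_of_continuousOn ((D.continuousOn_pt i v).mono h)

instance compactSpace [CompactSpace M] [T2Space M] [Finite A.ι] [Finite F] :
    CompactSpace (D.cov F) := by
  obtain ⟨K, h1, h2, h3⟩ := exists_shrink A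
  refine ⟨?_⟩
  have h4 : (univ : Set (D.cov F)) = ⋃ p : A.ι × F, D.pt p.1 p.2 '' K p.1 := by
    symm
    rw [eq_univ_iff_forall]
    intro e
    have he : D.pr e ∈ ⋃ i, K i := h3 ▸ mem_univ _
    obtain ⟨i, hi⟩ := mem_iUnion.1 he
    exact mem_iUnion.2 ⟨(i, D.co i e), D.pr e, hi, D.pt_co (h2 i hi)⟩
  rw [h4]
  exact isCompact_iUnion fun p => D.isCompact_pt F p.2 (h1 p.1) (h2 p.1)

/-- a compact set whose translates cover the covering with group `G` -/
theorem exists_fund [CompactSpace M] [T2Space M] [Finite A.ι] :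
    ∃ K : Set (D.cov G), IsCompact K ∧ ∀ e : D.cov G, ∃ g : G, g • e ∈ K := by
  obtain ⟨K, h1, h2, h3⟩ := exists_shrink A
  refine ⟨⋃ i, D.pt i 1 '' K i, isCompact_iUnion fun i => D.isCompact_pt G 1 (h1 i) (h2 i),
    fun e => ?_⟩
  have he : D.pr e ∈ ⋃ i, K i := h3 ▸ mem_univ _
  obtain ⟨i, hi⟩ := mem_iUnion.1 he
  refine ⟨D.co i e, mem_iUnion.2 ⟨i, D.pr e, hi, ?_⟩⟩
  refine D.ext_co (i := i) (h2 i hi) rfl ?_
  rw [D.co_pt _ (h2 i hi), co_deck, mul_inv_cancel]

/-! ### countability -/

instance [Countable A.ι] [Countable F] : Countable (D.atl F).ι :=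
  inferInstanceAs (Countable (A.ι × F))

theorem secondCountable [Countable A.ι] [Countable F] : SecondCountableTopology (D.cov F) := by
  have : ∀ p : A.ι × F, SecondCountableTopology (D.sheet p.1 p.2) := fun p =>
    ((D.chart p.1 p.2).toHomeomorphSourceTarget).secondCountableTopology
  refine TopologicalSpace.secondCountableTopology_of_countable_cover
    (U := fun p : A.ι × F => D.sheet p.1 p.2) (fun p => D.isOpen_sheet _ _) ?_
  rw [eq_univ_iff_forall]
  intro e
  obtain ⟨i, hi⟩ := A.cover (D.pr e)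
  exact mem_iUnion.2 ⟨(i, D.co i e), hi, rfl⟩

theorem sigmaCompact [CompactSpace M] [T2Space M] [Finite A.ι] [Countable F] :
    SigmaCompactSpace (D.cov F) := by
  obtain ⟨K, h1, h2, h3⟩ := exists_shrink A
  have : Countable A.ι := Finite.to_countable
  refine SigmaCompactSpace.of_countable (range fun p : A.ι × F => D.pt p.1 p.2 '' K p.1)
    (countable_range _) ?_ ?_
  · rintro _ ⟨p, rfl⟩
    exact D.isCompact_pt F p.2 (h1 p.1) (h2 p.1)
  · rw [sUnion_range, eq_univ_iff_forall]
    intro e
    have he : D.pr e ∈ ⋃ i, K i := h3 ▸ mem_univ _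
    obtain ⟨i, hi⟩ := mem_iUnion.1 he
    exact mem_iUnion.2 ⟨(i, D.co i e), D.pr e, hi, D.pt_co (h2 i hi)⟩

end MonD

/-! ### finite generation of the fundamental group -/

section FG

variable [PathConnectedSpace M] (hA : GoodA A) (x0 : M)

open Path.Homotopic.Quotient (mk)

/-- the finite generating set: values of the cocycle and the classes `al i x0` -/
theorem closure_eq_top : Subgroup.closure
    ({g : FundamentalGroup M x0 | ∃ i j x, x ∈ (A.e i).source ∩ (A.e j).source ∧
      g = (uD hA x0).c i j x} ∪ {g | ∃ i, x0 ∈ (A.e i).source ∧ g = be A x0 i (.refl x0)}) = ⊤ := by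
  set S : Set (FundamentalGroup M x0) :=
    {g : FundamentalGroup M x0 | ∃ i j x, x ∈ (A.e i).source ∩ (A.e j).source ∧
      g = (uD hA x0).c i j x} ∪ {g | ∃ i, x0 ∈ (A.e i).source ∧ g = be A x0 i (.refl x0)} with hS
  set H := Subgroup.closure S with hH
  -- the orbit of `1 H` in the covering with fibre `G / H`
  have hone : ∀ i, ∀ x ∈ (A.e i).source, ∀ j, x ∈ (A.e j).source → ∀ q : Q x0 x,
      be A x0 i q ∈ H → be A x0 j q ∈ H := by
    intro i x hi j hj q hq
    rw [be_change hA x0 i j q]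
    exact H.mul_mem (Subgroup.subset_closure (Or.inl ⟨i, j, x, ⟨hi, hj⟩, rfl⟩)) hq
  -- along a path
  have hpath : ∀ γ : Path x0 x0, ∀ i, γ 1 ∈ (A.e i).source →
      be A x0 i (((Path.Homotopic.Quotient.refl x0).cast rfl γ.source).trans
        (mk (γ.subpath 0 1))) ∈ H := by
    intro γ
    let P : I → Prop := fun t => ∀ i, γ t ∈ (A.e i).source →
      be A x0 i (((Path.Homotopic.Quotient.refl x0).cast rfl γ.source).trans
        (mk (γ.subpath 0 t))) ∈ H
    have hloc : ∀ t0, ∀ᶠ t in 𝓝 t0, P t ↔ P t0 := by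
      intro t0
      obtain ⟨i, hi⟩ := A.cover (γ t0)
      have hev : ∀ᶠ t in 𝓝 t0, ∀ s ∈ (univ : Set I), γ.subpath t0 t s ∈ (A.e i).source := by
        refine isCompact_univ.eventually_forall_of_forall_eventually fun s _ => ?_
        have hc : Continuous fun z : I × I => γ.subpath t0 z.1 z.2 :=
          γ.subpath_continuous_family.comp (f := fun z : I × I => (t0, z.1, z.2)) (by fun_prop)
        refine hc.continuousAt.eventually ((A.e i).open_source.mem_nhds ?_)
        change γ.subpath t0 t0 s ∈ _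
        rw [Path.subpath_self]
        exact hi
      have hev2 : ∀ᶠ t in 𝓝 t0, γ t ∈ (A.e i).source :=
        γ.continuous.continuousAt.eventually ((A.e i).open_source.mem_nhds hi)
      filter_upwards [hev, hev2] with t ht ht2
      have h3 : mk (γ.subpath 0 t) = (mk (γ.subpath 0 t0)).trans (seg A i (γ t0) (γ t)) := by
        rw [← seg_eq hA (γ.subpath t0 t) fun s => ht s (mem_univ s)]
        exact (Path.Homotopic.Quotient.eq.2 ⟨Path.Homotopy.subpathTransSubpath γ 0 t0 t⟩).symm
      have h4 : be A x0 i (((Path.Homotopic.Quotient.refl x0).cast rfl γ.source).trans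
          (mk (γ.subpath 0 t))) =
          be A x0 i (((Path.Homotopic.Quotient.refl x0).cast rfl γ.source).trans
          (mk (γ.subpath 0 t0))) := by
        rw [h3, ← Path.Homotopic.Quotient.trans_assoc, be_seg hA x0 _ hi ht2]
      constructor
      · intro h j hj
        exact hone i _ hi j hj _ (h4 ▸ h i ht2)
      · intro h j hj
        exact hone i _ ht2 j hj _ (h4 ▸ h i hi)
    have h0 : P 0 := by
      intro i hi
      rw [Path.subpath_self]
      change be A x0 i (((Path.Homotopic.Quotient.refl x0).cast rfl γ.source).trans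
        (Path.Homotopic.Quotient.refl _)) ∈ H
      rw [Path.Homotopic.Quotient.trans_refl]
      have hx : ∀ (y : M) (h : y = x0), y ∈ (A.e i).source →
          be A x0 i ((Path.Homotopic.Quotient.refl x0).cast rfl h) ∈ H := by
        intro y h hy
        subst h
        rw [Path.Homotopic.Quotient.cast_rfl_rfl]
        exact Subgroup.subset_closure (Or.inr ⟨i, hy, rfl⟩)
      exact hx _ _ hi
    have hclopen : IsClopen {t | P t} := by
      constructor
      · rw [← isOpen_compl_iff, isOpen_iff_mem_nhds]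
        intro t0 ht0
        filter_upwards [hloc t0] with t ht
        exact fun h => ht0 (ht.1 h)
      · rw [isOpen_iff_mem_nhds]
        intro t0 ht0
        filter_upwards [hloc t0] with t ht
        exact ht.2 ht0
    have huniv : {t | P t} = univ := hclopen.eq_univ ⟨0, h0⟩
    exact (huniv ▸ mem_univ (1 : I) : (1 : I) ∈ {t | P t})
  rw [eq_top_iff]
  intro g _
  obtain ⟨γ, hγ⟩ := Path.Homotopic.Quotient.mk_surjective (FundamentalGroup.toPath g)
  obtain ⟨i, hi⟩ := A.cover x0
  have hi' : γ 1 ∈ (A.e i).source := by rw [γ.target]; exact hi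
  have h1 := hpath γ i hi'
  rw [Path.subpath_zero_one, Path.Homotopic.Quotient.mk_cast, trans_cast',
    Path.Homotopic.Quotient.refl_trans] at h1
  have h2 : be A x0 i (mk γ) ∈ H := by
    have : ∀ (y : M) (h : y = x0), be A x0 i ((mk γ).cast rfl h) ∈ H → be A x0 i (mk γ) ∈ H := by
      intro y h
      subst h
      rw [Path.Homotopic.Quotient.cast_rfl_rfl]
      exact id
    exact this _ _ h1
  have h3 : be A x0 i (Path.Homotopic.Quotient.refl x0) ∈ H :=
    Subgroup.subset_closure (Or.inr ⟨i, hi, rfl⟩)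
  have h4 : g = (be A x0 i (Path.Homotopic.Quotient.refl x0))⁻¹ * be A x0 i (mk γ) := by
    rw [hγ, eq_inv_mul_iff_mul_eq, FundamentalGroup.mul_def]
    unfold be
    rw [Path.Homotopic.Quotient.refl_trans]
  rw [h4]
  exact H.mul_mem (H.inv_mem h3) h2

include hA in
theorem finite_gens [Finite A.ι] :
    ({g : FundamentalGroup M x0 | ∃ i j x, x ∈ (A.e i).source ∩ (A.e j).source ∧
      g = (uD hA x0).c i j x} ∪ {g | ∃ i, x0 ∈ (A.e i).source ∧ g = be A x0 i (.refl x0)}).Finite := by
  refine Set.Finite.union ?_ ?_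
  · have : ({g : FundamentalGroup M x0 | ∃ i j x, x ∈ (A.e i).source ∩ (A.e j).source ∧
      g = (uD hA x0).c i j x}) ⊆ ⋃ p : A.ι × A.ι,
        {g | ∃ x, x ∈ (A.e p.1).source ∩ (A.e p.2).source ∧ g = (uD hA x0).c p.1 p.2 x} := by
      rintro g ⟨i, j, x, h⟩
      exact mem_iUnion.2 ⟨(i, j), x, h⟩
    refine Set.Finite.subset (Set.finite_iUnion fun p => Set.Subsingleton.finite ?_) this
    rintro g ⟨x, hx, rfl⟩ h ⟨y, hy, rfl⟩
    exact (uD hA x0).c_loc _ _ _ hx _ hy
  · refine Set.Finite.subset (Set.finite_range fun i => be A x0 i (.refl x0)) ?_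
    rintro g ⟨i, -, rfl⟩
    exact ⟨i, rfl⟩

include hA in
theorem fg [Finite A.ι] : Group.FG (FundamentalGroup M x0) :=
  ⟨(finite_gens hA x0).toFinset, by rw [Set.Finite.coe_toFinset]; exact closure_eq_top hA x0⟩

include hA in
theorem countable [Finite A.ι] : Countable (FundamentalGroup M x0) := by
  have h := fg hA x0
  obtain ⟨S, hS, φ, hφ⟩ := Group.fg_iff_exists_freeGroup_hom_surjective_finite.1 h
  have : Countable (FreeGroup S) := inferInstance
  exact hφ.countable

end FG

end

end Crest.Agent.R273.UCov_914
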