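import Crest.Agent.R273.HFlow9_376
import Crest.Agent.R273.UCovC_914
import Crest.Agent.R273.Map_835

/-!
# R273 (S0416), HFLOW (helper376), file C: bridge to `HolMap` (helper835), covering spaces (helper914):
pull-back of fields and Kaehler metrics, flows on the universal cover of a field invariant under a
finite index subgroup of the deck group.
-/

set_option autoImplicit false
set_option linter.unusedSectionVars false

open Set Metric Filter Topology Complex Function
open scoped NNReal ContDiff Matrix ComplexConjugate ComplexOrder Pointwise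

namespace Crest.Agent.R273.HFlowC_376

open Crest.Agent.R275.Geo Crest.Agent.R275.Core144 Crest.Agent.R275.EDR890
open Crest.Agent.R273.Kah_333 Crest.Agent.R273.Map_835 Crest.Agent.R273.UCov_914
open Crest.Agent.R273.HFlow3_376 Crest.Agent.R273.HFlow4_376 Crest.Agent.R273.HFlow5_376
open Crest.Agent.R273.HFlow6_376 Crest.Agent.R273.HFlow7_376 Crest.Agent.R273.HFlow8_376
open Crest.Agent.R273.HFlow9_376

noncomputable section

/-! ### bridge `HolM` / `HolMap` -/

section Bridge

variable {n m : ℕ} {M M' : Type} [TopologicalSpace M] [TopologicalSpace M']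
  {A : Atl n M} {B : Atl m M'} {f : M → M'}

theorem holM_of_holMap (h : HolMap A B f) : HolM A B f := by
  intro x
  obtain ⟨i, hi⟩ := A.cover x
  obtain ⟨j, hj⟩ := B.cover (f x)
  exact ⟨h.cont.continuousAt, i, j, hi, hj, h.diffAt (mem_dm hi hj)⟩

theorem holMap_of_holM (h : HolM A B f) : HolMap A B f := by
  refine ⟨h.continuous, fun i j z hz => ?_⟩
  have h1 := h.diff (i := i) (j := j) ((A.e i).map_target hz.1) hz.2
  rw [(A.e i).right_inv hz.1] at h1
  exact h1.differentiableWithinAt

theorem holM_iff : HolM A B f ↔ HolMap A B f := ⟨holMap_of_holM, holM_of_holMap⟩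

theorem Tm_eq_Jp (i : A.ι) (j : B.ι) (x : M) : Tm A B f i j x = Jp A B f i j x := rfl

theorem tm_eq_rd (i : A.ι) (j : B.ι) (x : M) : tm A B f i j x = fderiv ℂ (rd A B f i j) (A.e i x) :=
  rfl

end Bridge

/-! ### coverings -/

section Cover

variable {n : ℕ} {M : Type} [TopologicalSpace M] {A : Atl n M} {G : Type} [Group G]
  (D : MonD A G)

section Pull

variable {F F' : Type} [MulAction G F] [MulAction G F']

/-- pull-back of a holomorphic vector field to a covering -/
def pullV (V : HVF A) : HVF (D.atl F) where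
  X p e := V.X p.1 (D.pr e)
  hol p := V.hol p.1
  tr p q e he := V.tr p.1 q.1 (D.pr e) ⟨he.1.1, he.2.1⟩

theorem pullV_loc (V : HVF A) (p : (D.atl F).ι) : (pullV D V : HVF (D.atl F)).loc p = V.loc p.1 :=
  rfl

theorem pullV_comm {V W : HVF A} (h : Comm V W) :
    Comm (pullV D V : HVF (D.atl F)) (pullV D W) := fun p z hz => h p.1 z hz

theorem holM_pr : HolM (D.atl F) A (D.pr (F := F)) := by
  refine holM_of_holMap ⟨D.continuous_pr, fun p j => ?_⟩
  exact (A.holo p.1 j).mono fun z hz => ⟨hz.1, hz.2⟩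

theorem related_pr (V : HVF A) : Related (pullV D V : HVF (D.atl F)) V (D.pr (F := F)) := by
  refine ⟨holM_pr D, fun p j e hp hj => ?_⟩
  exact (V.tr p.1 j (D.pr e) ⟨hp.1, hj⟩).symm

/-- the map of covers read in charts is the change of charts of `A` -/
theorem map_chart (φ : F →[G] F') (p : (D.atl F).ι) (q : (D.atl F').ι) (z : Cn n) :
    (D.atl F').e q (D.map φ (((D.atl F).e p).symm z)) = A.e q.1 ((A.e p.1).symm z) := rfl

theorem holM_map (φ : F →[G] F') : HolM (D.atl F) (D.atl F') (D.map φ) := by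
  refine holM_of_holMap ⟨D.continuous_map φ, fun p q => ?_⟩
  exact (A.holo p.1 q.1).mono fun z hz => ⟨hz.1, hz.2.1⟩

theorem related_map (φ : F →[G] F') (V : HVF A) :
    Related (pullV D V : HVF (D.atl F)) (pullV D V : HVF (D.atl F')) (D.map φ) := by
  refine ⟨holM_map D φ, fun p q e hp hq => ?_⟩
  exact (V.tr p.1 q.1 (D.pr e) ⟨hp.1, hq.1⟩).symm

theorem tm_map (φ : F →[G] F') {p : (D.atl F).ι} {q : (D.atl F').ι} (e : D.cov F) :
    tm (D.atl F) (D.atl F') (D.map φ) p q e = tm A A id p.1 q.1 (D.pr e) := rfl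

theorem tm_pr {p : (D.atl F).ι} {j : A.ι} (e : D.cov F) :
    tm (D.atl F) A (D.pr (F := F)) p j e = tm A A id p.1 j (D.pr e) := rfl

/-- pull-back of a Kaehler metric -/
def pullK (K : Kah A) : Kah (D.atl F) where
  g p e := K.g p.1 (D.pr e)
  sm p a b := K.sm p.1 a b
  pos p e he := K.pos p.1 (D.pr e) he.1
  tr p q e he := K.tr p.1 q.1 (D.pr e) ⟨he.1.1, he.2.1⟩
  closed p z hz a b c := K.closed p.1 z hz a b c
  closed' p z hz a b c := K.closed' p.1 z hz a b c

theorem pullK_par {K : Kah A} {V : HVF A} (h : Par K V) :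
    Par (pullK D K : Kah (D.atl F)) (pullV D V) := fun p z hz c b => h p.1 z hz c b

theorem isom_pr (K : Kah A) : Isom (pullK D K : Kah (D.atl F)) K (D.pr (F := F)) := by
  refine ⟨holM_pr D, fun p j e hp hj v w => ?_⟩
  rw [tm_pr]
  exact hf_tr K hp.1 hj v w

theorem isom_map (φ : F →[G] F') (K : Kah A) :
    Isom (pullK D K : Kah (D.atl F)) (pullK D K : Kah (D.atl F')) (D.map φ) := by
  refine ⟨holM_map D φ, fun p q e hp hq v w => ?_⟩
  rw [tm_map]
  exact hf_tr K hp.1 hq.1 v w

end Pull

/-! ### the deck group -/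

/-- deck transformation as a homeomorphism -/
def deckH (g : G) : D.cov G ≃ₜ D.cov G := Homeomorph.smul g

@[simp] theorem deckH_apply (g : G) (e : D.cov G) : deckH D g e = g • e := rfl

@[simp] theorem deckH_symm (g : G) (e : D.cov G) : (deckH D g).symm e = g⁻¹ • e := rfl

theorem deck_fun (g : G) : (fun e : D.cov G => g • e) = D.map (MonD.rmul g) := rfl

theorem holM_deck (g : G) : HolM (D.atl G) (D.atl G) (fun e => g • e) := holM_map D (MonD.rmul g)

theorem related_deck (g : G) (V : HVF A) :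
    Related (pullV D V : HVF (D.atl G)) (pullV D V) (fun e => g • e) :=
  related_map D (MonD.rmul g) V

theorem isom_deck (g : G) (K : Kah A) :
    Isom (pullK D K : Kah (D.atl G)) (pullK D K) (fun e => g • e) :=
  isom_map D (MonD.rmul g) K

/-- compact set meeting all the orbits of a finite index subgroup -/
theorem exists_fund_sub [CompactSpace M] [T2Space M] [Finite A.ι] (H : Subgroup G)
    [H.FiniteIndex] : ∃ K : Set (D.cov G), IsCompact K ∧ ∀ e : D.cov G, ∃ h ∈ H, h • e ∈ K := by
  obtain ⟨K, hK, h1⟩ := D.exists_fund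
  have : Finite (G ⧸ H) := inferInstance
  refine ⟨⋃ q : G ⧸ H, (fun e => (Quotient.out q : G)⁻¹ • e) '' K,
    isCompact_iUnion fun q => hK.image (continuous_const_smul _), fun e => ?_⟩
  obtain ⟨g, hg⟩ := h1 e
  refine ⟨(Quotient.out (g : G ⧸ H) : G)⁻¹ * g, ?_, mem_iUnion.2 ⟨(g : G ⧸ H), g • e, hg, ?_⟩⟩
  · exact QuotientGroup.leftRel_apply.1 (Quotient.mk_out (s := QuotientGroup.leftRel H) g)
  · rw [mul_smul]

/-- **flows on the universal cover** of fields invariant under a finite index subgroup -/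
theorem exists_flow_cov [CompactSpace M] [T2Space M] [Finite A.ι] (H : Subgroup G)
    [H.FiniteIndex] (W : HVF (D.atl G)) (hW : ∀ h ∈ H, Related W W (fun e => h • e)) :
    Nonempty (Flow W) := by
  obtain ⟨K, hK, h1⟩ := exists_fund_sub D H
  refine exists_flow_of_cocompact W hK fun e => ?_
  obtain ⟨h, hh, he⟩ := h1 e
  refine ⟨(deckH D h).symm, ?_, ?_, ?_⟩
  · exact hW h⁻¹ (H.inv_mem hh)
  · exact holM_deck D h
  · exact he

theorem exists_mflow_cov [CompactSpace M] [T2Space M] [Finite A.ι] (H : Subgroup G)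
    [H.FiniteIndex] {g : ℕ} (W : Fin g → HVF (D.atl G))
    (hW : ∀ k, ∀ h ∈ H, Related (W k) (W k) (fun e => h • e)) (hc : ∀ k l, Comm (W k) (W l)) :
    Nonempty (MFlow W) :=
  ⟨MFlow.of (fun k => (exists_flow_cov D H (W k) (hW k)).some) hc⟩

/-- the flow commutes with the deck transformations preserving the fields -/
theorem mflow_deck [T2Space M] {g : ℕ} {W : Fin g → HVF (D.atl G)} (F : MFlow W) {h : G}
    (hW : ∀ k, Related (W k) (W k) (fun e => h • e)) (c : Fin g → ℂ) (e : D.cov G) :
    h • F.Φ c e = F.Φ c (h • e) := F.related hW F c e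

/-- the flow upstairs covers the flow downstairs -/
theorem mflow_pr [T2Space M] {F' : Type} [MulAction G F'] {g : ℕ} {V : Fin g → HVF A}
    (F : MFlow (fun k => (pullV D (V k) : HVF (D.atl F')))) (F0 : MFlow V)
    (c : Fin g → ℂ) (e : D.cov F') : D.pr (F.Φ c e) = F0.Φ c (D.pr e) :=
  F.related (fun k => related_pr D (V k)) F0 c e

end Cover

end

end Crest.Agent.R273.HFlowC_376
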