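import Crest.Agent.R273.Kah_333
import Crest.Agent.R273.Map_835

/-!
# R273 (S0416), Part B (helper645): pull-back of a Kaehler metric by a holomorphic immersion

`pullI K hf imm : Kah B` for `f : N → M` holomorphic with injective differentials;
`pullI_g` : the value in any chart.
-/

set_option autoImplicit false
set_option linter.unusedSectionVars false

open Set Filter Topology Complex Function
open scoped ContDiff Matrix ComplexConjugate ComplexOrder

namespace Crest.Agent.R273.KahI_645

open Crest.Agent.R275.Geo Crest.Agent.R275.Core144 Crest.Agent.R275.EDR890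
open Crest.Agent.R273.Kah_333 Crest.Agent.R273.Hess_333 Crest.Agent.R273.HessB_333
open Crest.Agent.R273.Map_835

noncomputable section

variable {n m : ℕ}

section calc_

variable {W : Type*} [NormedAddCommGroup W] [NormedSpace ℂ W]

theorem wdL_comp' (s : WI m) (G : Cn n →L[ℝ] W) (L : Cn m →L[ℂ] Cn n) :
    wdL s (G.comp (L.restrictScalars ℝ)) =
      ∑ b, cj s.1 ((L (EuclideanSpace.single s.2 1)) b) • wdL (s.1, b) G := by
  have hI : (EuclideanSpace.single s.2 I : Cn m) = I • EuclideanSpace.single s.2 (1 : ℂ) := by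
    ext c
    simp [PiLp.single_apply]
  unfold wdL
  simp only [ContinuousLinearMap.comp_apply, ContinuousLinearMap.coe_restrictScalars']
  rw [hI, map_smul]
  exact wdL_vec s.1 G (L (EuclideanSpace.single s.2 1))

/-- chain rule for a holomorphic map between spaces of different dimensions -/
theorem wd_comp' {f : Cn n → W} {φ : Cn m → Cn n} {z : Cn m}
    (hf : DifferentiableAt ℝ f (φ z)) (hφ : DifferentiableAt ℂ φ z) (s : WI m) :
    wd s (fun w => f (φ w)) z =
      ∑ b, cj s.1 ((fderiv ℂ φ z (EuclideanSpace.single s.2 1)) b) • wd (s.1, b) f (φ z) := by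
  have hφr : HasFDerivAt φ ((fderiv ℂ φ z).restrictScalars ℝ) z :=
    hφ.hasFDerivAt.restrictScalars ℝ
  have h := hf.hasFDerivAt.comp z hφr
  have h' : fderiv ℝ (fun w => f (φ w)) z =
      (fderiv ℝ f (φ z)).comp ((fderiv ℂ φ z).restrictScalars ℝ) := h.fderiv
  rw [wd, h', wdL_comp']
  rfl

/-- `∂` of an antiholomorphic function vanishes -/
theorem wd_conj_hol {f : Cn m → ℂ} {z : Cn m} (hf : DifferentiableAt ℂ f z) (a : Fin m) :
    wd (false, a) (fun w => conj (f w)) z = 0 := by
  have h1 := conj_wd (true, a) (hf.restrictScalars ℝ)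
  rw [wd_hol hf, map_zero] at h1
  exact h1.symm

variable {F : Cn m → Cn n} {z : Cn m}

/-- the entries of the Jacobian -/
def Je (F : Cn m → Cn n) (a : Fin m) (b : Fin n) (w : Cn m) : ℂ :=
  fderiv ℂ F w (EuclideanSpace.single a 1) b

theorem je_diff (hF : ∀ᶠ w in 𝓝 z, DifferentiableAt ℂ F w) (a : Fin m) (b : Fin n) :
    DifferentiableAt ℂ (Je F a b) z := by
  obtain ⟨U, hU, hUo, hUz⟩ := eventually_nhds_iff.1 hF
  have h2 : DifferentiableOn ℂ F U := fun w hw => (hU w hw).differentiableWithinAt
  have h3 : AnalyticOnNhd ℂ (fderiv ℂ F) U :=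
    (Crest.Agent.R266.SCV.analyticOnNhd_of_differentiableOn hUo h2).fderiv
  have h5 : DifferentiableOn ℂ (fun w => (fderiv ℂ F w (EuclideanSpace.single a 1))) U :=
    h3.differentiableOn.clm_apply (differentiableOn_const _)
  have h4 : DifferentiableOn ℂ (fun w => (fderiv ℂ F w (EuclideanSpace.single a 1)) b) U :=
    ((EuclideanSpace.proj b : Cn n →L[ℂ] ℂ).differentiable).comp_differentiableOn h5
  exact h4.differentiableAt (hUo.mem_nhds hUz)

theorem F_smooth (hF : ∀ᶠ w in 𝓝 z, DifferentiableAt ℂ F w) : ContDiffAt ℝ ∞ F z := by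
  obtain ⟨U, hU, hUo, hUz⟩ := eventually_nhds_iff.1 hF
  have h1 : DifferentiableOn ℂ F U := fun w hw => (hU w hw).differentiableWithinAt
  exact (((Crest.Agent.R266.SCV.contDiffOn_omega_of_differentiableOn hUo h1).restrict_scalars
    ℝ).of_le le_top).contDiffAt (hUo.mem_nhds hUz)

theorem je_smooth (hF : ∀ᶠ w in 𝓝 z, DifferentiableAt ℂ F w) (a : Fin m) (b : Fin n) :
    ContDiffAt ℝ ∞ (Je F a b) z := by
  obtain ⟨U, hU, hUo, hUz⟩ := eventually_nhds_iff.1 hF
  have h1 : DifferentiableOn ℂ (Je F a b) U := fun w hw => by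
    refine (je_diff ?_ a b).differentiableWithinAt
    exact eventually_nhds_iff.2 ⟨U, hU, hUo, hw⟩
  exact (((Crest.Agent.R266.SCV.contDiffOn_omega_of_differentiableOn hUo h1).restrict_scalars
    ℝ).of_le le_top).contDiffAt (hUo.mem_nhds hUz)

theorem je_symm (hF : ∀ᶠ w in 𝓝 z, DifferentiableAt ℂ F w) (a c : Fin m) (b : Fin n) :
    wd (false, c) (Je F a b) z = wd (false, a) (Je F c b) z := by
  have key : ∀ a, Je F a b =ᶠ[𝓝 z] wd (false, a) (fun w => F w b) := by
    intro a
    filter_upwards [hF] with w hw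
    have h1 : DifferentiableAt ℂ (fun w => F w b) w :=
      ((EuclideanSpace.proj b : Cn n →L[ℂ] ℂ).differentiableAt).comp w hw
    rw [wd_hol' h1]
    have h2 : fderiv ℂ (fun w => F w b) w = _ :=
      (((EuclideanSpace.proj b : Cn n →L[ℂ] ℂ).hasFDerivAt).comp w hw.hasFDerivAt).fderiv
    rw [h2]
    rfl
  rw [wd_congr (key a), wd_congr (key c)]
  exact wd_comm (((EuclideanSpace.proj b : Cn n →L[ℂ] ℂ).restrictScalars ℝ).contDiff.contDiffAt.comp
    z (F_smooth hF)) _ _

/-- the local expression of the pulled back metric -/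
def pl (F : Cn m → Cn n) (G : Fin n → Fin n → Cn n → ℂ) (a b : Fin m) (w : Cn m) : ℂ :=
  ∑ a', ∑ b', Je F a a' w * G a' b' (F w) * conj (Je F b b' w)

variable {G : Fin n → Fin n → Cn n → ℂ}

theorem pl_smooth (hF : ∀ᶠ w in 𝓝 z, DifferentiableAt ℂ F w)
    (hG : ∀ a b, ContDiffAt ℝ ∞ (G a b) (F z)) (a b : Fin m) : ContDiffAt ℝ ∞ (pl F G a b) z := by
  refine ContDiffAt.sum fun a' _ => ContDiffAt.sum fun b' _ => ?_
  exact ((je_smooth hF a a').mul ((hG a' b').comp z (F_smooth hF))).mul
    ((conjCLE : ℂ →L[ℝ] ℂ).contDiff.contDiffAt.comp z (je_smooth hF b b'))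

theorem pl_closed (hF : ∀ᶠ w in 𝓝 z, DifferentiableAt ℂ F w)
    (hG : ∀ a b, DifferentiableAt ℝ (G a b) (F z))
    (hcl : ∀ a b c, wd (false, c) (G a b) (F z) = wd (false, a) (G c b) (F z)) (a b c : Fin m) :
    wd (false, c) (pl F G a b) z = wd (false, a) (pl F G c b) z := by
  have hFz : DifferentiableAt ℂ F z := hF.self_of_nhds
  have dJ : ∀ a b', DifferentiableAt ℝ (Je F a b') z := fun a b' =>
    (je_diff hF a b').restrictScalars ℝ
  have dG : ∀ a' b', DifferentiableAt ℝ (fun w => G a' b' (F w)) z := fun a' b' =>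
    (hG a' b').comp z (hFz.restrictScalars ℝ)
  have dC : ∀ b', DifferentiableAt ℝ (fun w => conj (Je F b b' w)) z := fun b' =>
    (conjCLE : ℂ →L[ℝ] ℂ).differentiableAt.comp z (dJ b b')
  have key : ∀ a c, wd (false, c) (pl F G a b) z = ∑ a', ∑ b',
      (wd (false, c) (Je F a a') z * G a' b' (F z) * conj (Je F b b' z) +
        ∑ e, Je F a a' z * Je F c e z * wd (false, e) (G a' b') (F z) * conj (Je F b b' z)) := by
    intro a c
    have h1 : wd (false, c) (pl F G a b) z = ∑ a', wd (false, c) (fun w => ∑ b',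
        Je F a a' w * G a' b' (F w) * conj (Je F b b' w)) z :=
      wd_sum Finset.univ (fun a' _ => DifferentiableAt.fun_sum fun b' _ =>
        ((dJ a a').fun_mul (dG a' b')).fun_mul (dC b')) (false, c)
    rw [h1]
    refine Finset.sum_congr rfl fun a' _ => ?_
    rw [wd_sum Finset.univ (fun b' _ => ((dJ a a').fun_mul (dG a' b')).fun_mul (dC b')) (false, c)]
    refine Finset.sum_congr rfl fun b' _ => ?_
    rw [wd_mul ((dJ a a').fun_mul (dG a' b')) (dC b'), wd_conj_hol (je_diff hF b b'), mul_zero,
      add_zero, wd_mul (dJ a a') (dG a' b'), wd_comp' (hG a' b') hFz (false, c), add_mul]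
    congr 1
    rw [Finset.mul_sum, Finset.sum_mul]
    refine Finset.sum_congr rfl fun e _ => ?_
    simp only [cj_false, smul_eq_mul]
    change Je F a a' z * (Je F c e z * _) * _ = _
    ring
  rw [key, key]
  simp only [Finset.sum_add_distrib]
  congr 1
  · refine Finset.sum_congr rfl fun a' _ => Finset.sum_congr rfl fun b' _ => ?_
    rw [je_symm hF]
  · have e1 : ∀ (f : Fin n → Fin n → Fin n → ℂ), ∑ a', ∑ b', ∑ e, f a' b' e =
        ∑ a', ∑ b', ∑ e, f e b' a' := by
      intro f
      rw [Finset.sum_comm]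
      conv_rhs => rw [Finset.sum_comm]
      refine Finset.sum_congr rfl fun b' _ => ?_
      rw [Finset.sum_comm]
    rw [e1]
    refine Finset.sum_congr rfl fun a' _ => Finset.sum_congr rfl fun b' _ =>
      Finset.sum_congr rfl fun e _ => ?_
    rw [hcl e b' a']
    ring

end calc_

/-! ### the pulled back metric -/

variable {M N : Type} [TopologicalSpace M] [TopologicalSpace N] {A : Atl n M} {B : Atl m N}

/-- the matrix of the pulled back metric in the charts `j`, `i` -/
def gm (K : Kah A) (f : N → M) (j : B.ι) (i : A.ι) (y : N) : Matrix (Fin m) (Fin m) ℂ :=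
  (Jp B A f j i y)ᵀ * K.g i (f y) * (Jp B A f j i y).map conj

theorem gm_eq (K : Kah A) {f : N → M} (hf : HolMap B A f) {j : B.ι} {i i' : A.ι} {y : N}
    (hy : y ∈ (B.e j).source) (hi : f y ∈ (A.e i).source) (hi' : f y ∈ (A.e i').source) :
    gm K f j i y = gm K f j i' y := by
  unfold gm
  rw [← hf.Jp_right hy ⟨hi, hi'⟩, Matrix.transpose_mul, Matrix.map_mul, K.tr i i' (f y) ⟨hi, hi'⟩]
  simp only [Matrix.mul_assoc]

theorem gm_apply (K : Kah A) (f : N → M) (j : B.ι) (i : A.ι) (y : N) (a b : Fin m) :
    gm K f j i y a b = ∑ a', ∑ b', Jp B A f j i y a' a * K.g i (f y) a' b' *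
      conj (Jp B A f j i y b' b) := by
  simp only [gm, Matrix.mul_apply, Matrix.transpose_apply, Matrix.map_apply, Finset.sum_mul]
  rw [Finset.sum_comm]

/-- the local expression near a point -/
theorem gm_read (K : Kah A) {f : N → M} (hf : HolMap B A f) {j : B.ι} {i : A.ι} {z : Cn m}
    (hz : z ∈ dm B A f j i) (a b : Fin m) :
    gm K f j i ((B.e j).symm z) a b =
      pl (rd B A f j i) (fun a' b' w => K.g i ((A.e i).symm w) a' b') a b z := by
  rw [gm_apply, pl]
  refine Finset.sum_congr rfl fun a' _ => Finset.sum_congr rfl fun b' _ => ?_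
  simp only [Jp, Matrix.of_apply, (B.e j).right_inv hz.1, Je, rd]
  rw [(A.e i).left_inv hz.2]

/-- **pull-back of a Kaehler metric by an immersion** -/
def pullI (K : Kah A) {f : N → M} (hf : HolMap B A f)
    (imm : ∀ j i, ∀ y ∈ (B.e j).source, f y ∈ (A.e i).source →
      Injective (fderiv ℂ (rd B A f j i) (B.e j y))) : Kah B where
  g j y := gm K f j (A.cover (f y)).choose y
  sm j a b := by
    intro z hz
    obtain ⟨i, hi⟩ := A.cover (f ((B.e j).symm z))
    have hzd : z ∈ dm B A f j i := ⟨hz, hi⟩
    have h1 : ContDiffAt ℝ ∞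
        (pl (rd B A f j i) (fun a' b' w => K.g i ((A.e i).symm w) a' b') a b) z := by
      refine pl_smooth ?_ (fun a' b' => ?_) a b
      · filter_upwards [(hf.isOpen_dm j i).mem_nhds hzd] with w hw
        exact hf.diffAt hw
      · exact (K.sm i a' b').contDiffAt ((A.e i).open_target.mem_nhds ((A.e i).map_source hi))
    refine (h1.congr_of_eventuallyEq ?_).contDiffWithinAt
    filter_upwards [(hf.isOpen_dm j i).mem_nhds hzd] with w hw
    rw [← gm_read K hf hw]
    exact congrFun (congrFun (gm_eq K hf ((B.e j).map_target hw.1)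
      (A.cover (f ((B.e j).symm w))).choose_spec hw.2) a) b
  pos j y hy := by
    set i := (A.cover (f y)).choose with hi
    have hi' : f y ∈ (A.e i).source := (A.cover (f y)).choose_spec
    have h1 := (K.pos i _ hi').conjTranspose_mul_mul_same (B := (Jp B A f j i y).map conj) ?_
    · have h2 : ((Jp B A f j i y).map conj)ᴴ = (Jp B A f j i y)ᵀ := by
        ext a b
        simp [Matrix.conjTranspose_apply]
      rw [h2] at h1
      exact h1
    · intro v w hvw
      have h3 := imm j i y hy hi'
      have h4 : ∀ v : Fin m → ℂ, star ((Jp B A f j i y).map conj *ᵥ v) =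
          (fderiv ℂ (rd B A f j i) (B.e j y) (WithLp.toLp 2 (star v)) : Fin n → ℂ) := by
        intro v
        funext b
        rw [mt_apply]
        simp only [Pi.star_apply, Matrix.mulVec, dotProduct, Matrix.map_apply, star_sum, star_mul',
          RCLike.star_def, Complex.conj_conj]
        rfl
      have h5 : fderiv ℂ (rd B A f j i) (B.e j y) (WithLp.toLp 2 (star v)) =
          fderiv ℂ (rd B A f j i) (B.e j y) (WithLp.toLp 2 (star w)) := by
        ext b
        exact congrFun ((h4 v).symm.trans ((congrArg star hvw).trans (h4 w))) b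
      have h6 := h3 h5
      have h7 : star v = star w := congrArg (WithLp.ofLp) h6
      exact star_injective h7
  tr j j' y hy := by
    set i := (A.cover (f y)).choose with hi
    have hi' : f y ∈ (A.e i).source := (A.cover (f y)).choose_spec
    change gm K f j i y = _
    unfold gm
    rw [← hf.Jp_left hy hi', Matrix.transpose_mul, Matrix.map_mul]
    simp only [Matrix.mul_assoc]
  closed j z hz a b c := by
    obtain ⟨i, hi⟩ := A.cover (f ((B.e j).symm z))
    have hzd : z ∈ dm B A f j i := ⟨hz, hi⟩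
    have key : ∀ a, (fun w => gm K f j (A.cover (f ((B.e j).symm w))).choose
        ((B.e j).symm w) a b) =ᶠ[𝓝 z]
        pl (rd B A f j i) (fun a' b' w => K.g i ((A.e i).symm w) a' b') a b := by
      intro a
      filter_upwards [(hf.isOpen_dm j i).mem_nhds hzd] with w hw
      rw [← gm_read K hf hw]
      exact congrFun (congrFun (gm_eq K hf ((B.e j).map_target hw.1)
        (A.cover (f ((B.e j).symm w))).choose_spec hw.2) a) b
    have hFz : rd B A f j i z ∈ (A.e i).target := (A.e i).map_source hi
    rw [wd_congr (key a), wd_congr (key c)]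
    refine pl_closed ?_ (fun a' b' => ?_) (fun a' b' c' => ?_) a b c
    · filter_upwards [(hf.isOpen_dm j i).mem_nhds hzd] with w hw
      exact hf.diffAt hw
    · exact ((K.sm i a' b').contDiffAt ((A.e i).open_target.mem_nhds hFz)).differentiableAt
        (by simp)
    · exact K.closed i _ hFz a' b' c'
  closed' j z hz a b c := by
    obtain ⟨i, hi⟩ := A.cover (f ((B.e j).symm z))
    have hzd : z ∈ dm B A f j i := ⟨hz, hi⟩
    have hFz : rd B A f j i z ∈ (A.e i).target := (A.e i).map_source hi
    set P := pl (rd B A f j i) (fun a' b' w => K.g i ((A.e i).symm w) a' b') with hP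
    have key : ∀ a b, (fun w => gm K f j (A.cover (f ((B.e j).symm w))).choose
        ((B.e j).symm w) a b) =ᶠ[𝓝 z] P a b := by
      intro a b
      filter_upwards [(hf.isOpen_dm j i).mem_nhds hzd] with w hw
      rw [hP, ← gm_read K hf hw]
      exact congrFun (congrFun (gm_eq K hf ((B.e j).map_target hw.1)
        (A.cover (f ((B.e j).symm w))).choose_spec hw.2) a) b
    have hd : ∀ a b, DifferentiableAt ℝ (P a b) z := fun a b =>
      (pl_smooth (by
        filter_upwards [(hf.isOpen_dm j i).mem_nhds hzd] with w hw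
        exact hf.diffAt hw) (fun a' b' =>
        (K.sm i a' b').contDiffAt ((A.e i).open_target.mem_nhds hFz)) a b).differentiableAt
        (by simp)
    have hherm : ∀ a b, P a b =ᶠ[𝓝 z] fun w => conj (P b a w) := by
      intro a b
      filter_upwards [(hf.isOpen_dm j i).mem_nhds hzd] with w hw
      have hG : ∀ a' b', conj (K.g i ((A.e i).symm (rd B A f j i w)) b' a') =
          K.g i ((A.e i).symm (rd B A f j i w)) a' b' := fun a' b' =>
        (K.pos i _ ((A.e i).map_target ((A.e i).map_source hw.2))).1.apply a' b'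
      simp only [hP, pl, map_sum, map_mul, Complex.conj_conj, hG]
      rw [Finset.sum_comm]
      refine Finset.sum_congr rfl fun a' _ => Finset.sum_congr rfl fun b' _ => ?_
      ring
    rw [wd_congr (key a b), wd_congr (key a c), wd_congr (hherm a b), wd_congr (hherm a c)]
    have e1 : ∀ c b, wd (true, c) (fun w => conj (P b a w)) z = conj (wd (false, c) (P b a) z) :=
      fun c b => (conj_wd (false, c) (hd b a)).symm
    rw [e1, e1]
    congr 1
    refine pl_closed ?_ (fun a' b' => ?_) (fun a' b' c' => ?_) b a c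
    · filter_upwards [(hf.isOpen_dm j i).mem_nhds hzd] with w hw
      exact hf.diffAt hw
    · exact ((K.sm i a' b').contDiffAt ((A.e i).open_target.mem_nhds hFz)).differentiableAt
        (by simp)
    · exact K.closed i _ hFz a' b' c'

/-- the value of the pulled back metric in any chart -/
theorem pullI_g (K : Kah A) {f : N → M} (hf : HolMap B A f)
    (imm : ∀ j i, ∀ y ∈ (B.e j).source, f y ∈ (A.e i).source →
      Injective (fderiv ℂ (rd B A f j i) (B.e j y))) {j : B.ι} {i : A.ι} {y : N}
    (hy : y ∈ (B.e j).source) (hi : f y ∈ (A.e i).source) :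
    (pullI K hf imm).g j y = (Jp B A f j i y)ᵀ * K.g i (f y) * (Jp B A f j i y).map conj :=
  gm_eq K hf hy (A.cover (f y)).choose_spec hi

end

end Crest.Agent.R273.KahI_645
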