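import Mathlib
import Crest.Prelude.Def_CoordMetric
import Crest.Agent.R264.D8dDet

/-!
# R273 (S0416), leaf BGT-1 (helper798), part 1: calculus of matrix valued functions

`DM K z u` entrywise real derivative, `D1`, `D2` its `(1,0)` and `(0,1)` parts in the direction `u`.
-/

set_option autoImplicit false
set_option linter.unusedSectionVars false

open Set Filter Topology Complex Matrix
open scoped ContDiff ComplexConjugate

namespace Crest.Agent.R273.Ric_798

noncomputable section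

/-- model space -/
abbrev V (n : ℕ) : Type := EuclideanSpace ℂ (Fin n)

/-! ### smoothness of determinants and inverses -/

section Smooth

variable {X : Type*} [NormedAddCommGroup X] [NormedSpace ℝ X] {n : ℕ}
  {K : X → Matrix (Fin n) (Fin n) ℂ} {U : Set X} {k : WithTop ℕ∞}

theorem contDiffOn_det (hK : ∀ a b, ContDiffOn ℝ k (fun w => K w a b) U) :
    ContDiffOn ℝ k (fun w => (K w).det) U := by
  have h : (fun w => (K w).det) = fun w => ∑ σ : Equiv.Perm (Fin n),
      ((Equiv.Perm.sign σ : ℤ) : ℂ) * ∏ i, K w (σ i) i := by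
    funext w
    rw [Matrix.det_apply']
  rw [h]
  refine ContDiffOn.sum fun σ _ => ?_
  exact contDiffOn_const.mul (contDiffOn_prod fun i _ => hK _ _)

theorem contDiffOn_adjugate (hK : ∀ a b, ContDiffOn ℝ k (fun w => K w a b) U) (a b : Fin n) :
    ContDiffOn ℝ k (fun w => (K w).adjugate a b) U := by
  have h : (fun w => (K w).adjugate a b) =
      fun w => ((K w).updateRow b (Pi.single a 1)).det := by
    funext w
    rw [Matrix.adjugate_apply]
  rw [h]
  refine contDiffOn_det fun c d => ?_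
  by_cases hc : c = b
  · subst hc
    simp only [Matrix.updateRow_self]
    exact contDiffOn_const
  · simp only [Matrix.updateRow_ne hc]
    exact hK c d

theorem contDiffOn_inv (hK : ∀ a b, ContDiffOn ℝ k (fun w => K w a b) U)
    (hd : ∀ z ∈ U, (K z).det ≠ 0) (a b : Fin n) :
    ContDiffOn ℝ k (fun w => (K w)⁻¹ a b) U := by
  have h : (fun w => (K w)⁻¹ a b) = fun w => ((K w).det)⁻¹ * (K w).adjugate a b := by
    funext w
    rw [Matrix.inv_def, Ring.inverse_eq_inv', Matrix.smul_apply, smul_eq_mul]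
  rw [h]
  exact ((contDiffOn_det hK).inv hd).mul (contDiffOn_adjugate hK a b)

end Smooth

/-! ### derivatives -/

section Deriv

variable {n : ℕ}

/-- entrywise real derivative in the direction `u` -/
def DM (K : V n → Matrix (Fin n) (Fin n) ℂ) (z u : V n) : Matrix (Fin n) (Fin n) ℂ :=
  Matrix.of fun a b => fderiv ℝ (fun w => K w a b) z u

theorem DM_apply (K : V n → Matrix (Fin n) (Fin n) ℂ) (z u : V n) (a b : Fin n) :
    DM K z u a b = fderiv ℝ (fun w => K w a b) z u := rfl

theorem DM_add_dir (K : V n → Matrix (Fin n) (Fin n) ℂ) (z u v : V n) :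
    DM K z (u + v) = DM K z u + DM K z v := by
  ext a b
  simp [DM_apply]

theorem DM_smul_dir (K : V n → Matrix (Fin n) (Fin n) ℂ) (z : V n) (c : ℝ) (u : V n) :
    DM K z (c • u) = (c : ℂ) • DM K z u := by
  ext a b
  simp [DM_apply]

theorem DM_congr {K L : V n → Matrix (Fin n) (Fin n) ℂ} {z : V n} (h : K =ᶠ[𝓝 z] L) (u : V n) :
    DM K z u = DM L z u := by
  ext a b
  rw [DM_apply, DM_apply]
  have : (fun w => K w a b) =ᶠ[𝓝 z] fun w => L w a b := by
    filter_upwards [h] with w hw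
    rw [hw]
  rw [this.fderiv_eq]

theorem DM_mul {P Q : V n → Matrix (Fin n) (Fin n) ℂ} {z : V n}
    (hP : ∀ a b, DifferentiableAt ℝ (fun w => P w a b) z)
    (hQ : ∀ a b, DifferentiableAt ℝ (fun w => Q w a b) z) (u : V n) :
    DM (fun w => P w * Q w) z u = DM P z u * Q z + P z * DM Q z u := by
  ext a b
  rw [DM_apply]
  have h1 : (fun w => (P w * Q w) a b) = fun w => ∑ c, P w a c * Q w c b := by
    funext w
    rw [Matrix.mul_apply]
  have h2 : HasFDerivAt (fun w => ∑ c, P w a c * Q w c b)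
      (∑ c, (P z a c • fderiv ℝ (fun w => Q w c b) z + Q z c b • fderiv ℝ (fun w => P w a c) z)) z := by
    apply HasFDerivAt.fun_sum
    intro c _
    exact (hP a c).hasFDerivAt.mul (hQ c b).hasFDerivAt
  rw [h1, h2.fderiv]
  simp only [FunLike.coe_sum, Finset.sum_apply, FunLike.coe_add, Pi.add_apply,
    FunLike.coe_smul, Pi.smul_apply, smul_eq_mul, Matrix.add_apply, Matrix.mul_apply, DM_apply]
  rw [← Finset.sum_add_distrib]
  refine Finset.sum_congr rfl fun c _ => ?_
  ring

theorem DM_const (C : Matrix (Fin n) (Fin n) ℂ) (z u : V n) :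
    DM (fun _ => C) z u = 0 := by
  ext a b
  simp [DM_apply]

theorem DM_inv {K : V n → Matrix (Fin n) (Fin n) ℂ} {U : Set (V n)} (hU : IsOpen U)
    (hK : ∀ a b, ContDiffOn ℝ ∞ (fun w => K w a b) U) (hd : ∀ z ∈ U, (K z).det ≠ 0)
    {z : V n} (hz : z ∈ U) (u : V n) :
    DM (fun w => (K w)⁻¹) z u = -((K z)⁻¹ * DM K z u * (K z)⁻¹) := by
  have hKd : ∀ a b, DifferentiableAt ℝ (fun w => K w a b) z := fun a b =>
    ((hK a b).contDiffAt (hU.mem_nhds hz)).differentiableAt (by simp)
  have hId : ∀ a b, DifferentiableAt ℝ (fun w => (K w)⁻¹ a b) z := fun a b =>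
    ((contDiffOn_inv hK hd a b).contDiffAt (hU.mem_nhds hz)).differentiableAt (by simp)
  have h1 := DM_mul hKd hId u
  have h2 : DM (fun w => K w * (K w)⁻¹) z u = 0 := by
    rw [← DM_const (1 : Matrix (Fin n) (Fin n) ℂ) z u]
    refine DM_congr ?_ u
    filter_upwards [hU.mem_nhds hz] with w hw
    exact Matrix.mul_nonsing_inv _ (isUnit_iff_ne_zero.2 (hd w hw))
  rw [h2] at h1
  have h3 : K z * DM (fun w => (K w)⁻¹) z u = -(DM K z u * (K z)⁻¹) := by
    rw [eq_neg_iff_add_eq_zero, add_comm]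
    exact h1.symm
  have h4 : (K z)⁻¹ * (K z * DM (fun w => (K w)⁻¹) z u) = DM (fun w => (K w)⁻¹) z u := by
    rw [← mul_assoc, Matrix.nonsing_inv_mul _ (isUnit_iff_ne_zero.2 (hd z hz)), one_mul]
  rw [← h4, h3, mul_neg, mul_assoc]

/-- the `(1,0)` part of the derivative -/
def D1 (K : V n → Matrix (Fin n) (Fin n) ℂ) (z u : V n) : Matrix (Fin n) (Fin n) ℂ :=
  (1 / 2 : ℂ) • (DM K z u - I • DM K z (I • u))

/-- the `(0,1)` part of the derivative -/
def D2 (K : V n → Matrix (Fin n) (Fin n) ℂ) (z u : V n) : Matrix (Fin n) (Fin n) ℂ :=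
  (1 / 2 : ℂ) • (DM K z u + I • DM K z (I • u))

theorem D1_add_D2 (K : V n → Matrix (Fin n) (Fin n) ℂ) (z u : V n) :
    D1 K z u + D2 K z u = DM K z u := by
  unfold D1 D2
  module

theorem D1_mul {P Q : V n → Matrix (Fin n) (Fin n) ℂ} {z : V n}
    (hP : ∀ a b, DifferentiableAt ℝ (fun w => P w a b) z)
    (hQ : ∀ a b, DifferentiableAt ℝ (fun w => Q w a b) z) (u : V n) :
    D1 (fun w => P w * Q w) z u = D1 P z u * Q z + P z * D1 Q z u := by
  unfold D1
  rw [DM_mul hP hQ, DM_mul hP hQ]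
  simp only [smul_sub, smul_add, sub_mul, mul_sub, smul_mul_assoc, mul_smul_comm]
  abel

theorem D1_inv {K : V n → Matrix (Fin n) (Fin n) ℂ} {U : Set (V n)} (hU : IsOpen U)
    (hK : ∀ a b, ContDiffOn ℝ ∞ (fun w => K w a b) U) (hd : ∀ z ∈ U, (K z).det ≠ 0)
    {z : V n} (hz : z ∈ U) (u : V n) :
    D1 (fun w => (K w)⁻¹) z u = -((K z)⁻¹ * D1 K z u * (K z)⁻¹) := by
  unfold D1
  rw [DM_inv hU hK hd hz, DM_inv hU hK hd hz]
  simp only [smul_sub, sub_mul, mul_sub, smul_mul_assoc, mul_smul_comm, smul_neg]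
  abel

theorem D1_congr {K L : V n → Matrix (Fin n) (Fin n) ℂ} {z : V n} (h : K =ᶠ[𝓝 z] L) (u : V n) :
    D1 K z u = D1 L z u := by
  unfold D1
  rw [DM_congr h, DM_congr h]

theorem D2_congr {K L : V n → Matrix (Fin n) (Fin n) ℂ} {z : V n} (h : K =ᶠ[𝓝 z] L) (u : V n) :
    D2 K z u = D2 L z u := by
  unfold D2
  rw [DM_congr h, DM_congr h]

theorem II_smul (u : V n) : I • (I • u) = -u := by
  rw [smul_smul, I_mul_I, neg_one_smul]

theorem DM_neg_dir (K : V n → Matrix (Fin n) (Fin n) ℂ) (z u : V n) :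
    DM K z (-u) = -DM K z u := by
  ext a b
  simp [DM_apply]

theorem D1_add_dir (K : V n → Matrix (Fin n) (Fin n) ℂ) (z u v : V n) :
    D1 K z (u + v) = D1 K z u + D1 K z v := by
  unfold D1
  rw [DM_add_dir, show I • (u + v) = I • u + I • v from smul_add _ _ _, DM_add_dir]
  module

theorem D1_I_dir (K : V n → Matrix (Fin n) (Fin n) ℂ) (z u : V n) :
    D1 K z (I • u) = I • D1 K z u := by
  unfold D1
  rw [II_smul, DM_neg_dir]
  have : (I * I : ℂ) = -1 := I_mul_I
  simp only [smul_sub, smul_neg, sub_neg_eq_add, smul_smul]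
  ext a b
  simp only [Matrix.add_apply, Matrix.sub_apply, Matrix.smul_apply, smul_eq_mul]
  linear_combination (1 / 2 * DM K z (I • u) a b) * this

theorem D2_add_dir (K : V n → Matrix (Fin n) (Fin n) ℂ) (z u v : V n) :
    D2 K z (u + v) = D2 K z u + D2 K z v := by
  unfold D2
  rw [DM_add_dir, show I • (u + v) = I • u + I • v from smul_add _ _ _, DM_add_dir]
  module

theorem D2_I_dir (K : V n → Matrix (Fin n) (Fin n) ℂ) (z u : V n) :
    D2 K z (I • u) = -(I • D2 K z u) := by
  unfold D2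
  rw [II_smul, DM_neg_dir]
  have : (I * I : ℂ) = -1 := I_mul_I
  simp only [smul_add, smul_neg, smul_smul]
  ext a b
  simp only [Matrix.add_apply, Matrix.neg_apply, Matrix.smul_apply, smul_eq_mul]
  linear_combination (1 / 2 * DM K z (I • u) a b) * this

theorem D1_rsmul_dir (K : V n → Matrix (Fin n) (Fin n) ℂ) (z : V n) (c : ℝ) (u : V n) :
    D1 K z (c • u) = (c : ℂ) • D1 K z u := by
  unfold D1
  rw [smul_comm I c u, DM_smul_dir, DM_smul_dir]
  module

theorem D2_rsmul_dir (K : V n → Matrix (Fin n) (Fin n) ℂ) (z : V n) (c : ℝ) (u : V n) :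
    D2 K z (c • u) = (c : ℂ) • D2 K z u := by
  unfold D2
  rw [smul_comm I c u, DM_smul_dir, DM_smul_dir]
  module

end Deriv

end

end Crest.Agent.R273.Ric_798
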