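import Crest.Agent.R273.HFlow9_376
import Crest.Agent.R273.FIa0_597
import Crest.Agent.R273.GreenM_5
import Crest.Agent.R273.AlbA_645
import Crest.Agent.R273.Ric1_798
import Crest.Agent.R275.GeoHol_912

/-!
# R273 (S0416), Part B, leaf NOHVF (helper376)

* `hess_logdet`  : `∂_c ∂_{d̄} (-log det g)`
* `hess_nrm`     : `∂_a ∂_{b̄} |V|²` for a holomorphic vector field
* `par_of_null`  : Bochner: on a compact Kaehler manifold a holomorphic vector field `V` with
  `Ric (V, V̄) ≤ 0` is parallel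
* `lowF`         : the holomorphic closed 1-form `⟨·, V⟩` of a parallel field
* `nohvf`        : no nonzero holomorphic vector fields on a simply connected Ricci flat compact
  Kaehler manifold
-/

set_option autoImplicit false
set_option linter.unusedSectionVars false

open Set Filter Topology Complex MeasureTheory
open scoped ContDiff Matrix ComplexConjugate ComplexOrder

namespace Crest.Agent.R273.NoHVF_376

open Crest.Agent.R275.Geo Crest.Agent.R275.Core144 Crest.Agent.R275.EDR890
open Crest.Agent.R275.GC293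
open Crest.Agent.R273.Defs_333 Crest.Agent.R273.Hess_333 Crest.Agent.R273.HessB_333
open Crest.Agent.R273.HM_333 Crest.Agent.R273.Kah_333 Crest.Agent.R273.Vol_333
open Crest.Agent.R273.Vm_333
open Crest.Agent.R273.HFlow3_376 Crest.Agent.R273.HFlow7_376 Crest.Agent.R273.HFlow8_376
open Crest.Agent.R273.GreenM_5 (ci mem_ci Tn trK lapK lapK_eq lapK_ofReal sm_lapK integral_lapK)

noncomputable section

section Local

variable {n : ℕ}

/-- entrywise Wirtinger derivative of a matrix -/
def dm {κ κ' : Type} (s : WI n) (m : Cn n → Matrix κ κ' ℂ) (z : Cn n) : Matrix κ κ' ℂ :=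
  Matrix.of fun a b => wd s (fun w => m w a b) z

/-- entrywise Wirtinger derivative of a vector -/
def dv {κ : Type} (s : WI n) (v : Cn n → κ → ℂ) (z : Cn n) : κ → ℂ := fun a =>
  wd s (fun w => v w a) z

theorem dm_apply {κ κ' : Type} (s : WI n) (m : Cn n → Matrix κ κ' ℂ) (z : Cn n) (a : κ) (b : κ') :
    dm s m z a b = wd s (fun w => m w a b) z := rfl

theorem dm_congr {κ κ' : Type} (s : WI n) {m m' : Cn n → Matrix κ κ' ℂ} {z : Cn n}
    (h : m =ᶠ[𝓝 z] m') : dm s m z = dm s m' z := by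
  ext a b
  refine wd_congr ?_ s
  filter_upwards [h] with w hw
  rw [hw]

theorem dm_mul {κ κ' κ'' : Type} [Fintype κ'] (s : WI n) {p : Cn n → Matrix κ κ' ℂ}
    {q : Cn n → Matrix κ' κ'' ℂ} {z : Cn n}
    (hp : ∀ a b, DifferentiableAt ℝ (fun w => p w a b) z)
    (hq : ∀ a b, DifferentiableAt ℝ (fun w => q w a b) z) :
    dm s (fun w => p w * q w) z = dm s p z * q z + p z * dm s q z := by
  ext a b
  rw [dm_apply, Matrix.add_apply, Matrix.mul_apply, Matrix.mul_apply, ← Finset.sum_add_distrib]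
  have h1 : (fun w => (p w * q w) a b) = fun w => ∑ c, p w a c * q w c b := by
    funext w
    rw [Matrix.mul_apply]
  rw [h1, wd_sum _ fun c _ => (hp a c).fun_mul (hq c b)]
  exact Finset.sum_congr rfl fun c _ => wd_mul (hp a c) (hq c b) s

theorem dm_inv (s : WI n) {g : Cn n → Matrix (Fin n) (Fin n) ℂ} {U : Set (Cn n)} (hU : IsOpen U)
    (hg : ∀ a b, ContDiffOn ℝ ∞ (fun w => g w a b) U) (hd : ∀ z ∈ U, (g z).det ≠ 0)
    {z : Cn n} (hz : z ∈ U) :
    dm s (fun w => (g w)⁻¹) z = -((g z)⁻¹ * dm s g z * (g z)⁻¹) := by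
  have hgd : ∀ a b, DifferentiableAt ℝ (fun w => g w a b) z := fun a b =>
    ((hg a b).contDiffAt (hU.mem_nhds hz)).differentiableAt (by simp)
  have hid : ∀ a b, DifferentiableAt ℝ (fun w => (g w)⁻¹ a b) z := fun a b =>
    ((Crest.Agent.R273.Ric_798.contDiffOn_inv hg hd a b).contDiffAt
      (hU.mem_nhds hz)).differentiableAt (by simp)
  have h1 := dm_mul s hgd hid
  have h2 : dm s (fun w => g w * (g w)⁻¹) z = 0 := by
    have : dm s (fun _ : Cn n => (1 : Matrix (Fin n) (Fin n) ℂ)) z = 0 := by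
      ext a b
      rw [dm_apply, wd_const]
      rfl
    rw [← this]
    refine dm_congr s ?_
    filter_upwards [hU.mem_nhds hz] with w hw
    exact Matrix.mul_nonsing_inv _ (isUnit_iff_ne_zero.2 (hd w hw))
  rw [h2] at h1
  have h3 : g z * dm s (fun w => (g w)⁻¹) z = -(dm s g z * (g z)⁻¹) := by
    rw [eq_neg_iff_add_eq_zero, add_comm]
    exact h1.symm
  have h4 : (g z)⁻¹ * (g z * dm s (fun w => (g w)⁻¹) z) = dm s (fun w => (g w)⁻¹) z := by
    rw [← mul_assoc, Matrix.nonsing_inv_mul _ (isUnit_iff_ne_zero.2 (hd z hz)), one_mul]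
  rw [← h4, h3, mul_neg, mul_assoc]

/-- a smooth family of positive definite matrices -/
structure GM (g : Cn n → Matrix (Fin n) (Fin n) ℂ) (U : Set (Cn n)) : Prop where
  op : IsOpen U
  sm : ∀ a b, ContDiffOn ℝ ∞ (fun w => g w a b) U
  pos : ∀ z ∈ U, (g z).PosDef
  closed : ∀ z ∈ U, ∀ a b c,
    wd (false, c) (fun w => g w a b) z = wd (false, a) (fun w => g w c b) z
  closed' : ∀ z ∈ U, ∀ a b c,
    wd (true, c) (fun w => g w a b) z = wd (true, b) (fun w => g w a c) z

variable {g : Cn n → Matrix (Fin n) (Fin n) ℂ} {U : Set (Cn n)}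

theorem GM.det_ne (h : GM g U) {z : Cn n} (hz : z ∈ U) : (g z).det ≠ 0 := (h.pos z hz).det_pos.ne'

theorem GM.smAt (h : GM g U) {z : Cn n} (hz : z ∈ U) (a b : Fin n) :
    ContDiffAt ℝ ∞ (fun w => g w a b) z := (h.sm a b).contDiffAt (h.op.mem_nhds hz)

theorem GM.diff (h : GM g U) {z : Cn n} (hz : z ∈ U) (a b : Fin n) :
    DifferentiableAt ℝ (fun w => g w a b) z := (h.smAt hz a b).differentiableAt (by simp)

theorem GM.inv_smAt (h : GM g U) {z : Cn n} (hz : z ∈ U) (a b : Fin n) :
    ContDiffAt ℝ ∞ (fun w => (g w)⁻¹ a b) z :=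
  (Crest.Agent.R273.Ric_798.contDiffOn_inv h.sm (fun _ => h.det_ne) a b).contDiffAt
    (h.op.mem_nhds hz)

theorem GM.inv_diff (h : GM g U) {z : Cn n} (hz : z ∈ U) (a b : Fin n) :
    DifferentiableAt ℝ (fun w => (g w)⁻¹ a b) z := (h.inv_smAt hz a b).differentiableAt (by simp)

theorem GM.dm_smAt (h : GM g U) {z : Cn n} (hz : z ∈ U) (s : WI n) (a b : Fin n) :
    ContDiffAt ℝ ∞ (fun w => dm s g w a b) z := contDiffAt_wd (h.smAt hz a b) s

theorem GM.dm_diff (h : GM g U) {z : Cn n} (hz : z ∈ U) (s : WI n) (a b : Fin n) :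
    DifferentiableAt ℝ (fun w => dm s g w a b) z := (h.dm_smAt hz s a b).differentiableAt (by simp)

theorem adj_eq (h : GM g U) {z : Cn n} (hz : z ∈ U) (a b : Fin n) :
    (g z).adjugate a b = (g z).det * (g z)⁻¹ a b := by
  rw [Matrix.inv_def, Matrix.smul_apply, smul_eq_mul, ← mul_assoc,
    Ring.mul_inverse_cancel _ (isUnit_iff_ne_zero.2 (h.det_ne hz)), one_mul]

/-- `∂_s log det g = tr (g⁻¹ ∂_s g)` -/
theorem wd_logdet (h : GM g U) {z : Cn n} (hz : z ∈ U) (s : WI n) :
    wd s (cu fun w => - Real.log (g w).det.re) z = -((g z)⁻¹ * dm s g z).trace := by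
  have hdd : DifferentiableAt ℝ (fun w => (g w).det) z :=
    Piola_5.differentiableAt_det fun i j => h.diff hz i j
  have hd : DifferentiableAt ℝ (fun w => (g w).det.re) z :=
    Complex.reCLM.differentiableAt.comp z hdd
  have hp : 0 < (g z).det.re := det_re_pos (h.pos z hz)
  have h1 : HasDerivAt (fun t : ℝ => - Real.log t) (-((g z).det.re)⁻¹) ((g z).det.re) :=
    (Real.hasDerivAt_log hp.ne').neg
  rw [FIa0_597.wd_comp_real (φ := fun t => - Real.log t) s hd h1]
  have h2 : (cu fun w => (g w).det.re) =ᶠ[𝓝 z] fun w => (g w).det := by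
    filter_upwards [h.op.mem_nhds hz] with w hw
    exact det_real (h.pos w hw).1
  rw [wd_congr h2, Piola_5.wd_det (fun i j => h.diff hz i j) s]
  have h3 : (((g z).det.re : ℝ) : ℂ) = (g z).det := det_real (h.pos z hz).1
  rw [Complex.ofReal_neg, Complex.ofReal_inv, h3]
  have h4 : ∑ i, ∑ j, (g z).adjugate i j * wd s (fun y => g y j i) z =
      (g z).det * ((g z)⁻¹ * dm s g z).trace := by
    rw [Matrix.trace, Finset.mul_sum]
    refine Finset.sum_congr rfl fun i _ => ?_
    rw [Matrix.diag_apply, Matrix.mul_apply, Finset.mul_sum]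
    refine Finset.sum_congr rfl fun j _ => ?_
    rw [adj_eq h hz, dm_apply, mul_assoc]
  rw [h4, neg_mul, ← mul_assoc, inv_mul_cancel₀ (h.det_ne hz), one_mul]

/-- the Ricci form -/
theorem hess_logdet (h : GM g U) {z : Cn n} (hz : z ∈ U) (c d : Fin n) :
    hess (fun w => - Real.log (g w).det.re) z c d =
      ((g z)⁻¹ * dm (false, c) g z * (g z)⁻¹ * dm (true, d) g z).trace -
        ((g z)⁻¹ * dm (false, c) (dm (true, d) g) z).trace := by
  rw [hess_apply]
  have h1 : wd (true, d) (cu fun w => - Real.log (g w).det.re) =ᶠ[𝓝 z]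
      fun w => ∑ i, - ((g w)⁻¹ * dm (true, d) g w) i i := by
    filter_upwards [h.op.mem_nhds hz] with w hw
    rw [wd_logdet h hw, Matrix.trace, Finset.sum_neg_distrib]
    rfl
  have hdd : ∀ a b, DifferentiableAt ℝ (fun w => ((g w)⁻¹ * dm (true, d) g w) a b) z := by
    intro a b
    have e : (fun w => ((g w)⁻¹ * dm (true, d) g w) a b) =
        fun w => ∑ k, (g w)⁻¹ a k * dm (true, d) g w k b := by
      funext w; rw [Matrix.mul_apply]
    rw [e]
    exact DifferentiableAt.fun_sum fun k _ => (h.inv_diff hz a k).mul (h.dm_diff hz _ k b)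
  rw [wd_congr h1, wd_sum (f := fun i w => - ((g w)⁻¹ * dm (true, d) g w) i i) _
    fun i _ => (hdd i i).fun_neg]
  have h2 : ∀ i, wd (false, c) (fun w => - ((g w)⁻¹ * dm (true, d) g w) i i) z =
      - dm (false, c) (fun w => (g w)⁻¹ * dm (true, d) g w) z i i := by
    intro i
    have := wd_const_smul (f := fun w => ((g w)⁻¹ * dm (true, d) g w) i i) (z := z) (-1 : ℂ)
      (hdd i i) (false, c)
    simp only [smul_eq_mul, neg_one_mul] at this
    exact this
  simp only [h2]
  rw [dm_mul (false, c) (fun a b => h.inv_diff hz a b) (fun a b => h.dm_diff hz _ a b),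
    dm_inv (false, c) h.op h.sm (fun _ => h.det_ne) hz, Finset.sum_neg_distrib]
  have h3 : ∀ m : Matrix (Fin n) (Fin n) ℂ, ∑ i, m i i = m.trace := fun m => rfl
  rw [h3, Matrix.trace_add, Matrix.neg_mul, Matrix.trace_neg]
  ring

/-- `∂_a ∂_{b̄} g - ∂_a g g⁻¹ ∂_{b̄} g` (minus the curvature) -/
def Xc (g : Cn n → Matrix (Fin n) (Fin n) ℂ) (z : Cn n) (a b : Fin n) : Matrix (Fin n) (Fin n) ℂ :=
  dm (false, a) (dm (true, b) g) z - dm (false, a) g z * (g z)⁻¹ * dm (true, b) g z

theorem Xc_symm (h : GM g U) {z : Cn n} (hz : z ∈ U) (a b c d : Fin n) :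
    Xc g z a b c d = Xc g z c d a b := by
  have e1 : dm (false, a) (dm (true, b) g) z c d = dm (false, c) (dm (true, d) g) z a b := by
    have s1 : (fun w => dm (true, b) g w c d) =ᶠ[𝓝 z] fun w => dm (true, d) g w c b := by
      filter_upwards [h.op.mem_nhds hz] with w hw
      exact h.closed' w hw c d b
    have s2 : (fun w => dm (false, a) g w c b) =ᶠ[𝓝 z] fun w => dm (false, c) g w a b := by
      filter_upwards [h.op.mem_nhds hz] with w hw
      exact h.closed w hw c b a
    rw [dm_apply, wd_congr s1]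
    have s3 : wd (false, a) (fun w => dm (true, d) g w c b) z =
        wd (true, d) (fun w => dm (false, a) g w c b) z := wd_comm (h.smAt hz c b) _ _
    have s4 : wd (true, d) (fun w => dm (false, c) g w a b) z =
        wd (false, c) (fun w => dm (true, d) g w a b) z := wd_comm (h.smAt hz a b) _ _
    rw [s3, wd_congr s2, s4]
    rfl
  have e2 : (dm (false, a) g z * (g z)⁻¹ * dm (true, b) g z) c d =
      (dm (false, c) g z * (g z)⁻¹ * dm (true, d) g z) a b := by
    rw [Matrix.mul_assoc, Matrix.mul_assoc, Matrix.mul_apply, Matrix.mul_apply]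
    refine Finset.sum_congr rfl fun e _ => ?_
    rw [Matrix.mul_apply, Matrix.mul_apply]
    have t1 : dm (false, a) g z c e = dm (false, c) g z a e := h.closed z hz c e a
    rw [t1]
    congr 1
    refine Finset.sum_congr rfl fun f _ => ?_
    have t2 : dm (true, b) g z f d = dm (true, d) g z f b := h.closed' z hz f d b
    rw [t2]
  rw [Xc, Xc, Matrix.sub_apply, Matrix.sub_apply, e1, e2]

theorem trace_Xc (h : GM g U) {z : Cn n} (hz : z ∈ U) (c d : Fin n) :
    ((g z)⁻¹ * Xc g z c d).trace = - hess (fun w => - Real.log (g w).det.re) z c d := by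
  rw [hess_logdet h hz, Xc, Matrix.mul_sub, Matrix.trace_sub]
  simp only [Matrix.mul_assoc]
  ring

section Field

variable {V : Cn n → Matrix (Fin 1) (Fin n) ℂ}

/-- entries holomorphic near every point of `U` -/
def HolV (V : Cn n → Matrix (Fin 1) (Fin n) ℂ) (U : Set (Cn n)) : Prop :=
  ∀ i a, DifferentiableOn ℂ (fun w => V w i a) U

theorem HolV.diffC (hV : HolV V U) (hU : IsOpen U) {z : Cn n} (hz : z ∈ U) (i : Fin 1) (a : Fin n) :
    DifferentiableAt ℂ (fun w => V w i a) z := (hV i a).differentiableAt (hU.mem_nhds hz)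

theorem HolV.diff (hV : HolV V U) (hU : IsOpen U) {z : Cn n} (hz : z ∈ U) (i : Fin 1) (a : Fin n) :
    DifferentiableAt ℝ (fun w => V w i a) z := (hV.diffC hU hz i a).restrictScalars ℝ

theorem HolV.smAt (hV : HolV V U) (hU : IsOpen U) {z : Cn n} (hz : z ∈ U) (i : Fin 1) (a : Fin n) :
    ContDiffAt ℝ ∞ (fun w => V w i a) z :=
  (((Crest.Agent.R266.SCV.contDiffOn_omega_of_differentiableOn hU (hV i a)).of_le le_top).contDiffAt
    (hU.mem_nhds hz)).restrict_scalars ℝ

theorem HolV.dbar (hV : HolV V U) (hU : IsOpen U) {z : Cn n} (hz : z ∈ U) (a : Fin n) :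
    dm (true, a) V z = 0 := by
  ext i b
  exact wd_hol (hV.diffC hU hz i b) a

/-- the conjugate transpose -/
def cv (V : Cn n → Matrix (Fin 1) (Fin n) ℂ) (z : Cn n) : Matrix (Fin n) (Fin 1) ℂ := (V z)ᴴ

theorem HolV.cv_diff (hV : HolV V U) (hU : IsOpen U) {z : Cn n} (hz : z ∈ U) (a : Fin n)
    (i : Fin 1) : DifferentiableAt ℝ (fun w => cv V w a i) z :=
  (conjCLE : ℂ →L[ℝ] ℂ).differentiableAt.comp z (hV.diff hU hz i a)

theorem HolV.cv_smAt (hV : HolV V U) (hU : IsOpen U) {z : Cn n} (hz : z ∈ U) (a : Fin n)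
    (i : Fin 1) : ContDiffAt ℝ ∞ (fun w => cv V w a i) z :=
  (conjCLE : ℂ →L[ℝ] ℂ).contDiff.contDiffAt.comp z (hV.smAt hU hz i a)

theorem HolV.dm_cv (hV : HolV V U) (hU : IsOpen U) {z : Cn n} (hz : z ∈ U) (s : WI n) :
    dm s (cv V) z = (dm (!s.1, s.2) V z)ᴴ := by
  ext a i
  rw [dm_apply, Matrix.conjTranspose_apply, dm_apply]
  have := conj_wd (!s.1, s.2) (hV.diff hU hz i a)
  rw [Bool.not_not] at this
  exact this.symm

theorem HolV.dcv (hV : HolV V U) (hU : IsOpen U) {z : Cn n} (hz : z ∈ U) (a : Fin n) :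
    dm (false, a) (cv V) z = 0 := by
  rw [hV.dm_cv hU hz]
  change (dm (true, a) V z)ᴴ = 0
  rw [hV.dbar hU hz, Matrix.conjTranspose_zero]

/-- `|V|²` -/
def nrm (g : Cn n → Matrix (Fin n) (Fin n) ℂ) (V : Cn n → Matrix (Fin 1) (Fin n) ℂ) (z : Cn n) : ℝ :=
  (V z * g z * cv V z).trace.re

theorem nrm_real (h : GM g U) {z : Cn n} (hz : z ∈ U) :
    ((nrm g V z : ℝ) : ℂ) = (V z * g z * cv V z).trace := by
  have h1 : conj (V z * g z * cv V z).trace = (V z * g z * cv V z).trace := by
    have := Matrix.trace_conjTranspose (V z * g z * cv V z)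
    rw [Matrix.conjTranspose_mul, Matrix.conjTranspose_mul, (h.pos z hz).1.eq, cv,
      Matrix.conjTranspose_conjTranspose, ← Matrix.mul_assoc] at this
    exact this.symm
  exact Complex.conj_eq_iff_re.1 h1

/-- the lowered field -/
def lw (g : Cn n → Matrix (Fin n) (Fin n) ℂ) (V : Cn n → Matrix (Fin 1) (Fin n) ℂ) (z : Cn n) :
    Matrix (Fin 1) (Fin n) ℂ := V z * g z

/-- the covariant derivative of the lowered field -/
def Bm (g : Cn n → Matrix (Fin n) (Fin n) ℂ) (V : Cn n → Matrix (Fin 1) (Fin n) ℂ) (z : Cn n) :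
    Matrix (Fin n) (Fin n) ℂ := Matrix.of fun a c => dm (false, a) (lw g V) z 0 c

theorem diff_mul {κ κ' κ'' : Type} [Fintype κ'] {p : Cn n → Matrix κ κ' ℂ}
    {q : Cn n → Matrix κ' κ'' ℂ} {z : Cn n}
    (hp : ∀ a b, DifferentiableAt ℝ (fun w => p w a b) z)
    (hq : ∀ a b, DifferentiableAt ℝ (fun w => q w a b) z) (a : κ) (b : κ'') :
    DifferentiableAt ℝ (fun w => (p w * q w) a b) z := by
  have e : (fun w => (p w * q w) a b) = fun w => ∑ k, p w a k * q w k b := by
    funext w; rw [Matrix.mul_apply]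
  rw [e]
  exact DifferentiableAt.fun_sum fun k _ => (hp a k).mul (hq k b)

theorem hess_nrm (h : GM g U) (hV : HolV V U) {z : Cn n} (hz : z ∈ U) (a b : Fin n) :
    hess (nrm g V) z a b = (Bm g V z * (g z)⁻¹ * (Bm g V z)ᴴ) a b +
      (V z * Xc g z a b * cv V z).trace := by
  have hgd : ∀ w ∈ U, ∀ a b, DifferentiableAt ℝ (fun w => g w a b) w := fun w hw a b => h.diff hw a b
  have hVd : ∀ w ∈ U, ∀ i a, DifferentiableAt ℝ (fun w => V w i a) w := fun w hw i a =>
    hV.diff h.op hw i a
  have hcd : ∀ w ∈ U, ∀ i a, DifferentiableAt ℝ (fun w => cv V w i a) w := fun w hw i a =>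
    hV.cv_diff h.op hw i a
  -- first derivative
  have e1 : wd (true, b) (cu (nrm g V)) =ᶠ[𝓝 z] fun w =>
      (V w * (dm (true, b) g w * cv V w + g w * dm (true, b) (cv V) w)) 0 0 := by
    filter_upwards [h.op.mem_nhds hz] with w hw
    have s1 : cu (nrm g V) =ᶠ[𝓝 w] fun y => (V y * (g y * cv V y)) 0 0 := by
      filter_upwards [h.op.mem_nhds hw] with y hy
      change ((nrm g V y : ℝ) : ℂ) = _
      rw [nrm_real h hy, Matrix.trace, Matrix.mul_assoc]
      simp
    rw [wd_congr s1]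
    have s2 := dm_mul (true, b) (hVd w hw) (diff_mul (hgd w hw) (hcd w hw))
    have s3 := dm_mul (true, b) (hgd w hw) (hcd w hw)
    rw [hV.dbar h.op hw, Matrix.zero_mul, zero_add, s3] at s2
    have s4 := congrFun (congrFun s2 0) 0
    exact s4
  rw [hess_apply, wd_congr e1]
  have hc1 : ∀ i j, DifferentiableAt ℝ (fun w => dm (true, b) g w i j) z := fun i j =>
    h.dm_diff hz _ i j
  have hc2 : ∀ i j, DifferentiableAt ℝ (fun w => dm (true, b) (cv V) w i j) z := fun i j =>
    (contDiffAt_wd (hV.cv_smAt h.op hz i j) _).differentiableAt (by simp)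
  have hm1 := diff_mul hc1 (hcd z hz)
  have hm2 := diff_mul (hgd z hz) hc2
  have hadd : ∀ i j, DifferentiableAt ℝ (fun w => (dm (true, b) g w * cv V w +
      g w * dm (true, b) (cv V) w) i j) z := fun i j => (hm1 i j).add (hm2 i j)
  have dm_add : dm (false, a) (fun w => dm (true, b) g w * cv V w +
      g w * dm (true, b) (cv V) w) z = dm (false, a) (fun w => dm (true, b) g w * cv V w) z +
      dm (false, a) (fun w => g w * dm (true, b) (cv V) w) z := by
    ext i j
    exact wd_add (hm1 i j) (hm2 i j) _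
  have t1 := dm_mul (false, a) (hVd z hz) hadd
  have t2 := dm_mul (false, a) hc1 (hcd z hz)
  have t3 := dm_mul (false, a) (hgd z hz) hc2
  have t4 : dm (false, a) (dm (true, b) (cv V)) z = 0 := by
    ext i j
    have c1 : dm (false, a) (dm (true, b) (cv V)) z i j =
        wd (true, b) (fun w => dm (false, a) (cv V) w i j) z :=
      wd_comm (hV.cv_smAt h.op hz i j) _ _
    rw [c1]
    have c2 : (fun w => dm (false, a) (cv V) w i j) =ᶠ[𝓝 z] fun _ => 0 := by
      filter_upwards [h.op.mem_nhds hz] with w hw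
      rw [hV.dcv h.op hw]
      rfl
    rw [wd_congr c2, wd_const]
    rfl
  rw [t4, Matrix.mul_zero, add_zero] at t3
  rw [hV.dcv h.op hz, Matrix.mul_zero, add_zero] at t2
  rw [dm_add, t2, t3] at t1
  have t5 := congrFun (congrFun t1 0) 0
  have t6 : wd (false, a) (fun w => (V w * (dm (true, b) g w * cv V w +
      g w * dm (true, b) (cv V) w)) 0 0) z = dm (false, a) (fun w => V w * (dm (true, b) g w * cv V w +
      g w * dm (true, b) (cv V) w)) z 0 0 := rfl
  rw [t6, t5]
  -- the square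
  have u1 : dm (false, a) (lw g V) z = dm (false, a) V z * g z + V z * dm (false, a) g z :=
    dm_mul (false, a) (hVd z hz) (hgd z hz)
  have u2 : dm (true, b) (fun w => g w * cv V w) z =
      dm (true, b) g z * cv V z + g z * dm (true, b) (cv V) z :=
    dm_mul (true, b) (hgd z hz) (hcd z hz)
  have u3 : dm (true, b) (fun w => g w * cv V w) z = (dm (false, b) (lw g V) z)ᴴ := by
    ext f i
    rw [dm_apply, Matrix.conjTranspose_apply, dm_apply]
    have c1 := conj_wd (false, b) (diff_mul (hVd z hz) (hgd z hz) i f)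
    have c2 : (fun w => conj ((V w * g w) i f)) =ᶠ[𝓝 z] fun w => (g w * cv V w) f i := by
      filter_upwards [h.op.mem_nhds hz] with w hw
      have := Matrix.conjTranspose_mul (V w) (g w)
      rw [(h.pos w hw).1.eq] at this
      exact congrFun (congrFun this f) i
    rw [wd_congr c2] at c1
    exact c1.symm
  have u4 : (Bm g V z * (g z)⁻¹ * (Bm g V z)ᴴ) a b =
      (dm (false, a) (lw g V) z * (g z)⁻¹ * (dm (false, b) (lw g V) z)ᴴ) 0 0 := by
    rw [Matrix.mul_apply, Matrix.mul_apply]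
    refine Finset.sum_congr rfl fun f _ => ?_
    rw [Matrix.mul_apply, Matrix.mul_apply]
    rfl
  have hg1 : g z * (g z)⁻¹ = 1 := Matrix.mul_nonsing_inv _ (isUnit_iff_ne_zero.2 (h.det_ne hz))
  have hg2 : (g z)⁻¹ * g z = 1 := Matrix.nonsing_inv_mul _ (isUnit_iff_ne_zero.2 (h.det_ne hz))
  have u5 : dm (false, a) (lw g V) z * (g z)⁻¹ * (dm (false, b) (lw g V) z)ᴴ =
      dm (false, a) V z * dm (true, b) g z * cv V z +
      dm (false, a) V z * g z * dm (true, b) (cv V) z +
      V z * dm (false, a) g z * (g z)⁻¹ * dm (true, b) g z * cv V z +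
      V z * dm (false, a) g z * dm (true, b) (cv V) z := by
    rw [← u3, u2, u1]
    simp only [Matrix.mul_add, Matrix.add_mul, Matrix.mul_assoc]
    rw [← Matrix.mul_assoc (g z) (g z)⁻¹ (dm (true, b) g z * cv V z), hg1, Matrix.one_mul,
      ← Matrix.mul_assoc (g z) (g z)⁻¹ (g z * dm (true, b) (cv V) z), hg1, Matrix.one_mul,
      ← Matrix.mul_assoc (g z)⁻¹ (g z) (dm (true, b) (cv V) z), hg2, Matrix.one_mul]
    abel
  rw [u4, u5]
  have u6 : (V z * Xc g z a b * cv V z).trace = (V z * Xc g z a b * cv V z) 0 0 := by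
    rw [Matrix.trace]
    simp
  rw [u6]
  simp only [Xc, Matrix.mul_sub, Matrix.sub_mul, Matrix.mul_add, Matrix.add_apply,
    Matrix.sub_apply, Matrix.mul_assoc]
  ring

/-- **Bochner's formula** -/
theorem trace_hess_nrm (h : GM g U) (hV : HolV V U) {z : Cn n} (hz : z ∈ U) :
    ((g z)⁻¹ * hess (nrm g V) z).trace =
      ((g z)⁻¹ * (Bm g V z * (g z)⁻¹ * (Bm g V z)ᴴ)).trace -
        (V z * hess (fun w => - Real.log (g w).det.re) z * cv V z).trace := by
  have e1 : hess (nrm g V) z = Bm g V z * (g z)⁻¹ * (Bm g V z)ᴴ +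
      Matrix.of fun a b => (V z * Xc g z a b * cv V z).trace := by
    ext a b
    rw [hess_nrm h hV hz, Matrix.add_apply]
    rfl
  have e2 : ((g z)⁻¹ * Matrix.of fun a b => (V z * Xc g z a b * cv V z).trace).trace =
      - (V z * hess (fun w => - Real.log (g w).det.re) z * cv V z).trace := by
    have q : ∀ m : Matrix (Fin n) (Fin n) ℂ, (V z * m * cv V z).trace =
        ∑ c, ∑ d, V z 0 c * cv V z d 0 * m c d := by
      intro m
      rw [Matrix.trace]
      simp only [Fin.isValue, Matrix.diag_apply, Finset.univ_unique, Fin.default_eq_zero,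
        Finset.sum_singleton, Matrix.mul_apply, Finset.sum_mul]
      rw [Finset.sum_comm]
      exact Finset.sum_congr rfl fun c _ => Finset.sum_congr rfl fun d _ => by ring
    rw [q]
    have r : ∀ c d, hess (fun w => - Real.log (g w).det.re) z c d =
        - ∑ b, ∑ a, (g z)⁻¹ b a * Xc g z a b c d := by
      intro c d
      rw [← neg_eq_iff_eq_neg, ← trace_Xc h hz, Matrix.trace]
      refine Finset.sum_congr rfl fun b _ => ?_
      rw [Matrix.diag_apply, Matrix.mul_apply]
      refine Finset.sum_congr rfl fun a _ => ?_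
      rw [Xc_symm h hz]
    simp only [r]
    rw [Matrix.trace]
    simp only [Matrix.diag_apply, Matrix.mul_apply, Matrix.of_apply, q, Finset.mul_sum, mul_neg,
      Finset.sum_neg_distrib, neg_neg]
    have s1 : ∀ f : Fin n → Fin n → Fin n → Fin n → ℂ,
        ∑ b, ∑ a, ∑ c, ∑ d, f b a c d = ∑ c, ∑ d, ∑ b, ∑ a, f b a c d := by
      intro f
      calc ∑ b, ∑ a, ∑ c, ∑ d, f b a c d = ∑ b, ∑ c, ∑ d, ∑ a, f b a c d := by
            refine Finset.sum_congr rfl fun b _ => ?_
            rw [Finset.sum_comm]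
            refine Finset.sum_congr rfl fun c _ => ?_
            rw [Finset.sum_comm]
        _ = ∑ c, ∑ d, ∑ b, ∑ a, f b a c d := by
            rw [Finset.sum_comm]
            refine Finset.sum_congr rfl fun c _ => ?_
            rw [Finset.sum_comm]
    rw [s1]
    exact Finset.sum_congr rfl fun c _ => Finset.sum_congr rfl fun d _ =>
      Finset.sum_congr rfl fun b _ => Finset.sum_congr rfl fun a _ => by ring
  rw [e1, Matrix.mul_add, Matrix.trace_add, e2]
  ring

end Field

end Local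

section Global

variable {n : ℕ} {M : Type} [TopologicalSpace M] {A : Atl n M} (K : Kah A) (V : HVF A)

/-- the metric in a chart -/
def gl (i : A.ι) (z : Cn n) : Matrix (Fin n) (Fin n) ℂ := K.g i ((A.e i).symm z)

theorem gm (i : A.ι) : GM (gl K i) (A.e i).target where
  op := (A.e i).open_target
  sm := K.sm i
  pos z hz := K.pos i _ ((A.e i).map_target hz)
  closed := K.closed i
  closed' := K.closed' i

/-- the field in a chart as a row -/
def rw' (i : A.ι) (z : Cn n) : Matrix (Fin 1) (Fin n) ℂ := Matrix.of fun _ a => V.loc i z a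

theorem hrw (i : A.ι) : HolV (rw' V i) (A.e i).target := fun _ a z hz =>
  (V_diff_comp V i hz a).differentiableWithinAt

/-- `|V|²` -/
def nrmM (x : M) : ℝ := (hf K (ci A x) x (V.X (ci A x) x) (V.X (ci A x) x)).re

theorem hf_V {i j : A.ι} {x : M} (hi : x ∈ (A.e i).source) (hj : x ∈ (A.e j).source) :
    hf K j x (V.X j x) (V.X j x) = hf K i x (V.X i x) (V.X i x) := by
  rw [← hf_tr K hi hj, HFlow5_376.HVF.tr' V hi hj]

theorem nrmM_read (i : A.ι) {z : Cn n} (hz : z ∈ (A.e i).target) :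
    nrmM K V ((A.e i).symm z) = nrm (gl K i) (rw' V i) z := by
  have hx := (A.e i).map_target hz
  unfold nrmM
  rw [hf_V K V hx (mem_ci _), nrm, hf_eq]
  congr 1
  rw [Matrix.trace]
  simp only [Fin.isValue, Matrix.diag_apply, Finset.univ_unique, Fin.default_eq_zero,
    Finset.sum_singleton, Matrix.mul_apply, Finset.sum_mul]
  rw [Finset.sum_comm]
  refine Finset.sum_congr rfl fun b _ => Finset.sum_congr rfl fun a _ => ?_
  simp only [gl, rw', cv, Matrix.of_apply, Matrix.conjTranspose_apply, RCLike.star_def, HVF.loc]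
  ring

theorem sm_nrmM : A.Sm (nrmM K V) := by
  intro i
  have h : GM (gl K i) (A.e i).target := gm K i
  have hV := hrw V i
  have h1 : ContDiffOn ℝ ∞ (nrm (gl K i) (rw' V i)) (A.e i).target := by
    intro z hz
    have e : nrm (gl K i) (rw' V i) = fun w =>
        (∑ b, ∑ a, rw' V i w 0 a * gl K i w a b * cv (rw' V i) w b 0).re := by
      funext w
      rw [nrm]
      congr 1
      rw [Matrix.trace]
      simp only [Fin.isValue, Matrix.diag_apply, Finset.univ_unique, Fin.default_eq_zero,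
        Finset.sum_singleton, Matrix.mul_apply, Finset.sum_mul]
    rw [e]
    refine ContDiffAt.contDiffWithinAt ?_
    refine Complex.reCLM.contDiff.contDiffAt.comp z ?_
    refine ContDiffAt.sum fun b _ => ContDiffAt.sum fun a _ => ?_
    exact ((hV.smAt h.op hz 0 a).mul (h.smAt hz a b)).mul (hV.cv_smAt h.op hz b 0)
  exact h1.congr fun z hz => nrmM_read K V i hz

/-- `∇V` in a chart -/
def BmM (i : A.ι) (z : Cn n) : Matrix (Fin n) (Fin n) ℂ := Bm (gl K i) (rw' V i) z

theorem bm_apply (i : A.ι) (z : Cn n) (c b : Fin n) : BmM K V i z c b =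
    wd (false, c) (fun w => ∑ a, V.loc i w a * K.g i ((A.e i).symm w) a b) z := by
  have e : (fun w => lw (gl K i) (rw' V i) w 0 b) = fun w =>
      ∑ a, V.loc i w a * K.g i ((A.e i).symm w) a b := by
    funext w
    rw [lw, Matrix.mul_apply]
    rfl
  rw [BmM, Bm, Matrix.of_apply, dm_apply, e]

/-- the Ricci form on the field -/
def ricV (i : A.ι) (x : M) : ℂ :=
  ∑ c, ∑ d, cur (volK K) i x c d * V.X i x c * conj (V.X i x d)

theorem lapK_nrmM (i : A.ι) {z : Cn n} (hz : z ∈ (A.e i).target) :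
    lapK K (nrmM K V) ((A.e i).symm z) =
      ((gl K i z)⁻¹ * (BmM K V i z * (gl K i z)⁻¹ * (BmM K V i z)ᴴ)).trace.re -
        (ricV K V i ((A.e i).symm z)).re := by
  have hx := (A.e i).map_target hz
  rw [lapK_eq K (sm_nrmM K V) hx, hsf_read _ i hz]
  have e1 : (fun w => nrmM K V ((A.e i).symm w)) =ᶠ[𝓝 z] nrm (gl K i) (rw' V i) := by
    filter_upwards [(A.e i).open_target.mem_nhds hz] with w hw
    exact nrmM_read K V i hw
  rw [hess_congr e1]
  have e2 := trace_hess_nrm (gm K i) (hrw V i) hz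
  change ((gl K i z)⁻¹ * _).trace.re = _
  rw [e2, Complex.sub_re]
  congr 2
  have e3 : hess (fun w => - Real.log (gl K i w).det.re) z = cur (volK K) i ((A.e i).symm z) := by
    rw [cur_read _ i hz]
    rfl
  rw [e3, ricV, Matrix.trace]
  simp only [Fin.isValue, Matrix.diag_apply, Finset.univ_unique, Fin.default_eq_zero,
    Finset.sum_singleton, Matrix.mul_apply, Finset.sum_mul]
  rw [Finset.sum_comm]
  refine Finset.sum_congr rfl fun b _ => Finset.sum_congr rfl fun a _ => ?_
  simp only [rw', cv, Matrix.of_apply, Matrix.conjTranspose_apply, RCLike.star_def, HVF.loc]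
  ring

theorem sq_nonneg' {G B : Matrix (Fin n) (Fin n) ℂ} (hG : G.PosDef) :
    0 ≤ (G⁻¹ * (B * G⁻¹ * Bᴴ)).trace :=
  GreenM_5.trace_inv_mul_nonneg hG (hG.inv.posSemidef.mul_mul_conjTranspose_same B)

theorem sq_eq_zero' {G B : Matrix (Fin n) (Fin n) ℂ} (hG : G.PosDef)
    (h : (G⁻¹ * (B * G⁻¹ * Bᴴ)).trace.re = 0) : B = 0 := by
  have h0 := sq_nonneg' (B := B) hG
  have h1 : (G⁻¹ * (B * G⁻¹ * Bᴴ)).trace = 0 := by
    apply Complex.ext
    · rw [h]; rfl
    · exact (Complex.le_def.1 h0).2.symm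
  -- write `G⁻¹ = Cᴴ C`
  obtain ⟨C, hC⟩ := GreenM_5.exists_msqrt hG.inv.posSemidef
  have hCdet : IsUnit C.det := by
    have hd : (G⁻¹).det ≠ 0 := hG.inv.det_pos.ne'
    rw [hC, Matrix.det_mul] at hd
    exact isUnit_iff_ne_zero.2 (right_ne_zero_of_mul hd)
  have h2 : (G⁻¹ * (B * G⁻¹ * Bᴴ)).trace = ((C * B * Cᴴ) * (C * B * Cᴴ)ᴴ).trace := by
    rw [Matrix.conjTranspose_mul, Matrix.conjTranspose_mul, Matrix.conjTranspose_conjTranspose]
    rw [hC]
    have e : C * B * Cᴴ * (C * (Bᴴ * Cᴴ)) = (C * (B * (Cᴴ * C) * Bᴴ)) * Cᴴ := by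
      simp only [Matrix.mul_assoc]
    rw [e, Matrix.trace_mul_comm (C * (B * (Cᴴ * C) * Bᴴ)) Cᴴ]
    simp only [Matrix.mul_assoc]
  rw [h2, Matrix.trace_mul_conjTranspose_self_eq_zero_iff] at h1
  have hCc : IsUnit Cᴴ.det := by
    rw [Matrix.det_conjTranspose]
    exact hCdet.star
  calc B = C⁻¹ * (C * B * Cᴴ) * (Cᴴ)⁻¹ := by
        rw [Matrix.mul_assoc C, ← Matrix.mul_assoc C⁻¹ C, Matrix.nonsing_inv_mul _ hCdet,
          Matrix.one_mul, Matrix.mul_assoc, Matrix.mul_nonsing_inv _ hCc, Matrix.mul_one]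
    _ = 0 := by rw [h1, Matrix.mul_zero, Matrix.zero_mul]

/-- **Bochner**: a holomorphic vector field with `Ric(V, V̄) ≤ 0` is parallel -/
theorem par_of_null [T2Space M] [CompactSpace M] [Finite A.ι] (P : Part A) {K : Kah A} {V : HVF A}
    (hric : ∀ i, ∀ x ∈ (A.e i).source, (ricV K V i x).re ≤ 0) : Par K V := by
  borelize M
  have hlap : ∀ i, ∀ z ∈ (A.e i).target, 0 ≤ lapK K (nrmM K V) ((A.e i).symm z) := by
    intro i z hz
    rw [lapK_nrmM K V i hz]
    have h1 := (Complex.le_def.1 (sq_nonneg' (B := BmM K V i z) ((gm K i).pos z hz))).1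
    have h2 := hric i _ ((A.e i).map_target hz)
    simp only [Complex.zero_re] at h1
    linarith
  have hnn : ∀ x, 0 ≤ lapK K (nrmM K V) x := by
    intro x
    obtain ⟨i, hi⟩ := A.cover x
    have := hlap i _ ((A.e i).map_source hi)
    rwa [(A.e i).left_inv hi] at this
  have hsm := sm_lapK K (sm_nrmM K V)
  have hcont : Continuous (lapK K (nrmM K V)) := sm_continuous hsm
  have hint : ∫ x, lapK K (nrmM K V) x ∂(vm (volK K)) = 0 := integral_lapK K P (sm_nrmM K V)
  have hi := GreenM_5.integrable_sm (volK K) hsm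
  have h0 : lapK K (nrmM K V) =ᵐ[vm (volK K)] 0 :=
    (integral_eq_zero_iff_of_nonneg hnn hi).1 hint
  have := isOpenPos_vm (volK K)
  have h1 : lapK K (nrmM K V) = fun _ => 0 :=
    (Continuous.ae_eq_iff_eq (vm (volK K)) hcont continuous_const).1 h0
  intro i z hz c b
  rw [← bm_apply K V i z c b]
  have h2 := lapK_nrmM K V i hz
  rw [congrFun h1 _] at h2
  have h3 := (Complex.le_def.1 (sq_nonneg' (B := BmM K V i z) ((gm K i).pos z hz))).1
  have h4 := hric i _ ((A.e i).map_target hz)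
  simp only [Complex.zero_re] at h3
  have h5 : BmM K V i z = 0 := sq_eq_zero' ((gm K i).pos z hz) (by
    apply le_antisymm _ h3
    linarith)
  rw [h5]
  rfl

/-! ### the closed holomorphic form of a parallel field -/

/-- the coefficients of `⟨·, V⟩` -/
def lc (i : A.ι) (a : Fin n) (z : Cn n) : ℂ :=
  ∑ b, K.g i ((A.e i).symm z) a b * conj (V.loc i z b)

variable {K V}

theorem lc_conj (i : A.ι) {z : Cn n} (hz : z ∈ (A.e i).target) (a : Fin n) :
    lc K V i a z = conj (∑ b, V.loc i z b * K.g i ((A.e i).symm z) b a) := by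
  rw [lc, map_sum]
  refine Finset.sum_congr rfl fun b _ => ?_
  rw [map_mul, g_herm K i ((A.e i).map_target hz), mul_comm]

theorem conj_loc_diff (V : HVF A) (i : A.ι) {z : Cn n} (hz : z ∈ (A.e i).target) (b : Fin n) :
    DifferentiableAt ℝ (fun w => conj (V.loc i w b)) z :=
  (conjCLE : ℂ →L[ℝ] ℂ).differentiableAt.comp z
    ((V_diff_comp V i hz b).restrictScalars ℝ)

theorem lc_diffR (i : A.ι) {z : Cn n} (hz : z ∈ (A.e i).target) (a : Fin n) :
    DifferentiableAt ℝ (lc K V i a) z :=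
  DifferentiableAt.fun_sum fun b _ => (g_diff K i hz a b).mul (conj_loc_diff V i hz b)

theorem lc_diff (hV : Par K V) (i : A.ι) {z : Cn n} (hz : z ∈ (A.e i).target) (a : Fin n) :
    DifferentiableAt ℂ (lc K V i a) z := by
  refine Crest.Agent.R275.GeoHol912.differentiableAt_of_dbj (lc_diffR i hz a) fun c => ?_
  have h1 : lc K V i a =ᶠ[𝓝 z] fun w => conj (∑ b, V.loc i w b * K.g i ((A.e i).symm w) b a) := by
    filter_upwards [(A.e i).open_target.mem_nhds hz] with w hw
    exact lc_conj i hw a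
  have hd : DifferentiableAt ℝ (fun w => ∑ b, V.loc i w b * K.g i ((A.e i).symm w) b a) z :=
    DifferentiableAt.fun_sum fun b _ =>
      ((V_diff_comp V i hz b).restrictScalars ℝ).fun_mul (g_diff K i hz b a)
  have h2 := conj_wd (false, c) hd
  rw [hV i z hz c a, map_zero] at h2
  rw [← wd_true, wd_congr h1]
  exact h2.symm

theorem wd_lc (i : A.ι) {z : Cn n} (hz : z ∈ (A.e i).target) (a c : Fin n) :
    wd (false, c) (lc K V i a) z = wd (false, a) (lc K V i c) z := by
  have key : ∀ a c, wd (false, c) (lc K V i a) z =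
      ∑ b, wd (false, c) (fun w => K.g i ((A.e i).symm w) a b) z * conj (V.loc i z b) := by
    intro a c
    have e : lc K V i a = fun w => ∑ b, K.g i ((A.e i).symm w) a b * conj (V.loc i w b) := rfl
    rw [e, wd_sum _ fun b _ => (g_diff K i hz a b).fun_mul (conj_loc_diff V i hz b)]
    refine Finset.sum_congr rfl fun b _ => ?_
    rw [wd_mul (g_diff K i hz a b) (conj_loc_diff V i hz b)]
    have h1 := conj_wd (true, c) ((V_diff_comp V i hz b).restrictScalars ℝ)
    rw [wd_hol (V_diff_comp V i hz b) c, map_zero] at h1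
    have h2 : wd (false, c) (fun w => conj (V.loc i w b)) z = 0 := h1.symm
    rw [h2, mul_zero, add_zero]
  rw [key a c, key c a]
  exact Finset.sum_congr rfl fun b _ => by rw [K.closed i z hz]

/-- the linear form `w ↦ ⟨w, V⟩` -/
def lcL (K : Kah A) (V : HVF A) (i : A.ι) (z : Cn n) : Cn n →L[ℂ] ℂ :=
  ∑ a, lc K V i a z • (EuclideanSpace.proj a : Cn n →L[ℂ] ℂ)

theorem lcL_apply (i : A.ι) (z v : Cn n) : lcL K V i z v = ∑ a, lc K V i a z * v a := by
  simp [lcL]

theorem lcL_hf (i : A.ι) {z : Cn n} (hz : z ∈ (A.e i).target) (v : Cn n) :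
    lcL K V i z v = hf K i ((A.e i).symm z) v (V.X i ((A.e i).symm z)) := by
  rw [lcL_apply, hf_eq]
  refine Finset.sum_congr rfl fun a _ => ?_
  rw [lc, Finset.sum_mul]
  refine Finset.sum_congr rfl fun b _ => ?_
  simp only [HVF.loc]
  ring

/-- the form `⟨·, V⟩` -/
def lowF (K : Kah A) (V : HVF A) : A.ι → M → (Cn n →L[ℂ] ℂ) := fun i x =>
  open Classical in if x ∈ (A.e i).source then lcL K V i (A.e i x) else 0

theorem lowF_read (i : A.ι) {z : Cn n} (hz : z ∈ (A.e i).target) :
    lowF K V i ((A.e i).symm z) = lcL K V i z := by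
  rw [lowF, if_pos ((A.e i).map_target hz), (A.e i).right_inv hz]

theorem lowF_hf {i : A.ι} {x : M} (hx : x ∈ (A.e i).source) (v : Cn n) :
    lowF K V i x v = hf K i x v (V.X i x) := by
  have h := lcL_hf (K := K) (V := V) i ((A.e i).map_source hx) v
  rw [(A.e i).left_inv hx] at h
  rw [lowF, if_pos hx, h]

theorem lcL_diff (hV : Par K V) (i : A.ι) {z : Cn n} (hz : z ∈ (A.e i).target) :
    DifferentiableAt ℂ (lcL K V i) z :=
  DifferentiableAt.fun_sum fun a _ => (lc_diff hV i hz a).smul_const _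

theorem lowF_mem (hV : Par K V) : lowF K V ∈ Alb645.H1 A := by
  refine ⟨fun i z hz => ?_, fun i x hx => if_neg hx, fun i j x hx => ?_, fun i z hz v w => ?_⟩
  · have h1 : (fun w => lowF K V i ((A.e i).symm w)) =ᶠ[𝓝 z] lcL K V i := by
      filter_upwards [(A.e i).open_target.mem_nhds hz] with w hw
      exact lowF_read i hw
    exact ((lcL_diff hV i hz).congr_of_eventuallyEq h1).differentiableWithinAt
  · ext v
    rw [ContinuousLinearMap.comp_apply, lowF_hf hx.1, lowF_hf hx.2]
    have h1 := hf_tr K hx.1 hx.2 v (V.X i x)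
    rw [HFlow5_376.HVF.tr' V hx.1 hx.2] at h1
    exact h1.symm
  · have h1 : (fun w => lowF K V i ((A.e i).symm w)) =ᶠ[𝓝 z] lcL K V i := by
      filter_upwards [(A.e i).open_target.mem_nhds hz] with w hw
      exact lowF_read i hw
    rw [h1.fderiv_eq]
    have h2 : HasFDerivAt (lcL K V i) (∑ a, (fderiv ℂ (lc K V i a) z).smulRight
        (EuclideanSpace.proj a : Cn n →L[ℂ] ℂ)) z :=
      HasFDerivAt.fun_sum fun a _ => (lc_diff hV i hz a).hasFDerivAt.smul_const
        (EuclideanSpace.proj a : Cn n →L[ℂ] ℂ)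
    rw [h2.fderiv]
    have h3 : ∀ v w : Cn n, (∑ a, (fderiv ℂ (lc K V i a) z).smulRight
        (EuclideanSpace.proj a : Cn n →L[ℂ] ℂ)) v w =
        ∑ a, ∑ c, wd (false, c) (lc K V i a) z * v c * w a := by
      intro v w
      simp only [_root_.sum_apply, ContinuousLinearMap.smulRight_apply,
        _root_.smul_apply, smul_eq_mul]
      refine Finset.sum_congr rfl fun a _ => ?_
      have h4 : fderiv ℂ (lc K V i a) z v = ∑ c, wd (false, c) (lc K V i a) z * v c := by
        have h5 : v = ∑ c, v c • (EuclideanSpace.single c (1 : ℂ) : Cn n) := by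
          ext b
          simp [Finset.sum_apply, Pi.single_apply]
        conv_lhs => rw [h5]
        simp only [map_sum, map_smul, smul_eq_mul]
        refine Finset.sum_congr rfl fun c _ => ?_
        rw [wd_hol' (lc_diff hV i hz a), mul_comm]
      rw [h4, Finset.sum_mul]
      rfl
    rw [h3, h3, Finset.sum_comm]
    refine Finset.sum_congr rfl fun a _ => Finset.sum_congr rfl fun c _ => ?_
    rw [wd_lc i hz c a]
    ring

theorem X_zero_of_lowF {i : A.ι} {x : M} (hx : x ∈ (A.e i).source)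
    (h : lowF K V i x = 0) : V.X i x = 0 := by
  have h1 : hf K i x (V.X i x) (V.X i x) = 0 := by
    rw [← lowF_hf hx, h]; rfl
  by_contra hne
  have h2 : (star (V.X i x) : Fin n → ℂ) ≠ 0 := by
    intro h3
    apply hne
    have h4 : (V.X i x : Fin n → ℂ) = 0 := star_eq_zero.1 h3
    ext b
    exact congrFun h4 b
  have h3 := (K.pos i x hx).dotProduct_mulVec_pos h2
  rw [star_star] at h3
  rw [hf] at h1
  exact h3.ne' h1

/-- a parallel field on a simply connected compact manifold vanishes -/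
theorem eq_zero_of_par [T2Space M] [CompactSpace M] [SimplyConnectedSpace M] (hA : GoodA A)
    (hV : Par K V) : ∀ i, ∀ x ∈ (A.e i).source, V.X i x = 0 := by
  obtain ⟨x0⟩ : Nonempty M := inferInstance
  obtain ⟨a, -, ha⟩ := Alb645.exists_prim hA (lowF_mem hV) x0
  have hc : Continuous fun x => (a x).re := Complex.continuous_re.comp ha.continuous
  obtain ⟨x1, -, hx1⟩ := isCompact_univ.exists_isMaxOn ⟨x0, mem_univ _⟩ hc.continuousOn
  intro i x hx
  refine X_zero_of_lowF hx (Alb645.form_eq_zero_of_max ha (x1 := x1) (fun y => ?_) i x hx)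
  exact hx1 (mem_univ y)

/-- **NOHVF** : a simply connected Ricci flat compact Kaehler manifold has no holomorphic vector
fields -/
theorem nohvf [T2Space M] [CompactSpace M] [SimplyConnectedSpace M] [Finite A.ι] (hA : GoodA A)
    (P : Part A) (K : Kah A) (hric : ∀ i, ∀ x ∈ (A.e i).source, cur (volK K) i x = 0)
    (V : HVF A) : ∀ i, ∀ x ∈ (A.e i).source, V.X i x = 0 := by
  refine eq_zero_of_par (K := K) hA (par_of_null P fun i x hx => ?_)
  have h1 : ricV K V i x = 0 := by
    unfold ricV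
    rw [hric i x hx]
    simp
  rw [h1]
  exact le_of_eq rfl

end Global

end

end Crest.Agent.R273.NoHVF_376
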