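import Crest.Agent.R273.Fam_835
import Crest.Agent.R275.ProdAtl_363

/-!
# R273 (S0416), Part E (helper835): products

* `holMap_fst`, `holMap_snd`, `holMap_pair`, `holMap_inl`, `holMap_inr`;
* `imm_of_leftInv` : a map with a holomorphic left inverse is an immersion;
* `KB_prod`   : the canonical bundle of a product;
* `ext_isHS`, `hasSec_ext` : external products of (pluri)anticanonical sections;
* `PB.inl`, `PB.inr` : the canonical bundle of a product restricted to the slices;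
* `MainN n`   : `Main` in dimension `n`;
* `concl_slice`, `main_prod` : the product step of the induction.
-/

set_option autoImplicit false
set_option linter.unusedSectionVars false

open Set Filter Topology Complex
open scoped ContDiff Matrix ComplexConjugate Manifold

namespace Crest.Agent.R273.Prd_835

open Crest.Agent.R275.Geo Crest.Agent.R275.Core144 Crest.Agent.R275.GC293 Crest.Agent.R275.Prod363
open Crest.Agent.R273.Defs_333 Crest.Agent.R273.Map_835 Crest.Agent.R273.PB_835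
open Crest.Agent.R273.Fam_835

noncomputable section

variable {n m k : ℕ} {M N P : Type} [TopologicalSpace M] [TopologicalSpace N]
  [TopologicalSpace P] {A : Atl n M} {B : Atl m N} {C : Atl k P}

/-! ### the maps -/

theorem holMap_fst : HolMap (A.prod B) A (Prod.fst : M × N → M) := by
  refine ⟨continuous_fst, fun i j => ?_⟩
  have h1 : DifferentiableOn ℂ (fun z => A.e j ((A.e i.1).symm (fstL n m z)))
      (((A.prod B).e i).target ∩ ((A.prod B).e i).symm ⁻¹'
        ((Prod.fst : M × N → M) ⁻¹' (A.e j).source)) :=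
    (A.holo i.1 j).comp (fstL n m).differentiable.differentiableOn
      (fun z hz => ⟨hz.1.1, hz.2⟩)
  exact h1

theorem holMap_snd : HolMap (A.prod B) B (Prod.snd : M × N → N) := by
  refine ⟨continuous_snd, fun i j => ?_⟩
  have h1 : DifferentiableOn ℂ (fun z => B.e j ((B.e i.2).symm (sndL n m z)))
      (((A.prod B).e i).target ∩ ((A.prod B).e i).symm ⁻¹'
        ((Prod.snd : M × N → N) ⁻¹' (B.e j).source)) :=
    (B.holo i.2 j).comp (sndL n m).differentiable.differentiableOn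
      (fun z hz => ⟨hz.1.2, hz.2⟩)
  exact h1

theorem holMap_pair {f : P → M} {g : P → N} (hf : HolMap C A f) (hg : HolMap C B g) :
    HolMap C (A.prod B) (fun x => (f x, g x)) := by
  refine ⟨hf.cont.prodMk hg.cont, fun i j => ?_⟩
  have h1 := (hf.hol i j.1).mono (s := (C.e i).target ∩ (C.e i).symm ⁻¹'
    ((fun x => (f x, g x)) ⁻¹' ((A.prod B).e j).source)) (fun z hz => ⟨hz.1, hz.2.1⟩)
  have h2 := (hg.hol i j.2).mono (s := (C.e i).target ∩ (C.e i).symm ⁻¹'
    ((fun x => (f x, g x)) ⁻¹' ((A.prod B).e j).source)) (fun z hz => ⟨hz.1, hz.2.2⟩)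
  exact (appH n m).differentiable.comp_differentiableOn (h1.prodMk h2)

theorem holMap_const (y : N) : HolMap A B (fun _ => y) :=
  ⟨continuous_const, fun _ _ => differentiableOn_const _⟩

theorem holMap_inl (y : N) : HolMap A (A.prod B) (fun x => (x, y)) :=
  holMap_pair (holMap_id A) (holMap_const y)

theorem holMap_inr (x : M) : HolMap B (A.prod B) (fun y => (x, y)) :=
  holMap_pair (holMap_const x) (holMap_id B)

/-- a map with a holomorphic left inverse is an immersion -/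
theorem imm_of_leftInv {p : M → N} {q : N → M} (hp : HolMap A B p) (hq : HolMap B A q)
    (hqp : ∀ x, q (p x) = x) : ∀ i j, ∀ z ∈ dm A B p i j,
      Function.Injective (fderiv ℂ (rd A B p i j) z) := by
  intro i j z hz v w hvw
  have hx := (A.e i).map_target hz.1
  have h3 := Jp_comp hq hp (x := (A.e i).symm z) (l := i) hx hz.2 (by rw [hqp]; exact hx)
  have h4 : Jp A A (fun x => q (p x)) i i ((A.e i).symm z) = 1 := by
    have h5 : (fun x => q (p x)) = id := funext hqp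
    rw [h5]
    exact J_self i hx
  rw [h4, Jp_eq, Jp_eq, ← mt_comp, ← mt_id] at h3
  have h5 := mt_injective h3
  rw [(A.e i).right_inv hz.1] at h5
  have h6 := congrArg (fun T : Cn n →L[ℂ] Cn n => T v) h5
  have h7 := congrArg (fun T : Cn n →L[ℂ] Cn n => T w) h5
  simp only [ContinuousLinearMap.coe_id', id_eq, ContinuousLinearMap.coe_comp,
    Function.comp_apply] at h6 h7
  rw [← h6, ← h7, hvw]

/-! ### the canonical bundle of a product -/

theorem KB_prod {i i' : A.ι} {j j' : B.ι} {x : M} {y : N}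
    (hx : x ∈ (A.e i).source ∩ (A.e i').source) (hy : y ∈ (B.e j).source ∩ (B.e j').source) :
    (KB (A.prod B)).g (i, j) (i', j') (x, y) = (KB A).g i i' x * (KB B).g j j' y := by
  rw [KB_g (A := A.prod B) (i := (i, j)) (j := (i', j')) (x := (x, y))
    ⟨⟨hx.1, hy.1⟩, ⟨hx.2, hy.2⟩⟩, KB_g hx, KB_g hy]
  have h1 : (Jm (A.prod B) (i, j) (i', j') (x, y)).submatrix finSumFinEquiv finSumFinEquiv =
      Matrix.fromBlocks (Jm A i i' x) 0 0 (Jm B j j' y) := by
    ext a b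
    rcases a with a | a <;> rcases b with b | b
    · exact J_cc A B hx hy a b
    · exact J_cn A B hx hy a b
    · exact J_nc A B hx hy a b
    · exact J_nn A B hx hy a b
  rw [← Matrix.det_submatrix_equiv_self finSumFinEquiv, h1, Matrix.det_fromBlocks_zero₁₂]

/-- the product is locally the external product of the anticanonical powers -/
theorem ext_isHS {r : ℕ} {s : A.ι → M → ℂ} {t : B.ι → N → ℂ}
    (hs : IsHS ((KB A)⁻¹ ^ r) univ s) (ht : IsHS ((KB B)⁻¹ ^ r) univ t) :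
    IsHS ((KB (A.prod B))⁻¹ ^ r) univ (fun i x => s i.1 x.1 * t i.2 x.2) := by
  refine ⟨fun i => ?_, fun i x hx => ?_, fun i j x hx _ => ?_⟩
  · have h1 : DifferentiableOn ℂ (fun z => s i.1 ((A.e i.1).symm (fstL n m z)))
        (((A.prod B).e i).target ∩ ((A.prod B).e i).symm ⁻¹' univ) :=
      DifferentiableOn.comp (g := fun z => s i.1 ((A.e i.1).symm z)) (hs.hol i.1)
        (fstL n m).differentiable.differentiableOn (fun z hz => ⟨hz.1.1, mem_univ _⟩)
    have h2 : DifferentiableOn ℂ (fun z => t i.2 ((B.e i.2).symm (sndL n m z)))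
        (((A.prod B).e i).target ∩ ((A.prod B).e i).symm ⁻¹' univ) :=
      DifferentiableOn.comp (g := fun z => t i.2 ((B.e i.2).symm z)) (ht.hol i.2)
        (sndL n m).differentiable.differentiableOn (fun z hz => ⟨hz.1.2, mem_univ _⟩)
    exact h1.mul h2
  · by_cases h1 : x.1 ∈ (A.e i.1).source
    · have h2 : x.2 ∉ (B.e i.2).source := fun h => hx ⟨h1, h⟩
      rw [ht.off _ _ h2, mul_zero]
    · rw [hs.off _ _ h1, zero_mul]
  · have hx1 : x.1 ∈ (A.e i.1).source ∩ (A.e j.1).source := ⟨hx.1.1, hx.2.1⟩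
    have hx2 : x.2 ∈ (B.e i.2).source ∩ (B.e j.2).source := ⟨hx.1.2, hx.2.2⟩
    have h1 := KB_prod hx1 hx2
    rw [hs.tr i.1 j.1 x.1 hx1 (mem_univ _), ht.tr i.2 j.2 x.2 hx2 (mem_univ _),
      HM_333.LB_pow_g, HM_333.LB_pow_g, HM_333.LB_pow_g, LB.inv_g, LB.inv_g, LB.inv_g]
    have h2 : (KB (A.prod B)).g i j x = (KB A).g i.1 j.1 x.1 * (KB B).g i.2 j.2 x.2 := h1
    rw [h2, mul_inv, mul_pow]
    ring

theorem isHS_pow {L : LB A} {s : A.ι → M → ℂ} (hs : IsHS L univ s) {r : ℕ} (hr : 0 < r) :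
    IsHS (L ^ r) univ (s ^ r) := by
  induction r with
  | zero => exact absurd hr (lt_irrefl _)
  | succ r ih =>
    rcases Nat.eq_zero_or_pos r with rfl | h
    · simpa using hs
    · rw [pow_succ, pow_succ]
      exact (ih h).mul hs

theorem hasSec_pow {L : LB A} (h : HasSec L) {r : ℕ} (hr : 0 < r) : HasSec (L ^ r) := by
  obtain ⟨s, hs, i, x, hx, h0⟩ := h
  exact ⟨s ^ r, isHS_pow hs hr, i, x, hx, pow_ne_zero _ h0⟩

theorem hasSec_ext {a b : ℕ} (ha : 0 < a) (hb : 0 < b) (h1 : HasSec ((KB A)⁻¹ ^ a))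
    (h2 : HasSec ((KB B)⁻¹ ^ b)) : ∃ c, 0 < c ∧ HasSec ((KB (A.prod B))⁻¹ ^ c) := by
  refine ⟨a * b, Nat.mul_pos ha hb, ?_⟩
  have h3 := hasSec_pow h1 hb
  have h4 := hasSec_pow h2 ha
  rw [← pow_mul] at h3 h4
  rw [mul_comm b a] at h4
  obtain ⟨s, hs, i, x, hx, h0⟩ := h3
  obtain ⟨t, ht, j, y, hy, h0'⟩ := h4
  exact ⟨_, ext_isHS hs ht, (i, j), (x, y), ⟨hx, hy⟩, mul_ne_zero h0 h0'⟩

/-! ### slices -/

/-- the canonical bundle of a product restricted to the slice `M × {y}` -/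
def PBinl (y : N) : PB (fun x => (x, y)) (KB A) (KB (A.prod B)) where
  c i j x := (KB A).g i j.1 x * (KB B).g (PB.ch B y) j.2 y
  hol i j := by
    have h1 : HolAt A i ((fun x => (x, y)) ⁻¹' ((A.prod B).e j).source)
        (fun x => (KB A).g i j.1 x) := ((KB A).hol i j.1).mono fun x hx => hx.1
    exact h1.mul (holAt_const _)
  ne i j x _ _ := mul_ne_zero ((KB A).ne_zero _ _ _) ((KB B).ne_zero _ _ _)
  left i i' j x hx hj := by
    rw [← (KB A).mul i i' j.1 x ⟨hx, hj.1⟩]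
    ring
  right i j j' x hx hj := by
    have h1 : (KB (A.prod B)).g j j' (x, y) = (KB A).g j.1 j'.1 x * (KB B).g j.2 j'.2 y :=
      KB_prod ⟨hj.1.1, hj.2.1⟩ ⟨hj.1.2, hj.2.2⟩
    rw [h1, ← (KB A).mul i j.1 j'.1 x ⟨⟨hx, hj.1.1⟩, hj.2.1⟩,
      ← (KB B).mul (PB.ch B y) j.2 j'.2 y ⟨⟨PB.ch_mem B y, hj.1.2⟩, hj.2.2⟩]
    ring

/-- the canonical bundle of a product restricted to the slice `{x} × N` -/
def PBinr (x : M) : PB (fun y => (x, y)) (KB B) (KB (A.prod B)) where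
  c i j y := (KB B).g i j.2 y * (KB A).g (PB.ch A x) j.1 x
  hol i j := by
    have h1 : HolAt B i ((fun y => (x, y)) ⁻¹' ((A.prod B).e j).source)
        (fun y => (KB B).g i j.2 y) := ((KB B).hol i j.2).mono fun y hy => hy.2
    exact h1.mul (holAt_const _)
  ne i j y _ _ := mul_ne_zero ((KB B).ne_zero _ _ _) ((KB A).ne_zero _ _ _)
  left i i' j y hy hj := by
    rw [← (KB B).mul i i' j.2 y ⟨hy, hj.2⟩]
    ring
  right i j j' y hy hj := by
    have h1 : (KB (A.prod B)).g j j' (x, y) = (KB A).g j.1 j'.1 x * (KB B).g j.2 j'.2 y :=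
      KB_prod ⟨hj.1.1, hj.2.1⟩ ⟨hj.1.2, hj.2.2⟩
    rw [h1, ← (KB B).mul i j.2 j'.2 y ⟨⟨hy, hj.1.2⟩, hj.2.2⟩,
      ← (KB A).mul (PB.ch A x) j.1 j'.1 x ⟨⟨PB.ch_mem A x, hj.1.1⟩, hj.2.1⟩]
    ring

/-! ### the statement in a fixed dimension -/

/-- `Main` in dimension `n` -/
def MainN (n : ℕ) : Prop :=
  ∀ (M : Type) [TopologicalSpace M] [T2Space M] [CompactSpace M] [ConnectedSpace M]
    (A : Atl n M) [Finite A.ι], GoodA A → Nonempty (Part A) → ProjD A →
    ∀ h : HM (KB A)⁻¹, h.Semipos → ∃ m : ℕ, 0 < m ∧ HasSec ((KB A)⁻¹ ^ m)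

theorem main_iff : Main ↔ ∀ n, MainN n := Iff.rfl

/-- transfer of the conclusion along a surjective locally biholomorphic map `p : M → N` -/
theorem concl_pull {B : Atl n N} {p : M → N} (h : LBih A B p) (hs : Function.Surjective p)
    {r : ℕ} (H : HasSec ((KB B)⁻¹ ^ r)) : HasSec ((KB A)⁻¹ ^ r) :=
  ((PB.KB h).inv.pow r).hasSec_pull h.toHolMap hs H

/-- the induction hypothesis applied to a holomorphic immersion `f : Y → M` along which the
anticanonical bundles correspond; arbitrary atlas on `Y` -/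
theorem concl_imm {Y : Type} [TopologicalSpace Y] [T2Space Y] [CompactSpace Y] [ConnectedSpace Y]
    (IH : MainN m) {B : Atl m Y} {f : Y → M} (hf : HolMap B A f) (hinj : Function.Injective f)
    (himm : ∀ i j, ∀ z ∈ dm B A f i j, Function.Injective (fderiv ℂ (rd B A f i j) z))
    (T : PB f (KB B) (KB A)) (D : ProjD A) {h : HM (KB A)⁻¹} (hs : h.Semipos) :
    ∃ r : ℕ, 0 < r ∧ HasSec ((KB B)⁻¹ ^ r) := by
  obtain ⟨B', h1, h2, h3, h4, ⟨R⟩, h6, h7⟩ := exists_refine B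
    (fun i : A.ι => f ⁻¹' (A.e i).source) (fun i => (A.e i).open_source.preimage hf.cont)
    (fun x => A.cover (f x))
  have hf' : HolMap B' A f := hf.comp h6.toHolMap
  choose r hr using h4
  have R' : Ref B' A f := ⟨r, fun i x hx => hr i hx⟩
  have himm' : ∀ i j, ∀ z ∈ dm B' A f i j, Function.Injective (fderiv ℂ (rd B' A f i j) z) := by
    intro i j z hz
    obtain ⟨l, hl⟩ := B.cover ((B'.e i).symm z)
    have hzl : z ∈ dm B' B id i l := ⟨hz.1, hl⟩
    have hl2 : B.e l ((B'.e i).symm z) ∈ dm B A f l j := mem_dm hl hz.2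
    have e1 : rd B' B id i l z = B.e l ((B'.e i).symm z) := rfl
    have h8 := fderiv_comp z (g := rd B A f l j) (f := rd B' B id i l)
      (by rw [e1]; exact hf.diffAt hl2) (h6.toHolMap.diffAt hzl)
    have h9 : rd B' A f i j =ᶠ[𝓝 z] (rd B A f l j) ∘ (rd B' B id i l) := by
      filter_upwards [(h6.toHolMap.isOpen_dm i l).mem_nhds hzl] with w hw
      show A.e j (f ((B'.e i).symm w)) = A.e j (f ((B.e l).symm (B.e l ((B'.e i).symm w))))
      have hw2 : (B'.e i).symm w ∈ (B.e l).source := hw.2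
      rw [(B.e l).left_inv hw2]
    rw [h9.fderiv_eq, h8]
    exact (himm l j _ hl2).comp (h6.inj hzl)
  have D' : ProjD B' := pullProjD hf' R' hinj himm' D
  have T' : PB f (KB B') (KB A) := PB.comp h6.toHolMap hf (PB.KB h6) T
  obtain ⟨r, hr, H⟩ := IH Y B' h2 h3 D' (T'.inv.pullHM hf' h) (T'.inv.pullHM_semipos hf' hs)
  exact ⟨r, hr, concl_pull h7 Function.surjective_id H⟩

/-- **the product step**: `M ≅ Y₁ × Y₂` -/
theorem main_prod {Y₁ Y₂ : Type} [TopologicalSpace Y₁] [T2Space Y₁] [CompactSpace Y₁]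
    [ConnectedSpace Y₁] [TopologicalSpace Y₂] [T2Space Y₂] [CompactSpace Y₂] [ConnectedSpace Y₂]
    {n₁ n₂ : ℕ} (IH1 : MainN n₁) (IH2 : MainN n₂) {A : Atl (n₁ + n₂) M} {B₁ : Atl n₁ Y₁}
    {B₂ : Atl n₂ Y₂} {Φ : Y₁ × Y₂ → M} {Ψ : M → Y₁ × Y₂} (hΦ : HolMap (B₁.prod B₂) A Φ)
    (hΨ : HolMap A (B₁.prod B₂) Ψ) (h1 : ∀ x, Φ (Ψ x) = x) (h2 : ∀ y, Ψ (Φ y) = y)
    (D : ProjD A) {h : HM (KB A)⁻¹} (hs : h.Semipos) :
    ∃ r : ℕ, 0 < r ∧ HasSec ((KB A)⁻¹ ^ r) := by
  obtain ⟨y₁⟩ := (inferInstance : Nonempty Y₁)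
  obtain ⟨y₂⟩ := (inferInstance : Nonempty Y₂)
  have hL : LBih (B₁.prod B₂) A Φ := lBih_of_inv hΦ hΨ h2
  have hL' : LBih A (B₁.prod B₂) Ψ := lBih_of_inv hΨ hΦ h1
  have k1 : HolMap B₁ A (fun x => Φ (x, y₂)) := hΦ.comp (holMap_inl y₂)
  have k2 : HolMap B₂ A (fun y => Φ (y₁, y)) := hΦ.comp (holMap_inr y₁)
  have l1 : HolMap A B₁ (fun x => (Ψ x).1) := holMap_fst.comp hΨ
  have l2 : HolMap A B₂ (fun x => (Ψ x).2) := holMap_snd.comp hΨ
  have e1 : ∀ x, (Ψ (Φ (x, y₂))).1 = x := fun x => by rw [h2]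
  have e2 : ∀ y, (Ψ (Φ (y₁, y))).2 = y := fun y => by rw [h2]
  have i1 : Function.Injective (fun x => Φ (x, y₂)) := fun x x' h => by
    rw [← e1 x, ← e1 x']
    exact congrArg (fun z => (Ψ z).1) h
  have i2 : Function.Injective (fun y => Φ (y₁, y)) := fun x x' h => by
    rw [← e2 x, ← e2 x']
    exact congrArg (fun z => (Ψ z).2) h
  obtain ⟨a, ha, Ha⟩ := concl_imm IH1 k1 i1
    (imm_of_leftInv k1 l1 e1) (PB.comp (holMap_inl y₂) hΦ (PBinl y₂) (PB.KB hL)) D hs
  obtain ⟨b, hb, Hb⟩ := concl_imm IH2 k2 i2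
    (imm_of_leftInv k2 l2 e2) (PB.comp (holMap_inr y₁) hΦ (PBinr y₁) (PB.KB hL)) D hs
  obtain ⟨c, hc, H⟩ := hasSec_ext ha hb Ha Hb
  exact ⟨c, hc, concl_pull hL' (fun y => ⟨Φ y, h2 y⟩) H⟩

end

end Crest.Agent.R273.Prd_835
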