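import Crest.Agent.R273.UCovD_914

/-!
# R273, leaf UCOV (helper914), part E: identity theorem for sections; a nonzero section on a finite
connected covering gives a nonzero section of a power downstairs; descent of invariant sections.
-/

set_option autoImplicit false
set_option linter.unusedSectionVars false

open Set Filter Topology Complex
open scoped ContDiff Matrix ComplexConjugate

namespace Crest.Agent.R273.UCov_914

open Crest.Agent.R275.Geo Crest.Agent.R275.ZC352 Crest.Agent.R275.GC293
open Crest.Agent.R275.Core144 Crest.Agent.R273.Defs_333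
open Crest.Agent.R266

noncomputable section

variable {n : ℕ} {M : Type} [TopologicalSpace M] {A : Atl n M}

/-- local expression of a holomorphic function is analytic -/
theorem analytic_of_holAt {i : A.ι} {f : M → ℂ} (h : HolAt A i univ f) :
    AnalyticOnNhd ℂ (fun z => f ((A.e i).symm z)) (A.e i).target := by
  have h1 : DifferentiableOn ℂ (fun z => f ((A.e i).symm z)) (A.e i).target := by
    have := h
    unfold HolAt at this
    rwa [preimage_univ, inter_univ] at this
  exact SCV.analyticOnNhd_of_differentiableOn (A.e i).open_target h1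

/-- **identity theorem** for sections of a line bundle on a connected manifold -/
theorem IsHS.eq_zero [PreconnectedSpace M] {L : LB A} {s : A.ι → M → ℂ} (hs : IsHS L univ s)
    {i : A.ι} {x : M} (hx : x ∈ (A.e i).source) (h : ∀ᶠ y in 𝓝 x, s i y = 0) :
    ∀ j y, s j y = 0 := by
  let Z : Set M := {x | ∀ᶠ y in 𝓝 x, ∀ j, y ∈ (A.e j).source → s j y = 0}
  have h0 : ∀ (i : A.ι) (x : M), x ∈ (A.e i).source → (∀ᶠ y in 𝓝 x, s i y = 0) → x ∈ Z := by
    intro i x hx h
    have h1 : ∀ᶠ y in 𝓝 x, y ∈ (A.e i).source := (A.e i).open_source.mem_nhds hx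
    filter_upwards [h, h1] with y hy hy1 j hj
    rw [hs.tr j i y ⟨hj, hy1⟩ (mem_univ _), hy, mul_zero]
  have hopen : IsOpen Z := by
    rw [isOpen_iff_mem_nhds]
    intro x hx
    exact eventually_eventually_nhds.2 hx
  have hclosed : IsClosed Z := by
    rw [← closure_subset_iff_isClosed]
    intro x hx
    obtain ⟨i, hi⟩ := A.cover x
    have hz : A.e i x ∈ (A.e i).target := (A.e i).map_source hi
    obtain ⟨r, hr, hball⟩ := Metric.isOpen_iff.1 (A.e i).open_target _ hz
    have hN : (A.e i).source ∩ A.e i ⁻¹' Metric.ball (A.e i x) r ∈ 𝓝 x :=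
      ((A.e i).isOpen_inter_preimage Metric.isOpen_ball).mem_nhds
        ⟨hi, Metric.mem_ball_self hr⟩
    obtain ⟨y, hy, hyZ⟩ := mem_closure_iff_nhds.1 hx _ hN
    have hana := (analytic_of_holAt (hs.hol i)).mono hball
    have hy1 : ∀ᶠ w in 𝓝 (A.e i y), s i ((A.e i).symm w) = 0 := by
      have hcs : ContinuousAt (A.e i).symm (A.e i y) :=
        (A.e i).continuousAt_symm ((A.e i).map_source hy.1)
      have h3 : ∀ᶠ y' in 𝓝 ((A.e i).symm (A.e i y)), ∀ j, y' ∈ (A.e j).source → s j y' = 0 := by
        rw [(A.e i).left_inv hy.1]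
        exact hyZ
      have h4 : ∀ᶠ w in 𝓝 (A.e i y), w ∈ (A.e i).target :=
        (A.e i).open_target.mem_nhds ((A.e i).map_source hy.1)
      filter_upwards [hcs.eventually h3, h4] with w hw hw1
      exact hw i ((A.e i).map_target hw1)
    have hzero := hana.eqOn_zero_of_preconnected_of_eventuallyEq_zero
      (convex_ball _ _).isPreconnected hy.2 hy1
    refine h0 i x hi ?_
    filter_upwards [hN] with y' hy'
    have := hzero hy'.2
    change s i ((A.e i).symm (A.e i y')) = 0 at this
    rwa [(A.e i).left_inv hy'.1] at this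
  have huniv : Z = univ := (IsClopen.eq_univ ⟨hclosed, hopen⟩ ⟨x, h0 i x hx h⟩)
  intro j y
  by_cases hj : y ∈ (A.e j).source
  · have : y ∈ Z := huniv ▸ mem_univ y
    exact this.self_of_nhds j hj
  · exact hs.off j y hj

/-- the zeros of a nonzero section are nowhere dense -/
theorem IsHS.dense_ne [PreconnectedSpace M] {L : LB A} {s : A.ι → M → ℂ} (hs : IsHS L univ s)
    (hne : ∃ j y, s j y ≠ 0) {i : A.ι} {x : M} (hx : x ∈ (A.e i).source) :
    ∃ᶠ y in 𝓝 x, s i y ≠ 0 := by
  intro hcon
  obtain ⟨j, y, hy⟩ := hne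
  refine hy (IsHS.eq_zero hs hx ?_ j y)
  filter_upwards [hcon] with y hy
  exact not_not.1 hy

namespace MonD

variable {G : Type} [Group G] (D : MonD A G) {F : Type} [MulAction G F]

/-- product of finitely many local functions, none of them zero near the point -/
theorem exists_prod_ne {κ : Type} (T : Finset κ) {U : Set (Cn n)} (hU : IsOpen U)
    (hc : IsPreconnected U) (f : κ → Cn n → ℂ) (hf : ∀ k ∈ T, AnalyticOnNhd ℂ (f k) U)
    (hne : ∀ k ∈ T, ∃ z ∈ U, f k z ≠ 0) (hU0 : U.Nonempty) : ∃ z ∈ U, ∏ k ∈ T, f k z ≠ 0 := by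
  classical
  induction T using Finset.induction_on with
  | empty =>
    obtain ⟨z, hz⟩ := hU0
    exact ⟨z, hz, by simp⟩
  | insert k T hk ih =>
    obtain ⟨z, hz, hz'⟩ := SCV.exists_mul_ne_zero (f := f k) (g := fun z => ∏ k ∈ T, f k z) hU hc
      (hf k (by simp)) (Finset.analyticOnNhd_fun_prod T fun l hl => hf l (by simp [hl]))
      (hne k (by simp)) (ih (fun l hl => hf l (by simp [hl])) fun l hl => hne l (by simp [hl]))
    exact ⟨z, hz, by rwa [Finset.prod_insert hk]⟩

/-- **sections of finite connected coverings**: a nonzero section of the pull-back of `L` gives a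
nonzero section of `L ^ |F|` -/
theorem hasSec_of_cov [Fintype F] [PreconnectedSpace (D.cov F)] {L : LB A}
    (h : HasSec (D.pullLB F L)) : HasSec (L ^ Fintype.card F) := by
  obtain ⟨s, hs, p, e, he, hne⟩ := h
  refine ⟨D.nm s, D.isHS_nm hs, p.1, ?_⟩
  have hx : D.pr e ∈ (A.e p.1).source := he.1
  have hz : A.e p.1 (D.pr e) ∈ (A.e p.1).target := (A.e p.1).map_source hx
  obtain ⟨r, hr, hball⟩ := Metric.isOpen_iff.1 (A.e p.1).open_target _ hz
  obtain ⟨z, hz1, hz2⟩ := exists_prod_ne (κ := F) Finset.univ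
    (U := Metric.ball (A.e p.1 (D.pr e)) r) Metric.isOpen_ball (convex_ball _ _).isPreconnected
    (fun v z => s (p.1, v) (D.pt p.1 v ((A.e p.1).symm z)))
    (fun v _ => by
      have := analytic_of_holAt (A := D.atl F) (i := (p.1, v)) (hs.hol (p.1, v))
      exact AnalyticOnNhd.mono this hball)
    (fun v _ => by
      by_contra hcon
      push Not at hcon
      have hpt : D.pt p.1 v (D.pr e) ∈ ((D.atl F).e (p.1, v)).source :=
        D.pt_mem_source (p := (p.1, v)) hx
      refine hne (IsHS.eq_zero hs hpt ?_ _ _)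
      have h1 : ∀ᶠ e' in 𝓝 (D.pt p.1 v (D.pr e)), e' ∈ D.sheet p.1 v :=
        (D.isOpen_sheet p.1 v).mem_nhds hpt
      have h2 : ∀ᶠ e' in 𝓝 (D.pt p.1 v (D.pr e)), A.e p.1 (D.pr e') ∈
          Metric.ball (A.e p.1 (D.pr e)) r := by
        have hca : ContinuousAt (fun e' => D.chart p.1 v e') (D.pt p.1 v (D.pr e)) :=
          (D.chart p.1 v).continuousAt hpt
        exact hca.eventually (Metric.isOpen_ball.mem_nhds (Metric.mem_ball_self hr))
      filter_upwards [h1, h2] with e' he1 he2
      have h3 := hcon _ he2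
      rwa [(A.e p.1).left_inv he1.1, D.pt_of_mem he1] at h3)
    ⟨_, Metric.mem_ball_self hr⟩
  refine ⟨(A.e p.1).symm z, (A.e p.1).map_target (hball hz1), ?_⟩
  rw [D.nm_apply s ((A.e p.1).map_target (hball hz1))]
  exact hz2

/-- descent of a power of the anticanonical bundle (or of any line bundle) -/
theorem hasSec_pow_of_cov [Fintype F] [PreconnectedSpace (D.cov F)] {L : LB A} {m : ℕ}
    (h : HasSec (D.pullLB F L ^ m)) : HasSec (L ^ (m * Fintype.card F)) := by
  rw [← D.pullLB_pow] at h
  have := D.hasSec_of_cov h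
  rwa [← pow_mul] at this

/-- the conclusion of S0416 descends from a finite connected covering -/
theorem main_of_cov [Finite F] [Nonempty F] [PreconnectedSpace (D.cov F)]
    (h : ∃ m : ℕ, 0 < m ∧ HasSec ((KB (D.atl F))⁻¹ ^ m)) :
    ∃ m : ℕ, 0 < m ∧ HasSec ((KB A)⁻¹ ^ m) := by
  have := Fintype.ofFinite F
  obtain ⟨m, hm, h⟩ := h
  refine ⟨m * Fintype.card F, Nat.mul_pos hm Fintype.card_pos, ?_⟩
  refine D.hasSec_pow_of_cov ?_
  rwa [D.pullLB_inv, D.pullLB_KB]

/-! ### descent of invariant data from the covering with group `G` -/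

/-- a function on the covering with group `G`, invariant under the deck group, descends -/
def desc {W : Type*} (f : D.cov G → W) (x : M) : W := f (D.pt ((A.cover x).choose) 1 x)

theorem desc_pr {W : Type*} {f : D.cov G → W} (hf : ∀ (g : G) (e : D.cov G), f (g • e) = f e)
    (e : D.cov G) : D.desc f (D.pr e) = f e := by
  obtain ⟨g, hg⟩ := D.exists_deck (e := D.pt ((A.cover (D.pr e)).choose) 1 (D.pr e)) (e' := e) rfl
  unfold desc
  rw [← hf g, hg]

theorem desc_apply {W : Type*} {f : D.cov G → W} (hf : ∀ (g : G) (e : D.cov G), f (g • e) = f e)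
    (i : A.ι) (v : G) (x : M) : D.desc f x = f (D.pt i v x) := D.desc_pr hf (D.pt i v x)

theorem smAt_desc {W : Type*} [NormedAddCommGroup W] [NormedSpace ℝ W] {f : D.cov G → W}
    (hf : ∀ (g : G) (e : D.cov G), f (g • e) = f e) (i : A.ι) (v : G)
    (h : (D.atl G).SmAt (i, v) f) : A.SmAt i (D.desc f) := by
  refine ContDiffOn.congr h fun z _ => ?_
  exact D.desc_apply hf i v _

theorem sm_desc {W : Type*} [NormedAddCommGroup W] [NormedSpace ℝ W] {f : D.cov G → W}
    (hf : ∀ (g : G) (e : D.cov G), f (g • e) = f e) (h : (D.atl G).Sm f) : A.Sm (D.desc f) :=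
  fun i => D.smAt_desc hf i 1 (h (i, 1))

theorem db_desc {W : Type*} [NormedAddCommGroup W] [NormedSpace ℂ W] {f : D.cov G → W}
    (hf : ∀ (g : G) (e : D.cov G), f (g • e) = f e) (p : A.ι × G) (a : Fin n) (e : D.cov G) :
    A.db p.1 a (D.desc f) (D.pr e) = (D.atl G).db p a f e := by
  unfold Atl.db
  congr 1
  funext z
  exact D.desc_apply hf p.1 p.2 _

end MonD

end

end Crest.Agent.R273.UCov_914
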