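import Crest.Agent.R273.EA_333
import Crest.Agent.R273.Vol_333
import Crest.Agent.R273.UCovE_914
import Crest.Agent.R273.Prd_835

/-!
# R273 (S0416), helper333: the normal form `(ℂ^g × Y) / G`

`Sus D K B` : `D : MonD A G` over `(M, A)` (`A : Atl (g + d) M`), `G` commutative, acting on `Y`,
`B : Atl d Y`, `K : Kah A`:  a homeomorphism `Ψ : ℂ^g × Y ≃ D.cov G`, biholomorphic, with
`γ • Ψ (z, y) = Ψ (z + λ γ, γ • y)` and `Ψ^* K = G0 ⊕ KY`.
-/

set_option autoImplicit false
set_option linter.unusedSectionVars false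

open Set Filter Topology Complex
open scoped ContDiff Matrix ComplexConjugate Manifold ComplexOrder

namespace Crest.Agent.R273.Sus_333

open Crest.Agent.R275.Geo Crest.Agent.R275.Core144 Crest.Agent.R275.GC293
open Crest.Agent.R275.Prod363
open Crest.Agent.R273.Defs_333 Crest.Agent.R273.Kah_333 Crest.Agent.R273.Vol_333
open Crest.Agent.R273.Map_835 Crest.Agent.R273.PB_835 Crest.Agent.R273.EA_333
open Crest.Agent.R273.UCov_914 Crest.Agent.R273.Prd_835

noncomputable section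

/-! ### the covering projection -/

section pr

variable {n : ℕ} {M : Type} [TopologicalSpace M] {A : Atl n M} {G : Type} [Group G]
  (D : MonD A G) {F : Type} [MulAction G F]

theorem holMap_pr : HolMap (D.atl F) A D.pr :=
  ⟨D.continuous_pr, fun p j => (A.holo p.1 j).mono fun _ hz => ⟨hz.1, hz.2⟩⟩

theorem Jp_pr (p : (D.atl F).ι) (j : A.ι) (e : D.cov F) :
    Jp (D.atl F) A D.pr p j e = Jm A p.1 j (D.pr e) := rfl

theorem det_Jm_ne {i j : A.ι} {x : M} (hx : x ∈ (A.e i).source ∩ (A.e j).source) :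
    (Jm A i j x).det ≠ 0 := by
  rw [← KB_g hx]
  exact (KB A).ne_zero i j x

theorem lBih_pr : LBih (D.atl F) A D.pr :=
  ⟨holMap_pr D, fun p j e hp hj => by
    rw [Jp_pr]
    exact det_Jm_ne ⟨hp.1, hj⟩⟩

/-- the deck transformations are locally biholomorphic -/
theorem holMap_deck (g : G) : HolMap (D.atl G) (D.atl G) (fun e : D.cov G => g • e) := by
  refine ⟨continuous_const_smul g, fun p q => ?_⟩
  refine (A.holo p.1 q.1).mono fun z hz => ⟨hz.1, ?_⟩
  exact hz.2.1

/-- the Jacobian of a deck transformation -/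
theorem Jp_deck (g : G) (p q : (D.atl G).ι) (e : D.cov G) :
    Jp (D.atl G) (D.atl G) (fun e : D.cov G => g • e) p q e = Jm A p.1 q.1 (D.pr e) := rfl

theorem lBih_deck (g : G) : LBih (D.atl G) (D.atl G) (fun e : D.cov G => g • e) :=
  ⟨holMap_deck D g, fun p q e hp hq => by
    rw [Jp_deck]
    exact det_Jm_ne ⟨hp.1, hq.1⟩⟩

end pr

/-! ### block matrices -/

/-- block diagonal matrix -/
def blk {g d : ℕ} (X : Matrix (Fin g) (Fin g) ℂ) (Z : Matrix (Fin d) (Fin d) ℂ) :
    Matrix (Fin (g + d)) (Fin (g + d)) ℂ :=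
  Matrix.reindex finSumFinEquiv finSumFinEquiv (Matrix.fromBlocks X 0 0 Z)

section blk

variable {g d : ℕ} (X X' : Matrix (Fin g) (Fin g) ℂ) (Z Z' : Matrix (Fin d) (Fin d) ℂ)

theorem det_blk : (blk X Z).det = X.det * Z.det := by
  rw [blk, Matrix.det_reindex_self, Matrix.det_fromBlocks_zero₂₁]

theorem blk_mul : blk X Z * blk X' Z' = blk (X * X') (Z * Z') := by
  simp [blk, Matrix.submatrix_mul_equiv, Matrix.fromBlocks_multiply]

theorem blk_transpose : (blk X Z)ᵀ = blk Xᵀ Zᵀ := by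
  simp [blk, Matrix.fromBlocks_transpose]

theorem blk_map : (blk X Z).map conj = blk (X.map conj) (Z.map conj) := by
  ext a b
  simp only [blk, Matrix.reindex_apply, Matrix.submatrix_apply, Matrix.map_apply]
  rcases finSumFinEquiv.symm a with a | a <;> rcases finSumFinEquiv.symm b with b | b <;>
    simp

theorem blk_one : blk (1 : Matrix (Fin g) (Fin g) ℂ) (1 : Matrix (Fin d) (Fin d) ℂ) = 1 := by
  simp [blk]

theorem blk_ll (a b : Fin g) : blk X Z (Fin.castAdd d a) (Fin.castAdd d b) = X a b := by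
  simp [blk]

theorem blk_rr (a b : Fin d) : blk X Z (Fin.natAdd g a) (Fin.natAdd g b) = Z a b := by
  simp [blk]

theorem blk_lr (a : Fin g) (b : Fin d) : blk X Z (Fin.castAdd d a) (Fin.natAdd g b) = 0 := by
  simp [blk]

theorem blk_rl (a : Fin d) (b : Fin g) : blk X Z (Fin.natAdd g a) (Fin.castAdd d b) = 0 := by
  simp [blk]

theorem blk_ext {T : Matrix (Fin (g + d)) (Fin (g + d)) ℂ}
    (h1 : ∀ a b, T (Fin.castAdd d a) (Fin.castAdd d b) = X a b)
    (h2 : ∀ a b, T (Fin.natAdd g a) (Fin.natAdd g b) = Z a b)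
    (h3 : ∀ a b, T (Fin.castAdd d a) (Fin.natAdd g b) = 0)
    (h4 : ∀ a b, T (Fin.natAdd g a) (Fin.castAdd d b) = 0) : T = blk X Z := by
  ext a b
  induction a using Fin.addCases with
  | left a =>
    induction b using Fin.addCases with
    | left b => rw [h1, blk_ll]
    | right b => rw [h3, blk_lr]
  | right a =>
    induction b using Fin.addCases with
    | left b => rw [h4, blk_rl]
    | right b => rw [h2, blk_rr]

end blk

/-! ### Jacobians of product maps -/

section prodmap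

variable {n m n' m' : ℕ} {M N M' N' : Type} [TopologicalSpace M] [TopologicalSpace N]
  [TopologicalSpace M'] [TopologicalSpace N'] {A : Atl n M} {B : Atl m N}
  {A' : Atl n M'} {B' : Atl m N'} {f : M → M'} {h : N → N'}

theorem fstL_single_l (a : Fin n) :
    fstL n m (EuclideanSpace.single (Fin.castAdd m a) (1 : ℂ)) = EuclideanSpace.single a 1 := by
  rw [← app_single_left, fstL_app]

theorem sndL_single_l (a : Fin n) :
    sndL n m (EuclideanSpace.single (Fin.castAdd m a) (1 : ℂ)) = 0 := by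
  rw [← app_single_left, sndL_app]

theorem fstL_single_r (b : Fin m) :
    fstL n m (EuclideanSpace.single (Fin.natAdd n b) (1 : ℂ)) = 0 := by
  rw [← app_single_right, fstL_app]

theorem sndL_single_r (b : Fin m) :
    sndL n m (EuclideanSpace.single (Fin.natAdd n b) (1 : ℂ)) = EuclideanSpace.single b 1 := by
  rw [← app_single_right, sndL_app]

theorem holMap_prodMap (hf : HolMap A A' f) (hh : HolMap B B' h) :
    HolMap (A.prod B) (A'.prod B') (fun q : M × N => (f q.1, h q.2)) :=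
  holMap_pair (hf.comp holMap_fst) (hh.comp holMap_snd)

/-- the Jacobian of a product map -/
theorem Jp_prodMap (hf : HolMap A A' f) (hh : HolMap B B' h) {i : A.ι} {j : B.ι} {i' : A'.ι}
    {j' : B'.ι} {x : M} {y : N} (hx : x ∈ (A.e i).source) (hy : y ∈ (B.e j).source)
    (hx' : f x ∈ (A'.e i').source) (hy' : h y ∈ (B'.e j').source) :
    Jp (A.prod B) (A'.prod B') (fun q : M × N => (f q.1, h q.2)) (i, j) (i', j') (x, y) =
      blk (Jp A A' f i i' x) (Jp B B' h j j' y) := by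
  have e0 : (A.prod B).e (i, j) (x, y) = app (A.e i x) (B.e j y) := rfl
  have e1 : rd (A.prod B) (A'.prod B') (fun q : M × N => (f q.1, h q.2)) (i, j) (i', j') =
      fun z => appL n m (rd A A' f i i' (fstL n m z), rd B B' h j j' (sndL n m z)) := rfl
  have h1 : HasFDerivAt (rd A A' f i i') (fderiv ℂ (rd A A' f i i') (A.e i x))
      (fstL n m (app (A.e i x) (B.e j y))) := by
    rw [fstL_app]
    exact (hf.diffAt (mem_dm hx hx')).hasFDerivAt
  have h2 : HasFDerivAt (rd B B' h j j') (fderiv ℂ (rd B B' h j j') (B.e j y))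
      (sndL n m (app (A.e i x) (B.e j y))) := by
    rw [sndL_app]
    exact (hh.diffAt (mem_dm hy hy')).hasFDerivAt
  have h3 := (appL n m).hasFDerivAt.comp (app (A.e i x) (B.e j y))
    ((h1.comp (app (A.e i x) (B.e j y)) (fstL n m).hasFDerivAt).prodMk
      (h2.comp (app (A.e i x) (B.e j y)) (sndL n m).hasFDerivAt))
  have h4 : fderiv ℂ (rd (A.prod B) (A'.prod B') (fun q : M × N => (f q.1, h q.2)) (i, j) (i', j'))
      (app (A.e i x) (B.e j y)) = (appL n m).comp
        (((fderiv ℂ (rd A A' f i i') (A.e i x)).comp (fstL n m)).prod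
          ((fderiv ℂ (rd B B' h j j') (B.e j y)).comp (sndL n m))) := by
    rw [e1]
    exact h3.fderiv
  refine blk_ext _ _ (fun a b => ?_) (fun a b => ?_) (fun a b => ?_) (fun a b => ?_)
  · rw [Jp_eq, e0, h4, Jp_eq]
    simp only [Map_835.mt, Matrix.of_apply, ContinuousLinearMap.comp_apply, ContinuousLinearMap.prod_apply,
      appL_apply, app_castAdd, fstL_single_l]
  · rw [Jp_eq, e0, h4, Jp_eq]
    simp only [Map_835.mt, Matrix.of_apply, ContinuousLinearMap.comp_apply, ContinuousLinearMap.prod_apply,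
      appL_apply, app_natAdd, sndL_single_r]
  · rw [Jp_eq, e0, h4]
    simp only [Map_835.mt, Matrix.of_apply, ContinuousLinearMap.comp_apply, ContinuousLinearMap.prod_apply,
      appL_apply, app_castAdd, fstL_single_r, map_zero]
    rfl
  · rw [Jp_eq, e0, h4]
    simp only [Map_835.mt, Matrix.of_apply, ContinuousLinearMap.comp_apply, ContinuousLinearMap.prod_apply,
      appL_apply, app_natAdd, sndL_single_l, map_zero]
    rfl

theorem lBih_prodMap (hf : LBih A A' f) (hh : LBih B B' h) :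
    LBih (A.prod B) (A'.prod B') (fun q : M × N => (f q.1, h q.2)) := by
  refine ⟨holMap_prodMap hf.toHolMap hh.toHolMap, ?_⟩
  rintro ⟨i, j⟩ ⟨i', j'⟩ ⟨x, y⟩ ⟨hx, hy⟩ ⟨hx', hy'⟩
  rw [Jp_prodMap hf.toHolMap hh.toHolMap hx hy hx' hy', det_blk]
  exact mul_ne_zero (hf.det i i' x hx hx') (hh.det j j' y hy hy')

end prodmap

/-! ### the structure -/

variable {g d : ℕ} {M : Type} [TopologicalSpace M] {A : Atl (g + d) M} {G : Type} [CommGroup G]

/-- **normal form** -/
structure Sus (D : MonD A G) (K : Kah A) {Y : Type} [TopologicalSpace Y] [MulAction G Y]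
    (B : Atl d Y) where
  /-- translation part -/
  lam : G →* Multiplicative (Cn g)
  /-- `ℂ^g × Y ≃` universal cover -/
  Ψ : (Cn g × Y) ≃ₜ D.cov G
  lb : LBih ((EA g).prod B) (D.atl G) Ψ
  eqv : ∀ (γ : G) (z : Cn g) (y : Y),
    γ • Ψ (z, y) = Ψ (z + Multiplicative.toAdd (lam γ), γ • y)
  /-- constant metric on `ℂ^g` -/
  G0 : Matrix (Fin g) (Fin g) ℂ
  G0pos : G0.PosDef
  /-- metric on the fibre -/
  KY : Kah B
  met : ∀ (i : (EA g).ι) (j : B.ι) (a : A.ι) (z : Cn g) (y : Y), z ∈ ((EA g).e i).source →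
    y ∈ (B.e j).source → D.pr (Ψ (z, y)) ∈ (A.e a).source →
    (Jp ((EA g).prod B) A (fun q => D.pr (Ψ q)) (i, j) a (z, y))ᵀ * K.g a (D.pr (Ψ (z, y))) *
      (Jp ((EA g).prod B) A (fun q => D.pr (Ψ q)) (i, j) a (z, y)).map conj = blk G0 (KY.g j y)

namespace Sus

variable {D : MonD A G} {K : Kah A} {Y : Type} [TopologicalSpace Y] [MulAction G Y]
  {B : Atl d Y} (S : Sus D K B)

/-- the map `ℂ^g × Y → M` -/
def π : Cn g × Y → M := fun q => D.pr (S.Ψ q)

/-- the action on `ℂ^g × Y` -/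
def act (γ : G) : Cn g × Y → Cn g × Y := fun q =>
  (q.1 + Multiplicative.toAdd (S.lam γ), γ • q.2)

theorem act_fst (γ : G) (q : Cn g × Y) : (S.act γ q).1 = q.1 + Multiplicative.toAdd (S.lam γ) := rfl
theorem act_snd (γ : G) (q : Cn g × Y) : (S.act γ q).2 = γ • q.2 := rfl

theorem Ψ_act (γ : G) (q : Cn g × Y) : S.Ψ (S.act γ q) = γ • S.Ψ q := (S.eqv γ q.1 q.2).symm

theorem act_eq (γ : G) : S.act γ = fun q => S.Ψ.symm (γ • S.Ψ q) := by
  funext q
  rw [← S.Ψ_act, Homeomorph.symm_apply_apply]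

theorem π_act (γ : G) (q : Cn g × Y) : S.π (S.act γ q) = S.π q := by
  rw [π, π, S.Ψ_act]
  exact D.pr_deck γ _

theorem lb_π : LBih ((EA g).prod B) A S.π := (lBih_pr D).comp S.lb

theorem lb_symm : LBih (D.atl G) ((EA g).prod B) S.Ψ.symm :=
  S.lb.symm S.Ψ.symm.continuous fun y => S.Ψ.apply_symm_apply y

theorem lb_act (γ : G) : LBih ((EA g).prod B) ((EA g).prod B) (S.act γ) := by
  rw [S.act_eq γ]
  exact S.lb_symm.comp ((lBih_deck D γ).comp S.lb)

include S in
/-- the action on `Y` is holomorphic -/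
theorem holMap_smul (γ : G) : HolMap B B (fun y : Y => γ • y) := by
  have h1 : HolMap B B (fun y : Y => (S.act γ (0, y)).2) :=
    holMap_snd.comp ((S.lb_act γ).toHolMap.comp (holMap_inr (0 : Cn g)))
  exact h1

theorem Jp_act (γ : G) {i i' : (EA g).ι} {j j' : B.ι} {z : Cn g} {y : Y}
    (hz : z ∈ ((EA g).e i).source) (hy : y ∈ (B.e j).source)
    (hz' : z + Multiplicative.toAdd (S.lam γ) ∈ ((EA g).e i').source)
    (hy' : γ • y ∈ (B.e j').source) :
    Jp ((EA g).prod B) ((EA g).prod B) (S.act γ) (i, j) (i', j') (z, y) =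
      blk 1 (Jp B B (fun y : Y => γ • y) j j' y) := by
  have h1 := Jp_prodMap (holMap_add (Multiplicative.toAdd (S.lam γ))) (S.holMap_smul γ)
    hz hy hz' hy'
  rw [Jp_add] at h1
  exact h1

include S in
theorem lb_smul (γ : G) : LBih B B (fun y : Y => γ • y) := by
  refine ⟨S.holMap_smul γ, fun j j' y hy hy' h0 => ?_⟩
  obtain ⟨i, hi⟩ := (EA g).cover (0 : Cn g)
  obtain ⟨i', hi'⟩ := (EA g).cover (0 + Multiplicative.toAdd (S.lam γ))
  have h1 := (S.lb_act γ).det (i, j) (i', j') (0, y) ⟨hi, hy⟩ ⟨hi', hy'⟩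
  rw [S.Jp_act γ hi hy hi' hy', det_blk, h0, mul_zero] at h1
  exact h1 rfl

include S in
theorem continuous_smul (γ : G) : Continuous (fun y : Y => γ • y) := (S.holMap_smul γ).cont

/-- the metric of the fibre is invariant -/
theorem KY_inv (γ : G) {j j' : B.ι} {y : Y} (hy : y ∈ (B.e j).source)
    (hy' : γ • y ∈ (B.e j').source) :
    S.KY.g j y = (Jp B B (fun y : Y => γ • y) j j' y)ᵀ * S.KY.g j' (γ • y) *
      (Jp B B (fun y : Y => γ • y) j j' y).map conj := by
  obtain ⟨i, hi⟩ := (EA g).cover (0 : Cn g)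
  obtain ⟨i', hi'⟩ := (EA g).cover (0 + Multiplicative.toAdd (S.lam γ))
  obtain ⟨a, ha⟩ := A.cover (S.π (0, y))
  have ha' : S.π (S.act γ (0, y)) ∈ (A.e a).source := by
    rw [S.π_act]; exact ha
  have h1 := S.met i j a 0 y hi hy ha
  have h2 := S.met i' j' a (0 + Multiplicative.toAdd (S.lam γ)) (γ • y) hi' hy' ha'
  have h3 := Jp_comp S.lb_π.toHolMap (S.lb_act γ).toHolMap (i := (i, j)) (j := (i', j'))
    (l := a) (x := ((0 : Cn g), y)) ⟨hi, hy⟩ ⟨hi', hy'⟩ ha'
  have h4 : (fun q => S.π (S.act γ q)) = S.π := funext fun q => S.π_act γ q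
  rw [h4, S.Jp_act γ hi hy hi' hy'] at h3
  have h5 : S.π (S.act γ (0, y)) = S.π (0, y) := S.π_act γ _
  set T := Jp ((EA g).prod B) A S.π (i', j') a (S.act γ (0, y)) with hT
  set J := Jp B B (fun y : Y => γ • y) j j' y with hJ
  have h6 : (Jp ((EA g).prod B) A S.π (i, j) a (0, y))ᵀ * K.g a (S.π (0, y)) *
      (Jp ((EA g).prod B) A S.π (i, j) a (0, y)).map conj = blk S.G0 (S.KY.g j y) := h1
  have h7 : Tᵀ * K.g a (S.π (S.act γ (0, y))) * T.map conj = blk S.G0 (S.KY.g j' (γ • y)) := h2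
  have h8 : blk S.G0 (S.KY.g j y) = blk S.G0 (Jᵀ * S.KY.g j' (γ • y) * J.map conj) := by
    rw [← h6, ← h3, Matrix.transpose_mul, Matrix.map_mul]
    have h9 : (blk (1 : Matrix (Fin g) (Fin g) ℂ) J)ᵀ * Tᵀ * K.g a (S.π (0, y)) *
        (T.map conj * (blk (1 : Matrix (Fin g) (Fin g) ℂ) J).map conj) =
        (blk (1 : Matrix (Fin g) (Fin g) ℂ) J)ᵀ * (Tᵀ * K.g a (S.π (0, y)) * T.map conj) *
          (blk (1 : Matrix (Fin g) (Fin g) ℂ) J).map conj := by
      simp only [Matrix.mul_assoc]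
    rw [h9, ← h5, h7, blk_transpose, blk_map, blk_mul, blk_mul]
    congr 1
    rw [Matrix.transpose_one, Matrix.one_mul]
    simp
  ext b c
  have h9 := congrFun (congrFun h8 (Fin.natAdd g b)) (Fin.natAdd g c)
  rwa [blk_rr, blk_rr] at h9

/-! #### volume forms -/

theorem det_map_conj {k : ℕ} (T : Matrix (Fin k) (Fin k) ℂ) : (T.map conj).det = conj T.det := by
  rw [← RingHom.mapMatrix_apply, ← RingHom.map_det]

/-- the volume forms -/
theorem vol_eq {i : (EA g).ι} {j : B.ι} {a : A.ι} {z : Cn g} {y : Y}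
    (hz : z ∈ ((EA g).e i).source) (hy : y ∈ (B.e j).source) (ha : S.π (z, y) ∈ (A.e a).source) :
    ‖(Jp ((EA g).prod B) A S.π (i, j) a (z, y)).det‖ ^ 2 * (volK K).w a (S.π (z, y)) =
      S.G0.det.re * (volK S.KY).w j y := by
  have h1 : (Jp ((EA g).prod B) A S.π (i, j) a (z, y))ᵀ * K.g a (S.π (z, y)) *
      (Jp ((EA g).prod B) A S.π (i, j) a (z, y)).map conj = blk S.G0 (S.KY.g j y) :=
    S.met i j a z y hz hy ha
  have h2 := congrArg Matrix.det h1
  rw [Matrix.det_mul, Matrix.det_mul, Matrix.det_transpose, det_map_conj, det_blk,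
    ← volK_w K a ha, ← volK_w S.KY j hy, ← det_real S.G0pos.1] at h2
  have h3 : ((‖(Jp ((EA g).prod B) A S.π (i, j) a (z, y)).det‖ ^ 2 : ℝ) : ℂ) =
      (Jp ((EA g).prod B) A S.π (i, j) a (z, y)).det *
        conj (Jp ((EA g).prod B) A S.π (i, j) a (z, y)).det := by
    rw [Complex.mul_conj, Complex.normSq_eq_norm_sq]
  have h4 : ((‖(Jp ((EA g).prod B) A S.π (i, j) a (z, y)).det‖ ^ 2 *
      (volK K).w a (S.π (z, y)) : ℝ) : ℂ) = ((S.G0.det.re * (volK S.KY).w j y : ℝ) : ℂ) := by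
    rw [Complex.ofReal_mul, h3, Complex.ofReal_mul, ← h2]
    ring
  exact_mod_cast h4

/-- the slices -/
def sl (z : Cn g) : Y → M := fun y => S.π (z, y)

theorem holMap_sl (z : Cn g) : HolMap B A (S.sl z) := S.lb_π.toHolMap.comp (holMap_inr z)

/-- the canonical bundle restricted to the slices -/
def pbK (z : Cn g) : PB (S.sl z) (KB B) (KB A) :=
  PB.comp (p := fun y => (z, y)) (q := S.π) (holMap_inr z) S.lb_π.toHolMap (PBinr z)
    (PB.KB S.lb_π)

theorem pbK_c {i : (EA g).ι} {j : B.ι} {a : A.ι} {z : Cn g} {y : Y}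
    (hz : z ∈ ((EA g).e i).source) (hy : y ∈ (B.e j).source) (ha : S.π (z, y) ∈ (A.e a).source) :
    (S.pbK z).c j a y = (Jp ((EA g).prod B) A S.π (i, j) a (z, y)).det := by
  unfold pbK
  rw [PB.comp_c (p := fun y => (z, y)) (q := S.π) (holMap_inr z) S.lb_π.toHolMap (PBinr z) (PB.KB S.lb_π) (j := (i, j)) hy
    ⟨hz, hy⟩ ha]
  have h1 : (PBinr (A := EA g) (B := B) z).c j (i, j) y =
      (KB B).g j j y * (KB (EA g)).g (PB.ch (EA g) z) i z := rfl
  rw [h1, (KB B).self, KB_EA ⟨PB.ch_mem (EA g) z, hz⟩, one_mul, one_mul]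
  rfl

/-- the restriction of `volK K` to the slices -/
def slHM (z : Cn g) : HM (KB B)⁻¹ := (S.pbK z).inv.pullHM (S.holMap_sl z) (volK K)

theorem slHM_w (z : Cn g) {j : B.ι} {y : Y} (hy : y ∈ (B.e j).source) :
    (S.slHM z).w j y = S.G0.det.re * (volK S.KY).w j y := by
  obtain ⟨i, hi⟩ := (EA g).cover z
  obtain ⟨a, ha⟩ := A.cover (S.sl z y)
  unfold slHM
  rw [(S.pbK z).inv.pullHM_w (S.holMap_sl z) (volK K) hy ha]
  have h1 : (S.pbK z).inv.c j a y = ((S.pbK z).c j a y)⁻¹ := rfl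
  have h2 : (Jp ((EA g).prod B) A S.π (i, j) a (z, y)).det ≠ 0 :=
    S.lb_π.det (i, j) a (z, y) ⟨hi, hy⟩ ha
  rw [h1, S.pbK_c hi hy ha, ← S.vol_eq hi hy ha, norm_inv]
  have h3 : S.sl z y = S.π (z, y) := rfl
  rw [h3]
  field_simp

theorem cur_slHM (z : Cn g) (j : B.ι) {y : Y} (hy : y ∈ (B.e j).source) :
    cur (S.slHM z) j y = cur (volK S.KY) j y := by
  have h1 := det_re_pos S.G0pos
  refine cur_const (volK S.KY) (S.slHM z) (Real.log S.G0.det.re) (fun j y hy => ?_) j hy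
  rw [Real.exp_log h1, S.slHM_w z hy]

/-- the volume form of the fibre is semipositive -/
theorem volKY_semipos (hs : (volK K).Semipos) : (volK S.KY).Semipos := by
  refine semipos_of_cur fun j y hy => ?_
  rw [← S.cur_slHM 0 j hy]
  exact cur_posSemidef ((S.pbK 0).inv.pullHM_semipos (S.holMap_sl 0) hs) j hy

end Sus

end

end Crest.Agent.R273.Sus_333
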