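import Crest.Agent.R273.AlbG_645
import Crest.Agent.R273.NoHVF_376
import Crest.Agent.R273.KahI_645
import Crest.Agent.R273.Sus_333
import Crest.Agent.R273.Fam_835
import Crest.Agent.R273.HFlowC_376

/-!
# R273 (S0416), Part B (helper645), file H: metric facts for the normal form

`S : DualD A g` with `S.b` a basis `bs` of `H1 A` and all `S.V k` parallel for `K`:
* `G0m`      : the constant Gram matrix `hf K i x V_k V_l`;
* `hf_right` : a vector killed by all the forms is orthogonal to the fields;
* `G0_pos`   : positivity.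
-/

set_option autoImplicit false
set_option linter.unusedSectionVars false
set_option linter.style.haveILetI false

open Set Filter Topology Complex Metric Function
open scoped ContDiff ComplexConjugate Matrix ComplexOrder

namespace Crest.Agent.R273.Alb645

open Crest.Agent.R275.Geo Crest.Agent.R275.Core144 Crest.Agent.R275.GC293
open Crest.Agent.R275.ZC352 Crest.Agent.R273.UCov_914
open Crest.Agent.R273.HFlow3_376 Crest.Agent.R273.HFlow4_376 Crest.Agent.R273.HFlow5_376
open Crest.Agent.R273.HFlow6_376 Crest.Agent.R273.HFlow7_376 Crest.Agent.R273.Map_835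
open Crest.Agent.R273.Kah_333 Crest.Agent.R273.NoHVF_376

noncomputable section

variable {n : ℕ} {M : Type} [TopologicalSpace M] {A : Atl n M} {g : ℕ}

/-! ### the Hermitian form -/

theorem hf_conj (K : Kah A) {i : A.ι} {x : M} (hx : x ∈ (A.e i).source) (v w : Cn n) :
    conj (hf K i x v w) = hf K i x w v := by
  have hG : ∀ a b, conj (K.g i x b a) = K.g i x a b := fun a b => (K.pos i x hx).1.apply a b
  rw [hf_eq, hf_eq, map_sum]
  simp only [map_sum, map_mul, Complex.conj_conj, hG]
  rw [Finset.sum_comm]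
  refine Finset.sum_congr rfl fun a _ => Finset.sum_congr rfl fun b _ => ?_
  ring

theorem hf_add_left (K : Kah A) (i : A.ι) (x : M) (v v' w : Cn n) :
    hf K i x (v + v') w = hf K i x v w + hf K i x v' w := by
  rw [hf_eq, hf_eq, hf_eq, ← Finset.sum_add_distrib]
  refine Finset.sum_congr rfl fun a _ => ?_
  rw [← Finset.sum_add_distrib]
  refine Finset.sum_congr rfl fun b _ => ?_
  change _ * (v a + v' a) * _ = _
  ring

theorem hf_smul_left (K : Kah A) (i : A.ι) (x : M) (c : ℂ) (v w : Cn n) :
    hf K i x (c • v) w = c * hf K i x v w := by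
  rw [hf_eq, hf_eq, Finset.mul_sum]
  refine Finset.sum_congr rfl fun a _ => ?_
  rw [Finset.mul_sum]
  refine Finset.sum_congr rfl fun b _ => ?_
  change _ * (c * v a) * _ = _
  ring

theorem hf_sum_left (K : Kah A) (i : A.ι) (x : M) {κ : Type*} (s : Finset κ) (c : κ → ℂ)
    (v : κ → Cn n) (w : Cn n) :
    hf K i x (∑ k ∈ s, c k • v k) w = ∑ k ∈ s, c k * hf K i x (v k) w := by
  classical
  induction s using Finset.induction_on with
  | empty =>
    have h := hf_smul_left K i x 0 0 w
    rw [zero_smul, zero_mul] at h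
    simpa using h
  | insert k s hk ih =>
    rw [Finset.sum_insert hk, Finset.sum_insert hk, hf_add_left, hf_smul_left, ih]

theorem hf_pos (K : Kah A) {i : A.ι} {x : M} (hx : x ∈ (A.e i).source) {v : Cn n} (hv : v ≠ 0) :
    0 < hf K i x v v := by
  have h0 : star ((v : Fin n → ℂ)) ≠ 0 := by
    intro h
    apply hv
    have h1 : ((v : Fin n → ℂ)) = 0 := by
      rw [← star_star ((v : Fin n → ℂ)), h, star_zero]
    ext a
    exact congrFun h1 a
  have h1 := (K.pos i x hx).dotProduct_mulVec_pos h0
  rw [star_star] at h1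
  exact h1

variable (S : DualD A g) (K : Kah A) (hp : ∀ k, Par K (S.V k))
  (bs : Module.Basis (Fin g) ℂ (H1 A)) (hbs : ∀ k, bs k = S.b k)

/-- the Gram matrix -/
def G0m : Matrix (Fin g) (Fin g) ℂ :=
  Matrix.of fun k l => bs.repr ⟨lowF K (S.V l), lowF_mem (hp l)⟩ k

/-- evaluation of forms at a point -/
def evF (A : Atl n M) (i : A.ι) (x : M) (v : Cn n) : H1 A →ₗ[ℂ] ℂ where
  toFun b := (b : A.ι → M → (Cn n →L[ℂ] ℂ)) i x v
  map_add' _ _ := rfl
  map_smul' _ _ := rfl

include hbs in
theorem lowF_expand (l : Fin g) {i : A.ι} {x : M} (hx : x ∈ (A.e i).source) (v : Cn n) :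
    hf K i x v ((S.V l).X i x) =
      ∑ k, G0m S K hp bs k l * (S.b k : A.ι → M → (Cn n →L[ℂ] ℂ)) i x v := by
  have h1 := bs.sum_repr ⟨lowF K (S.V l), lowF_mem (hp l)⟩
  have h2 := congrArg (evF A i x v) h1
  rw [map_sum] at h2
  rw [← lowF_hf hx]
  refine h2.symm.trans (Finset.sum_congr rfl fun k _ => ?_)
  rw [map_smul, hbs k]
  rfl

include hbs in
/-- the Gram matrix is constant -/
theorem hf_VV (k l : Fin g) {i : A.ι} {x : M} (hx : x ∈ (A.e i).source) :
    hf K i x ((S.V k).X i x) ((S.V l).X i x) = G0m S K hp bs k l := by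
  rw [lowF_expand S K hp bs hbs l hx, Finset.sum_eq_single k]
  · rw [S.dual k k i x hx, if_pos rfl, mul_one]
  · intro m _ hm
    rw [S.dual m k i x hx, if_neg hm, mul_zero]
  · intro h
    exact absurd (Finset.mem_univ k) h

include hp hbs in
/-- orthogonality -/
theorem hf_right {i : A.ι} {x : M} (hx : x ∈ (A.e i).source) {v : Cn n}
    (hv : ∀ k, (S.b k : A.ι → M → (Cn n →L[ℂ] ℂ)) i x v = 0) (l : Fin g) :
    hf K i x v ((S.V l).X i x) = 0 := by
  rw [lowF_expand S K hp bs hbs l hx]
  refine Finset.sum_eq_zero fun k _ => ?_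
  rw [hv k, mul_zero]

include hp hbs in
theorem hf_left {i : A.ι} {x : M} (hx : x ∈ (A.e i).source) {v : Cn n}
    (hv : ∀ k, (S.b k : A.ι → M → (Cn n →L[ℂ] ℂ)) i x v = 0) (l : Fin g) :
    hf K i x ((S.V l).X i x) v = 0 := by
  rw [← hf_conj K hx, hf_right S K hp bs hbs hx hv, map_zero]

include hbs in
/-- positivity of the Gram matrix -/
theorem G0_pos [Nonempty M] : (G0m S K hp bs).PosDef := by
  obtain ⟨x⟩ := ‹Nonempty M›
  obtain ⟨i, hx⟩ := A.cover x
  refine Matrix.PosDef.of_dotProduct_mulVec_pos ?_ fun c hc => ?_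
  · ext k l
    rw [Matrix.conjTranspose_apply, ← hf_VV S K hp bs hbs l k hx, ← hf_VV S K hp bs hbs k l hx]
    exact hf_conj K hx _ _
  · set v : Cn n := ∑ k, conj (c k) • (S.V k).X i x with hv
    have hv0 : v ≠ 0 := by
      intro h0
      apply hc
      funext l
      have h1 : (S.b l : A.ι → M → (Cn n →L[ℂ] ℂ)) i x v = conj (c l) := by
        rw [hv, map_sum, Finset.sum_eq_single l]
        · rw [map_smul, S.dual l l i x hx, if_pos rfl, smul_eq_mul, mul_one]
        · intro m _ hm
          rw [map_smul, S.dual l m i x hx, if_neg hm.symm, smul_zero]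
        · intro h
          exact absurd (Finset.mem_univ l) h
      rw [h0, map_zero] at h1
      have h2 := congrArg conj h1.symm
      rw [Complex.conj_conj, map_zero] at h2
      exact h2
    have h1 := hf_pos K hx hv0
    have h2 : hf K i x v v = star c ⬝ᵥ (G0m S K hp bs *ᵥ c) := by
      conv_lhs => rw [hv]
      rw [hf_sum_left]
      simp only [dotProduct, Matrix.mulVec, Pi.star_apply, RCLike.star_def]
      refine Finset.sum_congr rfl fun k _ => ?_
      congr 1
      rw [← hf_conj K hx, hf_sum_left, map_sum]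
      refine Finset.sum_congr rfl fun l _ => ?_
      rw [map_mul, Complex.conj_conj, hf_conj K hx, hf_VV S K hp bs hbs k l hx]
      ring
    rw [← h2]
    exact h1

end

end Crest.Agent.R273.Alb645
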