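import Crest.Agent.R273.AlbH_645

/-!
# R273 (S0416), Part B (helper645), file I: the normal form `Sus` (helper333) from `DualD`

`A : Atl (g + d) M`, `B : Atl d (NN D S hA e0)` with holomorphic inclusion and retraction,
`S.b` a basis of `H1 A`, `S.V k` parallel for `K`:  `susOf : Sus D K B`.
-/

set_option autoImplicit false
set_option linter.unusedSectionVars false
set_option linter.style.haveILetI false

open Set Filter Topology Complex Metric Function
open scoped ContDiff ComplexConjugate Matrix ComplexOrder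

namespace Crest.Agent.R273.Alb645

open Crest.Agent.R275.Geo Crest.Agent.R275.Core144 Crest.Agent.R275.GC293
open Crest.Agent.R275.Prod363
open Crest.Agent.R275.ZC352 Crest.Agent.R273.UCov_914
open Crest.Agent.R273.HFlow3_376 Crest.Agent.R273.HFlow4_376 Crest.Agent.R273.HFlow5_376
open Crest.Agent.R273.HFlow6_376 Crest.Agent.R273.HFlow7_376 Crest.Agent.R273.HFlow8_376
open Crest.Agent.R273.Map_835 Crest.Agent.R273.PB_835 Crest.Agent.R273.Prd_835
open Crest.Agent.R273.Kah_333 Crest.Agent.R273.EA_333 Crest.Agent.R273.Sus_333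

noncomputable section

variable {g d : ℕ} {M : Type} [TopologicalSpace M] {A : Atl (g + d) M}
variable {G : Type} [Group G] (D : MonD A G)
variable (S : DualD A g) [CompactSpace M] [T2Space M] [Finite A.ι]
variable [SimplyConnectedSpace (D.cov G)] (hA : GoodA A) (e0 : D.cov G)

/-- the product decomposition with Euclidean first factor -/
def psiE : (Cn g × NN D S hA e0) ≃ₜ D.cov G :=
  ((EuclideanSpace.equiv (Fin g) ℂ).toHomeomorph.prodCongr (Homeomorph.refl _)).trans
    (psi D S hA e0)

theorem psiE_apply (z : Cn g) (y : NN D S hA e0) :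
    psiE D S hA e0 (z, y) = (mflowN D S).Φ (z : Fin g → ℂ) (y : D.cov G) := rfl

theorem psiE_symm_apply (e : D.cov G) :
    (psiE D S hA e0).symm e = (WithLp.toLp 2 (avec D S hA e0 e), rN D S hA e0 e) := rfl

variable (B : Atl d (NN D S hA e0))
  (hv : HolM B (D.atl G) (Subtype.val : NN D S hA e0 → D.cov G))
  (hr : HolM (D.atl G) B (rN D S hA e0))

include hv in
theorem holP_psiB (c : Fin g → ℂ) (y : NN D S hA e0) :
    HolP B (D.atl G) (fun c y => psi D S hA e0 (c, y)) c y :=
  HolP.comp (G := (mflowN D S).Φ) (F := fun _ (y : NN D S hA e0) => (y : D.cov G))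
    ((mflowN D S).hol _ _) (hv.toP c y)

theorem ofLp_add_diff (i : (EA g).ι) (w : Cn (g + d)) : DifferentiableAt ℂ
    (fun w : Cn (g + d) => (((fstL g d w + ctr i : Cn g) : Fin g → ℂ), sndL g d w)) w := by
  refine DifferentiableAt.prodMk ?_ (sndL g d).differentiableAt
  have h1 : DifferentiableAt ℂ (fun w : Cn (g + d) => (fstL g d w + ctr i : Cn g)) w :=
    (fstL g d).differentiableAt.add_const _
  exact (EuclideanSpace.equiv (Fin g) ℂ).differentiableAt.comp w h1

include hv in
theorem holMap_psiE : HolMap ((EA g).prod B) (D.atl G) (psiE D S hA e0) := by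
  refine ⟨(psiE D S hA e0).continuous, ?_⟩
  rintro ⟨i, j⟩ p w ⟨hw, hw'⟩
  have hw1 : fstL g d w ∈ ((EA g).e i).target ∧ sndL g d w ∈ (B.e j).target := hw
  have hys : (B.e j).symm (sndL g d w) ∈ (B.e j).source := (B.e j).map_target hw1.2
  have h := (holP_psiB D S hA e0 B hv ((fstL g d w + ctr i : Cn g) : Fin g → ℂ)
    ((B.e j).symm (sndL g d w))).diff (i := j) (j := p) hys hw'
  rw [(B.e j).right_inv hw1.2] at h
  exact (DifferentiableAt.comp w
    (g := fun q : (Fin g → ℂ) × Cn d => (D.atl G).e p (psi D S hA e0 (q.1, (B.e j).symm q.2)))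
    (f := fun w : Cn (g + d) => (((fstL g d w + ctr i : Cn g) : Fin g → ℂ), sndL g d w))
    h (ofLp_add_diff i w)).differentiableWithinAt

theorem holMap_avecE : HolMap (D.atl G) (EA g) (fun e => WithLp.toLp 2 (avec D S hA e0 e)) := by
  refine ⟨(PiLp.continuous_toLp 2 _).comp (continuous_avec D S hA e0), fun p k => ?_⟩
  have h1 : DifferentiableOn ℂ (fun z => (WithLp.toLp 2
      (avec D S hA e0 (((D.atl G).e p).symm z)) : Cn g) - ctr k) ((D.atl G).e p).target :=
    ((EuclideanSpace.equiv (Fin g) ℂ).symm.differentiable.comp_differentiableOn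
      (diffOn_avec D S hA e0 p)).sub_const _
  exact h1.mono inter_subset_left

include hr in
theorem holMap_psiE_symm : HolMap (D.atl G) ((EA g).prod B) (psiE D S hA e0).symm :=
  holMap_pair (holMap_avecE D S hA e0) (holM_iff.1 hr)

include hv hr in
theorem lBih_psiE : LBih ((EA g).prod B) (D.atl G) (psiE D S hA e0) :=
  Fam_835.lBih_of_inv (holMap_psiE D S hA e0 B hv) (holMap_psiE_symm D S hA e0 B hr)
    (psiE D S hA e0).symm_apply_apply

/-- the translation part with Euclidean values -/
def lamE : G →* Multiplicative (Cn g) :=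
  (AddMonoidHom.toMultiplicative
    ((EuclideanSpace.equiv (Fin g) ℂ).symm : (Fin g → ℂ) ≃L[ℂ] Cn g).toLinearMap.toAddMonoidHom).comp
    (lamB D hA e0 S.b)

theorem lamE_apply (γ : G) :
    ((Multiplicative.toAdd (lamE D S hA e0 γ) : Cn g) : Fin g → ℂ) = tr D S hA e0 γ := rfl

theorem deck_psiE (γ : G) (z : Cn g) (y : NN D S hA e0) :
    γ • psiE D S hA e0 (z, y) =
      psiE D S hA e0 (z + Multiplicative.toAdd (lamE D S hA e0 γ), γ • y) :=
  deck_psi D S hA e0 γ _ y

/-! ### tangent vectors -/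

/-- the map to `M` -/
def piE (q : Cn g × NN D S hA e0) : M := D.pr (psiE D S hA e0 q)

include hv in
theorem holMap_piE : HolMap ((EA g).prod B) A (piE D S hA e0) :=
  (holM_iff.1 (holM_pr D G)).comp (holMap_psiE D S hA e0 B hv)

/-- the slices, as maps to the covering -/
def slE (z : Cn g) (y : NN D S hA e0) : D.cov G := psiE D S hA e0 (z, y)

include hv in
theorem holM_slE (z : Cn g) : HolM B (D.atl G) (slE D S hA e0 z) :=
  HolM.comp (g := (mflowN D S).Φ (z : Fin g → ℂ)) ((mflowN D S).holM _) hv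

theorem avec_slE (z : Cn g) (y : NN D S hA e0) :
    avec D S hA e0 (slE D S hA e0 z y) = (z : Fin g → ℂ) := by
  change avec D S hA e0 ((mflowN D S).Φ (z : Fin g → ℂ) (y : D.cov G)) = _
  rw [avec_flow, avec_coe, zero_add]

include hv in
/-- the forms vanish on the slices -/
theorem form_slE (k : Fin g) (z : Cn g) {j : B.ι} {a : A.ι} {y : NN D S hA e0}
    (hj : y ∈ (B.e j).source) (ha : D.pr (slE D S hA e0 z y) ∈ (A.e a).source) (w : Cn d) :
    (S.b k : A.ι → M → (Cn (g + d) →L[ℂ] ℂ)) a (D.pr (slE D S hA e0 z y))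
      (tm B A (fun y => D.pr (slE D S hA e0 z y)) j a y w) = 0 := by
  obtain ⟨p, hpp⟩ := (D.atl G).cover (slE D S hA e0 z y)
  have hE := holM_slE D S hA e0 B hv z
  have h1 := tm_comp (f := slE D S hA e0 z) (g := D.pr (F := G)) (holM_pr D G) hE hj hpp ha
  have h2 : tm B A (fun y => D.pr (slE D S hA e0 z y)) j a y w =
      tm (D.atl G) A (D.pr (F := G)) p a (slE D S hA e0 z y)
        (tm B (D.atl G) (slE D S hA e0 z) j p y w) := by
    change tm B A (D.pr ∘ slE D S hA e0 z) j a y w = _
    rw [h1]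
    rfl
  have h3 := (S.b k).2.2.2.1 p.1 a (D.pr (slE D S hA e0 z y)) ⟨hpp.1, ha⟩
  have h4 : (S.b k : A.ι → M → (Cn (g + d) →L[ℂ] ℂ)) a (D.pr (slE D S hA e0 z y))
      (tm (D.atl G) A (D.pr (F := G)) p a (slE D S hA e0 z y)
        (tm B (D.atl G) (slE D S hA e0 z) j p y w)) =
      (S.b k : A.ι → M → (Cn (g + d) →L[ℂ] ℂ)) p.1 (D.pr (slE D S hA e0 z y))
        (tm B (D.atl G) (slE D S hA e0 z) j p y w) := by
    rw [h3]
    rfl
  rw [h2, h4]
  -- the primitive is constant on the slice
  have h5 := prm_isPrim D hA e0 (S.b k) p _ hpp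
  rw [plb_of_mem D G _ hpp] at h5
  have h6 : HasFDerivAt (fun w => (D.atl G).e p (slE D S hA e0 z ((B.e j).symm w)))
      (tm B (D.atl G) (slE D S hA e0 z) j p y) (B.e j y) := (hE.diff hj hpp).hasFDerivAt
  have h7 : (D.atl G).e p (slE D S hA e0 z ((B.e j).symm (B.e j y))) =
      (D.atl G).e p (slE D S hA e0 z y) := by rw [(B.e j).left_inv hj]
  have h8 := HasFDerivAt.comp (B.e j y) (g := fun z => prm D hA e0 (S.b k) (((D.atl G).e p).symm z))
    (f := fun w => (D.atl G).e p (slE D S hA e0 z ((B.e j).symm w))) (by rw [h7]; exact h5) h6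
  have h9 : ((fun z => prm D hA e0 (S.b k) (((D.atl G).e p).symm z)) ∘
      (fun w => (D.atl G).e p (slE D S hA e0 z ((B.e j).symm w)))) =ᶠ[𝓝 (B.e j y)]
      fun _ => (z : Fin g → ℂ) k := by
    have hc : ContinuousAt (fun w => slE D S hA e0 z ((B.e j).symm w)) (B.e j y) :=
      ContinuousAt.comp (g := slE D S hA e0 z) hE.continuous.continuousAt
        ((B.e j).continuousAt_symm ((B.e j).map_source hj))
    have hev := hc.eventually_mem (((D.atl G).e p).open_source.mem_nhds (by
      rw [(B.e j).left_inv hj]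
      exact hpp))
    filter_upwards [hev] with w hw
    change prm D hA e0 (S.b k) (((D.atl G).e p).symm ((D.atl G).e p
      (slE D S hA e0 z ((B.e j).symm w)))) = _
    rw [((D.atl G).e p).left_inv hw]
    exact congrFun (avec_slE D S hA e0 z _) k
  have h10 := h8.unique ((hasFDerivAt_const _ _).congr_of_eventuallyEq h9)
  exact congrArg (fun T : Cn d →L[ℂ] ℂ => T w) h10

end

end Crest.Agent.R273.Alb645
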