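import Crest.Agent.R273.AlbI_645

/-!
# R273 (S0416), Part B (helper645), file J: SUSOF

`susOf : Sus D K B` (normal form of helper333) for `Y = NN D S hA e0`.
-/

set_option autoImplicit false
set_option linter.unusedSectionVars false
set_option linter.style.haveILetI false

open Set Filter Topology Complex Metric Function
open scoped ContDiff ComplexConjugate Matrix ComplexOrder

namespace Crest.Agent.R273.Alb645

open Crest.Agent.R275.Geo Crest.Agent.R275.Core144 Crest.Agent.R275.GC293
open Crest.Agent.R275.Prod363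
open Crest.Agent.R275.ZC352 Crest.Agent.R273.UCov_914
open Crest.Agent.R273.HFlow3_376 Crest.Agent.R273.HFlow4_376 Crest.Agent.R273.HFlow5_376
open Crest.Agent.R273.HFlow6_376 Crest.Agent.R273.HFlow7_376 Crest.Agent.R273.HFlow8_376
open Crest.Agent.R273.Map_835 Crest.Agent.R273.PB_835 Crest.Agent.R273.Prd_835
open Crest.Agent.R273.Kah_333 Crest.Agent.R273.EA_333 Crest.Agent.R273.Sus_333

noncomputable section

section cols

variable {g d : ℕ} {M : Type} [TopologicalSpace M] {A : Atl (g + d) M}
variable {G : Type} [Group G] (D : MonD A G)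
variable (S : DualD A g) [CompactSpace M] [T2Space M] [Finite A.ι]
variable [SimplyConnectedSpace (D.cov G)] (hA : GoodA A) (e0 : D.cov G)
variable (B : Atl d (NN D S hA e0))
  (hv : HolM B (D.atl G) (Subtype.val : NN D S hA e0 → D.cov G))
  (hr : HolM (D.atl G) B (rN D S hA e0))

include hv in
/-- the differential in the directions of `ℂ^g` -/
theorem tm_left (k : Fin g) {i : (EA g).ι} {j : B.ι} {a : A.ι} {z : Cn g} {y : NN D S hA e0}
    (hi : z ∈ ((EA g).e i).source) (hj : y ∈ (B.e j).source)
    (ha : piE D S hA e0 (z, y) ∈ (A.e a).source) :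
    tm ((EA g).prod B) A (piE D S hA e0) (i, j) a (z, y)
      (EuclideanSpace.single (Fin.castAdd d k) 1) = (S.V k).X a (piE D S hA e0 (z, y)) := by
  have hH := holM_iff.2 (holMap_piE D S hA e0 B hv)
  have h1 : HasFDerivAt (Map_835.rd ((EA g).prod B) A (piE D S hA e0) (i, j) a)
      (tm ((EA g).prod B) A (piE D S hA e0) (i, j) a (z, y))
      (app (((EA g).e i) z) (B.e j y)) := (hH.diff (i := (i, j)) ⟨hi, hj⟩ ha).hasFDerivAt
  have h2 : HasDerivAt (fun s : ℂ => app (((EA g).e i) z) (B.e j y) +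
      s • (EuclideanSpace.single (Fin.castAdd d k) 1 : Cn (g + d)))
      (EuclideanSpace.single (Fin.castAdd d k) 1) 0 := by
    have h3 := ((hasDerivAt_id (0 : ℂ)).smul_const
      (EuclideanSpace.single (Fin.castAdd d k) 1 : Cn (g + d))).const_add
        (app (((EA g).e i) z) (B.e j y))
    rw [one_smul] at h3
    exact h3
  have h4 := HasFDerivAt.comp_hasDerivAt_of_eq (0 : ℂ) h1 h2 (by rw [zero_smul, add_zero])
  -- the curve
  have h5 := ((related_pr D G (S.V k)).intAt ((mflowN D S).int k
    ((mflowN D S).Φ (z : Fin g → ℂ) (y : D.cov G)) 0))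
  have h0 : (mflowN D S).Φ (Pi.single k (0 : ℂ)) ((mflowN D S).Φ (z : Fin g → ℂ) (y : D.cov G)) =
      (mflowN D S).Φ (z : Fin g → ℂ) (y : D.cov G) := by
    rw [Pi.single_zero, (mflowN D S).zero]
  have h6 := h5.chart (j := a) (by rw [h0]; exact ha)
  have h7 : ((Map_835.rd ((EA g).prod B) A (piE D S hA e0) (i, j) a) ∘ fun s : ℂ =>
      app (((EA g).e i) z) (B.e j y) +
        s • (EuclideanSpace.single (Fin.castAdd d k) 1 : Cn (g + d))) =
      fun s => A.e a (D.pr ((mflowN D S).Φ (Pi.single k s)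
        ((mflowN D S).Φ (z : Fin g → ℂ) (y : D.cov G)))) := by
    funext s
    have e1 : app (((EA g).e i) z) (B.e j y) +
        s • (EuclideanSpace.single (Fin.castAdd d k) 1 : Cn (g + d)) =
        app (((EA g).e i) z + s • EuclideanSpace.single k 1) (B.e j y) := by
      rw [app_add_left]
      congr 1
      rw [← app_single_left]
      refine ext_prod ?_ ?_ <;> simp
    simp only [comp_apply]
    rw [e1, Map_835.rd, prod_e_symm_app, (B.e j).left_inv hj, piE, psiE_apply]
    congr 2
    rw [← (mflowN D S).add]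
    congr 1
    change ((((z - ctr i + s • EuclideanSpace.single k 1) + ctr i : Cn g)) : Fin g → ℂ) = _
    have e2 : (z - ctr i + s • EuclideanSpace.single k 1) + ctr i =
        s • EuclideanSpace.single k 1 + z := by abel
    rw [e2]
    funext l
    change s * (EuclideanSpace.single k (1 : ℂ) : Cn g) l + z l =
      (Pi.single k s : Fin g → ℂ) l + z l
    congr 1
    by_cases hl : l = k
    · subst hl; simp
    · simp [hl]
  rw [h7] at h4
  have h8 := h4.unique h6
  rw [h8, h0]
  rfl

include hv in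
/-- the differential in the directions of the fibre -/
theorem tm_right (w : Cn d) {i : (EA g).ι} {j : B.ι} {a : A.ι} {z : Cn g} {y : NN D S hA e0}
    (hi : z ∈ ((EA g).e i).source) (hj : y ∈ (B.e j).source)
    (ha : piE D S hA e0 (z, y) ∈ (A.e a).source) :
    tm ((EA g).prod B) A (piE D S hA e0) (i, j) a (z, y) (app 0 w) =
      tm B A (fun y => D.pr (slE D S hA e0 z y)) j a y w := by
  have hH := holM_iff.2 (holMap_piE D S hA e0 B hv)
  have h1 : HasFDerivAt (Map_835.rd ((EA g).prod B) A (piE D S hA e0) (i, j) a)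
      (tm ((EA g).prod B) A (piE D S hA e0) (i, j) a (z, y))
      (app (((EA g).e i) z) (B.e j y)) := (hH.diff (i := (i, j)) ⟨hi, hj⟩ ha).hasFDerivAt
  have h2 : HasFDerivAt (fun v : Cn d => app (((EA g).e i) z) v)
      ((appL g d).comp (ContinuousLinearMap.inr ℂ (Cn g) (Cn d))) (B.e j y) :=
    (appL g d).hasFDerivAt.comp (B.e j y) (hasFDerivAt_prodMk_right (((EA g).e i) z) (B.e j y))
  have h3 := HasFDerivAt.comp (B.e j y) h1 h2
  have h4 : ((Map_835.rd ((EA g).prod B) A (piE D S hA e0) (i, j) a) ∘ fun v : Cn d =>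
      app (((EA g).e i) z) v) = fun v => A.e a (D.pr (slE D S hA e0 z ((B.e j).symm v))) := by
    funext v
    simp only [comp_apply]
    rw [Map_835.rd, prod_e_symm_app, ((EA g).e i).left_inv hi]
    rfl
  rw [h4] at h3
  have h5 : tm B A (fun y => D.pr (slE D S hA e0 z y)) j a y = _ := h3.fderiv
  rw [h5]
  rfl

/-! ### the metric -/

/-- entries of a pulled back metric -/
theorem gram_entry {n m : ℕ} {M M' : Type} [TopologicalSpace M] [TopologicalSpace M']
    {A : Atl n M} {B : Atl m M'} (K : Kah A) (f : M' → M) (j : B.ι) (i : A.ι) (y : M')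
    (a b : Fin m) :
    ((Jp B A f j i y)ᵀ * K.g i (f y) * (Jp B A f j i y).map conj) a b =
      hf K i (f y) (tm B A f j i y (EuclideanSpace.single a 1))
        (tm B A f j i y (EuclideanSpace.single b 1)) := by
  rw [hf_eq]
  simp only [Matrix.mul_apply, Matrix.transpose_apply, Matrix.map_apply, Finset.sum_mul]
  rw [Finset.sum_comm]
  refine Finset.sum_congr rfl fun a' _ => Finset.sum_congr rfl fun b' _ => ?_
  change (tm B A f j i y (EuclideanSpace.single a 1)) a' * K.g i (f y) a' b' *
    conj ((tm B A f j i y (EuclideanSpace.single b 1)) b') = _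
  ring

include hv hr in
theorem imm_val : ∀ (j : B.ι) (p : (D.atl G).ι), ∀ y ∈ (B.e j).source,
    (y : D.cov G) ∈ ((D.atl G).e p).source →
      Injective (fderiv ℂ (Map_835.rd B (D.atl G) (Subtype.val : NN D S hA e0 → D.cov G) j p)
        (B.e j y)) := by
  intro j p y hy hp
  exact imm_of_leftInv (holM_iff.1 hv) (holM_iff.1 hr) (rN_coe D S hA e0) j p _ (mem_dm hy hp)

variable (K : Kah A) (hp : ∀ k, Par K (S.V k))

omit [CompactSpace M] [T2Space M] [Finite A.ι] [SimplyConnectedSpace (D.cov G)] in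
include hp in
theorem par_pullV (k : Fin g) :
    Par (HFlowC_376.pullK D K : Kah (D.atl G)) (pullV D G (S.V k)) := by
  intro p z hz c b
  exact hp k p.1 z hz c b

include hp in
/-- the flow covers isometries -/
theorem isom_flow (c : Fin g → ℂ) :
    Isom (HFlowC_376.pullK D K : Kah (D.atl G)) (HFlowC_376.pullK D K) ((mflowN D S).Φ c) :=
  (mflowN D S).isom (par_pullV D S K hp) c

/-- the metric of the fibre -/
def KYm : Kah B := KahI_645.pullI (HFlowC_376.pullK D K : Kah (D.atl G)) (holM_iff.1 hv)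
  (imm_val D S hA e0 B hv hr)

include hp in
theorem KYm_entry (b b' : Fin d) {j : B.ι} {a : A.ι} {z : Cn g} {y : NN D S hA e0}
    (hj : y ∈ (B.e j).source) (ha : D.pr (slE D S hA e0 z y) ∈ (A.e a).source) :
    hf K a (D.pr (slE D S hA e0 z y))
      (tm B A (fun y => D.pr (slE D S hA e0 z y)) j a y (EuclideanSpace.single b 1))
      (tm B A (fun y => D.pr (slE D S hA e0 z y)) j a y (EuclideanSpace.single b' 1)) =
    (KYm D S hA e0 B hv hr K).g j y b b' := by
  obtain ⟨p, hpp⟩ := (D.atl G).cover (y : D.cov G)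
  have hI := (HFlowC_376.isom_pr D (F := G) K).comp (isom_flow D S K hp (z : Fin g → ℂ))
  have h1 := tm_comp (f := (Subtype.val : NN D S hA e0 → D.cov G))
    (g := D.pr ∘ (mflowN D S).Φ (z : Fin g → ℂ)) hI.1 hv hj hpp ha
  have h2 : tm B A (fun y => D.pr (slE D S hA e0 z y)) j a y =
      (tm (D.atl G) A (D.pr ∘ (mflowN D S).Φ (z : Fin g → ℂ)) p a (y : D.cov G)).comp
        (tm B (D.atl G) (Subtype.val : NN D S hA e0 → D.cov G) j p y) := h1
  rw [h2, KYm, KahI_645.pullI_g _ _ _ hj hpp, gram_entry]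
  exact hI.2 p a _ hpp ha _ _

variable (bs : Module.Basis (Fin g) ℂ (H1 A)) (hbs : ∀ k, bs k = S.b k)

include hbs in
/-- **the metric in the product decomposition** -/
theorem met_eq (i : (EA g).ι) (j : B.ι) (a : A.ι) (z : Cn g) (y : NN D S hA e0)
    (hi : z ∈ ((EA g).e i).source) (hj : y ∈ (B.e j).source)
    (ha : D.pr (psiE D S hA e0 (z, y)) ∈ (A.e a).source) :
    (Jp ((EA g).prod B) A (fun q => D.pr (psiE D S hA e0 q)) (i, j) a (z, y))ᵀ *
      K.g a (D.pr (psiE D S hA e0 (z, y))) *
      (Jp ((EA g).prod B) A (fun q => D.pr (psiE D S hA e0 q)) (i, j) a (z, y)).map conj =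
      blk (G0m S K hp bs) ((KYm D S hA e0 B hv hr K).g j y) := by
  have hR : ∀ b : Fin d, tm ((EA g).prod B) A (piE D S hA e0) (i, j) a (z, y)
      (EuclideanSpace.single (Fin.natAdd g b) 1) =
      tm B A (fun y => D.pr (slE D S hA e0 z y)) j a y (EuclideanSpace.single b 1) := by
    intro b
    rw [← app_single_right, tm_right D S hA e0 B hv _ hi hj ha]
  have hL : ∀ k : Fin g, tm ((EA g).prod B) A (piE D S hA e0) (i, j) a (z, y)
      (EuclideanSpace.single (Fin.castAdd d k) 1) = (S.V k).X a (piE D S hA e0 (z, y)) := fun k =>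
    tm_left D S hA e0 B hv k hi hj ha
  have hE := gram_entry K (piE D S hA e0) (B := (EA g).prod B) (i, j) a (z, y)
  refine blk_ext _ _ (fun k l => ?_) (fun b b' => ?_) (fun k b => ?_) (fun b k => ?_)
  · refine (hE _ _).trans ?_
    rw [hL, hL]
    exact hf_VV S K hp bs hbs k l ha
  · refine (hE _ _).trans ?_
    rw [hR, hR]
    exact KYm_entry D S hA e0 B hv hr K hp b b' hj ha
  · refine (hE _ _).trans ?_
    rw [hL, hR]
    exact hf_left S K hp bs hbs ha (fun m => form_slE D S hA e0 B hv m z hj ha _) k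
  · refine (hE _ _).trans ?_
    rw [hL, hR]
    exact hf_right S K hp bs hbs ha (fun m => form_slE D S hA e0 B hv m z hj ha _) k

end cols

/-! ### the normal form -/

section sus

variable {g d : ℕ} {M : Type} [TopologicalSpace M] {A : Atl (g + d) M}
variable {G : Type} [CommGroup G] (D : MonD A G)
variable (S : DualD A g) [CompactSpace M] [T2Space M] [Finite A.ι]
variable [SimplyConnectedSpace (D.cov G)] (hA : GoodA A) (e0 : D.cov G)
variable (B : Atl d (NN D S hA e0))
  (hv : HolM B (D.atl G) (Subtype.val : NN D S hA e0 → D.cov G))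
  (hr : HolM (D.atl G) B (rN D S hA e0))
  (K : Kah A) (hp : ∀ k, Par K (S.V k))
  (bs : Module.Basis (Fin g) ℂ (H1 A)) (hbs : ∀ k, bs k = S.b k)

/-- **SUSOF** -/
def susOf : Sus D K B where
  lam := lamE D S hA e0
  Ψ := psiE D S hA e0
  lb := lBih_psiE D S hA e0 B hv hr
  eqv := deck_psiE D S hA e0
  G0 := G0m S K hp bs
  G0pos := by
    have : Nonempty M := ⟨D.pr e0⟩
    exact G0_pos S K hp bs hbs
  KY := KYm D S hA e0 B hv hr K
  met i j a z y hi hj ha := met_eq D S hA e0 B hv hr K hp bs hbs i j a z y hi hj ha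

end sus

end

end Crest.Agent.R273.Alb645
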