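import Crest.Agent.R273.AlbJ_645

/-!
# R273 (S0416), Part B (helper645), file K: complements to the normal form

* `exists_d`   : `n = g + d`;
* `exists_B`   : if the zero fibre is compact: finite good atlas with holomorphic inclusion and
                 retraction; `exists_B'` : in general (no finiteness);
* `lamE_injective`, `lamE_cocompact`, `lamE_finite`.
-/

set_option autoImplicit false
set_option linter.unusedSectionVars false
set_option linter.style.haveILetI false

open Set Filter Topology Complex Metric Function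
open scoped ContDiff ComplexConjugate Matrix ComplexOrder

namespace Crest.Agent.R273.Alb645

open Crest.Agent.R275.Geo Crest.Agent.R275.Core144 Crest.Agent.R275.GC293
open Crest.Agent.R275.Prod363
open Crest.Agent.R275.ZC352 Crest.Agent.R273.UCov_914
open Crest.Agent.R273.HFlow3_376 Crest.Agent.R273.HFlow4_376 Crest.Agent.R273.HFlow5_376
open Crest.Agent.R273.HFlow6_376 Crest.Agent.R273.Ret_155
open Crest.Agent.R273.Kah_333 Crest.Agent.R273.Sus_333

noncomputable section

section gen

variable {n g : ℕ} {M : Type} [TopologicalSpace M] {A : Atl n M}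
variable {G : Type} [Group G] (D : MonD A G)
variable (S : DualD A g) [CompactSpace M] [T2Space M] [Finite A.ι]
variable [SimplyConnectedSpace (D.cov G)] (hA : GoodA A) (e0 : D.cov G)

include D S hA e0 in
/-- the dimension splits -/
theorem exists_d : ∃ d, n = g + d := ⟨_, (dim_N D S hA e0).symm⟩

theorem connectedSpace_N : ConnectedSpace (NN D S hA e0) :=
  isConnected_iff_connectedSpace.1 (isConnected_N D S hA e0)

end gen

section atl

variable {g d : ℕ} {M : Type} [TopologicalSpace M] {A : Atl (g + d) M}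
variable {G : Type} [Group G] (D : MonD A G)
variable (S : DualD A g) [CompactSpace M] [T2Space M] [Finite A.ι]
variable [SimplyConnectedSpace (D.cov G)] (hA : GoodA A) (e0 : D.cov G)

/-- **atlas of the compact zero fibre** -/
theorem exists_B [CompactSpace (NN D S hA e0)] : ∃ B : Atl d (NN D S hA e0),
    Finite B.ι ∧ GoodA B ∧ Nonempty (Part B) ∧
    HolM B (D.atl G) (Subtype.val : NN D S hA e0 → D.cov G) ∧
    HolM (D.atl G) B (rN D S hA e0) := by
  obtain ⟨T⟩ := exists_fN D S hA e0
  have hd : T.d = d := by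
    have h := dim_NT D S hA e0 (FAtl.toG T)
    change g + T.d = g + d at h
    omega
  have h1 := holM_valT D S hA e0 (FAtl.toG T)
  have h2 := holM_rNT D S hA e0 (FAtl.toG T)
  obtain ⟨d', B, fin, good, part, a, cmp, sub, app⟩ := T
  change d' = d at hd
  subst hd
  exact ⟨B, fin, good, part, h1, h2⟩

/-- atlas of the zero fibre in general -/
theorem exists_B' : ∃ B : Atl d (NN D S hA e0),
    HolM B (D.atl G) (Subtype.val : NN D S hA e0 → D.cov G) ∧
    HolM (D.atl G) B (rN D S hA e0) := by
  obtain ⟨T⟩ := exists_gAtl (HR D S hA e0) (isConnected_N D S hA e0)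
  have hd : T.d = d := by
    have h := dim_NT D S hA e0 T
    omega
  have h1 := holM_valT D S hA e0 T
  have h2 := holM_rNT D S hA e0 T
  obtain ⟨d', B, a, cmp, sub, app⟩ := T
  change d' = d at hd
  subst hd
  exact ⟨B, h1, h2⟩

/-- the action on the fibre is holomorphic -/
theorem holM_smulB {B : Atl d (NN D S hA e0)}
    (hv : HolM B (D.atl G) (Subtype.val : NN D S hA e0 → D.cov G))
    (hr : HolM (D.atl G) B (rN D S hA e0)) (γ : G) :
    HolM B B (fun y : NN D S hA e0 => γ • y) :=
  HolM.comp (g := rN D S hA e0) hr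
    (HolM.comp (g := fun e : D.cov G => γ • e) (holM_deck D γ) hv)

end atl

/-! ### the translation part -/

section lam

variable {g d : ℕ} {M : Type} [TopologicalSpace M] {A : Atl (g + d) M}
variable {G : Type} [Group G] (D : MonD A G)
variable (S : DualD A g) [CompactSpace M] [T2Space M] [Finite A.ι]
variable [SimplyConnectedSpace (D.cov G)] (hA : GoodA A) (e0 : D.cov G)

theorem lamE_injective (h : Injective (lamB D hA e0 S.b)) : Injective (lamE D S hA e0) := by
  intro γ δ hγ
  apply h
  have h1 := congrArg (fun v : Multiplicative (Cn g) =>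
    ((Multiplicative.toAdd v : Cn g) : Fin g → ℂ)) hγ
  exact h1

/-- the translations are cocompact -/
theorem lamE_cocompact [Group.FG G] (hU : Lat.Univ (lamB D hA e0 S.b)) :
    ∃ K : Set (Cn g), IsCompact K ∧
      ∀ z : Cn g, ∃ γ : G, z + Multiplicative.toAdd (lamE D S hA e0 γ) ∈ K := by
  obtain ⟨R, hR⟩ := Lat.coc_L hU
  refine ⟨(WithLp.toLp 2) '' closedBall (0 : Fin g → ℂ) R,
    (isCompact_closedBall _ _).image (PiLp.continuous_toLp 2 _), fun z => ?_⟩
  obtain ⟨γ, hγ⟩ := hR (-(z : Fin g → ℂ))
  refine ⟨γ, (z : Fin g → ℂ) + tr D S hA e0 γ, ?_, rfl⟩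
  rw [mem_closedBall_zero_iff, add_comm]
  rw [sub_neg_eq_add] at hγ
  exact hγ

/-- finitely many translations in a compact set -/
theorem lamE_finite [Group.FG G] (hU : Lat.Univ (lamB D hA e0 S.b))
    (h : Injective (lamB D hA e0 S.b)) {K : Set (Cn g)} (hK : IsCompact K) :
    {γ : G | (Multiplicative.toAdd (lamE D S hA e0 γ) : Cn g) ∈ K}.Finite := by
  have hdis := Lat.discrete_L hU
  set Λ := Lat.L (lamB D hA e0 S.b) with hΛ
  have hdis' : DiscreteTopology Λ.toAddSubgroup := hdis
  have hcl : IsClosed (Λ : Set (Fin g → ℂ)) :=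
    AddSubgroup.isClosed_of_discrete (H := Λ.toAddSubgroup)
  have hK' : IsCompact ((fun z : Cn g => (z : Fin g → ℂ)) '' K) :=
    hK.image (PiLp.continuous_ofLp 2 _)
  have h2 : IsCompact ((Subtype.val : Λ → (Fin g → ℂ)) ⁻¹' ((fun z : Cn g => (z : Fin g → ℂ)) '' K)) :=
    (hcl.isClosedEmbedding_subtypeVal).isCompact_preimage hK'
  have h3 := (h2.finite_of_discrete).image (Subtype.val : Λ → (Fin g → ℂ))
  have hinj : Injective (fun γ => tr D S hA e0 γ) := h
  refine (h3.preimage (hinj.injOn)).subset ?_
  intro γ hγ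
  have hm : tr D S hA e0 γ ∈ Λ := (Lat.mem_L _).2 ⟨γ, rfl⟩
  exact ⟨⟨_, hm⟩, ⟨_, hγ, rfl⟩, rfl⟩

end lam

end

end Crest.Agent.R273.Alb645
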