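import Crest.Agent.R273.NV_578

/-!
# R273 (S0416), leaf A-CRAMER (helper747)

* `KP ρ W`        : Kronecker power of a matrix `W`, index set `ρ → κ`
* `TS ρ N τ`      : `τ` is a holomorphic section of `(Λ^* T)^{⊗ ρ} ⊗ N`
* `mnr v`         : the minors `det (v b (F a))` of a family `v : ρ → sections`
* `tns τ`         : tensor product of a family of sections
* `exists_family` : if `V k ≠ 0` for infinitely many `k` then there are `r ≥ 1` and, for infinitely
  many degrees, `r`-tuples with nonzero minors, all of them proportional to each other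
* `ratio`         : for `a < b < c` the sections `w_a^{c-b} w_c^{b-a}` and `w_b^{c-a}` are
  proportional sections of the same bundle
-/

set_option autoImplicit false
set_option linter.unusedSectionVars false

open Set Filter Topology Complex Matrix
open scoped ContDiff Matrix ComplexConjugate Manifold

namespace Crest.Agent.R273.Cram_747

open Crest.Agent.R275.Geo Crest.Agent.R275.Core144
open Crest.Agent.R273.Fock_243 (FI Gam)
open Crest.Agent.R273.NV_578

noncomputable section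

/-! ### pointwise linear algebra -/

section Alg

variable {K : Type*} [Field K] {κ : Type*} {ρ : Type*} [Fintype ρ] [DecidableEq ρ]

/-- the minors of a family of vectors -/
def mn (v : ρ → κ → K) (F : ρ → κ) : K := Matrix.det (Matrix.of fun a b : ρ => v b (F a))

theorem mn_mul_mat (v : ρ → κ → K) (C : Matrix ρ ρ K) (F : ρ → κ) :
    mn (fun b T => ∑ c, v c T * C c b) F = mn v F * C.det := by
  unfold mn
  rw [← Matrix.det_mul]
  congr 1

/-- if `mn v F ≠ 0` and the bordered minors of `v, u` vanish, then `u` is a combination of `v` -/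
theorem exists_coeff {v : ρ → κ → K} {F : ρ → κ} (h : mn v F ≠ 0) {u : κ → K}
    (hu : ∀ T, mn (Sum.elim v (fun _ : Unit => u)) (Sum.elim F (fun _ : Unit => T)) = 0) (T : κ) :
    u T = ∑ c, v c T * ((Matrix.of fun a b : ρ => v b (F a))⁻¹ *ᵥ (fun a => u (F a))) c := by
  set V : Matrix ρ ρ K := Matrix.of fun a b : ρ => v b (F a) with hV
  have hdet : IsUnit V.det := isUnit_iff_ne_zero.2 h
  have : Invertible V := V.invertibleOfIsUnitDet hdet
  have h1 := hu T
  unfold mn at h1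
  have h2 : (Matrix.of fun a b : ρ ⊕ Unit =>
      (Sum.elim v (fun _ : Unit => u) b) ((Sum.elim F (fun _ : Unit => T)) a)) =
      Matrix.fromBlocks V (Matrix.of fun a _ => u (F a)) (Matrix.of fun _ b => v b T)
        (Matrix.of fun _ _ => u T) := by
    ext a b
    rcases a with a | a <;> rcases b with b | b <;> simp [hV]
  rw [h2, Matrix.det_fromBlocks₁₁, mul_eq_zero] at h1
  have h3 := h1.resolve_left hdet.ne_zero
  rw [Matrix.det_unique, Matrix.sub_apply, sub_eq_zero] at h3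
  simp only [Matrix.of_apply] at h3
  rw [h3, Matrix.mul_assoc, Matrix.mul_apply]
  refine Finset.sum_congr rfl fun c _ => ?_
  simp only [Matrix.of_apply]
  congr 1
  rw [← Matrix.invOf_eq_nonsing_inv, Matrix.mul_apply]
  rfl

/-- minors of two tuples from a family of rank `≤ |ρ|` are proportional -/
theorem mn_prop {S : Set (κ → K)}
    (hS : ∀ u : ρ ⊕ Unit → κ → K, (∀ b, u b ∈ S) → mn u = 0) {v v' : ρ → κ → K}
    (hv : ∀ b, v b ∈ S) (hv' : ∀ b, v' b ∈ S) (F G : ρ → κ) :
    mn v F * mn v' G = mn v G * mn v' F := by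
  by_cases h0 : ∃ F0, mn v F0 ≠ 0
  · obtain ⟨F0, h0⟩ := h0
    set V : Matrix ρ ρ K := Matrix.of fun a b : ρ => v b (F0 a) with hV
    set C : Matrix ρ ρ K := Matrix.of fun c b => (V⁻¹ *ᵥ (fun a => v' b (F0 a))) c with hC
    have h1 : v' = fun b T => ∑ c, v c T * C c b := by
      funext b T
      refine exists_coeff h0 (fun T => ?_) T
      refine congrFun (hS _ ?_) _
      rintro (b' | b')
      · exact hv b'
      · exact hv' b
    rw [h1, mn_mul_mat, mn_mul_mat]
    ring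
  · push Not at h0
    simp [h0]

/-- Cramer: if all the replaced minors vanish then `u = 0` -/
theorem eq_zero_of_update [DecidableEq κ] {v : ρ → κ → K} {F : ρ → κ} (h : mn v F ≠ 0) {u : κ → K}
    (hu : ∀ T, mn (Sum.elim v (fun _ : Unit => u)) (Sum.elim F (fun _ : Unit => T)) = 0)
    (hr : ∀ b, mn (Function.update v b u) F = 0) : u = 0 := by
  funext T
  rw [exists_coeff h hu T]
  refine Finset.sum_eq_zero fun c _ => ?_
  set V : Matrix ρ ρ K := Matrix.of fun a b : ρ => v b (F a) with hV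
  have h1 : (V⁻¹ *ᵥ (fun a => u (F a))) c = V.det⁻¹ * (V.cramer (fun a => u (F a))) c := by
    rw [Matrix.cramer_eq_adjugate_mulVec, Matrix.inv_def, Matrix.smul_mulVec]
    simp [Ring.inverse_eq_inv']
  have h2 : (V.cramer (fun a => u (F a))) c = mn (Function.update v c u) F := by
    rw [Matrix.cramer_apply]
    unfold mn
    congr 1
    ext a b
    rw [Matrix.updateCol_apply, Matrix.of_apply]
    by_cases hb : b = c
    · subst hb; simp
    · simp [hb, hV]
  rw [h1, h2, hr c]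
  simp

theorem mn_reindex {σ : Type*} [Fintype σ] [DecidableEq σ] (e : σ ≃ ρ) (v : ρ → κ → K)
    (F : ρ → κ) : mn (fun b => v (e b)) (fun a => F (e a)) = mn v F := by
  unfold mn
  rw [← Matrix.det_submatrix_equiv_self e]
  rfl

theorem mn_eq_zero_of_card [Fintype κ] (h : Fintype.card κ < Fintype.card ρ) (v : ρ → κ → K) :
    mn v = 0 := by
  funext F
  obtain ⟨a, b, hab, hF⟩ := Fintype.exists_ne_map_eq_of_card_lt F h
  unfold mn
  exact Matrix.det_zero_of_row_eq hab (by funext c; simp [hF])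

end Alg

/-! ### Kronecker powers -/

section Kron

variable {κ : Type*} [Fintype κ] {ρ : Type*} [Fintype ρ] [DecidableEq ρ]

/-- Kronecker power -/
def KP (ρ : Type*) [Fintype ρ] (W : Matrix κ κ ℂ) : Matrix (ρ → κ) (ρ → κ) ℂ :=
  Matrix.of fun f h => ∏ a, W (f a) (h a)

theorem KP_mul (W W' : Matrix κ κ ℂ) : KP ρ (W * W') = KP ρ W * KP ρ W' := by
  classical
  ext f h
  simp only [KP, Matrix.of_apply, Matrix.mul_apply]
  rw [Finset.prod_univ_sum]
  simp only [Fintype.piFinset_univ, Finset.prod_mul_distrib]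

theorem KP_one [DecidableEq κ] : KP ρ (1 : Matrix κ κ ℂ) = 1 := by
  ext f h
  simp only [KP, Matrix.of_apply, Matrix.one_apply]
  by_cases hfh : f = h
  · subst hfh; simp
  · rw [if_neg hfh]
    obtain ⟨a, ha⟩ := Function.ne_iff.1 hfh
    exact Finset.prod_eq_zero (Finset.mem_univ a) (by simp [ha])

/-- transformation law of the minors -/
theorem mn_mulVec (W : Matrix κ κ ℂ) (g : ρ → ℂ) (v : ρ → κ → ℂ) :
    mn (fun b => g b • (W *ᵥ v b)) = (∏ b, g b) • (KP ρ W *ᵥ mn v) := by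
  classical
  funext F
  unfold mn
  have h1 : (Matrix.of fun a b : ρ => (g b • (W *ᵥ v b)) (F a)) =
      Matrix.of fun a b : ρ => g b * (Matrix.of fun a b : ρ => (W *ᵥ v b) (F a)) a b := by
    ext a b; simp
  rw [h1]
  have h2 : Matrix.det (Matrix.of fun a b : ρ => g b *
      (Matrix.of fun a b : ρ => (W *ᵥ v b) (F a)) a b) =
      (∏ b, g b) * Matrix.det (Matrix.of fun a b : ρ => (W *ᵥ v b) (F a)) :=
    Matrix.det_mul_row g _
  rw [h2]
  simp only [Pi.smul_apply, smul_eq_mul]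
  congr 1
  have h3 : (Matrix.of fun a b : ρ => (W *ᵥ v b) (F a)) =
      fun a => ∑ T, W (F a) T • (fun b => v b T) := by
    funext a b
    simp [Matrix.mulVec, dotProduct, Finset.sum_apply]
  have h4 := (Matrix.detRowAlternating (R := ℂ) (n := ρ)).toMultilinearMap.map_sum
    (fun (a : ρ) (T : κ) => W (F a) T • (fun b => v b T))
  have h5 : Matrix.det (Matrix.of fun a b : ρ => (W *ᵥ v b) (F a)) =
      ∑ r : ρ → κ, Matrix.det (Matrix.of fun i : ρ => W (F i) (r i) • (fun b => v b (r i))) := by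
    rw [h3]
    exact h4
  rw [h5]
  simp only [Matrix.mulVec, dotProduct, KP, Matrix.of_apply]
  refine Finset.sum_congr rfl fun r _ => ?_
  exact Matrix.det_mul_column (fun i => W (F i) (r i)) (Matrix.of fun i b => v b (r i))

end Kron


/-! ### sections of `(Λ^* T)^{⊗ ρ} ⊗ N` -/

variable {n : ℕ} {M : Type} [TopologicalSpace M] {A : Atl n M}

/-- `τ` is a holomorphic section of `(Λ^* T)^{⊗ ρ} ⊗ N` -/
structure TS (ρ : Type) [Fintype ρ] [DecidableEq ρ] (N : LB A) (τ : A.ι → M → (ρ → FI n) → ℂ) : Prop where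
  hol : ∀ i F, HolAt A i univ (fun x => τ i x F)
  off : ∀ i, ∀ x ∉ (A.e i).source, τ i x = 0
  tr : ∀ i j, ∀ x ∈ (A.e i).source ∩ (A.e j).source,
    τ i x = N.g i j x • (KP ρ (Gam (Jm A j i x)) *ᵥ τ j x)

/-- the minors of a family of sections -/
def mnr {ρ : Type} [Fintype ρ] [DecidableEq ρ] (v : ρ → A.ι → M → FI n → ℂ) :
    A.ι → M → (ρ → FI n) → ℂ := fun i x => mn (fun b => v b i x)

theorem prod_g {ρ : Type} (s : Finset ρ) (N : ρ → LB A) (i j : A.ι) (x : M) :
    (∏ b ∈ s, N b).g i j x = ∏ b ∈ s, (N b).g i j x := by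
  classical
  induction s using Finset.induction_on with
  | empty => simp
  | insert a s ha ih => rw [Finset.prod_insert ha, Finset.prod_insert ha, LB.mul_g, ih]

theorem HolAt.det' {ρ : Type} [Fintype ρ] [DecidableEq ρ] {i : A.ι} {U : Set M}
    {m : M → Matrix ρ ρ ℂ} (h : ∀ a b, HolAt A i U (fun x => m x a b)) :
    HolAt A i U (fun x => (m x).det) := by
  simp only [Matrix.det_apply']
  exact HolAt.sum _ fun s _ => (HolAt.prod _ fun b _ => h _ _).const_mul _

/-- the minors of a family of holomorphic polyvectors -/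
theorem mnr_TS {ρ : Type} [Fintype ρ] [DecidableEq ρ] [Nonempty ρ] {N : ρ → LB A} {q : ρ → ℕ}
    {v : ρ → A.ι → M → FI n → ℂ} (hv : ∀ b, v b ∈ PV (N b) (q b)) :
    TS ρ (∏ b, N b) (mnr v) := by
  refine ⟨fun i F => ?_, fun i x hx => ?_, fun i j x hx => ?_⟩
  · exact HolAt.det' fun a b => (hv b).1 i (F a)
  · funext F
    obtain ⟨b0⟩ := ‹Nonempty ρ›
    simp only [mnr, mn]
    refine Matrix.det_eq_zero_of_column_eq_zero b0 fun a => ?_
    simp [(hv b0).2.1 i x hx]
  · rw [prod_g]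
    unfold mnr
    have : (fun b => v b i x) = fun b => (N b).g i j x • (Gam (Jm A j i x) *ᵥ v b j x) := by
      funext b
      exact (hv b).2.2.2 i j x hx
    rw [this, mn_mulVec]

/-- tensor product of a family of sections of tensor bundles -/
def tns {ρ σ : Type} [Fintype σ] (τ : σ → A.ι → M → (ρ → FI n) → ℂ) :
    A.ι → M → (σ × ρ → FI n) → ℂ := fun i x F => ∏ t, τ t i x (fun r => F (t, r))

theorem tns_TS {ρ σ : Type} [Fintype ρ] [DecidableEq ρ] [Fintype σ] [DecidableEq σ] [Nonempty σ] {N : σ → LB A}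
    {τ : σ → A.ι → M → (ρ → FI n) → ℂ} (h : ∀ t, TS ρ (N t) (τ t)) :
    TS (σ × ρ) (∏ t, N t) (tns τ) := by
  classical
  refine ⟨fun i F => ?_, fun i x hx => ?_, fun i j x hx => ?_⟩
  · exact HolAt.prod _ fun t _ => (h t).hol i _
  · funext F
    obtain ⟨t0⟩ := ‹Nonempty σ›
    exact Finset.prod_eq_zero (Finset.mem_univ t0) (by simp [(h t0).off i x hx])
  · funext F
    rw [prod_g]
    simp only [tns, Pi.smul_apply, smul_eq_mul, Matrix.mulVec, dotProduct, KP, Matrix.of_apply]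
    have h1 : ∀ t, τ t i x (fun r => F (t, r)) = (N t).g i j x *
        ∑ G : ρ → FI n, (∏ a, Gam (Jm A j i x) (F (t, a)) (G a)) * τ t j x G := by
      intro t
      rw [(h t).tr i j x hx]
      simp [Matrix.mulVec, dotProduct, KP]
    rw [Finset.prod_congr rfl fun t _ => h1 t, Finset.prod_mul_distrib]
    congr 1
    rw [Finset.prod_univ_sum, Fintype.piFinset_univ]
    refine Fintype.sum_equiv (Equiv.curry σ ρ (FI n)).symm _ _ fun G => ?_
    rw [Finset.prod_mul_distrib, Fintype.prod_prod_type]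
    rfl

theorem TS.congr_N {ρ : Type} [Fintype ρ] [DecidableEq ρ] {N N' : LB A} {τ : A.ι → M → (ρ → FI n) → ℂ}
    (h : TS ρ N τ) (e : N = N') : TS ρ N' τ := e ▸ h

/-! ### the identity theorem -/

/-- a family of holomorphic vectors whose zero set does not depend on the chart vanishes as soon
as it vanishes near one point -/
theorem eq_zero_of_open {κ : Type*} [PreconnectedSpace M] {u : A.ι → M → κ → ℂ}
    (hol : ∀ i T, HolAt A i univ (fun x => u i x T))
    (hz : ∀ i j, ∀ x ∈ (A.e i).source ∩ (A.e j).source, u j x = 0 → u i x = 0)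
    {U : Set M} (hU : IsOpen U) (hne : U.Nonempty)
    (h0 : ∀ x ∈ U, ∀ i, x ∈ (A.e i).source → u i x = 0) :
    ∀ i, ∀ x ∈ (A.e i).source, u i x = 0 := by
  set P : Set M := {x | ∀ i, x ∈ (A.e i).source → u i x = 0} with hP
  have hcl : IsClosed (interior P) := by
    rw [← isOpen_compl_iff, isOpen_iff_mem_nhds]
    intro x hx
    by_contra hcon
    apply hx
    obtain ⟨i, hi⟩ := A.cover x
    have hxt := (A.e i).map_source hi
    obtain ⟨ε, hε, hball⟩ := Metric.isOpen_iff.1 (A.e i).open_target _ hxt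
    set B := Metric.ball (A.e i x) ε with hB
    -- the pull-back of the ball
    have hV : (A.e i).source ∩ (A.e i) ⁻¹' B ∈ 𝓝 x :=
      ((A.e i).isOpen_inter_preimage Metric.isOpen_ball).mem_nhds
        ⟨hi, Metric.mem_ball_self hε⟩
    have h1 : ∃ y ∈ (A.e i).source ∩ (A.e i) ⁻¹' B, y ∈ interior P := by
      by_contra h2
      push Not at h2
      exact hcon (Filter.mem_of_superset hV fun y hy => h2 y hy)
    obtain ⟨y, ⟨hy1, hy2⟩, hyP⟩ := h1
    have hzero : ∀ T, ∀ z ∈ B, u i ((A.e i).symm z) T = 0 := by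
      intro T
      have hd : DifferentiableOn ℂ (fun z => u i ((A.e i).symm z) T) (A.e i).target := by
        have := hol i T
        unfold HolAt at this
        simpa using this
      have han : AnalyticOnNhd ℂ (fun z => u i ((A.e i).symm z) T) B :=
        (Crest.Agent.R266.SCV.analyticOnNhd_of_differentiableOn (A.e i).open_target hd).mono hball
      have hev : (fun z => u i ((A.e i).symm z) T) =ᶠ[𝓝 (A.e i y)] 0 := by
        have h3 : (A.e i).symm ⁻¹' (interior P) ∈ 𝓝 (A.e i y) := by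
          have hc := (A.e i).continuousAt_symm ((A.e i).map_source hy1)
          apply hc
          rw [(A.e i).left_inv hy1]
          exact isOpen_interior.mem_nhds hyP
        filter_upwards [h3, (A.e i).open_target.mem_nhds ((A.e i).map_source hy1)] with z hz1 hz2
        have := interior_subset hz1
        rw [hP] at this
        simp [this i ((A.e i).map_target hz2)]
      intro z hz'
      exact han.eqOn_zero_of_preconnected_of_eventuallyEq_zero
        ((convex_ball _ _).isPreconnected) hy2 hev hz'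
    rw [mem_interior_iff_mem_nhds]
    refine Filter.mem_of_superset hV fun y' hy' j hj => ?_
    refine hz j i y' ⟨hj, hy'.1⟩ ?_
    funext T
    have := hzero T (A.e i y') hy'.2
    rwa [(A.e i).left_inv hy'.1] at this
  have hne' : (interior P).Nonempty := by
    obtain ⟨x, hx⟩ := hne
    exact ⟨x, mem_interior.2 ⟨U, fun y hy => h0 y hy, hU, hx⟩⟩
  have huniv : interior P = univ := IsClopen.eq_univ ⟨hcl, isOpen_interior⟩ hne'
  intro i x hx
  have : x ∈ interior P := huniv ▸ mem_univ x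
  exact interior_subset this i hx

theorem TS.zero_of_zero {ρ : Type} [Fintype ρ] [DecidableEq ρ] {N : LB A} {τ : A.ι → M → (ρ → FI n) → ℂ}
    (h : TS ρ N τ) : ∀ i j, ∀ x ∈ (A.e i).source ∩ (A.e j).source, τ j x = 0 → τ i x = 0 := by
  intro i j x hx h0
  rw [h.tr i j x hx, h0]
  simp

/-- identity theorem for sections of tensor bundles -/
theorem TS.eq_zero [PreconnectedSpace M] {ρ : Type} [Fintype ρ] [DecidableEq ρ] {N : LB A}
    {τ : A.ι → M → (ρ → FI n) → ℂ} (h : TS ρ N τ) {U : Set M} (hU : IsOpen U) (hne : U.Nonempty)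
    (h0 : ∀ x ∈ U, ∀ i, x ∈ (A.e i).source → τ i x = 0) : τ = 0 := by
  funext i x
  by_cases hx : x ∈ (A.e i).source
  · exact eq_zero_of_open h.hol h.zero_of_zero hU hne h0 i x hx
  · exact h.off i x hx

/-- identity theorem for holomorphic polyvectors -/
theorem PV_eq_zero [PreconnectedSpace M] {N : LB A} {q : ℕ} {u : A.ι → M → FI n → ℂ}
    (h : u ∈ PV N q) {U : Set M} (hU : IsOpen U) (hne : U.Nonempty)
    (h0 : ∀ x ∈ U, ∀ i, x ∈ (A.e i).source → u i x = 0) : u = 0 := by
  funext i x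
  by_cases hx : x ∈ (A.e i).source
  · refine eq_zero_of_open h.1 ?_ hU hne h0 i x hx
    intro i j x hx h0
    rw [h.2.2.2 i j x hx, h0]
    simp
  · exact h.2.1 i x hx

/-- the set where a section does not vanish is open -/
theorem isOpen_nez {κ : Type*} {u : A.ι → M → κ → ℂ} (hol : ∀ i T, HolAt A i univ (fun x => u i x T))
    (i : A.ι) (T : κ) : IsOpen {x | x ∈ (A.e i).source ∧ u i x T ≠ 0} := by
  have hd : DifferentiableOn ℂ (fun z => u i ((A.e i).symm z) T) (A.e i).target := by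
    have := hol i T
    unfold HolAt at this
    simpa using this
  have hc : ContinuousOn (fun x => u i x T) (A.e i).source := by
    have h1 : ContinuousOn (fun x => u i ((A.e i).symm (A.e i x)) T) (A.e i).source :=
      hd.continuousOn.comp (A.e i).continuousOn (A.e i).mapsTo
    exact h1.congr fun x hx => by simp only [(A.e i).left_inv hx]
  exact hc.isOpen_inter_preimage (A.e i).open_source (isOpen_compl_singleton (x := (0 : ℂ)))

/-! ### the nonvanishing locus -/

/-- the points where `τ` does not vanish -/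
def nz {κ : Type*} (τ : A.ι → M → κ → ℂ) : Set M := {x | ∃ i, x ∈ (A.e i).source ∧ τ i x ≠ 0}

theorem TS.ne_of_nz {ρ : Type} [Fintype ρ] [DecidableEq ρ] {N : LB A}
    {τ : A.ι → M → (ρ → FI n) → ℂ} (h : TS ρ N τ) {x : M} (hx : x ∈ nz τ) {i : A.ι}
    (hi : x ∈ (A.e i).source) : τ i x ≠ 0 := by
  obtain ⟨j, hj, h0⟩ := hx
  intro h1
  exact h0 (h.zero_of_zero j i x ⟨hj, hi⟩ h1)

theorem TS.isOpen_nz {ρ : Type} [Fintype ρ] [DecidableEq ρ] {N : LB A}
    {τ : A.ι → M → (ρ → FI n) → ℂ} (h : TS ρ N τ) : IsOpen (nz τ) := by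
  have : nz τ = ⋃ i, ⋃ F, {x | x ∈ (A.e i).source ∧ τ i x F ≠ 0} := by
    ext x
    simp only [nz, mem_setOf_eq, mem_iUnion]
    constructor
    · rintro ⟨i, hi, h0⟩
      obtain ⟨F, hF⟩ := Function.ne_iff.1 h0
      exact ⟨i, F, hi, hF⟩
    · rintro ⟨i, F, hi, hF⟩
      exact ⟨i, hi, fun h0 => hF (by rw [h0]; rfl)⟩
  rw [this]
  exact isOpen_iUnion fun i => isOpen_iUnion fun F => isOpen_nez h.hol i F

theorem TS.dense_nz [PreconnectedSpace M] {ρ : Type} [Fintype ρ] [DecidableEq ρ] {N : LB A}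
    {τ : A.ι → M → (ρ → FI n) → ℂ} (h : TS ρ N τ) (h0 : τ ≠ 0) : Dense (nz τ) := by
  rw [dense_iff_inter_open]
  intro U hU hne
  by_contra hcon
  rw [Set.not_nonempty_iff_eq_empty] at hcon
  refine h0 (h.eq_zero hU hne fun x hx i hi => ?_)
  by_contra h1
  have : x ∈ U ∩ nz τ := ⟨hx, i, hi, h1⟩
  rw [hcon] at this
  exact this

/-- a product of nonzero sections is nonzero; more precisely there is a point (in any nonempty open
set) where none of them vanishes -/
theorem exists_nz [PreconnectedSpace M] {ρ σ : Type} [Fintype ρ] [DecidableEq ρ] [Fintype σ]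
    {N : σ → LB A} {τ : σ → A.ι → M → (ρ → FI n) → ℂ} (h : ∀ t, TS ρ (N t) (τ t))
    (h0 : ∀ t, τ t ≠ 0) {U : Set M} (hU : IsOpen U) (hne : U.Nonempty) :
    ∃ x ∈ U, ∀ t, x ∈ nz (τ t) := by
  classical
  have h1 : ∀ s : Finset σ, ∃ W : Set M, IsOpen W ∧ W.Nonempty ∧ W ⊆ U ∧
      ∀ t ∈ s, W ⊆ nz (τ t) := by
    intro s
    induction s using Finset.induction_on with
    | empty => exact ⟨U, hU, hne, subset_rfl, by simp⟩
    | insert t s hts ih =>
      obtain ⟨W, hW, hWne, hWU, hWs⟩ := ih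
      refine ⟨W ∩ nz (τ t), hW.inter (h t).isOpen_nz,
        ((h t).dense_nz (h0 t)).inter_open_nonempty W hW hWne,
        inter_subset_left.trans hWU, ?_⟩
      intro t' ht'
      rcases Finset.mem_insert.1 ht' with rfl | h2
      · exact inter_subset_right
      · exact inter_subset_left.trans (hWs t' h2)
  obtain ⟨W, -, ⟨x, hx⟩, hWU, hWs⟩ := h1 Finset.univ
  exact ⟨x, hWU hx, fun t => hWs t (Finset.mem_univ t) hx⟩

theorem tns_ne_zero [PreconnectedSpace M] {ρ σ : Type} [Fintype ρ] [DecidableEq ρ] [Fintype σ]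
    [Nonempty M] {N : σ → LB A} {τ : σ → A.ι → M → (ρ → FI n) → ℂ} (h : ∀ t, TS ρ (N t) (τ t))
    (h0 : ∀ t, τ t ≠ 0) : tns τ ≠ 0 := by
  obtain ⟨x, -, hx⟩ := exists_nz h h0 isOpen_univ univ_nonempty
  obtain ⟨i, hi⟩ := A.cover x
  have h1 : ∀ t, ∃ F, τ t i x F ≠ 0 := fun t =>
    Function.ne_iff.1 ((h t).ne_of_nz (hx t) hi)
  choose F hF using h1
  intro h2
  have h3 : tns τ i x (fun p => F p.1 p.2) = 0 := by rw [h2]; rfl
  simp only [tns] at h3
  exact (Finset.prod_ne_zero_iff.2 fun t _ => hF t) h3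

/-! ### proportional sections -/

/-- `τ` and `τ'` are proportional at every point -/
def Prp {κ : Type*} (τ τ' : A.ι → M → κ → ℂ) : Prop :=
  ∀ i x F G, τ i x F * τ' i x G = τ i x G * τ' i x F

theorem Prp.symm {κ : Type*} {τ τ' : A.ι → M → κ → ℂ} (h : Prp τ τ') : Prp τ' τ := by
  intro i x F G
  rw [mul_comm, h i x G F, mul_comm]

theorem Prp.refl {κ : Type*} (τ : A.ι → M → κ → ℂ) : Prp τ τ := fun _ _ _ _ => mul_comm _ _

theorem Prp.tns {ρ σ : Type} [Fintype σ] {τ τ' : σ → A.ι → M → (ρ → FI n) → ℂ}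
    (h : ∀ t, Prp (τ t) (τ' t)) : Prp (tns τ) (tns τ') := by
  intro i x F G
  simp only [Cram_747.tns]
  rw [← Finset.prod_mul_distrib, ← Finset.prod_mul_distrib]
  exact Finset.prod_congr rfl fun t _ => h t i x _ _

/-! ### Cramer -/

theorem mnr_update {ρ : Type} [Fintype ρ] [DecidableEq ρ] (v : ρ → A.ι → M → FI n → ℂ)
    (b : ρ) (u : A.ι → M → FI n → ℂ) (i : A.ι) (x : M) (F : ρ → FI n) :
    mnr (Function.update v b u) i x F = mn (Function.update (fun b' => v b' i x) b (u i x)) F := by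
  unfold mnr
  congr 1
  funext b'
  by_cases hb : b' = b
  · subst hb; simp
  · simp [hb]

theorem exists_rank {S : Set (A.ι → M → FI n → ℂ)} (h1 : ∃ v ∈ S, v ≠ 0) :
    ∃ r : ℕ, 0 < r ∧ (∃ v : Fin r → A.ι → M → FI n → ℂ, (∀ b, v b ∈ S) ∧ mnr v ≠ 0) ∧
      ∀ u : Fin r ⊕ Unit → A.ι → M → FI n → ℂ, (∀ b, u b ∈ S) → mnr u = 0 := by
  classical
  let P : ℕ → Prop := fun r =>
    ∃ v : Fin r → A.ι → M → FI n → ℂ, (∀ b, v b ∈ S) ∧ mnr v ≠ 0
  have hP1 : P 1 := by
    obtain ⟨v, hv, h0⟩ := h1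
    refine ⟨fun _ => v, fun _ => hv, fun h2 => h0 ?_⟩
    funext i x T
    have h3 : mnr (fun _ : Fin 1 => v) i x (fun _ => T) = 0 := by rw [h2]; rfl
    simpa [mnr, mn] using h3
  have hb : ∀ r, P r → r ≤ Fintype.card (FI n) := by
    rintro r ⟨v, hv, h0⟩
    by_contra hlt
    refine h0 ?_
    funext i x
    exact mn_eq_zero_of_card (by simpa using hlt) _
  have hc1 : 1 ≤ Fintype.card (FI n) := hb 1 hP1
  set r := Nat.findGreatest P (Fintype.card (FI n)) with hr
  have hr1 : 1 ≤ r := Nat.le_findGreatest hc1 hP1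
  have hPr : P r := Nat.findGreatest_spec hc1 hP1
  have hnot : ¬ P (r + 1) := by
    intro h
    have h2 := hb _ h
    have h3 := Nat.le_findGreatest (P := P) h2 h
    omega
  refine ⟨r, hr1, hPr, fun u hu => ?_⟩
  by_contra hne
  refine hnot ?_
  let e : Fin (r + 1) ≃ Fin r ⊕ Unit :=
    finSumFinEquiv.symm.trans (Equiv.sumCongr (Equiv.refl _) (Equiv.ofUnique (Fin 1) Unit))
  refine ⟨fun b => u (e b), fun b => hu _, fun h0 => hne ?_⟩
  funext i x F
  have h4 : mnr (fun b => u (e b)) i x (fun a => F (e a)) = 0 := by rw [h0]; rfl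
  have h5 := mn_reindex e (fun b => u b i x) F
  unfold mnr at h4 ⊢
  rw [← h5]
  exact h4

/-- **A-CRAMER** -/
theorem exists_family [PreconnectedSpace M] {L : LB A} {q : ℕ}
    (V : ℕ → Submodule ℂ (A.ι → M → FI n → ℂ)) (hV : ∀ k, V k ≤ PV (L ^ k) q)
    (hinf : {k | V k ≠ ⊥}.Infinite) :
    ∃ r : ℕ, 0 < r ∧ ∃ K : Set ℕ, K.Infinite ∧ ∃ w : ℕ → A.ι → M → (Fin r → FI n) → ℂ,
      (∀ k ∈ K, TS (Fin r) (L ^ k) (w k) ∧ w k ≠ 0 ∧
        ∃ (c : Fin r → ℕ) (v : Fin r → A.ι → M → FI n → ℂ),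
          (∀ b, v b ∈ V (c b)) ∧ ∑ b, c b = k ∧ w k = mnr v) ∧
      ∀ k ∈ K, ∀ l ∈ K, Prp (w k) (w l) := by
  classical
  let S : Set (A.ι → M → FI n → ℂ) := {v | ∃ k, v ∈ V k}
  have hne : ∃ v ∈ S, v ≠ 0 := by
    obtain ⟨k, hk⟩ := hinf.nonempty
    obtain ⟨v, hv, h0⟩ := Submodule.exists_mem_ne_zero_of_ne_bot hk
    exact ⟨v, ⟨k, hv⟩, h0⟩
  obtain ⟨r, hr, ⟨v0, hv0, hm0⟩, hmax⟩ := exists_rank hne
  haveI : Nonempty (Fin r) := ⟨⟨0, hr⟩⟩
  choose c0 hc0 using hv0
  let K : Set ℕ := {k | ∃ (c : Fin r → ℕ) (v : Fin r → A.ι → M → FI n → ℂ),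
    (∀ b, v b ∈ V (c b)) ∧ ∑ b, c b = k ∧ mnr v ≠ 0}
  -- the exchange step
  have hex : ∀ k, ∀ u ∈ V k, u ≠ 0 → ∃ b, mnr (Function.update v0 b u) ≠ 0 := by
    intro k u hu hu0
    by_contra hcon
    push Not at hcon
    refine hu0 ?_
    obtain ⟨i0, hi⟩ := Function.ne_iff.1 hm0
    obtain ⟨x0, hx⟩ := Function.ne_iff.1 hi
    obtain ⟨F0, hF⟩ := Function.ne_iff.1 hx
    have hTS := mnr_TS (fun b => hV _ (hc0 b))
    have hx0 : x0 ∈ (A.e i0).source := by
      by_contra h1
      exact hx (by rw [hTS.off i0 x0 h1]; rfl)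
    have hO := isOpen_nez hTS.hol i0 F0
    refine PV_eq_zero (hV k hu) hO ⟨x0, hx0, hF⟩ fun x hx i hi => ?_
    have h1 : u i0 x = 0 := by
      refine eq_zero_of_update (v := fun b => v0 b i0 x) (F := F0) hx.2 (fun T => ?_) fun b => ?_
      · have h2 := hmax (Sum.elim v0 (fun _ => u)) (by
          rintro (b | b)
          · exact ⟨_, hc0 b⟩
          · exact ⟨_, hu⟩)
        have h3 : mnr (Sum.elim v0 (fun _ : Unit => u)) i0 x
            (Sum.elim F0 (fun _ : Unit => T)) = 0 := by rw [h2]; rfl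
        unfold mnr at h3
        rw [← h3]
        congr 1
        funext b
        rcases b with b | b <;> rfl
      · rw [← mnr_update, hcon b]; rfl
    have h2 := (hV k hu).2.2.2 i i0 x ⟨hi, hx.1⟩
    rw [h2, h1]
    simp
  have hKinf : K.Infinite := by
    refine Set.infinite_of_not_bddAbove ?_
    rintro ⟨B, hB⟩
    obtain ⟨k, hk, hkB⟩ := hinf.exists_gt B
    obtain ⟨u, hu, hu0⟩ := Submodule.exists_mem_ne_zero_of_ne_bot hk
    obtain ⟨b, hb⟩ := hex k u hu hu0
    have hmem : ∑ b', Function.update c0 b k b' ∈ K := by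
      refine ⟨Function.update c0 b k, Function.update v0 b u, fun b' => ?_, rfl, hb⟩
      by_cases h : b' = b
      · subst h; simpa using hu
      · simpa [h] using hc0 b'
    have h1 := hB hmem
    have h2 : k ≤ ∑ b', Function.update c0 b k b' := by
      have := Finset.single_le_sum (f := Function.update c0 b k) (fun _ _ => Nat.zero_le _)
        (Finset.mem_univ b)
      simpa using this
    omega
  have hch : ∀ k, ∃ w : A.ι → M → (Fin r → FI n) → ℂ, k ∈ K →
      w ≠ 0 ∧ ∃ (c : Fin r → ℕ) (v : Fin r → A.ι → M → FI n → ℂ),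
          (∀ b, v b ∈ V (c b)) ∧ ∑ b, c b = k ∧ w = mnr v := by
    intro k
    by_cases hk : k ∈ K
    · obtain ⟨c, v, h1, h2, h3⟩ := hk
      exact ⟨mnr v, fun _ => ⟨h3, c, v, h1, h2, rfl⟩⟩
    · exact ⟨0, fun h => absurd h hk⟩
  choose w hw using hch
  refine ⟨r, hr, K, hKinf, w, fun k hk => ?_, fun k hk l hl => ?_⟩
  · obtain ⟨h1, c, v, h2, h3, h4⟩ := hw k hk
    refine ⟨?_, h1, c, v, h2, h3, h4⟩
    rw [h4]
    refine (mnr_TS fun b => hV _ (h2 b)).congr_N ?_
    rw [Finset.prod_pow_eq_pow_sum, h3]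
  · obtain ⟨-, c, v, h2, -, h4⟩ := hw k hk
    obtain ⟨-, c', v', h2', -, h4'⟩ := hw l hl
    intro i x F G
    rw [h4, h4']
    refine mn_prop (S := {z | ∃ v ∈ S, z = v i x}) (fun u hu => ?_) (fun b => ⟨_, ⟨_, h2 b⟩, rfl⟩)
      (fun b => ⟨_, ⟨_, h2' b⟩, rfl⟩) F G
    choose u' hu' hu'' using hu
    have h5 := hmax u' hu'
    have h6 : mnr u' i x = 0 := by rw [h5]; rfl
    rw [← h6]
    unfold mnr
    congr 1
    funext b
    exact hu'' b

/-! ### the cross ratios -/

/-- `w_a^{c-b} w_c^{b-a}` -/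
def num {ρ : Type} (w : ℕ → A.ι → M → (ρ → FI n) → ℂ) (a b c : ℕ) :
    A.ι → M → (Fin (c - a) × ρ → FI n) → ℂ :=
  tns fun t : Fin (c - a) => if t.1 < c - b then w a else w c

/-- `w_b^{c-a}` -/
def den {ρ : Type} (w : ℕ → A.ι → M → (ρ → FI n) → ℂ) (a b c : ℕ) :
    A.ι → M → (Fin (c - a) × ρ → FI n) → ℂ :=
  tns fun _ : Fin (c - a) => w b

theorem prod_if_lt {G : Type*} [CommMonoid G] {a b c : ℕ} (hab : a < b) (hbc : b < c) (x y : G) :
    (∏ t : Fin (c - a), if t.1 < c - b then x else y) = x ^ (c - b) * y ^ (b - a) := by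
  rw [Finset.prod_ite, Finset.prod_const, Finset.prod_const]
  have h1 : (Finset.univ.filter fun t : Fin (c - a) => t.1 < c - b).card = c - b := by
    rw [Fin.card_filter_val_lt]
    omega
  have h2 : (Finset.univ.filter fun t : Fin (c - a) => ¬ t.1 < c - b).card = b - a := by
    have := Finset.card_filter_add_card_filter_not (s := (Finset.univ : Finset (Fin (c - a))))
      (fun t : Fin (c - a) => t.1 < c - b)
    rw [h1, Finset.card_univ, Fintype.card_fin] at this
    omega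
  rw [h1, h2]

theorem num_TS {ρ : Type} [Fintype ρ] [DecidableEq ρ] {L : LB A}
    {w : ℕ → A.ι → M → (ρ → FI n) → ℂ} {a b c : ℕ} (hab : a < b) (hbc : b < c)
    (ha : TS ρ (L ^ a) (w a)) (hc : TS ρ (L ^ c) (w c)) :
    TS (Fin (c - a) × ρ) (L ^ (b * (c - a))) (num w a b c) := by
  haveI : Nonempty (Fin (c - a)) := ⟨⟨0, by omega⟩⟩
  have h1 : ∀ t : Fin (c - a), TS ρ (if t.1 < c - b then L ^ a else L ^ c)
      (if t.1 < c - b then w a else w c) := by
    intro t
    by_cases ht : t.1 < c - b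
    · simpa [ht] using ha
    · simpa [ht] using hc
  refine (tns_TS h1).congr_N ?_
  rw [prod_if_lt hab hbc, ← pow_mul, ← pow_mul, ← pow_add]
  congr 1
  obtain ⟨d, rfl⟩ := Nat.exists_eq_add_of_lt hab
  obtain ⟨e, rfl⟩ := Nat.exists_eq_add_of_lt hbc
  have h2 : a + d + 1 + e + 1 - (a + d + 1) = e + 1 := by omega
  have h3 : a + d + 1 - a = d + 1 := by omega
  have h4 : a + d + 1 + e + 1 - a = d + e + 2 := by omega
  rw [h2, h3, h4]
  ring

theorem den_TS {ρ : Type} [Fintype ρ] [DecidableEq ρ] {L : LB A}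
    {w : ℕ → A.ι → M → (ρ → FI n) → ℂ} {a b c : ℕ} (hab : a < b) (hbc : b < c)
    (hb : TS ρ (L ^ b) (w b)) :
    TS (Fin (c - a) × ρ) (L ^ (b * (c - a))) (den w a b c) := by
  haveI : Nonempty (Fin (c - a)) := ⟨⟨0, by omega⟩⟩
  refine (tns_TS (fun _ : Fin (c - a) => hb)).congr_N ?_
  rw [Finset.prod_const, Finset.card_univ, Fintype.card_fin, ← pow_mul]

theorem num_den_prp {ρ : Type} {w : ℕ → A.ι → M → (ρ → FI n) → ℂ} {a b c : ℕ}
    (hab : Prp (w a) (w b)) (hcb : Prp (w c) (w b)) : Prp (num w a b c) (den w a b c) := by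
  refine Prp.tns fun t => ?_
  by_cases ht : t.1 < c - b
  · simpa [ht] using hab
  · simpa [ht] using hcb

theorem den_ne_zero [PreconnectedSpace M] [Nonempty M] {ρ : Type} [Fintype ρ] [DecidableEq ρ]
    {L : LB A} {w : ℕ → A.ι → M → (ρ → FI n) → ℂ} {a b c : ℕ}
    (hb : TS ρ (L ^ b) (w b)) (h0 : w b ≠ 0) : den w a b c ≠ 0 :=
  tns_ne_zero (fun _ : Fin (c - a) => hb) fun _ => h0

theorem num_ne_zero [PreconnectedSpace M] [Nonempty M] {ρ : Type} [Fintype ρ] [DecidableEq ρ]
    {L : LB A} {w : ℕ → A.ι → M → (ρ → FI n) → ℂ} {a b c : ℕ}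
    (ha : TS ρ (L ^ a) (w a)) (hc : TS ρ (L ^ c) (w c)) (ha0 : w a ≠ 0) (hc0 : w c ≠ 0) :
    num w a b c ≠ 0 := by
  refine tns_ne_zero (N := fun t : Fin (c - a) => if t.1 < c - b then L ^ a else L ^ c)
    (fun t => ?_) fun t => ?_
  · by_cases ht : t.1 < c - b
    · simpa [ht] using ha
    · simpa [ht] using hc
  · by_cases ht : t.1 < c - b
    · simpa [ht] using ha0
    · simpa [ht] using hc0

/-- values of the numerator and the denominator along constant index tuples -/
theorem num_apply {ρ : Type} {w : ℕ → A.ι → M → (ρ → FI n) → ℂ} {a b c : ℕ} (hab : a < b)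
    (hbc : b < c) (i : A.ι) (x : M) (F : ρ → FI n) :
    num w a b c i x (fun p => F p.2) = w a i x F ^ (c - b) * w c i x F ^ (b - a) := by
  rw [← prod_if_lt hab hbc]
  unfold num tns
  refine Finset.prod_congr rfl fun t _ => ?_
  by_cases ht : t.1 < c - b <;> simp [ht]

theorem den_apply {ρ : Type} {w : ℕ → A.ι → M → (ρ → FI n) → ℂ} {a b c : ℕ} (i : A.ι) (x : M)
    (F : ρ → FI n) : den w a b c i x (fun p => F p.2) = w b i x F ^ (c - a) := by
  simp [den, tns]

end

end Crest.Agent.R273.Cram_747
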