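import Crest.Agent.R273.FIe0_597
import Crest.Agent.R273.FS_333
import Crest.Agent.R273.Cram_747

/-!
# R273 (S0416), leaf FI, part f (helper597): first integrals of a proportional pair

* `dgr f z` : the complex gradient; `TT f z = (1+|f|²)⁻² ∂f ⊗ conj ∂f`
* `hess_log_one_add` : `∂∂̄ log (1+|f|²) = TT f`
* `ker_of_rank` : `rank (θ + c g⊗ḡ) ≤ rank θ`, `v θ = 0` imply `v g = 0`
* `fi_pair` : the rank inequality for the quotient `f` of two proportional families with a
  log-Bochner inequality.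
-/

set_option autoImplicit false
set_option linter.unusedSectionVars false

open Set Filter Topology Complex MeasureTheory
open scoped ContDiff Matrix ComplexConjugate ComplexOrder

namespace Crest.Agent.R273.FIf0_597

open Crest.Agent.R275 Crest.Agent.R275.Geo Crest.Agent.R275.Core144 Crest.Agent.R275.EDR890
open Crest.Agent.R275.GC293
open Crest.Agent.R273.Defs_333 Crest.Agent.R273.Hess_333 Crest.Agent.R273.HessB_333
open Crest.Agent.R273.HM_333 Crest.Agent.R273.Kah_333 Crest.Agent.R273.Vol_333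
open Crest.Agent.R273.FS_333 Crest.Agent.R273.Cram_747
open Crest.Agent.R273.YauDefs_635
open Crest.Agent.R273.FIa0_597 Crest.Agent.R273.FIb0_597
open Crest.Agent.R273.FIc0_597 Crest.Agent.R273.FId0_597 Crest.Agent.R273.FIe0_597

noncomputable section

variable {n : ℕ}

/-- the complex gradient -/
def dgr (f : Cn n → ℂ) (z : Cn n) : Fin n → ℂ :=
  fun a => fderiv ℂ f z (EuclideanSpace.single a 1)

/-- `(1+|f|²)⁻² ∂f ⊗ conj ∂f` -/
def TT (f : Cn n → ℂ) (z : Cn n) : Matrix (Fin n) (Fin n) ℂ :=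
  ((((1 + ‖f z‖ ^ 2) ^ 2)⁻¹ : ℝ) : ℂ) • Matrix.vecMulVec (dgr f z) (star (dgr f z))

theorem hess_log_one_add {f : Cn n → ℂ} {W : Set (Cn n)} (hW : IsOpen W)
    (hf : DifferentiableOn ℂ f W) {z : Cn n} (hz : z ∈ W) :
    hess (fun w => Real.log (‖f w‖ ^ 2 + 1)) z = TT f z := by
  set F : Cn n → Fin 1 → ℂ := fun w _ => f w with hFdef
  have hF : ∀ k, DifferentiableOn ℂ (fun z => F z k) W := fun _ => hf
  have hsq : FS_333.sq F = fun w => ‖f w‖ ^ 2 := by funext w; simp [FS_333.sq, F]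
  have hs : ContDiffAt ℝ ∞ (FS_333.sq F) z := by
    refine ContDiffAt.sum fun k _ => ?_
    exact (contDiffAt_of_hol hW (hF k) hz).norm_sq ℝ
  have h1 := hess_log_add (U := FS_333.sq F) 1 hs (by have := sq_nonneg' F z; linarith)
  have h2 : (fun w => Real.log (‖f w‖ ^ 2 + 1)) = fun w => Real.log (FS_333.sq F w + 1) := by
    rw [hsq]
  ext a b
  have hsqz : FS_333.sq F z = ‖f z‖ ^ 2 := congrFun hsq z
  rw [h2, h1 a b, hess_sq hW hF hz, wd_sq hW hF hz, wd_sq' hW hF hz, hsqz]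
  simp only [TT, Matrix.smul_apply, Matrix.vecMulVec_apply, dgr, smul_eq_mul, hFdef,
    Finset.univ_unique, Finset.sum_singleton, Pi.star_apply, RCLike.star_def]
  have h3 : (f z) * conj (f z) = ((‖f z‖ ^ 2 : ℝ) : ℂ) := by
    rw [Complex.mul_conj, Complex.normSq_eq_norm_sq]
  have h4 : ((‖f z‖ ^ 2 + 1 : ℝ) : ℂ) ≠ 0 := by
    exact_mod_cast (by positivity : (0 : ℝ) < ‖f z‖ ^ 2 + 1).ne'
  set p := fderiv ℂ (fun z => f z) z (EuclideanSpace.single a 1) with hp
  set q := conj (fderiv ℂ (fun z => f z) z (EuclideanSpace.single b 1)) with hq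
  have h5 : p * conj (f z) * (f z * q) = ((‖f z‖ ^ 2 : ℝ) : ℂ) * (p * q) := by
    rw [← h3]; ring
  rw [h5]
  have h8 : (1 + ‖f z‖ ^ 2 : ℝ) = ‖f z‖ ^ 2 + 1 := by ring
  rw [h8]
  set s : ℝ := ‖f z‖ ^ 2 with hs
  rw [Complex.ofReal_inv, Complex.ofReal_inv, Complex.ofReal_pow]
  have h9 : (s : ℂ) = ((s + 1 : ℝ) : ℂ) - 1 := by push_cast; ring
  rw [h9]
  set r : ℂ := ((s + 1 : ℝ) : ℂ) with hr
  field_simp
  ring

theorem TT_psd (f : Cn n → ℂ) (z : Cn n) : (TT f z).PosSemidef := by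
  refine (Matrix.posSemidef_vecMulVec_self_star _).smul ?_
  have : (0 : ℝ) ≤ ((1 + ‖f z‖ ^ 2) ^ 2)⁻¹ := by positivity
  exact_mod_cast this

/-- the linear algebra of the conclusion -/
theorem ker_of_rank {θ : Matrix (Fin n) (Fin n) ℂ} (hθ : θ.PosSemidef) {g : Fin n → ℂ} {c : ℝ}
    (hc : 0 < c) (hr : (θ + (c : ℂ) • Matrix.vecMulVec g (star g)).rank ≤ θ.rank)
    {v : Fin n → ℂ} (hv : ∀ b, ∑ a, v a * θ a b = 0) : ∑ a, v a * g a = 0 := by
  set T : Matrix (Fin n) (Fin n) ℂ := (c : ℂ) • Matrix.vecMulVec g (star g) with hT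
  have hTp : T.PosSemidef :=
    (Matrix.posSemidef_vecMulVec_self_star _).smul (by exact_mod_cast hc.le)
  have hle : LinearMap.ker (θ + T).mulVecLin ≤ LinearMap.ker θ.mulVecLin := by
    intro w hw
    rw [LinearMap.mem_ker, Matrix.mulVecLin_apply] at hw ⊢
    have h1 : star w ⬝ᵥ ((θ + T) *ᵥ w) = 0 := by rw [hw, dotProduct_zero]
    rw [Matrix.add_mulVec, dotProduct_add] at h1
    have h2 := hθ.dotProduct_mulVec_nonneg w
    have h3 := hTp.dotProduct_mulVec_nonneg w
    have h4 : star w ⬝ᵥ (θ *ᵥ w) = 0 := by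
      refine le_antisymm ?_ h2
      calc star w ⬝ᵥ (θ *ᵥ w) ≤ star w ⬝ᵥ (θ *ᵥ w) + star w ⬝ᵥ (T *ᵥ w) :=
            le_add_of_nonneg_right h3
        _ = 0 := h1
    exact (hθ.dotProduct_mulVec_zero_iff w).1 h4
  have hfr : Module.finrank ℂ (LinearMap.ker θ.mulVecLin) ≤
      Module.finrank ℂ (LinearMap.ker (θ + T).mulVecLin) := by
    have h1 := LinearMap.finrank_range_add_finrank_ker θ.mulVecLin
    have h2 := LinearMap.finrank_range_add_finrank_ker (θ + T).mulVecLin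
    unfold Matrix.rank at hr
    omega
  have heq := Submodule.eq_of_le_of_finrank_le hle hfr
  have hw : star v ∈ LinearMap.ker θ.mulVecLin := by
    rw [LinearMap.mem_ker, Matrix.mulVecLin_apply]
    funext a
    have h1 := hv a
    have h2 : (θ *ᵥ star v) a = conj (∑ b, v b * θ b a) := by
      rw [Matrix.mulVec, dotProduct, map_sum]
      refine Finset.sum_congr rfl fun b _ => ?_
      have h3 : θ a b = conj (θ b a) := by
        have := congrFun (congrFun hθ.1 a) b
        rw [Matrix.conjTranspose_apply] at this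
        exact this.symm
      rw [map_mul, h3, Pi.star_apply, RCLike.star_def]
      ring
    rw [h2, h1, map_zero]
    rfl
  have hw2 : star v ∈ LinearMap.ker (θ + T).mulVecLin := by rw [heq]; exact hw
  rw [LinearMap.mem_ker, Matrix.mulVecLin_apply] at hw hw2
  rw [Matrix.add_mulVec, hw, zero_add] at hw2
  have h5 : v ⬝ᵥ (T *ᵥ star v) = 0 := by rw [hw2, dotProduct_zero]
  have h6 : v ⬝ᵥ (T *ᵥ star v) = (c : ℂ) * ((v ⬝ᵥ g) * conj (v ⬝ᵥ g)) := by
    rw [hT, Matrix.smul_mulVec, dotProduct_smul, smul_eq_mul]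
    congr 1
    simp only [Matrix.mulVec, dotProduct, Matrix.vecMulVec_apply, Pi.star_apply,
      RCLike.star_def, map_sum, map_mul]
    rw [Finset.sum_mul]
    refine Finset.sum_congr rfl fun a _ => ?_
    rw [Finset.mul_sum, Finset.mul_sum]
    refine Finset.sum_congr rfl fun b _ => ?_
    ring
  rw [h6, Complex.mul_conj] at h5
  have h7 : (c : ℂ) ≠ 0 := by exact_mod_cast hc.ne'
  have h8 := (mul_eq_zero.1 h5).resolve_left h7
  have h9 : Complex.normSq (v ⬝ᵥ g) = 0 := by exact_mod_cast h8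
  exact Complex.normSq_eq_zero.1 h9

variable {M : Type} [TopologicalSpace M] {A : Atl n M} {L L' : LB A}

/-- `∂∂̄ log (U₀ + |f|² U₀)` -/
theorem hsf_pair {U0 U1 : M → ℝ} (h0 : A.Sm U0) {i : A.ι} {x : M}
    (hx : x ∈ (A.e i).source) {f : M → ℂ} {W : Set M} (hW : IsOpen W) (hxW : x ∈ W)
    (hf : HolAt A i W f) (h01 : ∀ y ∈ W, U1 y = ‖f y‖ ^ 2 * U0 y) (hp : 0 < U0 x) :
    hsf A (fun y => Real.log (U0 y + U1 y)) i x = hsf A (fun y => Real.log (U0 y)) i x +
      TT (fun z => f ((A.e i).symm z)) (A.e i x) := by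
  have hz := (A.e i).map_source hx
  have hzW : A.e i x ∈ (A.e i).target ∩ (A.e i).symm ⁻¹' W :=
    ⟨hz, by rw [mem_preimage, (A.e i).left_inv hx]; exact hxW⟩
  have ho : IsOpen ((A.e i).target ∩ (A.e i).symm ⁻¹' W) := isOpen_ti hW
  have c0 : ContDiffAt ℝ ∞ (fun z => U0 ((A.e i).symm z)) (A.e i x) := sm_contDiffAt h0 i hz
  have hp' : 0 < U0 ((A.e i).symm (A.e i x)) := by rwa [(A.e i).left_inv hx]
  have hev : (fun z => Real.log (U0 ((A.e i).symm z) + U1 ((A.e i).symm z))) =ᶠ[𝓝 (A.e i x)]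
      fun z => (fun z => Real.log (U0 ((A.e i).symm z))) z +
        (fun z => Real.log (‖f ((A.e i).symm z)‖ ^ 2 + 1)) z := by
    filter_upwards [ho.mem_nhds hzW, c0.continuousAt.eventually (lt_mem_nhds hp')] with z hz1 hz2
    rw [h01 _ hz1.2, ← Real.log_mul hz2.ne' (by positivity)]
    congr 1
    ring
  have c1 : ContDiffAt ℝ ∞ (fun z => Real.log (U0 ((A.e i).symm z))) (A.e i x) :=
    c0.log hp'.ne'
  have c2 : ContDiffAt ℝ ∞ (fun z => Real.log (‖f ((A.e i).symm z)‖ ^ 2 + 1)) (A.e i x) := by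
    have h1 : ContDiffAt ℝ ∞ (fun z => f ((A.e i).symm z)) (A.e i x) :=
      contDiffAt_of_hol ho hf hzW
    exact ((h1.norm_sq ℝ).add contDiffAt_const).log (by positivity)
  unfold hsf
  rw [hess_congr hev, hess_add c1 c2, hess_log_one_add ho hf hzW]

/-- the local quotient of two proportional families -/
theorem exists_ratio {κ : Type*} {τ0 τ1 : A.ι → M → κ → ℂ}
    (hol0 : ∀ i F, HolAt A i univ (fun x => τ0 i x F))
    (hol1 : ∀ i F, HolAt A i univ (fun x => τ1 i x F)) (hp : Prp τ0 τ1) {i : A.ι} {x : M}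
    (hx : x ∈ (A.e i).source) (hne : τ0 i x ≠ 0) :
    ∃ (W : Set M) (f : M → ℂ), IsOpen W ∧ x ∈ W ∧ W ⊆ (A.e i).source ∧ HolAt A i W f ∧
      (∀ y ∈ W, τ0 i y ≠ 0) ∧ ∀ y ∈ W, τ1 i y = f y • τ0 i y := by
  obtain ⟨F, hF⟩ : ∃ F, τ0 i x F ≠ 0 := by
    by_contra h1
    push Not at h1
    exact hne (funext h1)
  refine ⟨(A.e i).source ∩ {y | τ0 i y F ≠ 0}, fun y => τ1 i y F / τ0 i y F, ?_, ⟨hx, hF⟩,
    inter_subset_left, ?_, ?_, ?_⟩
  · have h1 : ContinuousOn (fun y => τ0 i y F) (A.e i).source := by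
      intro y hy
      have h2 := (hol0 i F).diffAt isOpen_univ hy (mem_univ y)
      have h3 : ContinuousAt (fun y => (fun z => τ0 i ((A.e i).symm z) F) (A.e i y)) y :=
        ContinuousAt.comp (f := fun y => A.e i y) h2.continuousAt ((A.e i).continuousAt hy)
      refine (h3.congr ?_).continuousWithinAt
      filter_upwards [(A.e i).open_source.mem_nhds hy] with w hw
      simp only [(A.e i).left_inv hw]
    exact h1.isOpen_inter_preimage (A.e i).open_source isOpen_compl_singleton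
  · have h1 := (hol1 i F).mono (subset_univ ((A.e i).source ∩ {y | τ0 i y F ≠ 0}))
    have h2 := ((hol0 i F).mono (subset_univ ((A.e i).source ∩ {y | τ0 i y F ≠ 0}))).inv
      fun y _ hy => hy.2
    simpa only [div_eq_mul_inv] using h1.mul h2
  · intro y hy h0
    exact hy.2 (by rw [h0]; rfl)
  · intro y hy
    funext G
    have h1 := hp i y F G
    have h2 : τ0 i y F ≠ 0 := hy.2
    rw [Pi.smul_apply, smul_eq_mul]
    field_simp
    linear_combination h1

/-- what is needed from the local Bochner computation, for one family `τ` -/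
structure BU (K : Kah A) (h : HM (KB A)⁻¹) {κ : Type} (τ : A.ι → M → κ → ℂ) (C : ℝ)
    (U : M → ℝ) : Prop where
  sm : A.Sm U
  nn : ∀ x, 0 ≤ U x
  zero : ∀ i, ∀ x ∈ (A.e i).source, (U x = 0 ↔ τ i x = 0)
  boch : ∀ i, ∀ x ∈ (A.e i).source, τ i x ≠ 0 →
    -C * (trC K (cur h) i x).re ≤ (trC K (hsf A fun y => Real.log (U y)) i x).re

section

variable [T2Space M] [CompactSpace M] [Fintype A.ι]

theorem fi_pair [ConnectedSpace M] (hLin : LinS n) (hY : YauStmt) (hG : GoodA A) (P : Part A)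
    {H : HM L} (hH : H.Pos) {h : HM (KB A)⁻¹} (hs : h.Semipos) {ν : ℕ}
    (hν : ∀ i, ∀ x ∈ (A.e i).source, (cur h i x).rank ≤ ν) {C : ℝ} (hC : 0 ≤ C)
    {κ : Type} {τ0 τ1 : A.ι → M → κ → ℂ}
    (hol0 : ∀ i F, HolAt A i univ (fun x => τ0 i x F))
    (hol1 : ∀ i F, HolAt A i univ (fun x => τ1 i x F)) (hprp : Prp τ0 τ1)
    (hU : ∀ K : Kah A,
      (∀ i, ∀ x ∈ (A.e i).source, cur (volK K) i x = cur h i x) →
      ∃ U0 U1 : M → ℝ, BU K h τ0 C U0 ∧ BU K h τ1 C U1 ∧
        (∀ i, ∀ x ∈ (A.e i).source, ∀ c : ℂ, τ1 i x = c • τ0 i x → U1 x = ‖c‖ ^ 2 * U0 x) ∧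
        ∀ i, ∀ x ∈ (A.e i).source, ∀ c : ℂ, τ0 i x = c • τ1 i x → U0 x = ‖c‖ ^ 2 * U1 x)
    {i0 : A.ι} {V : Set M} (hVo : IsOpen V) (hVs : V ⊆ (A.e i0).source) {f : M → ℂ}
    (hf : HolAt A i0 V f) (hτf : ∀ x ∈ V, τ1 i0 x = f x • τ0 i0 x)
    (hne : ∀ x ∈ V, τ0 i0 x ≠ 0) :
    ∀ x ∈ V, (cur h i0 x + TT (fun z => f ((A.e i0).symm z)) (A.e i0 x)).rank ≤ ν := by
  refine fi_abs hLin hY hG P hH hs hν hC hVo hVs
    (T := fun x => TT (fun z => f ((A.e i0).symm z)) (A.e i0 x)) ?_ (fun x _ => TT_psd _ _) ?_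
  · intro a b x hx
    have ho : IsOpen ((A.e i0).target ∩ (A.e i0).symm ⁻¹' V) := isOpen_ti hVo
    have hz : A.e i0 x ∈ (A.e i0).target ∩ (A.e i0).symm ⁻¹' V :=
      ⟨(A.e i0).map_source (hVs hx), by rw [mem_preimage, (A.e i0).left_inv (hVs hx)]; exact hx⟩
    have han : AnalyticOnNhd ℂ (fun z => f ((A.e i0).symm z))
        ((A.e i0).target ∩ (A.e i0).symm ⁻¹' V) :=
      Crest.Agent.R266.SCV.analyticOnNhd_of_differentiableOn ho hf
    have hc0 : ContinuousAt (fun z => f ((A.e i0).symm z)) (A.e i0 x) := (han _ hz).continuousAt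
    have hc1 : ∀ a, ContinuousAt (fun z => fderiv ℂ (fun z => f ((A.e i0).symm z)) z
        (EuclideanSpace.single a 1)) (A.e i0 x) := fun a =>
      ((han.fderiv _ hz).continuousAt).clm_apply continuousAt_const
    have hc2 : ContinuousAt (fun z => TT (fun z => f ((A.e i0).symm z)) z a b) (A.e i0 x) := by
      unfold TT dgr
      simp only [Matrix.smul_apply, Matrix.vecMulVec_apply, Pi.star_apply, smul_eq_mul]
      refine ContinuousAt.mul ?_ ((hc1 a).mul ?_)
      · refine Complex.continuous_ofReal.continuousAt.comp ?_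
        refine ContinuousAt.inv₀ ?_ (by positivity)
        exact (continuousAt_const.add ((hc0.norm).pow 2)).pow 2
      · exact Complex.continuous_conj.continuousAt.comp (hc1 b)
    exact (ContinuousAt.comp (f := fun y => A.e i0 y)
      (g := fun z => TT (fun z => f ((A.e i0).symm z)) z a b) hc2
      ((A.e i0).continuousAt (hVs hx))).continuousWithinAt
  · intro K _ hK2
    obtain ⟨U0, U1, b0, b1, s1, s0⟩ := hU K hK2
    refine ⟨fun x => U0 x + U1 x, fun i => (b0.sm i).add (b1.sm i),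
      fun x => add_nonneg (b0.nn x) (b1.nn x), ?_, ?_, ?_⟩
    · intro x hx
      have h1 : U0 x ≠ 0 := fun h2 => hne x hx ((b0.zero i0 x (hVs hx)).1 h2)
      have h3 := lt_of_le_of_ne (b0.nn x) h1.symm
      have h4 := b1.nn x
      simp only
      linarith
    · intro i x hx hp
      -- the general step
      have step : ∀ {τ0 τ1 : A.ι → M → κ → ℂ}, (∀ i F, HolAt A i univ (fun x => τ0 i x F)) →
          (∀ i F, HolAt A i univ (fun x => τ1 i x F)) → Prp τ0 τ1 → ∀ {U0 U1 : M → ℝ},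
          BU K h τ0 C U0 →
          (∀ i, ∀ x ∈ (A.e i).source, ∀ c : ℂ, τ1 i x = c • τ0 i x → U1 x = ‖c‖ ^ 2 * U0 x) →
          τ0 i x ≠ 0 → -C * (trC K (cur h) i x).re ≤
            (trC K (hsf A fun y => Real.log (U0 y + U1 y)) i x).re := by
        intro τ0 τ1 hol0 hol1 hprp U0 U1 b0 s1 h0
        obtain ⟨W, f, hWo, hxW, hWs, hfW, _, hfr⟩ := exists_ratio hol0 hol1 hprp hx h0
        have hp0 : 0 < U0 x :=
          lt_of_le_of_ne (b0.nn x) fun h2 => h0 ((b0.zero i x hx).1 h2.symm)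
        have h5 := hsf_pair b0.sm hx hWo hxW hfW
          (fun y hy => s1 i y (hWs hy) _ (hfr y hy)) hp0
        have h6 : trC K (hsf A fun y => Real.log (U0 y + U1 y)) i x =
            trC K (hsf A fun y => Real.log (U0 y)) i x +
              ((K.g i x)⁻¹ * TT (fun z => f ((A.e i).symm z)) (A.e i x)).trace := by
          unfold trC
          rw [h5, Matrix.mul_add, Matrix.trace_add]
        rw [h6, Complex.add_re]
        have h7 := b0.boch i x hx h0
        have h8 := tr_re_nonneg (K.pos i x hx) (TT_psd (fun z => f ((A.e i).symm z)) (A.e i x))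
        linarith
      by_cases h0 : τ0 i x = 0
      · by_cases h1 : τ1 i x = 0
        · have e0 := (b0.zero i x hx).2 h0
          have e1 := (b1.zero i x hx).2 h1
          simp only [e0, e1, add_zero, lt_self_iff_false] at hp
        · have h2 := step hol1 hol0 hprp.symm b1 s0 h1
          simp only [add_comm (U0 _) (U1 _)]
          exact h2
      · exact step hol0 hol1 hprp b0 s1 h0
    · intro x hx
      have hxs := hVs hx
      have h0 := hne x hx
      have hp0 : 0 < U0 x :=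
        lt_of_le_of_ne (b0.nn x) fun h2 => h0 ((b0.zero i0 x hxs).1 h2.symm)
      have h5 := hsf_pair b0.sm hxs hVo hx hf
        (fun y hy => s1 i0 y (hVs hy) _ (hτf y hy)) hp0
      have h6 : trC K (hsf A fun y => Real.log (U0 y + U1 y)) i0 x =
          trC K (hsf A fun y => Real.log (U0 y)) i0 x +
            ((K.g i0 x)⁻¹ * TT (fun z => f ((A.e i0).symm z)) (A.e i0 x)).trace := by
        unfold trC
        rw [h5, Matrix.mul_add, Matrix.trace_add]
      rw [h6, Complex.add_re]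
      have h7 := b0.boch i0 x hxs h0
      linarith

end

end

end Crest.Agent.R273.FIf0_597
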