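import Crest.Agent.R273.FS_333
import Crest.Agent.R273.GreenG_5

/-!
# R273 (S0416), leaf T6/T7 of BP-T, part A (helper5): weighted Fubini-Study metrics

For `P : ProjD A`, weights `c : Fin (P.N + 1) → ℝ`, `S : Finset (Fin (P.N + 1))`:
* `wq c v = ∑ c_k |v_k|²`, `hc F c z` : the Hessian of `log ∑ c_k |F_k|²` (`hess_log_wq`)
* `cfs P c hc : HM (lb P)`, `w i = (wq c (P.F i))⁻¹`, semipositive (`cfs_psd`)
* `tsq P S i x = ∑ k ∈ S, |P.F i x k|²`, `US P S` the open set where it is `≠ 0`,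
  `HS P S i x = ∂∂̄ log tsq`; `HS_psd`, `HS_tr`, `tendsto_cur`
-/

set_option autoImplicit false
set_option linter.unusedSectionVars false

open Set Filter Topology Complex
open scoped ContDiff Matrix ComplexConjugate ComplexOrder

namespace Crest.Agent.R273.LogA_5

open Crest.Agent.R275 Crest.Agent.R275.Geo Crest.Agent.R275.Core144 Crest.Agent.R275.EDR890
open Crest.Agent.R273.Defs_333 Crest.Agent.R273.Hess_333 Crest.Agent.R273.HessB_333
open Crest.Agent.R273.HM_333 Crest.Agent.R273.Kah_333 Crest.Agent.R273.Vol_333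
open Crest.Agent.R273.FS_333
open Crest.Agent.R273.GreenM_5 Crest.Agent.R273.GreenG_5

noncomputable section

/-! ### the local computation -/

section Local

variable {n N : ℕ}

/-- `∑ c_k |v_k|²` -/
def wq (c : Fin N → ℝ) (v : Fin N → ℂ) : ℝ := ∑ k, c k * ‖v k‖ ^ 2

theorem wq_nonneg {c : Fin N → ℝ} (hc : ∀ k, 0 ≤ c k) (v : Fin N → ℂ) : 0 ≤ wq c v :=
  Finset.sum_nonneg fun k _ => mul_nonneg (hc k) (by positivity)

theorem wq_pos {c : Fin N → ℝ} (hc : ∀ k, 0 < c k) {v : Fin N → ℂ} (hv : v ≠ 0) : 0 < wq c v := by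
  obtain ⟨k, hk⟩ : ∃ k, v k ≠ 0 := by
    by_contra h1
    push Not at h1
    exact hv (funext h1)
  refine lt_of_lt_of_le (mul_pos (hc k) (by positivity : 0 < ‖v k‖ ^ 2)) ?_
  exact Finset.single_le_sum (f := fun k => c k * ‖v k‖ ^ 2)
    (fun k _ => mul_nonneg (hc k).le (by positivity)) (Finset.mem_univ k)

theorem wq_smul (c : Fin N → ℝ) (g : ℂ) (v : Fin N → ℂ) : wq c (g • v) = ‖g‖ ^ 2 * wq c v := by
  unfold wq
  rw [Finset.mul_sum]
  refine Finset.sum_congr rfl fun k _ => ?_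
  rw [Pi.smul_apply, smul_eq_mul, norm_mul, mul_pow]
  ring

/-- partial derivatives -/
def pd (F : Cn n → Fin N → ℂ) (k : Fin N) (z : Cn n) (a : Fin n) : ℂ :=
  fderiv ℂ (fun z => F z k) z (EuclideanSpace.single a 1)

/-- the Hessian of `log ∑ c_k |F_k|²` -/
def hc (F : Cn n → Fin N → ℂ) (c : Fin N → ℝ) (z : Cn n) : Matrix (Fin n) (Fin n) ℂ :=
  Matrix.of fun a b => ((wq c (F z) : ℝ) : ℂ)⁻¹ *
      (∑ k, (c k : ℂ) * (pd F k z a * conj (pd F k z b))) -
    (((wq c (F z) : ℝ) : ℂ)⁻¹) ^ 2 * ((∑ k, (c k : ℂ) * (pd F k z a * conj (F z k))) *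
      (∑ k, (c k : ℂ) * (F z k * conj (pd F k z b))))

/-- `√c_k F_k` -/
def sF (F : Cn n → Fin N → ℂ) (c : Fin N → ℝ) : Cn n → Fin N → ℂ :=
  fun w k => ((√(c k) : ℝ) : ℂ) * F w k

theorem sq_sF (F : Cn n → Fin N → ℂ) {c : Fin N → ℝ} (hc : ∀ k, 0 ≤ c k) (w : Cn n) :
    FS_333.sq (sF F c) w = wq c (F w) := by
  unfold FS_333.sq sF wq
  refine Finset.sum_congr rfl fun k _ => ?_
  rw [norm_mul, Complex.norm_real, mul_pow, Real.norm_of_nonneg (Real.sqrt_nonneg _),
    Real.sq_sqrt (hc k)]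

theorem sF_hol {F : Cn n → Fin N → ℂ} {U : Set (Cn n)} (c : Fin N → ℝ)
    (hF : ∀ k, DifferentiableOn ℂ (fun z => F z k) U) (k : Fin N) :
    DifferentiableOn ℂ (fun z => sF F c z k) U := (hF k).const_mul _

theorem sF_fderiv {F : Cn n → Fin N → ℂ} {U : Set (Cn n)} (hU : IsOpen U) (c : Fin N → ℝ)
    (hF : ∀ k, DifferentiableOn ℂ (fun z => F z k) U) (k : Fin N) {z : Cn n} (hz : z ∈ U)
    (v : Cn n) : fderiv ℂ (fun z => sF F c z k) z v =
      ((√(c k) : ℝ) : ℂ) * fderiv ℂ (fun z => F z k) z v := by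
  have h1 : DifferentiableAt ℂ (fun z => F z k) z := (hF k).differentiableAt (hU.mem_nhds hz)
  have h2 : fderiv ℂ (fun z => sF F c z k) z =
      ((√(c k) : ℝ) : ℂ) • fderiv ℂ (fun z => F z k) z := fderiv_const_mul h1 _
  rw [h2]
  rfl

theorem sqrt_mul_self' {c : ℝ} (hc : 0 ≤ c) : ((√c : ℝ) : ℂ) * ((√c : ℝ) : ℂ) = (c : ℂ) := by
  rw [← ofReal_mul, Real.mul_self_sqrt hc]

theorem contDiffAt_wq {F : Cn n → Fin N → ℂ} {U : Set (Cn n)} (hU : IsOpen U) (c : Fin N → ℝ)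
    (hF : ∀ k, DifferentiableOn ℂ (fun z => F z k) U) {z : Cn n} (hz : z ∈ U) :
    ContDiffAt ℝ ∞ (fun w => wq c (F w)) z :=
  ContDiffAt.sum fun k _ => contDiffAt_const.mul ((contDiffAt_of_hol hU (hF k) hz).norm_sq ℝ)

theorem hess_log_wq {F : Cn n → Fin N → ℂ} {U : Set (Cn n)} (hU : IsOpen U) {c : Fin N → ℝ}
    (h0 : ∀ k, 0 ≤ c k) (hF : ∀ k, DifferentiableOn ℂ (fun z => F z k) U) {z : Cn n} (hz : z ∈ U)
    (hp : wq c (F z) ≠ 0) : hess (fun w => Real.log (wq c (F w))) z = hc F c z := by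
  have e1 : (fun w => wq c (F w)) = FS_333.sq (sF F c) := funext fun w => (sq_sF F h0 w).symm
  have e2 : (fun w => Real.log (wq c (F w))) = fun w => Real.log (FS_333.sq (sF F c) w) := by
    funext w
    rw [sq_sF F h0]
  have hs : ContDiffAt ℝ ∞ (FS_333.sq (sF F c)) z := by
    rw [← e1]
    exact contDiffAt_wq hU c hF hz
  have hp' : 0 < FS_333.sq (sF F c) z := by
    rw [sq_sF F h0]
    exact lt_of_le_of_ne (wq_nonneg h0 _) (Ne.symm hp)
  ext a b
  rw [e2, hess_log hs hp', hess_sq hU (sF_hol c hF) hz, wd_sq hU (sF_hol c hF) hz,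
    wd_sq' hU (sF_hol c hF) hz]
  simp only [sF_fderiv hU c hF _ hz, sq_sF F h0]
  unfold hc
  simp only [Matrix.of_apply]
  congr 1
  · congr 1
    refine Finset.sum_congr rfl fun k _ => ?_
    rw [← sqrt_mul_self' (h0 k), map_mul, conj_ofReal]
    unfold pd
    ring
  · congr 1
    congr 1
    · refine Finset.sum_congr rfl fun k _ => ?_
      simp only [sF]
      rw [← sqrt_mul_self' (h0 k), map_mul, conj_ofReal]
      unfold pd
      ring
    · refine Finset.sum_congr rfl fun k _ => ?_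
      simp only [sF]
      rw [← sqrt_mul_self' (h0 k), map_mul, conj_ofReal]
      unfold pd
      ring

theorem lev_log_wq_nonneg {F : Cn n → Fin N → ℂ} {U : Set (Cn n)} (hU : IsOpen U) {c : Fin N → ℝ}
    (h0 : ∀ k, 0 ≤ c k) (hF : ∀ k, DifferentiableOn ℂ (fun z => F z k) U) {z : Cn n} (hz : z ∈ U)
    (hp : wq c (F z) ≠ 0) (v : Cn n) : 0 ≤ lev (fun w => Real.log (wq c (F w))) z v := by
  have e2 : (fun w => Real.log (wq c (F w))) = fun w => Real.log (FS_333.sq (sF F c) w) := by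
    funext w
    rw [sq_sF F h0]
  have h1 : sF F c z ≠ 0 := by
    intro h
    apply hp
    rw [← sq_sF F h0]
    unfold FS_333.sq
    simp [h]
  rw [e2, lev_log_sq hU (sF_hol c hF) hz h1]
  have hpos := sq_pos h1
  have hL := (lagrange (sF F c z) (fun k => fderiv ℂ (fun z => sF F c z k) z v)).resolve_right
    hpos.ne'
  change FS_333.sq (sF F c) z * _ - _ = _ / FS_333.sq (sF F c) z at hL
  rw [hL]
  have h2 : 0 ≤ ∑ k, ‖(∑ l, ‖sF F c z l‖ ^ 2 : ℝ) • fderiv ℂ (fun z => sF F c z k) z v -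
      (∑ l, fderiv ℂ (fun z => sF F c z l) z v * conj (sF F c z l)) * sF F c z k‖ ^ 2 :=
    Finset.sum_nonneg fun _ _ => by positivity
  positivity

theorem hc_psd {F : Cn n → Fin N → ℂ} {U : Set (Cn n)} (hU : IsOpen U) {c : Fin N → ℝ}
    (h0 : ∀ k, 0 ≤ c k) (hF : ∀ k, DifferentiableOn ℂ (fun z => F z k) U) {z : Cn n} (hz : z ∈ U)
    (hp : wq c (F z) ≠ 0) : (hc F c z).PosSemidef := by
  rw [← hess_log_wq hU h0 hF hz hp]
  exact posSemidef_hess ((contDiffAt_wq hU c hF hz).log hp)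
    fun v => lev_log_wq_nonneg hU h0 hF hz hp v

theorem continuous_wq (v : Fin N → ℂ) : Continuous fun c : Fin N → ℝ => wq c v := by
  unfold wq
  fun_prop

theorem continuousAt_hc (F : Cn n → Fin N → ℂ) (z : Cn n) {c : Fin N → ℝ}
    (hp : wq c (F z) ≠ 0) : ContinuousAt (fun c => hc F c z) c := by
  have h1 : ContinuousAt (fun c : Fin N → ℝ => ((wq c (F z) : ℝ) : ℂ)) c :=
    (Complex.continuous_ofReal.comp (continuous_wq (F z))).continuousAt
  have h2 : ContinuousAt (fun c : Fin N → ℝ => ((wq c (F z) : ℝ) : ℂ)⁻¹) c :=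
    h1.inv₀ (by exact_mod_cast hp)
  have h3 : ∀ w : Fin N → ℂ, ContinuousAt (fun c : Fin N → ℝ => ∑ k, (c k : ℂ) * w k) c := by
    intro w
    have : Continuous (fun c : Fin N → ℝ => ∑ k, (c k : ℂ) * w k) := by fun_prop
    exact this.continuousAt
  refine continuousAt_pi.2 fun a => continuousAt_pi.2 fun b => ?_
  exact (h2.mul (h3 _)).sub ((h2.pow 2).mul ((h3 _).mul (h3 _)))

/-- the weights -/
def cE (S : Finset (Fin N)) (ε : ℝ) (k : Fin N) : ℝ := if k ∈ S then 1 else ε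

theorem cE_nonneg (S : Finset (Fin N)) {ε : ℝ} (hε : 0 ≤ ε) (k : Fin N) : 0 ≤ cE S ε k := by
  unfold cE; split_ifs <;> linarith

theorem cE_pos (S : Finset (Fin N)) {ε : ℝ} (hε : 0 < ε) (k : Fin N) : 0 < cE S ε k := by
  unfold cE; split_ifs <;> linarith

theorem continuous_cE (S : Finset (Fin N)) : Continuous (cE S) := by
  refine continuous_pi fun k => ?_
  unfold cE
  split_ifs
  · exact continuous_const
  · exact continuous_id

theorem wq_cE_zero (S : Finset (Fin N)) (v : Fin N → ℂ) : wq (cE S 0) v = ∑ k ∈ S, ‖v k‖ ^ 2 := by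
  unfold wq cE
  simp only [ite_mul, one_mul, zero_mul]
  rw [Finset.sum_ite_mem, Finset.univ_inter]

theorem tendsto_hc (F : Cn n → Fin N → ℂ) (z : Cn n) (S : Finset (Fin N))
    (hp : wq (cE S 0) (F z) ≠ 0) :
    Tendsto (fun ε => hc F (cE S ε) z) (𝓝 0) (𝓝 (hc F (cE S 0) z)) :=
  ((continuousAt_hc F z hp).tendsto).comp (continuous_cE S).continuousAt

end Local

/-! ### the metrics -/

variable {n : ℕ} {M : Type} [TopologicalSpace M] {A : Atl n M}

section Metric

variable (P : ProjD A)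

/-- the coordinates read in the chart -/
def Fi (i : A.ι) : Cn n → Fin (P.N + 1) → ℂ := fun z => P.F i ((A.e i).symm z)

theorem Fi_hol (i : A.ι) (k : Fin (P.N + 1)) :
    DifferentiableOn ℂ (fun z => Fi P i z k) (A.e i).target := by
  have := P.hol i k
  unfold HolAt at this
  rw [preimage_univ, inter_univ] at this
  exact this

theorem smAt_F (i : A.ι) (k : Fin (P.N + 1)) : A.SmAt i (fun x => P.F i x k) := by
  have := (P.hol i k).contDiffOn isOpen_univ
  rw [preimage_univ, inter_univ] at this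
  exact this

/-- the weighted Fubini-Study metric -/
def cfs (c : Fin (P.N + 1) → ℝ) (hc : ∀ k, 0 < c k) : HM (lb P) where
  w i x := (wq c (P.F i x))⁻¹
  pos i x hx := inv_pos.2 (wq_pos hc (P.ne i x hx))
  sm i := by
    have h1 : ContDiffOn ℝ ∞ (fun z => wq c (Fi P i z)) (A.e i).target := fun z hz =>
      (contDiffAt_wq (A.e i).open_target c (Fi_hol P i) hz).contDiffWithinAt
    exact h1.inv fun z hz => (wq_pos hc (P.ne i _ ((A.e i).map_target hz))).ne'
  tr i j x hx := by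
    have h1 := gij_spec P hx
    change (wq c (P.F j x))⁻¹ = ‖gij P i j x‖ ^ 2 * (wq c (P.F i x))⁻¹
    have h3 : gij P i j x ≠ 0 := (lb P).ne_zero i j x
    rw [h1, wq_smul, mul_inv, ← mul_assoc, mul_inv_cancel₀ (by positivity), one_mul]

theorem cfs_wt (c : Fin (P.N + 1) → ℝ) (hc : ∀ k, 0 < c k) (i : A.ι) :
    (cfs P c hc).wt i = fun z => Real.log (wq c (Fi P i z)) := by
  funext z
  simp only [HM.wt, cfs, Real.log_inv, neg_neg]
  rfl

theorem cur_cfs {c : Fin (P.N + 1) → ℝ} (h0 : ∀ k, 0 < c k) {i : A.ι} {x : M}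
    (hx : x ∈ (A.e i).source) : cur (cfs P c h0) i x = hc (Fi P i) c (A.e i x) := by
  unfold cur
  rw [cfs_wt]
  have h1 := (A.e i).map_source hx
  exact hess_log_wq (A.e i).open_target (fun k => (h0 k).le) (Fi_hol P i) h1
    (wq_pos h0 (P.ne i _ ((A.e i).map_target h1))).ne'

theorem cfs_psd {c : Fin (P.N + 1) → ℝ} (h0 : ∀ k, 0 < c k) (i : A.ι) {x : M}
    (hx : x ∈ (A.e i).source) : (cur (cfs P c h0) i x).PosSemidef := by
  rw [cur_cfs P h0 hx]
  have h1 := (A.e i).map_source hx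
  exact hc_psd (A.e i).open_target (fun k => (h0 k).le) (Fi_hol P i) h1
    (wq_pos h0 (P.ne i _ ((A.e i).map_target h1))).ne'

end Metric

/-! ### the open set `U` -/

section US

variable (P : ProjD A) (S : Finset (Fin (P.N + 1)))

/-- `∑ k ∈ S, |F_k|²` -/
def tsq (i : A.ι) (x : M) : ℝ := ∑ k ∈ S, ‖P.F i x k‖ ^ 2

theorem tsq_eq (i : A.ι) (x : M) : tsq P S i x = wq (cE S 0) (P.F i x) :=
  (wq_cE_zero S _).symm

theorem tsq_nonneg (i : A.ι) (x : M) : 0 ≤ tsq P S i x := Finset.sum_nonneg fun _ _ => by positivity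

theorem tsq_tr {i j : A.ι} {x : M} (hx : x ∈ (A.e i).source ∩ (A.e j).source) :
    tsq P S i x = ‖gij P i j x‖ ^ 2 * tsq P S j x := by
  rw [tsq_eq, tsq_eq, gij_spec P hx, wq_smul]

theorem tsq_ne {i j : A.ι} {x : M} (hx : x ∈ (A.e i).source ∩ (A.e j).source) :
    tsq P S i x ≠ 0 ↔ tsq P S j x ≠ 0 := by
  have h3 : gij P i j x ≠ 0 := (lb P).ne_zero i j x
  rw [tsq_tr P S hx]
  constructor
  · exact fun h => right_ne_zero_of_mul h
  · exact fun h => mul_ne_zero (by positivity) h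

/-- the open set where some `F_k`, `k ∈ S`, does not vanish -/
def US : Set M := {x | tsq P S (ci A x) x ≠ 0}

theorem mem_US {i : A.ι} {x : M} (hx : x ∈ (A.e i).source) : x ∈ US P S ↔ tsq P S i x ≠ 0 :=
  tsq_ne P S ⟨mem_ci x, hx⟩

theorem mem_US_iff {i : A.ι} {x : M} (hx : x ∈ (A.e i).source) :
    x ∈ US P S ↔ ∃ k ∈ S, P.F i x k ≠ 0 := by
  rw [mem_US P S hx]
  constructor
  · intro h
    by_contra h1
    push Not at h1
    exact h (Finset.sum_eq_zero fun k hk => by rw [h1 k hk]; simp)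
  · rintro ⟨k, hk, hne⟩ h
    have h2 := (Finset.sum_eq_zero_iff_of_nonneg fun k _ => by positivity).1 h k hk
    exact hne (norm_eq_zero.1 (pow_eq_zero_iff two_ne_zero |>.1 h2))

theorem tsq_pos {i : A.ι} {x : M} (hx : x ∈ (A.e i).source) (h : x ∈ US P S) :
    0 < tsq P S i x :=
  lt_of_le_of_ne (tsq_nonneg P S i x) (Ne.symm ((mem_US P S hx).1 h))

theorem continuousOn_wqF (c : Fin (P.N + 1) → ℝ) (i : A.ι) :
    ContinuousOn (fun x => wq c (P.F i x)) (A.e i).source := by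
  have h1 : ContinuousOn (fun z => wq c (Fi P i z)) (A.e i).target := fun z hz =>
    (contDiffAt_wq (A.e i).open_target c (Fi_hol P i) hz).continuousAt.continuousWithinAt
  have h2 : ContinuousOn (fun x => wq c (Fi P i (A.e i x))) (A.e i).source :=
    h1.comp (A.e i).continuousOn fun x hx => (A.e i).map_source hx
  refine h2.congr fun x hx => ?_
  change _ = wq c (P.F i ((A.e i).symm (A.e i x)))
  rw [(A.e i).left_inv hx]

theorem isOpen_US : IsOpen (US P S) := by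
  rw [isOpen_iff_mem_nhds]
  intro x hx
  have hxi := mem_ci (A := A) x
  have h1 : ContinuousAt (fun y => tsq P S (ci A x) y) x := by
    simp only [tsq_eq]
    exact (continuousOn_wqF P _ (ci A x)).continuousAt ((A.e (ci A x)).open_source.mem_nhds hxi)
  filter_upwards [h1.eventually_ne hx, (A.e (ci A x)).open_source.mem_nhds hxi] with y hy hyi
  exact (mem_US P S hyi).2 hy

/-- `∂∂̄ log ∑ k ∈ S, |F_k|²` -/
def HS (i : A.ι) (x : M) : Matrix (Fin n) (Fin n) ℂ :=
  hess (fun z => Real.log (tsq P S i ((A.e i).symm z))) (A.e i x)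

theorem HS_eq {i : A.ι} {x : M} (hx : x ∈ (A.e i).source) (h : x ∈ US P S) :
    HS P S i x = hc (Fi P i) (cE S 0) (A.e i x) := by
  have h1 : wq (cE S 0) (Fi P i (A.e i x)) ≠ 0 := by
    have h2 := (mem_US P S hx).1 h
    rw [tsq_eq] at h2
    unfold Fi
    rwa [(A.e i).left_inv hx]
  unfold HS
  simp only [tsq_eq]
  exact hess_log_wq (A.e i).open_target (cE_nonneg S le_rfl) (Fi_hol P i) ((A.e i).map_source hx) h1

theorem wq_Fi_ne {i : A.ι} {x : M} (hx : x ∈ (A.e i).source) (h : x ∈ US P S) :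
    wq (cE S 0) (Fi P i (A.e i x)) ≠ 0 := by
  have h2 := (mem_US P S hx).1 h
  rw [tsq_eq] at h2
  unfold Fi
  rwa [(A.e i).left_inv hx]

theorem HS_psd {i : A.ι} {x : M} (hx : x ∈ (A.e i).source) (h : x ∈ US P S) :
    (HS P S i x).PosSemidef := by
  rw [HS_eq P S hx h]
  exact hc_psd (A.e i).open_target (cE_nonneg S le_rfl) (Fi_hol P i) ((A.e i).map_source hx)
    (wq_Fi_ne P S hx h)

theorem logt_contDiffAt {i : A.ι} {x : M} (hx : x ∈ (A.e i).source) (h : x ∈ US P S) :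
    ContDiffAt ℝ ∞ (fun z => Real.log (tsq P S i ((A.e i).symm z))) (A.e i x) := by
  simp only [tsq_eq]
  exact (contDiffAt_wq (A.e i).open_target (cE S 0) (Fi_hol P i) ((A.e i).map_source hx)).log
    (wq_Fi_ne P S hx h)

theorem HS_tr {i j : A.ι} {x : M} (hx : x ∈ (A.e i).source ∩ (A.e j).source)
    (h : x ∈ US P S) : HS P S i x = (Jm A i j x)ᵀ * HS P S j x * (Jm A i j x).map conj := by
  have ho : IsOpen (A.ov i j) := isOpen_ov i j
  have hm : A.e i x ∈ A.ov i j := mem_ov hx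
  have hU : ∀ᶠ w in 𝓝 (A.e i x), (A.e i).symm w ∈ US P S := by
    have hc : Tendsto (A.e i).symm (𝓝 (A.e i x)) (𝓝 x) := by
      have := (A.e i).continuousAt_symm ((A.e i).map_source hx.1)
      rw [ContinuousAt, (A.e i).left_inv hx.1] at this
      exact this
    exact hc.eventually ((isOpen_US P S).mem_nhds h)
  refine hess_tr (f := fun w => gij P i j ((A.e i).symm w)) hx
    (logt_contDiffAt P S hx.1 h) (logt_contDiffAt P S hx.2 h) ?_ ?_ ?_
  · filter_upwards [ho.mem_nhds hm] with w hw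
    exact ((lb P).hol i j).differentiableAt (ho.mem_nhds hw)
  · exact (lb P).ne_zero i j _
  · filter_upwards [ho.mem_nhds hm, hU] with w hw hwU
    have hy : (A.e i).symm w ∈ (A.e i).source ∩ (A.e j).source := ⟨(A.e i).map_target hw.1, hw.2⟩
    have h3 : gij P i j ((A.e i).symm w) ≠ 0 := (lb P).ne_zero i j _
    rw [(A.e j).left_inv hy.2, tsq_tr P S hy, Real.log_mul (by positivity)
      ((mem_US P S hy.2).1 hwU)]
    ring

/-- the metrics `h_ε` -/
def hE {ε : ℝ} (hε : 0 < ε) : HM (lb P) := cfs P (cE S ε) (cE_pos S hε)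

open Classical in
/-- the curvature of `h_ε` (zero if `ε ≤ 0`) -/
def wE (ε : ℝ) (i : A.ι) (x : M) : Matrix (Fin n) (Fin n) ℂ := hc (Fi P i) (cE S ε) (A.e i x)

theorem wE_eq {ε : ℝ} (hε : 0 < ε) {i : A.ι} {x : M} (hx : x ∈ (A.e i).source) :
    wE P S ε i x = cur (hE P S hε) i x := (cur_cfs P _ hx).symm

theorem wE_zero {i : A.ι} {x : M} (hx : x ∈ (A.e i).source) (h : x ∈ US P S) :
    wE P S 0 i x = HS P S i x := (HS_eq P S hx h).symm

theorem tendsto_wE {i : A.ι} {x : M} (hx : x ∈ (A.e i).source) (h : x ∈ US P S) :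
    Tendsto (fun ε => wE P S ε i x) (𝓝 0) (𝓝 (HS P S i x)) := by
  rw [← wE_zero P S hx h]
  exact tendsto_hc _ _ S (wq_Fi_ne P S hx h)

end US

end

end Crest.Agent.R273.LogA_5
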