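import Crest.Agent.R273.TVolA_332
import Crest.Agent.R273.LogA_5
import Crest.Agent.R273.FIf0_597

/-!
# R273 (S0416), leaf A-APP, part A (helper834): the data `TD` of a family of sections

`h' : HM E` semipositive, `C : Fin N → A.ι → M → ℂ` sections of `E` (common zeros allowed).
* `nrm h' C x = ∑ |C_j|²_{h'}` ; `bk_nrm` : `cur h' + ∂∂̄ log (nrm + κ) ≥ 0`
* `td h' hp C hC : TD A` ; `mem_U` , `be_eq` : `be = ∂∂̄ log ∑ |C_j i|²`
* `be_frame` : `be = ∂∂̄ log ∑ |f_j|²` if `C_j = σ f_j` near the point, `σ` holomorphic, `≠ 0`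
* `Ev h ν C` : at the points of `{C ≠ 0}` where `rank (cur h) = ν` the derivative of `(C_j)` in the
  direction of the kernel is proportional to `(C_j)`;   `fic_of_ev : Ev h ν C → FIc h (td ..) ν`
-/

set_option autoImplicit false
set_option linter.unusedSectionVars false

open Set Filter Topology Complex MeasureTheory
open scoped ContDiff Matrix ComplexConjugate ComplexOrder

namespace Crest.Agent.R273.AppA_834

open Crest.Agent.R275 Crest.Agent.R275.Geo Crest.Agent.R275.Core144 Crest.Agent.R275.EDR890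
open Crest.Agent.R273.Defs_333 Crest.Agent.R273.Hess_333 Crest.Agent.R273.HessB_333
open Crest.Agent.R273.HM_333 Crest.Agent.R273.Kah_333 Crest.Agent.R273.FS_333
open Crest.Agent.R273.Green_5 Crest.Agent.R273.FIa0_597 Crest.Agent.R273.FIb0_597
open Crest.Agent.R273.FIc0_597 Crest.Agent.R273.TLd_201 Crest.Agent.R273.TVolA_332
open Crest.Agent.R273.FIf0_597 (dgr)

noncomputable section

variable {n : ℕ} {M : Type} [TopologicalSpace M] {A : Atl n M} {L E : LB A} {N : ℕ}

/-- the sections read in the chart `i` -/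
def rd (C : Fin N → A.ι → M → ℂ) (i : A.ι) : Cn n → Fin N → ℂ :=
  fun z j => C j i ((A.e i).symm z)

theorem rd_hol {C : Fin N → A.ι → M → ℂ} (hC : ∀ j, IsHS E univ (C j)) (i : A.ι) (j : Fin N) :
    DifferentiableOn ℂ (fun z => rd C i z j) (A.e i).target := by
  have := (hC j).hol i
  unfold HolAt at this
  rw [preimage_univ, inter_univ] at this
  exact this

/-- `∑ |C_j|²` in the metric `h'` -/
def nrm (h' : HM E) (C : Fin N → A.ι → M → ℂ) (x : M) : ℝ := ∑ j, nsq h' (C j) (ch A x) x

section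

variable {h' : HM E} {C : Fin N → A.ι → M → ℂ}

theorem nrm_eq (hC : ∀ j, IsHS E univ (C j)) {i : A.ι} {x : M} (hx : x ∈ (A.e i).source) :
    nrm h' C x = FS_333.sq (rd C i) (A.e i x) * h'.w i x := by
  unfold nrm FS_333.sq rd
  rw [Finset.sum_mul, (A.e i).left_inv hx]
  refine Finset.sum_congr rfl fun j _ => ?_
  exact nsq_indep h' (hC j) ⟨mem_ch A x, hx⟩ (mem_univ x)

theorem nrm_read (hC : ∀ j, IsHS E univ (C j)) (i : A.ι) {z : Cn n} (hz : z ∈ (A.e i).target) :
    nrm h' C ((A.e i).symm z) = FS_333.sq (rd C i) z * h'.w i ((A.e i).symm z) := by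
  rw [nrm_eq hC ((A.e i).map_target hz), (A.e i).right_inv hz]

theorem nrm_nonneg (hC : ∀ j, IsHS E univ (C j)) (x : M) : 0 ≤ nrm h' C x := by
  rw [nrm_eq hC (mem_ch A x)]
  exact mul_nonneg (sq_nonneg' _ _) (h'.pos _ x (mem_ch A x)).le

theorem sq_contDiffAt (hC : ∀ j, IsHS E univ (C j)) (i : A.ι) {z : Cn n}
    (hz : z ∈ (A.e i).target) : ContDiffAt ℝ ∞ (FS_333.sq (rd C i)) z :=
  ContDiffAt.sum fun k _ =>
    (contDiffAt_of_hol (A.e i).open_target (rd_hol hC i k) hz).norm_sq ℝ

theorem sm_nrm (hC : ∀ j, IsHS E univ (C j)) : A.Sm (nrm h' C) := by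
  intro i
  have h1 : ContDiffOn ℝ ∞ (fun z => FS_333.sq (rd C i) z * h'.w i ((A.e i).symm z))
      (A.e i).target :=
    ContDiffOn.mul (fun z hz => (sq_contDiffAt hC i hz).contDiffWithinAt) (h'.sm i)
  exact h1.congr fun z hz => nrm_read hC i hz

theorem nrm_pos_iff (hC : ∀ j, IsHS E univ (C j)) {i : A.ι} {x : M}
    (hx : x ∈ (A.e i).source) : 0 < nrm h' C x ↔ ∃ j, C j i x ≠ 0 := by
  have hw := h'.pos i x hx
  rw [nrm_eq hC hx]
  constructor
  · intro h
    by_contra h1
    push Not at h1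
    have h2 : FS_333.sq (rd C i) (A.e i x) = 0 := by
      unfold FS_333.sq rd
      rw [(A.e i).left_inv hx]
      exact Finset.sum_eq_zero fun j _ => by rw [h1 j]; simp
    rw [h2, zero_mul] at h
    exact lt_irrefl _ h
  · rintro ⟨j, hj⟩
    refine mul_pos (sq_pos fun h => hj ?_) hw
    have := congrFun h j
    unfold rd at this
    rwa [(A.e i).left_inv hx] at this

theorem sq_pos_of (hC : ∀ j, IsHS E univ (C j)) {i : A.ι} {x : M}
    (hx : x ∈ (A.e i).source) (hp : 0 < nrm h' C x) : 0 < FS_333.sq (rd C i) (A.e i x) := by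
  obtain ⟨j, hj⟩ := (nrm_pos_iff hC hx).1 hp
  refine sq_pos fun h => hj ?_
  have := congrFun h j
  unfold rd at this
  rwa [(A.e i).left_inv hx] at this

/-- `∂∂̄ log N = ∂∂̄ log ∑|C_j|² - cur h'` where `N > 0` -/
theorem hsf_log (hC : ∀ j, IsHS E univ (C j)) {i : A.ι} {x : M} (hx : x ∈ (A.e i).source)
    (hp : 0 < nrm h' C x) :
    hsf A (fun y => Real.log (nrm h' C y)) i x =
      hess (fun z => Real.log (FS_333.sq (rd C i) z)) (A.e i x) - cur h' i x := by
  have hz := (A.e i).map_source hx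
  have hs := sq_contDiffAt hC i hz
  have hp' := sq_pos_of hC hx hp
  have hl : ContDiffAt ℝ ∞ (fun z => Real.log (FS_333.sq (rd C i) z)) (A.e i x) := hs.log hp'.ne'
  have hw := wt_contDiffAt h' i hz
  have hev : (fun z => Real.log (nrm h' C ((A.e i).symm z))) =ᶠ[𝓝 (A.e i x)]
      fun z => Real.log (FS_333.sq (rd C i) z) + -(h'.wt i z) := by
    filter_upwards [(A.e i).open_target.mem_nhds hz,
      hs.continuousAt.eventually (lt_mem_nhds hp')] with z hz1 hz2
    rw [nrm_read hC i hz1, Real.log_mul hz2.ne' (h'.pos i _ ((A.e i).map_target hz1)).ne']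
    simp only [HM.wt, neg_neg]
  unfold hsf cur
  rw [hess_congr hev, hess_add hl hw.neg, hess_neg hw, sub_eq_add_neg]

theorem lev_log_sq_nonneg (hC : ∀ j, IsHS E univ (C j)) {i : A.ι} {x : M}
    (hx : x ∈ (A.e i).source) (hp : 0 < nrm h' C x) :
    (hess (fun z => Real.log (FS_333.sq (rd C i) z)) (A.e i x)).PosSemidef := by
  have hz := (A.e i).map_source hx
  have e : FS_333.sq (rd C i) = fun w => LogA_5.wq (fun _ => (1 : ℝ)) (rd C i w) := by
    funext w
    unfold FS_333.sq LogA_5.wq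
    simp
  have hp' : LogA_5.wq (fun _ => (1 : ℝ)) (rd C i (A.e i x)) ≠ 0 := by
    have h1 := (sq_pos_of hC hx hp).ne'
    rw [e] at h1
    exact h1
  rw [e]
  rw [LogA_5.hess_log_wq (A.e i).open_target (fun _ => zero_le_one) (rd_hol hC i) hz hp']
  exact LogA_5.hc_psd (A.e i).open_target (fun _ => zero_le_one) (rd_hol hC i) hz hp'

/-- **positivity**: `cur h' + ∂∂̄ log (N + κ) ≥ 0` -/
theorem bk_nrm (hp : h'.Semipos) (hC : ∀ j, IsHS E univ (C j)) {κ : ℝ} (hκ : 0 < κ) (i : A.ι)
    {x : M} (hx : x ∈ (A.e i).source) :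
    (cur h' i x + hsf A (fun y => Real.log (nrm h' C y + κ)) i x).PosSemidef := by
  have hS := sm_log_add (sm_nrm (h' := h') hC) (nrm_nonneg hC) hκ
  -- at the points where `N > 0`
  have hpos : ∀ y ∈ (A.e i).source, 0 < nrm h' C y →
      (cur h' i y + hsf A (fun y => Real.log (nrm h' C y + κ)) i y).PosSemidef := by
    intro y hy hNy
    have hz := (A.e i).map_source hy
    have hUz : ContDiffAt ℝ ∞ (fun z => nrm h' C ((A.e i).symm z)) (A.e i y) :=
      sm_contDiffAt (sm_nrm hC) i hz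
    have hp' : 0 < (fun z => nrm h' C ((A.e i).symm z)) (A.e i y) := by
      simpa only [(A.e i).left_inv hy] using hNy
    have h1 := hess_log_cmp hκ.le hUz hp'
    simp only [(A.e i).left_inv hy] at h1
    have h2 : hsf A (fun y => Real.log (nrm h' C y + κ)) i y =
        (nrm h' C y / (nrm h' C y + κ) : ℝ) • hsf A (fun y => Real.log (nrm h' C y)) i y +
        (κ / (nrm h' C y * (nrm h' C y + κ) ^ 2) : ℝ) • Matrix.vecMulVec
          (gr (fun z => nrm h' C ((A.e i).symm z)) (A.e i y))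
          (star (gr (fun z => nrm h' C ((A.e i).symm z)) (A.e i y))) := by
      unfold hsf
      exact h1
    set r : ℝ := nrm h' C y / (nrm h' C y + κ) with hr
    have hr0 : 0 ≤ r := by positivity
    have hr1 : 0 ≤ 1 - r := by
      rw [hr, sub_nonneg, div_le_one (by positivity)]; linarith
    have h3 : cur h' i y + hsf A (fun y => Real.log (nrm h' C y + κ)) i y =
        (1 - r : ℝ) • cur h' i y + r • hess (fun z => Real.log (FS_333.sq (rd C i) z)) (A.e i y) +
        (κ / (nrm h' C y * (nrm h' C y + κ) ^ 2) : ℝ) • Matrix.vecMulVec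
          (gr (fun z => nrm h' C ((A.e i).symm z)) (A.e i y))
          (star (gr (fun z => nrm h' C ((A.e i).symm z)) (A.e i y))) := by
      rw [h2, hsf_log hC hy hNy, smul_sub, sub_smul, one_smul]
      abel
    rw [h3]
    have h4 : 0 ≤ κ / (nrm h' C y * (nrm h' C y + κ) ^ 2) := by positivity
    exact (((cur_posSemidef hp i hy).smul hr1).add
      ((lev_log_sq_nonneg hC hy hNy).smul hr0)).add
      ((Matrix.posSemidef_vecMulVec_self_star _).smul h4)
  by_cases hx' : ∃ᶠ y in 𝓝 x, 0 < nrm h' C y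
  · -- closure
    have hcont : ContinuousAt (fun y => cur h' i y +
        hsf A (fun y => Real.log (nrm h' C y + κ)) i y) x := by
      refine continuousAt_pi.2 fun a => continuousAt_pi.2 fun b => ?_
      have h1 : A.SmAt i (fun y => (cur h' i y +
          hsf A (fun y => Real.log (nrm h' C y + κ)) i y) a b) :=
        (cur_smooth h' i a b).add ((hsf_cf hS).sm i a b)
      have h2 : ContinuousAt (fun z => (fun y => (cur h' i y +
          hsf A (fun y => Real.log (nrm h' C y + κ)) i y) a b) ((A.e i).symm z)) (A.e i x) :=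
        (ContDiffOn.continuousOn h1).continuousAt
          ((A.e i).open_target.mem_nhds ((A.e i).map_source hx))
      have h3 := ContinuousAt.comp (f := fun y => A.e i y) h2 ((A.e i).continuousAt hx)
      refine h3.congr ?_
      filter_upwards [(A.e i).open_source.mem_nhds hx] with y hy
      simp only [Function.comp, (A.e i).left_inv hy]
    have h5 : ∃ᶠ y in 𝓝 x, (cur h' i y +
        hsf A (fun y => Real.log (nrm h' C y + κ)) i y) ∈
          {X : Matrix (Fin n) (Fin n) ℂ | X.PosSemidef} :=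
      (hx'.and_eventually ((A.e i).open_source.mem_nhds hx)).mono
        fun y hy => hpos y hy.2 hy.1
    exact isClosed_psd.mem_of_frequently_of_tendsto h5 hcont
  · rw [not_frequently] at hx'
    have h2 : hsf A (fun y => Real.log (nrm h' C y + κ)) i x = 0 := by
      unfold hsf
      have h3 : (fun z => Real.log (nrm h' C ((A.e i).symm z) + κ)) =ᶠ[𝓝 (A.e i x)]
          fun _ => Real.log κ := by
        have hc : Tendsto (A.e i).symm (𝓝 (A.e i x)) (𝓝 x) := by
          have := (A.e i).continuousAt_symm ((A.e i).map_source hx)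
          rwa [ContinuousAt, (A.e i).left_inv hx] at this
        filter_upwards [hc.eventually hx'] with z hz
        rw [le_antisymm (not_lt.1 hz) (nrm_nonneg hC _), zero_add]
      rw [hess_congr h3]
      ext a b
      rw [hess_apply]
      have h4 : wd (true, b) (cu fun _ : Cn n => Real.log κ) = fun _ => 0 := by
        funext w
        exact wd_const _ _ _
      rw [h4, wd_const]
      rfl
    rw [h2, add_zero]
    exact cur_posSemidef hp i hx

end

/-- **the data of the T-lemma** of a family of sections -/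
def td (h' : HM E) (hp : h'.Semipos) (C : Fin N → A.ι → M → ℂ) (hC : ∀ j, IsHS E univ (C j)) :
    TD A where
  om := cur h'
  cf := cur_cf h'
  psd i _ hx := cur_posSemidef hp i hx
  N := nrm h' C
  smN := sm_nrm hC
  nn := nrm_nonneg hC
  bk κ hκ i x hx := bk_nrm hp hC hκ i hx

section

variable {h' : HM E} {hp : h'.Semipos} {C : Fin N → A.ι → M → ℂ} {hC : ∀ j, IsHS E univ (C j)}

theorem mem_U {i : A.ι} {x : M} (hx : x ∈ (A.e i).source) :
    x ∈ (td h' hp C hC).U ↔ ∃ j, C j i x ≠ 0 := nrm_pos_iff hC hx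

theorem be_eq {i : A.ι} {x : M} (hx : x ∈ (A.e i).source) (hU : x ∈ (td h' hp C hC).U) :
    (td h' hp C hC).be i x = hess (fun z => Real.log (FS_333.sq (rd C i) z)) (A.e i x) := by
  have h1 := hsf_log (h' := h') hC hx hU
  change cur h' i x + hsf A (fun y => Real.log (nrm h' C y)) i x = _
  rw [h1]
  abel

/-- in terms of functions: `C_j = σ f_j` near `x` -/
theorem be_frame {i : A.ι} {x : M} (hx : x ∈ (A.e i).source) (hU : x ∈ (td h' hp C hC).U)
    {W : Set M} (hW : IsOpen W) (hxW : x ∈ W) {σ : M → ℂ} (hσ : HolAt A i W σ)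
    (hσ0 : σ x ≠ 0) {f : Fin N → M → ℂ}
    (hf : ∀ y ∈ W, y ∈ (A.e i).source → ∀ j, C j i y = σ y * f j y) :
    (td h' hp C hC).be i x = hsf A (fun y => Real.log (∑ j, ‖f j y‖ ^ 2)) i x := by
  have hz := (A.e i).map_source hx
  have ho : IsOpen ((A.e i).target ∩ (A.e i).symm ⁻¹' W) := isOpen_ti hW
  have hzW : A.e i x ∈ (A.e i).target ∩ (A.e i).symm ⁻¹' W :=
    ⟨hz, by rw [mem_preimage, (A.e i).left_inv hx]; exact hxW⟩
  have hσd : ∀ᶠ z in 𝓝 (A.e i x), DifferentiableAt ℂ (fun z => σ ((A.e i).symm z)) z := by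
    filter_upwards [ho.mem_nhds hzW] with z hz
    exact DifferentiableOn.differentiableAt hσ (ho.mem_nhds hz)
  have hσz : σ ((A.e i).symm (A.e i x)) ≠ 0 := by rwa [(A.e i).left_inv hx]
  have hσc : ContDiffAt ℝ ∞ (fun z => σ ((A.e i).symm z)) (A.e i x) :=
    contDiffAt_of_hol ho hσ hzW
  have hl1 : ContDiffAt ℝ ∞ (fun z => Real.log (‖σ ((A.e i).symm z)‖ ^ 2)) (A.e i x) :=
    (hσc.norm_sq ℝ).log (by positivity)
  have hl2 : ContDiffAt ℝ ∞ (fun z => Real.log (FS_333.sq (rd C i) z)) (A.e i x) :=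
    (sq_contDiffAt hC i hz).log (sq_pos_of (h' := h') hC hx hU).ne'
  rw [be_eq hx hU]
  have hev : (fun z => Real.log (∑ j, ‖f j ((A.e i).symm z)‖ ^ 2)) =ᶠ[𝓝 (A.e i x)]
      fun z => Real.log (FS_333.sq (rd C i) z) + -(Real.log (‖σ ((A.e i).symm z)‖ ^ 2)) := by
    filter_upwards [ho.mem_nhds hzW, hσc.continuousAt.eventually_ne hσz,
      (sq_contDiffAt hC i hz).continuousAt.eventually
        (lt_mem_nhds (sq_pos_of (h' := h') hC hx hU))] with z hz1 hz2 hz3
    have h1 : FS_333.sq (rd C i) z = ‖σ ((A.e i).symm z)‖ ^ 2 *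
        ∑ j, ‖f j ((A.e i).symm z)‖ ^ 2 := by
      unfold FS_333.sq rd
      rw [Finset.mul_sum]
      refine Finset.sum_congr rfl fun j _ => ?_
      rw [hf _ hz1.2 ((A.e i).map_target hz1.1) j, norm_mul, mul_pow]
    rw [h1] at hz3 ⊢
    have h2 : 0 < ‖σ ((A.e i).symm z)‖ ^ 2 := by positivity
    have h3 : 0 < ∑ j, ‖f j ((A.e i).symm z)‖ ^ 2 := pos_of_mul_pos_right hz3 h2.le
    rw [Real.log_mul h2.ne' h3.ne']
    ring
  unfold hsf
  rw [hess_congr hev, hess_add hl2 hl1.neg, hess_neg hl1, hess_log_norm hσd hσz, neg_zero,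
    add_zero]

/-! ### the first integral condition -/

/-- derivative in the direction `v` -/
def dv (A : Atl n M) (v : Fin n → ℂ) (i : A.ι) (x : M) (s : M → ℂ) : ℂ :=
  ∑ a, v a * dgr (fun z => s ((A.e i).symm z)) (A.e i x) a

/-- at the points of `{C ≠ 0}` where `rank (cur h) = ν` the derivative of `(C_j)_j` in the direction
of the kernel of `cur h` is proportional to `(C_j)_j` -/
def Ev (h : HM L) (ν : ℕ) (C : Fin N → A.ι → M → ℂ) : Prop :=
  ∀ i, ∀ x ∈ (A.e i).source, (cur h i x).rank = ν → (∃ j, C j i x ≠ 0) →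
    ∀ v : Fin n → ℂ, (∀ b, ∑ a, v a * cur h i x a b = 0) →
      ∃ μ : ℂ, ∀ j, dv A v i x (C j i) = μ * C j i x

theorem fic_of_ev {h : HM L} {ν : ℕ} (hE : Ev h ν C) : FIc h (td h' hp C hC) ν := by
  intro x hU i hx hr v hv
  have hz := (A.e i).map_source hx
  -- the conjugate vector
  have hv' : ∀ b, ∑ a, conj (v a) * cur h i x a b = 0 := by
    intro b
    have h1 := congrFun hv b
    rw [Matrix.mulVec, dotProduct, Pi.zero_apply] at h1
    have h2 := congrArg conj h1
    rw [map_sum, map_zero] at h2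
    rw [← h2]
    refine Finset.sum_congr rfl fun a _ => ?_
    have h3 := congrFun (congrFun (cur_herm h i hx) a) b
    rw [Matrix.conjTranspose_apply] at h3
    rw [map_mul, ← h3, mul_comm]
    rfl
  obtain ⟨μ, hμ⟩ := hE i x hx hr ((mem_U hx).1 hU) (fun a => conj (v a)) hv'
  rw [be_eq hx hU]
  have hs := sq_contDiffAt hC i hz
  have hp' := sq_pos_of (h' := h') hC hx hU
  -- `∑_b conj (∂_b C_j) v_b = conj μ conj C_j`
  have hcd : ∀ j, ∑ b, conj (fderiv ℂ (fun z => rd C i z j) (A.e i x)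
      (EuclideanSpace.single b 1)) * v b = conj μ * conj (rd C i (A.e i x) j) := by
    intro j
    have h1 := congrArg conj (hμ j)
    unfold dv at h1
    rw [map_sum, map_mul] at h1
    have h2 : C j i x = rd C i (A.e i x) j := by unfold rd; rw [(A.e i).left_inv hx]
    rw [h2] at h1
    rw [← h1]
    refine Finset.sum_congr rfl fun b _ => ?_
    rw [map_mul, Complex.conj_conj, mul_comm]
    rfl
  funext a
  rw [Matrix.mulVec, dotProduct, Pi.zero_apply]
  have h1 : ∀ b, hess (fun z => Real.log (FS_333.sq (rd C i) z)) (A.e i x) a b * v b =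
      (FS_333.sq (rd C i) (A.e i x) : ℂ)⁻¹ *
        (∑ k, fderiv ℂ (fun z => rd C i z k) (A.e i x) (EuclideanSpace.single a 1) *
          (conj (fderiv ℂ (fun z => rd C i z k) (A.e i x) (EuclideanSpace.single b 1)) * v b)) -
      ((FS_333.sq (rd C i) (A.e i x) : ℂ)⁻¹) ^ 2 *
        ((∑ k, fderiv ℂ (fun z => rd C i z k) (A.e i x) (EuclideanSpace.single a 1) *
          conj (rd C i (A.e i x) k)) *
        (∑ k, rd C i (A.e i x) k *
          (conj (fderiv ℂ (fun z => rd C i z k) (A.e i x) (EuclideanSpace.single b 1)) * v b))) := by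
    intro b
    rw [hess_log hs hp', hess_sq (A.e i).open_target (rd_hol hC i) hz,
      wd_sq (A.e i).open_target (rd_hol hC i) hz, wd_sq' (A.e i).open_target (rd_hol hC i) hz,
      sub_mul]
    congr 1
    · rw [mul_assoc, Finset.sum_mul]
      congr 1
      exact Finset.sum_congr rfl fun k _ => by ring
    · rw [mul_assoc, mul_assoc, Finset.sum_mul (s := Finset.univ)
        (f := fun k => rd C i (A.e i x) k * _)]
      congr 2
      exact Finset.sum_congr rfl fun k _ => by ring
  rw [Finset.sum_congr rfl fun b _ => h1 b, Finset.sum_sub_distrib, ← Finset.mul_sum,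
    ← Finset.mul_sum, Finset.sum_comm, ← Finset.mul_sum]
  rw [Finset.sum_comm (f := fun b k => rd C i (A.e i x) k *
    (conj (fderiv ℂ (fun z => rd C i z k) (A.e i x) (EuclideanSpace.single b 1)) * v b))]
  simp only [← Finset.mul_sum, hcd]
  have h2 : ∑ k, rd C i (A.e i x) k * (conj μ * conj (rd C i (A.e i x) k)) =
      conj μ * (FS_333.sq (rd C i) (A.e i x) : ℂ) := by
    unfold FS_333.sq
    rw [ofReal_sum, Finset.mul_sum]
    refine Finset.sum_congr rfl fun k _ => ?_
    rw [← Complex.normSq_eq_norm_sq, ← Complex.mul_conj]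
    ring
  have h3 : ∑ k, fderiv ℂ (fun z => rd C i z k) (A.e i x) (EuclideanSpace.single a 1) *
      (conj μ * conj (rd C i (A.e i x) k)) = conj μ *
      ∑ k, fderiv ℂ (fun z => rd C i z k) (A.e i x) (EuclideanSpace.single a 1) *
      conj (rd C i (A.e i x) k) := by
    rw [Finset.mul_sum]
    exact Finset.sum_congr rfl fun k _ => by ring
  rw [h2, h3]
  have h4 : (FS_333.sq (rd C i) (A.e i x) : ℂ) ≠ 0 := by exact_mod_cast hp'.ne'
  field_simp
  ring

end

end

end Crest.Agent.R273.AppA_834
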