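import Crest.Agent.R273.TLs_201

/-!
# R273 (S0416), leaf A-APP, part B (helper834): several data with the same `u`

* `TLu h D K δ η u` : the body of `TLStmt h D K` for given `δ η u`; `tlStmt_iff`
* `TL0 h K η u`     : the same without tests
* `TLu.half`, `TL0.half` : the mean of two functions `u`
* `tlu_fam` : `∀ r, TLStmt h (D r) K` implies that there are `δ η u` with `TLu h (D r) K δ η u`
  for all `r`
-/

set_option autoImplicit false
set_option linter.unusedSectionVars false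

open Set Filter Topology Complex MeasureTheory
open scoped ContDiff Matrix ComplexConjugate ComplexOrder ENNReal

namespace Crest.Agent.R273.AppB_834

open Crest.Agent.R275 Crest.Agent.R275.Geo Crest.Agent.R275.Core144
open Crest.Agent.R273.Defs_333 Crest.Agent.R273.HM_333 Crest.Agent.R273.Kah_333
open Crest.Agent.R273.Vm_333 Crest.Agent.R273.Green_5 Crest.Agent.R273.FIb0_597
open Crest.Agent.R273.FIc0_597 Crest.Agent.R273.TLd_201 Crest.Agent.R273.TLs_201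

noncomputable section

variable {n : ℕ} {M : Type} [TopologicalSpace M] {A : Atl n M} {L L' : LB A}

/-- `θ + K/(m+1) + ∂∂̄v` -/
def Xm (h : HM (KB A)⁻¹) (K : Kah A) (m : ℕ) (v : M → ℝ) (i : A.ι) (x : M) :
    Matrix (Fin n) (Fin n) ℂ := cur h i x + (1 / ((m : ℂ) + 1)) • K.g i x + hsf A v i x

theorem tf_Xm (h : HM (KB A)⁻¹) (K : Kah A) (m : ℕ) {v : M → ℝ} (hv : A.Sm v) :
    TF A (Xm h K m v) :=
  ((tf_cur h).add ((tf_kah K).smul _)).add (tf_hsf hv)

/-- the mean of two functions -/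
def hf (u v : M → ℝ) (x : M) : ℝ := (1 / 2 : ℝ) * u x + (1 / 2 : ℝ) * v x

theorem sm_hf {u v : M → ℝ} (hu : A.Sm u) (hv : A.Sm v) : A.Sm (hf u v) :=
  sm_add (sm_smul _ hu) (sm_smul _ hv)

theorem Xm_hf (h : HM (KB A)⁻¹) (K : Kah A) (m : ℕ) {v w : M → ℝ} (hv : A.Sm v) (hw : A.Sm w)
    (i : A.ι) {x : M} (hx : x ∈ (A.e i).source) :
    Xm h K m (hf v w) i x =
      ((1 / 2 : ℝ) : ℂ) • Xm h K m v i x + ((1 / 2 : ℝ) : ℂ) • Xm h K m w i x := by
  have h1 : hsf A (hf v w) i x =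
      ((1 / 2 : ℝ) : ℂ) • hsf A v i x + ((1 / 2 : ℝ) : ℂ) • hsf A w i x := by
    have h2 := hsf_add (sm_smul (1 / 2 : ℝ) hv) (sm_smul (1 / 2 : ℝ) hw) hx
    rw [hsf_smul _ hv hx, hsf_smul _ hw hx] at h2
    exact h2
  unfold Xm
  rw [h1]
  have h3 : ((1 / 2 : ℝ) : ℂ) = 1 / 2 := by push_cast; ring
  rw [h3]
  ext a b
  simp only [Matrix.add_apply, Matrix.smul_apply, smul_eq_mul]
  ring

theorem psd_half {X Y : Matrix (Fin n) (Fin n) ℂ} (hX : X.PosSemidef) (hY : Y.PosSemidef) :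
    (((1 / 2 : ℝ) : ℂ) • X + ((1 / 2 : ℝ) : ℂ) • Y).PosSemidef := by
  have h1 : (0 : ℂ) ≤ ((1 / 2 : ℝ) : ℂ) := by
    exact_mod_cast (by norm_num : (0 : ℝ) ≤ 1 / 2)
  exact (hX.smul h1).add (hY.smul h1)

section

variable [MeasurableSpace M] [BorelSpace M] [Countable A.ι]

/-- the body of `TLStmt` for given `δ η u` -/
def TLu (h : HM (KB A)⁻¹) (D : TD A) (K : Kah A) (δ η : ℝ) (u : M → ℝ) : Prop :=
  0 < δ ∧ 0 < η ∧ Measurable u ∧ (∀ x, u x ≤ 0) ∧ MemLp u 2 (vm h) ∧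
    Integrable (fun x => Real.exp (-(η * u x))) (vm h) ∧
    ∀ (m : ℕ) (ε : ℝ), 0 < ε → ∀ T : Finset (Tst D),
      ∃ v : M → ℝ, A.Sm v ∧ (∀ x, v x ≤ 0) ∧
        (∀ i, ∀ x ∈ (A.e i).source,
          (cur h i x + (1 / ((m : ℂ) + 1)) • K.g i x + hsf A v i x).PosSemidef) ∧
        ∫ x, (v x - u x) ^ 2 ∂(vm h) ≤ ε ∧
        ∀ t ∈ T, δ * t.B h D.be ≤
          t.B h (fun i x => cur h i x + (1 / ((m : ℂ) + 1)) • K.g i x + hsf A v i x)

theorem tlStmt_iff {h : HM (KB A)⁻¹} {D : TD A} {K : Kah A} :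
    TLStmt h D K ↔ ∃ δ η u, TLu h D K δ η u := Iff.rfl

/-- the same without tests -/
def TL0 (h : HM (KB A)⁻¹) (K : Kah A) (η : ℝ) (u : M → ℝ) : Prop :=
  0 < η ∧ Measurable u ∧ (∀ x, u x ≤ 0) ∧ MemLp u 2 (vm h) ∧
    Integrable (fun x => Real.exp (-(η * u x))) (vm h) ∧
    ∀ (m : ℕ) (ε : ℝ), 0 < ε →
      ∃ v : M → ℝ, A.Sm v ∧ (∀ x, v x ≤ 0) ∧
        (∀ i, ∀ x ∈ (A.e i).source, (Xm h K m v i x).PosSemidef) ∧
        ∫ x, (v x - u x) ^ 2 ∂(vm h) ≤ ε

theorem TLu.tl0 {h : HM (KB A)⁻¹} {D : TD A} {K : Kah A} {δ η : ℝ} {u : M → ℝ}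
    (H : TLu h D K δ η u) : TL0 h K η u := by
  obtain ⟨_, h2, h3, h4, h5, h6, h7⟩ := H
  refine ⟨h2, h3, h4, h5, h6, fun m ε hε => ?_⟩
  obtain ⟨v, hv1, hv2, hv3, hv4, _⟩ := h7 m ε hε ∅
  exact ⟨v, hv1, hv2, hv3, hv4⟩

end

section int

variable [T2Space M] [CompactSpace M] [Fintype A.ι] [MeasurableSpace M] [BorelSpace M]
  {h : HM (KB A)⁻¹} {K : Kah A}

/-- the exponential integrability decreases with `η` -/
theorem int_exp_mono {η η' : ℝ} (hη : η' ≤ η) {u : M → ℝ} (hu : Measurable u)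
    (h0 : ∀ x, u x ≤ 0) (hi : Integrable (fun x => Real.exp (-(η * u x))) (vm h)) :
    Integrable (fun x => Real.exp (-(η' * u x))) (vm h) := by
  refine hi.mono' ((Real.measurable_exp.comp ((hu.const_mul η').neg)).aestronglyMeasurable)
    (Eventually.of_forall fun x => ?_)
  rw [Real.norm_of_nonneg (Real.exp_pos _).le]
  refine Real.exp_le_exp.2 ?_
  nlinarith [h0 x]

theorem TL0.mono {η η' : ℝ} (hη0 : 0 < η') (hη : η' ≤ η) {u : M → ℝ} (H : TL0 h K η u) :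
    TL0 h K η' u := by
  obtain ⟨_, h3, h4, h5, h6, h7⟩ := H
  exact ⟨hη0, h3, h4, h5, int_exp_mono hη h3 h4 h6, h7⟩

theorem TLu.mono {D : TD A} {δ δ' η η' : ℝ} (hδ0 : 0 < δ') (hδ : δ' ≤ δ) (hη0 : 0 < η')
    (hη : η' ≤ η) {u : M → ℝ} (H : TLu h D K δ η u) : TLu h D K δ' η' u := by
  obtain ⟨_, _, h3, h4, h5, h6, h7⟩ := H
  refine ⟨hδ0, hη0, h3, h4, h5, int_exp_mono hη h3 h4 h6, fun m ε hε T => ?_⟩
  obtain ⟨v, hv1, hv2, hv3, hv4, hv5⟩ := h7 m ε hε T
  exact ⟨v, hv1, hv2, hv3, hv4, fun t ht =>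
    (mul_le_mul_of_nonneg_right hδ (Bbe_nonneg h t)).trans (hv5 t ht)⟩

theorem int_exp_half {η : ℝ} {u u' : M → ℝ} (hu : Measurable u)
    (hu' : Measurable u')
    (hi : Integrable (fun x => Real.exp (-(η * u x))) (vm h))
    (hi' : Integrable (fun x => Real.exp (-(η * u' x))) (vm h)) :
    Integrable (fun x => Real.exp (-(η * hf u u' x))) (vm h) := by
  have hm : Measurable (hf u u') := (hu.const_mul _).add (hu'.const_mul _)
  refine (hi.add hi').mono' ((Real.measurable_exp.comp ((hm.const_mul η).neg)).aestronglyMeasurable)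
    (Eventually.of_forall fun x => ?_)
  rw [Real.norm_of_nonneg (Real.exp_pos _).le, Pi.add_apply]
  have h1 := Real.exp_pos (-(η * u x))
  have h2 := Real.exp_pos (-(η * u' x))
  rcases le_total (-(η * u x)) (-(η * u' x)) with h3 | h3
  · refine (Real.exp_le_exp.2 (?_ : _ ≤ -(η * u' x))).trans (by linarith)
    unfold hf; linarith
  · refine (Real.exp_le_exp.2 (?_ : _ ≤ -(η * u x))).trans (by linarith)
    unfold hf; linarith

theorem memLp_hf {u u' : M → ℝ} (hu : MemLp u 2 (vm h)) (hu' : MemLp u' 2 (vm h)) :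
    MemLp (hf u u') 2 (vm h) := (hu.const_mul _).add (hu'.const_mul _)

theorem int_sq_hf {u u' v v' : M → ℝ} (hu : MemLp u 2 (vm h)) (hu' : MemLp u' 2 (vm h))
    (hv : A.Sm v) (hv' : A.Sm v') {ε : ℝ} (h1 : ∫ x, (v x - u x) ^ 2 ∂(vm h) ≤ ε)
    (h2 : ∫ x, (v' x - u' x) ^ 2 ∂(vm h) ≤ ε) :
    ∫ x, (hf v v' x - hf u u' x) ^ 2 ∂(vm h) ≤ ε := by
  have := isFinite_vm h
  have lp : ∀ {w : M → ℝ}, A.Sm w → MemLp w 2 (vm h) := by
    intro w hw
    have hc := cont_sm hw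
    obtain ⟨C, hC⟩ := isCompact_univ.exists_bound_of_continuousOn hc.continuousOn
    exact MemLp.of_bound hc.measurable.aestronglyMeasurable C
      (Eventually.of_forall fun x => hC x (mem_univ x))
  have i1 : Integrable (fun x => (v x - u x) ^ 2) (vm h) := ((lp hv).sub hu).integrable_sq
  have i2 : Integrable (fun x => (v' x - u' x) ^ 2) (vm h) := ((lp hv').sub hu').integrable_sq
  have i3 : Integrable (fun x => (hf v v' x - hf u u' x) ^ 2) (vm h) :=
    ((memLp_hf (lp hv) (lp hv')).sub (memLp_hf hu hu')).integrable_sq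
  calc ∫ x, (hf v v' x - hf u u' x) ^ 2 ∂(vm h)
      ≤ ∫ x, ((1 / 2 : ℝ) * (v x - u x) ^ 2 + (1 / 2 : ℝ) * (v' x - u' x) ^ 2) ∂(vm h) := by
        refine integral_mono i3 ((i1.const_mul _).add (i2.const_mul _)) fun x => ?_
        unfold hf
        simp only
        nlinarith [sq_nonneg ((v x - u x) - (v' x - u' x))]
    _ = (1 / 2 : ℝ) * ∫ x, (v x - u x) ^ 2 ∂(vm h) +
        (1 / 2 : ℝ) * ∫ x, (v' x - u' x) ^ 2 ∂(vm h) := by
        rw [integral_add (i1.const_mul _) (i2.const_mul _), integral_const_mul,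
          integral_const_mul]
    _ ≤ ε := by linarith

theorem TL0.half {η : ℝ} {u u' : M → ℝ} (H : TL0 h K η u) (H' : TL0 h K η u') :
    TL0 h K η (hf u u') := by
  obtain ⟨h2, h3, h4, h5, h6, h7⟩ := H
  obtain ⟨_, k3, k4, k5, k6, k7⟩ := H'
  refine ⟨h2, (h3.const_mul _).add (k3.const_mul _), fun x => ?_, memLp_hf h5 k5,
    int_exp_half h3 k3 h6 k6, fun m ε hε => ?_⟩
  · have := h4 x; have := k4 x; unfold hf; linarith
  obtain ⟨v, hv1, hv2, hv3, hv4⟩ := h7 m ε hε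
  obtain ⟨w, hw1, hw2, hw3, hw4⟩ := k7 m ε hε
  refine ⟨hf v w, sm_hf hv1 hw1, fun x => ?_, fun i x hx => ?_, int_sq_hf h5 k5 hv1 hw1 hv4 hw4⟩
  · have := hv2 x; have := hw2 x; unfold hf; linarith
  · rw [Xm_hf h K m hv1 hw1 i hx]
    exact psd_half (hv3 i x hx) (hw3 i x hx)

theorem TLu.half {D : TD A} {δ η : ℝ} {u u' : M → ℝ} (H : TLu h D K δ η u)
    (H' : TL0 h K η u') : TLu h D K (δ / 2) η (hf u u') ∧ TLu h D K (δ / 2) η (hf u' u) := by
  have hsymm : hf u' u = hf u u' := by funext x; unfold hf; ring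
  rw [hsymm, and_self_iff]
  obtain ⟨h1, h2, h3, h4, h5, h6, h7⟩ := H
  obtain ⟨_, k3, k4, k5, k6, k7⟩ := H'
  refine ⟨by linarith, h2, (h3.const_mul _).add (k3.const_mul _), fun x => ?_, memLp_hf h5 k5,
    int_exp_half h3 k3 h6 k6, fun m ε hε T => ?_⟩
  · have := h4 x; have := k4 x; unfold hf; linarith
  obtain ⟨v, hv1, hv2, hv3, hv4, hv5⟩ := h7 m ε hε T
  obtain ⟨w, hw1, hw2, hw3, hw4⟩ := k7 m ε hε
  refine ⟨hf v w, sm_hf hv1 hw1, fun x => ?_, fun i x hx => ?_, int_sq_hf h5 k5 hv1 hw1 hv4 hw4,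
    fun t ht => ?_⟩
  · have := hv2 x; have := hw2 x; unfold hf; linarith
  · have e := Xm_hf h K m hv1 hw1 i hx
    unfold Xm at e
    rw [e]
    exact psd_half (hv3 i x hx) (hw3 i x hx)
  · have e1 : t.B h (fun i x => cur h i x + (1 / ((m : ℂ) + 1)) • K.g i x + hsf A (hf v w) i x) =
        t.B h (fun i x => ((1 / 2 : ℝ) : ℂ) • Xm h K m v i x +
          ((1 / 2 : ℝ) : ℂ) • Xm h K m w i x) :=
      B_congr h t fun x hx => Xm_hf h K m hv1 hw1 t.i hx
    rw [e1, B_add h t (T := fun i x => ((1 / 2 : ℝ) : ℂ) • Xm h K m v i x)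
      (T' := fun i x => ((1 / 2 : ℝ) : ℂ) • Xm h K m w i x)
      ((tf_Xm h K m hv1).smul _) ((tf_Xm h K m hw1).smul _),
      B_smul h t (T := Xm h K m v), B_smul h t (T := Xm h K m w)]
    have e2 := hv5 t ht
    have e3 : 0 ≤ t.B h (Xm h K m w) := B_nonneg h t hw3
    have e4 : t.B h (fun i x => cur h i x + (1 / ((m : ℂ) + 1)) • K.g i x + hsf A v i x) =
        t.B h (Xm h K m v) := rfl
    rw [e4] at e2
    linarith

theorem TL0.zero (hs : h.Semipos) (K : Kah A) : TL0 h K 1 (fun _ => 0) := by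
  have := isFinite_vm h
  refine ⟨one_pos, measurable_const, fun _ => le_rfl, MemLp.zero' , ?_, fun m ε hε =>
    ⟨fun _ => 0, sm_const 0, fun _ => le_rfl, fun i x hx => ?_, ?_⟩⟩
  · simp only [mul_zero, neg_zero, Real.exp_zero]
    exact integrable_const 1
  · unfold Xm
    rw [hsf_const, add_zero]
    refine (cur_posSemidef hs i hx).add ((K.pos i x hx).posSemidef.smul ?_)
    have : (0 : ℝ) ≤ 1 / ((m : ℝ) + 1) := by positivity
    have h2 : (1 / ((m : ℂ) + 1)) = ((1 / ((m : ℝ) + 1) : ℝ) : ℂ) := by push_cast; ring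
    rw [h2]
    exact_mod_cast this
  · simp [hε.le]

/-- **the same `u` for finitely many data** -/
theorem tlu_fam (hs : h.Semipos) {R : Type*} [Finite R] (D : R → TD A)
    (H : ∀ r, TLStmt h (D r) K) :
    ∃ (δ η : ℝ) (u : M → ℝ), 0 < δ ∧ TL0 h K η u ∧ ∀ r, TLu h (D r) K δ η u := by
  classical
  have := Fintype.ofFinite R
  have key : ∀ s : Finset R, ∃ (δ η : ℝ) (u : M → ℝ), 0 < δ ∧ TL0 h K η u ∧
      ∀ r ∈ s, TLu h (D r) K δ η u := by
    intro s
    induction s using Finset.induction_on with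
    | empty => exact ⟨1, 1, fun _ => 0, one_pos, TL0.zero hs K, by simp⟩
    | insert a s ha ih =>
      obtain ⟨δ, η, u, hδ, h0, hr⟩ := ih
      obtain ⟨δ', η', u', hu'⟩ := H a
      have hη := h0.1
      have hη' := hu'.2.1
      have hδ' := hu'.1
      have hm1 : 0 < min η η' := lt_min hη hη'
      have hm2 : 0 < min δ δ' := lt_min hδ hδ'
      have a0 : TL0 h K (min η η') u := h0.mono hm1 (min_le_left _ _)
      have a1 : TLu h (D a) K (min δ δ') (min η η') u' :=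
        TLu.mono hm2 (min_le_right _ _) hm1 (min_le_right _ _) hu'
      refine ⟨min δ δ' / 2, min η η', hf u u', by linarith, a0.half a1.tl0, fun r hr' => ?_⟩
      rcases Finset.mem_insert.1 hr' with rfl | hr'
      · exact (a1.half a0).2
      · exact (TLu.half (TLu.mono hm2 (min_le_left _ _) hm1 (min_le_left _ _) (hr r hr'))
          a1.tl0).1
  obtain ⟨δ, η, u, h1, h2, h3⟩ := key Finset.univ
  exact ⟨δ, η, u, h1, h2, fun r => h3 r (Finset.mem_univ r)⟩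

end int

end

end Crest.Agent.R273.AppB_834
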