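import Crest.Agent.R273.FFa_769

/-!
# R273, leaf A-FF (helper769), part 2: the field `FF`

* `WW L w0 σ a τ` : `τ` is a holomorphic section of `(Λ^* T)^{⊗ (σ × ρ)} ⊗ L^a` proportional to
                    `w0^{⊗ σ}`
* `FF L w0`       : the quotients `τ / τ'` of such sections; an intermediate field `ℂ ⊆ FF ⊆ Mer A`
* `exists_common` : finitely many elements of `FF` have a common denominator
-/

set_option autoImplicit false
set_option linter.unusedSectionVars false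

open Set Filter Topology Complex
open scoped ContDiff Matrix ComplexConjugate

namespace Crest.Agent.R273.FF769

open Crest.Agent.R275.Geo Crest.Agent.R275.Core144 Crest.Agent.R275.GC293
open Crest.Agent.R273.Rigid769 Crest.Agent.R273.Mer769
open Crest.Agent.R273.Cram_747 (TS KP tns tns_TS mnr tns_ne_zero exists_nz nz)
open Crest.Agent.R273.Fock_243 (FI Gam)

noncomputable section

variable {n : ℕ} {M : Type} [TopologicalSpace M] {A : Atl n M}

section Gen

variable {ρ σ σ' : Type} [Fintype ρ] [DecidableEq ρ] [Fintype σ] [DecidableEq σ] [Fintype σ']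
  [DecidableEq σ'] {N N' : LB A}

theorem tp_ne_zero [ConnectedSpace M] {τ : A.ι → M → (σ × ρ → FI n) → ℂ}
    {τ' : A.ι → M → (σ' × ρ → FI n) → ℂ} (h : TS (σ × ρ) N τ) (h' : TS (σ' × ρ) N' τ')
    (h0 : τ ≠ 0) (h0' : τ' ≠ 0) : tp τ τ' ≠ 0 := by
  have hne : (nz τ ∩ nz τ').Nonempty := by
    have := (h'.dense_nz h0').inter_open_nonempty _ h.isOpen_nz
      ((h.dense_nz h0).nonempty)
    exact this
  obtain ⟨x, hx, hx'⟩ := hne
  obtain ⟨i, hi⟩ := A.cover x
  obtain ⟨F, hF⟩ := Function.ne_iff.1 (h.ne_of_nz hx hi)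
  obtain ⟨H, hH⟩ := Function.ne_iff.1 (h'.ne_of_nz hx' hi)
  intro h1
  have h2 : tp τ τ' i x ((eqv (FI n) σ σ' ρ).symm (F, H)) = 0 := by rw [h1]; rfl
  rw [tp_eqv] at h2
  exact mul_ne_zero hF hH h2

theorem rel_tp {g g' : Mer A} {τ u : A.ι → M → (σ × ρ → FI n) → ℂ}
    {τ' u' : A.ι → M → (σ' × ρ → FI n) → ℂ} (hτ : TS (σ × ρ) N τ) (hu : TS (σ × ρ) N u)
    (hτ' : TS (σ' × ρ) N' τ') (hu' : TS (σ' × ρ) N' u') (h : Rel g τ u) (h' : Rel g' τ' u') :
    Rel (g * g') (tp τ τ') (tp u u') := by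
  refine rel_of_dn' (tp_TS hτ hτ') (tp_TS hu hu') ?_
  filter_upwards [dn_reg g, dn_reg g'] with x hx hx' i hi _ F
  simp only [tp]
  rw [h i x hi hx, h' i x hi hx', (reg_mul hx hx').2]
  ring

theorem rel_mul_add {g g' : Mer A} {τ u : A.ι → M → (σ × ρ → FI n) → ℂ}
    {τ' u' : A.ι → M → (σ' × ρ → FI n) → ℂ} (hτ : TS (σ × ρ) N τ) (hu : TS (σ × ρ) N u)
    (hτ' : TS (σ' × ρ) N' τ') (hu' : TS (σ' × ρ) N' u') (h : Rel g τ u) (h' : Rel g' τ' u') :
    Rel (g + g') (tp τ u' + tp u τ') (tp u u') := by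
  refine rel_of_dn' (ts_add (tp_TS hτ hu') (tp_TS hu hτ')) (tp_TS hu hu') ?_
  filter_upwards [dn_reg g, dn_reg g'] with x hx hx' i hi _ F
  simp only [tp, Pi.add_apply]
  rw [h i x hi hx, h' i x hi hx', (reg_add hx hx').2]
  ring

theorem rel_symm [ConnectedSpace M] {g : Mer A} {τ u : A.ι → M → (ρ → FI n) → ℂ}
    (hτ : TS ρ N τ) (hu : TS ρ N u) (h : Rel g τ u) (hg : g ≠ 0) : Rel g⁻¹ u τ := by
  refine rel_of_dn' hu hτ ?_
  filter_upwards [dn_ne hg] with x hx i hi _ F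
  rw [h i x hi hx.1, (reg_inv hx.1 hx.2).2, inv_mul_cancel_left₀ hx.2]

theorem rel_prp [ConnectedSpace M] {g : Mer A} {τ u w : A.ι → M → (ρ → FI n) → ℂ}
    (hτ : TS ρ N τ) (h : Rel g τ u) (hw : Cram_747.Prp u w) {N' : LB A} (hw' : TS ρ N' w) :
    Cram_747.Prp τ w := by
  intro i x F H
  by_cases hi : x ∈ (A.e i).source
  · have hc : ContinuousAt (fun y => τ i y F * w i y H - τ i y H * w i y F) x :=
      ((ts_cont hτ i F hi).mul (ts_cont hw' i H hi)).sub
        ((ts_cont hτ i H hi).mul (ts_cont hw' i F hi))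
    have e1 : ∀ᶠ y in 𝓝 x, y ∈ (A.e i).source := (A.e i).open_source.mem_nhds hi
    have hfr : ∃ᶠ y in 𝓝 x, τ i y F * w i y H - τ i y H * w i y F = 0 := by
      refine ((mem_dn.1 (dn_reg g) x).and_eventually e1).mono ?_
      rintro y ⟨hy, hyi⟩
      have h1 := h i y hyi (mem_of_mem_nhds hy)
      rw [h1 F, h1 H]
      linear_combination (ev g y) * hw i y F H
    have h5 : τ i x F * w i x H - τ i x H * w i x F = 0 := by
      by_contra hne
      exact hfr ((hc.eventually_ne hne).mono fun y hy h => hy h)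
    exact sub_eq_zero.1 h5
  · simp [hτ.off i x hi]

end Gen

/-! ### the sections proportional to powers of `w0` -/

section FFdef

variable {ρ : Type} [Fintype ρ] [DecidableEq ρ] (L : LB A) (w0 : A.ι → M → (ρ → FI n) → ℂ)

/-- holomorphic sections of `(Λ^* T)^{⊗ (σ × ρ)} ⊗ L^a` proportional to `w0^{⊗ σ}` -/
structure WW (σ : Type) [Fintype σ] [DecidableEq σ] (a : ℕ) (τ : A.ι → M → (σ × ρ → FI n) → ℂ) :
    Prop where
  ts : TS (σ × ρ) (L ^ a) τ
  prp : Cram_747.Prp τ (tns fun _ : σ => w0)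

variable {L w0}

section WWlem

variable {σ σ' : Type} [Fintype σ] [DecidableEq σ] [Fintype σ'] [DecidableEq σ'] {a a' : ℕ}

theorem WW.add {τ τ' : A.ι → M → (σ × ρ → FI n) → ℂ} (h : WW L w0 σ a τ) (h' : WW L w0 σ a τ') :
    WW L w0 σ a (τ + τ') := ⟨ts_add h.ts h'.ts, prp_add h.prp h'.prp⟩

theorem WW.smul (c : ℂ) {τ : A.ι → M → (σ × ρ → FI n) → ℂ} (h : WW L w0 σ a τ) :
    WW L w0 σ a (c • τ) := ⟨ts_smul c h.ts, prp_smul' c h.prp⟩

theorem WW.tp {τ : A.ι → M → (σ × ρ → FI n) → ℂ} {τ' : A.ι → M → (σ' × ρ → FI n) → ℂ}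
    (h : WW L w0 σ a τ) (h' : WW L w0 σ' a' τ') : WW L w0 (σ ⊕ σ') (a + a') (tp τ τ') := by
  refine ⟨(tp_TS h.ts h'.ts).congr_N (pow_add L a a').symm, ?_⟩
  rw [← tp_tns]
  exact prp_tp h.prp h'.prp

theorem WW.tns {σ : Type} [Fintype σ] [DecidableEq σ] [Nonempty σ] {a : ℕ} (h : TS ρ (L ^ a) w0) :
    WW L w0 σ (a * Fintype.card σ) (Cram_747.tns fun _ : σ => w0) := by
  refine ⟨(tns_TS (fun _ : σ => h)).congr_N ?_, Cram_747.Prp.refl _⟩
  rw [Finset.prod_const, Finset.card_univ, ← pow_mul]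

/-- two elements of `WW L w0 σ a` are proportional -/
theorem WW.prp₂ [ConnectedSpace M] {τ τ' : A.ι → M → (σ × ρ → FI n) → ℂ} (h : WW L w0 σ a τ)
    (h' : WW L w0 σ a' τ') {N : LB A} (hw : TS (σ × ρ) N (Cram_747.tns fun _ : σ => w0))
    (h0 : (Cram_747.tns fun _ : σ => w0) ≠ (0 : A.ι → M → (σ × ρ → FI n) → ℂ)) :
    Cram_747.Prp τ τ' := by
  intro i x F H
  by_cases hi : x ∈ (A.e i).source
  · have hc : ContinuousAt (fun y => τ i y F * τ' i y H - τ i y H * τ' i y F) x :=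
      ((ts_cont h.ts i F hi).mul (ts_cont h'.ts i H hi)).sub
        ((ts_cont h.ts i H hi).mul (ts_cont h'.ts i F hi))
    have hfr : ∃ᶠ y in 𝓝 x, τ i y F * τ' i y H - τ i y H * τ' i y F = 0 := by
      refine (freq_ne hw h0 i x hi).mono fun y hy => ?_
      obtain ⟨E, hE⟩ := Function.ne_iff.1 hy
      set w := Cram_747.tns (fun _ : σ => w0) i y with hw
      have hE' : w E ≠ 0 := hE
      have a1 := h.prp i y F E
      have a2 := h.prp i y H E
      have b1 := h'.prp i y F E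
      have b2 := h'.prp i y H E
      rw [← hw] at a1 a2 b1 b2
      have h1 : (τ i y F * τ' i y H - τ i y H * τ' i y F) * (w E * w E) = 0 := by
        linear_combination (τ' i y H * w E) * a1 + (τ i y E * w F) * b2 -
          (τ' i y F * w E) * a2 - (τ i y E * w H) * b1
      exact (mul_eq_zero.1 h1).resolve_right (mul_ne_zero hE' hE')
    have h5 : τ i x F * τ' i x H - τ i x H * τ' i x F = 0 := by
      by_contra hne
      exact hfr ((hc.eventually_ne hne).mono fun y hy h => hy h)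
    exact sub_eq_zero.1 h5
  · simp [h.ts.off i x hi]

end WWlem

variable (L w0)

/-- the quotients of proportional sections -/
def InFF (g : Mer A) : Prop :=
  ∃ (σ : Type) (_ : Fintype σ) (_ : DecidableEq σ) (_ : Nonempty σ) (a : ℕ)
    (τ τ' : A.ι → M → (σ × ρ → FI n) → ℂ), WW L w0 σ a τ ∧ WW L w0 σ a τ' ∧ τ' ≠ 0 ∧ Rel g τ τ'

variable {L w0}

theorem InFF.mul [ConnectedSpace M] {g g' : Mer A} (h : InFF L w0 g) (h' : InFF L w0 g') :
    InFF L w0 (g * g') := by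
  obtain ⟨σ, _, _, _, a, τ, u, hτ, hu, h0, hr⟩ := h
  obtain ⟨σ', _, _, _, a', τ', u', hτ', hu', h0', hr'⟩ := h'
  exact ⟨σ ⊕ σ', inferInstance, inferInstance, inferInstance, a + a', _, _, hτ.tp hτ', hu.tp hu',
    tp_ne_zero hu.ts hu'.ts h0 h0', rel_tp hτ.ts hu.ts hτ'.ts hu'.ts hr hr'⟩

theorem InFF.add [ConnectedSpace M] {g g' : Mer A} (h : InFF L w0 g) (h' : InFF L w0 g') :
    InFF L w0 (g + g') := by
  obtain ⟨σ, _, _, _, a, τ, u, hτ, hu, h0, hr⟩ := h
  obtain ⟨σ', _, _, _, a', τ', u', hτ', hu', h0', hr'⟩ := h'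
  exact ⟨σ ⊕ σ', inferInstance, inferInstance, inferInstance, a + a', _, _,
    (hτ.tp hu').add (hu.tp hτ'), hu.tp hu',
    tp_ne_zero hu.ts hu'.ts h0 h0', rel_mul_add hτ.ts hu.ts hτ'.ts hu'.ts hr hr'⟩

theorem InFF.inv [ConnectedSpace M] {g : Mer A} (h : InFF L w0 g) : InFF L w0 g⁻¹ := by
  by_cases hg : g = 0
  · rwa [hg, inv_zero, ← hg]
  obtain ⟨σ, _, _, _, a, τ, u, hτ, hu, h0, hr⟩ := h
  refine ⟨σ, inferInstance, inferInstance, inferInstance, a, u, τ, hu, hτ, ?_,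
    rel_symm hτ.ts hu.ts hr hg⟩
  rintro rfl
  refine hg (rel_unique hu.ts h0 hr ?_)
  intro i x hi _ F
  have := (reg_algebraMap (A := A) 0 x).2
  rw [map_zero] at this
  rw [this]
  simp

theorem InFF.algebraMap [ConnectedSpace M] {a : ℕ} (hw : TS ρ (L ^ a) w0) (h0 : w0 ≠ 0) (c : ℂ) :
    InFF L w0 (algebraMap ℂ (Mer A) c) :=
  ⟨Unit, inferInstance, inferInstance, inferInstance, _, _, _, (WW.tns hw).smul c, WW.tns hw,
    tns_ne_zero (fun _ : Unit => hw) fun _ => h0, rel_algebraMap c _⟩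

/-- the field `FF` -/
def FF [ConnectedSpace M] {a : ℕ} (hw : TS ρ (L ^ a) w0) (h0 : w0 ≠ 0) :
    IntermediateField ℂ (Mer A) where
  carrier := {g | InFF L w0 g}
  mul_mem' := fun h h' => InFF.mul h h'
  add_mem' := fun h h' => InFF.add h h'
  algebraMap_mem' := fun c => InFF.algebraMap hw h0 c
  inv_mem' := fun _ h => InFF.inv h

theorem mem_FF [ConnectedSpace M] {a : ℕ} {hw : TS ρ (L ^ a) w0} {h0 : w0 ≠ 0} {g : Mer A} :
    g ∈ FF hw h0 ↔ InFF L w0 g := Iff.rfl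

/-- quotients of elements of `WW` are in `FF` -/
theorem WW.exists_mem [ConnectedSpace M] {a b : ℕ} (hw : TS ρ (L ^ a) w0) (h0 : w0 ≠ 0)
    {σ : Type} [Fintype σ] [DecidableEq σ] [Nonempty σ] {τ τ' : A.ι → M → (σ × ρ → FI n) → ℂ}
    (h : WW L w0 σ b τ) (h' : WW L w0 σ b τ') (h0' : τ' ≠ 0) :
    ∃ g ∈ FF hw h0, Rel g τ τ' := by
  obtain ⟨g, hg⟩ := exists_rel h.ts h'.ts (h.prp₂ h' (WW.tns (σ := σ) hw).ts
    (tns_ne_zero (fun _ : σ => hw) fun _ => h0)) h0'
  exact ⟨g, ⟨σ, inferInstance, inferInstance, inferInstance, b, τ, τ', h, h', h0', hg⟩, hg⟩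

/-- common denominators -/
theorem exists_common [ConnectedSpace M] {a : ℕ} (hw : TS ρ (L ^ a) w0) (h0 : w0 ≠ 0)
    {κ : Type} (s : Finset κ) (g : κ → Mer A) (hg : ∀ k ∈ s, g k ∈ FF hw h0) :
    ∃ (σ : Type) (_ : Fintype σ) (_ : DecidableEq σ) (_ : Nonempty σ) (b : ℕ)
      (t : A.ι → M → (σ × ρ → FI n) → ℂ) (τ : κ → A.ι → M → (σ × ρ → FI n) → ℂ),
      WW L w0 σ b t ∧ t ≠ 0 ∧ (∀ k ∈ s, WW L w0 σ b (τ k)) ∧ ∀ k ∈ s, Rel (g k) (τ k) t := by
  classical
  induction s using Finset.induction_on with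
  | empty =>
    exact ⟨Unit, inferInstance, inferInstance, inferInstance, _, _, fun _ => 0, WW.tns hw,
      tns_ne_zero (fun _ : Unit => hw) fun _ => h0, by simp, by simp⟩
  | insert l s hl ih =>
    obtain ⟨σ, _, _, _, b, t, τ, ht, ht0, hτ, hr⟩ :=
      ih fun k hk => hg k (Finset.mem_insert_of_mem hk)
    obtain ⟨σ', _, _, _, b', u, t', hu, ht', ht0', hr'⟩ := hg l (Finset.mem_insert_self _ _)
    have h1 : ∀ {N : LB A} {v : A.ι → M → (σ × ρ → FI n) → ℂ} {g : Mer A},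
        TS (σ × ρ) N v → TS (σ × ρ) N t → Rel g v t → Rel g (tp v t') (tp t t') := by
      intro N v g hv ht1 hvr
      refine rel_of_dn' (tp_TS hv ht'.ts) (tp_TS ht1 ht'.ts) ?_
      filter_upwards [dn_reg g] with x hx i hi _ F
      simp only [tp]
      rw [hvr i x hi hx]
      ring
    have h2 : Rel (g l) (tp t u) (tp t t') := by
      refine rel_of_dn' (tp_TS ht.ts hu.ts) (tp_TS ht.ts ht'.ts) ?_
      filter_upwards [dn_reg (g l)] with x hx i hi _ F
      simp only [tp]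
      rw [hr' i x hi hx]
      ring
    refine ⟨σ ⊕ σ', inferInstance, inferInstance, inferInstance, b + b', tp t t',
      fun k => if k = l then tp t u else tp (τ k) t', ht.tp ht', tp_ne_zero ht.ts ht'.ts ht0 ht0',
      fun k hk => ?_, fun k hk => ?_⟩
    · by_cases hkl : k = l
      · simp only [hkl, if_true]; exact ht.tp hu
      · simp only [hkl, if_false]
        exact (hτ k ((Finset.mem_insert.1 hk).resolve_left hkl)).tp ht'
    · by_cases hkl : k = l
      · subst hkl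
        simp only [if_true]
        exact h2
      · simp only [hkl, if_false]
        have hk' := (Finset.mem_insert.1 hk).resolve_left hkl
        exact h1 (hτ k hk').ts ht.ts (hr k hk')

end FFdef

end

end Crest.Agent.R273.FF769
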