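import Crest.Agent.R273.BochI_101
import Crest.Agent.R273.FIf0_597
import Crest.Agent.R273.FIlin_332
import Crest.Agent.R273.FFb_769

/-!
# R273 (S0416), Part A (helper101): the elements of `FF` are first integrals of `ker θ`

* `rank_le_of_freq` : closedness of `rank ≤ ν` for positive semidefinite matrices;
* `bu_tN`   : helper597's `BU` for an arbitrary holomorphic tensor;
* `fi_ts`   : the rank inequality for the quotient of two proportional tensors;
* `fi_FF`   : `(cur h i x + TT (ev g)).rank ≤ ν` for `g ∈ FF`, at every regular point;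
* `fi_FF'`  : `∂_v (ev g) = 0` for `v ∈ ker θ` where `rank θ = ν`.
-/

set_option autoImplicit false
set_option linter.unusedSectionVars false

open Set Filter Topology Complex Matrix
open scoped ContDiff Matrix ComplexConjugate Manifold ComplexOrder

namespace Crest.Agent.R273.FFi_101

open Crest.Agent.R275 Crest.Agent.R275.Geo Crest.Agent.R275.Core144 Crest.Agent.R275.GC293
open Crest.Agent.R273.Defs_333 Crest.Agent.R273.HM_333 Crest.Agent.R273.Kah_333
open Crest.Agent.R273.Vol_333 Crest.Agent.R273.YauDefs_635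
open Crest.Agent.R273.Fock_243
open Crest.Agent.R273.Cram_747 Crest.Agent.R273.FIb0_597 Crest.Agent.R273.FIe0_597
open Crest.Agent.R273.FIf0_597
open Crest.Agent.R273.BochE_101 Crest.Agent.R273.BochF_101 Crest.Agent.R273.BochI_101
open Crest.Agent.R273.Mer769

noncomputable section

variable {n : ℕ}

/-- closedness of `rank ≤ ν` -/
theorem rank_le_of_freq {X : Type*} [TopologicalSpace X] {S : X → Matrix (Fin n) (Fin n) ℂ}
    {p : X} (hS : ∀ a b, ContinuousAt (fun x => S x a b) p)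
    (hSp : ∀ᶠ x in 𝓝 p, (S x).PosSemidef) {ν : ℕ} (h : ∃ᶠ x in 𝓝 p, (S x).rank ≤ ν) :
    (S p).rank ≤ ν := by
  by_contra hcon
  push Not at hcon
  have h1 := FIlin_332.continuousAt_coeff_dp (G := fun _ : X => (1 : Matrix (Fin n) (Fin n) ℂ))
    (fun _ _ => continuousAt_const) hS (ν + 1)
  have h2 : ContinuousAt (fun x => ((VolInv_5.dp (1 : Matrix (Fin n) (Fin n) ℂ) (S x)).coeff
      (ν + 1)).re) p := Complex.continuous_re.continuousAt.comp h1
  have h3 := FIlin_332.coeff_dp_pos (n := n) Matrix.PosDef.one hSp.self_of_nhds hcon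
  refine h ?_
  filter_upwards [h2.eventually (lt_mem_nhds h3), hSp] with x hx hxs hr
  rw [FIlin_332.coeff_dp_zero Matrix.PosDef.one hxs (Nat.lt_succ_of_le hr)] at hx
  simp at hx

variable {M : Type} [TopologicalSpace M] {A : Atl n M} {L L' : LB A}

/-- helper597's `BU` for an arbitrary tensor -/
theorem bu_tN {ρ : Type} [Fintype ρ] [DecidableEq ρ] {N : LB A} {K : Kah A} {h : HM (KB A)⁻¹}
    (hs : h.Semipos) (hK : ∀ i, ∀ x ∈ (A.e i).source, cur (volK K) i x = cur h i x)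
    {hN : HM N} {m : ℝ} (hm : ∀ i, ∀ x ∈ (A.e i).source, cur hN i x = (m : ℂ) • cur h i x)
    {τ : A.ι → M → (ρ → FI n) → ℂ} (hτ : TS ρ N τ) {C : ℝ} (hC : Fintype.card ρ + m ≤ C) :
    BU K h τ C (tN K hN τ) where
  sm := sm_tN K hN hτ
  nn := tN_nonneg K hN τ
  zero i x hx := by
    constructor
    · intro h0
      by_contra h1
      exact (tN_pos K hN hτ hx h1).ne' h0
    · intro h0
      rw [tN_eq K hN hτ hx]
      unfold tU
      rw [h0, nrm_zero]
      simp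
  boch i x hx h0 := by
    have h1 := (boch_TS hs hK hm hτ).mono hs hC
    exact h1 i x hx (tN_pos K hN hτ hx h0)

theorem tN_smul {ρ : Type} [Fintype ρ] [DecidableEq ρ] {N : LB A} (K : Kah A) (hN : HM N)
    {τ0 τ1 : A.ι → M → (ρ → FI n) → ℂ} (h0 : TS ρ N τ0) (h1 : TS ρ N τ1) {i : A.ι} {x : M}
    (hx : x ∈ (A.e i).source) {c : ℂ} (hc : τ1 i x = c • τ0 i x) :
    tN K hN τ1 x = ‖c‖ ^ 2 * tN K hN τ0 x := by
  rw [tN_eq K hN h0 hx, tN_eq K hN h1 hx]
  unfold tU
  rw [hc, nrm_smul, Complex.re_ofReal_mul]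
  ring

section

variable [T2Space M] [CompactSpace M] [Fintype A.ι] [ConnectedSpace M]

/-- the rank inequality for the quotient of two proportional tensors -/
theorem fi_ts (hY : YauStmt) (hG : GoodA A) (P : Part A) {H : HM L'} (hH : H.Pos)
    {h : HM (KB A)⁻¹} (hs : h.Semipos) {ν : ℕ}
    (hν : ∀ i, ∀ x ∈ (A.e i).source, (cur h i x).rank ≤ ν)
    {ρ : Type} [Fintype ρ] [DecidableEq ρ] {N : LB A}
    {hN : HM N} {m : ℝ} (hm : ∀ i, ∀ x ∈ (A.e i).source, cur hN i x = (m : ℂ) • cur h i x)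
    {τ0 τ1 : A.ι → M → (ρ → FI n) → ℂ} (h0 : TS ρ N τ0) (h1 : TS ρ N τ1)
    (hp : Cram_747.Prp τ0 τ1) {i0 : A.ι} {V : Set M} (hVo : IsOpen V)
    (hVs : V ⊆ (A.e i0).source) {f : M → ℂ} (hf : HolAt A i0 V f)
    (hτf : ∀ x ∈ V, τ1 i0 x = f x • τ0 i0 x) (hne : ∀ x ∈ V, τ0 i0 x ≠ 0) :
    ∀ x ∈ V, (cur h i0 x + TT (fun z => f ((A.e i0).symm z)) (A.e i0 x)).rank ≤ ν := by
  refine fi_pair (C := |(Fintype.card ρ : ℝ) + m|) (FIlin_332.linS n) hY hG P hH hs hν
    (abs_nonneg _) h0.hol h1.hol hp (fun K hK => ?_) hVo hVs hf hτf hne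
  exact ⟨tN K hN τ0, tN K hN τ1, bu_tN hs hK hm h0 (le_abs_self _),
    bu_tN hs hK hm h1 (le_abs_self _), fun i x hx c hc => tN_smul K hN h0 h1 hx hc,
    fun i x hx c hc => tN_smul K hN h1 h0 hx hc⟩

theorem cont_TT {f : M → ℂ} {i : A.ι} {W : Set M} (hW : IsOpen W) (hf : HolAt A i W f) {x : M}
    (hx : x ∈ (A.e i).source) (hxW : x ∈ W) (a b : Fin n) :
    ContinuousAt (fun y => TT (fun z => f ((A.e i).symm z)) (A.e i y) a b) x := by
  have ho : IsOpen ((A.e i).target ∩ (A.e i).symm ⁻¹' W) := isOpen_ti hW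
  have hz : A.e i x ∈ (A.e i).target ∩ (A.e i).symm ⁻¹' W :=
    ⟨(A.e i).map_source hx, by rw [mem_preimage, (A.e i).left_inv hx]; exact hxW⟩
  have han : AnalyticOnNhd ℂ (fun z => f ((A.e i).symm z))
      ((A.e i).target ∩ (A.e i).symm ⁻¹' W) :=
    Crest.Agent.R266.SCV.analyticOnNhd_of_differentiableOn ho hf
  have hc0 : ContinuousAt (fun z => f ((A.e i).symm z)) (A.e i x) := (han _ hz).continuousAt
  have hc1 : ∀ a, ContinuousAt (fun z => fderiv ℂ (fun z => f ((A.e i).symm z)) z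
      (EuclideanSpace.single a 1)) (A.e i x) := fun a =>
    ((han.fderiv _ hz).continuousAt).clm_apply continuousAt_const
  have hc2 : ContinuousAt (fun z => TT (fun z => f ((A.e i).symm z)) z a b) (A.e i x) := by
    unfold TT dgr
    simp only [Matrix.smul_apply, Matrix.vecMulVec_apply, Pi.star_apply, smul_eq_mul]
    refine ContinuousAt.mul ?_ ((hc1 a).mul ?_)
    · refine Complex.continuous_ofReal.continuousAt.comp ?_
      refine ContinuousAt.inv₀ ?_ (by positivity)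
      exact (continuousAt_const.add ((hc0.norm).pow 2)).pow 2
    · exact Complex.continuous_conj.continuousAt.comp (hc1 b)
  exact ContinuousAt.comp (f := fun y => A.e i y)
    (g := fun z => TT (fun z => f ((A.e i).symm z)) z a b) hc2 ((A.e i).continuousAt hx)

/-- **the elements of `FF` satisfy the rank inequality at every regular point** -/
theorem fi_FF (hY : YauStmt) (hG : GoodA A) (P : Part A) {H : HM L'} (hH : H.Pos)
    {h : HM (KB A)⁻¹} (hs : h.Semipos) {ν : ℕ}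
    (hν : ∀ i, ∀ x ∈ (A.e i).source, (cur h i x).rank ≤ ν)
    {hL : HM L} {c₀ : ℝ} (hc : ∀ i, ∀ x ∈ (A.e i).source, cur hL i x = (c₀ : ℂ) • cur h i x)
    {ρ : Type} [Fintype ρ] [DecidableEq ρ] {w0 : A.ι → M → (ρ → FI n) → ℂ} {a : ℕ}
    (hw : TS ρ (L ^ a) w0) (h0 : w0 ≠ 0) {g : Mer A} (hg : g ∈ FF769.FF hw h0)
    {i : A.ι} {x : M} (hx : x ∈ (A.e i).source) (hxr : x ∈ reg g) :
    (cur h i x + TT (fun z => ev g ((A.e i).symm z)) (A.e i x)).rank ≤ ν := by
  obtain ⟨σ, _, _, _, b, τ, τ', hτ, hτ', hne, hr⟩ := FF769.mem_FF.1 hg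
  have hm : ∀ i, ∀ x ∈ (A.e i).source,
      cur (HM_333.pow hL b) i x = (((b : ℝ) * c₀ : ℝ) : ℂ) • cur h i x := by
    intro i x hx
    rw [cur_pow hL b i hx, hc i x hx, smul_smul]
    push_cast
    rfl
  have hprp : Cram_747.Prp τ' τ := hτ'.prp₂ hτ (FF769.WW.tns (σ := σ) hw).ts
    (tns_ne_zero (fun _ : σ => hw) fun _ => h0)
  -- the open set where `τ' ≠ 0`
  have hopen : IsOpen (reg g ∩ (A.e i).source ∩ nz τ') :=
    ((isOpen_reg g).inter (A.e i).open_source).inter hτ'.ts.isOpen_nz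
  have hV := fi_ts hY hG P hH hs hν hm hτ'.ts hτ.ts hprp hopen
    (fun y hy => hy.1.2) (f := ev g)
    (((holU_ev g) i).mono fun y hy => hy.1.1)
    (fun y hy => by
      funext F
      rw [hr i y hy.1.2 hy.1.1 F]
      rfl)
    fun y hy => hτ'.ts.ne_of_nz hy.2 hy.1.2
  refine rank_le_of_freq (S := fun y => cur h i y + TT (fun z => ev g ((A.e i).symm z)) (A.e i y))
    (fun a b => ?_) ?_ ?_
  · exact (cont_smAt (f := fun x => cur h i x a b) (cur_smooth h i a b) hx).add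
      (cont_TT (isOpen_reg g) (holU_ev g i) hx hxr a b)
  · filter_upwards [(A.e i).open_source.mem_nhds hx] with y hy
    exact (cur_posSemidef hs i hy).add (TT_psd _ _)
  · have e1 : ∀ᶠ y in 𝓝 x, y ∈ (A.e i).source := (A.e i).open_source.mem_nhds hx
    have e2 : ∀ᶠ y in 𝓝 x, y ∈ reg g := (isOpen_reg g).mem_nhds hxr
    refine ((FF769.freq_ne hτ'.ts hne i x hx).and_eventually (e1.and e2)).mono ?_
    rintro y ⟨hy, hyi, hyr⟩
    exact hV y ⟨⟨hyr, hyi⟩, ⟨i, hyi, hy⟩⟩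

/-- **the elements of `FF` are first integrals of `ker θ`** where `rank θ = ν` -/
theorem fi_FF' (hY : YauStmt) (hG : GoodA A) (P : Part A) {H : HM L'} (hH : H.Pos)
    {h : HM (KB A)⁻¹} (hs : h.Semipos) {ν : ℕ}
    (hν : ∀ i, ∀ x ∈ (A.e i).source, (cur h i x).rank ≤ ν)
    {hL : HM L} {c₀ : ℝ} (hc : ∀ i, ∀ x ∈ (A.e i).source, cur hL i x = (c₀ : ℂ) • cur h i x)
    {ρ : Type} [Fintype ρ] [DecidableEq ρ] {w0 : A.ι → M → (ρ → FI n) → ℂ} {a : ℕ}
    (hw : TS ρ (L ^ a) w0) (h0 : w0 ≠ 0) {g : Mer A} (hg : g ∈ FF769.FF hw h0)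
    {i : A.ι} {x : M} (hx : x ∈ (A.e i).source) (hxr : x ∈ reg g)
    (hr : (cur h i x).rank = ν) {v : Fin n → ℂ} (hv : ∀ b, ∑ a, v a * cur h i x a b = 0) :
    ∑ a, v a * dgr (fun z => ev g ((A.e i).symm z)) (A.e i x) a = 0 := by
  have h1 := fi_FF hY hG P hH hs hν hc hw h0 hg hx hxr
  rw [← hr] at h1
  exact ker_of_rank (cur_posSemidef hs i hx)
    (by positivity : 0 < ((1 + ‖(fun z => ev g ((A.e i).symm z)) (A.e i x)‖ ^ 2) ^ 2)⁻¹) h1 hv

end

end

end Crest.Agent.R273.FFi_101
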