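import Crest.Agent.R273.SteinC_794

/-!
# R273, STEIN complements, part D (helper794)

* `id_thm`   : identity theorem for sections of line bundles on a connected manifold;
* `wr`, `jd` : Wronskian row of a quotient of sections; the Jacobian of `n` quotients of sections is
               a holomorphic section `jd` of `K ⊗ ∏ B_k²`;
* `regU_eq`  : `regU A (nz t) z = nz (t * jd)`;
* ProjD      : immersion by the quotients of the homogeneous coordinates, existence of coordinates
               at a given point.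
-/

set_option autoImplicit false
set_option linter.unusedSectionVars false

open Set Filter Topology
open scoped ContDiff

namespace Crest.Agent.R273.SteinD_794

open Crest.Agent.R275.Geo Crest.Agent.R275.Core144 Crest.Agent.R273.SteinA_794
open Crest.Agent.R273.SteinC_794
open Crest.Agent.R273.Defs_333 (ProjD)

noncomputable section

variable {n : ℕ} {M : Type} [TopologicalSpace M] {A : Atl n M}

/-! ### identity theorem -/

theorem ev_zero_chart {i : A.ι} {f : M → ℂ} {x : M} (hx : x ∈ (A.e i).source) :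
    (∀ᶠ y in 𝓝 x, f y = 0) ↔ ∀ᶠ w in 𝓝 (A.e i x), f ((A.e i).symm w) = 0 := by
  constructor
  · intro h
    have hc : ContinuousAt (A.e i).symm (A.e i x) :=
      (A.e i).symm.continuousAt (by simpa using (A.e i).map_source hx)
    have h1 : Tendsto (A.e i).symm (𝓝 (A.e i x)) (𝓝 x) := by
      have := hc.tendsto
      rwa [(A.e i).left_inv hx] at this
    exact h1.eventually h
  · intro h
    have h1 : Tendsto (A.e i) (𝓝 x) (𝓝 (A.e i x)) := ((A.e i).continuousAt hx).tendsto
    filter_upwards [h1.eventually h, (A.e i).open_source.mem_nhds hx] with y hy hyi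
    rwa [(A.e i).left_inv hyi] at hy

/-- **identity theorem** for sections -/
theorem id_thm [ConnectedSpace M] {L : LB A} {s : A.ι → M → ℂ} (hs : IsHS L univ s)
    (h0 : ∃ i, ∃ x ∈ (A.e i).source, s i x ≠ 0) (i : A.ι) {x : M} (hx : x ∈ (A.e i).source) :
    ¬ ∀ᶠ y in 𝓝 x, s i y = 0 := by
  classical
  set Z : Set M := {x | ∃ i, x ∈ (A.e i).source ∧ ∀ᶠ y in 𝓝 x, s i y = 0} with hZ
  have hZi : ∀ {i : A.ι} {x : M}, x ∈ (A.e i).source → x ∈ Z → ∀ᶠ y in 𝓝 x, s i y = 0 := by
    rintro i x hx ⟨j, hj, hjz⟩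
    filter_upwards [hjz, (A.e i).open_source.mem_nhds hx, (A.e j).open_source.mem_nhds hj]
      with y hy hyi hyj
    exact (hs.zero_iff ⟨hyi, hyj⟩ (mem_univ y)).2 hy
  have hZo : IsOpen Z := by
    rw [isOpen_iff_mem_nhds]
    rintro x ⟨j, hj, hjz⟩
    filter_upwards [hjz.eventually_nhds, (A.e j).open_source.mem_nhds hj] with y hy hyj
    exact ⟨j, hyj, hy⟩
  have hZc : IsClosed Z := by
    refine isClosed_of_closure_subset fun x hx => ?_
    obtain ⟨i, hi⟩ := A.cover x
    refine ⟨i, hi, ?_⟩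
    rw [ev_zero_chart hi]
    -- a ball around `A.e i x` in the target
    obtain ⟨r, hr, hball⟩ := Metric.isOpen_iff.1 (A.e i).open_target _ ((A.e i).map_source hi)
    have hW : (A.e i).source ∩ (A.e i) ⁻¹' (Metric.ball (A.e i x) r) ∈ 𝓝 x :=
      Filter.inter_mem ((A.e i).open_source.mem_nhds hi)
        (((A.e i).continuousAt hi).preimage_mem_nhds (Metric.ball_mem_nhds _ hr))
    obtain ⟨y, hyW, hyZ⟩ := mem_closure_iff_nhds.1 hx _ hW
    have h1 : ∀ᶠ w in 𝓝 (A.e i y), s i ((A.e i).symm w) = 0 :=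
      (ev_zero_chart hyW.1).1 (hZi hyW.1 hyZ)
    have hdiff : DifferentiableOn ℂ (fun w => s i ((A.e i).symm w)) (Metric.ball (A.e i x) r) :=
      DifferentiableOn.mono (hs.hol i) fun w hw => ⟨hball hw, mem_univ _⟩
    have han := Crest.Agent.R266.SCV.analyticOnNhd_of_differentiableOn Metric.isOpen_ball hdiff
    have h2 := han.eqOn_zero_of_preconnected_of_eventuallyEq_zero
      (convex_ball (A.e i x) r).isPreconnected hyW.2 h1
    filter_upwards [Metric.ball_mem_nhds (A.e i x) hr] with w hw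
    exact h2 hw
  intro hcon
  have hne : Z.Nonempty := ⟨x, i, hx, hcon⟩
  have hall : Z = univ := IsClopen.eq_univ ⟨hZc, hZo⟩ hne
  obtain ⟨j, y, hy, hyn⟩ := h0
  exact hyn (hZi hy (hall ▸ mem_univ y)).self_of_nhds

theorem dense_nz [ConnectedSpace M] {L : LB A} {s : A.ι → M → ℂ} (hs : IsHS L univ s)
    (h0 : ∃ i, ∃ x ∈ (A.e i).source, s i x ≠ 0) : Dense (nz s) := by
  intro x
  obtain ⟨i, hi⟩ := A.cover x
  rw [mem_closure_iff_frequently]
  have h1 := id_thm hs h0 i hi
  rw [not_eventually] at h1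
  refine (h1.and_eventually ((A.e i).open_source.mem_nhds hi)).mono ?_
  rintro y ⟨hy, hyi⟩
  exact (mem_nz hs hyi).2 hy

/-- products of nonzero sections are nonzero -/
theorem mul_ne_zero_sec [ConnectedSpace M] {L L' : LB A} {s t : A.ι → M → ℂ}
    (hs : IsHS L univ s) (ht : IsHS L' univ t) (h0 : ∃ i, ∃ x ∈ (A.e i).source, s i x ≠ 0)
    (h1 : ∃ i, ∃ x ∈ (A.e i).source, t i x ≠ 0) :
    ∃ i, ∃ x ∈ (A.e i).source, (s * t) i x ≠ 0 := by
  obtain ⟨i, x, hx, hxs⟩ := h0
  have c1 : ContinuousAt (s i) x := continuousAt_of_holAt isOpen_univ (hs.hol i) hx (mem_univ x)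
  have h2 := id_thm ht h1 i hx
  rw [not_eventually] at h2
  have h3 : ∀ᶠ y in 𝓝 x, y ∈ (A.e i).source := (A.e i).open_source.mem_nhds hx
  have h4 : ∀ᶠ y in 𝓝 x, s i y ≠ 0 := c1.eventually_ne hxs
  obtain ⟨y, hy, hyi, hys⟩ := (h2.and_eventually (h3.and h4)).exists
  exact ⟨i, y, hyi, mul_ne_zero hys hy⟩

/-! ### products of line bundles -/

theorem prod_g {α : Type*} (F : Finset α) (B : α → LB A) (i j : A.ι) (x : M) :
    (∏ k ∈ F, B k).g i j x = ∏ k ∈ F, (B k).g i j x := by
  classical
  induction F using Finset.induction_on with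
  | empty => simp
  | insert a F ha ih => rw [Finset.prod_insert ha, Finset.prod_insert ha, LB.mul_g, ih]

/-! ### Wronskians -/

/-- Wronskian row `t ∂ s - s ∂ t` in the chart `i` -/
def wr (A : Atl n M) (s t : A.ι → M → ℂ) (i : A.ι) (x : M) : Cn n →L[ℂ] ℂ :=
  t i x • df A i (s i) x - s i x • df A i (t i) x

variable {L : LB A} {s t : A.ι → M → ℂ}

theorem df_mul {i : A.ι} {f g : M → ℂ} {V : Set M} (hV : IsOpen V) (hf : HolAt A i V f)
    (hg : HolAt A i V g) {x : M} (hx : x ∈ (A.e i).source) (hxV : x ∈ V) :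
    df A i (fun y => f y * g y) x = f x • df A i g x + g x • df A i f x := by
  have h1 := hf.diffAt hV hx hxV
  have h2 := hg.diffAt hV hx hxV
  unfold df
  rw [fderiv_fun_mul h1 h2, (A.e i).left_inv hx]

theorem df_congr {i : A.ι} {f g : M → ℂ} {x : M} (hx : x ∈ (A.e i).source)
    (h : f =ᶠ[𝓝 x] g) : df A i f x = df A i g x := by
  have hc : ContinuousAt (A.e i).symm (A.e i x) :=
    (A.e i).symm.continuousAt (by simpa using (A.e i).map_source hx)
  have h1 : Tendsto (A.e i).symm (𝓝 (A.e i x)) (𝓝 x) := by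
    have := hc.tendsto
    rwa [(A.e i).left_inv hx] at this
  have h2 : (fun w => f ((A.e i).symm w)) =ᶠ[𝓝 (A.e i x)] fun w => g ((A.e i).symm w) :=
    h1.eventually h
  exact h2.fderiv_eq

/-- differential of the quotient -/
theorem df_qt (hs : IsHS L univ s) (ht : IsHS L univ t) {i : A.ι} {x : M}
    (hx : x ∈ (A.e i).source) (h0 : t i x ≠ 0) :
    (t i x) ^ 2 • df A i (qt s t) x = wr A s t i x := by
  have hx0 : x ∈ nz t := (mem_nz ht hx).2 h0
  have hV := isOpen_nz ht
  have e1 : s i =ᶠ[𝓝 x] fun y => qt s t y * t i y := by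
    filter_upwards [(A.e i).open_source.mem_nhds hx, hV.mem_nhds hx0] with y hy hy0
    rw [qt_eq hs ht hy, div_mul_cancel₀]
    exact (mem_nz ht hy).1 hy0
  have e2 : df A i (s i) x = qt s t x • df A i (t i) x + t i x • df A i (qt s t) x := by
    rw [df_congr hx e1, df_mul hV (qt_hol hs ht i) ((ht.hol i).mono (subset_univ _)) hx hx0]
  have e3 : s i x = qt s t x * t i x := e1.self_of_nhds
  unfold wr
  rw [e2, e3]
  ext v
  simp only [_root_.sub_apply, _root_.smul_apply, _root_.add_apply, smul_eq_mul]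
  ring

/-- change of chart -/
theorem wr_tr (hs : IsHS L univ s) (ht : IsHS L univ t) {i j : A.ι} {x : M}
    (hi : x ∈ (A.e i).source) (hj : x ∈ (A.e j).source) (v : Cn n) :
    wr A s t i x v = (L.g i j x) ^ 2 * wr A s t j x (dJ A i j x v) := by
  have hV : IsOpen ((A.e i).source ∩ (A.e j).source) := (A.e i).open_source.inter (A.e j).open_source
  have hxV : x ∈ (A.e i).source ∩ (A.e j).source := ⟨hi, hj⟩
  have key : ∀ {u : A.ι → M → ℂ}, IsHS L univ u → df A i (u i) x v =
      L.g i j x * df A j (u j) x (dJ A i j x v) + u j x * df A i (L.g i j) x v := by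
    intro u hu
    have e1 : u i =ᶠ[𝓝 x] fun y => L.g i j y * u j y := by
      filter_upwards [hV.mem_nhds hxV] with y hy using hu.tr i j y hy (mem_univ y)
    have hgi : HolAt A i (A.e j).source (L.g i j) := L.hol i j
    have huj : HolAt A i (A.e j).source (u j) := by
      have := (hu.hol j).chg isOpen_univ i
      rwa [univ_inter] at this
    rw [df_congr hi e1, df_mul (A.e j).open_source hgi huj hi hj]
    have h3 := df_chg isOpen_univ (hu.hol j) hi hj (mem_univ x) v
    rw [← h3]
    rfl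
  simp only [wr, _root_.sub_apply, _root_.smul_apply, smul_eq_mul]
  rw [key hs, key ht, hs.tr i j x hxV (mem_univ x), ht.tr i j x hxV (mem_univ x)]
  ring

/-! ### the Jacobian section -/

/-- the matrix of the Wronskian rows -/
def Wm (A : Atl n M) (s t : Fin n → A.ι → M → ℂ) (i : A.ι) (x : M) : Matrix (Fin n) (Fin n) ℂ :=
  Matrix.of fun k a => wr A (s k) (t k) i x (EuclideanSpace.single a 1)

open Classical in
/-- the Jacobian section -/
def jd (A : Atl n M) (s t : Fin n → A.ι → M → ℂ) (i : A.ι) (x : M) : ℂ :=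
  if x ∈ (A.e i).source then (Wm A s t i x).det else 0

theorem jd_eq {s t : Fin n → A.ι → M → ℂ} {i : A.ι} {x : M} (hx : x ∈ (A.e i).source) :
    jd A s t i x = (Wm A s t i x).det := if_pos hx

theorem dJ_eq (i j : A.ι) (x : M) (a : Fin n) :
    dJ A i j x (EuclideanSpace.single a 1) = ∑ b, A.J i j x b a • EuclideanSpace.single b (1 : ℂ) := by
  ext c
  simp [Atl.J, dJ, Finset.sum_apply, Pi.single_apply]

theorem clm_single (φ : Cn n →L[ℂ] ℂ) (v : Cn n) :
    φ v = ∑ a, v a * φ (EuclideanSpace.single a 1) := by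
  have hv : v = ∑ c, v c • (EuclideanSpace.single c (1 : ℂ) : Cn n) := by
    ext d
    simp [Finset.sum_apply, Pi.single_apply]
  conv_lhs => rw [hv, map_sum]
  simp

theorem hol_df {i : A.ι} {V : Set M} (hV : IsOpen V) {f : M → ℂ} (hf : HolAt A i V f) (v : Cn n) :
    HolAt A i V (fun x => df A i f x v) := by
  have ho : IsOpen ((A.e i).target ∩ (A.e i).symm ⁻¹' V) := isOpen_ti hV
  have h1 : DifferentiableOn ℂ (fderiv ℂ (fun w => f ((A.e i).symm w)))
      ((A.e i).target ∩ (A.e i).symm ⁻¹' V) :=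
    ((Crest.Agent.R266.SCV.analyticOnNhd_of_differentiableOn ho hf).fderiv).differentiableOn
  have h2 : DifferentiableOn ℂ (fun w => fderiv ℂ (fun w => f ((A.e i).symm w)) w v)
      ((A.e i).target ∩ (A.e i).symm ⁻¹' V) := h1.clm_apply (differentiableOn_const _)
  refine DifferentiableOn.congr h2 fun z hz => ?_
  simp only [df, (A.e i).right_inv hz.1]

theorem isHS_jd {B : Fin n → LB A} {s t : Fin n → A.ι → M → ℂ} (hs : ∀ k, IsHS (B k) univ (s k))
    (ht : ∀ k, IsHS (B k) univ (t k)) :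
    IsHS (KB A * ∏ k, (B k) ^ 2) univ (jd A s t) := by
  refine ⟨fun i => ?_, fun i x hx => if_neg hx, fun i j x hx _ => ?_⟩
  · have h1 : ∀ k a, HolAt A i univ (fun x => Wm A s t i x k a) := by
      intro k a
      exact (((ht k).hol i).mul (hol_df isOpen_univ ((hs k).hol i) _)).sub
        (((hs k).hol i).mul (hol_df isOpen_univ ((ht k).hol i) _))
    have h2 : HolAt A i univ fun x => (Wm A s t i x).det := by
      simp only [Matrix.det_apply]
      refine HolAt.sum _ fun σ _ => ?_
      have h2 : HolAt A i univ fun x => ∏ b, Wm A s t i x (σ b) b :=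
        HolAt.prod _ fun b _ => h1 (σ b) b
      simp only [Units.smul_def, zsmul_eq_mul]
      exact h2.const_mul _
    exact h2.congr fun x hx _ => (jd_eq hx).symm
  · rw [jd_eq hx.1, jd_eq hx.2, LB.mul_g, KB_g hx, prod_g]
    have h1 : Wm A s t i x = Matrix.diagonal (fun k => ((B k).g i j x) ^ 2) *
        (Wm A s t j x * Jm A i j x) := by
      ext k a
      rw [Matrix.diagonal_mul, Matrix.mul_apply]
      simp only [Wm, Matrix.of_apply, Jm_apply]
      rw [wr_tr (hs k) (ht k) hx.1 hx.2, dJ_eq, map_sum]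
      congr 1
      refine Finset.sum_congr rfl fun b _ => ?_
      rw [map_smul, smul_eq_mul, mul_comm]
    rw [h1, Matrix.det_mul, Matrix.det_mul, Matrix.det_diagonal]
    simp only [Crest.Agent.R273.HM_333.LB_pow_g]
    ring

/-- the points where the quotients are coordinates -/
theorem mem_regU_iff {B : Fin n → LB A} {s t : Fin n → A.ι → M → ℂ} {V : Set M} (hV : IsOpen V)
    (hs : ∀ k, IsHS (B k) univ (s k)) (ht : ∀ k, IsHS (B k) univ (t k))
    (hVt : ∀ k, V ⊆ nz (t k)) {x : M} {i : A.ι} (hx : x ∈ (A.e i).source) :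
    x ∈ regU A V (fun k => qt (s k) (t k)) ↔ x ∈ V ∧ jd A s t i x ≠ 0 := by
  by_cases hxV : x ∈ V
  swap
  · exact ⟨fun h => absurd h.1 hxV, fun h => absurd h.1 hxV⟩
  have hz : ∀ i k, HolAt A i V (qt (s k) (t k)) := fun i k =>
    (qt_hol (hs k) (ht k) i).mono (hVt k)
  rw [mem_regU hV hz hx hxV, jd_eq hx]
  have h0 : ∀ k, t k i x ≠ 0 := fun k => (mem_nz (ht k) hx).1 (hVt k hxV)
  have h1 : ∀ v : Cn n, (∀ k, df A i (qt (s k) (t k)) x v = 0) ↔
      (Wm A s t i x).mulVec (fun a => v a) = 0 := by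
    intro v
    have h2 : ∀ k, (Wm A s t i x).mulVec (fun a => v a) k = wr A (s k) (t k) i x v := by
      intro k
      rw [clm_single (wr A (s k) (t k) i x) v, Matrix.mulVec, dotProduct]
      exact Finset.sum_congr rfl fun a _ => mul_comm _ _
    constructor
    · intro h
      funext k
      rw [h2, ← df_qt (hs k) (ht k) hx (h0 k)]
      simp [h k]
    · intro h k
      have h3 : wr A (s k) (t k) i x v = 0 := by rw [← h2, h]; rfl
      rw [← df_qt (hs k) (ht k) hx (h0 k)] at h3
      simp only [_root_.smul_apply, smul_eq_mul] at h3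
      exact (mul_eq_zero.1 h3).resolve_left (pow_ne_zero 2 (h0 k))
  constructor
  · intro h
    refine ⟨hxV, fun hdet => ?_⟩
    obtain ⟨v, hv0, hv⟩ := Matrix.exists_mulVec_eq_zero_iff.2 hdet
    have h3 := h (WithLp.toLp 2 v) ((h1 _).2 hv)
    apply hv0
    funext a
    exact congrArg (fun u : Cn n => u a) h3
  · rintro ⟨_, hdet⟩ v hv
    have h3 := (h1 v).1 hv
    have h4 : (fun a => v a) = (0 : Fin n → ℂ) := by
      by_contra hne
      exact hdet (Matrix.exists_mulVec_eq_zero_iff.1 ⟨_, hne, h3⟩)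
    ext a
    exact congrFun h4 a

end

end Crest.Agent.R273.SteinD_794
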