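import Crest.Agent.R273.AppA_834
import Crest.Agent.R273.SteinD_794
import Crest.Agent.R273.FFi_101

/-!
# R273 (S0416), leaf A-APP, part C (helper834): homogeneous polynomials in sections

`q : Fin (N + 1) → A.ι → M → ℂ` sections of a line bundle `B`.
* `WrC h ν q` : the Wronskians of the `q o` vanish on `ker (cur h)` where `rank (cur h) = ν`
* `mon q D m`, `homS q D p : IsHS (B ^ D) univ` : homogenised polynomials, `homS_eq`
* `ev_hom`    : `WrC h ν q → Ev h ν (homS q D (P j))_j`
* `wrC_of_dense` : `WrC` follows from its validity on a dense set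
-/

set_option autoImplicit false
set_option linter.unusedSectionVars false

open Set Filter Topology Complex MeasureTheory
open scoped ContDiff Matrix ComplexConjugate ComplexOrder

namespace Crest.Agent.R273.AppC_834

open Crest.Agent.R275 Crest.Agent.R275.Geo Crest.Agent.R275.Core144 Crest.Agent.R275.EDR890
open Crest.Agent.R273.Defs_333 Crest.Agent.R273.HM_333 Crest.Agent.R273.Kah_333
open Crest.Agent.R273.AppA_834
open Crest.Agent.R273.FIf0_597 (dgr)
open Crest.Agent.R273.SteinC_794 (df)
open Crest.Agent.R273.SteinD_794 (df_mul df_congr)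

noncomputable section

variable {n : ℕ} {M : Type} [TopologicalSpace M] {A : Atl n M} {L B : LB A} {N : ℕ}

/-! ### derivatives in the direction `v` -/

theorem dv_eq (v : Fin n → ℂ) (i : A.ι) (x : M) (s : M → ℂ) :
    dv A v i x s = df A i s x (WithLp.toLp 2 v) := by
  unfold dv dgr df
  have hv : (WithLp.toLp 2 v : Cn n) = ∑ c, v c • (EuclideanSpace.single c (1 : ℂ) : Cn n) := by
    ext d
    simp [Finset.sum_apply, Pi.single_apply]
  conv_rhs => rw [hv, map_sum]
  refine Finset.sum_congr rfl fun a _ => ?_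
  rw [map_smul, smul_eq_mul]

section eig

variable {i : A.ι} {x : M} {f g : M → ℂ}

theorem eig_mul (hf : HolAt A i univ f) (hg : HolAt A i univ g) (hx : x ∈ (A.e i).source)
    {v : Fin n → ℂ} {a b : ℂ} (h1 : dv A v i x f = a * f x) (h2 : dv A v i x g = b * g x) :
    dv A v i x (fun y => f y * g y) = (a + b) * (f x * g x) := by
  rw [dv_eq] at h1 h2 ⊢
  rw [df_mul isOpen_univ hf hg hx (mem_univ x), add_apply,
    smul_apply, smul_apply, h1, h2, smul_eq_mul,
    smul_eq_mul]
  ring

theorem eig_const (c : ℂ) {v : Fin n → ℂ} : dv A v i x (fun _ => c) = 0 := by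
  rw [dv_eq]
  unfold df
  simp

theorem eig_pow (hf : HolAt A i univ f) (hx : x ∈ (A.e i).source)
    {v : Fin n → ℂ} {a : ℂ} (h1 : dv A v i x f = a * f x) (k : ℕ) :
    dv A v i x (fun y => f y ^ k) = ((k : ℂ) * a) * f x ^ k := by
  induction k with
  | zero =>
    simp only [pow_zero, Nat.cast_zero, zero_mul]
    exact eig_const 1
  | succ k ih =>
    have h2 := eig_mul (hf.pow k) hf hx ih h1
    simp only [pow_succ]
    rw [h2]
    push_cast
    ring

theorem eig_prod {κ : Type*} (s : Finset κ) {F : κ → M → ℂ} (hF : ∀ k ∈ s, HolAt A i univ (F k))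
    (hx : x ∈ (A.e i).source) {v : Fin n → ℂ} {a : κ → ℂ}
    (h : ∀ k ∈ s, dv A v i x (F k) = a k * F k x) :
    dv A v i x (fun y => ∏ k ∈ s, F k y) = (∑ k ∈ s, a k) * ∏ k ∈ s, F k x := by
  classical
  induction s using Finset.induction_on with
  | empty =>
    simp only [Finset.prod_empty, Finset.sum_empty, zero_mul]
    exact eig_const 1
  | insert k s hk ih =>
    have h1 := ih (fun l hl => hF l (Finset.mem_insert_of_mem hl))
      (fun l hl => h l (Finset.mem_insert_of_mem hl))
    have h2 := eig_mul (hF k (Finset.mem_insert_self k s))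
      (HolAt.prod s fun l hl => hF l (Finset.mem_insert_of_mem hl)) hx
      (h k (Finset.mem_insert_self k s)) h1
    simp only [Finset.prod_insert hk, Finset.sum_insert hk]
    exact h2

theorem dv_sum {κ : Type*} (s : Finset κ) {F : κ → M → ℂ} (hF : ∀ k ∈ s, HolAt A i univ (F k))
    (hx : x ∈ (A.e i).source) {v : Fin n → ℂ} :
    dv A v i x (fun y => ∑ k ∈ s, F k y) = ∑ k ∈ s, dv A v i x (F k) := by
  simp only [dv_eq]
  unfold df
  have h1 : fderiv ℂ (fun w => ∑ k ∈ s, F k ((A.e i).symm w)) (A.e i x) =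
      ∑ k ∈ s, fderiv ℂ (fun w => F k ((A.e i).symm w)) (A.e i x) :=
    fderiv_fun_sum fun k hk => (hF k hk).diffAt isOpen_univ hx (mem_univ x)
  rw [h1, sum_apply]

theorem dv_const_mul (c : ℂ) (hf : HolAt A i univ f) (hx : x ∈ (A.e i).source)
    {v : Fin n → ℂ} : dv A v i x (fun y => c * f y) = c * dv A v i x f := by
  simp only [dv_eq]
  unfold df
  rw [fderiv_const_mul (hf.diffAt isOpen_univ hx (mem_univ x))]
  rfl

end eig

/-! ### homogenised polynomials -/

/-- the total degree of an exponent -/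
def dg (m : Fin N →₀ ℕ) : ℕ := ∑ l, m l

/-- monomials -/
def mon (q : Fin (N + 1) → A.ι → M → ℂ) (D : ℕ) (m : Fin N →₀ ℕ) : A.ι → M → ℂ :=
  fun i x => (∏ l, q l.succ i x ^ m l) * q 0 i x ^ (D - dg m)

/-- homogenised polynomials -/
def homS (q : Fin (N + 1) → A.ι → M → ℂ) (D : ℕ) (p : MvPolynomial (Fin N) ℂ) : A.ι → M → ℂ :=
  ∑ m ∈ p.support, p.coeff m • mon q D m

theorem homS_apply (q : Fin (N + 1) → A.ι → M → ℂ) (D : ℕ) (p : MvPolynomial (Fin N) ℂ)
    (i : A.ι) (x : M) : homS q D p i x = ∑ m ∈ p.support, p.coeff m * mon q D m i x := by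
  unfold homS
  rw [Finset.sum_apply, Finset.sum_apply]
  rfl

theorem dg_le {p : MvPolynomial (Fin N) ℂ} {D : ℕ} (hD : p.totalDegree ≤ D) {m : Fin N →₀ ℕ}
    (hm : m ∈ p.support) : dg m ≤ D := by
  refine le_trans ?_ hD
  have h1 := MvPolynomial.le_totalDegree hm
  rw [Finsupp.sum_fintype _ _ (fun _ => rfl)] at h1
  exact h1

section

variable {q : Fin (N + 1) → A.ι → M → ℂ}

/-- a monomial vanishes where all `q o` vanish -/
theorem mon_zero {D : ℕ} (hD : 0 < D) {m : Fin N →₀ ℕ} {i : A.ι} {x : M}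
    (h : ∀ o, q o i x = 0) : mon q D m i x = 0 := by
  unfold mon
  by_cases hm : dg m = 0
  · have h1 : D - dg m ≠ 0 := by omega
    rw [h 0, zero_pow h1, mul_zero]
  · have h1 : ∃ l, m l ≠ 0 := by
      by_contra hcon
      push Not at hcon
      exact hm (Finset.sum_eq_zero fun l _ => hcon l)
    obtain ⟨l, hl⟩ := h1
    rw [Finset.prod_eq_zero (Finset.mem_univ l) (by rw [h l.succ, zero_pow hl]), zero_mul]

theorem mon_hs (hq : ∀ o, IsHS B univ (q o)) {D : ℕ} (hD : 0 < D) {m : Fin N →₀ ℕ}
    (hm : dg m ≤ D) : IsHS (B ^ D) univ (mon q D m) := by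
  refine ⟨fun i => ?_, fun i x hx => mon_zero hD fun o => (hq o).off i x hx,
    fun i j x hx _ => ?_⟩
  · exact (HolAt.prod Finset.univ fun l _ => ((hq l.succ).hol i).pow (m l)).mul
      (((hq 0).hol i).pow _)
  · unfold mon
    have h1 : ∀ o, q o i x = B.g i j x * q o j x := fun o => (hq o).tr i j x hx (mem_univ x)
    rw [LB_pow_g, h1 0, mul_pow]
    have h2 : ∏ l : Fin N, q l.succ i x ^ m l =
        (B.g i j x) ^ dg m * ∏ l : Fin N, q l.succ j x ^ m l := by
      unfold dg
      rw [← Finset.prod_pow_eq_pow_sum, ← Finset.prod_mul_distrib]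
      exact Finset.prod_congr rfl fun l _ => by rw [h1 l.succ, mul_pow]
    rw [h2]
    have h3 : (B.g i j x) ^ D = (B.g i j x) ^ dg m * (B.g i j x) ^ (D - dg m) := by
      rw [← pow_add]; congr 1; omega
    rw [h3]
    ring

theorem homS_hs (hq : ∀ o, IsHS B univ (q o)) {D : ℕ} (hD : 0 < D)
    {p : MvPolynomial (Fin N) ℂ} (hp : p.totalDegree ≤ D) :
    IsHS (B ^ D) univ (homS q D p) := by
  have h1 : homS q D p ∈ HS (B ^ D) univ := by
    refine Submodule.sum_mem _ fun m hm => Submodule.smul_mem _ _ ?_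
    exact mem_HS.2 (mon_hs hq hD (dg_le hp hm))
  exact mem_HS.1 h1

/-- in terms of the quotients -/
theorem homS_eq {D : ℕ} {p : MvPolynomial (Fin N) ℂ} (hp : p.totalDegree ≤ D) {i : A.ι} {x : M}
    {y : Fin N → ℂ} (hy : ∀ l, q l.succ i x = y l * q 0 i x) :
    homS q D p i x = q 0 i x ^ D * MvPolynomial.eval y p := by
  rw [homS_apply, MvPolynomial.eval_eq', Finset.mul_sum]
  refine Finset.sum_congr rfl fun m hm => ?_
  have h1 : ∏ l : Fin N, q l.succ i x ^ m l = (∏ l, y l ^ m l) * q 0 i x ^ dg m := by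
    unfold dg
    rw [← Finset.prod_pow_eq_pow_sum, ← Finset.prod_mul_distrib]
    exact Finset.prod_congr rfl fun l _ => by rw [hy l, mul_pow]
  have h3 : q 0 i x ^ D = q 0 i x ^ dg m * q 0 i x ^ (D - dg m) := by
    rw [← pow_add]; congr 1; have := dg_le hp hm; omega
  unfold mon
  rw [h1, h3]
  ring

theorem homS_zero {D : ℕ} (hD : 0 < D) (p : MvPolynomial (Fin N) ℂ) {i : A.ι} {x : M}
    (h : ∀ o, q o i x = 0) : homS q D p i x = 0 := by
  rw [homS_apply]
  exact Finset.sum_eq_zero fun m _ => by rw [mon_zero hD h, mul_zero]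

/-- Euler's identity -/
theorem dv_homS (hq : ∀ o, IsHS B univ (q o)) {D : ℕ} {p : MvPolynomial (Fin N) ℂ}
    (hp : p.totalDegree ≤ D) {i : A.ι} {x : M} (hx : x ∈ (A.e i).source) {v : Fin n → ℂ} {a : ℂ}
    (h : ∀ o, dv A v i x (q o i) = a * q o i x) :
    dv A v i x (homS q D p i) = ((D : ℂ) * a) * homS q D p i x := by
  have hmon : ∀ m ∈ p.support, HolAt A i univ (mon q D m i) ∧
      dv A v i x (mon q D m i) = ((D : ℂ) * a) * mon q D m i x := by
    intro m hm
    have h0 : ∀ l : Fin N, HolAt A i univ (fun y => q l.succ i y ^ m l) := fun l =>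
      ((hq l.succ).hol i).pow (m l)
    refine ⟨(HolAt.prod Finset.univ fun l _ => h0 l).mul (((hq 0).hol i).pow _), ?_⟩
    have h1 := eig_prod Finset.univ (fun l _ => h0 l) hx
      (a := fun l => (m l : ℂ) * a) fun l _ => eig_pow ((hq l.succ).hol i) hx (h l.succ) (m l)
    have h2 := eig_pow ((hq 0).hol i) hx (h 0) (D - dg m)
    have h3 := eig_mul (HolAt.prod Finset.univ fun l _ => h0 l) (((hq 0).hol i).pow _) hx h1 h2
    have h4 : (∑ l, (m l : ℂ) * a) + ((D - dg m : ℕ) : ℂ) * a = (D : ℂ) * a := by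
      rw [← Finset.sum_mul, ← add_mul]
      congr 1
      have h5 : (∑ l, (m l : ℂ)) = ((dg m : ℕ) : ℂ) := by unfold dg; push_cast; rfl
      rw [h5]
      have := dg_le hp hm
      rw [← Nat.cast_add]
      congr 1
      omega
    rw [h4] at h3
    exact h3
  have e1 : homS q D p i = fun y => ∑ m ∈ p.support, p.coeff m * mon q D m i y := by
    funext y
    exact homS_apply q D p i y
  rw [homS_apply, e1, dv_sum _ (fun m hm => ((hmon m hm).1).const_mul _) hx, Finset.mul_sum]
  refine Finset.sum_congr rfl fun m hm => ?_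
  rw [dv_const_mul _ (hmon m hm).1 hx, (hmon m hm).2]
  ring

/-- the Wronskians of the `q o` vanish on `ker (cur h)` at the points where `rank (cur h) = ν` -/
def WrC (h : HM L) (ν : ℕ) (q : Fin (N + 1) → A.ι → M → ℂ) : Prop :=
  ∀ i, ∀ x ∈ (A.e i).source, (cur h i x).rank = ν →
    ∀ v : Fin n → ℂ, (∀ b, ∑ a, v a * cur h i x a b = 0) → ∀ o o',
      q o i x * dv A v i x (q o' i) = q o' i x * dv A v i x (q o i)

theorem ev_hom {h : HM L} {ν : ℕ} (hq : ∀ o, IsHS B univ (q o)) (hw : WrC h ν q) {D : ℕ}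
    (hD : 0 < D) {K : ℕ} {P : Fin K → MvPolynomial (Fin N) ℂ}
    (hP : ∀ j, (P j).totalDegree ≤ D) : Ev h ν (fun j => homS q D (P j)) := by
  intro i x hx hr hne v hv
  obtain ⟨j, hj⟩ := hne
  obtain ⟨o, ho⟩ : ∃ o, q o i x ≠ 0 := by
    by_contra hcon
    push Not at hcon
    exact hj (homS_zero hD _ hcon)
  set a : ℂ := dv A v i x (q o i) / q o i x with ha
  have h1 : ∀ o', dv A v i x (q o' i) = a * q o' i x := by
    intro o'
    have h2 := hw i x hx hr v hv o o'
    rw [ha, div_mul_eq_mul_div, eq_div_iff ho]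
    linear_combination h2
  exact ⟨(D : ℂ) * a, fun k => dv_homS hq (hP k) hx h1⟩

end

/-! ### density -/

theorem ker_iff {h : HM L} {i : A.ι} {x : M} (hx : x ∈ (A.e i).source) (v : Fin n → ℂ) :
    (∀ b, ∑ a, v a * cur h i x a b = 0) ↔ cur h i x *ᵥ (star v) = 0 := by
  have h3 : ∀ a b, cur h i x b a = conj (cur h i x a b) := fun a b => by
    have := congrFun (congrFun (cur_herm h i hx) b) a
    rw [Matrix.conjTranspose_apply] at this
    exact this.symm
  have h4 : ∀ b, (cur h i x *ᵥ (star v)) b = conj (∑ a, v a * cur h i x a b) := by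
    intro b
    rw [Matrix.mulVec, dotProduct, map_sum]
    refine Finset.sum_congr rfl fun a _ => ?_
    rw [map_mul, h3 a b, Pi.star_apply, RCLike.star_def, mul_comm]
  constructor
  · intro h1
    funext b
    rw [h4 b, h1 b, map_zero]
    rfl
  · intro h1 b
    have h5 := h4 b
    rw [h1, Pi.zero_apply] at h5
    exact (map_eq_zero _).1 h5.symm

/-- the gradient of the Wronskian -/
def gW (A : Atl n M) (p q : A.ι → M → ℂ) (i : A.ι) (x : M) : Fin n → ℂ := fun a =>
  q i x * dgr (fun z => p i ((A.e i).symm z)) (A.e i x) a -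
    p i x * dgr (fun z => q i ((A.e i).symm z)) (A.e i x) a

theorem gW_dv (p q : A.ι → M → ℂ) (i : A.ι) (x : M) (v : Fin n → ℂ) :
    ∑ a, v a * gW A p q i x a = q i x * dv A v i x (p i) - p i x * dv A v i x (q i) := by
  unfold gW dv
  simp only [mul_sub, Finset.sum_sub_distrib, Finset.mul_sum]
  congr 1
  · exact Finset.sum_congr rfl fun a _ => by ring
  · exact Finset.sum_congr rfl fun a _ => by ring

theorem rank_le_of_ker {θ : Matrix (Fin n) (Fin n) ℂ} (hθ : θ.IsHermitian) {g : Fin n → ℂ}
    (hg : ∀ v : Fin n → ℂ, (∀ b, ∑ a, v a * θ a b = 0) → ∑ a, v a * g a = 0) :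
    (θ + Matrix.vecMulVec g (star g)).rank ≤ θ.rank := by
  have hle : LinearMap.ker θ.mulVecLin ≤
      LinearMap.ker (θ + Matrix.vecMulVec g (star g)).mulVecLin := by
    intro w hw
    rw [LinearMap.mem_ker, Matrix.mulVecLin_apply] at hw ⊢
    have h1 : ∀ b, ∑ a, (star w) a * θ a b = 0 := by
      intro b
      have h2 := congrArg conj (congrFun hw b)
      rw [Matrix.mulVec, dotProduct, map_sum, Pi.zero_apply, map_zero] at h2
      rw [← h2]
      refine Finset.sum_congr rfl fun a _ => ?_
      have h3 := congrFun (congrFun hθ a) b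
      rw [Matrix.conjTranspose_apply] at h3
      rw [map_mul, ← h3, Pi.star_apply, RCLike.star_def, mul_comm]
    have h2 := hg (star w) h1
    have h3 : star g ⬝ᵥ w = 0 := by
      have h4 := congrArg conj h2
      rw [map_sum, map_zero] at h4
      rw [dotProduct, ← h4]
      refine Finset.sum_congr rfl fun a _ => ?_
      simp only [map_mul, Pi.star_apply, RCLike.star_def, Complex.conj_conj]
      rw [mul_comm]
    rw [Matrix.add_mulVec, hw, zero_add, Matrix.vecMulVec_mulVec, h3]
    simp
  have h1 := LinearMap.finrank_range_add_finrank_ker θ.mulVecLin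
  have h2 := LinearMap.finrank_range_add_finrank_ker
    (θ + Matrix.vecMulVec g (star g)).mulVecLin
  have h3 := Submodule.finrank_mono hle
  unfold Matrix.rank
  omega

theorem mrank_add_le (X Y : Matrix (Fin n) (Fin n) ℂ) : (X + Y).rank ≤ X.rank + Y.rank := by
  unfold Matrix.rank
  rw [Matrix.mulVecLin_add]
  exact (Submodule.finrank_mono (LinearMap.range_add_le _ _)).trans
    (Submodule.finrank_add_le_finrank_add_finrank _ _)

section dense

variable {h : HM L} (hs : h.Semipos) {ν : ℕ}
  (hν : ∀ i, ∀ x ∈ (A.e i).source, (cur h i x).rank ≤ ν)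
  {q : Fin (N + 1) → A.ι → M → ℂ}

theorem cont_at_chart {i : A.ι} {x : M} (hx : x ∈ (A.e i).source) {f : Cn n → ℂ}
    (hf : ContinuousAt f (A.e i x)) : ContinuousAt (fun y => f (A.e i y)) x :=
  ContinuousAt.comp (f := fun y => A.e i y) hf ((A.e i).continuousAt hx)

theorem cont_gW (hq : ∀ o, IsHS B univ (q o)) (o o' : Fin (N + 1)) {i : A.ι} {x : M}
    (hx : x ∈ (A.e i).source) (a : Fin n) :
    ContinuousAt (fun y => gW A (q o) (q o') i y a) x := by
  have hz := (A.e i).map_source hx
  have han : ∀ o, AnalyticOnNhd ℂ (fun z => q o i ((A.e i).symm z)) (A.e i).target := by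
    intro o
    have h1 := (hq o).hol i
    unfold HolAt at h1
    rw [preimage_univ, inter_univ] at h1
    exact Crest.Agent.R266.SCV.analyticOnNhd_of_differentiableOn (A.e i).open_target h1
  have hc0 : ∀ o, ContinuousAt (fun y => q o i y) x := fun o =>
    SteinC_794.continuousAt_of_holAt isOpen_univ ((hq o).hol i) hx (mem_univ x)
  have hc1 : ∀ o, ContinuousAt (fun y => dgr (fun z => q o i ((A.e i).symm z)) (A.e i y) a) x := by
    intro o
    refine cont_at_chart hx (f := fun z => dgr (fun z => q o i ((A.e i).symm z)) z a) ?_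
    unfold dgr
    exact (((han o).fderiv _ hz).continuousAt).clm_apply continuousAt_const
  unfold gW
  exact ((hc0 o').mul (hc1 o)).sub ((hc0 o).mul (hc1 o'))

include hs hν in
/-- **density** -/
theorem wrC_of_dense (hq : ∀ o, IsHS B univ (q o)) {V : Set M} (hV : Dense V)
    (hw : ∀ i, ∀ x ∈ (A.e i).source, x ∈ V → (cur h i x).rank = ν →
      ∀ v : Fin n → ℂ, (∀ b, ∑ a, v a * cur h i x a b = 0) → ∀ o o',
        q o i x * dv A v i x (q o' i) = q o' i x * dv A v i x (q o i)) :
    WrC h ν q := by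
  intro i x hx hr v hv o o'
  -- the rank inequality
  have hrk : ∀ y ∈ (A.e i).source, y ∈ V → (cur h i y +
      Matrix.vecMulVec (gW A (q o) (q o') i y) (star (gW A (q o) (q o') i y))).rank ≤ ν := by
    intro y hy hyV
    by_cases hry : (cur h i y).rank = ν
    · refine (rank_le_of_ker (cur_herm h i hy) fun w hw' => ?_).trans (hν i y hy)
      rw [gW_dv, hw i y hy hyV hry w hw' o o', sub_self]
    · have h1 := hν i y hy
      have h2 := mrank_add_le (cur h i y)
        (Matrix.vecMulVec (gW A (q o) (q o') i y) (star (gW A (q o) (q o') i y)))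
      have h3 := Matrix.rank_vecMulVec_le (gW A (q o) (q o') i y) (star (gW A (q o) (q o') i y))
      omega
  have h4 : (cur h i x +
      Matrix.vecMulVec (gW A (q o) (q o') i x) (star (gW A (q o) (q o') i x))).rank ≤ ν := by
    refine FFi_101.rank_le_of_freq (S := fun y => cur h i y +
      Matrix.vecMulVec (gW A (q o) (q o') i y) (star (gW A (q o) (q o') i y))) ?_ ?_ ?_
    · intro a b
      have c1 : ContinuousAt (fun y => cur h i y a b) x := by
        have h5 := (cur_smooth h i a b).continuousOn.continuousAt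
          ((A.e i).open_target.mem_nhds ((A.e i).map_source hx))
        have h6 := cont_at_chart hx h5
        refine h6.congr ?_
        filter_upwards [(A.e i).open_source.mem_nhds hx] with y hy
        simp only [(A.e i).left_inv hy]
      have c2 := cont_gW hq o o' hx
      simp only [Matrix.add_apply, Matrix.vecMulVec_apply, Pi.star_apply]
      exact c1.add ((c2 a).mul (Complex.continuous_conj.continuousAt.comp (c2 b)))
    · filter_upwards [(A.e i).open_source.mem_nhds hx] with y hy
      exact (cur_posSemidef hs i hy).add (Matrix.posSemidef_vecMulVec_self_star _)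
    · have h5 : ∃ᶠ y in 𝓝 x, y ∈ V := mem_closure_iff_frequently.1 (hV x)
      exact (h5.and_eventually ((A.e i).open_source.mem_nhds hx)).mono
        fun y hy => hrk y hy.2 hy.1
  rw [← hr] at h4
  have h5 := FIf0_597.ker_of_rank (cur_posSemidef hs i hx) (g := gW A (q o) (q o') i x)
    (c := 1) one_pos (by rw [Complex.ofReal_one, one_smul]; exact h4) hv
  rw [gW_dv] at h5
  linear_combination -h5

end dense

end

end Crest.Agent.R273.AppC_834
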