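import Mathlib.Algebra.Group.ForwardDiff
import Mathlib.RingTheory.Polynomial.Pochhammer
import Mathlib.Algebra.Polynomial.Roots
import Mathlib.Algebra.Polynomial.Eval.SMul
import Mathlib.Data.Nat.Choose.Cast
import Mathlib.LinearAlgebra.Dimension.Finrank
import Mathlib.LinearAlgebra.FiniteDimensional.Lemmas
import Mathlib.Tactic.Ring
import Mathlib.Tactic.LinearCombination

/-!
R273 (S0416), Part A, leaf K3 (helper619): functions on `ℕ × ℕ` with vanishing iterated differences in
the two directions `(0,1)` and `(k0,i0)` are polynomial at the corner.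

Main result `two_dir`.
-/

set_option autoImplicit false

open Finset Polynomial

namespace Crest.Agent.R273.Poly2_619

/-- the alternating sum `∑_{j ≤ m} (-1)^j C(m,j) f j` -/
def alt {G : Type*} [AddCommGroup G] (m : ℕ) (f : ℕ → G) : G :=
  ∑ j ∈ range (m + 1), ((-1 : ℤ) ^ j * (m.choose j : ℤ)) • f j

theorem alt_eq_fwdDiff {G : Type*} [AddCommGroup G] (m : ℕ) (f : ℕ → G) (n : ℕ) :
    alt m (fun j => f (n + j)) = (-1 : ℤ) ^ m • ((fwdDiff 1)^[m] f) n := by
  rw [fwdDiff_iter_eq_sum_shift, alt, Finset.smul_sum]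
  refine Finset.sum_congr rfl fun j hj => ?_
  have hj' : j ≤ m := Nat.lt_succ_iff.1 (mem_range.1 hj)
  rw [smul_smul]
  congr 1
  · have h1 : (-1 : ℤ) ^ m * ((-1) ^ (m - j)) = (-1) ^ j := by
      obtain ⟨d, rfl⟩ := Nat.exists_eq_add_of_le hj'
      rw [Nat.add_sub_cancel_left, pow_add, mul_assoc, ← pow_add, ← two_mul, pow_mul]
      simp
    rw [← mul_assoc, h1]
  · simp

/-- a function with vanishing differences of order `m` is given by its Newton expansion. -/
theorem newton {G : Type*} [AddCommGroup G] {m : ℕ} {f : ℕ → G}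
    (h : ∀ n, alt m (fun j => f (n + j)) = 0) (n : ℕ) :
    f n = ∑ k ∈ range m, n.choose k • ((fwdDiff 1)^[k] f) 0 := by
  have h0 : ∀ k, m ≤ k → (fwdDiff 1)^[k] f = 0 := by
    intro k hk
    obtain ⟨d, rfl⟩ := Nat.exists_eq_add_of_le hk
    have h1 : (fwdDiff 1)^[m] f = 0 := by
      funext n
      have := h n
      rw [alt_eq_fwdDiff] at this
      rcases Nat.even_or_odd m with he | ho
      · rwa [he.neg_one_pow, one_smul] at this
      · rw [ho.neg_one_pow, neg_smul, one_smul, neg_eq_zero] at this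
        exact this
    rw [add_comm, Function.iterate_add_apply, h1]
    clear hk h1
    induction d with
    | zero => rfl
    | succ d ih => rw [Function.iterate_succ_apply', ih]; funext x; simp [fwdDiff]
  have h1 := shift_eq_sum_fwdDiff_iter (1 : ℕ) f n 0
  rw [zero_add, smul_eq_mul, mul_one] at h1
  rw [h1]
  rcases le_total m (n + 1) with hm | hm
  · refine (Finset.sum_subset (range_subset_range.2 hm) fun k _ hk => ?_).symm
    rw [h0 k (by simpa using hk)]; simp
  · refine Finset.sum_subset (range_subset_range.2 hm) fun k _ hk => ?_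
    have : n < k := by simpa using hk
    rw [Nat.choose_eq_zero_of_lt this, zero_smul]

/-- the binomial polynomial `C(X,k)` -/
noncomputable def chp (k : ℕ) : ℚ[X] := C ((k.factorial : ℚ)⁻¹) * descPochhammer ℚ k

theorem chp_eval (k n : ℕ) : (chp k).eval (n : ℚ) = (n.choose k : ℚ) := by
  unfold chp
  rw [eval_mul, eval_C, descPochhammer_eval_eq_descFactorial, Nat.descFactorial_eq_factorial_mul_choose]
  have : ((k.factorial : ℕ) : ℚ) ≠ 0 := by exact_mod_cast Nat.factorial_ne_zero k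
  push_cast
  field_simp

/-- one direction: vanishing differences give a polynomial. -/
theorem one_dir {m : ℕ} {f : ℕ → ℚ} (h : ∀ n, alt m (fun j => f (n + j)) = 0) :
    ∃ p : ℚ[X], ∀ n : ℕ, p.eval (n : ℚ) = f n := by
  refine ⟨∑ k ∈ range m, C (((fwdDiff 1)^[k] f) 0) * chp k, fun n => ?_⟩
  rw [newton h n, eval_finsetSum]
  refine Finset.sum_congr rfl fun k _ => ?_
  rw [eval_mul, eval_C, chp_eval, nsmul_eq_mul, mul_comm]

theorem poly_eq_zero_of_nat {p : ℚ[X]} (h : ∀ n : ℕ, p.eval (n : ℚ) = 0) : p = 0 := by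
  refine Polynomial.eq_zero_of_infinite_isRoot p ?_
  refine Set.Infinite.mono (s := Set.range (fun n : ℕ => (n : ℚ))) ?_ ?_
  · rintro _ ⟨n, rfl⟩; exact h n
  · exact Set.infinite_range_of_injective Nat.cast_injective

theorem eval_alt (m : ℕ) (f : ℕ → ℚ[X]) (x : ℚ) : (alt m f).eval x = alt m fun j => (f j).eval x := by
  unfold alt
  rw [eval_finsetSum]
  refine Finset.sum_congr rfl fun j _ => ?_
  rw [eval_smul]

theorem comp_alt (m : ℕ) (f : ℕ → ℚ[X]) (q : ℚ[X]) : (alt m f).comp q = alt m fun j => (f j).comp q := by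
  unfold alt
  change compRingHom q _ = _
  rw [map_sum]
  refine Finset.sum_congr rfl fun j _ => ?_
  rw [map_zsmul]
  rfl

/-- TWO DIRECTIONS: vanishing differences of order `m` in the directions `(0,1)` and `(k0,i0)` on the
quadrant (corner included) make `j ↦ d (j k0, 0)` a polynomial, for all `j ≥ 0`. -/
theorem two_dir {m k0 i0 : ℕ} {d : ℕ → ℕ → ℚ}
    (h1 : ∀ k i, alt m (fun j => d k (i + j)) = 0)
    (h2 : ∀ k i, alt m (fun j => d (k + j * k0) (i + j * i0)) = 0) :
    ∃ p : ℚ[X], ∀ j : ℕ, p.eval (j : ℚ) = d (j * k0) 0 := by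
  choose P hP using fun k => one_dir (h1 k)
  -- the shifted polynomials
  set Q : ℕ → ℚ[X] := fun j => (P (j * k0)).comp (X + C ((j * i0 : ℕ) : ℚ)) with hQ
  have hQ1 : ∀ n, alt m (fun j => Q (n + j)) = 0 := by
    intro n
    have h3 : alt m (fun j => (P (n * k0 + j * k0)).comp (X + C ((j * i0 : ℕ) : ℚ))) = 0 := by
      refine poly_eq_zero_of_nat fun i => ?_
      rw [eval_alt]
      rw [← h2 (n * k0) i]
      unfold alt
      refine Finset.sum_congr rfl fun j _ => ?_
      congr 1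
      simp only
      rw [eval_comp]
      have : eval (i : ℚ) (X + C ((j * i0 : ℕ) : ℚ)) = ((i + j * i0 : ℕ) : ℚ) := by simp
      rw [this, hP]
    have h4 : alt m (fun j => Q (n + j)) =
        (alt m (fun j => (P (n * k0 + j * k0)).comp (X + C ((j * i0 : ℕ) : ℚ)))).comp
          (X + C ((n * i0 : ℕ) : ℚ)) := by
      rw [comp_alt]
      unfold alt
      refine Finset.sum_congr rfl fun j _ => ?_
      congr 1
      rw [hQ]
      simp only
      rw [comp_assoc, add_mul]
      congr 1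
      simp only [add_comp, X_comp, C_comp]
      push_cast
      simp only [C_add, C_mul]
      ring
    rw [h4, h3, zero_comp]
  have hN := newton hQ1
  refine ⟨∑ k ∈ range m, chp k * (((fwdDiff 1)^[k] Q) 0).comp (C (-(i0 : ℚ)) * X), fun j => ?_⟩
  have h5 : (Q j).eval (-((i0 : ℚ) * j)) = d (j * k0) 0 := by
    rw [hQ]
    simp only
    rw [eval_comp]
    have : eval (-((i0 : ℚ) * j)) (X + C ((j * i0 : ℕ) : ℚ)) = ((0 : ℕ) : ℚ) := by
      simp; ring
    rw [this, hP]
  rw [← h5, hN j, eval_finsetSum, eval_finsetSum]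
  refine Finset.sum_congr rfl fun k _ => ?_
  rw [eval_mul, chp_eval, eval_comp, eval_smul, nsmul_eq_mul]
  simp

/-- a polynomial nonzero at one point vanishes only finitely often. -/
theorem finite_zeros {p : ℚ[X]} (hp : p ≠ 0) : {j : ℕ | p.eval (j : ℚ) = 0}.Finite := by
  have h := (p.roots.toFinset.finite_toSet).preimage (f := fun n : ℕ => (n : ℚ))
    (Nat.cast_injective.injOn)
  refine h.subset fun j hj => ?_
  simp only [Set.mem_preimage, mem_coe, Multiset.mem_toFinset]
  exact (mem_roots hp).2 hj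

/-- Corollary: if in addition `d 0 0 ≠ 0`, then `d (j k0) 0 ≠ 0` for all large `j`. -/
theorem corner {m k0 i0 : ℕ} {d : ℕ → ℕ → ℕ}
    (h1 : ∀ k i, ∑ j ∈ range (m + 1), (-1 : ℤ) ^ j * (m.choose j : ℤ) * (d k (i + j) : ℤ) = 0)
    (h2 : ∀ k i, ∑ j ∈ range (m + 1),
      (-1 : ℤ) ^ j * (m.choose j : ℤ) * (d (k + j * k0) (i + j * i0) : ℤ) = 0)
    (h0 : d 0 0 ≠ 0) : ∃ N, ∀ j, N ≤ j → d (j * k0) 0 ≠ 0 := by
  have conv : ∀ f : ℕ → ℕ, ∑ j ∈ range (m + 1), (-1 : ℤ) ^ j * (m.choose j : ℤ) * (f j : ℤ) = 0 →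
      alt m (fun j => ((f j : ℕ) : ℚ)) = 0 := by
    intro f hf
    have h3 : ((∑ j ∈ range (m + 1), (-1 : ℤ) ^ j * (m.choose j : ℤ) * (f j : ℤ) : ℤ) : ℚ) = 0 := by
      rw [hf]; simp
    unfold alt
    rw [← h3]
    push_cast
    refine Finset.sum_congr rfl fun j _ => ?_
    rw [zsmul_eq_mul]
    push_cast
    ring
  obtain ⟨p, hp⟩ := two_dir (m := m) (k0 := k0) (i0 := i0) (d := fun k i => ((d k i : ℕ) : ℚ))
    (fun k i => conv (fun j => d k (i + j)) (h1 k i))
    (fun k i => conv (fun j => d (k + j * k0) (i + j * i0)) (h2 k i))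
  have hp0 : p ≠ 0 := by
    rintro rfl
    have := hp 0
    rw [eval_zero, zero_mul] at this
    exact h0 (by exact_mod_cast this.symm)
  obtain ⟨N, hN⟩ := (finite_zeros hp0).bddAbove
  refine ⟨N + 1, fun j hj h => ?_⟩
  have : j ∈ {j : ℕ | p.eval (j : ℚ) = 0} := by
    change p.eval (j : ℚ) = 0
    rw [hp j, h]; simp
  exact absurd (hN this) (by omega)

end Crest.Agent.R273.Poly2_619
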