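import Crest.Agent.R273.Pen_93
import Crest.Agent.R273.Poly2_619

/-!
# R273, the pencil lemma: shift algebra and the corner (helper93)

`one_family` : the dimensions of `A(ν B_m^{-j})` have vanishing differences of order `m + 1`.
`corner`     : two families `c, c''` with `e^{-Ψ} / |c''|² ~ 1 / |c|²` ⇒ `A(ν e^{-kΨ}) ≠ 0` for all
large `k` if `A(ν) ≠ 0`.
-/

set_option autoImplicit false
set_option linter.unusedSectionVars false

noncomputable section

open Set Filter Topology MeasureTheory ComplexConjugate Finset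
open scoped ENNReal

namespace Crest.Agent.R273.PenAlg_93

open Crest.Agent.R271.Ho51 Crest.Agent.R273.Pen_93 Crest.Agent.R273.Poly2_619

/-! ### shifts -/

/-- the `j`-th unit vector -/
def e1 (j : ℕ) : ℕ → ℕ := Pi.single j 1

/-- shift minus identity -/
def N (j : ℕ) : Module.End ℤ ((ℕ → ℕ) → ℤ) :=
  LinearMap.funLeft ℤ ℤ (fun n : ℕ → ℕ => n + e1 j) - 1

theorem N_apply (j : ℕ) (h : (ℕ → ℕ) → ℤ) (n : ℕ → ℕ) : N j h n = h (n + e1 j) - h n := rfl

theorem N_comm (i j : ℕ) : Commute (N i) (N j) := by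
  refine LinearMap.ext fun h => ?_
  funext n
  show N i (N j h) n = N j (N i h) n
  simp only [N_apply]
  rw [add_right_comm n (e1 i) (e1 j)]
  ring

/-- the relation of the pencil lemma gives `N_{r+1}^{k+1} = N_{r+1} N_r^k` -/
theorem N_step {h : (ℕ → ℕ) → ℤ} {r : ℕ}
    (hr : ∀ n, h (n + e1 r) + h (n + e1 (r + 1) + e1 (r + 1)) =
      h (n + e1 r + e1 (r + 1)) + h (n + e1 (r + 1))) (k : ℕ) :
    (N (r + 1) ^ (k + 1)) h = N (r + 1) ((N r ^ k) h) := by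
  have h2 : N (r + 1) (N (r + 1) h) = N (r + 1) (N r h) := by
    funext n
    simp only [N_apply]
    have h3 := hr n
    have h4 : n + e1 (r + 1) + e1 r = n + e1 r + e1 (r + 1) := add_right_comm _ _ _
    rw [h4]
    linarith
  induction k with
  | zero => simp
  | succ k ih =>
    have h5 : (N (r + 1) ^ (k + 1 + 1)) h = N (r + 1) ((N (r + 1) ^ (k + 1)) h) := by
      rw [pow_succ' (N (r + 1)) (k + 1)]; rfl
    have c1 : ∀ (g : (ℕ → ℕ) → ℤ), N (r + 1) ((N r ^ k) g) = (N r ^ k) (N (r + 1) g) := by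
      intro g
      have := ((N_comm (r + 1) r).pow_right k).eq
      exact congrArg (fun T : Module.End ℤ ((ℕ → ℕ) → ℤ) => T g) this
    have h6 : (N r ^ (k + 1)) h = (N r ^ k) (N r h) := by
      rw [pow_succ]; rfl
    rw [h5, ih, c1, c1, h2, h6, c1]

/-- `N_m^{m+1} h = 0` -/
theorem N_nil {h : (ℕ → ℕ) → ℤ} {m : ℕ} (h0 : ∀ n, h (n + e1 0) = h n)
    (hr : ∀ r < m, ∀ n, h (n + e1 r) + h (n + e1 (r + 1) + e1 (r + 1)) =
      h (n + e1 r + e1 (r + 1)) + h (n + e1 (r + 1))) : (N m ^ (m + 1)) h = 0 := by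
  induction m with
  | zero =>
    funext n
    rw [zero_add, pow_one, N_apply, h0 n]
    simp
  | succ m ih =>
    rw [N_step (hr m (Nat.lt_succ_self m)), ih fun r hrm => hr r (Nat.lt_succ_of_lt hrm), map_zero]

theorem fwd_eq (m : ℕ) (h : (ℕ → ℕ) → ℤ) (n : ℕ → ℕ) (k i : ℕ) :
    ((fwdDiff 1)^[k] (fun j : ℕ => h (n + j • e1 m))) i = ((N m ^ k) h) (n + i • e1 m) := by
  induction k generalizing i with
  | zero => simp
  | succ k ih =>
    rw [Function.iterate_succ_apply', fwdDiff, ih, ih]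
    have h5 : (N m ^ (k + 1)) h = N m ((N m ^ k) h) := by
      rw [pow_succ' (N m) k]; rfl
    rw [h5, N_apply, add_assoc, add_smul, one_smul]

/-- vanishing of the alternating sums in the direction `e_m` -/
theorem alt_nil {h : (ℕ → ℕ) → ℤ} {m : ℕ} (hN : (N m ^ (m + 1)) h = 0) {K : ℕ} (hK : m + 1 ≤ K)
    (n : ℕ → ℕ) : alt K (fun j : ℕ => h (n + j • e1 m)) = 0 := by
  have h1 := alt_eq_fwdDiff K (fun j : ℕ => h (n + j • e1 m)) 0
  simp only [zero_add] at h1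
  rw [h1, fwd_eq]
  obtain ⟨d, rfl⟩ := Nat.exists_eq_add_of_le hK
  have h2 : (N m ^ (m + 1 + d)) h = 0 := by
    rw [add_comm, pow_add]
    show (N m ^ d) ((N m ^ (m + 1)) h) = 0
    rw [hN, map_zero]
  rw [h2]
  simp

/-! ### weights -/

variable {n : ℕ} {M : Type*} [TopologicalSpace M] [RDom n M] [MeasurableSpace M] [BorelSpace M]

/-- `∏_{j ≤ m} B_j^{-e_j}` -/
def Wt (c : ℕ → M → ℂ) (m : ℕ) (e : ℕ → ℕ) (x : M) : ℝ :=
  ∏ j ∈ range (m + 1), ((Bf c j x)⁻¹) ^ (e j)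

theorem Wt_zero (c : ℕ → M → ℂ) (m : ℕ) (x : M) : Wt c m 0 x = 1 := by
  simp [Wt]

theorem Wt_add (c : ℕ → M → ℂ) (m : ℕ) (e : ℕ → ℕ) {r : ℕ} (hr : r ≤ m) (x : M) :
    Wt c m (e + e1 r) x = Wt c m e x * (Bf c r x)⁻¹ := by
  unfold Wt
  have h1 : ∀ j, ((Bf c j x)⁻¹) ^ ((e + e1 r) j) =
      ((Bf c j x)⁻¹) ^ (e j) * (if j = r then (Bf c r x)⁻¹ else 1) := by
    intro j
    rw [Pi.add_apply, pow_add, e1, Pi.single_apply]
    split_ifs with h
    · rw [h, pow_one]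
    · rw [pow_zero]
  simp only [h1]
  rw [Finset.prod_mul_distrib, Finset.prod_ite_eq' (range (m + 1)) r,
    if_pos (mem_range.2 (Nat.lt_succ_of_le hr))]

theorem Wt_smul (c : ℕ → M → ℂ) (m : ℕ) (e : ℕ → ℕ) (i : ℕ) (x : M) :
    Wt c m (e + i • e1 m) x = Wt c m e x * ((Bf c m x)⁻¹) ^ i := by
  induction i with
  | zero => simp
  | succ i ih =>
    rw [add_smul, one_smul, ← add_assoc, Wt_add c m _ le_rfl, ih, pow_succ]
    ring

theorem Wt_pos {c : ℕ → M → ℂ} (h0 : ∀ x, c 0 x ≠ 0) (m : ℕ) (e : ℕ → ℕ) (x : M) :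
    0 < Wt c m e x :=
  Finset.prod_pos fun j _ => pow_pos (inv_pos.2 (Bf_pos h0 j x)) _

theorem Wt_cont {c : ℕ → M → ℂ} (hc : ∀ j, Hol (c j)) (h0 : ∀ x, c 0 x ≠ 0) (m : ℕ)
    (e : ℕ → ℕ) : Continuous (Wt c m e) := by
  unfold Wt
  refine continuous_finsetProd _ fun j _ => ?_
  exact (wA_cont hc h0 j).pow (e j)

section family

variable {ν : Measure M} {c : ℕ → M → ℂ} (hc : ∀ j, Hol (c j)) (h0 : ∀ x, c 0 x ≠ 0)

include hc h0

/-- multiplication by `c_0` -/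
theorem dim_c0 {W : M → ℝ} (hW : Measurable W) :
    Module.finrank ℂ (A2 (wm ν (fun x => W x * (Bf c 0 x)⁻¹))) =
      Module.finrank ℂ (A2 (wm ν W)) := by
  have hm : Measurable fun x => W x * (Bf c 0 x)⁻¹ := hW.mul (wA_cont hc h0 0).measurable
  have k1 : ∀ f : M → ℂ, ∀ x, ‖f x * c 0 x‖ ^ 2 * (W x * (Bf c 0 x)⁻¹) = ‖f x‖ ^ 2 * W x := by
    intro f x
    rw [Bf_zero, norm_mul, mul_pow]
    have := norm_pos_iff.2 (h0 x)
    field_simp
  have k2 : ∀ f : M → ℂ, ∀ x, ‖f x * (c 0 x)⁻¹‖ ^ 2 * W x = ‖f x‖ ^ 2 * (W x * (Bf c 0 x)⁻¹) := by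
    intro f x
    rw [Bf_zero, norm_mul, mul_pow, norm_inv]
    have := norm_pos_iff.2 (h0 x)
    field_simp
  symm
  refine LinearEquiv.finrank_eq (LinearEquiv.ofLinearMap
    (M := A2 (wm ν W)) (M₂ := A2 (wm ν (fun x => W x * (Bf c 0 x)⁻¹)))
    { toFun := fun f => ⟨fun x => f.1 x * c 0 x, by
        have hf := (mem_A2_wm hW).1 f.2
        rw [mem_A2_wm hm]
        refine ⟨hol_mul hf.1 (hc 0), ?_⟩
        simp only [k1]
        exact hf.2⟩
      map_add' := fun f g => by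
        refine Subtype.ext ?_
        funext x
        show (f.1 x + g.1 x) * c 0 x = f.1 x * c 0 x + g.1 x * c 0 x
        ring
      map_smul' := fun a f => by
        refine Subtype.ext ?_
        funext x
        show (a * f.1 x) * c 0 x = a * (f.1 x * c 0 x)
        ring }
    { toFun := fun f => ⟨fun x => f.1 x * (c 0 x)⁻¹, by
        have hf := (mem_A2_wm hm).1 f.2
        rw [mem_A2_wm hW]
        refine ⟨hol_mul hf.1 (hol_inv (hc 0) h0), ?_⟩
        simp only [k2]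
        exact hf.2⟩
      map_add' := fun f g => by
        refine Subtype.ext ?_
        funext x
        show (f.1 x + g.1 x) * (c 0 x)⁻¹ = f.1 x * (c 0 x)⁻¹ + g.1 x * (c 0 x)⁻¹
        ring
      map_smul' := fun a f => by
        refine Subtype.ext ?_
        funext x
        show (a * f.1 x) * (c 0 x)⁻¹ = a * (f.1 x * (c 0 x)⁻¹)
        ring }
    ?_ ?_)
  · refine LinearMap.ext fun f => Subtype.ext ?_
    funext x
    show f.1 x * (c 0 x)⁻¹ * c 0 x = f.1 x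
    have := h0 x
    field_simp
  · refine LinearMap.ext fun f => Subtype.ext ?_
    funext x
    show f.1 x * c 0 x * (c 0 x)⁻¹ = f.1 x
    have := h0 x
    field_simp

/-- the dimension as a function of the exponents -/
def hd (ν : Measure M) (c : ℕ → M → ℂ) (m : ℕ) (e : ℕ → ℕ) : ℤ :=
  (Module.finrank ℂ (A2 (wm ν (Wt c m e))) : ℤ)

omit hc h0 in
theorem hd_def (ν : Measure M) (c : ℕ → M → ℂ) (m : ℕ) (e : ℕ → ℕ) :
    hd ν c m e = (Module.finrank ℂ (A2 (wm ν (Wt c m e))) : ℤ) := rfl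

theorem wm_Wt (m : ℕ) (e : ℕ → ℕ) {r : ℕ} (hr : r ≤ m) :
    wm (wm ν (Wt c m e)) (wA c r) = wm ν (Wt c m (e + e1 r)) := by
  rw [wm_wm (Wt_cont hc h0 m e).measurable (wA_cont hc h0 r).measurable
    fun x => (Wt_pos h0 m e x).le]
  congr 1
  funext x
  exact (Wt_add c m e hr x).symm

theorem wm_WtAB (m : ℕ) (e : ℕ → ℕ) {r : ℕ} (hr : r + 1 ≤ m) :
    wm (wm ν (Wt c m e)) (wAB c r) = wm ν (Wt c m (e + e1 r + e1 (r + 1))) := by
  rw [wm_wm (Wt_cont hc h0 m e).measurable (wAB_cont hc h0 r).measurable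
    fun x => (Wt_pos h0 m e x).le]
  congr 1
  funext x
  rw [Wt_add c m _ hr x, Wt_add c m e (by omega) x, wAB]
  ring

theorem wm_WtBB (m : ℕ) (e : ℕ → ℕ) {r : ℕ} (hr : r + 1 ≤ m) :
    wm (wm ν (Wt c m e)) (wBB c r) = wm ν (Wt c m (e + e1 (r + 1) + e1 (r + 1))) := by
  rw [wm_wm (Wt_cont hc h0 m e).measurable (wBB_cont hc h0 r).measurable
    fun x => (Wt_pos h0 m e x).le]
  congr 1
  funext x
  rw [Wt_add c m _ hr x, Wt_add c m e hr x, wBB]
  ring

/-- **one family** -/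
theorem one_family {m : ℕ}
    (hS : ∀ e : ℕ → ℕ, ∀ r < m, Solv (wm ν (Wt c m e)) (Pf c (r + 1)))
    (hF : ∀ e : ℕ → ℕ, FiniteDimensional ℂ (A2 (wm ν (Wt c m e)))) {K : ℕ} (hK : m + 1 ≤ K)
    (i : ℕ) : ∑ j ∈ range (K + 1), (-1 : ℤ) ^ j * (K.choose j : ℤ) *
      (Module.finrank ℂ (A2 (wm ν (fun x => ((Bf c m x)⁻¹) ^ (i + j)))) : ℤ) = 0 := by
  have h1 : (N m ^ (m + 1)) (hd ν c m) = 0 := by
    refine N_nil (fun e => ?_) fun r hr e => ?_
    · rw [hd_def, hd_def]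
      have h2 : Wt c m (e + e1 0) = fun x => Wt c m e x * (Bf c 0 x)⁻¹ := by
        funext x
        exact Wt_add c m e (Nat.zero_le m) x
      rw [h2, dim_c0 hc h0 (Wt_cont hc h0 m e).measurable]
    · have hr1 : r + 1 ≤ m := hr
      have hr0 : r ≤ m := by omega
      have h3 := pen_dim (ν := wm ν (Wt c m e)) hc h0 r
        (by rw [wm_Wt hc h0 m e hr0]; exact hS _ r hr)
        (by rw [wm_WtAB hc h0 m e hr1]; exact hF _)
        (by rw [wm_Wt hc h0 m e hr1]; exact hF _)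
      rw [wm_Wt hc h0 m e hr0, wm_Wt hc h0 m e hr1, wm_WtAB hc h0 m e hr1,
        wm_WtBB hc h0 m e hr1] at h3
      rw [hd_def, hd_def, hd_def, hd_def]
      exact_mod_cast h3
  have h2 := alt_nil h1 hK (0 + i • e1 m)
  unfold alt at h2
  rw [← h2]
  refine Finset.sum_congr rfl fun j _ => ?_
  rw [smul_eq_mul]
  congr 1
  have h3 : Wt c m (0 + i • e1 m + j • e1 m) = fun x => ((Bf c m x)⁻¹) ^ (i + j) := by
    funext x
    rw [add_assoc, ← add_smul, Wt_smul, Wt_zero, one_mul]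
  show _ = hd ν c m (0 + i • e1 m + j • e1 m)
  rw [hd_def, h3]

end family

/-- comparable weights give the same space -/
theorem A2_eq {ν : Measure M} {W W' : M → ℝ} (hW : Measurable W) (hW' : Measurable W') {C : ℝ}
    (hC0 : 0 ≤ C) (h1 : ∀ x, W' x ≤ C * W x) (h2 : ∀ x, W x ≤ C * W' x) :
    A2 (wm ν W) = A2 (wm ν W') :=
  le_antisymm (A2_le hW hW' h1 hC0) (A2_le hW' hW h2 hC0)

/-- **the corner theorem** -/
theorem corner {ν : Measure M} {c c' : ℕ → M → ℂ} (hc : ∀ j, Hol (c j)) (h0 : ∀ x, c 0 x ≠ 0)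
    (hc' : ∀ j, Hol (c' j)) (h0' : ∀ x, c' 0 x ≠ 0) {m m' : ℕ} {F : M → ℝ} (hFm : Measurable F)
    (hF0 : ∀ x, 0 ≤ F x) {C : ℝ}
    (hU1 : ∀ x, F x * (Bf c' m' x)⁻¹ ≤ C * (Bf c m x)⁻¹)
    (hU2 : ∀ x, (Bf c m x)⁻¹ ≤ C * (F x * (Bf c' m' x)⁻¹))
    (hS : ∀ (k i : ℕ) (e : ℕ → ℕ), ∀ r < m,
      Solv (wm ν fun x => F x ^ k * (Bf c' m' x)⁻¹ ^ i * Wt c m e x) (Pf c (r + 1)))
    (hS' : ∀ (k : ℕ) (e : ℕ → ℕ), ∀ r < m',
      Solv (wm ν fun x => F x ^ k * Wt c' m' e x) (Pf c' (r + 1)))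
    (hD : ∀ (k i : ℕ) (e : ℕ → ℕ), FiniteDimensional ℂ
      (A2 (wm ν fun x => F x ^ k * (Bf c' m' x)⁻¹ ^ i * Wt c m e x)))
    (hD' : ∀ (k : ℕ) (e : ℕ → ℕ), FiniteDimensional ℂ
      (A2 (wm ν fun x => F x ^ k * Wt c' m' e x)))
    (hne : Module.finrank ℂ (A2 ν) ≠ 0) :
    ∃ K0, ∀ k, K0 ≤ k → Module.finrank ℂ (A2 (wm ν fun x => F x ^ k)) ≠ 0 := by
  set K := max (m + 1) (m' + 1) with hK
  have hBm : Measurable fun x => (Bf c m x)⁻¹ := (wA_cont hc h0 m).measurable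
  have hBm' : Measurable fun x => (Bf c' m' x)⁻¹ := (wA_cont hc' h0' m').measurable
  have hB0 : ∀ x, 0 < (Bf c m x)⁻¹ := fun x => inv_pos.2 (Bf_pos h0 m x)
  have hB0' : ∀ x, 0 < (Bf c' m' x)⁻¹ := fun x => inv_pos.2 (Bf_pos h0' m' x)
  have hC0 : 0 ≤ C ∨ IsEmpty M := by
    rcases isEmpty_or_nonempty M with h | ⟨⟨x⟩⟩
    · exact Or.inr h
    · refine Or.inl ?_
      by_contra hC
      push Not at hC
      have h1 := hU2 x
      have h2 : C * (F x * (Bf c' m' x)⁻¹) ≤ 0 :=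
        mul_nonpos_of_nonpos_of_nonneg hC.le (mul_nonneg (hF0 x) (hB0' x).le)
      linarith [hB0 x]
  let d : ℕ → ℕ → ℕ := fun k i =>
    Module.finrank ℂ (A2 (wm ν fun x => F x ^ k * (Bf c' m' x)⁻¹ ^ i))
  have hd : ∀ k i, d k i = Module.finrank ℂ (A2 (wm ν fun x => F x ^ k * (Bf c' m' x)⁻¹ ^ i)) :=
    fun _ _ => rfl
  have hFk : ∀ k, Measurable fun x => F x ^ k := fun k => hFm.pow_const k
  have h1 : ∀ k i, ∑ j ∈ range (K + 1), (-1 : ℤ) ^ j * (K.choose j : ℤ) * (d k (i + j) : ℤ) = 0 := by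
    intro k i
    have e1 : ∀ e : ℕ → ℕ, wm (wm ν fun x => F x ^ k) (Wt c' m' e) =
        wm ν fun x => F x ^ k * Wt c' m' e x := fun e =>
      wm_wm (hFk k) (Wt_cont hc' h0' m' e).measurable fun x => pow_nonneg (hF0 x) k
    have h := one_family (ν := wm ν fun x => F x ^ k) hc' h0' (m := m')
      (fun e r hr => by rw [e1]; exact hS' k e r hr) (fun e => by rw [e1]; exact hD' k e)
      (le_max_right _ _) i (K := K)
    rw [← h]
    refine Finset.sum_congr rfl fun j _ => ?_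
    rw [hd, wm_wm (hFk k) (hBm'.pow_const _) fun x => pow_nonneg (hF0 x) k]
  have h2 : ∀ k i, ∑ j ∈ range (K + 1), (-1 : ℤ) ^ j * (K.choose j : ℤ) *
      (d (k + j * 1) (i + j * 1) : ℤ) = 0 := by
    intro k i
    set W0 : M → ℝ := fun x => F x ^ k * (Bf c' m' x)⁻¹ ^ i with hW0
    have hW0m : Measurable W0 := (hFk k).mul (hBm'.pow_const i)
    have hW00 : ∀ x, 0 ≤ W0 x := fun x => mul_nonneg (pow_nonneg (hF0 x) k)
      (pow_nonneg (hB0' x).le i)
    have e1 : ∀ e : ℕ → ℕ, wm (wm ν W0) (Wt c m e) = wm ν fun x => W0 x * Wt c m e x := fun e =>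
      wm_wm hW0m (Wt_cont hc h0 m e).measurable hW00
    have h := one_family (ν := wm ν W0) hc h0 (m := m)
      (fun e r hr => by rw [e1]; exact hS k i e r hr) (fun e => by rw [e1]; exact hD k i e)
      (le_max_left _ _) 0 (K := K)
    rw [← h]
    refine Finset.sum_congr rfl fun j _ => ?_
    congr 2
    rw [hd, wm_wm hW0m (hBm.pow_const _) hW00]
    refine congrArg (fun S : Submodule ℂ (M → ℂ) => Module.finrank ℂ S) ?_
    rcases hC0 with hC0 | hemp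
    · have hpow : ∀ x, F x ^ (k + j * 1) * (Bf c' m' x)⁻¹ ^ (i + j * 1) =
          W0 x * (F x * (Bf c' m' x)⁻¹) ^ j := by
        intro x
        simp only [hW0, mul_one]
        rw [pow_add, pow_add, mul_pow]
        ring
      have q0 : ∀ x, 0 ≤ F x * (Bf c' m' x)⁻¹ := fun x => mul_nonneg (hF0 x) (hB0' x).le
      have hm1 : Measurable fun x => F x ^ (k + j * 1) * (Bf c' m' x)⁻¹ ^ (i + j * 1) :=
        (hFm.pow_const _).mul (hBm'.pow_const _)
      have hm2 : Measurable fun x => W0 x * (Bf c m x)⁻¹ ^ (0 + j) := hW0m.mul (hBm.pow_const _)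
      refine A2_eq (C := C ^ j) hm1 hm2 (pow_nonneg hC0 j) (fun x => ?_) (fun x => ?_)
      · rw [hpow, zero_add]
        calc W0 x * (Bf c m x)⁻¹ ^ j ≤ W0 x * (C * (F x * (Bf c' m' x)⁻¹)) ^ j :=
              mul_le_mul_of_nonneg_left (pow_le_pow_left₀ (hB0 x).le (hU2 x) j) (hW00 x)
          _ = _ := by rw [mul_pow]; ring
      · rw [hpow, zero_add]
        calc W0 x * (F x * (Bf c' m' x)⁻¹) ^ j ≤ W0 x * (C * (Bf c m x)⁻¹) ^ j :=
              mul_le_mul_of_nonneg_left (pow_le_pow_left₀ (q0 x) (hU1 x) j) (hW00 x)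
          _ = _ := by rw [mul_pow]; ring
    · have : (fun x => F x ^ (k + j * 1) * (Bf c' m' x)⁻¹ ^ (i + j * 1)) =
          fun x => W0 x * (Bf c m x)⁻¹ ^ (0 + j) := by
        funext x
        exact (hemp.false x).elim
      rw [this]
  have h3 : d 0 0 ≠ 0 := by
    rw [hd]
    have : wm ν (fun x => F x ^ 0 * (Bf c' m' x)⁻¹ ^ 0) = ν := by
      unfold wm
      simp only [pow_zero, mul_one, ENNReal.ofReal_one]
      exact withDensity_one
    rwa [this]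
  obtain ⟨K0, hK0⟩ := Crest.Agent.R273.Poly2_619.corner (m := K) (k0 := 1) (i0 := 1) h1 h2 h3
  refine ⟨K0, fun k hk => ?_⟩
  have h4 := hK0 k hk
  have h5 : (fun x => F x ^ (k * 1) * (Bf c' m' x)⁻¹ ^ 0) = fun x => F x ^ k := by
    funext x
    rw [pow_zero, mul_one, mul_one]
  rw [hd, h5] at h4
  exact h4

end Crest.Agent.R273.PenAlg_93
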