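import Crest.Agent.R273.PartA_61
import Crest.Agent.R273.SteinL_794
import Crest.Agent.R273.PenAlg_93
import Crest.Agent.R273.TLd_201
import Crest.Agent.R273.PsiB_844

/-!
# R273 (S0416), master of Part A (helper73): the data of the last step

`YD h L hL`  : all the data of the last step on ONE Stein domain `G = Mo S`

Mathematical content: `L = K⁻¹ T`, `λ` a meromorphic section of `L ^ j0` (quotient `w_l / w_k` of the
Cramer families), `y` generators of the field `FF` of the quotients of the Cramer families,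
`‖λ‖^(2e) ≤ C B(y) / B'(y)` on `G`, sharp on the fibres of `y`, where
`B = ∑ j ≤ m, ‖p_j(y)‖²`, `B' = ∑ j ≤ m', ‖p'_j(y)‖²` (Lemma U).
-/

set_option autoImplicit false
set_option linter.unusedSectionVars false

open Set Filter Topology Complex MeasureTheory
open scoped ContDiff Matrix ENNReal

namespace Crest.Agent.R273.AsmA_73

open Crest.Agent.R275.Geo Crest.Agent.R275.Core144 Crest.Agent.R275.GC293
open Crest.Agent.R273.SteinA_794
open Crest.Agent.R273.SteinB_794 Crest.Agent.R273.SteinC_794 Crest.Agent.R273.SteinD_794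
open Crest.Agent.R273.SteinM_794 Crest.Agent.R273.SteinN_794 Crest.Agent.R273.SteinL_794
open Crest.Agent.R273.Defs_333 (ProjD HM HM.wt HM.Semipos HasSec)
open Crest.Agent.R273.Vm_333 (vm)
open Crest.Agent.R273.Kah_333 (cur)
open Crest.Agent.R271.Ho51 (RDom cp ch IsCh IsLeb Hol Sm mem_ch isCh_ch Levi)
open Crest.Agent.R271.W792 (lev)
open Crest.Agent.R273.Pen_93 Crest.Agent.R273.PenAlg_93
open Crest.Agent.R273.Reg_844 (PSH)

noncomputable section

variable {n : ℕ} {M : Type} [TopologicalSpace M] {A : Atl n M}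

/-- polynomials in the functions `y`, as functions on the domain -/
def evp {S : SD A} {N : ℕ} (y : Fin N → Mo S → ℂ) (p : ℕ → MvPolynomial (Fin N) ℂ) (j : ℕ)
    (x : Mo S) : ℂ := MvPolynomial.eval (fun l => y l x) (p j)

/-- the data of the last step -/
structure YD (h : HM (KB A)⁻¹) (L : LB A) (hL : HM L) where
  /-- maximal rank of the curvature -/
  ν : ℕ
  ν_pos : 1 ≤ ν
  rk_le : ∀ i, ∀ x ∈ (A.e i).source, (cur h i x).rank ≤ ν
  rk_eq : ∃ i, ∃ x ∈ (A.e i).source, ν ≤ (cur h i x).rank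
  /-- the domain `G = Mo S` -/
  S : SD A
  E : Exh A S.U
  LD : LB A
  d : A.ι → M → ℂ
  hd : IsHS LD univ d
  d0 : ∃ i, ∃ x ∈ (A.e i).source, d i x ≠ 0
  U_eq : S.U = nz d
  /-- frame of `L` -/
  σ : A.ι → M → ℂ
  hσ : IsHS L S.U σ
  σ0 : ∀ i, ∀ x ∈ (A.e i).source, x ∈ S.U → σ i x ≠ 0
  /-- `λ`, a meromorphic section of `L ^ j0`, in the frame `σ ^ j0` -/
  j0 : ℕ
  j0_pos : 0 < j0
  lam : Mo S → ℂ
  hlam : Hol lam
  lam0 : ∀ x, lam x ≠ 0
  /-- generators of the field `FF` -/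
  N : ℕ
  y : Fin N → Mo S → ℂ
  hy : ∀ l, Hol (y l)
  /-- they are quotients of sections of one semipositive line bundle -/
  By : LB A
  hBy : HM By
  semi : hBy.Semipos
  t : A.ι → M → ℂ
  ht : IsHS By univ t
  t0 : ∀ i, ∀ x ∈ (A.e i).source, x ∈ S.U → t i x ≠ 0
  s : Fin N → A.ι → M → ℂ
  hs : ∀ l, IsHS By univ (s l)
  rel : ∀ l i, ∀ x : Mo S, x.val ∈ (A.e i).source → s l i x.val = y l x * t i x.val
  /-- they are first integrals of `ker θ` at the points where `rank θ = ν` -/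
  fi : ∀ l i, ∀ x : Mo S, x.val ∈ (A.e i).source → (cur h i x.val).rank = ν →
    ∀ v : Fin n → ℂ, cur h i x.val *ᵥ (star v) = 0 →
      df A i (ext0 (y l)) x.val (WithLp.toLp 2 v) = 0
  /-- rank one -/
  RK : ∀ (μ : Measure (Mo S)), IsLeb μ → ∀ (k i : ℕ) (u : Mo S → ℂ), Hol u →
    ∫⁻ x, ENNReal.ofReal (‖u x‖ ^ 2 * ‖lam x‖ ^ (2 * k) *
      Real.exp (-(k * (j0 * wtS hL σ x.val) + wtS h (kf S) x.val)) /
        (1 + ∑ l, ‖y l x‖ ^ 2) ^ i) ∂μ < ⊤ →
    ∀ x x' : Mo S, (∀ l, y l x = y l x') → u x = u x'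
  /-- the families of Lemma U -/
  e : ℕ
  e_pos : 0 < e
  p : ℕ → MvPolynomial (Fin N) ℂ
  p' : ℕ → MvPolynomial (Fin N) ℂ
  m : ℕ
  m' : ℕ
  c0 : ∀ x, evp y p 0 x ≠ 0
  c0' : ∀ x, evp y p' 0 x ≠ 0
  /-- upper bound of `|λ|` -/
  Ua : ∃ C : ℝ, 0 < C ∧ ∀ x : Mo S, (‖lam x‖ ^ 2 * Real.exp (-(j0 * wtS hL σ x.val))) ^ e *
    Bf (evp y p') m' x ≤ C * Bf (evp y p) m x
  /-- the bound is optimal on the fibres of `y` -/
  Ub : ∃ C : ℝ, 0 < C ∧ ∀ (x : Mo S) (b : ℝ), 0 ≤ b →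
    (∀ x' : Mo S, (∀ l, y l x' = y l x) →
      ‖lam x'‖ ^ 2 * Real.exp (-(j0 * wtS hL σ x'.val)) ≤ b) →
    Bf (evp y p) m x ≤ C * b ^ e * Bf (evp y p') m' x

/-- **Half 2**: the data exist -/
def ExistsYD (A : Atl n M) (h : HM (KB A)⁻¹) : Prop :=
  ∀ (T : LB A) (t : HM T), (∀ i, ∀ x ∈ (A.e i).source, cur t i x = 0) →
    ∀ q : ℕ, {k : ℕ | Crest.Agent.R273.NV_578.NV (((KB A)⁻¹ * T) ^ k) h q ≠ ⊥}.Infinite →
      (∃ m : ℕ, 0 < m ∧ HasSec (((KB A)⁻¹ * T) ^ m)) ∨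
        Nonempty (YD h ((KB A)⁻¹ * T) (Crest.Agent.R273.HM_333.mul h t))

/-- **Half 1**: the data give a section -/
def HasSecOfYD (A : Atl n M) (h : HM (KB A)⁻¹) : Prop :=
  ∀ (L : LB A) (hL : HM L), (∀ i, ∀ x ∈ (A.e i).source, cur hL i x = cur h i x) →
    Nonempty (YD h L hL) → ∃ m : ℕ, 0 < m ∧ HasSec (L ^ m)

/-- **Part A from the two halves** -/
theorem partA_of
    (H1 : ∀ (n : ℕ) (M : Type) [TopologicalSpace M] [T2Space M] [CompactSpace M]
      [ConnectedSpace M] (A : Atl n M) [Finite A.ι], GoodA A → Nonempty (Part A) → ProjD A →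
      ∀ h : HM (KB A)⁻¹, h.Semipos → HasSecOfYD A h)
    (H2 : ∀ (n : ℕ) (M : Type) [TopologicalSpace M] [T2Space M] [CompactSpace M]
      [ConnectedSpace M] (A : Atl n M) [Finite A.ι], GoodA A → Nonempty (Part A) → ProjD A →
      ∀ h : HM (KB A)⁻¹, h.Semipos → ExistsYD A h) :
    Crest.Agent.R273.PartA_61.PartA := by
  intro n M _ _ _ _ A _ hG hP P h hs T t ht q hinf
  rcases H2 n M A hG hP P h hs T t ht q hinf with h1 | h1
  · exact h1
  · refine H1 n M A hG hP P h hs _ _ (fun i x hx => ?_) h1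
    rw [Crest.Agent.R273.Kah_333.cur_mul h t i hx, ht i x hx, add_zero]

end

end Crest.Agent.R273.AsmA_73
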