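import Crest.Agent.R273.EqvA_914
import Crest.Agent.R273.NV_578

/-!
# R273 (S0416), leaf EQV (helper914), part B: flat line bundles, equivariant families

`D.fl χ : LB A`   : the flat unitary line bundle of a character `χ : G →* Circle`;
`D.flHM χ`        : its flat metric (`w = 1`), `cur_flHM = 0`;
`D.up χ s`, `D.dn t` : families on `M` with the transition law of `L ⊗ fl χ`  <->  families on
                    `D.cov G` with the law of `L` which are `χ`-equivariant (`D.Eqv χ t`).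
-/

set_option autoImplicit false
set_option linter.unusedSectionVars false

open Set Filter Topology Complex Matrix
open scoped ContDiff Matrix ComplexConjugate

namespace Crest.Agent.R273.UCov_914

open Crest.Agent.R275.Geo Crest.Agent.R275.ZC352 Crest.Agent.R275.GC293
open Crest.Agent.R275.Core144 Crest.Agent.R275.Kos798
open Crest.Agent.R273.Defs_333 Crest.Agent.R273.HM_333 Crest.Agent.R273.Kah_333
open Crest.Agent.R273.Hess_333 Crest.Agent.R273.HessB_333
open Crest.Agent.R273.Fock_243 (FI Gam)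
open Crest.Agent.R273.Wdg_578 Crest.Agent.R273.NV_578

noncomputable section

variable {n : ℕ} {M : Type} [TopologicalSpace M] {A : Atl n M}

namespace MonD

variable {G : Type} [Group G] (D : MonD A G)

/-! ### the flat bundle of a character -/

open Classical in
/-- the flat unitary line bundle of a character -/
def fl (χ : G →* Circle) : LB A where
  g i j x := if x ∈ (A.e i).source ∩ (A.e j).source then (((χ (D.c i j x))⁻¹ : Circle) : ℂ) else 1
  hol i j := by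
    by_cases h : ((A.e i).source ∩ (A.e j).source).Nonempty
    · obtain ⟨y, hy⟩ := h
      refine (holAt_const (A := A) (i := i) (((χ (D.c i j y))⁻¹ : Circle) : ℂ)).congr
        fun x hx hx' => ?_
      rw [if_pos ⟨hx, hx'⟩, D.c_loc i j x ⟨hx, hx'⟩ y hy]
    · refine (holAt_const (A := A) (i := i) (1 : ℂ)).congr fun x hx hx' => ?_
      exact absurd ⟨x, hx, hx'⟩ h
  off i j x hx := if_neg hx
  self i x := by
    split_ifs with h
    · rw [D.c_self i x h.1, map_one, inv_one, Circle.coe_one]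
    · rfl
  mul i j k x hx := by
    rw [if_pos hx.1, if_pos ⟨hx.1.2, hx.2⟩, if_pos ⟨hx.1.1, hx.2⟩, ← D.c_mul i j k x hx, map_mul,
      ← Circle.coe_mul, _root_.mul_inv_rev]

theorem fl_g (χ : G →* Circle) {i j : A.ι} {x : M} (hx : x ∈ (A.e i).source ∩ (A.e j).source) :
    (D.fl χ).g i j x = (((χ (D.c i j x))⁻¹ : Circle) : ℂ) := if_pos hx

theorem norm_fl (χ : G →* Circle) (i j : A.ι) (x : M) : ‖(D.fl χ).g i j x‖ = 1 := by
  by_cases hx : x ∈ (A.e i).source ∩ (A.e j).source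
  · rw [D.fl_g χ hx, Circle.norm_coe]
  · rw [(D.fl χ).off i j x hx, norm_one]

theorem fl_one : D.fl (1 : G →* Circle) = 1 := LB_ext_on fun i j x hx => by
  rw [D.fl_g _ hx]; simp

theorem fl_mul (χ ψ : G →* Circle) : D.fl (χ * ψ) = D.fl χ * D.fl ψ := LB_ext_on fun i j x hx => by
  rw [LB.mul_g, D.fl_g _ hx, D.fl_g _ hx, D.fl_g _ hx, MonoidHom.mul_apply, mul_inv,
    Circle.coe_mul]

/-- the homomorphism `χ ↦ fl χ` -/
def flHom : (G →* Circle) →* LB A where
  toFun := D.fl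
  map_one' := D.fl_one
  map_mul' := D.fl_mul

theorem fl_pow (χ : G →* Circle) (m : ℕ) : D.fl (χ ^ m) = D.fl χ ^ m := D.flHom.map_pow χ m
theorem fl_inv (χ : G →* Circle) : D.fl χ⁻¹ = (D.fl χ)⁻¹ := D.flHom.map_inv χ

/-- the flat metric -/
def flHM (χ : G →* Circle) : HM (D.fl χ) where
  w _ _ := 1
  pos _ _ _ := one_pos
  sm _ := contDiffOn_const
  tr i j x _ := by rw [D.norm_fl]; norm_num

@[simp] theorem flHM_w (χ : G →* Circle) (i : A.ι) (x : M) : (D.flHM χ).w i x = 1 := rfl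

theorem cur_flHM (χ : G →* Circle) (i : A.ι) (x : M) : cur (D.flHM χ) i x = 0 := by
  have h1 : (D.flHM χ).wt i = fun _ => 0 := by
    funext z
    simp [HM.wt]
  unfold cur
  rw [h1]
  have h2 : hess (n := n) (fun _ => (0 : ℝ)) (A.e i x) =
      hess (fun _ => (0 : ℝ)) (A.e i x) + hess (fun _ => (0 : ℝ)) (A.e i x) := by
    rw [← hess_add contDiffAt_const contDiffAt_const]
    simp
  exact left_eq_add.1 h2

/-- the metric of `L` on `L ⊗ fl χ` -/
def twHM {L : LB A} (h : HM L) (χ : G →* Circle) : HM (L * D.fl χ) := HM_333.mul h (D.flHM χ)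

theorem twHM_w {L : LB A} (h : HM L) (χ : G →* Circle) (i : A.ι) (x : M) :
    (D.twHM h χ).w i x = h.w i x := mul_one _

theorem cur_twHM {L : LB A} (h : HM L) (χ : G →* Circle) {i : A.ι} {x : M}
    (hx : x ∈ (A.e i).source) : cur (D.twHM h χ) i x = cur h i x := by
  unfold twHM
  rw [cur_mul h _ i hx, cur_flHM, add_zero]

theorem twHM_wt {L : LB A} (h : HM L) (χ : G →* Circle) : (D.twHM h χ).wt = h.wt := by
  funext i z
  unfold HM.wt
  rw [D.twHM_w]

theorem twHM_semipos {L : LB A} {h : HM L} (hh : h.Semipos) (χ : G →* Circle) :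
    (D.twHM h χ).Semipos := fun i z hz v => by
  rw [D.twHM_wt]; exact hh i z hz v

/-! ### families -/

section Families

variable {V : Type*} [AddCommGroup V] [Module ℂ V]

open Classical in
/-- pull-back of a family, twisted by the character -/
def up (χ : G →* Circle) (s : A.ι → M → V) : (D.atl G).ι → D.cov G → V := fun p e =>
  if e ∈ ((D.atl G).e p).source then (((χ p.2)⁻¹ : Circle) : ℂ) • s p.1 (D.pr e) else 0

/-- `χ`-equivariant families on the big covering -/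
def Eqv (χ : G →* Circle) (t : (D.atl G).ι → D.cov G → V) : Prop :=
  ∀ (γ : G) (p : A.ι × G), ∀ e ∈ D.sheet p.1 p.2,
    t (p.1, p.2 * γ⁻¹) (γ • e) = ((χ γ : Circle) : ℂ) • t p e

open Classical in
/-- descent of a family -/
def dn (t : (D.atl G).ι → D.cov G → V) : A.ι → M → V := fun i x =>
  if x ∈ (A.e i).source then t (i, (1 : G)) (D.pt i 1 x) else 0

theorem up_apply (χ : G →* Circle) (s : A.ι → M → V) {p : A.ι × G} {e : D.cov G}
    (he : e ∈ D.sheet p.1 p.2) : D.up χ s p e = (((χ p.2)⁻¹ : Circle) : ℂ) • s p.1 (D.pr e) :=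
  if_pos he

theorem up_off (χ : G →* Circle) (s : A.ι → M → V) {p : A.ι × G} {e : D.cov G}
    (he : e ∉ D.sheet p.1 p.2) : D.up χ s p e = 0 := if_neg he

theorem dn_apply (t : (D.atl G).ι → D.cov G → V) {i : A.ι} {x : M} (hx : x ∈ (A.e i).source) :
    D.dn t i x = t (i, (1 : G)) (D.pt i 1 x) := if_pos hx

theorem dn_off (t : (D.atl G).ι → D.cov G → V) {i : A.ι} {x : M} (hx : x ∉ (A.e i).source) :
    D.dn t i x = 0 := if_neg hx

theorem mem_sheet_deck {γ : G} {p : A.ι × G} {e : D.cov G} (he : e ∈ D.sheet p.1 p.2) :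
    γ • e ∈ D.sheet p.1 (p.2 * γ⁻¹) := ⟨he.1, by rw [co_deck, he.2]⟩

theorem eqv_up (χ : G →* Circle) (s : A.ι → M → V) : D.Eqv χ (D.up χ s) := by
  intro γ p e he
  rw [D.up_apply χ s (p := (p.1, p.2 * γ⁻¹)) (D.mem_sheet_deck he), D.up_apply χ s he, smul_smul,
    ← Circle.coe_mul]
  congr 2
  change (χ (p.2 * γ⁻¹))⁻¹ = χ γ * (χ p.2)⁻¹
  rw [map_mul, map_inv, _root_.mul_inv_rev, inv_inv]

theorem dn_up (χ : G →* Circle) {s : A.ι → M → V} (hs : ∀ i, ∀ x ∉ (A.e i).source, s i x = 0) :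
    D.dn (D.up χ s) = s := by
  funext i x
  by_cases hx : x ∈ (A.e i).source
  · rw [D.dn_apply _ hx, D.up_apply χ s (p := (i, (1 : G))) (D.pt_mem_sheet 1 hx)]
    simp
  · rw [D.dn_off _ hx, hs i x hx]

theorem Eqv.apply {χ : G →* Circle} {t : (D.atl G).ι → D.cov G → V} (ht : D.Eqv χ t)
    {p : A.ι × G} {e : D.cov G} (he : e ∈ D.sheet p.1 p.2) :
    t p e = (((χ p.2)⁻¹ : Circle) : ℂ) • t (p.1, (1 : G)) (D.pt p.1 1 (D.pr e)) := by
  have h1 := ht p.2 p e he
  have h2 : p.2 • e = D.pt p.1 1 (D.pr e) := by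
    refine D.ext_co (i := p.1) he.1 rfl ?_
    rw [co_deck, he.2, mul_inv_cancel, D.co_pt _ he.1]
  rw [mul_inv_cancel, h2] at h1
  rw [h1, smul_smul, ← Circle.coe_mul, inv_mul_cancel, Circle.coe_one, one_smul]

theorem up_dn {χ : G →* Circle} {t : (D.atl G).ι → D.cov G → V} (ht : D.Eqv χ t)
    (h0 : ∀ p : A.ι × G, ∀ e ∉ D.sheet p.1 p.2, t p e = 0) : D.up χ (D.dn t) = t := by
  funext p e
  by_cases he : e ∈ D.sheet p.1 p.2
  · rw [D.up_apply _ _ he, D.dn_apply _ he.1]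
    exact (Eqv.apply D ht he).symm
  · rw [D.up_off _ _ he]
    exact (h0 p e he).symm

theorem Eqv.add {χ : G →* Circle} {t t' : (D.atl G).ι → D.cov G → V} (ht : D.Eqv χ t)
    (ht' : D.Eqv χ t') : D.Eqv χ (t + t') := fun γ p e he => by
  change t _ _ + t' _ _ = _ • (t p e + t' p e)
  rw [ht γ p e he, ht' γ p e he, smul_add]

theorem Eqv.zero (χ : G →* Circle) : D.Eqv χ (0 : (D.atl G).ι → D.cov G → V) :=
  fun γ p e he => (smul_zero _).symm

theorem Eqv.smul {χ : G →* Circle} {t : (D.atl G).ι → D.cov G → V} (c : ℂ) (ht : D.Eqv χ t) :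
    D.Eqv χ (c • t) := fun γ p e he => by
  change c • t _ _ = _ • (c • t p e)
  rw [ht γ p e he, smul_comm]

/-- the transition law goes up -/
theorem tr_up (χ : G →* Circle) {s : A.ι → M → V} {i j : A.ι} {T : M → V →ₗ[ℂ] V}
    (hs : ∀ x ∈ (A.e i).source ∩ (A.e j).source,
      s i x = (D.fl χ).g i j x • T x (s j x)) {g g' : G} {e : D.cov G}
    (he : e ∈ D.sheet i g) (he' : e ∈ D.sheet j g') :
    D.up χ s (i, g) e = T (D.pr e) (D.up χ s (j, g') e) := by
  rw [D.up_apply χ s (p := (i, g)) he, D.up_apply χ s (p := (j, g')) he',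
    hs _ ⟨he.1, he'.1⟩, D.fl_g χ ⟨he.1, he'.1⟩, map_smul, smul_smul, ← Circle.coe_mul]
  have h1 : g' = D.c i j (D.pr e) * g := by
    rw [← he.2, ← he'.2]; exact D.co_eq he.1 he'.1
  congr 2
  rw [h1, map_mul, _root_.mul_inv_rev]

/-- the transition law goes down -/
theorem tr_dn {χ : G →* Circle} {t : (D.atl G).ι → D.cov G → V} (ht : D.Eqv χ t) {i j : A.ι}
    {T : M → V →ₗ[ℂ] V}
    (hs : ∀ g g' : G, ∀ e ∈ D.sheet i g ∩ D.sheet j g', t (i, g) e = T (D.pr e) (t (j, g') e))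
    {x : M} (hx : x ∈ (A.e i).source ∩ (A.e j).source) :
    D.dn t i x = (D.fl χ).g i j x • T x (D.dn t j x) := by
  rw [D.dn_apply _ hx.1, D.dn_apply _ hx.2, D.fl_g χ hx]
  have h1 : D.pt i 1 x ∈ D.sheet j (D.c i j x) := ⟨hx.2, by
    rw [D.co_pt' (1 : G) hx.1 hx.2, smul_eq_mul, mul_one]⟩
  rw [hs 1 (D.c i j x) (D.pt i 1 x) ⟨D.pt_mem_sheet 1 hx.1, h1⟩,
    Eqv.apply D ht (p := (j, D.c i j x)) h1, map_smul]
  rfl

end Families

/-! ### holomorphic sections of line bundles -/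

theorem isHS_up {L : LB A} (χ : G →* Circle) {s : A.ι → M → ℂ}
    (hs : IsHS (L * D.fl χ) univ s) : IsHS (D.pullLB G L) univ (D.up χ s) where
  hol p := by
    have h1 : HolAt (D.atl G) p univ
        (fun e => (((χ p.2)⁻¹ : Circle) : ℂ) • s p.1 (D.pr e)) :=
      (D.holAt_pull (F := G) (p := p) (hs.hol p.1)).const_mul _
    exact h1.congr fun e he _ => (D.up_apply χ s he).symm
  off p e he := D.up_off χ s he
  tr p q e he _ := by
    rw [D.pullLB_g _ he]
    exact D.tr_up χ (T := fun x => LinearMap.lsmul ℂ ℂ (L.g p.1 q.1 x)) (g := p.2) (g' := q.2)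
      (fun x hx => by
        rw [hs.tr p.1 q.1 x hx (mem_univ _), LB.mul_g]
        simp only [LinearMap.lsmul_apply, smul_eq_mul]
        ring) he.1 he.2

theorem isHS_dn {L : LB A} {χ : G →* Circle} {t : (D.atl G).ι → D.cov G → ℂ}
    (ht : IsHS (D.pullLB G L) univ t) (he : D.Eqv χ t) : IsHS (L * D.fl χ) univ (D.dn t) where
  hol i := by
    have h1 : HolAt A i univ (fun x => t (i, (1 : G)) (D.pt i 1 x)) := ht.hol (i, (1 : G))
    exact h1.congr fun x hx _ => (D.dn_apply t hx).symm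
  off i x hx := D.dn_off t hx
  tr i j x hx _ := by
    rw [LB.mul_g]
    have h1 := D.tr_dn he (i := i) (j := j) (T := fun x => LinearMap.lsmul ℂ ℂ (L.g i j x))
      (fun g g' e h => by
        rw [ht.tr (i, g) (j, g') e h (mem_univ _), D.pullLB_g (p := (i, g)) (q := (j, g')) L h]
        rfl) hx
    rw [h1]
    simp only [LinearMap.lsmul_apply, smul_eq_mul]
    ring

/-- **sections of `L ⊗ fl χ` = equivariant sections on the covering** -/
theorem hasSec_fl_iff {L : LB A} (χ : G →* Circle) : HasSec (L * D.fl χ) ↔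
    ∃ t, IsHS (D.pullLB G L) univ t ∧ D.Eqv χ t ∧ ∃ p : A.ι × G, ∃ e ∈ D.sheet p.1 p.2,
      t p e ≠ 0 := by
  constructor
  · rintro ⟨s, hs, i, x, hx, h0⟩
    refine ⟨D.up χ s, D.isHS_up χ hs, D.eqv_up χ s, (i, 1), D.pt i 1 x, D.pt_mem_sheet 1 hx, ?_⟩
    rw [D.up_apply χ s (p := (i, (1 : G))) (D.pt_mem_sheet 1 hx)]
    simpa using h0
  · rintro ⟨t, ht, he, p, e, hp, h0⟩
    refine ⟨D.dn t, D.isHS_dn ht he, p.1, D.pr e, hp.1, ?_⟩
    rw [D.dn_apply _ hp.1]
    rw [Eqv.apply D he hp] at h0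
    exact fun h => h0 (by rw [h, smul_zero])

/-! ### polyvectors -/

theorem mem_PV_up {N : LB A} {q : ℕ} (χ : G →* Circle) {v : A.ι → M → FI n → ℂ}
    (hv : v ∈ PV (N * D.fl χ) q) : D.up χ v ∈ PV (D.pullLB G N) q := by
  obtain ⟨h1, h2, h3, h4⟩ := hv
  refine ⟨fun p T => ?_, fun p e he => D.up_off χ v he, fun p e T hT => ?_, fun p r e he => ?_⟩
  · have h5 : HolAt (D.atl G) p univ
        (fun e => (((χ p.2)⁻¹ : Circle) : ℂ) * v p.1 (D.pr e) T) :=
      (D.holAt_pull (F := G) (p := p) (h1 p.1 T)).const_mul _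
    exact h5.congr fun e he _ => by rw [D.up_apply χ v he]; rfl
  · by_cases he : e ∈ D.sheet p.1 p.2
    · rw [D.up_apply χ v he, Pi.smul_apply, h3 _ _ T hT, smul_zero]
    · rw [D.up_off χ v he]; rfl
  · rw [D.pullLB_g _ he]
    exact D.tr_up χ (T := fun x => N.g p.1 r.1 x • (Gam (Jm A r.1 p.1 x)).mulVecLin)
      (g := p.2) (g' := r.2)
      (fun x hx => by
        rw [h4 p.1 r.1 x hx, LB.mul_g, mul_comm, mul_smul]
        rfl) he.1 he.2

theorem mem_PV_dn {N : LB A} {q : ℕ} {χ : G →* Circle} {t : (D.atl G).ι → D.cov G → FI n → ℂ}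
    (ht : t ∈ PV (D.pullLB G N) q) (he : D.Eqv χ t) : D.dn t ∈ PV (N * D.fl χ) q := by
  obtain ⟨h1, h2, h3, h4⟩ := ht
  refine ⟨fun i T => ?_, fun i x hx => D.dn_off t hx, fun i x T hT => ?_, fun i j x hx => ?_⟩
  · have h5 : HolAt A i univ (fun x => t (i, (1 : G)) (D.pt i 1 x) T) := h1 (i, (1 : G)) T
    exact h5.congr fun x hx _ => by rw [D.dn_apply t hx]
  · by_cases hx : x ∈ (A.e i).source
    · rw [D.dn_apply t hx]; exact h3 _ _ T hT
    · rw [D.dn_off t hx]; rfl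
  · have h5 := D.tr_dn he (i := i) (j := j)
      (T := fun x => N.g i j x • (Gam (Jm A j i x)).mulVecLin)
      (fun g g' e h => by
        rw [h4 (i, g) (j, g') e h, D.pullLB_g (p := (i, g)) (q := (j, g')) N h]
        rfl) hx
    rw [h5, LB.mul_g, mul_comm, mul_smul]
    rfl

theorem cur_pullHM {L : LB A} {F : Type} [MulAction G F] (h : HM L) (p : A.ι × F) (e : D.cov F) :
    cur (D.pullHM (F := F) h) p e = cur h p.1 (D.pr e) := rfl

theorem mem_NulS_up {L' : LB A} {h : HM L'} (χ : G →* Circle) {v : A.ι → M → FI n → ℂ}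
    (hv : v ∈ NulS h) : D.up χ v ∈ NulS (D.pullHM (F := G) h) := by
  intro p e he
  rw [D.up_apply χ v he]
  exact (hv p.1 (D.pr e) he.1).smul _

theorem mem_NulS_dn {L' : LB A} {h : HM L'} {t : (D.atl G).ι → D.cov G → FI n → ℂ}
    (ht : t ∈ NulS (D.pullHM (F := G) h)) : D.dn t ∈ NulS h := by
  intro i x hx
  rw [D.dn_apply t hx]
  exact ht (i, (1 : G)) (D.pt i 1 x) (D.pt_mem_sheet 1 hx)

theorem mem_NV_up {N L' : LB A} {h : HM L'} {q : ℕ} (χ : G →* Circle)
    {v : A.ι → M → FI n → ℂ} (hv : v ∈ NV (N * D.fl χ) h q) :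
    D.up χ v ∈ NV (D.pullLB G N) (D.pullHM (F := G) h) q :=
  ⟨D.mem_PV_up χ hv.1, D.mem_NulS_up χ hv.2⟩

theorem mem_NV_dn {N L' : LB A} {h : HM L'} {q : ℕ} {χ : G →* Circle}
    {t : (D.atl G).ι → D.cov G → FI n → ℂ} (ht : t ∈ NV (D.pullLB G N) (D.pullHM (F := G) h) q)
    (he : D.Eqv χ t) : D.dn t ∈ NV (N * D.fl χ) h q :=
  ⟨D.mem_PV_dn ht.1 he, D.mem_NulS_dn ht.2⟩

theorem dn_ne_zero {V : Type*} [AddCommGroup V] [Module ℂ V] {χ : G →* Circle}
    {t : (D.atl G).ι → D.cov G → V} (he : D.Eqv χ t)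
    (h0 : ∀ p : A.ι × G, ∀ e ∉ D.sheet p.1 p.2, t p e = 0) (hne : t ≠ 0) : D.dn t ≠ 0 := by
  intro h
  apply hne
  rw [← D.up_dn he h0, h]
  funext p e
  by_cases hp : e ∈ D.sheet p.1 p.2
  · rw [D.up_apply _ _ hp]; simp
  · rw [D.up_off _ _ hp]; rfl

/-- the null polyvectors of `N ⊗ fl χ` are the `χ`-equivariant null polyvectors of the covering -/
def eqvNV (N : LB A) {L' : LB A} (h : HM L') (q : ℕ) (χ : G →* Circle) :
    Submodule ℂ ((D.atl G).ι → D.cov G → FI n → ℂ) where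
  carrier := {t | t ∈ NV (D.pullLB G N) (D.pullHM (F := G) h) q ∧ D.Eqv χ t}
  add_mem' := fun ⟨h1, h2⟩ ⟨h3, h4⟩ => ⟨Submodule.add_mem _ h1 h3, Eqv.add D h2 h4⟩
  zero_mem' := ⟨Submodule.zero_mem _, Eqv.zero D χ⟩
  smul_mem' c t := fun ⟨h1, h2⟩ => ⟨Submodule.smul_mem _ c h1, Eqv.smul D c h2⟩

/-- the linear isomorphism -/
def flE (N : LB A) {L' : LB A} (h : HM L') (q : ℕ) (χ : G →* Circle) :
    NV (N * D.fl χ) h q ≃ₗ[ℂ] D.eqvNV N h q χ where
  toFun v := ⟨D.up χ v.1, D.mem_NV_up χ v.2, D.eqv_up χ v.1⟩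
  invFun t := ⟨D.dn t.1, D.mem_NV_dn t.2.1 t.2.2⟩
  left_inv v := Subtype.ext (D.dn_up χ v.2.1.2.1)
  right_inv t := Subtype.ext (D.up_dn t.2.2 t.2.1.1.2.1)
  map_add' v w := by
    ext p e T
    by_cases he : e ∈ D.sheet p.1 p.2
    · simp [D.up_apply _ _ he, mul_add]
    · simp [D.up_off _ _ he]
  map_smul' c v := by
    ext p e T
    by_cases he : e ∈ D.sheet p.1 p.2
    · simp [D.up_apply _ _ he]; ring
    · simp [D.up_off _ _ he]

end MonD

end

end Crest.Agent.R273.UCov_914
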