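import Crest.Agent.R273.Map_835
import Crest.Agent.R273.NV_578
import Crest.Agent.R273.LamN_127
import Crest.Agent.R275.SerH_398

/-!
# R273 (S0416), torus step BP-T (helper422): interface

* `TorD A Γ`   : compact manifold `M` with an action of the commutative group `Γ`, diagonal in
                 homogeneous coordinates, preserving a semipositive metric `h` on `K⁻¹` and a
                 Kaehler metric, without higher cohomology of `O`;
* `SemiS m v s`: the section `s` of `(K⁻¹)^m` has character `v`;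
* `SemiV m v w`: the polyvector `w` with values in `(K⁻¹)^m` has character `v`;
* `Gd v`       : some power `v^m`, `m > 0`, is the character of a nonzero section of `(K⁻¹)^m`;
* `BB T`       : black box: infinitely many null polyvectors with characters `v^k` => `Gd v`;
* `TorMain`    : the conclusion of the torus step.
-/

set_option autoImplicit false
set_option linter.unusedSectionVars false

open Set Filter Topology Complex
open scoped ContDiff Matrix ComplexConjugate Manifold

namespace Crest.Agent.R273.TorDefs_422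

open Crest.Agent.R275.Geo Crest.Agent.R275.Core144 Crest.Agent.R275.SerG398
open Crest.Agent.R275.GC293
open Crest.Agent.R273.Defs_333 Crest.Agent.R273.Kah_333 Crest.Agent.R273.Map_835
open Crest.Agent.R273.Fock_243 (FI Gam)
open Crest.Agent.R273.NV_578 (NV PV)
open Crest.Agent.R273.LamN127 (BN)

noncomputable section

variable {n : ℕ} {M : Type} [TopologicalSpace M]

/-- the anticanonical bundle -/
abbrev aK (A : Atl n M) : LB A := (KB A)⁻¹

/-- Jacobian of the action of `γ` in the charts `i` (at `x`), `j` (at `γ • x`) -/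
def Ja (A : Atl n M) {Γ : Type} [SMul Γ M] (γ : Γ) (i j : A.ι) (x : M) :
    Matrix (Fin n) (Fin n) ℂ := Jp A A (fun y => γ • y) i j x

/-- data of the torus step -/
structure TorD (A : Atl n M) (Γ : Type) [CommGroup Γ] [MulAction Γ M] where
  P : ProjD A
  /-- no coordinate vanishes identically -/
  nz : ∀ k, ∃ i, ∃ x ∈ (A.e i).source, P.F i x k ≠ 0
  /-- characters of the homogeneous coordinates -/
  χ : Fin (P.N + 1) → Γ →* Circle
  hol : ∀ γ : Γ, HolMap A A (fun x => γ • x)
  diag : ∀ (γ : Γ) i j, ∀ x ∈ (A.e i).source, γ • x ∈ (A.e j).source →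
    ∃ c : ℂ, ∀ k, P.F j (γ • x) k = c * ((χ k γ : ℂ) * P.F i x k)
  /-- the ratios of the characters generate a torsion free group -/
  tf : ∀ w ∈ Subgroup.closure {w : Γ →* Circle | ∃ k l, w = χ k / χ l}, ∀ m : ℕ, m ≠ 0 →
    w ^ m = 1 → w = 1
  h : HM (aK A)
  semi : h.Semipos
  h_inv : ∀ (γ : Γ) i j, ∀ x ∈ (A.e i).source, γ • x ∈ (A.e j).source →
    h.w i x = ‖(Ja A γ i j x).det‖ ^ 2 * h.w j (γ • x)
  K : Kah A
  K_inv : ∀ (γ : Γ) i j, ∀ x ∈ (A.e i).source, γ • x ∈ (A.e j).source →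
    K.g i x = (Ja A γ i j x)ᵀ * K.g j (γ • x) * (Ja A γ i j x).map conj
  coh : ∀ q, 1 ≤ q → hB (BN (1 : LB A)) q = 0

variable {A : Atl n M} {Γ : Type} [CommGroup Γ] [MulAction Γ M]

/-- `s` is multiplied by `v` -/
def SemiS (m : ℕ) (v : Γ →* Circle) (s : A.ι → M → ℂ) : Prop :=
  ∀ (γ : Γ) i j, ∀ x ∈ (A.e i).source, γ • x ∈ (A.e j).source →
    s j (γ • x) = (v γ : ℂ) * (Ja A γ i j x).det ^ m * s i x

/-- the polyvector `w` is multiplied by `v` -/
def SemiV (m : ℕ) (v : Γ →* Circle) (w : A.ι → M → FI n → ℂ) : Prop :=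
  ∀ (γ : Γ) i j, ∀ x ∈ (A.e i).source, γ • x ∈ (A.e j).source →
    w j (γ • x) = ((v γ : ℂ) * (Ja A γ i j x).det ^ m) • (Gam (Ja A γ i j x) *ᵥ w i x)

/-- a power of `v` is the character of a nonzero section of a power of the anticanonical bundle -/
def Gd (A : Atl n M) (v : Γ →* Circle) : Prop :=
  ∃ m : ℕ, 0 < m ∧ ∃ s : A.ι → M → ℂ, IsHS ((aK A) ^ m) univ s ∧
    (∃ i, ∃ x ∈ (A.e i).source, s i x ≠ 0) ∧ SemiS m (v ^ m) s

/-- the black box (Part A on the suspension) -/
def BB (h : HM (aK A)) (Γ : Type) [CommGroup Γ] [MulAction Γ M] : Prop :=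
  ∀ v : Γ →* Circle, (∃ q : ℕ, ∀ k0 : ℕ, ∃ k, k0 ≤ k ∧ ∃ w ∈ NV ((aK A) ^ k) h q, w ≠ 0 ∧
    SemiV k (v ^ k) w) → Gd A v

/-- the torus step -/
def TorMain : Prop :=
  ∀ (n : ℕ) (M : Type) [TopologicalSpace M] [T2Space M] [CompactSpace M] [ConnectedSpace M]
    (A : Atl n M) [Finite A.ι], GoodA A → Nonempty (Part A) →
    ∀ (Γ : Type) [CommGroup Γ] [Group.FG Γ] [MulAction Γ M] (T : TorD A Γ), BB T.h Γ →
      Gd A (1 : Γ →* Circle)

end

end Crest.Agent.R273.TorDefs_422
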