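import Crest.Agent.R273.Sus_333
import Crest.Agent.R273.EqvB_914
import Crest.Agent.R273.TorDefs_422

/-!
# R273 (S0416), helper333: descent from the fibre of the normal form

`S : Sus D K B`.
* `powT`          : powers of a `PB` with explicit comparison functions
* `ext`           : `s j y` extended constantly to `ℂ^g × Y`
* `Sus.hasSec_of` : a nonzero section of `(KB B)⁻¹ ^ m` on `Y` with character `χ` gives a nonzero
                    section of `(KB A)⁻¹ ^ m * D.fl χ` on `M`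
-/

set_option autoImplicit false
set_option linter.unusedSectionVars false

open Set Filter Topology Complex
open scoped ContDiff Matrix ComplexConjugate Manifold ComplexOrder

namespace Crest.Agent.R273.Dsc_333

open Crest.Agent.R275.Geo Crest.Agent.R275.Core144 Crest.Agent.R275.GC293
open Crest.Agent.R275.Prod363
open Crest.Agent.R273.Defs_333 Crest.Agent.R273.Kah_333 Crest.Agent.R273.Vol_333
open Crest.Agent.R273.Map_835 Crest.Agent.R273.PB_835 Crest.Agent.R273.EA_333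
open Crest.Agent.R273.UCov_914 Crest.Agent.R273.Prd_835 Crest.Agent.R273.Sus_333
open Crest.Agent.R273.HM_333 Crest.Agent.R273.TorDefs_422

noncomputable section

/-! ### powers -/

section pow

variable {n m : ℕ} {M N : Type} [TopologicalSpace M] [TopologicalSpace N] {A : Atl n M}
  {B : Atl m N} {p : M → N} {L' : LB A} {L : LB B}

theorem holAt_pow {i : A.ι} {U : Set M} {f : M → ℂ} (h : HolAt A i U f) (k : ℕ) :
    HolAt A i U (fun x => f x ^ k) := by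
  induction k with
  | zero => simpa using (holAt_const (A := A) (i := i) (U := U) (1 : ℂ))
  | succ k ih =>
    have h1 := ih.mul h
    refine h1.congr fun x _ _ => ?_
    simp [pow_succ]

/-- powers of a comparison of line bundles -/
def powT (T : PB p L' L) (k : ℕ) : PB p (L' ^ k) (L ^ k) where
  c i j x := T.c i j x ^ k
  hol i j := holAt_pow (T.hol i j) k
  ne i j x hx hj := pow_ne_zero _ (T.ne i j x hx hj)
  left i i' j x hx hj := by rw [LB_pow_g, ← mul_pow, T.left i i' j x hx hj]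
  right i j j' x hx hj := by rw [LB_pow_g, ← mul_pow, T.right i j j' x hx hj]

end pow

/-! ### the trivial section on `ℂ^g` -/

open Classical in
/-- the constant section `1` of `(KB (EA g))⁻¹ ^ k` -/
def uno (g : ℕ) : (EA g).ι → Cn g → ℂ := fun i z => if z ∈ ((EA g).e i).source then 1 else 0

theorem uno_apply {g : ℕ} {i : (EA g).ι} {z : Cn g} (h : z ∈ ((EA g).e i).source) :
    uno g i z = 1 := if_pos h

theorem isHS_uno (g k : ℕ) : IsHS ((KB (EA g))⁻¹ ^ k) univ (uno g) := by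
  refine ⟨fun i => ?_, fun i z hz => if_neg hz, fun i j z hz _ => ?_⟩
  · exact (holAt_const (A := EA g) (i := i) (1 : ℂ)).congr fun z hz _ => (uno_apply hz).symm
  · rw [uno_apply hz.1, uno_apply hz.2, LB_pow_g, LB.inv_g, KB_EA hz]
    simp

/-! ### extension to `ℂ^g × Y` -/

variable {g d : ℕ} {M : Type} [TopologicalSpace M] {A : Atl (g + d) M} {G : Type} [CommGroup G]

section ext

variable {Y : Type} [TopologicalSpace Y] {B : Atl d Y}

/-- constant extension -/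
def ext (g : ℕ) (s : B.ι → Y → ℂ) : ((EA g).prod B).ι → Cn g × Y → ℂ :=
  fun i x => uno g i.1 x.1 * s i.2 x.2

theorem ext_apply {s : B.ι → Y → ℂ} {i : (EA g).ι} {j : B.ι} {z : Cn g} {y : Y}
    (hz : z ∈ ((EA g).e i).source) : ext g s (i, j) (z, y) = s j y := by
  unfold ext
  rw [uno_apply hz, one_mul]

theorem isHS_ext {s : B.ι → Y → ℂ} {k : ℕ} (hs : IsHS ((KB B)⁻¹ ^ k) univ s) :
    IsHS ((KB ((EA g).prod B))⁻¹ ^ k) univ (ext g s) := ext_isHS (isHS_uno g k) hs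

end ext

variable {D : MonD A G} {K : Kah A} {Y : Type} [TopologicalSpace Y] [MulAction G Y]
  {B : Atl d Y} (S : Sus D K B)

theorem pullLB_aK (D : MonD A G) (k : ℕ) : D.pullLB G ((KB A)⁻¹ ^ k) = (KB (D.atl G))⁻¹ ^ k := by
  rw [D.pullLB_pow, D.pullLB_inv, D.pullLB_KB]

/-- comparison of the anticanonical bundles along `Ψ⁻¹` -/
def cmp (k : ℕ) : PB S.Ψ.symm ((KB (D.atl G))⁻¹ ^ k) ((KB ((EA g).prod B))⁻¹ ^ k) :=
  powT (PB.KB S.lb_symm).inv k

theorem cmp_c (k : ℕ) (p : (D.atl G).ι) (r : ((EA g).prod B).ι) (e : D.cov G) :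
    (cmp S k).c p r e = ((Jp (D.atl G) ((EA g).prod B) S.Ψ.symm p r e).det)⁻¹ ^ k := rfl

/-- the lift of a section of the fibre to the covering -/
def lift (k : ℕ) (s : B.ι → Y → ℂ) : (D.atl G).ι → D.cov G → ℂ := (cmp S k).pull (ext g s)

theorem isHS_lift {k : ℕ} {s : B.ι → Y → ℂ} (hs : IsHS ((KB B)⁻¹ ^ k) univ s) :
    IsHS (D.pullLB G ((KB A)⁻¹ ^ k)) univ (lift S k s) := by
  rw [pullLB_aK]
  exact (cmp S k).pull_isHS S.lb_symm.toHolMap isOpen_univ (isHS_ext hs)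

theorem lift_eq {k : ℕ} {s : B.ι → Y → ℂ} (hs : IsHS ((KB B)⁻¹ ^ k) univ s)
    {p : (D.atl G).ι} {e : D.cov G} (he : e ∈ ((D.atl G).e p).source) {i : (EA g).ι} {j : B.ι}
    (hi : (S.Ψ.symm e).1 ∈ ((EA g).e i).source) (hj : (S.Ψ.symm e).2 ∈ (B.e j).source) :
    lift S k s p e =
      ((Jp (D.atl G) ((EA g).prod B) S.Ψ.symm p (i, j) e).det)⁻¹ ^ k * s j (S.Ψ.symm e).2 := by
  unfold lift
  rw [(cmp S k).pull_eq he (j := (i, j)) ⟨hi, hj⟩ (isHS_ext hs) (mem_univ _), cmp_c]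
  congr 1
  exact ext_apply (z := (S.Ψ.symm e).1) (y := (S.Ψ.symm e).2) hi

theorem symm_deck (γ : G) (e : D.cov G) : S.Ψ.symm (γ • e) = S.act γ (S.Ψ.symm e) := by
  rw [S.act_eq γ]
  simp

/-- the Jacobians of `Ψ⁻¹` at `e` and `γ • e` -/
theorem det_deck (γ : G) {p p' : (D.atl G).ι} (hpp : p.1 = p'.1) {e : D.cov G}
    (he : e ∈ ((D.atl G).e p).source) (he' : γ • e ∈ ((D.atl G).e p').source)
    {i i' : (EA g).ι} {j j' : B.ι}
    (hi : (S.Ψ.symm e).1 ∈ ((EA g).e i).source) (hj : (S.Ψ.symm e).2 ∈ (B.e j).source)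
    (hi' : (S.act γ (S.Ψ.symm e)).1 ∈ ((EA g).e i').source)
    (hj' : (S.act γ (S.Ψ.symm e)).2 ∈ (B.e j').source) :
    (Jp (D.atl G) ((EA g).prod B) S.Ψ.symm p' (i', j') (γ • e)).det =
      (Jp B B (fun y : Y => γ • y) j j' (S.Ψ.symm e).2).det *
        (Jp (D.atl G) ((EA g).prod B) S.Ψ.symm p (i, j) e).det := by
  have h0 : S.Ψ.symm (γ • e) ∈ (((EA g).prod B).e (i', j')).source := by
    rw [symm_deck]; exact ⟨hi', hj'⟩
  have h1 := Jp_comp S.lb_symm.toHolMap (Sus_333.holMap_deck D γ) (i := p) (j := p')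
    (l := (i', j')) (x := e) he he' h0
  have h2 := Jp_comp (S.lb_act γ).toHolMap S.lb_symm.toHolMap (i := p) (j := (i, j))
    (l := (i', j')) (x := e) he ⟨hi, hj⟩ ⟨hi', hj'⟩
  have h3 : (fun e => S.Ψ.symm (γ • e)) = fun e => S.act γ (S.Ψ.symm e) :=
    funext fun e => symm_deck S γ e
  have h6 : D.pr e ∈ (A.e p'.1).source := he'.1
  rw [h3, ← h2, Sus_333.Jp_deck, hpp, J_self _ h6, Matrix.mul_one] at h1
  rw [h1, Matrix.det_mul]
  congr 1
  have h4 := S.Jp_act γ (z := (S.Ψ.symm e).1) (y := (S.Ψ.symm e).2) hi hj hi' hj'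
  have h5 : ((S.Ψ.symm e).1, (S.Ψ.symm e).2) = S.Ψ.symm e := rfl
  rw [h5] at h4
  rw [h4, det_blk, Matrix.det_one, one_mul]

theorem eqv_lift {k : ℕ} {s : B.ι → Y → ℂ} (hs : IsHS ((KB B)⁻¹ ^ k) univ s) {χ : G →* Circle}
    (hχ : SemiS k χ s) : D.Eqv χ (lift S k s) := by
  intro γ p e hp
  have hp' : γ • e ∈ ((D.atl G).e (p.1, p.2 * γ⁻¹)).source := D.mem_sheet_deck hp
  obtain ⟨i, hi⟩ := (EA g).cover (S.Ψ.symm e).1
  obtain ⟨j, hj⟩ := B.cover (S.Ψ.symm e).2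
  obtain ⟨i', hi'⟩ := (EA g).cover (S.act γ (S.Ψ.symm e)).1
  obtain ⟨j', hj'⟩ := B.cover (S.act γ (S.Ψ.symm e)).2
  have hi'' : (S.Ψ.symm (γ • e)).1 ∈ ((EA g).e i').source := by rw [symm_deck]; exact hi'
  have hj'' : (S.Ψ.symm (γ • e)).2 ∈ (B.e j').source := by rw [symm_deck]; exact hj'
  rw [lift_eq S hs hp' hi'' hj'', lift_eq S hs hp hi hj,
    det_deck S γ (p := p) (p' := (p.1, p.2 * γ⁻¹)) rfl hp hp' hi hj hi' hj']
  have h1 : (S.Ψ.symm (γ • e)).2 = γ • (S.Ψ.symm e).2 := by rw [symm_deck]; rfl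
  have h2 := hχ γ j j' (S.Ψ.symm e).2 hj hj'
  have h3 : (Jp B B (fun y : Y => γ • y) j j' (S.Ψ.symm e).2).det ≠ 0 :=
    (S.lb_smul γ).det j j' _ hj hj'
  have h4 : Ja B γ j j' (S.Ψ.symm e).2 = Jp B B (fun y : Y => γ • y) j j' (S.Ψ.symm e).2 := rfl
  rw [h1, h2, h4, mul_inv, mul_pow, smul_eq_mul]
  set a := (Jp B B (fun y : Y => γ • y) j j' (S.Ψ.symm e).2).det
  have h5 : a⁻¹ ^ k * a ^ k = 1 := by rw [← mul_pow, inv_mul_cancel₀ h3, one_pow]
  linear_combination ((χ γ : ℂ) * s j (S.Ψ.symm e).2 *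
    ((Jp (D.atl G) ((EA g).prod B) S.Ψ.symm p (i, j) e).det)⁻¹ ^ k) * h5

include S in
/-- **descent** -/
theorem hasSec_of {k : ℕ} {s : B.ι → Y → ℂ} (hs : IsHS ((KB B)⁻¹ ^ k) univ s)
    (hne : ∃ j, ∃ y ∈ (B.e j).source, s j y ≠ 0) {χ : G →* Circle} (hχ : SemiS k χ s) :
    HasSec ((KB A)⁻¹ ^ k * D.fl χ) := by
  rw [D.hasSec_fl_iff]
  obtain ⟨j, y, hy, h0⟩ := hne
  refine ⟨lift S k s, isHS_lift S hs, eqv_lift S hs hχ, ?_⟩
  obtain ⟨i, hi⟩ := (EA g).cover (0 : Cn g)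
  obtain ⟨p, hp⟩ := (D.atl G).cover (S.Ψ (0, y))
  refine ⟨p, S.Ψ (0, y), hp, ?_⟩
  have e1 : S.Ψ.symm (S.Ψ (0, y)) = (0, y) := S.Ψ.symm_apply_apply _
  have hi' : (S.Ψ.symm (S.Ψ (0, y))).1 ∈ ((EA g).e i).source := by rw [e1]; exact hi
  have hj' : (S.Ψ.symm (S.Ψ (0, y))).2 ∈ (B.e j).source := by rw [e1]; exact hy
  rw [lift_eq S hs hp hi' hj']
  refine mul_ne_zero (pow_ne_zero _ (inv_ne_zero ?_)) ?_
  · exact S.lb_symm.det p (i, j) _ hp ⟨hi', hj'⟩
  · rw [e1]; exact h0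

include S in
theorem hasSec_of_Gd {v : G →* Circle} (h : Gd B v) :
    ∃ m : ℕ, 0 < m ∧ HasSec (((KB A)⁻¹ * D.fl v) ^ m) := by
  obtain ⟨m, hm, s, hs, hne, hv⟩ := h
  refine ⟨m, hm, ?_⟩
  rw [mul_pow, ← D.fl_pow]
  exact hasSec_of S hs hne hv

include S in
/-- **an invariant section on the fibre gives a section on `M`** -/
theorem main_of_Gd (h : Gd B (1 : G →* Circle)) : ∃ m : ℕ, 0 < m ∧ HasSec ((KB A)⁻¹ ^ m) := by
  obtain ⟨m, hm, h1⟩ := hasSec_of_Gd S h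
  rw [D.fl_one, mul_one] at h1
  exact ⟨m, hm, h1⟩

/-! ### the volume form of the fibre -/

/-- `h_inv` of `TorD` for `h = volK KY` -/
theorem volKY_inv (γ : G) {j j' : B.ι} {y : Y} (hy : y ∈ (B.e j).source)
    (hy' : γ • y ∈ (B.e j').source) :
    (volK S.KY).w j y = ‖(Ja B γ j j' y).det‖ ^ 2 * (volK S.KY).w j' (γ • y) := by
  have h1 := congrArg Matrix.det (S.KY_inv γ hy hy')
  rw [Matrix.det_mul, Matrix.det_mul, Matrix.det_transpose, Sus.det_map_conj,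
    ← volK_w S.KY j hy, ← volK_w S.KY j' hy'] at h1
  have h2 : Jp B B (fun y : Y => γ • y) j j' y = Ja B γ j j' y := rfl
  rw [h2] at h1
  have h3 : ((‖(Ja B γ j j' y).det‖ ^ 2 : ℝ) : ℂ) =
      (Ja B γ j j' y).det * conj (Ja B γ j j' y).det := by
    rw [Complex.mul_conj, Complex.normSq_eq_norm_sq]
  have h4 : (((volK S.KY).w j y : ℝ) : ℂ) =
      ((‖(Ja B γ j j' y).det‖ ^ 2 * (volK S.KY).w j' (γ • y) : ℝ) : ℂ) := by
    rw [Complex.ofReal_mul, h3, h1]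
    ring
  exact_mod_cast h4

end

end Crest.Agent.R273.Dsc_333
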