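import Crest.Agent.R273.EqvB_914

/-!
# R273 (S0416), leaf EQV (helper914), part C: families equivariant under a subgroup

For `H ≤ G`, `χ : H →* Circle`: families on `D.cov G` which are `χ`-equivariant under `H`
(`D.EqvS H χ t`)  <->  families on `D.cov (G ⧸ H)` with values in `L ⊗ (D.sub H).fl χ`
(`D.dnS H t`, `D.upS H χ s`).
-/

set_option autoImplicit false
set_option linter.unusedSectionVars false

open Set Filter Topology Complex Matrix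
open scoped ContDiff Matrix ComplexConjugate

namespace Crest.Agent.R273.UCov_914

open Crest.Agent.R275.Geo Crest.Agent.R275.ZC352 Crest.Agent.R275.GC293
open Crest.Agent.R275.Core144 Crest.Agent.R275.Kos798
open Crest.Agent.R273.Defs_333 Crest.Agent.R273.HM_333 Crest.Agent.R273.Kah_333
open Crest.Agent.R273.Fock_243 (FI Gam)
open Crest.Agent.R273.Wdg_578 Crest.Agent.R273.NV_578

noncomputable section

variable {n : ℕ} {M : Type} [TopologicalSpace M] {A : Atl n M}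

namespace MonD

variable {G : Type} [Group G] (D : MonD A G) (H : Subgroup G)

/-! ### comparison of the sheets -/

theorem mem_sub_sheet {i : A.ι} {v : G ⧸ H} {h : H} {e : (D.sub H).cov H} :
    e ∈ (D.sub H).sheet (i, v) h ↔ D.ofSub H e ∈ D.sheet i (v.out * (h : G)) := by
  constructor
  · rintro ⟨⟨h1, h2⟩, h3⟩
    refine ⟨h1, ?_⟩
    rw [D.co_ofSub H h1]
    have h2' : D.co i ((D.sub H).pr e) = v := h2
    rw [h2', h3]
  · rintro ⟨h1, h2⟩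
    have h1' : D.pr ((D.sub H).pr e) ∈ (A.e i).source := h1
    have h3 : D.co i ((D.sub H).pr e) = v := by
      rw [← D.qm_ofSub H e, co_qm, h2, mk_out_mul_coe]
    refine ⟨⟨h1, h3⟩, ?_⟩
    rw [D.co_ofSub H h1', h3] at h2
    exact Subtype.ext (mul_left_cancel h2)

theorem ofSub_pt {i : A.ι} (v : G ⧸ H) (h : H) {x : M} (hx : x ∈ (A.e i).source) :
    D.ofSub H ((D.sub H).pt (i, v) h (D.pt i v x)) = D.pt i (v.out * (h : G)) x := by
  have h1 : (D.sub H).pt (i, v) h (D.pt i v x) ∈ (D.sub H).sheet (i, v) h :=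
    (D.sub H).pt_mem_sheet (i := (i, v)) h (D.pt_mem_sheet v hx)
  have h2 := (D.mem_sub_sheet H).1 h1
  exact (D.pt_of_mem h2).symm

theorem toSub_pt {i : A.ι} (v : G ⧸ H) (h : H) {x : M} (hx : x ∈ (A.e i).source) :
    D.toSub H (D.pt i (v.out * (h : G)) x) = (D.sub H).pt (i, v) h (D.pt i v x) := by
  rw [← D.ofSub_pt H v h hx, toSub_ofSub]

section Families

variable {V : Type*} [AddCommGroup V] [Module ℂ V]

/-- reading of a family of `D.cov G` in the atlas of `(D.sub H).cov H` -/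
def rdS (t : (D.atl G).ι → D.cov G → V) : ((D.sub H).atl H).ι → (D.sub H).cov H → V :=
  fun p e => t (p.1.1, p.1.2.out * ((p.2 : H) : G)) (D.ofSub H e)

/-- inverse reading -/
def wrS (t : ((D.sub H).atl H).ι → (D.sub H).cov H → V) : (D.atl G).ι → D.cov G → V :=
  fun p e => t ((p.1, ((p.2 : G) : G ⧸ H)), ⟨((p.2 : G) : G ⧸ H).out⁻¹ * p.2, by
    rw [← QuotientGroup.eq, QuotientGroup.out_eq']⟩) (D.toSub H e)

theorem wrS_rdS (t : (D.atl G).ι → D.cov G → V) : D.wrS H (D.rdS H t) = t := by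
  funext p e
  change t (p.1, ((p.2 : G) : G ⧸ H).out * (((p.2 : G) : G ⧸ H).out⁻¹ * p.2))
    (D.ofSub H (D.toSub H e)) = t p e
  rw [mul_inv_cancel_left, ofSub_toSub]
  rfl

theorem rdS_wrS (t : ((D.sub H).atl H).ι → (D.sub H).cov H → V) : D.rdS H (D.wrS H t) = t := by
  funext p e
  obtain ⟨⟨i, v⟩, h⟩ := p
  change t ((i, ((v.out * (h : G) : G) : G ⧸ H)),
    ⟨((v.out * (h : G) : G) : G ⧸ H).out⁻¹ * (v.out * (h : G)), _⟩) (D.toSub H (D.ofSub H e)) = _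
  have h1 := mk_out_mul_coe H v h
  have h2 : (⟨((v.out * (h : G) : G) : G ⧸ H).out⁻¹ * (v.out * (h : G)), by
      rw [← QuotientGroup.eq, QuotientGroup.out_eq']⟩ : H) = h := by
    ext
    simp only
    rw [h1, inv_mul_cancel_left]
  rw [toSub_ofSub, h2, h1]

/-- `χ`-equivariance under `H` -/
def EqvS (χ : H →* Circle) (t : (D.atl G).ι → D.cov G → V) : Prop :=
  ∀ (γ : H) (p : A.ι × G), ∀ e ∈ D.sheet p.1 p.2,
    t (p.1, p.2 * (γ : G)⁻¹) ((γ : G) • e) = ((χ γ : Circle) : ℂ) • t p e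

theorem eqv_rdS {χ : H →* Circle} {t : (D.atl G).ι → D.cov G → V} (ht : D.EqvS H χ t) :
    (D.sub H).Eqv χ (D.rdS H t) := by
  intro γ p e he
  obtain ⟨⟨i, v⟩, h⟩ := p
  have h1 := ht γ (i, v.out * (h : G)) (D.ofSub H e) ((D.mem_sub_sheet H).1 he)
  change t (i, v.out * ((h * γ⁻¹ : H) : G)) (D.ofSub H (γ • e)) = _
  rw [D.ofSub_deck H γ e, Subgroup.coe_mul, Subgroup.coe_inv, ← mul_assoc]
  exact h1

theorem eqvS_wrS {χ : H →* Circle} {t : ((D.sub H).atl H).ι → (D.sub H).cov H → V}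
    (ht : (D.sub H).Eqv χ t) : D.EqvS H χ (D.wrS H t) := by
  intro γ p e he
  have h0 : D.ofSub H (D.toSub H e) ∈ D.sheet p.1 (((p.2 : G) : G ⧸ H).out *
      (((p.2 : G) : G ⧸ H).out⁻¹ * p.2)) := by
    rw [ofSub_toSub, mul_inv_cancel_left]; exact he
  have hη : ((p.2 : G) : G ⧸ H).out⁻¹ * p.2 ∈ H := by
    rw [← QuotientGroup.eq, QuotientGroup.out_eq']
  have h1 := ht γ ((p.1, ((p.2 : G) : G ⧸ H)), ⟨_, hη⟩) (D.toSub H e)
    ((D.mem_sub_sheet H (h := ⟨_, hη⟩)).2 h0)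
  have h2 : ((p.2 * (γ : G)⁻¹ : G) : G ⧸ H) = ((p.2 : G) : G ⧸ H) := by
    rw [eq_comm, QuotientGroup.eq, inv_mul_cancel_left]
    exact H.inv_mem γ.2
  change t ((p.1, ((p.2 * (γ : G)⁻¹ : G) : G ⧸ H)),
    ⟨((p.2 * (γ : G)⁻¹ : G) : G ⧸ H).out⁻¹ * (p.2 * (γ : G)⁻¹), _⟩)
      (D.toSub H ((γ : G) • e)) = _
  rw [D.toSub_deck H γ e]
  have h3 : ∀ h' : ((p.2 * (γ : G)⁻¹ : G) : G ⧸ H).out⁻¹ * (p.2 * (γ : G)⁻¹) ∈ H,
      (⟨_, h'⟩ : H) = ⟨_, hη⟩ * γ⁻¹ := by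
    intro h'
    ext
    simp only [Subgroup.coe_mul, Subgroup.coe_inv]
    rw [h2, mul_assoc]
  rw [h3, h2]
  exact h1

/-- descent of a family to `D.cov (G ⧸ H)` -/
def dnS (t : (D.atl G).ι → D.cov G → V) : (D.atl (G ⧸ H)).ι → D.cov (G ⧸ H) → V :=
  (D.sub H).dn (D.rdS H t)

/-- pull-back of a family from `D.cov (G ⧸ H)`, twisted by the character -/
def upS (χ : H →* Circle) (s : (D.atl (G ⧸ H)).ι → D.cov (G ⧸ H) → V) :
    (D.atl G).ι → D.cov G → V := D.wrS H ((D.sub H).up χ s)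

theorem dnS_apply (t : (D.atl G).ι → D.cov G → V) {p : A.ι × (G ⧸ H)} {e : D.cov (G ⧸ H)}
    (he : e ∈ D.sheet p.1 p.2) :
    D.dnS H t p e = t (p.1, p.2.out) (D.pt p.1 p.2.out (D.pr e)) := by
  have h0 : e = D.pt p.1 p.2 (D.pr e) := (D.pt_of_mem he).symm
  unfold dnS
  rw [(D.sub H).dn_apply _ (i := p) he]
  change t (p.1, p.2.out * ((1 : H) : G)) (D.ofSub H ((D.sub H).pt p 1 e)) = _
  have h1 := D.ofSub_pt H (i := p.1) p.2 1 he.1
  rw [← h0] at h1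
  change t (p.1, p.2.out * ((1 : H) : G)) (D.ofSub H ((D.sub H).pt (p.1, p.2) 1 e)) = _
  rw [h1, Subgroup.coe_one, mul_one]

theorem dnS_off (t : (D.atl G).ι → D.cov G → V) {p : A.ι × (G ⧸ H)} {e : D.cov (G ⧸ H)}
    (he : e ∉ D.sheet p.1 p.2) : D.dnS H t p e = 0 := (D.sub H).dn_off _ he

theorem eqvS_upS (χ : H →* Circle) (s : (D.atl (G ⧸ H)).ι → D.cov (G ⧸ H) → V) :
    D.EqvS H χ (D.upS H χ s) := D.eqvS_wrS H ((D.sub H).eqv_up χ s)

theorem dnS_upS (χ : H →* Circle) {s : (D.atl (G ⧸ H)).ι → D.cov (G ⧸ H) → V}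
    (hs : ∀ p : A.ι × (G ⧸ H), ∀ e ∉ D.sheet p.1 p.2, s p e = 0) :
    D.dnS H (D.upS H χ s) = s := by
  unfold dnS upS
  rw [rdS_wrS]
  exact (D.sub H).dn_up χ hs

theorem upS_dnS {χ : H →* Circle} {t : (D.atl G).ι → D.cov G → V} (ht : D.EqvS H χ t)
    (h0 : ∀ p : A.ι × G, ∀ e ∉ D.sheet p.1 p.2, t p e = 0) :
    D.upS H χ (D.dnS H t) = t := by
  unfold dnS upS
  rw [(D.sub H).up_dn (D.eqv_rdS H ht), wrS_rdS]
  intro p e he
  obtain ⟨⟨i, v⟩, h⟩ := p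
  exact h0 _ _ fun h' => he ((D.mem_sub_sheet H).2 h')

/-- a family on `D.cov G` whose law is pulled back has a pulled back law when read on
`(D.sub H).cov H` -/
theorem rdS_off {t : (D.atl G).ι → D.cov G → V}
    (h0 : ∀ p : A.ι × G, ∀ e ∉ D.sheet p.1 p.2, t p e = 0)
    (p : (A.ι × (G ⧸ H)) × H) (e : (D.sub H).cov H) (he : e ∉ (D.sub H).sheet p.1 p.2) :
    D.rdS H t p e = 0 := by
  obtain ⟨⟨i, v⟩, h⟩ := p
  exact h0 _ _ fun h' => he ((D.mem_sub_sheet H).2 h')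

end Families

/-! ### holomorphic sections -/

theorem holAt_rdS {p : (A.ι × (G ⧸ H)) × H} {f : D.cov G → ℂ}
    (hf : HolAt (D.atl G) (p.1.1, p.1.2.out * ((p.2 : H) : G)) univ f) :
    HolAt ((D.sub H).atl H) p univ (fun e => f (D.ofSub H e)) := by
  refine DifferentiableOn.congr hf fun z hz => ?_
  obtain ⟨⟨i, v⟩, h⟩ := p
  have hz' : z ∈ (A.e i).target := hz.1
  change f (D.ofSub H ((D.sub H).pt (i, v) h (D.pt i v ((A.e i).symm z)))) =
    f (D.pt i (v.out * (h : G)) ((A.e i).symm z))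
  rw [D.ofSub_pt H v h ((A.e i).map_target hz')]

theorem holAt_wrS {p : A.ι × G} {f : (D.sub H).cov H → ℂ} {h : H}
    (hp : p.2 = ((p.2 : G) : G ⧸ H).out * (h : G))
    (hf : HolAt ((D.sub H).atl H) ((p.1, ((p.2 : G) : G ⧸ H)), h) univ f) :
    HolAt (D.atl G) p univ (fun e => f (D.toSub H e)) := by
  refine DifferentiableOn.congr hf fun z hz => ?_
  obtain ⟨i, g⟩ := p
  have hz' : z ∈ (A.e i).target := hz.1
  simp only at hp
  change f (D.toSub H (D.pt i g ((A.e i).symm z))) =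
    f ((D.sub H).pt (i, ((g : G) : G ⧸ H)) h (D.pt i (g : G ⧸ H) ((A.e i).symm z)))
  rw [← D.toSub_pt H _ h ((A.e i).map_target hz'), ← hp]

theorem isHS_rdS {L : LB A} {t : (D.atl G).ι → D.cov G → ℂ}
    (ht : IsHS (D.pullLB G L) univ t) :
    IsHS ((D.sub H).pullLB H (D.pullLB (G ⧸ H) L)) univ (D.rdS H t) where
  hol p := D.holAt_rdS H (ht.hol (p.1.1, p.1.2.out * ((p.2 : H) : G)))
  off p e he := D.rdS_off H ht.off p e he
  tr p q e he _ := by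
    rw [(D.sub H).pullLB_g _ he, D.pullLB_g _ ⟨he.1.1, he.2.1⟩]
    have h1 := (D.mem_sub_sheet H (i := p.1.1) (v := p.1.2) (h := p.2)).1 he.1
    have h2 := (D.mem_sub_sheet H (i := q.1.1) (v := q.1.2) (h := q.2)).1 he.2
    have h3 := ht.tr (p.1.1, p.1.2.out * ((p.2 : H) : G)) (q.1.1, q.1.2.out * ((q.2 : H) : G))
      (D.ofSub H e) ⟨h1, h2⟩ (mem_univ _)
    rw [D.pullLB_g (p := (p.1.1, p.1.2.out * ((p.2 : H) : G)))
      (q := (q.1.1, q.1.2.out * ((q.2 : H) : G))) _ ⟨h1, h2⟩] at h3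
    exact h3

/-- **descent of an `H`-equivariant section** to the covering `D.cov (G ⧸ H)` -/
theorem isHS_dnS {L : LB A} {χ : H →* Circle} {t : (D.atl G).ι → D.cov G → ℂ}
    (ht : IsHS (D.pullLB G L) univ t) (he : D.EqvS H χ t) :
    IsHS (D.pullLB (G ⧸ H) L * (D.sub H).fl χ) univ (D.dnS H t) :=
  (D.sub H).isHS_dn (D.isHS_rdS H ht) (D.eqv_rdS H he)

theorem mem_sheet_wr (p : A.ι × G) {e : D.cov G} (he : e ∈ D.sheet p.1 p.2) {h : H}
    (hp : p.2 = ((p.2 : G) : G ⧸ H).out * (h : G)) :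
    D.toSub H e ∈ (D.sub H).sheet (p.1, ((p.2 : G) : G ⧸ H)) h := by
  rw [mem_sub_sheet, ofSub_toSub, ← hp]
  exact he

/-- pull-back of a section of `D.cov (G ⧸ H)` to an equivariant section of `D.cov G` -/
theorem isHS_upS {L : LB A} (χ : H →* Circle) {s : (D.atl (G ⧸ H)).ι → D.cov (G ⧸ H) → ℂ}
    (hs : IsHS (D.pullLB (G ⧸ H) L * (D.sub H).fl χ) univ s) :
    IsHS (D.pullLB G L) univ (D.upS H χ s) := by
  have h1 := (D.sub H).isHS_up χ hs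
  have hh : ∀ g : G, ((g : G) : G ⧸ H).out⁻¹ * g ∈ H := fun g => by
    rw [← QuotientGroup.eq, QuotientGroup.out_eq']
  have hp : ∀ g : G, g = ((g : G) : G ⧸ H).out * ((⟨_, hh g⟩ : H) : G) := fun g => by
    rw [mul_inv_cancel_left]
  refine ⟨fun p => ?_, fun p e he => ?_, fun p q e he _ => ?_⟩
  · exact D.holAt_wrS H (hp p.2) (h1.hol ((p.1, ((p.2 : G) : G ⧸ H)), ⟨_, hh p.2⟩))
  · refine h1.off ((p.1, ((p.2 : G) : G ⧸ H)), ⟨_, hh p.2⟩) (D.toSub H e) fun h' => he ?_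
    have h2 := (D.mem_sub_sheet H).1 h'
    rw [ofSub_toSub, ← hp] at h2
    exact h2
  · have h2 := D.mem_sheet_wr H p he.1 (hp p.2)
    have h3 := D.mem_sheet_wr H q he.2 (hp q.2)
    have h4 := h1.tr ((p.1, ((p.2 : G) : G ⧸ H)), ⟨_, hh p.2⟩)
      ((q.1, ((q.2 : G) : G ⧸ H)), ⟨_, hh q.2⟩) (D.toSub H e) ⟨h2, h3⟩ (mem_univ _)
    have h5 := (D.sub H).pullLB_g (F := H) (D.pullLB (G ⧸ H) L)
      (p := ((p.1, ((p.2 : G) : G ⧸ H)), ⟨_, hh p.2⟩))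
      (q := ((q.1, ((q.2 : G) : G ⧸ H)), ⟨_, hh q.2⟩)) ⟨h2, h3⟩
    have h6 := D.pullLB_g (F := G ⧸ H) L (p := (p.1, ((p.2 : G) : G ⧸ H)))
      (q := (q.1, ((q.2 : G) : G ⧸ H))) (e := D.qm H e) ⟨h2.1, h3.1⟩
    refine h4.trans ?_
    rw [D.pullLB_g _ he]
    refine congrArg₂ _ (h5.trans h6) rfl

/-! ### polyvectors -/

theorem mem_PV_rdS {N : LB A} {q : ℕ} {t : (D.atl G).ι → D.cov G → FI n → ℂ}
    (ht : t ∈ PV (D.pullLB G N) q) :
    D.rdS H t ∈ PV ((D.sub H).pullLB H (D.pullLB (G ⧸ H) N)) q := by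
  obtain ⟨h1, h2, h3, h4⟩ := ht
  refine ⟨fun p T => D.holAt_rdS H (h1 (p.1.1, p.1.2.out * ((p.2 : H) : G)) T),
    fun p e he => D.rdS_off H h2 p e he, fun p e T hT => h3 _ _ T hT, fun p q e he => ?_⟩
  rw [(D.sub H).pullLB_g _ he, D.pullLB_g _ ⟨he.1.1, he.2.1⟩]
  have k1 := (D.mem_sub_sheet H (i := p.1.1) (v := p.1.2) (h := p.2)).1 he.1
  have k2 := (D.mem_sub_sheet H (i := q.1.1) (v := q.1.2) (h := q.2)).1 he.2
  have k3 := h4 (p.1.1, p.1.2.out * ((p.2 : H) : G)) (q.1.1, q.1.2.out * ((q.2 : H) : G))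
      (D.ofSub H e) ⟨k1, k2⟩
  rw [D.pullLB_g (p := (p.1.1, p.1.2.out * ((p.2 : H) : G)))
      (q := (q.1.1, q.1.2.out * ((q.2 : H) : G))) _ ⟨k1, k2⟩] at k3
  exact k3

theorem mem_NulS_rdS {L' : LB A} {h : HM L'} {t : (D.atl G).ι → D.cov G → FI n → ℂ}
    (ht : t ∈ NulS (D.pullHM (F := G) h)) :
    D.rdS H t ∈ NulS ((D.sub H).pullHM (F := H) (D.pullHM (F := G ⧸ H) h)) := by
  intro p e he
  have k1 := (D.mem_sub_sheet H (i := p.1.1) (v := p.1.2) (h := p.2)).1 he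
  exact ht (p.1.1, p.1.2.out * ((p.2 : H) : G)) (D.ofSub H e) k1

/-- descent of `H`-equivariant null polyvectors -/
theorem mem_NV_dnS {N L' : LB A} {h : HM L'} {q : ℕ} {χ : H →* Circle}
    {t : (D.atl G).ι → D.cov G → FI n → ℂ}
    (ht : t ∈ NV (D.pullLB G N) (D.pullHM (F := G) h) q) (he : D.EqvS H χ t) :
    D.dnS H t ∈ NV (D.pullLB (G ⧸ H) N * (D.sub H).fl χ) (D.pullHM (F := G ⧸ H) h) q :=
  (D.sub H).mem_NV_dn ⟨D.mem_PV_rdS H ht.1, D.mem_NulS_rdS H ht.2⟩ (D.eqv_rdS H he)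

theorem dnS_ne_zero {V : Type*} [AddCommGroup V] [Module ℂ V] {χ : H →* Circle}
    {t : (D.atl G).ι → D.cov G → V} (he : D.EqvS H χ t)
    (h0 : ∀ p : A.ι × G, ∀ e ∉ D.sheet p.1 p.2, t p e = 0) (hne : t ≠ 0) : D.dnS H t ≠ 0 := by
  intro h
  apply hne
  have h1 := D.upS_dnS H he h0
  rw [h] at h1
  rw [← h1]
  funext p e
  change (D.sub H).up χ (0 : (D.atl (G ⧸ H)).ι → D.cov (G ⧸ H) → V) _ _ = _
  unfold MonD.up
  simp only [Pi.zero_apply, smul_zero, ite_self]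

/-- **sections of `L ⊗ fl χ` on the covering `D.cov (G ⧸ H)`** -/
theorem hasSec_flS_iff {L : LB A} (χ : H →* Circle) :
    HasSec (D.pullLB (G ⧸ H) L * (D.sub H).fl χ) ↔
    ∃ t, IsHS (D.pullLB G L) univ t ∧ D.EqvS H χ t ∧ ∃ p : A.ι × G, ∃ e ∈ D.sheet p.1 p.2,
      t p e ≠ 0 := by
  constructor
  · rintro ⟨s, hs, p, e, he, h0⟩
    have hp : p.2.out = (((p.2.out : G) : G ⧸ H)).out * ((1 : H) : G) := by
      rw [QuotientGroup.out_eq', Subgroup.coe_one, mul_one]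
    have hd := D.dnS_upS H χ (s := s) hs.off
    refine ⟨D.upS H χ s, D.isHS_upS H χ hs, D.eqvS_upS H χ s, (p.1, p.2.out),
      D.pt p.1 p.2.out (D.pr e), D.pt_mem_sheet _ he.1, ?_⟩
    rw [← D.dnS_apply H (D.upS H χ s) he, hd]
    exact h0
  · rintro ⟨t, ht, he, p, e, hp, h0⟩
    refine ⟨D.dnS H t, D.isHS_dnS H ht he, ?_⟩
    by_contra hcon
    push Not at hcon
    have h1 : D.dnS H t = 0 := by
      funext q e'
      by_cases hq : e' ∈ D.sheet q.1 q.2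
      · exact hcon q e' hq
      · exact D.dnS_off H t hq
    refine D.dnS_ne_zero H he ht.off ?_ h1
    intro h2
    exact h0 (by rw [h2]; rfl)

end MonD

end

end Crest.Agent.R273.UCov_914
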