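import Crest.Agent.R273.AlbA_645
import Crest.Agent.R273.Kah_333

/-!
# R273 (S0416), leaf FLATSEC (helper534)

`exists_re`    : a pluriharmonic function on an open convex subset of `ℂⁿ` is the real part of a
                 holomorphic function;
`MonD.triv`    : a locally constant cocycle on a simply connected manifold is a coboundary;
`flatSec`      : `h : HM L` with curvature zero on a simply connected manifold: there is a
                 holomorphic section of constant length one;
`flatSec_unique`.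
-/

set_option autoImplicit false
set_option linter.unusedSectionVars false

open Set Metric Filter Topology Complex Function
open scoped ContDiff ComplexConjugate

namespace Crest.Agent.R273.FlatSec_534

open Crest.Agent.R275.Geo Crest.Agent.R275.Core144 Crest.Agent.R275.GC293
open Crest.Agent.R275.ZC352 Crest.Agent.R273.UCov_914 Crest.Agent.R273.Defs_333
open Crest.Agent.R273.HM_333 Crest.Agent.R273.Hess_333 Crest.Agent.R273.Kah_333

noncomputable section

section Local

variable {n : ℕ}

theorem two_le_inf : (1 : WithTop ℕ∞) + 1 ≤ ∞ := by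
  rw [one_add_one_eq_two]
  exact WithTop.coe_le_coe.2 (le_top (a := (2 : ℕ∞)))

/-- a pluriharmonic function on a convex open set is the real part of a holomorphic function -/
theorem exists_re {U : Set (Cn n)} (hU : IsOpen U) (hc : Convex ℝ U) {u : Cn n → ℝ}
    (hu : ContDiffOn ℝ ∞ u U) (h : ∀ z ∈ U, ∀ v, lev u z v = 0) :
    ∃ F : Cn n → ℂ, DifferentiableOn ℂ F U ∧ ∀ z ∈ U, (F z).re = u z := by
  classical
  rcases U.eq_empty_or_nonempty with rfl | ⟨z0, hz0⟩
  · exact ⟨fun _ => 0, differentiableOn_empty, fun z hz => absurd hz (notMem_empty z)⟩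
  set L : StrongDual ℝ (Cn n) →L[ℝ] StrongDual ℂ (Cn n) :=
    ((StrongDual.extendRCLikeₗᵢ (𝕜 := ℂ) (F := Cn n)).toContinuousLinearEquiv :
      StrongDual ℝ (Cn n) →L[ℝ] StrongDual ℂ (Cn n)) with hL
  have hLa : ∀ (f : StrongDual ℝ (Cn n)) (x : Cn n), L f x = (f x : ℂ) - I * (f (I • x) : ℂ) := by
    intro f x
    exact StrongDual.extendRCLike_apply (𝕜 := ℂ) f x
  have hd2 : ∀ z ∈ U, DifferentiableAt ℝ (fderiv ℝ u) z := by
    intro z hz
    have h1 : ContDiffAt ℝ ∞ u z := hu.contDiffAt (hU.mem_nhds hz)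
    exact (h1.fderiv_right (m := 1) two_le_inf).differentiableAt (by norm_num)
  have hder : ∀ z ∈ U, HasFDerivAt (fun z => L (fderiv ℝ u z))
      (L.comp (fderiv ℝ (fderiv ℝ u) z)) z := fun z hz =>
    (L.hasFDerivAt).comp z (hd2 z hz).hasFDerivAt
  have hsymm : ∀ z ∈ U, ∀ v w, fderiv ℝ (fderiv ℝ u) z v w = fderiv ℝ (fderiv ℝ u) z w v := by
    intro z hz v w
    have h1 : ContDiffAt ℝ ∞ u z := hu.contDiffAt (hU.mem_nhds hz)
    exact (h1.isSymmSndFDerivAt (by simpa [one_add_one_eq_two] using two_le_inf)).eq v w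
  have hq : ∀ z ∈ U, ∀ v, fderiv ℝ (fderiv ℝ u) z v v +
      fderiv ℝ (fderiv ℝ u) z (I • v) (I • v) = 0 := by
    intro z hz v
    have h1 := h z hz v
    rw [lev, iteratedFDeriv_two_apply, iteratedFDeriv_two_apply] at h1
    simpa using h1
  have hpol : ∀ z ∈ U, ∀ v w, fderiv ℝ (fderiv ℝ u) z v w +
      fderiv ℝ (fderiv ℝ u) z (I • v) (I • w) = 0 := by
    intro z hz v w
    have h1 := hq z hz (v + w)
    have h2 := hq z hz v
    have h3 := hq z hz w
    have h4 := hsymm z hz v w
    have h5 := hsymm z hz (I • v) (I • w)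
    simp only [smul_add, map_add, add_apply] at h1
    linarith
  have hdL : DifferentiableOn ℝ (fun z => L (fderiv ℝ u z)) U := fun z hz =>
    (hder z hz).differentiableAt.differentiableWithinAt
  obtain ⟨F, hF⟩ := hc.exists_forall_hasFDerivAt_of_fderiv_symmetric (𝕜 := ℂ) hU hdL (by
      intro z hz v w
      rw [(hder z hz).fderiv]
      change L (fderiv ℝ (fderiv ℝ u) z v) w = L (fderiv ℝ (fderiv ℝ u) z w) v
      rw [hLa, hLa, hsymm z hz v w]
      have h1 := hpol z hz v (I • w)
      have h2 := hsymm z hz w (I • v)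
      have h3 : (I • (I • w) : Cn n) = -w := by
        rw [smul_smul, I_mul_I, neg_one_smul]
      rw [h3, map_neg] at h1
      have h4 : fderiv ℝ (fderiv ℝ u) z v (I • w) = fderiv ℝ (fderiv ℝ u) z w (I • v) := by
        have h5 := hsymm z hz (I • v) w
        linarith
      rw [h4])
  have hFd : DifferentiableOn ℂ F U := fun z hz =>
    (hF z hz).differentiableAt.differentiableWithinAt
  -- the real part
  have hre : ∀ z ∈ U, HasFDerivAt (fun z => (F z).re - u z) (0 : Cn n →L[ℝ] ℝ) z := by
    intro z hz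
    have h1 : HasFDerivAt (fun z => (F z).re)
        (Complex.reCLM.comp ((L (fderiv ℝ u z)).restrictScalars ℝ)) z :=
      (Complex.reCLM.hasFDerivAt).comp z ((hF z hz).restrictScalars ℝ)
    have h2 : HasFDerivAt u (fderiv ℝ u z) z :=
      ((hu.contDiffAt (hU.mem_nhds hz)).differentiableAt (by simp)).hasFDerivAt
    have h3 : HasFDerivAt (fun z => (F z).re - u z)
        (Complex.reCLM.comp ((L (fderiv ℝ u z)).restrictScalars ℝ) - fderiv ℝ u z) z := h1.sub h2
    have h4 : Complex.reCLM.comp ((L (fderiv ℝ u z)).restrictScalars ℝ) - fderiv ℝ u z = 0 := by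
      ext v
      simp only [zero_apply, sub_apply, ContinuousLinearMap.comp_apply,
        ContinuousLinearMap.coe_restrictScalars', hLa, reCLM_apply]
      simp
    rwa [h4] at h3
  have hconst : ∀ z ∈ U, (F z).re - u z = (F z0).re - u z0 := by
    intro z hz
    refine hc.is_const_of_fderivWithin_eq_zero (𝕜 := ℝ)
      (f := fun z => (F z).re - u z) (fun w hw => (hre w hw).differentiableAt.differentiableWithinAt)
      (fun w hw => ?_) hz hz0
    rw [fderivWithin_of_isOpen hU hw]
    exact (hre w hw).fderiv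
  refine ⟨fun z => F z - (((F z0).re - u z0 : ℝ) : ℂ), hFd.sub_const _, fun z hz => ?_⟩
  rw [sub_re, ofReal_re, ← hconst z hz]
  ring

end Local

variable {n : ℕ} {M : Type} [TopologicalSpace M] {A : Atl n M}

/-- a locally constant cocycle on a simply connected manifold is a coboundary -/
theorem triv [SimplyConnectedSpace M] {G : Type} [Group G] (D : MonD A G) :
    ∃ t : A.ι → M → G,
      (∀ i j, ∀ x ∈ (A.e i).source ∩ (A.e j).source, t j x = D.c i j x * t i x) ∧
      ∀ i, ∀ x ∈ (A.e i).source, ∀ᶠ y in 𝓝 x, t i y = t i x := by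
  have := Crest.Agent.R273.Alb645.locPath A
  obtain ⟨x0⟩ := (inferInstance : Nonempty M)
  obtain ⟨i0, hi0⟩ := A.cover x0
  obtain ⟨s, ⟨-, hs1⟩, -⟩ := (D.isCoveringMap (F := G)).existsUnique_continuousMap_lifts
    (ContinuousMap.id M) x0 (D.pt i0 1 x0) rfl
  have hpr : ∀ x, D.pr (s x) = x := fun x => congrFun hs1 x
  refine ⟨fun i x => D.co i (s x), ?_, ?_⟩
  · intro i j x hx
    have h1 := D.co_eq (i := i) (j := j) (e := s x) (by rw [hpr]; exact hx.1)
      (by rw [hpr]; exact hx.2)
    rw [hpr] at h1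
    exact h1
  · intro i x hx
    have h1 : ContinuousAt (fun e : D.cov G => toD (D.co i e)) (s x) := by
      refine (D.continuousOn_co i).continuousAt ?_
      refine ((A.e i).open_source.preimage D.continuous_pr).mem_nhds ?_
      rw [mem_preimage, hpr]; exact hx
    have h2 : ContinuousAt (fun y => toD (D.co i (s y))) x :=
      ContinuousAt.comp (f := s) (g := fun e : D.cov G => toD (D.co i e)) h1
        s.continuous.continuousAt
    exact h2.eventually (eventually_eq_disc _)

theorem lev_zero {L : LB A} {h : HM L} (hc : ∀ i, ∀ x ∈ (A.e i).source, cur h i x = 0) (i : A.ι)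
    {z : Cn n} (hz : z ∈ (A.e i).target) (v : Cn n) : lev (h.wt i) z v = 0 := by
  have h1 := lev_eq (wt_contDiffAt h i hz) v
  have h2 := hc i _ ((A.e i).map_target hz)
  rw [cur_read h i hz] at h2
  have h3 : hq (h.wt i) z v = 0 := by
    rw [hq]
    refine Finset.sum_eq_zero fun a _ => Finset.sum_eq_zero fun b _ => ?_
    rw [h2, Matrix.zero_apply, zero_mul, zero_mul]
  rw [h3, mul_zero] at h1
  exact_mod_cast h1

/-- a holomorphic function of constant modulus on a connected open set is constant -/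
theorem const_of_norm {U : Set (Cn n)} (hU : IsOpen U) (hc : IsPreconnected U) {q : Cn n → ℂ}
    (hq : DifferentiableOn ℂ q U) (h1 : ∀ z ∈ U, ‖q z‖ = 1) {z w : Cn n} (hz : z ∈ U)
    (hw : w ∈ U) : q z = q w := by
  have h2 : IsMaxOn (norm ∘ q) U w := by
    intro y hy
    simp only [mem_ofPred_eq, Function.comp]
    rw [h1 y hy, h1 w hw]
  exact Complex.eqOn_of_isPreconnected_of_isMaxOn_norm hc hU hq hw h2 hz

/-- unitary holomorphic frames in the charts -/
theorem exists_frame (hA : GoodA A) {L : LB A} (h : HM L)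
    (hc : ∀ i, ∀ x ∈ (A.e i).source, cur h i x = 0) :
    ∃ f : A.ι → M → ℂ, (∀ i, HolAt A i univ (f i)) ∧ (∀ i x, f i x ≠ 0) ∧
      ∀ i, ∀ x ∈ (A.e i).source, h.w i x * ‖f i x‖ ^ 2 = 1 := by
  have hcv : ∀ i, Convex ℝ (A.e i).target := by
    intro i
    have h1 := hA i i
    have h2 : A.ov i i = (A.e i).target := by
      ext z
      exact ⟨fun h => h.1, fun h => ⟨h, (A.e i).map_target h⟩⟩
    rwa [h2] at h1
  choose F hF hre using fun i => exists_re (A.e i).open_target (hcv i) (wt_smooth h i)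
    (fun z hz v => lev_zero hc i hz v)
  refine ⟨fun i x => Complex.exp ((1 / 2 : ℂ) * F i (A.e i x)), fun i => ?_,
    fun i x => Complex.exp_ne_zero _, fun i x hx => ?_⟩
  · intro z hz
    have h1 : DifferentiableOn ℂ (fun z => Complex.exp ((1 / 2 : ℂ) * F i z)) (A.e i).target :=
      ((hF i).const_mul (1 / 2 : ℂ)).cexp
    refine ((h1 z hz.1).mono inter_subset_left).congr (fun w hw => ?_) ?_
    · simp only [(A.e i).right_inv hw.1]
    · simp only [(A.e i).right_inv hz.1]
  · have h1 := hre i _ ((A.e i).map_source hx)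
    have h2 := h.pos i x hx
    rw [Complex.norm_exp, ← Real.exp_nat_mul]
    have h3 : ((2 : ℕ) : ℝ) * ((1 / 2 : ℂ) * F i (A.e i x)).re = - Real.log (h.w i x) := by
      have h4 : ((1 / 2 : ℂ) * F i (A.e i x)).re = (1 / 2) * (F i (A.e i x)).re := by
        rw [show (1 / 2 : ℂ) = ((1 / 2 : ℝ) : ℂ) by norm_num, Complex.re_ofReal_mul]
      rw [h4, h1, HM.wt, (A.e i).left_inv hx]
      push_cast
      ring
    rw [h3, Real.exp_neg, Real.exp_log h2, mul_inv_cancel₀ h2.ne']

/-- unimodular complex number as an element of the circle -/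
def toC (z : ℂ) : Circle := Circle.exp (Complex.arg z)

theorem toC_val {z : ℂ} (h : ‖z‖ = 1) : (toC z : ℂ) = z := by
  rw [toC, Circle.coe_exp]
  have := Complex.norm_mul_exp_arg_mul_I z
  rwa [h, ofReal_one, one_mul] at this

open Classical in
/-- **FLATSEC** -/
theorem flatSec [SimplyConnectedSpace M] (hA : GoodA A) {L : LB A} (h : HM L)
    (hc : ∀ i, ∀ x ∈ (A.e i).source, cur h i x = 0) :
    ∃ s, IsHS L univ s ∧ ∀ i, ∀ x ∈ (A.e i).source, h.w i x * ‖s i x‖ ^ 2 = 1 := by
  obtain ⟨f, hf, hf0, hfw⟩ := exists_frame hA h hc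
  set q : A.ι → A.ι → M → ℂ := fun i j x => f i x / (L.g i j x * f j x) with hq
  have hq0 : ∀ i j x, q i j x ≠ 0 := fun i j x =>
    div_ne_zero (hf0 i x) (mul_ne_zero (L.ne_zero i j x) (hf0 j x))
  have hqn : ∀ i j, ∀ x ∈ (A.e i).source ∩ (A.e j).source, ‖q i j x‖ = 1 := by
    intro i j x hx
    have h1 := hfw i x hx.1
    have h2 := hfw j x hx.2
    have h3 := h.tr i j x hx
    have h4 := h.pos i x hx.1
    rw [h3] at h2
    have h5 : ‖f i x‖ ^ 2 = (‖L.g i j x‖ * ‖f j x‖) ^ 2 := by
      have h6 : h.w i x * ‖f i x‖ ^ 2 = h.w i x * (‖L.g i j x‖ * ‖f j x‖) ^ 2 := by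
        rw [h1, ← h2]; ring
      exact mul_left_cancel₀ h4.ne' h6
    have h6 : ‖f i x‖ = ‖L.g i j x‖ * ‖f j x‖ :=
      (sq_eq_sq₀ (norm_nonneg _) (mul_nonneg (norm_nonneg _) (norm_nonneg _))).1 h5
    have h7 : ‖L.g i j x‖ * ‖f j x‖ ≠ 0 :=
      mul_ne_zero (norm_ne_zero_iff.2 (L.ne_zero i j x)) (norm_ne_zero_iff.2 (hf0 j x))
    rw [hq]
    simp only [norm_div, norm_mul]
    rw [h6, div_self h7]
  have hqd : ∀ i j, DifferentiableOn ℂ (fun z => q i j ((A.e i).symm z)) (A.ov i j) := by
    intro i j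
    have h1 : HolAt A i (A.e j).source (f i) := (hf i).mono (subset_univ _)
    have h3 : HolAt A i (A.e j).source (f j) :=
      ((hf j).chg isOpen_univ i).mono fun x hx => ⟨mem_univ _, hx⟩
    have h4 : HolAt A i (A.e j).source (fun x => f i x * (L.g i j x * f j x)⁻¹) :=
      h1.mul (((L.hol i j).mul h3).inv fun x _ _ => mul_ne_zero (L.ne_zero i j _) (hf0 j _))
    exact h4
  set D : MonD A Circle :=
    { c := fun i j x => toC (q i j x)
      c_self := by
        intro i x hx
        apply Circle.ext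
        rw [toC_val (hqn i i x ⟨hx, hx⟩), Circle.coe_one]
        simp only [hq, L.self, one_mul]
        exact div_self (hf0 i x)
      c_mul := by
        intro i j k x hx
        apply Circle.ext
        rw [Circle.coe_mul, toC_val (hqn j k x ⟨hx.1.2, hx.2⟩), toC_val (hqn i j x hx.1),
          toC_val (hqn i k x ⟨hx.1.1, hx.2⟩)]
        have h1 := L.mul i j k x hx
        simp only [hq]
        rw [← h1]
        have e1 := hf0 i x
        have e2 := hf0 j x
        have e3 := hf0 k x
        have e4 := L.ne_zero i j x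
        have e5 := L.ne_zero j k x
        field_simp
      c_loc := by
        intro i j x hx y hy
        apply Circle.ext
        rw [toC_val (hqn i j x hx), toC_val (hqn i j y hy)]
        have h1 := const_of_norm (isOpen_ov i j) (hA i j).isPreconnected (hqd i j)
          (fun z hz => hqn i j _ ⟨(A.e i).map_target hz.1, hz.2⟩) (mem_ov hx) (mem_ov hy)
        simpa only [(A.e i).left_inv hx.1, (A.e i).left_inv hy.1] using h1 } with hD
  obtain ⟨t, ht, htl⟩ := triv D
  refine ⟨fun i x => if x ∈ (A.e i).source then (t i x : ℂ) * f i x else 0, ⟨fun i => ?_,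
    fun i x hx => if_neg hx, fun i j x hx _ => ?_⟩, fun i x hx => ?_⟩
  · intro z hz
    have h1 : DifferentiableAt ℂ (fun z => f i ((A.e i).symm z)) z := by
      refine (hf i).differentiableAt ?_
      rw [preimage_univ, inter_univ]
      exact (A.e i).open_target.mem_nhds hz.1
    have h2 := h1.const_mul (t i ((A.e i).symm z) : ℂ)
    refine (h2.congr_of_eventuallyEq ?_).differentiableWithinAt
    have h3 : ∀ᶠ w in 𝓝 z, t i ((A.e i).symm w) = t i ((A.e i).symm z) :=
      ((A.e i).continuousAt_symm hz.1).eventually (htl i _ ((A.e i).map_target hz.1))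
    filter_upwards [h3, (A.e i).open_target.mem_nhds hz.1] with w hw hw2
    rw [if_pos ((A.e i).map_target hw2), hw]
  · simp only [if_pos hx.1, if_pos hx.2]
    have h1 := ht i j x hx
    have h2 : (t j x : ℂ) = q i j x * t i x := by
      rw [h1, Circle.coe_mul, hD, toC_val (hqn i j x hx)]
    rw [h2, hq]
    have e2 := hf0 j x
    have e4 := L.ne_zero i j x
    field_simp
  · simp only [if_pos hx, norm_mul, Circle.norm_coe, one_mul]
    exact hfw i x hx

/-- the section of `flatSec` is unique up to a constant -/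
theorem flatSec_unique [PreconnectedSpace M] {L : LB A} (h : HM L) {s s' : A.ι → M → ℂ}
    (hs : IsHS L univ s) (hs' : IsHS L univ s')
    (h1 : ∀ i, ∀ x ∈ (A.e i).source, h.w i x * ‖s i x‖ ^ 2 = 1)
    (h2 : ∀ i, ∀ x ∈ (A.e i).source, h.w i x * ‖s' i x‖ ^ 2 = 1) :
    ∃ c : ℂ, ‖c‖ = 1 ∧ s' = c • s := by
  classical
  have hn : ∀ i, ∀ x ∈ (A.e i).source, s i x ≠ 0 := by
    intro i x hx h0
    have := h1 i x hx
    rw [h0, norm_zero] at this
    norm_num at this
  have hnn : ∀ i, ∀ x ∈ (A.e i).source, ‖s' i x / s i x‖ = 1 := by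
    intro i x hx
    have e1 := h1 i x hx
    have e2 := h2 i x hx
    have e3 := h.pos i x hx
    have e4 : ‖s' i x‖ ^ 2 = ‖s i x‖ ^ 2 := mul_left_cancel₀ e3.ne' (e2.trans e1.symm)
    have e5 : ‖s' i x‖ = ‖s i x‖ := (sq_eq_sq₀ (norm_nonneg _) (norm_nonneg _)).1 e4
    rw [norm_div, e5, div_self (norm_ne_zero_iff.2 (hn i x hx))]
  set r : M → ℂ := fun x => s' (A.cover x).choose x / s (A.cover x).choose x with hr
  have hri : ∀ i, ∀ x ∈ (A.e i).source, r x = s' i x / s i x := by
    intro i x hx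
    have hx' := (A.cover x).choose_spec
    rw [hr]
    simp only
    rw [hs.tr _ i x ⟨hx', hx⟩ (mem_univ _), hs'.tr _ i x ⟨hx', hx⟩ (mem_univ _),
      mul_div_mul_left _ _ (L.ne_zero _ _ _)]
  have hloc : IsLocallyConstant r := by
    rw [IsLocallyConstant.iff_eventually_eq]
    intro x
    obtain ⟨i, hi⟩ := A.cover x
    have hz := (A.e i).map_source hi
    obtain ⟨ρ, hρ, hb⟩ := Metric.isOpen_iff.1 (A.e i).open_target _ hz
    have hd : DifferentiableOn ℂ (fun z => r ((A.e i).symm z)) (ball (A.e i x) ρ) := by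
      have h3 : HolAt A i univ (fun x => s' i x * (s i x)⁻¹) :=
        (hs'.hol i).mul ((hs.hol i).inv fun x hx _ => hn i x hx)
      refine DifferentiableOn.congr (f := fun z => s' i ((A.e i).symm z) *
        (s i ((A.e i).symm z))⁻¹) (DifferentiableOn.mono h3 fun z hz => ?_) fun z hz => ?_
      · exact ⟨hb hz, trivial⟩
      · rw [hri i _ ((A.e i).map_target (hb hz)), div_eq_mul_inv]
    have h4 : ∀ z ∈ ball (A.e i x) ρ, ‖r ((A.e i).symm z)‖ = 1 := by
      intro z hz
      rw [hri i _ ((A.e i).map_target (hb hz))]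
      exact hnn i _ ((A.e i).map_target (hb hz))
    have h2 : ∀ᶠ y in 𝓝 x, A.e i y ∈ ball (A.e i x) ρ :=
      ((A.e i).continuousAt hi).eventually (ball_mem_nhds _ hρ)
    filter_upwards [h2, (A.e i).open_source.mem_nhds hi] with y hy hy'
    have h5 := const_of_norm isOpen_ball (convex_ball _ _).isPreconnected hd h4 hy
      (mem_ball_self hρ)
    simpa only [(A.e i).left_inv hy', (A.e i).left_inv hi] using h5
  rcases isEmpty_or_nonempty M with hM | ⟨⟨x0⟩⟩
  · exact ⟨1, norm_one, by funext i x; exact (hM.false x).elim⟩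
  refine ⟨r x0, ?_, ?_⟩
  · obtain ⟨i, hi⟩ := A.cover x0
    rw [hri i x0 hi]
    exact hnn i x0 hi
  · funext i x
    by_cases hx : x ∈ (A.e i).source
    · have h3 : r x = r x0 :=
        hloc.apply_eq_of_isPreconnected isPreconnected_univ (mem_univ x) (mem_univ x0)
      rw [hri i x hx] at h3
      simp only [Pi.smul_apply, smul_eq_mul]
      rw [← h3, div_mul_cancel₀ _ (hn i x hx)]
    · simp only [Pi.smul_apply, smul_eq_mul, hs.off i x hx, hs'.off i x hx, mul_zero]

/-- a line bundle with a flat metric on a simply connected manifold has a section -/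
theorem hasSec_of_flat [SimplyConnectedSpace M] (hA : GoodA A) {L : LB A} (h : HM L)
    (hc : ∀ i, ∀ x ∈ (A.e i).source, cur h i x = 0) : HasSec L := by
  obtain ⟨s, hs, h1⟩ := flatSec hA h hc
  obtain ⟨x0⟩ := (inferInstance : Nonempty M)
  obtain ⟨i, hi⟩ := A.cover x0
  refine ⟨s, hs, i, x0, hi, fun h0 => ?_⟩
  have := h1 i x0 hi
  rw [h0, norm_zero] at this
  norm_num at this

end

end Crest.Agent.R273.FlatSec_534
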