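import Crest.Agent.R273.HFlow3_376
import Crest.Agent.R273.UCovC_914
import Crest.Agent.R275.Mon_908

/-!
# R273 (S0416), Part B, leaf NOVF (helper534)

`novf` : on a compact complex manifold without nonzero holomorphic vector fields the identity is
isolated among the holomorphic self maps (topology of uniform convergence, filter form).
`finite_of_equicont` : hence a group of holomorphic automorphisms which is uniformly
equicontinuous acts through a finite group.
-/

set_option autoImplicit false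
set_option linter.unusedSectionVars false

open Set Metric Filter Topology Complex Function

namespace Crest.Agent.R273.NoVF_534

open Crest.Agent.R275.Geo Crest.Agent.R273.HFlow3_376

noncomputable section

variable {n : ℕ} {M : Type} [TopologicalSpace M] {A : Atl n M}

/-- chart changes are locally Lipschitz -/
theorem lip_chg {i j : A.ι} {x : M} (hi : x ∈ (A.e i).source) (hj : x ∈ (A.e j).source) :
    ∃ C : ℝ, 0 ≤ C ∧ ∃ V ∈ 𝓝 x, ∀ y ∈ V, ∀ y' ∈ V,
      ‖A.e j y - A.e j y'‖ ≤ C * ‖A.e i y - A.e i y'‖ := by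
  have hmem : A.e i x ∈ A.ov i j :=
    ⟨(A.e i).map_source hi, by rw [(A.e i).left_inv hi]; exact hj⟩
  have h1 : ContDiffAt ℂ 1 (fun z => A.e j ((A.e i).symm z)) (A.e i x) :=
    ((Crest.Agent.R266.SCV.contDiffOn_omega_of_differentiableOn (isOpen_ov A i j)
      (A.holo i j)).of_le le_top).contDiffAt ((isOpen_ov A i j).mem_nhds hmem)
  have h2 : ContDiffAt ℝ 1 (fun z => A.e j ((A.e i).symm z)) (A.e i x) := h1.restrict_scalars ℝ
  obtain ⟨C, t, ht, hL⟩ := h2.exists_lipschitzOnWith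
  refine ⟨C, C.2, (A.e i).source ∩ A.e i ⁻¹' t,
    inter_mem ((A.e i).open_source.mem_nhds hi) ((A.e i).continuousAt hi ht), ?_⟩
  intro y hy y' hy'
  have h3 := hL.dist_le_mul _ hy.2 _ hy'.2
  simp only [(A.e i).left_inv hy.1, (A.e i).left_inv hy'.1] at h3
  rwa [dist_eq_norm, dist_eq_norm] at h3

section Fam

variable {κ : Type*}

/-- the displacement in the chart `i` -/
def dsp (A : Atl n M) (φ : κ → M → M) (i : A.ι) (k : κ) (x : M) : Cn n :=
  A.e i (φ k x) - A.e i x

/-- `φ k → id` (locally) uniformly along the filter `l` -/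
def ToId (φ : κ → M → M) (l : Filter κ) : Prop :=
  ∀ x, Tendsto (fun p : κ × M => φ p.1 p.2) (l ×ˢ 𝓝 x) (𝓝 x)

variable {φ : κ → M → M} {l : Filter κ}

theorem ToId.mono {l' : Filter κ} (h : ToId φ l) (hl : l' ≤ l) : ToId φ l' :=
  fun x => (h x).mono_left (Filter.prod_mono hl le_rfl)

theorem ToId.nhds (h : ToId φ l) {x : M} {V : Set M} (hV : V ∈ 𝓝 x) :
    ∃ W ∈ 𝓝 x, ∀ᶠ k in l, ∀ y ∈ W, φ k y ∈ V := by
  have h1 := (h x).eventually (p := fun y => y ∈ V) hV
  rw [Filter.eventually_prod_iff] at h1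
  obtain ⟨pa, ha, pb, hb, hab⟩ := h1
  refine ⟨{y | pb y}, hb, ?_⟩
  filter_upwards [ha] with k hk y hy
  exact hab hk hy

theorem ToId.compact (h : ToId φ l) {K U : Set M} (hK : IsCompact K) (hU : IsOpen U)
    (hKU : K ⊆ U) : ∀ᶠ k in l, ∀ y ∈ K, φ k y ∈ U := by
  refine IsCompact.induction_on (p := fun S => ∀ᶠ k in l, ∀ y ∈ S, φ k y ∈ U) hK ?_ ?_ ?_ ?_
  · exact Eventually.of_forall fun k y hy => absurd hy (notMem_empty y)
  · intro s t hst ht
    filter_upwards [ht] with k hk y hy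
    exact hk y (hst hy)
  · intro s t hs ht
    filter_upwards [hs, ht] with k h1 h2 y hy
    exact hy.elim (h1 y) (h2 y)
  · intro x hx
    obtain ⟨W, hW, hW'⟩ := h.nhds (hU.mem_nhds (hKU hx))
    exact ⟨W, mem_nhdsWithin_of_mem_nhds hW, hW'⟩

/-- local bound by the displacements on a finite compact cover -/
theorem local_bound [T2Space M] [Finite A.ι] (h : ToId φ l) {K : A.ι → Set M}
    (hK : ∀ i, IsCompact (K i)) (hKs : ∀ i, K i ⊆ (A.e i).source) (hKu : ⋃ i, K i = univ)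
    {ε : κ → ℝ} (hε : ∀ᶠ k in l, ∀ a, ∀ x ∈ K a, ‖dsp A φ a k x‖ ≤ ε k)
    {i : A.ι} {x : M} (hx : x ∈ (A.e i).source) :
    ∃ C : ℝ, 0 ≤ C ∧ ∃ V ∈ 𝓝 x, ∀ᶠ k in l, ∀ y ∈ V, ‖dsp A φ i k y‖ ≤ C * ε k := by
  classical
  have key : ∀ a : A.ι, ∃ C : ℝ, 0 ≤ C ∧ ∃ V ∈ 𝓝 x, ∀ᶠ k in l, ∀ y ∈ V, y ∈ K a →
      ‖dsp A φ i k y‖ ≤ C * ‖dsp A φ a k y‖ := by
    intro a
    by_cases hxa : x ∈ K a
    · obtain ⟨C, hC, V, hV, hL⟩ := lip_chg (A := A) (hKs a hxa) hx
      obtain ⟨W, hW, hW'⟩ := h.nhds hV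
      refine ⟨C, hC, V ∩ W, inter_mem hV hW, ?_⟩
      filter_upwards [hW'] with k hk y hy _
      exact hL _ (hk y hy.2) _ hy.1
    · refine ⟨0, le_rfl, (K a)ᶜ, (hK a).isClosed.isOpen_compl.mem_nhds hxa, ?_⟩
      exact Eventually.of_forall fun k y hy hy' => absurd hy' hy
  choose C hC V hV hb using key
  have := Fintype.ofFinite A.ι
  refine ⟨∑ a, C a, Finset.sum_nonneg fun a _ => hC a, ⋂ a, V a, Filter.iInter_mem.2 hV, ?_⟩
  have hb' : ∀ᶠ k in l, ∀ a, ∀ y ∈ V a, y ∈ K a → ‖dsp A φ i k y‖ ≤ C a * ‖dsp A φ a k y‖ :=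
    Filter.eventually_all.2 hb
  filter_upwards [hb', hε] with k hk he y hy
  have hyu : y ∈ ⋃ i, K i := hKu ▸ mem_univ y
  obtain ⟨a, ha⟩ := mem_iUnion.1 hyu
  have h1 := hk a y (mem_iInter.1 hy a) ha
  have h2 := he a y ha
  have h3 : (0 : ℝ) ≤ ε k := (norm_nonneg _).trans h2
  calc ‖dsp A φ i k y‖ ≤ C a * ‖dsp A φ a k y‖ := h1
    _ ≤ C a * ε k := mul_le_mul_of_nonneg_left h2 (hC a)
    _ ≤ (∑ a, C a) * ε k :=
        mul_le_mul_of_nonneg_right
          (Finset.single_le_sum (f := C) (fun b _ => hC b) (Finset.mem_univ a)) h3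

end Fam

/-- bounded families in a proper space converge along ultrafilters -/
theorem exists_lim {κ : Type*} {E : Type*} [NormedAddCommGroup E] [ProperSpace E]
    (u : Ultrafilter κ) (a : κ → E) {C : ℝ} (h : ∀ᶠ i in (u : Filter κ), ‖a i‖ ≤ C) :
    Tendsto a u (𝓝 (limUnder (u : Filter κ) a)) := by
  have hle : (↑(u.map a) : Filter E) ≤ 𝓟 (closedBall (0 : E) C) := by
    rw [le_principal_iff, Ultrafilter.coe_map, mem_map]
    filter_upwards [h] with i hi
    simpa using hi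
  obtain ⟨b, -, hb⟩ := (isCompact_closedBall (0 : E) C).ultrafilter_le_nhds _ hle
  exact tendsto_nhds_limUnder ⟨b, hb⟩

section Main

variable {κ : Type*} {φ : κ → M → M} {u : Ultrafilter κ} {ε : κ → ℝ}

/-- the rescaled displacement -/
def rsc (A : Atl n M) (φ : κ → M → M) (ε : κ → ℝ) (i : A.ι) (k : κ) (x : M) : Cn n :=
  ((ε k)⁻¹ : ℂ) • dsp A φ i k x

/-- the limit field -/
def lf (A : Atl n M) (φ : κ → M → M) (ε : κ → ℝ) (u : Ultrafilter κ) (i : A.ι) (x : M) : Cn n :=
  limUnder (u : Filter κ) fun k => rsc A φ ε i k x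

/-- local boundedness (hypothesis package) -/
def LB' (A : Atl n M) (φ : κ → M → M) (ε : κ → ℝ) (u : Ultrafilter κ) : Prop :=
  ∀ i, ∀ x ∈ (A.e i).source, ∃ C : ℝ, 0 ≤ C ∧ ∃ V ∈ 𝓝 x, ∀ᶠ k in (u : Filter κ), ∀ y ∈ V,
    ‖dsp A φ i k y‖ ≤ C * ε k

theorem rsc_bound (hpos : ∀ᶠ k in (u : Filter κ), 0 < ε k) (hb : LB' A φ ε u) (i : A.ι) {x : M}
    (hx : x ∈ (A.e i).source) : ∃ C : ℝ, ∃ V ∈ 𝓝 x, ∀ᶠ k in (u : Filter κ), ∀ y ∈ V,
      ‖rsc A φ ε i k y‖ ≤ C := by
  obtain ⟨C, hC, V, hV, h⟩ := hb i x hx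
  refine ⟨C, V, hV, ?_⟩
  filter_upwards [h, hpos] with k hk hp y hy
  rw [rsc, norm_smul, norm_inv, Complex.norm_real, Real.norm_of_nonneg hp.le,
    inv_mul_le_iff₀ hp]
  linarith [hk y hy]

theorem rsc_tendsto (hpos : ∀ᶠ k in (u : Filter κ), 0 < ε k) (hb : LB' A φ ε u) (i : A.ι) {x : M}
    (hx : x ∈ (A.e i).source) :
    Tendsto (fun k => rsc A φ ε i k x) u (𝓝 (lf A φ ε u i x)) := by
  obtain ⟨C, V, hV, h⟩ := rsc_bound hpos hb i hx
  refine exists_lim u _ (C := C) ?_
  filter_upwards [h] with k hk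
  exact hk x (mem_of_mem_nhds hV)

/-- locally uniform convergence in the charts, componentwise -/
theorem rsc_loc (hφ : ∀ k, HolM A A (φ k)) (hid : ToId φ (u : Filter κ))
    (hpos : ∀ᶠ k in (u : Filter κ), 0 < ε k)
    (hb : LB' A φ ε u) (i : A.ι) {z0 : Cn n} (hz0 : z0 ∈ (A.e i).target) :
    ∃ W, IsOpen W ∧ z0 ∈ W ∧ W ⊆ (A.e i).target ∧ ∀ b : Fin n,
      DifferentiableOn ℂ (fun z => lf A φ ε u i ((A.e i).symm z) b) W ∧
      TendstoLocallyUniformlyOn (fun k z => rsc A φ ε i k ((A.e i).symm z) b)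
        (fun z => lf A φ ε u i ((A.e i).symm z) b) u W := by
  classical
  set x0 := (A.e i).symm z0 with hx0
  have hx0s : x0 ∈ (A.e i).source := (A.e i).map_target hz0
  obtain ⟨S, hS, hSk⟩ := hid.nhds ((A.e i).open_source.mem_nhds hx0s)
  obtain ⟨C, V, hV, hVk⟩ := rsc_bound hpos hb i hx0s
  obtain ⟨S', hS'S, hS'o, hxS'⟩ := mem_nhds_iff.1 (inter_mem hS hV)
  set W : Set (Cn n) := (A.e i).target ∩ (A.e i).symm ⁻¹' S' with hW
  have hWo : IsOpen W := (A.e i).isOpen_inter_preimage_symm hS'o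
  have hWt : W ⊆ (A.e i).target := fun z hz => hz.1
  have hWS : ∀ z ∈ W, (A.e i).symm z ∈ S := fun z hz => (hS'S hz.2).1
  have hWV : ∀ z ∈ W, (A.e i).symm z ∈ V := fun z hz => (hS'S hz.2).2
  refine ⟨W, hWo, ⟨hz0, hxS'⟩, hWt, fun b => ?_⟩
  -- the modified family, holomorphic for all `k`
  set G : Set κ := {k | ∀ y ∈ S, φ k y ∈ (A.e i).source} with hG
  set f : κ → Cn n → ℂ := fun k z => if k ∈ G then rsc A φ ε i k ((A.e i).symm z) b else 0 with hf
  have hfd : ∀ k, DifferentiableOn ℂ (f k) W := by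
    intro k
    by_cases hk : k ∈ G
    · have : f k = fun z => rsc A φ ε i k ((A.e i).symm z) b := by
        funext z; simp only [hf, if_pos hk]
      rw [this]
      intro z hz
      have hzs : (A.e i).symm z ∈ (A.e i).source := (A.e i).map_target hz.1
      have hzφ : φ k ((A.e i).symm z) ∈ (A.e i).source := hk _ (hWS z hz)
      have h1 := (hφ k).diff hzs hzφ
      rw [(A.e i).right_inv hz.1] at h1
      have h2 : DifferentiableAt ℂ (fun w => A.e i (φ k ((A.e i).symm w)) - w) z :=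
        h1.sub differentiableAt_id
      have h3 : DifferentiableAt ℂ
          (fun w => ((ε k)⁻¹ : ℂ) • (A.e i (φ k ((A.e i).symm w)) - w)) z :=
        (differentiableAt_const ((ε k)⁻¹ : ℂ)).fun_smul h2
      have h4 : DifferentiableAt ℂ
          (fun w => (((ε k)⁻¹ : ℂ) • (A.e i (φ k ((A.e i).symm w)) - w)) b) z := by
        have := (EuclideanSpace.proj (𝕜 := ℂ) b).differentiableAt.comp z h3
        exact this
      refine (h4.congr_of_eventuallyEq ?_).differentiableWithinAt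
      filter_upwards [(A.e i).open_target.mem_nhds hz.1] with w hw
      simp only [rsc, dsp, (A.e i).right_inv hw]
    · have : f k = fun _ => 0 := by
        funext z; simp only [hf, if_neg hk]
      rw [this]
      exact differentiableOn_const 0
  have hfe : ∀ᶠ k in (u : Filter κ), ∀ z, f k z = rsc A φ ε i k ((A.e i).symm z) b := by
    filter_upwards [hSk] with k hk z
    have : k ∈ G := hk
    simp only [hf, if_pos this]
  have hlim : ∀ z ∈ W, Tendsto (fun k => f k z) u (𝓝 (lf A φ ε u i ((A.e i).symm z) b)) := by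
    intro z hz
    have h1 := rsc_tendsto hpos hb i ((A.e i).map_target hz.1)
    have h2 : Tendsto (fun k => rsc A φ ε i k ((A.e i).symm z) b) u
        (𝓝 (lf A φ ε u i ((A.e i).symm z) b)) :=
      ((EuclideanSpace.proj (𝕜 := ℂ) b).continuous.tendsto _).comp h1
    refine h2.congr' ?_
    filter_upwards [hfe] with k hk
    exact (hk z).symm
  have hbd : ∀ z ∈ W, ∃ C : ℝ, ∃ V ∈ 𝓝 z, ∀ᶠ k in (u : Filter κ), ∀ w ∈ V, w ∈ W →
      ‖f k w‖ ≤ C := by
    intro z hz
    refine ⟨C, univ, univ_mem, ?_⟩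
    filter_upwards [hfe, hVk] with k hk hk2 w _ hw
    rw [hk w]
    exact (PiLp.norm_apply_le _ b).trans (hk2 _ (hWV w hw))
  have hT := Crest.Agent.R275.Mon908.tendstoLocallyUniformlyOn_of_bound hWo hfd hbd hlim
  refine ⟨?_, ?_⟩
  · exact (Crest.Agent.R266.SCV.analyticOnNhd_of_tendstoLocallyUniformlyOn hWo hT
      (Eventually.of_forall hfd)).differentiableOn
  · intro v hv x hx
    obtain ⟨t, ht, h⟩ := hT v hv x hx
    refine ⟨t, ht, ?_⟩
    filter_upwards [h, hfe] with k hk hk2 y hy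
    have := hk y hy
    rwa [hk2 y] at this

/-- the limit field as a holomorphic vector field -/
def lfV (hφ : ∀ k, HolM A A (φ k)) (hid : ToId φ (u : Filter κ))
    (hpos : ∀ᶠ k in (u : Filter κ), 0 < ε k) (hb : LB' A φ ε u) : HVF A where
  X := lf A φ ε u
  hol := by
    intro i z0 hz0
    obtain ⟨W, hW, hz0W, _, h⟩ := rsc_loc hφ hid hpos hb i hz0
    refine DifferentiableAt.differentiableWithinAt ?_
    rw [differentiableAt_euclidean]
    intro b
    exact (h b).1.differentiableAt (hW.mem_nhds hz0W)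
  tr := by
    intro i j x hx
    set g : Cn n → Cn n := fun z => A.e j ((A.e i).symm z) with hg
    have hgd : HasFDerivAt g (fderiv ℂ g (A.e i x)) (A.e i x) :=
      (chg_diffAt A hx.1 hx.2).hasFDerivAt
    have hi := rsc_tendsto hpos hb i hx.1
    have hj := rsc_tendsto hpos hb j hx.2
    have h1 : Tendsto (fun k => fderiv ℂ g (A.e i x) (rsc A φ ε i k x)) u
        (𝓝 (fderiv ℂ g (A.e i x) (lf A φ ε u i x))) :=
      ((fderiv ℂ g (A.e i x)).continuous.tendsto _).comp hi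
    -- `φ k x → x`
    have hφx : Tendsto (fun k => φ k x) u (𝓝 x) := by
      have := (hid x).comp (f := fun k : κ => (k, x))
        (tendsto_id.prodMk (tendsto_const_nhds (x := x)))
      exact this
    have hex : Tendsto (fun k => A.e i (φ k x)) u (𝓝 (A.e i x)) :=
      ((A.e i).continuousAt hx.1).tendsto.comp hφx
    obtain ⟨C, hC, V, hV, hVk⟩ := hb i x hx.1
    have h2 : Tendsto (fun k => rsc A φ ε j k x - fderiv ℂ g (A.e i x) (rsc A φ ε i k x)) u
        (𝓝 0) := by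
      rw [Metric.tendsto_nhds]
      intro δ hδ
      have hlo := hgd.isLittleO.def (c := δ / (2 * (C + 1))) (by positivity)
      have h3 := hex.eventually hlo
      have h4 : ∀ᶠ k in (u : Filter κ), φ k x ∈ (A.e i).source :=
        hφx.eventually ((A.e i).open_source.mem_nhds hx.1)
      filter_upwards [h3, hVk, hpos, h4] with k hk1 hk2 hk3 hk4
      have hk2' := hk2 x (mem_of_mem_nhds hV)
      rw [dist_zero_right]
      have e1 : rsc A φ ε j k x - fderiv ℂ g (A.e i x) (rsc A φ ε i k x) =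
          ((ε k)⁻¹ : ℂ) • (g (A.e i (φ k x)) - g (A.e i x) -
            fderiv ℂ g (A.e i x) (A.e i (φ k x) - A.e i x)) := by
        have e2 : fderiv ℂ g (A.e i x) (rsc A φ ε i k x) =
            ((ε k)⁻¹ : ℂ) • fderiv ℂ g (A.e i x) (A.e i (φ k x) - A.e i x) := by
          rw [rsc, map_smul]; rfl
        have e3 : g (A.e i (φ k x)) - g (A.e i x) = dsp A φ j k x := by
          simp only [dsp, hg, (A.e i).left_inv hx.1, (A.e i).left_inv hk4]
        rw [e2, smul_sub, e3, rsc]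
      rw [e1, norm_smul, norm_inv, Complex.norm_real, Real.norm_of_nonneg hk3.le,
        inv_mul_lt_iff₀ hk3]
      have h5 : ‖A.e i (φ k x) - A.e i x‖ ≤ C * ε k := hk2'
      calc _ ≤ δ / (2 * (C + 1)) * ‖A.e i (φ k x) - A.e i x‖ := hk1
        _ ≤ δ / (2 * (C + 1)) * (C * ε k) := mul_le_mul_of_nonneg_left h5 (by positivity)
        _ = δ * ε k * (C / (2 * (C + 1))) := by ring
        _ < ε k * δ := by
          have h6 : C / (2 * (C + 1)) < 1 := by
            rw [div_lt_one (by positivity)]; linarith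
          have h7 : 0 < δ * ε k := mul_pos hδ hk3
          nlinarith
    have h3 := hj.sub h1
    have h4 := tendsto_nhds_unique h3 h2
    exact sub_eq_zero.1 h4

end Main

/-- **NOVF**: on a compact complex manifold without holomorphic vector fields, a family of
holomorphic self maps converging uniformly to the identity is eventually the identity -/
theorem novf [T2Space M] [CompactSpace M] [Finite A.ι]
    (hV : ∀ V : HVF A, ∀ i, ∀ x ∈ (A.e i).source, V.X i x = 0)
    {κ : Type*} {φ : κ → M → M} (hφ : ∀ k, HolM A A (φ k)) {l : Filter κ} (hl : ToId φ l) :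
    ∀ᶠ k in l, ∀ x, φ k x = x := by
  classical
  by_contra hne
  rw [not_eventually] at hne
  rw [frequently_iff_neBot] at hne
  set l' := l ⊓ 𝓟 {k | ¬ ∀ x, φ k x = x} with hl'
  set u : Ultrafilter κ := Ultrafilter.of l' with hu
  have hul : (u : Filter κ) ≤ l' := Ultrafilter.of_le l'
  have hid : ToId φ (u : Filter κ) := hl.mono (hul.trans inf_le_left)
  have hne' : ∀ᶠ k in (u : Filter κ), ¬ ∀ x, φ k x = x :=
    (hul.trans inf_le_right) (mem_principal_self _)
  obtain ⟨K, hK, hKs, hKu⟩ := Crest.Agent.R273.UCov_914.MonD.exists_shrink A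
  have hin : ∀ᶠ k in (u : Filter κ), ∀ a, ∀ x ∈ K a, φ k x ∈ (A.e a).source :=
    Filter.eventually_all.2 fun a => hid.compact (hK a) (A.e a).open_source (hKs a)
  have hmax : ∀ᶠ k in (u : Filter κ), ∃ p : A.ι × M, p.2 ∈ K p.1 ∧ 0 < ‖dsp A φ p.1 k p.2‖ ∧
      ∀ b, ∀ y ∈ K b, ‖dsp A φ b k y‖ ≤ ‖dsp A φ p.1 k p.2‖ := by
    filter_upwards [hin, hne'] with k hk hk2
    push Not at hk2
    obtain ⟨x, hx⟩ := hk2
    have hcont : ∀ b, ContinuousOn (fun y => ‖dsp A φ b k y‖) (K b) := by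
      intro b y hy
      refine ContinuousAt.continuousWithinAt ?_
      have h1 : ContinuousAt (fun y => A.e b (φ k y)) y :=
        ContinuousAt.comp (g := A.e b) (f := φ k) ((A.e b).continuousAt (hk b y hy))
          ((hφ k).continuous.continuousAt)
      exact (h1.sub ((A.e b).continuousAt (hKs b hy))).norm
    have hT : IsCompact (⋃ b, (fun y => ‖dsp A φ b k y‖) '' K b) :=
      isCompact_iUnion fun b => (hK b).image_of_continuousOn (hcont b)
    obtain ⟨b, hb⟩ := mem_iUnion.1 (hKu ▸ mem_univ x : x ∈ ⋃ i, K i)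
    have hTne : (⋃ b, (fun y => ‖dsp A φ b k y‖) '' K b).Nonempty :=
      ⟨_, mem_iUnion.2 ⟨b, x, hb, rfl⟩⟩
    obtain ⟨m, hm, hmx⟩ := hT.exists_isGreatest hTne
    obtain ⟨a, y, hy, rfl⟩ := mem_iUnion.1 hm
    have hle : ∀ b, ∀ y' ∈ K b, ‖dsp A φ b k y'‖ ≤ ‖dsp A φ a k y‖ := fun b y' hy' =>
      hmx (mem_iUnion.2 ⟨b, y', hy', rfl⟩)
    refine ⟨(a, y), hy, ?_, hle⟩
    refine lt_of_lt_of_le ?_ (hle b x hb)
    rw [norm_pos_iff]
    intro h0
    apply hx
    exact (A.e b).injOn (hk b x hb) (hKs b hb) (sub_eq_zero.1 h0)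
  obtain ⟨p, hp⟩ := hmax.choice
  set ε : κ → ℝ := fun k => ‖dsp A φ (p k).1 k (p k).2‖ with hε
  have hpos : ∀ᶠ k in (u : Filter κ), 0 < ε k := by
    filter_upwards [hp] with k hk using hk.2.1
  have hb : LB' A φ ε u := by
    intro i x hx
    refine local_bound hid hK hKs hKu (ε := ε) ?_ hx
    filter_upwards [hp] with k hk using hk.2.2
  set V : HVF A := lfV hφ hid hpos hb with hVdef
  have hV0 : ∀ i, ∀ x ∈ (A.e i).source, lf A φ ε u i x = 0 := fun i x hx => hV V i x hx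
  -- the index is eventually constant, the points converge
  have hia : ∀ᶠ k in (u : Filter κ), ∃ a : A.ι, (p k).1 = a :=
    Eventually.of_forall fun k => ⟨_, rfl⟩
  rw [Ultrafilter.eventually_exists_iff] at hia
  obtain ⟨a, ha⟩ := hia
  obtain ⟨x, -, hx⟩ := (isCompact_univ (X := M)).ultrafilter_le_nhds (u.map fun k => (p k).2)
    (by simp)
  have hxt : Tendsto (fun k => (p k).2) u (𝓝 x) := hx
  have hxK : x ∈ K a := by
    refine (hK a).isClosed.mem_of_tendsto hxt ?_
    filter_upwards [hp, ha] with k hk hk2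
    rw [← hk2]; exact hk.1
  have hxs := hKs a hxK
  obtain ⟨W, hW, hz0W, hWt, h⟩ := rsc_loc hφ hid hpos hb a ((A.e a).map_source hxs)
  have het : Tendsto (fun k => A.e a (p k).2) u (𝓝[W] (A.e a x)) := by
    have h1 : Tendsto (fun k => A.e a (p k).2) u (𝓝 (A.e a x)) :=
      ((A.e a).continuousAt hxs).tendsto.comp hxt
    rw [nhdsWithin_eq_nhds.2 (hW.mem_nhds hz0W)]
    exact h1
  have hcomp : ∀ b : Fin n, Tendsto (fun k => rsc A φ ε a k (p k).2 b) u (𝓝 0) := by
    intro b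
    have h1 := (h b).2.tendsto_comp
      ((h b).1.continuousOn (A.e a x) hz0W) hz0W het
    have h2 : lf A φ ε u a ((A.e a).symm (A.e a x)) b = 0 := by
      rw [(A.e a).left_inv hxs, hV0 a x hxs]; rfl
    rw [h2] at h1
    refine h1.congr' ?_
    filter_upwards [hp, ha] with k hk hk2
    have : (p k).2 ∈ (A.e a).source := by
      rw [← hk2]; exact hKs _ hk.1
    rw [(A.e a).left_inv this]
  have hnorm : Tendsto (fun k => ‖rsc A φ ε a k (p k).2‖) u (𝓝 0) := by
    have h1 : Tendsto (fun k => Real.sqrt (∑ b, ‖rsc A φ ε a k (p k).2 b‖ ^ 2)) u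
        (𝓝 (Real.sqrt (∑ _b : Fin n, ‖(0 : ℂ)‖ ^ 2))) := by
      refine (Real.continuous_sqrt.tendsto _).comp ?_
      exact tendsto_finsetSum _ fun b _ => ((hcomp b).norm).pow 2
    simp only [norm_zero, ne_eq, OfNat.ofNat_ne_zero, not_false_eq_true, zero_pow,
      Finset.sum_const_zero, Real.sqrt_zero] at h1
    refine h1.congr fun k => ?_
    rw [EuclideanSpace.norm_eq]
  have hone : ∀ᶠ k in (u : Filter κ), ‖rsc A φ ε a k (p k).2‖ = 1 := by
    filter_upwards [hpos, ha] with k hk hk2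
    rw [rsc, norm_smul, norm_inv, Complex.norm_real, Real.norm_of_nonneg hk.le]
    have : ε k = ‖dsp A φ a k (p k).2‖ := by rw [hε, ← hk2]
    rw [← this]
    exact inv_mul_cancel₀ hk.ne'
  have h01 : Tendsto (fun k => ‖rsc A φ ε a k (p k).2‖) u (𝓝 1) :=
    (tendsto_const_nhds (x := (1 : ℝ))).congr' (by
      filter_upwards [hone] with k hk using hk.symm)
  exact zero_ne_one (tendsto_nhds_unique hnorm h01)

/-- **finiteness**: a uniformly equicontinuous group of holomorphic automorphisms of a compact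
complex manifold without holomorphic vector fields acts through a finite group -/
theorem finite_of_equicont {M : Type} [UniformSpace M] [T2Space M] [CompactSpace M]
    {A : Atl n M} [Finite A.ι]
    (hV : ∀ V : HVF A, ∀ i, ∀ x ∈ (A.e i).source, V.X i x = 0)
    {G : Type*} [Group G] [MulAction G M] (hG : ∀ g : G, HolM A A (fun x => g • x))
    (heq : ∀ U ∈ uniformity M, ∃ V ∈ uniformity M, ∀ g : G, ∀ x y : M, (x, y) ∈ V →
      (g • x, g • y) ∈ U) :
    (MulAction.toPermHom G M).ker.FiniteIndex := by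
  classical
  -- otherwise the image is infinite
  by_contra hfi
  set φ : G × G → M → M := fun p x => p.1⁻¹ • p.2 • x with hφ
  have hinf : Infinite (G ⧸ (MulAction.toPermHom G M).ker) := by
    by_contra h
    rw [not_infinite_iff_finite] at h
    exact hfi (Subgroup.finiteIndex_of_finite_quotient)
  -- an injective sequence of cosets
  obtain ⟨q, hq⟩ : ∃ q : ℕ → G, ∀ a b, (∀ x : M, q a • x = q b • x) → a = b := by
    have f : ℕ ↪ (G ⧸ (MulAction.toPermHom G M).ker) := Infinite.natEmbedding _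
    refine ⟨fun a => (f a).out, fun a b hab => f.injective ?_⟩
    rw [← QuotientGroup.out_eq' (f a), ← QuotientGroup.out_eq' (f b), QuotientGroup.eq,
      MonoidHom.mem_ker]
    ext x
    have := hab x
    simp only [MulAction.toPermHom_apply, MulAction.toPerm_apply, Equiv.Perm.coe_one, id_eq]
    rw [mul_smul, ← this, inv_smul_smul]
  set u : Ultrafilter ℕ := Filter.hyperfilter ℕ with hu
  set ψ : ℕ × ℕ → M → M := fun p x => (q p.1)⁻¹ • q p.2 • x with hψ
  have hψh : ∀ p, HolM A A (ψ p) := by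
    intro p
    exact (hG (q p.1)⁻¹).comp (hG (q p.2))
  have hid : ToId ψ ((u : Filter ℕ) ×ˢ (u : Filter ℕ)) := by
    intro x
    -- pointwise limit of `q k • x`
    obtain ⟨y, -, hy⟩ := (isCompact_univ (X := M)).ultrafilter_le_nhds (u.map fun k => q k • x)
      (by simp)
    have hyt : Tendsto (fun k => q k • x) u (𝓝 y) := hy
    rw [Uniform.tendsto_nhds_right]
    intro U hU
    obtain ⟨V, hV', hVG⟩ := heq U hU
    obtain ⟨V1, hV1, hV1s, hV1c⟩ := comp_symm_mem_uniformity_sets hV'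
    obtain ⟨V2, hV2, hV2G⟩ := heq V1 hV1
    obtain ⟨V3, hV3, hV3s, hV3c⟩ := comp_symm_mem_uniformity_sets hV1
    obtain ⟨V4, hV4, hV4G⟩ := heq V3 hV3
    -- the three conditions
    have c1 : ∀ᶠ k in (u : Filter ℕ), (q k • x, y) ∈ V3 := by
      have := hyt.eventually (UniformSpace.ball_mem_nhds y hV3)
      filter_upwards [this] with k hk
      exact hV3s.symm _ _ hk
    have c2 : ∀ᶠ z in 𝓝 x, ∀ k, (q k • z, q k • x) ∈ V1 := by
      filter_upwards [UniformSpace.ball_mem_nhds x (symm_le_uniformity hV2)] with z hz k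
      exact hV2G (q k) z x hz
    have c3 : ∀ᶠ p : (ℕ × ℕ) × M in ((u : Filter ℕ) ×ˢ (u : Filter ℕ)) ×ˢ 𝓝 x,
        ((q p.1.1 • x, y) ∈ V3 ∧ (q p.1.2 • x, y) ∈ V3) ∧
          ∀ k, (q k • p.2, q k • x) ∈ V1 :=
      (c1.prod_mk c1).prod_mk c2
    change ∀ᶠ p : (ℕ × ℕ) × M in ((u : Filter ℕ) ×ˢ (u : Filter ℕ)) ×ˢ 𝓝 x,
      (x, ψ p.1 p.2) ∈ U
    filter_upwards [c3] with p hp
    obtain ⟨⟨h1, h2⟩, h3⟩ := hp
    -- `(q k • x, q m • z) ∈ V`
    have h4 : (q p.1.1 • x, q p.1.2 • x) ∈ V1 := hV3c ⟨y, h1, hV3s.symm _ _ h2⟩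
    have h5 : (q p.1.2 • x, q p.1.2 • p.2) ∈ V1 := hV1s.symm _ _ (h3 p.1.2)
    have h6 : (q p.1.1 • x, q p.1.2 • p.2) ∈ V := hV1c ⟨_, h4, h5⟩
    have h7 := hVG (q p.1.1)⁻¹ _ _ h6
    rw [inv_smul_smul] at h7
    exact h7
  have key := novf hV hψh hid
  -- the diagonal is not in the product of the hyperfilter
  have h1 : ∀ᶠ k in (u : Filter ℕ), ∀ᶠ m in (u : Filter ℕ), k = m := by
    have := key.curry
    filter_upwards [this] with k hk
    filter_upwards [hk] with m hm
    refine hq k m fun x => ?_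
    have := hm x
    simp only [hψ] at this
    rw [inv_smul_eq_iff] at this
    exact this.symm
  obtain ⟨k, hk⟩ := h1.exists
  have h2 : {m | k = m} ∈ (u : Filter ℕ) := hk
  have h3 : ({k} : Set ℕ) ∈ (u : Filter ℕ) := by
    convert h2 using 1
    ext m; simp [eq_comm]
  exact (Set.finite_singleton k).notMem_hyperfilter h3

end

end Crest.Agent.R273.NoVF_534
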