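import Crest.Agent.R273.PCov_835
import Crest.Agent.R273.SerE_945

/-!
# R273 (S0416), Part E (helper835): PCOV, final form

* `pcov`     : homogeneous coordinates on a compact manifold with a locally biholomorphic map with
               finite fibres to a projective manifold (input: `D2`);
* `pcov_cov` : the case of 914's finite coverings `D.cov F`.
-/

set_option autoImplicit false
set_option linter.unusedSectionVars false

open Set Filter Topology Complex
open scoped ContDiff Matrix ComplexConjugate Manifold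

namespace Crest.Agent.R273.PCov_835

open Crest.Agent.R275.Geo Crest.Agent.R275.Core144 Crest.Agent.R275.GC293
open Crest.Agent.R273.Defs_333 Crest.Agent.R273.Map_835 Crest.Agent.R273.PB_835
open Crest.Agent.R273.Kah_333 Crest.Agent.R273.TD3_733
open Crest.Agent.R273.Fam_835 Crest.Agent.R273.FS_333 Crest.Agent.R273.UCov_914
open Crest.Agent.R273.PCovA_835 Crest.Agent.R273.CovI_835 Crest.Agent.R273.SerC_945 Crest.Agent.R273.SerB_945

noncomputable section

variable {n : ℕ} {M N : Type} [TopologicalSpace M] [TopologicalSpace N]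
  {A : Atl n M} {B : Atl n N} {p : M → N}

/-- **PCOV** -/
theorem pcov [T2Space M] [CompactSpace M] [Finite A.ι] (PA : Part A) (hD : D2 A)
    (h : LBih A B p) (R : Ref A B p) (P : ProjD B) (hf : ∀ y, (p ⁻¹' {y}).Finite) :
    ∃ m0 : ℕ, ∀ m, m0 ≤ m → ∃ P' : ProjD A, lb P' = (OB h.toHolMap R P) ^ m := by
  obtain ⟨m0, h0⟩ := SerE_945.proj_large PA hD (Ohm_pos h R P) (fdOf h R P hf) 1
  refine ⟨m0, fun m hm => ?_⟩
  obtain ⟨P', hP'⟩ := h0 m hm
  exact ⟨P', by rw [hP', one_mul]⟩

/-- the pulled back Kähler metric -/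
def kOB [T2Space M] [CompactSpace M] (h : LBih A B p) (R : Ref A B p) (P : ProjD B) : Kah A :=
  kah (Ohm h.toHolMap R P) (Ohm_pos h R P)

variable {G : Type} [Group G] (D : MonD A G) (F : Type) [MulAction G F]

/-- PCOV for 914's coverings -/
theorem pcov_cov [T2Space M] [CompactSpace M] [Finite A.ι] [Finite F] (PA : Part (D.atl F)) (hD : D2 (D.atl F))
    (P : ProjD A) : ∃ m0 : ℕ, ∀ m, m0 ≤ m →
      ∃ P' : ProjD (D.atl F), lb P' = (D.pullLB F (lb P)) ^ m := by
  obtain ⟨m0, h0⟩ := pcov PA hD (lBih_pr D F) (refPr D F) P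
    fun y => Set.finite_coe_iff.1 (finite_fibre D F y)
  refine ⟨m0, fun m hm => ?_⟩
  obtain ⟨P', hP'⟩ := h0 m hm
  refine ⟨P', ?_⟩
  rw [hP']
  exact congrArg (· ^ m) (pullLB_eq D F (lb P))

end

end Crest.Agent.R273.PCov_835
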