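import Crest.Agent.R273.Spl1_404

/-!
# R273 (S0416), leaf SPLIT (helper404), part 2: the idempotent of a holomorphic endomorphism

* `exists_sep χ`      : one polynomial `p`, `X ∣ p`, `χ ∣ p (1 - p)`, `χ ∣ X^k (1 - p)`
* matrices            : `sa_*` for `m` with `mᵀ g` hermitian, `g > 0`
* `HEnd.pol E p`      : functional calculus of holomorphic endomorphisms
* `HEnd.charpoly_const` : on compact connected `M` the characteristic polynomial is constant
* `pj E`              : the idempotent
-/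

set_option autoImplicit false
set_option linter.unusedSectionVars false

open Set Filter Topology Complex Matrix
open scoped ContDiff Matrix ComplexConjugate Manifold ComplexOrder

namespace Crest.Agent.R273.Spl1_404

open Crest.Agent.R275.Geo Crest.Agent.R275.Core144 Crest.Agent.R275.Kos798
open Crest.Agent.R273.Defs_333 Crest.Agent.R273.HM_333 Crest.Agent.R273.Kah_333
open Crest.Agent.R273.HolF_578

noncomputable section

/-! ### the polynomial -/

section Poly

open Polynomial

theorem exists_sep (χ : ℂ[X]) (h0 : χ ≠ 0) :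
    ∃ (k : ℕ) (p : ℂ[X]), X ∣ p ∧ χ ∣ p * (1 - p) ∧ χ ∣ X ^ k * (1 - p) := by
  obtain ⟨r, hr, hnd⟩ := χ.exists_eq_pow_rootMultiplicity_mul_and_not_dvd h0 0
  set k := rootMultiplicity 0 χ
  rw [C_0, sub_zero] at hr hnd
  have h1 : IsCoprime (X : ℂ[X]) r := (irreducible_X.coprime_iff_not_dvd).2 hnd
  have h2 : IsCoprime ((X : ℂ[X]) ^ (k + 1)) r := h1.pow_left
  obtain ⟨a, b, hab⟩ := h2
  have h3 : 1 - a * X ^ (k + 1) = b * r := by rw [← hab]; ring
  refine ⟨k, a * X ^ (k + 1), ⟨a * X ^ k, by ring⟩, ⟨a * b * X, ?_⟩, ⟨b, ?_⟩⟩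
  · rw [h3]
    conv_rhs => rw [hr]
    ring
  · rw [h3]
    conv_rhs => rw [hr]
    ring

/-- exponent and polynomial attached to `χ` -/
def sepK (χ : ℂ[X]) : ℕ := open Classical in
  if h : χ ≠ 0 then (exists_sep χ h).choose else 0

def sepP (χ : ℂ[X]) : ℂ[X] := open Classical in
  if h : χ ≠ 0 then (exists_sep χ h).choose_spec.choose else 0

theorem sepP_spec {χ : ℂ[X]} (h : χ ≠ 0) :
    X ∣ sepP χ ∧ χ ∣ sepP χ * (1 - sepP χ) ∧ χ ∣ X ^ sepK χ * (1 - sepP χ) := by
  unfold sepP sepK
  rw [dif_pos h, dif_pos h]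
  exact (exists_sep χ h).choose_spec.choose_spec

variable {n : ℕ} {m : Matrix (Fin n) (Fin n) ℂ} {χ : ℂ[X]}

theorem aeval_eq_zero_of_dvd (hm : m.charpoly = χ) {p : ℂ[X]} (h : χ ∣ p) : aeval m p = 0 := by
  obtain ⟨w, rfl⟩ := h
  rw [map_mul, ← hm, Matrix.aeval_self_charpoly, zero_mul]

theorem sep_idem (hm : m.charpoly = χ) : aeval m (sepP χ) * aeval m (sepP χ) = aeval m (sepP χ) := by
  have h0 : χ ≠ 0 := by rw [← hm]; exact (Matrix.charpoly_monic m).ne_zero
  have h1 := aeval_eq_zero_of_dvd hm (sepP_spec h0).2.1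
  rw [map_mul, map_sub, map_one, mul_sub, mul_one, sub_eq_zero] at h1
  exact h1.symm

theorem sep_pow (hm : m.charpoly = χ) : m ^ sepK χ * (1 - aeval m (sepP χ)) = 0 := by
  have h0 : χ ≠ 0 := by rw [← hm]; exact (Matrix.charpoly_monic m).ne_zero
  have h1 := aeval_eq_zero_of_dvd hm (sepP_spec h0).2.2
  rwa [map_mul, map_pow, aeval_X, map_sub, map_one] at h1

theorem sep_dvd (hm : m.charpoly = χ) :
    ∃ w : Matrix (Fin n) (Fin n) ℂ, aeval m (sepP χ) = m * w ∧ aeval m (sepP χ) = w * m := by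
  have h0 : χ ≠ 0 := by rw [← hm]; exact (Matrix.charpoly_monic m).ne_zero
  obtain ⟨w, hw⟩ := (sepP_spec h0).1
  refine ⟨aeval m w, ?_, ?_⟩
  · rw [hw, map_mul, aeval_X]
  · rw [hw, mul_comm X w, map_mul, aeval_X]

theorem sep_comm (p : ℂ[X]) : m * aeval m p = aeval m p * m := by
  have h1 : aeval m (X * p) = aeval m (p * X) := by rw [mul_comm]
  rwa [map_mul, map_mul, aeval_X] at h1

end Poly

/-! ### self-adjoint matrices -/

section SA

variable {n : ℕ} {m g : Matrix (Fin n) (Fin n) ℂ}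

/-- `m` is self-adjoint for `g` -/
def SA (g m : Matrix (Fin n) (Fin n) ℂ) : Prop := (mᵀ * g).IsHermitian

theorem map_conj_mul (a b : Matrix (Fin n) (Fin n) ℂ) :
    (a * b).map conj = a.map conj * b.map conj := by
  ext i j
  simp [Matrix.mul_apply, Matrix.map_apply]

theorem transpose_cT (a : Matrix (Fin n) (Fin n) ℂ) : (aᵀ)ᴴ = a.map conj := by
  ext i j
  simp [Matrix.conjTranspose_apply]

theorem cT_map (a : Matrix (Fin n) (Fin n) ℂ) : (a.map conj)ᴴ = aᵀ := by
  ext i j
  simp [Matrix.conjTranspose_apply]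

theorem sa_iff (hg : g.IsHermitian) : SA g m ↔ mᵀ * g = g * m.map conj := by
  unfold SA Matrix.IsHermitian
  rw [Matrix.conjTranspose_mul, hg.eq, transpose_cT]
  exact ⟨fun h => h.symm, fun h => h.symm⟩

theorem kill (hg : g.PosDef) {c : Matrix (Fin n) (Fin n) ℂ} (h : cᵀ * g * c.map conj = 0) :
    c = 0 := by
  have h1 : c.map conj = 0 := by
    by_contra h2
    have h3 : ∃ j, (fun i => (c.map conj) i j) ≠ 0 := by
      by_contra h4
      push Not at h4
      refine h2 ?_
      ext i j
      exact congrFun (h4 j) i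
    obtain ⟨j, hj⟩ := h3
    have h4 := hg.dotProduct_mulVec_pos hj
    have h5 : star (fun i => (c.map conj) i j) ⬝ᵥ (g *ᵥ fun i => (c.map conj) i j) =
        (cᵀ * g * c.map conj) j j := by
      rw [Matrix.mul_assoc, Matrix.mul_apply]
      refine Finset.sum_congr rfl fun a _ => ?_
      rw [Matrix.mul_apply]
      simp [Matrix.mulVec, dotProduct, Matrix.map_apply]
    rw [h5, h] at h4
    simp at h4
  ext i j
  have h2 := congrFun (congrFun h1 i) j
  simpa [Matrix.map_apply] using h2

theorem sa_step (hg : g.PosDef) (hs : SA g m) {B : Matrix (Fin n) (Fin n) ℂ}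
    (h : m * (m * B) = 0) : m * B = 0 := by
  have h1 := (sa_iff hg.isHermitian).1 hs
  refine kill hg ?_
  rw [Matrix.transpose_mul, map_conj_mul]
  have h2 : Bᵀ * mᵀ * g * (m.map conj * B.map conj) =
      Bᵀ * g * (m * (m * B)).map conj := by
    rw [map_conj_mul, map_conj_mul, Matrix.mul_assoc Bᵀ mᵀ g, h1]
    simp only [Matrix.mul_assoc]
  rw [h2, h]
  simp

theorem sa_pow (hg : g.PosDef) (hs : SA g m) (k : ℕ) {B : Matrix (Fin n) (Fin n) ℂ}
    (h : m ^ (k + 1) * B = 0) : m * B = 0 := by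
  induction k generalizing B with
  | zero => simpa using h
  | succ k ih =>
    refine sa_step hg hs (ih ?_)
    rw [pow_succ, Matrix.mul_assoc] at h
    exact h

/-- a projection commuting with `m`, killing nothing more than `m` -/
theorem sa_proj (hg : g.IsHermitian) (hs : SA g m) {P w : Matrix (Fin n) (Fin n) ℂ}
    (h1 : P = m * w) (h3 : m * P = m) (h4 : m * P = P * m) :
    SA g P := by
  have h0 := (sa_iff hg).1 hs
  rw [sa_iff hg]
  have h6 : m * (1 - P) = 0 := by rw [mul_sub, mul_one, h3, sub_self]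
  have h7 : (1 - P) * m = 0 := by rw [sub_mul, one_mul, ← h4, h3, sub_self]
  have e1 : (1 - P)ᵀ * g * P.map conj = 0 := by
    rw [h1, map_conj_mul, ← h1]
    calc (1 - P)ᵀ * g * (m.map conj * w.map conj)
        = (1 - P)ᵀ * (g * m.map conj) * w.map conj := by simp only [Matrix.mul_assoc]
      _ = ((1 - P)ᵀ * mᵀ) * g * w.map conj := by rw [← h0]; simp only [Matrix.mul_assoc]
      _ = 0 := by rw [← Matrix.transpose_mul, h6]; simp
  have e2 : Pᵀ * g * (1 - P).map conj = 0 := by
    have h5 : (g * P.map conj)ᴴ = Pᵀ * g := by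
      rw [Matrix.conjTranspose_mul, cT_map, hg.eq]
    have h8 : ((1 - P)ᵀ * (g * P.map conj))ᴴ = (Pᵀ * g) * (1 - P).map conj := by
      rw [Matrix.conjTranspose_mul, h5, transpose_cT]
    rw [← h8, ← Matrix.mul_assoc, e1]
    simp
  have e3 : (1 - P).map conj = 1 - P.map conj := by
    ext i j
    by_cases h : i = j
    · simp [Matrix.map_apply, Matrix.one_apply, h]
    · simp [Matrix.map_apply, Matrix.one_apply, h]
  rw [e3, mul_sub, mul_one, sub_eq_zero] at e2
  rw [e2]
  rw [Matrix.transpose_sub, Matrix.transpose_one, sub_mul, sub_mul, one_mul, sub_eq_zero] at e1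
  rw [e1]

end SA

/-! ### rank and trace of idempotents -/

section Rk

variable {n : ℕ} {P : Matrix (Fin n) (Fin n) ℂ}

theorem rank_eq_trace (h : P * P = P) : (P.rank : ℂ) = P.trace := by
  have h1 : IsIdempotentElem (Matrix.toLin' P) := by
    unfold IsIdempotentElem
    rw [Module.End.mul_eq_comp, ← Matrix.toLin'_mul, h]
  have h2 := (LinearMap.isProj_range_iff_isIdempotentElem (Matrix.toLin' P)).2 h1
  have h3 := h2.trace
  rw [Matrix.trace_toLin'_eq] at h3
  rw [h3]
  rfl

theorem rank_pos_iff (m : Matrix (Fin n) (Fin n) ℂ) : 0 < m.rank ↔ m ≠ 0 := by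
  rw [Nat.pos_iff_ne_zero, not_iff_not]
  constructor
  · intro h
    have h1 : LinearMap.range m.mulVecLin = ⊥ := Submodule.finrank_eq_zero.1 h
    rw [LinearMap.range_eq_bot] at h1
    ext a b
    have h2 := congrFun (LinearMap.congr_fun h1 (Pi.single b 1)) a
    simpa using h2
  · rintro rfl
    exact Matrix.rank_zero

theorem rank_one_sub (h : P * P = P) : P.rank + (1 - P).rank = n := by
  have h1 : (1 - P) * (1 - P) = 1 - P := by
    rw [mul_sub, mul_one, sub_mul, one_mul, h, sub_self, sub_zero]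
  have h2 := rank_eq_trace h1
  rw [Matrix.trace_sub, ← rank_eq_trace h, Matrix.trace_one, Fintype.card_fin] at h2
  have h3 : ((P.rank + (1 - P).rank : ℕ) : ℂ) = (n : ℂ) := by
    push_cast
    rw [h2]
    ring
  exact_mod_cast h3

theorem rank_lt_iff (h : P * P = P) : P.rank < n ↔ P ≠ 1 := by
  have h1 := rank_one_sub h
  have h2 := rank_pos_iff (1 - P)
  constructor
  · intro h3 h4
    rw [h4, sub_self] at h2
    have h5 : 0 < (1 - P).rank := by omega
    rw [h4, sub_self] at h5
    exact (h2.1 h5) rfl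
  · intro h3
    have h5 := h2.2 (sub_ne_zero.2 (Ne.symm h3))
    omega

end Rk

/-! ### functional calculus of holomorphic endomorphisms -/

variable {n : ℕ} {M : Type} [TopologicalSpace M] {A : Atl n M}

open Polynomial in
theorem aeval_conj (J J' m : Matrix (Fin n) (Fin n) ℂ) (h : J' * J = 1) (h' : J * J' = 1)
    (p : ℂ[X]) : aeval (J * m * J') p = J * aeval m p * J' := by
  induction p using Polynomial.induction_on' with
  | add p q hp hq => rw [map_add, map_add, hp, hq, mul_add, add_mul]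
  | monomial k a =>
    rw [aeval_monomial, aeval_monomial]
    have h1 : (J * m * J') ^ k = J * m ^ k * J' := by
      induction k with
      | zero => rw [pow_zero, pow_zero, mul_one, h']
      | succ k ih =>
        rw [pow_succ, ih, pow_succ]
        calc J * m ^ k * J' * (J * m * J') = J * m ^ k * (J' * J) * m * J' := by
              simp only [Matrix.mul_assoc]
          _ = J * (m ^ k * m) * J' := by rw [h, mul_one]; simp only [Matrix.mul_assoc]
    rw [h1, Algebra.algebraMap_eq_smul_one, smul_mul_assoc, one_mul, smul_mul_assoc, one_mul,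
      Matrix.mul_smul, Matrix.smul_mul]

theorem Jm_mul {i j : A.ι} {x : M} (hx : x ∈ (A.e i).source ∩ (A.e j).source) :
    Jm A j i x * Jm A i j x = 1 ∧ Jm A i j x * Jm A j i x = 1 :=
  ⟨Jm_inv hx, Jm_inv ⟨hx.2, hx.1⟩⟩

theorem holAt_mul {i : A.ι} {a b : M → Matrix (Fin n) (Fin n) ℂ}
    (ha : ∀ r s, HolAt A i univ (fun x => a x r s)) (hb : ∀ r s, HolAt A i univ (fun x => b x r s))
    (r s : Fin n) : HolAt A i univ (fun x => (a x * b x) r s) := by
  have h1 : HolAt A i univ (fun x => ∑ t, a x r t * b x t s) :=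
    HolAt.sum _ fun t _ => (ha r t).mul (hb t s)
  exact h1

theorem holAt_pow {i : A.ι} {a : M → Matrix (Fin n) (Fin n) ℂ}
    (ha : ∀ r s, HolAt A i univ (fun x => a x r s)) (k : ℕ) :
    ∀ r s : Fin n, HolAt A i univ (fun x => (a x ^ k) r s) := by
  induction k with
  | zero =>
    intro r s
    simp only [pow_zero]
    exact holAt_const _
  | succ k ih =>
    intro r s
    simp only [pow_succ]
    exact holAt_mul ih ha r s

namespace HEnd

/-- product of holomorphic endomorphisms -/
def mul (E F : HEnd A) : HEnd A where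
  E i x := E.E i x * F.E i x
  hol i := holAt_mul (E.hol i) (F.hol i)
  tr i j x hx := by
    rw [E.tr i j x hx, F.tr i j x hx]
    calc Jm A j i x * E.E j x * Jm A i j x * (Jm A j i x * F.E j x * Jm A i j x)
        = Jm A j i x * E.E j x * (Jm A i j x * Jm A j i x) * F.E j x * Jm A i j x := by
          simp only [Matrix.mul_assoc]
      _ = Jm A j i x * (E.E j x * F.E j x) * Jm A i j x := by
          rw [(Jm_mul hx).2, mul_one]; simp only [Matrix.mul_assoc]

/-- sum of holomorphic endomorphisms -/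
def add (E F : HEnd A) : HEnd A where
  E i x := E.E i x + F.E i x
  hol i a b := (E.hol i a b).add (F.hol i a b)
  tr i j x hx := by
    rw [E.tr i j x hx, F.tr i j x hx, mul_add, add_mul]

/-- zero -/
def zero : HEnd A where
  E _ _ := 0
  hol i a b := holAt_const 0
  tr i j x hx := by simp

/-- finite sums of holomorphic endomorphisms -/
def sum {κ : Type*} (s : Finset κ) (E : κ → HEnd A) : HEnd A where
  E i x := ∑ k ∈ s, (E k).E i x
  hol i a b := by
    have h1 : HolAt A i univ fun x => ∑ k ∈ s, (E k).E i x a b :=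
      HolAt.sum _ fun k _ => (E k).hol i a b
    refine h1.congr fun x _ _ => ?_
    rw [Matrix.sum_apply]
  tr i j x hx := by
    rw [Finset.mul_sum, Finset.sum_mul]
    exact Finset.sum_congr rfl fun k _ => (E k).tr i j x hx

open Polynomial in
/-- functional calculus -/
def pol (E : HEnd A) (p : ℂ[X]) : HEnd A where
  E i x := aeval (E.E i x) p
  hol i a b := by
    have h1 : HolAt A i univ fun x => ∑ k ∈ Finset.range (p.natDegree + 1),
        p.coeff k * (E.E i x ^ k) a b :=
      HolAt.sum _ fun k _ => (holAt_pow (E.hol i) k a b).const_mul _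
    refine h1.congr fun x _ _ => ?_
    rw [aeval_eq_sum_range, Matrix.sum_apply]
    rfl
  tr i j x hx := by
    rw [E.tr i j x hx]
    exact aeval_conj _ _ _ (Jm_mul hx).2 (Jm_mul hx).1 p

theorem det_const [CompactSpace M] [ConnectedSpace M] (E : HEnd A) (t : ℂ) :
    ∃ c : ℂ, ∀ i, ∀ x ∈ (A.e i).source, (Matrix.scalar (Fin n) t - E.E i x).det = c := by
  classical
  let s : A.ι → M → ℂ := fun i x =>
    if x ∈ (A.e i).source then (Matrix.scalar (Fin n) t - E.E i x).det else 0
  have hs : IsHS (1 : LB A) univ s := by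
    refine ⟨fun i => ?_, fun i x hx => if_neg hx, fun i j x hx _ => ?_⟩
    · have h1 : HolAt A i univ fun x => (Matrix.scalar (Fin n) t - E.E i x).det := by
        have h2 : HolAt A i univ fun x => ∑ σ : Equiv.Perm (Fin n),
            ((Equiv.Perm.sign σ : ℤ) : ℂ) *
              ∏ a, (Matrix.scalar (Fin n) t - E.E i x) (σ a) a := by
          refine HolAt.sum _ fun σ _ => (HolAt.prod _ fun a _ => ?_).const_mul _
          exact (holAt_const (Matrix.scalar (Fin n) t (σ a) a)).sub (E.hol i _ _)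
        refine h2.congr fun x _ _ => ?_
        rw [Matrix.det_apply']
      refine h1.congr fun x hx _ => ?_
      simp only [s]
      rw [if_pos hx]
    · simp only [s]
      rw [if_pos hx.1, if_pos hx.2, LB.one_g, one_mul, E.tr i j x hx]
      have h1 : Matrix.scalar (Fin n) t - Jm A j i x * E.E j x * Jm A i j x =
          Jm A j i x * (Matrix.scalar (Fin n) t - E.E j x) * Jm A i j x := by
        rw [mul_sub, sub_mul, ← Matrix.scalar_commute t (fun r => Commute.all _ _) (Jm A j i x),
          Matrix.mul_assoc (Matrix.scalar (Fin n) t), (Jm_mul hx).1, mul_one]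
      rw [h1, Matrix.det_mul, Matrix.det_mul]
      have h2 : (Jm A j i x).det * (Jm A i j x).det = 1 := by
        rw [← Matrix.det_mul, (Jm_mul hx).1, Matrix.det_one]
      calc (Jm A j i x).det * (Matrix.scalar (Fin n) t - E.E j x).det * (Jm A i j x).det
          = ((Jm A j i x).det * (Jm A i j x).det) * (Matrix.scalar (Fin n) t - E.E j x).det := by
            ring
        _ = _ := by rw [h2, one_mul]
  obtain ⟨c, hc⟩ := isHS_one_const hs
  refine ⟨c, fun i x hx => ?_⟩
  rw [← hc i x hx]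
  simp only [s]
  rw [if_pos hx]

open Polynomial in
/-- the characteristic polynomial is constant -/
theorem charpoly_const [CompactSpace M] [ConnectedSpace M] (E : HEnd A) :
    ∃ χ : ℂ[X], ∀ i, ∀ x ∈ (A.e i).source, (E.E i x).charpoly = χ := by
  obtain ⟨x0⟩ := (inferInstance : Nonempty M)
  obtain ⟨i0, hi0⟩ := A.cover x0
  refine ⟨(E.E i0 x0).charpoly, fun i x hx => ?_⟩
  refine Polynomial.funext fun t => ?_
  obtain ⟨c, hc⟩ := det_const E t
  rw [Matrix.eval_charpoly, Matrix.eval_charpoly, hc i x hx, hc i0 x0 hi0]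

theorem trace_const [CompactSpace M] [ConnectedSpace M] (E : HEnd A) {i j : A.ι} {x y : M}
    (hx : x ∈ (A.e i).source) (hy : y ∈ (A.e j).source) : (E.E i x).trace = (E.E j y).trace := by
  obtain ⟨χ, hχ⟩ := charpoly_const E
  rcases Nat.eq_zero_or_pos n with h | h
  · subst h
    simp [Matrix.trace]
  · have : Nonempty (Fin n) := ⟨⟨0, h⟩⟩
    rw [Matrix.trace_eq_neg_charpoly_coeff, Matrix.trace_eq_neg_charpoly_coeff, hχ i x hx, hχ j y hy]

variable [CompactSpace M] [ConnectedSpace M]

/-- the characteristic polynomial -/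
def chi (E : HEnd A) : Polynomial ℂ := E.charpoly_const.choose

theorem chi_spec (E : HEnd A) {i : A.ι} {x : M} (hx : x ∈ (A.e i).source) :
    (E.E i x).charpoly = E.chi := E.charpoly_const.choose_spec i x hx

/-- the idempotent of `E` -/
def pj (E : HEnd A) : HEnd A := E.pol (sepP E.chi)

variable (E : HEnd A) {i : A.ι} {x : M} 

theorem pj_idem (hx : x ∈ (A.e i).source) : E.pj.E i x * E.pj.E i x = E.pj.E i x :=
  sep_idem (E.chi_spec hx)

theorem pj_pow (hx : x ∈ (A.e i).source) : E.E i x ^ sepK E.chi * (1 - E.pj.E i x) = 0 :=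
  sep_pow (E.chi_spec hx)

theorem pj_comm : E.E i x * E.pj.E i x = E.pj.E i x * E.E i x :=
  sep_comm _

theorem pj_dvd (hx : x ∈ (A.e i).source) : ∃ w : Matrix (Fin n) (Fin n) ℂ,
    E.pj.E i x = E.E i x * w ∧ E.pj.E i x = w * E.E i x :=
  sep_dvd (E.chi_spec hx)

theorem pj_null_left (hx : x ∈ (A.e i).source) {t : Matrix (Fin n) (Fin n) ℂ}
    (h : t * E.E i x = 0) : t * E.pj.E i x = 0 := by
  obtain ⟨w, h1, -⟩ := E.pj_dvd hx
  rw [h1, ← Matrix.mul_assoc, h, zero_mul]

theorem pj_null_right (hx : x ∈ (A.e i).source) {v : Fin n → ℂ}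
    (h : E.E i x *ᵥ v = 0) : E.pj.E i x *ᵥ v = 0 := by
  obtain ⟨w, -, h2⟩ := E.pj_dvd hx
  rw [h2, ← Matrix.mulVec_mulVec, h, Matrix.mulVec_zero]

variable {E}

section SAdj

variable {g : Matrix (Fin n) (Fin n) ℂ} (hx : x ∈ (A.e i).source) (hg : g.PosDef)
  (hs : SA g (E.E i x))

include hx hg hs

theorem pj_mul_right : E.E i x * E.pj.E i x = E.E i x := by
  have h1 : E.E i x ^ (sepK E.chi + 1) * (1 - E.pj.E i x) = 0 := by
    rw [pow_succ', Matrix.mul_assoc, E.pj_pow hx, mul_zero]
  have h2 := sa_pow hg hs _ h1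
  rw [mul_sub, mul_one, sub_eq_zero] at h2
  exact h2.symm

theorem pj_mul_left : E.pj.E i x * E.E i x = E.E i x := by
  rw [← E.pj_comm]
  exact pj_mul_right hx hg hs

/-- the idempotent is self-adjoint -/
theorem pj_sa : SA g (E.pj.E i x) := by
  obtain ⟨w, h1, -⟩ := E.pj_dvd hx
  exact sa_proj hg.isHermitian hs h1 (pj_mul_right hx hg hs) E.pj_comm

/-- the kernel does not change -/
theorem pj_ker (v : Fin n → ℂ) : E.pj.E i x *ᵥ v = 0 ↔ E.E i x *ᵥ v = 0 := by
  refine ⟨fun h => ?_, fun h => E.pj_null_right hx h⟩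
  rw [← pj_mul_right hx hg hs, ← Matrix.mulVec_mulVec, h, Matrix.mulVec_zero]

theorem pj_eq_zero_iff : E.pj.E i x = 0 ↔ E.E i x = 0 := by
  constructor
  · intro h
    rw [← pj_mul_right hx hg hs, h, mul_zero]
  · intro h
    obtain ⟨w, h1, -⟩ := E.pj_dvd hx
    rw [h1, h, zero_mul]

end SAdj

/-- the rank of the idempotent is constant -/
theorem pj_rank {j : A.ι} {y : M} (hx : x ∈ (A.e i).source) (hy : y ∈ (A.e j).source) :
    (E.pj.E i x).rank = (E.pj.E j y).rank := by
  have h1 : ((E.pj.E i x).rank : ℂ) = ((E.pj.E j y).rank : ℂ) := by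
    rw [rank_eq_trace (E.pj_idem hx), rank_eq_trace (E.pj_idem hy)]
    exact trace_const _ hx hy
  exact_mod_cast h1

/-- zero at one point: zero everywhere -/
theorem pj_zero_iff {j : A.ι} {y : M} (hx : x ∈ (A.e i).source) (hy : y ∈ (A.e j).source) :
    E.pj.E i x = 0 ↔ E.pj.E j y = 0 := by
  rw [← not_iff_not]
  change E.pj.E i x ≠ 0 ↔ E.pj.E j y ≠ 0
  rw [← rank_pos_iff, ← rank_pos_iff, pj_rank hx hy]

/-- the identity at one point: the identity everywhere -/
theorem pj_one_iff {j : A.ι} {y : M} (hx : x ∈ (A.e i).source) (hy : y ∈ (A.e j).source) :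
    E.pj.E i x = 1 ↔ E.pj.E j y = 1 := by
  rw [← not_iff_not]
  change E.pj.E i x ≠ 1 ↔ E.pj.E j y ≠ 1
  rw [← rank_lt_iff (E.pj_idem hx), ← rank_lt_iff (E.pj_idem hy), pj_rank hx hy]

end HEnd

end

end Crest.Agent.R273.Spl1_404
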