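import Crest.Agent.R273.ParH_880
import Crest.Agent.R273.Spl2_404
import Crest.Agent.R273.Act_836

/-!
# R273 (S0416), leaf PSPL (helper880), part I: the canonical splitting

`M` compact connected, `K : Kah A` with semipositive Ricci form.

* `CanS K`        : a splitting (helper836's `Spl`) whose projection field `P` is self-adjoint for
                    `K`, has kernel `Ann` (vectors annihilated by all holomorphic forms of positive
                    degree) and satisfies `Ricᵀ * P = 0`
* `exists_canS`   : it exists; `CanS.unique` : it is unique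
* `CanS.pos_rank` : the rank is positive if there is a nonzero form of positive degree
* `CanS.flat`     : if the rank is `n`, then the Ricci form vanishes
* `CanS.pres`, `CanS.presG` : it is preserved by holomorphic isometries
-/

set_option autoImplicit false
set_option linter.unusedSectionVars false

open Set Filter Topology Complex Matrix
open scoped ContDiff Matrix ComplexConjugate ComplexOrder

namespace Crest.Agent.R273.ParI_880

open Crest.Agent.R275 Crest.Agent.R275.Geo Crest.Agent.R275.Core144
open Crest.Agent.R273.Defs_333 Crest.Agent.R273.HM_333 Crest.Agent.R273.Kah_333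
open Crest.Agent.R273.Vol_333
open Crest.Agent.R273.HolF_578 Crest.Agent.R273.Map_835
open Crest.Agent.R273.Fock_243 Crest.Agent.R273.Spl1_404 Crest.Agent.R273.SplA_836
open Crest.Agent.R273.ParE_880 Crest.Agent.R273.ParF_880 Crest.Agent.R273.ParG_880
open Crest.Agent.R273.ParH_880

noncomputable section

variable {n : ℕ} {M N : Type} [TopologicalSpace M] [TopologicalSpace N]
  {A : Atl n M} {B : Atl n N}

/-- a canonical splitting -/
structure CanS (K : Kah A) where
  S : Spl A
  ker : ∀ i, ∀ x ∈ (A.e i).source, ∀ u, S.P i x *ᵥ u = 0 ↔ Ann A i x u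
  sa : ∀ i, ∀ x ∈ (A.e i).source, ((K.g i x)ᵀ * S.P i x).IsHermitian
  null : ∀ i, ∀ x ∈ (A.e i).source, (cur (volK K) i x)ᵀ * S.P i x = 0

theorem sa_of {g m : Matrix (Fin n) (Fin n) ℂ} : SA g m ↔ (gᵀ * m).IsHermitian := by
  unfold SA
  constructor
  · intro h
    have := h.transpose
    rwa [Matrix.transpose_mul, Matrix.transpose_transpose] at this
  · intro h
    have := h.transpose
    rwa [Matrix.transpose_mul, Matrix.transpose_transpose] at this

/-- splitting of a finite family of forms -/
theorem exists_spl [T2Space M] [CompactSpace M] [ConnectedSpace M] (P : Part A) (K : Kah A)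
    (ric : ∀ i, ∀ x ∈ (A.e i).source, (cur (volK K) i x).PosSemidef) (F : Fam A) :
    ∃ S : Spl A, (∀ i, ∀ x ∈ (A.e i).source, ∀ u, S.P i x *ᵥ u = 0 ↔
        ∀ k, iW u *ᵥ F.β k i x = 0) ∧
      (∀ i, ∀ x ∈ (A.e i).source, ((K.g i x)ᵀ * S.P i x).IsHermitian) ∧
      ∀ i, ∀ x ∈ (A.e i).source, (cur (volK K) i x)ᵀ * S.P i x = 0 := by
  set E := EF F K P ric with hE
  have hs : ∀ i, ∀ x ∈ (A.e i).source, SA (K.g i x) (E.E i x) := fun i x hx =>
    sa_of.2 (EF_psd F K P ric hx).isHermitian
  have hsa : ∀ i, ∀ x ∈ (A.e i).source, ((K.g i x)ᵀ * E.pj.E i x).IsHermitian := fun i x hx =>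
    sa_of.1 (HEnd.pj_sa hx (K.pos i x hx) (hs i x hx))
  refine ⟨splOf K E.pj (fun i x hx => E.pj_idem hx) hsa, fun i x hx u => ?_, hsa,
    fun i x hx => ?_⟩
  · rw [splOf_P, HEnd.pj_ker hx (K.pos i x hx) (hs i x hx)]
    exact EF_ker F K P ric hx u
  · exact E.pj_null_left hx (EF_null F K P ric hx)

/-- **existence of the canonical splitting** -/
theorem exists_canS [T2Space M] [CompactSpace M] [ConnectedSpace M] (P : Part A) (K : Kah A)
    (ric : ∀ i, ∀ x ∈ (A.e i).source, (cur (volK K) i x).PosSemidef) : Nonempty (CanS K) := by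
  obtain ⟨S, h1, h2, h3⟩ := exists_spl P K ric (allF A (om_fin P K ric))
  exact ⟨⟨S, fun i x hx u => (h1 i x hx u).trans (ann_iff _ i x u), h2, h3⟩⟩

namespace CanS

variable {K : Kah A}

theorem unique (C C' : CanS K) {i : A.ι} {x : M} (hx : x ∈ (A.e i).source) :
    C.S.P i x = C'.S.P i x :=
  sa_unique (K.pos i x hx).transpose (C.sa i x hx) (C'.sa i x hx) (C.S.idem i x hx)
    (C'.S.idem i x hx) fun u => (C.ker i x hx u).trans (C'.ker i x hx u).symm

/-- rank zero: all vectors are annihilated -/
theorem ann_of_rk_zero (C : CanS K) (hr : C.S.IsRk 0) {i : A.ι} {x : M}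
    (hx : x ∈ (A.e i).source) (u : Fin n → ℂ) : Ann A i x u := by
  rw [← C.ker i x hx]
  have h1 : rkA C.S i x = 0 := hr i x hx
  unfold rkA at h1
  have h2 := Submodule.finrank_eq_zero.1 h1
  have h3 : toC (C.S.P i x) (WithLp.toLp 2 u) = 0 := by
    have h4 : toC (C.S.P i x) (WithLp.toLp 2 u) ∈
        LinearMap.range (toC (C.S.P i x)).toLinearMap := ⟨WithLp.toLp 2 u, rfl⟩
    rw [h2] at h4
    exact (Submodule.mem_bot ℂ).1 h4
  funext b
  have h5 := toC_apply (C.S.P i x) (WithLp.toLp 2 u) b
  rw [h3] at h5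
  exact h5.symm

/-- the rank is positive if there is a form of positive degree -/
theorem pos_rank [T2Space M] [CompactSpace M] [ConnectedSpace M] (P : Part A)
    (ric : ∀ i, ∀ x ∈ (A.e i).source, (cur (volK K) i x).PosSemidef) (C : CanS K) {r : ℕ}
    (hr : C.S.IsRk r) {q : ℕ} (hq : q ≠ 0) {β : A.ι → M → FI n → ℂ} (hβ : β ∈ Om A q)
    (h0 : β ≠ 0) : 0 < r := by
  rcases Nat.eq_zero_or_pos r with h | h
  · subst h
    obtain ⟨x⟩ := (inferInstance : Nonempty M)
    obtain ⟨i, hi⟩ := A.cover x
    exact absurd (om_zero_of_ann hi (fun u => C.ann_of_rk_zero hr hi u)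
      (fun q => noZ P K ric q) hq hβ) h0
  · exact h

/-- full rank: the projection is the identity -/
theorem one_of_rk (C : CanS K) (hr : C.S.IsRk n) {i : A.ι} {x : M}
    (hx : x ∈ (A.e i).source) : C.S.P i x = 1 := by
  have h1 : rkA C.S i x = n := hr i x hx
  unfold rkA at h1
  have h2 : LinearMap.range (toC (C.S.P i x)).toLinearMap = ⊤ := by
    apply Submodule.eq_top_of_finrank_eq
    rw [h1, finrank_euclideanSpace_fin]
  have h3 : ∀ v, toC (C.S.P i x) v = v := by
    intro v
    obtain ⟨w, hw⟩ := LinearMap.range_eq_top.1 h2 v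
    have hw' : toC (C.S.P i x) w = v := hw
    rw [← hw', ← toC_mul, C.S.idem i x hx]
  ext b a
  have h4 := congrArg (fun w : Cn n => w b) (h3 (EuclideanSpace.single a 1))
  simp only [toC_apply] at h4
  simp only [PiLp.single_apply] at h4
  simpa [Matrix.one_apply] using h4

/-- full rank: the Ricci form vanishes -/
theorem flat (C : CanS K) (hr : C.S.IsRk n) {i : A.ι} {x : M} (hx : x ∈ (A.e i).source) :
    cur (volK K) i x = 0 := by
  have h1 := C.null i x hx
  rw [C.one_of_rk hr hx, mul_one] at h1
  rw [← Matrix.transpose_transpose (cur (volK K) i x), h1, Matrix.transpose_zero]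

/-- the canonical splitting is preserved by isometries -/
theorem pres {K' : Kah B} (C : CanS K) (C' : CanS K') {f : M → N} {g : N → M}
    (hf : HolMap A B f) (hg : HolMap B A g) (hgf : ∀ x, g (f x) = x)
    (hK : ∀ i j x, x ∈ (A.e i).source → f x ∈ (B.e j).source →
      K.g i x = (Jp A B f i j x)ᵀ * K'.g j (f x) * (Jp A B f i j x).map conj) :
    Pres C.S C'.S f :=
  Pres.of_matrix hf fun i j x hx hj =>
    (inv_of_isom hf hg hgf hx hj (hK i j x hx hj) (C.sa i x hx) (C'.sa j _ hj)
      (C.S.idem i x hx) (C'.S.idem j _ hj) (C.ker i x hx) (C'.ker j _ hj)).symm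

/-- the canonical splitting is preserved by groups of isometries -/
theorem presG (C : CanS K) {G : Type*} [Group G] [MulAction G M]
    (hG : ∀ g : G, HolMap A A (fun x : M => g • x))
    (hK : ∀ (g : G) i j x, x ∈ (A.e i).source → g • x ∈ (A.e j).source →
      K.g i x = (Jp A A (fun x : M => g • x) i j x)ᵀ * K.g j (g • x) *
        (Jp A A (fun x : M => g • x) i j x).map conj) : PresG C.S G := fun g =>
  C.pres C (hG g) (hG g⁻¹) (fun x => inv_smul_smul g x) (hK g)

end CanS

end

end Crest.Agent.R273.ParI_880
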