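import Crest.Agent.R273.Ric4_798

/-!
# R273 (S0416), leaf BGT-1 (helper798), part 5: Ricci = - i∂∂̄ log det
-/

set_option autoImplicit false
set_option linter.unusedSectionVars false

open Set Filter Topology Complex Matrix
open scoped ContDiff ComplexConjugate ComplexOrder
open Crest.GeometryTopology.CoordMetric

namespace Crest.Agent.R273.Ric_798

noncomputable section

variable {n m : ℕ} {K : V n → Matrix (Fin n) (Fin n) ℂ} {U : Set (V n)}

/-- `log det K` -/
def ld (K : V n → Matrix (Fin n) (Fin n) ℂ) (z : V n) : ℝ := Real.log (K z).det.re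

theorem det_re_pos (h : KD K U) {z : V n} (hz : z ∈ U) :
    0 < (K z).det.re ∧ (K z).det.im = 0 := by
  have := (h.pd z hz).det_pos
  rw [Complex.pos_iff] at this
  exact ⟨this.1, this.2.symm⟩

/-- Jacobi's formula -/
theorem fderiv_det (h : KD K U) {z : V n} (hz : z ∈ U) (u : V n) :
    fderiv ℝ (fun w => (K w).det) z u = (K z).det * ((K z)⁻¹ * DM K z u).trace := by
  have hd := differentiableAt_entry h.op h.sm hz
  have hdet : DifferentiableAt ℝ (fun w => (K w).det) z :=
    ((contDiffOn_det h.sm).contDiffAt (h.op.mem_nhds hz)).differentiableAt (by simp)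
  have hline : HasDerivAt (fun t : ℝ => z + t • u) u 0 := by
    simpa using ((hasDerivAt_id (0 : ℝ)).smul_const u).const_add z
  have hu : IsUnit (K z).det := isUnit_iff_ne_zero.2 (h.det_ne z hz)
  have h1 : HasDerivAt (fun t : ℝ => ((K z)⁻¹ * K (z + t • u)).det)
      ((K z)⁻¹ * DM K z u).trace 0 := by
    refine Crest.Agent.R264.D8d.hasDerivAt_detM (A := fun t : ℝ => (K z)⁻¹ * K (z + t • u)) ?_ ?_
    · intro i j
      simp only [Matrix.mul_apply]
      have : HasDerivAt (fun t : ℝ => ∑ c, (K z)⁻¹ i c * K (z + t • u) c j)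
          (∑ c, (K z)⁻¹ i c * DM K z u c j) 0 := by
        apply HasDerivAt.fun_sum
        intro c _
        apply HasDerivAt.const_mul
        have h2 : HasFDerivAt (fun w => K w c j) (fderiv ℝ (fun w => K w c j) z) (z + (0 : ℝ) • u) := by
          simpa using (hd c j).hasFDerivAt
        exact h2.comp_hasDerivAt (0 : ℝ) hline
      exact this
    · simp [Matrix.nonsing_inv_mul _ hu]
  have h2 : HasDerivAt (fun t : ℝ => (K (z + t • u)).det)
      (fderiv ℝ (fun w => (K w).det) z u) 0 := by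
    have h3 : HasFDerivAt (fun w => (K w).det) (fderiv ℝ (fun w => (K w).det) z)
        (z + (0 : ℝ) • u) := by
      simpa using hdet.hasFDerivAt
    exact h3.comp_hasDerivAt (0 : ℝ) hline
  have h4 : (fun t : ℝ => (K (z + t • u)).det) =
      fun t : ℝ => (K z).det * ((K z)⁻¹ * K (z + t • u)).det := by
    funext t
    rw [← Matrix.det_mul, ← mul_assoc, Matrix.mul_nonsing_inv _ hu, one_mul]
  rw [h4] at h2
  exact h2.unique (h1.const_mul _)

theorem trace_real (h : KD K U) {z : V n} (hz : z ∈ U) (u : V n) :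
    (((K z)⁻¹ * DM K z u).trace).im = 0 := by
  rw [← Complex.conj_eq_iff_im, ← Complex.star_def, ← Matrix.trace_conjTranspose,
    Matrix.conjTranspose_mul, DM_herm h hz, (h.pd z hz).1.inv.eq, Matrix.trace_mul_comm]

theorem contDiffOn_ld (h : KD K U) : ContDiffOn ℝ ∞ (ld K) U := by
  unfold ld
  refine ContDiffOn.log ?_ fun z hz => (det_re_pos h hz).1.ne'
  exact Complex.reCLM.contDiff.comp_contDiffOn (contDiffOn_det h.sm)

theorem fderiv_ld (h : KD K U) {z : V n} (hz : z ∈ U) (u : V n) :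
    ((fderiv ℝ (ld K) z u : ℝ) : ℂ) = ((K z)⁻¹ * DM K z u).trace := by
  have hdet : DifferentiableAt ℝ (fun w => (K w).det) z :=
    ((contDiffOn_det h.sm).contDiffAt (h.op.mem_nhds hz)).differentiableAt (by simp)
  obtain ⟨hp, hi⟩ := det_re_pos h hz
  have h1 : HasFDerivAt (fun w => (K w).det.re)
      (Complex.reCLM.comp (fderiv ℝ (fun w => (K w).det) z)) z :=
    Complex.reCLM.hasFDerivAt.comp z hdet.hasFDerivAt
  have h2 : HasFDerivAt (ld K)
      (((K z).det.re)⁻¹ • (Complex.reCLM.comp (fderiv ℝ (fun w => (K w).det) z))) z :=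
    h1.log hp.ne'
  have ht := trace_real h hz u
  rw [h2.fderiv]
  apply Complex.ext
  · simp only [FunLike.coe_smul, Pi.smul_apply, ContinuousLinearMap.comp_apply, smul_eq_mul,
      Complex.ofReal_re, Complex.reCLM_apply, fderiv_det h hz, Complex.mul_re, hi, zero_mul,
      sub_zero]
    field_simp
  · rw [ht]
    simp

/-- trace of the Chern connection -/
theorem trace_S (h : KD K U) {z : V n} (hz : z ∈ U) (u : V n) :
    (S K z u).trace = (1 / 2 : ℂ) * ((fderiv ℝ (ld K) z u : ℝ) -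
      I * (fderiv ℝ (ld K) z (I • u) : ℝ)) := by
  rw [fderiv_ld h hz, fderiv_ld h hz]
  unfold S D1
  rw [Matrix.mul_smul, Matrix.mul_sub, Matrix.mul_smul, Matrix.trace_smul, Matrix.trace_sub,
    Matrix.trace_smul, smul_eq_mul, smul_eq_mul]

theorem trace_DM {P : V n → Matrix (Fin n) (Fin n) ℂ} {z : V n}
    (hP : ∀ a b, DifferentiableAt ℝ (fun w => P w a b) z) (u : V n) :
    (DM P z u).trace = fderiv ℝ (fun w => (P w).trace) z u := by
  simp only [Matrix.trace, Matrix.diag_apply]
  rw [fderiv_fun_sum fun a _ => hP a a]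
  simp [DM_apply]

/-- second derivatives of `log det` -/
theorem trace_DM_S (h : KD K U) {z : V n} (hz : z ∈ U) (u v : V n) :
    (DM (fun y => S K y u) z v).trace = (1 / 2 : ℂ) *
      ((fderiv ℝ (fderiv ℝ (ld K)) z v u : ℝ) - I * (fderiv ℝ (fderiv ℝ (ld K)) z v (I • u) : ℝ)) := by
  rw [trace_DM (differentiableAt_entry h.op (contDiffOn_S h u) hz)]
  have h1 : (fun w => (S K w u).trace) =ᶠ[𝓝 z] fun z => (1 / 2 : ℂ) *
      ((fderiv ℝ (ld K) z u : ℝ) - I * (fderiv ℝ (ld K) z (I • u) : ℝ)) := by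
    filter_upwards [h.op.mem_nhds hz] with w hw
    exact trace_S h hw u
  rw [h1.fderiv_eq]
  have h2 : DifferentiableAt ℝ (fderiv ℝ (ld K)) z :=
    (((contDiffOn_ld h).fderiv_of_isOpen (m := ∞) h.op (by simp)).contDiffAt
      (h.op.mem_nhds hz)).differentiableAt (by simp)
  have h3 : ∀ x : V n, HasFDerivAt (fun z => ((fderiv ℝ (ld K) z x : ℝ) : ℂ))
      (Complex.ofRealCLM.comp ((fderiv ℝ (fderiv ℝ (ld K)) z).flip x)) z := by
    intro x
    refine Complex.ofRealCLM.hasFDerivAt.comp z ?_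
    have := h2.hasFDerivAt.clm_apply (hasFDerivAt_const x z)
    refine this.congr_fderiv ?_
    refine ContinuousLinearMap.ext fun y => ?_
    show fderiv ℝ (ld K) z (0 : V n) + (fderiv ℝ (fderiv ℝ (ld K)) z).flip x y = _
    rw [map_zero, zero_add]
  have h4 : HasFDerivAt (fun z => (1 / 2 : ℂ) *
      ((fderiv ℝ (ld K) z u : ℝ) - I * (fderiv ℝ (ld K) z (I • u) : ℝ))) _ z :=
    ((h3 u).sub ((h3 (I • u)).const_mul I)).const_mul (1 / 2 : ℂ)
  rw [h4.fderiv]
  simp

variable (e : V n ≃L[ℝ] EuclideanSpace ℝ (Fin m))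

theorem ricci_ij (h : KD K U) {y : EuclideanSpace ℝ (Fin m)} (hy : e.symm y ∈ U)
    (i j : Fin m) :
    ricci (hm e K) y i j = -(1 / 2) *
      (fderiv ℝ (fderiv ℝ (ld K)) (e.symm y) (bb e j) (bb e i) +
       fderiv ℝ (fderiv ℝ (ld K)) (e.symm y) (I • bb e j) (I • bb e i)) := by
  rw [ricci_D2 e h hy]
  unfold D2
  rw [Matrix.trace_smul, Matrix.trace_add, Matrix.trace_smul, trace_DM_S h hy, trace_DM_S h hy]
  simp
  ring

/-- **Ricci form of a Kaehler metric** -/
theorem ricci_hm (h : KD K U) {y : EuclideanSpace ℝ (Fin m)} (hy : e.symm y ∈ U)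
    (v : EuclideanSpace ℝ (Fin m)) :
    ∑ i, ∑ j, ricci (hm e K) y i j * v i * v j = -(1 / 2) *
      (iteratedFDeriv ℝ 2 (ld K) (e.symm y) ![e.symm v, e.symm v] +
       iteratedFDeriv ℝ 2 (ld K) (e.symm y) ![I • e.symm v, I • e.symm v]) := by
  set z := e.symm y with hz
  have hv : e.symm v = ∑ i, (v i) • bb e i := by
    conv_lhs => rw [← sum_bb e (e.symm v)]
    simp
  have hIv : I • e.symm v = ∑ i, (v i) • (I • bb e i) := by
    rw [hv, Finset.smul_sum]
    refine Finset.sum_congr rfl fun i _ => ?_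
    rw [smul_comm]
  rw [iteratedFDeriv_two_apply, iteratedFDeriv_two_apply]
  simp only [Matrix.cons_val_zero, Matrix.cons_val_one]
  rw [hIv, hv]
  simp only [map_sum, map_smul, FunLike.coe_sum, FunLike.coe_smul, Finset.sum_apply,
    Pi.smul_apply, smul_eq_mul]
  simp only [ricci_ij e h hy]
  rw [← Finset.sum_add_distrib, Finset.mul_sum]
  refine Finset.sum_congr rfl fun i _ => ?_
  rw [← mul_add, ← Finset.sum_add_distrib, Finset.mul_sum, Finset.mul_sum]
  refine Finset.sum_congr rfl fun j _ => ?_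
  ring

end

end Crest.Agent.R273.Ric_798
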