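import Crest.Agent.R273.RMan3_798
import Crest.Agent.R273.Ric5_798
import Crest.Agent.R273.Vol_333
import Crest.Agent.R273.UCovE_914

/-!
# R273 (S0416), leaf BGT-2 (helper798), part 4: the Riemannian manifold of a Kaehler metric

`ofKah K : RAtl (2 * n) M`, `hasRicci` : `cur (volK K) ≥ 0` gives `HasRicciLowerBound 0`,
`pullKah` : pull-back of a Kaehler metric to `D.cov F`, deck maps are isometries.
-/

set_option autoImplicit false
set_option linter.unusedSectionVars false

open Set Filter Topology Complex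
open scoped ContDiff Matrix ComplexConjugate Manifold ComplexOrder

namespace Crest.Agent.R273.RMan4_798

open Crest.Agent.R275.Geo Crest.Agent.R275.Core144 Crest.Agent.R275.EDR890
open Crest.Agent.R273.Defs_333 Crest.Agent.R273.Hess_333 Crest.Agent.R273.HessB_333
open Crest.Agent.R273.HM_333 Crest.Agent.R273.Kah_333 Crest.Agent.R273.Vol_333
open Crest.Agent.R273.Ric_798 Crest.Agent.R273.RMan_798 Crest.Agent.R273.UCov_914
open Crest.GeometryTopology.CoordMetric Crest.GeometryTopology.ChartCurvature
  Crest.GeometryTopology.PointedLimit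

noncomputable section

variable {n : ℕ} {M : Type} [TopologicalSpace M] {A : Atl n M}

/-- the Kaehler matrix in my convention -/
def KK (K : Kah A) (i : A.ι) (z : Cn n) : Matrix (Fin n) (Fin n) ℂ :=
  (K.g i ((A.e i).symm z))ᵀ

theorem kd (K : Kah A) (i : A.ι) : KD (KK K i) (A.e i).target where
  op := (A.e i).open_target
  sm a b := K.sm i b a
  pd z hz := (K.pos i _ ((A.e i).map_target hz)).transpose
  ka z hz u v := by
    have h1 : ∀ (u : Cn n) (b a : Fin n), D1 (KK K i) z u b a =
        ∑ c, u c * wd (false, c) (fun w => K.g i ((A.e i).symm w) a b) z := by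
      intro u b a
      have h2 := wdL_vec false (fderiv ℝ (fun w => K.g i ((A.e i).symm w) a b) z) u
      simp only [cI_false, smul_eq_mul, cj_false] at h2
      unfold D1
      simp only [Matrix.smul_apply, Matrix.sub_apply, smul_eq_mul, DM_apply, KK,
        Matrix.transpose_apply]
      refine Eq.trans ?_ h2
      ring
    funext b
    simp only [Matrix.mulVec, dotProduct, h1, Finset.sum_mul]
    rw [Finset.sum_comm]
    refine Finset.sum_congr rfl fun c _ => Finset.sum_congr rfl fun a _ => ?_
    rw [K.closed i z hz a b c]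
    ring

theorem ld_KK (K : Kah A) (i : A.ι) : ld (KK K i) = fun z => -((volK K).wt i z) := by
  funext z
  simp only [ld, KK, Matrix.det_transpose, HM.wt, neg_neg]
  rfl

/-- a real linear isomorphism `ℂⁿ ≃ ℝ²ⁿ` -/
def eR (n : ℕ) : Cn n ≃L[ℝ] EE (2 * n) :=
  ContinuousLinearEquiv.ofFinrankEq (by
    rw [finrank_real_of_complex, finrank_euclideanSpace_fin, finrank_euclideanSpace_fin])

/-- the chart into `ℝ²ⁿ` -/
def cR (A : Atl n M) (i : A.ι) : OpenPartialHomeomorph M (EE (2 * n)) :=
  (A.e i).trans (eR n).toHomeomorph.toOpenPartialHomeomorph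

@[simp] theorem cR_apply (i : A.ι) (x : M) : cR A i x = eR n (A.e i x) := rfl
@[simp] theorem cR_symm (i : A.ι) (y : EE (2 * n)) :
    (cR A i).symm y = (A.e i).symm ((eR n).symm y) := rfl
theorem cR_source (i : A.ι) : (cR A i).source = (A.e i).source := by
  simp [cR]
theorem cR_target (i : A.ι) : (cR A i).target = {y | (eR n).symm y ∈ (A.e i).target} := by
  ext y
  simp [cR]

theorem hm_apply' (K : V n → Matrix (Fin n) (Fin n) ℂ) (y : EE (2 * n)) (a b : Fin (2 * n)) :
    hm (eR n) K y a b = G K ((eR n).symm y) ((eR n).symm (EuclideanSpace.single a 1))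
      ((eR n).symm (EuclideanSpace.single b 1)) := rfl

theorem contDiffOn_hm {K : V n → Matrix (Fin n) (Fin n) ℂ} {U : Set (V n)} (h : KD K U)
    (a b : Fin (2 * n)) : ContDiffOn ℝ ∞ (fun y => hm (eR n) K y a b) {y | (eR n).symm y ∈ U} := by
  have h1 : ∀ u v : V n, ContDiffOn ℝ ∞ (fun z => G K z u v) U := by
    intro u v
    unfold G
    refine Complex.reCLM.contDiff.comp_contDiffOn ?_
    simp only [dotProduct, Matrix.mulVec]
    exact ContDiffOn.sum fun c _ => contDiffOn_const.mul
      (ContDiffOn.sum fun d _ => (h.sm c d).mul contDiffOn_const)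
  exact (h1 _ _).comp (eR n).symm.contDiff.contDiffOn fun y hy => hy

/-- transformation law of the real metric -/
theorem G_tr (K : Kah A) {i j : A.ι} {x : M} (hx : x ∈ (A.e i).source ∩ (A.e j).source)
    (u v : Cn n) :
    G (KK K i) (A.e i x) u v = G (KK K j) (A.e j x)
      (fderiv ℝ (fun w => A.e j ((A.e i).symm w)) (A.e i x) u)
      (fderiv ℝ (fun w => A.e j ((A.e i).symm w)) (A.e i x) v) := by
  have hd : DifferentiableAt ℂ (fun w => A.e j ((A.e i).symm w)) (A.e i x) := by
    have ho : IsOpen (A.ov i j) := isOpen_ov i j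
    exact (A.holo i j).differentiableAt (ho.mem_nhds (mem_ov hx))
  have hJ : ∀ u : Cn n, (fderiv ℝ (fun w => A.e j ((A.e i).symm w)) (A.e i x) u).ofLp =
      Jm A i j x *ᵥ u.ofLp := by
    intro u
    rw [hd.fderiv_restrictScalars ℝ]
    have hu : u = ∑ a, u a • EuclideanSpace.single a (1 : ℂ) := by
      ext b
      simp [Finset.sum_apply, Pi.single_apply]
    funext b
    conv_lhs => rw [hu]
    simp only [ContinuousLinearMap.coe_restrictScalars', map_sum, map_smul, Matrix.mulVec,
      dotProduct, Jm, Matrix.of_apply, Atl.J]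
    simp [Finset.sum_apply, mul_comm]
  have hi : KK K i (A.e i x) = (K.g i x)ᵀ := by
    unfold KK
    rw [(A.e i).left_inv hx.1]
  have hj : KK K j (A.e j x) = (K.g j x)ᵀ := by
    unfold KK
    rw [(A.e j).left_inv hx.2]
  unfold G
  rw [hJ, hJ, hi, hj, K.tr i j x hx]
  congr 1
  have h1 : ((Jm A i j x).map conj)ᵀ = (Jm A i j x)ᴴ := rfl
  rw [Matrix.transpose_mul, Matrix.transpose_mul, Matrix.transpose_transpose, h1,
    Matrix.star_mulVec, ← Matrix.dotProduct_mulVec, Matrix.mulVec_mulVec, Matrix.mulVec_mulVec,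
    mul_assoc]

/-- **the Riemannian chart data of a Kaehler metric** -/
def ofKah (K : Kah A) : RAtl (2 * n) M where
  ι := A.ι
  c := cR A
  cover x := by
    obtain ⟨i, hi⟩ := A.cover x
    exact ⟨i, by rw [cR_source]; exact hi⟩
  smt i j := by
    have h1 : ContDiffOn ℝ ∞ (fun w => A.e j ((A.e i).symm w)) (A.ov i j) :=
      ((Crest.Agent.R266.SCV.contDiffOn_omega_of_differentiableOn (isOpen_ov i j)
        (A.holo i j)).restrict_scalars ℝ).of_le le_top
    have h2 : ContDiffOn ℝ ∞ (fun y : EE (2 * n) => eR n (A.e j ((A.e i).symm ((eR n).symm y))))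
        {y | (eR n).symm y ∈ A.ov i j} :=
      (eR n).contDiff.comp_contDiffOn
        (h1.comp (eR n).symm.contDiff.contDiffOn fun y hy => hy)
    refine h2.mono ?_
    rintro y ⟨hy1, hy2⟩
    rw [cR_target] at hy1
    rw [cR_source] at hy2
    exact ⟨hy1, hy2⟩
  G i := hm (eR n) (KK K i)
  Gsm i a b := by
    rw [cR_target]
    exact contDiffOn_hm (kd K i) a b
  Gpd i y hy := by
    rw [cR_target] at hy
    exact hm_posDef (eR n) (kd K i) hy
  Gtr i j x hx v w := by
    rw [cR_source, cR_source] at hx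
    have hd : DifferentiableAt ℂ (fun w => A.e j ((A.e i).symm w)) (A.e i x) := by
      have ho : IsOpen (A.ov i j) := isOpen_ov i j
      exact (A.holo i j).differentiableAt (ho.mem_nhds (mem_ov hx))
    have hdr : DifferentiableAt ℝ (fun w => A.e j ((A.e i).symm w)) (A.e i x) :=
      hd.restrictScalars ℝ
    have h0 : (eR n).symm (cR A i x) = A.e i x := by simp
    have hf : ∀ v : EE (2 * n), fderiv ℝ (fun y => cR A j ((cR A i).symm y)) (cR A i x) v =
        eR n (fderiv ℝ (fun w => A.e j ((A.e i).symm w)) (A.e i x) ((eR n).symm v)) := by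
      intro v
      have h1 : HasFDerivAt (fun y => cR A j ((cR A i).symm y))
          (((eR n : Cn n →L[ℝ] EE (2 * n)).comp
            (fderiv ℝ (fun w => A.e j ((A.e i).symm w)) (A.e i x))).comp
            ((eR n).symm : EE (2 * n) →L[ℝ] Cn n)) (cR A i x) := by
        have h2 : HasFDerivAt (fun w => A.e j ((A.e i).symm w))
            (fderiv ℝ (fun w => A.e j ((A.e i).symm w)) (A.e i x))
            ((eR n).symm (cR A i x)) := by
          rw [h0]
          exact hdr.hasFDerivAt
        exact ((eR n : Cn n →L[ℝ] EE (2 * n)).hasFDerivAt.comp _ h2).comp (cR A i x)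
          ((eR n).symm : EE (2 * n) →L[ℝ] Cn n).hasFDerivAt
      rw [h1.fderiv]
      rfl
    rw [hf, hf]
    have hi : (KK K i ((eR n).symm (cR A i x))).IsHermitian := by
      rw [h0]; exact ((kd K i).pd _ ((A.e i).map_source hx.1)).1
    have h0' : (eR n).symm (cR A j x) = A.e j x := by simp
    have hj : (KK K j ((eR n).symm (cR A j x))).IsHermitian := by
      rw [h0']; exact ((kd K j).pd _ ((A.e j).map_source hx.2)).1
    rw [sum_hm (eR n) hi, sum_hm (eR n) hj, h0, h0', G_tr K hx]
    simp

theorem ricci_nonneg (K : Kah A) (hR : (volK K).Semipos) (i : A.ι) {y : EE (2 * n)}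
    (hy : (eR n).symm y ∈ (A.e i).target) (v : EE (2 * n)) :
    0 ≤ ∑ a, ∑ b, ricci (hm (eR n) (KK K i)) y a b * v a * v b := by
  have h1 := ricci_hm (eR n) (kd K i) hy v
  have h2 := hR i _ hy ((eR n).symm v)
  have h3 : ∀ u : Cn n, iteratedFDeriv ℝ 2 (ld (KK K i)) ((eR n).symm y) ![u, u] =
      -iteratedFDeriv ℝ 2 ((volK K).wt i) ((eR n).symm y) ![u, u] := by
    intro u
    rw [ld_KK, show (fun z => -((volK K).wt i z)) = -((volK K).wt i) from rfl,
      iteratedFDeriv_neg_apply]
    rfl
  rw [h3, h3] at h1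
  rw [h1]
  unfold lev at h2
  linarith

/-- **Ricci curvature** -/
theorem hasRicci (K : Kah A) (hR : (volK K).Semipos) :
    HasRicciLowerBound (2 * n) (ofKah K).M 0 := by
  refine (ofKah K).hasRicciLowerBound fun i y hy v => ?_
  rw [zero_mul]
  exact ricci_nonneg K hR i ((Set.ext_iff.1 (cR_target (A := A) i) y).1 hy) v

/-! ### coverings -/

variable {G : Type} [Group G] (D : MonD A G) (F : Type) [MulAction G F]

/-- pull-back of a Kaehler metric -/
def pullKah (K : Kah A) : Kah (D.atl F) where
  g p e := K.g p.1 (D.pr e)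
  sm p a b := K.sm p.1 a b
  pos p _ he := K.pos p.1 _ he.1
  tr p q _ he := K.tr p.1 q.1 _ ⟨he.1.1, he.2.1⟩
  closed p z hz a b c := K.closed p.1 z hz a b c
  closed' p z hz a b c := K.closed' p.1 z hz a b c

theorem volK_pull_semipos {K : Kah A} (h : (volK K).Semipos) : (volK (pullKah D F K)).Semipos :=
  fun p z hz v => h p.1 z hz v

instance actM (K : Kah A) : MulAction G (ofKah (pullKah D G K)).M :=
  inferInstanceAs (MulAction G (D.cov G))

/-- deck maps are isometries in the charts -/
theorem chIso_deck (K : Kah A) (g : G) :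
    RAtl.ChIso (ofKah (pullKah D G K)) (ofKah (pullKah D G K))
      (fun e : (ofKah (pullKah D G K)).M => g • e) := by
  rintro (e : D.cov G)
  obtain ⟨i, hi⟩ := A.cover (D.pr e)
  refine ⟨((i, D.co i e) : A.ι × G), ((i, D.co i (g • e)) : A.ι × G), ?_, ?_, rfl⟩
  · exact (Set.ext_iff.1 (cR_source (A := D.atl G) (i, D.co i e)) e).2 ⟨hi, rfl⟩
  · have h1 : ∀ᶠ y in 𝓝 (g • e), y ∈ D.sheet i (D.co i (g • e)) :=
      (D.isOpen_sheet i _).mem_nhds ⟨hi, rfl⟩
    have h3 : Continuous (fun e : D.cov G => g • e) := continuous_const_smul g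
    have h2 : ∀ᶠ y : D.cov G in 𝓝 e, g • y ∈ D.sheet i (D.co i (g • e)) :=
      (h3.continuousAt (x := e)).eventually h1
    refine Filter.Eventually.mono h2 fun y hy => ⟨?_, rfl⟩
    exact (Set.ext_iff.1 (cR_source (A := D.atl G) (i, D.co i (g • e))) (g • y)).2 hy

end

end Crest.Agent.R273.RMan4_798
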