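import Crest.Agent.R273.ClassD_945
import Crest.Agent.R273.ParI_880
import Crest.Agent.R273.PCovB_835
import Crest.Agent.R273.Dsc_333
import Crest.Agent.R273.NoHVF_376
import Crest.Agent.R273.HFlowC_376
import Crest.Agent.R273.NoVF_534
import Crest.Agent.R273.FlatSec_534
import Crest.Agent.R273.RMan4_798
import Crest.Agent.R273.EqvC_914

/-!
# R273 (S0416), Part B, global assembly (helper534): the strong induction over `MainN`

`Pol A K`   : `K` is a positive multiple of the curvature of a metric on `O(1)`;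
`Equi G M`  : equicontinuous action;
`HasSus K`  : `(M, K)` has the normal form `(ℂ^g × Y) / G` (333's `Sus`);
`NFStmt`, `SubStmt`, `LiftStmt`, `BBStmt`, `CaseCStmt`, `EquiStmt` : the inputs of the owners;
`sus_main`  : the induction step for a manifold in normal form;
`main_of`   : `Main`.
-/

set_option autoImplicit false
set_option linter.unusedSectionVars false

open Set Metric Filter Topology Complex Function
open scoped ContDiff Matrix ComplexConjugate

namespace Crest.Agent.R273.AsmB_534

open Crest.Agent.R275.Geo Crest.Agent.R275.Core144 Crest.Agent.R275.GC293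
open Crest.Agent.R275.SerG398
open Crest.Agent.R273.Defs_333 Crest.Agent.R273.HM_333 Crest.Agent.R273.Hess_333
open Crest.Agent.R273.Kah_333 Crest.Agent.R273.Vol_333 Crest.Agent.R273.FS_333
open Crest.Agent.R273.Map_835 Crest.Agent.R273.PB_835 Crest.Agent.R273.Prd_835
open Crest.Agent.R273.UCov_914 Crest.Agent.R273.Sus_333 Crest.Agent.R273.TorDefs_422
open Crest.Agent.R273.PartA_61 Crest.Agent.R273.LamN127 Crest.Agent.R273.TD3_733
open Crest.Agent.R273.HFlow3_376 Crest.Agent.R273.RMan4_798
open Crest.Agent.R273.YauDefs_635 (YauStmt)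

noncomputable section

variable {n : ℕ} {M : Type} [TopologicalSpace M] {A : Atl n M}

/-! ### polarisations -/

/-- the Kaehler form is the curvature of a line bundle and a positive multiple of it is the
curvature of a metric on `O(1)` -/
structure Pol (A : Atl n M) (K : Kah A) where
  P : ProjD A
  H : HM (lb P)
  c : ℝ
  cpos : 0 < c
  cur : ∀ i, ∀ x ∈ (A.e i).source, Kah_333.cur H i x = (c : ℂ) • K.g i x
  L : LB A
  hL : HM L
  curL : ∀ i, ∀ x ∈ (A.e i).source, Kah_333.cur hL i x = K.g i x

theorem cur_cast {L L' : LB A} (h : HM L) (e : L = L') (i : A.ι) (x : M) :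
    Kah_333.cur (MonD.HM.cast h e) i x = Kah_333.cur h i x := by
  subst e
  rfl

/-- polarisations of finite coverings -/
theorem Pol.cov [T2Space M] [CompactSpace M] [Finite A.ι] {G : Type} [Group G] (D : MonD A G)
    {F : Type} [MulAction G F] [Finite F] (PA : Part (D.atl F)) {K : Kah A} (p : Pol A K) :
    Nonempty (Pol (D.atl F) (pullKah D F K)) := by
  obtain ⟨m0, h⟩ := PCov_835.pcov_cov D F PA (D13_505.d2 PA (pullKah D F K)) p.P
  obtain ⟨P', hP'⟩ := h (m0 + 1) (Nat.le_succ _)
  refine ⟨{ P := P'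
            H := MonD.HM.cast (HM_333.pow (D.pullHM (F := F) p.H) (m0 + 1)) hP'.symm
            c := (m0 + 1 : ℕ) * p.c
            cpos := mul_pos (Nat.cast_pos.2 (Nat.succ_pos _)) p.cpos
            cur := ?_
            L := D.pullLB F p.L
            hL := D.pullHM (F := F) p.hL
            curL := fun i x hx => p.curL i.1 (D.pr x) hx.1 }⟩
  intro i x hx
  rw [cur_cast, cur_pow _ _ _ hx]
  have h1 : Kah_333.cur (D.pullHM (F := F) p.H) i x = Kah_333.cur p.H i.1 (D.pr x) := rfl
  rw [h1, p.cur _ _ hx.1, smul_smul]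
  push_cast
  rfl

/-! ### equicontinuous actions -/

/-- the action is equicontinuous -/
def Equi (G M : Type) [TopologicalSpace M] [SMul G M] : Prop :=
  ∀ U ∈ 𝓝ˢ (diagonal M), ∃ V ∈ 𝓝ˢ (diagonal M), ∀ (g : G) (x y : M), (x, y) ∈ V →
    (g • x, g • y) ∈ U

/-- topological form of `NoVF_534.finite_of_equicont` -/
theorem finite_of_equi [T2Space M] [CompactSpace M] [Finite A.ι]
    (hV : ∀ V : HVF A, ∀ i, ∀ x ∈ (A.e i).source, V.X i x = 0)
    {G : Type} [Group G] [MulAction G M] (hG : ∀ g : G, HolMap A A (fun x => g • x))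
    (heq : Equi G M) : (MulAction.toPermHom G M).ker.FiniteIndex := by
  let _ : UniformSpace M := uniformSpaceOfCompactR1
  exact NoVF_534.finite_of_equicont hV (fun g => HFlowC_376.holM_of_holMap (hG g)) heq

/-! ### the normal form -/

/-- `(M, K)` has the normal form `(ℂ^g × Y) / G` -/
inductive HasSus : {n : ℕ} → {M : Type} → [TopologicalSpace M] → {A : Atl n M} → Kah A → Prop
  | mk {g d : ℕ} {M : Type} [TopologicalSpace M] {A : Atl (g + d) M} (K : Kah A) (G : Type)
      [CommGroup G] [Group.FG G] (D : MonD A G) [SimplyConnectedSpace (D.cov G)] (Y : Type)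
      [TopologicalSpace Y] [T2Space Y] [CompactSpace Y] [SimplyConnectedSpace Y]
      [MulAction G Y] (B : Atl d Y) [Finite B.ι] (hB : GoodA B) (pB : Nonempty (Part B))
      (S : Sus D K B) (hl : Injective S.lam) : HasSus K

/-- NF (127 + 645): a finite covering has the normal form -/
def NFStmt : Prop :=
  ∀ (n : ℕ) (M : Type) [TopologicalSpace M] [T2Space M] [CompactSpace M] [ConnectedSpace M]
    (A : Atl n M) [Finite A.ι], GoodA A → Part A → ∀ K : Kah A, (volK K).Semipos →
    ∃ (G : Type) (_ : Group G) (D : MonD A G) (F : Type) (_ : MulAction G F), Finite F ∧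
      Nonempty F ∧ ConnectedSpace (D.cov F) ∧ HasSus (pullKah D F K)

/-- the situation of the induction step -/
structure Sit {g d : ℕ} {M : Type} [TopologicalSpace M] (A : Atl (g + d) M) (K : Kah A)
    (G : Type) [CommGroup G] (D : MonD A G) (Y : Type) [TopologicalSpace Y] [MulAction G Y]
    (B : Atl d Y) where
  goodA : GoodA A
  part : Part A
  pol : Pol A K
  ric : (volK K).Semipos
  goodB : GoodA B
  partB : Part B
  S : Sus D K B
  inj : Injective S.lam

/-- SUB (333): the normal form of the covering which belongs to a subgroup of finite index -/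
def SubStmt : Prop :=
  ∀ (g d : ℕ) (M : Type) [TopologicalSpace M] (A : Atl (g + d) M) (K : Kah A)
    (G : Type) [CommGroup G] (D : MonD A G) (Y : Type) [TopologicalSpace Y] [MulAction G Y]
    (B : Atl d Y) (S : Sus D K B), Injective S.lam → ∀ H : Subgroup G, H.FiniteIndex →
    ∃ S' : Sus (D.sub H) (pullKah D (G ⧸ H) K) B, Injective S'.lam ∧ S'.KY = S.KY

/-- LIFTS (522): finite index subgroup acting diagonally -/
def LiftStmt : Prop :=
  ∀ (d : ℕ) (Y : Type) [TopologicalSpace Y] [T2Space Y] [CompactSpace Y]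
    [SimplyConnectedSpace Y] (B : Atl d Y) [Finite B.ι], GoodA B → Part B → ∀ K : Kah B,
    (volK K).Semipos → Pol B K → (∀ q, 1 ≤ q → hB (BN (1 : LB B)) q = 0) →
    ∀ (G : Type) [CommGroup G] [Group.FG G] [MulAction G Y],
      (∀ γ : G, HolMap B B (fun y => γ • y)) →
      (∀ (γ : G) i j, ∀ x ∈ (B.e i).source, γ • x ∈ (B.e j).source →
        K.g i x = (Ja B γ i j x)ᵀ * K.g j (γ • x) * (Ja B γ i j x).map conj) →
      ∃ (H : Subgroup G) (_ : H.FiniteIndex) (T : TorD B H), T.h = volK K

/-- the bridge (914 + 333) from Part A on `M` to the black box on the fibre -/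
def BBStmt : Prop :=
  ∀ (g d : ℕ) (M : Type) [TopologicalSpace M] [T2Space M] [CompactSpace M] [ConnectedSpace M]
    (A : Atl (g + d) M) [Finite A.ι] (K : Kah A) (G : Type) [CommGroup G] (D : MonD A G)
    (Y : Type) [TopologicalSpace Y] [T2Space Y] [CompactSpace Y] [ConnectedSpace Y]
    [MulAction G Y] (B : Atl d Y) [Finite B.ι] (S : Sus D K B), GoodA A → Part A →
    PartAt A (volK K) → BB (volK S.KY) G

/-- N2 : actions by holomorphic isometries are equicontinuous -/
def EquiStmt : Prop :=
  ∀ (n : ℕ) (M : Type) [TopologicalSpace M] [T2Space M] [CompactSpace M] [ConnectedSpace M]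
    (A : Atl n M) [Finite A.ι], GoodA A → Part A → ∀ (K : Kah A) (G : Type) [Group G]
    [MulAction G M], (∀ γ : G, HolMap A A (fun y => γ • y)) →
      (∀ (γ : G) i j, ∀ x ∈ (A.e i).source, γ • x ∈ (A.e j).source →
        K.g i x = (Ja A γ i j x)ᵀ * K.g j (γ • x) * (Ja A γ i j x).map conj) → Equi G M

/-- case C (836): the fibre splits -/
def CaseCStmt : Prop :=
  ∀ (g d : ℕ) (M : Type) [TopologicalSpace M] [T2Space M] [CompactSpace M] [ConnectedSpace M]
    (A : Atl (g + d) M) [Finite A.ι] (K : Kah A) (G : Type) [CommGroup G] [Group.FG G]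
    (D : MonD A G) [SimplyConnectedSpace (D.cov G)] (Y : Type) [TopologicalSpace Y] [T2Space Y]
    [CompactSpace Y] [SimplyConnectedSpace Y] [MulAction G Y] (B : Atl d Y) [Finite B.ι]
    (X : Sit A K G D Y B), (∀ m < g + d, MainN m) →
    ∀ (C : ParI_880.CanS X.S.KY) (r : ℕ), C.S.IsRk r → 0 < r → r < d →
    ∃ m : ℕ, 0 < m ∧ HasSec ((KB A)⁻¹ ^ m)

end

end Crest.Agent.R273.AsmB_534
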