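import Crest.Agent.R273.AsmA_73
import Crest.Agent.R273.SerE_945

/-!
# R273 (S0416), master of Part A, half 1, part B (helper73): bounds of the weights

`GW S W`  : `W ≥ c ‖σ‖²` for a nowhere vanishing section `σ` of a line bundle over `S.U`
`YD` : the weights of the corner theorem are in `GW`
-/

set_option autoImplicit false
set_option linter.unusedSectionVars false

open Set Filter Topology Complex MeasureTheory
open scoped ContDiff Matrix ENNReal

namespace Crest.Agent.R273.AsmA_73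

open Crest.Agent.R275.Geo Crest.Agent.R275.Core144 Crest.Agent.R275.GC293
open Crest.Agent.R273.SteinA_794
open Crest.Agent.R273.SteinB_794 Crest.Agent.R273.SteinC_794 Crest.Agent.R273.SteinD_794
open Crest.Agent.R273.SteinM_794 Crest.Agent.R273.SteinN_794 Crest.Agent.R273.SteinL_794
open Crest.Agent.R273.Defs_333 (ProjD HM HM.wt HM.Semipos HasSec)
open Crest.Agent.R273.Vm_333 (vm)
open Crest.Agent.R273.Kah_333 (cur)
open Crest.Agent.R271.Ho51 (RDom cp ch IsCh IsLeb Hol Sm mem_ch isCh_ch Levi)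
open Crest.Agent.R271.W792 (lev)
open Crest.Agent.R273.Pen_93 Crest.Agent.R273.PenAlg_93
open Crest.Agent.R273.Reg_844 (PSH)

noncomputable section

variable {n : ℕ} {M : Type} [TopologicalSpace M] {A : Atl n M}

/-! ### frames -/

/-- `W ≥ c ‖σ‖²` for a nowhere vanishing section `σ` over `S.U` of a line bundle -/
def GW (S : SD A) (W : Mo S → ℝ) : Prop :=
  ∃ (N : LB A) (hN : HM N) (σ : A.ι → M → ℂ), IsHS N S.U σ ∧
    (∀ i, ∀ x ∈ (A.e i).source, x ∈ S.U → σ i x ≠ 0) ∧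
    ∃ c : ℝ, 0 < c ∧ ∀ x : Mo S, c * Real.exp (-(wtS hN σ x.val)) ≤ W x

section GW

variable {S : SD A}

theorem ne_mul {σ τ : A.ι → M → ℂ} (h0 : ∀ i, ∀ x ∈ (A.e i).source, x ∈ S.U → σ i x ≠ 0)
    (h1 : ∀ i, ∀ x ∈ (A.e i).source, x ∈ S.U → τ i x ≠ 0) :
    ∀ i, ∀ x ∈ (A.e i).source, x ∈ S.U → (σ * τ) i x ≠ 0 :=
  fun i x hx hxU => mul_ne_zero (h0 i x hx hxU) (h1 i x hx hxU)

theorem exp_mul {L L' : LB A} (h : HM L) (h' : HM L') {σ τ : A.ι → M → ℂ} (hσ : IsHS L S.U σ)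
    (hτ : IsHS L' S.U τ) (h0 : ∀ i, ∀ x ∈ (A.e i).source, x ∈ S.U → σ i x ≠ 0)
    (h1 : ∀ i, ∀ x ∈ (A.e i).source, x ∈ S.U → τ i x ≠ 0) {x : M} (hxU : x ∈ S.U) :
    Real.exp (-(wtS (HM_333.mul h h') (σ * τ) x)) =
      Real.exp (-(wtS h σ x)) * Real.exp (-(wtS h' τ x)) := by
  obtain ⟨i, hx⟩ := A.cover x
  rw [exp_wtS _ (hσ.mul hτ) (ne_mul h0 h1) hx hxU, exp_wtS _ hσ h0 hx hxU,
    exp_wtS _ hτ h1 hx hxU]
  show ‖σ i x * τ i x‖ ^ 2 * (h.w i x * h'.w i x) = _
  rw [norm_mul]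
  ring

theorem wtS_mul {L L' : LB A} (h : HM L) (h' : HM L') {σ τ : A.ι → M → ℂ} (hσ : IsHS L S.U σ)
    (hτ : IsHS L' S.U τ) (h0 : ∀ i, ∀ x ∈ (A.e i).source, x ∈ S.U → σ i x ≠ 0)
    (h1 : ∀ i, ∀ x ∈ (A.e i).source, x ∈ S.U → τ i x ≠ 0) {x : M} (hxU : x ∈ S.U) :
    wtS (HM_333.mul h h') (σ * τ) x = wtS h σ x + wtS h' τ x := by
  have h2 := exp_mul h h' hσ hτ h0 h1 hxU
  rw [← Real.exp_add, Real.exp_eq_exp] at h2
  linarith

theorem oneS_ne (i : A.ι) (x : M) (hx : x ∈ (A.e i).source) (_ : x ∈ S.U) : oneS A i x ≠ 0 := by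
  simp [oneS, hx]

theorem wtS_one {x : M} (hxU : x ∈ S.U) : wtS (HM_333.one A) (oneS A) x = 0 := by
  obtain ⟨i, hx⟩ := A.cover x
  have h := exp_wtS (S := S) (HM_333.one A) (isHS_oneS S.U) oneS_ne hx hxU
  have h1 : ‖oneS A i x‖ ^ 2 * (HM_333.one A).w i x = 1 := by
    show ‖oneS A i x‖ ^ 2 * 1 = 1
    simp [oneS, hx]
  rw [h1, Real.exp_eq_one_iff] at h
  linarith

namespace GW

theorem of_frame {N : LB A} (hN : HM N) {σ : A.ι → M → ℂ} (hσ : IsHS N S.U σ)
    (h0 : ∀ i, ∀ x ∈ (A.e i).source, x ∈ S.U → σ i x ≠ 0) :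
    GW S fun x => Real.exp (-(wtS hN σ x.val)) :=
  ⟨N, hN, σ, hσ, h0, 1, one_pos, fun x => by rw [one_mul]⟩

theorem mono {W W' : Mo S → ℝ} (h : GW S W) {c : ℝ} (hc : 0 < c) (hle : ∀ x, c * W x ≤ W' x) :
    GW S W' := by
  obtain ⟨N, hN, σ, hσ, h0, c', hc', h1⟩ := h
  refine ⟨N, hN, σ, hσ, h0, c * c', mul_pos hc hc', fun x => ?_⟩
  rw [mul_assoc]
  exact (mul_le_mul_of_nonneg_left (h1 x) hc.le).trans (hle x)

theorem const {c : ℝ} (hc : 0 < c) : GW S fun _ => c :=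
  ⟨1, HM_333.one A, oneS A, isHS_oneS S.U, oneS_ne, c, hc, fun x => by
    rw [wtS_one x.prop, neg_zero, Real.exp_zero, mul_one]⟩

theorem mul {W W' : Mo S → ℝ} (h : GW S W) (h' : GW S W') : GW S fun x => W x * W' x := by
  obtain ⟨N, hN, σ, hσ, h0, c, hc, h1⟩ := h
  obtain ⟨N', hN', σ', hσ', h0', c', hc', h1'⟩ := h'
  refine ⟨N * N', HM_333.mul hN hN', σ * σ', hσ.mul hσ', ne_mul h0 h0', c * c', mul_pos hc hc',
    fun x => ?_⟩
  rw [exp_mul hN hN' hσ hσ' h0 h0' x.prop]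
  calc c * c' * (Real.exp (-(wtS hN σ x.val)) * Real.exp (-(wtS hN' σ' x.val)))
      = (c * Real.exp (-(wtS hN σ x.val))) * (c' * Real.exp (-(wtS hN' σ' x.val))) := by ring
    _ ≤ W x * W' x := mul_le_mul (h1 x) (h1' x) (by positivity)
        ((by positivity : 0 ≤ c * Real.exp (-(wtS hN σ x.val))).trans (h1 x))

theorem pow {W : Mo S → ℝ} (h : GW S W) : ∀ k : ℕ, GW S fun x => W x ^ k
  | 0 => by simpa using const (S := S) one_pos
  | k + 1 => by
    have h1 := (pow h k).mul h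
    simpa [pow_succ] using h1

theorem prod {κ : Type*} (s : Finset κ) {W : κ → Mo S → ℝ} (h : ∀ k ∈ s, GW S (W k)) :
    GW S fun x => ∏ k ∈ s, W k x := by
  classical
  induction s using Finset.induction_on with
  | empty => simpa using const (S := S) one_pos
  | insert a s ha ih =>
    have h1 := (h a (Finset.mem_insert_self a s)).mul
      (ih fun k hk => h k (Finset.mem_insert_of_mem hk))
    simpa [Finset.prod_insert ha] using h1

end GW

end GW

/-! ### bounded norms -/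

theorem continuousOn_w {L : LB A} (h : HM L) (i : A.ι) : ContinuousOn (h.w i) (A.e i).source := by
  have h1 : ContinuousOn (fun z => h.w i ((A.e i).symm z)) (A.e i).target := (h.sm i).continuousOn
  have h2 := h1.comp (A.e i).continuousOn fun x hx => (A.e i).map_source hx
  refine h2.congr fun x hx => ?_
  simp [(A.e i).left_inv hx]

/-- the norm of a global section is bounded -/
theorem nsq_bdd [CompactSpace M] {L : LB A} (h : HM L) {s : A.ι → M → ℂ} (hs : IsHS L univ s) :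
    ∃ C : ℝ, 0 < C ∧ ∀ i, ∀ x ∈ (A.e i).source, ‖s i x‖ ^ 2 * h.w i x ≤ C := by
  have h1 : ∀ x : M, ∃ K : ℝ, ∀ᶠ y in 𝓝 x, HM_333.nsq h s (A.cover y).choose y ≤ K := by
    intro x
    obtain ⟨i, hi⟩ := A.cover x
    have c1 : ContinuousAt (s i) x := continuousAt_of_holAt isOpen_univ (hs.hol i) hi (mem_univ x)
    have c2 : ContinuousAt (h.w i) x :=
      (continuousOn_w h i).continuousAt ((A.e i).open_source.mem_nhds hi)
    have c3 : ContinuousAt (fun y => HM_333.nsq h s i y) x := (c1.norm.pow 2).mul c2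
    refine ⟨HM_333.nsq h s i x + 1, ?_⟩
    filter_upwards [c3.eventually (gt_mem_nhds (lt_add_one _)),
      (A.e i).open_source.mem_nhds hi] with y hy hyi
    rw [HM_333.nsq_indep h hs ⟨(A.cover y).choose_spec, hyi⟩ (mem_univ y)]
    exact hy.le
  have h2 : ∃ K : ℝ, ∀ x ∈ (univ : Set M), HM_333.nsq h s (A.cover x).choose x ≤ K := by
    refine isCompact_univ.induction_on (p := fun t => ∃ K : ℝ, ∀ x ∈ t,
      HM_333.nsq h s (A.cover x).choose x ≤ K) ⟨0, by simp⟩ ?_ ?_ ?_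
    · rintro t t' ht ⟨K, hK⟩
      exact ⟨K, fun x hx => hK x (ht hx)⟩
    · rintro t t' ⟨K, hK⟩ ⟨K', hK'⟩
      refine ⟨max K K', fun x hx => ?_⟩
      rcases hx with hx | hx
      · exact (hK x hx).trans (le_max_left _ _)
      · exact (hK' x hx).trans (le_max_right _ _)
    · intro x _
      obtain ⟨K, hK⟩ := h1 x
      exact ⟨_, mem_nhdsWithin_of_mem_nhds hK, K, fun y hy => hy⟩
  obtain ⟨K, hK⟩ := h2
  refine ⟨|K| + 1, by positivity, fun i x hx => ?_⟩
  have h3 := hK x (mem_univ x)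
  rw [HM_333.nsq_indep h hs ⟨(A.cover x).choose_spec, hx⟩ (mem_univ x)] at h3
  exact h3.trans ((le_abs_self K).trans (by linarith))

/-! ### finite dimension -/

theorem secM [Finite A.ι] : SecondCountableTopology M := by
  have h1 : ∀ i, SecondCountableTopology (A.e i).source := fun i =>
    (A.e i).toHomeomorphSourceTarget.secondCountableTopology
  exact TopologicalSpace.secondCountableTopology_of_countable_cover
    (U := fun i => (A.e i).source) (fun i => (A.e i).open_source)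
    (eq_univ_of_forall fun x => mem_iUnion.2 (A.cover x))

section fin

variable [T2Space M] [CompactSpace M] [ConnectedSpace M] [Finite A.ι] {S : SD A}
  {μ : Measure (Mo S)}

/-- sections of `K N` as functions, in the frame `dz ⊗ σ` -/
def rat (S : SD A) (N : LB A) (σ : A.ι → M → ℂ) : HS (KB A * N) univ →ₗ[ℂ] (Mo S → ℂ) where
  toFun s x := s.1 (A.cover x.val).choose x.val /
    (zf S (A.cover x.val).choose x.val * σ (A.cover x.val).choose x.val)
  map_add' s t := by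
    funext x
    show (s.1 _ _ + t.1 _ _) / _ = _
    rw [add_div]
    rfl
  map_smul' c s := by
    funext x
    show (c * s.1 _ _) / _ = c * _
    rw [mul_div_assoc]

/-- **finite dimension** -/
theorem fd_of_GW (P : Part A) (h : HM (KB A)⁻¹) (hμ : IsLeb μ) {LD : LB A} {d : A.ι → M → ℂ}
    (hd : IsHS LD univ d) (hd0 : ∃ i, ∃ x ∈ (A.e i).source, d i x ≠ 0) (hU : S.U = nz d)
    {W : Mo S → ℝ} (hWm : Measurable W) (hW : GW S W) : FiniteDimensional ℂ (A2 (wm μ W)) := by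
  obtain ⟨N, hN, σ, hσ, h0, c, hc, hle⟩ := hW
  let _ : MeasurableSpace M := borel M
  have _ : BorelSpace M := ⟨rfl⟩
  have _ : SecondCountableTopology M := secM (A := A)
  have hfd : FiniteDimensional ℂ (HS (KB A * N) univ) :=
    Crest.Agent.R273.SerE_945.fd_HS P (KB A * N)
  have h1 : A2 (wm μ W) ≤ LinearMap.range (rat S N σ) := by
    intro F hF
    rw [mem_A2_wm hWm] at hF
    obtain ⟨hFh, hFi⟩ := hF
    have h2 : ∫⁻ x, ‖F x‖ₑ ^ 2 * ENNReal.ofReal (Real.exp (-(wtS hN σ x.val))) ∂μ < ⊤ := by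
      refine lt_of_le_of_lt (lintegral_mono (g := fun x => ENNReal.ofReal c⁻¹ *
        ENNReal.ofReal (‖F x‖ ^ 2 * W x)) fun x => ?_) ?_
      · show ‖F x‖ₑ ^ 2 * _ ≤ ENNReal.ofReal c⁻¹ * ENNReal.ofReal (‖F x‖ ^ 2 * W x)
        rw [← ENNReal.ofReal_mul (inv_nonneg.2 hc.le), ← ofReal_norm,
          ← ENNReal.ofReal_pow (norm_nonneg _), ← ENNReal.ofReal_mul (by positivity)]
        refine ENNReal.ofReal_le_ofReal ?_
        have h3 : Real.exp (-(wtS hN σ x.val)) ≤ c⁻¹ * W x := by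
          rw [inv_mul_eq_div, le_div_iff₀ hc, mul_comm]
          exact hle x
        calc ‖F x‖ ^ 2 * Real.exp (-(wtS hN σ x.val)) ≤ ‖F x‖ ^ 2 * (c⁻¹ * W x) := by gcongr
          _ = _ := by ring
      · rw [lintegral_const_mul' _ _ ENNReal.ofReal_ne_top]
        exact ENNReal.mul_lt_top ENNReal.ofReal_lt_top hFi
    obtain ⟨s, hs, hsF⟩ := l2_ext h hμ hN hσ h0 hd hd0 hU hFh h2
    refine ⟨⟨s, hs⟩, ?_⟩
    funext x
    show s (A.cover x.val).choose x.val / (zf S (A.cover x.val).choose x.val *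
      σ (A.cover x.val).choose x.val) = F x
    have hx := (A.cover x.val).choose_spec
    rw [hsF _ x hx, mul_div_assoc, div_self, mul_one]
    exact mul_ne_zero (zf_ne hx x.prop) (h0 _ _ hx x.prop)
  exact Submodule.finiteDimensional_of_le h1

end fin

end

end Crest.Agent.R273.AsmA_73
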