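import Crest.Agent.R273.NV_578

/-!
# R273 (S0416), leaf D.14 (helper578): changing the bundle/metric in `NV`

* `castH`       : transport of a metric along an equality of line bundles
* `NV_smul`     : `cur h' = c • cur h`, `c ≠ 0` ⇒ `NV N h' q = NV N h q`
* `hpow h k`    : the metric `h^(k+1)` on `(KB A)⁻¹ * ((KB A)⁻¹)^k`, `NV_hpow`
* `h1 h`        : the metric `h` on `(KB A)⁻¹ * 1`, `NV_h1`
* `htriv A`     : the trivial metric on `(KB A)⁻¹ * KB A`, `NV_htriv : NV N htriv q = PV N q`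
* `wdg_pow`     : `NV (L^k) h q × NV (L^l) h q' → NV (L^(k+l)) h (q+q')`
-/

set_option autoImplicit false
set_option linter.unusedSectionVars false

open Set Filter Topology Complex Matrix
open scoped ContDiff Matrix ComplexConjugate Manifold ComplexOrder

namespace Crest.Agent.R273.NV_578

open Crest.Agent.R275.Geo Crest.Agent.R275.Core144 Crest.Agent.R275.Kos798
open Crest.Agent.R273.Defs_333 Crest.Agent.R273.HM_333 Crest.Agent.R273.Kah_333
open Crest.Agent.R273.Hess_333 Crest.Agent.R273.HessB_333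
open Crest.Agent.R273.Fock_243 (FI Gam eW iW ep)
open Crest.Agent.R273.Wdg_578

noncomputable section

variable {n : ℕ} {M : Type} [TopologicalSpace M] {A : Atl n M} {L L' L'' : LB A}

/-- transport of a metric -/
def castH (e : L = L') (h : HM L) : HM L' where
  w := h.w
  pos := h.pos
  sm := h.sm
  tr := by subst e; exact h.tr

@[simp] theorem castH_w (e : L = L') (h : HM L) : (castH e h).w = h.w := rfl

@[simp] theorem cur_castH (e : L = L') (h : HM L) (i : A.ι) (x : M) :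
    cur (castH e h) i x = cur h i x := rfl

theorem castH_semipos (e : L = L') {h : HM L} (hp : h.Semipos) : (castH e h).Semipos := hp

theorem castH_pos (e : L = L') {h : HM L} (hp : h.Pos) : (castH e h).Pos := hp

theorem NV_congr {h : HM L} {h' : HM L'} (H : ∀ i, ∀ x ∈ (A.e i).source, cur h i x = cur h' i x)
    (N : LB A) (q : ℕ) : NV N h q = NV N h' q := by
  ext v
  constructor
  · rintro ⟨h1, h2⟩
    exact ⟨h1, fun i x hx => by rw [← H i x hx]; exact h2 i x hx⟩
  · rintro ⟨h1, h2⟩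
    exact ⟨h1, fun i x hx => by rw [H i x hx]; exact h2 i x hx⟩

theorem NV_smul {h : HM L} {h' : HM L'} {c : ℂ} (hc : c ≠ 0)
    (H : ∀ i, ∀ x ∈ (A.e i).source, cur h' i x = c • cur h i x)
    (N : LB A) (q : ℕ) : NV N h' q = NV N h q := by
  ext v
  constructor
  · rintro ⟨h1, h2⟩
    refine ⟨h1, fun i x hx => ?_⟩
    have h3 := h2 i x hx
    rw [H i x hx] at h3
    exact h3.of_smul hc
  · rintro ⟨h1, h2⟩
    exact ⟨h1, fun i x hx => by rw [H i x hx]; exact (h2 i x hx).smul_form c⟩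

theorem NV_pow {h : HM L} {m : ℕ} (hm : m ≠ 0) (N : LB A) (q : ℕ) :
    NV N (pow h m) q = NV N h q :=
  NV_smul (c := (m : ℂ)) (Nat.cast_ne_zero.2 hm) (fun i _ hx => cur_pow h m i hx) N q

/-- the metric `h^(k+1)` on `K⁻¹ ⊗ (K⁻¹)^k` -/
def hpow (h : HM (KB A)⁻¹) (k : ℕ) : HM ((KB A)⁻¹ * (KB A)⁻¹ ^ k) :=
  castH (pow_succ' _ _) (pow h (k + 1))

theorem hpow_w (h : HM (KB A)⁻¹) (k : ℕ) (i : A.ι) (x : M) :
    (hpow h k).w i x = h.w i x ^ (k + 1) := pow_w h (k + 1) i x

theorem pow_semipos {h : HM L} (hp : h.Semipos) (m : ℕ) : (pow h m).Semipos := by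
  refine semipos_of_cur fun i x hx => ?_
  rw [cur_pow h m i hx]
  have h2 : (0 : ℂ) ≤ (m : ℂ) := by
    rw [show (m : ℂ) = ((m : ℝ) : ℂ) by norm_num]
    exact_mod_cast Nat.cast_nonneg m
  exact (cur_posSemidef hp i hx).smul h2

theorem hpow_semipos {h : HM (KB A)⁻¹} (hp : h.Semipos) (k : ℕ) : (hpow h k).Semipos :=
  castH_semipos _ (pow_semipos hp _)

theorem NV_hpow (h : HM (KB A)⁻¹) (k : ℕ) (N : LB A) (q : ℕ) :
    NV N (hpow h k) q = NV N h q := by
  have h1 : NV N (hpow h k) q = NV N (pow h (k + 1)) q := NV_congr (fun _ _ _ => rfl) N q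
  rw [h1, NV_pow (Nat.succ_ne_zero k)]

/-- the metric `h` on `K⁻¹ ⊗ 1` -/
def hone (h : HM (KB A)⁻¹) : HM ((KB A)⁻¹ * 1) := castH (mul_one _).symm h

theorem NV_hone (h : HM (KB A)⁻¹) (N : LB A) (q : ℕ) : NV N (hone h) q = NV N h q :=
  NV_congr (fun _ _ _ => rfl) N q

/-- the trivial metric on `K⁻¹ ⊗ K` -/
def htriv (A : Atl n M) : HM ((KB A)⁻¹ * KB A) := castH (inv_mul_cancel _).symm (HM_333.one A)

@[simp] theorem htriv_w (i : A.ι) (x : M) : (htriv A).w i x = 1 := rfl

theorem cur_one (i : A.ι) {x : M} (hx : x ∈ (A.e i).source) : cur (HM_333.one A) i x = 0 := by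
  have h1 : cur (pow (HM_333.one A) 0) i x = 0 := by
    rw [cur_pow _ 0 i hx]; simp
  exact h1

theorem cur_htriv (i : A.ι) {x : M} (hx : x ∈ (A.e i).source) : cur (htriv A) i x = 0 :=
  cur_one i hx

theorem htriv_semipos : (htriv A).Semipos := by
  refine semipos_of_cur fun i x hx => ?_
  rw [cur_htriv i hx]
  exact Matrix.PosSemidef.zero

theorem NV_htriv (N : LB A) (q : ℕ) : NV N (htriv A) q = PV N q := by
  refine le_antisymm inf_le_left fun v hv => ⟨hv, fun i x hx => ?_⟩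
  rw [cur_htriv i hx, nul_iff]
  intro c
  simp

/-- wedge product of null vectors with values in powers of `L`, one metric -/
theorem NV.wdg_pow {h : HM L'} {k l q q' : ℕ} {v w : A.ι → M → FI n → ℂ}
    (hv : v ∈ NV (L ^ k) h q) (hw : w ∈ NV (L ^ l) h q') :
    wdgS v w ∈ NV (L ^ (k + l)) h (q + q') := by
  rw [pow_add]
  exact NV.wdg (h := h) (h' := h) (h'' := h)
    (fun i x _ => ⟨1, 1, (one_smul _ _).symm, (one_smul _ _).symm⟩) hv hw

end

end Crest.Agent.R273.NV_578
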