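import Crest.Agent.R273.HPair_578
import Crest.Agent.R273.NVPow_578
import Crest.Agent.R273.BKNe_37
import Crest.Agent.R273.DHod_733
import Crest.Agent.R273.ThmD2A_505

/-!
# R273 (S0416), leaf D.14 (helper578): holomorphic forms and null polyvectors

Everything is relative to the existence half of Theorem D2:

* `D2U P K` (ungraded) / `D2Ex P K` (graded) : every closed `z : Sec (BN N)` is `low v + ∇ y` with
  `v` holomorphic null (`K⁻¹ N` semipositive); `D2U.graded`;
* `d2_fin`      : `NV N h q` is finite dimensional of dimension `hB (BN N) q`;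
* `dual_ex`     : every closed `w : Sec (BN (K N⁻¹))` is `cj v + ∇ y`;
* `closed_cjS`  : conjugates of holomorphic forms are closed;
* `form_ex`, `form_uniq`, `finrank_Om` : the cohomology of `O` is represented by the conjugates of
  the holomorphic forms;
* `pair_left`, `pair_right`, `finrank_NV_one` : the pairing `NV 1 h q × Om A q → ℂ` is perfect.
-/

set_option autoImplicit false
set_option linter.unusedSectionVars false

open Set Filter Topology Complex Matrix
open scoped ContDiff Matrix ComplexConjugate Manifold ComplexOrder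

namespace Crest.Agent.R273.HodgeP_578

open Crest.Agent.R275 Crest.Agent.R275.Geo Crest.Agent.R275.Core144
open Crest.Agent.R275.SerG398 (hB Zd Bd mem_Zd mem_Bd gr rz)
open Crest.Agent.R273.Defs_333 Crest.Agent.R273.HM_333 Crest.Agent.R273.Kah_333
open Crest.Agent.R273.Fock_243 (FI Gam eW iW ep)
open Crest.Agent.R273.Wdg_578 Crest.Agent.R273.NV_578 Crest.Agent.R273.HolF_578
open Crest.Agent.R273.HPair_578
open Crest.Agent.R273.Berezin_505 (Sb Sbi epsn)
open Crest.Agent.R273.LamN127 (BN DN lamN Jb)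
open Crest.Agent.R273.DVec_733 Crest.Agent.R273.DMet_733 Crest.Agent.R273.DMetB_733
open Crest.Agent.R273.BKNd_37 Crest.Agent.R273.BKNe_37

noncomputable section

variable {n : ℕ} {M : Type} [TopologicalSpace M] {A : Atl n M}

/-! ### transport along an equality of line bundles -/

/-- transport of sections -/
def castS {N N' : LB A} (e : N = N') : Sec (BN N) ≃ₗ[ℂ] Sec (BN N') := by
  subst e; exact LinearEquiv.refl _ _

theorem castS_apply {N N' : LB A} (e : N = N') (u : Sec (BN N)) (i : A.ι) (x : M)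
    (k : (BN N').κ) : (castS e u).1 i x k = u.1 i x k := by
  subst e; rfl

theorem castS_castS {N N' : LB A} (e : N = N') (e' : N' = N) (u : Sec (BN N)) :
    castS e' (castS e u) = u := by
  subst e; rfl

theorem nabL_castS {N N' : LB A} (e : N = N') (u : Sec (BN N)) :
    nabL (BN N') (castS e u) = castS e (nabL (BN N) u) := by
  subst e; rfl

theorem pqL_castS {N N' : LB A} (e : N = N') (q : ℕ) (u : Sec (BN N)) :
    pqL (BN N') q (castS e u) = castS e (pqL (BN N) q u) := by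
  subst e; rfl

/-! ### null polyvectors as smooth polyvectors -/

/-- inclusion of `NV N h q` into `MV N` -/
def inc {L : LB A} (N : LB A) (h : HM L) (q : ℕ) : NV N h q →ₗ[ℂ] MV N where
  toFun v := ⟨v.1, PV_le v.2.1⟩
  map_add' _ _ := rfl
  map_smul' _ _ := rfl

@[simp] theorem inc_coe {L : LB A} (N : LB A) (h : HM L) (q : ℕ) (v : NV N h q) :
    (inc N h q v).1 = v.1 := rfl

theorem inc_inj {L : LB A} (N : LB A) (h : HM L) (q : ℕ) {v : NV N h q} (hv : inc N h q v = 0) :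
    v = 0 := Subtype.ext (congrArg (fun w : MV N => w.1) hv)

theorem pqL_low (K : Kah A) {N : LB A} {q : ℕ} {v : MV N} (hv : v.1 ∈ PV N q) :
    pqL (BN N) q (low K N v) = low K N v := by
  rw [← low_pq, pqM_of_PV hv]

theorem pqL_cj {N : LB A} (h : HM ((KB A)⁻¹ * N)) {q : ℕ} (hq : q ≤ n) {v : MV N}
    (hv : v.1 ∈ PV N q) : pqL (BN (KB A * N⁻¹)) (n - q) (cj h v) = cj h v := by
  rw [← cj_pq h hq, pqM_of_PV hv]

/-- polyvectors of degree `> n` vanish -/
theorem PV_eq_zero {N : LB A} {q : ℕ} (hq : n < q) {v : A.ι → M → FI n → ℂ} (hv : v ∈ PV N q) :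
    v = 0 := by
  funext i x T
  refine hv.2.2.1 i x T fun hT => ?_
  have : T.card ≤ n := (Finset.card_le_univ _).trans (by rw [Fintype.card_fin])
  omega

theorem Om_eq_zero {p : ℕ} (hp : n < p) {v : A.ι → M → FI n → ℂ} (hv : v ∈ Om A p) :
    v = 0 := by
  funext i x T
  refine hv.2.2.1 i x T fun hT => ?_
  have : T.card ≤ n := (Finset.card_le_univ _).trans (by rw [Fintype.card_fin])
  omega

/-! ### homogeneous parts -/

theorem holV_pq {N : LB A} {q : ℕ} {v : MV N} (hv : HolV v.1) : HolV (pqM N q v).1 := by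
  rw [holV_iff (pqM N q v).2.1]
  rw [holV_iff v.2.1] at hv
  intro i T
  by_cases h : T.card = q
  · refine (hv i T).congr fun x _ _ => ?_
    rw [pqM_apply, if_pos h]
  · refine (holAt_const 0).congr fun x _ _ => ?_
    rw [pqM_apply, if_neg h]

theorem iW_pq {N : LB A} {q : ℕ} (v : MV N) (i : A.ι) (x : M) (d : Fin n) (T : FI n) :
    ((iW (ep d) : Matrix (FI n) (FI n) ℂ) *ᵥ (pqM N q v).1 i x) T =
      if T.card + 1 = q then ((iW (ep d) : Matrix (FI n) (FI n) ℂ) *ᵥ v.1 i x) T else 0 := by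
  have e1 : ((iW (ep d) : Matrix (FI n) (FI n) ℂ) *ᵥ (pqM N q v).1 i x) T =
      ∑ S, (iW (ep d) : Matrix (FI n) (FI n) ℂ) T S * (if S.card = q then v.1 i x S else 0) := rfl
  have e2 : ((iW (ep d) : Matrix (FI n) (FI n) ℂ) *ᵥ v.1 i x) T =
      ∑ S, (iW (ep d) : Matrix (FI n) (FI n) ℂ) T S * v.1 i x S := rfl
  rw [e1, e2]
  split_ifs with hT
  · refine Finset.sum_congr rfl fun S _ => ?_
    by_cases hS : S.card = q
    · rw [if_pos hS]
    · have : (iW (ep d) : Matrix (FI n) (FI n) ℂ) T S = 0 := by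
        by_contra h0
        exact hS (by rw [LamN127.iW_deg h0, hT])
      rw [this, zero_mul, zero_mul]
  · refine Finset.sum_eq_zero fun S _ => ?_
    by_cases hS : S.card = q
    · have : (iW (ep d) : Matrix (FI n) (FI n) ℂ) T S = 0 := by
        by_contra h0
        exact hT (by rw [← LamN127.iW_deg h0, hS])
      rw [this, zero_mul]
    · rw [if_neg hS, mul_zero]

theorem nullV_pq {L N : LB A} {h : HM L} {q : ℕ} {v : MV N} (hv : NullV h v.1) :
    NullV h (pqM N q v).1 := by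
  intro i x hx c
  funext T
  have h1 := congrFun (hv i x hx c) T
  simp only [Finset.sum_apply, Pi.smul_apply, smul_eq_mul, Pi.zero_apply] at h1 ⊢
  by_cases hT : T.card + 1 = q
  · rw [← h1]
    refine Finset.sum_congr rfl fun d _ => ?_
    rw [iW_pq, if_pos hT]
  · refine Finset.sum_eq_zero fun d _ => ?_
    rw [iW_pq, if_neg hT, mul_zero]

section compact

variable [CompactSpace M] [T2Space M] [Finite A.ι]

/-- existence half of D2, all degrees together -/
def D2U (K : Kah A) : Prop :=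
  ∀ (N : LB A) (h : HM ((KB A)⁻¹ * N)), h.Semipos → ∀ z : Sec (BN N), nabL (BN N) z = 0 →
    ∃ v : MV N, HolV v.1 ∧ NullV h v.1 ∧ ∃ y, nabL (BN N) y = z - low K N v

/-- existence half of D2, in one degree -/
def D2Ex (K : Kah A) : Prop :=
  ∀ (N : LB A) (h : HM ((KB A)⁻¹ * N)), h.Semipos → ∀ (q : ℕ) (z : Sec (BN N)),
    nabL (BN N) z = 0 → pqL (BN N) q z = z →
    ∃ v : NV N h q, ∃ y, nabL (BN N) y = z - low K N (inc N h q v)

theorem D2U.graded {K : Kah A} (hD : D2U K) : D2Ex K := by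
  intro N h hs q z hz hq
  obtain ⟨v, hh, hn, y, hy⟩ := hD N h hs z hz
  have h1 : pqM N q (pqM N q v) = pqM N q v := by
    apply Subtype.ext
    funext i x T
    rw [pqM_apply, pqM_apply]
    split_ifs <;> rfl
  have h2 : (pqM N q v).1 ∈ NV N h q := (mem_NV_iff h1).2 ⟨holV_pq hh, nullV_pq hn⟩
  refine ⟨⟨_, h2⟩, ?_⟩
  have h3 : low K N (inc N h q ⟨_, h2⟩) = pqL (BN N) q (low K N v) := by
    rw [← low_pq]
    rfl
  have h4 : z - pqL (BN N) q (low K N v) = pqL (BN N) q (z - low K N v) := by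
    rw [map_sub, hq]
  rw [h3, h4, ← hy]
  cases q with
  | zero => exact ⟨0, by rw [map_zero]; exact (LinearMap.congr_fun pqL_zero_nabL y).symm⟩
  | succ q => exact ⟨pqL (BN N) q y, LinearMap.congr_fun (nabL_pqL q) y⟩

variable {K : Kah A}

/-- **D2**, dimensions -/
theorem d2_fin (P : Part A) (hD : D2Ex K) {N : LB A} (h : HM ((KB A)⁻¹ * N)) (hs : h.Semipos)
    (q : ℕ) : FiniteDimensional ℂ (NV N h q) ∧
      Module.finrank ℂ (NV N h q) = hB (BN N) q := by
  refine ThmD2A_505.finrank_abs' (Zd (BN N) q) (Bd (BN N) q) (LamN127.BN_finite P N q)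
    ((low K N).toLinearMap ∘ₗ inc N h q) (fun v => ?_) (fun v hv => ?_) fun z hz => ?_
  · exact mem_Zd.2 ⟨(closed_of_mem_NV P K (v := inc N h q v) v.2).1, pqL_low K v.2.1⟩
  · obtain ⟨⟨y, hy⟩, -⟩ := mem_Bd.1 hv
    have h1 := (mem_NV_iff (pqM_of_PV (v := inc N h q v) v.2.1)).1 v.2
    exact inc_inj N h q (eq_zero_of_exact P K h1.1 h1.2 hy)
  · obtain ⟨h1, h2⟩ := mem_Zd.1 hz
    obtain ⟨v, y, hy⟩ := hD N h hs q z h1 h2
    refine ⟨v, mem_Bd.2 ⟨⟨y, hy⟩, ?_⟩⟩
    rw [map_sub, h2]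
    congr 1
    exact pqL_low K (v := inc N h q v) v.2.1

/-- **D2\***, the dual side -/
theorem dual_ex (P : Part A) (hD : D2Ex K) {N : LB A} (h : HM ((KB A)⁻¹ * N)) (hs : h.Semipos)
    {q : ℕ} (hq : q ≤ n) {w : Sec (BN (KB A * N⁻¹))} (hw : nabL _ w = 0)
    (hwq : pqL _ (n - q) w = w) :
    ∃ v : NV N h q, ∃ y, nabL _ y = w - cj h (inc N h q v) := by
  have hfin := (d2_fin P hD h hs q).1
  refine HodgeAbs_578.dual_abs (V := NV N h q) (d := nabL (BN N)) (d' := nabL (BN (KB A * N⁻¹)))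
    (pr := Pai323.pr (DN N) P) (Pai323.pr_nab (DN N) P)
    ((low K N).toLinearMap ∘ₗ inc N h q) (fun v => cj h (inc N h q v))
    (fun v v' => by simp only [map_add]) (fun c v => by simp only [map_smul, map_smulₛₗ])
    (fun v => (closed_of_mem_NV P K (v := inc N h q v) v.2).2.2)
    (fun v hv => inc_inj N h q (eq_zero_of_pr h K P hv))
    (fun z => nabL (BN N) z = 0 ∧ pqL (BN N) q z = z) (fun z hz => hD N h hs q z hz.1 hz.2)
    (Zd (BN (KB A * N⁻¹)) (n - q))
    (fun v => mem_Zd.2 ⟨(closed_of_mem_NV P K (v := inc N h q v) v.2).2.2, pqL_cj h hq v.2.1⟩)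
    (fun w hw => (mem_Zd.1 hw).1) (fun w hw hp => ?_) (mem_Zd.2 ⟨hw, hwq⟩)
  have h1 := (gr P (DN N) (LamN127.nab_nab_BN N) (rz P (BN N)) (rz P _)).mem_range_e_iff
    (q := q) (w := w)
  have h2 : (gr P (DN N) (LamN127.nab_nab_BN N) (rz P (BN N)) (rz P _)).ρ q =
      Geo.pqL (BN (KB A * N⁻¹)) (n - q) := by
    have : SerG398.rhoL (DN N) q = Geo.pqL (BN (KB A * N⁻¹)) ((DN N).N - q) := if_pos hq
    exact this
  rw [h2] at h1
  exact (h1 (mem_Zd.1 hw).2).2 fun z hz1 hz2 => hp z ⟨hz1, hz2⟩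

/-! ### forms: the bundle `N = K` with the trivial metric -/

theorem KK (A : Atl n M) : KB A * (KB A)⁻¹ = 1 := mul_inv_cancel _

theorem star_Sbi_mulVec (a : FI n → ℂ) : star (Sbi ℂ n *ᵥ a) = Sbi ℂ n *ᵥ star a := by
  have h1 := Berezin_505.map_Sbi (n := n) (starRingEnd ℂ)
  funext T
  simp only [Matrix.mulVec, dotProduct, Pi.star_apply, star_sum, star_mul']
  refine Finset.sum_congr rfl fun S _ => ?_
  congr 1
  exact congrFun (congrFun h1 T) S

/-- `cj` of a holomorphic `K`-valued polyvector is the conjugate of a form -/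
theorem cast_cj {p q : ℕ} (hpq : p + q = n) {v : MV (KB A)} (hv : v.1 ∈ PV (KB A) q) :
    castS (KK A) (cj (htriv A) v) = cjS (epsn ℂ n • SFe A hpq ⟨v.1, hv⟩) := by
  apply Subtype.ext
  funext i x k
  refine (castS_apply _ _ i x k).trans ?_
  have h1 : (cj (htriv A) v).1 i x k = (Sbi ℂ n *ᵥ (((htriv A).w i x : ℂ) • star (v.1 i x))) k.1 := rfl
  have h2 : (epsn ℂ n • SFe A hpq ⟨v.1, hv⟩ : Om A p).1 i x k.1 = (Sbi ℂ n *ᵥ v.1 i x) k.1 := by
    show epsn ℂ n * (Sb ℂ n *ᵥ v.1 i x) k.1 = _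
    rw [Berezin_505.Sbi, Matrix.smul_mulVec]
    rfl
  have h3 : (cjS (epsn ℂ n • SFe A hpq ⟨v.1, hv⟩)).1 i x k =
      conj ((epsn ℂ n • SFe A hpq ⟨v.1, hv⟩ : Om A p).1 i x k.1) := rfl
  refine h1.trans (Eq.trans ?_ h3.symm)
  rw [h2, htriv_w, ofReal_one, one_smul, ← star_Sbi_mulVec]
  rfl

/-- the polyvector of a form -/
theorem exists_vec {p q : ℕ} (hpq : p + q = n) (β : Om A p) :
    ∃ (v : MV (KB A)) (hv : v.1 ∈ PV (KB A) q), epsn ℂ n • SFe A hpq ⟨v.1, hv⟩ = β := by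
  let w : PV (KB A) q := (SFe A hpq).symm (epsn ℂ n • β)
  refine ⟨⟨w.1, PV_le w.2⟩, w.2, ?_⟩
  show epsn ℂ n • SFe A hpq w = β
  rw [LinearEquiv.apply_symm_apply, smul_smul, Berezin_505.epsn_mul_self, one_smul]

theorem mem_NV_triv {N : LB A} {q : ℕ} {v : A.ι → M → FI n → ℂ} (hv : v ∈ PV N q) :
    v ∈ NV N (htriv A) q := by rw [NV_htriv]; exact hv

/-- **conjugates of holomorphic forms are closed** -/
theorem closed_cjS (P : Part A) (K : Kah A) {p : ℕ} (β : Om A p) :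
    nabL (BN (1 : LB A)) (cjS β) = 0 := by
  by_cases hp : p ≤ n
  · obtain ⟨v, hv, rfl⟩ := exists_vec (q := n - p) (by omega) β
    rw [← cast_cj _ hv, nabL_castS,
      (closed_of_mem_NV P K (h := htriv A) (v := v) (mem_NV_triv hv)).2.2, map_zero]
  · have h1 : β = 0 := Subtype.ext (Om_eq_zero (by omega) β.2)
    rw [h1]
    have h2 : cjS (0 : Om A p) = 0 := by
      have := cjS_smul (A := A) (p := p) 0 0
      rwa [zero_smul, map_zero, zero_smul] at this
    rw [h2, map_zero]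

/-- **(H2)**, existence -/
theorem form_ex (P : Part A) (hD : D2Ex K) {p : ℕ} (hp : p ≤ n) {z : Sec (BN (1 : LB A))}
    (hz : nabL _ z = 0) (hzp : pqL _ p z = z) :
    ∃ β : Om A p, ∃ y, nabL _ y = z - cjS β := by
  obtain ⟨v, y, hy⟩ := dual_ex P hD (htriv A) htriv_semipos (q := n - p) (Nat.sub_le _ _)
    (w := castS (KK A).symm z) (by rw [nabL_castS, hz, map_zero])
    (by rw [pqL_castS, Nat.sub_sub_self hp, hzp])
  have hv : (inc (KB A) (htriv A) (n - p) v).1 ∈ PV (KB A) (n - p) := v.2.1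
  refine ⟨epsn ℂ n • SFe A (p := p) (by omega) ⟨_, hv⟩, castS (KK A) y, ?_⟩
  rw [nabL_castS, hy, map_sub, cast_cj (p := p) (by omega) hv, castS_castS]

/-- **(H2)**, uniqueness -/
theorem form_uniq (P : Part A) (K : Kah A) {p : ℕ} {β : Om A p} {y : Sec (BN (1 : LB A))}
    (hy : nabL _ y = cjS β) : β = 0 := by
  by_cases hp : p ≤ n
  · obtain ⟨v, hv, rfl⟩ := exists_vec (q := n - p) (by omega) β
    rw [← cast_cj _ hv] at hy
    have hy' : nabL (BN (KB A * (KB A)⁻¹)) (castS (KK A).symm y) = cj (htriv A) v := by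
      rw [nabL_castS, hy, castS_castS]
    have h1 : Pai323.pr (DN (KB A)) P (low K (KB A) v) (cj (htriv A) v) = 0 := by
      rw [← hy', ← Pai323.pr_nab,
        (closed_of_mem_NV P K (h := htriv A) (v := v) (mem_NV_triv hv)).1, map_zero,
        LinearMap.zero_apply]
    have h2 : v = 0 := eq_zero_of_pr (htriv A) K P h1
    have h3 : (⟨v.1, hv⟩ : PV (KB A) (n - p)) = 0 :=
      Subtype.ext (congrArg (fun w : MV (KB A) => w.1) h2)
    rw [h3, map_zero, smul_zero]
  · exact Subtype.ext (Om_eq_zero (by omega) β.2)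

/-- **(H2)**, dimensions -/
theorem finrank_Om (P : Part A) (hD : D2Ex K) {p : ℕ} (hp : p ≤ n) :
    FiniteDimensional ℂ (Om A p) ∧ Module.finrank ℂ (Om A p) = hB (BN (1 : LB A)) p := by
  have h1 := d2_fin P hD (htriv A) htriv_semipos (n - p)
  rw [NV_htriv] at h1
  have e : PV (KB A) (n - p) ≃ₗ[ℂ] Om A p := SFe A (by omega)
  have h2 := LamN127.BN_serre P (KB A) (q := n - p) (Nat.sub_le _ _)
  rw [Nat.sub_sub_self hp, KK] at h2
  have := h1.1
  exact ⟨e.finiteDimensional, by rw [← e.finrank_eq, h1.2, h2]⟩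

/-! ### the pairing -/

variable [ConnectedSpace M]

theorem pair_const {h : HM (KB A)⁻¹} {q : ℕ} (v : NV 1 h q) (β : Om A q) :
    ∃ c : ℂ, ∀ i, ∀ x ∈ (A.e i).source, ctr β.1 v.1 i x = c :=
  ctr_const β.2 v.2.1

/-- a nonzero null polyvector has a form with contraction one -/
theorem pair_left (P : Part A) (hD : D2Ex K) {h : HM (KB A)⁻¹} {q : ℕ}
    {v : A.ι → M → FI n → ℂ} (hv : v ∈ NV 1 h q) (h0 : v ≠ 0) :
    ∃ β : Om A q, ∀ i, ∀ x ∈ (A.e i).source, ctr β.1 v i x = 1 := by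
  have hq : q ≤ n := by
    by_contra hq
    exact h0 (PV_eq_zero (by omega) hv.1)
  have hv' : v ∈ NV 1 (hone h) q := by rw [NV_hone]; exact hv
  let u : NV 1 (hone h) q := ⟨v, hv'⟩
  have hc := closed_of_mem_NV P K (v := inc 1 (hone h) q u) hv'
  obtain ⟨β, y, hy⟩ := form_ex P hD hq hc.1 (pqL_low K (v := inc 1 (hone h) q u) hv.1)
  obtain ⟨c, hcc⟩ := ctr_const β.2 hv.1
  have h1 : low K 1 (inc 1 (hone h) q u) = cjS β + nabL _ y := by rw [hy]; abel
  have hc0 : c ≠ 0 := by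
    intro hc0
    apply h0
    have h2 : Pai323.pr (DN 1) P (low K 1 (inc 1 (hone h) q u))
        (cj (hone h) (inc 1 (hone h) q u)) = 0 := by
      rw [h1, map_add, LinearMap.add_apply, Pai323.pr_nab, hc.2.2, map_zero, add_zero]
      have h3 := pr_cjS_const P β (v := v) (DN (1 : LB A)) (DN_S 1)
        (cj (hone h) (inc 1 (hone h) q u)) (fun i x => ((hone h).w i x : ℂ))
        (fun i x _ T => by
          have e1 : (cj (hone h) (inc 1 (hone h) q u)).1 i x (T, ()) =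
            (Sbi ℂ n *ᵥ (((hone h).w i x : ℂ) • star (v i x))) T := rfl
          rw [e1, Matrix.mulVec_smul]
          rfl) hcc
      rw [h3, hc0, map_zero, zero_mul]
    have h4 := eq_zero_of_pr (hone h) K P h2
    exact congrArg Subtype.val h4
  refine ⟨c⁻¹ • β, fun i x hx => ?_⟩
  have h5 : ctr (c⁻¹ • β : Om A q).1 v i x = c⁻¹ * ctr β.1 v i x :=
    congrFun (congrFun (ctr_smul_left c⁻¹ β.1 v) i) x
  rw [h5, hcc i x hx, inv_mul_cancel₀ hc0]

theorem finrank_NV_one (P : Part A) (hD : D2Ex K) {h : HM (KB A)⁻¹} (hs : h.Semipos) {q : ℕ}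
    (hq : q ≤ n) : FiniteDimensional ℂ (NV 1 h q) ∧
      Module.finrank ℂ (NV 1 h q) = Module.finrank ℂ (Om A q) := by
  have h1 := d2_fin P hD (hone h) hs q
  rw [NV_hone] at h1
  exact ⟨h1.1, by rw [h1.2, (finrank_Om P hD hq).2]⟩

/-- a nonzero form has a null polyvector with contraction one -/
theorem pair_right (P : Part A) (hD : D2Ex K) {h : HM (KB A)⁻¹} (hs : h.Semipos) {q : ℕ}
    {β : A.ι → M → FI n → ℂ} (hβ : β ∈ Om A q) (h0 : β ≠ 0) :
    ∃ v ∈ NV 1 h q, ∀ i, ∀ x ∈ (A.e i).source, ctr β v i x = 1 := by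
  have hq : q ≤ n := by
    by_contra hq
    exact h0 (Om_eq_zero (by omega) hβ)
  obtain ⟨x0⟩ := (inferInstance : Nonempty M)
  obtain ⟨i0, hi0⟩ := A.cover x0
  let b : NV 1 h q →ₗ[ℂ] Om A q →ₗ[ℂ] ℂ := LinearMap.mk₂ ℂ (fun v β => ctr β.1 v.1 i0 x0)
    (fun v v' β => by
      show ctr β.1 (v.1 + v'.1) i0 x0 = _
      rw [ctr_add_right]; rfl)
    (fun c v β => by
      show ctr β.1 (c • v.1) i0 x0 = _
      rw [ctr_smul_right]; rfl)
    (fun v β β' => by
      show ctr (β.1 + β'.1) v.1 i0 x0 = _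
      rw [ctr_add_left]; rfl)
    (fun c v β => by
      show ctr (c • β.1) v.1 i0 x0 = _
      rw [ctr_smul_left]; rfl)
  have hb : ∀ v β, b v β = ctr β.1 v.1 i0 x0 := fun _ _ => rfl
  have hfin := finrank_NV_one P hD hs hq
  have hf1 := hfin.1
  have hf2 := (finrank_Om P hD hq).1
  obtain ⟨v, hv⟩ := HodgeAbs_578.perf_one b (fun v hv => by
    by_contra hv0
    obtain ⟨β, hβ⟩ := pair_left P hD v.2 (fun h => hv0 (Subtype.ext h))
    have h1 := hβ i0 x0 hi0
    rw [← hb, hv] at h1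
    exact zero_ne_one h1) hfin.2 (w := ⟨β, hβ⟩) (fun h => h0 (congrArg Subtype.val h))
  refine ⟨v.1, v.2, fun i x hx => ?_⟩
  obtain ⟨c, hc⟩ := pair_const v ⟨β, hβ⟩
  rw [hb, hc i0 x0 hi0] at hv
  exact (hc i x hx).trans hv

end compact

end

end Crest.Agent.R273.HodgeP_578
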