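import Crest.Agent.R273.D13_505
import Crest.Agent.R273.HodgeP_578

/-!
# R273 (helper505): the hypotheses `D2U K`, `D2Ex K` of `HodgeP_578` hold
-/

set_option autoImplicit false
set_option linter.unusedSectionVars false

open scoped ContDiff Matrix ComplexConjugate Kronecker ComplexOrder

namespace Crest.Agent.R273.D13_505

open Crest.Agent.R275 Crest.Agent.R275.Geo Crest.Agent.R273.Kah_333

variable {n : ℕ} {M : Type} [TopologicalSpace M] {A : Atl n M}

/-- the existence half of D2, all degrees at once -/
theorem d2U [T2Space M] [CompactSpace M] [Finite A.ι] (P : Part A) (K : Kah A) :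
    HodgeP_578.D2U K := fun _ h hs z hz => Lim_505.hodge P K h hs z hz

/-- the existence half of D2 -/
theorem d2Ex [T2Space M] [CompactSpace M] [Finite A.ι] (P : Part A) (K : Kah A) :
    HodgeP_578.D2Ex K := (d2U P K).graded

end Crest.Agent.R273.D13_505
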