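import Crest.Agent.R273.RMan4_798
import Crest.Agent.R273.HFlowC_376

/-!
# R273 (S0416), leaf B-N2 (helper798): holomorphic isometries are 1-Lipschitz; equicontinuity

`M` connected Hausdorff, `K : Kah A`.
`exists_metric` : a metric on `M` with the given topology for which every holomorphic isometry is
1-Lipschitz; `equi_nhdsSet`, `equi_uniform` : equicontinuity of the holomorphic isometries (compact).
-/

set_option autoImplicit false
set_option linter.unusedSectionVars false

open Set Filter Topology Complex Metric Manifold Bundle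
open scoped ContDiff Matrix ComplexConjugate Manifold ComplexOrder Uniformity Bundle ENNReal

namespace Crest.Agent.R273.Equi_798

open Crest.Agent.R275.Geo Crest.Agent.R275.Core144 Crest.Agent.R275.EDR890
open Crest.Agent.R273.Defs_333 Crest.Agent.R273.Hess_333 Crest.Agent.R273.HessB_333
open Crest.Agent.R273.HM_333 Crest.Agent.R273.Kah_333 Crest.Agent.R273.Vol_333
open Crest.Agent.R273.Ric_798 Crest.Agent.R273.RMan_798 Crest.Agent.R273.RMan4_798
open Crest.Agent.R273.HFlow3_376 Crest.Agent.R273.HFlow5_376 Crest.Agent.R273.HFlow7_376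
open Crest.Agent.R273.Map_835

noncomputable section

variable {n : ℕ} {M M' : Type} [TopologicalSpace M] [TopologicalSpace M'] {A : Atl n M}
  {B : Atl n M'}

theorem G_eq_hf (K : Kah A) {i : A.ι} {x : M} (hx : x ∈ (A.e i).source) (v : Cn n) :
    G (KK K i) (A.e i x) v v = (hf K i x v v).re := by
  unfold G KK hf
  rw [(A.e i).left_inv hx, Matrix.mulVec_transpose, dotProduct_comm, ← Matrix.dotProduct_mulVec]

/-- the norm of a tangent vector of `ofKah K` -/
theorem inn_eq (K : Kah A) (p : (ofKah K).M) (v : EE (2 * n)) :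
    (ofKah K).inn p v v = (hf K ((ofKah K).idx p) (p : M) ((eR n).symm v) ((eR n).symm v)).re := by
  set i : A.ι := (ofKah K).idx p with hi
  have hp : (p : M) ∈ (A.e i).source :=
    (Set.ext_iff.1 (cR_source (A := A) i) (p : M)).1 ((ofKah K).idx_mem p)
  have h0 : (eR n).symm (cR A i (p : M)) = A.e i (p : M) := by simp
  have hH : (KK K i ((eR n).symm (cR A i (p : M)))).IsHermitian := by
    rw [h0]; exact ((kd K i).pd _ ((A.e i).map_source hp)).1
  have h1 : (ofKah K).inn p v v = ∑ a, ∑ b, hm (eR n) (KK K i) (cR A i (p : M)) a b * v a * v b :=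
    (ofKah K).bil_apply i (cR A i (p : M)) v v
  rw [h1, sum_hm (eR n) hH, h0]
  exact G_eq_hf K hp _

theorem hol_real {f : M → M'} (hf' : HolM A B f) {i : A.ι} {j : B.ι} {x : M}
    (hi : x ∈ (A.e i).source) (hj : f x ∈ (B.e j).source) :
    ContDiffAt ℝ ∞ (fun y : EE (2 * n) => eR n (B.e j (f ((A.e i).symm ((eR n).symm y)))))
      (cR A i x) ∧
    HasFDerivAt (fun y : EE (2 * n) => eR n (B.e j (f ((A.e i).symm ((eR n).symm y)))))
      (((eR n : Cn n →L[ℝ] EE (2 * n)).comp ((tm A B f i j x).restrictScalars ℝ)).comp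
        ((eR n).symm : EE (2 * n) →L[ℝ] Cn n)) (cR A i x) := by
  have h0 : (eR n).symm (cR A i x) = A.e i x := by simp
  have hev : ∀ᶠ z in 𝓝 (A.e i x), z ∈ (A.e i).target ∧ f ((A.e i).symm z) ∈ (B.e j).source := by
    have h4 : ContinuousAt (fun z => f ((A.e i).symm z)) (A.e i x) :=
      ContinuousAt.comp (g := f) hf'.continuous.continuousAt
        ((A.e i).continuousAt_symm ((A.e i).map_source hi))
    exact Filter.Eventually.and ((A.e i).open_target.mem_nhds ((A.e i).map_source hi))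
      (h4 ((B.e j).open_source.mem_nhds (by simpa [(A.e i).left_inv hi] using hj)))
  have hd : ∀ᶠ z in 𝓝 (A.e i x), DifferentiableAt ℂ (fun z => B.e j (f ((A.e i).symm z))) z := by
    filter_upwards [hev] with z hz
    have h1 := hf'.diff ((A.e i).map_target hz.1) hz.2
    rwa [(A.e i).right_inv hz.1] at h1
  obtain ⟨W, hW, hWo, hxW⟩ := _root_.mem_nhds_iff.1 hd
  have hana : ContDiffOn ℂ ω (fun z => B.e j (f ((A.e i).symm z))) W :=
    Crest.Agent.R266.SCV.contDiffOn_omega_of_differentiableOn hWo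
      fun z hz => (hW hz).differentiableWithinAt
  have hsm : ContDiffAt ℝ ∞ (fun z => B.e j (f ((A.e i).symm z))) ((eR n).symm (cR A i x)) := by
    rw [h0]
    exact ((hana.restrict_scalars ℝ).of_le le_top).contDiffAt (hWo.mem_nhds hxW)
  have hfd : HasFDerivAt (fun z => B.e j (f ((A.e i).symm z)))
      ((tm A B f i j x).restrictScalars ℝ) ((eR n).symm (cR A i x)) := by
    rw [h0]
    exact (hf'.diff hi hj).hasFDerivAt.restrictScalars ℝ
  refine ⟨?_, ?_⟩
  · have h1 : ContDiffAt ℝ ∞ ((fun z => B.e j (f ((A.e i).symm z))) ∘ (eR n).symm)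
        (cR A i x) := ContDiffAt.comp (cR A i x) hsm (eR n).symm.contDiff.contDiffAt
    exact (eR n).contDiff.contDiffAt.comp (cR A i x) h1
  · exact ((eR n : Cn n →L[ℝ] EE (2 * n)).hasFDerivAt.comp _ hfd).comp (cR A i x)
      ((eR n).symm : EE (2 * n) →L[ℝ] Cn n).hasFDerivAt

/-- the map between the Riemannian manifolds -/
def mp (K : Kah A) (K' : Kah B) (f : M → M') : (ofKah K).M → (ofKah K').M := f

theorem written (K : Kah A) (K' : Kah B) {f : M → M'} (hf' : HolM A B f) (x : (ofKah K).M) :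
    ContDiffAt ℝ ∞ (writtenInExtChartAt (𝓡 (2 * n)) (𝓡 (2 * n)) x (mp K K' f))
      (extChartAt (𝓡 (2 * n)) x x) ∧
    HasMFDerivAt (𝓡 (2 * n)) (𝓡 (2 * n)) (mp K K' f) x
      (((eR n : Cn n →L[ℝ] EE (2 * n)).comp ((tm A B f ((ofKah K).idx x)
        ((ofKah K').idx (mp K K' f x)) (x : M)).restrictScalars ℝ)).comp
        ((eR n).symm : EE (2 * n) →L[ℝ] Cn n)) := by
  have hi : (x : M) ∈ (A.e ((ofKah K).idx x)).source :=
    (Set.ext_iff.1 (cR_source (A := A) ((ofKah K).idx x)) (x : M)).1 ((ofKah K).idx_mem x)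
  have hj : f (x : M) ∈ (B.e ((ofKah K').idx (mp K K' f x))).source :=
    (Set.ext_iff.1 (cR_source (A := B) ((ofKah K').idx (mp K K' f x))) (f (x : M))).1
      ((ofKah K').idx_mem (mp K K' f x))
  obtain ⟨h1, h2⟩ := hol_real hf' hi hj
  exact ⟨h1, hf'.continuous.continuousAt, h2.hasFDerivWithinAt⟩

theorem contMDiff_mp (K : Kah A) (K' : Kah B) {f : M → M'} (hf' : HolM A B f) :
    ContMDiff (𝓡 (2 * n)) (𝓡 (2 * n)) ∞ (mp K K' f) := by
  intro x
  rw [contMDiffAt_iff]
  refine ⟨hf'.continuous.continuousAt, ?_⟩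
  simp only [modelWithCornersSelf_coe, range_id, contDiffWithinAt_univ]
  exact (written K K' hf' x).1

theorem norm_mfderiv {K : Kah A} {K' : Kah B} {f : M → M'} (h : Isom K K' f) (x : (ofKah K).M)
    (v : TangentSpace (𝓡 (2 * n)) x) :
    ‖mfderiv (𝓡 (2 * n)) (𝓡 (2 * n)) (mp K K' f) x v‖ = ‖v‖ := by
  rw [(written K K' h.1 x).2.mfderiv]
  rw [← sq_eq_sq₀ (norm_nonneg _) (norm_nonneg _), ← real_inner_self_eq_norm_sq,
    ← real_inner_self_eq_norm_sq]
  have hi : (x : M) ∈ (A.e ((ofKah K).idx x)).source :=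
    (Set.ext_iff.1 (cR_source (A := A) ((ofKah K).idx x)) (x : M)).1 ((ofKah K).idx_mem x)
  have hj : f (x : M) ∈ (B.e ((ofKah K').idx (mp K K' f x))).source :=
    (Set.ext_iff.1 (cR_source (A := B) ((ofKah K').idx (mp K K' f x))) (f (x : M))).1
      ((ofKah K').idx_mem (mp K K' f x))
  have h1 := inn_eq K x v
  have h2 := inn_eq K' (mp K K' f x) (eR n (tm A B f ((ofKah K).idx x)
        ((ofKah K').idx (mp K K' f x)) (x : M) ((eR n).symm v)))
  rw [ContinuousLinearEquiv.symm_apply_apply] at h2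
  have h3 := h.2 _ _ _ hi hj ((eR n).symm v) ((eR n).symm v)
  have h4 : (hf K' ((ofKah K').idx (mp K K' f x)) (mp K K' f x : M')
      (tm A B f ((ofKah K).idx x) ((ofKah K').idx (mp K K' f x)) (x : M) ((eR n).symm v))
      (tm A B f ((ofKah K).idx x) ((ofKah K').idx (mp K K' f x)) (x : M) ((eR n).symm v))).re =
      (hf K ((ofKah K).idx x) (x : M) ((eR n).symm v) ((eR n).symm v)).re := congrArg Complex.re h3
  exact h2.trans (h4.trans h1.symm)

theorem edist_le {K : Kah A} {K' : Kah B} {f : M → M'} (h : Isom K K' f) (x y : (ofKah K).M) :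
    Manifold.riemannianEDist (𝓡 (2 * n)) (mp K K' f x) (mp K K' f y) ≤
      Manifold.riemannianEDist (𝓡 (2 * n)) x y := by
  refine RAtl.edist_map_le ((contMDiff_mp K K' h.1).of_le (by simp)) (fun x v => ?_) x y
  rw [← ofReal_norm, ← ofReal_norm, norm_mfderiv h]

/-- **holomorphic isometries are 1-Lipschitz** -/
theorem dist_le [T2Space M] [ConnectedSpace M] [T2Space M'] [ConnectedSpace M'] {K : Kah A}
    {K' : Kah B} {f : M → M'} (h : Isom K K' f) (x y : (ofKah K).M) :
    dist (mp K K' f x) (mp K K' f y) ≤ dist x y := by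
  have h1 := edist_le h x y
  rw [← IsRiemannianManifold.out (I := 𝓡 (2 * n)) (mp K K' f x) (mp K K' f y),
    ← IsRiemannianManifold.out (I := 𝓡 (2 * n)) x y, edist_dist, edist_dist] at h1
  exact (ENNReal.ofReal_le_ofReal_iff dist_nonneg).1 h1

/-- the metric -/
@[reducible] def mK [T2Space M] [ConnectedSpace M] (K : Kah A) : MetricSpace M :=
  (ofKah K).msM

theorem mK_top [T2Space M] [ConnectedSpace M] (K : Kah A) :
    (mK K).toPseudoMetricSpace.toUniformSpace.toTopologicalSpace = ‹TopologicalSpace M› := rfl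

theorem mK_le [T2Space M] [ConnectedSpace M] (K : Kah A) {f : M → M} (h : Isom K K f) (x y : M) :
    (mK K).dist (f x) (f y) ≤ (mK K).dist x y := dist_le h x y

/-- **invariant metric** -/
theorem exists_metric [T2Space M] [ConnectedSpace M] (K : Kah A) :
    ∃ d : MetricSpace M,
      d.toPseudoMetricSpace.toUniformSpace.toTopologicalSpace = ‹TopologicalSpace M› ∧
      ∀ f : M → M, Isom K K f → ∀ x y, d.dist (f x) (f y) ≤ d.dist x y :=
  ⟨mK K, mK_top K, fun _ h x y => mK_le K h x y⟩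

theorem equi_metric {M : Type} [t : TopologicalSpace M] [CompactSpace M] (d : MetricSpace M)
    (hd : d.toPseudoMetricSpace.toUniformSpace.toTopologicalSpace = t)
    {U : Set (M × M)} (hU : U ∈ 𝓝ˢ (Set.diagonal M)) :
    ∃ V ∈ 𝓝ˢ (Set.diagonal M), ∀ f : M → M, (∀ x y, d.dist (f x) (f y) ≤ d.dist x y) →
      ∀ x y, (x, y) ∈ V → (f x, f y) ∈ U := by
  subst hd
  have hU' : U ∈ 𝓤 M := by rwa [← nhdsSet_diagonal_eq_uniformity]
  obtain ⟨ε, hε, hb⟩ := Metric.mem_uniformity_dist.1 hU'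
  refine ⟨{p | dist p.1 p.2 < ε}, ?_, fun f hf x y hxy => ?_⟩
  · rw [nhdsSet_diagonal_eq_uniformity]
    exact Metric.dist_mem_uniformity hε
  · exact hb (lt_of_le_of_lt (hf x y) hxy)

/-- **Equi**: the holomorphic isometries of a compact Kaehler manifold are equicontinuous -/
theorem equi_nhdsSet [T2Space M] [ConnectedSpace M] [CompactSpace M] (K : Kah A)
    {U : Set (M × M)} (hU : U ∈ 𝓝ˢ (Set.diagonal M)) :
    ∃ V ∈ 𝓝ˢ (Set.diagonal M), ∀ f : M → M, Isom K K f → ∀ x y, (x, y) ∈ V → (f x, f y) ∈ U := by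
  obtain ⟨V, hV, h⟩ := equi_metric (mK K) (mK_top K) hU
  exact ⟨V, hV, fun f hf => h f (mK_le K hf)⟩

/-- Equi, for any uniform structure of `M` -/
theorem equi_uniform {M : Type} [UniformSpace M] {A : Atl n M} [T2Space M] [ConnectedSpace M]
    [CompactSpace M] (K : Kah A) {U : Set (M × M)} (hU : U ∈ 𝓤 M) :
    ∃ V ∈ 𝓤 M, ∀ f : M → M, Isom K K f → ∀ x y, (x, y) ∈ V → (f x, f y) ∈ U := by
  rw [← nhdsSet_diagonal_eq_uniformity] at hU ⊢
  exact equi_nhdsSet K hU

/-- Equi for group actions by holomorphic isometries (the hypothesis of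
`NoVF_534.finite_of_equicont`) -/
theorem equi_smul {M : Type} [UniformSpace M] {A : Atl n M} [T2Space M] [ConnectedSpace M]
    [CompactSpace M] (K : Kah A) {G : Type*} [SMul G M]
    (hG : ∀ g : G, Isom K K (fun x : M => g • x)) :
    ∀ U ∈ 𝓤 M, ∃ V ∈ 𝓤 M, ∀ g : G, ∀ x y : M, (x, y) ∈ V → (g • x, g • y) ∈ U := by
  intro U hU
  obtain ⟨V, hV, h⟩ := equi_uniform K hU
  exact ⟨V, hV, fun g x y hxy => h _ (hG g) x y hxy⟩

/-- the version with the topology only -/
theorem equi_smul_nhdsSet [T2Space M] [ConnectedSpace M] [CompactSpace M] (K : Kah A)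
    {G : Type*} [SMul G M] (hG : ∀ g : G, Isom K K (fun x : M => g • x)) :
    ∀ U ∈ 𝓝ˢ (Set.diagonal M), ∃ V ∈ 𝓝ˢ (Set.diagonal M), ∀ g : G, ∀ x y : M, (x, y) ∈ V →
      (g • x, g • y) ∈ U := by
  intro U hU
  obtain ⟨V, hV, h⟩ := equi_nhdsSet K hU
  exact ⟨V, hV, fun g x y hxy => h _ (hG g) x y hxy⟩

/-! ### the same with `HolMap` and `Jp` (Map_835) -/

theorem isom_of_jp {K : Kah A} {K' : Kah B} {f : M → M'} (hf' : HolMap A B f)
    (h : ∀ i j, ∀ x ∈ (A.e i).source, f x ∈ (B.e j).source →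
      K.g i x = (Jp A B f i j x)ᵀ * K'.g j (f x) * (Jp A B f i j x).map conj) : Isom K K' f :=
  Isom.of_matrix (HFlowC_376.holM_of_holMap hf') h

theorem equi_smul_jp {M : Type} [UniformSpace M] {A : Atl n M} [T2Space M] [ConnectedSpace M]
    [CompactSpace M] (K : Kah A) {G : Type*} [SMul G M]
    (hG : ∀ g : G, HolMap A A (fun x : M => g • x))
    (hI : ∀ g : G, ∀ i j, ∀ x ∈ (A.e i).source, g • x ∈ (A.e j).source →
      K.g i x = (Jp A A (fun x : M => g • x) i j x)ᵀ * K.g j (g • x) *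
        (Jp A A (fun x : M => g • x) i j x).map conj) :
    ∀ U ∈ 𝓤 M, ∃ V ∈ 𝓤 M, ∀ g : G, ∀ x y : M, (x, y) ∈ V → (g • x, g • y) ∈ U :=
  equi_smul K fun g => isom_of_jp (hG g) (hI g)

end

end Crest.Agent.R273.Equi_798
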