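import Crest.Agent.R273.SusSub_333
import Crest.Agent.R273.PCovB_835
import Crest.Agent.R273.D13_505

/-!
# R273 (S0416), helper333: Part A gives the black box for finite index subgroups

`bb_sub` : `PartA` (all manifolds) and the normal form `S : Sus D K B` of a projective `M` give
`BB (volK S.KY) H` for every subgroup `H` of finite index.
-/

set_option autoImplicit false
set_option linter.unusedSectionVars false

open Set Filter Topology Complex
open scoped ContDiff Matrix ComplexConjugate Manifold ComplexOrder

namespace Crest.Agent.R273.BBsub_333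

open Crest.Agent.R275.Geo Crest.Agent.R275.Core144 Crest.Agent.R275.GC293
open Crest.Agent.R273.Defs_333 Crest.Agent.R273.Kah_333 Crest.Agent.R273.Vol_333
open Crest.Agent.R273.UCov_914 Crest.Agent.R273.Sus_333
open Crest.Agent.R273.TorDefs_422 Crest.Agent.R273.SusSub_333
open Crest.Agent.R273.PartA_61 Crest.Agent.R273.TD3_733
open Crest.Agent.R273.HFlowC_376 (pullK)

noncomputable section

section cov

variable {n : ℕ} {M : Type} [TopologicalSpace M] [T2Space M] [CompactSpace M] {A : Atl n M}
  [Finite A.ι] {G : Type} [Group G] (D : MonD A G)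

/-- Theorem D2 on the coverings -/
theorem d2_cov (PM : Part A) (K : Kah A) (F : Type) [MulAction G F] [Finite F] :
    D2 (D.atl F) := by
  have : Finite (D.atl F).ι := inferInstanceAs (Finite (A.ι × F))
  exact D13_505.d2 (D.pullPart F PM) (pullK D K)

/-- finite coverings of projective manifolds are projective -/
theorem projD_cov (PM : Part A) (K : Kah A) (P : ProjD A) (F : Type) [MulAction G F] [Finite F] :
    Nonempty (ProjD (D.atl F)) := by
  obtain ⟨m0, h⟩ := PCov_835.pcov_cov D F (D.pullPart F PM) (d2_cov D PM K F) P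
  exact ⟨(h m0 le_rfl).choose⟩

/-- Part A on a finite covering -/
theorem partAt_cov (HA : PartA) (hA : GoodA A) (PM : Part A) {K : Kah A}
    (hs : (volK K).Semipos) (P : ProjD A) (F : Type) [MulAction G F] [Finite F]
    [ConnectedSpace (D.cov F)] : PartAt (D.atl F) (volK (pullK D K : Kah (D.atl F))) := by
  have : Finite (D.atl F).ι := inferInstanceAs (Finite (A.ι × F))
  obtain ⟨P'⟩ := projD_cov D PM K P F
  exact HA n (D.cov F) (D.atl F) (D.goodA hA) ⟨D.pullPart F PM⟩ P' _ fun p z hz v => hs p.1 z hz v

end cov

variable {g d : ℕ} {M : Type} [TopologicalSpace M] [T2Space M] [CompactSpace M]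
  {A : Atl (g + d) M} [Finite A.ι] {G : Type} [CommGroup G] {D : MonD A G} {K : Kah A}
  {Y : Type} [TopologicalSpace Y] [MulAction G Y] {B : Atl d Y}

/-- **the black box for finite index subgroups** -/
theorem bb_sub (HA : PartA) (hA : GoodA A) (PM : Part A) (P : ProjD A) (hs : (volK K).Semipos)
    (S : Sus D K B) [ConnectedSpace (D.cov G)] (H : Subgroup G) [H.FiniteIndex]
    (hU : UPV (sub S H)) : BB (volK S.KY) H := by
  have h1 : PartAt (D.atl (G ⧸ H)) (volK (pullK D K : Kah (D.atl (G ⧸ H)))) :=
    partAt_cov D HA hA PM hs P (G ⧸ H)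
  have h2 := bb_of_partAt (sub S H) hU h1
  rwa [sub_KY] at h2

end

end Crest.Agent.R273.BBsub_333
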