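import Crest.Agent.R273.UpV_914
import Crest.Agent.R273.BBsub_333

/-!
# R273 (S0416), leaf UPV (helper914): the bridge, in the form of `SusSub_333` / `BBsub_333`
-/

set_option autoImplicit false
set_option linter.unusedSectionVars false

open Set Filter Topology Complex
open scoped ContDiff Matrix ComplexConjugate Manifold ComplexOrder

namespace Crest.Agent.R273.UpV_914

open Crest.Agent.R275.Geo Crest.Agent.R275.Core144 Crest.Agent.R275.GC293
open Crest.Agent.R273.Defs_333 Crest.Agent.R273.Kah_333 Crest.Agent.R273.Vol_333
open Crest.Agent.R273.UCov_914 Crest.Agent.R273.Sus_333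
open Crest.Agent.R273.TorDefs_422 Crest.Agent.R273.SusSub_333
open Crest.Agent.R273.PartA_61

variable {g d : ℕ} {M : Type} [TopologicalSpace M] {A : Atl (g + d) M} {G : Type} [CommGroup G]
  {D : MonD A G} {K : Kah A} {Y : Type} [TopologicalSpace Y] [MulAction G Y] {B : Atl d Y}

/-- the polyvector half of the bridge -/
theorem upv (S : Sus D K B) : UPV S := fun _ _ _ _ hw hne hv => NV_ne_bot S hw hne hv

/-- **Part A gives the black box** -/
theorem bb_of_partA [CompactSpace M] (S : Sus D K B) (hA : PartAt A (volK K)) :
    BB (volK S.KY) G := bb_of_partAt S (upv S) hA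

/-- **Part A gives the black box for finite index subgroups** -/
theorem bb_sub [T2Space M] [CompactSpace M] [Finite A.ι] (HA : PartA) (hA : GoodA A) (PM : Part A)
    (P : ProjD A) (hs : (volK K).Semipos) (S : Sus D K B) [ConnectedSpace (D.cov G)]
    (H : Subgroup G) [H.FiniteIndex] : BB (volK S.KY) H :=
  BBsub_333.bb_sub HA hA PM P hs S H (upv _)

end Crest.Agent.R273.UpV_914
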