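import Crest.Agent.R273.XTwo_836
import Crest.Agent.R273.Sus_333
import Crest.Agent.R273.Act_836

/-!
# R273 (S0416), Part B, leaf B-X2 (helper836), part 2: the suspension of a product

`main_sus` : `S : Sus D K B` (`M = (ℂ^g × Y) / G`), `Y ≃ Y' × Z` biholomorphic, `H ≤ G` of finite
index acting as `γ × id` on `Y' × Z`: then the covering `D.cov (G ⧸ H)` is the product of
`(ℂ^g × Y') / H` and `Z`, so `MainN (g + a)` and `MainN b` give the conclusion for `M`.
`main_dec₁`, `main_dec₂` : the case of a decomposition adapted to a splitting preserved by `G`.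
-/

set_option autoImplicit false
set_option linter.unusedSectionVars false

open Set Filter Topology Complex

namespace Crest.Agent.R273.XTwo_836

open Crest.Agent.R275.Geo Crest.Agent.R275.Core144 Crest.Agent.R275.GC293
open Crest.Agent.R275.Prod363
open Crest.Agent.R273.Defs_333 Crest.Agent.R273.Map_835 Crest.Agent.R273.PB_835
open Crest.Agent.R273.Fam_835 Crest.Agent.R273.Prd_835 Crest.Agent.R273.UCov_914
open Crest.Agent.R273.Quot_914 Crest.Agent.R273.EA_333 Crest.Agent.R273.Sus_333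
open Crest.Agent.R273.Kah_333 Crest.Agent.R273.SplA_836

noncomputable section

/-! ### the twisted product -/

section tw

variable {g : ℕ} {P : Type} [Group P]

/-- `ℂ^g × Y'` with the action by translations and the given action -/
def Tw (_ : P →* Multiplicative (Cn g)) (Y' : Type) : Type := Cn g × Y'

variable (lam : P →* Multiplicative (Cn g)) (Y' : Type)

instance [TopologicalSpace Y'] : TopologicalSpace (Tw lam Y') :=
  inferInstanceAs (TopologicalSpace (Cn g × Y'))

instance [MulAction P Y'] : MulAction P (Tw lam Y') where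
  smul γ q := (q.1 + Multiplicative.toAdd (lam γ), γ • q.2)
  one_smul q := by
    show (q.1 + Multiplicative.toAdd (lam 1), (1 : P) • q.2) = q
    rw [map_one, toAdd_one, add_zero, one_smul]
    rfl
  mul_smul γ δ q := by
    show (q.1 + Multiplicative.toAdd (lam (γ * δ)), (γ * δ) • q.2) =
      ((q.1 + Multiplicative.toAdd (lam δ)) + Multiplicative.toAdd (lam γ), γ • δ • q.2)
    rw [map_mul, toAdd_mul, mul_smul, add_assoc, add_comm (Multiplicative.toAdd (lam δ))]

theorem tw_smul [MulAction P Y'] (γ : P) (q : Tw lam Y') :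
    γ • q = ((q.1 + Multiplicative.toAdd (lam γ), γ • q.2) : Cn g × Y') := rfl

end tw

section sus

variable {g d a b : ℕ} {M : Type} [TopologicalSpace M] {A : Atl (g + d) M} {G : Type}
  [CommGroup G] {D : MonD A G} {K : Kah A} {Y : Type} [TopologicalSpace Y] [MulAction G Y]
  {B : Atl d Y} (S : Sus D K B) {Y' Z : Type} [TopologicalSpace Y'] [TopologicalSpace Z]
  {B' : Atl a Y'} {C : Atl b Z} (F : Y ≃ₜ Y' × Z) (H : Subgroup G)

/-- the homeomorphism of the covering -/
def Th : (Tw (S.lam.comp H.subtype) Y') × Z ≃ₜ (D.sub H).cov H :=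
  ((Homeomorph.prodAssoc (Cn g) Y' Z).trans
    ((Homeomorph.refl (Cn g)).prodCongr F.symm)).trans (S.Ψ.trans (D.homeo H))

theorem Th_apply (q : (Tw (S.lam.comp H.subtype) Y') × Z) :
    Th S F H q = D.toSub H (S.Ψ (q.1.1, F.symm (q.1.2, q.2))) := rfl

theorem Th_symm (e : (D.sub H).cov H) : (Th S F H).symm e =
    (((S.Ψ.symm (D.ofSub H e)).1, (F (S.Ψ.symm (D.ofSub H e)).2).1),
      (F (S.Ψ.symm (D.ofSub H e)).2).2) := rfl

variable {F} (hF : HolMap B (B'.prod C) F) (hF' : HolMap (B'.prod C) B F.symm)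

include hF' in
theorem hol_Th : HolMap (((EA g).prod B').prod C) ((D.sub H).atl H) (Th S F H) := by
  have h1 : HolMap (((EA g).prod B').prod C) (EA g) (fun q : (Cn g × Y') × Z => q.1.1) :=
    holMap_fst.comp holMap_fst
  have h2 : HolMap (((EA g).prod B').prod C) B' (fun q : (Cn g × Y') × Z => q.1.2) :=
    holMap_snd.comp holMap_fst
  have h3 : HolMap (((EA g).prod B').prod C) C (fun q : (Cn g × Y') × Z => q.2) := holMap_snd
  exact (D.holMap_toSub H).comp (S.lb.toHolMap.comp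
    (holMap_pair h1 (hF'.comp (holMap_pair h2 h3))))

include hF in
theorem hol_Th_symm : HolMap ((D.sub H).atl H) (((EA g).prod B').prod C) (Th S F H).symm := by
  have h0 : HolMap ((D.sub H).atl H) ((EA g).prod B) (fun e => S.Ψ.symm (D.ofSub H e)) :=
    S.lb_symm.toHolMap.comp (D.holMap_ofSub H)
  have h1 : HolMap ((D.sub H).atl H) (EA g) (fun e => (S.Ψ.symm (D.ofSub H e)).1) :=
    holMap_fst.comp h0
  have h2 : HolMap ((D.sub H).atl H) (B'.prod C) (fun e => F (S.Ψ.symm (D.ofSub H e)).2) :=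
    hF.comp (holMap_snd.comp h0)
  exact holMap_pair (holMap_pair h1 (holMap_fst.comp h2)) (holMap_snd.comp h2)

theorem Th_eqv [MulAction G Y'] (hact : ∀ γ ∈ H, ∀ y : Y, F (γ • y) = (γ • (F y).1, (F y).2))
    (γ : H) (u : Tw (S.lam.comp H.subtype) Y') (z : Z) :
    Th S F H (γ • u, z) = γ • Th S F H (u, z) := by
  rw [Th_apply, Th_apply, ← D.toSub_deck, S.eqv]
  congr 2
  have h1 : F.symm ((γ • u).2, z) = (γ : G) • F.symm (u.2, z) := by
    rw [F.symm_apply_eq, hact γ γ.2, F.apply_symm_apply]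
    rfl
  exact congrArg (fun y => (u.1 + Multiplicative.toAdd (S.lam γ), y)) h1

include S hF hF' in
/-- **the induction step for the suspension of a product** -/
theorem main_sus [T2Space M] [CompactSpace M] [Finite A.ι] [ConnectedSpace (D.cov G)]
    [T2Space Z] [CompactSpace Z] [ConnectedSpace Z] [H.FiniteIndex] [MulAction G Y']
    (hact : ∀ γ ∈ H, ∀ y : Y, F (γ • y) = (γ • (F y).1, (F y).2)) (hd : d = a + b)
    (IH1 : MainN (g + a)) (IH2 : MainN b) (Pj : ProjD (D.atl (G ⧸ H))) {h : HM (KB A)⁻¹}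
    (hs : h.Semipos) : ∃ m : ℕ, 0 < m ∧ HasSec ((KB A)⁻¹ ^ m) := by
  have _ : Finite (G ⧸ H) := H.finite_quotient_of_finiteIndex
  have h1 := main_quot (N₁ := Tw (S.lam.comp H.subtype) Y') (hol_Th S H hF') (hol_Th_symm S H hF) (Th_eqv S H hact)
    (by omega) IH1 IH2 Pj (D.pullAnti_semipos (F := G ⧸ H) hs)
  exact D.main_of_cov h1

end sus

section dec

variable {g d r s : ℕ} {M : Type} [TopologicalSpace M] {A : Atl (g + d) M} {G : Type}
  [CommGroup G] {D : MonD A G} {K : Kah A} {Y : Type} [TopologicalSpace Y] [MulAction G Y]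
  {B : Atl d Y} (S : Sus D K B) {SB : Spl B} (Dc : Dec SB r s) (hG : PresG SB G)
  (H : Subgroup G)

include S in
/-- `H` acts trivially on the second factor -/
theorem main_dec₂ [T2Space M] [CompactSpace M] [Finite A.ι] [ConnectedSpace (D.cov G)]
    [H.FiniteIndex] (hH : ∀ γ ∈ H, ∀ z : Dc.Y₂, letI := Dc.act₂ hG; γ • z = z)
    (hd : d = r + s) (IH1 : MainN (g + r)) (IH2 : MainN s) (Pj : ProjD (D.atl (G ⧸ H)))
    {h : HM (KB A)⁻¹} (hs : h.Semipos) : ∃ m : ℕ, 0 < m ∧ HasSec ((KB A)⁻¹ ^ m) := by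
  let _ := Dc.act₁ hG
  let _ := Dc.act₂ hG
  refine main_sus S H Dc.hol Dc.hol' (fun γ hγ y => ?_) hd IH1 IH2 Pj hs
  have h1 := Dc.act_eq hG γ y
  have h2 := hH γ hγ (Dc.Φ y).2
  rw [h1]
  exact congrArg (Prod.mk _) h2

include S in
/-- `H` acts trivially on the first factor -/
theorem main_dec₁ [T2Space M] [CompactSpace M] [Finite A.ι] [ConnectedSpace (D.cov G)]
    [H.FiniteIndex] (hH : ∀ γ ∈ H, ∀ z : Dc.Y₁, letI := Dc.act₁ hG; γ • z = z)
    (hd : d = r + s) (IH1 : MainN (g + s)) (IH2 : MainN r) (Pj : ProjD (D.atl (G ⧸ H)))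
    {h : HM (KB A)⁻¹} (hs : h.Semipos) : ∃ m : ℕ, 0 < m ∧ HasSec ((KB A)⁻¹ ^ m) := by
  let _ := Dc.act₁ hG
  let _ := Dc.act₂ hG
  have k1 : HolMap B (Dc.B₂.prod Dc.B₁) (Dc.Φ.trans (Homeomorph.prodComm Dc.Y₁ Dc.Y₂)) :=
    holMap_pair Dc.hol₂ Dc.hol₁
  have k2 : HolMap (Dc.B₂.prod Dc.B₁) B
      (Dc.Φ.trans (Homeomorph.prodComm Dc.Y₁ Dc.Y₂)).symm :=
    Dc.hol'.comp (holMap_pair holMap_snd holMap_fst)
  refine main_sus S H k1 k2 (fun γ hγ y => ?_) (by omega) IH1 IH2 Pj hs
  have h1 := Dc.act_eq hG γ y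
  have h2 := hH γ hγ (Dc.Φ y).1
  show (Dc.Φ (γ • y)).swap = (γ • (Dc.Φ y).2, (Dc.Φ y).1)
  rw [h1]
  exact congrArg (Prod.mk _) h2

end dec

end

end Crest.Agent.R273.XTwo_836
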