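import Crest.Agent.R273.AsmB_534
import Crest.Agent.R273.UpVb_914
import Crest.Agent.R273.Equi_798
import Crest.Agent.R273.XTwoB_836
import Crest.Agent.R273.D2U_505

/-!
# R273 (S0416), Part B, global assembly (helper534), II

* `exists_om`   : a nonzero holomorphic form of positive degree if `H^q(O) ≠ 0` for some `q ≥ 1`
* `gd_of_flat`  : the trivial action on a simply connected Ricci flat manifold has an invariant
                  section of the anticanonical bundle
* `fin_kernel`  : a group of holomorphic isometries of a compact simply connected Ricci flat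
                  manifold acts through a finite group
* `main_flat`   : the induction step if the fibre is Ricci flat
-/

set_option autoImplicit false
set_option linter.unusedSectionVars false

open Set Metric Filter Topology Complex Function
open scoped ContDiff Matrix ComplexConjugate

namespace Crest.Agent.R273.AsmC_534

open Crest.Agent.R275.Geo Crest.Agent.R275.Core144 Crest.Agent.R275.GC293
open Crest.Agent.R275.SerG398
open Crest.Agent.R273.Defs_333 Crest.Agent.R273.HM_333 Crest.Agent.R273.Hess_333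
open Crest.Agent.R273.Kah_333 Crest.Agent.R273.Vol_333 Crest.Agent.R273.FS_333
open Crest.Agent.R273.Map_835 Crest.Agent.R273.PB_835 Crest.Agent.R273.Prd_835
open Crest.Agent.R273.UCov_914 Crest.Agent.R273.Sus_333 Crest.Agent.R273.TorDefs_422
open Crest.Agent.R273.PartA_61 Crest.Agent.R273.LamN127 Crest.Agent.R273.TD3_733
open Crest.Agent.R273.HFlow3_376 Crest.Agent.R273.RMan4_798
open Crest.Agent.R273.Fock_243 (FI)
open Crest.Agent.R273.NV_578 (NV PV)
open Crest.Agent.R273.HolF_578 (Om)
open Crest.Agent.R273.HFlowC_376 (pullK)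

noncomputable section

variable {n : ℕ} {M : Type} [TopologicalSpace M] {A : Atl n M}

/-! ### holomorphic forms -/

/-- a form of positive degree -/
theorem exists_om [T2Space M] [CompactSpace M] [ConnectedSpace M] [Finite A.ι] (P : Part A)
    (K : Kah A) (hs : (volK K).Semipos) (h : ¬ ∀ q, 1 ≤ q → hB (BN (1 : LB A)) q = 0) :
    ∃ q, q ≠ 0 ∧ ∃ β ∈ Om A q, β ≠ 0 := by
  push Not at h
  obtain ⟨q, hq, hne⟩ := h
  rcases Nat.lt_or_ge n q with hlt | hle
  · exfalso
    have h1 := (HodgeP_578.d2_fin P (D13_505.d2Ex P K) (N := 1)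
      (NV_578.hone (volK K)) (by
        exact NV_578.castH_semipos _ hs) q).2
    apply hne
    rw [← h1]
    have h2 : ∀ v : NV 1 (NV_578.hone (volK K)) q, v = 0 := fun v =>
      Subtype.ext (HodgeP_578.PV_eq_zero hlt v.2.1)
    have : Subsingleton (NV 1 (NV_578.hone (volK K)) q) := ⟨fun a b => by rw [h2 a, h2 b]⟩
    exact Module.finrank_zero_of_subsingleton
  · have h1 := (HodgeP_578.finrank_Om P (D13_505.d2Ex P K) hle).2
    refine ⟨q, by omega, ?_⟩
    by_contra hno
    push Not at hno
    have h2 : ∀ v : Om A q, v = 0 := fun v => Subtype.ext (hno v.1 v.2)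
    have : Subsingleton (Om A q) := ⟨fun a b => by rw [h2 a, h2 b]⟩
    rw [← h1] at hne
    exact hne Module.finrank_zero_of_subsingleton

/-! ### the flat case -/

theorem Ja_trivial {H : Type} [CommGroup H] [MulAction H M] {γ : H} (hγ : ∀ x : M, γ • x = x)
    (i j : A.ι) (x : M) : Ja A γ i j x = Jm A i j x := by
  have h1 : (fun y : M => γ • y) = fun y => y := funext hγ
  unfold Ja
  rw [h1]
  rfl

/-- an invariant section for the trivial action -/
theorem gd_of_flat [SimplyConnectedSpace M] (hA : GoodA A) {h : HM (KB A)⁻¹}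
    (hc : ∀ i, ∀ x ∈ (A.e i).source, cur h i x = 0) {H : Type} [CommGroup H] [MulAction H M]
    (hH : ∀ (γ : H) (x : M), γ • x = x) : Gd A (1 : H →* Circle) := by
  obtain ⟨s, hs, hn⟩ := FlatSec_534.flatSec hA h hc
  refine ⟨1, one_pos, s, by rwa [pow_one], ?_, ?_⟩
  · obtain ⟨x⟩ : Nonempty M := inferInstance
    obtain ⟨i, hi⟩ := A.cover x
    refine ⟨i, x, hi, fun h0 => ?_⟩
    have h1 := hn i x hi
    rw [h0, norm_zero] at h1
    norm_num at h1
  · intro γ i j x hi hj
    rw [hH γ x] at hj ⊢
    have h1 := hs.tr i j x ⟨hi, hj⟩ (mem_univ x)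
    have h2 : (KB A).g i j x ≠ 0 := (KB A).ne_zero i j x
    rw [LB.inv_g] at h1
    have h3 : (((1 : H →* Circle) ^ 1) γ : ℂ) = 1 := by rw [one_pow]; rfl
    rw [h3, Ja_trivial (hH γ), ← KB_g ⟨hi, hj⟩, h1, pow_one, one_mul, ← mul_assoc,
      mul_inv_cancel₀ h2, one_mul]

/-- finite kernel -/
theorem fin_kernel [T2Space M] [CompactSpace M] [SimplyConnectedSpace M] [Finite A.ι]
    (hA : GoodA A) (P : Part A) (K : Kah A)
    (hric : ∀ i, ∀ x ∈ (A.e i).source, cur (volK K) i x = 0) {G : Type} [Group G]
    [MulAction G M] (hG : ∀ g : G, HolMap A A (fun x : M => g • x))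
    (hI : ∀ g : G, ∀ i j, ∀ x ∈ (A.e i).source, g • x ∈ (A.e j).source →
      K.g i x = (Jp A A (fun x : M => g • x) i j x)ᵀ * K.g j (g • x) *
        (Jp A A (fun x : M => g • x) i j x).map conj) :
    (MulAction.toPermHom G M).ker.FiniteIndex := by
  have : PathConnectedSpace M := inferInstance
  have : ConnectedSpace M := inferInstance
  let _ : UniformSpace M := uniformSpaceOfCompactR1
  exact NoVF_534.finite_of_equicont (NoHVF_376.nohvf hA P K hric)
    (fun g => HFlowC_376.holM_of_holMap (hG g)) (Equi_798.equi_smul_jp K hG hI)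

/-! ### the induction step, flat fibre -/

variable {g d : ℕ} {A : Atl (g + d) M} {K : Kah A} {G : Type} [CommGroup G] {D : MonD A G}
  {Y : Type} [TopologicalSpace Y] [MulAction G Y] {B : Atl d Y}

/-- a finite index subgroup with an invariant section -/
theorem main_of_Gd_sub (S : Sus D K B) [ConnectedSpace (D.cov G)] (H : Subgroup G)
    [H.FiniteIndex]
    (h : Gd B (1 : H →* Circle)) : ∃ m : ℕ, 0 < m ∧ HasSec ((KB A)⁻¹ ^ m) := by
  have _ : Finite (G ⧸ H) := H.finite_quotient_of_finiteIndex
  exact D.main_of_cov (Dsc_333.main_of_Gd (SusSub_333.sub S H) h)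

/-- **flat fibre** -/
theorem main_flat (S : Sus D K B) [ConnectedSpace (D.cov G)] [T2Space Y] [CompactSpace Y] [SimplyConnectedSpace Y]
    [Finite B.ι] (hB : GoodA B) (PB : Part B)
    (hf : ∀ j, ∀ y ∈ (B.e j).source, cur (volK S.KY) j y = 0) :
    ∃ m : ℕ, 0 < m ∧ HasSec ((KB A)⁻¹ ^ m) := by
  have h1 := fin_kernel hB PB S.KY hf (fun γ => S.holMap_smul γ)
    (fun γ i j y hy hy' => S.KY_inv γ hy hy')
  refine main_of_Gd_sub S (MulAction.toPermHom G Y).ker (gd_of_flat hB hf fun γ y => ?_)
  have h2 : MulAction.toPermHom G Y γ.1 = 1 := γ.2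
  exact congrArg (fun f : Equiv.Perm Y => f y) h2

end

end Crest.Agent.R273.AsmC_534
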