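import Crest.Agent.R273.AsmB_73

/-!
# R273 (S0416), master of Part A, half 1, part C (helper73): the weights of `YD`

* `YD.gw1`, `YD.gw2` : the weights of the corner theorem are in `GW`
* `YD.land`          : a nonzero element of `A(V₀ + kΨ)` gives a section of `L ^ (j0 e k)`
-/

set_option autoImplicit false
set_option linter.unusedSectionVars false

open Set Filter Topology Complex MeasureTheory
open scoped ContDiff Matrix ENNReal

namespace Crest.Agent.R273.AsmA_73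

open Crest.Agent.R275.Geo Crest.Agent.R275.Core144 Crest.Agent.R275.GC293
open Crest.Agent.R273.SteinA_794
open Crest.Agent.R273.SteinB_794 Crest.Agent.R273.SteinC_794 Crest.Agent.R273.SteinD_794
open Crest.Agent.R273.SteinM_794 Crest.Agent.R273.SteinN_794 Crest.Agent.R273.SteinL_794
open Crest.Agent.R273.Defs_333 (ProjD HM HM.wt HM.Semipos HasSec)
open Crest.Agent.R273.Vm_333 (vm)
open Crest.Agent.R273.Kah_333 (cur)
open Crest.Agent.R271.Ho51 (RDom cp ch IsCh IsLeb Hol Sm mem_ch isCh_ch Levi)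
open Crest.Agent.R271.W792 (lev)
open Crest.Agent.R273.Pen_93 Crest.Agent.R273.PenAlg_93
open Crest.Agent.R273.Reg_844 (PSH)

noncomputable section

variable {n : ℕ} {M : Type} [TopologicalSpace M] {A : Atl n M}

/-! ### polynomials -/

section evp

variable {S : SD A} {N : ℕ} {y : Fin N → Mo S → ℂ}

theorem hol_eval (hy : ∀ l, Hol (y l)) (p : MvPolynomial (Fin N) ℂ) :
    Hol fun x => MvPolynomial.eval (fun l => y l x) p := by
  induction p using MvPolynomial.induction_on with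
  | C a => simpa using hol_const (M := Mo S) a
  | add p q hp hq => simpa using hol_add hp hq
  | mul_X p l hp => simpa using hol_mul hp (hy l)

theorem hol_evp (hy : ∀ l, Hol (y l)) (p : ℕ → MvPolynomial (Fin N) ℂ) (j : ℕ) :
    Hol (evp y p j) := hol_eval hy (p j)

/-- polynomial growth -/
theorem eval_growth {X : Mo S → ℝ} (hX : ∀ x, 0 < X x) {C : ℝ} (hC : 0 < C) (hXC : ∀ x, X x ≤ C)
    (hyC : ∀ l x, ‖y l x‖ ^ 2 * X x ≤ C) (p : MvPolynomial (Fin N) ℂ) :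
    ∃ (D : ℕ) (K : ℝ), 0 < K ∧
      ∀ x, ‖MvPolynomial.eval (fun l => y l x) p‖ ^ 2 * X x ^ D ≤ K := by
  induction p using MvPolynomial.induction_on with
  | C a =>
    refine ⟨0, ‖a‖ ^ 2 + 1, by positivity, fun x => ?_⟩
    simp
  | add p q hp hq =>
    obtain ⟨D, K, hK, h1⟩ := hp
    obtain ⟨D', K', hK', h2⟩ := hq
    refine ⟨D + D', 2 * (K * C ^ D') + 2 * (K' * C ^ D), by positivity, fun x => ?_⟩
    rw [map_add]
    set a := MvPolynomial.eval (fun l => y l x) p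
    set b := MvPolynomial.eval (fun l => y l x) q
    have h3 : ‖a + b‖ ^ 2 ≤ 2 * ‖a‖ ^ 2 + 2 * ‖b‖ ^ 2 := by
      have h4 := norm_add_le a b
      have h5 : ‖a + b‖ ^ 2 ≤ (‖a‖ + ‖b‖) ^ 2 := by gcongr
      nlinarith [sq_nonneg (‖a‖ - ‖b‖)]
    have hx := hX x
    have h4 : X x ^ D' ≤ C ^ D' := pow_le_pow_left₀ hx.le (hXC x) D'
    have h5 : X x ^ D ≤ C ^ D := pow_le_pow_left₀ hx.le (hXC x) D
    calc ‖a + b‖ ^ 2 * X x ^ (D + D')
        ≤ (2 * ‖a‖ ^ 2 + 2 * ‖b‖ ^ 2) * X x ^ (D + D') := by gcongr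
      _ = 2 * ((‖a‖ ^ 2 * X x ^ D) * X x ^ D') + 2 * ((‖b‖ ^ 2 * X x ^ D') * X x ^ D) := by
          rw [pow_add]; ring
      _ ≤ 2 * (K * C ^ D') + 2 * (K' * C ^ D) := by
          have := h1 x
          have := h2 x
          gcongr
  | mul_X p l hp =>
    obtain ⟨D, K, hK, h1⟩ := hp
    refine ⟨D + 1, K * C, by positivity, fun x => ?_⟩
    rw [map_mul, MvPolynomial.eval_X, norm_mul, mul_pow, pow_succ]
    have hx := hX x
    calc ‖MvPolynomial.eval (fun l => y l x) p‖ ^ 2 * ‖y l x‖ ^ 2 * (X x ^ D * X x)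
        = (‖MvPolynomial.eval (fun l => y l x) p‖ ^ 2 * X x ^ D) * (‖y l x‖ ^ 2 * X x) := by ring
      _ ≤ K * C := mul_le_mul (h1 x) (hyC l x) (by positivity) hK.le

theorem Bf_growth {X : Mo S → ℝ} (hX : ∀ x, 0 < X x) {C : ℝ} (hC : 0 < C) (hXC : ∀ x, X x ≤ C)
    (hyC : ∀ l x, ‖y l x‖ ^ 2 * X x ≤ C) (p : ℕ → MvPolynomial (Fin N) ℂ) (r : ℕ) :
    ∃ (D : ℕ) (K : ℝ), 0 < K ∧ ∀ x, Bf (evp y p) r x * X x ^ D ≤ K := by
  induction r with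
  | zero =>
    obtain ⟨D, K, hK, h1⟩ := eval_growth hX hC hXC hyC (p 0)
    refine ⟨D, K, hK, fun x => ?_⟩
    rw [Bf_zero]
    exact h1 x
  | succ r ih =>
    obtain ⟨D, K, hK, h1⟩ := ih
    obtain ⟨D', K', hK', h2⟩ := eval_growth hX hC hXC hyC (p (r + 1))
    refine ⟨D + D', K * C ^ D' + K' * C ^ D, by positivity, fun x => ?_⟩
    rw [Bf_succ]
    have hx := hX x
    have h4 : X x ^ D' ≤ C ^ D' := pow_le_pow_left₀ hx.le (hXC x) D'
    have h5 : X x ^ D ≤ C ^ D := pow_le_pow_left₀ hx.le (hXC x) D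
    have h3 : ‖evp y p (r + 1) x‖ ^ 2 * X x ^ D' ≤ K' := h2 x
    calc (Bf (evp y p) r x + ‖evp y p (r + 1) x‖ ^ 2) * X x ^ (D + D')
        = (Bf (evp y p) r x * X x ^ D) * X x ^ D' +
          (‖evp y p (r + 1) x‖ ^ 2 * X x ^ D') * X x ^ D := by rw [pow_add]; ring
      _ ≤ K * C ^ D' + K' * C ^ D := by
          have := h1 x
          gcongr

end evp

namespace YD

variable {h : HM (KB A)⁻¹} {L : LB A} {hL : HM L} (Y : YD h L hL)

/-- the family `p(y)` -/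
def c (j : ℕ) (x : Mo Y.S) : ℂ := evp Y.y Y.p j x

/-- the family `p'(y)` -/
def c' (j : ℕ) (x : Mo Y.S) : ℂ := evp Y.y Y.p' j x

/-- the weight of `K⁻¹` -/
def φK (x : Mo Y.S) : ℝ := wtS h (kf Y.S) x.val

/-- the weight of `L` -/
def φL (x : Mo Y.S) : ℝ := wtS hL Y.σ x.val

theorem hc (j : ℕ) : Hol (Y.c j) := hol_evp Y.hy Y.p j

theorem hc' (j : ℕ) : Hol (Y.c' j) := hol_evp Y.hy Y.p' j

theorem cne (x : Mo Y.S) : Y.c 0 x ≠ 0 := Y.c0 x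

theorem cne' (x : Mo Y.S) : Y.c' 0 x ≠ 0 := Y.c0' x

theorem φK_sm : Sm Y.φK := wtS_sm h (isHS_kf Y.S) kf_ne

theorem φL_sm : Sm Y.φL := wtS_sm hL Y.hσ Y.σ0

/-- `‖t‖²` -/
def X (x : Mo Y.S) : ℝ := Real.exp (-(wtS Y.hBy Y.t x.val))

theorem X_pos (x : Mo Y.S) : 0 < Y.X x := Real.exp_pos _

theorem ht' : IsHS Y.By Y.S.U Y.t := Y.ht.mono (subset_univ _)

theorem X_eq {x : Mo Y.S} {i : A.ι} (hx : x.val ∈ (A.e i).source) :
    Y.X x = ‖Y.t i x.val‖ ^ 2 * Y.hBy.w i x.val := exp_wtS Y.hBy Y.ht' Y.t0 hx x.prop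

theorem bounds [CompactSpace M] : ∃ C : ℝ, 0 < C ∧ (∀ x, Y.X x ≤ C) ∧
    ∀ l x, ‖Y.y l x‖ ^ 2 * Y.X x ≤ C := by
  classical
  obtain ⟨C, hC, h1⟩ := nsq_bdd Y.hBy Y.ht
  have h2 : ∀ l, ∃ C : ℝ, 0 < C ∧ ∀ x, ‖Y.y l x‖ ^ 2 * Y.X x ≤ C := by
    intro l
    obtain ⟨C', hC', h3⟩ := nsq_bdd Y.hBy (Y.hs l)
    refine ⟨C', hC', fun x => ?_⟩
    obtain ⟨i, hx⟩ := A.cover x.val
    have h4 := h3 i x.val hx
    rw [Y.rel l i x hx, norm_mul, mul_pow, mul_assoc, ← Y.X_eq hx] at h4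
    exact h4
  choose C' hC' h3 using h2
  refine ⟨C + ∑ l, C' l, add_pos_of_pos_of_nonneg hC (Finset.sum_nonneg fun l _ => (hC' l).le),
    fun x => ?_, fun l x => ?_⟩
  · obtain ⟨i, hx⟩ := A.cover x.val
    rw [Y.X_eq hx]
    have := Finset.sum_nonneg fun l (_ : l ∈ Finset.univ) => (hC' l).le
    linarith [h1 i x.val hx]
  · have h4 : C' l ≤ ∑ l, C' l := Finset.single_le_sum (fun l _ => (hC' l).le) (Finset.mem_univ l)
    linarith [h3 l x]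

theorem gw_X : GW Y.S Y.X := GW.of_frame Y.hBy Y.ht' Y.t0

theorem gw_Binv [CompactSpace M] (p : ℕ → MvPolynomial (Fin Y.N) ℂ)
    (h0 : ∀ x, evp Y.y p 0 x ≠ 0) (r : ℕ) : GW Y.S fun x => (Bf (evp Y.y p) r x)⁻¹ := by
  obtain ⟨C, hC, h1, h2⟩ := Y.bounds
  obtain ⟨D, K, hK, h3⟩ := Bf_growth Y.X_pos hC h1 h2 p r
  refine (Y.gw_X.pow D).mono (inv_pos.2 hK) fun x => ?_
  have hB := Bf_pos h0 r x
  rw [inv_mul_eq_div, div_le_iff₀ hK, inv_mul_eq_div, le_div_iff₀ hB, mul_comm]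
  exact h3 x

theorem gw_B (p : ℕ → MvPolynomial (Fin Y.N) ℂ)
    (h0 : ∀ x, evp Y.y p 0 x ≠ 0) (r : ℕ) : GW Y.S fun x => Bf (evp Y.y p) r x := by
  have hh : ∀ i, HolAt A i Y.S.U (ext0 (evp Y.y p 0)) := holAt_ext0 (hol_evp Y.hy p 0)
  have hne : ∀ i, ∀ x ∈ (A.e i).source, x ∈ Y.S.U → funS A (ext0 (evp Y.y p 0)) i x ≠ 0 := by
    intro i x hx hxU
    have h1 := ext0_val (evp Y.y p 0) ⟨x, hxU⟩
    simp only [funS, hx, if_true]
    rw [show ext0 (evp Y.y p 0) x = evp Y.y p 0 ⟨x, hxU⟩ from h1]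
    exact h0 _
  refine (GW.of_frame (HM_333.one A) (isHS_funS hh) hne).mono one_pos fun x => ?_
  obtain ⟨i, hx⟩ := A.cover x.val
  rw [one_mul, exp_wtS _ (isHS_funS hh) hne hx x.prop]
  show ‖funS A (ext0 (evp Y.y p 0)) i x.val‖ ^ 2 * 1 ≤ _
  have h1 := ext0_val (evp Y.y p 0) x
  simp only [funS, hx, if_true]
  rw [h1, mul_one]
  induction r with
  | zero => rw [Bf_zero]
  | succ r ih =>
    rw [Bf_succ]
    have : 0 ≤ ‖evp Y.y p (r + 1) x‖ ^ 2 := by positivity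
    linarith

theorem gw_Wt [CompactSpace M] (p : ℕ → MvPolynomial (Fin Y.N) ℂ)
    (h0 : ∀ x, evp Y.y p 0 x ≠ 0) (m : ℕ) (e : ℕ → ℕ) : GW Y.S (Wt (evp Y.y p) m e) := by
  unfold Wt
  exact GW.prod _ fun j _ => (Y.gw_Binv p h0 j).pow (e j)

/-! ### landing -/

theorem pow_s_eq (σ : A.ι → M → ℂ) (k : ℕ) (i : A.ι) (x : M) : (σ ^ k) i x = σ i x ^ k := rfl

theorem isHS_pow' {L : LB A} {U : Set M} {s : A.ι → M → ℂ} (hs : IsHS L U s) {k : ℕ}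
    (hk : 0 < k) : IsHS (L ^ k) U (s ^ k) := by
  obtain ⟨k, rfl⟩ := Nat.exists_eq_succ_of_ne_zero hk.ne'
  exact Crest.Agent.R273.SteinE_794.isHS_pow hs k

/-- **landing**: a nonzero function of `A(φ_K - k e log ‖λ‖²)` is a section of `L ^ (j0 e k)` -/
theorem land [T2Space M] [CompactSpace M] [ConnectedSpace M] [Finite A.ι] {μ : Measure (Mo Y.S)}
    (hμ : IsLeb μ) {k : ℕ} (hk : 0 < k) {f : Mo Y.S → ℂ} (hf : Hol f) (hf0 : f ≠ 0)
    (hfi : ∫⁻ x, ENNReal.ofReal (‖f x‖ ^ 2 *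
      ((‖Y.lam x‖ ^ 2 * Real.exp (-(Y.j0 * Y.φL x))) ^ (Y.e * k) * Real.exp (-Y.φK x))) ∂μ < ⊤) :
    HasSec (L ^ (Y.j0 * (Y.e * k))) := by
  let _ : MeasurableSpace M := borel M
  have _ : BorelSpace M := ⟨rfl⟩
  have _ : SecondCountableTopology M := secM (A := A)
  set m : ℕ := Y.j0 * (Y.e * k) with hm
  have hm0 : 0 < m := Nat.mul_pos Y.j0_pos (Nat.mul_pos Y.e_pos hk)
  have hσm : IsHS (L ^ m) Y.S.U (Y.σ ^ m) := isHS_pow' Y.hσ hm0
  have hσm0 : ∀ i, ∀ x ∈ (A.e i).source, x ∈ Y.S.U → (Y.σ ^ m) i x ≠ 0 := fun i x hx hxU =>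
    pow_ne_zero m (Y.σ0 i x hx hxU)
  have hfr := (isHS_kf Y.S).mul hσm
  have hfr0 := ne_mul (S := Y.S) kf_ne hσm0
  have hwt : ∀ x : Mo Y.S, Real.exp (-(wtS (HM_333.mul h (HM_333.pow hL m))
      (kf Y.S * Y.σ ^ m) x.val)) = Real.exp (-Y.φK x) * Real.exp (-(Y.j0 * Y.φL x)) ^ (Y.e * k) := by
    intro x
    rw [exp_mul h _ (isHS_kf Y.S) hσm kf_ne hσm0 x.prop]
    obtain ⟨i, hx⟩ := A.cover x.val
    have e1 : Real.exp (-(wtS (HM_333.pow hL m) (Y.σ ^ m) x.val)) =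
        (Real.exp (-(wtS hL Y.σ x.val))) ^ m := by
      rw [exp_wtS _ hσm hσm0 hx x.prop, exp_wtS _ Y.hσ Y.σ0 hx x.prop, HM_333.pow_w]
      show ‖Y.σ i x.val ^ m‖ ^ 2 * _ = _
      rw [norm_pow, mul_pow, ← pow_mul, ← pow_mul, mul_comm m 2]
    rw [e1]
    congr 1
    rw [← Real.exp_nat_mul, ← Real.exp_nat_mul]
    congr 1
    rw [hm]
    unfold φL
    push_cast
    ring
  have hF : Hol fun x => f x * Y.lam x ^ (Y.e * k) := by
    have h1 : Hol fun x => Y.lam x ^ (Y.e * k) := fun e he => (Y.hlam e he).pow _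
    exact hol_mul hf h1
  have hL2 : ∫⁻ x, ‖f x * Y.lam x ^ (Y.e * k)‖ₑ ^ 2 * ENNReal.ofReal (Real.exp
      (-(wtS (HM_333.mul h (HM_333.pow hL m)) (kf Y.S * Y.σ ^ m) x.val))) ∂μ < ⊤ := by
    refine lt_of_le_of_lt (lintegral_mono fun x => le_of_eq ?_) hfi
    rw [← ofReal_norm, ← ENNReal.ofReal_pow (norm_nonneg _), ← ENNReal.ofReal_mul (by positivity),
      hwt]
    congr 1
    rw [norm_mul, norm_pow, mul_pow, mul_pow]
    ring
  obtain ⟨s, hs, hsF⟩ := l2_ext h hμ (HM_333.mul h (HM_333.pow hL m)) hfr hfr0 Y.hd Y.d0 Y.U_eq hF hL2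
  have hLB : KB A * ((KB A)⁻¹ * L ^ m) = L ^ m := mul_inv_cancel_left _ _
  rw [hLB] at hs
  obtain ⟨x, hx⟩ := Function.ne_iff.1 hf0
  obtain ⟨i, hi⟩ := A.cover x.val
  refine ⟨s, hs, i, x.val, hi, ?_⟩
  rw [hsF i x hi]
  refine mul_ne_zero (mul_ne_zero hx (pow_ne_zero _ (Y.lam0 x))) (mul_ne_zero (zf_ne hi x.prop)
    (hfr0 i _ hi x.prop))

end YD

end

end Crest.Agent.R273.AsmA_73
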