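import Crest.Agent.R273.Act_836
import Crest.Agent.R273.NoVF_534
import Crest.Agent.R273.NoHVF_376

/-!
# R273 (S0416), Part B, leaf FINZ (helper836)

`liftV D W` : a holomorphic vector field `W` of the first factor `D.Y₁` of a decomposition (tangent
space = image of the projection), extended by zero to `M`.
`no_vf₁`    : if the image of the projection is null for the Ricci form, then `D.Y₁` has no
holomorphic vector fields.
`fin_ker₁`  : a group acting equicontinuously on `M`, preserving the splitting, acts on `D.Y₁`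
through a finite group.
`fin_ker_flat` : the same for `M` itself if the Ricci form vanishes.
-/

set_option autoImplicit false
set_option linter.unusedSectionVars false

open Set Filter Topology Complex
open scoped Matrix ComplexConjugate Uniformity

namespace Crest.Agent.R273.FinZ_836

open Crest.Agent.R275.Geo Crest.Agent.R275.Core144 Crest.Agent.R275.GC293
open Crest.Agent.R275.Prod363
open Crest.Agent.R273.Defs_333 Crest.Agent.R273.Map_835 Crest.Agent.R273.PB_835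
open Crest.Agent.R273.Fam_835 Crest.Agent.R273.Prd_835
open Crest.Agent.R273.Kah_333 Crest.Agent.R273.Vol_333 Crest.Agent.R273.SplA_836
open Crest.Agent.R273.HFlow3_376 Crest.Agent.R273.HFlow7_376 Crest.Agent.R273.NoHVF_376
open Crest.Agent.R273.NoVF_534

noncomputable section

section lift

variable {n : ℕ} {M : Type} [TopologicalSpace M] {A : Atl n M} {S : Spl A} {r s : ℕ}
  (D : Dec S r s) (W : HVF D.B₁)

/-- `v` is the lift of the field `W` at `x` -/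
def IsLft (i : A.ι) (x : M) (v : Cn n) : Prop :=
  (∀ j, (D.Φ x).1 ∈ (D.B₁.e j).source →
    dr A D.B₁ (fun x => (D.Φ x).1) i j x v = W.X j (D.Φ x).1) ∧ toC (S.P i x) v = v

variable {D W}

theorem IsLft.unique {i : A.ι} {x : M} (hx : x ∈ (A.e i).source) {v v' : Cn n}
    (h : IsLft D W i x v) (h' : IsLft D W i x v') : v = v' := by
  obtain ⟨j₁, hj₁⟩ := D.B₁.cover (D.Φ x).1
  obtain ⟨j₂, hj₂⟩ := D.B₂.cover (D.Φ x).2
  refine sub_eq_zero.1 (D.eq_zero hx hj₁ hj₂ ?_ (D.tan₂ hx hj₂ _ ?_))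
  · rw [map_sub, h.1 j₁ hj₁, h'.1 j₁ hj₁, sub_self]
  · rw [map_sub, h.2, h'.2]

/-- change of the target chart -/
theorem dr_chg {m : ℕ} {N : Type} [TopologicalSpace N] {B : Atl m N} {p : M → N}
    (h : HolMap A B p) {i : A.ι} {j j' : B.ι} {x : M} (hx : x ∈ (A.e i).source)
    (hj : p x ∈ (B.e j).source) (hj' : p x ∈ (B.e j').source) (v : Cn n) :
    dr A B p i j' x v =
      fderiv ℂ (fun z => B.e j' ((B.e j).symm z)) (B.e j (p x)) (dr A B p i j x v) := by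
  have h1 := dr_comp (holMap_id B) h (x := x) (i := i) (j := j) (l := j') hx hj hj' v
  exact h1

theorem isLft_of_one {i : A.ι} {x : M} (hx : x ∈ (A.e i).source) {j : D.B₁.ι}
    (hj : (D.Φ x).1 ∈ (D.B₁.e j).source) {v : Cn n}
    (h1 : dr A D.B₁ (fun x => (D.Φ x).1) i j x v = W.X j (D.Φ x).1)
    (h2 : toC (S.P i x) v = v) : IsLft D W i x v := by
  refine ⟨fun j' hj' => ?_, h2⟩
  rw [dr_chg D.hol₁ hx hj hj', h1]
  exact (W.tr j j' _ ⟨hj, hj'⟩).symm

/-- the lift in product charts -/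
def lftv (D : Dec S r s) (W : HVF D.B₁) (i : A.ι) (j₁ : D.B₁.ι) (j₂ : D.B₂.ι) (x : M) : Cn n :=
  dr (D.B₁.prod D.B₂) A D.Φ.symm (j₁, j₂) i (D.Φ x) (appL r s (W.X j₁ (D.Φ x).1, 0))

theorem dr_fst {j₁ : D.B₁.ι} {j₂ : D.B₂.ι} {q : D.Y₁ × D.Y₂} (h₁ : q.1 ∈ (D.B₁.e j₁).source)
    (w : Cn (r + s)) :
    dr (D.B₁.prod D.B₂) D.B₁ Prod.fst (j₁, j₂) j₁ q w = fstL r s w := by
  unfold dr
  have h1 : rd (D.B₁.prod D.B₂) D.B₁ Prod.fst (j₁, j₂) j₁ =ᶠ[𝓝 ((D.B₁.prod D.B₂).e (j₁, j₂) q)]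
      fstL r s := by
    have h2 : fstL r s ((D.B₁.prod D.B₂).e (j₁, j₂) q) ∈ (D.B₁.e j₁).target := by
      have : (D.B₁.prod D.B₂).e (j₁, j₂) q = app (D.B₁.e j₁ q.1) (D.B₂.e j₂ q.2) := rfl
      rw [this, fstL_app]
      exact (D.B₁.e j₁).map_source h₁
    filter_upwards [(fstL r s).continuous.continuousAt.preimage_mem_nhds
      ((D.B₁.e j₁).open_target.mem_nhds h2)] with z hz
    exact (D.B₁.e j₁).right_inv hz
  rw [h1.fderiv_eq]
  exact congrArg (fun T : Cn (r + s) →L[ℂ] Cn r => T w) (fstL r s).fderiv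

theorem dr_snd {j₁ : D.B₁.ι} {j₂ : D.B₂.ι} {q : D.Y₁ × D.Y₂} (h₂ : q.2 ∈ (D.B₂.e j₂).source)
    (w : Cn (r + s)) :
    dr (D.B₁.prod D.B₂) D.B₂ Prod.snd (j₁, j₂) j₂ q w = sndL r s w := by
  unfold dr
  have h1 : rd (D.B₁.prod D.B₂) D.B₂ Prod.snd (j₁, j₂) j₂ =ᶠ[𝓝 ((D.B₁.prod D.B₂).e (j₁, j₂) q)]
      sndL r s := by
    have h2 : sndL r s ((D.B₁.prod D.B₂).e (j₁, j₂) q) ∈ (D.B₂.e j₂).target := by
      have : (D.B₁.prod D.B₂).e (j₁, j₂) q = app (D.B₁.e j₁ q.1) (D.B₂.e j₂ q.2) := rfl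
      rw [this, sndL_app]
      exact (D.B₂.e j₂).map_source h₂
    filter_upwards [(sndL r s).continuous.continuousAt.preimage_mem_nhds
      ((D.B₂.e j₂).open_target.mem_nhds h2)] with z hz
    exact (D.B₂.e j₂).right_inv hz
  rw [h1.fderiv_eq]
  exact congrArg (fun T : Cn (r + s) →L[ℂ] Cn s => T w) (sndL r s).fderiv

theorem isLft_lftv {i : A.ι} {j₁ : D.B₁.ι} {j₂ : D.B₂.ι} {x : M} (hx : x ∈ (A.e i).source)
    (h₁ : (D.Φ x).1 ∈ (D.B₁.e j₁).source) (h₂ : (D.Φ x).2 ∈ (D.B₂.e j₂).source) :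
    IsLft D W i x (lftv D W i j₁ j₂ x) := by
  have hs : D.Φ.symm (D.Φ x) = x := D.Φ.symm_apply_apply x
  have hx' : D.Φ.symm (D.Φ x) ∈ (A.e i).source := by rw [hs]; exact hx
  have hq : D.Φ x ∈ ((D.B₁.prod D.B₂).e (j₁, j₂)).source := ⟨h₁, h₂⟩
  have k₁ := dr_comp D.hol₁ D.hol' (x := D.Φ x) (i := (j₁, j₂)) (j := i) (l := j₁) hq hx'
    (by rw [hs]; exact h₁) (appL r s (W.X j₁ (D.Φ x).1, 0))
  have k₂ := dr_comp D.hol₂ D.hol' (x := D.Φ x) (i := (j₁, j₂)) (j := i) (l := j₂) hq hx'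
    (by rw [hs]; exact h₂) (appL r s (W.X j₁ (D.Φ x).1, 0))
  have e₁ : (fun q => (D.Φ (D.Φ.symm q)).1) = Prod.fst := by
    funext q; rw [D.Φ.apply_symm_apply]
  have e₂ : (fun q => (D.Φ (D.Φ.symm q)).2) = Prod.snd := by
    funext q; rw [D.Φ.apply_symm_apply]
  rw [e₁, dr_fst h₁, appL_apply, fstL_app, hs] at k₁
  rw [e₂, dr_snd h₂, appL_apply, sndL_app, hs] at k₂
  exact isLft_of_one hx h₁ k₁.symm ((D.tan₂_iff hx h₂ _).1 k₂.symm)

variable (D W)

/-- the lift of a vector field of the first factor -/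
def liftX (i : A.ι) (x : M) : Cn n :=
  lftv D W i (PB.ch D.B₁ (D.Φ x).1) (PB.ch D.B₂ (D.Φ x).2) x

theorem isLft_liftX {i : A.ι} {x : M} (hx : x ∈ (A.e i).source) :
    IsLft D W i x (liftX D W i x) :=
  isLft_lftv hx (PB.ch_mem D.B₁ _) (PB.ch_mem D.B₂ _)

theorem liftX_eq {i : A.ι} {j₁ : D.B₁.ι} {j₂ : D.B₂.ι} {x : M} (hx : x ∈ (A.e i).source)
    (h₁ : (D.Φ x).1 ∈ (D.B₁.e j₁).source) (h₂ : (D.Φ x).2 ∈ (D.B₂.e j₂).source) :
    liftX D W i x = lftv D W i j₁ j₂ x :=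
  (isLft_liftX D W hx).unique hx (isLft_lftv hx h₁ h₂)

theorem lftv_diff {i : A.ι} {j₁ : D.B₁.ι} {j₂ : D.B₂.ι} {z : Cn n} (hz : z ∈ (A.e i).target)
    (h₁ : (D.Φ ((A.e i).symm z)).1 ∈ (D.B₁.e j₁).source)
    (h₂ : (D.Φ ((A.e i).symm z)).2 ∈ (D.B₂.e j₂).source) :
    DifferentiableAt ℂ (fun z => lftv D W i j₁ j₂ ((A.e i).symm z)) z := by
  have hx := (A.e i).map_target hz
  set x := (A.e i).symm z with hxd
  have hzx : A.e i x = z := (A.e i).right_inv hz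
  have hq : D.Φ x ∈ ((D.B₁.prod D.B₂).e (j₁, j₂)).source := ⟨h₁, h₂⟩
  have d1 : DifferentiableAt ℂ (rd A (D.B₁.prod D.B₂) D.Φ i (j₁, j₂)) z :=
    D.hol.diffAt (i := i) (j := (j₁, j₂)) ⟨hz, hq⟩
  have e1 : rd A (D.B₁.prod D.B₂) D.Φ i (j₁, j₂) z = (D.B₁.prod D.B₂).e (j₁, j₂) (D.Φ x) := rfl
  have d2 : DifferentiableAt ℂ (fderiv ℂ (rd (D.B₁.prod D.B₂) A D.Φ.symm (j₁, j₂) i))
      (rd A (D.B₁.prod D.B₂) D.Φ i (j₁, j₂) z) := by
    rw [e1]
    refine (D.hol'.analyticAt (i := (j₁, j₂)) (j := i) (mem_dm hq ?_)).fderiv.differentiableAt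
    rw [D.Φ.symm_apply_apply]
    exact hx
  have d3 : DifferentiableAt ℂ (W.loc j₁) (fstL r s (rd A (D.B₁.prod D.B₂) D.Φ i (j₁, j₂) z)) := by
    have : fstL r s (rd A (D.B₁.prod D.B₂) D.Φ i (j₁, j₂) z) = D.B₁.e j₁ (D.Φ x).1 := by
      rw [e1]
      exact fstL_app _ _
    rw [this]
    exact (W.hol j₁).differentiableAt ((D.B₁.e j₁).open_target.mem_nhds
      ((D.B₁.e j₁).map_source h₁))
  have d4 : DifferentiableAt ℂ (fun z => W.loc j₁
      (fstL r s (rd A (D.B₁.prod D.B₂) D.Φ i (j₁, j₂) z))) z :=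
    DifferentiableAt.comp z (g := W.loc j₁)
      (f := fun z => fstL r s (rd A (D.B₁.prod D.B₂) D.Φ i (j₁, j₂) z)) d3
      ((fstL r s).differentiableAt.comp z d1)
  have d5 := (DifferentiableAt.comp z (g := fderiv ℂ (rd (D.B₁.prod D.B₂) A D.Φ.symm (j₁, j₂) i))
    (f := rd A (D.B₁.prod D.B₂) D.Φ i (j₁, j₂)) d2 d1).clm_apply
    ((appL r s).differentiableAt.comp z (d4.prodMk (differentiableAt_const (0 : Cn s))))
  refine d5.congr_of_eventuallyEq ?_
  filter_upwards [(D.hol.isOpen_dm i (j₁, j₂)).mem_nhds ⟨hz, hq⟩] with w hw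
  have hw1 : (D.Φ ((A.e i).symm w)).1 ∈ (D.B₁.e j₁).source := hw.2.1
  have e2 : fstL r s (rd A (D.B₁.prod D.B₂) D.Φ i (j₁, j₂) w) =
      D.B₁.e j₁ (D.Φ ((A.e i).symm w)).1 := fstL_app _ _
  show lftv D W i j₁ j₂ ((A.e i).symm w) =
    fderiv ℂ (rd (D.B₁.prod D.B₂) A D.Φ.symm (j₁, j₂) i)
      (rd A (D.B₁.prod D.B₂) D.Φ i (j₁, j₂) w)
      (appL r s (W.loc j₁ (fstL r s (rd A (D.B₁.prod D.B₂) D.Φ i (j₁, j₂) w)), 0))
  rw [e2, W.loc_e hw1]
  rfl

/-- the lift of a vector field of the first factor -/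
def liftV : HVF A where
  X := liftX D W
  hol i := by
    intro z hz
    obtain ⟨j₁, hj₁⟩ := D.B₁.cover (D.Φ ((A.e i).symm z)).1
    obtain ⟨j₂, hj₂⟩ := D.B₂.cover (D.Φ ((A.e i).symm z)).2
    refine ((lftv_diff D W hz hj₁ hj₂).congr_of_eventuallyEq ?_).differentiableWithinAt
    have hq : D.Φ ((A.e i).symm z) ∈ ((D.B₁.prod D.B₂).e (j₁, j₂)).source := ⟨hj₁, hj₂⟩
    filter_upwards [(D.hol.isOpen_dm i (j₁, j₂)).mem_nhds ⟨hz, hq⟩] with w hw
    exact liftX_eq D W ((A.e i).map_target hw.1) hw.2.1 hw.2.2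
  tr i j x hx := by
    have h0 := isLft_liftX D W hx.1
    refine (isLft_liftX D W hx.2).unique hx.2 ?_
    have h1 : ∀ v, fderiv ℂ (fun z => A.e j ((A.e i).symm z)) (A.e i x) v =
        toC (Jm A i j x) v := by
      intro v
      rw [Jm_eq, toC_mt]
    rw [h1]
    refine ⟨fun j₁ hj₁ => ?_, ?_⟩
    · rw [← dr_left D.hol₁ hx.1 hx.2 hj₁, h0.1 j₁ hj₁]
    · rw [P_tr S hx.1 hx.2, h0.2]

theorem liftV_zero (h : ∀ i, ∀ x ∈ (A.e i).source, (liftV D W).X i x = 0) :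
    ∀ j, ∀ y ∈ (D.B₁.e j).source, W.X j y = 0 := by
  intro j y hy
  obtain ⟨y₂⟩ : Nonempty D.Y₂ := inferInstance
  obtain ⟨i, hi⟩ := A.cover (D.in₁ y₂ y)
  have h1 := (isLft_liftX D W hi).1 j (by rw [D.fst_in₁]; exact hy)
  have h2 : liftX D W i (D.in₁ y₂ y) = 0 := h i _ hi
  rw [h2, map_zero, D.fst_in₁] at h1
  exact h1.symm

theorem ricV_lift {K : Kah A}
    (hn : ∀ i, ∀ x ∈ (A.e i).source, (cur (volK K) i x)ᵀ * S.P i x = 0) {i : A.ι} {x : M}
    (hx : x ∈ (A.e i).source) : ricV K (liftV D W) i x = 0 := by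
  have h1 : toC (S.P i x) ((liftV D W).X i x) = (liftV D W).X i x := (isLft_liftX D W hx).2
  have h2 : ∀ d, ∑ c, cur (volK K) i x c d * (liftV D W).X i x c = 0 := by
    intro d
    have h3 : ∀ c, (liftV D W).X i x c = ∑ a, S.P i x c a * (liftV D W).X i x a := by
      intro c
      rw [← toC_apply, h1]
    calc ∑ c, cur (volK K) i x c d * (liftV D W).X i x c
        = ∑ c, ∑ a, (cur (volK K) i x c d * S.P i x c a) * (liftV D W).X i x a := by
          refine Finset.sum_congr rfl fun c _ => ?_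
          rw [h3 c, Finset.mul_sum]
          exact Finset.sum_congr rfl fun a _ => by rw [mul_assoc]
      _ = ∑ a, (∑ c, cur (volK K) i x c d * S.P i x c a) * (liftV D W).X i x a := by
          rw [Finset.sum_comm]
          exact Finset.sum_congr rfl fun a _ => by rw [Finset.sum_mul]
      _ = 0 := by
          refine Finset.sum_eq_zero fun a _ => ?_
          have h4 := congrFun (congrFun (hn i x hx) d) a
          rw [Matrix.mul_apply] at h4
          simp only [Matrix.transpose_apply, Matrix.zero_apply] at h4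
          rw [h4, zero_mul]
  unfold ricV
  rw [Finset.sum_comm]
  refine Finset.sum_eq_zero fun d _ => ?_
  rw [← Finset.sum_mul, h2 d, zero_mul]

variable {W}

/-- the first factor has no holomorphic vector fields -/
theorem no_vf₁ [T2Space M] [CompactSpace M] [SimplyConnectedSpace M] [Finite A.ι]
    (hA : GoodA A) (P : Part A) {K : Kah A}
    (hn : ∀ i, ∀ x ∈ (A.e i).source, (cur (volK K) i x)ᵀ * S.P i x = 0) (W : HVF D.B₁) :
    ∀ j, ∀ y ∈ (D.B₁.e j).source, W.X j y = 0 :=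
  liftV_zero D W (eq_zero_of_par (K := K) hA (par_of_null P fun i x hx => by
    rw [ricV_lift D W hn hx]
    exact le_of_eq rfl))

end lift

/-! ### equicontinuity -/

/-- the action of `G` on the compact space `M` is uniformly equicontinuous -/
def EquiC (M G : Type) [TopologicalSpace M] [Group G] [MulAction G M] : Prop :=
  ∀ U ∈ 𝓝ˢ (diagonal M), ∃ V ∈ 𝓝ˢ (diagonal M), ∀ (g : G) (x y : M), (x, y) ∈ V →
    (g • x, g • y) ∈ U

theorem holM_of_holMap {n m : ℕ} {M N : Type} [TopologicalSpace M] [TopologicalSpace N]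
    {A : Atl n M} {B : Atl m N} {f : M → N} (h : HolMap A B f) : HolM A B f := fun x => by
  obtain ⟨i, hi⟩ := A.cover x
  obtain ⟨j, hj⟩ := B.cover (f x)
  exact ⟨h.cont.continuousAt, i, j, hi, hj, h.diffAt (mem_dm hi hj)⟩

/-- 534's finiteness theorem for compact Hausdorff spaces -/
theorem fin_of_equi {n : ℕ} {M : Type} [TopologicalSpace M] [T2Space M] [CompactSpace M]
    {A : Atl n M} [Finite A.ι] (hV : ∀ V : HVF A, ∀ i, ∀ x ∈ (A.e i).source, V.X i x = 0)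
    {G : Type} [Group G] [MulAction G M] (hG : ∀ g : G, HolMap A A (fun x => g • x))
    (heq : EquiC M G) : (MulAction.toPermHom G M).ker.FiniteIndex := by
  let _ : UniformSpace M := uniformSpaceOfCompactR1
  exact finite_of_equicont hV (fun g => holM_of_holMap (hG g)) heq

/-- the flat case -/
theorem fin_ker_flat {n : ℕ} {M : Type} [TopologicalSpace M] [T2Space M] [CompactSpace M]
    [SimplyConnectedSpace M] {A : Atl n M} [Finite A.ι] (hA : GoodA A) (P : Part A) (K : Kah A)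
    (hric : ∀ i, ∀ x ∈ (A.e i).source, cur (volK K) i x = 0)
    {G : Type} [Group G] [MulAction G M] (hG : ∀ g : G, HolMap A A (fun x => g • x))
    (heq : EquiC M G) : (MulAction.toPermHom G M).ker.FiniteIndex :=
  fin_of_equi (fun V => nohvf hA P K hric V) hG heq

section fin

variable {n : ℕ} {M : Type} [TopologicalSpace M] {A : Atl n M} {S : Spl A} {r s : ℕ}
  (D : Dec S r s) {G : Type} [Group G] [MulAction G M]

theorem equi₁ (hG : PresG S G) (heq : EquiC M G) : letI := D.act₁ hG; EquiC D.Y₁ G := by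
  let _ := D.act₁ hG
  intro U hU
  obtain ⟨y₂⟩ : Nonempty D.Y₂ := inferInstance
  have c1 : Continuous fun p : M × M => ((D.Φ p.1).1, (D.Φ p.2).1) := by
    have := D.Φ.continuous
    fun_prop
  have c2 : Continuous fun p : D.Y₁ × D.Y₁ => (D.in₁ y₂ p.1, D.in₁ y₂ p.2) := by
    have := (D.holIn₁ y₂).cont
    fun_prop
  have m1 : MapsTo (fun p : M × M => ((D.Φ p.1).1, (D.Φ p.2).1)) (diagonal M)
      (diagonal D.Y₁) := by
    rintro ⟨x, y⟩ h
    have h' : x = y := h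
    rw [h']
    exact mem_diagonal _
  have m2 : MapsTo (fun p : D.Y₁ × D.Y₁ => (D.in₁ y₂ p.1, D.in₁ y₂ p.2)) (diagonal D.Y₁)
      (diagonal M) := by
    rintro ⟨x, y⟩ h
    have h' : x = y := h
    rw [h']
    exact mem_diagonal _
  obtain ⟨V, hV, hVG⟩ := heq _ (c1.tendsto_nhdsSet m1 hU)
  refine ⟨_, c2.tendsto_nhdsSet m2 hV, fun g x y hxy => ?_⟩
  have h1 := hVG g _ _ hxy
  have h2 : ∀ x : D.Y₁, (D.Φ (g • D.in₁ y₂ x)).1 = g • x := by
    intro x
    rw [D.act_eq hG g (D.in₁ y₂ x), D.fst_in₁]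
  have h3 : ((D.Φ (g • D.in₁ y₂ x)).1, (D.Φ (g • D.in₁ y₂ y)).1) ∈ U := h1
  rwa [h2, h2] at h3

/-- **FINZ** : the group acts on the first factor through a finite group -/
theorem fin_ker₁ [T2Space M] [CompactSpace M] [SimplyConnectedSpace M] [Finite A.ι]
    (hA : GoodA A) (P : Part A) {K : Kah A}
    (hn : ∀ i, ∀ x ∈ (A.e i).source, (cur (volK K) i x)ᵀ * S.P i x = 0)
    (hG : PresG S G) (heq : EquiC M G) :
    letI := D.act₁ hG
    (MulAction.toPermHom G D.Y₁).ker.FiniteIndex := by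
  let _ := D.act₁ hG
  exact fin_of_equi (no_vf₁ D hA P hn) (D.hol_act₁ hG) (equi₁ D hG heq)

end fin

end

end Crest.Agent.R273.FinZ_836
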