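import Crest.Agent.R273.LiftB_522
import Crest.Agent.R273.FS_333

/-!
# R273 (S0416), torus step BP-T, T1 (helper522): diagonal homogeneous coordinates

* `snorm h`   : the sup norm on `H⁰(M, L)`;
* `IsLift`    : operators induced by unitary lifts; `prep` : the projective representation;
* `lifts`     : **T1**: after passing to the subgroup of `N`-th powers there are homogeneous
  coordinates in which the group acts diagonally, with torsion free ratios of characters.
-/

set_option autoImplicit false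
set_option linter.unusedSectionVars false

open Set Filter Topology Complex Module
open scoped ContDiff Matrix ComplexConjugate

namespace Crest.Agent.R273.LiftC_522

open Crest.Agent.R275.Geo Crest.Agent.R275.Core144 Crest.Agent.R273.Defs_333
  Crest.Agent.R273.HM_333 Crest.Agent.R273.Kah_333
  Crest.Agent.R273.Map_835 Crest.Agent.R273.PB_835 Crest.Agent.R273.FS_333
  Crest.Agent.R275.GC293 Crest.Agent.R273.LiftA_522 Crest.Agent.R273.LiftB_522

noncomputable section

variable {n : ℕ} {M : Type} [TopologicalSpace M] {A : Atl n M} {L : LB A}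

/-! ### the sup norm -/

/-- pointwise norm -/
def ptn (h : HM L) (s : A.ι → M → ℂ) (x : M) : ℝ :=
  ‖s (PB.ch A x) x‖ * Real.sqrt (h.w (PB.ch A x) x)

theorem ptn_nonneg (h : HM L) (s : A.ι → M → ℂ) (x : M) : 0 ≤ ptn h s x :=
  mul_nonneg (norm_nonneg _) (Real.sqrt_nonneg _)

theorem ptn_eq (h : HM L) {s : A.ι → M → ℂ} (hs : IsHS L univ s) {i : A.ι} {x : M}
    (hx : x ∈ (A.e i).source) : ptn h s x = ‖s i x‖ * Real.sqrt (h.w i x) := by
  have hx' := PB.ch_mem A x
  rw [ptn, hs.tr (PB.ch A x) i x ⟨hx', hx⟩ (mem_univ x), h.tr (PB.ch A x) i x ⟨hx', hx⟩,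
    Real.sqrt_mul (sq_nonneg _), Real.sqrt_sq (norm_nonneg _), norm_mul]
  ring

theorem continuous_ptn (h : HM L) {s : A.ι → M → ℂ} (hs : IsHS L univ s) :
    Continuous (ptn h s) := by
  rw [continuous_iff_continuousAt]
  intro x
  obtain ⟨i, hi⟩ := A.cover x
  have hz := (A.e i).map_source hi
  have h1 : ContinuousAt (fun z => s i ((A.e i).symm z)) (A.e i x) := by
    have := (hs.hol i).diffAt isOpen_univ hi (mem_univ x)
    exact this.continuousAt
  have h2 : ContinuousAt (fun z => h.w i ((A.e i).symm z)) (A.e i x) :=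
    ((h.sm i).contDiffAt ((A.e i).open_target.mem_nhds hz)).continuousAt
  have h3 : ContinuousAt (fun z => ‖s i ((A.e i).symm z)‖ *
      Real.sqrt (h.w i ((A.e i).symm z))) (A.e i x) :=
    h1.norm.mul (Real.continuous_sqrt.continuousAt.comp h2)
  have h4 : ContinuousAt (fun y => ‖s i ((A.e i).symm (A.e i y))‖ *
      Real.sqrt (h.w i ((A.e i).symm (A.e i y)))) x :=
    ContinuousAt.comp (g := fun z => ‖s i ((A.e i).symm z)‖ *
      Real.sqrt (h.w i ((A.e i).symm z))) h3 ((A.e i).continuousAt hi)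
  refine h4.congr ?_
  filter_upwards [(A.e i).open_source.mem_nhds hi] with y hy
  rw [(A.e i).left_inv hy, ptn_eq h hs hy]

section sup

variable [CompactSpace M] [Nonempty M]

theorem bdd_ptn (h : HM L) {s : A.ι → M → ℂ} (hs : IsHS L univ s) :
    BddAbove (range (ptn h s)) := (isCompact_range (continuous_ptn h hs)).bddAbove

/-- the sup norm -/
def snorm (h : HM L) : Seminorm ℂ (HS L univ) :=
  Seminorm.of (fun s => ⨆ x, ptn h s.1 x)
    (by
      intro s t
      refine ciSup_le fun x => ?_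
      have h1 := le_ciSup (bdd_ptn h s.2) x
      have h2 := le_ciSup (bdd_ptn h t.2) x
      have h3 : ptn h (s + t).1 x ≤ ptn h s.1 x + ptn h t.1 x := by
        rw [ptn, ptn, ptn, ← add_mul]
        exact mul_le_mul_of_nonneg_right (norm_add_le _ _) (Real.sqrt_nonneg _)
      exact h3.trans (add_le_add h1 h2))
    (by
      intro a s
      rw [Real.mul_iSup_of_nonneg (norm_nonneg a)]
      congr 1
      funext x
      rw [ptn, ptn, ← mul_assoc, ← norm_mul]
      rfl)

theorem snorm_apply (h : HM L) (s : HS L univ) : snorm h s = ⨆ x, ptn h s.1 x := rfl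

theorem snorm_def (h : HM L) (s : HS L univ) (h0 : snorm h s = 0) : s = 0 := by
  apply Subtype.ext
  funext i x
  by_cases hx : x ∈ (A.e i).source
  · have h1 : ptn h s.1 x ≤ 0 := by
      rw [← h0]
      exact le_ciSup (bdd_ptn h s.2) x
    rw [ptn_eq h s.2 hx] at h1
    have h2 : 0 < Real.sqrt (h.w i x) := Real.sqrt_pos.2 (h.pos i x hx)
    have h3 : ‖s.1 i x‖ ≤ 0 := by
      by_contra hc
      push Not at hc
      have := mul_pos hc h2
      linarith
    exact norm_le_zero_iff.1 h3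
  · exact s.2.off i x hx

end sup

/-! ### lifts as operators -/

/-- the operator `φ` is induced by a unitary lift of `f` -/
def IsLift (h : HM L) (f : M → M) (φ : End ℂ (HS L univ)) : Prop :=
  ∃ T : UL h f, ∀ s : HS L univ, (φ s).1 = T.T.pull s.1

theorem exists_op {h : HM L} {f : M → M} (hf : HolMap A A f) (T : UL h f) :
    ∃ φ, IsLift h f φ := by
  refine ⟨{ toFun := fun s => ⟨T.T.pull s.1, ?_⟩, map_add' := ?_, map_smul' := ?_ }, T,
    fun s => rfl⟩
  · have := T.T.pull_isHS hf isOpen_univ s.2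
    rwa [preimage_univ] at this
  · intro s t
    apply Subtype.ext
    funext i x
    show T.T.pull (s.1 + t.1) i x = T.T.pull s.1 i x + T.T.pull t.1 i x
    simp only [PB.pull, Pi.add_apply]
    split_ifs <;> ring
  · intro a s
    apply Subtype.ext
    funext i x
    show T.T.pull (a • s.1) i x = a * T.T.pull s.1 i x
    simp only [PB.pull, Pi.smul_apply, smul_eq_mul]
    split_ifs <;> ring

theorem isLift_one (h : HM L) : IsLift h id 1 := by
  refine ⟨UL.refl h, fun s => ?_⟩
  funext i x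
  show s.1 i x = PB.pull (PB.refl L) s.1 i x
  by_cases hx : x ∈ (A.e i).source
  · rw [PB.pull_eq (PB.refl L) hx (j := i) hx s.2 (mem_univ _)]
    show s.1 i x = L.g i i x * s.1 i x
    rw [L.self, one_mul]
  · rw [s.2.off i x hx, PB.pull, if_neg hx]

theorem isLift_mul {h : HM L} {g g' : M → M} (hg : HolMap A A g) (hg' : HolMap A A g')
    {φ φ' : End ℂ (HS L univ)} (hφ : IsLift h g φ) (hφ' : IsLift h g' φ') :
    IsLift h (fun x => g' (g x)) (φ * φ') := by
  obtain ⟨T, hT⟩ := hφ
  obtain ⟨S, hS⟩ := hφ'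
  refine ⟨UL.comp hg hg' T S, fun s => ?_⟩
  rw [Module.End.mul_apply, hT, hS]
  funext i x
  by_cases hx : x ∈ (A.e i).source
  · obtain ⟨j, hj⟩ := A.cover (g x)
    obtain ⟨l, hl⟩ := A.cover (g' (g x))
    have h1 : IsHS L univ (S.T.pull s.1) := by
      have := S.T.pull_isHS hg' isOpen_univ s.2
      rwa [preimage_univ] at this
    rw [T.T.pull_eq hx hj h1 (mem_univ _), S.T.pull_eq hj hl s.2 (mem_univ _),
      (UL.comp hg hg' T S).T.pull_eq hx hl s.2 (mem_univ _)]
    have h2 : (UL.comp hg hg' T S).T.c i l x = T.T.c i j x * S.T.c j l (g x) :=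
      PB.comp_c hg hg' T.T S.T hx hj hl
    rw [h2, mul_assoc]
  · rw [PB.pull, if_neg hx, PB.pull, if_neg hx]

theorem isLift_uniq [PreconnectedSpace M] [Nonempty M] {h : HM L} {g : M → M}
    (hg : HolMap A A g) {φ φ' : End ℂ (HS L univ)} (hφ : IsLift h g φ) (hφ' : IsLift h g φ') :
    ∃ u : ℂ, ‖u‖ = 1 ∧ φ = u • φ' := by
  obtain ⟨T, hT⟩ := hφ
  obtain ⟨T', hT'⟩ := hφ'
  obtain ⟨u, hu, h1⟩ := UL.uniq hg T T'
  refine ⟨u, hu, LinearMap.ext fun s => Subtype.ext ?_⟩
  rw [hT]
  show T.T.pull s.1 = u • (φ' s).1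
  rw [hT']
  funext i x
  by_cases hx : x ∈ (A.e i).source
  · obtain ⟨j, hj⟩ := A.cover (g x)
    rw [Pi.smul_apply, Pi.smul_apply, smul_eq_mul, T.T.pull_eq hx hj s.2 (mem_univ _),
      T'.T.pull_eq hx hj s.2 (mem_univ _), h1 i j x hx hj, mul_assoc]
  · rw [Pi.smul_apply, Pi.smul_apply, PB.pull, if_neg hx, PB.pull, if_neg hx, smul_zero]

theorem isLift_iso [CompactSpace M] [Nonempty M] {h : HM L} {g : M → M}
    (hsurj : Function.Surjective g) {φ : End ℂ (HS L univ)} (hφ : IsLift h g φ) (s : HS L univ) :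
    snorm h (φ s) = snorm h s := by
  obtain ⟨T, hT⟩ := hφ
  have h1 : ∀ x, ptn h (φ s).1 x = ptn h s.1 (g x) := by
    intro x
    obtain ⟨i, hi⟩ := A.cover x
    obtain ⟨j, hj⟩ := A.cover (g x)
    rw [ptn_eq h (φ s).2 hi, ptn_eq h s.2 hj, hT, T.T.pull_eq hi hj s.2 (mem_univ _),
      ← T.unit i j x hi hj, norm_mul, Real.sqrt_mul (sq_nonneg _), Real.sqrt_sq (norm_nonneg _)]
    ring
  rw [snorm_apply, snorm_apply]
  simp only [h1]
  exact hsurj.iSup_comp (fun x => ptn h s.1 x)

/-- the projective representation on `H⁰(M, L)` -/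
def prep [CompactSpace M] [T2Space M] [SimplyConnectedSpace M] (h : HM L) (G : Type)
    [CommGroup G] [MulAction G M] (hol : ∀ g : G, HolMap A A (fun x => g • x))
    (hcur : ∀ (g : G) i j, ∀ x ∈ (A.e i).source, g • x ∈ (A.e j).source →
      cur h i x = (Jp A A (fun x => g • x) i j x)ᵀ * cur h j (g • x) *
        (Jp A A (fun x => g • x) i j x).map conj) :
    PRep (HS L (univ : Set M)) G where
  p := snorm h
  hp := snorm_def h
  Lf g φ := IsLift h (fun x => g • x) φ
  ex g := by
    obtain ⟨T⟩ := exists_ul h (hol g) (hcur g)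
    exact exists_op (hol g) T
  one := by
    have e : (fun x : M => (1 : G) • x) = id := by funext x; exact one_smul G x
    rw [e]
    exact isLift_one h
  mul := by
    intro g g' φ φ' hφ hφ'
    have e : (fun x : M => (g * g') • x) = fun x => g' • (g • x) := by
      funext x
      rw [mul_comm, mul_smul]
    rw [e]
    exact isLift_mul (hol g) (hol g') hφ hφ'
  uniq := by
    intro g φ φ' hφ hφ'
    exact isLift_uniq (hol g) hφ hφ'
  iso := by
    intro g φ hφ v
    exact isLift_iso (fun x => ⟨g⁻¹ • x, smul_inv_smul g x⟩) hφ v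

/-! ### homogeneous coordinates from a basis -/

/-- evaluation of sections in the frame of the chart `i` -/
def ev (L : LB A) (i : A.ι) (x : M) : HS L univ →ₗ[ℂ] ℂ where
  toFun s := s.1 i x
  map_add' _ _ := rfl
  map_smul' _ _ := rfl

theorem diffAt_sec (s : HS L univ) {i : A.ι} {z : Cn n} (hz : z ∈ (A.e i).target) :
    DifferentiableAt ℂ (fun w => s.1 i ((A.e i).symm w)) z := by
  have := (s.2.hol i).diffAt isOpen_univ ((A.e i).map_target hz) (mem_univ _)
  rwa [(A.e i).right_inv hz] at this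

/-- derivative of sections in the chart `i` -/
def dev (L : LB A) (i : A.ι) {z : Cn n} (hz : z ∈ (A.e i).target) (v : Cn n) :
    HS L univ →ₗ[ℂ] ℂ where
  toFun s := fderiv ℂ (fun w => s.1 i ((A.e i).symm w)) z v
  map_add' s t := by
    have h1 : (fun w => (s + t).1 i ((A.e i).symm w)) =
      (fun w => s.1 i ((A.e i).symm w)) + fun w => t.1 i ((A.e i).symm w) := rfl
    rw [h1, fderiv_add (diffAt_sec s hz) (diffAt_sec t hz)]
    rfl
  map_smul' a s := by
    have h1 : (fun w => (a • s).1 i ((A.e i).symm w)) =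
      a • fun w => s.1 i ((A.e i).symm w) := rfl
    rw [h1, fderiv_const_smul (diffAt_sec s hz)]
    rfl

theorem fderiv_pi_apply {m : ℕ} {F : Cn n → Fin m → ℂ} {z : Cn n}
    (hF : ∀ k, DifferentiableAt ℂ (fun w => F w k) z) (v : Cn n) (k : Fin m) :
    (fderiv ℂ F z v) k = fderiv ℂ (fun w => F w k) z v := by
  have h1 : DifferentiableAt ℂ F z := differentiableAt_pi.2 hF
  have h2 := (hasFDerivAt_pi'.1 h1.hasFDerivAt) k
  rw [h2.fderiv]
  rfl

/-- homogeneous coordinates from a basis of sections -/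
def projOf (P0 : ProjD A) (hP0 : ∀ k, IsHS L univ (sec P0 k)) {d : ℕ}
    (b : Basis (Fin (d + 1)) ℂ (HS L (univ : Set M))) : ProjD A where
  N := d
  F i x k := (b k).1 i x
  hol i k := (b k).2.hol i
  ne i x hx h := by
    have h1 : ev L i x = 0 := b.ext fun k => congrFun h k
    refine P0.ne i x hx (funext fun k => ?_)
    have h2 : ev L i x ⟨sec P0 k, hP0 k⟩ = 0 := by rw [h1]; rfl
    have h3 : sec P0 k i x = 0 := h2
    rwa [sec_eq P0 hx] at h3
  tr i j x hx := ⟨L.g i j x, funext fun k => (b k).2.tr i j x hx (mem_univ x)⟩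
  inj i j x hx y hy := by
    rintro ⟨c, hc⟩
    have h1 : ev L i x = c • ev L j y := b.ext fun k => congrFun hc k
    refine P0.inj i j x hx y hy ⟨c, funext fun k => ?_⟩
    have h2 : ev L i x ⟨sec P0 k, hP0 k⟩ = c * ev L j y ⟨sec P0 k, hP0 k⟩ := by rw [h1]; rfl
    have h3 : sec P0 k i x = c * sec P0 k j y := h2
    rwa [sec_eq P0 hx, sec_eq P0 hy] at h3
  imm i z hz v := by
    rintro ⟨c, hc⟩
    have h1 : dev L i hz v = c • ev L i ((A.e i).symm z) := by
      refine b.ext fun k => ?_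
      have h2 := congrFun hc k
      rw [fderiv_pi_apply (fun k => diffAt_sec (b k) hz)] at h2
      exact h2
    refine P0.imm i z hz v ⟨c, funext fun k => ?_⟩
    have hd : ∀ k, DifferentiableAt ℂ (fun w => P0.F i ((A.e i).symm w) k) z := by
      intro k
      have := (P0.hol i k).diffAt isOpen_univ ((A.e i).map_target hz) (mem_univ _)
      rwa [(A.e i).right_inv hz] at this
    rw [fderiv_pi_apply hd]
    have h2 : dev L i hz v ⟨sec P0 k, hP0 k⟩ =
        c * ev L i ((A.e i).symm z) ⟨sec P0 k, hP0 k⟩ := by rw [h1]; rfl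
    have h3 : fderiv ℂ (fun w => sec P0 k i ((A.e i).symm w)) z v =
        c * sec P0 k i ((A.e i).symm z) := h2
    rw [sec_eq P0 ((A.e i).map_target hz)] at h3
    have h4 : (fun w => sec P0 k i ((A.e i).symm w)) =ᶠ[𝓝 z]
        fun w => P0.F i ((A.e i).symm w) k := by
      filter_upwards [(A.e i).open_target.mem_nhds hz] with w hw
      rw [sec_eq P0 ((A.e i).map_target hw)]
    rw [h4.fderiv_eq] at h3
    exact h3

/-- **T1 (LIFTS)** -/
theorem lifts [CompactSpace M] [T2Space M] [SimplyConnectedSpace M] (P0 : ProjD A)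
    (hP0 : ∀ k, IsHS L univ (sec P0 k)) (h : HM L) [FiniteDimensional ℂ (HS L (univ : Set M))]
    (G : Type) [CommGroup G] [MulAction G M] (hol : ∀ g : G, HolMap A A (fun x => g • x))
    (hcur : ∀ (g : G) i j, ∀ x ∈ (A.e i).source, g • x ∈ (A.e j).source →
      cur h i x = (Jp A A (fun x => g • x) i j x)ᵀ * cur h j (g • x) *
        (Jp A A (fun x => g • x) i j x).map conj) :
    ∃ N : ℕ, 0 < N ∧ ∃ (P : ProjD A)
      (χ : Fin (P.N + 1) → ((powMonoidHom N : G →* G).range →* Circle)),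
      (∀ (γ : (powMonoidHom N : G →* G).range) i j, ∀ x ∈ (A.e i).source,
        γ • x ∈ (A.e j).source →
        ∃ c : ℂ, ∀ k, P.F j (γ • x) k = c * ((χ k γ : ℂ) * P.F i x k)) ∧
      (∀ w ∈ Subgroup.closure {w : (powMonoidHom N : G →* G).range →* Circle |
        ∃ k l, w = χ k / χ l}, ∀ m : ℕ, m ≠ 0 → w ^ m = 1 → w = 1) ∧
      (∀ k, ∃ i, ∃ x ∈ (A.e i).source, P.F i x k ≠ 0) ∧
      (∀ k, IsHS L univ (fun i x => P.F i x k)) := by
  have hV : 0 < finrank ℂ (HS L (univ : Set M)) := by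
    rw [finrank_pos_iff_exists_ne_zero]
    obtain ⟨x0⟩ := (inferInstance : Nonempty M)
    obtain ⟨i, hi⟩ := A.cover x0
    have h1 := P0.ne i x0 hi
    obtain ⟨k, hk⟩ : ∃ k, P0.F i x0 k ≠ 0 := by
      by_contra hc
      push Not at hc
      exact h1 (funext hc)
    refine ⟨⟨sec P0 k, hP0 k⟩, fun h0 => hk ?_⟩
    have h2 := congrArg (fun s : HS L (univ : Set M) => s.1 i x0) h0
    rw [← sec_eq P0 hi k]
    exact h2
  obtain ⟨N, hN, b, χ, h1, h2⟩ := (prep h G hol hcur).main hV
  obtain ⟨d, hd⟩ : ∃ d, finrank ℂ (HS L (univ : Set M)) = d + 1 :=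
    ⟨finrank ℂ (HS L (univ : Set M)) - 1, by omega⟩
  set e := finCongr hd with he
  refine ⟨N, hN, projOf P0 hP0 (b.reindex e), fun k => χ (e.symm k), ?_, ?_, ?_, ?_⟩
  · intro γ i j x hx hj
    obtain ⟨φ, hφ⟩ := (prep h G hol hcur).ex γ
    obtain ⟨c, hc, hk⟩ := h1 γ φ hφ
    obtain ⟨T, hT⟩ : IsLift h (fun x => (γ : G) • x) φ := hφ
    refine ⟨c / T.T.c i j x, fun k => ?_⟩
    show ((b.reindex e) k).1 j (γ • x) = _ * (_ * ((b.reindex e) k).1 i x)
    rw [Basis.reindex_apply]
    have h3 := congrArg (fun s : HS L (univ : Set M) => s.1 i x) (hk (e.symm k))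
    have h4 : (φ (b (e.symm k))).1 i x = T.T.c i j x * (b (e.symm k)).1 j (γ • x) := by
      rw [hT]
      exact T.T.pull_eq hx hj (b (e.symm k)).2 (mem_univ _)
    have h5 : (φ (b (e.symm k))).1 i x = (c * χ (e.symm k) γ) * (b (e.symm k)).1 i x := h3
    rw [h4] at h5
    have h6 := T.T.ne i j x hx hj
    field_simp
    linear_combination h5
  · intro w hw
    refine h2 w (Subgroup.closure_mono ?_ hw)
    rintro _ ⟨k, l, rfl⟩
    exact ⟨_, _, rfl⟩
  · intro k
    by_contra hc
    push Not at hc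
    apply (b.reindex e).ne_zero k
    apply Subtype.ext
    funext i x
    by_cases hx : x ∈ (A.e i).source
    · exact hc i x hx
    · exact ((b.reindex e) k).2.off i x hx
  · intro k
    exact ((b.reindex e) k).2

end

end Crest.Agent.R273.LiftC_522
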