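import Crest.Agent.R273.Sus_333
import Crest.Agent.R273.LiftC_522

/-!
# R273 (S0416), helper333: the slices of the normal form

* `met_sl`   : the metric of `M` restricted to a slice `y ↦ S.π (z, y)` is `S.KY`
* `sl_inj`, `imm_sl` : for injective `S.lam` the slices are injective immersions
* `projY`    : homogeneous coordinates on `Y` (given `Ref B A (S.sl z)`)
* `lifts_Y`  : helper522's lifts for the action of `G` on `Y`
-/

set_option autoImplicit false
set_option linter.unusedSectionVars false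

open Set Filter Topology Complex
open scoped ContDiff Matrix ComplexConjugate Manifold ComplexOrder

namespace Crest.Agent.R273.Slc_333

open Crest.Agent.R275.Geo Crest.Agent.R275.Core144 Crest.Agent.R275.GC293
open Crest.Agent.R275.Prod363
open Crest.Agent.R273.Defs_333 Crest.Agent.R273.Kah_333 Crest.Agent.R273.Vol_333
open Crest.Agent.R273.Map_835 Crest.Agent.R273.PB_835 Crest.Agent.R273.EA_333
open Crest.Agent.R273.UCov_914 Crest.Agent.R273.Prd_835 Crest.Agent.R273.Sus_333
open Crest.Agent.R273.FS_333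

noncomputable section

/-! ### the Jacobian of an inclusion -/

section inr

variable {n m : ℕ} {M N : Type} [TopologicalSpace M] [TopologicalSpace N] {A : Atl n M}
  {B : Atl m N}

theorem fderiv_inr {i : A.ι} {j : B.ι} {x : M} {y : N} (hy : y ∈ (B.e j).source) :
    fderiv ℂ (rd B (A.prod B) (fun y => (x, y)) j (i, j)) (B.e j y) =
      (appL n m).comp ((0 : Cn m →L[ℂ] Cn n).prod (ContinuousLinearMap.id ℂ (Cn m))) := by
  have h1 : rd B (A.prod B) (fun y => (x, y)) j (i, j) =ᶠ[𝓝 (B.e j y)]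
      fun w => appL n m (A.e i x, w) := by
    filter_upwards [(B.e j).open_target.mem_nhds ((B.e j).map_source hy)] with w hw
    change appL n m (A.e i x, B.e j ((B.e j).symm w)) = _
    rw [(B.e j).right_inv hw]
  rw [h1.fderiv_eq]
  have h2 : HasFDerivAt (fun w : Cn m => (A.e i x, w))
      ((0 : Cn m →L[ℂ] Cn n).prod (ContinuousLinearMap.id ℂ (Cn m))) (B.e j y) :=
    (hasFDerivAt_const _ _).prodMk (hasFDerivAt_id _)
  exact ((appL n m).hasFDerivAt.comp (B.e j y) h2).fderiv

theorem Jp_inr_left {i : A.ι} {j : B.ι} {x : M} {y : N} (hy : y ∈ (B.e j).source)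
    (b : Fin n) (a : Fin m) :
    Jp B (A.prod B) (fun y => (x, y)) j (i, j) y (Fin.castAdd m b) a = 0 := by
  rw [Jp_eq, fderiv_inr hy]
  simp only [Map_835.mt, Matrix.of_apply, ContinuousLinearMap.comp_apply,
    ContinuousLinearMap.prod_apply, appL_apply, app_castAdd, _root_.zero_apply]
  rfl

theorem Jp_inr_right {i : A.ι} {j : B.ι} {x : M} {y : N} (hy : y ∈ (B.e j).source)
    (b : Fin m) (a : Fin m) :
    Jp B (A.prod B) (fun y => (x, y)) j (i, j) y (Fin.natAdd n b) a =
      (1 : Matrix (Fin m) (Fin m) ℂ) b a := by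
  rw [Jp_eq, fderiv_inr hy]
  simp only [Map_835.mt, Matrix.of_apply, ContinuousLinearMap.comp_apply,
    ContinuousLinearMap.prod_apply, appL_apply, app_natAdd, ContinuousLinearMap.id_apply,
    Matrix.one_apply]
  by_cases h : b = a <;> simp [h]

end inr

variable {g d : ℕ} {M : Type} [TopologicalSpace M] {A : Atl (g + d) M} {G : Type} [CommGroup G]
variable {D : MonD A G} {K : Kah A} {Y : Type} [TopologicalSpace Y] [MulAction G Y]
  {B : Atl d Y} (S : Sus D K B)

/-- the metric restricted to the slices -/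
theorem met_sl (z : Cn g) {j : B.ι} {a : A.ι} {y : Y} (hy : y ∈ (B.e j).source)
    (ha : S.sl z y ∈ (A.e a).source) :
    (Jp B A (S.sl z) j a y)ᵀ * K.g a (S.sl z y) * (Jp B A (S.sl z) j a y).map conj =
      S.KY.g j y := by
  obtain ⟨i, hi⟩ := (EA g).cover z
  have h1 := S.met i j a z y hi hy ha
  have h2 := Jp_comp (C := A) (q := S.π) (p := fun y => (z, y)) S.lb_π.toHolMap
    (holMap_inr (A := EA g) (B := B) z) (i := j) (j := (i, j)) (l := a) (x := y) hy ⟨hi, hy⟩ ha
  have h3 : (fun y => S.π (z, y)) = S.sl z := rfl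
  rw [h3] at h2
  set T := Jp ((EA g).prod B) A S.π (i, j) a (z, y) with hT
  set E := Jp B ((EA g).prod B) (fun y => (z, y)) j (i, j) y with hE
  have h4 : Tᵀ * K.g a (S.sl z y) * T.map conj = blk S.G0 (S.KY.g j y) := h1
  rw [← h2, Matrix.transpose_mul, Matrix.map_mul]
  have h5 : Eᵀ * Tᵀ * K.g a (S.sl z y) * (T.map conj * E.map conj) =
      Eᵀ * blk S.G0 (S.KY.g j y) * E.map conj := by
    rw [← h4]
    simp only [Matrix.mul_assoc]
  rw [h5]
  ext b c
  simp only [Matrix.mul_apply, Matrix.transpose_apply, Matrix.map_apply, Fin.sum_univ_add]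
  have e1 : ∀ b a, E (Fin.castAdd d b) a = 0 := fun b a => Jp_inr_left hy b a
  have e2 : ∀ b a, E (Fin.natAdd g b) a = (1 : Matrix (Fin d) (Fin d) ℂ) b a := fun b a =>
    Jp_inr_right hy b a
  simp only [e1, e2, blk_rr, Matrix.one_apply, map_zero, mul_zero, zero_mul,
    Finset.sum_const_zero, zero_add, ite_mul, one_mul, Finset.sum_ite_eq', Finset.mem_univ,
    if_true]
  simp

/-- the slices are injective -/
theorem sl_inj (hl : Function.Injective S.lam) (z : Cn g) : Function.Injective (S.sl z) := by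
  intro y y' h
  have h0 : D.pr (S.Ψ (z, y)) = D.pr (S.Ψ (z, y')) := h
  obtain ⟨γ, hγ⟩ := D.exists_deck h0
  rw [S.eqv] at hγ
  have h1 := S.Ψ.injective hγ
  rw [Prod.mk.injEq] at h1
  have h2 : S.lam γ = 1 := by
    have h3 : Multiplicative.toAdd (S.lam γ) = 0 := by simpa using h1.1
    exact Multiplicative.toAdd.injective h3
  have h4 : γ = 1 := hl (h2.trans (map_one _).symm)
  rw [h4, one_smul] at h1
  exact h1.2

/-- the slices are immersions -/
theorem imm_sl (z : Cn g) : ∀ j a, ∀ w ∈ dm B A (S.sl z) j a,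
    Function.Injective (fderiv ℂ (rd B A (S.sl z) j a) w) := by
  intro j a w hw v v' hv
  have hy := (B.e j).map_target hw.1
  have h1 := met_sl S z (a := a) hy hw.2
  rw [Jp_eq, (B.e j).right_inv hw.1] at h1
  set T := fderiv ℂ (rd B A (S.sl z) j a) w with hT
  have h2 : T (v - v') = 0 := by rw [map_sub, hv, sub_self]
  have h3 : (mt T).mulVec (fun c => (v - v') c) = 0 := by
    ext b
    have h4 := mt_apply T (v - v') b
    rw [h2] at h4
    exact h4.symm
  have h5 : ((mt T).map conj).mulVec (fun c => conj ((v - v') c)) = 0 := by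
    ext b
    have h6 := congrArg conj (congrFun h3 b)
    simp only [Matrix.mulVec, dotProduct, map_sum, map_mul, Pi.zero_apply, map_zero] at h6
    simpa only [Matrix.mulVec, dotProduct, Matrix.map_apply, Pi.zero_apply] using h6
  have h7 : (S.KY.g j ((B.e j).symm w)).mulVec (fun c => conj ((v - v') c)) = 0 := by
    rw [← h1, ← Matrix.mulVec_mulVec, h5, Matrix.mulVec_zero]
  have h8 := Matrix.mulVec_injective_of_isUnit (S.KY.pos j _ hy).isUnit
    (h7.trans (Matrix.mulVec_zero _).symm)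
  rw [← sub_eq_zero]
  ext c
  have h9 : conj ((v - v') c) = 0 := congrFun h8 c
  exact (map_eq_zero _).1 h9

/-! ### homogeneous coordinates on the fibre -/

/-- homogeneous coordinates on `Y` -/
def projY (hl : Function.Injective S.lam) (R : Ref B A (S.sl 0)) (P : ProjD A) : ProjD B :=
  pullProjD (S.holMap_sl 0) R (sl_inj S hl 0) (imm_sl S 0) P

theorem projY_F (hl : Function.Injective S.lam) (R : Ref B A (S.sl 0)) (P : ProjD A) (j : B.ι)
    (y : Y) : (projY S hl R P).F j y = P.F (R.r j) (S.sl 0 y) := rfl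

/-- the ample bundle of `Y` -/
abbrev LY (R : Ref B A (S.sl 0)) (P : ProjD A) : LB B := pullLB (S.holMap_sl 0) R (lb P)

theorem isHS_projY (hl : Function.Injective S.lam) (R : Ref B A (S.sl 0)) (P : ProjD A)
    (k : Fin ((projY S hl R P).N + 1)) :
    IsHS (LY S R P) univ (sec (projY S hl R P) k) where
  hol i := ((projY S hl R P).hol i k).congr fun x hx _ => (sec_eq _ hx k).symm
  off i x hx := if_neg hx
  tr i j x hx _ := by
    rw [sec_eq _ hx.1, sec_eq _ hx.2, pullLB_g (S.holMap_sl 0) R (lb P) hx]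
    have h1 := (isHS_sec P (k : Fin (P.N + 1))).tr (R.r i) (R.r j) (S.sl 0 x)
      ⟨R.sub i x hx.1, R.sub j x hx.2⟩ (mem_univ _)
    have e1 : sec P (k : Fin (P.N + 1)) (R.r i) (S.sl 0 x) = P.F (R.r i) (S.sl 0 x) k :=
      sec_eq P (R.sub i x hx.1) k
    have e2 : sec P (k : Fin (P.N + 1)) (R.r j) (S.sl 0 x) = P.F (R.r j) (S.sl 0 x) k :=
      sec_eq P (R.sub j x hx.2) k
    have h2 := e1.symm.trans (h1.trans (congrArg _ e2))
    exact h2

/-- its metric -/
def hmY (R : Ref B A (S.sl 0)) {P : ProjD A} (H : HM (lb P)) : HM (LY S R P) :=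
  (PB.ref (S.holMap_sl 0) R (lb P)).pullHM (S.holMap_sl 0) H

theorem cur_hmY (R : Ref B A (S.sl 0)) {P : ProjD A} (H : HM (lb P))
    (hH : ∀ i, ∀ x ∈ (A.e i).source, cur H i x = K.g i x) {j : B.ι} {y : Y}
    (hy : y ∈ (B.e j).source) : cur (hmY S R H) j y = S.KY.g j y := by
  have ha := R.sub j y hy
  rw [hmY, LiftB_522.cur_pull _ (S.holMap_sl 0) H hy ha, hH _ _ ha]
  exact met_sl S 0 hy ha

/-- **lifts** of the action to homogeneous coordinates -/
theorem lifts_Y [CompactSpace Y] [T2Space Y] [SimplyConnectedSpace Y]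
    (hl : Function.Injective S.lam) (R : Ref B A (S.sl 0)) (P : ProjD A) (H : HM (lb P))
    (hH : ∀ i, ∀ x ∈ (A.e i).source, cur H i x = K.g i x)
    [FiniteDimensional ℂ (HS (LY S R P) (univ : Set Y))] :
    ∃ N : ℕ, 0 < N ∧ ∃ (P : ProjD B)
      (χ : Fin (P.N + 1) → ((powMonoidHom N : G →* G).range →* Circle)),
      (∀ (γ : (powMonoidHom N : G →* G).range) i j, ∀ x ∈ (B.e i).source,
        γ • x ∈ (B.e j).source →
        ∃ c : ℂ, ∀ k, P.F j (γ • x) k = c * ((χ k γ : ℂ) * P.F i x k)) ∧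
      (∀ w ∈ Subgroup.closure {w : (powMonoidHom N : G →* G).range →* Circle |
        ∃ k l, w = χ k / χ l}, ∀ m : ℕ, m ≠ 0 → w ^ m = 1 → w = 1) ∧
      (∀ k, ∃ i, ∃ x ∈ (B.e i).source, P.F i x k ≠ 0) := by
  obtain ⟨N, hN, P', χ, h1, h2, h3, _⟩ := LiftC_522.lifts (projY S hl R P)
    (isHS_projY S hl R P) (hmY S R H) G (fun γ => S.holMap_smul γ) fun γ i j x hx hj => by
      rw [cur_hmY S R H hH hx, cur_hmY S R H hH hj]
      exact S.KY_inv γ hx hj
  exact ⟨N, hN, P', χ, h1, h2, h3⟩

end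

end Crest.Agent.R273.Slc_333
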