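import Crest.Agent.R273.AsmC_534
import Crest.Agent.R273.Slc_333
import Crest.Agent.R273.LiftC_522
import Crest.Agent.R273.FinZ_836
import Crest.Agent.R273.SerE_945

/-!
# R273 (S0416), Part B, global assembly (helper534), III

* `main_tor`   : the induction step if `H^q(O) = 0` on the fibre for `q ≥ 1`
* `main_split` : the induction step if the fibre splits
* `main_sus`   : the induction step for a manifold in normal form
-/

set_option autoImplicit false
set_option linter.unusedSectionVars false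

open Set Metric Filter Topology Complex Function
open scoped ContDiff Matrix ComplexConjugate ComplexOrder

namespace Crest.Agent.R273.AsmD_534

open Crest.Agent.R275.Geo Crest.Agent.R275.Core144 Crest.Agent.R275.GC293
open Crest.Agent.R275.SerG398
open Crest.Agent.R273.Defs_333 Crest.Agent.R273.HM_333 Crest.Agent.R273.Hess_333
open Crest.Agent.R273.Kah_333 Crest.Agent.R273.Vol_333 Crest.Agent.R273.FS_333
open Crest.Agent.R273.Map_835 Crest.Agent.R273.PB_835 Crest.Agent.R273.Prd_835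
open Crest.Agent.R273.UCov_914 Crest.Agent.R273.Sus_333 Crest.Agent.R273.TorDefs_422
open Crest.Agent.R273.PartA_61 Crest.Agent.R273.LamN127 Crest.Agent.R273.TD3_733
open Crest.Agent.R273.HFlow3_376 Crest.Agent.R273.RMan4_798
open Crest.Agent.R273.Slc_333 Crest.Agent.R273.AsmB_534 Crest.Agent.R273.AsmC_534
open Crest.Agent.R273.SplA_836 Crest.Agent.R273.ParI_880
open Crest.Agent.R273.Fock_243 (FI)
open Crest.Agent.R273.NV_578 (NV PV)
open Crest.Agent.R273.HolF_578 (Om)
open Crest.Agent.R273.HFlowC_376 (pullK)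

noncomputable section

variable {g d : ℕ} {M : Type} [TopologicalSpace M] {A : Atl (g + d) M} {K : Kah A} {G : Type}
  [CommGroup G] {D : MonD A G} {Y : Type} [TopologicalSpace Y] [MulAction G Y] {B : Atl d Y}

/-! ### the torus case -/

theorem cur_hmY' (S : Sus D K B) (R : Ref B A (S.sl 0)) {P : ProjD A} (H : HM (lb P)) {c : ℂ}
    (hH : ∀ i, ∀ x ∈ (A.e i).source, cur H i x = c • K.g i x) {j : B.ι} {y : Y}
    (hy : y ∈ (B.e j).source) : cur (hmY S R H) j y = c • S.KY.g j y := by
  have ha := R.sub j y hy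
  rw [hmY, LiftB_522.cur_pull _ (S.holMap_sl 0) H hy ha, hH _ _ ha, Matrix.mul_smul,
    Matrix.smul_mul]
  exact congrArg _ (met_sl S 0 hy ha)

/-- **lifts** of the action to homogeneous coordinates -/
theorem lifts_Y' (S : Sus D K B) [CompactSpace Y] [T2Space Y] [SimplyConnectedSpace Y]
    (hl : Function.Injective S.lam) (R : Ref B A (S.sl 0)) (P : ProjD A) (H : HM (lb P)) {c : ℂ}
    (hH : ∀ i, ∀ x ∈ (A.e i).source, cur H i x = c • K.g i x)
    [FiniteDimensional ℂ (HS (LY S R P) (univ : Set Y))] :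
    ∃ N : ℕ, 0 < N ∧ ∃ (P : ProjD B)
      (χ : Fin (P.N + 1) → ((powMonoidHom N : G →* G).range →* Circle)),
      (∀ (γ : (powMonoidHom N : G →* G).range) i j, ∀ x ∈ (B.e i).source,
        γ • x ∈ (B.e j).source →
        ∃ c : ℂ, ∀ k, P.F j (γ • x) k = c * ((χ k γ : ℂ) * P.F i x k)) ∧
      (∀ w ∈ Subgroup.closure {w : (powMonoidHom N : G →* G).range →* Circle |
        ∃ k l, w = χ k / χ l}, ∀ m : ℕ, m ≠ 0 → w ^ m = 1 → w = 1) ∧
      (∀ k, ∃ i, ∃ x ∈ (B.e i).source, P.F i x k ≠ 0) := by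
  obtain ⟨N, hN, P', χ, h1, h2, h3, _⟩ := LiftC_522.lifts (projY S hl R P)
    (isHS_projY S hl R P) (hmY S R H) G (fun γ => S.holMap_smul γ) fun γ i j x hx hj => by
      rw [cur_hmY' S R H hH hx, cur_hmY' S R H hH hj, Matrix.mul_smul, Matrix.smul_mul]
      exact congrArg _ (S.KY_inv γ hx hj)
  exact ⟨N, hN, P', χ, h1, h2, h3⟩

/-- **torus case** -/
theorem main_tor (hT : TorMain) (HA : PartA) [T2Space M] [CompactSpace M] [Finite A.ι]
    (hA : GoodA A) (PM : Part A) (X : Pol A K) (hs : (volK K).Semipos) (S : Sus D K B)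
    [ConnectedSpace (D.cov G)] [Group.FG G] (hl : Function.Injective S.lam)
    (R : Ref B A (S.sl 0)) [T2Space Y] [CompactSpace Y] [SimplyConnectedSpace Y] [Finite B.ι]
    (gB : GoodA B) (PB : Part B) (hc : ∀ q, 1 ≤ q → hB (BN (1 : LB B)) q = 0) :
    ∃ m : ℕ, 0 < m ∧ HasSec ((KB A)⁻¹ ^ m) := by
  have _ : FiniteDimensional ℂ (HS (LY S R X.P) (univ : Set Y)) :=
    SerE_945.fd_HS PB (LY S R X.P)
  obtain ⟨N, hN, P', χ, h1, h2, h3⟩ := lifts_Y' S hl R X.P X.H X.cur
  have hfi := LiftA_522.finiteIndex_range_pow G hN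
  have hfg : Group.FG (powMonoidHom N : G →* G).range := inferInstance
  let T : TorD B (powMonoidHom N : G →* G).range :=
    { P := P'
      nz := h3
      χ := χ
      hol := fun γ => S.holMap_smul γ.1
      diag := h1
      tf := h2
      h := volK S.KY
      semi := S.volKY_semipos hs
      h_inv := fun γ i j x hx hj => Dsc_333.volKY_inv S γ.1 hx hj
      K := S.KY
      K_inv := fun γ i j x hx hj => S.KY_inv γ.1 hx hj
      coh := hc }
  have hBB : BB (volK S.KY) (powMonoidHom N : G →* G).range :=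
    UpV_914.bb_sub HA hA PM X.P hs S (powMonoidHom N : G →* G).range
  exact main_of_Gd_sub S (powMonoidHom N : G →* G).range
    (hT d Y B gB ⟨PB⟩ (powMonoidHom N : G →* G).range T hBB)

/-! ### the case of a splitting -/

/-- **splitting case** -/
theorem main_split [T2Space M] [CompactSpace M] [Finite A.ι] (PM : Part A) (P : ProjD A)
    (hs : (volK K).Semipos) (S : Sus D K B) [ConnectedSpace (D.cov G)]
    [T2Space Y] [CompactSpace Y] [SimplyConnectedSpace Y] [Finite B.ι] (gB : GoodA B)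
    (PB : Part B) (IH : ∀ m < g + d, MainN m) (C : CanS S.KY) {r : ℕ} (hr : C.S.IsRk r)
    (h0 : 0 < r) (h1 : r < d) : ∃ m : ℕ, 0 < m ∧ HasSec ((KB A)⁻¹ ^ m) := by
  obtain ⟨Dc⟩ := exists_dec S.KY C.S hr
  have hG : PresG C.S G := C.presG (fun γ => S.holMap_smul γ) fun γ i j x hx hj =>
    S.KY_inv γ hx hj
  have heq : FinZ_836.EquiC Y G := by
    have : ConnectedSpace Y := inferInstance
    intro U hU
    exact Equi_798.equi_smul_nhdsSet S.KY (G := G) (fun γ => Equi_798.isom_of_jp
      (S.holMap_smul γ) fun i j x hx hj => S.KY_inv γ hx hj) U hU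
  have hfi := FinZ_836.fin_ker₁ Dc gB PB C.null hG heq
  let _ := Dc.act₁ hG
  have _ : Finite (G ⧸ (MulAction.toPermHom G Dc.Y₁).ker) :=
    (MulAction.toPermHom G Dc.Y₁).ker.finite_quotient_of_finiteIndex
  obtain ⟨Pj⟩ := BBsub_333.projD_cov D PM K P (G ⧸ (MulAction.toPermHom G Dc.Y₁).ker)
  refine XTwo_836.main_dec₁ S Dc hG (MulAction.toPermHom G Dc.Y₁).ker (fun γ hγ z => ?_)
    (by omega) (IH _ (by omega)) (IH _ (by omega)) Pj hs
  have h2 : MulAction.toPermHom G Dc.Y₁ γ = 1 := hγ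
  exact congrArg (fun f : Equiv.Perm Dc.Y₁ => f z) h2

/-- **the induction step for a manifold in normal form** -/
theorem main_sus (hT : TorMain) (HA : PartA) [T2Space M] [CompactSpace M] [Finite A.ι]
    (hA : GoodA A) (PM : Part A) (X : Pol A K) (hs : (volK K).Semipos) (S : Sus D K B)
    [ConnectedSpace (D.cov G)] [Group.FG G] (hl : Function.Injective S.lam)
    (R : Ref B A (S.sl 0)) [T2Space Y] [CompactSpace Y] [SimplyConnectedSpace Y] [Finite B.ι]
    (gB : GoodA B) (PB : Part B) (IH : ∀ m < g + d, MainN m) :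
    ∃ m : ℕ, 0 < m ∧ HasSec ((KB A)⁻¹ ^ m) := by
  have _ : ConnectedSpace Y := inferInstance
  by_cases hc : ∀ q, 1 ≤ q → hB (BN (1 : LB B)) q = 0
  · exact main_tor hT HA hA PM X hs S hl R gB PB hc
  have hsY : (volK S.KY).Semipos := S.volKY_semipos hs
  have ric : ∀ i, ∀ x ∈ (B.e i).source, (cur (volK S.KY) i x).PosSemidef := fun i x hx =>
    cur_posSemidef hsY i hx
  obtain ⟨q, hq, β, hβ, hne⟩ := exists_om PB S.KY hsY hc
  obtain ⟨C⟩ := exists_canS PB S.KY ric
  obtain ⟨y⟩ : Nonempty Y := inferInstance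
  obtain ⟨j, hj⟩ := B.cover y
  have hr := isRk_of_point (S := C.S) hj
  have h0 := C.pos_rank PB ric hr hq hβ hne
  have hle := IsRk.le C.S hr y
  rcases Nat.lt_or_ge (rkA C.S j y) d with hlt | hge
  · exact main_split PM X.P hs S gB PB IH C hr h0 hlt
  · have he : rkA C.S j y = d := le_antisymm hle hge
    rw [he] at hr
    exact main_flat S gB PB fun i x hx => C.flat hr hx

end

end Crest.Agent.R273.AsmD_534
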