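import Crest.Agent.R273.SolvB_93
import Crest.Agent.R271.Engine_51

/-!
# R273: solvability of `∂̄` for weights with local regularisations (helper93)

`LReg μ V Q`  : near every compact set `V` is a.e. the decreasing limit of smooth functions `φ_k` with
`Q ≤ lev φ_k`.
`solv_of_lreg`: `LReg μ V (a • Levi P)`, `0 < a` ⇒ `Solv (e^{-V} μ) P`.
-/

set_option autoImplicit false
set_option linter.unusedSectionVars false

noncomputable section

open Set Filter Topology MeasureTheory Metric ComplexConjugate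
open scoped ENNReal
open TopologicalSpace (Opens)

namespace Crest.Agent.R273.SolvC_93

open Crest.Agent.R271.Ho51 Crest.Agent.R273.SolvA_93 Crest.Agent.R273.SolvB_93
open Crest.Agent.R273.Pen_93
open Crest.Agent.R271.W792 (lev lev_add lev_const_mul Levi_eq_lev)

section defs

variable {n : ℕ} {M : Type*} [TopologicalSpace M] [RDom n M] [MeasurableSpace M] [BorelSpace M]

/-- local regularisations -/
structure LReg (μ : Measure M) (V : M → ℝ) (Q : M → (Fin n → ℂ) → ℝ) : Prop where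
  meas : AEMeasurable V μ
  reg : ∀ C : Set M, IsCompact C → ∃ (U : Set M) (φ : ℕ → M → ℝ), IsOpen U ∧ C ⊆ U ∧
    (∀ k, ∀ x ∈ U, ContDiffAt ℝ (⊤ : ℕ∞) (φ k ∘ (ch x).symm) (cp x)) ∧
    (∀ k, ∀ x ∈ U, ∀ w, Q x w ≤ lev (φ k) x w) ∧
    (∀ x ∈ U, Antitone fun k => φ k x) ∧
    ∀ᵐ x ∂μ, x ∈ U → (∀ k, V x ≤ φ k x) ∧ Tendsto (fun k => φ k x) atTop (𝓝 (V x))

theorem LReg.mono {μ : Measure M} {V : M → ℝ} {Q Q' : M → (Fin n → ℂ) → ℝ} (h : LReg μ V Q)
    (hQ : ∀ x w, Q' x w ≤ Q x w) : LReg μ V Q' := by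
  refine ⟨h.meas, fun C hC => ?_⟩
  obtain ⟨U, φ, h1, h2, h3, h4, h5, h6⟩ := h.reg C hC
  exact ⟨U, φ, h1, h2, h3, fun k x hx w => (hQ x w).trans (h4 k x hx w), h5, h6⟩

/-- `D` of a function which is smooth near `x` only -/
theorem cont_of_cd {φ : M → ℝ} {x : M} (h : ContDiffAt ℝ (⊤ : ℕ∞) (φ ∘ (ch x).symm) (cp x)) :
    ContinuousAt φ x := by
  have h2 : ContinuousAt (fun y => (φ ∘ (ch x).symm) (cp y)) x :=
    ContinuousAt.comp (g := φ ∘ (ch x).symm) h.continuousAt cp_cont.continuousAt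
  exact h2.congr (eventually_eq_comp (isCh_ch x) (mem_ch x) φ).symm

theorem lev_add_on {U : Set M} (hU : IsOpen U) {φ ψ : M → ℝ}
    (hφ : ∀ x ∈ U, ContDiffAt ℝ (⊤ : ℕ∞) (φ ∘ (ch x).symm) (cp x))
    (hψ : ∀ x ∈ U, ContDiffAt ℝ (⊤ : ℕ∞) (ψ ∘ (ch x).symm) (cp x)) {x : M} (hx : x ∈ U)
    (w : Fin n → ℂ) : lev (fun y => φ y + ψ y) x w = lev φ x w + lev ψ x w := by
  set O : Opens M := ⟨U, hU⟩ with hO
  set y : Sb O := ⟨x, hx⟩ with hy
  have hyx : y.val = x := rfl
  have h1 : Sm (fun y : Sb O => φ y.val) := sm_val hφ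
  have h2 : Sm (fun y : Sb O => ψ y.val) := sm_val hψ
  have h3 := lev_add h1 h2 y w
  rw [lev_val φ, lev_val ψ, lev_val (fun y => φ y + ψ y), hyx] at h3
  exact h3

theorem LReg.add {μ : Measure M} {V V' : M → ℝ} {Q Q' : M → (Fin n → ℂ) → ℝ} (h : LReg μ V Q)
    (h' : LReg μ V' Q') : LReg μ (fun x => V x + V' x) (fun x w => Q x w + Q' x w) := by
  refine ⟨h.meas.add h'.meas, fun C hC => ?_⟩
  obtain ⟨U, φ, h1, h2, h3, h4, h5, h6⟩ := h.reg C hC
  obtain ⟨U', φ', h1', h2', h3', h4', h5', h6'⟩ := h'.reg C hC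
  refine ⟨U ∩ U', fun k x => φ k x + φ' k x, h1.inter h1', subset_inter h2 h2',
    fun k x hx => (h3 k x hx.1).add (h3' k x hx.2), fun k x hx w => ?_,
    fun x hx => (h5 x hx.1).add (h5' x hx.2), ?_⟩
  · rw [lev_add_on (h1.inter h1') (fun y hy => h3 k y hy.1) (fun y hy => h3' k y hy.2) hx]
    exact add_le_add (h4 k x hx.1 w) (h4' k x hx.2 w)
  · filter_upwards [h6, h6'] with x h7 h7' hx
    obtain ⟨a1, a2⟩ := h7 hx.1
    obtain ⟨b1, b2⟩ := h7' hx.2
    exact ⟨fun k => add_le_add (a1 k) (b1 k), a2.add b2⟩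

theorem LReg.of_smooth {μ : Measure M} {V : M → ℝ} (hV : Sm V) :
    LReg μ V (fun x w => Levi V x w) := by
  refine ⟨hV.continuous.measurable.aemeasurable, fun C _ => ⟨univ, fun _ => V, isOpen_univ,
    subset_univ C, fun _ x _ => hV x, fun _ x _ w => ?_, fun _ _ => antitone_const, ?_⟩⟩
  · rw [Levi_eq_lev hV]
  · exact Eventually.of_forall fun x _ => ⟨fun _ => le_rfl, tendsto_const_nhds⟩

theorem LReg.zero {μ : Measure M} : LReg (n := n) μ (fun _ => 0) (fun _ _ => 0) := by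
  refine ⟨aemeasurable_const, fun C _ => ⟨univ, fun _ _ => 0, isOpen_univ,
    subset_univ C, fun _ x _ => Sm.const 0 x, fun _ x _ w => ?_, fun _ _ => antitone_const, ?_⟩⟩
  · rw [Crest.Agent.R271.W792.lev_const]
  · exact Eventually.of_forall fun x _ => ⟨fun _ => le_rfl, tendsto_const_nhds⟩

/-- natural multiples -/
theorem LReg.nsmul {μ : Measure M} {V : M → ℝ} {Q : M → (Fin n → ℂ) → ℝ} (h : LReg μ V Q)
    (k : ℕ) : LReg μ (fun x => k * V x) (fun x w => k * Q x w) := by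
  induction k with
  | zero =>
    have h0 := LReg.zero (n := n) (μ := μ)
    simpa using h0
  | succ k ih =>
    have := ih.add h
    refine ⟨?_, ?_⟩
    · convert this.meas using 2 with x
      push_cast; ring
    · have h2 := this.reg
      have e1 : (fun x => (k : ℝ) * V x + V x) = fun x => ((k + 1 : ℕ) : ℝ) * V x := by
        funext x; push_cast; ring
      have e2 : (fun x w => (k : ℝ) * Q x w + Q x w) = fun x w => ((k + 1 : ℕ) : ℝ) * Q x w := by
        funext x w; push_cast; ring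
      rw [e1, e2] at this
      exact this.reg

theorem LReg.locC {μ : Measure M} {V : M → ℝ} {Q : M → (Fin n → ℂ) → ℝ} [T2Space M]
    (h : LReg μ V Q) : LocC μ (wm μ fun x => Real.exp (-V x)) := by
  intro C hC
  obtain ⟨U, φ, h1, h2, h3, h4, h5, h6⟩ := h.reg C hC
  have hcont : ContinuousOn (φ 0) C := fun x hx =>
    (cont_of_cd (h3 0 x (h2 hx))).continuousWithinAt
  obtain ⟨m, hm⟩ := hC.bddAbove_image hcont
  refine ⟨ENNReal.ofReal (Real.exp m), ENNReal.ofReal_ne_top, fun f hf => ?_⟩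
  have hme : AEMeasurable (fun x => ENNReal.ofReal (Real.exp (-V x))) μ :=
    (Real.measurable_exp.comp_aemeasurable h.meas.neg).ennreal_ofReal
  have hCm : MeasurableSet C := hC.isClosed.measurableSet
  unfold wm
  rw [setLIntegral_withDensity_eq_setLIntegral_mul_non_measurable₀ μ hme.restrict _ hCm
    (Eventually.of_forall fun x => ENNReal.ofReal_lt_top), ← lintegral_const_mul' _ _
    ENNReal.ofReal_ne_top]
  refine lintegral_mono_ae ?_
  rw [ae_restrict_iff' hCm]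
  filter_upwards [h6] with x hx hxC
  obtain ⟨h7, -⟩ := hx (h2 hxC)
  rw [Pi.mul_apply, ← mul_assoc, ← ENNReal.ofReal_mul (Real.exp_pos m).le, ← Real.exp_add]
  have h8 : V x ≤ m := (h7 0).trans (hm (mem_image_of_mem _ hxC))
  have h9 : 1 ≤ ENNReal.ofReal (Real.exp (m + -V x)) := by
    rw [← ENNReal.ofReal_one]
    exact ENNReal.ofReal_le_ofReal (Real.one_le_exp (by linarith))
  calc f x = 1 * f x := (one_mul _).symm
    _ ≤ _ := mul_le_mul_left h9 _

end defs

/-! ### the engine -/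

variable {n : ℕ} {M : Type} [TopologicalSpace M] [T2Space M] [SecondCountableTopology M]
  [RDom n M] [MeasurableSpace M] [BorelSpace M] {μ : Measure M}

theorem engine_sub (hμ : IsLeb μ) {ρ : M → ℝ} (hρ : Sm ρ)
    (hcpt : ∀ t : ℝ, IsCompact {x | ρ x ≤ t}) (hL : ∀ x w, nsq w ≤ Levi ρ x w)
    {V P : M → ℝ} (hP0 : ∀ x w, 0 ≤ Levi P x w) {a : ℝ} (ha : 0 < a)
    (hV : LReg μ V fun x w => a * Levi P x w) {g : M → ℂ} (hg : Sm g) {kap : M → ℝ}
    (hk0 : ∀ x, 0 ≤ kap x)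
    (hk : ∀ x (w : Fin n → ℂ), ‖∑ j, db j g x * conj (w j)‖ ^ 2 ≤ kap x * Levi P x w)
    (t : ℝ) : ∃ F : Sb (Sl hρ.continuous t) → ℂ, Hol F ∧
      ∫⁻ x in {x | ρ x < t}, ENNReal.ofReal (‖ext0 F x - g x‖ ^ 2) ∂(wm μ fun x => Real.exp (-V x))
        ≤ 2 * ∫⁻ x, ENNReal.ofReal (kap x / a) ∂(wm μ fun x => Real.exp (-V x)) := by
  obtain ⟨U, φ, h1, h2, h3, h4, h5, h6⟩ := hV.reg _ (hcpt t)
  set O := Sl hρ.continuous t with hO
  have hOU' : ∀ x : M, ρ x < t → x ∈ U := fun x hx => h2 (show ρ x ≤ t from le_of_lt hx)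
  have hOU : ∀ x : Sb O, x.val ∈ U := fun x => hOU' x.val x.prop
  have hme : AEMeasurable (fun x => ENNReal.ofReal (Real.exp (-V x))) μ :=
    (Real.measurable_exp.comp_aemeasurable hV.meas.neg).ennreal_ofReal
  have hOm : MeasurableSet {x | ρ x < t} := (isOpen_lt hρ.continuous continuous_const).measurableSet
  have hsm : ∀ k, Sm (fun y : Sb O => φ k y.val) := fun k => sm_val fun x hx => h3 k x (hOU' x hx)
  have hlev : ∀ k (y : Sb O) w, a * Levi P y.val w ≤ Levi (fun y : Sb O => φ k y.val) y w := by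
    intro k y w
    rw [Levi_eq_lev (hsm k), lev_val]
    exact h4 k y.val (hOU y) w
  set K : ℝ≥0∞ := ∫⁻ x, ENNReal.ofReal (kap x / a) ∂(wm μ fun x => Real.exp (-V x)) with hK
  have hKO : ∫⁻ x in {x | ρ x < t}, ENNReal.ofReal (Real.exp (-V x)) * ENNReal.ofReal (kap x / a) ∂μ ≤ K := by
    rw [hK]
    unfold wm
    refine le_trans ?_ (setLIntegral_le_lintegral {x | ρ x < t} _)
    rw [setLIntegral_withDensity_eq_setLIntegral_mul_non_measurable₀ μ hme.restrict _ hOm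
      (Eventually.of_forall fun x => ENNReal.ofReal_lt_top)]
    rfl
  obtain ⟨F, hF, hFi⟩ := engineP n (Sb O) (μ.comap (Sb.val : Sb O → M)) (isLeb_val hμ)
    (fun y => rt ρ t y.val) (sm_rt hρ t) (fun c => compact_rt hρ hcpt t c)
    (fun x w => levi_rt hρ hL t x w) (fun k y => φ k y.val) hsm (fun y => h5 _ (hOU y))
    (fun k y w => le_trans (mul_nonneg ha.le (hP0 _ _)) (hlev k y w))
    (fun y => g y.val) (sm_val' hg) (fun _ y => kap y.val / a)
    (fun k y w => by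
      simp only [db_val]
      refine (hk y.val w).trans ?_
      calc kap y.val * Levi P y.val w = kap y.val / a * (a * Levi P y.val w) := by
            field_simp
        _ ≤ _ := mul_le_mul_of_nonneg_left (hlev k y w) (div_nonneg (hk0 _) ha.le)) K
    (fun k => by
      rw [lintegral_val (fun x => ENNReal.ofReal (kap x / a * Real.exp (-φ k x)))]
      refine le_trans (lintegral_mono_ae ?_) hKO
      refine (ae_restrict_iff' hOm).2 ?_
      filter_upwards [h6] with x hx hxO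
      obtain ⟨h7, -⟩ := hx (hOU' x hxO)
      rw [mul_comm (ENNReal.ofReal _), ← ENNReal.ofReal_mul (div_nonneg (hk0 _) ha.le)]
      refine ENNReal.ofReal_le_ofReal (mul_le_mul_of_nonneg_left ?_ (div_nonneg (hk0 _) ha.le))
      exact Real.exp_le_exp.2 (neg_le_neg (h7 k)))
  refine ⟨F, hF, le_trans ?_ hFi⟩
  have e1 : ∫⁻ y : Sb O, ENNReal.ofReal (‖F y - g y.val‖ ^ 2) *
      (⨆ k, ENNReal.ofReal (Real.exp (-φ k y.val))) ∂(μ.comap (Sb.val : Sb O → M)) =
      ∫⁻ x in {x | ρ x < t}, ENNReal.ofReal (‖ext0 F x - g x‖ ^ 2) *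
        (⨆ k, ENNReal.ofReal (Real.exp (-φ k x))) ∂μ := by
    refine Eq.trans ?_ (lintegral_val (O := O) (μ := μ)
      (fun x => ENNReal.ofReal (‖ext0 F x - g x‖ ^ 2) *
        (⨆ k, ENNReal.ofReal (Real.exp (-φ k x)))))
    refine lintegral_congr fun y => ?_
    rw [ext0_val]
  rw [e1]
  unfold wm
  rw [setLIntegral_withDensity_eq_setLIntegral_mul_non_measurable₀ μ hme.restrict _ hOm
    (Eventually.of_forall fun x => ENNReal.ofReal_lt_top)]
  refine lintegral_mono_ae ((ae_restrict_iff' hOm).2 ?_)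
  filter_upwards [h6] with x hx hxO
  obtain ⟨-, h8⟩ := hx (hOU' x hxO)
  rw [Pi.mul_apply, mul_comm]
  refine mul_le_mul_right ?_ _
  have h9 : Tendsto (fun k => ENNReal.ofReal (Real.exp (-φ k x))) atTop
      (𝓝 (ENNReal.ofReal (Real.exp (-V x)))) :=
    (ENNReal.continuous_ofReal.tendsto _).comp
      ((Real.continuous_exp.tendsto _).comp h8.neg)
  exact le_of_tendsto h9 (Eventually.of_forall fun k =>
    le_iSup (fun k => ENNReal.ofReal (Real.exp (-φ k x))) k)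

/-- **solvability** -/
theorem solv_of_lreg (hμ : IsLeb μ) {ρ : M → ℝ} (hρ : Sm ρ)
    (hcpt : ∀ t : ℝ, IsCompact {x | ρ x ≤ t}) (hL : ∀ x w, nsq w ≤ Levi ρ x w)
    {V P : M → ℝ} (hP0 : ∀ x w, 0 ≤ Levi P x w) {a : ℝ} (ha : 0 < a)
    (hV : LReg μ V fun x w => a * Levi P x w) : Solv (wm μ fun x => Real.exp (-V x)) P := by
  intro g hg kap hkc hk0 hk hfin
  choose F hF hFb using fun k : ℕ => engine_sub hμ hρ hcpt hL hP0 ha hV hg hk0 hk (k : ℝ)
  have hK : 2 * ∫⁻ x, ENNReal.ofReal (kap x / a) ∂(wm μ fun x => Real.exp (-V x)) ≠ ⊤ := by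
    refine ENNReal.mul_ne_top (by simp) (ne_of_lt ?_)
    exact lint_le_lt (C := a⁻¹) (inv_pos.2 ha).le (fun x => by
      rw [div_eq_inv_mul]) hfin
  obtain ⟨F0, hF0, hb⟩ := limit_hol hμ hρ.continuous hcpt hV.locC hg.continuous
    (F := fun k => ext0 (F k)) (fun k => holOn_ext0 (hF k)) (fun k => measurable_ext0 (hF k)) hK
    hFb
  exact ⟨F0, hF0, lt_of_le_of_lt hb (lt_top_iff_ne_top.2 hK)⟩

end Crest.Agent.R273.SolvC_93
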