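import Crest.Agent.R273.PenAlg_93
import Crest.Agent.R273.SolvC_93

/-!
# R273: the final corner theorem on a Riemann domain (helper93)
-/

set_option autoImplicit false
set_option linter.unusedSectionVars false

noncomputable section

open Set Filter Topology MeasureTheory ComplexConjugate
open scoped ENNReal

namespace Crest.Agent.R273.PenFin_93

open Crest.Agent.R271.Ho51 Crest.Agent.R273.Pen_93 Crest.Agent.R273.PenAlg_93
open Crest.Agent.R273.SolvC_93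

variable {n : ℕ} {M : Type} [TopologicalSpace M] [T2Space M] [SecondCountableTopology M]
  [RDom n M] [MeasurableSpace M] [BorelSpace M] {μ : Measure M}

/-- weighted measure `e^{-V} μ` -/
def em (μ : Measure M) (V : M → ℝ) : Measure M := wm μ fun x => Real.exp (-V x)

theorem em_def (V : M → ℝ) : em μ V = wm μ fun x => Real.exp (-V x) := rfl

theorem em_wm {V : M → ℝ} (hV : AEMeasurable V μ) {W : M → ℝ} (hW : AEMeasurable W μ)
    {V' : M → ℝ} (h : ∀ x, Real.exp (-V x) * W x = Real.exp (-V' x)) :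
    wm (em μ V) W = em μ V' := by
  unfold em wm
  have h1 : AEMeasurable (fun x => ENNReal.ofReal (Real.exp (-V x))) μ :=
    (Real.measurable_exp.comp_aemeasurable hV.neg).ennreal_ofReal
  rw [← withDensity_mul₀ h1 hW.ennreal_ofReal]
  congr 1
  funext x
  rw [Pi.mul_apply, ← ENNReal.ofReal_mul (Real.exp_pos _).le, h x]

theorem mem_A2_em {V : M → ℝ} (hV : AEMeasurable V μ) {f : M → ℂ} :
    f ∈ A2 (em μ V) ↔ Hol f ∧ ∫⁻ x, ENNReal.ofReal (‖f x‖ ^ 2 * Real.exp (-V x)) ∂μ < ⊤ := by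
  rw [mem_A2]
  have h1 : AEMeasurable (fun x => ENNReal.ofReal (Real.exp (-V x))) μ :=
    (Real.measurable_exp.comp_aemeasurable hV.neg).ennreal_ofReal
  have h2 : ∀ f : M → ℂ, ∫⁻ x, ENNReal.ofReal (‖f x‖ ^ 2) ∂(em μ V) =
      ∫⁻ x, ENNReal.ofReal (‖f x‖ ^ 2 * Real.exp (-V x)) ∂μ := by
    intro f
    unfold em wm
    rw [lintegral_withDensity_eq_lintegral_mul_non_measurable₀ μ h1
      (Eventually.of_forall fun x => ENNReal.ofReal_lt_top)]
    refine lintegral_congr fun x => ?_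
    rw [Pi.mul_apply, mul_comm, ← ENNReal.ofReal_mul (by positivity)]
  rw [h2]

/-- comparison -/
theorem A2_em_le {V V' : M → ℝ} (hV : AEMeasurable V μ) (hV' : AEMeasurable V' μ) {C : ℝ}
    (h : ∀ x, V x ≤ V' x + C) : A2 (em μ V) ≤ A2 (em μ V') := by
  intro f hf
  rw [mem_A2_em hV] at hf
  rw [mem_A2_em hV']
  refine ⟨hf.1, lint_le_lt (C := Real.exp C) (Real.exp_pos C).le (fun x => ?_) hf.2⟩
  have h1 : Real.exp (-V' x) ≤ Real.exp C * Real.exp (-V x) := by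
    rw [← Real.exp_add]
    exact Real.exp_le_exp.2 (by linarith [h x])
  calc ‖f x‖ ^ 2 * Real.exp (-V' x) ≤ ‖f x‖ ^ 2 * (Real.exp C * Real.exp (-V x)) := by gcongr
    _ = _ := by ring

theorem exp_nat_mul_neg (P : ℝ) (k : ℕ) : Real.exp (-P) ^ k = Real.exp (-(k * P)) := by
  rw [← Real.exp_nat_mul]; congr 1; ring

theorem Binv_exp {c : ℕ → M → ℂ} (h0 : ∀ x, c 0 x ≠ 0) (r : ℕ) (x : M) :
    (Bf c r x)⁻¹ = Real.exp (-Pf c r x) := by
  unfold Pf
  rw [Real.exp_neg, Real.exp_log (Bf_pos h0 r x)]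

/-- `∑ e_j P_j` -/
def Ps (c : ℕ → M → ℂ) (m : ℕ) (e : ℕ → ℕ) (x : M) : ℝ :=
  ∑ j ∈ Finset.range (m + 1), (e j : ℝ) * Pf c j x

theorem Wt_exp {c : ℕ → M → ℂ} (h0 : ∀ x, c 0 x ≠ 0) (m : ℕ) (e : ℕ → ℕ) (x : M) :
    Wt c m e x = Real.exp (-Ps c m e x) := by
  unfold Wt Ps
  rw [← Finset.sum_neg_distrib, Real.exp_sum]
  refine Finset.prod_congr rfl fun j _ => ?_
  rw [Binv_exp h0, exp_nat_mul_neg]

theorem Ps_sm {c : ℕ → M → ℂ} (hc : ∀ j, Hol (c j)) (h0 : ∀ x, c 0 x ≠ 0) (m : ℕ)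
    (e : ℕ → ℕ) : Sm (Ps c m e) := by
  unfold Ps
  exact Sm.sum fun j _ => (Sm.const (e j : ℝ)).mulR (Pf_sm hc h0 j)

theorem Levi_Ps_nonneg {c : ℕ → M → ℂ} (hc : ∀ j, Hol (c j)) (h0 : ∀ x, c 0 x ≠ 0) (m : ℕ)
    (e : ℕ → ℕ) (x : M) (w : Fin n → ℂ) : 0 ≤ Levi (Ps c m e) x w := by
  have h1 : ∀ j ∈ Finset.range (m + 1), Sm (fun x => (e j : ℝ) * Pf c j x) := fun j _ =>
    (Sm.const (e j : ℝ)).mulR (Pf_sm hc h0 j)
  rw [Crest.Agent.R271.W792.Levi_eq_lev (Ps_sm hc h0 m e)]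
  unfold Ps
  rw [Crest.Agent.R271.W792.lev_sum _ h1]
  refine Finset.sum_nonneg fun j _ => ?_
  rw [Crest.Agent.R271.W792.lev_const_mul (Pf_sm hc h0 j),
    ← Crest.Agent.R271.W792.Levi_eq_lev (Pf_sm hc h0 j)]
  exact mul_nonneg (Nat.cast_nonneg _) (Levi_Pf_nonneg hc h0 j x w)

theorem Pf_mono (c : ℕ → M → ℂ) (h0 : ∀ x, c 0 x ≠ 0) {i j : ℕ} (hij : i ≤ j) (x : M) :
    Pf c i x ≤ Pf c j x := by
  refine Real.log_le_log (Bf_pos h0 i x) ?_
  induction hij with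
  | refl => exact le_rfl
  | @step k _ ih =>
    have h1 := Bf_succ c k x
    have : 0 ≤ ‖c (k + 1) x‖ ^ 2 := by positivity
    show Bf c i x ≤ Bf c (k + 1) x
    linarith

/-- **the final corner theorem** -/
theorem corner_final (hμ : IsLeb μ) {ρ : M → ℝ} (hρ : Sm ρ)
    (hcpt : ∀ t : ℝ, IsCompact {x | ρ x ≤ t}) (hL : ∀ x w, nsq w ≤ Levi ρ x w)
    {c c' : ℕ → M → ℂ} (hc : ∀ j, Hol (c j)) (h0 : ∀ x, c 0 x ≠ 0)
    (hc' : ∀ j, Hol (c' j)) (h0' : ∀ x, c' 0 x ≠ 0) {m m' : ℕ}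
    {V0 : M → ℝ} (hV0 : AEMeasurable V0 μ) {a : ℝ} (ha : 0 < a)
    (hVc : ∀ r < m, LReg μ V0 fun x w => a * Levi (Pf c (r + 1)) x w)
    (hVc' : ∀ r < m', LReg μ V0 fun x w => a * Levi (Pf c' (r + 1)) x w)
    {Ψ : M → ℝ} (hΨm : Measurable Ψ) (hΨ : LReg μ Ψ fun _ _ => 0) {C : ℝ}
    (hU : ∀ x, |Ψ x + Pf c' m' x - Pf c m x| ≤ C)
    {R : M → ℝ} (hRm : AEMeasurable R μ) (hR : ∀ x, Pf c m x ≤ R x) (hR' : ∀ x, |Pf c' m' x| ≤ R x)
    (hD : ∀ N : ℕ, FiniteDimensional ℂ (A2 (em μ fun x => V0 x + N * R x)))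
    (hne : Module.finrank ℂ (A2 (em μ V0)) ≠ 0) :
    ∃ K0 : ℕ, ∀ k : ℕ, K0 ≤ k → Module.finrank ℂ (A2 (em μ fun x => V0 x + k * Ψ x)) ≠ 0 := by
  have hPc := fun r => Pf_sm hc h0 r
  have hPc' := fun r => Pf_sm hc' h0' r
  have hFm : Measurable fun x => Real.exp (-Ψ x) := Real.measurable_exp.comp hΨm.neg
  have hR0 : ∀ x, 0 ≤ R x := fun x => (abs_nonneg _).trans (hR' x)
  -- bounds
  have hPsle : ∀ (e : ℕ → ℕ) x, Ps c m e x ≤ (∑ j ∈ Finset.range (m + 1), e j : ℕ) * R x := by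
    intro e x
    unfold Ps
    rw [Nat.cast_sum, Finset.sum_mul]
    refine Finset.sum_le_sum fun j hj => ?_
    exact mul_le_mul_of_nonneg_left ((Pf_mono c h0 (Nat.lt_succ_iff.1 (Finset.mem_range.1 hj)) x).trans
      (hR x)) (Nat.cast_nonneg _)
  have hPsle' : ∀ (e : ℕ → ℕ) x, Ps c' m' e x ≤ (∑ j ∈ Finset.range (m' + 1), e j : ℕ) * R x := by
    intro e x
    unfold Ps
    rw [Nat.cast_sum, Finset.sum_mul]
    refine Finset.sum_le_sum fun j hj => ?_
    exact mul_le_mul_of_nonneg_left ((Pf_mono c' h0' (Nat.lt_succ_iff.1 (Finset.mem_range.1 hj)) x).trans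
      ((le_abs_self _).trans (hR' x))) (Nat.cast_nonneg _)
  have hΨle : ∀ (k : ℕ) x, (k : ℝ) * Ψ x ≤ (2 * k : ℕ) * R x + k * C := by
    intro k x
    have h1 := (abs_le.1 (hU x)).2
    have h2 := neg_le_of_abs_le (hR' x)
    have h3 : Ψ x ≤ 2 * R x + C := by linarith [hR x]
    have h4 := mul_le_mul_of_nonneg_left h3 (Nat.cast_nonneg (α := ℝ) k)
    push_cast
    linarith
  -- finite dimension
  have hfd : ∀ (V : M → ℝ) (N : ℕ) (B : ℝ), AEMeasurable V μ → (∀ x, V x ≤ V0 x + N * R x + B) →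
      FiniteDimensional ℂ (A2 (em μ V)) := by
    intro V N B hV hle
    have h1 : A2 (em μ V) ≤ A2 (em μ fun x => V0 x + N * R x) :=
      A2_em_le hV (hV0.add (hRm.const_mul _)) hle
    have := hD N
    exact Submodule.finiteDimensional_of_le h1
  have mΨ : ∀ k : ℕ, AEMeasurable (fun x => (k : ℝ) * Ψ x) μ := fun k =>
    (hΨm.const_mul _).aemeasurable
  -- the weights of the first family
  have key1 : ∀ (k i : ℕ) (e : ℕ → ℕ), wm (em μ V0)
      (fun x => Real.exp (-Ψ x) ^ k * (Bf c' m' x)⁻¹ ^ i * Wt c m e x) =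
      em μ fun x => (k * Ψ x + (i * Pf c' m' x + Ps c m e x)) + V0 x := by
    intro k i e
    refine em_wm hV0 ?_ fun x => ?_
    · exact ((hFm.pow_const k).mul
        ((wA_cont hc' h0' m').measurable.pow_const i)).mul (Wt_cont hc h0 m e).measurable
        |>.aemeasurable
    · rw [Binv_exp h0', exp_nat_mul_neg, exp_nat_mul_neg, Wt_exp h0, ← Real.exp_add,
        ← Real.exp_add, ← Real.exp_add]
      congr 1
      ring
  have key2 : ∀ (k : ℕ) (e : ℕ → ℕ), wm (em μ V0)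
      (fun x => Real.exp (-Ψ x) ^ k * Wt c' m' e x) =
      em μ fun x => (k * Ψ x + Ps c' m' e x) + V0 x := by
    intro k e
    refine em_wm hV0 ?_ fun x => ?_
    · exact (hFm.pow_const k).mul
        (Wt_cont hc' h0' m' e).measurable |>.aemeasurable
    · rw [exp_nat_mul_neg, Wt_exp h0', ← Real.exp_add, ← Real.exp_add]
      congr 1
      ring
  have sm1 : ∀ (i : ℕ) (e : ℕ → ℕ), Sm (fun x => (i : ℝ) * Pf c' m' x + Ps c m e x) := fun i e =>
    ((Sm.const (i : ℝ)).mulR (hPc' m')).add (Ps_sm hc h0 m e)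
  have lr1 : ∀ (i : ℕ) (e : ℕ → ℕ), LReg μ (fun x => (i : ℝ) * Pf c' m' x + Ps c m e x)
      fun _ _ => 0 := by
    intro i e
    refine (LReg.of_smooth (sm1 i e)).mono fun x w => ?_
    rw [Levi_add ((Sm.const (i : ℝ)).mulR (hPc' m')) (Ps_sm hc h0 m e),
      Crest.Agent.R271.W792.Levi_eq_lev ((Sm.const (i : ℝ)).mulR (hPc' m')),
      Crest.Agent.R271.W792.lev_const_mul (hPc' m'),
      ← Crest.Agent.R271.W792.Levi_eq_lev (hPc' m')]
    exact add_nonneg (mul_nonneg (Nat.cast_nonneg _) (Levi_Pf_nonneg hc' h0' m' x w))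
      (Levi_Ps_nonneg hc h0 m e x w)
  have lr2 : ∀ e : ℕ → ℕ, LReg μ (Ps c' m' e) fun _ _ => 0 := fun e =>
    (LReg.of_smooth (Ps_sm hc' h0' m' e)).mono fun x w => Levi_Ps_nonneg hc' h0' m' e x w
  have lrΨ : ∀ k : ℕ, LReg μ (fun x => (k : ℝ) * Ψ x) fun _ _ => 0 := fun k =>
    (hΨ.nsmul k).mono fun _ _ => by simp
  obtain ⟨K0, hK0⟩ := corner (ν := em μ V0) hc h0 hc' h0' (m := m) (m' := m')
    (F := fun x => Real.exp (-Ψ x)) hFm
    (fun x => (Real.exp_pos _).le) (C := Real.exp C)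
    (fun x => by
      rw [Binv_exp h0, Binv_exp h0', ← Real.exp_add, ← Real.exp_add]
      have := abs_le.1 (hU x)
      exact Real.exp_le_exp.2 (by linarith [this.1]))
    (fun x => by
      rw [Binv_exp h0, Binv_exp h0', ← Real.exp_add, ← Real.exp_add]
      have := abs_le.1 (hU x)
      exact Real.exp_le_exp.2 (by linarith [this.2]))
    (fun k i e r hr => by
      rw [key1]
      refine solv_of_lreg hμ hρ hcpt hL (fun x w => Levi_Pf_nonneg hc h0 (r + 1) x w) ha ?_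
      exact (((lrΨ k).add (lr1 i e)).add (hVc r hr)).mono fun x w => by simp)
    (fun k e r hr => by
      rw [key2]
      refine solv_of_lreg hμ hρ hcpt hL (fun x w => Levi_Pf_nonneg hc' h0' (r + 1) x w) ha ?_
      exact (((lrΨ k).add (lr2 e)).add (hVc' r hr)).mono fun x w => by simp)
    (fun k i e => by
      rw [key1]
      refine hfd _ (2 * k + i + ∑ j ∈ Finset.range (m + 1), e j) (k * C)
        (((mΨ k).add (sm1 i e).continuous.measurable.aemeasurable).add hV0) fun x => ?_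
      have h1 := hΨle k x
      have h2 := hPsle e x
      have h3 : (i : ℝ) * Pf c' m' x ≤ i * R x :=
        mul_le_mul_of_nonneg_left ((le_abs_self _).trans (hR' x)) (Nat.cast_nonneg _)
      push_cast at h1 h2 ⊢
      linarith)
    (fun k e => by
      rw [key2]
      refine hfd _ (2 * k + ∑ j ∈ Finset.range (m' + 1), e j) (k * C)
        (((mΨ k).add (Ps_sm hc' h0' m' e).continuous.measurable.aemeasurable).add hV0) fun x => ?_
      have h1 := hΨle k x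
      have h2 := hPsle' e x
      push_cast at h1 h2 ⊢
      linarith)
    hne
  refine ⟨K0, fun k hk => ?_⟩
  have h1 := hK0 k hk
  have h2 : wm (em μ V0) (fun x => Real.exp (-Ψ x) ^ k) = em μ fun x => V0 x + k * Ψ x := by
    refine em_wm hV0 (hFm.pow_const k).aemeasurable fun x => ?_
    rw [exp_nat_mul_neg, ← Real.exp_add]
    congr 1
    ring
  rwa [h2] at h1

end Crest.Agent.R273.PenFin_93
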