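import Crest.Agent.R273.PsiE_145
import Crest.Agent.R271.G3a_792
import Crest.Agent.R273.PsiB_844

/-!
# R273, A-PSI: the plurisubharmonic weight `Psi` (helper145)

`psi`: on a Riemann domain with the data of `PsiE_145`, if moreover
* (Ub) `inf` of `u` over the fibres of `y` is `≤ b(y) + C`,
* (RK) holomorphic functions square integrable with respect to the weights `m u + p1 +
  (n+1) log (1+|y|²)` are constant on the fibres of `y`,
then there is `Psi` plurisubharmonic with `|Psi - b(y)| ≤ C + 2`.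

`psi_YD`: the same for `u = e (j0 phiL - log |lam|²)`, `b = log (B' / B)`, in the form of `AsmA_73`.
-/

set_option autoImplicit false
set_option linter.unusedSectionVars false

noncomputable section

open Set Filter Topology MeasureTheory ComplexConjugate Metric
open scoped ENNReal

namespace Crest.Agent.R273.Psi_145

open Crest.Agent.R271 Crest.Agent.R271.Ho51
open Crest.Agent.R271.W792 (lev nS nS_nonneg sm_nS lg sm_lg Levi_eq_lev lev_add lev_const_mul)
open Crest.Agent.R273.Pen_93 (w_hol hol_cont hol_mul hol_const Bf Bf_pos Bf_cont Pf)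
open Crest.Agent.R273.PsiE_145
open Crest.Agent.R273.Reg_844 (PSH exists_psh_near)

variable {n N : ℕ} {M : Type} [TopologicalSpace M] [RDom n M] [T2Space M]
  [SecondCountableTopology M] [MeasurableSpace M] [BorelSpace M] {μ : Measure M}
  {u p1 : M → ℝ} {y : Fin N → M → ℂ}

/-- **the upper bound** -/
theorem upper (hμ : IsLeb μ) (hu : Sm u) (hp : Sm p1) (hy : ∀ j, Hol (y j)) (x : M) {η : ℝ}
    (hη : 0 < η) :
    ∃ A : ℝ, 0 < A ∧ ∀ᶠ x' in 𝓝 x, ∀ (m : ℕ) (F : M → ℂ) (K : ℝ), Hol F → 0 ≤ K →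
      ∫⁻ x, ENNReal.ofReal (‖F x‖ ^ 2 * Real.exp (-V (n := n) u p1 y m x)) ∂μ ≤
        ENNReal.ofReal K →
      ‖F x'‖ ^ 2 ≤ A * K * Real.exp (m * (u x + η)) := by
  set e := ch x with he
  have he' : IsCh e := isCh_ch x
  set z0 : Fin n → ℂ := cp x with hz0
  have ht := symm_tendsto x
  set q : M → ℝ := fun x => p1 x + ((n + 1 : ℕ) : ℝ) * lg y 1 x with hq
  have hqc : Continuous q := hp.continuous.add (continuous_const.mul (sm_lg1 hy).continuous)
  have huc : Continuous u := hu.continuous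
  have e1 : ∀ᶠ z in 𝓝 z0, u (e.symm z) < u x + η :=
    ht.eventually ((huc.tendsto x).eventually (gt_mem_nhds (by linarith)))
  have e2 : ∀ᶠ z in 𝓝 z0, q (e.symm z) < q x + 1 :=
    ht.eventually ((hqc.tendsto x).eventually (gt_mem_nhds (by linarith)))
  have e4 : ∀ᶠ z in 𝓝 z0, z ∈ e.target := e.open_target.mem_nhds (he'.cp_mem (mem_ch x))
  obtain ⟨r', hr', hB⟩ := Metric.nhds_basis_closedBall.mem_iff.1
    ((e1.and e2).and e4 : ∀ᶠ z in 𝓝 z0, _)
  set r := r' / 2 with hrd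
  have hr : 0 < r := by positivity
  have hBt : closedBall z0 r' ⊆ e.target := fun z hz => (hB hz).2
  set v := volume (closedBall (0 : Fin n → ℂ) r) with hv
  have hv0 : v ≠ 0 := (measure_closedBall_pos volume _ hr).ne'
  have hvt : v ≠ ⊤ := measure_closedBall_lt_top.ne
  have hvr : 0 < v.toReal := ENNReal.toReal_pos hv0 hvt
  refine ⟨v.toReal⁻¹ * Real.exp (q x + 1), by positivity, ?_⟩
  have hcp : ∀ᶠ x' in 𝓝 x, cp x' ∈ ball z0 r :=
    (cp_cont.tendsto x).eventually (ball_mem_nhds z0 hr)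
  filter_upwards [e.open_source.mem_nhds (mem_ch x), hcp] with x' hx' hxb m F K hF hK hI
  have hsub : closedBall (cp x') r ⊆ closedBall z0 r' := by
    refine closedBall_subset_closedBall' ?_
    have := mem_ball.1 hxb
    rw [hrd] at this ⊢
    linarith
  have h1 := Montel297.volume_mul_enorm_sq_le (f := F ∘ e.symm) (x := cp x') (r := r)
    e.open_target (hF e he') (hsub.trans hBt)
  have h2 : (F ∘ e.symm) (cp x') = F x' := by
    show F (e.symm (cp x')) = F x'
    rw [he'.symm_cp hx']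
  have h3 : volume (closedBall (cp x') r) = v := Measure.addHaar_closedBall_center volume _ r
  rw [h2, h3] at h1
  have hFm : Measurable fun x => ENNReal.ofReal (‖F x‖ ^ 2 *
      Real.exp (-V (n := n) u p1 y m x)) :=
    (((hol_cont hF).norm.pow 2).mul
      (Real.continuous_exp.comp (cont_V (n := n) hu hp hy m).neg)).measurable.ennreal_ofReal
  set T : ℝ := Real.exp (m * (u x + η) + (q x + 1)) with hT
  have h4 : ∫⁻ z in closedBall (cp x') r, ‖(F ∘ e.symm) z‖ₑ ^ 2 ≤
      ENNReal.ofReal T * ENNReal.ofReal K := by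
    calc ∫⁻ z in closedBall (cp x') r, ‖(F ∘ e.symm) z‖ₑ ^ 2
        ≤ ∫⁻ z in closedBall z0 r', ‖(F ∘ e.symm) z‖ₑ ^ 2 := lintegral_mono_set hsub
      _ ≤ ∫⁻ z in closedBall z0 r', ENNReal.ofReal T * ENNReal.ofReal (‖F (e.symm z)‖ ^ 2 *
          Real.exp (-V (n := n) u p1 y m (e.symm z))) := by
          refine setLIntegral_mono' isClosed_closedBall.measurableSet fun z hz => ?_
          obtain ⟨⟨g1, g2⟩, -⟩ := hB hz
          rw [← ofReal_norm, ← ENNReal.ofReal_pow (norm_nonneg _),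
            ← ENNReal.ofReal_mul (Real.exp_pos _).le]
          refine ENNReal.ofReal_le_ofReal ?_
          have g3 : V (n := n) u p1 y m (e.symm z) ≤ m * (u x + η) + (q x + 1) := by
            have g4 : V (n := n) u p1 y m (e.symm z) = m * u (e.symm z) + q (e.symm z) := by
              simp only [V, hq]; ring
            rw [g4]
            have g5 : (0 : ℝ) ≤ m := Nat.cast_nonneg m
            nlinarith
          have g6 : 1 ≤ T * Real.exp (-V (n := n) u p1 y m (e.symm z)) := by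
            rw [hT, ← Real.exp_add]
            exact Real.one_le_exp (by linarith)
          have g7 : 0 ≤ ‖F (e.symm z)‖ ^ 2 := by positivity
          show ‖F (e.symm z)‖ ^ 2 ≤ _
          nlinarith
      _ = ENNReal.ofReal T * ∫⁻ z in closedBall z0 r', ENNReal.ofReal (‖F (e.symm z)‖ ^ 2 *
          Real.exp (-V (n := n) u p1 y m (e.symm z))) :=
          lintegral_const_mul' _ _ ENNReal.ofReal_ne_top
      _ ≤ ENNReal.ofReal T * ENNReal.ofReal K := by
          gcongr
          exact (T7a297.lintegral_ball_le hμ he' (isCompact_closedBall z0 r') hBt hFm).trans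
            ((setLIntegral_le_lintegral _ _).trans hI)
  have h5 : v * ‖F x'‖ₑ ^ 2 ≤ ENNReal.ofReal (T * K) := by
    rw [ENNReal.ofReal_mul (Real.exp_pos _).le]
    exact h1.trans h4
  have h6 : v.toReal * ‖F x'‖ ^ 2 ≤ T * K := by
    have h7 := ENNReal.toReal_mono ENNReal.ofReal_ne_top h5
    rwa [ENNReal.toReal_mul, ENNReal.toReal_pow, toReal_enorm,
      ENNReal.toReal_ofReal (mul_nonneg (Real.exp_pos _).le hK)] at h7
  have h8 : ‖F x'‖ ^ 2 ≤ v.toReal⁻¹ * (T * K) := by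
    rw [← div_eq_inv_mul, le_div_iff₀ hvr]
    linarith
  refine h8.trans (le_of_eq ?_)
  rw [hT, Real.exp_add]
  ring

/-- **A-PSI** -/
theorem psi (hμ : IsLeb μ) (hn : 1 ≤ n) {ρ : M → ℝ} (hρ : Sm ρ)
    (hρc : ∀ c, IsCompact {x | ρ x ≤ c}) (hρL : ∀ x w, nsq w ≤ Levi ρ x w)
    (hu : Sm u) (hu0 : ∀ x w, 0 ≤ Levi u x w) (hp : Sm p1) (hp0 : ∀ x w, 0 ≤ Levi p1 x w)
    (hpI : ∫⁻ x, ENNReal.ofReal (Real.exp (-p1 x)) ∂μ ≠ ⊤) (hy : ∀ j, Hol (y j))
    {b : (Fin N → ℂ) → ℝ} (hb : ∀ x, ContinuousAt b (fun j => y j x)) {C : ℝ}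
    (Ua : ∀ x, b (fun j => y j x) ≤ u x + C)
    (Ub : ∀ (x : M) (c : ℝ), (∀ x', (∀ j, y j x' = y j x) → c ≤ u x') →
      c ≤ b (fun j => y j x) + C)
    (RK : ∀ (m : ℕ) (F : M → ℂ), Hol F →
      ∫⁻ x, ENNReal.ofReal (‖F x‖ ^ 2 * Real.exp (-V (n := n) u p1 y m x)) ∂μ < ⊤ →
      ∀ x x', (∀ j, y j x' = y j x) → F x' = F x) :
    ∃ Ψ : M → ℝ, PSH Ψ ∧ ∀ x, |Ψ x - b (fun j => y j x)| ≤ C + 2 := by
  have hPc : Continuous fun x => b (fun j => y j x) := by
    rw [continuous_iff_continuousAt]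
    intro x
    exact ContinuousAt.comp (g := b) (hb x)
      (continuousAt_pi.2 fun j => (hol_cont (hy j)).continuousAt)
  obtain ⟨Ψ, h1, h2⟩ := exists_psh_near (P := fun x => b (fun j => y j x)) hPc (C := C + 2) (by
    intro x0
    obtain ⟨A, hA, hF⟩ := lower hμ hn hρ hρc hρL hu hu0 hp hp0 hpI hy (hb x0) Ua
    choose F hF1 hF2 hF3 using hF
    set b0 := b (fun j => y j x0) with hb0
    set T : ℕ → ℝ := fun k => A * Real.exp (k * (C + 1 - b0)) with hT
    have hTp : ∀ k, 0 < T k := fun k => by positivity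
    have hsq : ∀ k, 0 < Real.sqrt (T k) := fun k => Real.sqrt_pos.2 (hTp k)
    set w : ℕ → M → ℂ := fun k x => (((Real.sqrt (T k))⁻¹ : ℝ) : ℂ) * F k x with hw
    have hw1 : ∀ k, Hol (w k) := fun k => hol_mul (hol_const _) (hF1 k)
    have hw2 : ∀ k x, ‖w k x‖ ^ 2 = (T k)⁻¹ * ‖F k x‖ ^ 2 := by
      intro k x
      simp only [hw]
      rw [norm_mul, Complex.norm_real, Real.norm_eq_abs, abs_of_pos (inv_pos.2 (hsq k)), mul_pow,
        inv_pow, Real.sq_sqrt (hTp k).le]
    have hw3 : ∀ k, ∫⁻ x, ENNReal.ofReal (‖w k x‖ ^ 2 *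
        Real.exp (-V (n := n) u p1 y k x)) ∂μ ≤ ENNReal.ofReal 1 := by
      intro k
      calc ∫⁻ x, ENNReal.ofReal (‖w k x‖ ^ 2 * Real.exp (-V (n := n) u p1 y k x)) ∂μ
          = ∫⁻ x, ENNReal.ofReal (T k)⁻¹ * ENNReal.ofReal (‖F k x‖ ^ 2 *
              Real.exp (-V (n := n) u p1 y k x)) ∂μ := by
            refine lintegral_congr fun x => ?_
            rw [← ENNReal.ofReal_mul (inv_pos.2 (hTp k)).le, hw2]
            congr 1
            ring
        _ = ENNReal.ofReal (T k)⁻¹ * ∫⁻ x, ENNReal.ofReal (‖F k x‖ ^ 2 *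
              Real.exp (-V (n := n) u p1 y k x)) ∂μ :=
            lintegral_const_mul' _ _ ENNReal.ofReal_ne_top
        _ ≤ ENNReal.ofReal (T k)⁻¹ * ENNReal.ofReal (T k) := by
            gcongr
            exact hF3 k
        _ = ENNReal.ofReal 1 := by
            rw [← ENNReal.ofReal_mul (inv_pos.2 (hTp k)).le, inv_mul_cancel₀ (hTp k).ne']
    refine ⟨w, hw1, ?_, ?_, ?_⟩
    · -- locally uniform upper bound
      intro x
      obtain ⟨B, hB, h3⟩ := upper hμ hu hp hy x (η := 1) one_pos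
      refine ⟨(u x + 1) + max (Real.log B) 0, ?_⟩
      filter_upwards [h3] with x' hx' k hk
      have h4 := hx' k (w k) 1 (hw1 k) zero_le_one (hw3 k)
      refine h4.trans ?_
      have hk1 : (1 : ℝ) ≤ k := by exact_mod_cast hk
      have h5 : B ≤ Real.exp (k * max (Real.log B) 0) := by
        rw [← Real.log_le_iff_le_exp hB]
        have h6 : Real.log B ≤ max (Real.log B) 0 := le_max_left _ _
        have h7 : 0 ≤ max (Real.log B) 0 := le_max_right _ _
        nlinarith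
      calc B * 1 * Real.exp (k * (u x + 1)) ≤ Real.exp (k * max (Real.log B) 0) *
            Real.exp (k * (u x + 1)) := by rw [mul_one]; gcongr
        _ = _ := by rw [← Real.exp_add]; ring_nf
    · -- pointwise upper bound
      intro x c hc
      have h3 : ∃ x', (∀ j, y j x' = y j x) ∧ u x' < c - 1 := by
        by_contra hcon
        push Not at hcon
        have := Ub x (c - 1) hcon
        linarith
      obtain ⟨x', hx', hux⟩ := h3
      obtain ⟨B, hB, h4⟩ := upper hμ hu hp hy x' (η := 1 / 2) (by norm_num)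
      have h5 := h4.self_of_nhds
      have h6 : ∀ᶠ k : ℕ in atTop, Real.log B ≤ (k : ℝ) * (1 / 2) := by
        have : Tendsto (fun k : ℕ => (k : ℝ) * (1 / 2)) atTop atTop :=
          tendsto_natCast_atTop_atTop.atTop_mul_const (by norm_num)
        exact this.eventually_ge_atTop _
      filter_upwards [h6] with k hk
      have h7 := h5 k (w k) 1 (hw1 k) zero_le_one (hw3 k)
      have h8 : w k x' = w k x := RK k (w k) (hw1 k)
        ((hw3 k).trans_lt ENNReal.ofReal_lt_top) x x' hx'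
      rw [h8, mul_one] at h7
      refine h7.trans ?_
      have h9 : B ≤ Real.exp (k * (1 / 2)) := (Real.log_le_iff_le_exp hB).1 hk
      have hk0 : (0 : ℝ) ≤ k := Nat.cast_nonneg k
      calc B * Real.exp (k * (u x' + 1 / 2)) ≤ Real.exp (k * (1 / 2)) *
            Real.exp (k * (u x' + 1 / 2)) := by gcongr
        _ = Real.exp (k * (u x' + 1)) := by rw [← Real.exp_add]; ring_nf
        _ ≤ Real.exp (k * c) := Real.exp_le_exp.2 (by nlinarith)
    · -- lower bound at `x0`
      intro c hc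
      have h6 : ∀ᶠ k : ℕ in atTop, Real.log A ≤ (k : ℝ) := by
        exact tendsto_natCast_atTop_atTop.eventually_ge_atTop _
      refine Eventually.frequently ?_
      filter_upwards [h6] with k hk
      rw [hw2, hF2, norm_one, one_pow, mul_one, hT]
      have h9 : A ≤ Real.exp k := (Real.log_le_iff_le_exp hA).1 hk
      have hk0 : (0 : ℝ) ≤ k := Nat.cast_nonneg k
      rw [le_inv_comm₀ (Real.exp_pos _) (by positivity), ← Real.exp_neg]
      calc A * Real.exp (k * (C + 1 - b0)) ≤ Real.exp k * Real.exp (k * (C + 1 - b0)) := by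
            gcongr
        _ = Real.exp (k * (C + 2 - b0)) := by rw [← Real.exp_add]; ring_nf
        _ ≤ Real.exp (-(k * c)) := Real.exp_le_exp.2 (by nlinarith))
  refine ⟨Ψ, h1, fun x => ?_⟩
  have := h2 x
  rw [abs_le]
  constructor <;> linarith

/-! ### the form of `AsmA_73` -/

section YD

variable {φL φK : M → ℝ} {lam : M → ℂ} {j0 e : ℕ}

/-- `u = e (j0 φL - log |lam|²)` -/
def uY (φL : M → ℝ) (lam : M → ℂ) (j0 e : ℕ) (x : M) : ℝ :=
  ((j0 * e : ℕ) : ℝ) * φL x + (-(e : ℝ)) * lg (fun _ : Unit => lam) 0 x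

theorem lam_pos (h0 : ∀ x, lam x ≠ 0) (x : M) : 0 < nS (fun _ : Unit => lam) x + 0 := by
  have : 0 < ‖lam x‖ := norm_pos_iff.mpr (h0 x)
  simp [nS]; positivity

theorem sm_uY (hφ : Sm φL) (hl : Hol lam) (h0 : ∀ x, lam x ≠ 0) (j0 e : ℕ) :
    Sm (uY φL lam j0 e) :=
  ((Sm.const _).mulR hφ).add ((Sm.const _).mulR
    (sm_lg (fun _ => (w_hol hl).sm) (lam_pos h0)))

theorem Levi_uY (hφ : Sm φL) (hφ0 : ∀ x w, 0 ≤ Levi φL x w) (hl : Hol lam)
    (h0 : ∀ x, lam x ≠ 0) (j0 e : ℕ) (x : M) (w : Fin n → ℂ) :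
    0 ≤ Levi (uY φL lam j0 e) x w := by
  have hs := sm_lg (fun _ : Unit => (w_hol hl).sm) (lam_pos h0)
  rw [Levi_eq_lev (sm_uY hφ hl h0 j0 e)]
  unfold uY
  rw [lev_add ((Sm.const _).mulR hφ) ((Sm.const _).mulR hs), lev_const_mul hφ, lev_const_mul hs,
    G792.lev_lg_unit (w_hol hl) h0, mul_zero, add_zero]
  have h1 := hφ0 x w
  rw [Levi_eq_lev hφ] at h1
  positivity

theorem exp_uY (h0 : ∀ x, lam x ≠ 0) (x : M) :
    Real.exp (-uY φL lam j0 e x) = ‖lam x‖ ^ (2 * e) * Real.exp (-(j0 * e * φL x)) := by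
  have hpos : 0 < ‖lam x‖ := norm_pos_iff.mpr (h0 x)
  unfold uY lg
  rw [G792.nS_unit, add_zero, neg_add, Real.exp_add, mul_comm]
  congr 1
  · rw [neg_mul, neg_neg, Real.exp_nat_mul, Real.exp_log (by positivity), ← pow_mul]
  · push_cast
    rfl

/-- the quotient of the two families -/
theorem psi_YD (hμ : IsLeb μ) (hn : 1 ≤ n) {ρ : M → ℝ} (hρ : Sm ρ)
    (hρc : ∀ c, IsCompact {x | ρ x ≤ c}) (hρL : ∀ x w, nsq w ≤ Levi ρ x w)
    (hφ : Sm φL) (hφ0 : ∀ x w, 0 ≤ Levi φL x w) (hp : Sm φK) (hp0 : ∀ x w, 0 ≤ Levi φK x w)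
    (hpI : ∫⁻ x, ENNReal.ofReal (Real.exp (-φK x)) ∂μ ≠ ⊤)
    (hl : Hol lam) (h0 : ∀ x, lam x ≠ 0) (hy : ∀ j, Hol (y j)) (he : 0 < e)
    {p p' : ℕ → MvPolynomial (Fin N) ℂ} {m m' : ℕ}
    (hp1 : ∀ x, MvPolynomial.eval (fun j => y j x) (p 0) ≠ 0)
    (hp1' : ∀ x, MvPolynomial.eval (fun j => y j x) (p' 0) ≠ 0)
    (Ua : ∃ C : ℝ, ∀ x, ‖lam x‖ ^ (2 * e) * Real.exp (-(j0 * e * φL x)) *
      Bf (fun j x => MvPolynomial.eval (fun i => y i x) (p' j)) m' x ≤
        C * Bf (fun j x => MvPolynomial.eval (fun i => y i x) (p j)) m x)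
    (Ub : ∃ C : ℝ, ∀ (x : M) (Mb : ℝ), (∀ x', (∀ j, y j x' = y j x) →
        ‖lam x'‖ ^ 2 * Real.exp (-(j0 * φL x')) ≤ Mb) →
      Bf (fun j x => MvPolynomial.eval (fun i => y i x) (p j)) m x ≤
        C * Mb ^ e * Bf (fun j x => MvPolynomial.eval (fun i => y i x) (p' j)) m' x)
    (RK : ∀ (k i : ℕ) (F : M → ℂ), Hol F →
      ∫⁻ x, ENNReal.ofReal (‖F x‖ ^ 2 * ‖lam x‖ ^ (2 * k) *
        Real.exp (-(j0 * k * φL x + φK x)) * ((1 + ∑ j, ‖y j x‖ ^ 2) ^ i)⁻¹) ∂μ < ⊤ →
      ∀ x x', (∀ j, y j x' = y j x) → F x' = F x) :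
    ∃ Ψ : M → ℝ, PSH Ψ ∧ ∃ C : ℝ, ∀ x,
      |Ψ x - (Real.log (Bf (fun j x => MvPolynomial.eval (fun i => y i x) (p' j)) m' x) -
        Real.log (Bf (fun j x => MvPolynomial.eval (fun i => y i x) (p j)) m x))| ≤ C := by
  obtain ⟨C1, hC1⟩ := Ua
  obtain ⟨C2, hC2⟩ := Ub
  set c : ℕ → M → ℂ := fun j x => MvPolynomial.eval (fun i => y i x) (p j) with hc
  set c' : ℕ → M → ℂ := fun j x => MvPolynomial.eval (fun i => y i x) (p' j) with hc'
  have hB : ∀ x, 0 < Bf c m x := Bf_pos hp1 m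
  have hB' : ∀ x, 0 < Bf c' m' x := Bf_pos hp1' m'
  set β : (ℕ → MvPolynomial (Fin N) ℂ) → ℕ → (Fin N → ℂ) → ℝ := fun p m v =>
    ∑ j : Fin (m + 1), ‖MvPolynomial.eval v (p j)‖ ^ 2 with hβ
  set b : (Fin N → ℂ) → ℝ := fun v => Real.log (β p' m' v) - Real.log (β p m v) with hbd
  have hbB : ∀ x, b (fun j => y j x) = Real.log (Bf c' m' x) - Real.log (Bf c m x) := fun x => rfl
  have hβc : ∀ p m, Continuous (β p m) := by
    intro p m
    refine continuous_finsetSum _ fun j _ => ?_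
    exact ((MvPolynomial.continuous_eval (p j)).norm).pow 2
  set C := max (Real.log (max C1 1)) (Real.log (max C2 1)) with hCd
  obtain ⟨Ψ, h1, h2⟩ := psi (n := n) hμ hn hρ hρc hρL (sm_uY hφ hl h0 j0 e)
    (Levi_uY hφ hφ0 hl h0 j0 e) hp hp0 hpI hy (b := b) (C := C)
    (fun x => by
      refine ContinuousAt.sub ?_ ?_
      · exact (hβc p' m').continuousAt.log (hB' x).ne'
      · exact (hβc p m).continuousAt.log (hB x).ne')
    (fun x => by
      rw [hbB]
      have h3 := hC1 x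
      rw [← exp_uY h0] at h3
      have h4 : Real.exp (-uY φL lam j0 e x) * Bf c' m' x ≤ max C1 1 * Bf c m x :=
        h3.trans (mul_le_mul_of_nonneg_right (le_max_left _ _) (hB x).le)
      have h5 : 0 < max C1 1 := lt_max_of_lt_right one_pos
      have h6 := Real.log_le_log (mul_pos (Real.exp_pos _) (hB' x)) h4
      rw [Real.log_mul (Real.exp_pos _).ne' (hB' x).ne', Real.log_exp,
        Real.log_mul h5.ne' (hB x).ne'] at h6
      have h7 : Real.log (max C1 1) ≤ C := le_max_left _ _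
      linarith)
    (fun x t ht => by
      rw [hbB]
      have hee : (0 : ℝ) < e := by exact_mod_cast he
      have h3 := hC2 x (Real.exp (-(t / e))) (fun x' hx' => by
        have h4 := ht x' hx'
        have hpos : 0 < ‖lam x'‖ := norm_pos_iff.mpr (h0 x')
        have h5 : Real.exp (-uY φL lam j0 e x') =
            (‖lam x'‖ ^ 2 * Real.exp (-(j0 * φL x'))) ^ e := by
          rw [exp_uY h0, mul_pow, ← pow_mul, ← Real.exp_nat_mul]
          ring_nf
        have h6 : (‖lam x'‖ ^ 2 * Real.exp (-(j0 * φL x'))) ^ e ≤ Real.exp (-(t / e)) ^ e := by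
          rw [← h5, ← Real.exp_nat_mul]
          refine Real.exp_le_exp.2 ?_
          have : (e : ℝ) * -(t / e) = -t := by field_simp
          rw [this]
          linarith
        exact (pow_le_pow_iff_left₀ (by positivity) (Real.exp_pos _).le he.ne').1 h6)
      rw [← Real.exp_nat_mul] at h3
      have h7 : (e : ℝ) * -(t / e) = -t := by field_simp
      rw [h7] at h3
      have h4 : Bf c m x ≤ max C2 1 * Real.exp (-t) * Bf c' m' x := by
        refine h3.trans ?_
        have := (hB' x).le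
        have := le_max_left C2 1
        gcongr
      have h5 : 0 < max C2 1 := lt_max_of_lt_right one_pos
      have h6 := Real.log_le_log (hB x) h4
      rw [Real.log_mul (mul_pos h5 (Real.exp_pos _)).ne' (hB' x).ne',
        Real.log_mul h5.ne' (Real.exp_pos _).ne', Real.log_exp] at h6
      have h8 : Real.log (max C2 1) ≤ C := le_max_right _ _
      linarith)
    (fun k F hF hI x x' hx => by
      refine RK (k * e) (n + 1) F hF (lt_of_le_of_lt (le_of_eq ?_) hI) x x' hx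
      refine lintegral_congr fun x => ?_
      congr 1
      rw [exp_V]
      have h3 : Real.exp (-((k : ℝ) * uY φL lam j0 e x)) =
          (‖lam x‖ ^ (2 * e) * Real.exp (-(j0 * e * φL x))) ^ k := by
        rw [← exp_uY h0, ← Real.exp_nat_mul]
        ring_nf
      have h4 : nS y x + 1 = 1 + ∑ j, ‖y j x‖ ^ 2 := by unfold nS; ring
      have h5 : Real.exp (-((j0 : ℝ) * ((k * e : ℕ) : ℝ) * φL x + φK x)) =
          Real.exp (-(j0 * e * φL x)) ^ k * Real.exp (-φK x) := by
        rw [← Real.exp_nat_mul, ← Real.exp_add]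
        push_cast
        ring_nf
      rw [h3, h4, h5, mul_pow, ← pow_mul]
      have h6 : 2 * e * k = 2 * (k * e) := by ring
      rw [h6]
      ring)
  exact ⟨Ψ, h1, C + 2, fun x => by have := h2 x; rwa [hbB] at this⟩

end YD

end Crest.Agent.R273.Psi_145
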