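import Crest.Agent.R273.AsmA_73
import Crest.Agent.R273.Psi_145

/-!
# R273: the weight `Psi` for the data `YD` of `AsmA_73` (helper145)
-/

set_option autoImplicit false
set_option linter.unusedSectionVars false

open Set Filter Topology Complex MeasureTheory
open scoped ContDiff Matrix ENNReal

namespace Crest.Agent.R273.PsiYD_145

open Crest.Agent.R275.Geo Crest.Agent.R275.Core144 Crest.Agent.R275.GC293
open Crest.Agent.R273.SteinA_794
open Crest.Agent.R273.SteinB_794 Crest.Agent.R273.SteinC_794 Crest.Agent.R273.SteinD_794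
open Crest.Agent.R273.SteinM_794 Crest.Agent.R273.SteinN_794 Crest.Agent.R273.SteinL_794
open Crest.Agent.R273.Defs_333 (ProjD HM HM.wt HM.Semipos HasSec)
open Crest.Agent.R273.Vm_333 (vm)
open Crest.Agent.R273.Kah_333 (cur)
open Crest.Agent.R271.Ho51 (RDom cp ch IsCh IsLeb Hol Sm mem_ch isCh_ch Levi exists_leb)
open Crest.Agent.R271.W792 (lev)
open Crest.Agent.R273.Pen_93 Crest.Agent.R273.PenAlg_93
open Crest.Agent.R273.Reg_844 (PSH)
open Crest.Agent.R273.AsmA_73 Crest.Agent.R273.Psi_145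

noncomputable section

variable {n : ℕ} {M : Type} [TopologicalSpace M] {A : Atl n M}

theorem one_le_of_YD {h : HM (KB A)⁻¹} {L : LB A} {hL : HM L} (Y : YD h L hL) : 1 ≤ n := by
  obtain ⟨i, x, _, hx⟩ := Y.rk_eq
  have h1 := Matrix.rank_le_card_width (cur h i x)
  rw [Fintype.card_fin] at h1
  exact Y.ν_pos.trans (hx.trans h1)

variable [T2Space M] [CompactSpace M] [Finite A.ι] [SecondCountableTopology M]
  [MeasurableSpace M] [BorelSpace M]

/-- the volume form has finite mass on the domain -/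
theorem mass_lt_top (h : HM (KB A)⁻¹) {S : SD A} {μ : Measure (Mo S)} (hμ : IsLeb μ) :
    ∫⁻ x : Mo S, ENNReal.ofReal (Real.exp (-(wtS h (kf S) x.val))) ∂μ < ⊤ := by
  have hfin : IsFiniteMeasure (vm h) := Vm_333.isFinite_vm h
  have h1 := lintegral_mu h hμ (fun _ => 1) measurable_const
  simp only [mul_one] at h1
  have h2 : ∫⁻ x : Mo S, ENNReal.ofReal (Real.exp (-(wtS h (kf S) x.val))) ∂μ =
      ∫⁻ _ in S.U, 1 ∂(vm h) := h1
  rw [h2, lintegral_const, one_mul]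
  exact measure_lt_top _ _

/-- **the weight `Psi`** -/
theorem psi_of_YD {h : HM (KB A)⁻¹} (hh : h.Semipos) {L : LB A} {hL : HM L}
    (hhL : hL.Semipos) (Y : YD h L hL) :
    ∃ Ψ : Mo Y.S → ℝ, PSH Ψ ∧ ∃ C : ℝ, ∀ x, |Ψ x - (Real.log (Bf (evp Y.y Y.p') Y.m' x) -
      Real.log (Bf (evp Y.y Y.p) Y.m x))| ≤ C := by
  obtain ⟨μ, hμ⟩ := exists_leb (M := Mo Y.S)
  obtain ⟨Ca, hCa, hUa⟩ := Y.Ua
  obtain ⟨Cb, hCb, hUb⟩ := Y.Ub
  refine psi_YD (n := n) (φL := fun x : Mo Y.S => wtS hL Y.σ x.val)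
    (φK := fun x : Mo Y.S => wtS h (kf Y.S) x.val) (lam := Y.lam) (j0 := Y.j0) (e := Y.e)
    (y := Y.y) (p := Y.p) (p' := Y.p') (m := Y.m) (m' := Y.m') hμ (one_le_of_YD Y)
    (rho_sm Y.E) (rho_compact Y.E) (rho_levi Y.E)
    (wtS_sm hL Y.hσ Y.σ0) (Levi_wtS_nonneg hL hhL Y.hσ Y.σ0)
    (wtS_sm h (isHS_kf Y.S) kf_ne) (Levi_wtS_nonneg h hh (isHS_kf Y.S) kf_ne)
    (mass_lt_top h hμ).ne Y.hlam Y.lam0 Y.hy Y.e_pos Y.c0 Y.c0' ?_ ?_ ?_
  · refine ⟨Ca, fun x => ?_⟩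
    have h1 := hUa x
    have h2 : (‖Y.lam x‖ ^ 2 * Real.exp (-(Y.j0 * wtS hL Y.σ x.val))) ^ Y.e =
        ‖Y.lam x‖ ^ (2 * Y.e) * Real.exp (-(Y.j0 * Y.e * wtS hL Y.σ x.val)) := by
      rw [mul_pow, ← pow_mul, ← Real.exp_nat_mul]
      ring_nf
    rw [h2] at h1
    exact h1
  · refine ⟨Cb, fun x Mb hMb => ?_⟩
    have h0 : 0 ≤ Mb := le_trans (by positivity) (hMb x fun _ => rfl)
    exact hUb x Mb h0 hMb
  · intro k i F hF hI x x' hx
    refine (Y.RK μ hμ k i F hF (lt_of_le_of_lt (le_of_eq ?_) hI) x x' fun l => (hx l).symm).symm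
    refine lintegral_congr fun x => ?_
    congr 1
    rw [div_eq_mul_inv]
    congr 3
    ring

end

end Crest.Agent.R273.PsiYD_145
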