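import Crest.Agent.R273.T4B_844

/-!
# Row 273, leaf T4 (helper844), part C: weakly psh functions on Riemann domains

`WPsh μ f` : `f` is locally weakly psh.  `exists_reg_weak` : near a compact set a locally integrable
weakly psh function is a decreasing limit of smooth psh functions.
-/

set_option autoImplicit false
set_option linter.unusedSectionVars false

open MeasureTheory Set Metric Filter Topology
open scoped ENNReal ContDiff Pointwise

noncomputable section

namespace Crest.Agent.R273.Reg_844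

open Crest.Agent.R275.FL606 Crest.Agent.R271.Ho51
open Crest.Agent.R271.W792 (lev)
open Crest.Agent.R271.Ball399 (lev0)

variable {n : ℕ} {κ : (Fin n → ℂ) → ℝ}
variable {G : Type*} [TopologicalSpace G] [RDom n G] [T2Space G] [MeasurableSpace G] [BorelSpace G]

/-- weak inequality for tests supported in `W` -/
def GW (μ : Measure G) (f : G → ℝ) (W : Set G) : Prop :=
  ∀ χ : G → ℝ, Sm χ → HasCompactSupport χ → tsupport χ ⊆ W → (∀ y, 0 ≤ χ y) →
    ∀ v : Fin n → ℂ, 0 ≤ ∫ y, f y * lev χ y v ∂μ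

/-- locally weakly psh functions -/
def WPsh (μ : Measure G) (f : G → ℝ) : Prop := ∀ x : G, ∃ W ∈ 𝓝 x, GW μ f W

lemma GW.mono {μ : Measure G} {f : G → ℝ} {W W' : Set G} (h : GW μ f W) (hW : W' ⊆ W) :
    GW μ f W' := fun χ h1 h2 h3 h4 v => h χ h1 h2 (h3.trans hW) h4 v

/-! ### null sets -/

lemma ae_chart_of_flat {μ : Measure G} (hμ : IsLeb μ) {e : OpenPartialHomeomorph G (Fin n → ℂ)}
    (he : IsCh e) {p : (Fin n → ℂ) → Prop} (h : ∀ᵐ z, p z) :
    ∀ᵐ y ∂μ, y ∈ e.source → p (cp y) := by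
  obtain ⟨N, hN1, hN2, hN3⟩ := exists_measurable_superset_of_null (show volume {z | ¬ p z} = 0 from h)
  have hm : MeasurableSet (cp ⁻¹' N : Set G) := hN2.preimage cp_cont.measurable
  have h1 : μ (e.source ∩ cp ⁻¹' N) = 0 := by
    have h2 : μ.restrict e.source (cp ⁻¹' N) = 0 := by
      rw [hμ e he]
      change chm e (cp ⁻¹' N) = 0
      rw [chm_apply e hm]
      refine measure_mono_null ?_ hN3
      rintro z ⟨hz1, hz2⟩
      rwa [mem_preimage, mem_preimage, he.cp_symm hz1] at hz2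
    rwa [Measure.restrict_apply hm, inter_comm] at h2
  rw [ae_iff]
  refine measure_mono_null ?_ h1
  intro y hy
  rw [mem_ofPred_eq, Classical.not_imp] at hy
  exact ⟨hy.1, hN1 hy.2⟩

lemma ae_flat_of_chart {μ : Measure G} (hμ : IsLeb μ) {e : OpenPartialHomeomorph G (Fin n → ℂ)}
    (he : IsCh e) {p : G → Prop} (h : ∀ᵐ y ∂μ, p y) :
    ∀ᵐ z, z ∈ e.target → p (e.symm z) := by
  obtain ⟨N, hN1, hN2, hN3⟩ := exists_measurable_superset_of_null (show μ {z | ¬ p z} = 0 from h)
  have h1 : volume (e.target ∩ e.symm ⁻¹' N) = 0 := by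
    rw [← chm_apply e hN2]
    change ((volume.restrict e.target).map e.symm) N = 0
    rw [← hμ e he]
    exact le_antisymm ((Measure.restrict_apply_le _ _).trans hN3.le) (zero_le)
  rw [ae_iff]
  refine measure_mono_null ?_ h1
  intro y hy
  rw [mem_ofPred_eq, Classical.not_imp] at hy
  exact ⟨hy.1, hN1 hy.2⟩

/-! ### local representatives -/

lemma measurable_ind_of_measurable {f : G → ℝ} (hf : Measurable f)
    (e : OpenPartialHomeomorph G (Fin n → ℂ)) {B : Set (Fin n → ℂ)} (hB : IsOpen B)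
    (hBe : B ⊆ e.target) : Measurable (B.indicator (f ∘ e.symm)) := by
  refine measurable_of_restrict_of_restrict_compl hB.measurableSet ?_ ?_
  · have h1 : B.domRestrict (B.indicator (f ∘ e.symm)) = f ∘ (B.domRestrict e.symm) := by
      funext z
      show B.indicator (f ∘ e.symm) z.1 = f (e.symm z.1)
      rw [indicator_of_mem z.2]
      rfl
    rw [h1]
    exact hf.comp (continuousOn_iff_continuous_domRestrict.1
      (e.symm.continuousOn.mono hBe)).measurable
  · have h1 : Bᶜ.domRestrict (B.indicator (f ∘ e.symm)) = fun _ => 0 := by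
      funext z
      show B.indicator (f ∘ e.symm) z.1 = 0
      rw [indicator_of_notMem z.2]
    rw [h1]
    exact measurable_const

lemma integrable_ind {μ : Measure G} (hμ : IsLeb μ) {f : G → ℝ} (hfm : Measurable f)
    (hf : LocallyIntegrable f μ) {e : OpenPartialHomeomorph G (Fin n → ℂ)} (he : IsCh e)
    {z : Fin n → ℂ} {s : ℝ} (hs : closedBall z s ⊆ e.target) :
    Integrable ((ball z s).indicator (f ∘ e.symm)) := by
  have hbs : ball z s ⊆ e.target := ball_subset_closedBall.trans hs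
  -- the corresponding subset of `G`
  set S : Set G := e.source ∩ cp ⁻¹' ball z s with hS
  have hSo : IsOpen S := e.open_source.inter (isOpen_ball.preimage cp_cont)
  have hSK : S ⊆ e.symm '' closedBall z s := by
    rintro y ⟨hy1, hy2⟩
    exact ⟨cp y, ball_subset_closedBall hy2, he.symm_cp hy1⟩
  have hK : IsCompact (e.symm '' closedBall z s) :=
    (isCompact_closedBall z s).image_of_continuousOn (e.symm.continuousOn.mono hs)
  have h1 : IntegrableOn f S μ := (hf.integrableOn_isCompact hK).mono_set hSK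
  have h2 : Integrable (S.indicator f) μ := (integrable_indicator_iff hSo.measurableSet).2 h1
  have h3 : Integrable (S.indicator f) (μ.restrict e.source) := h2.restrict
  rw [hμ e he, integrable_map_measure ((hfm.indicator hSo.measurableSet).aestronglyMeasurable)
    (aem_symm e)] at h3
  have h4 : IntegrableOn ((ball z s).indicator (f ∘ e.symm)) e.target := by
    refine (integrable_congr ?_).1 h3
    filter_upwards [ae_restrict_mem e.open_target.measurableSet] with y hy
    simp only [Function.comp_apply]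
    by_cases hyb : y ∈ ball z s
    · have h5 : e.symm y ∈ S := ⟨e.map_target hy, by rwa [mem_preimage, he.cp_symm hy]⟩
      rw [indicator_of_mem hyb, indicator_of_mem h5]
      rfl
    · have h5 : e.symm y ∉ S := fun h => hyb (by
        have := h.2
        rwa [mem_preimage, he.cp_symm hy] at this)
      rw [indicator_of_notMem hyb, indicator_of_notMem h5]
  refine (integrableOn_iff_integrable_of_support_subset ?_).1 h4
  exact (support_indicator_subset).trans hbs

lemma lev_pull {e : OpenPartialHomeomorph G (Fin n → ℂ)} (he : IsCh e)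
    {χ : (Fin n → ℂ) → ℝ} (hχ : ContDiff ℝ (⊤ : ℕ∞) χ) {z : Fin n → ℂ} (hz : z ∈ e.target)
    (w : Fin n → ℂ) : lev (pull e χ) (e.symm z) w = lev0 χ z w := by
  have hx : e.symm z ∈ e.source := e.map_target hz
  have h1 : (pull e χ ∘ e.symm) =ᶠ[𝓝 z] χ := by
    filter_upwards [e.open_target.mem_nhds hz] with y hy
    simp only [Function.comp_apply]
    rw [pull_of_mem e χ (e.map_target hy), he.cp_symm hy]
  have h2 : ContDiffAt ℝ 2 χ z := (hχ.of_le (by norm_cast)).contDiffAt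
  rw [lev_eq_chart he hx (by rw [he.cp_symm hz]; exact h2.congr_of_eventuallyEq h1),
    he.cp_symm hz, h1.fderiv.fderiv_eq, lev0_eq_snd h2]

lemma FW_of_GW {μ : Measure G} (hμ : IsLeb μ) {f : G → ℝ} (hfm : Measurable f)
    {e : OpenPartialHomeomorph G (Fin n → ℂ)} (he : IsCh e) {F : (Fin n → ℂ) → ℝ}
    {B : Set (Fin n → ℂ)} (hB : B ⊆ e.target) (hFe : EqOn F (f ∘ e.symm) B)
    (h : GW μ f (e.symm '' B)) : FW F B := by
  intro χ hχ hc hsupp hnn w
  have hts : tsupport χ ⊆ e.target := hsupp.trans hB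
  have h1 := h (pull e χ) (pull_sm he hχ hts hc) (pull_hasCompactSupport he hts hc)
    ((pull_tsupport he hts hc).trans (image_mono hsupp)) (fun y => by
      by_cases hy : y ∈ e.source
      · rw [pull_of_mem e χ hy]; exact hnn _
      · simp [pull, indicator_of_notMem hy]) w
  have hsm := pull_sm he hχ hts hc
  have h0 : ∀ y, y ∉ e.source → f y * lev (pull e χ) y w = 0 := by
    intro y hy
    have hy' : y ∉ e.symm '' (tsupport χ) := by
      rintro ⟨z, hz, rfl⟩
      exact hy (e.map_target (hts hz))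
    have h2 : pull e χ =ᶠ[𝓝 y] fun _ => 0 := pull_eventually_zero he hts hc hy'
    have h3 : lev (pull e χ) y w = 0 := by
      have h4 : ∀ v : Fin n → ℂ, (fun y => D (pull e χ) y v) =ᶠ[𝓝 y] fun _ => 0 := by
        intro v
        filter_upwards [h2.eventuallyEq_nhds] with t ht
        rw [D_congr ht, D_const]
        rfl
      unfold Crest.Agent.R271.W792.lev
      rw [D_congr (h4 w), D_congr (h4 (Complex.I • w)), D_const]
      simp
    rw [h3, mul_zero]
  rw [← setIntegral_eq_integral_of_forall_compl_eq_zero (s := e.source) (fun y hy => h0 y hy)]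
    at h1
  have hlc : Continuous fun y => lev (pull e χ) y w := by
    unfold Crest.Agent.R271.W792.lev
    exact ((Sm.const _).mulR (((hsm.D.apply w).D.apply w).add
      ((hsm.D.apply (Complex.I • w)).D.apply (Complex.I • w)))).continuous
  have hmm : Measurable fun y => f y * lev (pull e χ) y w := hfm.mul hlc.measurable
  rw [integral_chart hμ he hmm.aestronglyMeasurable] at h1
  have h5 : ∫ z in e.target, f (e.symm z) * lev (pull e χ) (e.symm z) w =
      ∫ z in e.target, F z * lev0 χ z w := by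
    refine setIntegral_congr_fun e.open_target.measurableSet fun z hz => ?_
    show f (e.symm z) * lev (pull e χ) (e.symm z) w = F z * lev0 χ z w
    rw [lev_pull he hχ hz]
    by_cases hzB : z ∈ B
    · rw [hFe hzB]; rfl
    · have h6 : lev0 χ z w = 0 := by
        have h7 : χ =ᶠ[𝓝 z] fun _ => 0 :=
          notMem_tsupport_iff_eventuallyEq.1 fun h => hzB (hsupp h)
        have h8 : ∀ v : Fin n → ℂ, (fun y => fderiv ℝ χ y v) =ᶠ[𝓝 z] fun _ => 0 := by
          intro v
          filter_upwards [h7.eventuallyEq_nhds] with t ht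
          rw [ht.fderiv_eq]
          simp
        unfold Crest.Agent.R271.Ball399.lev0
        rw [(h8 w).fderiv_eq, (h8 (Complex.I • w)).fderiv_eq]
        simp
      rw [h6, mul_zero, mul_zero]
  rw [h5] at h1
  rwa [setIntegral_eq_integral_of_forall_compl_eq_zero] at h1
  intro z hz
  have h6 : lev0 χ z w = 0 := by
    have h7 : χ =ᶠ[𝓝 z] fun _ => 0 :=
      notMem_tsupport_iff_eventuallyEq.1 fun h => hz (hts h)
    have h8 : ∀ v : Fin n → ℂ, (fun y => fderiv ℝ χ y v) =ᶠ[𝓝 z] fun _ => 0 := by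
      intro v
      filter_upwards [h7.eventuallyEq_nhds] with t ht
      rw [ht.fderiv_eq]
      simp
    unfold Crest.Agent.R271.Ball399.lev0
    rw [(h8 w).fderiv_eq, (h8 (Complex.I • w)).fderiv_eq]
    simp
  rw [h6, mul_zero]

/-- admissible points -/
def AdmW (μ : Measure G) (f : G → ℝ) (r : ℝ) (x : G) : Prop :=
  ∃ e : OpenPartialHomeomorph G (Fin n → ℂ), IsCh e ∧ x ∈ e.source ∧
    ball (cp x) r ⊆ e.target ∧ GW μ f (e.symm '' ball (cp x) r)

lemma AdmW.mono {μ : Measure G} {f : G → ℝ} {r s : ℝ} {x : G} (h : AdmW μ f r x) (hs : s ≤ r) :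
    AdmW μ f s x := by
  obtain ⟨e, he, hx, hb, hW⟩ := h
  exact ⟨e, he, hx, (ball_subset_ball hs).trans hb, hW.mono (image_mono (ball_subset_ball hs))⟩

lemma exists_admW {μ : Measure G} {f : G → ℝ} (h : WPsh μ f) {C : Set G} (hC : IsCompact C) :
    ∃ r : ℝ, 0 < r ∧ ∀ x ∈ C, AdmW μ f r x := by
  refine hC.induction_on (p := fun s => ∃ r : ℝ, 0 < r ∧ ∀ x ∈ s, AdmW μ f r x) ?_ ?_ ?_ ?_
  · exact ⟨1, one_pos, by simp⟩
  · rintro s t hst ⟨r, hr, h⟩
    exact ⟨r, hr, fun x hx => h x (hst hx)⟩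
  · rintro s t ⟨r, hr, h⟩ ⟨r', hr', h'⟩
    refine ⟨min r r', lt_min hr hr', fun x hx => ?_⟩
    rcases hx with hx | hx
    · exact (h x hx).mono (min_le_left _ _)
    · exact (h' x hx).mono (min_le_right _ _)
  · intro x _
    obtain ⟨W, hW, hGW⟩ := h x
    have hT : (ch x).target ∩ (ch x).symm ⁻¹' W ∈ 𝓝 (cp x) := by
      have h0 : cp x ∈ (ch x).target := (isCh_ch x).cp_mem (mem_ch x)
      refine Filter.inter_mem ((ch x).open_target.mem_nhds h0) ?_
      have h1 : ContinuousAt (ch x).symm (cp x) := (ch x).symm.continuousAt (by simpa using h0)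
      apply h1.preimage_mem_nhds
      rw [symm_cp]
      exact hW
    obtain ⟨r, hr, hb⟩ := Metric.mem_nhds_iff.1 hT
    refine ⟨(ch x).source ∩ cp ⁻¹' ball (cp x) (r / 2), ?_, r / 2, by positivity, ?_⟩
    · apply mem_nhdsWithin_of_mem_nhds
      exact Filter.inter_mem ((ch x).open_source.mem_nhds (mem_ch x))
        (cp_cont.continuousAt.preimage_mem_nhds (ball_mem_nhds _ (by positivity)))
    · rintro y ⟨hy1, hy2⟩
      rw [mem_preimage, mem_ball] at hy2
      have hsub : ball (cp y) (r / 2) ⊆ ball (cp x) r := by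
        apply ball_subset_ball'
        linarith
      refine ⟨ch x, isCh_ch x, hy1, fun z hz => (hb (hsub hz)).1, hGW.mono ?_⟩
      rintro _ ⟨z, hz, rfl⟩
      exact (hb (hsub hz)).2

/-- local description -/
lemma AdmW.reg_loc {μ : Measure G} (hμ : IsLeb μ) {f : G → ℝ} (hfm : Measurable f)
    (hf : LocallyIntegrable f μ) (hκ : Ker volume κ) {ε r : ℝ} (hε : 0 < ε) (hr : ε < r) {x : G}
    (hx : AdmW μ f r x) : ∃ (e : OpenPartialHomeomorph G (Fin n → ℂ)) (F : (Fin n → ℂ) → ℝ)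
      (δ : ℝ), IsCh e ∧ x ∈ e.source ∧ 0 < δ ∧ ball (cp x) (ε + δ) ⊆ e.target ∧ Measurable F ∧
      Integrable F ∧ EqOn F (f ∘ e.symm) (ball (cp x) (ε + δ)) ∧ FW F (ball (cp x) (ε + δ)) ∧
      EqOn (reg κ ε f ∘ e.symm) (regF volume κ ε F) (ball (cp x) δ) := by
  obtain ⟨e, he, hxe, hb, hW⟩ := hx
  set δ : ℝ := (r - ε) / 2 with hδ
  have hδ0 : 0 < δ := by rw [hδ]; linarith
  have hlt : ε + δ < r := by rw [hδ]; linarith
  have hsub : ball (cp x) (ε + δ) ⊆ e.target := (ball_subset_ball hlt.le).trans hb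
  have hcl : closedBall (cp x) (ε + δ) ⊆ e.target := (closedBall_subset_ball hlt).trans hb
  have heq : EqOn ((ball (cp x) (ε + δ)).indicator (f ∘ e.symm)) (f ∘ e.symm)
      (ball (cp x) (ε + δ)) := fun y hy => indicator_of_mem hy _
  refine ⟨e, (ball (cp x) (ε + δ)).indicator (f ∘ e.symm), δ, he, hxe, hδ0, hsub,
    measurable_ind_of_measurable hfm e isOpen_ball hsub, integrable_ind hμ hfm hf he hcl, heq,
    FW_of_GW hμ hfm he hsub heq (hW.mono (image_mono (ball_subset_ball hlt.le))), ?_⟩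
  intro z hz
  have h1 : ball z ε ⊆ ball (cp x) (ε + δ) := by
    intro y hy
    rw [mem_ball] at *
    calc dist y (cp x) ≤ dist y z + dist z (cp x) := dist_triangle _ _ _
      _ < _ := by linarith
  simp only [Function.comp_apply]
  rw [reg_symm hκ hε f he (h1.trans hsub)]
  apply regF_congr volume hκ hε
  intro y hy
  exact (heq (h1 hy)).symm

section

variable {μ : Measure G} (hμ : IsLeb μ) {f : G → ℝ} (hfm : Measurable f)
  (hf : LocallyIntegrable f μ) (hκ : Ker volume κ) (hs : ContDiff ℝ ∞ κ)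

include hμ hfm hf hκ hs

lemma AdmW.contDiffAt_reg {ε r : ℝ} (hε : 0 < ε) (hr : ε < r) {x : G} (hx : AdmW μ f r x) :
    ContDiffAt ℝ (⊤ : ℕ∞) (reg κ ε f ∘ (ch x).symm) (cp x) := by
  obtain ⟨e, F, δ, he, hxe, hδ, hsub, hFm, hF, hFe, hFW, hreg⟩ := hx.reg_loc hμ hfm hf hκ hε hr
  have h1 := (contDiff_regF_int hκ hs hF hε).contDiffAt (x := cp x)
  exact h1.congr_of_eventuallyEq ((comp_germ (isCh_ch x) he (mem_ch x) hxe _).trans
      (hreg.eventuallyEq_of_mem (ball_mem_nhds _ hδ)))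

lemma AdmW.continuousAt_reg {ε r : ℝ} (hε : 0 < ε) (hr : ε < r) {x : G} (hx : AdmW μ f r x) :
    ContinuousAt (reg κ ε f) x := by
  have h1 := (hx.contDiffAt_reg hμ hfm hf hκ hs hε hr).continuousAt
  have h2 : ContinuousAt (fun y => (reg κ ε f ∘ (ch x).symm) (cp y)) x :=
    ContinuousAt.comp (g := reg κ ε f ∘ (ch x).symm) h1 cp_cont.continuousAt
  exact h2.congr (eventually_eq_comp (isCh_ch x) (mem_ch x) _).symm

lemma AdmW.lev_reg_nonneg {ε r : ℝ} (hε : 0 < ε) (hr : ε < r) {x : G} (hx : AdmW μ f r x)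
    (w : Fin n → ℂ) : 0 ≤ lev (reg κ ε f) x w := by
  obtain ⟨e, F, δ, he, hxe, hδ, hsub, hFm, hF, hFe, hFW, hreg⟩ := hx.reg_loc hμ hfm hf hκ hε hr
  have h1 := (contDiff_regF_int hκ hs hF hε).contDiffAt (x := cp x)
  have h2 : (reg κ ε f ∘ e.symm) =ᶠ[𝓝 (cp x)] regF volume κ ε F :=
    hreg.eventuallyEq_of_mem (ball_mem_nhds _ hδ)
  have h3 : ContDiffAt ℝ 2 (regF volume κ ε F) (cp x) := h1.of_le (by norm_cast)
  rw [lev_eq_chart he hxe (h3.congr_of_eventuallyEq h2), h2.fderiv.fderiv_eq, ← lev0_eq_snd h3]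
  refine lev0_regF_nonneg hκ hs hFm hF hFW (isOpen_ball (x := cp x) (ε := δ)) hε
    (fun z hz => ?_) (mem_ball_self hδ) w
  apply ball_subset_ball'
  rw [mem_ball] at hz
  linarith

/-- `f ≤ f_ε` a.e. near an admissible point -/
lemma AdmW.ae_le_reg {ε r : ℝ} (hε : 0 < ε) (hr : ε < r) {x : G} (hx : AdmW μ f r x) :
    ∃ W ∈ 𝓝 x, ∀ᵐ y ∂μ, y ∈ W → f y ≤ reg κ ε f y := by
  obtain ⟨e, F, δ, he, hxe, hδ, hsub, hFm, hF, hFe, hFW, hreg⟩ := hx.reg_loc hμ hfm hf hκ hε hr
  have h1 := ae_chart_of_flat hμ he (ae_le_regF hκ hs hFm hF isOpen_ball hFW hε)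
  refine ⟨e.source ∩ cp ⁻¹' ball (cp x) (δ / 2), Filter.inter_mem (e.open_source.mem_nhds hxe)
    (cp_cont.continuousAt.preimage_mem_nhds (ball_mem_nhds _ (by positivity))), ?_⟩
  filter_upwards [h1] with y hy hyW
  have hyb : dist (cp y) (cp x) < δ / 2 := hyW.2
  have h2 : closedBall (cp y) ε ⊆ ball (cp x) (ε + δ) := by
    intro z hz
    rw [mem_closedBall] at hz
    rw [mem_ball]
    calc dist z (cp x) ≤ dist z (cp y) + dist (cp y) (cp x) := dist_triangle _ _ _
      _ < ε + δ := by linarith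
  have h3 := hy hyW.1 h2
  have h4 : cp y ∈ ball (cp x) δ := by rw [mem_ball]; linarith
  have h5 : cp y ∈ ball (cp x) (ε + δ) := by rw [mem_ball]; linarith
  have h6 := hreg h4
  have h7 := hFe h5
  simp only [Function.comp_apply, he.symm_cp hyW.1] at h6 h7
  rwa [h7, ← h6] at h3

/-- `f_ε → f` a.e. near an admissible point -/
lemma AdmW.ae_tendsto_reg {r : ℝ} (hr : 0 < r) {x : G} (hx : AdmW μ f r x) :
    ∃ W ∈ 𝓝 x, ∀ᵐ y ∂μ, y ∈ W → Tendsto (fun ε : ℝ => reg κ ε f y) (𝓝[>] 0) (𝓝 (f y)) := by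
  obtain ⟨e, F, δ, he, hxe, hδ, hsub, hFm, hF, hFe, hFW, hreg⟩ :=
    hx.reg_loc hμ hfm hf hκ (ε := r / 2) (by positivity) (by linarith)
  have h1 := ae_chart_of_flat hμ he (ae_tendsto_regF hκ hF)
  refine ⟨e.source ∩ cp ⁻¹' ball (cp x) δ, Filter.inter_mem (e.open_source.mem_nhds hxe)
    (cp_cont.continuousAt.preimage_mem_nhds (ball_mem_nhds _ (by positivity))), ?_⟩
  filter_upwards [h1] with y hy hyW
  have hyb : dist (cp y) (cp x) < δ := hyW.2
  have h5 : cp y ∈ ball (cp x) (r / 2 + δ) := by rw [mem_ball]; linarith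
  have h7 := hFe h5
  simp only [Function.comp_apply, he.symm_cp hyW.1] at h7
  have h2 := hy hyW.1
  rw [h7] at h2
  refine h2.congr' ?_
  have h8 : ∀ᶠ ε : ℝ in 𝓝[>] 0, ε < r / 2 := nhdsWithin_le_nhds (gt_mem_nhds (by positivity))
  filter_upwards [h8, self_mem_nhdsWithin] with ε hε hε0
  have hε0 : 0 < ε := hε0
  have h9 : ball (cp y) ε ⊆ ball (cp x) (r / 2 + δ) := by
    apply ball_subset_ball'
    linarith
  rw [reg_eq hκ hε0 f he hyW.1 (h9.trans hsub)]
  apply regF_congr volume hκ hε0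
  intro z hz
  exact hFe (h9 hz)

/-- Hartogs type bound -/
lemma reg_lt_weak (hw : WPsh μ f) {C : Set G} (hC : IsCompact C) {g : G → ℝ}
    (hg : ∀ x ∈ C, ContinuousAt g x)
    (hlt : ∀ x ∈ C, ∃ c, c < g x ∧ ∃ W ∈ 𝓝 x, ∀ᵐ y ∂μ, y ∈ W → f y ≤ c) :
    ∃ ε₀ : ℝ, 0 < ε₀ ∧ ∀ ε, 0 < ε → ε ≤ ε₀ → ∀ x ∈ C, reg κ ε f x < g x := by
  refine hC.induction_on (p := fun S => ∃ ε₀ : ℝ, 0 < ε₀ ∧ ∀ ε, 0 < ε → ε ≤ ε₀ → ∀ x ∈ S,
      reg κ ε f x < g x) ?_ ?_ ?_ ?_
  · exact ⟨1, one_pos, by simp⟩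
  · rintro s t hst ⟨r, hr, h⟩
    exact ⟨r, hr, fun ε h1 h2 x hx => h ε h1 h2 x (hst hx)⟩
  · rintro s t ⟨r, hr, h⟩ ⟨r', hr', h'⟩
    refine ⟨min r r', lt_min hr hr', fun ε h1 h2 x hx => ?_⟩
    rcases hx with hx | hx
    · exact h ε h1 (h2.trans (min_le_left _ _)) x hx
    · exact h' ε h1 (h2.trans (min_le_right _ _)) x hx
  · intro x hx
    obtain ⟨c, hc, W, hW, hae⟩ := hlt x hx
    obtain ⟨r₀, hr₀, hadm⟩ := exists_admW hw (isCompact_singleton (x := x))
    obtain ⟨e, he, hxe, hb, hGW⟩ := hadm x rfl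
    have hT : e.symm ⁻¹' W ∈ 𝓝 (cp x) := by
      have h0 : cp x ∈ e.target := he.cp_mem hxe
      have h1 : ContinuousAt e.symm (cp x) := e.symm.continuousAt (by simpa using h0)
      apply h1.preimage_mem_nhds
      rw [he.symm_cp hxe]
      exact hW
    have hT2 : ∀ᶠ z in 𝓝 (cp x), c < g (e.symm z) := by
      have h0 : cp x ∈ e.target := he.cp_mem hxe
      have h1 : ContinuousAt e.symm (cp x) := e.symm.continuousAt (by simpa using h0)
      have h3 : Tendsto e.symm (𝓝 (cp x)) (𝓝 x) := by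
        have := h1
        rwa [ContinuousAt, he.symm_cp hxe] at this
      exact h3.eventually ((hg x hx).eventually (lt_mem_nhds hc))
    obtain ⟨r₂, hr₂, hb₂⟩ := Metric.eventually_nhds_iff_ball.1
      ((hT |> fun h => (h : ∀ᶠ z in 𝓝 (cp x), e.symm z ∈ W)).and hT2)
    set r := min r₀ r₂ with hr
    have hr0 : 0 < r := lt_min hr₀ hr₂
    have hrt : ball (cp x) r ⊆ e.target := (ball_subset_ball (min_le_left _ _)).trans hb
    refine ⟨e.source ∩ cp ⁻¹' ball (cp x) (r / 3), ?_, r / 3, by positivity, ?_⟩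
    · apply mem_nhdsWithin_of_mem_nhds
      exact Filter.inter_mem (e.open_source.mem_nhds hxe)
        (cp_cont.continuousAt.preimage_mem_nhds (ball_mem_nhds _ (by positivity)))
    · rintro ε hε hεr y ⟨hy1, hy2⟩
      rw [mem_preimage, mem_ball] at hy2
      have hsub : ball (cp y) (2 * (r / 3)) ⊆ ball (cp x) r := by
        apply ball_subset_ball'
        linarith
      have hadmy : AdmW μ f (2 * (r / 3)) y :=
        ⟨e, he, hy1, hsub.trans hrt, hGW.mono (image_mono (hsub.trans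
          (ball_subset_ball (min_le_left _ _))))⟩
      obtain ⟨e', F, δ, he', hye, hδ, hse, hFm, hF, hFe, hFW, hreg⟩ :=
        hadmy.reg_loc hμ hfm hf hκ hε (r := 2 * (r / 3)) (by linarith)
      have h3 := hreg (mem_ball_self hδ)
      simp only [Function.comp_apply, he'.symm_cp hye] at h3
      rw [h3]
      have h6 : ball (cp y) ε ⊆ ball (cp y) (ε + δ) := ball_subset_ball (by linarith)
      have h7 : ball (cp y) ε ⊆ ball (cp x) r := (ball_subset_ball (by linarith)).trans hsub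
      have h5 := symm_eqOn he' he (convex_ball (cp y) ε).isPreconnected (h6.trans hse)
        (h7.trans hrt) (mem_ball_self hε) (by rw [he'.symm_cp hye, he.symm_cp hy1])
      have h4 : regF volume κ ε F (cp y) ≤ c := by
        refine regF_le_ae hκ hF hε ?_
        filter_upwards [ae_flat_of_chart hμ he' hae] with z hz hzb
        rw [hFe (h6 hzb)]
        refine hz (hse (h6 hzb)) ?_
        rw [h5 hzb]
        exact (hb₂ z (ball_subset_ball (min_le_right _ _) (h7 hzb))).1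
      have h8 : c < g y := by
        have := (hb₂ (cp y) (ball_subset_ball (min_le_right _ _) (h7 (mem_ball_self hε)))).2
        rwa [he.symm_cp hy1] at this
      linarith

end

lemma ae_of_locally [SecondCountableTopology G] {μ : Measure G} {U : Set G} {p : G → Prop}
    (h : ∀ x ∈ U, ∃ W ∈ 𝓝 x, ∀ᵐ y ∂μ, y ∈ W → p y) : ∀ᵐ y ∂μ, y ∈ U → p y := by
  have h1 : μ {y | y ∈ U ∧ ¬ p y} = 0 := by
    apply measure_null_of_locally_null
    rintro x ⟨hxU, -⟩
    obtain ⟨W, hW, hae⟩ := h x hxU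
    refine ⟨{y | y ∈ U ∧ ¬ p y} ∩ W, inter_mem_nhdsWithin _ hW, ?_⟩
    rw [ae_iff] at hae
    refine measure_mono_null ?_ hae
    rintro y ⟨⟨-, hy2⟩, hy3⟩
    rw [mem_ofPred_eq, Classical.not_imp]
    exact ⟨hy3, hy2⟩
  rw [ae_iff]
  refine measure_mono_null ?_ h1
  intro y hy
  rw [mem_ofPred_eq, Classical.not_imp] at hy
  exact hy

/-- **Regularisation of weakly psh functions.** -/
theorem exists_reg_weak [SecondCountableTopology G] {μ : Measure G} (hμ : IsLeb μ) {f : G → ℝ}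
    (hfm : Measurable f) (hf : LocallyIntegrable f μ) (hw : WPsh μ f) {C : Set G}
    (hC : IsCompact C) :
    ∃ (U : Set G) (φ : ℕ → G → ℝ), IsOpen U ∧ C ⊆ U ∧
      (∀ k, ∀ x ∈ U, ContDiffAt ℝ (⊤ : ℕ∞) (φ k ∘ (ch x).symm) (cp x)) ∧
      (∀ k, ∀ x ∈ U, ∀ w, 0 ≤ lev (φ k) x w) ∧
      (∀ x ∈ U, Antitone fun k => φ k x) ∧
      (∀ᵐ x ∂μ, x ∈ U → (∀ k, f x ≤ φ k x) ∧ Tendsto (fun k => φ k x) atTop (𝓝 (f x))) := by
  have := locallyCompact_rdom n G
  obtain ⟨C', hC', hCC'⟩ := exists_compact_superset hC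
  obtain ⟨r, hr, hadm⟩ := exists_admW hw hC'
  obtain ⟨κ, hκ, hs⟩ := exists_ker_pi n
  have step : ∀ (k : ℕ) (ε : {ε : ℝ // 0 < ε ∧ ε < r}), ∃ ε' : {ε : ℝ // 0 < ε ∧ ε < r},
      (ε' : ℝ) ≤ ε / 2 ∧ ∀ x ∈ C', reg κ ε'.1 f x < reg κ ε.1 f x + (1 / 2 : ℝ) ^ k := by
    rintro k ⟨ε, hε, hεr⟩
    obtain ⟨ε₀, hε₀, h0⟩ := reg_lt_weak hμ hfm hf hκ hs hw hC'
      (g := fun x => reg κ ε f x + (1 / 2 : ℝ) ^ k)
      (fun x hx => ((hadm x hx).continuousAt_reg hμ hfm hf hκ hs hε hεr).add continuousAt_const)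
      (fun x hx => by
        have h2 : (0 : ℝ) < (1 / 2 : ℝ) ^ k := by positivity
        refine ⟨reg κ ε f x + (1 / 2 : ℝ) ^ k / 2, by linarith, ?_⟩
        obtain ⟨W, hW, hae⟩ := (hadm x hx).ae_le_reg hμ hfm hf hκ hs hε hεr
        have hcont := (hadm x hx).continuousAt_reg hμ hfm hf hκ hs hε hεr
        have h3 : ∀ᶠ y in 𝓝 x, reg κ ε f y < reg κ ε f x + (1 / 2 : ℝ) ^ k / 2 :=
          hcont.eventually (gt_mem_nhds (by linarith))
        refine ⟨W ∩ {y | reg κ ε f y < reg κ ε f x + (1 / 2 : ℝ) ^ k / 2},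
          Filter.inter_mem hW h3, ?_⟩
        filter_upwards [hae] with y hy hyW
        exact (hy hyW.1).trans (le_of_lt hyW.2))
    refine ⟨⟨min ε₀ (ε / 2), lt_min hε₀ (by positivity),
      (min_le_right _ _).trans_lt (by linarith)⟩, min_le_right _ _, fun x hx => ?_⟩
    exact h0 _ (lt_min hε₀ (by positivity)) (min_le_left _ _) x hx
  choose nxt hnxt1 hnxt2 using step
  let e : ℕ → {ε : ℝ // 0 < ε ∧ ε < r} := fun k =>
    Nat.rec ⟨r / 2, by positivity, by linarith⟩ (fun k ε => nxt k ε) k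
  have he : ∀ k, e (k + 1) = nxt k (e k) := fun k => rfl
  have hsmall : ∀ k : ℕ, (e k).1 ≤ r * (1 / 2 : ℝ) ^ k := by
    intro k
    induction k with
    | zero => rw [pow_zero, mul_one]; exact (e 0).2.2.le
    | succ k ih =>
      rw [he, pow_succ]
      have := hnxt1 k (e k)
      linarith
  have htend : Tendsto (fun k : ℕ => ((e k).1 : ℝ)) atTop (𝓝 0) := by
    have h1 : Tendsto (fun k : ℕ => r * (1 / 2 : ℝ) ^ k) atTop (𝓝 (r * 0)) :=
      (tendsto_pow_atTop_nhds_zero_of_lt_one (by norm_num) (by norm_num)).const_mul r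
    rw [mul_zero] at h1
    exact squeeze_zero (fun k => (e k).2.1.le) hsmall h1
  have htend' : Tendsto (fun k : ℕ => ((e k).1 : ℝ)) atTop (𝓝[>] 0) :=
    tendsto_nhdsWithin_iff.2 ⟨htend, Eventually.of_forall fun k => (e k).2.1⟩
  have hae1 : ∀ k : ℕ, ∀ᵐ y ∂μ, y ∈ interior C' → f y ≤ reg κ (e k).1 f y := fun k =>
    ae_of_locally fun x hx =>
      (hadm x (interior_subset hx)).ae_le_reg hμ hfm hf hκ hs (e k).2.1 (e k).2.2
  have hae2 : ∀ᵐ y ∂μ, y ∈ interior C' →
      Tendsto (fun ε : ℝ => reg κ ε f y) (𝓝[>] 0) (𝓝 (f y)) :=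
    ae_of_locally fun x hx => (hadm x (interior_subset hx)).ae_tendsto_reg hμ hfm hf hκ hs hr
  refine ⟨interior C', fun k x => reg κ (e k).1 f x + 2 * (1 / 2 : ℝ) ^ k, isOpen_interior, hCC',
    ?_, ?_, ?_, ?_⟩
  · intro k x hx
    exact ((hadm x (interior_subset hx)).contDiffAt_reg hμ hfm hf hκ hs (e k).2.1
      (e k).2.2).add contDiffAt_const
  · intro k x hx w
    rw [lev_add_const]
    exact (hadm x (interior_subset hx)).lev_reg_nonneg hμ hfm hf hκ hs (e k).2.1 (e k).2.2 w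
  · intro x hx
    refine antitone_nat_of_succ_le fun k => ?_
    have h1 := hnxt2 k (e k) x (interior_subset hx)
    rw [← he] at h1
    simp only [pow_succ]
    linarith
  · filter_upwards [ae_all_iff.2 hae1, hae2] with y h1 h2 hy
    refine ⟨fun k => ?_, ?_⟩
    · have h3 := h1 k hy
      have h4 : (0 : ℝ) < (1 / 2 : ℝ) ^ k := by positivity
      linarith
    · have h3 : Tendsto (fun k : ℕ => reg κ (e k).1 f y) atTop (𝓝 (f y)) :=
        (h2 hy).comp htend'
      have h4 : Tendsto (fun k : ℕ => 2 * (1 / 2 : ℝ) ^ k) atTop (𝓝 (2 * 0)) :=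
        (tendsto_pow_atTop_nhds_zero_of_lt_one (by norm_num) (by norm_num)).const_mul 2
      simpa using h3.add h4

end Crest.Agent.R273.Reg_844
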