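import Crest.Agent.R273.SolvC_93
import Crest.Agent.R273.RegC_844
import Crest.Agent.R273.T4C_844

/-!
# R273: `LReg` from 844's regularisation theorems (helper93)
-/

set_option autoImplicit false
set_option linter.unusedSectionVars false

noncomputable section

open Set Filter Topology MeasureTheory

namespace Crest.Agent.R273.SolvD_93

open Crest.Agent.R271.Ho51 Crest.Agent.R273.SolvC_93 Crest.Agent.R273.Reg_844
open Crest.Agent.R271.W792 (lev Levi_eq_lev lev_const_mul)

variable {n : ℕ} {M : Type*} [TopologicalSpace M] [T2Space M]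
  [RDom n M] [MeasurableSpace M] [BorelSpace M] {μ : Measure M}

/-- plurisubharmonic weights (844) -/
theorem PSH.lreg {ψ : M → ℝ} (h : PSH ψ) : LReg μ ψ fun _ _ => 0 := by
  refine ⟨h.usc.measurable.aemeasurable, fun C hC => ?_⟩
  obtain ⟨U, φ, h1, h2, h3, h4, h5, h6, h7⟩ := exists_reg h hC
  exact ⟨U, φ, h1, h2, h3, h4, h5, Eventually.of_forall fun x hx =>
    ⟨fun k => h6 k x hx, h7 x hx⟩⟩

/-- weakly plurisubharmonic weights (844) -/
theorem WPsh.lreg [SecondCountableTopology M] (hμ : IsLeb μ) {f : M → ℝ} (hfm : Measurable f)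
    (hf : LocallyIntegrable f μ) (hw : WPsh μ f) : LReg μ f fun _ _ => 0 := by
  refine ⟨hfm.aemeasurable, fun C hC => ?_⟩
  obtain ⟨U, φ, h1, h2, h3, h4, h5, h6⟩ := exists_reg_weak hμ hfm hf hw hC
  exact ⟨U, φ, h1, h2, h3, h4, h5, h6⟩

/-- `V - a P` has a regularisation, `P` smooth ⇒ `V` has one with `a Levi P` -/
theorem LReg.of_sub {V P : M → ℝ} (hP : Sm P) (a : ℝ)
    (h : LReg μ (fun x => V x - a * P x) fun _ _ => 0) :
    LReg μ V fun x w => a * Levi P x w := by
  have h2 := h.add (LReg.of_smooth (μ := μ) ((Sm.const a).mulR hP))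
  have e1 : (fun x => V x - a * P x + a * P x) = V := by
    funext x; ring
  rw [e1] at h2
  refine h2.mono fun x w => ?_
  rw [zero_add, Levi_eq_lev ((Sm.const a).mulR hP), lev_const_mul hP, ← Levi_eq_lev hP]

/-- weak version of `LReg.of_sub` -/
theorem WPsh.lreg_sub [SecondCountableTopology M] (hμ : IsLeb μ) {V P : M → ℝ} (hP : Sm P) (a : ℝ)
    (hV : Measurable V) (hf : LocallyIntegrable (fun x => V x - a * P x) μ)
    (hw : WPsh μ fun x => V x - a * P x) : LReg μ V fun x w => a * Levi P x w :=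
  LReg.of_sub hP a (WPsh.lreg hμ (hV.sub (measurable_const.mul hP.continuous.measurable)) hf hw)

end Crest.Agent.R273.SolvD_93
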