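import Crest.Agent.R273.T4E_223
import Crest.Agent.R273.T4C_844
import Crest.Agent.R273.SolvC_93

/-!
# R273 (S0416), A-V0 = T4a (helper223), part 4

* `t4a`  : `φ_K + η u - η δ P` is locally integrable and weakly psh on `Mo S`
* `lreg` : `LReg μ (φ_K + η u) (η δ • Levi P)`
* `lint_V0` : `∫ e^{-(φ_K + η u)} dμ < ∞`
-/

set_option autoImplicit false
set_option linter.unusedSectionVars false

open Set Filter Topology Complex MeasureTheory
open scoped ContDiff Matrix ComplexConjugate ComplexOrder ENNReal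

namespace Crest.Agent.R273.T4F_223

open Crest.Agent.R271.Ho51 (RDom cp ch IsCh IsLeb Sm Levi mem_ch isCh_ch)
open Crest.Agent.R275.Geo Crest.Agent.R275.Core144 Crest.Agent.R273.SteinA_794
open Crest.Agent.R273.SteinB_794 Crest.Agent.R273.SteinC_794 Crest.Agent.R273.SteinD_794
open Crest.Agent.R273.SteinM_794 Crest.Agent.R273.SteinN_794
open Crest.Agent.R273.Defs_333 (ProjD HM HM.wt HM.Semipos)
open Crest.Agent.R273.Kah_333 (cur hsf Kah)
open Crest.Agent.R273.Vm_333 (vm)
open Crest.Agent.R273.T4C_223 Crest.Agent.R273.T4D_223 Crest.Agent.R273.T4E_223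
open Crest.Agent.R273.TLd_201
open Crest.Agent.R271.W792 (lev)
open Crest.Agent.R273.Reg_844 (GW WPsh)
open Crest.Agent.R273.SolvC_93 (LReg)

noncomputable section

variable {n : ℕ} {M : Type} [TopologicalSpace M] {A : Atl n M} {S : SD A}
  [T2Space M] [CompactSpace M] [SecondCountableTopology M] [MeasurableSpace M] [BorelSpace M]
  [Countable A.ι] {μ : Measure (Mo S)}

/-- the weight `V₀ = φ_K + η u` -/
def V0 (h : HM (KB A)⁻¹) (S : SD A) (η : ℝ) (u : M → ℝ) (x : Mo S) : ℝ :=
  wtS h (kf S) x.val + η * u x.val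

theorem meas_V0 (h : HM (KB A)⁻¹) {η : ℝ} {u : M → ℝ} (hm : Measurable u) :
    Measurable (V0 h S η u) :=
  (ph_sm h).continuous.measurable.add ((hm.comp me_val.measurable).const_mul η)

/-- **T4a** -/
theorem t4a (hμ : IsLeb μ) {h : HM (KB A)⁻¹} (hh : h.Semipos) {D : TD A} {K : Kah A}
    {δ η : ℝ} {u : M → ℝ} (h0 : 0 ≤ η) (h1 : η ≤ 1) (hm : Measurable u) (hu : MemLp u 2 (vm h))
    (H : Appr h D K δ u) (hU : S.U ⊆ D.U) {P : Mo S → ℝ} (hP : Sm P)
    (hb : ∀ i, ∀ x : Mo S, x.val ∈ (A.e i).source → D.be i x.val = hsf A (xr P) i x.val) :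
    Measurable (fun x => V0 h S η u x - (η * δ) * P x) ∧
      LocallyIntegrable (fun x => V0 h S η u x - (η * δ) * P x) μ ∧
      WPsh μ (fun x => V0 h S η u x - (η * δ) * P x) := by
  have hlf := hμ.locallyFinite
  have hui : LocallyIntegrable (fun x : Mo S => u x.val) μ := locInt_mu h hμ (int_of h hu)
  refine ⟨(meas_V0 h hm).sub (hP.continuous.measurable.const_mul _), ?_, ?_⟩
  · have i1 : LocallyIntegrable (ph h S) μ := (ph_sm h).continuous.locallyIntegrable
    have i2 : LocallyIntegrable (fun x => (η * δ) * P x) μ :=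
      (continuous_const.mul hP.continuous).locallyIntegrable
    have i3 : LocallyIntegrable (fun x : Mo S => η * u x.val) μ := by
      intro x
      obtain ⟨V, hV, hi⟩ := hui x
      exact ⟨V, hV, hi.const_mul η⟩
    exact (i1.add i3).sub i2
  · intro x
    obtain ⟨i, hi⟩ := A.cover x.val
    refine ⟨Mo.val ⁻¹' (A.e i).source,
      ((A.e i).open_source.preimage continuous_val).mem_nhds hi, ?_⟩
    intro χ hχ hc hs hp w
    have hΛ : Sm (fun x : Mo S => lev χ x w) := sm_lev hχ w
    have hΛc : HasCompactSupport (fun x : Mo S => lev χ x w) := hcs_lev hc w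
    have e1 := weak1 hμ hu H hU (P := xr P) (fun i => xr_smooth hP i)
      (fun i x hx hxU => hb i ⟨x, hxU⟩ hx) hχ hc hs hp w
    simp only [xr_val] at e1
    have e2 : 0 ≤ ∫ x : Mo S, ph h S x * lev χ x w ∂μ := by
      rw [ibp_lev hμ (ph_sm h) hχ hc w]
      refine integral_nonneg fun x => mul_nonneg (hp x) ?_
      rw [← Crest.Agent.R271.W792.Levi_eq_lev (ph_sm h)]
      exact Levi_wtS_nonneg h hh (isHS_kf S) kf_ne x w
    have i1 : Integrable (fun x : Mo S => ph h S x * lev χ x w) μ :=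
      ((ph_sm h).mulR hΛ).integrable hμ hΛc.mul_left
    have i2 : Integrable (fun x : Mo S => (ph h S x + -δ * P x) * lev χ x w) μ :=
      (((ph_sm h).add ((Sm.const (-δ)).mulR hP)).mulR hΛ).integrable hμ hΛc.mul_left
    have i3 : Integrable (fun x : Mo S => u x.val * lev χ x w) μ :=
      int_mul h hμ (int_of h hu) hΛ hΛc
    have i4 : Integrable (fun x : Mo S => (ph h S x + -δ * P x + u x.val) * lev χ x w) μ := by
      refine (i2.add i3).congr (Eventually.of_forall fun x => ?_)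
      simp only [Pi.add_apply]
      ring
    have e3 : ∫ x : Mo S, (V0 h S η u x - (η * δ) * P x) * lev χ x w ∂μ =
        (1 - η) * ∫ x : Mo S, ph h S x * lev χ x w ∂μ +
          η * ∫ x : Mo S, (ph h S x + -δ * P x + u x.val) * lev χ x w ∂μ := by
      rw [← integral_const_mul, ← integral_const_mul,
        ← integral_add (i1.const_mul (1 - η)) (i4.const_mul η)]
      refine integral_congr_ae (Eventually.of_forall fun x => ?_)
      simp only [V0, ph]
      ring
    rw [e3]
    have : 0 ≤ 1 - η := by linarith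
    positivity

/-- **the export for the engine** -/
theorem lreg (hμ : IsLeb μ) {h : HM (KB A)⁻¹} (hh : h.Semipos) {D : TD A} {K : Kah A}
    {δ η : ℝ} {u : M → ℝ} (h0 : 0 ≤ η) (h1 : η ≤ 1) (hm : Measurable u) (hu : MemLp u 2 (vm h))
    (H : Appr h D K δ u) (hU : S.U ⊆ D.U) {P : Mo S → ℝ} (hP : Sm P)
    (hb : ∀ i, ∀ x : Mo S, x.val ∈ (A.e i).source → D.be i x.val = hsf A (xr P) i x.val) :
    LReg μ (V0 h S η u) (fun x w => (η * δ) * Levi P x w) := by
  obtain ⟨a1, a2, a3⟩ := t4a hμ hh h0 h1 hm hu H hU hP hb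
  refine ⟨(meas_V0 h hm).aemeasurable, fun C hC => ?_⟩
  obtain ⟨U, φ, b1, b2, b3, b4, b5, b6⟩ := Crest.Agent.R273.Reg_844.exists_reg_weak hμ a1 a2 a3 hC
  have hcP : Sm (fun x => (η * δ) * P x) := (Sm.const (η * δ)).mulR hP
  refine ⟨U, fun k x => φ k x + (η * δ) * P x, b1, b2, fun k x hx => (b3 k x hx).add (hcP x),
    fun k x hx w => ?_, fun x hx k l hkl => ?_, ?_⟩
  · rw [Crest.Agent.R273.SolvC_93.lev_add_on b1 (fun y hy => b3 k y hy) (fun y _ => hcP y) hx,
      Crest.Agent.R271.W792.lev_const_mul hP, Crest.Agent.R271.W792.Levi_eq_lev hP]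
    linarith [b4 k x hx w]
  · exact add_le_add_left (b5 x hx hkl) _
  · filter_upwards [b6] with x hx hxU
    obtain ⟨c1, c2⟩ := hx hxU
    refine ⟨fun k => ?_, ?_⟩
    · have := c1 k
      linarith
    · have := c2.add_const ((η * δ) * P x)
      rwa [sub_add_cancel] at this

/-- finite mass of the weight -/
theorem lint_V0 (hμ : IsLeb μ) {h : HM (KB A)⁻¹} {η : ℝ} {u : M → ℝ} (hm : Measurable u)
    (hi : Integrable (fun x => Real.exp (-(η * u x))) (vm h)) :
    ∫⁻ x, ENNReal.ofReal (Real.exp (-(V0 h S η u x))) ∂μ < ⊤ := by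
  have h1 := lintegral_mu (S := S) h hμ (fun x => ENNReal.ofReal (Real.exp (-(η * u x))))
    ((Real.measurable_exp.comp (((hm.comp me_val.measurable).const_mul η).neg)).ennreal_ofReal)
  have h2 : ∀ x : Mo S, ENNReal.ofReal (Real.exp (-(V0 h S η u x))) =
      vS h S x * ENNReal.ofReal (Real.exp (-(η * u x.val))) := by
    intro x
    rw [vS, ← ENNReal.ofReal_mul (Real.exp_pos _).le, ← Real.exp_add]
    congr 2
    unfold V0
    ring
  simp only [h2]
  rw [h1]
  refine (setLIntegral_le_lintegral _ _).trans_lt ?_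
  exact hi.lintegral_lt_top

end

end Crest.Agent.R273.T4F_223
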