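import Crest.Agent.R273.AsmC_73
import Crest.Agent.R273.PsiYD_145
import Crest.Agent.R273.T4F_223
import Crest.Agent.R273.SolvD_93
import Crest.Agent.R273.PenFin_93

/-!
# R273 (S0416), master of Part A, half 1, part D (helper73): assembly

`App Y`         : the T-lemma for all partial families of `Y`, with one `u`
`hasSec_of_app` : `App Y` implies that a power of `L` has a section
-/

set_option autoImplicit false
set_option linter.unusedSectionVars false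

open Set Filter Topology Complex MeasureTheory
open scoped ContDiff Matrix ENNReal

namespace Crest.Agent.R273.AsmA_73

open Crest.Agent.R275.Geo Crest.Agent.R275.Core144 Crest.Agent.R275.GC293
open Crest.Agent.R273.SteinA_794
open Crest.Agent.R273.SteinB_794 Crest.Agent.R273.SteinC_794 Crest.Agent.R273.SteinD_794
open Crest.Agent.R273.SteinM_794 Crest.Agent.R273.SteinN_794 Crest.Agent.R273.SteinL_794
open Crest.Agent.R273.Defs_333 (ProjD HM HM.wt HM.Semipos HasSec)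
open Crest.Agent.R273.Vm_333 (vm)
open Crest.Agent.R273.Kah_333 (cur Kah hsf)
open Crest.Agent.R273.TLd_201 (TD)
open Crest.Agent.R273.T4C_223 (xr)
open Crest.Agent.R273.T4E_223 (Appr)
open Crest.Agent.R271.Ho51 (RDom cp ch IsCh IsLeb Hol Sm mem_ch isCh_ch Levi exists_leb)
open Crest.Agent.R271.W792 (lev)
open Crest.Agent.R273.Pen_93 Crest.Agent.R273.PenAlg_93
open Crest.Agent.R273.Reg_844 (PSH)
open Crest.Agent.R273.SolvC_93 (LReg)
open Crest.Agent.R273.PenFin_93 (em em_def mem_A2_em corner_final)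

noncomputable section

variable {n : ℕ} {M : Type} [TopologicalSpace M] {A : Atl n M}

/-- the T-lemma data for the function `P` on the domain -/
def AppP (h : HM (KB A)⁻¹) (S : SD A) [MeasurableSpace M] [BorelSpace M] [Countable A.ι]
    (K : Kah A) (δ : ℝ) (u : M → ℝ) (P : Mo S → ℝ) : Prop :=
  ∃ D : TD A, Appr h D K δ u ∧ S.U ⊆ D.U ∧
    ∀ i, ∀ x : Mo S, x.val ∈ (A.e i).source → D.be i x.val = hsf A (xr P) i x.val

/-- the T-lemma for all partial families, with one `u` -/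
def App {h : HM (KB A)⁻¹} {L : LB A} {hL : HM L} (Y : YD h L hL) [MeasurableSpace M]
    [BorelSpace M] [Countable A.ι] : Prop :=
  ∃ (K : Kah A) (δ η : ℝ) (u : M → ℝ), 0 < δ ∧ 0 < η ∧ Measurable u ∧ (∀ x, u x ≤ 0) ∧
    MemLp u 2 (vm h) ∧ Integrable (fun x => Real.exp (-(η * u x))) (vm h) ∧
    (∀ r < Y.m, AppP h Y.S K δ u (Pf Y.c (r + 1))) ∧
    (∀ r < Y.m', AppP h Y.S K δ u (Pf Y.c' (r + 1)))

namespace YD

variable {h : HM (KB A)⁻¹} {L : LB A} {hL : HM L} (Y : YD h L hL)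

theorem gw_1B [CompactSpace M] (p : ℕ → MvPolynomial (Fin Y.N) ℂ)
    (h0 : ∀ x, evp Y.y p 0 x ≠ 0) (r : ℕ) : GW Y.S fun x => (1 + Bf (evp Y.y p) r x)⁻¹ := by
  obtain ⟨C, hC, h1, h2⟩ := Y.bounds
  obtain ⟨D, K, hK, h3⟩ := Bf_growth Y.X_pos hC h1 h2 p r
  have hK' : 0 < K + C ^ D := by positivity
  refine (Y.gw_X.pow D).mono (inv_pos.2 hK') fun x => ?_
  have hB := Bf_pos h0 r x
  have hB1 : 0 < 1 + Bf (evp Y.y p) r x := by linarith
  rw [inv_mul_eq_div, div_le_iff₀ hK', inv_mul_eq_div, le_div_iff₀ hB1, mul_comm, add_mul, one_mul]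
  have h4 : Y.X x ^ D ≤ C ^ D := pow_le_pow_left₀ (Y.X_pos x).le (h1 x) D
  linarith [h3 x]

/-- a function which bounds both families -/
def Q (x : Mo Y.S) : ℝ := (1 + Bf Y.c' Y.m' x) * ((1 + Bf Y.c Y.m x) * (1 + (Bf Y.c Y.m x)⁻¹))

theorem B_pos (x : Mo Y.S) : 0 < Bf Y.c Y.m x := Bf_pos Y.cne _ x

theorem B_pos' (x : Mo Y.S) : 0 < Bf Y.c' Y.m' x := Bf_pos Y.cne' _ x

theorem Q_ge (x : Mo Y.S) : 1 ≤ Y.Q x ∧ Bf Y.c' Y.m' x ≤ Y.Q x ∧ Bf Y.c Y.m x ≤ Y.Q x ∧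
    (Bf Y.c Y.m x)⁻¹ ≤ Y.Q x := by
  have h1 := Y.B_pos x
  have h2 := Y.B_pos' x
  have h3 : 0 < (Bf Y.c Y.m x)⁻¹ := inv_pos.2 h1
  unfold Q
  set a := Bf Y.c' Y.m' x
  set b := Bf Y.c Y.m x
  set d := b⁻¹
  have e : (1 + a) * ((1 + b) * (1 + d)) = 1 + a + b + d + (a * b + a * d + b * d + a * (b * d)) := by
    ring
  have h4 : 0 ≤ a * b + a * d + b * d + a * (b * d) := by positivity
  rw [e]
  refine ⟨?_, ?_, ?_, ?_⟩ <;> linarith

theorem Q_pos (x : Mo Y.S) : 0 < Y.Q x := lt_of_lt_of_le one_pos (Y.Q_ge x).1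

theorem Q_cont : Continuous Y.Q := by
  have h1 := Bf_cont Y.hc Y.m
  have h2 := Bf_cont Y.hc' Y.m'
  exact (continuous_const.add h2).mul ((continuous_const.add h1).mul
    (continuous_const.add (h1.inv₀ fun x => (Y.B_pos x).ne')))

theorem gw_Q [CompactSpace M] : GW Y.S fun x => (Y.Q x)⁻¹ := by
  have h1 := (Y.gw_1B Y.p' Y.c0' Y.m').mul ((Y.gw_1B Y.p Y.c0 Y.m).mul
    ((Y.gw_B Y.p Y.c0 Y.m).mul (Y.gw_1B Y.p Y.c0 Y.m)))
  refine h1.mono one_pos fun x => le_of_eq ?_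
  have h2 := Y.B_pos x
  have h3 := Y.B_pos' x
  show 1 * ((1 + Bf Y.c' Y.m' x)⁻¹ * ((1 + Bf Y.c Y.m x)⁻¹ * (Bf Y.c Y.m x *
    (1 + Bf Y.c Y.m x)⁻¹))) = ((1 + Bf Y.c' Y.m' x) * ((1 + Bf Y.c Y.m x) *
      (1 + (Bf Y.c Y.m x)⁻¹)))⁻¹
  field_simp
  ring

theorem nonempty : Nonempty (Mo Y.S) := by
  obtain ⟨i, x, hx, h0⟩ := Y.d0
  have h1 : x ∈ Y.S.U := by
    rw [Y.U_eq]
    exact (mem_nz Y.hd hx).2 h0
  exact ⟨⟨x, h1⟩⟩

end YD

section final

variable [T2Space M] [CompactSpace M] [ConnectedSpace M] [Finite A.ι] [MeasurableSpace M]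
  [BorelSpace M] {h : HM (KB A)⁻¹} {L : LB A} {hL : HM L}

/-- **Half 1**, modulo the T-lemma for the partial families -/
theorem hasSec_of_app (P : Part A) (hh : h.Semipos) (hhL : hL.Semipos) (Y : YD h L hL)
    (hApp : App Y) : ∃ m : ℕ, 0 < m ∧ HasSec (L ^ m) := by
  have _ : SecondCountableTopology M := secM (A := A)
  obtain ⟨μ, hμ⟩ := exists_leb (M := Mo Y.S)
  obtain ⟨K, δ, η₀, u, hδ, hη₀, hum, hu0, hu2, hui₀, hA, hA'⟩ := hApp
  obtain ⟨Ψ, hΨ, C, hΨC⟩ := Crest.Agent.R273.PsiYD_145.psi_of_YD hh hhL Y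
  obtain ⟨CU, hCU, hUa⟩ := Y.Ua
  -- `η ≤ 1`
  set η : ℝ := min η₀ 1 with hη_def
  have hη : 0 < η := lt_min hη₀ one_pos
  have hη1 : η ≤ 1 := min_le_right _ _
  have hui : Integrable (fun x => Real.exp (-(η * u x))) (vm h) := by
    refine hui₀.mono' ((Real.measurable_exp.comp ((hum.const_mul η).neg)).aestronglyMeasurable)
      (Eventually.of_forall fun x => ?_)
    rw [Real.norm_eq_abs, abs_of_pos (Real.exp_pos _)]
    refine Real.exp_le_exp.2 ?_
    have := mul_le_mul_of_nonpos_right (min_le_left η₀ 1) (hu0 x)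
    linarith
  -- the weight
  set V0 : Mo Y.S → ℝ := Crest.Agent.R273.T4F_223.V0 h Y.S η u with hV0
  have hV0m : Measurable V0 := Crest.Agent.R273.T4F_223.meas_V0 h hum
  have hV0le : ∀ x, V0 x ≤ Y.φK x := by
    intro x
    have := mul_nonpos_of_nonneg_of_nonpos hη.le (hu0 x.val)
    show wtS h (kf Y.S) x.val + η * u x.val ≤ wtS h (kf Y.S) x.val
    linarith
  have hreg : ∀ {Q : Mo Y.S → ℝ}, Sm Q → AppP h Y.S K δ u Q →
      LReg μ V0 fun x w => (η * δ) * Levi Q x w := by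
    rintro Q hQ ⟨D, hD, hU, hb⟩
    exact Crest.Agent.R273.T4F_223.lreg hμ hh hη.le hη1 hum hu2 hD hU hQ hb
  have hmass := Crest.Agent.R273.T4F_223.lint_V0 (S := Y.S) hμ hum hui
  -- finite dimension
  have hfd : ∀ N : ℕ, FiniteDimensional ℂ (A2 (em μ fun x => V0 x + N * Real.log (Y.Q x))) := by
    intro N
    rw [em_def]
    refine fd_of_GW P h hμ Y.hd Y.d0 Y.U_eq ?_ ?_
    · exact Real.measurable_exp.comp (hV0m.add ((Y.Q_cont.measurable.log).const_mul _)).neg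
    · have h1 := (GW.of_frame (S := Y.S) h (isHS_kf Y.S) kf_ne).mul (Y.gw_Q.pow N)
      refine h1.mono one_pos fun x => ?_
      rw [one_mul, neg_add, Real.exp_add]
      have h2 : Real.exp (-(N * Real.log (Y.Q x))) = ((Y.Q x)⁻¹) ^ N := by
        rw [← mul_neg, Real.exp_nat_mul, Real.exp_neg, Real.exp_log (Y.Q_pos x)]
      rw [h2]
      have h3 : 0 < (Y.Q x)⁻¹ := inv_pos.2 (Y.Q_pos x)
      have h4 : Real.exp (-(wtS h (kf Y.S) x.val)) ≤ Real.exp (-V0 x) :=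
        Real.exp_le_exp.2 (neg_le_neg (hV0le x))
      gcongr
  have hne : Module.finrank ℂ (A2 (em μ V0)) ≠ 0 := by
    have h1 := hfd 0
    have h1' : (fun x => V0 x + ((0 : ℕ) : ℝ) * Real.log (Y.Q x)) = V0 := by
      funext x
      rw [Nat.cast_zero, zero_mul, add_zero]
    rw [h1'] at h1
    have hone : (fun _ : Mo Y.S => (1 : ℂ)) ∈ A2 (em μ V0) := by
      rw [mem_A2_em hV0m.aemeasurable]
      refine ⟨hol_const 1, ?_⟩
      simpa using hmass
    obtain ⟨x⟩ := Y.nonempty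
    have hnt : Nontrivial (A2 (em μ V0)) := by
      refine ⟨⟨⟨_, hone⟩, 0, fun h0 => ?_⟩⟩
      have h2 := congrFun (congrArg Subtype.val h0) x
      exact one_ne_zero h2
    exact (Module.finrank_pos (R := ℂ) (M := A2 (em μ V0))).ne'
  -- the corner
  obtain ⟨K0, hK0⟩ := corner_final hμ (rho_sm Y.E) (rho_compact Y.E) (rho_levi Y.E)
    (c := Y.c') (c' := Y.c) Y.hc' Y.cne' Y.hc Y.cne (m := Y.m') (m' := Y.m) hV0m.aemeasurable
    (mul_pos hη hδ)
    (fun r hr => hreg (Pf_sm Y.hc' Y.cne' (r + 1)) (hA' r hr))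
    (fun r hr => hreg (Pf_sm Y.hc Y.cne (r + 1)) (hA r hr))
    hΨ.usc.measurable (Crest.Agent.R273.SolvD_93.PSH.lreg hΨ) (C := C)
    (fun x => by
      have h1 := hΨC x
      have h2 : Ψ x + Pf Y.c Y.m x - Pf Y.c' Y.m' x =
          Ψ x - (Real.log (Bf (evp Y.y Y.p') Y.m' x) - Real.log (Bf (evp Y.y Y.p) Y.m x)) := by
        show Ψ x + Real.log (Bf (evp Y.y Y.p) Y.m x) - Real.log (Bf (evp Y.y Y.p') Y.m' x) = _
        ring
      rw [h2]
      exact h1)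
    (R := fun x => Real.log (Y.Q x)) (Y.Q_cont.measurable.log).aemeasurable
    (fun x => Real.log_le_log (Y.B_pos' x) (Y.Q_ge x).2.1)
    (fun x => by
      rw [abs_le]
      constructor
      · have h1 := Real.log_le_log (inv_pos.2 (Y.B_pos x)) (Y.Q_ge x).2.2.2
        rw [Real.log_inv] at h1
        show -Real.log (Y.Q x) ≤ Real.log (Bf Y.c Y.m x)
        linarith
      · exact Real.log_le_log (Y.B_pos x) (Y.Q_ge x).2.2.1)
    hfd hne
  set k : ℕ := max K0 1 with hk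
  have hk0 : 0 < k := lt_of_lt_of_le one_pos (le_max_right _ _)
  have h5 := hK0 k (le_max_left _ _)
  obtain ⟨⟨f, hf⟩, hf0⟩ : ∃ f : A2 (em μ fun x => V0 x + k * Ψ x), f ≠ 0 := by
    by_contra hcon
    push Not at hcon
    have : Subsingleton (A2 (em μ fun x => V0 x + k * Ψ x)) :=
      ⟨fun a b => (hcon a).trans (hcon b).symm⟩
    exact h5 (Module.finrank_zero_of_subsingleton)
  have hmeas : AEMeasurable (fun x => V0 x + k * Ψ x) μ :=
    (hV0m.add ((hΨ.usc.measurable).const_mul _)).aemeasurable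
  rw [mem_A2_em hmeas] at hf
  refine ⟨Y.j0 * (Y.e * k), Nat.mul_pos Y.j0_pos (Nat.mul_pos Y.e_pos hk0),
    Y.land hμ hk0 hf.1 (fun h0 => hf0 (Subtype.ext h0)) ?_⟩
  -- comparison of the weights
  refine lt_of_le_of_lt (lintegral_mono (g := fun x => ENNReal.ofReal ((CU * Real.exp C) ^ k) *
    ENNReal.ofReal (‖f x‖ ^ 2 * Real.exp (-(V0 x + k * Ψ x)))) fun x => ?_) ?_
  · show ENNReal.ofReal _ ≤ _ * ENNReal.ofReal _
    rw [← ENNReal.ofReal_mul (by positivity)]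
    refine ENNReal.ofReal_le_ofReal ?_
    have hB := Y.B_pos x
    have hB' := Y.B_pos' x
    have e1 : (‖Y.lam x‖ ^ 2 * Real.exp (-(Y.j0 * Y.φL x))) ^ Y.e ≤
        (CU * Real.exp C) * Real.exp (-Ψ x) := by
      have h6 : (‖Y.lam x‖ ^ 2 * Real.exp (-(Y.j0 * Y.φL x))) ^ Y.e * Bf Y.c' Y.m' x ≤
        CU * Bf Y.c Y.m x := hUa x
      have h7 : Bf Y.c Y.m x ≤ Real.exp C * Real.exp (-Ψ x) * Bf Y.c' Y.m' x := by
        have h8 := (abs_le.1 (hΨC x)).2
        have h9 : Real.log (Bf Y.c Y.m x) ≤ C + (-Ψ x) + Real.log (Bf Y.c' Y.m' x) := by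
          have h10 : Ψ x - (Real.log (Bf Y.c' Y.m' x) - Real.log (Bf Y.c Y.m x)) ≤ C := h8
          linarith
        calc Bf Y.c Y.m x = Real.exp (Real.log (Bf Y.c Y.m x)) := (Real.exp_log hB).symm
          _ ≤ Real.exp (C + (-Ψ x) + Real.log (Bf Y.c' Y.m' x)) := Real.exp_le_exp.2 h9
          _ = _ := by rw [Real.exp_add, Real.exp_add, Real.exp_log hB']
      have h11 : (‖Y.lam x‖ ^ 2 * Real.exp (-(Y.j0 * Y.φL x))) ^ Y.e * Bf Y.c' Y.m' x ≤
          (CU * Real.exp C) * Real.exp (-Ψ x) * Bf Y.c' Y.m' x := by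
        calc _ ≤ CU * Bf Y.c Y.m x := h6
          _ ≤ CU * (Real.exp C * Real.exp (-Ψ x) * Bf Y.c' Y.m' x) := by gcongr
          _ = _ := by ring
      exact le_of_mul_le_mul_right h11 hB'
    have e2 : Real.exp (-Y.φK x) ≤ Real.exp (-V0 x) := Real.exp_le_exp.2 (neg_le_neg (hV0le x))
    have e3 : (‖Y.lam x‖ ^ 2 * Real.exp (-(Y.j0 * Y.φL x))) ^ (Y.e * k) ≤
        (CU * Real.exp C) ^ k * Real.exp (-(k * Ψ x)) := by
      rw [pow_mul]
      calc ((‖Y.lam x‖ ^ 2 * Real.exp (-(Y.j0 * Y.φL x))) ^ Y.e) ^ k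
          ≤ ((CU * Real.exp C) * Real.exp (-Ψ x)) ^ k := by gcongr
        _ = _ := by rw [mul_pow, ← Real.exp_nat_mul, mul_neg]
    calc ‖f x‖ ^ 2 * ((‖Y.lam x‖ ^ 2 * Real.exp (-(Y.j0 * Y.φL x))) ^ (Y.e * k) *
          Real.exp (-Y.φK x))
        ≤ ‖f x‖ ^ 2 * (((CU * Real.exp C) ^ k * Real.exp (-(k * Ψ x))) * Real.exp (-V0 x)) := by
          gcongr
      _ = (CU * Real.exp C) ^ k * (‖f x‖ ^ 2 * Real.exp (-(V0 x + k * Ψ x))) := by
          rw [neg_add, Real.exp_add]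
          ring
  · rw [lintegral_const_mul' _ _ ENNReal.ofReal_ne_top]
    exact ENNReal.mul_lt_top ENNReal.ofReal_lt_top hf.2

/-- **Half 1** from `App` -/
theorem half1_of (hG : GoodA A) (P : Part A) (Pr : ProjD A) (hh : h.Semipos)
    (HA : ∀ (L : LB A) (hL : HM L), (∀ i, ∀ x ∈ (A.e i).source, cur hL i x = cur h i x) →
      ∀ Y : YD h L hL, App Y) : HasSecOfYD A h := by
  intro L hL hc hY
  obtain ⟨Y⟩ := hY
  have hhL : hL.Semipos := Crest.Agent.R273.Kah_333.semipos_of_cur fun i x hx => by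
    rw [hc i x hx]
    exact Crest.Agent.R273.Kah_333.cur_posSemidef hh i hx
  exact hasSec_of_app P hh hhL Y (HA L hL hc Y)

end final

end

end Crest.Agent.R273.AsmA_73
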