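import Crest.Agent.R273.Fam_835
import Crest.Agent.R273.FS_333

/-!
# R273 (S0416), Part E (helper835): PCOV, preparation

`p : M' → M` holomorphic, `R : Ref A' A p`, `P : ProjD A`:
* `O R P`    : the pull-back of the hyperplane bundle, `Fk R P k` the pulled back coordinates;
* `Fk_hs`, `Fk_ne`, `Fk_imm` (for locally biholomorphic `p`), `Fk_prop` (two points with
  proportional coordinates have the same image), `Opos` (positivity).
-/

set_option autoImplicit false
set_option linter.unusedSectionVars false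

open Set Filter Topology Complex
open scoped ContDiff Matrix ComplexConjugate Manifold

namespace Crest.Agent.R273.PCovA_835

open Crest.Agent.R275.Geo Crest.Agent.R275.Core144 Crest.Agent.R275.GC293
open Crest.Agent.R273.Defs_333 Crest.Agent.R273.Map_835 Crest.Agent.R273.PB_835
open Crest.Agent.R273.Fam_835 Crest.Agent.R273.FS_333

noncomputable section

variable {n : ℕ} {M N : Type} [TopologicalSpace M] [TopologicalSpace N]
  {A : Atl n M} {B : Atl n N} {p : M → N}

/-- the pull-back of the hyperplane bundle -/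
def OB (h : HolMap A B p) (R : Ref A B p) (P : ProjD B) : LB A := pullLB h R (lb P)

/-- the pulled back homogeneous coordinates -/
def Fk (R : Ref A B p) (P : ProjD B) (k : Fin (P.N + 1)) : A.ι → M → ℂ := fun i x =>
  open Classical in if x ∈ (A.e i).source then P.F (R.r i) (p x) k else 0

variable {R : Ref A B p} {P : ProjD B}

theorem Fk_eq {i : A.ι} {x : M} (hx : x ∈ (A.e i).source) (k : Fin (P.N + 1)) :
    Fk R P k i x = P.F (R.r i) (p x) k := if_pos hx

theorem Fk_hs (h : HolMap A B p) (k : Fin (P.N + 1)) : IsHS (OB h R P) univ (Fk R P k) where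
  hol i := by
    have h1 := h.comp_holAt (i := i) (P.hol (R.r i) k)
    have h2 : HolAt A i univ (fun x => P.F (R.r i) (p x) k) :=
      DifferentiableOn.mono h1 fun z hz =>
        ⟨hz.1, mem_univ _, R.sub i _ ((A.e i).map_target hz.1)⟩
    exact h2.congr fun x hx _ => (Fk_eq hx k).symm
  off i x hx := if_neg hx
  tr i j x hx _ := by
    rw [Fk_eq hx.1, Fk_eq hx.2]
    have h1 : (OB h R P).g i j x = (lb P).g (R.r i) (R.r j) (p x) := pullLB_g h R (lb P) hx
    rw [h1]
    exact congrFun (gij_spec P ⟨R.sub i x hx.1, R.sub j x hx.2⟩) k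

theorem Fk_ne {i : A.ι} {x : M} (hx : x ∈ (A.e i).source) : ∃ k, Fk R P k i x ≠ 0 := by
  obtain ⟨k, hk⟩ := exists_F_ne P (R.sub i x hx)
  exact ⟨k, by rwa [Fk_eq hx]⟩

/-- proportional coordinates: same image -/
theorem Fk_prop {i j : A.ι} {x y : M} (hx : x ∈ (A.e i).source) (hy : y ∈ (A.e j).source)
    {c : ℂ} (h : ∀ k, Fk R P k i x = c * Fk R P k j y) : p x = p y := by
  refine P.inj (R.r i) (R.r j) (p x) (R.sub i x hx) (p y) (R.sub j y hy) ⟨c, ?_⟩
  funext k
  have h1 := h k
  rw [Fk_eq hx, Fk_eq hy] at h1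
  rw [h1]
  rfl

/-- the pulled back coordinates give an immersion -/
theorem Fk_imm (h : LBih A B p) {i : A.ι} {z : Cn n} (hz : z ∈ (A.e i).target) {v : Cn n}
    {c : ℂ} (hc : ∀ k, fderiv ℂ (fun w => Fk R P k i ((A.e i).symm w)) z v =
      c * Fk R P k i ((A.e i).symm z)) : v = 0 := by
  have hx := (A.e i).map_target hz
  have hzd : z ∈ dm A B p i (R.r i) := ⟨hz, R.sub i _ hx⟩
  have hw : rd A B p i (R.r i) z ∈ (B.e (R.r i)).target := (B.e (R.r i)).map_source hzd.2
  have hF : ∀ k, DifferentiableAt ℂ (fun w => P.F (R.r i) ((B.e (R.r i)).symm w) k)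
      (rd A B p i (R.r i) z) := by
    intro k
    have h2 := HolAt.diffAt (P.hol (R.r i) k) isOpen_univ ((B.e (R.r i)).map_target hw)
      (mem_univ _)
    rwa [(B.e (R.r i)).right_inv hw] at h2
  have hFa : DifferentiableAt ℂ (fun w => P.F (R.r i) ((B.e (R.r i)).symm w))
      (rd A B p i (R.r i) z) := differentiableAt_pi.2 hF
  refine h.inj hzd ?_
  rw [map_zero]
  refine P.imm (R.r i) _ hw _ ⟨c, ?_⟩
  funext k
  have h4 : fderiv ℂ (fun w => P.F (R.r i) ((B.e (R.r i)).symm w)) (rd A B p i (R.r i) z)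
      (fderiv ℂ (rd A B p i (R.r i)) z v) k =
      fderiv ℂ (fun w => P.F (R.r i) ((B.e (R.r i)).symm w) k) (rd A B p i (R.r i) z)
      (fderiv ℂ (rd A B p i (R.r i)) z v) := by
    have h5 := (hasFDerivAt_pi'.1 hFa.hasFDerivAt k).fderiv
    rw [h5]
    rfl
  rw [h4]
  have he : (fun w => Fk R P k i ((A.e i).symm w)) =ᶠ[𝓝 z]
      (fun w => P.F (R.r i) ((B.e (R.r i)).symm w) k) ∘ (rd A B p i (R.r i)) := by
    filter_upwards [(h.toHolMap.isOpen_dm i (R.r i)).mem_nhds hzd] with w hw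
    show _ = P.F (R.r i) ((B.e (R.r i)).symm (B.e (R.r i) (p ((A.e i).symm w)))) k
    rw [(B.e (R.r i)).left_inv hw.2, Fk_eq ((A.e i).map_target hw.1)]
  have h3 := fderiv_comp z (g := fun w => P.F (R.r i) ((B.e (R.r i)).symm w) k)
    (f := rd A B p i (R.r i)) (hF k) (h.toHolMap.diffAt hzd)
  have h6 := hc k
  rw [he.fderiv_eq, h3, Fk_eq hx] at h6
  show _ = c * P.F (R.r i) ((B.e (R.r i)).symm (B.e (R.r i) (p ((A.e i).symm z)))) k
  rw [(B.e (R.r i)).left_inv hzd.2]
  exact h6

/-- the pulled back metric -/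
def Ohm (h : HolMap A B p) (R : Ref A B p) (P : ProjD B) : HM (OB h R P) :=
  (PB.ref h R (lb P)).pullHM h (fs P)

theorem Ohm_pos (h : LBih A B p) (R : Ref A B p) (P : ProjD B) : (Ohm h.toHolMap R P).Pos :=
  (PB.ref h.toHolMap R (lb P)).pullHM_pos h.toHolMap (fs_pos P) fun _ _ _ hz => h.inj hz

/-- a compact cover has refined atlases -/
theorem exists_refMap [CompactSpace M] [T2Space M] (A : Atl n M) (h : HolMap A B p) :
    ∃ A' : Atl n M, Finite A'.ι ∧ GoodA A' ∧ Nonempty (Part A') ∧ Nonempty (Ref A' A id) ∧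
      Nonempty (Ref A' B p) ∧ LBih A' A id ∧ LBih A A' id := by
  obtain ⟨A', h1, h2, h3, h4, h5, h6, h7⟩ := exists_refine A
    (fun j : B.ι => p ⁻¹' (B.e j).source) (fun j => (B.e j).open_source.preimage h.cont)
    (fun x => B.cover (p x))
  choose r hr using h4
  exact ⟨A', h1, h2, h3, h5, ⟨⟨r, fun i x hx => hr i hx⟩⟩, h6, h7⟩

end

end Crest.Agent.R273.PCovA_835
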