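import Crest.Agent.R273.LiftC_522
import Crest.Agent.R273.Sus_333
import Crest.Agent.R273.PCovA_835

/-!
# R273 (S0416), helper522: LIFTS for the normal form `Sus`

* `sl_quad`     : the slice `Y → M` pulls back `K` to `KY`;
* `Sus.chg`     : change of the atlas of `Y`;
* `exists_chg`  : a refined atlas for which the slice `Y → M` maps charts into charts;
* `lifts_sus`   : T1 for `Sus`.
-/

set_option autoImplicit false
set_option linter.unusedSectionVars false

open Set Filter Topology Complex Module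
open scoped ContDiff Matrix ComplexConjugate ComplexOrder

namespace Crest.Agent.R273.LiftS_522

open Crest.Agent.R275.Geo Crest.Agent.R275.Core144 Crest.Agent.R273.Defs_333
  Crest.Agent.R273.HM_333 Crest.Agent.R273.Kah_333 Crest.Agent.R275.Prod363
  Crest.Agent.R273.Map_835 Crest.Agent.R273.PB_835 Crest.Agent.R273.FS_333
  Crest.Agent.R275.GC293 Crest.Agent.R273.LiftA_522 Crest.Agent.R273.LiftB_522
  Crest.Agent.R273.LiftC_522 Crest.Agent.R273.Prd_835 Crest.Agent.R273.EA_333
  Crest.Agent.R273.UCov_914 Crest.Agent.R273.Sus_333 Crest.Agent.R273.PCovA_835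
  Crest.Agent.R273.Fam_835

noncomputable section

/-! ### the inclusion of a slice -/

section inr

variable {n m : ℕ} {M N : Type} [TopologicalSpace M] [TopologicalSpace N] {A : Atl n M}
  {B : Atl m N}

theorem Jp_inr {i : A.ι} {j : B.ι} (x : M) {y : N} (hy : y ∈ (B.e j).source) (c : Fin (n + m))
    (b : Fin m) : Jp B (A.prod B) (fun y => (x, y)) j (i, j) y c b =
      if c = Fin.natAdd n b then 1 else 0 := by
  have h1 : rd B (A.prod B) (fun y => (x, y)) j (i, j) =ᶠ[𝓝 (B.e j y)]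
      fun w => appL n m (A.e i x, w) := by
    filter_upwards [(B.e j).open_target.mem_nhds ((B.e j).map_source hy)] with w hw
    show app (A.e i x) (B.e j ((B.e j).symm w)) = app (A.e i x) w
    rw [(B.e j).right_inv hw]
  have h2 : HasFDerivAt (fun w => appL n m (A.e i x, w))
      ((appL n m).comp (ContinuousLinearMap.inr ℂ (Cn n) (Cn m))) (B.e j y) :=
    (appL n m).hasFDerivAt.comp (B.e j y) (hasFDerivAt_prodMk_right (A.e i x) (B.e j y))
  rw [Jp_eq, h1.fderiv_eq, h2.fderiv]
  show (app (0 : Cn n) (EuclideanSpace.single b 1)) c = _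
  induction c using Fin.addCases with
  | left c =>
    rw [app_castAdd]
    have : Fin.castAdd m c ≠ Fin.natAdd n b := by
      intro h
      have := congrArg Fin.val h
      simp at this
      omega
    rw [if_neg this]
    rfl
  | right c =>
    rw [app_natAdd]
    by_cases h : c = b
    · subst h; simp
    · have : Fin.natAdd n c ≠ Fin.natAdd n b := fun h' => h (by simpa using h')
      rw [if_neg this]
      simp [h]

end inr

variable {g d : ℕ} {M : Type} [TopologicalSpace M] {A : Atl (g + d) M} {G : Type} [CommGroup G]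
  {D : MonD A G} {K : Kah A} {Y : Type} [TopologicalSpace Y] [MulAction G Y] {B : Atl d Y}

/-- the Jacobian of the slice -/
theorem Jp_sl (S : Sus D K B) {i : (EA g).ι} {j : B.ι} {a : A.ι} {z : Cn g} {y : Y}
    (hz : z ∈ ((EA g).e i).source) (hy : y ∈ (B.e j).source) (ha : S.π (z, y) ∈ (A.e a).source)
    (c : Fin (g + d)) (b : Fin d) :
    Jp B A (S.sl z) j a y c b = Jp ((EA g).prod B) A S.π (i, j) a (z, y) c (Fin.natAdd g b) := by
  have h1 := Jp_comp S.lb_π.toHolMap (holMap_inr (A := EA g) (B := B) z) (i := j) (j := (i, j))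
    (l := a) (x := y) hy ⟨hz, hy⟩ ha
  have h2 : Jp B A (S.sl z) j a y = Jp ((EA g).prod B) A S.π (i, j) a (z, y) *
      Jp B ((EA g).prod B) (fun y => (z, y)) j (i, j) y := h1.symm
  rw [h2, Matrix.mul_apply, Finset.sum_eq_single (Fin.natAdd g b)]
  · rw [Jp_inr z hy, if_pos rfl, mul_one]
  · intro e _ he
    rw [Jp_inr z hy, if_neg he, mul_zero]
  · intro h
    exact absurd (Finset.mem_univ _) h

/-- the slice pulls back `K` to `KY` -/
theorem sl_quad (S : Sus D K B) {j : B.ι} {a : A.ι} {z : Cn g} {y : Y}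
    (hy : y ∈ (B.e j).source) (ha : S.sl z y ∈ (A.e a).source) :
    (Jp B A (S.sl z) j a y)ᵀ * K.g a (S.sl z y) * (Jp B A (S.sl z) j a y).map conj =
      S.KY.g j y := by
  obtain ⟨i, hi⟩ := (EA g).cover z
  have h1 := S.met i j a z y hi hy ha
  ext b c
  have h2 := congrFun (congrFun h1 (Fin.natAdd g b)) (Fin.natAdd g c)
  rw [blk_rr] at h2
  rw [← h2]
  simp only [Matrix.mul_apply, Matrix.transpose_apply, Matrix.map_apply]
  refine Finset.sum_congr rfl fun e _ => ?_
  rw [Jp_sl S hi hy ha]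
  congr 1
  refine Finset.sum_congr rfl fun f _ => ?_
  rw [Jp_sl S hi hy ha]
  rfl

/-- **change of the atlas of `Y`** -/
def chg (S : Sus D K B) {B' : Atl d Y} (h1 : LBih B' B id) (KY' : Kah B')
    (hK : ∀ j' j, ∀ y ∈ (B'.e j').source, y ∈ (B.e j).source → KY'.g j' y =
      (Jp B' B id j' j y)ᵀ * S.KY.g j y * (Jp B' B id j' j y).map conj) : Sus D K B' where
  lam := S.lam
  Ψ := S.Ψ
  lb := S.lb.comp (lBih_prodMap (lBih_id (EA g)) h1)
  eqv := S.eqv
  G0 := S.G0
  G0pos := S.G0pos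
  KY := KY'
  met := by
    intro i j' a z y hz hy ha
    obtain ⟨j, hj⟩ := B.cover y
    have h2 := S.met i j a z y hz hj ha
    have h3 := Jp_comp S.lb_π.toHolMap
      (lBih_prodMap (lBih_id (EA g)) h1).toHolMap (i := (i, j')) (j := (i, j)) (l := a)
      (x := (z, y)) ⟨hz, hy⟩ ⟨hz, hj⟩ ha
    have h4 := Jp_prodMap (lBih_id (EA g)).toHolMap h1.toHolMap (i := i) (i' := i) (j := j')
      (j' := j) (x := z) (y := y) hz hy hz hj
    have h5 : Jp (EA g) (EA g) id i i z = 1 := J_self i hz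
    rw [h5] at h4
    have h6 : Jp ((EA g).prod B') A (fun q => D.pr (S.Ψ q)) (i, j') a (z, y) =
        Jp ((EA g).prod B) A (fun q => D.pr (S.Ψ q)) (i, j) a (z, y) *
          blk 1 (Jp B' B id j' j y) := by
      rw [← h4]
      exact h3.symm
    rw [h6, Matrix.transpose_mul, Matrix.map_mul, hK j' j y hy hj]
    have h7 : ∀ (X T Kk X' T' : Matrix (Fin (g + d)) (Fin (g + d)) ℂ),
        X * T * Kk * (T' * X') = X * (T * Kk * T') * X' := by
      intro X T Kk X' T'
      simp only [Matrix.mul_assoc]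
    rw [h7, h2, blk_transpose, blk_map, blk_mul, blk_mul]
    congr 1
    rw [Matrix.transpose_one, Matrix.one_mul]
    simp

/-- the slices are immersed -/
theorem imm_sl (S : Sus D K B) (z0 : Cn g) : ∀ j a, ∀ z ∈ dm B A (S.sl z0) j a,
    Function.Injective (fderiv ℂ (rd B A (S.sl z0) j a) z) := by
  intro j a z hz
  have hy := (B.e j).map_target hz.1
  have h1 := sl_quad S (z := z0) hy hz.2
  have hpos := S.KY.pos j _ hy
  rw [Jp_eq, (B.e j).right_inv hz.1] at h1
  set T := fderiv ℂ (rd B A (S.sl z0) j a) z with hT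
  rw [injective_iff_map_eq_zero]
  intro v hv
  have h2 : (mt T) *ᵥ (fun b => v b) = 0 := by
    funext c
    have := mt_apply T v c
    rw [hv] at this
    simp only [Matrix.mulVec, dotProduct]
    rw [← this]
    rfl
  have h3 : ((mt T).map conj) *ᵥ (fun b => conj (v b)) = 0 := by
    funext c
    have h4 := RingHom.map_mulVec (starRingEnd ℂ) (mt T) (fun b => v b) c
    rw [h2, Pi.zero_apply, map_zero] at h4
    exact h4.symm
  have h4 : (S.KY.g j ((B.e j).symm z)) *ᵥ (fun b => conj (v b)) = 0 := by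
    rw [← h1, ← Matrix.mulVec_mulVec, h3, Matrix.mulVec_zero]
  have h5 := Matrix.mulVec_injective_of_isUnit hpos.isUnit (h4.trans (Matrix.mulVec_zero _).symm)
  ext b
  have h6 := congrFun h5 b
  simpa using h6

/-- the slices are injective if `lam` is -/
theorem inj_sl (S : Sus D K B) (hlam : Function.Injective S.lam) (z : Cn g) :
    Function.Injective (S.sl z) := by
  intro y y' h
  obtain ⟨γ, hγ⟩ := D.exists_deck (e := S.Ψ (z, y)) (e' := S.Ψ (z, y')) h
  rw [S.eqv] at hγ
  have h1 := S.Ψ.injective hγ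
  have h2 : z + Multiplicative.toAdd (S.lam γ) = z := congrArg Prod.fst h1
  have h3 : S.lam γ = 1 := by
    have h4 : Multiplicative.toAdd (S.lam γ) = 0 := by simpa using h2
    exact h4
  have h5 : γ = 1 := hlam (by rw [h3, map_one])
  have h6 : γ • y = y' := congrArg Prod.snd h1
  rw [h5, one_smul] at h6
  exact h6

/-- a congruent matrix is positive definite -/
theorem posDef_congr {k : ℕ} {X : Matrix (Fin k) (Fin k) ℂ} (hX : X.PosDef)
    {J : Matrix (Fin k) (Fin k) ℂ} (hJ : J.det ≠ 0) : (Jᵀ * X * J.map conj).PosDef := by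
  have h1 : (J.map conj).conjTranspose = Jᵀ := by
    ext a b
    simp [Matrix.conjTranspose_apply]
  have h2 := hX.conjTranspose_mul_mul_same (B := J.map conj) (by
    apply Matrix.mulVec_injective_of_isUnit
    rw [Matrix.isUnit_iff_isUnit_det, Sus.det_map_conj]
    exact isUnit_iff_ne_zero.2 (by simpa using hJ))
  rwa [h1] at h2

/-- curvature of the restriction of a metric with curvature `K` to the slices -/
theorem cur_sl {L : LB A} {L' : LB B} (S : Sus D K B) {z : Cn g} (T : PB (S.sl z) L' L)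
    {hM : HM L} (hK : ∀ a, ∀ x ∈ (A.e a).source, cur hM a x = K.g a x) {j : B.ι} {y : Y}
    (hy : y ∈ (B.e j).source) : cur (T.pullHM (S.holMap_sl z) hM) j y = S.KY.g j y := by
  obtain ⟨a, ha⟩ := A.cover (S.sl z y)
  rw [cur_pull T (S.holMap_sl z) hM hy ha, hK a _ ha, sl_quad S hy ha]

/-- **a refined atlas of `Y`**, such that the slice maps charts into charts -/
theorem exists_chg [CompactSpace Y] [T2Space Y] {L : LB A} (S : Sus D K B) (hM : HM L)
    (hK : ∀ a, ∀ x ∈ (A.e a).source, cur hM a x = K.g a x) :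
    ∃ B' : Atl d Y, Finite B'.ι ∧ GoodA B' ∧ Nonempty (Part B') ∧ LBih B' B id ∧ LBih B B' id ∧
      ∃ S' : Sus D K B', Nonempty (Ref B' A (S'.sl 0)) ∧ S'.lam = S.lam ∧ S'.Ψ = S.Ψ ∧
        S'.G0 = S.G0 := by
  obtain ⟨B', h1, h2, h3, hr, -, h5, h6⟩ := exists_refine B
    (fun a : A.ι => S.sl 0 ⁻¹' (A.e a).source)
    (fun a => (A.e a).open_source.preimage (S.holMap_sl 0).cont) (fun y => A.cover (S.sl 0 y))
  choose r hr using hr
  let R : Ref B' A (S.sl 0) := ⟨r, fun i x hx => hr i hx⟩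
  have hf : HolMap B' A (S.sl 0) := (S.holMap_sl 0).comp h5.toHolMap
  have hcur : ∀ j' j, ∀ y ∈ (B'.e j').source, y ∈ (B.e j).source →
      cur ((PB.ref hf R L).pullHM hf hM) j' y =
        (Jp B' B id j' j y)ᵀ * S.KY.g j y * (Jp B' B id j' j y).map conj := by
    intro j' j y hy hj
    obtain ⟨a, ha⟩ := A.cover (S.sl 0 y)
    have e1 := cur_pull (PB.ref hf R L) hf hM (i := j') (j := a) hy ha
    have e2 : Jp B' A (S.sl 0) j' a y = Jp B A (S.sl 0) j a y * Jp B' B id j' j y :=
      (Jp_comp (p := id) (S.holMap_sl 0) h5.toHolMap (i := j') (j := j) (l := a) (x := y)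
        hy hj ha).symm
    rw [e1, e2, hK a _ ha, ← sl_quad S (z := 0) hj ha, Matrix.transpose_mul, Matrix.map_mul]
    simp only [Matrix.mul_assoc]
  have hpos : ((PB.ref hf R L).pullHM hf hM).Pos := by
    refine pos_of_cur fun j' y hy => ?_
    obtain ⟨j, hj⟩ := B.cover y
    rw [hcur j' j y hy hj]
    exact posDef_congr (S.KY.pos j y hj) (h5.det j' j y hy hj)
  refine ⟨B', h1, h2, h3, h5, h6, chg S h5 (kah _ hpos) hcur, ⟨R⟩, rfl, rfl, rfl⟩

/-- sections of the restriction -/
theorem isHS_res {PM : ProjD A} (S : Sus D K B) (R : Ref B A (S.sl 0))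
    (hinj : Function.Injective (S.sl 0)) (k : Fin (PM.N + 1)) :
    IsHS (pullLB (S.holMap_sl 0) R (lb PM)) univ
      (sec (pullProjD (S.holMap_sl 0) R hinj (imm_sl S 0) PM) k) := by
  set P0 := pullProjD (S.holMap_sl 0) R hinj (imm_sl S 0) PM with hP0
  refine ⟨(isHS_sec P0 k).hol, (isHS_sec P0 k).off, fun i j x hx _ => ?_⟩
  rw [sec_eq P0 hx.1, sec_eq P0 hx.2, pullLB_g _ _ _ hx]
  have h1 := (isHS_sec PM k).tr (R.r i) (R.r j) (S.sl 0 x) ⟨R.sub i x hx.1, R.sub j x hx.2⟩
    (mem_univ _)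
  rw [sec_eq PM (R.sub i x hx.1), sec_eq PM (R.sub j x hx.2)] at h1
  exact h1

/-- **T1 (LIFTS) for the normal form** -/
theorem lifts_sus [CompactSpace Y] [T2Space Y] [SimplyConnectedSpace Y] (S : Sus D K B)
    (R : Ref B A (S.sl 0)) (hlam : Function.Injective S.lam) (PM : ProjD A) (hM : HM (lb PM))
    (hK : ∀ a, ∀ x ∈ (A.e a).source, cur hM a x = K.g a x)
    (hfd : ∀ L : LB B, FiniteDimensional ℂ (HS L (univ : Set Y))) :
    ∃ N : ℕ, 0 < N ∧ ∃ (P : ProjD B)
      (χ : Fin (P.N + 1) → ((powMonoidHom N : G →* G).range →* Circle)),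
      (∀ (γ : (powMonoidHom N : G →* G).range) i j, ∀ x ∈ (B.e i).source,
        γ • x ∈ (B.e j).source →
        ∃ c : ℂ, ∀ k, P.F j (γ • x) k = c * ((χ k γ : ℂ) * P.F i x k)) ∧
      (∀ w ∈ Subgroup.closure {w : (powMonoidHom N : G →* G).range →* Circle |
        ∃ k l, w = χ k / χ l}, ∀ m : ℕ, m ≠ 0 → w ^ m = 1 → w = 1) ∧
      (∀ k, ∃ i, ∃ x ∈ (B.e i).source, P.F i x k ≠ 0) := by
  have hinj := inj_sl S hlam 0
  set L' := pullLB (S.holMap_sl 0) R (lb PM) with hL'
  set h := (PB.ref (S.holMap_sl 0) R (lb PM)).pullHM (S.holMap_sl 0) hM with hh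
  have := hfd L'
  have hcur : ∀ (γ : G) i j, ∀ x ∈ (B.e i).source, γ • x ∈ (B.e j).source →
      cur h i x = (Jp B B (fun x => γ • x) i j x)ᵀ * cur h j (γ • x) *
        (Jp B B (fun x => γ • x) i j x).map conj := by
    intro γ i j x hx hj
    rw [hh, cur_sl S _ hK hx, cur_sl S _ hK hj]
    exact S.KY_inv γ hx hj
  obtain ⟨N, hN, P, χ, h1, h2, h3, -⟩ := lifts
    (pullProjD (S.holMap_sl 0) R hinj (imm_sl S 0) PM) (isHS_res S R hinj) h G
    S.holMap_smul hcur
  exact ⟨N, hN, P, χ, h1, h2, h3⟩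

end

end Crest.Agent.R273.LiftS_522
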