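import Crest.Agent.R273.AsmD_534
import Crest.Agent.R273.LiftS_522
import Crest.Agent.R273.Red_333

/-!
# R273 (S0416), Part B, global assembly (helper534), IV

* `main_hasSus` : the induction step for manifolds with the normal form
* `main_of`     : `YauStmt`, `NFStmt`, `PartA`, `TorMain` imply `Main`
-/

set_option autoImplicit false
set_option linter.unusedSectionVars false

open Set Metric Filter Topology Complex Function
open scoped ContDiff Matrix ComplexConjugate ComplexOrder

namespace Crest.Agent.R273.AsmE_534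

open Crest.Agent.R275.Geo Crest.Agent.R275.Core144 Crest.Agent.R275.GC293
open Crest.Agent.R275.SerG398
open Crest.Agent.R273.Defs_333 Crest.Agent.R273.HM_333 Crest.Agent.R273.Hess_333
open Crest.Agent.R273.Kah_333 Crest.Agent.R273.Vol_333 Crest.Agent.R273.FS_333
open Crest.Agent.R273.Map_835 Crest.Agent.R273.PB_835 Crest.Agent.R273.Prd_835
open Crest.Agent.R273.UCov_914 Crest.Agent.R273.Sus_333 Crest.Agent.R273.TorDefs_422
open Crest.Agent.R273.PartA_61 Crest.Agent.R273.LamN127 Crest.Agent.R273.TD3_733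
open Crest.Agent.R273.HFlow3_376 Crest.Agent.R273.RMan4_798
open Crest.Agent.R273.AsmB_534 Crest.Agent.R273.AsmC_534 Crest.Agent.R273.AsmD_534
open Crest.Agent.R273.YauDefs_635 (YauStmt)

noncomputable section

/-- the induction step for a manifold in normal form, any atlas of the fibre -/
theorem main_sus' {g d : ℕ} {M : Type} [TopologicalSpace M] {A : Atl (g + d) M} {K : Kah A}
    {G : Type} [CommGroup G] {D : MonD A G} {Y : Type} [TopologicalSpace Y] [MulAction G Y]
    {B : Atl d Y} (hT : TorMain) (HA : PartA) [T2Space M] [CompactSpace M] [Finite A.ι]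
    (hA : GoodA A) (PM : Part A) (X : Pol A K) (hs : (volK K).Semipos) (S : Sus D K B)
    [ConnectedSpace (D.cov G)] [Group.FG G] (hl : Function.Injective S.lam)
    [T2Space Y] [CompactSpace Y] [SimplyConnectedSpace Y] (IH : ∀ m < g + d, MainN m) :
    ∃ m : ℕ, 0 < m ∧ HasSec ((KB A)⁻¹ ^ m) := by
  obtain ⟨B', hfin, gB', ⟨PB'⟩, -, -, S', ⟨R⟩, hlam, -, -⟩ := LiftS_522.exists_chg S X.hL X.curL
  exact main_sus hT HA hA PM X hs S' (by rw [hlam]; exact hl) R gB' PB' IH

/-- the induction step for a manifold with the normal form -/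
theorem main_hasSus (hT : TorMain) (HA : PartA) {n : ℕ} {M : Type} [t : TopologicalSpace M]
    {A : Atl n M} {K : Kah A} (h : HasSus K) [T2Space M] [CompactSpace M] [Finite A.ι]
    (hA : GoodA A) (PM : Part A) (X : Pol A K) (hs : (volK K).Semipos)
    (IH : ∀ m < n, MainN m) : ∃ m : ℕ, 0 < m ∧ HasSec ((KB A)⁻¹ ^ m) := by
  cases h with
  | mk K G D Y B hB pB S hl => exact main_sus' hT HA hA PM X hs S hl IH

/-- the polarisation of a Kaehler metric in the class of `O(1)` -/
def polKah {n : ℕ} {M : Type} [TopologicalSpace M] {A : Atl n M} (P : ProjD A) {H : HM (lb P)}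
    (hp : H.Pos) : Pol A (kah H hp) where
  P := P
  H := H
  c := 1
  cpos := one_pos
  cur i x _ := by
    rw [ofReal_one, one_smul]
    rfl
  L := lb P
  hL := H
  curL _ _ _ := rfl

/-- **`Main` in all dimensions** -/
theorem mainN_of (hY : YauStmt) (hNF : NFStmt) (HA : PartA) (hT : TorMain) (n : ℕ) :
    MainN n := by
  induction n using Nat.strong_induction_on with
  | _ n IH =>
    intro M _ _ _ _ A _ hA hP P h hs
    obtain ⟨PA⟩ := hP
    obtain ⟨u, hu, hp, c, -, h2⟩ := ClassC_945.exists_kah hY hA ⟨PA⟩ P h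
    have hsK : (volK (kah (tw (fs P) u hu) hp)).Semipos := by
      refine semipos_of_cur fun i x hx => ?_
      rw [h2 i x hx]
      exact cur_posSemidef hs i hx
    obtain ⟨G, _, D, F, _, hF, hF', hc, hS⟩ := hNF n M A hA PA _ hsK
    have hfin : Finite (D.atl F).ι := inferInstanceAs (Finite (A.ι × F))
    obtain ⟨X⟩ := Pol.cov D (D.pullPart F PA) (polKah P hp)
    exact D.main_of_cov (F := F) (main_hasSus hT HA hS (D.goodA hA) (D.pullPart F PA) X
      (volK_pull_semipos D F hsK) IH)

/-- **`Main`** -/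
theorem main_of (hY : YauStmt) (hNF : NFStmt) (HA : PartA) (hT : TorMain) : Main :=
  main_iff.2 (mainN_of hY hNF HA hT)

end

end Crest.Agent.R273.AsmE_534
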