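import Crest.Agent.R273.SteinD_794

/-!
# R273, STEIN complements, part E (helper794): projective manifolds

* `lin P ℓ`        : linear form in the homogeneous coordinates, section of `lb P`;
* `imm`            : the quotients `F_a / ℓ` are an immersion;
* `exists_lin_df`  : every functional is the differential of a quotient of linear forms;
* `QS`, `exists_coords` : given independent quotients can be completed to coordinates;
* `StD`, `exists_stein` : Stein complement through a given point.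
-/

set_option autoImplicit false
set_option linter.unusedSectionVars false

open Set Filter Topology
open scoped ContDiff

namespace Crest.Agent.R273.SteinE_794

open Crest.Agent.R275.Geo Crest.Agent.R275.Core144 Crest.Agent.R273.SteinA_794
open Crest.Agent.R273.SteinC_794 Crest.Agent.R273.SteinD_794
open Crest.Agent.R273.Defs_333 (ProjD)
open Crest.Agent.R273.FS_333 (lb sec isHS_sec exists_sec_ne sec_eq)

noncomputable section

variable {n : ℕ} {M : Type} [TopologicalSpace M] {A : Atl n M}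

section linear

variable (P : ProjD A)

/-- a linear form in the homogeneous coordinates -/
def lin (l : Fin (P.N + 1) → ℂ) : A.ι → M → ℂ := fun i x => ∑ k, l k * sec P k i x

theorem isHS_lin (l : Fin (P.N + 1) → ℂ) : IsHS (lb P) univ (lin P l) where
  hol i := HolAt.sum _ fun k _ => ((isHS_sec P k).hol i).const_mul _
  off i x hx := by simp [lin, (isHS_sec P _).off i x hx]
  tr i j x hx hxU := by
    unfold lin
    rw [Finset.mul_sum]
    refine Finset.sum_congr rfl fun k _ => ?_
    rw [(isHS_sec P k).tr i j x hx hxU]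
    ring

/-- a linear form which does not vanish at a given point -/
theorem exists_lin_ne {i : A.ι} {x : M} (hx : x ∈ (A.e i).source) :
    ∃ l, lin P l i x ≠ 0 := by
  classical
  obtain ⟨k, hk⟩ := exists_sec_ne P hx
  refine ⟨Pi.single k 1, ?_⟩
  simpa [lin, Pi.single_apply] using hk

/-- the functions `F_a / ℓ` -/
def gq (l : Fin (P.N + 1) → ℂ) (a : Fin (P.N + 1)) : M → ℂ := qt (sec P a) (lin P l)

theorem gq_hol (l : Fin (P.N + 1) → ℂ) (a : Fin (P.N + 1)) (i : A.ι) :
    HolAt A i (nz (lin P l)) (gq P l a) := qt_hol (isHS_sec P a) (isHS_lin P l) i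

theorem imm (l : Fin (P.N + 1) → ℂ) {i : A.ι} {x : M} (hx : x ∈ (A.e i).source)
    (hxV : x ∈ nz (lin P l)) (v : Cn n) (hv : ∀ a, df A i (gq P l a) x v = 0) : v = 0 := by
  have h0 : lin P l i x ≠ 0 := (mem_nz (isHS_lin P l) hx).1 hxV
  refine P.imm i (A.e i x) ((A.e i).map_source hx) v
    ⟨df A i (lin P l i) x v / lin P l i x, ?_⟩
  have h1 : ∀ a, DifferentiableAt ℂ (fun w => P.F i ((A.e i).symm w) a) (A.e i x) := fun a =>
    (P.hol i a).diffAt isOpen_univ hx (mem_univ x)
  have h2 : fderiv ℂ (fun w => P.F i ((A.e i).symm w)) (A.e i x) =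
      ContinuousLinearMap.pi fun a => fderiv ℂ (fun w => P.F i ((A.e i).symm w) a) (A.e i x) :=
    fderiv_pi h1
  funext a
  rw [h2]
  have h3 := df_qt (isHS_sec P a) (isHS_lin P l) hx h0
  have h4 := congrArg (fun φ : Cn n →L[ℂ] ℂ => φ v) h3
  simp only [_root_.smul_apply, smul_eq_mul] at h4
  have h5 : df A i (qt (sec P a) (lin P l)) x v = 0 := hv a
  rw [h5, mul_zero] at h4
  simp only [wr, _root_.sub_apply, _root_.smul_apply, smul_eq_mul] at h4
  have h6 : df A i (sec P a i) x = fderiv ℂ (fun w => P.F i ((A.e i).symm w) a) (A.e i x) := by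
    have : sec P a i =ᶠ[𝓝 x] fun y => P.F i y a := by
      filter_upwards [(A.e i).open_source.mem_nhds hx] with y hy using sec_eq P hy a
    rw [df_congr hx this]
    rfl
  rw [h6, sec_eq P hx] at h4
  simp only [ContinuousLinearMap.coe_pi', Pi.smul_apply, smul_eq_mul, (A.e i).left_inv hx]
  rw [div_mul_eq_mul_div, eq_div_iff h0]
  linear_combination -h4

theorem df_lin (l0 l : Fin (P.N + 1) → ℂ) {i : A.ι} {x : M} (hx : x ∈ (A.e i).source)
    (hxV : x ∈ nz (lin P l0)) (v : Cn n) :
    df A i (qt (lin P l) (lin P l0)) x v = ∑ a, l a * df A i (gq P l0 a) x v := by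
  have hV := isOpen_nz (isHS_lin P l0)
  have h1 : qt (lin P l) (lin P l0) =ᶠ[𝓝 x] fun y => ∑ a, l a * gq P l0 a y := by
    filter_upwards [(A.e i).open_source.mem_nhds hx] with y hy
    rw [qt_eq (isHS_lin P l) (isHS_lin P l0) hy]
    simp only [gq]
    rw [Finset.sum_congr rfl fun a _ => by rw [qt_eq (isHS_sec P a) (isHS_lin P l0) hy]]
    conv_lhs => rw [lin]
    rw [Finset.sum_div]
    exact Finset.sum_congr rfl fun a _ => by ring
  rw [df_congr hx h1]
  have h2 : ∀ a, DifferentiableAt ℂ (fun w => gq P l0 a ((A.e i).symm w)) (A.e i x) := fun a =>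
    (gq_hol P l0 a i).diffAt hV hx hxV
  have h3 : df A i (fun y => ∑ a, l a * gq P l0 a y) x =
      ∑ a, l a • df A i (gq P l0 a) x := by
    unfold df
    rw [fderiv_fun_sum fun a _ => (h2 a).const_mul _]
    exact Finset.sum_congr rfl fun a _ => fderiv_const_mul (h2 a) _
  rw [h3]
  simp [_root_.sum_apply]

/-- every functional is the differential of a quotient of linear forms -/
theorem exists_lin_df (l0 : Fin (P.N + 1) → ℂ) {i : A.ι} {x : M} (hx : x ∈ (A.e i).source)
    (hxV : x ∈ nz (lin P l0)) (φ : Cn n →L[ℂ] ℂ) :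
    ∃ l, df A i (qt (lin P l) (lin P l0)) x = φ := by
  classical
  let G : Cn n →ₗ[ℂ] (Fin (P.N + 1) → ℂ) :=
    LinearMap.pi fun a => (df A i (gq P l0 a) x : Cn n →ₗ[ℂ] ℂ)
  have hG : LinearMap.ker G = ⊥ := by
    rw [LinearMap.ker_eq_bot']
    intro v hv
    exact imm P l0 hx hxV v fun a => congrFun hv a
  obtain ⟨H, hH⟩ := G.exists_leftInverse_of_injective hG
  refine ⟨fun a => φ (H (Pi.single a 1)), ?_⟩
  ext v
  rw [df_lin P l0 _ hx hxV]
  have h1 : G v = ∑ a, df A i (gq P l0 a) x v • (Pi.single a 1 : Fin (P.N + 1) → ℂ) := by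
    funext b
    simp [G, Finset.sum_apply, Pi.single_apply]
  have h2 : v = H (G v) := by
    have := LinearMap.congr_fun hH v
    exact this.symm
  conv_rhs => rw [h2, h1, map_sum, map_sum]
  refine Finset.sum_congr rfl fun a _ => ?_
  rw [map_smul, map_smul, smul_eq_mul, mul_comm]

end linear

/-! ### completing coordinates -/

/-- a quotient of sections -/
structure QS (A : Atl n M) where
  B : LB A
  s : A.ι → M → ℂ
  t : A.ι → M → ℂ
  hs : IsHS B univ s
  ht : IsHS B univ t

/-- the meromorphic function -/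
def QS.fn (q : QS A) : M → ℂ := qt q.s q.t

/-- quotient of linear forms -/
def linQ (P : ProjD A) (l l0 : Fin (P.N + 1) → ℂ) : QS A :=
  ⟨lb P, lin P l, lin P l0, isHS_lin P l, isHS_lin P l0⟩

theorem finrank_dual : Module.finrank ℂ (Cn n →L[ℂ] ℂ) = n := by
  have h1 : Module.finrank ℂ (Cn n →L[ℂ] ℂ) = Module.finrank ℂ (Cn n →ₗ[ℂ] ℂ) :=
    LinearEquiv.finrank_eq (LinearMap.toContinuousLinearMap (𝕜 := ℂ) (E := Cn n) (F' := ℂ)).symm
  rw [h1, Module.finrank_linearMap]
  simp

theorem exists_coords (P : ProjD A) (l0 : Fin (P.N + 1) → ℂ) {i : A.ι} {x : M}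
    (hx : x ∈ (A.e i).source) (hxV : x ∈ nz (lin P l0)) :
    ∀ (d b : ℕ) (hb : b + d = n) (q : Fin b → QS A),
    LinearIndependent ℂ (fun k => df A i (q k).fn x) →
    ∃ q' : Fin n → QS A, (∀ k : Fin b, q' (Fin.castLE (by omega) k) = q k) ∧
      (∀ k, (∃ l, q' k = q l) ∨ ∃ l, q' k = linQ P l l0) ∧
      LinearIndependent ℂ (fun k => df A i (q' k).fn x) := by
  intro d
  induction d with
  | zero =>
    intro b hb q hq
    obtain rfl : b = n := by omega
    exact ⟨q, fun k => rfl, fun k => Or.inl ⟨k, rfl⟩, hq⟩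
  | succ d ih =>
    intro b hb q hq
    obtain ⟨φ, hφ⟩ := exists_linearIndependent_snoc_of_lt_finrank hq
      (by rw [finrank_dual]; omega)
    obtain ⟨l, hl⟩ := exists_lin_df P l0 hx hxV φ
    have h1 : (fun k => df A i ((Fin.snoc q (linQ P l l0) : Fin (b + 1) → QS A) k).fn x) =
        Fin.snoc (fun k => df A i (q k).fn x) φ := by
      funext k
      refine Fin.lastCases ?_ (fun k => ?_) k
      · simp only [Fin.snoc_last]
        exact hl
      · simp only [Fin.snoc_castSucc]
    obtain ⟨q', h2, h3, h4⟩ := ih (b + 1) (by omega) (Fin.snoc q (linQ P l l0)) (by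
      rw [h1]; exact hφ)
    refine ⟨q', fun k => ?_, fun k => ?_, h4⟩
    · have h5 := h2 k.castSucc
      rw [Fin.snoc_castSucc] at h5
      exact h5
    · rcases h3 k with ⟨m, hm⟩ | h
      · revert hm
        refine Fin.lastCases ?_ (fun m => ?_) m
        · intro hm
          rw [Fin.snoc_last] at hm
          exact Or.inr ⟨l, hm⟩
        · intro hm
          rw [Fin.snoc_castSucc] at hm
          exact Or.inl ⟨m, hm⟩
      · exact Or.inr h

theorem inj_of_LI {φ : Fin n → Cn n →L[ℂ] ℂ} (hφ : LinearIndependent ℂ φ) {v : Cn n}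
    (hv : ∀ k, φ k v = 0) : v = 0 := by
  classical
  rcases Nat.eq_zero_or_pos n with rfl | hn
  · ext a; exact a.elim0
  have : Nonempty (Fin n) := ⟨⟨0, hn⟩⟩
  have hspan : Submodule.span ℂ (range φ) = ⊤ :=
    hφ.span_eq_top_of_card_eq_finrank (by rw [finrank_dual]; simp)
  have hall : ∀ ψ : Cn n →L[ℂ] ℂ, ψ v = 0 := by
    intro ψ
    have h1 : ψ ∈ Submodule.span ℂ (range φ) := by rw [hspan]; trivial
    induction h1 using Submodule.span_induction with
    | mem ψ hψ =>
      obtain ⟨k, rfl⟩ := hψ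
      exact hv k
    | zero => rfl
    | add a b _ _ ha hb => rw [_root_.add_apply, ha, hb, add_zero]
    | smul c a _ ha => rw [_root_.smul_apply, ha, smul_zero]
  ext a
  exact hall (EuclideanSpace.proj a : Cn n →L[ℂ] ℂ)

/-! ### Stein complements -/

/-- complement of a divisor which is a Stein Riemann domain -/
structure StD (A : Atl n M) (P : ProjD A) where
  /-- the coordinates -/
  q : Fin n → QS A
  /-- the divisor which is removed first -/
  m : ℕ
  t : A.ι → M → ℂ
  ht : IsHS ((lb P) ^ m) univ t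
  l0 : Fin (P.N + 1) → ℂ
  sub0 : nz t ⊆ nz (lin P l0)
  subq : ∀ k, nz t ⊆ nz (q k).t

variable {P : ProjD A}

theorem isHS_pow {L : LB A} {U : Set M} {s : A.ι → M → ℂ} (hs : IsHS L U s) :
    ∀ m : ℕ, IsHS (L ^ (m + 1)) U (s ^ (m + 1))
  | 0 => by simpa using hs
  | m + 1 => by
    rw [pow_succ, pow_succ s]
    exact (isHS_pow hs m).mul hs

namespace StD

variable (D : StD A P)

theorem hqV (i : A.ι) (k : Fin n) : HolAt A i (nz D.t) (D.q k).fn :=
  (qt_hol (D.q k).hs (D.q k).ht i).mono (D.subq k)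

/-- the Riemann domain -/
def S : SD A := mkSD (isOpen_nz D.ht) D.hqV

/-- the line bundle of the divisor -/
def LD : LB A := (lb P) ^ D.m * (KB A * ∏ k, (D.q k).B ^ 2)

/-- the section defining the divisor -/
def d : A.ι → M → ℂ := D.t * jd A (fun k => (D.q k).s) (fun k => (D.q k).t)

theorem isHS_d : IsHS D.LD univ D.d :=
  D.ht.mul (isHS_jd (fun k => (D.q k).hs) fun k => (D.q k).ht)

theorem mem_U {i : A.ι} {x : M} (hx : x ∈ (A.e i).source) : x ∈ D.S.U ↔ D.d i x ≠ 0 := by
  have h1 : x ∈ D.S.U ↔ x ∈ nz D.t ∧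
      jd A (fun k => (D.q k).s) (fun k => (D.q k).t) i x ≠ 0 :=
    mem_regU_iff (isOpen_nz D.ht) (fun k => (D.q k).hs) (fun k => (D.q k).ht) D.subq hx
  rw [h1, mem_nz D.ht hx, d, Pi.mul_apply, Pi.mul_apply, mul_ne_zero_iff]

theorem U_eq : D.S.U = nz D.d := by
  ext x
  obtain ⟨i, hi⟩ := A.cover x
  rw [D.mem_U hi, mem_nz D.isHS_d hi]

theorem U_sub : D.S.U ⊆ nz D.t := fun _ hx => hx.1

/-- exhaustion of the complement of the first divisor -/
def ExhV : Exh A (nz D.t) :=
  match hm : D.m, D.ht with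
  | 0, h => Exh.ofGG h (fun _ : Unit => oneS A) (fun _ => by
      rw [pow_zero]; exact isHS_oneS univ) fun i x hx => ⟨(), by simp [oneS, hx]⟩
  | m + 1, h => Exh.ofGG h (fun k => (sec P k) ^ (m + 1)) (fun k => isHS_pow (isHS_sec P k) m)
      fun i x hx => by
        obtain ⟨k, hk⟩ := exists_sec_ne P hx
        exact ⟨k, by simpa using pow_ne_zero (m + 1) hk⟩

/-- exhaustion -/
def E : Exh A D.S.U :=
  Exh.mk' (isOpen_nz D.ht) D.hqV D.ExhV (gq P D.l0)
    (fun i a => (gq_hol P D.l0 a i).mono D.sub0)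
    (fun _ _ hx hxV v hv => imm P D.l0 hx (D.sub0 hxV) v hv)

end StD

/-- **Stein complement through a point**, with prescribed first coordinates -/
theorem exists_stein (P : ProjD A) {m : ℕ} {t : A.ι → M → ℂ} (ht : IsHS ((lb P) ^ m) univ t)
    (l0 : Fin (P.N + 1) → ℂ) (sub0 : nz t ⊆ nz (lin P l0)) {b : ℕ} (hb : b ≤ n)
    (q : Fin b → QS A) (subq : ∀ k, nz t ⊆ nz (q k).t) {i : A.ι} {x : M}
    (hx : x ∈ (A.e i).source) (hxt : t i x ≠ 0)
    (hLI : LinearIndependent ℂ (fun k => df A i (q k).fn x)) :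
    ∃ D : StD A P, D.m = m ∧ D.t = t ∧ D.l0 = l0 ∧
      (∀ k : Fin b, D.q (Fin.castLE hb k) = q k) ∧
      (∀ k, (∃ l, D.q k = q l) ∨ ∃ l, D.q k = linQ P l l0) ∧ x ∈ D.S.U := by
  have hxV : x ∈ nz t := (mem_nz ht hx).2 hxt
  obtain ⟨q', h1, h2, h3⟩ := exists_coords P l0 hx (sub0 hxV) (n - b) b (by omega) q hLI
  have hsub : ∀ k, nz t ⊆ nz (q' k).t := by
    intro k
    rcases h2 k with ⟨l, hl⟩ | ⟨l, hl⟩
    · rw [hl]; exact subq l
    · rw [hl]; exact sub0
  refine ⟨⟨q', m, t, ht, l0, sub0, hsub⟩, rfl, rfl, rfl, h1, h2, ?_⟩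
  have hq : ∀ i k, HolAt A i (nz t) (q' k).fn := fun i k =>
    (qt_hol (q' k).hs (q' k).ht i).mono (hsub k)
  exact (mem_regU (isOpen_nz ht) hq hx hxV).2 fun v hv => inj_of_LI h3 hv

end

end Crest.Agent.R273.SteinE_794
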