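import Crest.Agent.R273.FFb_769
import Crest.Agent.R273.SteinE_794

/-!
# R273, leaf A-BETA (helper769): from tensor sections to sections of line bundles

* `RelS g s t`   : `s = g t` at the regular points of `g`, for scalar families
* `bp s t S τ`   : the component `S` of `Gam (W)^{⊗ρ} τ`, `W` the matrix of the Wronskians
                   `t_k ∂ s_k - s_k ∂ t_k`; a section of `N * O^{2 Σ |S a|}`
* `exists_beta`  : a linear map `β` from sections of `(Λ^*T)^{⊗ρ} ⊗ N` to sections of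
                   `N * (lb P)^m`, compatible with quotients, `β τ' ≠ 0`
* `KK A`         : the field of quotients of sections of line bundles, `FF ≤ KK`
-/

set_option autoImplicit false
set_option linter.unusedSectionVars false

open Set Filter Topology Complex
open scoped ContDiff Matrix ComplexConjugate

namespace Crest.Agent.R273.FF769

open Crest.Agent.R275.Geo Crest.Agent.R275.Core144 Crest.Agent.R275.GC293
open Crest.Agent.R273.Defs_333 Crest.Agent.R273.FS_333
open Crest.Agent.R273.Rigid769 Crest.Agent.R273.Mer769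
open Crest.Agent.R273.Cram_747 (TS KP KP_mul KP_one tns tns_TS mnr tns_ne_zero exists_nz)
open Crest.Agent.R273.Fock_243 (FI Gam Gam_mul Gam_one Gam_of_ne Gam_eq)
open Crest.Agent.R273.SteinC_794 Crest.Agent.R273.SteinD_794 Crest.Agent.R273.SteinE_794

noncomputable section

variable {n : ℕ} {M : Type} [TopologicalSpace M] {A : Atl n M}

/-! ### scalar families -/

/-- `s = g t` at the regular points of `g` -/
def RelS (g : Mer A) (s t : A.ι → M → ℂ) : Prop :=
  ∀ i, ∀ x ∈ (A.e i).source, x ∈ reg g → s i x = ev g x * t i x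

section Scalar

variable {N N' : LB A} {s t s' t' : A.ι → M → ℂ}

/-- sections of line bundles as vector valued sections -/
theorem hs_isWS (h : IsHS N univ s) : IsWS N (fun _ _ _ => (1 : Matrix Unit Unit ℂ))
    (fun i x (_ : Unit) => s i x) := by
  refine ⟨fun i _ => h.hol i, fun i j x hx => ?_⟩
  funext u
  rw [Matrix.one_mulVec, Pi.smul_apply, smul_eq_mul]
  exact h.tr i j x hx (mem_univ x)

theorem relS_iff {g : Mer A} : RelS g s t ↔
    Rel g (fun i x (_ : Unit) => s i x) (fun i x (_ : Unit) => t i x) :=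
  ⟨fun h i x hi hx _ => h i x hi hx, fun h i x hi hx => h i x hi hx ()⟩

theorem mul_ne0 [ConnectedSpace M] (hs : IsHS N univ s) (ht : IsHS N' univ t) (h0 : s ≠ 0)
    (h1 : t ≠ 0) : s * t ≠ 0 := by
  have h2 := fun {N : LB A} {s : A.ι → M → ℂ} (hs : IsHS N univ s) (h0 : s ≠ 0) =>
    (show ∃ i, ∃ x ∈ (A.e i).source, s i x ≠ 0 by
      by_contra hcon
      push Not at hcon
      refine h0 ?_
      funext i x
      by_cases hx : x ∈ (A.e i).source
      · exact hcon i x hx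
      · exact hs.off i x hx)
  obtain ⟨i, x, hx, hne⟩ := mul_ne_zero_sec hs ht (h2 hs h0) (h2 ht h1)
  intro h
  rw [h] at hne
  exact hne rfl

theorem hs_nz (ht : IsHS N univ t) (h0 : t ≠ 0) : NZ (fun i x (_ : Unit) => t i x) := by
  by_contra hcon
  refine h0 ?_
  funext i x
  by_cases hx : x ∈ (A.e i).source
  · by_contra h1
    exact hcon ⟨i, x, hx, fun h2 => h1 (congrFun h2 ())⟩
  · exact ht.off i x hx

theorem exists_relS [ConnectedSpace M] (hs : IsHS N univ s) (ht : IsHS N univ t) (h0 : t ≠ 0) :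
    ∃ g : Mer A, RelS g s t := by
  refine ⟨quo (hs_isWS hs) (hs_isWS ht) (fun i x _ _ _ => rfl) (hs_nz ht h0), ?_⟩
  rw [relS_iff]
  exact quo_rel _ _ _ _

theorem RelS.reg_ev [ConnectedSpace M] (hs : IsHS N univ s) (ht : IsHS N univ t) {g : Mer A}
    (hg : RelS g s t) {i : A.ι} {x : M} (hi : x ∈ (A.e i).source) (hne : t i x ≠ 0) :
    x ∈ reg g ∧ ev g x = s i x / t i x :=
  Rel.reg_ev (hs_isWS hs) (hs_isWS ht) (relS_iff.1 hg) hi (F := ()) hne

/-- value of the quotient in the notation of helper794 -/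
theorem RelS.ev_qt [ConnectedSpace M] (hs : IsHS N univ s) (ht : IsHS N univ t) {g : Mer A}
    (hg : RelS g s t) {x : M} (hx : x ∈ nz t) : x ∈ reg g ∧ ev g x = qt s t x := by
  obtain ⟨i, hi⟩ := A.cover x
  have h0 : t i x ≠ 0 := (mem_nz ht hi).1 hx
  rw [qt_eq hs ht hi]
  exact hg.reg_ev hs ht hi h0

theorem relS_unique [ConnectedSpace M] (ht : IsHS N univ t) (h0 : t ≠ 0) {g g' : Mer A}
    (hg : RelS g s t) (hg' : RelS g' s t) : g = g' :=
  Rel.unique (fun i _ hx => nlz (hs_isWS ht) (hs_nz ht h0) i hx) (relS_iff.1 hg) (relS_iff.1 hg')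

theorem hs_cont (h : IsHS N univ s) (i : A.ι) {x : M} (hx : x ∈ (A.e i).source) :
    ContinuousAt (s i) x :=
  (holU_of_holAt (A.e i).open_source subset_rfl
    ((h.hol i).mono (subset_univ _))).continuousAt (A.e i).open_source hx

/-- `RelS` may be checked on a dense open set -/
theorem relS_of_dn {g : Mer A} (hs : IsHS N univ s) (ht : IsHS N univ t)
    (he : {x | ∀ i, x ∈ (A.e i).source → x ∈ reg g → s i x = ev g x * t i x} ∈ dn M) :
    RelS g s t := by
  rw [relS_iff]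
  refine rel_of_dn (fun i _ x hx => hs_cont hs i hx) (fun i _ x hx => hs_cont ht i hx) ?_
  filter_upwards [he] with x hx i hi hr _
  exact hx i hi hr

theorem relS_algebraMap (c : ℂ) (t : A.ι → M → ℂ) : RelS (algebraMap ℂ (Mer A) c) (c • t) t := by
  intro i x _ _
  rw [(reg_algebraMap c x).2]
  rfl

theorem relS_mul {g g' : Mer A} (hs : IsHS N univ s) (ht : IsHS N univ t) (hs' : IsHS N' univ s')
    (ht' : IsHS N' univ t') (h : RelS g s t) (h' : RelS g' s' t') :
    RelS (g * g') (s * s') (t * t') := by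
  refine relS_of_dn (hs.mul hs') (ht.mul ht') ?_
  filter_upwards [dn_reg g, dn_reg g'] with x hx hx' i hi _
  simp only [Pi.mul_apply]
  rw [h i x hi hx, h' i x hi hx', (reg_mul hx hx').2]
  ring

theorem relS_add {g g' : Mer A} (hs : IsHS N univ s) (ht : IsHS N univ t) (hs' : IsHS N' univ s')
    (ht' : IsHS N' univ t') (h : RelS g s t) (h' : RelS g' s' t') :
    RelS (g + g') (s * t' + t * s') (t * t') := by
  refine relS_of_dn ((hs.mul ht').add (ht.mul hs')) (ht.mul ht') ?_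
  filter_upwards [dn_reg g, dn_reg g'] with x hx hx' i hi _
  simp only [Pi.mul_apply, Pi.add_apply]
  rw [h i x hi hx, h' i x hi hx', (reg_add hx hx').2]
  ring

theorem relS_symm [ConnectedSpace M] {g : Mer A} (hs : IsHS N univ s) (ht : IsHS N univ t)
    (h : RelS g s t) (hg : g ≠ 0) : RelS g⁻¹ t s := by
  refine relS_of_dn ht hs ?_
  filter_upwards [dn_ne hg] with x hx i hi _
  rw [h i x hi hx.1, (reg_inv hx.1 hx.2).2, inv_mul_cancel_left₀ hx.2]

theorem relS_ne_zero [ConnectedSpace M] {g : Mer A} (hs : IsHS N univ s) (h : RelS g s t)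
    (h0 : s ≠ 0) : g ≠ 0 := by
  rintro rfl
  obtain ⟨i, x, hi, hx⟩ := hs_nz hs h0
  have h3 := (reg_algebraMap (A := A) 0 x)
  rw [map_zero] at h3
  exact hx (funext fun _ => by
    show s i x = 0
    rw [h i x hi h3.1, h3.2, zero_mul])

theorem relS_zero [ConnectedSpace M] {g : Mer A} (ht : IsHS N univ t) (h0 : t ≠ 0)
    (h : RelS g 0 t) : g = 0 := by
  refine relS_unique ht h0 h ?_
  have := relS_algebraMap (A := A) 0 t
  rwa [map_zero, zero_smul] at this

end Scalar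

/-- the field of quotients of sections of line bundles -/
def KK (A : Atl n M) [ConnectedSpace M] : IntermediateField ℂ (Mer A) where
  carrier := {g | ∃ (N : LB A) (s t : A.ι → M → ℂ), IsHS N univ s ∧ IsHS N univ t ∧ t ≠ 0 ∧
    RelS g s t}
  mul_mem' := by
    rintro g g' ⟨N, s, t, hs, ht, h0, h⟩ ⟨N', s', t', hs', ht', h0', h'⟩
    exact ⟨N * N', s * s', t * t', hs.mul hs', ht.mul ht', mul_ne0 ht ht' h0 h0',
      relS_mul hs ht hs' ht' h h'⟩
  add_mem' := by
    rintro g g' ⟨N, s, t, hs, ht, h0, h⟩ ⟨N', s', t', hs', ht', h0', h'⟩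
    exact ⟨N * N', s * t' + t * s', t * t', (hs.mul ht').add (ht.mul hs'), ht.mul ht',
      mul_ne0 ht ht' h0 h0', relS_add hs ht hs' ht' h h'⟩
  algebraMap_mem' := fun c => by
    refine ⟨1, c • oneS A, oneS A, (isHS_oneS univ).smul c, isHS_oneS univ, ?_,
      relS_algebraMap c _⟩
    intro h
    obtain ⟨x⟩ := (inferInstance : Nonempty M)
    obtain ⟨i, hi⟩ := A.cover x
    have h1 := congrFun (congrFun h i) x
    simp [oneS, hi] at h1
  inv_mem' := by
    rintro g ⟨N, s, t, hs, ht, h0, h⟩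
    by_cases hg : g = 0
    · subst hg
      rw [inv_zero]
      exact ⟨N, s, t, hs, ht, h0, h⟩
    · refine ⟨N, t, s, ht, hs, ?_, relS_symm hs ht h hg⟩
      rintro rfl
      exact hg (relS_zero ht h0 h)

theorem mem_KK [ConnectedSpace M] {g : Mer A} : g ∈ KK A ↔ ∃ (N : LB A) (s t : A.ι → M → ℂ),
    IsHS N univ s ∧ IsHS N univ t ∧ t ≠ 0 ∧ RelS g s t := Iff.rfl

/-! ### the pairing with Wronskians -/

section Beta

variable {ρ : Type} [Fintype ρ] [DecidableEq ρ]

/-- the component `S` of `Gam (W)^{⊗ρ} τ` -/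
def bp (s t : Fin n → A.ι → M → ℂ) (S : ρ → FI n) (τ : A.ι → M → (ρ → FI n) → ℂ) :
    A.ι → M → ℂ := fun i x => (KP ρ (Gam (Wm A s t i x)) *ᵥ τ i x) S

theorem Gam_smul (c : ℂ) (W : Matrix (Fin n) (Fin n) ℂ) (S T : FI n) :
    Gam (c • W) S T = c ^ S.card * Gam W S T := by
  by_cases h : S.card = T.card
  · rw [Gam_eq (c • W) rfl h.symm, Gam_eq W rfl h.symm]
    have : ((c • W).submatrix (S.orderEmbOfFin rfl) (T.orderEmbOfFin h.symm)) =
        c • (W.submatrix (S.orderEmbOfFin rfl) (T.orderEmbOfFin h.symm)) := rfl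
    rw [this, Matrix.det_smul, Fintype.card_fin]
  · rw [Gam_of_ne _ h, Gam_of_ne _ h, mul_zero]

theorem Wm_tr {O : LB A} {s t : Fin n → A.ι → M → ℂ} (hs : ∀ k, IsHS O univ (s k))
    (ht : ∀ k, IsHS O univ (t k)) {i j : A.ι} {x : M}
    (hx : x ∈ (A.e i).source ∩ (A.e j).source) :
    Wm A s t i x = (O.g i j x) ^ 2 • (Wm A s t j x * Jm A i j x) := by
  ext k a
  rw [Matrix.smul_apply, Matrix.mul_apply]
  simp only [Wm, Matrix.of_apply, Jm_apply]
  rw [wr_tr (hs k) (ht k) hx.1 hx.2, dJ_eq, map_sum, smul_eq_mul]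
  congr 1
  refine Finset.sum_congr rfl fun b _ => ?_
  rw [map_smul, smul_eq_mul, mul_comm]

theorem hol_Wm {O : LB A} {s t : Fin n → A.ι → M → ℂ} (hs : ∀ k, IsHS O univ (s k))
    (ht : ∀ k, IsHS O univ (t k)) (i : A.ι) (k a : Fin n) :
    HolAt A i univ (fun x => Wm A s t i x k a) :=
  (((ht k).hol i).mul (hol_df isOpen_univ ((hs k).hol i) _)).sub
    (((hs k).hol i).mul (hol_df isOpen_univ ((ht k).hol i) _))

theorem hol_Gam {i : A.ι} {U : Set M} {W : M → Matrix (Fin n) (Fin n) ℂ}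
    (h : ∀ k a, HolAt A i U (fun x => W x k a)) (S T : FI n) :
    HolAt A i U (fun x => Gam (W x) S T) := by
  by_cases hST : S.card = T.card
  · have h1 : (fun x => Gam (W x) S T) = fun x =>
        ((W x).submatrix (S.orderEmbOfFin rfl) (T.orderEmbOfFin hST.symm)).det := by
      funext x
      exact Gam_eq (W x) rfl hST.symm
    rw [h1]
    exact Cram_747.HolAt.det' fun a b => h _ _
  · have h1 : (fun x => Gam (W x) S T) = fun _ => 0 := by
      funext x
      exact Gam_of_ne _ hST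
    rw [h1]
    exact holAt_const 0

theorem KP_smul_apply (c : ℂ) (W : Matrix (Fin n) (Fin n) ℂ) (S T : ρ → FI n) :
    KP ρ (Gam (c • W)) S T = c ^ (∑ a, (S a).card) * KP ρ (Gam W) S T := by
  simp only [KP, Matrix.of_apply, Gam_smul]
  rw [Finset.prod_mul_distrib, Finset.prod_pow_eq_pow_sum]

theorem isHS_bp {O N : LB A} {s t : Fin n → A.ι → M → ℂ} (hs : ∀ k, IsHS O univ (s k))
    (ht : ∀ k, IsHS O univ (t k)) (S : ρ → FI n) {τ : A.ι → M → (ρ → FI n) → ℂ}
    (hτ : TS ρ N τ) : IsHS (N * O ^ (2 * ∑ a, (S a).card)) univ (bp s t S τ) := by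
  refine ⟨fun i => ?_, fun i x hx => ?_, fun i j x hx _ => ?_⟩
  · have h1 : (bp s t S τ i) = fun x => ∑ T, KP ρ (Gam (Wm A s t i x)) S T * τ i x T := by
      funext x
      simp [bp, Matrix.mulVec, dotProduct]
    rw [h1]
    refine HolAt.sum _ fun T _ => HolAt.mul ?_ (hτ.hol i T)
    simp only [KP, Matrix.of_apply]
    exact HolAt.prod _ fun a _ => hol_Gam (fun k a => hol_Wm hs ht i k a) _ _
  · unfold bp
    rw [hτ.off i x hx, Matrix.mulVec_zero]
    rfl
  · have hJ : Jm A i j x * Jm A j i x = 1 := by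
      rw [J_mul j i j ⟨⟨hx.2, hx.1⟩, hx.2⟩, J_self j hx.2]
    unfold bp
    rw [hτ.tr i j x hx, Matrix.mulVec_smul, Matrix.mulVec_mulVec, ← KP_mul, Wm_tr hs ht hx]
    have h1 : Gam ((O.g i j x) ^ 2 • (Wm A s t j x * Jm A i j x)) * Gam (Jm A j i x) =
        Gam ((O.g i j x) ^ 2 • Wm A s t j x) := by
      rw [← Gam_mul, Matrix.smul_mul, Matrix.mul_assoc, hJ, Matrix.mul_one]
    rw [h1, LB.mul_g, Crest.Agent.R273.HM_333.LB_pow_g, Pi.smul_apply, smul_eq_mul]
    simp only [Matrix.mulVec, dotProduct, KP_smul_apply]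
    rw [pow_mul, mul_assoc]
    congr 1
    rw [Finset.mul_sum]
    exact Finset.sum_congr rfl fun T _ => by rw [mul_assoc]

theorem bp_ne {s t : Fin n → A.ι → M → ℂ} {i : A.ι} {x : M}
    (hdet : (Wm A s t i x).det ≠ 0) {τ : A.ι → M → (ρ → FI n) → ℂ} (h0 : τ i x ≠ 0) :
    ∃ S, bp s t S τ i x ≠ 0 := by
  by_contra hcon
  push Not at hcon
  apply h0
  have h1 : KP ρ (Gam (Wm A s t i x)) *ᵥ τ i x = 0 := funext fun S => hcon S
  have hinv : (Wm A s t i x)⁻¹ * Wm A s t i x = 1 :=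
    Matrix.nonsing_inv_mul _ (isUnit_iff_ne_zero.2 hdet)
  have h2 : KP ρ (Gam ((Wm A s t i x)⁻¹)) *ᵥ (KP ρ (Gam (Wm A s t i x)) *ᵥ τ i x) = τ i x := by
    rw [Matrix.mulVec_mulVec, ← KP_mul, ← Gam_mul, hinv, Gam_one, KP_one, Matrix.one_mulVec]
  rw [← h2, h1, Matrix.mulVec_zero]

theorem relS_bp {g : Mer A} {s t : Fin n → A.ι → M → ℂ} (S : ρ → FI n)
    {τ u : A.ι → M → (ρ → FI n) → ℂ} (h : Rel g τ u) : RelS g (bp s t S τ) (bp s t S u) := by
  intro i x hi hx
  unfold bp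
  have h1 : τ i x = ev g x • u i x := by
    funext F
    exact h i x hi hx F
  rw [h1, Matrix.mulVec_smul]
  rfl

/-- `bp` as a linear map -/
def bpL (s t : Fin n → A.ι → M → ℂ) (S : ρ → FI n) :
    (A.ι → M → (ρ → FI n) → ℂ) →ₗ[ℂ] (A.ι → M → ℂ) where
  toFun τ := bp s t S τ
  map_add' τ u := by
    funext i x
    simp [bp, Matrix.mulVec_add]
  map_smul' c τ := by
    funext i x
    simp [bp, Matrix.mulVec_smul]

/-- Wronskian frames exist at every point of an embedded manifold -/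
theorem exists_frame (P : ProjD A) {i : A.ι} {x : M} (hx : x ∈ (A.e i).source) :
    ∃ s t : Fin n → A.ι → M → ℂ, (∀ k, IsHS (lb P) univ (s k)) ∧
      (∀ k, IsHS (lb P) univ (t k)) ∧ (Wm A s t i x).det ≠ 0 := by
  obtain ⟨l0, hl0⟩ := exists_lin_ne (P := P) hx
  have hxV : x ∈ nz (lin P l0) := (mem_nz (isHS_lin P l0) hx).2 hl0
  obtain ⟨q', -, h2, h3⟩ := exists_coords P l0 hx hxV n 0 (by omega) Fin.elim0
    (linearIndependent_empty_type)
  have h4 : ∀ k, ∃ l, q' k = linQ P l l0 := by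
    intro k
    rcases h2 k with ⟨l, _⟩ | h
    · exact l.elim0
    · exact h
  choose l hl using h4
  refine ⟨fun k => lin P (l k), fun _ => lin P l0, fun k => isHS_lin P _, fun _ => isHS_lin P _, ?_⟩
  have h5 := mem_regU_iff (A := A) (B := fun _ : Fin n => lb P) (s := fun k => lin P (l k))
    (t := fun _ => lin P l0) (V := nz (lin P l0)) (isOpen_nz (isHS_lin P l0))
    (fun k => isHS_lin P _) (fun _ => isHS_lin P _) (fun _ => subset_rfl) hx
  have h6 : x ∈ regU A (nz (lin P l0)) (fun k : Fin n => qt (lin P (l k)) (lin P l0)) := by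
    refine (mem_regU (isOpen_nz (isHS_lin P l0)) (fun i k => ?_) hx hxV).2 fun v hv => ?_
    · exact qt_hol (isHS_lin P _) (isHS_lin P _) i
    · refine inj_of_LI h3 fun k => ?_
      rw [hl k]
      exact hv k
  have h7 := (h5.1 h6).2
  rwa [jd_eq hx] at h7

/-- **A-BETA** -/
theorem exists_beta [ConnectedSpace M] (P : ProjD A) {τ' : A.ι → M → (ρ → FI n) → ℂ} {N' : LB A}
    (hτ' : TS ρ N' τ') (h0 : τ' ≠ 0) :
    ∃ (m : ℕ) (β : (A.ι → M → (ρ → FI n) → ℂ) →ₗ[ℂ] (A.ι → M → ℂ)),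
      (∀ (N : LB A) (τ : A.ι → M → (ρ → FI n) → ℂ), TS ρ N τ → IsHS (N * (lb P) ^ m) univ (β τ)) ∧
      (∀ (g : Mer A) (τ u : A.ι → M → (ρ → FI n) → ℂ), Rel g τ u → RelS g (β τ) (β u)) ∧
      β τ' ≠ 0 := by
  obtain ⟨i, x, hi, hx⟩ := ts_nz hτ' h0
  obtain ⟨s, t, hs, ht, hdet⟩ := exists_frame P hi
  obtain ⟨S, hS⟩ := bp_ne hdet hx
  refine ⟨2 * ∑ a, (S a).card, bpL s t S, fun N τ hτ => isHS_bp hs ht S hτ,
    fun g τ u h => relS_bp S h, fun h => hS ?_⟩
  exact congrFun (congrFun h i) x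

end Beta

/-- `FF ≤ KK` -/
theorem FF_le_KK [ConnectedSpace M] (P : ProjD A) {ρ : Type} [Fintype ρ] [DecidableEq ρ]
    {L : LB A} {w0 : A.ι → M → (ρ → FI n) → ℂ} {a : ℕ} (hw : TS ρ (L ^ a) w0) (h0 : w0 ≠ 0) :
    FF hw h0 ≤ KK A := by
  rintro g ⟨σ, _, _, _, b, τ, u, hτ, hu, hu0, hr⟩
  obtain ⟨m, β, h1, h2, h3⟩ := exists_beta P hu.ts hu0
  exact ⟨L ^ b * (lb P) ^ m, β τ, β u, h1 _ _ hτ.ts, h1 _ _ hu.ts, h3, h2 _ _ _ hr⟩

end

end Crest.Agent.R273.FF769
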