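import Crest.Agent.R273.ChowM_313
import Crest.Agent.R273.Beta_769
import Mathlib.RingTheory.Nullstellensatz
import Mathlib.FieldTheory.IntermediateField.Adjoin.Algebra

/-!
# R273 (S0416), leaf CHOW, part 6 (helper313)

* `exists_char` : a proper ideal of a finitely generated `ℂ`-algebra is killed by a character;
* `quot_mem`    : `s / t ∈ Reg` if `t` has no zero on `nz d0` (sections of any line bundle);
* `exists_ext`  : elements of `Reg` are elements of the field `Mer A`;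
* `KK_fg`       : the field `KK A` of quotients of sections is finitely generated.
-/

set_option autoImplicit false
set_option linter.unusedSectionVars false

open Set Filter Topology Complex
open scoped ContDiff Matrix ComplexConjugate Kronecker Polynomial

namespace Crest.Agent.R273.Chow_313

open Crest.Agent.R275 Crest.Agent.R275.Geo Crest.Agent.R275.Core144 Crest.Agent.R275.Dg199
open Crest.Agent.R273.LamN127 Crest.Agent.R273.KosAb_619 Crest.Agent.R273.SerA_945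
open Crest.Agent.R273.SerB_945 Crest.Agent.R273.SerC_945 Crest.Agent.R273.KosGen_313
open Crest.Agent.R273.Defs_333 Crest.Agent.R273.FS_333 Crest.Agent.R273.SteinC_794
open Crest.Agent.R273.TD3_733 Crest.Agent.R273.SerE_945

noncomputable section

/-! ### Nullstellensatz -/

theorem exists_char {B : Type*} [CommRing B] [Algebra ℂ B] [Algebra.FiniteType ℂ B]
    {I : Ideal B} (hI : I ≠ ⊤) : ∃ χ : B →ₐ[ℂ] ℂ, ∀ f ∈ I, χ f = 0 := by
  obtain ⟨m, hm, hle⟩ := I.exists_le_maximal hI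
  let : Field (B ⧸ m) := Ideal.Quotient.field m
  have h1 : Algebra.FiniteType ℂ (B ⧸ m) :=
    Algebra.FiniteType.of_surjective (Ideal.Quotient.mkₐ ℂ m) (Ideal.Quotient.mkₐ_surjective ℂ m)
  have h2 : Module.Finite ℂ (B ⧸ m) := finite_of_finite_type_of_isJacobsonRing ℂ (B ⧸ m)
  have h3 : Function.Bijective (algebraMap ℂ (B ⧸ m)) :=
    IsAlgClosed.algebraMap_bijective_of_isIntegral
  let e : ℂ ≃ₐ[ℂ] (B ⧸ m) := AlgEquiv.ofBijective (Algebra.ofId ℂ (B ⧸ m)) h3
  refine ⟨(e.symm : (B ⧸ m) →ₐ[ℂ] ℂ).comp (Ideal.Quotient.mkₐ ℂ m), fun f hf => ?_⟩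
  have h4 : Ideal.Quotient.mkₐ ℂ m f = 0 := Ideal.Quotient.eq_zero_iff_mem.2 (hle hf)
  rw [AlgHom.comp_apply, h4, map_zero]

variable {n : ℕ} {M : Type} [TopologicalSpace M] {A : Atl n M}

section Proj

variable [T2Space M] [ConnectedSpace M] [CompactSpace M] [Finite A.ι]

/-- **quotients are regular where the denominator does not vanish** -/
theorem quot_mem (PA : Part A) (hD : D2 A) (P : ProjD A) {k : ℕ} (hk : 1 ≤ k) {d0 : Fn A}
    (hd0 : IsHS (lb P ^ k) univ d0) {B : LB A} {s t : Fn A} (hs : IsHS B univ s)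
    (ht : IsHS B univ t) (hsub : nz d0 ⊆ nz t) :
    (fun x : nz d0 => qt s t x.1) ∈ Reg (lb P ^ k) d0 hd0 := by
  have hft := reg_fg PA hD P hk hd0
  obtain ⟨m0, hm0⟩ := ggen_proj PA hD P B⁻¹
  obtain ⟨r, κ, hκ, hκ0⟩ := hm0 (k * m0) (by nlinarith)
  have e : ∀ {u : Fn A}, IsHS B univ u → ∀ j, IsHS ((lb P ^ k) ^ m0) univ (κ j * u) := by
    intro u hu j
    have h := (hκ j).mul hu
    have e1 : B⁻¹ * lb P ^ (k * m0) * B = (lb P ^ k) ^ m0 := by
      rw [mul_comm B⁻¹, inv_mul_cancel_right, pow_mul]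
    rwa [e1] at h
  let f : Fin r → Reg (lb P ^ k) d0 hd0 := fun j => toReg hd0 m0 _ (e ht j)
  let g : Fin r → Reg (lb P ^ k) d0 hd0 := fun j => toReg hd0 m0 _ (e hs j)
  have htop : Ideal.span (range f) = ⊤ := by
    by_contra hcon
    obtain ⟨χ, hχ⟩ := exists_char hcon
    obtain ⟨x, rfl⟩ := reg_pt PA hD P hk hd0 χ
    obtain ⟨i, hi⟩ := A.cover x.1
    obtain ⟨j, hj⟩ := hκ0 i x hi
    have h1 : (f j).1 x = 0 := hχ (f j) (Ideal.subset_span ⟨j, rfl⟩)
    have h2 : (f j).1 x = (κ j * t) i x / d0 i x ^ m0 := toReg_apply hd0 m0 _ (e ht j) x hi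
    rw [h1] at h2
    have h3 : d0 i x ≠ 0 := (mem_nz hd0 hi).1 x.2
    have h4 : t i x ≠ 0 := (mem_nz ht hi).1 (hsub x.2)
    have h5 : κ j i x * t i x = 0 := (div_eq_zero_iff.1 h2.symm).resolve_right (pow_ne_zero _ h3)
    exact (mul_ne_zero hj h4) h5
  have h1 : (1 : Reg (lb P ^ k) d0 hd0) ∈ Ideal.span (range f) := by
    rw [htop]
    exact Submodule.mem_top
  obtain ⟨c, hc⟩ := (Ideal.mem_span_range_iff_exists_fun).1 h1
  have h2 : (fun x : nz d0 => qt s t x.1) = (∑ j, c j * g j : Reg (lb P ^ k) d0 hd0).1 := by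
    funext x
    obtain ⟨i, hi⟩ := A.cover x.1
    have h4 : t i x ≠ 0 := (mem_nz ht hi).1 (hsub x.2)
    have hsum : ∀ u : Fin r → Reg (lb P ^ k) d0 hd0, (∑ j, c j * u j : Reg (lb P ^ k) d0 hd0).1 x =
        ∑ j, (c j).1 x * (u j).1 x := by
      intro u
      rw [AddSubmonoidClass.coe_finsetSum, Finset.sum_apply]
      rfl
    have h5 : (∑ j, c j * f j : Reg (lb P ^ k) d0 hd0).1 x = 1 := by
      rw [hc]
      rfl
    rw [hsum] at h5
    rw [hsum, qt_eq hs ht hi, ← mul_one (s i x / t i x), ← h5, Finset.mul_sum]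
    refine Finset.sum_congr rfl fun j _ => ?_
    have h6 : (f j).1 x = (κ j * t) i x / d0 i x ^ m0 := toReg_apply hd0 m0 _ (e ht j) x hi
    have h7 : (g j).1 x = (κ j * s) i x / d0 i x ^ m0 := toReg_apply hd0 m0 _ (e hs j) x hi
    have h8 : (κ j * t) i x = κ j i x * t i x := rfl
    have h9 : (κ j * s) i x = κ j i x * s i x := rfl
    rw [h6, h7, h8, h9]
    field_simp
  rw [h2]
  exact (∑ j, c j * g j : Reg (lb P ^ k) d0 hd0).2

end Proj

/-! ### finite generation of the field `KK A` -/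

open Crest.Agent.R273.Mer769 (Mer ev reg)
open Crest.Agent.R273.FF769 (KK RelS)

section Mer

variable [T2Space M] [ConnectedSpace M]

/-- `g` extends the function `f` on `nz d0` -/
def IsExt {d0 : Fn A} (g : Mer A) (f : nz d0 → ℂ) : Prop := ∀ x : nz d0, x.1 ∈ reg g ∧ ev g x.1 = f x

variable {Q : LB A} {d0 : Fn A}

theorem exists_ext_gen (hd0 : IsHS Q univ d0) (hne : ∃ i x, d0 i x ≠ 0) (f : Reg Q d0 hd0) :
    ∃ g : Mer A, g ∈ KK A ∧ IsExt g f.1 := by
  obtain ⟨j, t, ht, h⟩ := f.2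
  have h0 : pw d0 j ≠ 0 := by
    obtain ⟨x, hx⟩ := exists_ne_nz hd0 hne
    obtain ⟨i, hi⟩ := A.cover x
    intro h1
    have h2 := pw_apply d0 j hi
    rw [h1] at h2
    exact pow_ne_zero j ((mem_nz hd0 hi).1 hx) h2.symm
  obtain ⟨g, hg⟩ := FF769.exists_relS ht (isHS_pw hd0 j) h0
  refine ⟨g, ⟨_, _, _, ht, isHS_pw hd0 j, h0, hg⟩, fun x => ?_⟩
  obtain ⟨i, hi⟩ := A.cover x.1
  have h3 : pw d0 j i x ≠ 0 := by
    rw [pw_apply d0 j hi]
    exact pow_ne_zero j ((mem_nz hd0 hi).1 x.2)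
  have h4 := hg.reg_ev ht (isHS_pw hd0 j) hi h3
  rw [h x i hi, ← pw_apply d0 j hi]
  exact h4

theorem ext_unique (hd0 : IsHS Q univ d0) (hne : ∃ i x, d0 i x ≠ 0) {g g' : Mer A}
    {f : nz d0 → ℂ} (h : IsExt g f) (h' : IsExt g' f) : g = g' :=
  Mer769.eq_of_open (isOpen_nz hd0) (exists_ne_nz hd0 hne) fun x hx _ _ =>
    (h ⟨x, hx⟩).2.trans (h' ⟨x, hx⟩).2.symm

/-- elements of a generated algebra extend to the generated field -/
theorem exists_ext_adjoin (hd0 : IsHS Q univ d0) (hne : ∃ i x, d0 i x ≠ 0)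
    {S : Set (nz d0 → ℂ)} {E : IntermediateField ℂ (Mer A)}
    (hS : ∀ f ∈ S, ∃ g ∈ E, IsExt g f) {f : nz d0 → ℂ} (hf : f ∈ Algebra.adjoin ℂ S) :
    ∃ g ∈ E, IsExt g f := by
  induction hf using Algebra.adjoin_induction with
  | mem f hf => exact hS f hf
  | algebraMap c => exact ⟨algebraMap ℂ (Mer A) c, E.algebraMap_mem c, fun x =>
      Mer769.reg_algebraMap c x.1⟩
  | add f f' _ _ h h' =>
    obtain ⟨g, hg, h1⟩ := h
    obtain ⟨g', hg', h2⟩ := h'
    refine ⟨g + g', E.add_mem hg hg', fun x => ?_⟩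
    have h3 := Mer769.reg_add (h1 x).1 (h2 x).1
    exact ⟨h3.1, by rw [h3.2, (h1 x).2, (h2 x).2]; rfl⟩
  | mul f f' _ _ h h' =>
    obtain ⟨g, hg, h1⟩ := h
    obtain ⟨g', hg', h2⟩ := h'
    refine ⟨g * g', E.mul_mem hg hg', fun x => ?_⟩
    have h3 := Mer769.reg_mul (h1 x).1 (h2 x).1
    exact ⟨h3.1, by rw [h3.2, (h1 x).2, (h2 x).2]; rfl⟩

variable [CompactSpace M] [Finite A.ι]

/-- **the field of quotients of sections is finitely generated** -/
theorem KK_fg (PA : Part A) (hD : D2 A) (P : ProjD A) : (KK A).FG := by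
  classical
  -- a linear coordinate
  obtain ⟨x0⟩ := (inferInstance : Nonempty M)
  obtain ⟨i0, hi0⟩ := A.cover x0
  obtain ⟨a, ha⟩ := exists_sec_ne' P i0 x0 hi0
  have hd0 : IsHS (lb P ^ 1) univ (sec P a) := by
    rw [pow_one]
    exact isHS_sec P a
  have hne : ∃ i x, sec P a i x ≠ 0 := ⟨i0, x0, ha⟩
  obtain ⟨S, hS⟩ := (Subalgebra.fg_iff_finiteType _).2 (reg_fg PA hD P le_rfl hd0)
  have hSm : ∀ f ∈ S, f ∈ Reg (lb P ^ 1) (sec P a) hd0 := by
    intro f hf
    rw [← hS]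
    exact Algebra.subset_adjoin hf
  choose! g hg1 hg2 using fun (f : nz (sec P a) → ℂ) (hf : f ∈ S) =>
    exists_ext_gen hd0 hne ⟨f, hSm f hf⟩
  refine ⟨S.image g, le_antisymm ?_ ?_⟩
  · rw [IntermediateField.adjoin_le_iff]
    intro u hu
    rw [Finset.coe_image] at hu
    obtain ⟨f, hf, rfl⟩ := hu
    exact hg1 f hf
  · rintro u ⟨N, s, t, hs, ht, h0, hu⟩
    have ht0 : ∃ i x, t i x ≠ 0 := by
      by_contra hcon
      push Not at hcon
      exact h0 (funext fun i => funext fun x => hcon i x)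
    obtain ⟨b, c, hc, hbc⟩ := reg_quot PA hD P le_rfl hd0 hne hs ht ht0
    have hE : ∀ f ∈ (S : Set (nz (sec P a) → ℂ)),
        ∃ v ∈ IntermediateField.adjoin ℂ ((S.image g : Finset (Mer A)) : Set (Mer A)), IsExt v f := by
      intro f hf
      refine ⟨g f, IntermediateField.subset_adjoin ℂ _ ?_, hg2 f hf⟩
      rw [Finset.coe_image]
      exact ⟨f, hf, rfl⟩
    have hb : b.1 ∈ Algebra.adjoin ℂ (S : Set (nz (sec P a) → ℂ)) := by
      rw [hS]
      exact b.2
    have hc' : c.1 ∈ Algebra.adjoin ℂ (S : Set (nz (sec P a) → ℂ)) := by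
      rw [hS]
      exact c.2
    obtain ⟨vb, hvb, hvb1⟩ := exists_ext_adjoin hd0 hne hE hb
    obtain ⟨vc, hvc, hvc1⟩ := exists_ext_adjoin hd0 hne hE hc'
    have hvc0 : vc ≠ 0 := by
      rintro rfl
      refine hc (Subtype.ext (funext fun x => ?_))
      rw [← (hvc1 x).2]
      have h3 := (Mer769.reg_algebraMap (A := A) 0 x.1).2
      rw [map_zero] at h3
      exact h3
    have h1 : u * vc = vb := by
      refine Mer769.eq_of_open (U := nz (sec P a) ∩ nz t)
        ((isOpen_nz hd0).inter (isOpen_nz ht)) ?_ ?_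
      · by_contra hcon
        rw [Set.not_nonempty_iff_eq_empty] at hcon
        have h2 := eq_zero_of_nz ht hd0 hne fun i x hx hxn => by
          by_contra h3
          have h4 : x ∈ nz (sec P a) ∩ nz t := ⟨hxn, (mem_nz ht hx).2 h3⟩
          rw [hcon] at h4
          exact h4
        obtain ⟨i, x, hx⟩ := ht0
        exact hx (h2 i x)
      · rintro x ⟨hx, hxt⟩ - -
        obtain ⟨i, hi⟩ := A.cover x
        have h5 : t i x ≠ 0 := (mem_nz ht hi).1 hxt
        have h6 := hu.reg_ev hs ht hi h5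
        rw [(Mer769.reg_mul h6.1 (hvc1 ⟨x, hx⟩).1).2, h6.2, (hvc1 ⟨x, hx⟩).2, (hvb1 ⟨x, hx⟩).2,
          div_mul_eq_mul_div, div_eq_iff h5, mul_comm (s i x)]
        exact hbc ⟨x, hx⟩ i hi
    have h2 : u = vb / vc := by
      rw [eq_div_iff hvc0]
      exact h1
    rw [h2]
    exact IntermediateField.div_mem _ hvb hvc

theorem KK_ess (PA : Part A) (hD : D2 A) (P : ProjD A) : Algebra.EssFiniteType ℂ (KK A) :=
  IntermediateField.essFiniteType_iff.2 (KK_fg PA hD P)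

end Mer

end

end Crest.Agent.R273.Chow_313
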