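import Mathlib.RingTheory.FiniteType
import Mathlib.RingTheory.Algebraic.Basic
import Mathlib.Analysis.Complex.Basic
import Mathlib.Analysis.Normed.Field.Lemmas
import Mathlib.Algebra.Algebra.Subalgebra.Lattice
import Mathlib.Algebra.Algebra.Subalgebra.Tower
import Mathlib.Algebra.Order.Field.Basic
import Mathlib.Tactic.Ring
import Mathlib.Tactic.Positivity

/-!
R273 (S0416), Part A, LEMMA U over a model, file A (helper619): definitions, transitivity, reduction to
extensions generated by one element.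
-/

set_option autoImplicit false

open Finset
open scoped NNReal

namespace Crest.Agent.R273.LemU_619

universe w

/-- size of a finite family at a point -/
noncomputable def nm {A : Type w} [CommRing A] [Algebra ℂ A] (x : A →ₐ[ℂ] ℂ) (S : Finset A) : ℝ≥0 :=
  S.sup fun a => ‖x a‖₊

section

variable {A B B' : Type w} [CommRing A] [Algebra ℂ A] [CommRing B] [Algebra ℂ B] [CommRing B']
  [Algebra ℂ B']

theorem le_nm {x : A →ₐ[ℂ] ℂ} {S : Finset A} {a : A} (ha : a ∈ S) : ‖x a‖₊ ≤ nm x S :=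
  Finset.le_sup (f := fun a => ‖x a‖₊) ha

theorem nm_le {x : A →ₐ[ℂ] ℂ} {S : Finset A} {M : ℝ≥0} (h : ∀ a ∈ S, ‖x a‖₊ ≤ M) : nm x S ≤ M :=
  Finset.sup_le h

theorem exists_nm (x : A →ₐ[ℂ] ℂ) {S : Finset A} (hS : S.Nonempty) : ∃ a ∈ S, ‖x a‖₊ = nm x S := by
  obtain ⟨a, ha, h⟩ := Finset.exists_mem_eq_sup S hS fun a => ‖x a‖₊
  exact ⟨a, ha, h.symm⟩

theorem nm_ne_zero {x : A →ₐ[ℂ] ℂ} {S : Finset A} {a : A} (ha : a ∈ S) (h : x a ≠ 0) : nm x S ≠ 0 := by
  intro h0
  have h1 := le_nm (x := x) ha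
  rw [h0] at h1
  exact h (nnnorm_eq_zero.1 (le_antisymm h1 zero_le))

/-- restriction of points -/
def res (A : Type w) [CommRing A] [Algebra ℂ A] [Algebra A B] [IsScalarTower ℂ A B]
    (x' : B →ₐ[ℂ] ℂ) : A →ₐ[ℂ] ℂ := x'.comp (IsScalarTower.toAlgHom ℂ A B)

theorem res_apply [Algebra A B] [IsScalarTower ℂ A B] (x' : B →ₐ[ℂ] ℂ) (a : A) :
    res A x' a = x' (algebraMap A B a) := rfl

end

/-- The relative statement for `A ⊂ B`. -/
def Stp (A B : Type w) [CommRing A] [Algebra ℂ A] [CommRing B] [Algebra ℂ B] [Algebra A B]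
    [IsScalarTower ℂ A B] : Prop :=
  ∀ (α' β' : Finset B) (g' : B), (∃ b ∈ β', b ≠ 0) → g' ≠ 0 →
    ∃ (e : ℕ) (C : ℝ≥0) (α β : Finset A) (h' : B) (h : A), 1 ≤ e ∧ (∃ b ∈ β, b ≠ 0) ∧ g' ∣ h' ∧
      h' ≠ 0 ∧ h ≠ 0 ∧ ∀ x : A →ₐ[ℂ] ℂ, x h ≠ 0 → nm x β ≠ 0 ∧
        ∀ M : ℝ≥0, (∀ x' : B →ₐ[ℂ] ℂ, res A x' = x → x' h' ≠ 0 → nm x' α' ≤ M * nm x' β') →
          nm x α ≤ C * M ^ e * nm x β ∧
          ∀ x' : B →ₐ[ℂ] ℂ, res A x' = x → x' h' ≠ 0 →
            nm x' α' ^ e * nm x β ≤ C * nm x α * nm x' β' ^ e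

/-- transitivity -/
theorem Stp.trans {A B B' : Type w} [CommRing A] [Algebra ℂ A] [CommRing B] [Algebra ℂ B]
    [CommRing B'] [IsDomain B'] [Algebra ℂ B'] [Algebra A B] [IsScalarTower ℂ A B] [Algebra B B']
    [IsScalarTower ℂ B B'] [Algebra A B'] [IsScalarTower ℂ A B'] [IsScalarTower A B B']
    (hinj : Function.Injective (algebraMap B B'))
    (h1 : Stp A B) (h2 : Stp B B') : Stp A B' := by
  intro α'' β'' g'' hβ'' hg''
  obtain ⟨e1, C1, α', β', h'', k', he1, hβ', hgh'', hh'', hk', H1⟩ := h2 α'' β'' g'' hβ'' hg''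
  obtain ⟨e2, C2, α, β, h', h, he2, hβ, hkh', hh', hh, H2⟩ := h1 α' β' k' hβ' hk'
  refine ⟨e1 * e2, C2 * C1 ^ e2, α, β, h'' * algebraMap B B' h', h, Nat.mul_pos he1 he2, hβ,
    hgh''.mul_right _, mul_ne_zero hh'' ?_, hh, ?_⟩
  · intro h0
    exact hh' (hinj (by rw [h0, map_zero]))
  intro x hx
  obtain ⟨hxβ, H2x⟩ := H2 x hx
  refine ⟨hxβ, fun M hM => ?_⟩
  have hk'x : ∀ x' : B →ₐ[ℂ] ℂ, x' h' ≠ 0 → x' k' ≠ 0 := by
    intro x' hx' h0
    obtain ⟨c, hc⟩ := hkh'
    rw [hc, map_mul, h0, zero_mul] at hx'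
    exact hx' rfl
  -- bound on the middle level
  have hmid : ∀ x' : B →ₐ[ℂ] ℂ, res A x' = x → x' h' ≠ 0 → nm x' α' ≤ C1 * M ^ e1 * nm x' β' ∧
      ∀ x'' : B' →ₐ[ℂ] ℂ, res B x'' = x' → x'' h'' ≠ 0 →
        nm x'' α'' ^ e1 * nm x' β' ≤ C1 * nm x' α' * nm x'' β'' ^ e1 := by
    intro x' hx' hx'h'
    refine (H1 x' (hk'x x' hx'h')).2 M fun x'' hx'' hx''h'' => ?_
    refine hM x'' ?_ ?_
    · rw [← hx', ← hx'']
      ext a
      rw [res_apply, res_apply, res_apply, ← IsScalarTower.algebraMap_apply A B B']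
    · rw [map_mul]
      refine mul_ne_zero hx''h'' ?_
      rw [← hx''] at hx'h'
      exact hx'h'
  obtain ⟨hup, hlow⟩ := H2x (C1 * M ^ e1) fun x' hx' hx'h' => (hmid x' hx' hx'h').1
  constructor
  · refine hup.trans (le_of_eq ?_)
    rw [mul_pow, ← pow_mul]; ring
  · intro x'' hx'' hx''H
    set x' : B →ₐ[ℂ] ℂ := res B x'' with hx'
    have hx'x : res A x' = x := by
      rw [← hx'']
      ext a
      rw [hx', res_apply, res_apply, res_apply, ← IsScalarTower.algebraMap_apply A B B']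
    rw [map_mul] at hx''H
    have hx''h'' : x'' h'' ≠ 0 := left_ne_zero_of_mul hx''H
    have hx'h' : x' h' ≠ 0 := right_ne_zero_of_mul hx''H
    have hβ'0 : nm x' β' ≠ 0 := (H1 x' (hk'x x' hx'h')).1
    have h5 := (hmid x' hx'x hx'h').2 x'' rfl hx''h''
    have h6 := hlow x' hx'x hx'h'
    have hpos : 0 < nm x' β' ^ e2 := pow_pos (pos_iff_ne_zero.2 hβ'0) _
    refine le_of_mul_le_mul_right ?_ hpos
    calc nm x'' α'' ^ (e1 * e2) * nm x β * nm x' β' ^ e2
        = (nm x'' α'' ^ e1 * nm x' β') ^ e2 * nm x β := by rw [mul_pow, ← pow_mul]; ring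
      _ ≤ (C1 * nm x' α' * nm x'' β'' ^ e1) ^ e2 * nm x β :=
          mul_le_mul_left (pow_le_pow_left₀ zero_le h5 _) _
      _ = C1 ^ e2 * (nm x'' β'' ^ e1) ^ e2 * (nm x' α' ^ e2 * nm x β) := by
          rw [mul_pow, mul_pow]; ring
      _ ≤ C1 ^ e2 * (nm x'' β'' ^ e1) ^ e2 * (C2 * nm x α * nm x' β' ^ e2) :=
          mul_le_mul_right h6 _
      _ = C2 * C1 ^ e2 * nm x α * nm x'' β'' ^ (e1 * e2) * nm x' β' ^ e2 := by
          rw [pow_mul]; ring

/-- the trivial extension -/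
theorem Stp.of_bijective {A B : Type w} [CommRing A] [IsDomain A] [Algebra ℂ A] [CommRing B]
    [Algebra ℂ B] [Algebra A B] [IsScalarTower ℂ A B]
    (hb : Function.Bijective (algebraMap A B)) : Stp A B := by
  classical
  intro α' β' g' hβ' hg'
  set e : A ≃ₐ[ℂ] B := AlgEquiv.ofBijective (IsScalarTower.toAlgHom ℂ A B) hb with he
  have hea : ∀ a, e a = algebraMap A B a := fun a => rfl
  have key : ∀ (x' : B →ₐ[ℂ] ℂ) (S : Finset B), nm (res A x') (S.image e.symm) = nm x' S := by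
    intro x' S
    unfold nm
    rw [Finset.sup_image]
    refine Finset.sup_congr rfl fun b _ => ?_
    simp only [Function.comp_apply, res_apply, ← hea, AlgEquiv.apply_symm_apply]
  have lift : ∀ x : A →ₐ[ℂ] ℂ, ∃ x' : B →ₐ[ℂ] ℂ, res A x' = x := by
    intro x
    refine ⟨x.comp e.symm.toAlgHom, ?_⟩
    ext a
    rw [res_apply, ← hea]
    simp
  obtain ⟨b0, hb0, hb0'⟩ := hβ'
  have hbb : e.symm b0 ≠ 0 := fun h0 => hb0' (by rw [← e.apply_symm_apply b0, h0, map_zero])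
  have hgg : e.symm g' ≠ 0 := fun h0 => hg' (by rw [← e.apply_symm_apply g', h0, map_zero])
  refine ⟨1, 1, α'.image e.symm, β'.image e.symm, g', e.symm g' * e.symm b0, le_rfl,
    ⟨_, mem_image_of_mem _ hb0, hbb⟩, dvd_rfl, hg', mul_ne_zero hgg hbb, ?_⟩
  intro x hx
  rw [map_mul] at hx
  refine ⟨nm_ne_zero (mem_image_of_mem _ hb0) (right_ne_zero_of_mul hx), fun M hM => ?_⟩
  constructor
  · obtain ⟨x', rfl⟩ := lift x
    rw [key, key, one_mul, pow_one]
    refine hM x' rfl ?_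
    have := left_ne_zero_of_mul hx
    rwa [res_apply, ← hea, e.apply_symm_apply] at this
  · intro x' hx' _
    rw [← hx', key, key, pow_one, pow_one, one_mul]

/-- Reduction to one generator. -/
theorem Stp.of_gen (h1 : ∀ (A B : Type w) [CommRing A] [IsDomain A] [Algebra ℂ A]
      [Algebra.FiniteType ℂ A] [CommRing B]
      [IsDomain B] [Algebra ℂ B] [Algebra A B] [IsScalarTower ℂ A B] (z : B),
      Function.Injective (algebraMap A B) → Algebra.adjoin A {z} = ⊤ → Stp A B) :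
    ∀ (n : ℕ) (A B : Type w) [CommRing A] [IsDomain A] [Algebra ℂ A] [Algebra.FiniteType ℂ A]
      [CommRing B] [IsDomain B]
      [Algebra ℂ B] [Algebra A B] [IsScalarTower ℂ A B] (z : Fin n → B),
      Function.Injective (algebraMap A B) → Algebra.adjoin A (Set.range z) = ⊤ → Stp A B := by
  intro n
  induction n with
  | zero =>
    intro A B _ _ _ _ _ _ _ _ _ z hinj hz
    refine Stp.of_bijective ⟨hinj, fun b => ?_⟩
    have h2 : b ∈ Algebra.adjoin A (Set.range z) := by rw [hz]; exact Algebra.mem_top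
    rw [Set.range_eq_empty, Algebra.adjoin_empty, Algebra.mem_bot] at h2
    exact h2
  | succ n ih =>
    intro A B _ _ _ _ _ _ _ _ _ z hinj hz
    set A1 : Subalgebra A B := Algebra.adjoin A {z 0} with hA1
    have hz0 : z 0 ∈ A1 := Algebra.subset_adjoin (Set.mem_singleton _)
    have hS1 : Stp A A1 := by
      refine h1 A A1 ⟨z 0, hz0⟩ ?_ ?_
      · intro a b hab
        exact hinj (congrArg Subtype.val hab)
      · have h3 : (((↑) : A1 → B) ⁻¹' {z 0}) = {(⟨z 0, hz0⟩ : A1)} := by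
          ext y
          simp [Subtype.ext_iff]
        rw [← h3]
        exact Algebra.adjoin_adjoin_coe_preimage
    have hft1 : Algebra.FiniteType A A1 := (Subalgebra.fg_iff_finiteType A1).1 ⟨{z 0}, by
      rw [Finset.coe_singleton]⟩
    have hft : Algebra.FiniteType ℂ A1 := Algebra.FiniteType.trans ‹Algebra.FiniteType ℂ A› hft1
    have hS2 : Stp A1 B := by
      refine ih A1 B (fun i => z i.succ) Subtype.val_injective ?_
      rw [eq_top_iff]
      intro b _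
      have h4 : b ∈ Algebra.adjoin A (Set.range z) := by rw [hz]; exact Algebra.mem_top
      set A2 : Subalgebra A1 B := Algebra.adjoin A1 (Set.range fun i : Fin n => z i.succ) with hA2
      have h6 : z 0 ∈ A2 := A2.algebraMap_mem (⟨z 0, hz0⟩ : A1)
      have h7 : ∀ i : Fin n, z i.succ ∈ A2 := fun i => Algebra.subset_adjoin ⟨i, rfl⟩
      have h8 : ∀ i, z i ∈ A2 := fun i => Fin.cases h6 h7 i
      have h5 : Algebra.adjoin A (Set.range z) ≤ A2.restrictScalars A := by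
        refine Algebra.adjoin_le ?_
        rintro _ ⟨i, rfl⟩
        exact (Subalgebra.mem_restrictScalars A).2 (h8 i)
      exact (Subalgebra.mem_restrictScalars A).1 (h5 h4)
    exact Stp.trans Subtype.val_injective hS1 hS2

end Crest.Agent.R273.LemU_619
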