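import Crest.Agent.R273.Cmp_145
import Crest.Agent.R273.ChowM_313
import Crest.Agent.R273.SteinE_794
import Crest.Agent.R273.LemUA_619

/-!
# R273, HALF 2 of Part A, (C1) of #1999: `|λ|_h` in the ring of regular functions (helper145)
-/

set_option autoImplicit false
set_option linter.unusedSectionVars false

open Set Filter Topology Complex MeasureTheory
open scoped ContDiff Matrix ENNReal NNReal

namespace Crest.Agent.R273.Cmp2_145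

open Crest.Agent.R275.Geo Crest.Agent.R275.Core144 Crest.Agent.R275.GC293
open Crest.Agent.R273.SteinA_794 Crest.Agent.R273.SteinB_794 Crest.Agent.R273.SteinC_794
open Crest.Agent.R273.SteinM_794 Crest.Agent.R273.SteinN_794 Crest.Agent.R273.SteinG_794
open Crest.Agent.R273.SteinE_794
open Crest.Agent.R273.Defs_333 (ProjD HM HM.wt HM.Semipos HasSec)
open Crest.Agent.R273.SerC_945 Crest.Agent.R273.SerE_945
open Crest.Agent.R273.TD3_733 (D2)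
open Crest.Agent.R273.FS_333 (lb)
open Crest.Agent.R273.Chow_313
open Crest.Agent.R273.LemU_619 (nm)
open Crest.Agent.R273.Cmp_145

noncomputable section

variable {n : ℕ} {M : Type} [TopologicalSpace M] {A : Atl n M}

/-- the norm of `λ` in a chart -/
theorem lam_chart' {S : SD A} {L : LB A} (hL : HM L) {σ : A.ι → M → ℂ} (hσ : IsHS L S.U σ)
    (h0 : ∀ i, ∀ x ∈ (A.e i).source, x ∈ S.U → σ i x ≠ 0) (j0 : ℕ) (c : ℂ) {x : M}
    (hxU : x ∈ S.U) {i : A.ι} (hx : x ∈ (A.e i).source) :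
    ‖c‖ ^ 2 * Real.exp (-(j0 * wtS hL σ x)) =
      ‖c * σ i x ^ j0‖ ^ 2 * (hL.w i x) ^ j0 := by
  have h1 : Real.exp (-(j0 * wtS hL σ x)) = (‖σ i x‖ ^ 2 * hL.w i x) ^ j0 := by
    rw [← exp_wtS hL hσ h0 hx hxU, ← Real.exp_nat_mul]
    congr 1
    ring
  rw [h1, norm_mul, norm_pow, mul_pow, mul_pow]
  ring

/-- square of the supremum and sum of the squares -/
theorem nm_sq_le {B : Type*} [CommRing B] [Algebra ℂ B] [DecidableEq B] (x : B →ₐ[ℂ] ℂ) {r : ℕ}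
    (f : Fin r → B) :
    (nm x (Finset.univ.image f) : ℝ) ^ 2 ≤ ∑ l, ‖x (f l)‖ ^ 2 ∧
      ∑ l, ‖x (f l)‖ ^ 2 ≤ r * (nm x (Finset.univ.image f) : ℝ) ^ 2 := by
  have hle : ∀ l, ‖x (f l)‖ ≤ (nm x (Finset.univ.image f) : ℝ) := by
    intro l
    have := Finset.le_sup (f := fun a => ‖x a‖₊)
      (Finset.mem_image_of_mem f (Finset.mem_univ l))
    exact_mod_cast this
  constructor
  · rcases Nat.eq_zero_or_pos r with hr | hr
    · subst hr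
      simp [nm]
    · have hne : (Finset.univ.image f).Nonempty := ⟨f ⟨0, hr⟩, Finset.mem_image_of_mem _ (Finset.mem_univ _)⟩
      obtain ⟨a, ha, hsup⟩ := Finset.exists_mem_eq_sup _ hne fun a => ‖x a‖₊
      obtain ⟨l, -, rfl⟩ := Finset.mem_image.1 ha
      have h1 : (nm x (Finset.univ.image f) : ℝ) = ‖x (f l)‖ := by
        unfold nm
        rw [hsup]
        rfl
      rw [h1]
      exact Finset.single_le_sum (f := fun l => ‖x (f l)‖ ^ 2) (fun _ _ => by positivity)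
        (Finset.mem_univ l)
  · calc ∑ l, ‖x (f l)‖ ^ 2 ≤ ∑ _l : Fin r, (nm x (Finset.univ.image f) : ℝ) ^ 2 :=
          Finset.sum_le_sum fun l _ => pow_le_pow_left₀ (norm_nonneg _) (hle l) 2
      _ = _ := by simp

theorem alg_end {C K Q Λ na nb Sa Sb r r' : ℝ} (hC : 0 < C) (hna0 : 0 ≤ na) (hnb0 : 0 ≤ nb)
    (hQ0 : 0 ≤ Q) (hΛ0 : 0 ≤ Λ) (hΛQ : Λ ^ 2 = Q) (hrr : 0 ≤ r) (hrr' : 0 ≤ r')
    (a1 : na ^ 2 ≤ Sa) (a2 : Sa ≤ r * na ^ 2) (b1 : nb ^ 2 ≤ Sb) (b2 : Sb ≤ r' * nb ^ 2)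
    (hup : Sa ≤ C * (Q * Sb)) (hlo : Q * Sb ≤ C * Sa) (hK1 : 1 ≤ K)
    (hK2 : C * (r + r' + 1) ≤ K) :
    (na ^ 2 ≤ K * Q * nb ^ 2 ∧ Q * nb ^ 2 ≤ K * na ^ 2) ∧
      (na ≤ K * Λ * nb ∧ Λ * nb ≤ K * na) := by
  have hKK : K ≤ K ^ 2 := by nlinarith
  have f1 : na ^ 2 ≤ K * Q * nb ^ 2 := by
    calc na ^ 2 ≤ C * (Q * (r' * nb ^ 2)) := a1.trans (hup.trans (by gcongr))
      _ = (C * r') * (Q * nb ^ 2) := by ring
      _ ≤ K * (Q * nb ^ 2) := by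
          refine mul_le_mul_of_nonneg_right (le_trans ?_ hK2) (by positivity)
          nlinarith
      _ = _ := by ring
  have f2 : Q * nb ^ 2 ≤ K * na ^ 2 := by
    calc Q * nb ^ 2 ≤ C * (r * na ^ 2) :=
          (mul_le_mul_of_nonneg_left b1 hQ0).trans (hlo.trans (by gcongr))
      _ = (C * r) * na ^ 2 := by ring
      _ ≤ K * na ^ 2 := by
          refine mul_le_mul_of_nonneg_right (le_trans ?_ hK2) (by positivity)
          nlinarith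
  refine ⟨⟨f1, f2⟩, ?_, ?_⟩
  · refine (pow_le_pow_iff_left₀ hna0 (by positivity) two_ne_zero).1 ?_
    calc na ^ 2 ≤ K * Q * nb ^ 2 := f1
      _ ≤ K ^ 2 * Q * nb ^ 2 := by gcongr
      _ = _ := by rw [← hΛQ]; ring
  · refine (pow_le_pow_iff_left₀ (by positivity) (by positivity) two_ne_zero).1 ?_
    calc (Λ * nb) ^ 2 = Q * nb ^ 2 := by rw [← hΛQ]; ring
      _ ≤ K * na ^ 2 := f2
      _ ≤ K ^ 2 * na ^ 2 := by gcongr
      _ = _ := by ring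

set_option maxHeartbeats 1000000 in
/-- **(C1)** -/
theorem cmp_reg [T2Space M] [CompactSpace M] [ConnectedSpace M] [Finite A.ι] (PA : Part A)
    (hD : D2 A) {P : ProjD A} {S : SD A} {k : ℕ} (hk : 1 ≤ k) {d0 : A.ι → M → ℂ}
    (hd0 : IsHS (lb P ^ k) univ d0) (hU : S.U = nz d0) (hne : S.U.Nonempty) {L : LB A}
    (hL : HM L) {σ : A.ι → M → ℂ} (hσ : IsHS L S.U σ)
    (h0 : ∀ i, ∀ x ∈ (A.e i).source, x ∈ S.U → σ i x ≠ 0) {a j0 m : ℕ} {sa sb : A.ι → M → ℂ}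
    (hsa : IsHS (L ^ a * lb P ^ m) univ sa) (hsb : IsHS (L ^ (a + j0) * lb P ^ m) univ sb)
    (hsa0 : ∀ i, ∀ x ∈ (A.e i).source, x ∈ S.U → sa i x ≠ 0)
    (hsb0 : ∀ i, ∀ x ∈ (A.e i).source, x ∈ S.U → sb i x ≠ 0) {lam : M → ℂ}
    (rel : ∀ i, ∀ x ∈ (A.e i).source, x ∈ S.U → sb i x = lam x * σ i x ^ j0 * sa i x) :
    ∃ α β : Finset (Reg (lb P ^ k) d0 hd0), (∃ f ∈ α, f ≠ 0) ∧ (∃ f ∈ β, f ≠ 0) ∧
      ∃ C : ℝ, 0 < C ∧ ∀ x : nz d0,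
        ((nm (evR hd0 x) α : ℝ) ^ 2 ≤
          C * (‖lam x.1‖ ^ 2 * Real.exp (-(j0 * wtS hL σ x.1))) * (nm (evR hd0 x) β : ℝ) ^ 2 ∧
        ‖lam x.1‖ ^ 2 * Real.exp (-(j0 * wtS hL σ x.1)) * (nm (evR hd0 x) β : ℝ) ^ 2 ≤
          C * (nm (evR hd0 x) α : ℝ) ^ 2) ∧
        ((nm (evR hd0 x) α : ℝ) ≤
          C * (‖lam x.1‖ * Real.exp (-(j0 * wtS hL σ x.1) / 2)) * (nm (evR hd0 x) β : ℝ) ∧
        ‖lam x.1‖ * Real.exp (-(j0 * wtS hL σ x.1) / 2) * (nm (evR hd0 x) β : ℝ) ≤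
          C * (nm (evR hd0 x) α : ℝ)) := by
  classical
  obtain ⟨m1, hm1⟩ := ggen_proj PA hD P (L ^ (a + j0))⁻¹
  obtain ⟨m2, hm2⟩ := ggen_proj PA hD P (L ^ a)⁻¹
  set j := m + m1 + m2 with hj
  have hkj : j ≤ k * j := Nat.le_mul_of_pos_left j hk
  set N' := k * j - m with hN'
  have hN1 : m1 ≤ N' := by omega
  have hN2 : m2 ≤ N' := by omega
  have hN3 : m + N' = k * j := by omega
  obtain ⟨r, τ, hτ, hτ0⟩ := hm1 N' hN1
  obtain ⟨r', τ', hτ', hτ0'⟩ := hm2 N' hN2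
  have e1 : (L ^ (a + j0))⁻¹ * lb P ^ N' = (L ^ j0)⁻¹ * ((L ^ a)⁻¹ * lb P ^ N') := by
    rw [pow_add, mul_inv, mul_comm (L ^ a)⁻¹, mul_assoc]
  have hτ2 : ∀ l, IsHS ((L ^ j0)⁻¹ * ((L ^ a)⁻¹ * lb P ^ N')) univ (τ l) := fun l => by
    rw [← e1]; exact hτ l
  obtain ⟨C, hC, hcmp⟩ := cmp0 (HM_333.pow hL j0) hτ2 hτ0 hτ' hτ0'
  have e2 : L ^ (a + j0) * lb P ^ m * ((L ^ (a + j0))⁻¹ * lb P ^ N') = (lb P ^ k) ^ j := by
    rw [mul_comm (L ^ (a + j0)), mul_assoc, mul_inv_cancel_left, ← pow_add, hN3, pow_mul]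
  have e3 : L ^ a * lb P ^ m * ((L ^ a)⁻¹ * lb P ^ N') = (lb P ^ k) ^ j := by
    rw [mul_comm (L ^ a), mul_assoc, mul_inv_cancel_left, ← pow_add, hN3, pow_mul]
  have hα : ∀ l, IsHS ((lb P ^ k) ^ j) univ (sb * τ l) := fun l => by
    rw [← e2]; exact hsb.mul (hτ l)
  have hβ : ∀ l, IsHS ((lb P ^ k) ^ j) univ (sa * τ' l) := fun l => by
    rw [← e3]; exact hsa.mul (hτ' l)
  set α : Fin r → Reg (lb P ^ k) d0 hd0 := fun l => toReg hd0 j (sb * τ l) (hα l) with hαd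
  set β : Fin r' → Reg (lb P ^ k) d0 hd0 := fun l => toReg hd0 j (sa * τ' l) (hβ l) with hβd
  have hαv : ∀ (x : nz d0) {i : A.ι}, x.1 ∈ (A.e i).source → ∀ l,
      evR hd0 x (α l) = sb i x.1 * τ l i x.1 / d0 i x.1 ^ j := fun x i hx l =>
    toReg_apply hd0 j _ (hα l) x hx
  have hβv : ∀ (x : nz d0) {i : A.ι}, x.1 ∈ (A.e i).source → ∀ l,
      evR hd0 x (β l) = sa i x.1 * τ' l i x.1 / d0 i x.1 ^ j := fun x i hx l =>
    toReg_apply hd0 j _ (hβ l) x hx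
  have hd0n : ∀ (x : nz d0) {i : A.ι}, x.1 ∈ (A.e i).source → d0 i x.1 ≠ 0 := fun x i hx =>
    (mem_nz hd0 hx).1 x.2
  have hUx : ∀ x : nz d0, x.1 ∈ S.U := fun x => by rw [hU]; exact x.2
  refine ⟨Finset.univ.image α, Finset.univ.image β, ?_, ?_, ?_⟩
  · obtain ⟨x, hx⟩ := hne
    obtain ⟨i, hi⟩ := A.cover x
    obtain ⟨l, hl⟩ := hτ0 i x hi
    refine ⟨α l, Finset.mem_image_of_mem _ (Finset.mem_univ _), fun h => ?_⟩
    have hx' : x ∈ nz d0 := by rw [← hU]; exact hx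
    have h1 := hαv ⟨x, hx'⟩ hi l
    rw [h, map_zero] at h1
    have h2 : sb i x * τ l i x / d0 i x ^ j ≠ 0 :=
      div_ne_zero (mul_ne_zero (hsb0 i x hi hx) hl) (pow_ne_zero _ (hd0n ⟨x, hx'⟩ hi))
    exact h2 h1.symm
  · obtain ⟨x, hx⟩ := hne
    obtain ⟨i, hi⟩ := A.cover x
    obtain ⟨l, hl⟩ := hτ0' i x hi
    refine ⟨β l, Finset.mem_image_of_mem _ (Finset.mem_univ _), fun h => ?_⟩
    have hx' : x ∈ nz d0 := by rw [← hU]; exact hx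
    have h1 := hβv ⟨x, hx'⟩ hi l
    rw [h, map_zero] at h1
    have h2 : sa i x * τ' l i x / d0 i x ^ j ≠ 0 :=
      div_ne_zero (mul_ne_zero (hsa0 i x hi hx) hl) (pow_ne_zero _ (hd0n ⟨x, hx'⟩ hi))
    exact h2 h1.symm
  · set K : ℝ := max 1 (C * (r + r' + 1)) with hK
    have hK1 : 1 ≤ K := le_max_left _ _
    have hK2 : C * (r + r' + 1) ≤ K := le_max_right _ _
    refine ⟨K, by linarith, fun x => ?_⟩
    obtain ⟨i, hi⟩ := A.cover x.1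
    set Q : ℝ := ‖lam x.1‖ ^ 2 * Real.exp (-(j0 * wtS hL σ x.1)) with hQ
    have hQ0 : 0 ≤ Q := by positivity
    have hQe : Q = ‖lam x.1 * σ i x.1 ^ j0‖ ^ 2 * (hL.w i x.1) ^ j0 :=
      lam_chart' hL hσ h0 j0 _ (hUx x) hi
    obtain ⟨g1, g2⟩ := hcmp i x.1 hi
    rw [HM_333.pow_w] at g1 g2
    have hr := rel i x.1 hi (hUx x)
    have hsumα : ∑ l, ‖evR hd0 x (α l)‖ ^ 2 =
        ‖lam x.1 * σ i x.1 ^ j0‖ ^ 2 * (‖sa i x.1‖ ^ 2 / ‖d0 i x.1‖ ^ (2 * j)) * Cmp_145.sq τ i x.1 := by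
      unfold Cmp_145.sq
      rw [Finset.mul_sum]
      refine Finset.sum_congr rfl fun l _ => ?_
      rw [hαv x hi l, hr, norm_div, norm_mul, norm_mul, norm_pow, div_pow, mul_pow, mul_pow,
        ← pow_mul, mul_comm j 2]
      ring
    have hsumβ : ∑ l, ‖evR hd0 x (β l)‖ ^ 2 =
        (‖sa i x.1‖ ^ 2 / ‖d0 i x.1‖ ^ (2 * j)) * Cmp_145.sq τ' i x.1 := by
      unfold Cmp_145.sq
      rw [Finset.mul_sum]
      refine Finset.sum_congr rfl fun l _ => ?_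
      rw [hβv x hi l, norm_div, norm_mul, norm_pow, div_pow, mul_pow, ← pow_mul, mul_comm j 2]
      ring
    set T : ℝ := ‖lam x.1 * σ i x.1 ^ j0‖ ^ 2 * (‖sa i x.1‖ ^ 2 / ‖d0 i x.1‖ ^ (2 * j)) with hT
    have hT0 : 0 ≤ T := by positivity
    have hup : ∑ l, ‖evR hd0 x (α l)‖ ^ 2 ≤ C * (Q * ∑ l, ‖evR hd0 x (β l)‖ ^ 2) := by
      rw [hsumα, hsumβ, hQe]
      calc T * Cmp_145.sq τ i x.1 ≤ T * (C * ((hL.w i x.1) ^ j0 * Cmp_145.sq τ' i x.1)) :=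
            mul_le_mul_of_nonneg_left g2 hT0
        _ = _ := by rw [hT]; ring
    have hlo : Q * ∑ l, ‖evR hd0 x (β l)‖ ^ 2 ≤ C * ∑ l, ‖evR hd0 x (α l)‖ ^ 2 := by
      rw [hsumα, hsumβ, hQe]
      calc ‖lam x.1 * σ i x.1 ^ j0‖ ^ 2 * hL.w i x.1 ^ j0 *
            (‖sa i x.1‖ ^ 2 / ‖d0 i x.1‖ ^ (2 * j) * Cmp_145.sq τ' i x.1)
          = T * (hL.w i x.1 ^ j0 * Cmp_145.sq τ' i x.1) := by rw [hT]; ring
        _ ≤ T * (C * Cmp_145.sq τ i x.1) := mul_le_mul_of_nonneg_left g1 hT0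
        _ = _ := by ring
    obtain ⟨a1, a2⟩ := nm_sq_le (evR hd0 x) α
    obtain ⟨b1, b2⟩ := nm_sq_le (evR hd0 x) β
    have hΛ0 : 0 ≤ ‖lam x.1‖ * Real.exp (-(j0 * wtS hL σ x.1) / 2) := by positivity
    have hΛQ : (‖lam x.1‖ * Real.exp (-(j0 * wtS hL σ x.1) / 2)) ^ 2 = Q := by
      rw [hQ, mul_pow, ← Real.exp_nat_mul]
      congr 2
      push_cast
      ring
    exact alg_end hC (NNReal.coe_nonneg _) (NNReal.coe_nonneg _) hQ0 hΛ0 hΛQ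
      (Nat.cast_nonneg _) (Nat.cast_nonneg _) a1 a2 b1 b2 hup hlo hK1 hK2

end

end Crest.Agent.R273.Cmp2_145
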