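import Crest.Agent.R271.H1_51
import Mathlib

/-!
# R273, Part A, half 2, (K2) (helper794): approximation of points of the same fibre

`fib` : on a Riemann domain with functions `y₀ … y_b`, the first `b` of which are the first coordinates
and the last one is a simple root of a polynomial over them: two points `x, x₂` with `y x = y x₂` are
limits of points `ξ, ξ₂` with `y ξ = y ξ₂` in a given dense set.
-/

set_option autoImplicit false
set_option linter.unusedSectionVars false

open Set Filter Topology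
open scoped ContDiff

namespace Crest.Agent.R273.Fib_794

open Crest.Agent.R271.Ho51 (RDom cp ch IsCh mem_ch isCh_ch cp_cont)

noncomputable section

/-! ### polynomials as functions -/

theorem contDiff_eval {m : ℕ} (R : MvPolynomial (Fin m) ℂ) :
    ContDiff ℂ ω fun v : Fin m → ℂ => MvPolynomial.eval v R := by
  induction R using MvPolynomial.induction_on with
  | C a => simpa using contDiff_const
  | add p q hp hq => simpa using hp.add hq
  | mul_X p k hp => simpa using hp.mul (contDiff_apply ℂ ℂ k)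

/-- derivative in one variable -/
theorem hasDerivAt_eval {m : ℕ} (R : MvPolynomial (Fin m) ℂ) (j : Fin m) (v : Fin m → ℂ) :
    HasDerivAt (fun t : ℂ => MvPolynomial.eval (v + Pi.single j t) R)
      (MvPolynomial.eval v (MvPolynomial.pderiv j R)) 0 := by
  classical
  have hk : ∀ k, HasDerivAt (fun t : ℂ => (v + Pi.single j t : Fin m → ℂ) k)
      (if k = j then 1 else 0) 0 := by
    intro k
    by_cases h : k = j
    · subst h
      simpa using (hasDerivAt_id (0 : ℂ)).const_add (v k)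
    · simp only [Pi.add_apply, Pi.single_apply, h, if_false, add_zero]
      exact hasDerivAt_const _ _
  induction R using MvPolynomial.induction_on with
  | C a => simpa using hasDerivAt_const (0 : ℂ) a
  | add p q hp hq =>
    simp only [map_add]
    exact hp.add hq
  | mul_X p k hp =>
    have h1 := hp.mul (hk k)
    simp only [map_mul, MvPolynomial.eval_X]
    refine h1.congr_deriv ?_
    rw [Derivation.leibniz, MvPolynomial.pderiv_X]
    by_cases h : k = j
    · subst h
      simp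
      ring
    · simp [h]
      ring

theorem fderiv_eval {m : ℕ} (R : MvPolynomial (Fin m) ℂ) (j : Fin m) (v : Fin m → ℂ) (c : ℂ) :
    fderiv ℂ (fun v : Fin m → ℂ => MvPolynomial.eval v R) v (Pi.single j c) =
      c * MvPolynomial.eval v (MvPolynomial.pderiv j R) := by
  have h1 : HasFDerivAt (fun v : Fin m → ℂ => MvPolynomial.eval v R)
      (fderiv ℂ (fun v : Fin m → ℂ => MvPolynomial.eval v R) v) (v + Pi.single j 0) := by
    have h2 : v + Pi.single j 0 = v := by simp
    rw [h2]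
    exact ((contDiff_eval R).differentiable (by simp) v).hasFDerivAt
  have h3 : HasDerivAt (fun t : ℂ => v + Pi.single j t : ℂ → Fin m → ℂ) (Pi.single j 1) 0 := by
    rw [hasDerivAt_pi]
    intro k
    by_cases h : k = j
    · subst h
      simpa using (hasDerivAt_id (0 : ℂ)).const_add (v k)
    · simp only [Pi.add_apply, Pi.single_apply, h, if_false, add_zero]
      exact hasDerivAt_const _ _
  have h4 := h1.comp_hasDerivAt (0 : ℂ) h3
  have h5 := h4.unique (hasDerivAt_eval R j v)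
  have h6 : (Pi.single j c : Fin m → ℂ) = c • Pi.single j 1 := by
    ext k
    by_cases h : k = j
    · subst h; simp
    · simp [h]
  rw [h6, map_smul, h5, smul_eq_mul]

/-- simple roots are locally unique -/
theorem root_unique {b : ℕ} {R : MvPolynomial (Fin (b + 1)) ℂ} {v0 : Fin (b + 1) → ℂ}
    (h0 : MvPolynomial.eval v0 (MvPolynomial.pderiv (Fin.last b) R) ≠ 0) :
    ∃ V ∈ 𝓝 v0, ∀ v ∈ V, ∀ v' ∈ V, (∀ k : Fin b, v k.castSucc = v' k.castSucc) →
      MvPolynomial.eval v R = 0 → MvPolynomial.eval v' R = 0 → v = v' := by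
  set Φ : (Fin (b + 1) → ℂ) → ℂ := fun v => MvPolynomial.eval v R with hΦ
  set D := MvPolynomial.eval v0 (MvPolynomial.pderiv (Fin.last b) R) with hD
  have hs : HasStrictFDerivAt Φ (fderiv ℂ Φ v0) v0 :=
    ((contDiff_eval R).contDiffAt).hasStrictFDerivAt (by simp)
  have hDp : 0 < ‖D‖ / 2 := by
    have := norm_pos_iff.2 h0
    positivity
  have h1 := (Asymptotics.isLittleO_iff.1 hs.isLittleO) hDp
  rw [nhds_prod_eq] at h1
  obtain ⟨V, hV, hVV⟩ := (Filter.eventually_prod_self_iff (r := fun v v' : Fin (b + 1) → ℂ =>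
    ‖Φ v - Φ v' - (fderiv ℂ Φ v0) (v - v')‖ ≤ ‖D‖ / 2 * ‖v - v'‖)).1 h1
  refine ⟨V, hV, fun v hv v' hv' hvv h2 h3 => ?_⟩
  have h4 := hVV v hv v' hv'
  have h5 : v - v' = Pi.single (Fin.last b) (v (Fin.last b) - v' (Fin.last b)) := by
    funext k
    refine Fin.lastCases ?_ (fun k => ?_) k
    · simp
    · rw [Pi.sub_apply, hvv k, sub_self, Pi.single_eq_of_ne (Fin.castSucc_lt_last k).ne]
  set δ := v (Fin.last b) - v' (Fin.last b) with hδ
  have h6 : Φ v - Φ v' - (fderiv ℂ Φ v0) (v - v') = -(δ * D) := by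
    have e1 : Φ v = 0 := h2
    have e2 : Φ v' = 0 := h3
    rw [e1, e2, h5, fderiv_eval]
    ring
  simp only [h6, norm_neg, norm_mul] at h4
  have h7 : ‖v - v'‖ ≤ ‖δ‖ := by
    rw [h5]
    refine (pi_norm_le_iff_of_nonneg (norm_nonneg _)).2 fun k => ?_
    by_cases h : k = Fin.last b
    · subst h; simp
    · rw [Pi.single_eq_of_ne h]; simp
  have h8 : ‖δ‖ * ‖D‖ ≤ ‖D‖ / 2 * ‖δ‖ := h4.trans (mul_le_mul_of_nonneg_left h7 hDp.le)
  have h9 : ‖δ‖ = 0 := by
    by_contra hne
    have : 0 < ‖δ‖ := lt_of_le_of_ne (norm_nonneg _) (Ne.symm hne)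
    nlinarith
  have h10 : δ = 0 := norm_eq_zero.1 h9
  rw [h10, Pi.single_zero] at h5
  exact sub_eq_zero.1 h5

/-! ### fibres -/

variable {n : ℕ} {G : Type*} [TopologicalSpace G] [RDom n G]

/-- **(FIB)** -/
theorem fib {b : ℕ} (hb : b ≤ n) {y : Fin (b + 1) → G → ℂ} (hy : ∀ l, Continuous (y l))
    (hz : ∀ (k : Fin b) (x : G), y k.castSucc x = cp x (Fin.castLE hb k))
    {R : MvPolynomial (Fin (b + 1)) ℂ} (hR : ∀ x, MvPolynomial.eval (fun l => y l x) R = 0)
    (hR' : ∀ x, MvPolynomial.eval (fun l => y l x) (MvPolynomial.pderiv (Fin.last b) R) ≠ 0)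
    {x x2 : G} (hx : ∀ l, y l x = y l x2) {U U2 : Set G} (hU : U ∈ 𝓝 x) (hU2 : U2 ∈ 𝓝 x2)
    {D : Set G} (hD : Dense D) :
    ∃ ξ ∈ U, ∃ ξ2 ∈ U2, (∀ l, y l ξ = y l ξ2) ∧ ξ ∈ D := by
  classical
  obtain ⟨V, hV, hVV⟩ := root_unique (hR' x)
  have hyc : Continuous fun x => fun l => y l x := continuous_pi hy
  have hV2 : V ∈ 𝓝 (fun l => y l x2) := by
    have : (fun l => y l x2) = fun l => y l x := funext fun l => (hx l).symm
    rw [this]
    exact hV
  have w1 : {z | (fun l => y l z) ∈ V} ∈ 𝓝 x := hyc.continuousAt.preimage_mem_nhds hV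
  have w2 : {z | (fun l => y l z) ∈ V} ∩ U2 ∈ 𝓝 x2 :=
    inter_mem (hyc.continuousAt.preimage_mem_nhds hV2) hU2
  -- the chart at `x2`
  set e := ch x2 with he
  have hxe : x2 ∈ e.source := mem_ch x2
  have hcp : ∀ z, e z = cp z := (isCh_ch x2).apply
  have hc : ContinuousAt e.symm (cp x2) := by
    have h1 := e.continuousAt_symm (e.map_source hxe)
    rwa [hcp] at h1
  have hsx : e.symm (cp x2) = x2 := by rw [← hcp]; exact e.left_inv hxe
  have h3 : ∀ᶠ w in 𝓝 (cp x2), w ∈ e.target ∧ e.symm w ∈ {z | (fun l => y l z) ∈ V} ∩ U2 := by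
    refine Filter.Eventually.and ?_ ?_
    · rw [← hcp]
      exact e.open_target.mem_nhds (e.map_source hxe)
    · exact hc.preimage_mem_nhds (by rw [hsx]; exact w2)
  obtain ⟨r, hr, hball⟩ := Metric.eventually_nhds_iff.1 h3
  -- the point `ξ`
  have h4 : {z : G | dist (cp z) (cp x) < r} ∈ 𝓝 x :=
    (cp_cont (M := G)).continuousAt.preimage_mem_nhds (Metric.ball_mem_nhds _ hr)
  have h5 : (U ∩ {z | (fun l => y l z) ∈ V} ∩ {z : G | dist (cp z) (cp x) < r}) ∈ 𝓝 x :=
    inter_mem (inter_mem hU w1) h4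
  obtain ⟨ξ, ⟨⟨hξU, hξV⟩, hξr⟩, hξD⟩ := mem_closure_iff_nhds.1 (hD x) _ h5
  -- the point `ξ2`
  set w : Fin n → ℂ := fun j => if (j : ℕ) < b then cp ξ j else cp x2 j with hw
  have hwd : dist w (cp x2) < r := by
    refine (dist_pi_lt_iff hr).2 fun j => ?_
    by_cases hj : (j : ℕ) < b
    · have e1 : cp x2 j = cp x j := by
        have e2 := hx (Fin.castSucc ⟨j, hj⟩)
        rw [hz, hz] at e2
        exact e2.symm
      simp only [hw, hj, if_true, e1]
      exact (dist_le_pi_dist (cp ξ) (cp x) j).trans_lt hξr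
    · simp only [hw, hj, if_false, dist_self]
      exact hr
  obtain ⟨hwt, hwV, hwU⟩ := hball hwd
  have hcw : cp (e.symm w) = w := by rw [← hcp]; exact e.right_inv hwt
  have hfirst : ∀ k : Fin b, y k.castSucc ξ = y k.castSucc (e.symm w) := by
    intro k
    rw [hz, hz, hcw]
    have : ((Fin.castLE hb k : Fin n) : ℕ) < b := by simp
    simp only [hw, this, if_true]
  have hall := hVV _ hξV _ hwV hfirst (hR ξ) (hR (e.symm w))
  exact ⟨ξ, hξU, e.symm w, hwU, fun l => congrFun hall l, hξD⟩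

/-- continuous functions which are constant on the fibres over a dense set -/
theorem const_of_dense {b : ℕ} (hb : b ≤ n) {y : Fin (b + 1) → G → ℂ} (hy : ∀ l, Continuous (y l))
    (hz : ∀ (k : Fin b) (x : G), y k.castSucc x = cp x (Fin.castLE hb k))
    {R : MvPolynomial (Fin (b + 1)) ℂ} (hR : ∀ x, MvPolynomial.eval (fun l => y l x) R = 0)
    (hR' : ∀ x, MvPolynomial.eval (fun l => y l x) (MvPolynomial.pderiv (Fin.last b) R) ≠ 0)
    {D : Set G} (hD : Dense D) {X : Type*} [TopologicalSpace X] [T2Space X] {u : G → X}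
    (hu : Continuous u) (h : ∀ ξ ξ2, (∀ l, y l ξ = y l ξ2) → ξ ∈ D → u ξ = u ξ2) {x x2 : G}
    (hx : ∀ l, y l x = y l x2) : u x = u x2 := by
  by_contra hne
  obtain ⟨O1, O2, ho1, ho2, hx1, hx2, hd⟩ := t2_separation hne
  obtain ⟨ξ, hξ, ξ2, hξ2, he, hξD⟩ := fib hb hy hz hR hR' hx
    (hu.continuousAt.preimage_mem_nhds (ho1.mem_nhds hx1))
    (hu.continuousAt.preimage_mem_nhds (ho2.mem_nhds hx2)) hD
  have h1 := h ξ ξ2 he hξD
  exact Set.disjoint_left.1 hd hξ (by rw [h1]; exact hξ2)

end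

end Crest.Agent.R273.Fib_794
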