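import Crest.Agent.R273.FFi_101
import Crest.Agent.R273.Beta_769

/-!
# R273 (S0416), Part A, half 2, leaves (M1), (M2) (helper844)

* `hmB P hL b m` : the metric of `L ^ b * (lb P) ^ m`; `hmB_semipos`
* `rank_pos`     : `FF ≠ ⊥` implies that the curvature does not vanish identically
* `fi_fun`       : the elements of `FF`, as functions on a Stein domain, are first integrals of
                   `ker θ` where `rank θ = ν`
-/

set_option autoImplicit false
set_option linter.unusedSectionVars false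

open Set Filter Topology Complex Matrix
open scoped ContDiff Matrix ComplexConjugate Manifold ComplexOrder

namespace Crest.Agent.R273.MM_844

open Crest.Agent.R275 Crest.Agent.R275.Geo Crest.Agent.R275.Core144 Crest.Agent.R275.GC293
open Crest.Agent.R273.Defs_333 Crest.Agent.R273.HM_333 Crest.Agent.R273.Kah_333
open Crest.Agent.R273.FS_333
open Crest.Agent.R273.Vol_333 Crest.Agent.R273.YauDefs_635
open Crest.Agent.R273.Fock_243
open Crest.Agent.R273.Cram_747
open Crest.Agent.R273.FIf0_597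
open Crest.Agent.R273.Mer769
open Crest.Agent.R273.SteinA_794 Crest.Agent.R273.SteinC_794
open Crest.Agent.R271.Ho51 (Hol)

noncomputable section

variable {n : ℕ} {M : Type} [TopologicalSpace M] {A : Atl n M} {L L' : LB A}

/-! ### (M1) -/

theorem semipos_mul {h : HM L} {h' : HM L'} (hs : h.Semipos) (hs' : h'.Semipos) :
    (HM_333.mul h h').Semipos :=
  semipos_of_cur fun i x hx => by
    rw [cur_mul h h' i hx]
    exact (cur_posSemidef hs i hx).add (cur_posSemidef hs' i hx)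

theorem semipos_pow {h : HM L} (hs : h.Semipos) (m : ℕ) : (HM_333.pow h m).Semipos :=
  semipos_of_cur fun i x hx => by
    rw [cur_pow h m i hx]
    exact (cur_posSemidef hs i hx).smul (by positivity)

theorem semipos_of_cur_eq {h : HM L} {h' : HM L'} (hs : h.Semipos)
    (hc : ∀ i, ∀ x ∈ (A.e i).source, cur h' i x = cur h i x) : h'.Semipos :=
  semipos_of_cur fun i x hx => by
    rw [hc i x hx]
    exact cur_posSemidef hs i hx

/-- the metric of `L ^ b * (lb P) ^ m` -/
def hmB (P : ProjD A) (hL : HM L) (b m : ℕ) : HM (L ^ b * (lb P) ^ m) :=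
  HM_333.mul (HM_333.pow hL b) (HM_333.pow (fs P) m)

theorem hmB_semipos (P : ProjD A) {hL : HM L} (hs : hL.Semipos) (b m : ℕ) :
    (hmB P hL b m).Semipos :=
  semipos_mul (semipos_pow hs b) (semipos_pow (Pos.semipos (fs_pos P)) m)

theorem cur_hmB (P : ProjD A) (hL : HM L) (b m : ℕ) {i : A.ι} {x : M} (hx : x ∈ (A.e i).source) :
    cur (hmB P hL b m) i x = (b : ℂ) • cur hL i x + (m : ℂ) • cur (fs P) i x := by
  unfold hmB
  rw [cur_mul _ _ i hx, cur_pow _ _ i hx, cur_pow _ _ i hx]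

/-! ### (M2) -/

theorem eq_zero_of_rank {S : Matrix (Fin n) (Fin n) ℂ} (h : S.rank = 0) : S = 0 := by
  have h1 : Module.finrank ℂ (LinearMap.range S.mulVecLin) = 0 := h
  rw [Submodule.finrank_eq_zero, LinearMap.range_eq_bot] at h1
  ext a b
  have := congrArg (fun f : (Fin n → ℂ) →ₗ[ℂ] (Fin n → ℂ) => f (Pi.single b 1) a) h1
  simpa [Matrix.mulVecLin_apply] using this

/-- the maximal rank -/
theorem exists_nu (h : HM L) (hp : ∃ i, ∃ x ∈ (A.e i).source, 1 ≤ (cur h i x).rank) :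
    ∃ ν, 1 ≤ ν ∧ (∀ i, ∀ x ∈ (A.e i).source, (cur h i x).rank ≤ ν) ∧
      ∃ i, ∃ x ∈ (A.e i).source, ν ≤ (cur h i x).rank := by
  classical
  have hle : ∀ i x, (cur h i x).rank ≤ n := fun i x => by
    simpa using (cur h i x).rank_le_card_width
  have h1 : 1 ≤ n := by
    obtain ⟨i, x, -, hx⟩ := hp
    exact hx.trans (hle i x)
  set p : ℕ → Prop := fun k => ∃ i, ∃ x ∈ (A.e i).source, k ≤ (cur h i x).rank with hpd
  refine ⟨Nat.findGreatest p n, Nat.le_findGreatest h1 hp, fun i x hx => ?_,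
    Nat.findGreatest_spec (P := p) h1 hp⟩
  exact Nat.le_findGreatest (P := p) (hle i x) ⟨i, x, hx, le_rfl⟩

section

variable [T2Space M] [CompactSpace M] [Finite A.ι] [ConnectedSpace M]

/-- `FF ≠ ⊥` implies that the curvature has rank at least one somewhere -/
theorem rank_pos (hY : YauStmt) (hG : GoodA A) (P : Part A) {H : HM L'} (hH : H.Pos)
    {h : HM (KB A)⁻¹} (hs : h.Semipos)
    {hL : HM L} {c₀ : ℝ} (hc : ∀ i, ∀ x ∈ (A.e i).source, cur hL i x = (c₀ : ℂ) • cur h i x)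
    {ρ : Type} [Fintype ρ] [DecidableEq ρ] {w0 : A.ι → M → (ρ → FI n) → ℂ} {a : ℕ}
    (hw : TS ρ (L ^ a) w0) (h0 : w0 ≠ 0) (hFF : FF769.FF hw h0 ≠ ⊥) :
    ∃ i, ∃ x ∈ (A.e i).source, 1 ≤ (cur h i x).rank := by
  cases nonempty_fintype A.ι
  by_contra hcon
  push Not at hcon
  have hr0 : ∀ i, ∀ x ∈ (A.e i).source, (cur h i x).rank = 0 := fun i x hx =>
    Nat.lt_one_iff.1 (hcon i x hx)
  refine hFF (le_bot_iff.1 fun g hg => ?_)
  -- `ev g` is constant near a regular point
  obtain ⟨x0, hx0⟩ := (dense_reg g).nonempty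
  obtain ⟨i, hi⟩ := A.cover x0
  have hz0 := (A.e i).map_source hi
  have ho : IsOpen ((A.e i).target ∩ (A.e i).symm ⁻¹' (reg g)) := isOpen_ti (isOpen_reg g)
  have hm : A.e i x0 ∈ (A.e i).target ∩ (A.e i).symm ⁻¹' (reg g) :=
    ⟨hz0, by rw [mem_preimage, (A.e i).left_inv hi]; exact hx0⟩
  obtain ⟨ε, hε, hball⟩ := Metric.isOpen_iff.1 ho _ hm
  have hd : DifferentiableOn ℂ (fun z => ev g ((A.e i).symm z)) (Metric.ball (A.e i x0) ε) :=
    DifferentiableOn.mono (holU_ev g i) hball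
  have hf0 : ∀ z ∈ Metric.ball (A.e i x0) ε, fderiv ℂ (fun z => ev g ((A.e i).symm z)) z = 0 := by
    intro z hz
    have hzt := (hball hz).1
    have hx : (A.e i).symm z ∈ (A.e i).source := (A.e i).map_target hzt
    have hc0 : cur h i ((A.e i).symm z) = 0 := by
      have := hr0 i _ hx
      exact eq_zero_of_rank this
    have hk := fun v : Fin n → ℂ => FFi_101.fi_FF' hY hG P hH hs (ν := 0)
      (fun i x hx => (hr0 i x hx).le) hc hw h0 hg hx (hball hz).2 (hr0 i _ hx) (v := v)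
      (by simp [hc0])
    rw [(A.e i).right_inv hzt] at hk
    have he : ∀ a, fderiv ℂ (fun z => ev g ((A.e i).symm z)) z (EuclideanSpace.single a 1) = 0 := by
      intro a
      have h2 := hk (Pi.single a 1)
      simpa [Pi.single_apply, dgr] using h2
    refine ContinuousLinearMap.ext fun v => ?_
    have hv : v = ∑ a, v a • EuclideanSpace.single a (1 : ℂ) := by
      ext b
      simp [Finset.sum_apply, Pi.single_apply]
    rw [hv, map_sum]
    simp [he]
  have hconst : ∀ z ∈ Metric.ball (A.e i x0) ε,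
      ev g ((A.e i).symm z) = ev g x0 := by
    intro z hz
    have h1 := (convex_ball (A.e i x0) ε).is_const_of_fderivWithin_eq_zero (𝕜 := ℂ) hd
      (fun z hz => by
        rw [fderivWithin_of_isOpen Metric.isOpen_ball hz]
        exact hf0 z hz) hz (Metric.mem_ball_self hε)
    simpa [(A.e i).left_inv hi] using h1
  have hU : IsOpen ((A.e i).source ∩ (A.e i) ⁻¹' Metric.ball (A.e i x0) ε) :=
    (A.e i).isOpen_inter_preimage Metric.isOpen_ball
  have key : g = algebraMap ℂ (Mer A) (ev g x0) := by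
    refine eq_of_open hU ⟨x0, hi, Metric.mem_ball_self hε⟩ ?_
    rintro x ⟨hx, hxb⟩ _ _
    rw [(reg_algebraMap (ev g x0) x).2]
    have := hconst _ hxb
    rwa [(A.e i).left_inv hx] at this
  rw [key]
  exact algebraMap_mem ⊥ _

/-- **field `fi` of `YD`**: the elements of `FF`, as functions on a Stein domain, are first
integrals of `ker θ` where `rank θ = ν` -/
theorem fi_fun (hY : YauStmt) (hG : GoodA A) (P : Part A) {H : HM L'} (hH : H.Pos)
    {h : HM (KB A)⁻¹} (hs : h.Semipos) {ν : ℕ}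
    (hν : ∀ i, ∀ x ∈ (A.e i).source, (cur h i x).rank ≤ ν)
    {hL : HM L} {c₀ : ℝ} (hc : ∀ i, ∀ x ∈ (A.e i).source, cur hL i x = (c₀ : ℂ) • cur h i x)
    {ρ : Type} [Fintype ρ] [DecidableEq ρ] {w0 : A.ι → M → (ρ → FI n) → ℂ} {a : ℕ}
    (hw : TS ρ (L ^ a) w0) (h0 : w0 ≠ 0) {g : Mer A} (hg : g ∈ FF769.FF hw h0)
    {S : SD A} {y : Mo S → ℂ} (hr : ∀ x : Mo S, x.val ∈ reg g)
    (hy : ∀ x : Mo S, y x = ev g x.val) :
    ∀ i, ∀ x : Mo S, x.val ∈ (A.e i).source → (cur h i x.val).rank = ν →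
      ∀ v : Fin n → ℂ, cur h i x.val *ᵥ (star v) = 0 →
        df A i (ext0 y) x.val (WithLp.toLp 2 v) = 0 := by
  cases nonempty_fintype A.ι
  intro i x hx hrk v hv
  have hherm := cur_herm h i hx
  have hv' : ∀ b, ∑ a, v a * cur h i x.val a b = 0 := by
    intro b
    have h1 := congrFun hv b
    simp only [Matrix.mulVec, dotProduct, Pi.star_apply, Pi.zero_apply] at h1
    have h2 := congrArg star h1
    rw [star_sum, star_zero] at h2
    rw [← h2]
    refine Finset.sum_congr rfl fun a _ => ?_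
    rw [star_mul', star_star, hherm.apply a b]
    ring
  have key := FFi_101.fi_FF' hY hG P hH hs hν hc hw h0 hg hx (hr x) hrk hv'
  have hE : (fun w => ext0 y ((A.e i).symm w)) =ᶠ[𝓝 (A.e i x.val)]
      fun w => ev g ((A.e i).symm w) := by
    have hc1 := (A.e i).continuousAt_symm ((A.e i).map_source hx)
    rw [ContinuousAt, (A.e i).left_inv hx] at hc1
    filter_upwards [hc1.eventually (S.isOpen.mem_nhds x.prop)] with w hw
    have h3 := ext0_val y (⟨(A.e i).symm w, hw⟩ : Mo S)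
    exact h3.trans (hy _)
  unfold df
  rw [hE.fderiv_eq]
  have hvv : (WithLp.toLp 2 v : Cn n) = ∑ a, v a • EuclideanSpace.single a (1 : ℂ) := by
    ext b
    simp [Finset.sum_apply, Pi.single_apply]
  rw [hvv, map_sum, ← key]
  refine Finset.sum_congr rfl fun a _ => ?_
  rw [map_smul, smul_eq_mul]
  rfl

/-- version with quotients of sections -/
theorem fi_qt (hY : YauStmt) (hG : GoodA A) (P : Part A) {H : HM L'} (hH : H.Pos)
    {h : HM (KB A)⁻¹} (hs : h.Semipos) {ν : ℕ}
    (hν : ∀ i, ∀ x ∈ (A.e i).source, (cur h i x).rank ≤ ν)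
    {hL : HM L} {c₀ : ℝ} (hc : ∀ i, ∀ x ∈ (A.e i).source, cur hL i x = (c₀ : ℂ) • cur h i x)
    {ρ : Type} [Fintype ρ] [DecidableEq ρ] {w0 : A.ι → M → (ρ → FI n) → ℂ} {a : ℕ}
    (hw : TS ρ (L ^ a) w0) (h0 : w0 ≠ 0) {g : Mer A} (hg : g ∈ FF769.FF hw h0)
    {S : SD A} {B : LB A} {s t : A.ι → M → ℂ} (hss : IsHS B univ s) (ht : IsHS B univ t)
    (hgr : FF769.RelS g s t) (hU : S.U ⊆ nz t) {y : Mo S → ℂ}
    (hy : ∀ x : Mo S, y x = qt s t x.val) :
    ∀ i, ∀ x : Mo S, x.val ∈ (A.e i).source → (cur h i x.val).rank = ν →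
      ∀ v : Fin n → ℂ, cur h i x.val *ᵥ (star v) = 0 →
        df A i (ext0 y) x.val (WithLp.toLp 2 v) = 0 :=
  fi_fun hY hG P hH hs hν hc hw h0 hg (fun x => (hgr.ev_qt hss ht (hU x.prop)).1)
    fun x => by rw [hy, (hgr.ev_qt hss ht (hU x.prop)).2]

end

end

end Crest.Agent.R273.MM_844
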