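import Crest.Agent.R273.RKc_635

/-!
# R273, RK (helper635), part d: rank one

* `FIB`  : the fibres of `y` can be moved simultaneously;
* `rk`   : the field `RK` of `YD`.
-/

set_option autoImplicit false
set_option linter.unusedSectionVars false

open Set Filter Topology Complex MeasureTheory
open scoped ContDiff Matrix ENNReal

namespace Crest.Agent.R273.RKd_635

open Crest.Agent.R275.Geo Crest.Agent.R275.Core144 Crest.Agent.R273.SteinA_794
open Crest.Agent.R273.SteinB_794 Crest.Agent.R273.SteinC_794 Crest.Agent.R273.SteinD_794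
open Crest.Agent.R273.SteinM_794 Crest.Agent.R273.SteinN_794 Crest.Agent.R273.SteinL_794
open Crest.Agent.R273.Defs_333 (ProjD HM HM.wt)
open Crest.Agent.R271.Ho51 (RDom cp ch IsCh IsLeb Hol Sm mem_ch isCh_ch)
open Crest.Agent.R273.Cram_747 (TS KP tns tns_TS)
open Crest.Agent.R273.Fock_243 (FI Gam)
open Crest.Agent.R273.Mer769 Crest.Agent.R273.FF769
open Crest.Agent.R273.RKa_635 Crest.Agent.R273.RKb_635 Crest.Agent.R273.RKc_635

noncomputable section

/-- the fibres of `y` can be moved simultaneously -/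
def FIB {G : Type*} [TopologicalSpace G] {N : ℕ} (y : Fin N → G → ℂ) : Prop :=
  ∀ x x' : G, (∀ l, y l x = y l x') → ∀ U ∈ 𝓝 x, ∀ U' ∈ 𝓝 x', ∀ Q : MvPolynomial (Fin N) ℂ,
    Dense {x | MvPolynomial.eval (fun l => y l x) Q ≠ 0} →
      ∃ ξ ∈ U, ∃ ξ' ∈ U', (∀ l, y l ξ = y l ξ') ∧ MvPolynomial.eval (fun l => y l ξ) Q ≠ 0

variable {n : ℕ} {M : Type} [TopologicalSpace M] {A : Atl n M} {S : SD A}

/-! ### values of polynomials in elements of `Mer A` -/

theorem ev_aeval {N : ℕ} {Y : Fin N → Mer A} {x : M} (hY : ∀ l, x ∈ reg (Y l))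
    (P : MvPolynomial (Fin N) ℂ) : x ∈ reg (MvPolynomial.aeval Y P) ∧
      ev (MvPolynomial.aeval Y P) x = MvPolynomial.eval (fun l => ev (Y l) x) P := by
  set Y' : Fin N → loc A x := fun l => ⟨Y l, hY l⟩ with hY'
  have h1 : MvPolynomial.aeval Y P = ((MvPolynomial.aeval Y' P : loc A x) : Mer A) := by
    have h2 : Y = fun l => (loc A x).val (Y' l) := rfl
    rw [h2, ← MvPolynomial.comp_aeval_apply]
    rfl
  refine ⟨h1 ▸ (MvPolynomial.aeval Y' P).2, ?_⟩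
  rw [h1]
  have h3 : ev ((MvPolynomial.aeval Y' P : loc A x) : Mer A) x = evH A x (MvPolynomial.aeval Y' P) :=
    rfl
  rw [h3, MvPolynomial.comp_aeval_apply]
  rfl

section fib

variable {N : ℕ} {Y : Fin N → Mer A} {y : Fin N → Mo S → ℂ}

/-- dense on `Mo S` -/
theorem dense_ev [ConnectedSpace M] (hY : ∀ l, ∀ x : Mo S, x.val ∈ reg (Y l) ∧ ev (Y l) x.val = y l x)
    {Q : MvPolynomial (Fin N) ℂ} (hQ : MvPolynomial.aeval Y Q ≠ 0) :
    Dense {x : Mo S | MvPolynomial.eval (fun l => y l x) Q ≠ 0} := by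
  intro x
  rw [mem_closure_iff_nhds]
  intro U hU
  have h1 : Mo.val '' U ∈ 𝓝 x.val := isOpenEmbedding_val.isOpenMap.image_mem_nhds hU
  obtain ⟨z, hz, hzU⟩ := ((frequently_of_dn (dn_ne hQ) x.val).and_eventually
    (eventually_eventually_nhds.2 h1)).exists
  have h2 := mem_of_mem_nhds hz
  obtain ⟨x', hx'U, hx'⟩ := mem_of_mem_nhds hzU
  refine ⟨x', hx'U, ?_⟩
  have h3 := ev_aeval (Y := Y) (x := x'.val) (fun l => (hY l x').1) Q
  show MvPolynomial.eval (fun l => y l x') Q ≠ 0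
  have h4 : (fun l => y l x') = fun l => ev (Y l) x'.val := by
    funext l
    exact ((hY l x').2).symm
  rw [h4, ← h3.2, hx']
  exact h2.2

/-- a function which is an element of `ℂ(Y)` is constant on the fibres of `y` -/
theorem const_of_fib [ConnectedSpace M]
    (hY : ∀ l, ∀ x : Mo S, x.val ∈ reg (Y l) ∧ ev (Y l) x.val = y l x) (hF : FIB y)
    {g : Mer A} (hg : g ∈ IntermediateField.adjoin ℂ (range Y)) {u : Mo S → ℂ}
    (huc : Continuous u) (hu : ∀ x : Mo S, x.val ∈ reg g ∧ ev g x.val = u x) {x x' : Mo S}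
    (hxx : ∀ l, y l x = y l x') : u x = u x' := by
  obtain ⟨P, Q, hPQ⟩ := (IntermediateField.mem_adjoin_range_iff ℂ Y g).1 hg
  by_cases hQ : MvPolynomial.aeval Y Q = 0
  · rw [hQ, div_zero] at hPQ
    have h1 : ∀ x : Mo S, u x = 0 := by
      intro x
      rw [← (hu x).2, hPQ]
      have := (reg_algebraMap (A := A) 0 x.val).2
      rwa [map_zero] at this
    rw [h1, h1]
  -- the identity `u Q(y) = P(y)`
  have hmul : g * MvPolynomial.aeval Y Q = MvPolynomial.aeval Y P := by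
    rw [hPQ, div_mul_cancel₀ _ hQ]
  have key : ∀ z : Mo S, u z * MvPolynomial.eval (fun l => y l z) Q =
      MvPolynomial.eval (fun l => y l z) P := by
    intro z
    have h1 := ev_aeval (Y := Y) (x := z.val) (fun l => (hY l z).1) P
    have h2 := ev_aeval (Y := Y) (x := z.val) (fun l => (hY l z).1) Q
    have h4 : (fun l => y l z) = fun l => ev (Y l) z.val := by
      funext l
      exact ((hY l z).2).symm
    rw [h4, ← h1.2, ← h2.2, ← hmul, (reg_mul (hu z).1 h2.1).2, (hu z).2]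
  have hd := dense_ev hY hQ
  by_contra hne
  -- separate the values
  obtain ⟨V, V', hV, hV', hxV, hxV', hdis⟩ := t2_separation hne
  obtain ⟨ξ, hξ, ξ', hξ', heq, hQξ⟩ := hF x x' hxx _ (huc.continuousAt.preimage_mem_nhds
    (hV.mem_nhds hxV)) _ (huc.continuousAt.preimage_mem_nhds (hV'.mem_nhds hxV')) Q hd
  have h1 : u ξ = u ξ' := by
    have h2 := key ξ
    have h3 := key ξ'
    have h5 : (fun l => y l ξ') = fun l => y l ξ := funext fun l => (heq l).symm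
    rw [h5, ← h2] at h3
    exact (mul_right_cancel₀ hQξ h3).symm
  refine Set.disjoint_left.1 hdis (show u ξ ∈ V from hξ) ?_
  rw [h1]
  exact hξ'

end fib

/-! ### rank one -/

theorem secM [Finite A.ι] : SecondCountableTopology M := by
  have h1 : ∀ i, SecondCountableTopology (A.e i).source := fun i =>
    (A.e i).toHomeomorphSourceTarget.secondCountableTopology
  exact TopologicalSpace.secondCountableTopology_of_countable_cover
    (U := fun i => (A.e i).source) (fun i => (A.e i).open_source)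
    (eq_univ_of_forall fun x => mem_iUnion.2 (A.cover x))

section rk

variable {L : LB A} {ρ : Type} [Fintype ρ] [DecidableEq ρ] {w0 wa wb : A.ι → M → (ρ → FI n) → ℂ}
  {a j0 : ℕ} {σ : A.ι → M → ℂ}

/-- **rank one**, the field `RK` of `YD` -/
theorem rk [Finite A.ι] [ConnectedSpace M]
    (hL : HM L) (h : HM (KB A)⁻¹)
    {LD : LB A} {d : A.ι → M → ℂ} (hd : IsHS LD univ d)
    (hd0 : ∃ i, ∃ x ∈ (A.e i).source, d i x ≠ 0) (hU : S.U = nz d)
    (hσ : IsHS L S.U σ) (hσ0 : ∀ i, ∀ x ∈ (A.e i).source, x ∈ S.U → σ i x ≠ 0)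
    {lam : Mo S → ℂ} (hlam : Hol lam) {a0 : ℕ} (hw0 : TS ρ (L ^ a0) w0) (h0 : w0 ≠ 0)
    (ha : TS ρ (L ^ a) wa) (hb : TS ρ (L ^ (a + j0)) wb)
    (pa : Cram_747.Prp wa w0) (pb : Cram_747.Prp wb w0)
    (ha0 : ∀ x ∈ S.U, x ∈ Cram_747.nz wa) (hb0 : ∀ x ∈ S.U, x ∈ Cram_747.nz wb)
    (hab : ∀ i, ∀ x : Mo S, x.val ∈ (A.e i).source → ∀ F,
      wb i x.val F = lam x * σ i x.val ^ j0 * wa i x.val F)
    {κ : Type} [Fintype κ] [DecidableEq κ] [Nonempty κ] {N : ℕ}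
    {y : Fin N → Mo S → ℂ} (hy : ∀ l, Hol (y l)) {b : ℕ}
    {t : A.ι → M → (κ × ρ → FI n) → ℂ} (ht : WW L w0 κ b t)
    (ht0 : ∀ x ∈ S.U, x ∈ Cram_747.nz t)
    {s : Fin N → A.ι → M → (κ × ρ → FI n) → ℂ} (hs : ∀ l, WW L w0 κ b (s l))
    (hst : ∀ l i, ∀ x : Mo S, x.val ∈ (A.e i).source → ∀ F,
      s l i x.val F = y l x * t i x.val F)
    {Y : Fin N → Mer A} (hFF : FF hw0 h0 ≤ IntermediateField.adjoin ℂ (range Y))
    (hY : ∀ l, ∀ x : Mo S, x.val ∈ reg (Y l) ∧ ev (Y l) x.val = y l x) (hF : FIB y) :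
    ∀ (μ : Measure (Mo S)), IsLeb μ → ∀ (k i : ℕ) (u : Mo S → ℂ), Hol u →
    ∫⁻ x, ENNReal.ofReal (‖u x‖ ^ 2 * ‖lam x‖ ^ (2 * k) *
      Real.exp (-(k * (j0 * wtS hL σ x.val) + wtS h (kf S) x.val)) /
        (1 + ∑ l, ‖y l x‖ ^ 2) ^ i) ∂μ < ⊤ →
    ∀ x x' : Mo S, (∀ l, y l x = y l x') → u x = u x' := by
  intro μ hμ k i u hu hint x x' hxx
  let _ : MeasurableSpace M := borel M
  have _ : BorelSpace M := ⟨rfl⟩
  have _ : SecondCountableTopology M := secM (A := A)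
  obtain ⟨g, hg, hgu⟩ := rk_mem ha hb pa pb hL h hμ hd hd0 hU hσ hσ0 hlam hw0 h0 ha0 hb0 hab hy ht
    ht0 hs hst k i hu hint
  exact const_of_fib hY hF (hFF hg) (w_hol hu).sm.continuous hgu hxx

/-- the values of `Y l` on `Mo S` -/
theorem reg_of_rel [ConnectedSpace M] {κ : Type} [Fintype κ] [DecidableEq κ] {N : ℕ}
    {y : Fin N → Mo S → ℂ} {b : ℕ} {t : A.ι → M → (κ × ρ → FI n) → ℂ} (ht : WW L w0 κ b t)
    (ht0 : ∀ x ∈ S.U, x ∈ Cram_747.nz t)
    {s : Fin N → A.ι → M → (κ × ρ → FI n) → ℂ} (hs : ∀ l, WW L w0 κ b (s l))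
    (hst : ∀ l i, ∀ x : Mo S, x.val ∈ (A.e i).source → ∀ F,
      s l i x.val F = y l x * t i x.val F)
    {Y : Fin N → Mer A} (hY : ∀ l, Rel (Y l) (s l) t) (l : Fin N) (x : Mo S) :
    x.val ∈ reg (Y l) ∧ ev (Y l) x.val = y l x := by
  obtain ⟨i, hi⟩ := A.cover x.val
  obtain ⟨F, hF⟩ := Function.ne_iff.1 (ht.ts.ne_of_nz (ht0 _ x.prop) hi)
  have h1 := Rel.reg_ev (ts_isWS (hs l).ts) (ts_isWS ht.ts) (hY l) hi hF
  refine ⟨h1.1, ?_⟩
  rw [h1.2, hst l i x hi F, mul_div_assoc, div_self hF, mul_one]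

/-- conversely, `s l = y l t` on `S.U` if `y l` is the value of `Y l` -/
theorem rel_eq {κ : Type} {N : ℕ}
    {y : Fin N → Mo S → ℂ} {t : A.ι → M → (κ × ρ → FI n) → ℂ}
    {s : Fin N → A.ι → M → (κ × ρ → FI n) → ℂ}
    {Y : Fin N → Mer A} (hY : ∀ l, Rel (Y l) (s l) t)
    (hv : ∀ l, ∀ x : Mo S, x.val ∈ reg (Y l) ∧ ev (Y l) x.val = y l x) (l : Fin N) (i : A.ι)
    (x : Mo S) (hx : x.val ∈ (A.e i).source) (F : κ × ρ → FI n) :
    s l i x.val F = y l x * t i x.val F := by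
  rw [hY l i x.val hx (hv l x).1 F, (hv l x).2]

end rk

end

end Crest.Agent.R273.RKd_635
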