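import Crest.Agent.R273.LemUF_619
import Crest.Agent.R273.ChowM_313
import Crest.Agent.R273.AsmA_73

/-!
R273 (S0416), Part A, HALF 2 (helper619): LEMMA U on the affine model `nz d0`, and the fields `Ua`, `Ub`
of `YD`.
-/

set_option autoImplicit false
set_option linter.unusedSectionVars false

open Set Filter Topology Complex MeasureTheory
open scoped ContDiff Matrix ENNReal NNReal

namespace Crest.Agent.R273.UaUb_619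

open Crest.Agent.R275.Geo Crest.Agent.R275.Core144 Crest.Agent.R275.GC293
open Crest.Agent.R273.SteinA_794 Crest.Agent.R273.SteinB_794 Crest.Agent.R273.SteinC_794
open Crest.Agent.R273.Defs_333 (ProjD HM)
open Crest.Agent.R273.SerA_945 (Fn)
open Crest.Agent.R273.TD3_733 (D2)
open Crest.Agent.R273.FS_333 (lb)
open Crest.Agent.R273.Chow_313 Crest.Agent.R273.LemU_619
open Crest.Agent.R273.Pen_93 (Bf)
open Crest.Agent.R273.AsmA_73 (evp)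

noncomputable section

variable {n : ℕ} {M : Type} [TopologicalSpace M] {A : Atl n M}
variable [T2Space M] [ConnectedSpace M] [CompactSpace M] [Finite A.ι]

/-- LEMMA U on the affine model. -/
theorem uaub (PA : Part A) (hD : D2 A) (P : ProjD A) {k : ℕ} (hk : 1 ≤ k) {d0 : Fn A}
    (hd0 : IsHS (lb P ^ k) univ d0) (hne : ∃ i x, d0 i x ≠ 0) {N : ℕ}
    (yR : Fin N → Reg (lb P ^ k) d0 hd0) (α β : Finset (Reg (lb P ^ k) d0 hd0))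
    (hα : ∃ f ∈ α, f ≠ 0) (hβ : ∃ f ∈ β, f ≠ 0) {g : Reg (lb P ^ k) d0 hd0} (hg : g ≠ 0)
    (Λ : nz d0 → ℝ) (hΛ : ∀ x, 0 ≤ Λ x) {C : ℝ} (hC : 0 < C)
    (h1 : ∀ x, (nm (evR hd0 x) α : ℝ) ≤ C * Λ x * nm (evR hd0 x) β)
    (h2 : ∀ x, Λ x * nm (evR hd0 x) β ≤ C * nm (evR hd0 x) α)
    (hR4 : ∃ g1 : Reg (lb P ^ k) d0 hd0, g1 ≠ 0 ∧ ∀ x, g1.1 x ≠ 0 → ∃ b : ℝ, ∀ x', g1.1 x' ≠ 0 →
      (∀ l, (yR l).1 x' = (yR l).1 x) → Λ x' ≤ b) :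
    ∃ (e : ℕ) (p p' : ℕ → MvPolynomial (Fin N) ℂ) (m m' j : ℕ) (r : Fn A), 0 < e ∧
      IsHS (lb P ^ (k * j)) univ r ∧ (∃ i x, r i x ≠ 0) ∧ (∃ x : nz d0, x.1 ∈ nz r) ∧
      (∀ x : nz d0, x.1 ∈ nz r → g.1 x ≠ 0) ∧
      (∀ x : nz d0, x.1 ∈ nz r → MvPolynomial.eval (fun l => (yR l).1 x) (p 0) ≠ 0) ∧
      (∀ x : nz d0, x.1 ∈ nz r → MvPolynomial.eval (fun l => (yR l).1 x) (p' 0) ≠ 0) ∧
      (∃ C : ℝ, 0 < C ∧ ∀ x : nz d0, x.1 ∈ nz r →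
        (Λ x ^ 2) ^ e * ∑ j : Fin (m' + 1), ‖MvPolynomial.eval (fun l => (yR l).1 x) (p' j)‖ ^ 2 ≤
          C * ∑ j : Fin (m + 1), ‖MvPolynomial.eval (fun l => (yR l).1 x) (p j)‖ ^ 2) ∧
      (∃ C : ℝ, 0 < C ∧ ∀ x : nz d0, x.1 ∈ nz r → ∀ b : ℝ, 0 ≤ b →
        (∀ x' : nz d0, x'.1 ∈ nz r → (∀ l, (yR l).1 x' = (yR l).1 x) → Λ x' ^ 2 ≤ b) →
          ∑ j : Fin (m + 1), ‖MvPolynomial.eval (fun l => (yR l).1 x) (p j)‖ ^ 2 ≤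
            C * b ^ e *
              ∑ j : Fin (m' + 1), ‖MvPolynomial.eval (fun l => (yR l).1 x) (p' j)‖ ^ 2) := by
  have hdom : IsDomain (Reg (lb P ^ k) d0 hd0) := reg_domain hd0 hne
  have hfg : Algebra.FiniteType ℂ (Reg (lb P ^ k) d0 hd0) := reg_fg PA hD P hk hd0
  obtain ⟨e, p, p', m, m', h, he, ⟨gq, hgq⟩, hh, hp, hp', hUa, hUb⟩ :=
    model (X := nz d0) (evR hd0) yR α β hα hβ hg
      (fun χ _ => by
        obtain ⟨x, hx⟩ := reg_pt PA hD P hk hd0 χ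
        exact ⟨x, hx.symm⟩)
      (fun x => Λ x ^ 2) (fun x => sq_nonneg _) (K := C ^ 2) (by positivity)
      (fun x _ => by
        refine (pow_le_pow_left₀ (NNReal.coe_nonneg _) (h1 x) 2).trans (le_of_eq ?_)
        ring)
      (fun x _ => by
        have h3 := pow_le_pow_left₀ (mul_nonneg (hΛ x) (NNReal.coe_nonneg _)) (h2 x) 2
        rw [mul_pow, mul_pow] at h3
        exact h3)
      (by
        obtain ⟨g1, hg1, h3⟩ := hR4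
        refine ⟨g1, hg1, fun x hx => ?_⟩
        obtain ⟨b, hb⟩ := h3 x hx
        refine ⟨max b 0 ^ 2, fun x' hx' hx'1 => ?_⟩
        exact pow_le_pow_left₀ (hΛ x') ((hb x' hx'1 hx').trans (le_max_left _ _)) 2)
  obtain ⟨j, t, ht, h4⟩ := h.2
  have hkey : ∀ x : nz d0, x.1 ∈ nz t ↔ evR hd0 x h ≠ 0 := by
    intro x
    obtain ⟨i, hi⟩ := A.cover x.1
    have h5 : d0 i x.1 ≠ 0 := (mem_nz hd0 hi).1 x.2
    rw [mem_nz ht hi, evR_apply, h4 x i hi, Ne, Ne, div_eq_zero_iff, not_or]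
    exact ⟨fun h => ⟨h, pow_ne_zero _ h5⟩, fun h => h.1⟩
  obtain ⟨χ, hχ⟩ := exists_point hh
  obtain ⟨x0, hx0⟩ := reg_pt PA hD P hk hd0 χ
  have hx0' : x0.1 ∈ nz t := (hkey x0).2 (by rw [← hx0]; exact hχ)
  refine ⟨e, p, p', m, m', j, t, he, ?_, ?_, ⟨x0, hx0'⟩, ?_, ?_, ?_, ?_, ?_⟩
  · rw [pow_mul]; exact ht
  · obtain ⟨i, hi⟩ := A.cover x0.1
    exact ⟨i, x0.1, (mem_nz ht hi).1 hx0'⟩
  · intro x hx h5
    refine (hkey x).1 hx ?_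
    have h6 : evR hd0 x g = 0 := h5
    rw [hgq, map_mul, h6, zero_mul]
  · exact fun x hx => hp x ((hkey x).1 hx)
  · exact fun x hx => hp' x ((hkey x).1 hx)
  · obtain ⟨C', hC', h5⟩ := hUa
    exact ⟨C', hC', fun x hx => h5 x ((hkey x).1 hx)⟩
  · obtain ⟨C', hC', h5⟩ := hUb
    exact ⟨C', hC', fun x hx b hb h6 => h5 x ((hkey x).1 hx) b hb fun x' hx' hx'y =>
      h6 x' ((hkey x').2 hx') hx'y⟩

/-- the fields `c0`, `c0'`, `Ua`, `Ub` of `YD` on a domain `S'` with `S'.U = nz d0 ∩ nz r` -/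
theorem exists_fields (PA : Part A) (hD : D2 A) (P : ProjD A) {k : ℕ} (hk : 1 ≤ k) {d0 : Fn A}
    (hd0 : IsHS (lb P ^ k) univ d0) (hne : ∃ i x, d0 i x ≠ 0) {N : ℕ}
    (yR : Fin N → Reg (lb P ^ k) d0 hd0) (α β : Finset (Reg (lb P ^ k) d0 hd0))
    (hα : ∃ f ∈ α, f ≠ 0) (hβ : ∃ f ∈ β, f ≠ 0) {g : Reg (lb P ^ k) d0 hd0} (hg : g ≠ 0)
    (Λ : nz d0 → ℝ) (hΛ : ∀ x, 0 ≤ Λ x) {C : ℝ} (hC : 0 < C)
    (h1 : ∀ x, (nm (evR hd0 x) α : ℝ) ≤ C * Λ x * nm (evR hd0 x) β)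
    (h2 : ∀ x, Λ x * nm (evR hd0 x) β ≤ C * nm (evR hd0 x) α)
    (hR4 : ∃ g1 : Reg (lb P ^ k) d0 hd0, g1 ≠ 0 ∧ ∀ x, g1.1 x ≠ 0 → ∃ b : ℝ, ∀ x', g1.1 x' ≠ 0 →
      (∀ l, (yR l).1 x' = (yR l).1 x) → Λ x' ≤ b) :
    ∃ (e : ℕ) (p p' : ℕ → MvPolynomial (Fin N) ℂ) (m m' j : ℕ) (r : Fn A), 0 < e ∧
      IsHS (lb P ^ (k * j)) univ r ∧ (∃ i x, r i x ≠ 0) ∧ (nz d0 ∩ nz r).Nonempty ∧
      (∀ x : nz d0, x.1 ∈ nz r → g.1 x ≠ 0) ∧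
      ∀ (S' : SD A) (_ : S'.U = nz d0 ∩ nz r) (L : LB A) (hL : HM L) (σ : A.ι → M → ℂ) (j0 : ℕ)
        (lam : Mo S' → ℂ) (y : Fin N → Mo S' → ℂ),
        (∀ l (x : Mo S') (hx : x.val ∈ nz d0), y l x = (yR l).1 ⟨x.val, hx⟩) →
        (∀ (x : Mo S') (hx : x.val ∈ nz d0),
          Λ ⟨x.val, hx⟩ ^ 2 = ‖lam x‖ ^ 2 * Real.exp (-(j0 * wtS hL σ x.val))) →
        (∀ x, evp y p 0 x ≠ 0) ∧ (∀ x, evp y p' 0 x ≠ 0) ∧
        (∃ C : ℝ, 0 < C ∧ ∀ x : Mo S', (‖lam x‖ ^ 2 * Real.exp (-(j0 * wtS hL σ x.val))) ^ e *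
          Bf (evp y p') m' x ≤ C * Bf (evp y p) m x) ∧
        (∃ C : ℝ, 0 < C ∧ ∀ (x : Mo S') (b : ℝ), 0 ≤ b →
          (∀ x' : Mo S', (∀ l, y l x' = y l x) →
            ‖lam x'‖ ^ 2 * Real.exp (-(j0 * wtS hL σ x'.val)) ≤ b) →
          Bf (evp y p) m x ≤ C * b ^ e * Bf (evp y p') m' x) := by
  obtain ⟨e, p, p', m, m', j, r, he, hr, hr0, ⟨x0, hx0⟩, hgr, hp, hp', ⟨Ca, hCa, hUa⟩,
    ⟨Cb, hCb, hUb⟩⟩ := uaub PA hD P hk hd0 hne yR α β hα hβ hg Λ hΛ hC h1 h2 hR4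
  refine ⟨e, p, p', m, m', j, r, he, hr, hr0, ⟨x0.1, x0.2, hx0⟩, hgr, ?_⟩
  intro S' hS' L hL σ j0 lam y hy hlam
  have hx1 : ∀ x : Mo S', x.val ∈ nz d0 := fun x => (hS'.subset x.prop).1
  have hx2 : ∀ x : Mo S', x.val ∈ nz r := fun x => (hS'.subset x.prop).2
  have hyy : ∀ x : Mo S', (fun l => y l x) = fun l => (yR l).1 ⟨x.val, hx1 x⟩ := fun x =>
    funext fun l => hy l x (hx1 x)
  have hev : ∀ (q : ℕ → MvPolynomial (Fin N) ℂ) (j : ℕ) (x : Mo S'),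
      evp y q j x = MvPolynomial.eval (fun l => (yR l).1 ⟨x.val, hx1 x⟩) (q j) := by
    intro q j x
    unfold evp
    rw [hyy]
  have hBf : ∀ (q : ℕ → MvPolynomial (Fin N) ℂ) (m : ℕ) (x : Mo S'),
      Bf (evp y q) m x = ∑ j : Fin (m + 1),
        ‖MvPolynomial.eval (fun l => (yR l).1 ⟨x.val, hx1 x⟩) (q j)‖ ^ 2 := by
    intro q m x
    show ∑ j : Fin (m + 1), ‖evp y q j x‖ ^ 2 = _
    exact Finset.sum_congr rfl fun j _ => by rw [hev]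
  refine ⟨fun x => ?_, fun x => ?_, ⟨Ca, hCa, fun x => ?_⟩, ⟨Cb, hCb, fun x b hb hx => ?_⟩⟩
  · rw [hev]; exact hp ⟨x.val, hx1 x⟩ (hx2 x)
  · rw [hev]; exact hp' ⟨x.val, hx1 x⟩ (hx2 x)
  · rw [hBf, hBf, ← hlam x (hx1 x)]
    exact hUa ⟨x.val, hx1 x⟩ (hx2 x)
  · rw [hBf, hBf]
    refine hUb ⟨x.val, hx1 x⟩ (hx2 x) b hb fun x' hx' hx'y => ?_
    have hx'U : x'.1 ∈ S'.U := hS'.symm.subset ⟨x'.2, hx'⟩
    set xs : Mo S' := ⟨x'.1, hx'U⟩ with hxs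
    have hxs1 : xs.val ∈ nz d0 := x'.2
    have h5 := hx xs fun l => by
      rw [hy l xs hxs1, hy l x (hx1 x)]
      exact hx'y l
    rw [← hlam xs hxs1] at h5
    exact h5

end

end Crest.Agent.R273.UaUb_619
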