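import Crest.Agent.R273.YDx5_945
import Crest.Agent.R273.UaUb_619
import Crest.Agent.R273.Cmp2_145
import Crest.Agent.R273.ChowQ_313
import Crest.Agent.R273.RKd_635
import Crest.Agent.R273.Fib_794
import Crest.Agent.R273.MM_844
import Crest.Agent.R273.D13_505

/-!
# R273 (S0416), Part A, HALF 2, assembly of the record `YD` (helper73)

* `R4 X hL`  : `λ` is bounded on the fibres of `y`, outside of a divisor
* `yd_fill`  : the record, from the choices `X : HD P L` and the families of Lemma U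
* `yd_of`    : the record, from the choices `X : HD P L` and `R4 X hL`
-/

set_option autoImplicit false
set_option linter.unusedSectionVars false

open Set Filter Topology Complex MeasureTheory
open scoped ContDiff Matrix ENNReal NNReal

namespace Crest.Agent.R273.AsmY_73

open Crest.Agent.R275.Geo Crest.Agent.R275.Core144 Crest.Agent.R275.GC293
open Crest.Agent.R273.SteinA_794
open Crest.Agent.R273.SteinB_794 Crest.Agent.R273.SteinC_794 Crest.Agent.R273.SteinD_794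
open Crest.Agent.R273.SteinE_794 Crest.Agent.R273.SteinF_794
open Crest.Agent.R273.Defs_333 (ProjD HM HM.wt HM.Semipos HM.Pos HasSec)
open Crest.Agent.R273.Kah_333 (cur Kah)
open Crest.Agent.R273.FS_333 (lb sec isHS_sec)
open Crest.Agent.R273.Mer769 Crest.Agent.R273.FF769
open Crest.Agent.R273.Cram_747 (TS)
open Crest.Agent.R273.Fock_243 (FI)
open Crest.Agent.R273.TD3_733 (D2)
open Crest.Agent.R273.YauDefs_635 (YauStmt)
open Crest.Agent.R273.Chow_313 Crest.Agent.R273.LemU_619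
open Crest.Agent.R273.YDx1_945 Crest.Agent.R273.YDx3_945 Crest.Agent.R273.YDx5_945
open Crest.Agent.R273.AsmA_73 (YD evp)
open Crest.Agent.R273.Pen_93 (Bf)
open Crest.Agent.R271.Ho51 (RDom cp Hol)

noncomputable section

variable {n : ℕ} {M : Type} [TopologicalSpace M] {A : Atl n M} {P : ProjD A} {L : LB A}

section

variable [ConnectedSpace M] (X : HD P L)

/-- the generators on the domain -/
def yS (l : Fin (X.b + 1)) (x : Mo X.D.S) : ℂ := X.y l x.val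

/-- `λ` on the domain -/
def lamS (x : Mo X.D.S) : ℂ := X.lam x.val

theorem g_mem (l : Fin (X.b + 1)) : X.g l ∈ FF (X.ts X.a X.ha) (X.ne X.a X.ha) := by
  rw [← X.gen]
  exact IntermediateField.subset_adjoin ℂ _ (mem_range_self l)

theorem FF_ne : FF (X.ts X.a X.ha) (X.ne X.a X.ha) ≠ ⊥ := by
  intro h
  have h1 := g_mem X (⟨0, X.b_pos⟩ : Fin X.b).castSucc
  rw [h] at h1
  obtain ⟨c, hc⟩ := IntermediateField.mem_bot.1 h1
  have h2 : Transcendental ℂ (X.g (⟨0, X.b_pos⟩ : Fin X.b).castSucc) :=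
    X.indep.transcendental ⟨0, X.b_pos⟩
  exact h2 (hc ▸ isAlgebraic_algebraMap c)

theorem yS_hol (l : Fin (X.b + 1)) : Hol (yS X l) := hol_of fun i => X.y_hol l i

theorem lamS_hol : Hol (lamS X) := hol_of fun i => X.lam_hol i

theorem yS_ev (l : Fin (X.b + 1)) (x : Mo X.D.S) : x.val ∈ reg (X.g l) ∧ ev (X.g l) x.val = yS X l x :=
  X.y_ev l x.prop

theorem eval_yS (Q : MvPolynomial (Fin (X.b + 1)) ℂ) (x : Mo X.D.S) :
    x.val ∈ reg (MvPolynomial.aeval X.g Q) ∧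
      ev (MvPolynomial.aeval X.g Q) x.val = MvPolynomial.eval (fun l => yS X l x) Q := by
  have h1 := Crest.Agent.R273.RKd_635.ev_aeval (Y := X.g) (x := x.val)
    (fun l => (yS_ev X l x).1) Q
  have h2 : (fun l => ev (X.g l) x.val) = fun l => yS X l x := funext fun l => (yS_ev X l x).2
  rw [h2] at h1
  exact h1

theorem fib (hR' : ∀ x : Mo X.D.S,
      MvPolynomial.eval (fun l => yS X l x) (MvPolynomial.pderiv (Fin.last X.b) X.R) ≠ 0) :
    Crest.Agent.R273.RKd_635.FIB (yS X) := by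
  intro x x' hxx U hU U' hU' Q hQ
  exact Crest.Agent.R273.Fib_794.fib (n := n) X.hn (fun l => (w_hol (yS_hol X l)).sm.continuous)
    (fun k x => by
      show X.y k.castSucc x.val = (X.D.q (Fin.castLE X.hn k)).fn x.val
      rw [X.hq k]
      rfl)
    (R := X.R) (fun x => by
      have h1 := (eval_yS X X.R x).2
      rw [X.R0] at h1
      rw [← h1]
      have := (reg_algebraMap (A := A) 0 x.val).2
      rwa [map_zero] at this) hR' hxx hU hU' hQ

end

section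

variable [T2Space M] [CompactSpace M] [Finite A.ι] [ConnectedSpace M]
  {h : HM (KB A)⁻¹} {hL : HM L}

/-- **the record** -/
theorem yd_fill (hY : YauStmt) (hG : GoodA A) (PA : Part A) {L' : LB A} {H : HM L'} (hH : H.Pos)
    (hs : h.Semipos) (hc : ∀ i, ∀ x ∈ (A.e i).source, cur hL i x = cur h i x) (X : HD P L)
    (hR' : ∀ x : Mo X.D.S,
      MvPolynomial.eval (fun l => yS X l x) (MvPolynomial.pderiv (Fin.last X.b) X.R) ≠ 0)
    {e : ℕ} (he : 0 < e) {p p' : ℕ → MvPolynomial (Fin (X.b + 1)) ℂ} {m m' : ℕ}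
    (c0 : ∀ x, evp (yS X) p 0 x ≠ 0) (c0' : ∀ x, evp (yS X) p' 0 x ≠ 0)
    (Ua : ∃ C : ℝ, 0 < C ∧ ∀ x : Mo X.D.S,
      (‖lamS X x‖ ^ 2 * Real.exp (-(X.j0 * wtS hL X.σ x.val))) ^ e *
        Bf (evp (yS X) p') m' x ≤ C * Bf (evp (yS X) p) m x)
    (Ub : ∃ C : ℝ, 0 < C ∧ ∀ (x : Mo X.D.S) (b : ℝ), 0 ≤ b →
      (∀ x' : Mo X.D.S, (∀ l, yS X l x' = yS X l x) →
        ‖lamS X x'‖ ^ 2 * Real.exp (-(X.j0 * wtS hL X.σ x'.val)) ≤ b) →
      Bf (evp (yS X) p) m x ≤ C * b ^ e * Bf (evp (yS X) p') m' x) :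
    Nonempty (YD h L hL) := by
  have hc' : ∀ i, ∀ x ∈ (A.e i).source, cur hL i x = (((1 : ℝ) : ℂ)) • cur h i x := by
    intro i x hx
    rw [hc i x hx, Complex.ofReal_one, one_smul]
  have hsL : hL.Semipos := Crest.Agent.R273.MM_844.semipos_of_cur_eq hs hc
  obtain ⟨ν, hν1, hν2, hν3⟩ := Crest.Agent.R273.MM_844.exists_nu h
    (Crest.Agent.R273.MM_844.rank_pos hY hG PA hH hs hc' (X.ts X.a X.ha) (X.ne X.a X.ha) (FF_ne X))
  obtain ⟨x0, hx0⟩ := X.Une
  obtain ⟨i0, hi0⟩ := A.cover x0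
  have hd0 : ∃ i, ∃ x ∈ (A.e i).source, X.D.t i x ≠ 0 :=
    ⟨i0, x0, hi0, (mem_nz X.D.ht hi0).1 (X.hU ▸ hx0)⟩
  have hnzt : ∀ x ∈ X.D.S.U, x ∈ Cram_747.nz X.t0 := fun x hx =>
    let ⟨i, hi⟩ := A.cover x
    ⟨i, hi, X.t0_ne hi hx⟩
  have hnza : ∀ x ∈ X.D.S.U, x ∈ Cram_747.nz (X.w X.a) := fun x hx =>
    let ⟨i, hi⟩ := A.cover x
    ⟨i, hi, X.wa_ne hi hx⟩
  have hnzb : ∀ x ∈ X.D.S.U, x ∈ Cram_747.nz (X.w (X.a + X.j0)) := fun x hx =>
    let ⟨i, hi⟩ := A.cover x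
    ⟨i, hi, X.wb_ne hi hx⟩
  exact ⟨{
    ν := ν
    ν_pos := hν1
    rk_le := hν2
    rk_eq := hν3
    S := X.D.S
    E := X.D.E
    LD := lb P ^ X.D.m
    d := X.D.t
    hd := X.D.ht
    d0 := hd0
    U_eq := X.hU
    σ := X.σ
    hσ := X.hσ
    σ0 := X.σ0
    j0 := X.j0
    j0_pos := X.j0_pos
    lam := lamS X
    hlam := lamS_hol X
    lam0 := fun x => X.lam_ne x.prop
    N := X.b + 1
    y := yS X
    hy := yS_hol X
    By := L ^ X.bb * lb P ^ X.mm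
    hBy := Crest.Agent.R273.MM_844.hmB P hL X.bb X.mm
    semi := Crest.Agent.R273.MM_844.hmB_semipos P hsL X.bb X.mm
    t := X.t
    ht := X.ht
    t0 := fun i x hx hxU => (mem_nz X.ht hx).1 (X.Ut hxU)
    s := X.s
    hs := X.hs
    rel := fun l i x hx => X.y_rel l hx x.prop
    fi := fun l => Crest.Agent.R273.MM_844.fi_fun hY hG PA hH hs hν2 hc' (X.ts X.a X.ha)
      (X.ne X.a X.ha) (g_mem X l) (fun x => (yS_ev X l x).1) (fun x => (yS_ev X l x).2.symm)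
    RK := Crest.Agent.R273.RKd_635.rk hL h X.D.ht hd0 X.hU X.hσ X.σ0 (lamS_hol X)
      (X.ts X.a X.ha) (X.ne X.a X.ha) (X.ts X.a X.ha) (X.ts _ X.hb) (X.prp _ X.ha _ X.ha)
      (X.prp _ X.hb _ X.ha) hnza hnzb
      (fun i x hx F => X.relw hx x.prop F) (yS_hol X) X.ht0 hnzt X.hτ
      (fun l i x hx F => X.τ_rel l hx x.prop F) X.gen.ge (yS_ev X) (fib X hR')
    e := e
    e_pos := he
    p := p
    p' := p'
    m := m
    m' := m'
    c0 := c0
    c0' := c0'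
    Ua := Ua
    Ub := Ub }⟩

/-- the values of `λ` -/
def Lam (X : HD P L) (hL : HM L) (x : M) : ℝ :=
  ‖X.lam x‖ * Real.exp (-(X.j0 * wtS hL X.σ x) / 2)

/-- **(R4)**: `λ` is bounded on the fibres of `y`, outside of a divisor -/
def R4 (X : HD P L) (hL : HM L) : Prop :=
  ∃ g1 : Reg (lb P ^ X.D.m) X.D.t X.D.ht, g1 ≠ 0 ∧ ∀ x, g1.1 x ≠ 0 → ∃ b : ℝ, ∀ x', g1.1 x' ≠ 0 →
    (∀ l, X.y l x'.1 = X.y l x.1) → Lam X hL x'.1 ≤ b

/-- **the record**, from the choices and (R4) -/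
theorem yd_of (hY : YauStmt) (hG : GoodA A) (PA : Part A) (hD : D2 A) {L' : LB A} {H : HM L'}
    (hH : H.Pos) (hs : h.Semipos) (hc : ∀ i, ∀ x ∈ (A.e i).source, cur hL i x = cur h i x)
    (X : HD P L) (hR4 : R4 X hL) : Nonempty (YD h L hL) := by
  classical
  obtain ⟨x0, hx0⟩ := X.Une
  obtain ⟨i0, hi0⟩ := A.cover x0
  have hne : ∃ i x, X.D.t i x ≠ 0 := ⟨i0, x0, (mem_nz X.D.ht hi0).1 (X.hU ▸ hx0)⟩
  let yR : Fin (X.b + 1) → Reg (lb P ^ X.D.m) X.D.t X.D.ht := fun l =>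
    ⟨fun x => X.y l x.1, quot_mem PA hD P X.hm X.D.ht (X.hs l) X.ht (X.hU ▸ X.Ut)⟩
  obtain ⟨α, β, hα, hβ, C, hC, hcmp⟩ := Crest.Agent.R273.Cmp2_145.cmp_reg PA hD X.hm X.D.ht X.hU
    X.Une hL X.hσ X.σ0 X.hsa X.hsb (fun i x hx hxU => X.sa_ne hx hxU)
    (fun i x hx hxU => X.sb_ne hx hxU) (lam := X.lam) (fun i x hx hxU => X.rel hx hxU)
  -- the derivative of the equation of the primitive element
  set g : Reg (lb P ^ X.D.m) X.D.t X.D.ht :=
    MvPolynomial.aeval yR (MvPolynomial.pderiv (Fin.last X.b) X.R) with hg_def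
  have hgval : ∀ x : nz X.D.t, g.1 x =
      MvPolynomial.eval (fun l => X.y l x.1) (MvPolynomial.pderiv (Fin.last X.b) X.R) := by
    intro x
    have h1 : evR X.D.ht x g = MvPolynomial.aeval (fun l => evR X.D.ht x (yR l))
        (MvPolynomial.pderiv (Fin.last X.b) X.R) := by
      rw [hg_def, MvPolynomial.comp_aeval_apply]
    exact h1
  have hg : g ≠ 0 := by
    intro h0
    have hdn := Crest.Agent.R273.RKd_635.dense_ev (yS_ev X) X.R1
    obtain ⟨x, hx⟩ := (hdn.nonempty_iff.2 ⟨⟨x0, hx0⟩⟩)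
    refine hx ?_
    have h2 := hgval ⟨x.val, X.hU ▸ x.prop⟩
    rw [h0] at h2
    exact h2.symm
  obtain ⟨e, p, p', m, m', j, r, he, hr, hr0, hnr, hgr, hF⟩ :=
    Crest.Agent.R273.UaUb_619.exists_fields PA hD P X.hm X.D.ht hne yR α β hα hβ hg
      (fun x => Lam X hL x.1) (fun x => mul_nonneg (norm_nonneg _) (Real.exp_pos _).le) hC
      (fun x => (hcmp x).2.1) (fun x => (hcmp x).2.2) hR4
  have hne' : (X.D.S.U ∩ nz r).Nonempty := by rw [X.hU]; exact hnr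
  obtain ⟨c0, c0', Ua, Ub⟩ := hF (X.shr hr hne').D.S (by rw [X.shr_DU hr hne', X.hU]) L hL X.σ X.j0
    (lamS (X.shr hr hne')) (yS (X.shr hr hne')) (fun l x hx => rfl) (fun x hx => by
      show (‖X.lam x.val‖ * Real.exp (-(X.j0 * wtS hL X.σ x.val) / 2)) ^ 2 = _
      rw [mul_pow, ← Real.exp_nat_mul]
      congr 2
      push_cast
      ring)
  refine yd_fill hY hG PA hH hs hc (X.shr hr hne') (fun x => ?_) he c0 c0' Ua Ub
  have hxU : x.val ∈ X.D.S.U ∩ nz r := by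
    rw [← X.shr_DU hr hne']
    exact x.prop
  have h1 : x.val ∈ nz X.D.t := X.hU ▸ hxU.1
  have h2 := hgr ⟨x.val, h1⟩ hxU.2
  rw [hgval] at h2
  exact h2

end

end

end Crest.Agent.R273.AsmY_73
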