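import Crest.Agent.R273.HDN_505
import Crest.Agent.R275.GeoHol_912

/-!
# R273, D.13 (helper505): dictionary between polyvectors and `(0,q)`-forms

* `rai K : Sec (BN N) →ₗ Sec (B0 N)`, `lowL K : Sec (B0 N) →ₗ Sec (BN N)`; `low_rai`, `rai_low`;
* `vec v i x T = v i x (∅, T)` : the polyvector of a degree `0` section of `B0 N`;
* `ip_low` : `HB.ip (low v) (low w) = H0.ip v w`; `nabL` in degree `1`; `ip_nab` : the full gradient;
* `ip_HT` : the curvature term;
* `mem_PV_iff` : degree `0`, closed, of vector degree `q` ↔ `PV N q`.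
-/

set_option autoImplicit false
set_option linter.unusedSectionVars false

open Set Filter Topology Complex
open scoped ContDiff Matrix ComplexConjugate Kronecker ComplexOrder

namespace Crest.Agent.R273.B0_505

open Crest.Agent.R275 Crest.Agent.R275.Geo Crest.Agent.R275.Core144 Crest.Agent.R275.SerG398
open Crest.Agent.R273.Defs_333 Crest.Agent.R273.HM_333 Crest.Agent.R273.Kah_333
open Crest.Agent.R273.Fock_243 Crest.Agent.R273.Bkn_243 Crest.Agent.R273.Pos_243
open Crest.Agent.R273.LamN127 Crest.Agent.R273.NormC_505 Crest.Agent.R273.DnInt_505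
open Crest.Agent.R273.HDN_505 Crest.Agent.R273.NV_578

noncomputable section

variable {n : ℕ} {M : Type} [TopologicalSpace M] {A : Atl n M}

/-! ### sections of `BN N` and `B0 N` in components -/

theorem kron_mulVec {κ κ' ρ ρ' : Type} [Fintype κ'] [Fintype ρ'] (a : Matrix κ κ' ℂ)
    (b : Matrix ρ ρ' ℂ) (f : κ' × ρ' → ℂ) (S : κ) (T : ρ) :
    ((a ⊗ₖ b) *ᵥ f) (S, T) = ∑ S', a S S' * (b *ᵥ fun T' => f (S', T')) T := by
  simp only [Matrix.mulVec, dotProduct]
  rw [Fintype.sum_prod_type]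
  refine Finset.sum_congr rfl fun S' _ => ?_
  rw [Finset.mul_sum]
  refine Finset.sum_congr rfl fun T' _ => ?_
  rw [Matrix.kroneckerMap_apply]
  ring

/-- the cocycle of `BN N` -/
def tN (N : LB A) (i j : A.ι) (x : M) : Matrix (FI n × Unit) (FI n × Unit) ℂ :=
  Gam (Jb A i j x) ⊗ₖ (Matrix.of fun _ _ => N.g i j x : Matrix Unit Unit ℂ)

/-- the cocycle of `B0 N` -/
def t0 (N : LB A) (i j : A.ι) (x : M) : Matrix (FI n × FI n) (FI n × FI n) ℂ :=
  Gam (Jb A i j x) ⊗ₖ (N.g i j x • Gam (Lam2130.Jm A j i x))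

theorem tN_mulVec (N : LB A) (i j : A.ι) (x : M) (f : FI n × Unit → ℂ) (S : FI n) :
    (tN N i j x *ᵥ f) (S, ()) = N.g i j x * (Gam (Jb A i j x) *ᵥ fun T => f (T, ())) S := by
  rw [tN, kron_mulVec, Matrix.mulVec, dotProduct, Finset.mul_sum]
  refine Finset.sum_congr rfl fun T _ => ?_
  simp only [Matrix.mulVec, dotProduct, Finset.univ_unique, Finset.sum_singleton, Matrix.of_apply]
  show Gam (Jb A i j x) S T * (N.g i j x * f (T, ())) = _
  ring

/-- a section of `BN N` with its literal type -/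
def unN {N : LB A} (u : Sec (BN N)) (i : A.ι) (x : M) : FI n × Unit → ℂ := u.1 i x

/-- a section of `B0 N` with its literal type -/
def un0 {N : LB A} (v : Sec (B0 N)) (i : A.ι) (x : M) : FI n × FI n → ℂ := v.1 i x

theorem BN_law {N : LB A} (u : Sec (BN N)) {i j : A.ι} {x : M}
    (hx : x ∈ (A.e i).source ∩ (A.e j).source) :
    unN u i x = tN N i j x *ᵥ unN u j x := u.2.2.2 i j x hx

theorem B0_law {N : LB A} (v : Sec (B0 N)) {i j : A.ι} {x : M}
    (hx : x ∈ (A.e i).source ∩ (A.e j).source) :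
    un0 v i x = t0 N i j x *ᵥ un0 v j x := v.2.2.2 i j x hx

theorem unN_smAt {N : LB A} (u : Sec (BN N)) (i : A.ι) (k : FI n × Unit) :
    A.SmAt i (fun x => unN u i x k) := u.2.1 i k

theorem un0_smAt {N : LB A} (v : Sec (B0 N)) (i : A.ι) (k : FI n × FI n) :
    A.SmAt i (fun x => un0 v i x k) := v.2.1 i k

theorem unN_off {N : LB A} (u : Sec (BN N)) {i : A.ι} {x : M} (hx : x ∉ (A.e i).source) :
    unN u i x = 0 := u.2.2.1 i x hx

theorem un0_off {N : LB A} (v : Sec (B0 N)) {i : A.ι} {x : M} (hx : x ∉ (A.e i).source) :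
    un0 v i x = 0 := v.2.2.1 i x hx

/-- the components of a section of `BN N` -/
def cmp (u : A.ι → M → (FI n × Unit) → ℂ) (i : A.ι) (x : M) : FI n → ℂ :=
  fun T => u i x (T, ())

theorem cmp_tr {N : LB A} (u : Sec (BN N)) {i j : A.ι} {x : M}
    (hx : x ∈ (A.e i).source ∩ (A.e j).source) :
    cmp (unN u) i x = N.g i j x • (Gam (Jb A i j x) *ᵥ cmp (unN u) j x) := by
  funext S
  have h1 := congrFun (BN_law u hx) (S, ())
  rw [tN_mulVec] at h1
  exact h1

/-- the polyvector of a section of `B0 N` -/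
def vec (v : A.ι → M → (FI n × FI n) → ℂ) (i : A.ι) (x : M) : FI n → ℂ :=
  fun T => v i x (∅, T)

theorem Gam_empty_left (m : Matrix (Fin n) (Fin n) ℂ) (S : FI n) :
    Gam m ∅ S = if S = ∅ then 1 else 0 := by
  by_cases h : S = ∅
  · subst h; rw [Gam_vac]
  · rw [if_neg h, Gam_of_ne]
    rw [Finset.card_empty]
    intro h1
    exact h (Finset.card_eq_zero.1 h1.symm)

theorem Gam_empty_right (m : Matrix (Fin n) (Fin n) ℂ) (S : FI n) :
    Gam m S ∅ = if S = ∅ then 1 else 0 := Gam_vac m S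

theorem vec_tr {N : LB A} (v : Sec (B0 N)) {i j : A.ι} {x : M}
    (hx : x ∈ (A.e i).source ∩ (A.e j).source) :
    vec (un0 v) i x = N.g i j x • (Gam (Lam2130.Jm A j i x) *ᵥ vec (un0 v) j x) := by
  funext T
  have h1 := congrFun (B0_law v hx) ((∅ : FI n), T)
  rw [t0, kron_mulVec, Finset.sum_eq_single ∅] at h1
  · rw [Gam_empty_left, if_pos rfl, one_mul, Matrix.smul_mulVec] at h1
    exact h1
  · intro S _ hS
    rw [Gam_empty_left, if_neg hS, zero_mul]
  · simp

/-- a smooth polyvector with values in `N` -/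
structure IsPV (N : LB A) (v : A.ι → M → FI n → ℂ) : Prop where
  sm : ∀ i T, A.SmAt i (fun x => v i x T)
  off : ∀ i, ∀ x ∉ (A.e i).source, v i x = 0
  tr : ∀ i j, ∀ x ∈ (A.e i).source ∩ (A.e j).source,
    v i x = N.g i j x • (Gam (Lam2130.Jm A j i x) *ᵥ v j x)

theorem isPV_vec {N : LB A} (v : Sec (B0 N)) : IsPV N (vec (un0 v)) where
  sm i T := un0_smAt v i (∅, T)
  off i x hx := by
    funext T
    exact congrFun (un0_off v hx) (∅, T)
  tr i j x hx := vec_tr v hx

/-- the degree zero section of a polyvector -/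
def ofV (v : A.ι → M → FI n → ℂ) : A.ι → M → (FI n × FI n) → ℂ :=
  fun i x p => if p.1 = ∅ then v i x p.2 else 0

theorem vec_ofV (v : A.ι → M → FI n → ℂ) : vec (ofV v) = v := by
  funext i x T
  simp [vec, ofV]

theorem ofV_law {N : LB A} {v : A.ι → M → FI n → ℂ} (hv : IsPV N v) {i j : A.ι} {x : M}
    (hx : x ∈ (A.e i).source ∩ (A.e j).source) : ofV v i x = t0 N i j x *ᵥ ofV v j x := by
  funext ⟨S, T⟩
  rw [t0, kron_mulVec, Finset.sum_eq_single ∅]
  · rw [Gam_empty_right]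
    have h1 : (fun T' => ofV v j x ((∅ : FI n), T')) = v j x := by
      funext T'; exact if_pos rfl
    rw [h1, Matrix.smul_mulVec, ← hv.tr i j x hx]
    unfold ofV
    by_cases hS : S = ∅
    · simp [hS]
    · simp [hS]
  · intro S' _ hS'
    have h1 : (fun T' => ofV v j x (S', T')) = 0 := by
      funext T'; exact if_neg hS'
    rw [h1]
    simp
  · simp

theorem ofV_mem {N : LB A} {v : A.ι → M → FI n → ℂ} (hv : IsPV N v) :
    (ofV v : A.ι → M → (B0 N).κ → ℂ) ∈ Sec (B0 N) := by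
  have h1 : ∀ i (k : FI n × FI n), A.SmAt i (fun x => ofV v i x k) := by
    rintro i ⟨S, T⟩
    by_cases hS : S = ∅
    · have h1 : (fun x => ofV v i x (S, T)) = fun x => v i x T := by
        funext x; exact if_pos hS
      rw [h1]; exact hv.sm i T
    · have h1 : (fun x => ofV v i x (S, T)) = fun _ => (0 : ℂ) := by
        funext x; exact if_neg hS
      rw [h1]; exact smAt_const i 0
  have h2 : ∀ i, ∀ x ∉ (A.e i).source, ofV v i x = 0 := by
    intro i x hx
    funext ⟨S, T⟩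
    unfold ofV
    rw [hv.off i x hx]
    simp
  exact ⟨h1, h2, fun i j x hx => ofV_law hv hx⟩

/-- degree zero sections of `B0 N` -/
theorem pqL_zero_iff {N : LB A} (v : Sec (B0 N)) :
    Geo.pqL (B0 N) 0 v = v ↔
      ∀ i x (S T : FI n), S ≠ ∅ → un0 v i x (S, T) = 0 := by
  have key : ∀ (i : A.ι) (x : M) (S T : FI n),
      un0 (Geo.pqL (B0 N) 0 v) i x (S, T) = if S.card = 0 then un0 v i x (S, T) else 0 :=
    fun i x S T => Geo.pq_apply (B := B0 N) 0 v.1 i x (S, T)
  constructor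
  · intro h i x S T hS
    have h1 := key i x S T
    rw [h, if_neg (fun h' => hS (Finset.card_eq_zero.1 h'))] at h1
    exact h1
  · intro h
    apply Subtype.ext
    funext i x
    have h2 : un0 (Geo.pqL (B0 N) 0 v) i x = un0 v i x := by
      funext ⟨S, T⟩
      rw [key]
      split_ifs with h1
      · rfl
      · symm
        apply h
        intro hS
        exact h1 (Finset.card_eq_zero.2 hS)
    exact h2

theorem ofV_vec {N : LB A} {v : Sec (B0 N)} (hv : Geo.pqL (B0 N) 0 v = v) :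
    ofV (vec (un0 v)) = v.1 := by
  funext i x
  have h1 : ofV (vec (un0 v)) i x = un0 v i x := by
    funext ⟨S, T⟩
    unfold ofV vec
    by_cases hS : S = ∅
    · simp [hS]
    · simp only [hS, if_false]
      exact ((pqL_zero_iff v).1 hv i x S T hS).symm
  exact h1

theorem pqL_ofV {N : LB A} {v : A.ι → M → FI n → ℂ} (hv : IsPV N v) :
    Geo.pqL (B0 N) 0 ⟨ofV v, ofV_mem hv⟩ = ⟨ofV v, ofV_mem hv⟩ :=
  (pqL_zero_iff _).2 fun i x S T hS => (if_neg hS : ofV v i x (S, T) = 0)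

/-! ### lowering and raising -/

section lower

variable (K : Kah A) {N : LB A}

/-- lowering the indices of a polyvector -/
def lowF (v : A.ι → M → FI n → ℂ) : A.ι → M → (FI n × Unit) → ℂ :=
  fun i x p => (Gam (Kl K i x) *ᵥ v i x) p.1

/-- raising the indices -/
def raiF (u : A.ι → M → (FI n × Unit) → ℂ) : A.ι → M → FI n → ℂ :=
  fun i x => Gam (Ku K i x) *ᵥ cmp u i x

theorem mulVec_smAt {i : A.ι} {m : M → Matrix (FI n) (FI n) ℂ} {v : M → FI n → ℂ}
    (hm : ∀ S T, A.SmAt i (fun x => m x S T)) (hv : ∀ T, A.SmAt i (fun x => v x T)) (S : FI n) :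
    A.SmAt i (fun x => (m x *ᵥ v x) S) := by
  have h1 : (fun x => (m x *ᵥ v x) S) = fun x => ∑ T, m x S T * v x T := rfl
  rw [h1]
  exact smAt_sum _ fun T _ => smAt_mul (hm S T) (hv T)

theorem low_law {v : A.ι → M → FI n → ℂ} (hv : IsPV N v) {i j : A.ι} {x : M}
    (hx : x ∈ (A.e i).source ∩ (A.e j).source) :
    lowF K v i x = tN N i j x *ᵥ lowF K v j x := by
  funext ⟨S, a⟩
  obtain rfl : a = () := rfl
  rw [tN_mulVec]
  show (Gam (Kl K i x) *ᵥ v i x) S = N.g i j x *
    (Gam (Jb A i j x) *ᵥ (Gam (Kl K j x) *ᵥ v j x)) S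
  rw [hv.tr i j x hx, Matrix.mulVec_smul, Matrix.mulVec_mulVec, Matrix.mulVec_mulVec,
    Pi.smul_apply, smul_eq_mul, ← Gam_mul, ← Gam_mul]
  have h1 : Kl K i x * Lam2130.Jm A j i x = Jb A i j x * Kl K j x := by
    rw [Kl_tr K hx, Matrix.mul_assoc, Lam2130.Jm_mul_inv ⟨hx.2, hx.1⟩, Matrix.mul_one, Jb_eq]
  rw [h1]

theorem low_mem {v : A.ι → M → FI n → ℂ} (hv : IsPV N v) :
    (lowF K v : A.ι → M → (BN N).κ → ℂ) ∈ Sec (BN N) := by
  have h1 : ∀ i (k : FI n × Unit), A.SmAt i (fun x => lowF K v i x k) := fun i k =>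
    mulVec_smAt (fun S T => Gam_smAt (Kl_smAt K i) S T) (hv.sm i) k.1
  have h2 : ∀ i, ∀ x ∉ (A.e i).source, lowF K v i x = 0 := by
    intro i x hx
    funext p
    show (Gam (Kl K i x) *ᵥ v i x) p.1 = 0
    rw [hv.off i x hx, Matrix.mulVec_zero]; rfl
  exact ⟨h1, h2, fun i j x hx => low_law K hv hx⟩

theorem cmp_off (u : Sec (BN N)) {i : A.ι} {x : M} (hx : x ∉ (A.e i).source) :
    cmp (unN u) i x = 0 := by
  funext T
  exact congrFun (unN_off u hx) (T, ())

theorem rai_isPV (u : Sec (BN N)) : IsPV N (raiF K (unN u)) where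
  sm i T := mulVec_smAt (fun S T => Gam_smAt (Ku_smAt K i) S T)
    (fun T => unN_smAt u i (T, ())) T
  off i x hx := by
    show Gam (Ku K i x) *ᵥ cmp (unN u) i x = 0
    rw [cmp_off u hx, Matrix.mulVec_zero]
  tr i j x hx := by
    show Gam (Ku K i x) *ᵥ cmp (unN u) i x = N.g i j x • (Gam (Lam2130.Jm A j i x) *ᵥ
      (Gam (Ku K j x) *ᵥ cmp (unN u) j x))
    rw [cmp_tr u hx, Matrix.mulVec_smul, Matrix.mulVec_mulVec, Matrix.mulVec_mulVec, ← Gam_mul,
      ← Gam_mul]
    congr 3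
    rw [← Ku_tr K hx, ← Matrix.mul_assoc, ← Matrix.mul_assoc,
      Lam2130.Jm_mul_inv hx, Matrix.one_mul, Jb_eq]

theorem lowF_raiF (u : Sec (BN N)) : lowF K (raiF K (unN u)) = u.1 := by
  funext i x
  have h0 : lowF K (raiF K (unN u)) i x = unN u i x := by
    funext ⟨S, a⟩
    show (Gam (Kl K i x) *ᵥ (Gam (Ku K i x) *ᵥ cmp (unN u) i x)) S = cmp (unN u) i x S
    by_cases hx : x ∈ (A.e i).source
    · rw [Matrix.mulVec_mulVec, ← Gam_mul, Kl_mul_Ku K hx, Gam_one, Matrix.one_mulVec]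
    · rw [cmp_off u hx, Matrix.mulVec_zero, Matrix.mulVec_zero]
  exact h0

theorem raiF_lowF {v : A.ι → M → FI n → ℂ} (hv : IsPV N v) : raiF K (lowF K v) = v := by
  funext i x
  show Gam (Ku K i x) *ᵥ (Gam (Kl K i x) *ᵥ v i x) = v i x
  by_cases hx : x ∈ (A.e i).source
  · rw [Matrix.mulVec_mulVec, ← Gam_mul, Ku_mul_Kl K hx, Gam_one, Matrix.one_mulVec]
  · rw [hv.off i x hx, Matrix.mulVec_zero, Matrix.mulVec_zero]

/-- lowering -/
def lowL : Sec (B0 N) →ₗ[ℂ] Sec (BN N) where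
  toFun v := ⟨lowF K (vec (un0 v)), low_mem K (isPV_vec v)⟩
  map_add' v w := Subtype.ext (by
    funext i x
    have h1 : lowF K (vec (un0 (v + w))) i x = lowF K (vec (un0 v)) i x + lowF K (vec (un0 w)) i x := by
      funext p
      exact congrFun (Matrix.mulVec_add (Gam (Kl K i x)) (vec (un0 v) i x) (vec (un0 w) i x)) p.1
    exact h1)
  map_smul' c v := Subtype.ext (by
    funext i x
    have h1 : lowF K (vec (un0 (c • v))) i x = c • lowF K (vec (un0 v)) i x := by
      funext p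
      exact congrFun (Matrix.mulVec_smul (Gam (Kl K i x)) c (vec (un0 v) i x)) p.1
    exact h1)

/-- raising -/
def raiL : Sec (BN N) →ₗ[ℂ] Sec (B0 N) where
  toFun u := ⟨ofV (raiF K (unN u)), ofV_mem (rai_isPV K u)⟩
  map_add' u w := Subtype.ext (by
    funext i x
    have h2 : ofV (raiF K (unN (u + w))) i x = ofV (raiF K (unN u)) i x + ofV (raiF K (unN w)) i x := by
      funext p
      have h1 : cmp (unN (u + w)) i x = cmp (unN u) i x + cmp (unN w) i x := rfl
      unfold ofV raiF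
      rw [Pi.add_apply, h1, Matrix.mulVec_add]
      split_ifs <;> simp
    exact h2)
  map_smul' c u := Subtype.ext (by
    funext i x
    have h2 : ofV (raiF K (unN (c • u))) i x = c • ofV (raiF K (unN u)) i x := by
      funext p
      have h1 : cmp (unN (c • u)) i x = c • cmp (unN u) i x := rfl
      unfold ofV raiF
      rw [Pi.smul_apply, h1, Matrix.mulVec_smul]
      split_ifs <;> simp
    exact h2)

theorem pqL_rai (u : Sec (BN N)) : Geo.pqL (B0 N) 0 (raiL K u) = raiL K u :=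
  pqL_ofV (rai_isPV K u)

theorem low_rai (u : Sec (BN N)) : lowL K (raiL K u) = u := by
  apply Subtype.ext
  show lowF K (vec (ofV (raiF K (unN u)))) = u.1
  rw [vec_ofV, lowF_raiF]

theorem rai_low {v : Sec (B0 N)} (hv : Geo.pqL (B0 N) 0 v = v) : raiL K (lowL K v) = v := by
  apply Subtype.ext
  show ofV (raiF K (lowF K (vec (un0 v)))) = v.1
  rw [raiF_lowF K (isPV_vec v), ofV_vec hv]

theorem vec_rai (u : Sec (BN N)) : vec (un0 (raiL K u)) = raiF K (unN u) := vec_ofV _

end lower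

end

end Crest.Agent.R273.B0_505
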