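import Mathlib

/-!
# R273 (S0416), BP-T leaf BDIAG (helper733): bounded commutative groups of operators

`V` finite dimensional complex vector space with a definite seminorm `N`, `G` a commutative group,
`ρ : G →* (V →ₗ[ℂ] V)`, every orbit bounded.

* `iSup_eq_top` : `V` is the sum of the joint eigenspaces;
* `exists_char` : the character of a joint eigenvector takes values in the circle;
* `exists_vec` : if `T : V →ₗ[ℂ] ℂ`, `T ∘ ρ g = η g • T`, `T ≠ 0` then some `v` has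
  `ρ g v = η g • v` for all `g` and `T v ≠ 0`.
-/

set_option autoImplicit false
set_option linter.unusedSectionVars false
set_option linter.unusedVariables false

open Module Module.End

namespace Crest.Agent.R273.BDiag_733

variable {V : Type*} [AddCommGroup V] [Module ℂ V] {G : Type*} [CommGroup G]

/-- all orbits are bounded -/
def Bdd (N : Seminorm ℂ V) (ρ : G →* Module.End ℂ V) : Prop :=
  ∀ v, ∃ C : ℝ, ∀ g, N (ρ g v) ≤ C

variable {N : Seminorm ℂ V} {ρ : G →* Module.End ℂ V}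

theorem pow_eig {u : Module.End ℂ V} {μ : ℂ} {v : V} (h : u v = μ • v) (n : ℕ) :
    (u ^ n) v = μ ^ n • v := by
  induction n with
  | zero => simp
  | succ n ih => rw [pow_succ, Module.End.mul_apply, h, map_smul, ih, smul_smul, pow_succ, mul_comm]

theorem map_pow_apply (g : G) (n : ℕ) (v : V) : ρ (g ^ n) v = (ρ g ^ n) v := by rw [map_pow]

theorem inv_apply (g : G) (v : V) : ρ g⁻¹ (ρ g v) = v := by
  rw [← Module.End.mul_apply, ← map_mul, inv_mul_cancel, map_one, Module.End.one_apply]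

/-- eigenvalues have modulus `≤ 1` -/
theorem norm_le_one (hN : ∀ v, N v = 0 → v = 0) (hb : Bdd N ρ) {g : G} {μ : ℂ} {v : V}
    (hv : v ≠ 0) (h : ρ g v = μ • v) : ‖μ‖ ≤ 1 := by
  by_contra hc
  push Not at hc
  obtain ⟨C, hC⟩ := hb v
  have hNv : 0 < N v := lt_of_le_of_ne (apply_nonneg N v) fun h0 => hv (hN v h0.symm)
  obtain ⟨n, hn⟩ := pow_unbounded_of_one_lt (C / N v) hc
  have h1 := hC (g ^ n)
  rw [map_pow_apply, pow_eig h, map_smul_eq_mul, norm_pow] at h1
  rw [div_lt_iff₀ hNv] at hn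
  linarith

theorem eig_ne_zero {g : G} {μ : ℂ} {v : V} (hv : v ≠ 0) (h : ρ g v = μ • v) : μ ≠ 0 := by
  rintro rfl
  apply hv
  have := inv_apply (ρ := ρ) g v
  rw [h, zero_smul, map_zero] at this
  exact this.symm

theorem eig_inv {g : G} {μ : ℂ} {v : V} (hv : v ≠ 0) (h : ρ g v = μ • v) :
    ρ g⁻¹ v = μ⁻¹ • v := by
  have h1 := inv_apply (ρ := ρ) g v
  rw [h, map_smul] at h1
  rw [eq_inv_smul_iff₀ (eig_ne_zero hv h)]
  exact h1

theorem norm_eq_one (hN : ∀ v, N v = 0 → v = 0) (hb : Bdd N ρ) {g : G} {μ : ℂ} {v : V}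
    (hv : v ≠ 0) (h : ρ g v = μ • v) : ‖μ‖ = 1 := by
  refine le_antisymm (norm_le_one hN hb hv h) ?_
  have h1 := norm_le_one hN hb hv (eig_inv hv h)
  rw [norm_inv] at h1
  have h2 : 0 < ‖μ‖ := norm_pos_iff.2 (eig_ne_zero hv h)
  rwa [inv_le_one₀ h2] at h1

theorem pow_two_step {u : Module.End ℂ V} {μ : ℂ} {v w : V} (h : u v = μ • v + w)
    (hw : u w = μ • w) (n : ℕ) : (u ^ (n + 1)) v = μ ^ (n + 1) • v + ((n + 1 : ℕ) * μ ^ n) • w := by
  induction n with
  | zero => simp [h]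
  | succ n ih =>
    rw [pow_succ', Module.End.mul_apply, ih, map_add, map_smul, map_smul, h, hw]
    rw [smul_add, smul_smul, smul_smul, add_assoc, ← add_smul]
    congr 2
    push_cast
    ring

/-- no Jordan blocks -/
theorem no_jordan (hN : ∀ v, N v = 0 → v = 0) (hb : Bdd N ρ) {g : G} {μ : ℂ} {v w : V}
    (h : ρ g v = μ • v + w) (hw : ρ g w = μ • w) : w = 0 := by
  by_contra hne
  have hμ := norm_eq_one hN hb hne hw
  obtain ⟨C, hC⟩ := hb v
  have hNw : 0 < N w := lt_of_le_of_ne (apply_nonneg N w) fun h0 => hne (hN w h0.symm)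
  obtain ⟨n, hn⟩ := exists_nat_gt ((C + N v) / N w)
  have h1 := hC (g ^ (n + 1))
  rw [map_pow_apply, pow_two_step h hw] at h1
  have h2 : N (((n + 1 : ℕ) * μ ^ n) • w) ≤ N (μ ^ (n + 1) • v + ((n + 1 : ℕ) * μ ^ n) • w) +
      N (μ ^ (n + 1) • v) := by
    have h3 : ((n + 1 : ℕ) * μ ^ n) • w =
        (μ ^ (n + 1) • v + ((n + 1 : ℕ) * μ ^ n) • w) - μ ^ (n + 1) • v := by abel
    conv_lhs => rw [h3]
    exact map_sub_le_add N _ _
  rw [map_smul_eq_mul, map_smul_eq_mul, norm_mul, norm_pow, norm_pow, hμ, one_pow, one_pow,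
    mul_one, one_mul] at h2
  have h4 : ‖((n + 1 : ℕ) : ℂ)‖ = (n : ℝ) + 1 := by
    rw [Complex.norm_natCast]; push_cast; ring
  rw [h4] at h2
  rw [div_lt_iff₀ hNw] at hn
  nlinarith

theorem gen_le (hN : ∀ v, N v = 0 → v = 0) (hb : Bdd N ρ) (g : G) (μ : ℂ) (n : ℕ) :
    ∀ v, ((ρ g - μ • 1) ^ n) v = 0 → (ρ g) v = μ • v ∨ n = 0 := by
  induction n with
  | zero => intro v _; exact Or.inr rfl
  | succ n ih =>
    intro v hv
    left
    rw [pow_succ, Module.End.mul_apply] at hv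
    set w : V := (ρ g - μ • 1) v with hw
    have h1 : ρ g v = μ • v + w := by
      rw [hw, LinearMap.sub_apply, LinearMap.smul_apply, Module.End.one_apply]; abel
    rcases ih w hv with h2 | h2
    · have h3 := no_jordan hN hb h1 h2
      rw [h3, add_zero] at h1
      exact h1
    · subst h2
      rw [pow_zero, Module.End.one_apply] at hv
      rw [hv, add_zero] at h1
      exact h1

theorem maxGen_eq (hN : ∀ v, N v = 0 → v = 0) (hb : Bdd N ρ) (g : G) (μ : ℂ) {v : V}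
    (hv : v ∈ (ρ g).maxGenEigenspace μ) : ρ g v = μ • v := by
  rw [Module.End.mem_maxGenEigenspace] at hv
  obtain ⟨n, hn⟩ := hv
  rcases gen_le hN hb g μ n v hn with h | h
  · exact h
  · subst h
    rw [pow_zero, Module.End.one_apply] at hn
    rw [hn]; simp

variable [FiniteDimensional ℂ V]

/-- joint eigenspaces -/
def joint (ρ : G →* Module.End ℂ V) (χ : G → ℂ) : Submodule ℂ V where
  carrier := {v | ∀ g, ρ g v = χ g • v}
  add_mem' := by
    intro a b ha hb g
    rw [map_add, ha g, hb g, smul_add]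
  zero_mem' := by intro g; simp
  smul_mem' := by
    intro c a ha g
    rw [map_smul, ha g, smul_comm]

theorem iSup_eq_top (hN : ∀ v, N v = 0 → v = 0) (hb : Bdd N ρ) :
    ⨆ χ : G → ℂ, joint ρ χ = ⊤ := by
  have h1 := iSup_iInf_maxGenEigenspace_eq_top_of_iSup_maxGenEigenspace_eq_top_of_commute
    (fun g => ρ g) (fun g g' _ => by
      show ρ g * ρ g' = ρ g' * ρ g
      rw [← map_mul, ← map_mul, mul_comm]) (fun g => iSup_maxGenEigenspace_eq_top (ρ g))
  rw [eq_top_iff, ← h1]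
  refine iSup_mono fun χ => fun v hv => ?_
  intro g
  rw [Submodule.mem_iInf] at hv
  exact maxGen_eq hN hb g (χ g) (hv g)

/-- **BDIAG** -/
theorem exists_vec (hN : ∀ v, N v = 0 → v = 0) (hb : Bdd N ρ) (T : V →ₗ[ℂ] ℂ) (hT : T ≠ 0)
    (η : G → ℂ) (hη : ∀ g v, T (ρ g v) = η g * T v) :
    ∃ v, (∀ g, ρ g v = η g • v) ∧ T v ≠ 0 := by
  by_contra hcon
  push Not at hcon
  apply hT
  have h1 : ∀ χ : G → ℂ, joint ρ χ ≤ LinearMap.ker T := by
    intro χ v hv
    rw [LinearMap.mem_ker]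
    by_contra hne
    apply hne
    refine hcon v fun g => ?_
    rw [hv g]
    congr 1
    have h2 := hη g v
    rw [hv g, map_smul, smul_eq_mul] at h2
    exact mul_right_cancel₀ hne h2
  have h3 : (⊤ : Submodule ℂ V) ≤ LinearMap.ker T := by
    rw [← iSup_eq_top hN hb]
    exact iSup_le h1
  ext v
  exact h3 (Submodule.mem_top)

/-- the character of a joint eigenvector -/
noncomputable def chr (hN : ∀ v, N v = 0 → v = 0) (hb : Bdd N ρ) {χ : G → ℂ} {v : V} (hv : v ≠ 0)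
    (h : ∀ g, ρ g v = χ g • v) : G →* Circle where
  toFun g := ⟨χ g, mem_sphere_zero_iff_norm.2 (norm_eq_one hN hb hv (h g))⟩
  map_one' := by
    apply Subtype.ext
    show χ 1 = 1
    have h1 := h 1
    rw [map_one, Module.End.one_apply] at h1
    have h2 : (χ 1 - 1) • v = 0 := by rw [sub_smul, one_smul, ← h1, sub_self]
    rcases smul_eq_zero.1 h2 with h3 | h3
    · exact sub_eq_zero.1 h3
    · exact absurd h3 hv
  map_mul' g g' := by
    apply Subtype.ext
    show χ (g * g') = χ g * χ g'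
    have h1 := h (g * g')
    rw [map_mul, Module.End.mul_apply, h g', map_smul, h g, smul_smul] at h1
    have h2 : (χ (g * g') - χ g * χ g') • v = 0 := by
      rw [sub_smul, ← h1, mul_comm (χ g'), sub_self]
    rcases smul_eq_zero.1 h2 with h3 | h3
    · exact sub_eq_zero.1 h3
    · exact absurd h3 hv

theorem exists_char (hN : ∀ v, N v = 0 → v = 0) (hb : Bdd N ρ) {χ : G → ℂ} {v : V} (hv : v ≠ 0)
    (h : ∀ g, ρ g v = χ g • v) : ∃ c : G →* Circle, ∀ g, (c g : ℂ) = χ g :=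
  ⟨chr hN hb hv h, fun _ => rfl⟩

/-- `V` is spanned by joint eigenvectors with characters in the circle -/
theorem span_eq_top (hN : ∀ v, N v = 0 → v = 0) (hb : Bdd N ρ) :
    Submodule.span ℂ {v : V | ∃ c : G →* Circle, ∀ g, ρ g v = (c g : ℂ) • v} = ⊤ := by
  rw [eq_top_iff, ← iSup_eq_top hN hb]
  refine iSup_le fun χ => fun v hv => ?_
  by_cases h0 : v = 0
  · rw [h0]; exact Submodule.zero_mem _
  · obtain ⟨c, hc⟩ := exists_char hN hb h0 hv
    exact Submodule.subset_span ⟨c, fun g => by rw [hc g]; exact hv g⟩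

/-- **BDIAG**, normed version -/
theorem exists_vec' {W : Type*} [NormedAddCommGroup W] [NormedSpace ℂ W] [FiniteDimensional ℂ W]
    {ρ : G →* Module.End ℂ W} (hb : ∀ v, ∃ C : ℝ, ∀ g, ‖ρ g v‖ ≤ C) (T : W →ₗ[ℂ] ℂ) (hT : T ≠ 0)
    (η : G → ℂ) (hη : ∀ g v, T (ρ g v) = η g * T v) :
    ∃ v, (∀ g, ρ g v = η g • v) ∧ T v ≠ 0 :=
  exists_vec (N := normSeminorm ℂ W) (fun v hv => norm_eq_zero.1 hv) hb T hT η hη

theorem exists_minimal_nat {α : Type*} [Nonempty α] (f : α → ℕ) : ∃ a, ∀ b, f a ≤ f b := by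
  classical
  have h : ∃ k, ∃ a, f a = k := ⟨_, Classical.arbitrary α, rfl⟩
  obtain ⟨a, ha⟩ := Nat.find_spec h
  exact ⟨a, fun b => by rw [ha]; exact Nat.find_min' h ⟨b, rfl⟩⟩

/-- version with a separating family of functionals instead of a norm -/
theorem exists_vec_fun {σ : Type*} (φ : σ → V →ₗ[ℂ] ℂ) (hφ : ∀ v, (∀ s, φ s v = 0) → v = 0)
    (hb : ∀ s v, ∃ C : ℝ, ∀ g, ‖φ s (ρ g v)‖ ≤ C) (T : V →ₗ[ℂ] ℂ) (hT : T ≠ 0)
    (η : G → ℂ) (hη : ∀ g v, T (ρ g v) = η g * T v) :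
    ∃ v, (∀ g, ρ g v = η g • v) ∧ T v ≠ 0 := by
  -- finitely many functionals suffice
  obtain ⟨t, ht⟩ : ∃ t : Finset σ, ∀ v, (∀ s ∈ t, φ s v = 0) → v = 0 := by
    classical
    obtain ⟨t, htm⟩ : ∃ t : Finset σ, ∀ t' : Finset σ,
        finrank ℂ (⨅ s ∈ t, LinearMap.ker (φ s) : Submodule ℂ V) ≤
          finrank ℂ (⨅ s ∈ t', LinearMap.ker (φ s) : Submodule ℂ V) := by
      obtain ⟨t, ht⟩ := exists_minimal_nat (fun t : Finset σ =>
        finrank ℂ (⨅ s ∈ t, LinearMap.ker (φ s) : Submodule ℂ V))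
      exact ⟨t, ht⟩
    refine ⟨t, fun v hv => hφ v fun s => ?_⟩
    have h1 : (⨅ s' ∈ insert s t, LinearMap.ker (φ s') : Submodule ℂ V) ≤
        ⨅ s' ∈ t, LinearMap.ker (φ s') :=
      biInf_mono fun i hi => Finset.mem_insert_of_mem hi
    have h2 := Submodule.eq_of_le_of_finrank_le h1 (htm (insert s t))
    have h3 : v ∈ ⨅ s' ∈ t, LinearMap.ker (φ s') := by
      simp only [Submodule.mem_iInf]
      exact hv
    rw [← h2] at h3
    simp only [Submodule.mem_iInf] at h3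
    exact h3 s (Finset.mem_insert_self s t)
  let N : Seminorm ℂ V := Seminorm.of (fun v => ∑ s ∈ t, ‖φ s v‖)
    (fun x y => by
      rw [← Finset.sum_add_distrib]
      exact Finset.sum_le_sum fun s _ => by rw [map_add]; exact norm_add_le _ _)
    (fun a x => by
      rw [Finset.mul_sum]
      exact Finset.sum_congr rfl fun s _ => by rw [map_smul, norm_smul])
  have hNa : ∀ v, N v = ∑ s ∈ t, ‖φ s v‖ := fun v => rfl
  refine exists_vec (N := N) (fun v hv => ht v fun s hs => ?_) (fun v => ?_) T hT η hη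
  · rw [hNa] at hv
    exact norm_eq_zero.1 ((Finset.sum_eq_zero_iff_of_nonneg fun _ _ => norm_nonneg _).1 hv s hs)
  · choose C hC using fun s => hb s v
    refine ⟨∑ s ∈ t, C s, fun g => ?_⟩
    rw [hNa]
    exact Finset.sum_le_sum fun s _ => hC s g

end Crest.Agent.R273.BDiag_733
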