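import Crest.Agent.R273.Bkn_243
import Mathlib.Analysis.Matrix.Order
import Mathlib.LinearAlgebra.Matrix.PosDef

/-!
# R273 (S0416), D.1/D.7 (helper243): positivity and transformation laws

* `Gam_conjTranspose`, `Gam_posSemidef`, `Gam_posDef`, `Gam_inv`;
* `T1_nonneg`, `T1_eq_zero_iff`, `T1_eq_zero_iff_posDef`;
* `Cv_eq_T1`, `Cv_nonneg`, `Cv_eq_zero_iff` (null vectors);
* `ip_Gam`, `T1_trans`, `Cv_trans` : invariance under `v' = Γ(P) v`, `K = Pᴴ K' P`.
-/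

set_option autoImplicit false
set_option linter.unusedSectionVars false

open Finset Matrix Complex
open scoped ContDiff ComplexConjugate ComplexOrder Kronecker MatrixOrder

namespace Crest.Agent.R273.Pos_243

open Crest.Agent.R273.Fock_243 Crest.Agent.R273.Bkn_243

noncomputable section

variable {n : ℕ}

theorem Gam_conjTranspose (A : Matrix (Fin n) (Fin n) ℂ) : (Gam A)ᴴ = Gam Aᴴ := by
  have h1 : (Gam A)ᴴ = ((Gam A).map (starRingEnd ℂ))ᵀ := by
    ext i j; rfl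
  have h2 : Aᴴ = (A.map (starRingEnd ℂ))ᵀ := by
    ext i j; rfl
  rw [h1, h2, Gam_map, Gam_transpose]

theorem Gam_posSemidef {A : Matrix (Fin n) (Fin n) ℂ} (h : A.PosSemidef) :
    (Gam A).PosSemidef := by
  obtain ⟨B, rfl⟩ := CStarAlgebra.nonneg_iff_eq_star_mul_self.mp h.nonneg
  rw [Matrix.star_eq_conjTranspose, Gam_mul, ← Gam_conjTranspose]
  exact posSemidef_conjTranspose_mul_self _

theorem Gam_mul_inv {A Ai : Matrix (Fin n) (Fin n) ℂ} (h : A * Ai = 1) :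
    Gam A * Gam Ai = 1 := by rw [← Gam_mul, h, Gam_one]

theorem Gam_posDef {A : Matrix (Fin n) (Fin n) ℂ} (h : A.PosDef) : (Gam A).PosDef := by
  have hu : IsUnit (Gam A) := by
    have h1 : IsUnit A := h.isUnit
    obtain ⟨u, rfl⟩ := h1
    exact ⟨⟨Gam u, Gam ((u⁻¹ : (Matrix (Fin n) (Fin n) ℂ)ˣ) : Matrix (Fin n) (Fin n) ℂ),
      Gam_mul_inv (Units.mul_inv u), Gam_mul_inv (Units.inv_mul u)⟩, rfl⟩
  exact (Gam_posSemidef h.posSemidef).posDef_iff_isUnit.2 hu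

theorem map_eq_transpose_of_isHermitian {A : Matrix (Fin n) (Fin n) ℂ} (h : A.IsHermitian) :
    A.map (starRingEnd ℂ) = Aᵀ := by
  ext i j
  exact h.apply j i

/-- `T1` as a quadratic form of the Kronecker product -/
theorem T1_kron (G : Matrix (FI n) (FI n) ℂ) (Ki : Matrix (Fin n) (Fin n) ℂ)
    (a b : Fin n → FI n → ℂ) :
    T1 G Ki a b = star (fun p : Fin n × FI n => b p.1 p.2) ⬝ᵥ
      ((Ki ⊗ₖ G) *ᵥ fun p : Fin n × FI n => a p.1 p.2) := by
  unfold T1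
  simp only [dotProduct, Matrix.mulVec, Fintype.sum_prod_type, Matrix.kroneckerMap_apply,
    Pi.star_apply, Finset.mul_sum]
  rw [Finset.sum_comm]
  refine Finset.sum_congr rfl fun l _ => ?_
  rw [Finset.sum_comm]
  refine Finset.sum_congr rfl fun S _ => Finset.sum_congr rfl fun k _ =>
    Finset.sum_congr rfl fun T _ => ?_
  ring

theorem T1_nonneg {G : Matrix (FI n) (FI n) ℂ} {Ki : Matrix (Fin n) (Fin n) ℂ}
    (hG : G.PosSemidef) (hK : Ki.PosSemidef) (a : Fin n → FI n → ℂ) : 0 ≤ T1 G Ki a a := by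
  rw [T1_kron]
  exact (hK.kronecker hG).dotProduct_mulVec_nonneg _

theorem T1_eq_zero_iff {G : Matrix (FI n) (FI n) ℂ} {Ki : Matrix (Fin n) (Fin n) ℂ}
    (hG : G.PosDef) (hK : Ki.PosSemidef) (a : Fin n → FI n → ℂ) :
    T1 G Ki a a = 0 ↔ ∀ l, ∑ k, Ki l k • a k = 0 := by
  rw [T1_kron, (hK.kronecker hG.posSemidef).dotProduct_mulVec_zero_iff]
  have h1 : ∀ l, G *ᵥ (∑ k, Ki l k • a k)
      = fun S => ((Ki ⊗ₖ G) *ᵥ fun p : Fin n × FI n => a p.1 p.2) (l, S) := by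
    intro l
    funext S
    simp only [Matrix.mulVec, dotProduct, Fintype.sum_prod_type, Matrix.kroneckerMap_apply,
      Finset.sum_apply, Pi.smul_apply, smul_eq_mul, Finset.mul_sum]
    rw [Finset.sum_comm]
    refine Finset.sum_congr rfl fun k _ => Finset.sum_congr rfl fun T _ => ?_
    ring
  constructor
  · intro h l
    have h2 : G *ᵥ (∑ k, Ki l k • a k) = 0 := by
      rw [h1, h]; rfl
    by_contra h3
    have h4 := hG.dotProduct_mulVec_pos h3
    rw [h2, dotProduct_zero] at h4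
    exact lt_irrefl _ h4
  · intro h
    funext p
    have h2 := congrFun (h1 p.1) p.2
    rw [h p.1, Matrix.mulVec_zero] at h2
    exact h2.symm

theorem T1_eq_zero_iff_posDef {G : Matrix (FI n) (FI n) ℂ} {Ki : Matrix (Fin n) (Fin n) ℂ}
    (hG : G.PosDef) (hK : Ki.PosDef) (a : Fin n → FI n → ℂ) :
    T1 G Ki a a = 0 ↔ ∀ k, a k = 0 := by
  constructor
  · intro h k
    rw [T1_kron] at h
    by_contra h3
    have h4 : (fun p : Fin n × FI n => a p.1 p.2) ≠ 0 := by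
      intro h5
      apply h3
      funext S
      exact congrFun h5 (k, S)
    have h5 := (hK.kronecker hG).dotProduct_mulVec_pos h4
    rw [h] at h5
    exact lt_irrefl _ h5
  · intro h
    rw [T1_eq_zero_iff hG hK.posSemidef]
    intro l
    simp [h]

/-- the curvature term is a `T1` of contractions -/
theorem Cv_eq_T1 (G : Matrix (FI n) (FI n) ℂ) (th : Matrix (Fin n) (Fin n) ℂ) (a b : FI n → ℂ) :
    Cv G th a b = T1 G thᵀ (fun k => iW (ep k) *ᵥ a) (fun k => iW (ep k) *ᵥ b) := by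
  unfold Cv T1
  rw [Finset.sum_comm]
  refine Finset.sum_congr rfl fun k _ => Finset.sum_congr rfl fun l _ => ?_
  rw [star_iW, Matrix.transpose_apply]

theorem Cv_nonneg {G : Matrix (FI n) (FI n) ℂ} {th : Matrix (Fin n) (Fin n) ℂ}
    (hG : G.PosSemidef) (hth : th.PosSemidef) (a : FI n → ℂ) : 0 ≤ Cv G th a a := by
  rw [Cv_eq_T1]
  exact T1_nonneg hG hth.transpose _

/-- `th l k = θ_{l k̄}`; the vector `a` is null -/
theorem Cv_eq_zero_iff {G : Matrix (FI n) (FI n) ℂ} {th : Matrix (Fin n) (Fin n) ℂ}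
    (hG : G.PosDef) (hth : th.PosSemidef) (a : FI n → ℂ) :
    Cv G th a a = 0 ↔ ∀ k, ∑ l, th l k • (iW (ep l) *ᵥ a) = 0 := by
  rw [Cv_eq_T1, T1_eq_zero_iff hG hth.transpose]
  rfl

/-! ### transformation laws -/

section trans

variable {P K K' Ki Ki' : Matrix (Fin n) (Fin n) ℂ}

/-- invariance of the inner product of multivectors -/
theorem ip_Gam (hK : K = Pᴴ * K' * P) (v w : FI n → ℂ) :
    star (Gam P *ᵥ w) ⬝ᵥ (Gam K' *ᵥ (Gam P *ᵥ v)) = star w ⬝ᵥ (Gam K *ᵥ v) := by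
  rw [hK, Gam_mul, Gam_mul, ← Gam_conjTranspose, Matrix.star_mulVec, Matrix.mulVec_mulVec,
    ← Matrix.dotProduct_mulVec, Matrix.mulVec_mulVec, Matrix.mul_assoc]

theorem inv_trans (hK : K = Pᴴ * K' * P) (hi : Ki * K = 1) (hi' : Ki' * K' = 1) :
    P * Ki * Pᴴ = Ki' := by
  have h1 : Ki * Pᴴ * (K' * P) = 1 := by
    rw [← hi, hK]; simp only [Matrix.mul_assoc]
  have h2 : (K' * P) * (Ki * Pᴴ) = 1 := mul_eq_one_comm.1 h1
  calc P * Ki * Pᴴ = (Ki' * K') * (P * Ki * Pᴴ) := by rw [hi', Matrix.one_mul]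
    _ = Ki' * ((K' * P) * (Ki * Pᴴ)) := by simp only [Matrix.mul_assoc]
    _ = Ki' := by rw [h2, Matrix.mul_one]

/-- invariance of the full gradient term -/
theorem T1_trans (hK : K = Pᴴ * K' * P) (hi : Ki * K = 1) (hi' : Ki' * K' = 1)
    {a b a' b' : Fin n → FI n → ℂ} (ha : ∀ k, Gam P *ᵥ a k = ∑ c, conj (P c k) • a' c)
    (hb : ∀ k, Gam P *ᵥ b k = ∑ c, conj (P c k) • b' c) :
    T1 (Gam K) Ki a b = T1 (Gam K') Ki' a' b' := by
  have h1 : ∀ k l, star (b l) ⬝ᵥ (Gam K *ᵥ a k)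
      = ∑ d, ∑ c, P d l * conj (P c k) * (star (b' d) ⬝ᵥ (Gam K' *ᵥ a' c)) := by
    intro k l
    rw [← ip_Gam hK, ha, hb, star_sum, sum_dotProduct]
    refine Finset.sum_congr rfl fun d _ => ?_
    rw [Matrix.mulVec_sum, dotProduct_sum]
    refine Finset.sum_congr rfl fun c _ => ?_
    have h2 : star (conj (P d l) • b' d) = P d l • star (b' d) := by
      ext S; simp
    rw [h2, Matrix.mulVec_smul, smul_dotProduct, dotProduct_smul, smul_eq_mul, smul_eq_mul]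
    ring
  have h3 : ∀ d c, Ki' d c = ∑ l, ∑ k, P d l * Ki l k * conj (P c k) := by
    intro d c
    rw [← inv_trans hK hi hi', Matrix.mul_apply]
    simp only [Matrix.mul_apply, Finset.sum_mul, Matrix.conjTranspose_apply]
    rw [Finset.sum_comm]
    rfl
  unfold T1
  simp only [h1, h3, Finset.mul_sum, Finset.sum_mul]
  -- reorder the four sums
  have e1 : ∀ F : Fin n → Fin n → Fin n → Fin n → ℂ,
      ∑ k, ∑ l, ∑ d, ∑ c, F k l d c = ∑ c, ∑ d, ∑ l, ∑ k, F k l d c := by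
    intro F
    calc ∑ k, ∑ l, ∑ d, ∑ c, F k l d c = ∑ k, ∑ l, ∑ c, ∑ d, F k l d c :=
          Finset.sum_congr rfl fun k _ => Finset.sum_congr rfl fun l _ => Finset.sum_comm
      _ = ∑ k, ∑ c, ∑ l, ∑ d, F k l d c := Finset.sum_congr rfl fun k _ => Finset.sum_comm
      _ = ∑ c, ∑ k, ∑ l, ∑ d, F k l d c := Finset.sum_comm
      _ = ∑ c, ∑ k, ∑ d, ∑ l, F k l d c :=
          Finset.sum_congr rfl fun c _ => Finset.sum_congr rfl fun k _ => Finset.sum_comm
      _ = ∑ c, ∑ d, ∑ k, ∑ l, F k l d c := Finset.sum_congr rfl fun c _ => Finset.sum_comm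
      _ = ∑ c, ∑ d, ∑ l, ∑ k, F k l d c :=
          Finset.sum_congr rfl fun c _ => Finset.sum_congr rfl fun d _ => Finset.sum_comm
  rw [e1]
  refine Finset.sum_congr rfl fun c _ => Finset.sum_congr rfl fun d _ =>
    Finset.sum_congr rfl fun l _ => Finset.sum_congr rfl fun k _ => ?_
  ring

/-- contraction and change of frame -/
theorem iW_Gam_ep (P : Matrix (Fin n) (Fin n) ℂ) (c : Fin n) (v : FI n → ℂ) :
    iW (ep c) *ᵥ (Gam P *ᵥ v) = ∑ l, P c l • (Gam P *ᵥ (iW (ep l) *ᵥ v)) := by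
  rw [Matrix.mulVec_mulVec, iW_Gam, iW_eq_sum (Pᵀ *ᵥ ep c), Matrix.mul_sum, Matrix.sum_mulVec]
  refine Finset.sum_congr rfl fun l _ => ?_
  rw [Matrix.mul_smul, Matrix.smul_mulVec, Matrix.mulVec_mulVec]
  congr 1
  simp [Matrix.mulVec, dotProduct, Pi.single_apply]

/-- invariance of the curvature term -/
theorem Cv_trans (hK : K = Pᴴ * K' * P) {th th' : Matrix (Fin n) (Fin n) ℂ}
    (hth : ∀ l k, th l k = ∑ c, ∑ d, P c l * th' c d * conj (P d k)) (v w : FI n → ℂ) :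
    Cv (Gam K) th v w = Cv (Gam K') th' (Gam P *ᵥ v) (Gam P *ᵥ w) := by
  have h1 : ∀ d c, (iW (ep d) *ᵥ star (Gam P *ᵥ w)) ⬝ᵥ (Gam K' *ᵥ (iW (ep c) *ᵥ (Gam P *ᵥ v)))
      = ∑ k, ∑ l, conj (P d k) * P c l *
        ((iW (ep k) *ᵥ star w) ⬝ᵥ (Gam K *ᵥ (iW (ep l) *ᵥ v))) := by
    intro d c
    rw [← star_iW, iW_Gam_ep, iW_Gam_ep, star_sum, sum_dotProduct]
    refine Finset.sum_congr rfl fun k _ => ?_
    rw [Matrix.mulVec_sum, dotProduct_sum]
    refine Finset.sum_congr rfl fun l _ => ?_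
    have h2 : star (P d k • (Gam P *ᵥ (iW (ep k) *ᵥ w)))
        = conj (P d k) • star (Gam P *ᵥ (iW (ep k) *ᵥ w)) := by
      ext S; simp
    rw [h2, Matrix.mulVec_smul, smul_dotProduct, dotProduct_smul, ip_Gam hK, ← star_iW,
      smul_eq_mul, smul_eq_mul]
    ring
  unfold Cv
  simp only [h1, hth, Finset.mul_sum, Finset.sum_mul]
  have e1 : ∀ F : Fin n → Fin n → Fin n → Fin n → ℂ,
      ∑ k, ∑ l, ∑ c, ∑ d, F k l c d = ∑ d, ∑ c, ∑ k, ∑ l, F k l c d := by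
    intro F
    calc ∑ k, ∑ l, ∑ c, ∑ d, F k l c d = ∑ k, ∑ l, ∑ d, ∑ c, F k l c d :=
          Finset.sum_congr rfl fun k _ => Finset.sum_congr rfl fun l _ => Finset.sum_comm
      _ = ∑ k, ∑ d, ∑ l, ∑ c, F k l c d := Finset.sum_congr rfl fun k _ => Finset.sum_comm
      _ = ∑ d, ∑ k, ∑ l, ∑ c, F k l c d := Finset.sum_comm
      _ = ∑ d, ∑ k, ∑ c, ∑ l, F k l c d :=
          Finset.sum_congr rfl fun d _ => Finset.sum_congr rfl fun k _ => Finset.sum_comm
      _ = ∑ d, ∑ c, ∑ k, ∑ l, F k l c d :=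
          Finset.sum_congr rfl fun d _ => Finset.sum_comm
  rw [e1]
  refine Finset.sum_congr rfl fun d _ => Finset.sum_congr rfl fun c _ =>
    Finset.sum_congr rfl fun k _ => Finset.sum_congr rfl fun l _ => ?_
  ring

end trans

end

end Crest.Agent.R273.Pos_243
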