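import Crest.Agent.R273.BKNa_37
import Crest.Agent.R273.Pos_243

/-!
# R273 (S0416), BP-D leaf D.8 (helper37), part 3: the integrated identity

* `inG K h v w`, `inD`, `inT`, `inU` : pairing, gradient, curvature and `∂̄`-of-lowered densities;
* `inG_isD`, `inD_isD`, `inT_isD` : they are smooth densities;
* `bkn` : `∫ inD + ∫ inT = ∫ inU + ∫ inG (delV v) (delV w)`.
-/

set_option autoImplicit false
set_option linter.unusedSectionVars false

open Set Filter Topology Complex Matrix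
open scoped ContDiff Matrix ComplexConjugate Manifold ComplexOrder

namespace Crest.Agent.R273.BKNb_37

open Crest.Agent.R275 Crest.Agent.R275.Geo Crest.Agent.R275.Core144
open Crest.Agent.R275.EDR890 (wd wd_comm)
open Crest.Agent.R275.Pai323 Crest.Agent.R275.C1d194
open Crest.Agent.R275.SerG398 (lint dens dens_eq detJ)
open Crest.Agent.R275.OmT75 (dl dl_chain db_chain dl_mul dl_J_symm J_analytic)
open Crest.Agent.R273.Defs_333 Crest.Agent.R273.HM_333 Crest.Agent.R273.Kah_333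
open Crest.Agent.R273.Hess_333
open Crest.Agent.R273.Fock_243 Crest.Agent.R273.Calc_243 Crest.Agent.R273.Bkn_243
open Crest.Agent.R273.Pos_243
open Crest.Agent.R273.DelLaw_37 Crest.Agent.R273.StV_37 Crest.Agent.R273.BKNa_37

noncomputable section

variable {n : ℕ} {M : Type} [TopologicalSpace M] {A : Atl n M} {N L : LB A}
variable {K : Kah A} {v w : A.ι → M → FI n → ℂ}

/-! ### densities -/

/-- the pairing density -/
def inG (K : Kah A) (h : HM L) (v w : A.ι → M → FI n → ℂ) (i : A.ι) (x : M) : ℂ :=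
  (h.w i x : ℂ) * (star (w i x) ⬝ᵥ (Gam ((K.g i x)ᵀ) *ᵥ v i x))

/-- the density of the full `∂̄`-gradient -/
def inD (K : Kah A) (h : HM L) (v w : A.ι → M → FI n → ℂ) (i : A.ι) (x : M) : ℂ :=
  (h.w i x : ℂ) * T1 (Gam ((K.g i x)ᵀ)) ((K.g i x)ᵀ)⁻¹ (fun k => dbV v i k x)
    (fun l => dbV w i l x)

/-- the curvature density -/
def inT (K : Kah A) (h : HM L) (v w : A.ι → M → FI n → ℂ) (i : A.ι) (x : M) : ℂ :=
  (h.w i x : ℂ) * Cv (Gam ((K.g i x)ᵀ)) (cur h i x) (v i x) (w i x)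

/-- the density of `∂̄` of the lowered field -/
def inU (K : Kah A) (h : HM L) (v w : A.ι → M → FI n → ℂ) (i : A.ι) (x : M) : ℂ :=
  (h.w i x : ℂ) * (star (duV K w i x) ⬝ᵥ (Gam (((K.g i x)ᵀ)⁻¹) *ᵥ duV K v i x))

/-- the first vector density -/
def fX (K : Kah A) (h : HM L) (v w : A.ι → M → FI n → ℂ) (i : A.ι) (x : M) (l : Fin n) : ℂ :=
  (h.w i x : ℂ) * ∑ k, (iW (ep k) *ᵥ star (w i x)) ⬝ᵥ
    (Gam ((K.g i x)ᵀ) *ᵥ (iW (ep l) *ᵥ dbV v i k x))

/-- the second vector density -/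
def fY (K : Kah A) (h : HM L) (v w : A.ι → M → FI n → ℂ) (i : A.ι) (x : M) (k : Fin n) : ℂ :=
  - ((h.w i x : ℂ) * ((iW (ep k) *ᵥ star (w i x)) ⬝ᵥ (Gam ((K.g i x)ᵀ) *ᵥ delV h v i x)))

theorem inv_T' (K : Kah A) (i : A.ι) {x : M} (hx : x ∈ (A.e i).source) :
    ((K.g i x)ᵀ)⁻¹ * (K.g i x)ᵀ = 1 := inv_T (K.pos i x hx)

theorem exp_x (h : HM L) (i : A.ι) {x : M} (hx : x ∈ (A.e i).source) :
    Complex.exp (lamr h i (A.e i x)) = (h.w i x : ℂ) := by
  rw [exp_lamr h i ((A.e i).map_source hx), (A.e i).left_inv hx]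

theorem fX_read (h : HM L) (v w : A.ι → M → FI n → ℂ) (i : A.ι) {z : Cn n}
    (hz : z ∈ (A.e i).target) (l : Fin n) :
    fX K h v w i ((A.e i).symm z) l = Xf (Kr K i) (lamr h i) (rV v i) (rV w i) l z := by
  unfold fX Xf
  rw [exp_lamr h i hz]
  simp only [dbV_eq]
  rw [(A.e i).right_inv hz]
  rfl

theorem fY_read (h : HM L) {v : A.ι → M → FI n → ℂ} (hs : ∀ i T, A.SmAt i (fun x => v i x T))
    (w : A.ι → M → FI n → ℂ) (i : A.ι) {z : Cn n} (hz : z ∈ (A.e i).target) (k : Fin n) :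
    fY K h v w i ((A.e i).symm z) k = Yf (Kr K i) (lamr h i) (rV v i) (rV w i) k z := by
  unfold fY Yf
  rw [exp_lamr h i hz, delV_eq h hs i ((A.e i).map_target hz), (A.e i).right_inv hz]
  rfl

theorem Xf_sm {K : Cn n → Matrix (Fin n) (Fin n) ℂ} {lam : Cn n → ℂ} {v w : Cn n → FI n → ℂ}
    {z : Cn n} (hK : SmM z K) (hl : Sm z lam) (hv : SmV z v) (hw : SmV z w) (l : Fin n) :
    Sm z (Xf K lam v w l) := by
  unfold Xf
  exact hl.cexp.mul (ContDiffAt.sum fun k _ => SmV.dot (SmV.const_mulVec _ hw.star)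
    (SmM.mulVec (SmM.Gam hK) (SmV.const_mulVec _ (hv.dV _ _))))

theorem Yf_sm {K : Cn n → Matrix (Fin n) (Fin n) ℂ} {lam : Cn n → ℂ} {v w : Cn n → FI n → ℂ}
    {z : Cn n} (hK : SmM z K) (hl : Sm z lam) (hv : SmV z v) (hw : SmV z w) (l : Fin n) :
    Sm z (Yf K lam v w l) := by
  unfold Yf
  exact (hl.cexp.mul (SmV.dot (SmV.const_mulVec _ hw.star)
    (SmM.mulVec (SmM.Gam hK) (Sm.del hl hv)))).neg

theorem fX_sm (K : Kah A) (h : HM L) (hv : ∀ i T, A.SmAt i (fun x => v i x T))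
    (hw : ∀ i T, A.SmAt i (fun x => w i x T)) (i : A.ι) (l : Fin n) :
    A.SmAt i (fun x => fX K h v w i x l) := by
  refine smAt_of_sm fun z hz => ?_
  refine ContDiffAt.congr_of_eventuallyEq (Xf_sm (smM_Kr K i hz) (sm_lamr h i hz)
    (smV_rV hv i hz) (smV_rV hw i hz) l) ?_
  filter_upwards [(A.e i).open_target.mem_nhds hz] with y hy
  exact fX_read h v w i hy l

theorem fY_sm (K : Kah A) (h : HM L) (hv : ∀ i T, A.SmAt i (fun x => v i x T))
    (hw : ∀ i T, A.SmAt i (fun x => w i x T)) (i : A.ι) (l : Fin n) :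
    A.SmAt i (fun x => fY K h v w i x l) := by
  refine smAt_of_sm fun z hz => ?_
  refine ContDiffAt.congr_of_eventuallyEq (Yf_sm (smM_Kr K i hz) (sm_lamr h i hz)
    (smV_rV hv i hz) (smV_rV hw i hz) l) ?_
  filter_upwards [(A.e i).open_target.mem_nhds hz] with y hy
  exact fY_read h hv w i hy l

/-! ### transformation laws -/

theorem K_law (K : Kah A) {i j : A.ι} {x : M} (hx : x ∈ (A.e i).source ∩ (A.e j).source) :
    (K.g i x)ᵀ = (Jm A i j x)ᴴ * (K.g j x)ᵀ * Jm A i j x := by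
  rw [K.tr i j x hx, Matrix.transpose_mul, Matrix.transpose_mul, Matrix.transpose_transpose,
    Matrix.mul_assoc]
  rfl

/-- law of `∂̄_k v` -/
theorem dbV_law (hv : IsV N v) {i j : A.ι} {x : M} (hx : x ∈ (A.e i).source ∩ (A.e j).source)
    (k : Fin n) :
    Gam (Jm A i j x) *ᵥ dbV v i k x
      = ∑ c, conj (Jm A i j x c k) • (N.g i j x • dbV v j c x) := by
  have hz : A.e i x ∈ A.ov i j := mem_ov hx
  have ht : A.e i x ∈ (A.e i).target := (A.e i).map_source hx.1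
  have ho : IsOpen (A.ov i j) := isOpen_ov i j
  have hxx : (A.e i).symm (A.e i x) = x := (A.e i).left_inv hx.1
  have hm : SmM (A.e i x) (Jr A i j) := smM_Jr hz
  have hVi : SmV (A.e i x) (fun z => v i ((A.e i).symm z)) := smV_rV hv.sm i ht
  have hV : ∀ᶠ y in 𝓝 (A.e i x), Gam (Jr A i j y) *ᵥ v i ((A.e i).symm y)
      = N.g i j ((A.e i).symm y) • v j ((A.e i).symm y) := by
    filter_upwards [ho.mem_nhds hz] with y hy
    exact hv.tr' ⟨(A.e i).map_target hy.1, hy.2⟩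
  have hrd : ∀ {f : M → ℂ}, A.SmAt j f → Sm (A.e i x) (fun y => f ((A.e i).symm y)) := by
    intro f hf
    have h1 : Sm (A.e j x) (fun y => f ((A.e j).symm y)) := sm_rd hf ((A.e j).map_source hx.2)
    have h2 : (fun z => f ((A.e i).symm z)) =ᶠ[𝓝 (A.e i x)]
      fun z => (fun w => f ((A.e j).symm w)) (OmT75.tr A i j z) := OmT75.read_eq f hx
    have h3 : ContDiffAt ℝ ∞ (OmT75.tr A i j) (A.e i x) :=
      ((((OmT75.tr_analytic i j) _ hz).contDiffAt (n := ω)).restrict_scalars ℝ).of_le le_top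
    rw [← OmT75.tr_val hx] at h1
    exact (h1.comp (A.e i x) h3).congr_of_eventuallyEq h2
  have hVj : SmV (A.e i x) (fun z => v j ((A.e i).symm z)) := fun T => hrd (hv.sm j T)
  have hg : Sm (A.e i x) (fun z => N.g i j ((A.e i).symm z)) :=
    ContDiffOn.contDiffAt (s := A.ov i j) ((N.hol i j).contDiffOn (A.e j).open_source)
      (ho.mem_nhds hz)
  have hgh : dS I k (fun z => N.g i j ((A.e i).symm z)) (A.e i x) = 0 :=
    dS_hol ((N.hol i j).differentiableAt (ho.mem_nhds hz)) k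
  have hdG : dM I k (fun y => Gam (Jr A i j y)) (A.e i x) = 0 := by
    refine ext_of_eW (fun l => eW fun b => Jr A i j (A.e i x) b l) (fun l => ?_)
      (fun l => by simp) fun S => ?_
    · rw [dM_Gam_eW hm l, dM_Jr hz]
      have h0 : (fun b => (0 : Matrix (Fin n) (Fin n) ℂ) b l) = 0 := by ext b; rfl
      rw [h0, eW_zero, zero_mul, zero_add]
    · rw [dM_Gam_vac]; rfl
  have e1 : dV I k (fun y => Gam (Jr A i j y) *ᵥ v i ((A.e i).symm y)) (A.e i x)
      = dV I k (fun y => N.g i j ((A.e i).symm y) • v j ((A.e i).symm y)) (A.e i x) := by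
    funext S
    exact dS_congr (hV.mono fun y hy => congrFun hy S)
  rw [dV_mulVec (fun S T => (SmM.Gam hm S T).diff) (fun S => (hVi S).diff), hdG,
    Matrix.zero_mulVec, zero_add, dV_smul hg.diff (fun S => (hVj S).diff), hgh, zero_smul,
    zero_add, hxx] at e1
  have e2 : Gam (Jr A i j (A.e i x)) *ᵥ dV I k (fun z => v i ((A.e i).symm z)) (A.e i x)
      = Gam (Jm A i j x) *ᵥ dbV v i k x := by
    unfold Jr
    rw [hxx]
    rfl
  rw [e2] at e1
  rw [e1]
  have e3 : dV I k (fun z => v j ((A.e i).symm z)) (A.e i x)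
      = ∑ c, conj (Jm A i j x c k) • dbV v j c x := by
    funext T
    have e4 := db_chain (A := A) (f := fun y => v j y T)
      (sm_rd (hv.sm j T) ((A.e j).map_source hx.2)).diff hx k
    rw [Finset.sum_apply]
    exact e4
  rw [e3, Finset.smul_sum]
  exact Finset.sum_congr rfl fun c _ => smul_comm _ _ _

theorem conj_smul_dot (c : ℂ) (p q : FI n → ℂ) : star (c • p) ⬝ᵥ q = conj c * (star p ⬝ᵥ q) := by
  rw [star_smul, smul_dotProduct]
  rfl

theorem T1_smul (G : Matrix (FI n) (FI n) ℂ) (Ki : Matrix (Fin n) (Fin n) ℂ) (c : ℂ)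
    (a b : Fin n → FI n → ℂ) :
    T1 G Ki (fun k => c • a k) (fun k => c • b k) = (c * conj c) * T1 G Ki a b := by
  unfold T1
  simp only [Finset.mul_sum]
  refine Finset.sum_congr rfl fun k _ => Finset.sum_congr rfl fun l _ => ?_
  rw [conj_smul_dot, Matrix.mulVec_smul, dotProduct_smul, smul_eq_mul]
  ring

theorem Cv_smul (G : Matrix (FI n) (FI n) ℂ) (th : Matrix (Fin n) (Fin n) ℂ) (c : ℂ)
    (a b : FI n → ℂ) :
    Cv G th (c • a) (c • b) = (c * conj c) * Cv G th a b := by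
  unfold Cv
  simp only [Finset.mul_sum]
  refine Finset.sum_congr rfl fun k _ => Finset.sum_congr rfl fun l _ => ?_
  rw [star_smul, Matrix.mulVec_smul, Matrix.mulVec_smul, Matrix.mulVec_smul, smul_dotProduct,
    dotProduct_smul, smul_eq_mul, smul_eq_mul, starRingEnd_apply]
  ring

theorem inG_law (h : HM ((KB A)⁻¹ * N)) (hv : IsV N v) (hw : IsV N w) {i j : A.ι} {x : M}
    (hx : x ∈ (A.e i).source ∩ (A.e j).source) :
    inG K h v w i x = dens A i j x * inG K h v w j x := by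
  unfold inG
  rw [← ip_Gam (K_law K hx), hv.tr' hx, hw.tr' hx, conj_smul_dot, Matrix.mulVec_smul,
    dotProduct_smul, smul_eq_mul]
  linear_combination (star (w j x) ⬝ᵥ Gam (K.g j x)ᵀ *ᵥ v j x) * w_law h hx

theorem inD_law (h : HM ((KB A)⁻¹ * N)) (hv : IsV N v) (hw : IsV N w) {i j : A.ι} {x : M}
    (hx : x ∈ (A.e i).source ∩ (A.e j).source) :
    inD K h v w i x = dens A i j x * inD K h v w j x := by
  unfold inD
  rw [T1_trans (K_law K hx) (inv_T' K i hx.1) (inv_T' K j hx.2) (fun k => dbV_law hv hx k)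
    (fun k => dbV_law hw hx k), T1_smul]
  linear_combination (T1 (Gam (K.g j x)ᵀ) (K.g j x)ᵀ⁻¹ (fun k => dbV v j k x)
    (fun l => dbV w j l x)) * w_law h hx

theorem inT_law (h : HM ((KB A)⁻¹ * N)) (hv : IsV N v) (hw : IsV N w) {i j : A.ι} {x : M}
    (hx : x ∈ (A.e i).source ∩ (A.e j).source) :
    inT K h v w i x = dens A i j x * inT K h v w j x := by
  unfold inT
  have h1 : ∀ l k, cur h i x l k = ∑ c, ∑ d, Jm A i j x c l * cur h j x c d *
      conj (Jm A i j x d k) := by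
    intro l k
    rw [cur_tr h hx]
    simp only [Matrix.mul_apply, Matrix.transpose_apply, Matrix.map_apply, Finset.sum_mul]
    rw [Finset.sum_comm]
  rw [Cv_trans (K_law K hx) h1, hv.tr' hx, hw.tr' hx, Cv_smul]
  linear_combination (Cv (Gam (K.g j x)ᵀ) (cur h j x) (v j x) (w j x)) * w_law h hx

/-- law of the first vector density -/
theorem fX_V10 (h : HM ((KB A)⁻¹ * N)) (hv : IsV N v) (hw : IsV N w) :
    V10 A (fX K h v w) where
  sm i l := fX_sm K h hv.sm hw.sm i l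
  tr i j x hx b := by
    set P := Jm A i j x with hP
    have hK := K_law K hx
    -- the bilinear form
    have hB : ∀ p q : FI n → ℂ, star p ⬝ᵥ (Gam ((K.g i x)ᵀ) *ᵥ q)
        = star (Gam P *ᵥ p) ⬝ᵥ (Gam ((K.g j x)ᵀ) *ᵥ (Gam P *ᵥ q)) := fun p q =>
      (ip_Gam hK q p).symm
    have hi : ∀ c : Fin n, ∀ p : FI n → ℂ,
        ∑ l, P c l • (Gam P *ᵥ (iW (ep l) *ᵥ p)) = iW (ep c) *ᵥ (Gam P *ᵥ p) :=
      fun c p => (iW_Gam_ep P c p).symm
    have e1 : ∀ a, fX K h v w i x a = (h.w i x : ℂ) * ∑ k,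
        star (Gam P *ᵥ (iW (ep k) *ᵥ w i x)) ⬝ᵥ
          (Gam ((K.g j x)ᵀ) *ᵥ (Gam P *ᵥ (iW (ep a) *ᵥ dbV v i k x))) := by
      intro a
      unfold fX
      congr 1
      refine Finset.sum_congr rfl fun k _ => ?_
      rw [← star_iW, hB]
    have e2 : ∑ a, P b a * fX K h v w i x a = (h.w i x : ℂ) * ∑ k,
        star (Gam P *ᵥ (iW (ep k) *ᵥ w i x)) ⬝ᵥ
          (Gam ((K.g j x)ᵀ) *ᵥ (iW (ep b) *ᵥ (Gam P *ᵥ dbV v i k x))) := by
      simp only [e1, ← hi b, Matrix.mulVec_sum, dotProduct_sum, Matrix.mulVec_smul,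
        dotProduct_smul, smul_eq_mul, Finset.mul_sum]
      rw [Finset.sum_comm]
      refine Finset.sum_congr rfl fun k _ => Finset.sum_congr rfl fun a _ => ?_
      ring
    have e3 : ∑ k, star (Gam P *ᵥ (iW (ep k) *ᵥ w i x)) ⬝ᵥ
          (Gam ((K.g j x)ᵀ) *ᵥ (iW (ep b) *ᵥ (Gam P *ᵥ dbV v i k x)))
        = (N.g i j x * conj (N.g i j x)) * ∑ c, (iW (ep c) *ᵥ star (w j x)) ⬝ᵥ
          (Gam ((K.g j x)ᵀ) *ᵥ (iW (ep b) *ᵥ dbV v j c x)) := by
      have e4 : ∀ k, star (Gam P *ᵥ (iW (ep k) *ᵥ w i x)) ⬝ᵥ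
          (Gam ((K.g j x)ᵀ) *ᵥ (iW (ep b) *ᵥ (Gam P *ᵥ dbV v i k x)))
          = ∑ c, (N.g i j x * conj (P c k)) * (star (Gam P *ᵥ (iW (ep k) *ᵥ w i x)) ⬝ᵥ
            (Gam ((K.g j x)ᵀ) *ᵥ (iW (ep b) *ᵥ dbV v j c x))) := by
        intro k
        rw [dbV_law hv hx k]
        simp only [Matrix.mulVec_sum, dotProduct_sum, Matrix.mulVec_smul,
          dotProduct_smul, smul_eq_mul]
        refine Finset.sum_congr rfl fun c _ => ?_
        ring
      rw [Finset.sum_congr rfl fun k _ => e4 k, Finset.sum_comm, Finset.mul_sum]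
      refine Finset.sum_congr rfl fun c _ => ?_
      have e5 : ∑ k, conj (P c k) * (star (Gam P *ᵥ (iW (ep k) *ᵥ w i x)) ⬝ᵥ
            (Gam ((K.g j x)ᵀ) *ᵥ (iW (ep b) *ᵥ dbV v j c x)))
          = star (iW (ep c) *ᵥ (Gam P *ᵥ w i x)) ⬝ᵥ
            (Gam ((K.g j x)ᵀ) *ᵥ (iW (ep b) *ᵥ dbV v j c x)) := by
        rw [← hi c, star_sum, sum_dotProduct]
        exact Finset.sum_congr rfl fun k _ => (conj_smul_dot _ _ _).symm
      have e6 : ∑ k, (N.g i j x * conj (P c k)) * (star (Gam P *ᵥ (iW (ep k) *ᵥ w i x)) ⬝ᵥ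
            (Gam ((K.g j x)ᵀ) *ᵥ (iW (ep b) *ᵥ dbV v j c x)))
          = N.g i j x * (star (iW (ep c) *ᵥ (Gam P *ᵥ w i x)) ⬝ᵥ
            (Gam ((K.g j x)ᵀ) *ᵥ (iW (ep b) *ᵥ dbV v j c x))) := by
        rw [← e5, Finset.mul_sum]
        exact Finset.sum_congr rfl fun k _ => by ring
      rw [e6, hw.tr' hx, Matrix.mulVec_smul, conj_smul_dot, star_iW]
      ring
    show ∑ a, P b a * fX K h v w i x a = _
    rw [e2, e3]
    unfold fX
    linear_combination (∑ c, (iW (ep c) *ᵥ star (w j x)) ⬝ᵥ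
          (Gam ((K.g j x)ᵀ) *ᵥ (iW (ep b) *ᵥ dbV v j c x))) * w_law h hx

/-- law of the second vector density -/
theorem fY_V01 (h : HM ((KB A)⁻¹ * N)) (hv : IsV N v) (hw : IsV N w) :
    V01 A (fY K h v w) where
  sm i l := fY_sm K h hv.sm hw.sm i l
  tr i j x hx b := by
    set P := Jm A i j x with hP
    have hK := K_law K hx
    have hd := delV_isV h hv
    have e1 : ∀ a, fY K h v w i x a = - ((h.w i x : ℂ) *
        (star (Gam P *ᵥ (iW (ep a) *ᵥ w i x)) ⬝ᵥ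
          (Gam ((K.g j x)ᵀ) *ᵥ (Gam P *ᵥ delV h v i x)))) := by
      intro a
      unfold fY
      rw [← star_iW, ip_Gam hK]
    have e2 : ∑ a, conj (P b a) * fY K h v w i x a = - ((h.w i x : ℂ) *
        (star (iW (ep b) *ᵥ (Gam P *ᵥ w i x)) ⬝ᵥ
          (Gam ((K.g j x)ᵀ) *ᵥ (Gam P *ᵥ delV h v i x)))) := by
      rw [iW_Gam_ep P b, star_sum, sum_dotProduct, Finset.mul_sum, ← Finset.sum_neg_distrib]
      refine Finset.sum_congr rfl fun a _ => ?_
      rw [e1, conj_smul_dot]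
      ring
    show ∑ a, conj (P b a) * fY K h v w i x a = _
    rw [e2, hw.tr' hx, hd.tr' hx, Matrix.mulVec_smul, conj_smul_dot, star_iW,
      Matrix.mulVec_smul, dotProduct_smul, smul_eq_mul]
    unfold fY
    linear_combination (-((iW (ep b) *ᵥ star (w j x)) ⬝ᵥ
      (Gam ((K.g j x)ᵀ) *ᵥ delV h v j x))) * w_law h hx

end

end Crest.Agent.R273.BKNb_37
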