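import Crest.Agent.R273.BKNc_37

/-!
# R273 (S0416), BP-D leaf D.8 (helper37), part 5: positivity and consequences

* `totc_eq_sum` : `∫ f = ∑_j ∫_j θ_j f_j` with `θ_j = ψ_j² / ∑ ψ²  ≥ 0` for a density `f`;
* `totc_nonneg`, `totc_eq_zero` : positivity of the total integral (`ψ_j` of any sign);
* `hol_null_of_closed` : `du v = 0`, `δ v = 0` ⟹ `v` holomorphic and null;
* `closed_of_hol_null` : `v` holomorphic and null ⟹ `du v = 0`, `δ v = 0`;
* `bkn_le` : `∫ |∂̄v|² ≤ ∫ |du v|² + ∫ |δ v|²`, and the same for the curvature term.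
-/

set_option autoImplicit false
set_option linter.unusedSectionVars false

open Set Filter Topology Complex Matrix MeasureTheory
open scoped ContDiff Matrix ComplexConjugate Manifold ComplexOrder

namespace Crest.Agent.R273.BKNd_37

open Crest.Agent.R275 Crest.Agent.R275.Geo Crest.Agent.R275.Core144
open Crest.Agent.R275.Pai323 Crest.Agent.R275.C1d194
open Crest.Agent.R275.SerG398 (lint dens dens_eq detJ)
open Crest.Agent.R275.OmT75 (dl)
open Crest.Agent.R273.Defs_333 Crest.Agent.R273.HM_333 Crest.Agent.R273.Kah_333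
open Crest.Agent.R273.Fock_243 Crest.Agent.R273.Calc_243 Crest.Agent.R273.Bkn_243
open Crest.Agent.R273.Pos_243
open Crest.Agent.R273.DelLaw_37 Crest.Agent.R273.StV_37 Crest.Agent.R273.BKNa_37
open Crest.Agent.R273.BKNb_37 Crest.Agent.R273.BKNc_37

noncomputable section

variable {n : ℕ} {M : Type} [TopologicalSpace M] {A : Atl n M} {N L : LB A}
variable {K : Kah A} {v w : A.ι → M → FI n → ℂ}

/-! ### positivity of the total integral -/

section positivity

variable [T2Space M] [CompactSpace M]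

/-- all relevant charts -/
def Fc (P : Part A) : Finset A.ι := Fn P (isCompact_univ : IsCompact (univ : Set M))

/-- the sum of the squares of the partition of unity -/
def sq (P : Part A) (x : M) : ℝ := ∑ j ∈ Fc P, (P.ψ j x) ^ 2

theorem sum_psi (P : Part A) (x : M) : ∑ j ∈ Fc P, (P.ψ j x : ℂ) = 1 :=
  sum_psiC P isCompact_univ (Finset.Subset.refl _) (mem_univ x)

theorem sq_pos (P : Part A) (x : M) : 0 < sq P x := by
  rcases (Finset.sum_nonneg fun j _ => sq_nonneg (P.ψ j x) :
    0 ≤ ∑ j ∈ Fc P, (P.ψ j x) ^ 2).lt_or_eq with h | h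
  · exact h
  · exfalso
    have h1 : ∀ j ∈ Fc P, (P.ψ j x : ℂ) = 0 := by
      intro j hj
      have := (Finset.sum_eq_zero_iff_of_nonneg fun j _ => sq_nonneg (P.ψ j x)).1 h.symm j hj
      rw [pow_eq_zero_iff two_ne_zero] at this
      rw [this]; simp
    have h2 := sum_psi P x
    rw [Finset.sum_eq_zero h1] at h2
    exact zero_ne_one h2

/-- the weights `θ_j` -/
def th (P : Part A) (j : A.ι) (x : M) : ℝ := (P.ψ j x) ^ 2 / sq P x

theorem th_nonneg (P : Part A) (j : A.ι) (x : M) : 0 ≤ th P j x :=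
  div_nonneg (sq_nonneg _) (sq_pos P x).le

theorem sum_th (P : Part A) (x : M) : ∑ j ∈ Fc P, (th P j x : ℂ) = 1 := by
  have h : ∑ j ∈ Fc P, th P j x = 1 := by
    unfold th
    rw [← Finset.sum_div]
    exact div_self (sq_pos P x).ne'
  exact_mod_cast h

theorem th_sm (P : Part A) (j i : A.ι) : A.SmAt i (fun x => (th P j x : ℂ)) := by
  refine smAt_ofReal ?_
  show ContDiffOn ℝ ∞ (fun z => (P.ψ j ((A.e i).symm z)) ^ 2 / sq P ((A.e i).symm z)) _
  refine ContDiffOn.div ((P.ψ_sm j i).pow 2) ?_ fun z _ => (sq_pos P _).ne'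
  exact ContDiffOn.sum fun k _ => (P.ψ_sm k i).pow 2

theorem th_off (P : Part A) (j : A.ι) {x : M} (hx : x ∉ tsupport (P.χ j)) : th P j x = 0 := by
  have : P.ψ j x = 0 := image_eq_zero_of_notMem_tsupport fun h => hx (tsupport_psi P j h)
  unfold th
  rw [this]
  simp

theorem smAt_mul {i : A.ι} {f g : M → ℂ} (hf : A.SmAt i f) (hg : A.SmAt i g) :
    A.SmAt i (fun x => f x * g x) := ContDiffOn.mul hf hg

/-- the total integral with nonnegative weights -/
theorem totc_eq_sum (P : Part A) {f : A.ι → M → ℂ} (hf : IsD A f) :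
    totc P f = ∑ j ∈ Fc P, lint A j (fun x => (th P j x : ℂ) * f j x) := by
  have h1 : totc P f = ∑ j ∈ Fc P, totc P (fun i x => (th P j x : ℂ) * f i x) := by
    unfold totc
    rw [← tot_sum P _ (Fc P) (f := fun j i x => (th P j x : ℂ) * f i x)
      fun j _ i => smAt_mul (th_sm P j i) (hf.sm i)]
    refine tot_congr P _ fun i _ x _ => ?_
    rw [← Finset.sum_mul, sum_th, one_mul]
  rw [h1]
  refine Finset.sum_congr rfl fun j _ => ?_
  have hfj : IsD A (fun i x => (th P j x : ℂ) * f i x) :=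
    { sm := fun i => smAt_mul (th_sm P j i) (hf.sm i)
      tr := fun i i' x hx => by rw [hf.tr i i' x hx]; ring }
  -- cut off outside the compact set
  have hK := P.χ_cpt j
  refine tot_loc P (F := Fc P) hfj hK (P.χ_sub j) ?_ fun i x hx => by
    rw [th_off P j hx]; simp
  intro i hi
  unfold Pai323.Fn at hi
  rw [Set.Finite.mem_toFinset] at hi
  unfold Fc Pai323.Fn
  rw [Set.Finite.mem_toFinset]
  exact hi.mono (inter_subset_inter_right _ (subset_univ _))

theorem totc_zero (P : Part A) : totc P (fun _ _ => 0 : A.ι → M → ℂ) = 0 := by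
  unfold totc tot
  refine Finset.sum_eq_zero fun i _ => ?_
  simp only [mul_zero]
  exact lint_zero i

theorem lint_nonneg {j : A.ι} {f : M → ℂ} (h : ∀ x ∈ (A.e j).source, 0 ≤ f x) :
    0 ≤ lint A j f := by
  unfold SerG398.lint
  refine integral_nonneg fun x => ?_
  by_cases hx : x ∈ Ui A j
  · rw [rd_of_mem hx]
    exact h _ ((A.e j).map_target hx)
  · rw [rd_off hx]; exact le_refl _

theorem totc_nonneg (P : Part A) {f : A.ι → M → ℂ} (hf : IsD A f)
    (h : ∀ i, ∀ x ∈ (A.e i).source, 0 ≤ f i x) : 0 ≤ totc P f := by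
  rw [totc_eq_sum P hf]
  refine Finset.sum_nonneg fun j _ => lint_nonneg fun x hx => ?_
  exact mul_nonneg (by exact_mod_cast th_nonneg P j x) (h j x hx)

theorem cc_th (P : Part A) (j : A.ι) {f : M → ℂ} (hf : A.SmAt j f) :
    CC A j (fun x => (th P j x : ℂ) * f x) :=
  CC.of_zero_off (smAt_mul (th_sm P j j) hf) (P.χ_cpt j) (P.χ_sub j) fun x hx => by
    rw [th_off P j hx]; simp

/-- a nonnegative compactly supported smooth function with integral `0` vanishes -/
theorem eq_zero_of_lint {j : A.ι} {f : M → ℂ} (hf : CC A j f)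
    (h : ∀ x ∈ (A.e j).source, 0 ≤ f x) (h0 : lint A j f = 0) {x : M}
    (hx : x ∈ (A.e j).source) : f x = 0 := by
  have hc : Continuous (rd A j f) := hf.isCC.smooth.continuous
  have hn : ∀ y, 0 ≤ rd A j f y := by
    intro y
    by_cases hy : y ∈ Ui A j
    · rw [rd_of_mem hy]
      exact h _ ((A.e j).map_target hy)
    · rw [rd_off hy]
  have hre : ∀ y, 0 ≤ (rd A j f y).re := fun y => (Complex.le_def.1 (hn y)).1
  have him : ∀ y, (rd A j f y).im = 0 := fun y => (Complex.le_def.1 (hn y)).2.symm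
  have h1 : ∫ y, (rd A j f y).re = 0 := by
    have h2 : ∫ y, (rd A j f y).re = (∫ y, rd A j f y).re := integral_re hf.integrable
    rw [h2]
    have : ∫ y, rd A j f y = lint A j f := rfl
    rw [this, h0]
    rfl
  have h3 : (fun y => (rd A j f y).re) = 0 := by
    rw [integral_eq_zero_iff_of_nonneg hre hf.integrable.re] at h1
    exact (Complex.continuous_re.comp hc).ae_eq_iff_eq volume continuous_zero |>.1 h1
  have hy : rc (A.e j x) ∈ Ui A j := by
    show cc (rc (A.e j x)) ∈ (A.e j).target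
    rw [cc_rc]
    exact (A.e j).map_source hx
  have h4 := congrFun h3 (rc (A.e j x))
  have h5 : rd A j f (rc (A.e j x)) = f x := by
    rw [rd_of_mem hy, cc_rc, (A.e j).left_inv hx]
  apply Complex.ext
  · rw [← h5]; exact h4
  · rw [← h5]; exact him _

theorem totc_eq_zero (P : Part A) {f : A.ι → M → ℂ} (hf : IsD A f)
    (h : ∀ i, ∀ x ∈ (A.e i).source, 0 ≤ f i x) (h0 : totc P f = 0) (i : A.ι) {x : M}
    (hx : x ∈ (A.e i).source) : f i x = 0 := by
  rw [totc_eq_sum P hf] at h0
  have hn : ∀ j ∈ Fc P, 0 ≤ lint A j (fun x => (th P j x : ℂ) * f j x) := fun j _ =>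
    lint_nonneg fun x hx => mul_nonneg (by exact_mod_cast th_nonneg P j x) (h j x hx)
  have h1 := (Finset.sum_eq_zero_iff_of_nonneg hn).1 h0
  -- a chart with `θ_j x ≠ 0`
  obtain ⟨j, hj, hjx⟩ : ∃ j ∈ Fc P, th P j x ≠ 0 := by
    by_contra hcon
    push Not at hcon
    have := sum_th P x
    rw [Finset.sum_eq_zero fun j hj => by rw [hcon j hj]; simp] at this
    exact zero_ne_one this
  have hxj : x ∈ (A.e j).source := by
    by_contra hcon
    exact hjx (th_off P j fun h => hcon (P.χ_sub j h))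
  have h2 := eq_zero_of_lint (cc_th P j (hf.sm j)) (fun x hx =>
    mul_nonneg (by exact_mod_cast th_nonneg P j x) (h j x hx)) (h1 j hj) hxj
  have h3 : f j x = 0 := by
    rcases mul_eq_zero.1 h2 with h | h
    · exact absurd (by exact_mod_cast h) hjx
    · exact h
  rw [hf.tr i j x ⟨hx, hxj⟩, h3, mul_zero]

end positivity

/-! ### positivity of the densities -/

theorem G_posDef (K : Kah A) (i : A.ι) {x : M} (hx : x ∈ (A.e i).source) :
    (Gam ((K.g i x)ᵀ)).PosDef := Gam_posDef (K.pos i x hx).transpose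

theorem Ki_posDef (K : Kah A) (i : A.ι) {x : M} (hx : x ∈ (A.e i).source) :
    (((K.g i x)ᵀ)⁻¹).PosDef := (K.pos i x hx).transpose.inv

theorem w_nonneg (h : HM L) (i : A.ι) {x : M} (hx : x ∈ (A.e i).source) :
    (0 : ℂ) ≤ (h.w i x : ℂ) := by exact_mod_cast (h.pos i x hx).le

theorem w_ne (h : HM L) (i : A.ι) {x : M} (hx : x ∈ (A.e i).source) :
    (h.w i x : ℂ) ≠ 0 := by exact_mod_cast (h.pos i x hx).ne'

theorem inG_nonneg (K : Kah A) (h : HM L) (v : A.ι → M → FI n → ℂ) (i : A.ι) {x : M}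
    (hx : x ∈ (A.e i).source) : 0 ≤ inG K h v v i x :=
  mul_nonneg (w_nonneg h i hx) ((G_posDef K i hx).posSemidef.dotProduct_mulVec_nonneg _)

theorem inD_nonneg (K : Kah A) (h : HM L) (v : A.ι → M → FI n → ℂ) (i : A.ι) {x : M}
    (hx : x ∈ (A.e i).source) : 0 ≤ inD K h v v i x :=
  mul_nonneg (w_nonneg h i hx)
    (T1_nonneg (G_posDef K i hx).posSemidef (Ki_posDef K i hx).posSemidef _)

theorem inT_nonneg (K : Kah A) {h : HM L} (hp : h.Semipos) (v : A.ι → M → FI n → ℂ) (i : A.ι)
    {x : M} (hx : x ∈ (A.e i).source) : 0 ≤ inT K h v v i x :=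
  mul_nonneg (w_nonneg h i hx) (Cv_nonneg (G_posDef K i hx).posSemidef (cur_posSemidef hp i hx) _)

theorem inU_nonneg (K : Kah A) (h : HM L) (v : A.ι → M → FI n → ℂ) (i : A.ι) {x : M}
    (hx : x ∈ (A.e i).source) : 0 ≤ inU K h v v i x :=
  mul_nonneg (w_nonneg h i hx)
    ((Gam_posDef (Ki_posDef K i hx)).posSemidef.dotProduct_mulVec_nonneg _)

theorem inG_eq_zero {K : Kah A} {h : HM L} {v : A.ι → M → FI n → ℂ} {i : A.ι} {x : M}
    (hx : x ∈ (A.e i).source) (h0 : inG K h v v i x = 0) : v i x = 0 := by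
  rcases mul_eq_zero.1 h0 with h1 | h1
  · exact absurd h1 (w_ne h i hx)
  · by_contra h2
    exact ((G_posDef K i hx).dotProduct_mulVec_pos h2).ne' h1

theorem inD_eq_zero {K : Kah A} {h : HM L} {v : A.ι → M → FI n → ℂ} {i : A.ι} {x : M}
    (hx : x ∈ (A.e i).source) (h0 : inD K h v v i x = 0) : ∀ k, dbV v i k x = 0 := by
  rcases mul_eq_zero.1 h0 with h1 | h1
  · exact absurd h1 (w_ne h i hx)
  · exact (T1_eq_zero_iff_posDef (G_posDef K i hx) (Ki_posDef K i hx) _).1 h1

/-- null vectors -/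
def NullV (h : HM L) (v : A.ι → M → FI n → ℂ) : Prop :=
  ∀ i, ∀ x ∈ (A.e i).source, ∀ c, ∑ d, cur h i x d c • (iW (ep d) *ᵥ v i x) = 0

theorem inT_eq_zero {K : Kah A} {h : HM L} (hp : h.Semipos) {v : A.ι → M → FI n → ℂ} {i : A.ι}
    {x : M} (hx : x ∈ (A.e i).source) :
    inT K h v v i x = 0 ↔ ∀ c, ∑ d, cur h i x d c • (iW (ep d) *ᵥ v i x) = 0 := by
  unfold inT
  rw [mul_eq_zero, or_iff_right (w_ne h i hx)]
  exact Cv_eq_zero_iff (G_posDef K i hx) (cur_posSemidef hp i hx) _

/-! ### consequences -/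

section consequences

variable [T2Space M] [CompactSpace M]

/-- `∫ |∂̄v|² + T(v) = ∫ |du v|² + ∫ |δ v|²`, all terms nonnegative: the two inequalities -/
theorem bkn_le (P : Part A) (K : Kah A) {h : HM ((KB A)⁻¹ * N)} (hp : h.Semipos)
    (hv : IsV N v) :
    totc P (inD K h v v) ≤ totc P (inU K h v v) + totc P (inG K h (delV h v) (delV h v)) ∧
    totc P (inT K h v v) ≤ totc P (inU K h v v) + totc P (inG K h (delV h v) (delV h v)) := by
  have h1 := bknc P K h hv hv
  have hD : 0 ≤ totc P (inD K h v v) :=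
    totc_nonneg P (inD_isD h hv hv) fun i x hx => inD_nonneg K h v i hx
  have hT : 0 ≤ totc P (inT K h v v) :=
    totc_nonneg P (inT_isD h hv hv) fun i x hx => inT_nonneg K hp v i hx
  rw [← h1]
  exact ⟨le_add_of_nonneg_right hT, le_add_of_nonneg_left hD⟩

/-- (a) `du v = 0` and `δ v = 0` imply that `v` is holomorphic and null -/
theorem hol_null_of_closed (P : Part A) (K : Kah A) {h : HM ((KB A)⁻¹ * N)} (hp : h.Semipos)
    (hv : IsV N v) (hu : ∀ i, ∀ x ∈ (A.e i).source, duV K v i x = 0)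
    (hd : ∀ i, ∀ x ∈ (A.e i).source, delV h v i x = 0) :
    (∀ i, ∀ x ∈ (A.e i).source, ∀ k, dbV v i k x = 0) ∧ NullV h v := by
  have h1 := bkn_le P K hp hv
  have hU : totc P (inU K h v v) = 0 := by
    have e1 : totc P (inU K h v v) = totc P (fun _ _ => 0) :=
      tot_congr P _ fun i _ x hx => by
        unfold inU
        rw [hu i x hx]
        simp
    rw [e1, totc_zero]
  have hG : totc P (inG K h (delV h v) (delV h v)) = 0 := by
    have e1 : totc P (inG K h (delV h v) (delV h v)) = totc P (fun _ _ => 0) :=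
      tot_congr P _ fun i _ x hx => by
        unfold inG
        rw [hd i x hx]
        simp
    rw [e1, totc_zero]
  rw [hU, hG, add_zero] at h1
  have hD : totc P (inD K h v v) = 0 := le_antisymm h1.1
    (totc_nonneg P (inD_isD h hv hv) fun i x hx => inD_nonneg K h v i hx)
  have hT : totc P (inT K h v v) = 0 := le_antisymm h1.2
    (totc_nonneg P (inT_isD h hv hv) fun i x hx => inT_nonneg K hp v i hx)
  refine ⟨fun i x hx => inD_eq_zero hx (totc_eq_zero P (inD_isD h hv hv)
    (fun i x hx => inD_nonneg K h v i hx) hD i hx), fun i x hx => (inT_eq_zero hp hx).1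
    (totc_eq_zero P (inT_isD h hv hv) (fun i x hx => inT_nonneg K hp v i hx) hT i hx)⟩

/-- `∂̄ v = 0` implies `du v = 0` (no compactness) -/
theorem duV_of_hol (K : Kah A) {v : A.ι → M → FI n → ℂ}
    (hs : ∀ i T, A.SmAt i (fun x => v i x T))
    (hh : ∀ i, ∀ x ∈ (A.e i).source, ∀ k, dbV v i k x = 0) (i : A.ι) {x : M}
    (hx : x ∈ (A.e i).source) : duV K v i x = 0 := by
  have hz := (A.e i).map_source hx
  rw [duV_eq, du_eq (smM_Kr K i hz) (kahAt K i hz) (smV_rV hs i hz)]
  refine Finset.sum_eq_zero fun k _ => ?_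
  rw [← dbV_eq, hh i x hx k, Matrix.mulVec_zero, Matrix.mulVec_zero]

/-- (b) `v` holomorphic and null implies `δ v = 0` -/
theorem delV_of_hol_null (P : Part A) (K : Kah A) {h : HM ((KB A)⁻¹ * N)}
    (hv : IsV N v) (hh : ∀ i, ∀ x ∈ (A.e i).source, ∀ k, dbV v i k x = 0) (hn : NullV h v)
    (i : A.ι) {x : M} (hx : x ∈ (A.e i).source) : delV h v i x = 0 := by
  have h1 := bknc P K h hv hv
  have hU : totc P (inU K h v v) = 0 := by
    have e1 : totc P (inU K h v v) = totc P (fun _ _ => 0) :=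
      tot_congr P _ fun i _ x hx => by
        unfold inU
        rw [duV_of_hol K hv.sm hh i hx]
        simp
    rw [e1, totc_zero]
  have hD : totc P (inD K h v v) = 0 := by
    have e1 : totc P (inD K h v v) = totc P (fun _ _ => 0) :=
      tot_congr P _ fun i _ x hx => by
        unfold inD T1
        simp [hh i x hx]
    rw [e1, totc_zero]
  have hT : totc P (inT K h v v) = 0 := by
    have e1 : totc P (inT K h v v) = totc P (fun _ _ => 0) :=
      tot_congr P _ fun i _ x hx => by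
        unfold inT
        rw [Cv_eq_T1]
        have h2 := hn i x hx
        have h3 : T1 (Gam ((K.g i x)ᵀ)) ((cur h i x)ᵀ) (fun k => iW (ep k) *ᵥ v i x)
            (fun k => iW (ep k) *ᵥ v i x) = 0 := by
          unfold T1
          rw [Finset.sum_comm]
          refine Finset.sum_eq_zero fun l _ => ?_
          have h4 : ∑ k, (cur h i x)ᵀ l k * (star (iW (ep l) *ᵥ v i x) ⬝ᵥ
              (Gam ((K.g i x)ᵀ) *ᵥ (iW (ep k) *ᵥ v i x)))
              = star (iW (ep l) *ᵥ v i x) ⬝ᵥ (Gam ((K.g i x)ᵀ) *ᵥ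
                ∑ k, cur h i x k l • (iW (ep k) *ᵥ v i x)) := by
            rw [Matrix.mulVec_sum, dotProduct_sum]
            refine Finset.sum_congr rfl fun k _ => ?_
            rw [Matrix.mulVec_smul, dotProduct_smul, smul_eq_mul, Matrix.transpose_apply]
          rw [h4, h2 l, Matrix.mulVec_zero, dotProduct_zero]
        rw [h3, mul_zero]
    rw [e1, totc_zero]
  rw [hD, hT, hU, zero_add, zero_add] at h1
  have hd := delV_isV h hv
  exact inG_eq_zero hx (totc_eq_zero P (inG_isD h hd hd)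
    (fun i x hx => inG_nonneg K h _ i hx) h1.symm i hx)

end consequences

end

end Crest.Agent.R273.BKNd_37
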