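import Crest.Agent.R273.UCovC_914
import Crest.Agent.R273.Defs_333

/-!
# R273, leaf UCOV (helper914), part D: pull-back of functions, line bundles, metrics, sections and
partitions of unity to the coverings; the norm of a section of a finite covering.
-/

set_option autoImplicit false
set_option linter.unusedSectionVars false

open Set Filter Topology Complex
open scoped ContDiff Matrix ComplexConjugate

namespace Crest.Agent.R273.UCov_914

open Crest.Agent.R275.Geo Crest.Agent.R275.ZC352 Crest.Agent.R275.GC293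
open Crest.Agent.R275.Core144 Crest.Agent.R273.Defs_333

noncomputable section

variable {n : ℕ} {M : Type} [TopologicalSpace M] {A : Atl n M}

namespace MonD

variable {G : Type} [Group G] (D : MonD A G) {F : Type} [MulAction G F]

/-! ### functions -/

theorem smAt_pull {W : Type*} [NormedAddCommGroup W] [NormedSpace ℝ W] {p : A.ι × F} {f : M → W}
    (h : A.SmAt p.1 f) : (D.atl F).SmAt p (fun e => f (D.pr e)) := h

theorem sm_pull {W : Type*} [NormedAddCommGroup W] [NormedSpace ℝ W] {f : M → W} (h : A.Sm f) :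
    (D.atl F).Sm (fun e => f (D.pr e)) := fun p => h p.1

theorem holAt_pull {p : A.ι × F} {U : Set M} {f : M → ℂ} (h : HolAt A p.1 U f) :
    HolAt (D.atl F) p (D.pr ⁻¹' U) (fun e => f (D.pr e)) := h

theorem db_pull {W : Type*} [NormedAddCommGroup W] [NormedSpace ℂ W] (p : A.ι × F) (a : Fin n)
    (f : M → W) (e : D.cov F) :
    (D.atl F).db p a (fun e => f (D.pr e)) e = A.db p.1 a f (D.pr e) := rfl

/-! ### line bundles -/

variable (F) in
open Classical in
/-- pull-back of a line bundle -/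
def pullLB (L : LB A) : LB (D.atl F) where
  g p q e := if e ∈ ((D.atl F).e p).source ∩ ((D.atl F).e q).source
    then L.g p.1 q.1 (D.pr e) else 1
  hol p q := by
    have h := D.holAt_pull (F := F) (p := p) (L.hol p.1 q.1)
    refine HolAt.congr (HolAt.mono h fun e he => he.1) fun e he he' => ?_
    rw [if_pos ⟨he, he'⟩]
  off p q e he := if_neg he
  self p e := by
    split_ifs
    · exact L.self _ _
    · rfl
  mul p q r e he := by
    rw [if_pos he.1, if_pos ⟨he.1.2, he.2⟩, if_pos ⟨he.1.1, he.2⟩]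
    exact L.mul _ _ _ _ ⟨⟨he.1.1.1, he.1.2.1⟩, he.2.1⟩

theorem pullLB_g (L : LB A) {p q : A.ι × F} {e : D.cov F}
    (h : e ∈ ((D.atl F).e p).source ∩ ((D.atl F).e q).source) :
    (D.pullLB F L).g p q e = L.g p.1 q.1 (D.pr e) := if_pos h

theorem LB_ext_on {B : Atl n M} {L L' : LB B}
    (h : ∀ i j, ∀ x ∈ (B.e i).source ∩ (B.e j).source, L.g i j x = L'.g i j x) : L = L' := by
  ext i j x
  by_cases hx : x ∈ (B.e i).source ∩ (B.e j).source
  · exact h i j x hx
  · rw [L.off i j x hx, L'.off i j x hx]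

variable (F) in
/-- pull-back as a homomorphism -/
def pullHom : LB A →* LB (D.atl F) where
  toFun := D.pullLB F
  map_one' := LB_ext_on fun p q e h => by rw [D.pullLB_g _ h]; rfl
  map_mul' L L' := LB_ext_on fun p q e h => by
    change _ = (D.pullLB F L).g p q e * (D.pullLB F L').g p q e
    rw [D.pullLB_g _ h, D.pullLB_g _ h, D.pullLB_g _ h, LB.mul_g]

@[simp] theorem pullHom_apply (L : LB A) : D.pullHom F L = D.pullLB F L := rfl

theorem pullLB_mul (L L' : LB A) : D.pullLB F (L * L') = D.pullLB F L * D.pullLB F L' :=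
  (D.pullHom F).map_mul L L'
theorem pullLB_one : D.pullLB F (1 : LB A) = 1 := (D.pullHom F).map_one
theorem pullLB_inv (L : LB A) : D.pullLB F L⁻¹ = (D.pullLB F L)⁻¹ := (D.pullHom F).map_inv L
theorem pullLB_pow (L : LB A) (m : ℕ) : D.pullLB F (L ^ m) = (D.pullLB F L) ^ m :=
  (D.pullHom F).map_pow L m
theorem pullLB_zpow (L : LB A) (m : ℤ) : D.pullLB F (L ^ m) = (D.pullLB F L) ^ m :=
  (D.pullHom F).map_zpow L m

theorem pullLB_KB : D.pullLB F (KB A) = KB (D.atl F) :=
  LB_ext_on fun p q e h => by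
    rw [D.pullLB_g _ h, KB_g ⟨h.1.1, h.2.1⟩, KB_g h]
    rfl

/-! ### metrics -/

/-- pull-back of a metric -/
def pullHM {L : LB A} (h : HM L) : HM (D.pullLB F L) where
  w p e := h.w p.1 (D.pr e)
  pos p e he := h.pos p.1 _ he.1
  sm p := h.sm p.1
  tr p q e he := by rw [D.pullLB_g _ he]; exact h.tr _ _ _ ⟨he.1.1, he.2.1⟩

@[simp] theorem pullHM_w {L : LB A} (h : HM L) (p : A.ι × F) (e : D.cov F) :
    (D.pullHM h).w p e = h.w p.1 (D.pr e) := rfl

theorem pullHM_wt {L : LB A} (h : HM L) (p : A.ι × F) : (D.pullHM (F := F) h).wt p = h.wt p.1 := rfl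

theorem pullHM_semipos {L : LB A} {h : HM L} (hh : h.Semipos) :
    (D.pullHM (F := F) h).Semipos := fun p => hh p.1

theorem pullHM_pos {L : LB A} {h : HM L} (hh : h.Pos) : (D.pullHM (F := F) h).Pos := fun p => hh p.1

/-- transport of a metric along an equality of line bundles -/
def HM.cast {B : Atl n M} {L L' : LB B} (h : HM L) (e : L = L') : HM L' := e ▸ h

theorem HM.cast_w {B : Atl n M} {L L' : LB B} (h : HM L) (e : L = L') : (HM.cast h e).w = h.w := by
  subst e; rfl

theorem HM.cast_semipos {B : Atl n M} {L L' : LB B} {h : HM L} (e : L = L') (hh : h.Semipos) :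
    (HM.cast h e).Semipos := by
  subst e; exact hh

variable (F) in
/-- the pull-back of a metric of the anticanonical bundle -/
def pullAnti (h : HM (KB A)⁻¹) : HM (KB (D.atl F))⁻¹ :=
  HM.cast (D.pullHM (F := F) h) (by rw [D.pullLB_inv, D.pullLB_KB])

theorem pullAnti_semipos {h : HM (KB A)⁻¹} (hh : h.Semipos) : (D.pullAnti F h).Semipos :=
  HM.cast_semipos _ (D.pullHM_semipos hh)

theorem pullAnti_w (h : HM (KB A)⁻¹) (p : A.ι × F) (e : D.cov F) :
    (D.pullAnti F h).w p e = h.w p.1 (D.pr e) := by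
  unfold pullAnti
  rw [HM.cast_w]
  rfl

/-! ### sections -/

open Classical in
/-- pull-back of a section -/
def pullS (s : A.ι → M → ℂ) : (D.atl F).ι → D.cov F → ℂ := fun p e =>
  if e ∈ ((D.atl F).e p).source then s p.1 (D.pr e) else 0

theorem pullS_apply (s : A.ι → M → ℂ) {p : A.ι × F} {e : D.cov F}
    (h : e ∈ ((D.atl F).e p).source) : D.pullS s p e = s p.1 (D.pr e) := if_pos h

theorem isHS_pullS {L : LB A} {U : Set M} {s : A.ι → M → ℂ} (hs : IsHS L U s) :
    IsHS (D.pullLB F L) (D.pr ⁻¹' U) (D.pullS s) where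
  hol p := (D.holAt_pull (F := F) (p := p) (hs.hol p.1)).congr fun e he _ =>
    (D.pullS_apply s he).symm
  off p e he := if_neg he
  tr p q e he heU := by
    rw [D.pullS_apply s he.1, D.pullS_apply s he.2, D.pullLB_g _ he]
    exact hs.tr _ _ _ ⟨he.1.1, he.2.1⟩ heU

theorem hasSec_pull {L : LB A} [Nonempty F] (h : HasSec L) : HasSec (D.pullLB F L) := by
  obtain ⟨s, hs, i, x, hx, hne⟩ := h
  obtain ⟨v⟩ := ‹Nonempty F›
  refine ⟨D.pullS s, D.isHS_pullS hs, (i, v), D.pt i v x, D.pt_mem_source (p := (i, v)) hx, ?_⟩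
  rw [D.pullS_apply s (D.pt_mem_source (p := (i, v)) hx)]
  exact hne

/-! ### norm of a section of a finite covering -/

section Norm

variable [Fintype F]

open Classical in
/-- product over the fibre -/
def nm (s : (D.atl F).ι → D.cov F → ℂ) : A.ι → M → ℂ := fun i x =>
  if x ∈ (A.e i).source then ∏ v : F, s (i, v) (D.pt i v x) else 0

theorem nm_apply (s : (D.atl F).ι → D.cov F → ℂ) {i : A.ι} {x : M} (hx : x ∈ (A.e i).source) :
    D.nm s i x = ∏ v : F, s (i, v) (D.pt i v x) := if_pos hx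

theorem isHS_nm {L : LB A} {s : (D.atl F).ι → D.cov F → ℂ} (hs : IsHS (D.pullLB F L) univ s) :
    IsHS (L ^ Fintype.card F) univ (D.nm s) where
  hol i := by
    have h1 : HolAt A i univ fun x => ∏ v : F, s (i, v) (D.pt i v x) := by
      refine HolAt.prod _ fun v _ => ?_
      exact hs.hol (i, v)
    exact h1.congr fun x hx _ => (D.nm_apply s hx).symm
  off i x hx := if_neg hx
  tr i j x hx _ := by
    rw [D.nm_apply s hx.1, D.nm_apply s hx.2]
    have h1 : ∀ v : F, s (i, v) (D.pt i v x) =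
        L.g i j x * s (j, D.c i j x • v) (D.pt j (D.c i j x • v) x) := by
      intro v
      have h2 : D.pt i v x ∈ ((D.atl F).e (i, v)).source := D.pt_mem_source (p := (i, v)) hx.1
      have h3 : D.pt i v x ∈ ((D.atl F).e (j, D.c i j x • v)).source := by
        rw [D.pt_eq v hx.1 hx.2]
        exact D.pt_mem_source (p := (j, D.c i j x • v)) hx.2
      have h4 := hs.tr (i, v) (j, D.c i j x • v) (D.pt i v x) ⟨h2, h3⟩ (mem_univ _)
      rw [D.pullLB_g _ ⟨h2, h3⟩] at h4
      rw [h4, ← D.pt_eq v hx.1 hx.2]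
      rfl
    simp only [h1]
    rw [Finset.prod_mul_distrib, Finset.prod_const, Finset.card_univ]
    have h5 : (∏ v : F, s (j, D.c i j x • v) (D.pt j (D.c i j x • v) x)) =
        ∏ v : F, s (j, v) (D.pt j v x) :=
      Equiv.prod_comp (MulAction.toPerm (D.c i j x)) fun v => s (j, v) (D.pt j v x)
    rw [h5]
    congr 1
    have h6 : ∀ m : ℕ, (L ^ m).g i j x = L.g i j x ^ m := by
      intro m
      induction m with
      | zero => simp
      | succ m ih => rw [pow_succ, LB.mul_g, ih, pow_succ]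
    rw [h6]

end Norm

/-! ### partitions of unity -/

section Part

open Classical in
/-- extension by zero of a function on the chart domain `i` to the sheet `p` -/
def shf (p : A.ι × F) (f : M → ℝ) : D.cov F → ℝ := fun e =>
  if e ∈ D.sheet p.1 p.2 then f (D.pr e) else 0

theorem shf_of_mem {p : A.ι × F} (f : M → ℝ) {e : D.cov F} (h : e ∈ D.sheet p.1 p.2) :
    D.shf p f e = f (D.pr e) := if_pos h

theorem shf_of_not {p : A.ι × F} (f : M → ℝ) {e : D.cov F} (h : e ∉ D.sheet p.1 p.2) :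
    D.shf p f e = 0 := if_neg h

theorem tsupport_shf [T2Space M] {p : A.ι × F} {f : M → ℝ} (hf : IsCompact (tsupport f))
    (hs : tsupport f ⊆ (A.e p.1).source) :
    tsupport (D.shf p f) ⊆ D.pt p.1 p.2 '' tsupport f := by
  refine closure_minimal ?_ (D.isCompact_pt F p.2 hf hs).isClosed
  intro e he
  by_cases h : e ∈ D.sheet p.1 p.2
  · rw [Function.mem_support, D.shf_of_mem f h] at he
    exact ⟨D.pr e, subset_tsupport _ he, D.pt_of_mem h⟩
  · exact absurd (D.shf_of_not f h) he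

theorem sm_shf {p : A.ι × F} {f : M → ℝ} (hf : A.Sm f) (hs : tsupport f ⊆ (A.e p.1).source) :
    (D.atl F).Sm (D.shf p f) := by
  intro q z hz
  have hz' : z ∈ (A.e q.1).target := hz
  apply ContDiffAt.contDiffWithinAt
  have hx : (A.e q.1).symm z ∈ (A.e q.1).source := (A.e q.1).map_target hz'
  have hc : ContinuousAt (A.e q.1).symm z := (A.e q.1).continuousAt_symm hz'
  by_cases h : (A.e q.1).symm z ∈ (A.e p.1).source
  · -- the sheet condition is constant near z
    have hev0 : ∀ᶠ w in 𝓝 z, w ∈ (A.e q.1).target := (A.e q.1).open_target.mem_nhds hz'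
    have hev : ∀ᶠ w in 𝓝 z, w ∈ (A.e q.1).target ∧ (A.e q.1).symm w ∈ (A.e p.1).source :=
      hev0.and (hc.eventually ((A.e p.1).open_source.mem_nhds h))
    have hcond : ∀ w, w ∈ (A.e q.1).target ∧ (A.e q.1).symm w ∈ (A.e p.1).source →
        (D.pt q.1 q.2 ((A.e q.1).symm w) ∈ D.sheet p.1 p.2 ↔
          D.pt q.1 q.2 ((A.e q.1).symm z) ∈ D.sheet p.1 p.2) := by
      intro w hw
      have hxw : (A.e q.1).symm w ∈ (A.e q.1).source := (A.e q.1).map_target hw.1
      have e1 := D.co_pt' (F := F) q.2 hxw hw.2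
      have e2 := D.co_pt' (F := F) q.2 hx h
      rw [D.c_loc q.1 p.1 _ ⟨hxw, hw.2⟩ _ ⟨hx, h⟩] at e1
      constructor
      · rintro ⟨_, h2⟩
        exact ⟨h, by rw [e2, ← e1]; exact h2⟩
      · rintro ⟨_, h2⟩
        exact ⟨hw.2, by rw [e1, ← e2]; exact h2⟩
    by_cases hm : D.pt q.1 q.2 ((A.e q.1).symm z) ∈ D.sheet p.1 p.2
    · have h1 := (hf q.1).contDiffAt ((A.e q.1).open_target.mem_nhds hz')
      refine h1.congr_of_eventuallyEq ?_
      filter_upwards [hev] with w hw
      change D.shf p f (D.pt q.1 q.2 ((A.e q.1).symm w)) = _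
      rw [D.shf_of_mem f ((hcond w hw).2 hm)]
      rfl
    · refine (contDiffAt_const (c := (0 : ℝ))).congr_of_eventuallyEq ?_
      filter_upwards [hev] with w hw
      change D.shf p f (D.pt q.1 q.2 ((A.e q.1).symm w)) = _
      rw [D.shf_of_not f fun h => hm ((hcond w hw).1 h)]
  · -- away from the support
    have hns : (A.e q.1).symm z ∉ tsupport f := fun h' => h (hs h')
    have hev : ∀ᶠ w in 𝓝 z, (A.e q.1).symm w ∉ tsupport f :=
      hc.eventually ((isClosed_tsupport f).isOpen_compl.mem_nhds hns)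
    refine (contDiffAt_const (c := (0 : ℝ))).congr_of_eventuallyEq ?_
    filter_upwards [hev] with w hw
    change D.shf p f (D.pt q.1 q.2 ((A.e q.1).symm w)) = _
    by_cases hm : D.pt q.1 q.2 ((A.e q.1).symm w) ∈ D.sheet p.1 p.2
    · rw [D.shf_of_mem f hm]
      exact image_eq_zero_of_notMem_tsupport hw
    · exact D.shf_of_not f hm

theorem tsupport_psi (P : Part A) (k : A.ι) : tsupport (P.ψ k) ⊆ (A.e k).source := by
  intro x hx
  have h1 := (P.χ_one k x hx).self_of_nhds
  refine P.χ_sub k (subset_tsupport _ ?_)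
  rw [Function.mem_support, h1]
  exact one_ne_zero

theorem cpt_psi (P : Part A) (k : A.ι) : IsCompact (tsupport (P.ψ k)) := by
  refine (P.χ_cpt k).of_isClosed_subset (isClosed_tsupport _) fun x hx => ?_
  have h1 := (P.χ_one k x hx).self_of_nhds
  refine subset_tsupport _ ?_
  rw [Function.mem_support, h1]
  exact one_ne_zero

variable (F) in
/-- pull-back of a partition of unity -/
def pullPart [T2Space M] (P : Part A) : Part (D.atl F) where
  ψ p := D.shf p (P.ψ p.1)
  χ p := D.shf p (P.χ p.1)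
  ψ_sm p := D.sm_shf (P.ψ_sm p.1) (tsupport_psi P p.1)
  χ_sm p := D.sm_shf (P.χ_sm p.1) (P.χ_sub p.1)
  χ_cpt p := (D.isCompact_pt F p.2 (P.χ_cpt p.1) (P.χ_sub p.1)).of_isClosed_subset
    (isClosed_tsupport _) (D.tsupport_shf (P.χ_cpt p.1) (P.χ_sub p.1))
  χ_sub p := by
    refine (D.tsupport_shf (P.χ_cpt p.1) (P.χ_sub p.1)).trans ?_
    rintro _ ⟨x, hx, rfl⟩
    exact D.pt_mem_sheet p.2 (P.χ_sub p.1 hx)
  χ_one p e he := by
    obtain ⟨x, hx, rfl⟩ := D.tsupport_shf (cpt_psi P p.1) (tsupport_psi P p.1) he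
    have hxs := tsupport_psi P p.1 hx
    have h1 := P.χ_one p.1 x hx
    have h2 : ∀ᶠ e in 𝓝 (D.pt p.1 p.2 x), P.χ p.1 (D.pr e) = 1 :=
      (D.continuous_pr.continuousAt (x := D.pt p.1 p.2 x)).eventually h1
    have h3 : ∀ᶠ e in 𝓝 (D.pt p.1 p.2 x), e ∈ D.sheet p.1 p.2 :=
      (D.isOpen_sheet p.1 p.2).mem_nhds (D.pt_mem_sheet p.2 hxs)
    filter_upwards [h2, h3] with e he1 he2
    rw [D.shf_of_mem _ he2, he1]
  lf K hK := by
    classical
    -- finitely many sheets cover K
    obtain ⟨T, hT⟩ : ∃ T : Finset (A.ι × F), K ⊆ ⋃ p ∈ T, D.sheet p.1 p.2 := by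
      refine hK.elim_finite_subcover (fun p : A.ι × F => D.sheet p.1 p.2)
        (fun p => D.isOpen_sheet _ _) fun e _ => ?_
      obtain ⟨i, hi⟩ := A.cover (D.pr e)
      exact mem_iUnion.2 ⟨(i, D.co i e), hi, rfl⟩
    have hfin := P.lf (D.pr '' K) (hK.image D.continuous_pr)
    have key : ∀ (i : A.ι) (q : A.ι × F), {v : F | ∃ e ∈ D.sheet q.1 q.2,
        e ∈ D.sheet i v}.Subsingleton := by
      rintro i q v ⟨e, he, he'⟩ w ⟨e2, he2, he2'⟩
      have h1 := D.co_eq (F := F) (i := q.1) (j := i) (e := e) he.1 he'.1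
      have h2 := D.co_eq (F := F) (i := q.1) (j := i) (e := e2) he2.1 he2'.1
      rw [he'.2, he.2] at h1
      rw [he2'.2, he2.2] at h2
      rw [h1, h2, D.c_loc q.1 i _ ⟨he.1, he'.1⟩ _ ⟨he2.1, he2'.1⟩]
    refine Set.Finite.subset (Set.Finite.biUnion hfin fun i _ => Set.Finite.biUnion
      T.finite_toSet fun q _ => ((key i q).finite.image fun v => (i, v))) ?_
    rintro ⟨i, v⟩ ⟨e, he1, he2⟩
    obtain ⟨x, hx, hxe⟩ := D.tsupport_shf (P.χ_cpt i) (P.χ_sub i) he1
    have hpr : D.pr e = x := by rw [← hxe]; rfl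
    have hes : e ∈ D.sheet i v := by
      rw [← hxe]
      exact D.pt_mem_sheet v (P.χ_sub i hx)
    obtain ⟨q, hq⟩ := mem_iUnion.1 (hT he2)
    obtain ⟨hq1, hq2⟩ := mem_iUnion.1 hq
    refine mem_iUnion₂.2 ⟨i, ⟨x, hx, e, he2, hpr⟩, mem_iUnion₂.2 ⟨q, hq1, v, ⟨e, hq2, hes⟩, rfl⟩⟩
  sum_one e := by
    classical
    have h1 := P.sum_one (D.pr e)
    rw [← h1]
    -- only the pairs `(i, co i e)` contribute
    have hinj : Function.Injective fun i : A.ι => ((i, D.co i e) : A.ι × F) := fun i j h =>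
      (Prod.mk.inj h).1
    rw [← finsum_mem_univ, ← finsum_mem_univ (f := fun i => P.ψ i (D.pr e))]
    have h2 : (∑ᶠ (p : A.ι × F) (_ : p ∈ (univ : Set (A.ι × F))), D.shf p (P.ψ p.1) e) =
        ∑ᶠ (p : A.ι × F) (_ : p ∈ range fun i : A.ι => ((i, D.co i e) : A.ι × F)),
          D.shf p (P.ψ p.1) e := by
      refine finsum_mem_inter_support_eq _ _ _ ?_
      ext p
      constructor
      · rintro ⟨_, h3⟩
        refine ⟨?_, h3⟩
        by_cases hp : e ∈ D.sheet p.1 p.2
        · exact ⟨p.1, Prod.ext rfl hp.2⟩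
        · exact absurd (D.shf_of_not _ hp) h3
      · rintro ⟨_, h3⟩
        exact ⟨mem_univ _, h3⟩
    have h3 : (∑ᶠ (p : A.ι × F) (_ : p ∈ range fun i : A.ι => ((i, D.co i e) : A.ι × F)),
          D.shf p (P.ψ p.1) e) = ∑ᶠ i : A.ι, D.shf (i, D.co i e) (P.ψ i) e :=
      finsum_mem_range hinj
    rw [finsum_mem_univ] at h2
    rw [finsum_mem_univ, finsum_mem_univ]
    change ∑ᶠ (i : A.ι × F), D.shf i (P.ψ i.1) e = _
    rw [h2, h3]
    refine finsum_congr fun i => ?_
    by_cases hi : D.pr e ∈ (A.e i).source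
    · rw [D.shf_of_mem _ (p := (i, D.co i e)) ⟨hi, rfl⟩]
    · rw [D.shf_of_not _ (p := (i, D.co i e)) fun h => hi h.1]
      exact (image_eq_zero_of_notMem_tsupport fun h => hi (tsupport_psi P i h)).symm

end Part

end MonD

end

end Crest.Agent.R273.UCov_914
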