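import Crest.Agent.R273.HolF_578
import Crest.Agent.R273.UCovD_914

/-!
# R273 (S0416), Part B (helper484): the bound `q(M) ≤ n`

* `NoZ A p`        : every nonzero holomorphic `p`-form has a polyvector with contraction one
                     (the output `(PAIR)` of `HodgeP_578`), so it has no zeros
* `finrank_Om_le`  : `Om A p` is finite dimensional, `finrank (Om A p) ≤ n.choose p`
* `pullOm`         : pull-back of holomorphic forms to the coverings `D.cov F`, injective
* `finrank_Om_mono`: `finrank (Om A p) ≤ finrank (Om (D.atl F) p)`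
* `qd`, `qd_le`, `qd_mono` : the case of one-forms
-/

set_option autoImplicit false
set_option linter.unusedSectionVars false

open Set Filter Topology Complex Matrix
open scoped ContDiff Matrix ComplexConjugate

namespace Crest.Agent.R273.BOne_484

open Crest.Agent.R275.Geo Crest.Agent.R275.Core144
open Crest.Agent.R273.Defs_333 Crest.Agent.R273.UCov_914
open Crest.Agent.R273.Fock_243 (FI Gam eW iW ep)
open Crest.Agent.R273.NV_578 Crest.Agent.R273.HolF_578

noncomputable section

variable {n : ℕ} {M : Type} [TopologicalSpace M] {A : Atl n M}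

/-- every nonzero holomorphic `p`-form has a polyvector with contraction one -/
def NoZ (A : Atl n M) (p : ℕ) : Prop :=
  ∀ β ∈ Om A p, β ≠ 0 → ∃ v : A.ι → M → FI n → ℂ, ∀ i, ∀ x ∈ (A.e i).source, ctr β v i x = 1

theorem NoZ.ne_zero {p : ℕ} (h : NoZ A p) {β : A.ι → M → FI n → ℂ} (hβ : β ∈ Om A p)
    (h0 : β ≠ 0) {i : A.ι} {x : M} (hx : x ∈ (A.e i).source) : β i x ≠ 0 := by
  obtain ⟨v, hv⟩ := h β hβ h0
  intro h1
  have h2 := hv i x hx
  rw [ctr_eq, h1, zero_dotProduct] at h2
  exact zero_ne_one h2

/-- evaluation of the `p`-forms at one point of one chart -/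
def ev (A : Atl n M) (p : ℕ) (i : A.ι) (x : M) : Om A p →ₗ[ℂ] ({T : FI n // T.card = p} → ℂ) where
  toFun β T := β.1 i x T.1
  map_add' _ _ := rfl
  map_smul' _ _ := rfl

theorem NoZ.ev_injective {p : ℕ} (h : NoZ A p) {i : A.ι} {x : M} (hx : x ∈ (A.e i).source) :
    Function.Injective (ev A p i x) := by
  rw [← LinearMap.ker_eq_bot, LinearMap.ker_eq_bot']
  intro β hβ
  by_contra hne
  have hne' : β.1 ≠ 0 := fun h0 => hne (Subtype.ext h0)
  refine h.ne_zero β.2 hne' hx ?_
  funext T
  by_cases hT : T.card = p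
  · exact congrFun hβ ⟨T, hT⟩
  · exact β.2.2.2.1 i x T hT

theorem NoZ.finite [Nonempty M] {p : ℕ} (h : NoZ A p) : FiniteDimensional ℂ (Om A p) := by
  obtain ⟨x⟩ := ‹Nonempty M›
  obtain ⟨i, hi⟩ := A.cover x
  exact FiniteDimensional.of_injective _ (h.ev_injective hi)

theorem NoZ.finrank_le [Nonempty M] {p : ℕ} (h : NoZ A p) :
    Module.finrank ℂ (Om A p) ≤ n.choose p := by
  obtain ⟨x⟩ := ‹Nonempty M›
  obtain ⟨i, hi⟩ := A.cover x
  refine (LinearMap.finrank_le_finrank_of_injective (h.ev_injective hi)).trans ?_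
  rw [Module.finrank_fintype_fun_eq_card, Fintype.card_subtype]
  have : (Finset.univ.filter fun T : FI n => T.card = p) = Finset.powersetCard p Finset.univ := by
    ext T
    simp [Finset.mem_powersetCard]
  rw [this, Finset.card_powersetCard, Finset.card_univ, Fintype.card_fin]

/-! ### pull-back to coverings -/

variable {G : Type} [Group G] (D : MonD A G) {F : Type} [MulAction G F]

open Classical in
/-- pull-back of a family of vectors -/
def pullV {W : Type*} [Zero W] (F : Type) [MulAction G F] (s : A.ι → M → W) :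
    (D.atl F).ι → D.cov F → W := fun p e =>
  if e ∈ ((D.atl F).e p).source then s p.1 (D.pr e) else 0

theorem pullV_apply {W : Type*} [Zero W] (s : A.ι → M → W) {p : A.ι × F} {e : D.cov F}
    (h : e ∈ ((D.atl F).e p).source) : pullV D F s p e = s p.1 (D.pr e) := if_pos h

theorem pullV_off {W : Type*} [Zero W] (s : A.ι → M → W) {p : A.ι × F} {e : D.cov F}
    (h : e ∉ ((D.atl F).e p).source) : pullV D F s p e = 0 := if_neg h

theorem Jm_atl (p q : A.ι × F) (e : D.cov F) : Jm (D.atl F) p q e = Jm A p.1 q.1 (D.pr e) := by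
  ext b a
  exact D.J_eq p q e b a

theorem pullV_mem_Om {p : ℕ} {β : A.ι → M → FI n → ℂ} (hβ : β ∈ Om A p) :
    pullV D F β ∈ Om (D.atl F) p := by
  obtain ⟨h1, h2, h3, h4⟩ := hβ
  refine ⟨fun P T => ?_, fun P e he => pullV_off D β he, fun P e T hT => ?_,
    fun P Q e he => ?_⟩
  · refine (D.holAt_pull (F := F) (p := P) (h1 P.1 T)).congr fun e he _ => ?_
    rw [pullV_apply D β he]
  · by_cases he : e ∈ ((D.atl F).e P).source
    · rw [pullV_apply D β he]
      exact h3 P.1 _ T hT
    · rw [pullV_off D β he]; rfl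
  · rw [pullV_apply D β he.1, pullV_apply D β he.2]
    exact h4 P.1 Q.1 _ ⟨he.1.1, he.2.1⟩

/-- pull-back of holomorphic forms to a covering -/
def pullOm (F : Type) [MulAction G F] (p : ℕ) : Om A p →ₗ[ℂ] Om (D.atl F) p where
  toFun β := ⟨pullV D F β.1, pullV_mem_Om D β.2⟩
  map_add' β β' := by
    apply Subtype.ext
    funext P e
    change pullV D F (β.1 + β'.1) P e = pullV D F β.1 P e + pullV D F β'.1 P e
    by_cases he : e ∈ ((D.atl F).e P).source
    · rw [pullV_apply D _ he, pullV_apply D _ he, pullV_apply D _ he]; rfl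
    · rw [pullV_off D _ he, pullV_off D _ he, pullV_off D _ he, add_zero]
  map_smul' c β := by
    apply Subtype.ext
    funext P e
    change pullV D F (c • β.1) P e = c • pullV D F β.1 P e
    by_cases he : e ∈ ((D.atl F).e P).source
    · rw [pullV_apply D _ he, pullV_apply D _ he]; rfl
    · rw [pullV_off D _ he, pullV_off D _ he, smul_zero]

@[simp] theorem pullOm_coe (p : ℕ) (β : Om A p) :
    (pullOm D F p β : (D.atl F).ι → D.cov F → FI n → ℂ) = pullV D F β.1 := rfl

theorem pullOm_injective [Nonempty F] (p : ℕ) : Function.Injective (pullOm D F p) := by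
  obtain ⟨v⟩ := ‹Nonempty F›
  intro β β' h
  apply Subtype.ext
  funext i x
  by_cases hx : x ∈ (A.e i).source
  · have he : D.pt i v x ∈ ((D.atl F).e (i, v)).source := D.pt_mem_source (p := (i, v)) hx
    have h1 : pullV D F β.1 (i, v) (D.pt i v x) = pullV D F β'.1 (i, v) (D.pt i v x) := by
      rw [← pullOm_coe, ← pullOm_coe, h]
    rwa [pullV_apply D _ he, pullV_apply D _ he] at h1
  · rw [β.2.2.1 i x hx, β'.2.2.1 i x hx]

theorem finrank_Om_mono [Nonempty F] {p : ℕ} [FiniteDimensional ℂ (Om (D.atl F) p)] :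
    Module.finrank ℂ (Om A p) ≤ Module.finrank ℂ (Om (D.atl F) p) :=
  LinearMap.finrank_le_finrank_of_injective (pullOm_injective D p)

/-! ### one-forms -/

/-- the irregularity -/
def qd (A : Atl n M) : ℕ := Module.finrank ℂ (Om A 1)

theorem qd_le [Nonempty M] (h : NoZ A 1) : qd A ≤ n := by
  have := h.finrank_le
  rwa [Nat.choose_one_right] at this

theorem nonempty_cov [Nonempty M] [Nonempty F] : Nonempty (D.cov F) := by
  obtain ⟨x⟩ := ‹Nonempty M›
  obtain ⟨v⟩ := ‹Nonempty F›
  obtain ⟨i, -⟩ := A.cover x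
  exact ⟨D.pt i v x⟩

theorem qd_mono [Nonempty M] [Nonempty F] (h : NoZ (D.atl F) 1) : qd A ≤ qd (D.atl F) := by
  have := nonempty_cov D (F := F)
  have := h.finite
  exact finrank_Om_mono D

/-- a proof by induction on `n - q(M)`: it is enough to prove the statement `S n M A` under the
assumption that it holds for all manifolds with larger irregularity -/
theorem induction_qd {S : ∀ (n : ℕ) (M : Type) [TopologicalSpace M], Atl n M → Prop}
    (n : ℕ)
    (H : ∀ (M : Type) [TopologicalSpace M] (A : Atl n M), qd A ≤ n →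
      (∀ (M' : Type) [TopologicalSpace M'] (A' : Atl n M'), qd A < qd A' → qd A' ≤ n → S n M' A') →
      S n M A)
    (M : Type) [TopologicalSpace M] (A : Atl n M) (hA : qd A ≤ n) : S n M A := by
  have key : ∀ (d : ℕ) (M : Type) [TopologicalSpace M] (A : Atl n M), qd A ≤ n →
      n - qd A ≤ d → S n M A := by
    intro d
    induction d with
    | zero =>
      intro M _ A hA hd
      refine H M A hA fun M' _ A' h1 h2 => ?_
      omega
    | succ d ih =>
      intro M _ A hA hd
      refine H M A hA fun M' _ A' h1 h2 => ?_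
      exact ih M' A' h2 (by omega)
  exact key _ M A hA le_rfl

end

end Crest.Agent.R273.BOne_484
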