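import Mathlib

/-!
# R273 (helper619): Bieberbach's first theorem (Buser's proof)

`E` finite dimensional real inner product space, `φ : G →* (E ≃ᵃⁱ[ℝ] E)` proper and cocompact.
Then every `φ g` whose linear part is `1/2`-close to the identity is a translation, the set of
linear parts is finite and the kernel of the linear part has finite index.
-/

set_option autoImplicit false
set_option linter.unusedSectionVars false
set_option linter.style.haveILetI false

open Module Metric Set Filter Topology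
open scoped InnerProductSpace

namespace Crest.Agent.R273.Bieb_619

noncomputable section

section split

variable {E : Type*} [NormedAddCommGroup E] [InnerProductSpace ℝ E] [FiniteDimensional ℝ E]

/-- `A - 1` for a linear isometry `A` -/
def df (A : E ≃ₗᵢ[ℝ] E) : E →L[ℝ] E :=
  (A.toContinuousLinearEquiv : E →L[ℝ] E) - ContinuousLinearMap.id ℝ E

@[simp] theorem df_apply (A : E ≃ₗᵢ[ℝ] E) (x : E) : df A x = A x - x := rfl

theorem df_eq_zero {A : E ≃ₗᵢ[ℝ] E} (h : df A = 0) : A = 1 := by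
  ext x
  have := congrArg (fun T : E →L[ℝ] E => T x) h
  simp only [df_apply, _root_.zero_apply, sub_eq_zero] at this
  simpa using this

/-- the operator norm of a continuous linear map on a nontrivial finite dimensional space is
attained -/
theorem exists_norm_eq {F G : Type*} [NormedAddCommGroup F] [NormedSpace ℝ F]
    [FiniteDimensional ℝ F] [Nontrivial F] [NormedAddCommGroup G] [NormedSpace ℝ G]
    (T : F →L[ℝ] G) : ∃ x : F, ‖x‖ = 1 ∧ ‖T x‖ = ‖T‖ := by
  haveI : ProperSpace F := FiniteDimensional.proper ℝ F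
  obtain ⟨x, hx, hmax⟩ := (isCompact_sphere (0 : F) 1).exists_isMaxOn
    (NormedSpace.sphere_nonempty.2 zero_le_one) (T.continuous.norm.continuousOn)
  rw [mem_sphere_zero_iff_norm] at hx
  refine ⟨x, hx, le_antisymm ?_ ?_⟩
  · simpa [hx] using T.le_opNorm x
  · refine T.opNorm_le_bound (norm_nonneg _) fun y => ?_
    by_cases hy : y = 0
    · simp [hy]
    · have hy' : 0 < ‖y‖ := norm_pos_iff.2 hy
      have h1 : (‖y‖⁻¹ • y) ∈ sphere (0 : F) 1 := by
        rw [mem_sphere_zero_iff_norm, norm_smul, norm_inv, norm_norm, inv_mul_cancel₀ hy'.ne']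
      have h2 : ‖T (‖y‖⁻¹ • y)‖ ≤ ‖T x‖ := hmax h1
      rw [map_smul, norm_smul, norm_inv, norm_norm] at h2
      rwa [inv_mul_le_iff₀ hy', mul_comm] at h2

theorem inner_df (A : E ≃ₗᵢ[ℝ] E) (x y : E) : ⟪df A x, y⟫_ℝ = ⟪x, df A.symm y⟫_ℝ := by
  simp only [df_apply, inner_sub_left, inner_sub_right]
  congr 1
  rw [← A.inner_map_map x (A.symm y), A.apply_symm_apply]

theorem df_comm (A : E ≃ₗᵢ[ℝ] E) (x : E) : df A (df A.symm x) = df A.symm (df A x) := by
  simp only [df_apply, map_sub, A.apply_symm_apply, A.symm_apply_apply]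
  abel

/-- `T† T` -/
theorem norm_df_sq (A : E ≃ₗᵢ[ℝ] E) (x : E) :
    ‖df A x‖ ^ 2 = ⟪x, df A.symm (df A x)⟫_ℝ := by
  rw [← inner_df, real_inner_self_eq_norm_sq]

/-- maximal eigenspace of `T† T` -/
def mx (A : E ≃ₗᵢ[ℝ] E) : Submodule ℝ E :=
  LinearMap.ker (((df A.symm).comp (df A) - (‖df A‖ ^ 2) • ContinuousLinearMap.id ℝ E :
    E →L[ℝ] E) : E →ₗ[ℝ] E)

theorem mem_mx {A : E ≃ₗᵢ[ℝ] E} {x : E} :
    x ∈ mx A ↔ df A.symm (df A x) = ‖df A‖ ^ 2 • x := by
  rw [mx, LinearMap.mem_ker]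
  change df A.symm (df A x) - ‖df A‖ ^ 2 • x = 0 ↔ _
  rw [sub_eq_zero]

theorem mx_of_norm {A : E ≃ₗᵢ[ℝ] E} {x : E} (h : ‖df A x‖ = ‖df A‖ * ‖x‖) : x ∈ mx A := by
  rw [mem_mx]
  set c := ‖df A‖ with hc
  set S : E → E := fun y => df A.symm (df A y) with hS
  have hSs : ∀ y z, ⟪S y, z⟫_ℝ = ⟪y, S z⟫_ℝ := by
    intro y z
    simp only [hS]
    have h1 := inner_df A.symm (df A y) z
    rw [A.symm_symm] at h1
    rw [h1, inner_df A y]
  have hpos : ∀ y, 0 ≤ c ^ 2 * ‖y‖ ^ 2 - ⟪y, S y⟫_ℝ := by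
    intro y
    rw [← norm_df_sq, sub_nonneg, ← mul_pow]
    exact pow_le_pow_left₀ (norm_nonneg _) ((df A).le_opNorm y) 2
  have hx0 : c ^ 2 * ‖x‖ ^ 2 - ⟪x, S x⟫_ℝ = 0 := by
    rw [← norm_df_sq, h, mul_pow, sub_self]
  -- derivative argument
  have hkey : ∀ y, ⟪c ^ 2 • x - S x, y⟫_ℝ = 0 := by
    intro y
    have hq : ∀ t : ℝ, 0 ≤ 2 * t * ⟪c ^ 2 • x - S x, y⟫_ℝ +
        t ^ 2 * (c ^ 2 * ‖y‖ ^ 2 - ⟪y, S y⟫_ℝ) := by
      intro t
      have h1 := hpos (x + t • y)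
      have h2 : S (x + t • y) = S x + t • S y := by simp only [hS, map_add, map_smul]
      have h3 : ‖x + t • y‖ ^ 2 = ‖x‖ ^ 2 + 2 * t * ⟪x, y⟫_ℝ + t ^ 2 * ‖y‖ ^ 2 := by
        rw [norm_add_sq_real, inner_smul_right, norm_smul, mul_pow, Real.norm_eq_abs, sq_abs]
        ring
      rw [h2, h3] at h1
      simp only [inner_add_left, inner_add_right, inner_smul_left, inner_smul_right,
        RCLike.conj_to_real] at h1
      have h4 : ⟪y, S x⟫_ℝ = ⟪x, S y⟫_ℝ := by rw [← hSs, real_inner_comm]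
      simp only [inner_sub_left, inner_smul_left, RCLike.conj_to_real]
      have h5 : ⟪S x, y⟫_ℝ = ⟪x, S y⟫_ℝ := hSs x y
      rw [h5]
      rw [h4] at h1
      nlinarith [hx0]
    by_contra hne
    set b := ⟪c ^ 2 • x - S x, y⟫_ℝ with hb
    set a := c ^ 2 * ‖y‖ ^ 2 - ⟪y, S y⟫_ℝ with ha
    have ha0 : 0 ≤ a := hpos y
    have h1 := hq (-(b / (a + 1)))
    have ha1 : 0 < a + 1 := by linarith
    have h2 : 2 * -(b / (a + 1)) * b + (-(b / (a + 1))) ^ 2 * a =
        - (b ^ 2 / (a + 1)) * ((a + 2) / (a + 1)) := by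
      field_simp
      ring
    rw [h2] at h1
    have h3 : 0 < (b ^ 2 / (a + 1)) * ((a + 2) / (a + 1)) := by
      have : 0 < b ^ 2 := by positivity
      positivity
    linarith
  have h6 : c ^ 2 • x - S x = 0 := by
    have := hkey (c ^ 2 • x - S x)
    exact inner_self_eq_zero.1 this
  rw [sub_eq_zero] at h6
  exact h6.symm

/-- the spectral splitting used by Buser -/
theorem exists_split {A : E ≃ₗᵢ[ℝ] E} (hA : A ≠ 1) :
    ∃ (V : Submodule ℝ E) (κ : ℝ), V ≠ ⊥ ∧ 0 ≤ κ ∧ κ < ‖df A‖ ∧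
      (∀ x ∈ V, df A x ∈ V ∧ ‖df A x‖ = ‖df A‖ * ‖x‖) ∧
      (∀ x ∈ Vᗮ, df A x ∈ Vᗮ ∧ ‖df A x‖ ≤ κ * ‖x‖) := by
  have hA0 : df A ≠ 0 := fun h => hA (df_eq_zero h)
  have hc : 0 < ‖df A‖ := norm_pos_iff.2 hA0
  haveI : Nontrivial E := by
    by_contra hn
    rw [not_nontrivial_iff_subsingleton] at hn
    exact hA0 (Subsingleton.elim _ _)
  have hstab : ∀ x ∈ mx A, df A x ∈ mx A := by
    intro x hx
    rw [mem_mx] at hx ⊢
    rw [← df_comm, hx, map_smul]
  have hstab' : ∀ x ∈ mx A, df A.symm x ∈ mx A := by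
    intro x hx
    rw [mem_mx] at hx ⊢
    rw [df_comm, hx, map_smul]
  have hperp : ∀ x ∈ (mx A)ᗮ, df A x ∈ (mx A)ᗮ := by
    intro x hx
    rw [Submodule.mem_orthogonal'] at hx ⊢
    intro y hy
    rw [inner_df]
    exact hx _ (hstab' y hy)
  have hnorm : ∀ x ∈ mx A, ‖df A x‖ = ‖df A‖ * ‖x‖ := by
    intro x hx
    rw [mem_mx] at hx
    have h1 := norm_df_sq A x
    rw [hx, inner_smul_right, real_inner_self_eq_norm_sq, ← mul_pow] at h1
    exact (pow_left_inj₀ (norm_nonneg _) (by positivity) two_ne_zero).1 h1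
  -- the restriction to the orthogonal complement
  set T : (mx A)ᗮ →L[ℝ] E := (df A).comp (mx A)ᗮ.subtypeL with hT
  refine ⟨mx A, ‖T‖, ?_, T.opNorm_nonneg, ?_, fun x hx => ⟨hstab x hx, hnorm x hx⟩,
    fun x hx => ⟨hperp x hx, ?_⟩⟩
  · obtain ⟨x, hx1, hx2⟩ := exists_norm_eq (df A)
    intro hbot
    have hx : x ∈ mx A := mx_of_norm (by rw [hx1, hx2, mul_one])
    rw [hbot, Submodule.mem_bot] at hx
    rw [hx, norm_zero] at hx1
    exact zero_ne_one hx1
  · by_cases hn : Nontrivial (mx A)ᗮ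
    · obtain ⟨x, hx1, hx2⟩ := exists_norm_eq T
      refine lt_of_le_of_ne ?_ fun heq => ?_
      · refine T.opNorm_le_bound (norm_nonneg _) fun y => ?_
        exact (df A).le_opNorm (y : E)
      · have hx : (x : E) ∈ mx A := by
          apply mx_of_norm
          have : T x = df A (x : E) := rfl
          rw [← this, hx2, heq]
          have h1 : ‖(x : E)‖ = 1 := hx1
          rw [h1, mul_one]
        have h0 : (x : E) = 0 := by
          have := (Submodule.mem_orthogonal' _ _).1 x.2 _ hx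
          exact inner_self_eq_zero.1 this
        have h1 : ‖(x : E)‖ = 1 := hx1
        rw [h0, norm_zero] at h1
        exact zero_ne_one h1
    · rw [not_nontrivial_iff_subsingleton] at hn
      have : T = 0 := Subsingleton.elim _ _
      rw [this, ContinuousLinearMap.opNorm_zero]
      exact hc
  · exact T.le_opNorm ⟨x, hx⟩

end split

section main

variable {E : Type*} [NormedAddCommGroup E] [InnerProductSpace ℝ E] [FiniteDimensional ℝ E]

/-- linear part as a group homomorphism -/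
def lin : (E ≃ᵃⁱ[ℝ] E) →* (E ≃ₗᵢ[ℝ] E) where
  toFun α := α.linearIsometryEquiv
  map_one' := rfl
  map_mul' _ _ := rfl

theorem mul_ap (A B : E ≃ₗᵢ[ℝ] E) (x : E) : (A * B) x = A (B x) := rfl

/-- translation part -/
def tr (α : E ≃ᵃⁱ[ℝ] E) : E := α 0

theorem apply_eq (α : E ≃ᵃⁱ[ℝ] E) (x : E) : α x = lin α x + tr α := by
  have h := α.map_vadd 0 x
  rw [vadd_eq_add, add_zero, vadd_eq_add] at h
  exact h

theorem tr_mul (α β : E ≃ᵃⁱ[ℝ] E) : tr (α * β) = lin α (tr β) + tr α := by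
  have : tr (α * β) = α (β 0) := rfl
  rw [this, apply_eq α]
  rfl

theorem norm_df_mul_inv (A B : E ≃ₗᵢ[ℝ] E) : ‖df (A * B⁻¹)‖ ≤ ‖df A - df B‖ := by
  refine ContinuousLinearMap.opNorm_le_bound _ (norm_nonneg _) fun x => ?_
  have h1 : df (A * B⁻¹) x = (df A - df B) (B⁻¹ x) := by
    simp only [df_apply, sub_apply, mul_ap]
    have : B (B⁻¹ x) = x := B.apply_symm_apply x
    rw [this]
    abel
  rw [h1]
  refine ((df A - df B).le_opNorm _).trans_eq ?_
  congr 1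
  exact (B⁻¹).norm_map x

theorem norm_df_comm (A B : E ≃ₗᵢ[ℝ] E) :
    ‖df (A * B * A⁻¹ * B⁻¹)‖ ≤ 2 * ‖df A‖ * ‖df B‖ := by
  refine ContinuousLinearMap.opNorm_le_bound _ (by positivity) fun x => ?_
  set y := A⁻¹ (B⁻¹ x) with hy
  have hx : x = B (A y) := by
    have h1 : A y = B⁻¹ x := A.apply_symm_apply _
    rw [h1]
    exact (B.apply_symm_apply x).symm
  have hny : ‖y‖ = ‖x‖ := by rw [hx, B.norm_map, A.norm_map]
  have h1 : df (A * B * A⁻¹ * B⁻¹) x = df A (df B y) - df B (df A y) := by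
    have h2 : (A * B * A⁻¹ * B⁻¹) x = A (B y) := rfl
    rw [df_apply, h2]
    nth_rw 1 [hx]
    simp only [df_apply, map_sub]
    abel
  rw [h1]
  refine (norm_sub_le _ _).trans ?_
  have h3 : ‖df A (df B y)‖ ≤ ‖df A‖ * (‖df B‖ * ‖x‖) := by
    refine ((df A).le_opNorm _).trans ?_
    rw [← hny]
    exact mul_le_mul_of_nonneg_left ((df B).le_opNorm _) (norm_nonneg _)
  have h4 : ‖df B (df A y)‖ ≤ ‖df B‖ * (‖df A‖ * ‖x‖) := by
    refine ((df B).le_opNorm _).trans ?_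
    rw [← hny]
    exact mul_le_mul_of_nonneg_left ((df A).le_opNorm _) (norm_nonneg _)
  nlinarith

/-- Data of the theorem: a subgroup of affine isometries, discrete and cocompact. -/
structure Crys (Γ : Subgroup (E ≃ᵃⁱ[ℝ] E)) : Prop where
  proper : ∀ R : ℝ, {α | α ∈ Γ ∧ ‖tr α‖ ≤ R}.Finite
  cocompact : ∃ R : ℝ, ∀ x : E, ∃ α ∈ Γ, ‖tr α - x‖ ≤ R

variable {Γ : Subgroup (E ≃ᵃⁱ[ℝ] E)}

/-- minimum of the translation length over a nonempty subset of `Γ` -/
theorem Crys.exists_min (h : Crys Γ) {P : (E ≃ᵃⁱ[ℝ] E) → Prop} {α₀ : E ≃ᵃⁱ[ℝ] E}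
    (h₀ : α₀ ∈ Γ) (hP : P α₀) :
    ∃ α ∈ Γ, P α ∧ ∀ β ∈ Γ, P β → ‖tr α‖ ≤ ‖tr β‖ := by
  have hfin : {α | (α ∈ Γ ∧ ‖tr α‖ ≤ ‖tr α₀‖) ∧ P α}.Finite :=
    (h.proper ‖tr α₀‖).subset fun α hα => hα.1
  obtain ⟨α, hα, hmin⟩ := hfin.exists_minimalFor (fun α => ‖tr α‖) _ ⟨α₀, ⟨h₀, le_rfl⟩, hP⟩
  refine ⟨α, hα.1.1, hα.2, fun β hβ hPβ => ?_⟩
  by_contra hlt
  push Not at hlt
  have hβ' : β ∈ {α | (α ∈ Γ ∧ ‖tr α‖ ≤ ‖tr α₀‖) ∧ P α} :=
    ⟨⟨hβ, hlt.le.trans hα.1.2⟩, hPβ⟩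
  exact absurd (hmin hβ' hlt.le) (not_le.2 hlt)

/-- "mini Bieberbach" -/
theorem Crys.mini (h : Crys Γ) {V : Submodule ℝ E} (hV : V ≠ ⊥) {η : ℝ} (hη : 0 < η) :
    ∃ β ∈ Γ, ‖df (lin β)‖ ≤ η ∧
      ‖(Vᗮ.starProjection (tr β))‖ < ‖(V.starProjection (tr β))‖ := by
  obtain ⟨R, hR⟩ := h.cocompact
  obtain ⟨v, hvV, hv0⟩ := V.ne_bot_iff.1 hV
  set u : E := ‖v‖⁻¹ • v with hu
  have hu1 : ‖u‖ = 1 := by
    rw [hu, norm_smul, norm_inv, norm_norm, inv_mul_cancel₀ (norm_ne_zero_iff.2 hv0)]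
  have huV : u ∈ V := V.smul_mem _ hvV
  have hR0 : 0 ≤ R := by
    obtain ⟨α, -, hα⟩ := hR 0
    exact (norm_nonneg _).trans hα
  choose β hβΓ hβ using fun k : ℕ => hR ((k : ℝ) • u)
  -- compactness of the linear parts
  haveI : ProperSpace (E →L[ℝ] E) := FiniteDimensional.proper ℝ _
  have hbd : ∀ k, df (lin (β k)) ∈ closedBall (0 : E →L[ℝ] E) 2 := by
    intro k
    rw [mem_closedBall_zero_iff]
    refine ContinuousLinearMap.opNorm_le_bound _ (by norm_num) fun x => ?_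
    rw [df_apply]
    refine (norm_sub_le _ _).trans ?_
    rw [(lin (β k)).norm_map]
    linarith
  obtain ⟨T, -, ψ, hψ, hlim⟩ :=
    (isCompact_closedBall (0 : E →L[ℝ] E) 2).tendsto_subseq hbd
  have hcau : CauchySeq (fun k => df (lin (β (ψ k)))) := hlim.cauchySeq
  obtain ⟨N, hN⟩ := Metric.cauchySeq_iff.1 hcau η hη
  set i := ψ N with hi
  -- choose `j` large
  set c : ℝ := R + (R + i) with hcdef
  obtain ⟨K, hK⟩ := exists_nat_gt (2 * c)
  set j := ψ (max N K) with hj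
  have hjK : 2 * c < (j : ℝ) := by
    have h1 : K ≤ j := (le_max_right N K).trans (hψ.id_le _)
    have h2 : (K : ℝ) ≤ j := by exact_mod_cast h1
    linarith
  have hd : ‖df (lin (β j)) - df (lin (β i))‖ < η := by
    rw [← dist_eq_norm]
    exact hN _ (le_max_left N K) _ le_rfl
  refine ⟨β j * (β i)⁻¹, Γ.mul_mem (hβΓ j) (Γ.inv_mem (hβΓ i)), ?_, ?_⟩
  · rw [map_mul, map_inv]
    exact (norm_df_mul_inv _ _).trans hd.le
  · set γ := β j * (β i)⁻¹ with hγ
    have hmul : γ * β i = β j := by rw [hγ, inv_mul_cancel_right]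
    have h1 : tr (β j) = lin γ (tr (β i)) + tr γ := by rw [← hmul, tr_mul]
    have h2 : tr γ = (tr (β j) - (j : ℝ) • u) - lin γ (tr (β i)) + (j : ℝ) • u := by
      rw [h1]; abel
    set w : E := (tr (β j) - (j : ℝ) • u) - lin γ (tr (β i)) with hw
    have hbi : ‖tr (β i)‖ ≤ R + i := by
      have h3 : tr (β i) = (tr (β i) - (i : ℝ) • u) + (i : ℝ) • u := by abel
      rw [h3]
      refine (norm_add_le _ _).trans ?_
      have h4 : ‖(i : ℝ) • u‖ = i := by
        rw [norm_smul, hu1, mul_one, Real.norm_eq_abs, abs_of_nonneg (Nat.cast_nonneg _)]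
      rw [h4]
      linarith [hβ i]
    have hwn : ‖w‖ ≤ c := by
      refine (norm_sub_le _ _).trans ?_
      rw [(lin γ).norm_map]
      linarith [hβ j]
    have hju : ‖(j : ℝ) • u‖ = j := by
      rw [norm_smul, hu1, mul_one, Real.norm_eq_abs, abs_of_nonneg (Nat.cast_nonneg _)]
    have hjV : (j : ℝ) • u ∈ V := V.smul_mem _ huV
    have h5 : V.starProjection ((j : ℝ) • u) = (j : ℝ) • u :=
      Submodule.starProjection_eq_self_iff.2 hjV
    have h6 : Vᗮ.starProjection ((j : ℝ) • u) = 0 := by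
      rw [Submodule.starProjection_apply_eq_zero_iff]
      exact Submodule.le_orthogonal_orthogonal V hjV
    have h7 : ‖Vᗮ.starProjection (tr γ)‖ ≤ c := by
      rw [h2, map_add, h6, add_zero]
      exact (Submodule.norm_starProjection_apply_le _ _).trans hwn
    have h8 : (j : ℝ) - c ≤ ‖V.starProjection (tr γ)‖ := by
      rw [h2, map_add, h5]
      have h9 : ‖V.starProjection w‖ ≤ c := (Submodule.norm_starProjection_apply_le _ _).trans hwn
      have h10 : ‖(j : ℝ) • u‖ ≤ ‖V.starProjection w + (j : ℝ) • u‖ + ‖V.starProjection w‖ := by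
        have : (j : ℝ) • u = (V.starProjection w + (j : ℝ) • u) - V.starProjection w := by abel
        nth_rw 1 [this]
        exact norm_sub_le _ _
      rw [hju] at h10
      linarith
    linarith

/-- **Key step (Buser).** A crystallographic motion with linear part `1/2`-close to the identity
is a translation. -/
theorem Crys.lin_eq_one (h : Crys Γ) {α : E ≃ᵃⁱ[ℝ] E} (hα : α ∈ Γ)
    (hd : ‖df (lin α)‖ ≤ 1 / 2) : lin α = 1 := by
  by_contra hne
  obtain ⟨α, hαΓ, ⟨hαne, hα2⟩, hmin⟩ := h.exists_min (P := fun α => lin α ≠ 1 ∧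
    ‖df (lin α)‖ ≤ 1 / 2) hα ⟨hne, hd⟩
  obtain ⟨V, κ, hV, hκ0, hκ, hVV, hVp⟩ := exists_split hαne
  set a := ‖df (lin α)‖ with ha
  set η := (a - κ) / 8 with hη
  have hηpos : 0 < η := by rw [hη]; linarith
  obtain ⟨β₀, hβ₀, hβ₀1, hβ₀2⟩ := h.mini hV hηpos
  obtain ⟨β, hβΓ, ⟨hβη, hβV⟩, hβmin⟩ := h.exists_min (P := fun β => ‖df (lin β)‖ ≤ η ∧
    ‖(Vᗮ.starProjection (tr β))‖ < ‖(V.starProjection (tr β))‖) hβ₀ ⟨hβ₀1, hβ₀2⟩
  set b := tr β with hb
  set bV := V.starProjection b with hbV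
  set bP := Vᗮ.starProjection b with hbP
  have hbsum : b = bV + bP := (V.starProjection_add_starProjection_orthogonal b).symm
  have hbVm : bV ∈ V := V.starProjection_apply_mem b
  have hbPm : bP ∈ Vᗮ := Vᗮ.starProjection_apply_mem b
  have hbVpos : 0 < ‖bV‖ := (norm_nonneg _).trans_lt hβV
  have hb2 : ‖b‖ < 2 * ‖bV‖ := by
    rw [hbsum]
    exact (norm_add_le _ _).trans_lt (by linarith)
  have hb0 : 0 < ‖b‖ := by
    have : ‖bV‖ ≤ ‖b‖ := Submodule.norm_starProjection_apply_le _ _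
    linarith
  -- the commutator
  set γ := α * β * α⁻¹ * β⁻¹ with hγ
  have hγΓ : γ ∈ Γ := Γ.mul_mem (Γ.mul_mem (Γ.mul_mem hαΓ hβΓ) (Γ.inv_mem hαΓ)) (Γ.inv_mem hβΓ)
  have hlinγ : lin γ = lin α * lin β * (lin α)⁻¹ * (lin β)⁻¹ := by
    rw [hγ, map_mul, map_mul, map_mul, map_inv, map_inv]
  have hdγ : ‖df (lin γ)‖ ≤ ‖df (lin β)‖ := by
    rw [hlinγ]
    refine (norm_df_comm _ _).trans ?_
    have : 2 * ‖df (lin α)‖ ≤ 1 := by linarith
    exact (mul_le_mul_of_nonneg_right this (norm_nonneg _)).trans_eq (one_mul _)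
  -- its translation part
  set r : E := tr γ - df (lin α) b with hr
  have hcomp : γ * β * α = α * β := by
    rw [hγ]; group
  have htr : tr γ = (lin α b + tr α) - lin γ (lin β (tr α) + b) := by
    have h1 : tr (γ * (β * α)) = tr (α * β) := by rw [← mul_assoc, hcomp]
    rw [tr_mul γ, tr_mul β, tr_mul α] at h1
    rw [← h1]; abel
  have hr' : r = -(df (lin γ) b) - lin α (df (lin β) ((lin α)⁻¹ (tr α))) := by
    have h1 : lin γ (lin β (tr α)) = lin α (lin β ((lin α)⁻¹ (tr α))) := by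
      rw [hlinγ]
      have h2 : (lin β)⁻¹ (lin β (tr α)) = tr α := (lin β).symm_apply_apply _
      simp only [mul_ap]
      rw [h2]
    have h3 : lin α ((lin α)⁻¹ (tr α)) = tr α := (lin α).apply_symm_apply _
    rw [hr, htr]
    simp only [df_apply, map_sub, map_add, h1, h3]
    abel
  have hrn : ‖r‖ ≤ 2 * η * ‖b‖ := by
    by_cases hB : lin β = 1
    · have hdf : df (lin β) = 0 := by
        rw [hB]; ext x; simp
      have h1 : ‖df (lin γ)‖ ≤ 0 := by
        rw [hdf, norm_zero] at hdγ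
        exact hdγ
      have h2 : df (lin γ) = 0 := norm_le_zero_iff.1 h1
      rw [hr', hdf, h2]
      simp only [_root_.zero_apply, map_zero, neg_zero, sub_zero, norm_zero]
      positivity
    · have hβ2 : ‖df (lin β)‖ ≤ 1 / 2 := by
        have : η ≤ 1 / 2 := by rw [hη]; linarith
        exact hβη.trans this
      have h1 : ‖tr α‖ ≤ ‖b‖ := hmin β hβΓ ⟨hB, hβ2⟩
      rw [hr']
      refine (norm_sub_le _ _).trans ?_
      rw [norm_neg, (lin α).norm_map]
      have h2 : ‖df (lin γ) b‖ ≤ η * ‖b‖ :=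
        ((df (lin γ)).le_opNorm b).trans
          (mul_le_mul_of_nonneg_right (hdγ.trans hβη) (norm_nonneg _))
      have h3 : ‖df (lin β) ((lin α)⁻¹ (tr α))‖ ≤ η * ‖b‖ := by
        refine ((df (lin β)).le_opNorm _).trans ?_
        rw [((lin α)⁻¹).norm_map]
        exact mul_le_mul hβη h1 (norm_nonneg _) hηpos.le
      linarith
  have hr3 : ‖r‖ < (a - κ) / 2 * ‖bV‖ := by
    refine hrn.trans_lt ?_
    have : 2 * η * ‖b‖ < 2 * η * (2 * ‖bV‖) := mul_lt_mul_of_pos_left hb2 (by positivity)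
    refine this.trans_eq ?_
    rw [hη]; ring
  have htrγ : tr γ = (df (lin α) bV + df (lin α) bP) + r := by
    rw [hr, ← map_add, ← hbsum]
    abel
  obtain ⟨hm1, hn1⟩ := hVV bV hbVm
  obtain ⟨hm2, hn2⟩ := hVp bP hbPm
  have hpV : V.starProjection (tr γ) = df (lin α) bV + V.starProjection r := by
    rw [htrγ, map_add, map_add, Submodule.starProjection_eq_self_iff.2 hm1,
      (Submodule.starProjection_apply_eq_zero_iff V).2 hm2, add_zero]
  have hpP : Vᗮ.starProjection (tr γ) = df (lin α) bP + Vᗮ.starProjection r := by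
    rw [htrγ, map_add, map_add, Submodule.starProjection_eq_self_iff.2 hm2,
      (Submodule.starProjection_apply_eq_zero_iff Vᗮ).2
        (Submodule.le_orthogonal_orthogonal V hm1), zero_add]
  have hrV : ‖V.starProjection r‖ ≤ ‖r‖ := Submodule.norm_starProjection_apply_le _ _
  have hrP : ‖Vᗮ.starProjection r‖ ≤ ‖r‖ := Submodule.norm_starProjection_apply_le _ _
  have hP : ‖Vᗮ.starProjection (tr γ)‖ < ‖V.starProjection (tr γ)‖ := by
    have h1 : ‖Vᗮ.starProjection (tr γ)‖ ≤ κ * ‖bP‖ + ‖r‖ := by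
      rw [hpP]
      exact (norm_add_le _ _).trans (add_le_add hn2 hrP)
    have h2 : a * ‖bV‖ ≤ ‖V.starProjection (tr γ)‖ + ‖r‖ := by
      rw [hpV, ← hn1]
      have : df (lin α) bV = (df (lin α) bV + V.starProjection r) - V.starProjection r := by abel
      nth_rw 1 [this]
      exact (norm_sub_le _ _).trans (add_le_add le_rfl hrV)
    have h3 : κ * ‖bP‖ ≤ κ * ‖bV‖ := mul_le_mul_of_nonneg_left hβV.le hκ0
    nlinarith
  have hlt : ‖tr γ‖ < ‖b‖ := by
    have h1 : tr γ = df (lin α) b + r := by rw [hr]; abel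
    have h2 : ‖df (lin α) b‖ ≤ a * ‖b‖ := (df (lin α)).le_opNorm b
    have h3 : ‖tr γ‖ ≤ a * ‖b‖ + 2 * η * ‖b‖ := by
      rw [h1]
      exact (norm_add_le _ _).trans (add_le_add h2 hrn)
    have h4 : a + 2 * η < 1 := by rw [hη]; linarith
    nlinarith
  exact absurd (hβmin γ hγΓ ⟨hdγ.trans hβη, hP⟩) (not_le.2 hlt)

/-- **Bieberbach I**: the linear holonomy group is finite. -/
theorem Crys.finite_lin (h : Crys Γ) : (lin '' (Γ : Set (E ≃ᵃⁱ[ℝ] E))).Finite := by
  haveI : ProperSpace (E →L[ℝ] E) := FiniteDimensional.proper ℝ _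
  -- the linear parts are `1/2`-separated in a compact set
  have hinj : Set.InjOn (df (E := E)) univ := by
    intro A _ B _ hAB
    ext x
    have := congrArg (fun T : E →L[ℝ] E => T x) hAB
    simpa using this
  have hsep : ∀ A ∈ lin '' (Γ : Set (E ≃ᵃⁱ[ℝ] E)), ∀ B ∈ lin '' (Γ : Set (E ≃ᵃⁱ[ℝ] E)),
      dist (df A) (df B) ≤ 1 / 2 → A = B := by
    rintro _ ⟨α, hα, rfl⟩ _ ⟨β, hβ, rfl⟩ hd
    have h1 : lin (α * β⁻¹) = 1 := by
      refine h.lin_eq_one (Γ.mul_mem hα (Γ.inv_mem hβ)) ?_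
      rw [map_mul, map_inv]
      refine (norm_df_mul_inv _ _).trans ?_
      rwa [← dist_eq_norm]
    rw [map_mul, map_inv, mul_inv_eq_one] at h1
    exact h1
  have hb : ∀ A : E ≃ₗᵢ[ℝ] E, df A ∈ closedBall (0 : E →L[ℝ] E) 2 := by
    intro A
    rw [mem_closedBall_zero_iff]
    refine ContinuousLinearMap.opNorm_le_bound _ (by norm_num) fun x => ?_
    rw [df_apply]
    refine (norm_sub_le _ _).trans ?_
    rw [A.norm_map]
    linarith
  obtain ⟨t, ht, htf, hcov⟩ := (isCompact_closedBall (0 : E →L[ℝ] E) 2).finite_cover_balls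
    (show (0 : ℝ) < 1 / 4 by norm_num)
  have hfin : (df '' (lin '' (Γ : Set (E ≃ᵃⁱ[ℝ] E)))).Finite := by
    classical
    have hch : ∀ T ∈ df '' (lin '' (Γ : Set (E ≃ᵃⁱ[ℝ] E))), ∃ c ∈ t, T ∈ ball c (1 / 4) := by
      rintro _ ⟨A, -, rfl⟩
      have := hcov (hb A)
      simpa using this
    choose! f hf1 hf2 using hch
    refine Set.Finite.of_finite_image (f := f) (htf.subset ?_) ?_
    · rintro _ ⟨T, hT, rfl⟩
      exact hf1 T hT
    · rintro _ ⟨A, hA, rfl⟩ _ ⟨B, hB, rfl⟩ hAB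
      have h1 := hf2 _ ⟨A, hA, rfl⟩
      have h2 := hf2 _ ⟨B, hB, rfl⟩
      rw [← hAB] at h2
      have h3 : dist (df A) (df B) ≤ 1 / 2 := by
        have := dist_triangle_right (df A) (df B) (f (df A))
        rw [mem_ball] at h1 h2
        linarith
      rw [hsep A hA B hB h3]
  exact Set.Finite.of_finite_image hfin (hinj.mono (subset_univ _))

end main

section hom

variable {E : Type*} [NormedAddCommGroup E] [InnerProductSpace ℝ E] [FiniteDimensional ℝ E]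
  {G : Type*} [Group G]

/-- **Bieberbach I for a group action**: `φ` proper and cocompact. -/
theorem finiteIndex_ker (φ : G →* (E ≃ᵃⁱ[ℝ] E))
    (hprop : ∀ R : ℝ, {α | α ∈ φ.range ∧ ‖α 0‖ ≤ R}.Finite)
    (hco : ∃ R : ℝ, ∀ x : E, ∃ g : G, ‖φ g 0 - x‖ ≤ R) :
    (MonoidHom.ker (lin.comp φ)).FiniteIndex := by
  have hC : Crys φ.range := by
    refine ⟨hprop, ?_⟩
    obtain ⟨R, hR⟩ := hco
    refine ⟨R, fun x => ?_⟩
    obtain ⟨g, hg⟩ := hR x
    exact ⟨φ g, ⟨g, rfl⟩, hg⟩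
  have hfin : Finite (lin.comp φ).range := by
    have h1 : ((lin.comp φ).range : Set (E ≃ₗᵢ[ℝ] E)) = lin '' (φ.range : Set (E ≃ᵃⁱ[ℝ] E)) := by
      ext A
      constructor
      · rintro ⟨g, rfl⟩
        exact ⟨φ g, ⟨g, rfl⟩, rfl⟩
      · rintro ⟨_, ⟨g, rfl⟩, rfl⟩
        exact ⟨g, rfl⟩
    have h2 := hC.finite_lin
    rw [← h1] at h2
    exact h2.to_subtype
  infer_instance

/-- elements of the kernel act by translations -/
theorem apply_of_mem_ker {φ : G →* (E ≃ᵃⁱ[ℝ] E)} {g : G}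
    (hg : g ∈ MonoidHom.ker (lin.comp φ)) (x : E) : φ g x = x + φ g 0 := by
  have h1 : lin (φ g) = 1 := hg
  have h2 := apply_eq (φ g) x
  rw [h1] at h2
  exact h2

end hom

end

end Crest.Agent.R273.Bieb_619
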