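import Crest.Agent.R273.Calc_243

/-!
# R273 (S0416), D0 (helper243): the pointwise Bochner-Kodaira-Nakano identity

Data at a point `z` of `Cn n`: `K` smooth matrix (`K b a = g_{a b̄}`, lowering matrix of a Kähler
metric), `lam` smooth function (`ρ = exp lam`), `v`, `w` smooth `Finset (Fin n)`-vectors
(multivectors of all degrees, with values in a line bundle).

* `du K v = ∑ e_k ∂̄_k (Γ(K) v)`, `del lam v = ∑ i_l (∂_l v + (∂_l lam) v)`;
* `bkn_pt` : `T1 + curvature = |du|² + |del|² + divergences`, pointwise.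
-/

set_option autoImplicit false
set_option linter.unusedSectionVars false

open Finset Matrix Complex
open scoped ContDiff ComplexConjugate

namespace Crest.Agent.R273.Bkn_243

open Crest.Agent.R275.Geo Crest.Agent.R273.Fock_243 Crest.Agent.R273.Calc_243

noncomputable section

variable {n : ℕ}

/-- `∂̄` of the lowered multivector -/
def du (K : Cn n → Matrix (Fin n) (Fin n) ℂ) (v : Cn n → FI n → ℂ) (z : Cn n) : FI n → ℂ :=
  ∑ k, eW (ep k) *ᵥ dV I k (fun y => Gam (K y) *ᵥ v y) z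

/-- weighted divergence of the multivector -/
def del (lam : Cn n → ℂ) (v : Cn n → FI n → ℂ) (z : Cn n) : FI n → ℂ :=
  ∑ l, iW (ep l) *ᵥ (dV (-I) l v z + dS (-I) l lam z • v z)

/-- Kähler symmetry at `z` (`K b a = g_{a b̄}`) -/
structure KahAt (K : Cn n → Matrix (Fin n) (Fin n) ℂ) (z : Cn n) : Prop where
  bar : ∀ k b c, dM I k K z b c = dM I b K z k c
  hol : ∀ k b c, dM (-I) k K z c b = dM (-I) b K z c k

variable {K : Cn n → Matrix (Fin n) (Fin n) ℂ} {lam : Cn n → ℂ} {v w : Cn n → FI n → ℂ} {z : Cn n}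

theorem kah_e (hK : SmM z K) (h : KahAt K z) :
    ∑ k, eW (ep k) * dM I k (fun y => Gam (K y)) z = 0 :=
  kahler_e (fun k => dM I k K z) (fun k => dM I k (fun y => Gam (K y)) z)
    (fun _ j => dM_Gam_eW hK j) (fun _ S => dM_Gam_vac S) h.bar

theorem kah_i (hK : SmM z K) (h : KahAt K z) :
    ∑ l, dM (-I) l (fun y => Gam (K y)) z * iW (ep l) = 0 :=
  kahler_i (fun k => dM (-I) k K z) (fun k => dM (-I) k (fun y => Gam (K y)) z)
    (fun _ j => iW_dM_Gam hK j) (fun _ S => dM_Gam_vac' S) h.hol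

/-- `∂̄` of the lowered multivector in terms of `∂̄ v` -/
theorem du_eq (hK : SmM z K) (h : KahAt K z) (hv : SmV z v) :
    du K v z = ∑ k, eW (ep k) *ᵥ (Gam (K z) *ᵥ dV I k v z) := by
  unfold du
  have h1 : ∀ k, eW (ep k) *ᵥ dV I k (fun y => Gam (K y) *ᵥ v y) z
      = (eW (ep k) * dM I k (fun y => Gam (K y)) z) *ᵥ v z
        + eW (ep k) *ᵥ (Gam (K z) *ᵥ dV I k v z) := by
    intro k
    rw [dV_mulVec (fun S T => (SmM.Gam hK S T).diff) (fun S => (hv S).diff), Matrix.mulVec_add,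
      Matrix.mulVec_mulVec]
  simp only [h1, Finset.sum_add_distrib]
  rw [← Matrix.sum_mulVec, kah_e hK h, Matrix.zero_mulVec, zero_add]

/-! ### algebra of the dot product -/

theorem dot_eW (k : Fin n → ℂ) (a b : FI n → ℂ) :
    (eW k *ᵥ a) ⬝ᵥ b = a ⬝ᵥ (iW k *ᵥ b) := by
  rw [← eW_transpose, Matrix.dotProduct_mulVec, Matrix.vecMul_transpose]

theorem dot_iW (k : Fin n → ℂ) (a b : FI n → ℂ) :
    (iW k *ᵥ a) ⬝ᵥ b = a ⬝ᵥ (eW k *ᵥ b) := by
  rw [← iW_transpose, Matrix.dotProduct_mulVec, Matrix.vecMul_transpose]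

theorem K_map_conj (s p : Fin n → ℂ) :
    (Crest.Agent.R275.Kos798.K s p).map (starRingEnd ℂ)
      = Crest.Agent.R275.Kos798.K (star s) (star p) := by
  ext T S
  simp only [Matrix.map_apply, Crest.Agent.R275.Kos798.K, map_sum]
  refine Finset.sum_congr rfl fun j _ => ?_
  split_ifs with h
  · unfold Crest.Agent.R275.Kos798.cf Crest.Agent.R275.Kos798.sgn
    split_ifs <;> simp
  · simp

theorem star_ep (k : Fin n) : star (ep k : Fin n → ℂ) = ep k := by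
  ext j
  by_cases h : j = k
  · subst h; simp
  · simp [h]

theorem star_mulVec' {ι κ : Type} [Fintype κ] (m : Matrix ι κ ℂ) (a : κ → ℂ) :
    star (m *ᵥ a) = (m.map (starRingEnd ℂ)) *ᵥ star a := by
  ext i
  simp [Matrix.mulVec, dotProduct]

theorem star_eW (k : Fin n) (a : FI n → ℂ) : star (eW (ep k) *ᵥ a) = eW (ep k) *ᵥ star a := by
  rw [star_mulVec']
  unfold eW
  rw [K_map_conj, star_ep, star_zero]

theorem star_iW (k : Fin n) (a : FI n → ℂ) : star (iW (ep k) *ᵥ a) = iW (ep k) *ᵥ star a := by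
  rw [star_mulVec']
  unfold iW
  rw [K_map_conj, star_ep, star_zero]

/-- hermitian matrices -/
theorem Gam_herm {A : Matrix (Fin n) (Fin n) ℂ} (h : A.map (starRingEnd ℂ) = Aᵀ) :
    (Gam A).map (starRingEnd ℂ) = (Gam A)ᵀ := by
  rw [Gam_map, h, Gam_transpose]

theorem star_Gam_dot {A : Matrix (Fin n) (Fin n) ℂ} (h : A.map (starRingEnd ℂ) = Aᵀ)
    (a b : FI n → ℂ) : star (Gam A *ᵥ a) ⬝ᵥ b = star a ⬝ᵥ (Gam A *ᵥ b) := by
  rw [star_mulVec', Gam_herm h, Matrix.dotProduct_mulVec, Matrix.mulVec_transpose]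

/-! ### the quantities -/

/-- full `∂̄`-gradient -/
def T1 (G : Matrix (FI n) (FI n) ℂ) (Ki : Matrix (Fin n) (Fin n) ℂ) (a b : Fin n → FI n → ℂ) : ℂ :=
  ∑ k, ∑ l, Ki l k * (star (b l) ⬝ᵥ (G *ᵥ a k))

/-- the mixed term -/
def Qm (G : Matrix (FI n) (FI n) ℂ) (a b : Fin n → FI n → ℂ) : ℂ :=
  ∑ k, ∑ l, (iW (ep k) *ᵥ star (b l)) ⬝ᵥ (G *ᵥ (iW (ep l) *ᵥ a k))

/-- curvature term for the coefficients `th l k = θ_{l k̄}` -/
def Cv (G : Matrix (FI n) (FI n) ℂ) (th : Matrix (Fin n) (Fin n) ℂ) (a b : FI n → ℂ) : ℂ :=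
  ∑ k, ∑ l, th l k * ((iW (ep k) *ᵥ star b) ⬝ᵥ (G *ᵥ (iW (ep l) *ᵥ a)))

/-- **(P2)** the pointwise identity: `|a|² = |∑ e_k Γ a_k|² + mixed term` -/
theorem T1_eq {A Ai : Matrix (Fin n) (Fin n) ℂ} (hi : Ai * A = 1)
    (hA : A.map (starRingEnd ℂ) = Aᵀ) (a b : Fin n → FI n → ℂ) :
    T1 (Gam A) Ai a b
      = star (∑ l, eW (ep l) *ᵥ (Gam A *ᵥ b l)) ⬝ᵥ (Gam Ai *ᵥ ∑ k, eW (ep k) *ᵥ (Gam A *ᵥ a k))
        + Qm (Gam A) a b := by
  have h1 : star (∑ l, eW (ep l) *ᵥ (Gam A *ᵥ b l)) ⬝ᵥ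
      (Gam Ai *ᵥ ∑ k, eW (ep k) *ᵥ (Gam A *ᵥ a k))
      = ∑ k, ∑ l, star (b l) ⬝ᵥ ((Gam A * iW (ep l) * Gam Ai * eW (ep k) * Gam A) *ᵥ a k) := by
    rw [star_sum, sum_dotProduct, Matrix.mulVec_sum]
    simp only [dotProduct_sum]
    rw [Finset.sum_comm]
    refine Finset.sum_congr rfl fun k _ => Finset.sum_congr rfl fun l _ => ?_
    rw [star_eW, dot_eW, star_Gam_dot hA]
    simp only [Matrix.mulVec_mulVec, mul_assoc]
  have h2 : Qm (Gam A) a b = ∑ k, ∑ l, star (b l) ⬝ᵥ ((eW (ep k) * Gam A * iW (ep l)) *ᵥ a k) := by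
    unfold Qm
    refine Finset.sum_congr rfl fun k _ => Finset.sum_congr rfl fun l _ => ?_
    rw [dot_iW]
    simp only [Matrix.mulVec_mulVec, mul_assoc]
  rw [h1, h2]
  unfold T1
  simp only [← Finset.sum_add_distrib]
  refine Finset.sum_congr rfl fun k _ => Finset.sum_congr rfl fun l _ => ?_
  rw [← dotProduct_add, ← Matrix.add_mulVec, key_id hi, Matrix.smul_mulVec, dotProduct_smul,
    smul_eq_mul]

/-- first vector field -/
def Xf (K : Cn n → Matrix (Fin n) (Fin n) ℂ) (lam : Cn n → ℂ) (v w : Cn n → FI n → ℂ) (l : Fin n)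
    (y : Cn n) : ℂ :=
  Complex.exp (lam y) *
    ∑ k, (iW (ep k) *ᵥ star (w y)) ⬝ᵥ (Gam (K y) *ᵥ (iW (ep l) *ᵥ dV I k v y))

/-- second vector field -/
def Yf (K : Cn n → Matrix (Fin n) (Fin n) ℂ) (lam : Cn n → ℂ) (v w : Cn n → FI n → ℂ) (k : Fin n)
    (y : Cn n) : ℂ :=
  - (Complex.exp (lam y) * ((iW (ep k) *ᵥ star (w y)) ⬝ᵥ (Gam (K y) *ᵥ del lam v y)))

theorem Sm.del (hl : Sm z lam) (hv : SmV z v) : SmV z (del lam v) := by
  intro S
  have h1 : (fun y => Bkn_243.del lam v y S) = fun y =>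
      ∑ l, (iW (ep l) *ᵥ (dV (-I) l v y + dS (-I) l lam y • v y)) S := by
    funext y
    exact Finset.sum_apply S _ _
  rw [h1]
  refine ContDiffAt.sum fun l _ => SmV.const_mulVec _ (fun T => ?_) S
  exact ((hv T).dS _ _).add ((hl.dS _ _).mul (hv T))

theorem dV_del (hl : Sm z lam) (hv : SmV z v) (k : Fin n) :
    dV I k (del lam v) z
      = ∑ l, iW (ep l) *ᵥ (dV (-I) l (dV I k v) z + dS (-I) l lam z • dV I k v z
          + dS I k (dS (-I) l lam) z • v z) := by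
  have h1 : ∀ l : Fin n, SmV z (fun y => dV (-I) l v y + dS (-I) l lam y • v y) :=
    fun l T => ((hv T).dS _ _).add ((hl.dS _ _).mul (hv T))
  have h0 : ∀ l : Fin n, SmV z (fun y => dS (-I) l lam y • v y) :=
    fun l T => (hl.dS _ _).mul (hv T)
  unfold del
  rw [dV_sum _ fun l _ T => (SmV.const_mulVec _ (h1 l) T).diff]
  refine Finset.sum_congr rfl fun l _ => ?_
  rw [dV_const_mulVec _ fun T => (h1 l T).diff,
    dV_add (p := dV (-I) l v) (fun T => ((hv T).dS _ _).diff)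
    (fun T => (h0 l T).diff), dV_smul (hl.dS _ _).diff (fun T => (hv T).diff)]
  have h2 : dV I k (dV (-I) l v) z = dV (-I) l (dV I k v) z := by
    funext T
    exact dS_comm (hv T)
  rw [h2]
  congr 1
  abel

/-- derivative of the first vector field -/
theorem div_X (hK : SmM z K) (hk : KahAt K z) (hl : Sm z lam) (hv : SmV z v) (hw : SmV z w) :
    ∑ l, dS (-I) l (Xf K lam v w l) z
      = Complex.exp (lam z) * (Qm (Gam (K z)) (fun k => dV I k v z) (fun l => dV I l w z)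
        + ∑ k, (iW (ep k) *ᵥ star (w z)) ⬝ᵥ (Gam (K z) *ᵥ dV I k (del lam v) z)
        - ∑ k, ∑ l, dS I k (dS (-I) l lam) z *
            ((iW (ep k) *ᵥ star (w z)) ⬝ᵥ (Gam (K z) *ᵥ (iW (ep l) *ᵥ v z)))) := by
  have hG : SmM z (fun y => Gam (K y)) := SmM.Gam hK
  have hws : SmV z (fun y => star (w y)) := hw.star
  -- derivative of one term
  have e1 : ∀ l k, dS (-I) l (fun y => (iW (ep k) *ᵥ star (w y)) ⬝ᵥ
      (Gam (K y) *ᵥ (iW (ep l) *ᵥ dV I k v y))) z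
      = (iW (ep k) *ᵥ star (dV I l w z)) ⬝ᵥ (Gam (K z) *ᵥ (iW (ep l) *ᵥ dV I k v z))
        + (iW (ep k) *ᵥ star (w z)) ⬝ᵥ
          ((dM (-I) l (fun y => Gam (K y)) z * iW (ep l)) *ᵥ dV I k v z)
        + (iW (ep k) *ᵥ star (w z)) ⬝ᵥ (Gam (K z) *ᵥ (iW (ep l) *ᵥ dV (-I) l (dV I k v) z)) := by
    intro l k
    have h1 : SmV z (fun y => iW (ep l) *ᵥ dV I k v y) := SmV.const_mulVec _ (hv.dV _ _)
    have h2 : SmV z (fun y => Gam (K y) *ᵥ (iW (ep l) *ᵥ dV I k v y)) := SmM.mulVec hG h1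
    have h3 : SmV z (fun y => iW (ep k) *ᵥ star (w y)) := SmV.const_mulVec _ hws
    rw [dS_dot (fun i => (h3 i).diff) (fun i => (h2 i).diff),
      dV_const_mulVec _ (fun i => (hws i).diff), dV_conj (fun i => (hw i).diff),
      dV_mulVec (fun i j => (hG i j).diff) (fun i => (h1 i).diff),
      dV_const_mulVec (v := dV I k v) _ (fun i => ((hv i).dS _ _).diff), dotProduct_add,
      ← Matrix.mulVec_mulVec]
    have h4 : conj (-I) = I := by simp
    rw [h4]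
    rw [add_assoc]
  have e2 : ∀ l k, Sm z (fun y => (iW (ep k) *ᵥ star (w y)) ⬝ᵥ
      (Gam (K y) *ᵥ (iW (ep l) *ᵥ dV I k v y))) := fun l k =>
    SmV.dot (SmV.const_mulVec _ hws) (SmM.mulVec hG (SmV.const_mulVec _ (hv.dV _ _)))
  have e3 : ∀ l, dS (-I) l (Xf K lam v w l) z
      = Complex.exp (lam z) * (∑ k, (dS (-I) l (fun y => (iW (ep k) *ᵥ star (w y)) ⬝ᵥ
          (Gam (K y) *ᵥ (iW (ep l) *ᵥ dV I k v y))) z
        + dS (-I) l lam z * ((iW (ep k) *ᵥ star (w z)) ⬝ᵥ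
          (Gam (K z) *ᵥ (iW (ep l) *ᵥ dV I k v z))))) := by
    intro l
    unfold Xf
    rw [dS_mul hl.diff.cexp (DifferentiableAt.fun_sum fun k _ => (e2 l k).diff), dS_exp hl.diff,
      dS_sum _ fun k _ => (e2 l k).diff, Finset.sum_add_distrib, ← Finset.mul_sum]
    ring
  have e4 : ∀ k, ∑ l, (iW (ep k) *ᵥ star (w z)) ⬝ᵥ
      ((dM (-I) l (fun y => Gam (K y)) z * iW (ep l)) *ᵥ dV I k v z) = 0 := by
    intro k
    rw [← dotProduct_sum, ← Matrix.sum_mulVec, kah_i hK hk, Matrix.zero_mulVec, dotProduct_zero]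
  have e5 : ∀ k, (iW (ep k) *ᵥ star (w z)) ⬝ᵥ (Gam (K z) *ᵥ dV I k (del lam v) z)
      = ∑ l, ((iW (ep k) *ᵥ star (w z)) ⬝ᵥ (Gam (K z) *ᵥ (iW (ep l) *ᵥ dV (-I) l (dV I k v) z))
        + dS (-I) l lam z * ((iW (ep k) *ᵥ star (w z)) ⬝ᵥ
          (Gam (K z) *ᵥ (iW (ep l) *ᵥ dV I k v z)))
        + dS I k (dS (-I) l lam) z * ((iW (ep k) *ᵥ star (w z)) ⬝ᵥ
          (Gam (K z) *ᵥ (iW (ep l) *ᵥ v z)))) := by
    intro k
    rw [dV_del hl hv, Matrix.mulVec_sum, dotProduct_sum]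
    refine Finset.sum_congr rfl fun l _ => ?_
    simp only [Matrix.mulVec_add, Matrix.mulVec_smul, dotProduct_add, dotProduct_smul, smul_eq_mul]
  simp only [e3, ← Finset.mul_sum]
  congr 1
  rw [Finset.sum_comm]
  unfold Qm
  rw [← Finset.sum_add_distrib, ← Finset.sum_sub_distrib]
  refine Finset.sum_congr rfl fun k _ => ?_
  have e6 := e4 k
  simp only [e1, e5, Finset.sum_add_distrib] at e6 ⊢
  rw [e6]
  ring

/-- derivative of the second vector field -/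
theorem div_Y (hK : SmM z K) (hk : KahAt K z) (hl : Sm z lam)
    (hr : ∀ᶠ y in nhds z, conj (lam y) = lam y) (hv : SmV z v) (hw : SmV z w) :
    ∑ k, dS I k (Yf K lam v w k) z
      = - (Complex.exp (lam z) * (star (del lam w z) ⬝ᵥ (Gam (K z) *ᵥ del lam v z)
        + ∑ k, (iW (ep k) *ᵥ star (w z)) ⬝ᵥ (Gam (K z) *ᵥ dV I k (del lam v) z))) := by
  have hG : SmM z (fun y => Gam (K y)) := SmM.Gam hK
  have hws : SmV z (fun y => star (w y)) := hw.star
  have hd : SmV z (del lam v) := Sm.del hl hv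
  have e1 : ∀ k, dS I k (fun y => (iW (ep k) *ᵥ star (w y)) ⬝ᵥ (Gam (K y) *ᵥ del lam v y)) z
      = (iW (ep k) *ᵥ star (dV (-I) k w z)) ⬝ᵥ (Gam (K z) *ᵥ del lam v z)
        + star (w z) ⬝ᵥ ((eW (ep k) * dM I k (fun y => Gam (K y)) z) *ᵥ del lam v z)
        + (iW (ep k) *ᵥ star (w z)) ⬝ᵥ (Gam (K z) *ᵥ dV I k (del lam v) z) := by
    intro k
    have h2 : SmV z (fun y => Gam (K y) *ᵥ del lam v y) := SmM.mulVec hG hd
    have h3 : SmV z (fun y => iW (ep k) *ᵥ star (w y)) := SmV.const_mulVec _ hws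
    rw [dS_dot (fun i => (h3 i).diff) (fun i => (h2 i).diff),
      dV_const_mulVec _ (fun i => (hws i).diff), dV_conj (fun i => (hw i).diff),
      dV_mulVec (fun i j => (hG i j).diff) (fun i => (hd i).diff), dotProduct_add,
      dot_iW (ep k) (star (w z)) (dM I k (fun y => Gam (K y)) z *ᵥ del lam v z),
      Matrix.mulVec_mulVec, Complex.conj_I]
    ring
  have e2 : ∀ k, Sm z (fun y => (iW (ep k) *ᵥ star (w y)) ⬝ᵥ (Gam (K y) *ᵥ del lam v y)) :=
    fun k => SmV.dot (SmV.const_mulVec _ hws) (SmM.mulVec hG hd)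
  have e3 : ∀ k, dS I k (Yf K lam v w k) z
      = - (Complex.exp (lam z) * (dS I k (fun y => (iW (ep k) *ᵥ star (w y)) ⬝ᵥ
          (Gam (K y) *ᵥ del lam v y)) z
        + dS I k lam z * ((iW (ep k) *ᵥ star (w z)) ⬝ᵥ (Gam (K z) *ᵥ del lam v z)))) := by
    intro k
    unfold Yf
    rw [dS_neg, dS_mul hl.diff.cexp (e2 k).diff, dS_exp hl.diff]
    ring
  have e4 : ∑ k, star (w z) ⬝ᵥ ((eW (ep k) * dM I k (fun y => Gam (K y)) z) *ᵥ del lam v z) = 0 := by
    rw [← dotProduct_sum, ← Matrix.sum_mulVec, kah_e hK hk, Matrix.zero_mulVec, dotProduct_zero]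
  have e5 : ∀ k, dS I k lam z = conj (dS (-I) k lam z) := by
    intro k
    have h1 : dS I k lam z = dS I k (fun y => conj (lam y)) z :=
      dS_congr (hr.mono fun y hy => hy.symm)
    rw [h1, dS_conj hl.diff, Complex.conj_I]
  have e6 : star (del lam w z) ⬝ᵥ (Gam (K z) *ᵥ del lam v z)
      = ∑ k, ((iW (ep k) *ᵥ star (dV (-I) k w z)) ⬝ᵥ (Gam (K z) *ᵥ del lam v z)
        + dS I k lam z * ((iW (ep k) *ᵥ star (w z)) ⬝ᵥ (Gam (K z) *ᵥ del lam v z))) := by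
    have h1 : star (del lam w z) = ∑ k, (iW (ep k) *ᵥ star (dV (-I) k w z)
        + dS I k lam z • (iW (ep k) *ᵥ star (w z))) := by
      unfold del
      rw [star_sum]
      refine Finset.sum_congr rfl fun k _ => ?_
      rw [star_iW, star_add, Matrix.mulVec_add, e5 k]
      congr 1
      have : star (dS (-I) k lam z • w z) = conj (dS (-I) k lam z) • star (w z) := by
        ext S; simp
      rw [this, Matrix.mulVec_smul]
    rw [h1, sum_dotProduct]
    refine Finset.sum_congr rfl fun k _ => ?_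
    rw [add_dotProduct, smul_dotProduct, smul_eq_mul]
  rw [e6]
  simp only [e3, e1, Finset.sum_neg_distrib, ← Finset.mul_sum]
  congr 2
  simp only [Finset.sum_add_distrib] at e4 ⊢
  rw [e4]
  ring

/-- **the pointwise Bochner-Kodaira-Nakano identity** (sesquilinear form, all degrees) -/
theorem bkn_pt {Ki : Matrix (Fin n) (Fin n) ℂ} (hK : SmM z K) (hk : KahAt K z)
    (hi : Ki * K z = 1) (hH : (K z).map (starRingEnd ℂ) = (K z)ᵀ) (hl : Sm z lam)
    (hr : ∀ᶠ y in nhds z, conj (lam y) = lam y) (hv : SmV z v) (hw : SmV z w) :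
    Complex.exp (lam z) * (T1 (Gam (K z)) Ki (fun k => dV I k v z) (fun l => dV I l w z)
      + Cv (Gam (K z)) (Matrix.of fun l k => - dS I k (dS (-I) l lam) z) (v z) (w z))
    = Complex.exp (lam z) * (star (du K w z) ⬝ᵥ (Gam Ki *ᵥ du K v z)
        + star (del lam w z) ⬝ᵥ (Gam (K z) *ᵥ del lam v z))
      + ∑ l, dS (-I) l (Xf K lam v w l) z + ∑ k, dS I k (Yf K lam v w k) z := by
  rw [div_X hK hk hl hv hw, div_Y hK hk hl hr hv hw, T1_eq hi hH, du_eq hK hk hv, du_eq hK hk hw]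
  unfold Cv
  simp only [Matrix.of_apply, neg_mul, Finset.sum_neg_distrib]
  ring

end

end Crest.Agent.R273.Bkn_243
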