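import Crest.Agent.R273.Pos_243
import Crest.Agent.R273.Bkn_243

/-!
# R273 (S0416), LEMMA FI leaf (b) (helper101): matrix calculus for the local Bochner inequality

* `dM_conjTranspose`, `dM_congr`, `Sm`/`SmM` for conjugate transposes, traces, inverses;
* `dS_det`   : Jacobi's formula `∂ det M = tr (adj M ∂M)`;
* `dM_inv`   : `∂ M⁻¹ = - M⁻¹ ∂M M⁻¹`;
* `dM_Gam`   : `∂ Γ(m) = ∑_{pq} (∂m)_{pq} e_p Γ(m) i_q`, and the second derivative.
-/

set_option autoImplicit false
set_option linter.unusedSectionVars false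

open Finset Matrix Complex Filter Topology
open scoped ContDiff ComplexConjugate Kronecker ComplexOrder

namespace Crest.Agent.R273.BochA_101

open Crest.Agent.R275.Geo Crest.Agent.R273.Fock_243 Crest.Agent.R273.Calc_243
open Crest.Agent.R273.Bkn_243

noncomputable section

variable {n : ℕ} {ι κ σ ρ : Type} [Fintype ι] [Fintype κ] [Fintype σ] [Fintype ρ]
  [DecidableEq ι] [DecidableEq κ] [DecidableEq σ] [DecidableEq ρ]

/-! ### generalities -/

theorem dM_congr {ι κ : Type} {s : ℂ} {a : Fin n} {m m' : Cn n → Matrix ι κ ℂ} {z : Cn n}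
    (h : m =ᶠ[𝓝 z] m') : dM s a m z = dM s a m' z := by
  ext S T
  exact dS_congr (h.mono fun y hy => by simp only [hy])

theorem dM_apply {ι κ : Type} (s : ℂ) (a : Fin n) (m : Cn n → Matrix ι κ ℂ) (z : Cn n) (S : ι)
    (T : κ) : dM s a m z S T = dS s a (fun y => m y S T) z := rfl

theorem dM_conjTranspose {ι κ : Type} {s : ℂ} {a : Fin n} {m : Cn n → Matrix ι κ ℂ} {z : Cn n}
    (hm : SmM z m) : dM s a (fun y => (m y)ᴴ) z = (dM (conj s) a m z)ᴴ := by
  ext S T
  rw [Matrix.conjTranspose_apply]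
  exact dS_conj (hm T S).diff

theorem SmM.conjTranspose {ι κ : Type} {m : Cn n → Matrix ι κ ℂ} {z : Cn n}
    (hm : SmM z m) : SmM z (fun y => (m y)ᴴ) := fun S T => Sm.conj (hm T S)

theorem dM_add {ι κ : Type} {s : ℂ} {a : Fin n} {m m' : Cn n → Matrix ι κ ℂ} {z : Cn n}
    (hm : SmM z m) (hm' : SmM z m') :
    dM s a (fun y => m y + m' y) z = dM s a m z + dM s a m' z := by
  ext S T
  exact dS_add (hm S T).diff (hm' S T).diff

theorem dM_neg {ι κ : Type} {s : ℂ} {a : Fin n} {m : Cn n → Matrix ι κ ℂ} {z : Cn n} :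
    dM s a (fun y => - m y) z = - dM s a m z := by
  ext S T
  exact dS_neg

theorem SmM.eventually {ι κ : Type} [Finite ι] [Finite κ] {m : Cn n → Matrix ι κ ℂ} {z : Cn n}
    (hm : SmM z m) : ∀ᶠ y in 𝓝 z, ∀ S T, DifferentiableAt ℝ (fun w => m w S T) y := by
  rw [eventually_all]
  intro S
  rw [eventually_all]
  intro T
  have := ((hm S T).of_le (m := 1) (by exact_mod_cast le_top)).eventually (by simp)
  filter_upwards [this] with y hy
  exact hy.differentiableAt (by simp)

theorem Sm.trace {m : Cn n → Matrix κ κ ℂ} {z : Cn n} (hm : SmM z m) :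
    Sm z (fun y => (m y).trace) := by
  simp only [Matrix.trace, Matrix.diag]
  exact ContDiffAt.sum fun i _ => hm i i

theorem dS_trace {s : ℂ} {a : Fin n} {m : Cn n → Matrix κ κ ℂ} {z : Cn n} (hm : SmM z m) :
    dS s a (fun y => (m y).trace) z = (dM s a m z).trace := by
  simp only [Matrix.trace, Matrix.diag]
  exact dS_sum _ fun i _ => (hm i i).diff

/-! ### Jacobi's formula -/

theorem diff_prod {ι : Type*} [DecidableEq ι] (t : Finset ι) {f : ι → Cn n → ℂ}
    {z : Cn n} (hf : ∀ i ∈ t, DifferentiableAt ℝ (f i) z) :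
    DifferentiableAt ℝ (fun y => ∏ i ∈ t, f i y) z := by
  induction t using Finset.induction_on with
  | empty => simp
  | insert i t hi ih =>
    have h1 : (fun y => ∏ i ∈ insert i t, f i y) = fun y => f i y * ∏ i ∈ t, f i y := by
      funext y; rw [Finset.prod_insert hi]
    rw [h1]
    exact (hf i (Finset.mem_insert_self i t)).mul
      (ih fun j hj => hf j (Finset.mem_insert_of_mem hj))

theorem dS_prod {ι : Type*} [DecidableEq ι] {s : ℂ} {a : Fin n} (t : Finset ι) {f : ι → Cn n → ℂ}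
    {z : Cn n} (hf : ∀ i ∈ t, DifferentiableAt ℝ (f i) z) :
    dS s a (fun y => ∏ i ∈ t, f i y) z = ∑ i ∈ t, dS s a (f i) z * ∏ j ∈ t.erase i, f j z := by
  induction t using Finset.induction_on with
  | empty => simp
  | insert i t hi ih =>
    have h1 : (fun y => ∏ i ∈ insert i t, f i y) = fun y => f i y * ∏ i ∈ t, f i y := by
      funext y; rw [Finset.prod_insert hi]
    have hd : DifferentiableAt ℝ (fun y => ∏ i ∈ t, f i y) z :=
      diff_prod _ fun j hj => hf j (Finset.mem_insert_of_mem hj)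
    rw [h1, dS_mul (hf i (Finset.mem_insert_self i t)) hd,
      ih fun j hj => hf j (Finset.mem_insert_of_mem hj), Finset.sum_insert hi,
      Finset.erase_insert hi]
    congr 1
    rw [Finset.mul_sum]
    refine Finset.sum_congr rfl fun j hj => ?_
    have hne : j ≠ i := fun h => hi (h ▸ hj)
    rw [Finset.erase_insert_of_ne hne.symm, Finset.prod_insert (fun h => hi (Finset.mem_of_mem_erase h))]
    ring

theorem dS_det' {s : ℂ} {a : Fin n} {m : Cn n → Matrix κ κ ℂ} {z : Cn n}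
    (hm : ∀ S T, DifferentiableAt ℝ (fun y => m y S T) z) :
    dS s a (fun y => (m y).det) z = ((m z).adjugate * dM s a m z).trace := by
  have h1 : (fun y => (m y).det) = fun y => ∑ τ : Equiv.Perm κ, ((Equiv.Perm.sign τ : ℤ) : ℂ) *
      ∏ i, m y (τ i) i := by
    funext y; rw [Matrix.det_apply']
  have hd : ∀ τ ∈ (univ : Finset (Equiv.Perm κ)), DifferentiableAt ℝ
      (fun y => ((Equiv.Perm.sign τ : ℤ) : ℂ) * ∏ i, m y (τ i) i) z := fun τ _ =>
    (diff_prod _ fun i _ => hm _ _).const_mul _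
  rw [h1, dS_sum _ hd]
  have h2 : ∀ τ : Equiv.Perm κ, dS s a (fun y => ((Equiv.Perm.sign τ : ℤ) : ℂ) *
      ∏ i, m y (τ i) i) z = ∑ i, ((Equiv.Perm.sign τ : ℤ) : ℂ) *
        (dM s a m z (τ i) i * ∏ j ∈ univ.erase i, m z (τ j) j) := by
    intro τ
    rw [dS_const_mul _ (diff_prod _ fun i _ => hm _ _),
      dS_prod _ fun i _ => hm _ _, Finset.mul_sum]
    rfl
  simp_rw [h2]
  rw [Finset.sum_comm]
  have h3 : ∀ i, ∑ τ : Equiv.Perm κ, ((Equiv.Perm.sign τ : ℤ) : ℂ) *
      (dM s a m z (τ i) i * ∏ j ∈ univ.erase i, m z (τ j) j)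
      = ((m z).adjugate * dM s a m z) i i := by
    intro i
    have h4 : ((m z).adjugate * dM s a m z) i i
        = ((m z).adjugate *ᵥ fun k => dM s a m z k i) i := rfl
    rw [h4, ← Matrix.cramer_eq_adjugate_mulVec, Matrix.cramer_apply, Matrix.det_apply']
    refine Finset.sum_congr rfl fun τ _ => ?_
    congr 1
    rw [← Finset.mul_prod_erase _ _ (Finset.mem_univ i), Matrix.updateCol_self]
    congr 1
    refine Finset.prod_congr rfl fun j hj => ?_
    rw [Matrix.updateCol_ne (Finset.ne_of_mem_erase hj)]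
  simp_rw [h3]
  rfl

theorem dS_det {s : ℂ} {a : Fin n} {m : Cn n → Matrix κ κ ℂ} {z : Cn n}
    (hm : SmM z m) :
    dS s a (fun y => (m y).det) z = ((m z).adjugate * dM s a m z).trace :=
  dS_det' fun S T => (hm S T).diff

/-! ### inverses -/

theorem SmM.adjugate {m : Cn n → Matrix κ κ ℂ} {z : Cn n} (hm : SmM z m) :
    SmM z (fun y => (m y).adjugate) := by
  intro S T
  have h1 : (fun y => (m y).adjugate S T) = fun y => ((m y).updateRow T (Pi.single S 1)).det := by
    funext y; rw [Matrix.adjugate_apply]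
  rw [h1]
  refine SmM.det fun i j => ?_
  by_cases h : i = T
  · subst h
    simp only [Matrix.updateRow_self]
    exact contDiffAt_const
  · simp only [Matrix.updateRow_ne h]
    exact hm i j

theorem SmM.inv {m : Cn n → Matrix κ κ ℂ} {z : Cn n} (hm : SmM z m) (h0 : (m z).det ≠ 0) :
    SmM z (fun y => (m y)⁻¹) := by
  intro S T
  have h1 : (fun y => (m y)⁻¹ S T) = fun y => ((m y).det)⁻¹ * (m y).adjugate S T := by
    funext y
    rw [Matrix.inv_def, Ring.inverse_eq_inv', Matrix.smul_apply, smul_eq_mul]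
  rw [h1]
  exact ((SmM.det hm).inv h0).mul (SmM.adjugate hm S T)

theorem eventually_det_ne {m : Cn n → Matrix κ κ ℂ} {z : Cn n} (hm : SmM z m)
    (h0 : (m z).det ≠ 0) : ∀ᶠ y in 𝓝 z, (m y).det ≠ 0 :=
  (SmM.det hm).continuousAt.eventually_ne h0

theorem eventually_mul_inv {m : Cn n → Matrix κ κ ℂ} {z : Cn n} (hm : SmM z m)
    (h0 : (m z).det ≠ 0) : ∀ᶠ y in 𝓝 z, m y * (m y)⁻¹ = 1 := by
  filter_upwards [eventually_det_ne hm h0] with y hy
  exact Matrix.mul_nonsing_inv _ (isUnit_iff_ne_zero.2 hy)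

theorem dM_const {ι κ : Type} {s : ℂ} {a : Fin n} (c : Matrix ι κ ℂ) (z : Cn n) :
    dM s a (fun _ => c) z = 0 := by
  ext S T
  exact dS_const

theorem dM_inv {s : ℂ} {a : Fin n} {m : Cn n → Matrix κ κ ℂ} {z : Cn n} (hm : SmM z m)
    (h0 : (m z).det ≠ 0) :
    dM s a (fun y => (m y)⁻¹) z = - ((m z)⁻¹ * dM s a m z * (m z)⁻¹) := by
  have h1 := dM_congr (s := s) (a := a) (eventually_mul_inv hm h0)
  rw [dM_mul (fun S T => (hm S T).diff) (fun S T => (SmM.inv hm h0 S T).diff), dM_const] at h1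
  have hi : (m z)⁻¹ * m z = 1 := Matrix.nonsing_inv_mul _ (isUnit_iff_ne_zero.2 h0)
  have h2 := congrArg (fun X => (m z)⁻¹ * X) h1
  simp only [mul_zero, mul_add] at h2
  rw [← mul_assoc, ← mul_assoc, hi, one_mul] at h2
  exact eq_neg_of_add_eq_zero_right h2

end

end Crest.Agent.R273.BochA_101
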