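import Crest.Agent.R273.BochA_101

/-!
# R273 (S0416), LEMMA FI leaf (b) (helper101): curvature of `Γ(K)`

* `so B A = ∑_{pq} B_{pq} e_p Γ(A) i_q` : second quantisation with a twist;
* `dM_Gam`  : `∂ Γ(m) = so (∂m) m`;
* `rm K c d` : `- ∂_c ∂_{d̄} K + (∂_{d̄} K) K⁻¹ (∂_c K)` (lowered curvature in the frame);
* `rm_Gam`   : `rm (Γ∘K) c d = so (rm K c d) K`;
* `tr_rm`    : `∑_{cd} (K⁻¹)_{cd} (rm K c d)_{ba} = ric K a b` for Kähler `K`, with
  `ric K a b = - ∂_a ∂_{b̄} log det K`.
-/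

set_option autoImplicit false
set_option linter.unusedSectionVars false

open Finset Matrix Complex Filter Topology
open scoped ContDiff ComplexConjugate Kronecker ComplexOrder

namespace Crest.Agent.R273.BochB_101

open Crest.Agent.R275.Geo Crest.Agent.R273.Fock_243 Crest.Agent.R273.Calc_243
open Crest.Agent.R273.Bkn_243 Crest.Agent.R273.BochA_101

noncomputable section

variable {n : ℕ}

/-- `∑_{pq} B_{pq} e_p Γ(A) i_q` -/
def so (B A : Matrix (Fin n) (Fin n) ℂ) : Matrix (FI n) (FI n) ℂ :=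
  ∑ p, ∑ q, B p q • (eW (ep p) * Gam A * iW (ep q))

theorem so_add (B B' A : Matrix (Fin n) (Fin n) ℂ) : so (B + B') A = so B A + so B' A := by
  simp only [so, Matrix.add_apply, add_smul, Finset.sum_add_distrib]

theorem so_neg (B A : Matrix (Fin n) (Fin n) ℂ) : so (-B) A = - so B A := by
  simp only [so, Matrix.neg_apply, neg_smul, Finset.sum_neg_distrib]

theorem so_smul (c : ℂ) (B A : Matrix (Fin n) (Fin n) ℂ) : so (c • B) A = c • so B A := by
  simp only [so, Matrix.smul_apply, smul_eq_mul, mul_smul, Finset.smul_sum]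

theorem so_sum {τ : Type*} (t : Finset τ) (B : τ → Matrix (Fin n) (Fin n) ℂ)
    (A : Matrix (Fin n) (Fin n) ℂ) : so (∑ i ∈ t, B i) A = ∑ i ∈ t, so (B i) A := by
  classical
  induction t using Finset.induction_on with
  | empty => simp [so]
  | insert i t hi ih => rw [Finset.sum_insert hi, Finset.sum_insert hi, so_add, ih]

theorem eW_col (B : Matrix (Fin n) (Fin n) ℂ) (j : Fin n) :
    (eW (fun b => B b j) : Matrix (FI n) (FI n) ℂ) = ∑ p, B p j • eW (ep p) := eW_eq_sum _

theorem iW_eW_ep (q j : Fin n) : (iW (ep q) * eW (ep j) : Matrix (FI n) (FI n) ℂ)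
    = (if j = q then 1 else 0 : ℂ) • 1 - eW (ep j) * iW (ep q) := by
  have h := iW_eW (R := ℂ) (ep q) (ep j)
  rw [eq_sub_iff_add_eq, h]
  congr 1
  rw [Finset.sum_eq_single j]
  · simp [ep, Pi.single_apply]
  · intro k _ hk
    simp [ep, Pi.single_apply, hk]
  · simp

/-- right multiplication by a creation operator -/
theorem so_mul_eW (B A : Matrix (Fin n) (Fin n) ℂ) (j : Fin n) :
    so B A * eW (ep j) = eW (fun b => B b j) * Gam A + eW (fun b => A b j) * so B A := by
  have h3 : ∀ p q, (eW (ep p) * Gam A * iW (ep q)) * eW (ep j)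
      = (if j = q then 1 else 0 : ℂ) • (eW (ep p) * Gam A)
        + eW (fun b => A b j) * (eW (ep p) * Gam A * iW (ep q)) := by
    intro p q
    rw [mul_assoc, iW_eW_ep, mul_sub, mul_smul_comm, mul_one, sub_eq_add_neg]
    congr 1
    rw [← mul_assoc, mul_assoc (eW (ep p)), Gam_eW_ep, ← mul_assoc (eW (ep p)),
      eq_neg_of_add_eq_zero_left (eW_anti (ep p) (fun b => A b j))]
    simp only [Matrix.neg_mul, neg_neg, mul_assoc]
  unfold so
  rw [Finset.sum_mul]
  simp only [Finset.sum_mul, smul_mul_assoc, h3, smul_add, Finset.sum_add_distrib,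
    Finset.mul_sum, mul_smul_comm]
  congr 1
  rw [eW_col, Finset.sum_mul]
  refine Finset.sum_congr rfl fun p _ => ?_
  rw [Finset.sum_eq_single j]
  · simp
  · intro q _ hq
    simp [Ne.symm hq]
  · simp

theorem iW_vac (w : Fin n → ℂ) (T : FI n) : (iW w : Matrix (FI n) (FI n) ℂ) T ∅ = 0 := by
  show Crest.Agent.R275.Kos798.K 0 w T ∅ = 0
  unfold Crest.Agent.R275.Kos798.K
  refine Finset.sum_eq_zero fun j _ => ?_
  by_cases h : Crest.Agent.R275.Kos798.tog T j = ∅
  · rw [if_pos h]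
    have hj : j ∈ T := by
      by_contra hj
      unfold Crest.Agent.R275.Kos798.tog at h
      rw [if_neg hj] at h
      exact Finset.insert_ne_empty _ _ h
    unfold Crest.Agent.R275.Kos798.cf
    rw [if_pos hj]
    simp
  · rw [if_neg h]

theorem so_vac (B A : Matrix (Fin n) (Fin n) ℂ) (S : FI n) : so B A S ∅ = 0 := by
  unfold so
  rw [Matrix.sum_apply]
  refine Finset.sum_eq_zero fun p _ => ?_
  rw [Matrix.sum_apply]
  refine Finset.sum_eq_zero fun q _ => ?_
  rw [Matrix.smul_apply, Matrix.mul_apply, Finset.sum_eq_zero, smul_zero]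
  intro T _
  rw [iW_vac, mul_zero]

/-- **derivative of the functor `Γ`** -/
theorem dM_Gam {s : ℂ} {a : Fin n} {m : Cn n → Matrix (Fin n) (Fin n) ℂ} {z : Cn n}
    (hm : SmM z m) : dM s a (fun y => Gam (m y)) z = so (dM s a m z) (m z) := by
  rw [← sub_eq_zero]
  refine ext_of_eW (fun j => eW (fun b => m z b j)) (fun j => ?_) (fun j => by simp) fun S => ?_
  · rw [Matrix.sub_mul, dM_Gam_eW hm, so_mul_eW]
    rw [Matrix.mul_sub]
    abel
  · rw [Matrix.sub_apply, dM_Gam_vac, so_vac]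
    simp

/-- `so C A = dΓ(C A⁻¹) Γ(A)` -/
theorem so_eq {A Ai : Matrix (Fin n) (Fin n) ℂ} (h : Ai * A = 1) (C : Matrix (Fin n) (Fin n) ℂ) :
    so C A = so (C * Ai) 1 * Gam A := by
  have h1 : ∀ q, Gam A * iW (ep q) = ∑ r, Ai q r • (iW (ep r) * Gam A) := by
    intro q
    have h2 : iW (Aiᵀ *ᵥ ep q) * Gam A = Gam A * iW (ep q) := by
      rw [iW_Gam, Matrix.mulVec_mulVec, ← Matrix.transpose_mul, h, Matrix.transpose_one,
        Matrix.one_mulVec]
    rw [← h2, iW_eq_sum, Finset.sum_mul]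
    refine Finset.sum_congr rfl fun r _ => ?_
    rw [smul_mul_assoc]
    congr 1
    simp [Matrix.mulVec, dotProduct, ep, Pi.single_apply]
  unfold so
  rw [Gam_one, Finset.sum_mul]
  refine Finset.sum_congr rfl fun p _ => ?_
  have h3 : ∀ q, C p q • (eW (ep p) * Gam A * iW (ep q))
      = ∑ r, (C p q * Ai q r) • (eW (ep p) * iW (ep r) * Gam A) := by
    intro q
    rw [mul_assoc, h1, Finset.mul_sum, Finset.smul_sum]
    refine Finset.sum_congr rfl fun r _ => ?_
    rw [mul_smul_comm, smul_smul, mul_assoc]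
  simp_rw [h3]
  rw [Finset.sum_comm, Finset.sum_mul]
  refine Finset.sum_congr rfl fun r _ => ?_
  rw [Matrix.mul_apply, mul_one, ← Finset.sum_smul, smul_mul_assoc]

/-- commutation of `dΓ(X)` with a creation operator -/
theorem so_one_mul_eW (X : Matrix (Fin n) (Fin n) ℂ) (p : Fin n) :
    so X 1 * eW (ep p) = eW (fun b => X b p) + eW (ep p) * so X 1 := by
  rw [so_mul_eW, Gam_one, mul_one]
  congr 2
  have : (fun b => (1 : Matrix (Fin n) (Fin n) ℂ) b p) = ep p := by
    funext b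
    by_cases h : b = p
    · subst h; simp [ep]
    · simp [ep, h]
  rw [this]

theorem so_comp {A Ai : Matrix (Fin n) (Fin n) ℂ} (h : Ai * A = 1)
    (B C : Matrix (Fin n) (Fin n) ℂ) :
    ∑ p, ∑ q, C p q • (eW (ep p) * so B A * iW (ep q))
      = so B A * Gam Ai * so C A - so (B * Ai * C) A := by
  have hG : Gam A * Gam Ai = 1 := by rw [← Gam_mul, mul_eq_one_comm.1 h, Gam_one]
  have h1 : so B A * Gam Ai * so C A = so (B * Ai) 1 * so C A := by
    rw [so_eq h B, mul_assoc (so (B * Ai) 1), hG, mul_one]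
  have h2 : so (B * Ai) 1 * so C A
      = ∑ p, ∑ q, C p q • (so (B * Ai) 1 * eW (ep p) * Gam A * iW (ep q)) := by
    conv_lhs => rw [so.eq_def C A]
    simp only [Finset.mul_sum, mul_smul_comm, mul_assoc]
  have h3 : ∀ p q, C p q • (so (B * Ai) 1 * eW (ep p) * Gam A * iW (ep q))
      = C p q • (eW (fun b => (B * Ai) b p) * Gam A * iW (ep q))
        + C p q • (eW (ep p) * so B A * iW (ep q)) := by
    intro p q
    rw [so_one_mul_eW, Matrix.add_mul, Matrix.add_mul, smul_add]
    congr 3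
    rw [so_eq h B, mul_assoc]
  have h4 : ∑ p, ∑ q, C p q • (eW (fun b => (B * Ai) b p) * Gam A * iW (ep q))
      = so (B * Ai * C) A := by
    have h5 : ∀ p q, C p q • (eW (fun b => (B * Ai) b p) * Gam A * iW (ep q))
        = ∑ r, ((B * Ai) r p * C p q) • (eW (ep r) * Gam A * iW (ep q)) := by
      intro p q
      rw [eW_col (B * Ai), Finset.sum_mul, Finset.sum_mul, Finset.smul_sum]
      refine Finset.sum_congr rfl fun r _ => ?_
      rw [smul_mul_assoc, smul_mul_assoc, smul_smul, mul_comm]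
    simp_rw [h5]
    have h6 : so (B * Ai * C) A = ∑ r, ∑ q, ∑ p, ((B * Ai) r p * C p q) •
        (eW (ep r) * Gam A * iW (ep q)) := by
      unfold so
      refine Finset.sum_congr rfl fun r _ => Finset.sum_congr rfl fun q _ => ?_
      rw [Matrix.mul_apply (M := B * Ai), Finset.sum_smul]
    rw [h6, Finset.sum_comm]
    rw [Finset.sum_congr rfl fun q _ => Finset.sum_comm]
    rw [Finset.sum_comm]
  rw [h1, h2]
  simp_rw [h3, Finset.sum_add_distrib]
  rw [h4]
  abel

/-- lowered curvature of the Hermitian matrix field `K` in its frame -/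
def rm {κ : Type} [Fintype κ] [DecidableEq κ] (K : Cn n → Matrix κ κ ℂ) (z : Cn n)
    (c d : Fin n) : Matrix κ κ ℂ :=
  - dM (-I) c (dM I d K) z + dM I d K z * (K z)⁻¹ * dM (-I) c K z

theorem dM_comm {κ : Type} {s t : ℂ} {a b : Fin n} {m : Cn n → Matrix κ κ ℂ} {z : Cn n}
    (hm : SmM z m) : dM s a (dM t b m) z = dM t b (dM s a m) z := by
  ext S T
  exact dS_comm (hm S T)

theorem SmM.eventually_smM {κ : Type} [Finite κ] {m : Cn n → Matrix κ κ ℂ} {z : Cn n}
    (hm : SmM z m) : ∀ᶠ y in 𝓝 z, ∀ S T, ContDiffAt ℝ 1 (fun w => m w S T) y := by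
  rw [eventually_all]
  intro S
  rw [eventually_all]
  intro T
  exact ((hm S T).of_le (m := 1) (by exact_mod_cast le_top)).eventually (by simp)

theorem SmM.mulc {ι κ σ τ : Type} [Fintype κ] [Fintype σ] {m : Cn n → Matrix κ σ ℂ} {z : Cn n}
    (hm : SmM z m) (c : Matrix ι κ ℂ) (c' : Matrix σ τ ℂ) : SmM z (fun y => c * m y * c') := by
  intro S T
  simp only [Matrix.mul_apply]
  exact ContDiffAt.sum fun i _ => (ContDiffAt.sum fun j _ => contDiffAt_const.mul (hm _ _)).mul
    contDiffAt_const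

theorem dM_so {s : ℂ} {a : Fin n} {B K : Cn n → Matrix (Fin n) (Fin n) ℂ} {z : Cn n}
    (hB : SmM z B) (hK : SmM z K) :
    dM s a (fun y => so (B y) (K y)) z = so (dM s a B z) (K z)
      + ∑ p, ∑ q, B z p q • (eW (ep p) * so (dM s a K z) (K z) * iW (ep q)) := by
  have hG : ∀ p q : Fin n, SmM z (fun y => (eW (ep p) * Gam (K y) * iW (ep q) :
      Matrix (FI n) (FI n) ℂ)) := fun p q => SmM.mulc (SmM.Gam hK) _ _
  ext S T
  rw [dM_apply]
  have h1 : (fun y => so (B y) (K y) S T) = fun y => ∑ p, ∑ q, B y p q *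
      (eW (ep p) * Gam (K y) * iW (ep q) : Matrix (FI n) (FI n) ℂ) S T := by
    funext y
    simp only [so, Matrix.sum_apply, Matrix.smul_apply, smul_eq_mul]
  have hd : ∀ p q, DifferentiableAt ℝ (fun y => B y p q *
      (eW (ep p) * Gam (K y) * iW (ep q) : Matrix (FI n) (FI n) ℂ) S T) z := fun p q =>
    (hB p q).diff.mul (hG p q S T).diff
  rw [h1, dS_sum _ fun p _ => DifferentiableAt.fun_sum fun q _ => hd p q]
  have h2 : ∀ p, dS s a (fun y => ∑ q, B y p q *
      (eW (ep p) * Gam (K y) * iW (ep q) : Matrix (FI n) (FI n) ℂ) S T) z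
      = ∑ q, (dM s a B z p q * (eW (ep p) * Gam (K z) * iW (ep q) : Matrix (FI n) (FI n) ℂ) S T
        + B z p q * (eW (ep p) * so (dM s a K z) (K z) * iW (ep q) :
            Matrix (FI n) (FI n) ℂ) S T) := by
    intro p
    rw [dS_sum _ fun q _ => hd p q]
    refine Finset.sum_congr rfl fun q _ => ?_
    rw [dS_mul (hB p q).diff (hG p q S T).diff, ← dM_Gam hK]
    have h3 : dM s a (fun y => (eW (ep p) * Gam (K y) * iW (ep q) : Matrix (FI n) (FI n) ℂ)) z
        = eW (ep p) * dM s a (fun y => Gam (K y)) z * iW (ep q) := by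
      have h4 : SmM z (fun y => (eW (ep p) * Gam (K y) : Matrix (FI n) (FI n) ℂ)) := by
        have := SmM.mulc (SmM.Gam hK) (eW (ep p) : Matrix (FI n) (FI n) ℂ)
          (1 : Matrix (FI n) (FI n) ℂ)
        simpa using this
      rw [dM_mul_const _ (fun S T => (h4 S T).diff),
        dM_const_mul _ (fun S T => (SmM.Gam hK S T).diff)]
    rw [← h3]
    rfl
  simp_rw [h2]
  rw [Matrix.add_apply]
  simp only [so, Matrix.sum_apply, Matrix.smul_apply, smul_eq_mul, Finset.sum_add_distrib]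

theorem rm_Gam {K : Cn n → Matrix (Fin n) (Fin n) ℂ} {z : Cn n}
    (hK : ∀ᶠ y in 𝓝 z, SmM y K) (h0 : (K z).det ≠ 0) (c d : Fin n) :
    rm (fun y => Gam (K y)) z c d = so (rm K z c d) (K z) := by
  have hKz : SmM z K := hK.self_of_nhds
  have hi : (K z)⁻¹ * K z = 1 := Matrix.nonsing_inv_mul _ (isUnit_iff_ne_zero.2 h0)
  have hG : (Gam (K z))⁻¹ = Gam (K z)⁻¹ := by
    refine Matrix.inv_eq_right_inv ?_
    rw [← Gam_mul, mul_eq_one_comm.1 hi, Gam_one]
  unfold rm
  rw [dM_comm (SmM.Gam hKz), hG, dM_Gam hKz, dM_Gam hKz]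
  have h1 : dM (-I) c (fun y => Gam (K y)) =ᶠ[𝓝 z] fun y => so (dM (-I) c K y) (K y) := by
    filter_upwards [hK] with y hy
    exact dM_Gam hy
  rw [dM_congr h1]
  have h2 : dM I d (fun y => so (dM (-I) c K y) (K y)) z
      = so (dM I d (dM (-I) c K) z) (K z)
        + ∑ p, ∑ q, dM (-I) c K z p q • (eW (ep p) * so (dM I d K z) (K z) * iW (ep q)) :=
    dM_so (SmM.dM hKz _ _) hKz
  rw [h2, so_comp hi, so_add, so_neg, dM_comm hKz]
  abel

/-! ### the Ricci matrix -/

/-- `tr (K⁻¹ rm K a b)`, which is `- ∂_a ∂_{b̄} log det K` -/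
def ric {κ : Type} [Fintype κ] [DecidableEq κ] (K : Cn n → Matrix κ κ ℂ) (z : Cn n)
    (a b : Fin n) : ℂ := ((K z)⁻¹ * rm K z a b).trace

/-- Kähler symmetry of the curvature in the two holomorphic indices and in the two
antiholomorphic indices (`K b a = g_{a b̄}`) -/
theorem rm_symm {K : Cn n → Matrix (Fin n) (Fin n) ℂ} {z : Cn n}
    (hK : SmM z K) (hk : ∀ᶠ y in 𝓝 z, KahAt K y) (a b c d : Fin n) :
    rm K z c d b a = rm K z a b d c := by
  have hkz := hk.self_of_nhds
  -- second derivatives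
  have h1 : dM (-I) c (dM I d K) z b a = dM (-I) a (dM I b K) z d c := by
    have e1 : dM (-I) c (dM I d K) z b a = dM (-I) c (dM I b K) z d a := by
      refine dS_congr ?_
      filter_upwards [hk] with y hy
      exact hy.bar d b a
    have e2 : dM (-I) c (dM I b K) z d a = dM (-I) a (dM I b K) z d c := by
      rw [dM_comm (s := -I) (t := I) (a := c) (b := b) hK,
        dM_comm (s := -I) (t := I) (a := a) (b := b) hK]
      refine dS_congr ?_
      filter_upwards [hk] with y hy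
      exact hy.hol c a d
    rw [e1, e2]
  -- first derivatives
  have h2 : (dM I d K z * (K z)⁻¹ * dM (-I) c K z) b a
      = (dM I b K z * (K z)⁻¹ * dM (-I) a K z) d c := by
    simp only [Matrix.mul_apply]
    refine Finset.sum_congr rfl fun f _ => ?_
    rw [hkz.hol c a f]
    congr 1
    refine Finset.sum_congr rfl fun e _ => ?_
    rw [hkz.bar d b e]
  unfold rm
  rw [Matrix.add_apply, Matrix.neg_apply, h1, h2, Matrix.add_apply, Matrix.neg_apply]

/-- the contracted curvature is the Ricci matrix -/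
theorem tr_rm {K : Cn n → Matrix (Fin n) (Fin n) ℂ} {z : Cn n}
    (hK : SmM z K) (hk : ∀ᶠ y in 𝓝 z, KahAt K y) (a b : Fin n) :
    ∑ c, ∑ d, (K z)⁻¹ c d * rm K z c d b a = ric K z a b := by
  unfold ric Matrix.trace
  refine Finset.sum_congr rfl fun c _ => ?_
  rw [Matrix.diag_apply, Matrix.mul_apply]
  exact Finset.sum_congr rfl fun d _ => by rw [rm_symm hK hk]

end

end Crest.Agent.R273.BochB_101
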