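import Crest.Agent.R273.BochB_101

/-!
# R273 (S0416), LEMMA FI leaf (b) (helper101): Gram matrices of holomorphic sections

At a point: `G` positive, `V : κ × ρ` matrix, `M = Vᴴ G V` invertible.
* `gram_alg` : the algebraic identity
  `tr (M⁻¹ M_{cd̄}) - tr (M⁻¹ M_c M⁻¹ M_d̄) = tr (M⁻¹ W_dᴴ G W_c) - tr (M⁻¹ Vᴴ R_{cd̄} V)`;
* `gram_pos` : `∑_{cd} N_{cd} tr (M⁻¹ W_dᴴ G W_c) ≥ 0` for `N ≥ 0`;
* `dM_gram`, `dM2_gram`: the derivatives of `Vᴴ G V` for holomorphic `V`.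
-/

set_option autoImplicit false
set_option linter.unusedSectionVars false

open Finset Matrix Complex Filter Topology
open scoped ContDiff ComplexConjugate Kronecker ComplexOrder

namespace Crest.Agent.R273.BochC_101

open Crest.Agent.R275.Geo Crest.Agent.R273.Fock_243 Crest.Agent.R273.Calc_243
open Crest.Agent.R273.Bkn_243 Crest.Agent.R273.BochA_101 Crest.Agent.R273.BochB_101

noncomputable section

variable {n : ℕ} {κ ρ : Type} [Fintype κ] [Fintype ρ] [DecidableEq κ] [DecidableEq ρ]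

/-! ### algebra at a point -/

/-- the covariant derivative projected to the orthogonal complement of the span of `V` -/
def WW (G Gi : Matrix κ κ ℂ) (V : Matrix κ ρ ℂ) (Mi : Matrix ρ ρ ℂ) (Vc : Matrix κ ρ ℂ)
    (Gc : Matrix κ κ ℂ) : Matrix κ ρ ℂ :=
  (1 - V * Mi * Vᴴ * G) * (Vc + Gi * Gc * V)

theorem gram_alg {G Gi : Matrix κ κ ℂ} {V : Matrix κ ρ ℂ} {Mi : Matrix ρ ρ ℂ}
    {Vc Vd : Matrix κ ρ ℂ} {Gc Gd Gdb Gcd : Matrix κ κ ℂ}
    (hG : G.IsHermitian) (hGi : G * Gi = 1) (hM : (Vᴴ * G * V) * Mi = 1)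
    (hGd : Gdᴴ = Gdb) :
    (Mi * (Vdᴴ * (Gc * V + G * Vc) + Vᴴ * (Gcd * V + Gdb * Vc))).trace
      - (Mi * (Vᴴ * (Gc * V + G * Vc)) * Mi * ((Vdᴴ * G + Vᴴ * Gdb) * V)).trace
      = (Mi * ((WW G Gi V Mi Vd Gd)ᴴ * G * WW G Gi V Mi Vc Gc)).trace
        - (Mi * (Vᴴ * (-Gcd + Gdb * Gi * Gc) * V)).trace := by
  have hGi' : Gi * G = 1 := mul_eq_one_comm.1 hGi
  have hGiH : Giᴴ = Gi := by
    have h1 : Giᴴ * G = 1 := by
      have := congrArg Matrix.conjTranspose hGi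
      rwa [Matrix.conjTranspose_mul, hG.eq, Matrix.conjTranspose_one] at this
    calc Giᴴ = Giᴴ * (G * Gi) := by rw [hGi, mul_one]
      _ = Gi := by rw [← mul_assoc, h1, one_mul]
  have hMH : (Vᴴ * G * V)ᴴ = Vᴴ * G * V := by
    rw [Matrix.conjTranspose_mul, Matrix.conjTranspose_mul, Matrix.conjTranspose_conjTranspose,
      hG.eq, Matrix.mul_assoc]
  have hM' : Mi * (Vᴴ * G * V) = 1 := mul_eq_one_comm.1 hM
  have hMiH : Miᴴ = Mi := by
    have h1 : Miᴴ * (Vᴴ * G * V) = 1 := by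
      have := congrArg Matrix.conjTranspose hM
      rwa [Matrix.conjTranspose_mul, hMH, Matrix.conjTranspose_one] at this
    calc Miᴴ = Miᴴ * ((Vᴴ * G * V) * Mi) := by rw [hM, mul_one]
      _ = Mi := by rw [← mul_assoc, h1, one_mul]
  set Dc : Matrix κ ρ ℂ := Vc + Gi * Gc * V with hDc
  set Dd : Matrix κ ρ ℂ := Vd + Gi * Gd * V with hDd
  set P : Matrix κ κ ℂ := 1 - V * Mi * Vᴴ * G with hP
  -- `P` is self adjoint with respect to `G`
  have hPG : Pᴴ * G = G - G * V * Mi * Vᴴ * G := by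
    rw [hP, Matrix.conjTranspose_sub, Matrix.conjTranspose_one, Matrix.conjTranspose_mul,
      Matrix.conjTranspose_mul, Matrix.conjTranspose_mul, Matrix.conjTranspose_conjTranspose,
      hG.eq, hMiH, Matrix.sub_mul, one_mul]
    simp only [Matrix.mul_assoc]
  have hPGP : Pᴴ * G * P = G - G * V * Mi * Vᴴ * G := by
    rw [hPG, hP, Matrix.mul_sub, mul_one, Matrix.sub_mul]
    have h1 : G * V * Mi * Vᴴ * G * (V * Mi * Vᴴ * G) = G * V * Mi * Vᴴ * G := by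
      calc G * V * Mi * Vᴴ * G * (V * Mi * Vᴴ * G)
          = G * V * (Mi * (Vᴴ * G * V)) * Mi * Vᴴ * G := by simp only [Matrix.mul_assoc]
        _ = G * V * Mi * Vᴴ * G := by rw [hM', Matrix.mul_one]
    rw [h1]
    simp only [Matrix.mul_assoc]
    abel
  have hGD : Gc * V + G * Vc = G * Dc := by
    rw [hDc, Matrix.mul_add, ← Matrix.mul_assoc, ← Matrix.mul_assoc, hGi, Matrix.one_mul, add_comm]
  have hDG : (Vdᴴ * G + Vᴴ * Gdb) = Ddᴴ * G := by
    rw [hDd, Matrix.conjTranspose_add, Matrix.conjTranspose_mul, Matrix.conjTranspose_mul, hGiH,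
      hGd, Matrix.add_mul, Matrix.mul_assoc, Matrix.mul_assoc, hGi', Matrix.mul_one]
  have h2 : Vdᴴ * (Gc * V + G * Vc) + Vᴴ * (Gcd * V + Gdb * Vc)
      = Ddᴴ * G * Dc - Vᴴ * (-Gcd + Gdb * Gi * Gc) * V := by
    have h3 : Ddᴴ * G * Dc = Vdᴴ * (G * Dc) + Vᴴ * (Gdb * Dc) := by
      rw [← hDG, Matrix.add_mul, Matrix.mul_assoc, Matrix.mul_assoc]
    rw [h3, hGD, hDc]
    simp only [Matrix.mul_add, Matrix.add_mul, Matrix.mul_neg, Matrix.neg_mul, Matrix.mul_assoc]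
    abel
  have h4 : (Mi * (Vᴴ * (G * Dc)) * Mi * (Ddᴴ * G * V)).trace
      = (Mi * (Ddᴴ * (G * V * Mi * Vᴴ * G) * Dc)).trace := by
    rw [Matrix.mul_assoc (Mi * (Vᴴ * (G * Dc))), Matrix.trace_mul_comm]
    simp only [Matrix.mul_assoc]
  have h5 : (P * Dd)ᴴ * G * (P * Dc) = Ddᴴ * G * Dc - Ddᴴ * (G * V * Mi * Vᴴ * G) * Dc := by
    calc (P * Dd)ᴴ * G * (P * Dc) = Ddᴴ * (Pᴴ * G * P) * Dc := by
          rw [Matrix.conjTranspose_mul]; simp only [Matrix.mul_assoc]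
      _ = _ := by rw [hPGP, Matrix.mul_sub, Matrix.sub_mul, Matrix.mul_assoc Ddᴴ]
  unfold WW
  rw [h2, hGD, hDG, h4, h5, Matrix.mul_sub, Matrix.mul_sub, Matrix.trace_sub, Matrix.trace_sub]
  ring

theorem pos_gen {τ κ : Type} [Fintype τ] [Fintype κ] {Q : Matrix τ τ ℂ} {G : Matrix κ κ ℂ}
    (hQ : Q.PosSemidef) (hG : G.PosSemidef) (a : τ → κ → ℂ) :
    0 ≤ ∑ x, ∑ y, Q x y * (star (a y) ⬝ᵥ (G *ᵥ a x)) := by
  classical
  have h1 : ∑ x, ∑ y, Q x y * (star (a y) ⬝ᵥ (G *ᵥ a x))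
      = star (fun p : τ × κ => a p.1 p.2) ⬝ᵥ
        ((Qᵀ ⊗ₖ G) *ᵥ fun p : τ × κ => a p.1 p.2) := by
    simp only [dotProduct, Matrix.mulVec, Fintype.sum_prod_type, Matrix.kroneckerMap_apply,
      Pi.star_apply, Finset.mul_sum, Matrix.transpose_apply]
    rw [Finset.sum_comm]
    refine Finset.sum_congr rfl fun l _ => ?_
    rw [Finset.sum_comm]
    refine Finset.sum_congr rfl fun S _ => Finset.sum_congr rfl fun k _ =>
      Finset.sum_congr rfl fun T _ => ?_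
    ring
  rw [h1]
  exact (hQ.transpose.kronecker hG).dotProduct_mulVec_nonneg _

/-- positivity of the contracted Gram term -/
theorem gram_pos {G : Matrix κ κ ℂ} {Mi : Matrix ρ ρ ℂ} {N : Matrix (Fin n) (Fin n) ℂ}
    (hG : G.PosSemidef) (hM : Mi.PosSemidef) (hN : N.PosSemidef) (W : Fin n → Matrix κ ρ ℂ) :
    0 ≤ ∑ c, ∑ d, N c d * (Mi * ((W d)ᴴ * G * W c)).trace := by
  have h1 : ∑ c, ∑ d, N c d * (Mi * ((W d)ᴴ * G * W c)).trace
      = ∑ x : Fin n × ρ, ∑ y : Fin n × ρ, (N ⊗ₖ Mi) x y *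
        (star (fun S => W y.1 S y.2) ⬝ᵥ (G *ᵥ fun S => W x.1 S x.2)) := by
    simp only [Fintype.sum_prod_type, Matrix.kroneckerMap_apply]
    refine Finset.sum_congr rfl fun c _ => ?_
    rw [Finset.sum_comm]
    refine Finset.sum_congr rfl fun d _ => ?_
    simp only [Matrix.trace, Matrix.diag_apply, Matrix.mul_apply (M := Mi), Finset.mul_sum]
    refine Finset.sum_congr rfl fun j _ => Finset.sum_congr rfl fun k _ => ?_
    rw [mul_assoc]
    congr 2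
    simp only [Matrix.mul_apply, dotProduct, Matrix.mulVec, Pi.star_apply,
      Matrix.conjTranspose_apply, Finset.mul_sum, Finset.sum_mul]
    rw [Finset.sum_comm]
    refine Finset.sum_congr rfl fun T _ => Finset.sum_congr rfl fun S _ => ?_
    ring
  rw [h1]
  exact pos_gen (hN.kronecker hM) hG _

end

end Crest.Agent.R273.BochC_101
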