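import Crest.Agent.R273.BochC_101
import Crest.Agent.R273.FS_333

/-!
# R273 (S0416), LEMMA FI leaf (b) (helper101): Hessian of the logarithm of a Gram determinant

* `hess_log_det`  : `∂_c ∂_{d̄} log det M = tr (M⁻¹ M_{cd̄}) - tr (M⁻¹ M_c M⁻¹ M_{d̄})`;
* `hess_neg_log_det` : `hess (- log det K) = ric K`;
* `hess_gram`     : for `V` holomorphic,
  `∂_c∂_{d̄} log det (Vᴴ G V) = tr (M⁻¹ W_dᴴ G W_c) - tr (M⁻¹ Vᴴ (rm G c d) V)`;
* `bochner_gram`  : contraction with `K⁻¹`, `G = Γ(K)`, `K` Kähler: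
  `∑_{cd} (K⁻¹)_{cd} ∂_c∂_{d̄} log det (Vᴴ Γ(K) V) + tr (M⁻¹ Vᴴ (so (ric K)ᵀ K) V) ≥ 0`.
-/

set_option autoImplicit false
set_option linter.unusedSectionVars false

open Finset Matrix Complex Filter Topology
open scoped ContDiff ComplexConjugate Kronecker ComplexOrder

namespace Crest.Agent.R273.BochD_101

open Crest.Agent.R275.Geo Crest.Agent.R275.EDR890
open Crest.Agent.R273.Fock_243 Crest.Agent.R273.Calc_243
open Crest.Agent.R273.Bkn_243 Crest.Agent.R273.Pos_243 Crest.Agent.R273.BochA_101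
open Crest.Agent.R273.BochB_101
open Crest.Agent.R273.BochC_101 Crest.Agent.R273.Hess_333 Crest.Agent.R273.HessB_333

noncomputable section

variable {n : ℕ} {κ ρ : Type} [Fintype κ] [Fintype ρ] [DecidableEq κ] [DecidableEq ρ]

theorem wd_false (a : Fin n) (f : Cn n → ℂ) (z : Cn n) : wd (false, a) f z = dS (-I) a f z := rfl

theorem wd_tr (a : Fin n) (f : Cn n → ℂ) (z : Cn n) : wd (true, a) f z = dS I a f z := rfl

theorem hess_eq (u : Cn n → ℝ) (z : Cn n) (a b : Fin n) :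
    hess u z a b = dS (-I) a (dS I b (cu u)) z := rfl

theorem herm_det_im {M : Matrix ρ ρ ℂ} (h : M.IsHermitian) : ((M.det.re : ℝ) : ℂ) = M.det := by
  have h1 : conj M.det = M.det := by
    have := Matrix.det_conjTranspose M
    rw [h.eq] at this
    exact this.symm
  exact Complex.conj_eq_iff_re.1 h1

theorem dS_congr' {s : ℂ} {a : Fin n} {f g : Cn n → ℂ} {z : Cn n} (h : f =ᶠ[𝓝 z] g) :
    dS s a f =ᶠ[𝓝 z] dS s a g := by
  filter_upwards [h.eventually_nhds] with y hy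
  exact dS_congr hy

theorem adj_eq {m : Matrix ρ ρ ℂ} (h : m.det ≠ 0) : m.adjugate = m.det • m⁻¹ := by
  rw [Matrix.inv_def, Ring.inverse_eq_inv', smul_smul, mul_inv_cancel₀ h, one_smul]

/-- second derivative of `det` -/
theorem dS2_det {m : Cn n → Matrix ρ ρ ℂ} {z : Cn n} (hm : SmM z m) (h0 : (m z).det ≠ 0)
    {s t : ℂ} (c d : Fin n) :
    dS s c (dS t d (fun y => (m y).det)) z = (m z).det * (((m z)⁻¹ * dM s c m z).trace *
        ((m z)⁻¹ * dM t d m z).trace + ((m z)⁻¹ * dM s c (dM t d m) z).trace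
        - ((m z)⁻¹ * dM s c m z * (m z)⁻¹ * dM t d m z).trace) := by
  have h1 : dS t d (fun y => (m y).det) =ᶠ[𝓝 z] fun y =>
      (m y).det * ((m y)⁻¹ * dM t d m y).trace := by
    filter_upwards [SmM.eventually hm, eventually_det_ne hm h0] with y hy hy0
    rw [dS_det' hy, adj_eq hy0, Matrix.smul_mul, Matrix.trace_smul, smul_eq_mul]
  have hP : SmM z (fun y => (m y)⁻¹ * dM t d m y) := SmM.mul (SmM.inv hm h0) (SmM.dM hm _ _)
  rw [dS_congr h1, dS_mul (SmM.det hm).diff (Sm.trace hP).diff, dS_trace hP,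
    dM_mul (fun S T => (SmM.inv hm h0 S T).diff) (fun S T => (SmM.dM hm t d S T).diff),
    dM_inv hm h0, dS_det hm, adj_eq h0, Matrix.smul_mul, Matrix.trace_smul, smul_eq_mul,
    Matrix.trace_add, Matrix.neg_mul, Matrix.trace_neg]
  ring

theorem hess_log_det {m : Cn n → Matrix ρ ρ ℂ} {z : Cn n} (hm : SmM z m)
    (hh : ∀ᶠ y in 𝓝 z, (m y).IsHermitian) (h0 : 0 < (m z).det.re) (c d : Fin n) :
    hess (fun y => Real.log (m y).det.re) z c d = ((m z)⁻¹ * dM (-I) c (dM I d m) z).trace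
      - ((m z)⁻¹ * dM (-I) c m z * (m z)⁻¹ * dM I d m z).trace := by
  have hne : (m z).det ≠ 0 := by
    intro h
    rw [h] at h0
    simp at h0
  have hu : ContDiffAt ℝ ∞ (fun y => (m y).det.re) z :=
    Complex.reCLM.contDiff.contDiffAt.comp z (SmM.det hm)
  have hc : cu (fun y => (m y).det.re) =ᶠ[𝓝 z] fun y => (m y).det := by
    filter_upwards [hh] with y hy
    exact herm_det_im hy
  have hz : (((m z).det.re : ℝ) : ℂ) = (m z).det := herm_det_im hh.self_of_nhds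
  rw [Crest.Agent.R273.FS_333.hess_log hu h0, hess_eq, wd_false, wd_tr,
    dS_congr (dS_congr' hc), dS_congr hc, dS_congr hc, dS2_det hm hne, dS_det hm, dS_det hm,
    adj_eq hne, hz, Matrix.smul_mul, Matrix.smul_mul, Matrix.trace_smul, Matrix.trace_smul,
    smul_eq_mul, smul_eq_mul]
  field_simp
  ring

/-- the Ricci matrix is the Hessian of `- log det K` -/
theorem hess_neg_log_det {K : Cn n → Matrix κ κ ℂ} {z : Cn n} (hK : SmM z K)
    (hh : ∀ᶠ y in 𝓝 z, (K y).IsHermitian) (h0 : 0 < (K z).det.re) (a b : Fin n) :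
    hess (fun y => - Real.log (K y).det.re) z a b = ric K z a b := by
  have hu : ContDiffAt ℝ ∞ (fun y => Real.log (K y).det.re) z :=
    (Complex.reCLM.contDiff.contDiffAt.comp z (SmM.det hK)).log h0.ne'
  rw [hess_neg hu, Matrix.neg_apply, hess_log_det hK hh h0]
  unfold ric rm
  rw [Matrix.mul_add, Matrix.mul_neg, Matrix.trace_add, Matrix.trace_neg]
  have h1 : ((K z)⁻¹ * (dM I b K z * (K z)⁻¹ * dM (-I) a K z)).trace
      = ((K z)⁻¹ * dM (-I) a K z * (K z)⁻¹ * dM I b K z).trace := by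
    rw [Matrix.mul_assoc (dM I b K z), ← Matrix.mul_assoc (K z)⁻¹ (dM I b K z),
      Matrix.trace_mul_comm]
    simp only [Matrix.mul_assoc]
  rw [h1]
  ring

/-! ### holomorphic matrices -/

/-- entries holomorphic near `z` -/
def HolM (z : Cn n) (V : Cn n → Matrix κ ρ ℂ) : Prop :=
  ∀ S T, ∀ᶠ y in 𝓝 z, DifferentiableAt ℂ (fun w => V w S T) y

theorem sm_of_hol {f : Cn n → ℂ} {z : Cn n} (hf : ∀ᶠ w in 𝓝 z, DifferentiableAt ℂ f w) :
    Sm z f := by
  obtain ⟨U, hU, hUo, hUz⟩ := eventually_nhds_iff.1 hf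
  have hdo : DifferentiableOn ℂ f U := fun w hw => (hU w hw).differentiableWithinAt
  exact (((Crest.Agent.R266.SCV.contDiffOn_omega_of_differentiableOn hUo hdo).restrict_scalars
      ℝ).of_le le_top).contDiffAt (hUo.mem_nhds hUz)

theorem HolM.sm {V : Cn n → Matrix κ ρ ℂ} {z : Cn n} (h : HolM z V) : SmM z V :=
  fun S T => sm_of_hol (h S T)

theorem HolM.dbar {V : Cn n → Matrix κ ρ ℂ} {z : Cn n} (h : HolM z V) (a : Fin n) :
    dM I a V =ᶠ[𝓝 z] fun _ => 0 := by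
  have h1 : ∀ᶠ y in 𝓝 z, ∀ S T, DifferentiableAt ℂ (fun w => V w S T) y := by
    rw [eventually_all]
    intro S
    rw [eventually_all]
    exact h S
  filter_upwards [h1] with y hy
  ext S T
  exact wd_hol (hy S T) a

theorem dM_congr' {s : ℂ} {a : Fin n} {m m' : Cn n → Matrix κ ρ ℂ} {z : Cn n}
    (h : m =ᶠ[𝓝 z] m') : dM s a m =ᶠ[𝓝 z] dM s a m' := by
  filter_upwards [h.eventually_nhds] with y hy
  exact dM_congr hy

theorem HolM.dbar2 {V : Cn n → Matrix κ ρ ℂ} {z : Cn n} (h : HolM z V) (a c : Fin n) :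
    dM I c (dM (-I) a V) z = 0 := by
  have h1 : dM I c (dM (-I) a V) z = dM (-I) a (dM I c V) z := by
    ext S T
    exact dS_comm (h.sm S T)
  rw [h1, dM_congr (h.dbar c), dM_const]

/-- eventually smooth -/
def SmE (z : Cn n) (V : Cn n → Matrix κ ρ ℂ) : Prop := ∀ᶠ y in 𝓝 z, SmM y V

theorem HolM.smE {V : Cn n → Matrix κ ρ ℂ} {z : Cn n} (h : HolM z V) :
    ∀ᶠ y in 𝓝 z, HolM y V := by
  have h1 : ∀ᶠ y in 𝓝 z, ∀ S T, ∀ᶠ w in 𝓝 y, DifferentiableAt ℂ (fun w => V w S T) w := by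
    rw [eventually_all]
    intro S
    rw [eventually_all]
    intro T
    exact (h S T).eventually_nhds
  exact h1

theorem conjI : conj I = -I := Complex.conj_I
theorem conjnI : conj (-I) = I := by rw [map_neg, Complex.conj_I, neg_neg]

/-- first antiholomorphic derivative of `Vᴴ G V` -/
theorem dbar_gram {G : Cn n → Matrix κ κ ℂ} {V : Cn n → Matrix κ ρ ℂ} {z : Cn n}
    (hG : SmM z G) (hV : HolM z V) (d : Fin n) :
    dM I d (fun y => (V y)ᴴ * G y * V y) z
      = ((dM (-I) d V z)ᴴ * G z + (V z)ᴴ * dM I d G z) * V z := by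
  have hVs := hV.sm
  have hVH : SmM z (fun y => (V y)ᴴ) := SmM.conjTranspose hVs
  rw [dM_mul (fun S T => (SmM.mul hVH hG S T).diff) (fun S T => (hVs S T).diff),
    dM_mul (fun S T => (hVH S T).diff) (fun S T => (hG S T).diff), dM_conjTranspose hVs, conjI,
    (hV.dbar d).self_of_nhds, Matrix.mul_zero, add_zero]

theorem del_gram {G : Cn n → Matrix κ κ ℂ} {V : Cn n → Matrix κ ρ ℂ} {z : Cn n}
    (hG : SmM z G) (hV : HolM z V) (c : Fin n) :
    dM (-I) c (fun y => (V y)ᴴ * G y * V y) z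
      = (V z)ᴴ * (dM (-I) c G z * V z + G z * dM (-I) c V z) := by
  have hVs := hV.sm
  have hVH : SmM z (fun y => (V y)ᴴ) := SmM.conjTranspose hVs
  rw [dM_mul (fun S T => (SmM.mul hVH hG S T).diff) (fun S T => (hVs S T).diff),
    dM_mul (fun S T => (hVH S T).diff) (fun S T => (hG S T).diff), dM_conjTranspose hVs, conjnI,
    (hV.dbar c).self_of_nhds, Matrix.conjTranspose_zero, Matrix.zero_mul, zero_add,
    Matrix.mul_add]
  simp only [Matrix.mul_assoc]

theorem ddbar_gram {G : Cn n → Matrix κ κ ℂ} {V : Cn n → Matrix κ ρ ℂ} {z : Cn n}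
    (hG : ∀ᶠ y in 𝓝 z, SmM y G) (hV : HolM z V) (c d : Fin n) :
    dM (-I) c (dM I d (fun y => (V y)ᴴ * G y * V y)) z
      = (dM (-I) d V z)ᴴ * (dM (-I) c G z * V z + G z * dM (-I) c V z)
        + (V z)ᴴ * (dM (-I) c (dM I d G) z * V z + dM I d G z * dM (-I) c V z) := by
  have hVs := hV.sm
  have hGz : SmM z G := hG.self_of_nhds
  have h1 : dM I d (fun y => (V y)ᴴ * G y * V y) =ᶠ[𝓝 z] fun y =>
      ((dM (-I) d V y)ᴴ * G y + (V y)ᴴ * dM I d G y) * V y := by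
    filter_upwards [hG, hV.smE] with y hy hy'
    exact dbar_gram hy hy' d
  have hVH : SmM z (fun y => (V y)ᴴ) := SmM.conjTranspose hVs
  have hdV : SmM z (dM (-I) d V) := SmM.dM hVs _ _
  have hdVH : SmM z (fun y => (dM (-I) d V y)ᴴ) := SmM.conjTranspose hdV
  have hdG : SmM z (dM I d G) := SmM.dM hGz _ _
  have hA : SmM z (fun y => (dM (-I) d V y)ᴴ * G y) := SmM.mul hdVH hGz
  have hB : SmM z (fun y => (V y)ᴴ * dM I d G y) := SmM.mul hVH hdG
  have hAB : SmM z (fun y => (dM (-I) d V y)ᴴ * G y + (V y)ᴴ * dM I d G y) :=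
    fun S T => (hA S T).add (hB S T)
  rw [dM_congr h1, dM_mul (fun S T => (hAB S T).diff) (fun S T => (hVs S T).diff),
    dM_add hA hB, dM_mul (fun S T => (hdVH S T).diff) (fun S T => (hGz S T).diff),
    dM_mul (fun S T => (hVH S T).diff) (fun S T => (hdG S T).diff), dM_conjTranspose hdV,
    dM_conjTranspose hVs, conjnI, hV.dbar2, (hV.dbar c).self_of_nhds, Matrix.conjTranspose_zero,
    Matrix.zero_mul, Matrix.zero_mul, zero_add, zero_add]
  simp only [Matrix.mul_add, Matrix.add_mul, Matrix.mul_assoc]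
  abel

/-- **the Hessian of `log det (Vᴴ G V)`** -/
theorem hess_gram {G : Cn n → Matrix κ κ ℂ} {V : Cn n → Matrix κ ρ ℂ} {z : Cn n}
    (hG : ∀ᶠ y in 𝓝 z, SmM y G) (hh : ∀ᶠ y in 𝓝 z, (G y).IsHermitian)
    (hG0 : (G z).det ≠ 0) (hV : HolM z V)
    (h0 : 0 < ((V z)ᴴ * G z * V z).det.re) (c d : Fin n) :
    hess (fun y => Real.log ((V y)ᴴ * G y * V y).det.re) z c d
      = (((V z)ᴴ * G z * V z)⁻¹ *
          ((WW (G z) (G z)⁻¹ (V z) ((V z)ᴴ * G z * V z)⁻¹ (dM (-I) d V z) (dM (-I) d G z))ᴴ * G z *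
          WW (G z) (G z)⁻¹ (V z) ((V z)ᴴ * G z * V z)⁻¹ (dM (-I) c V z) (dM (-I) c G z))).trace
        - (((V z)ᴴ * G z * V z)⁻¹ * ((V z)ᴴ * rm G z c d * V z)).trace := by
  have hGz : SmM z G := hG.self_of_nhds
  have hhz := hh.self_of_nhds
  have hM : SmM z (fun y => (V y)ᴴ * G y * V y) :=
    SmM.mul (SmM.mul (SmM.conjTranspose hV.sm) hGz) hV.sm
  have hMh : ∀ᶠ y in 𝓝 z, ((V y)ᴴ * G y * V y).IsHermitian := by
    filter_upwards [hh] with y hy
    unfold Matrix.IsHermitian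
    rw [Matrix.conjTranspose_mul, Matrix.conjTranspose_mul, Matrix.conjTranspose_conjTranspose,
      hy.eq, Matrix.mul_assoc]
  have hne : ((V z)ᴴ * G z * V z).det ≠ 0 := by
    intro h
    rw [h] at h0
    simp at h0
  have hMi : ((V z)ᴴ * G z * V z) * ((V z)ᴴ * G z * V z)⁻¹ = 1 :=
    Matrix.mul_nonsing_inv _ (isUnit_iff_ne_zero.2 hne)
  have hGi : G z * (G z)⁻¹ = 1 := Matrix.mul_nonsing_inv _ (isUnit_iff_ne_zero.2 hG0)
  have hGd : (dM (-I) d G z)ᴴ = dM I d G z := by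
    have h1 := dM_conjTranspose (s := I) (a := d) hGz
    rw [conjI] at h1
    rw [← h1]
    refine dM_congr ?_
    filter_upwards [hh] with y hy
    exact hy.eq
  rw [hess_log_det hM hMh h0, ddbar_gram hG hV, del_gram hGz hV, dbar_gram hGz hV,
    gram_alg hhz hGi hMi hGd]
  rfl

/-- **the local Bochner inequality** for a family of holomorphic sections of `Λ T` (columns of `V`)
and a Kähler metric `K b a = g_{a b̄}` -/
theorem bochner_gram {K : Cn n → Matrix (Fin n) (Fin n) ℂ} {V : Cn n → Matrix (FI n) ρ ℂ}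
    {z : Cn n} (hK : ∀ᶠ y in 𝓝 z, SmM y K) (hp : ∀ᶠ y in 𝓝 z, (K y).PosDef)
    (hk : ∀ᶠ y in 𝓝 z, KahAt K y) (hV : HolM z V)
    (h0 : 0 < ((V z)ᴴ * Gam (K z) * V z).det.re) :
    0 ≤ ∑ c, ∑ d, (K z)⁻¹ c d *
        hess (fun y => Real.log ((V y)ᴴ * Gam (K y) * V y).det.re) z c d
      + (((V z)ᴴ * Gam (K z) * V z)⁻¹ *
          ((V z)ᴴ * so (Matrix.of (ric K z))ᵀ (K z) * V z)).trace := by
  have hKz : SmM z K := hK.self_of_nhds
  have hpz := hp.self_of_nhds
  have hG : ∀ᶠ y in 𝓝 z, SmM y (fun y => Gam (K y)) := by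
    filter_upwards [hK] with y hy
    exact SmM.Gam hy
  have hGh : ∀ᶠ y in 𝓝 z, (Gam (K y)).IsHermitian := by
    filter_upwards [hp] with y hy
    exact (Gam_posDef hy).isHermitian
  have hGp : (Gam (K z)).PosDef := Gam_posDef hpz
  have hK0 : (K z).det ≠ 0 := hpz.isUnit.map Matrix.detMonoidHom |>.ne_zero
  have hG0 : (Gam (K z)).det ≠ 0 := hGp.isUnit.map Matrix.detMonoidHom |>.ne_zero
  set M : Matrix ρ ρ ℂ := (V z)ᴴ * Gam (K z) * V z with hMdef
  have hMne : M.det ≠ 0 := by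
    intro h
    rw [h] at h0
    simp at h0
  have hMp : M.PosDef := by
    refine (hGp.posSemidef.conjTranspose_mul_mul_same (V z)).posDef_iff_isUnit.2 ?_
    rw [Matrix.isUnit_iff_isUnit_det]
    exact isUnit_iff_ne_zero.2 hMne
  have h1 := gram_pos hGp.posSemidef hMp.inv.posSemidef hpz.inv.posSemidef
    (fun c => WW (Gam (K z)) (Gam (K z))⁻¹ (V z) M⁻¹ (dM (-I) c V z)
      (dM (-I) c (fun y => Gam (K y)) z))
  have h2 : ∑ c, ∑ d, (K z)⁻¹ c d * (M⁻¹ * ((V z)ᴴ * rm (fun y => Gam (K y)) z c d * V z)).trace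
      = (M⁻¹ * ((V z)ᴴ * so (Matrix.of (ric K z))ᵀ (K z) * V z)).trace := by
    have h3 : (Matrix.of (ric K z))ᵀ = ∑ c, ∑ d, (K z)⁻¹ c d • rm K z c d := by
      ext b a
      rw [Matrix.transpose_apply, Matrix.of_apply, ← tr_rm hKz hk, Matrix.sum_apply]
      refine Finset.sum_congr rfl fun c _ => ?_
      rw [Matrix.sum_apply]
      rfl
    rw [h3, so_sum, Matrix.mul_sum, Matrix.sum_mul, Matrix.mul_sum, Matrix.trace_sum]
    refine Finset.sum_congr rfl fun c _ => ?_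
    rw [so_sum, Matrix.mul_sum, Matrix.sum_mul, Matrix.mul_sum, Matrix.trace_sum]
    refine Finset.sum_congr rfl fun d _ => ?_
    rw [so_smul, Matrix.mul_smul, Matrix.smul_mul, Matrix.mul_smul, Matrix.trace_smul,
      smul_eq_mul, rm_Gam hK hK0]
  rw [← h2, ← Finset.sum_add_distrib]
  refine h1.trans (le_of_eq ?_)
  refine Finset.sum_congr rfl fun c _ => ?_
  rw [← Finset.sum_add_distrib]
  refine Finset.sum_congr rfl fun d _ => ?_
  rw [hess_gram hG hGh hG0 hV h0 c d]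
  ring

end

end Crest.Agent.R273.BochD_101
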