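import Crest.Agent.R273.Cram_747
import Crest.Agent.R273.Pos_243

/-!
# R273 (S0416), LEMMA FI leaf (b) (helper101): norms of tensors, Cauchy–Binet

* `nrm G τ = star τ ⬝ᵥ (KP ρ G *ᵥ τ)` : Hermitian norm (squared) of `τ ∈ (Λ^* T)^{⊗ ρ}`;
* `nrm_mn`  : `nrm G (mn v) = (card ρ)! * det (Vᴴ G V)`;
* `nrm_tns` : multiplicativity; `nrm_prp` : proportional tensors; `nrm_tr` : change of basis;
* `nrm_nonneg`, `nrm_pos`.
-/

set_option autoImplicit false
set_option linter.unusedSectionVars false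

open Finset Matrix Complex Filter Topology
open scoped ContDiff ComplexConjugate Kronecker ComplexOrder MatrixOrder Matrix.Norms.L2Operator

namespace Crest.Agent.R273.BochE_101

open Crest.Agent.R273.Fock_243 Crest.Agent.R273.Cram_747 Crest.Agent.R273.Pos_243

noncomputable section

section alg

variable {κ ρ : Type} [Fintype κ] [Fintype ρ] [DecidableEq ρ]

theorem det_mul_fun (P : Matrix ρ κ ℂ) (Q : Matrix κ ρ ℂ) :
    (P * Q).det = ∑ F : ρ → κ, (∏ a, P a (F a)) * (Matrix.of fun a b : ρ => Q (F a) b).det := by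
  classical
  have h3 : (P * Q) = fun a => ∑ T, P a T • (fun b => Q T b) := by
    funext a b
    simp [Matrix.mul_apply, Finset.sum_apply]
  have h4 := (Matrix.detRowAlternating (R := ℂ) (n := ρ)).toMultilinearMap.map_sum
    (fun (a : ρ) (T : κ) => P a T • (fun b => Q T b))
  have h5 : (P * Q).det =
      ∑ r : ρ → κ, Matrix.det (Matrix.of fun i : ρ => P i (r i) • (fun b => Q (r i) b)) := by
    rw [h3]
    exact h4
  rw [h5]
  refine Finset.sum_congr rfl fun r _ => ?_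
  exact Matrix.det_mul_column (fun i => P i (r i)) (Matrix.of fun i b => Q (r i) b)

/-- Cauchy–Binet over functions -/
theorem cauchy_binet (P : Matrix ρ κ ℂ) (Q : Matrix κ ρ ℂ) :
    ∑ F : ρ → κ, (Matrix.of fun a b : ρ => P b (F a)).det * (Matrix.of fun a b : ρ => Q (F a) b).det
      = ((Fintype.card ρ).factorial : ℂ) * (P * Q).det := by
  classical
  have h1 : ∀ F : ρ → κ, (Matrix.of fun a b : ρ => P b (F a)).det *
      (Matrix.of fun a b : ρ => Q (F a) b).det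
      = ∑ σ : Equiv.Perm ρ, (((Equiv.Perm.sign σ : ℤ) : ℂ) * ∏ i, P i (F (σ i))) *
        (Matrix.of fun a b : ρ => Q (F a) b).det := by
    intro F
    rw [Matrix.det_apply', Finset.sum_mul]
    rfl
  simp_rw [h1]
  rw [Finset.sum_comm]
  have h2 : ∀ σ : Equiv.Perm ρ, ∑ F : ρ → κ, (((Equiv.Perm.sign σ : ℤ) : ℂ) *
      ∏ i, P i (F (σ i))) * (Matrix.of fun a b : ρ => Q (F a) b).det = (P * Q).det := by
    intro σ
    rw [det_mul_fun]
    refine Fintype.sum_equiv (Equiv.arrowCongr σ.symm (Equiv.refl κ)) _ _ fun F => ?_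
    have h3 : ∀ i, (Equiv.arrowCongr σ.symm (Equiv.refl κ)) F i = F (σ i) := fun i => by simp
    simp only [h3]
    have h4 : (Matrix.of fun a b : ρ => Q (F (σ a)) b).det = ((Equiv.Perm.sign σ : ℤ) : ℂ) *
        (Matrix.of fun a b : ρ => Q (F a) b).det :=
      Matrix.det_permute σ (Matrix.of fun a b : ρ => Q (F a) b)
    rw [h4]
    ring
  simp_rw [h2]
  rw [Finset.sum_const, Finset.card_univ, Fintype.card_perm, nsmul_eq_mul]

/-- the Hermitian square of the norm of a tensor -/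
def nrm (G : Matrix κ κ ℂ) (τ : (ρ → κ) → ℂ) : ℂ := star τ ⬝ᵥ (KP ρ G *ᵥ τ)

/-- the matrix with columns `v b` -/
def colM (v : ρ → κ → ℂ) : Matrix κ ρ ℂ := Matrix.of fun T b => v b T

theorem KP_mulVec_mn (G : Matrix κ κ ℂ) (v : ρ → κ → ℂ) :
    KP ρ G *ᵥ mn v = mn (fun b => G *ᵥ v b) := by
  have h := mn_mulVec G (fun _ : ρ => (1 : ℂ)) v
  simp only [one_smul, Finset.prod_const_one] at h
  exact h.symm

theorem nrm_mn (G : Matrix κ κ ℂ) (v : ρ → κ → ℂ) :
    nrm G (mn v) = ((Fintype.card ρ).factorial : ℂ) * ((colM v)ᴴ * G * colM v).det := by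
  unfold nrm
  rw [KP_mulVec_mn, Matrix.mul_assoc, ← cauchy_binet]
  unfold dotProduct
  refine Finset.sum_congr rfl fun F _ => ?_
  congr 1
  · show conj (mn v F) = _
    unfold mn
    have h1 : conj (Matrix.of fun a b : ρ => v b (F a)).det =
        ((starRingEnd ℂ).mapMatrix (Matrix.of fun a b : ρ => v b (F a))).det :=
      RingHom.map_det _ _
    rw [h1]
    rfl

theorem nrm_smul (G : Matrix κ κ ℂ) (c : ℂ) (τ : (ρ → κ) → ℂ) :
    nrm G (c • τ) = ((‖c‖ ^ 2 : ℝ) : ℂ) * nrm G τ := by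
  unfold nrm
  have h1 : ((‖c‖ ^ 2 : ℝ) : ℂ) = star c * c := by
    rw [← Complex.normSq_eq_norm_sq, Complex.normSq_eq_conj_mul_self]
    rfl
  rw [h1, Matrix.mulVec_smul, star_smul, smul_dotProduct, dotProduct_smul, smul_eq_mul, smul_eq_mul]
  ring

theorem KP_conjTranspose (G : Matrix κ κ ℂ) : (KP ρ G)ᴴ = KP ρ Gᴴ := by
  ext f h
  simp only [KP, Matrix.conjTranspose_apply, Matrix.of_apply, star_prod]

theorem nrm_basis (G P : Matrix κ κ ℂ) (τ : (ρ → κ) → ℂ) :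
    nrm G (KP ρ P *ᵥ τ) = nrm (Pᴴ * G * P) τ := by
  unfold nrm
  rw [Matrix.star_mulVec, ← Matrix.dotProduct_mulVec, Matrix.mulVec_mulVec, Matrix.mulVec_mulVec,
    KP_conjTranspose, ← KP_mul, ← KP_mul, Matrix.mul_assoc]

theorem KP_posSemidef [DecidableEq κ] {G : Matrix κ κ ℂ} (hG : G.PosSemidef) :
    (KP ρ G).PosSemidef := by
  obtain ⟨B, rfl⟩ := CStarAlgebra.nonneg_iff_eq_star_mul_self.1 hG.nonneg
  rw [KP_mul]
  have : KP ρ (star B) = (KP ρ B)ᴴ := (KP_conjTranspose B).symm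
  rw [this]
  exact Matrix.posSemidef_conjTranspose_mul_self _

theorem nrm_nonneg [DecidableEq κ] {G : Matrix κ κ ℂ} (hG : G.PosSemidef) (τ : (ρ → κ) → ℂ) :
    0 ≤ nrm G τ := (KP_posSemidef hG).dotProduct_mulVec_nonneg _

theorem nrm_pos [DecidableEq κ] {G : Matrix κ κ ℂ} (hG : G.PosDef) {τ : (ρ → κ) → ℂ}
    (h : τ ≠ 0) : 0 < nrm G τ := by
  have h1 : (KP ρ G).PosDef := by
    refine (KP_posSemidef hG.posSemidef).posDef_iff_isUnit.2 ?_
    have h2 : KP ρ G * KP ρ G⁻¹ = 1 := by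
      rw [← KP_mul, Matrix.mul_nonsing_inv _ ((Matrix.isUnit_iff_isUnit_det _).1 hG.isUnit), KP_one]
    exact IsUnit.of_mul_eq_one _ h2
  exact h1.dotProduct_mulVec_pos h

theorem nrm_zero (G : Matrix κ κ ℂ) : nrm (ρ := ρ) G 0 = 0 := by
  unfold nrm
  rw [Matrix.mulVec_zero, dotProduct_zero]

/-- proportional tensors -/
theorem nrm_prp (G : Matrix κ κ ℂ) {τ τ' : (ρ → κ) → ℂ}
    (h : ∀ F H, τ F * τ' H = τ H * τ' F) (F : ρ → κ) :
    nrm G τ * ((‖τ' F‖ ^ 2 : ℝ) : ℂ) = nrm G τ' * ((‖τ F‖ ^ 2 : ℝ) : ℂ) := by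
  have h1 : τ' F • τ = τ F • τ' := by
    funext H
    simp only [Pi.smul_apply, smul_eq_mul]
    rw [mul_comm, h H F]
  have h2 := nrm_smul G (τ' F) τ
  rw [h1, nrm_smul] at h2
  rw [mul_comm, ← h2, mul_comm]

/-- multiplicativity of the norm -/
theorem nrm_tns {σ : Type} [Fintype σ] [DecidableEq σ] (G : Matrix κ κ ℂ)
    (τ : σ → (ρ → κ) → ℂ) :
    nrm G (fun F : σ × ρ → κ => ∏ t, τ t (fun r => F (t, r))) = ∏ t, nrm G (τ t) := by
  unfold nrm
  have h1 : (KP (σ × ρ) G *ᵥ fun F : σ × ρ → κ => ∏ t, τ t (fun r => F (t, r)))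
      = fun F : σ × ρ → κ => ∏ t, (KP ρ G *ᵥ τ t) (fun r => F (t, r)) := by
    funext F
    simp only [Matrix.mulVec, dotProduct, KP, Matrix.of_apply]
    rw [Finset.prod_univ_sum, Fintype.piFinset_univ]
    refine Fintype.sum_equiv (Equiv.curry σ ρ κ) _ _ fun H => ?_
    rw [Finset.prod_mul_distrib, Fintype.prod_prod_type]
    rfl
  rw [h1]
  simp only [dotProduct]
  rw [Finset.prod_univ_sum, Fintype.piFinset_univ]
  refine Fintype.sum_equiv (Equiv.curry σ ρ κ) _ _ fun H => ?_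
  rw [Finset.prod_mul_distrib, Pi.star_apply, star_prod]
  rfl

end alg

end

end Crest.Agent.R273.BochE_101
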