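import Crest.Agent.R273.FIa0_597
import Crest.Agent.R273.StokesV_332

/-!
# R273 (S0416), leaf FI, part c (helper597): traces of tensor fields, integrals of Laplacians

* `TF A S` : tensor field of type `(1,1)`; `trC K S i x = tr (g⁻¹ S)`, `trM K S : M → ℝ`
* `Lap K f : M → ℝ`; `int_Lap : ∫ Lap K f = 0` for the measure of any `h` with `det g = e^c h`
* `dtM h S x = det S / h` ; `int_det_inv` : invariance of `∫ det (S + ∂∂̄u)`.
-/

set_option autoImplicit false
set_option linter.unusedSectionVars false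

open Set Filter Topology Complex MeasureTheory
open scoped ContDiff Matrix ComplexConjugate ComplexOrder

namespace Crest.Agent.R273.FIb0_597

open Crest.Agent.R275 Crest.Agent.R275.Geo Crest.Agent.R275.Core144 Crest.Agent.R275.EDR890
open Crest.Agent.R275.Pai323 Crest.Agent.R275.SerG398 Crest.Agent.R275.C1d194
open Crest.Agent.R273.Defs_333 Crest.Agent.R273.Hess_333 Crest.Agent.R273.HessB_333
open Crest.Agent.R273.HM_333 Crest.Agent.R273.Kah_333 Crest.Agent.R273.Vol_333
open Crest.Agent.R273.Vm_333 Crest.Agent.R273.StV_37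
open Crest.Agent.R273.Green_5 Crest.Agent.R273.VolInv_5 Crest.Agent.R273.FIa0_597

noncomputable section

variable {n : ℕ} {M : Type} [TopologicalSpace M] {A : Atl n M} {L L' : LB A}

/-- smooth tensor field of type `(1,1)` -/
structure TF (A : Atl n M) (S : A.ι → M → Matrix (Fin n) (Fin n) ℂ) : Prop where
  sm : ∀ i a b, A.SmAt i (fun x => S i x a b)
  tr : ∀ i j, ∀ x ∈ (A.e i).source ∩ (A.e j).source,
    S i x = (Jm A i j x)ᵀ * S j x * (Jm A i j x).map conj

theorem tf_of_cf {S : A.ι → M → Matrix (Fin n) (Fin n) ℂ} (h : CF A S) : TF A S := ⟨h.sm, h.tr⟩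

theorem TF.add {S S' : A.ι → M → Matrix (Fin n) (Fin n) ℂ} (h : TF A S) (h' : TF A S') :
    TF A (fun i x => S i x + S' i x) where
  sm i a b := (h.sm i a b).add (h'.sm i a b)
  tr i j x hx := by rw [h.tr i j x hx, h'.tr i j x hx, Matrix.mul_add, Matrix.add_mul]

theorem TF.smul {S : A.ι → M → Matrix (Fin n) (Fin n) ℂ} (h : TF A S) (t : ℂ) :
    TF A (fun i x => t • S i x) where
  sm i a b := (contDiffOn_const (c := t)).mul (h.sm i a b)
  tr i j x hx := by rw [h.tr i j x hx, Matrix.mul_smul, Matrix.smul_mul]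

theorem tf_cur (h : HM L) : TF A (cur h) := tf_of_cf (cur_cf h)
theorem tf_hsf {f : M → ℝ} (hf : A.Sm f) : TF A (hsf A f) := tf_of_cf (hsf_cf hf)
theorem tf_kah (K : Kah A) : TF A K.g := ⟨K.sm, K.tr⟩

/-- a chosen chart at `x` -/
def ch (A : Atl n M) (x : M) : A.ι := (A.cover x).choose

theorem mem_ch (A : Atl n M) (x : M) : x ∈ (A.e (ch A x)).source := (A.cover x).choose_spec

/-- `tr (g⁻¹ S)` in the chart `i` -/
def trC (K : Kah A) (S : A.ι → M → Matrix (Fin n) (Fin n) ℂ) (i : A.ι) (x : M) : ℂ :=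
  ((K.g i x)⁻¹ * S i x).trace

theorem det_Jm_ne {i j : A.ι} {x : M} (hx : x ∈ (A.e i).source ∩ (A.e j).source) :
    (Jm A i j x).det ≠ 0 := by
  rw [← KB_g hx]; exact (KB A).ne_zero i j x

theorem det_conj_ne {i j : A.ι} {x : M} (hx : x ∈ (A.e i).source ∩ (A.e j).source) :
    ((Jm A i j x).map conj).det ≠ 0 := by
  have h2 : ((Jm A i j x).map conj).det = conj (Jm A i j x).det := by
    rw [← RingHom.mapMatrix_apply, ← RingHom.map_det]
  rw [h2]
  simpa using det_Jm_ne hx

theorem trC_indep (K : Kah A) {S : A.ι → M → Matrix (Fin n) (Fin n) ℂ} (hS : TF A S) {i j : A.ι}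
    {x : M} (hx : x ∈ (A.e i).source ∩ (A.e j).source) : trC K S i x = trC K S j x := by
  unfold trC
  rw [K.tr i j x hx, hS.tr i j x hx]
  set J := Jm A i j x with hJ
  have h1 : IsUnit (Jᵀ).det := by
    rw [Matrix.det_transpose]; exact (det_Jm_ne hx).isUnit
  have h2 : IsUnit (J.map conj).det := (det_conj_ne hx).isUnit
  rw [Matrix.mul_inv_rev, Matrix.mul_inv_rev]
  have e : (J.map conj)⁻¹ * ((K.g j x)⁻¹ * (Jᵀ)⁻¹) * (Jᵀ * S j x * J.map conj) =
      (J.map conj)⁻¹ * ((K.g j x)⁻¹ * S j x * J.map conj) := by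
    calc (J.map conj)⁻¹ * ((K.g j x)⁻¹ * (Jᵀ)⁻¹) * (Jᵀ * S j x * J.map conj)
        = (J.map conj)⁻¹ * ((K.g j x)⁻¹ * (((Jᵀ)⁻¹ * Jᵀ) * S j x) * J.map conj) := by
          simp only [Matrix.mul_assoc]
      _ = _ := by rw [Matrix.nonsing_inv_mul _ h1, Matrix.one_mul]
  rw [e, Matrix.trace_mul_comm, Matrix.mul_assoc, Matrix.mul_nonsing_inv _ h2, Matrix.mul_one]

/-- the trace as a function on `M` -/
def trM (K : Kah A) (S : A.ι → M → Matrix (Fin n) (Fin n) ℂ) (x : M) : ℝ :=
  (trC K S (ch A x) x).re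

theorem trM_eq (K : Kah A) {S : A.ι → M → Matrix (Fin n) (Fin n) ℂ} (hS : TF A S) {i : A.ι}
    {x : M} (hx : x ∈ (A.e i).source) : trM K S x = (trC K S i x).re := by
  unfold trM
  rw [trC_indep K hS ⟨mem_ch A x, hx⟩]

theorem smAt_inv (K : Kah A) (i : A.ι) (a b : Fin n) : A.SmAt i (fun x => (K.g i x)⁻¹ a b) := by
  have h1 : A.SmAt i (fun x => ((K.g i x).det)⁻¹ * (K.g i x).adjugate a b) := by
    refine ContDiffOn.mul (ContDiffOn.inv (smAt_det (K.sm i)) fun z hz => ?_)
      (smAt_adj (kah_cf K) i b a)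
    rw [← volK_w K i ((A.e i).map_target hz)]
    exact_mod_cast ((volK K).pos i _ ((A.e i).map_target hz)).ne'
  refine h1.congr fun z hz => ?_
  show (K.g i ((A.e i).symm z))⁻¹ a b = _
  rw [Matrix.inv_def, Matrix.smul_apply, smul_eq_mul, Ring.inverse_eq_inv']

theorem smAt_trC (K : Kah A) {S : A.ι → M → Matrix (Fin n) (Fin n) ℂ} {i : A.ι}
    (hS : ∀ a b, A.SmAt i (fun x => S i x a b)) : A.SmAt i (trC K S i) := by
  have h1 : trC K S i = fun x => ∑ a, ∑ b, (K.g i x)⁻¹ a b * S i x b a := by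
    funext x
    simp only [trC, Matrix.trace, Matrix.diag, Matrix.mul_apply]
  rw [h1]
  exact ContDiffOn.sum fun a _ => ContDiffOn.sum fun b _ => (smAt_inv K i a b).mul (hS b a)

theorem sm_trM (K : Kah A) {S : A.ι → M → Matrix (Fin n) (Fin n) ℂ} (hS : TF A S) :
    A.Sm (trM K S) := by
  intro i
  refine (Complex.reCLM.contDiff.comp_contDiffOn (smAt_trC K (S := S) (hS.sm i))).congr
    fun z hz => ?_
  exact trM_eq K hS ((A.e i).map_target hz)

theorem trC_add (K : Kah A) (S S' : A.ι → M → Matrix (Fin n) (Fin n) ℂ) (i : A.ι) (x : M) :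
    trC K (fun i x => S i x + S' i x) i x = trC K S i x + trC K S' i x := by
  unfold trC
  rw [Matrix.mul_add, Matrix.trace_add]

theorem trC_smul (K : Kah A) (t : ℂ) (S : A.ι → M → Matrix (Fin n) (Fin n) ℂ) (i : A.ι) (x : M) :
    trC K (fun i x => t • S i x) i x = t * trC K S i x := by
  unfold trC
  rw [Matrix.mul_smul, Matrix.trace_smul, smul_eq_mul]

theorem trM_nonneg (K : Kah A) {S : A.ι → M → Matrix (Fin n) (Fin n) ℂ}
    (hS : ∀ i, ∀ x ∈ (A.e i).source, (S i x).PosSemidef) (x : M) : 0 ≤ trM K S x :=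
  tr_re_nonneg (K.pos _ x (mem_ch A x)) (hS _ x (mem_ch A x))

/-- the Laplacian -/
def Lap (K : Kah A) (f : M → ℝ) : M → ℝ := trM K (hsf A f)

theorem sm_Lap (K : Kah A) {f : M → ℝ} (hf : A.Sm f) : A.Sm (Lap K f) := sm_trM K (tf_hsf hf)

/-! ### integrals -/

section int

variable [T2Space M] [CompactSpace M] [Fintype A.ι] [MeasurableSpace M] [BorelSpace M]

theorem totc_eq_sum (P : Part A) (f : A.ι → M → ℂ) :
    totc P f = ∑ i, lint A i (fun x => (P.ψ i x : ℂ) * f i x) := by
  unfold totc tot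
  refine Finset.sum_subset (Finset.subset_univ _) fun i _ hi => ?_
  rw [← lint_zero (A := A) i]
  refine lint_congr fun x _ => ?_
  rw [psi_zero_of_notMem P isCompact_univ (Finset.Subset.refl _) hi (mem_univ x)]
  simp

/-- bridge from the measure of `h` to the total integral of densities -/
theorem int_eq_totc (P : Part A) (h : HM (KB A)⁻¹) {f : M → ℂ} {F : A.ι → M → ℂ}
    (hf : Continuous f) (hF : ∀ i, ∀ x ∈ (A.e i).source, (h.w i x : ℂ) * f x = F i x) :
    ∫ x, f x ∂(vm h) = totc P F := by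
  have := isFinite_vm h
  have hi : Integrable f (vm h) := by
    obtain ⟨C, hC⟩ := isCompact_univ.exists_bound_of_continuousOn hf.continuousOn
    exact Integrable.of_bound hf.measurable.aestronglyMeasurable C
      (Eventually.of_forall fun x => hC x (mem_univ x))
  rw [integral_vm_part h P hi, totc_eq_sum]
  refine Finset.sum_congr rfl fun i _ => lint_congr fun x hx => ?_
  rw [hF i x hx]

theorem trC_det (K : Kah A) (S : A.ι → M → Matrix (Fin n) (Fin n) ℂ) {i : A.ι} {x : M}
    (hx : x ∈ (A.e i).source) :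
    (K.g i x).det * trC K S i x = ((K.g i x).adjugate * S i x).trace := by
  unfold trC
  have h0 : (K.g i x).det ≠ 0 := by
    rw [← volK_w K i hx]
    exact_mod_cast ((volK K).pos i _ hx).ne'
  rw [Matrix.inv_def, Ring.inverse_eq_inv', Matrix.smul_mul, Matrix.trace_smul, smul_eq_mul,
    ← mul_assoc, mul_inv_cancel₀ h0, one_mul]

theorem cont_trM (K : Kah A) {S : A.ι → M → Matrix (Fin n) (Fin n) ℂ} (hS : TF A S) :
    Continuous (trM K S) := sm_continuous (sm_trM K hS)

theorem smC_trC (K : Kah A) {S : A.ι → M → Matrix (Fin n) (Fin n) ℂ} (hS : TF A S) :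
    A.Sm (fun x => trC K S (ch A x) x) := by
  intro i
  refine (smAt_trC K (S := S) (hS.sm i)).congr fun z hz => ?_
  exact trC_indep K hS ⟨mem_ch A _, (A.e i).map_target hz⟩

/-- the integral of a Laplacian vanishes -/
theorem int_Lap (P : Part A) (K : Kah A) (h : HM (KB A)⁻¹) {c : ℝ}
    (hc : ∀ i, ∀ x ∈ (A.e i).source, (volK K).w i x = Real.exp c * h.w i x) {f : M → ℝ}
    (hf : A.Sm f) : ∫ x, Lap K f x ∂(vm h) = 0 := by
  have := isFinite_vm h
  have hT := tf_hsf (A := A) hf
  set G : M → ℂ := fun x => trC K (hsf A f) (ch A x) x with hG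
  have hGc : Continuous G := sm_continuous (smC_trC K hT)
  have h1 : ∫ x, G x ∂(vm h) = 0 := by
    rw [int_eq_totc P h (F := fun i x => ((Real.exp (-c) : ℝ) : ℂ) *
      ((K.g i x).adjugate * hm A (fun y => (f y : ℂ)) i x).trace) hGc fun i x hx => ?_]
    · rw [totc_smul, green1c P (kah_cf K) fun i => smAt_ofReal (hf i), mul_zero]
    · rw [hm_ofReal f i hx, ← trC_det K _ hx, ← volK_w K i hx, hc i x hx, hG]
      simp only
      rw [trC_indep K hT ⟨mem_ch A x, hx⟩]
      push_cast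
      have : (Complex.exp (-(c : ℂ))) * Complex.exp c = 1 := by
        rw [← Complex.exp_add]; simp
      calc (h.w i x : ℂ) * trC K (hsf A f) i x
          = (Complex.exp (-(c : ℂ)) * Complex.exp c) * ((h.w i x : ℂ) * trC K (hsf A f) i x) := by
            rw [this, one_mul]
        _ = _ := by ring
  have h2 : Integrable G (vm h) := by
    obtain ⟨C, hC⟩ := isCompact_univ.exists_bound_of_continuousOn hGc.continuousOn
    exact Integrable.of_bound hGc.measurable.aestronglyMeasurable C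
      (Eventually.of_forall fun x => hC x (mem_univ x))
  have h3 : ∫ x, Lap K f x ∂(vm h) = (∫ x, G x ∂(vm h)).re := by
    exact integral_re h2
  rw [h3, h1, Complex.zero_re]

/-- `det S / h` as a function on `M` -/
def dtM (h : HM (KB A)⁻¹) (S : A.ι → M → Matrix (Fin n) (Fin n) ℂ) (x : M) : ℝ :=
  (S (ch A x) x).det.re / h.w (ch A x) x

theorem dtM_eq (h : HM (KB A)⁻¹) {S : A.ι → M → Matrix (Fin n) (Fin n) ℂ} (hS : TF A S)
    {i : A.ι} {x : M} (hx : x ∈ (A.e i).source) : dtM h S x = (S i x).det.re / h.w i x := by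
  have key : ∀ i j, x ∈ (A.e i).source ∩ (A.e j).source →
      (S i x).det.re / h.w i x = (S j x).det.re / h.w j x := by
    intro i j hij
    have h1 : (S i x).det = (‖(Jm A i j x).det‖ ^ 2 : ℝ) * (S j x).det := by
      rw [hS.tr i j x hij, Matrix.det_mul, Matrix.det_mul, Matrix.det_transpose]
      have h2 : ((Jm A i j x).map conj).det = conj (Jm A i j x).det := by
        rw [← RingHom.mapMatrix_apply, ← RingHom.map_det]
      have h3 : ((‖(Jm A i j x).det‖ ^ 2 : ℝ) : ℂ) =
          (Jm A i j x).det * conj (Jm A i j x).det := by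
        rw [Complex.mul_conj, Complex.normSq_eq_norm_sq]
      rw [h2, h3]
      ring
    have h4 := h.tr i j x hij
    rw [LB.inv_g, KB_g hij, norm_inv, inv_pow] at h4
    have h5 : 0 < ‖(Jm A i j x).det‖ ^ 2 := by
      have := det_Jm_ne hij
      positivity
    have h6 := h.pos i x hij.1
    rw [h1, h4, Complex.re_ofReal_mul]
    field_simp
  exact key _ _ ⟨mem_ch A x, hx⟩

end int

end

end Crest.Agent.R273.FIb0_597
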