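import Crest.Agent.R273.BochD_101
import Crest.Agent.R273.BochE_101
import Crest.Agent.R273.BKNa_37
import Crest.Agent.R273.FIb0_597

/-!
# R273 (S0416), LEMMA FI leaf (b) (helper101): norm functions of tensors and log-Bochner

`K : Kah A`, `hN : HM N`, `τ` a holomorphic section of `(Λ^* T)^{⊗ ρ} ⊗ N`.
* `tN K hN τ : M → ℝ` : the norm function; `sm_tN`, `tN_nonneg`, `tN_pos`, `tN_prp`, `tN_tns`;
* `ric_eq`  : `cur (volK K)` is the Ricci matrix;
* `LBo K h U C` : `tr_K ∂∂̄ log U ≥ - C tr_K (cur h)` where `U > 0`; `LBo.mul`, `LBo.prod`;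
* `bochner` : `LBo K h (tN K hN (mnr v)) m` for null `v b`, `cur hN = m • cur h`, `Ric K = cur h`.
-/

set_option autoImplicit false
set_option linter.unusedSectionVars false

open Set Filter Topology Complex Matrix
open scoped ContDiff Matrix ComplexConjugate Manifold ComplexOrder

namespace Crest.Agent.R273.BochF_101

open Crest.Agent.R275 Crest.Agent.R275.Geo Crest.Agent.R275.Core144
open Crest.Agent.R275.EDR890 (wd wd_comm wd_const wd_congr)
open Crest.Agent.R273.Defs_333 Crest.Agent.R273.HM_333 Crest.Agent.R273.Kah_333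
open Crest.Agent.R273.Hess_333 Crest.Agent.R273.HessB_333 Crest.Agent.R273.Vol_333
open Crest.Agent.R273.Fock_243 Crest.Agent.R273.Calc_243 Crest.Agent.R273.Bkn_243
open Crest.Agent.R273.Pos_243 Crest.Agent.R273.BKNa_37 Crest.Agent.R273.NV_578
open Crest.Agent.R273.Cram_747 Crest.Agent.R273.FIb0_597 Crest.Agent.R273.FIa0_597
open Crest.Agent.R273.BochA_101 Crest.Agent.R273.BochB_101 Crest.Agent.R273.BochC_101
open Crest.Agent.R273.BochD_101 Crest.Agent.R273.BochE_101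

noncomputable section

variable {n : ℕ} {M : Type} [TopologicalSpace M] {A : Atl n M} {N L L' : LB A}
  {ρ : Type} [Fintype ρ] [DecidableEq ρ]

/-! ### the norm function -/

/-- norm in the chart `i` -/
def tU (K : Kah A) (hN : HM N) (τ : A.ι → M → (ρ → FI n) → ℂ) (i : A.ι) (x : M) : ℝ :=
  (nrm (Gam (K.g i x)ᵀ) (τ i x)).re * hN.w i x

theorem Gam_g_posDef (K : Kah A) {i : A.ι} {x : M} (hx : x ∈ (A.e i).source) :
    (Gam (K.g i x)ᵀ).PosDef := Gam_posDef (K.pos i x hx).transpose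

theorem nrm_re (K : Kah A) {i : A.ι} {x : M} (hx : x ∈ (A.e i).source) (t : (ρ → FI n) → ℂ) :
    (((nrm (Gam (K.g i x)ᵀ) t).re : ℝ) : ℂ) = nrm (Gam (K.g i x)ᵀ) t := by
  have h1 := nrm_nonneg (Gam_g_posDef K hx).posSemidef t
  have h2 := (Complex.le_def.1 h1).2
  exact Complex.ext rfl h2

theorem tU_nonneg (K : Kah A) (hN : HM N) (τ : A.ι → M → (ρ → FI n) → ℂ) {i : A.ι} {x : M}
    (hx : x ∈ (A.e i).source) : 0 ≤ tU K hN τ i x :=
  mul_nonneg (Complex.le_def.1 (nrm_nonneg (Gam_g_posDef K hx).posSemidef _)).1 (hN.pos i x hx).le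

theorem tU_pos (K : Kah A) (hN : HM N) {τ : A.ι → M → (ρ → FI n) → ℂ} {i : A.ι} {x : M}
    (hx : x ∈ (A.e i).source) (h : τ i x ≠ 0) : 0 < tU K hN τ i x :=
  mul_pos (Complex.lt_def.1 (nrm_pos (Gam_g_posDef K hx) h)).1 (hN.pos i x hx)

theorem g_tr (K : Kah A) {i j : A.ι} {x : M} (hx : x ∈ (A.e i).source ∩ (A.e j).source) :
    (K.g i x)ᵀ = (Jm A i j x)ᴴ * (K.g j x)ᵀ * Jm A i j x := by
  rw [K.tr i j x hx, Matrix.transpose_mul, Matrix.transpose_mul, Matrix.transpose_transpose,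
    Matrix.mul_assoc]
  rfl

theorem tU_tr (K : Kah A) (hN : HM N) {τ : A.ι → M → (ρ → FI n) → ℂ} (hτ : TS ρ N τ)
    {i j : A.ι} {x : M} (hx : x ∈ (A.e i).source ∩ (A.e j).source) :
    tU K hN τ i x = tU K hN τ j x := by
  have h1 : nrm (Gam (K.g i x)ᵀ) (τ i x)
      = ((‖N.g i j x‖ ^ 2 : ℝ) : ℂ) * nrm (Gam (K.g j x)ᵀ) (τ j x) := by
    rw [hτ.tr i j x hx, nrm_smul, nrm_basis, Gam_conjTranspose, ← Gam_mul, ← Gam_mul, g_tr K hx]
    have h2 : (Jm A j i x)ᴴ * ((Jm A i j x)ᴴ * (K.g j x)ᵀ * Jm A i j x) * Jm A j i x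
        = (K.g j x)ᵀ := by
      have h3 : Jm A i j x * Jm A j i x = 1 := J_J ⟨hx.2, hx.1⟩
      have h4 : (Jm A j i x)ᴴ * (Jm A i j x)ᴴ = 1 := by
        rw [← Matrix.conjTranspose_mul, h3, Matrix.conjTranspose_one]
      calc (Jm A j i x)ᴴ * ((Jm A i j x)ᴴ * (K.g j x)ᵀ * Jm A i j x) * Jm A j i x
          = ((Jm A j i x)ᴴ * (Jm A i j x)ᴴ) * (K.g j x)ᵀ * (Jm A i j x * Jm A j i x) := by
            simp only [Matrix.mul_assoc]
        _ = _ := by rw [h3, h4, Matrix.one_mul, Matrix.mul_one]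
    rw [h2]
  unfold tU
  rw [h1, Complex.re_ofReal_mul, hN.tr i j x hx]
  ring

/-- the norm function -/
def tN (K : Kah A) (hN : HM N) (τ : A.ι → M → (ρ → FI n) → ℂ) (x : M) : ℝ :=
  tU K hN τ (ch A x) x

theorem tN_eq (K : Kah A) (hN : HM N) {τ : A.ι → M → (ρ → FI n) → ℂ} (hτ : TS ρ N τ)
    {i : A.ι} {x : M} (hx : x ∈ (A.e i).source) : tN K hN τ x = tU K hN τ i x :=
  tU_tr K hN hτ ⟨mem_ch A x, hx⟩

theorem tN_nonneg (K : Kah A) (hN : HM N) (τ : A.ι → M → (ρ → FI n) → ℂ) (x : M) :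
    0 ≤ tN K hN τ x := tU_nonneg K hN τ (mem_ch A x)

theorem tN_pos (K : Kah A) (hN : HM N) {τ : A.ι → M → (ρ → FI n) → ℂ} (hτ : TS ρ N τ)
    {i : A.ι} {x : M} (hx : x ∈ (A.e i).source) (h : τ i x ≠ 0) : 0 < tN K hN τ x := by
  rw [tN_eq K hN hτ hx]
  exact tU_pos K hN hx h

/-- proportional tensors -/
theorem tN_prp (K : Kah A) (hN : HM N) {τ τ' : A.ι → M → (ρ → FI n) → ℂ} (hτ : TS ρ N τ)
    (hτ' : TS ρ N τ') (h : Prp τ τ') {i : A.ι} {x : M} (hx : x ∈ (A.e i).source) (F : ρ → FI n) :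
    tN K hN τ x * ‖τ' i x F‖ ^ 2 = tN K hN τ' x * ‖τ i x F‖ ^ 2 := by
  rw [tN_eq K hN hτ hx, tN_eq K hN hτ' hx]
  have h1 := nrm_prp (Gam (K.g i x)ᵀ) (h i x) F
  rw [← nrm_re K hx, ← nrm_re K hx (τ' i x), ← Complex.ofReal_mul, ← Complex.ofReal_mul] at h1
  have h2 := Complex.ofReal_injective h1
  unfold tU
  calc _ = ((nrm (Gam (K.g i x)ᵀ) (τ i x)).re * ‖τ' i x F‖ ^ 2) * hN.w i x := by ring
    _ = _ := by rw [h2]; ring

/-- products -/
theorem tN_tns {σ : Type} [Fintype σ] [DecidableEq σ] (K : Kah A) (hN : HM N) {N' : σ → LB A}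
    (h' : ∀ t, HM (N' t)) (τ : σ → A.ι → M → (ρ → FI n) → ℂ)
    (hw : ∀ i, ∀ x ∈ (A.e i).source, hN.w i x = ∏ t, (h' t).w i x) (x : M) :
    tN K hN (tns τ) x = ∏ t, tN K (h' t) (τ t) x := by
  unfold tN tU
  rw [Finset.prod_mul_distrib, ← hw _ x (mem_ch A x)]
  congr 1
  have h1 : nrm (Gam (K.g (ch A x) x)ᵀ) (tns τ (ch A x) x)
      = ∏ t, nrm (Gam (K.g (ch A x) x)ᵀ) (τ t (ch A x) x) :=
    nrm_tns (Gam (K.g (ch A x) x)ᵀ) fun t => τ t (ch A x) x
  rw [h1]
  have h2 : ∀ t, nrm (Gam (K.g (ch A x) x)ᵀ) (τ t (ch A x) x)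
      = (((nrm (Gam (K.g (ch A x) x)ᵀ) (τ t (ch A x) x)).re : ℝ) : ℂ) := fun t =>
    (nrm_re K (mem_ch A x) _).symm
  rw [Finset.prod_congr rfl fun t _ => h2 t, ← Complex.ofReal_prod, Complex.ofReal_re]

theorem holAt_sm {i : A.ι} {f : M → ℂ} (h : HolAt A i univ f) {z : Cn n}
    (hz : z ∈ (A.e i).target) : ∀ᶠ y in 𝓝 z, DifferentiableAt ℂ (fun w => f ((A.e i).symm w)) y := by
  have hd : DifferentiableOn ℂ (fun z => f ((A.e i).symm z)) (A.e i).target := by
    unfold HolAt at h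
    simpa using h
  filter_upwards [(A.e i).open_target.mem_nhds hz] with y hy
  exact hd.differentiableAt ((A.e i).open_target.mem_nhds hy)

theorem SmM.KP {m : Cn n → Matrix (FI n) (FI n) ℂ} {z : Cn n} (hm : SmM z m) :
    SmM z (fun y => Cram_747.KP ρ (m y)) := by
  intro F H
  simp only [Cram_747.KP, Matrix.of_apply]
  exact contDiffAt_prod fun a _ => hm _ _

theorem sm_nrm {m : Cn n → Matrix (FI n) (FI n) ℂ} {t : Cn n → (ρ → FI n) → ℂ} {z : Cn n}
    (hm : SmM z m) (ht : SmV z t) : Sm z (fun y => nrm (m y) (t y)) := by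
  unfold nrm
  exact SmV.dot (SmV.star ht) (SmM.mulVec (SmM.KP hm) ht)

theorem sm_tN (K : Kah A) (hN : HM N) {τ : A.ι → M → (ρ → FI n) → ℂ} (hτ : TS ρ N τ) :
    A.Sm (tN K hN τ) := by
  intro i
  refine ContDiffOn.congr (f := fun z => tU K hN τ i ((A.e i).symm z)) (fun z hz => ?_)
    fun z hz => tN_eq K hN hτ ((A.e i).map_target hz)
  refine ContDiffAt.contDiffWithinAt ?_
  have h1 : Sm z (fun y => nrm (Gam (Kr K i y)) (τ i ((A.e i).symm y))) :=
    sm_nrm (SmM.Gam (smM_Kr K i hz)) fun F => sm_of_hol (holAt_sm (hτ.hol i F) hz)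
  have h2 : ContDiffAt ℝ ∞ (fun y => (nrm (Gam (Kr K i y)) (τ i ((A.e i).symm y))).re) z :=
    Complex.reCLM.contDiff.contDiffAt.comp z h1
  have h3 : ContDiffAt ℝ ∞ (fun y => hN.w i ((A.e i).symm y)) z :=
    (hN.sm i).contDiffAt ((A.e i).open_target.mem_nhds hz)
  exact h2.mul h3

/-! ### the Ricci form -/

theorem Kr_posDef (K : Kah A) (i : A.ι) {z : Cn n} (hz : z ∈ (A.e i).target) :
    (Kr K i z).PosDef := (K.pos i _ ((A.e i).map_target hz)).transpose

theorem det_re_pos' {κ : Type} [Fintype κ] [DecidableEq κ] {m : Matrix κ κ ℂ} (h : m.PosDef) :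
    0 < m.det.re := (Complex.lt_def.1 h.det_pos).1

theorem ric_eq (K : Kah A) (i : A.ι) {x : M} (hx : x ∈ (A.e i).source) :
    Matrix.of (ric (Kr K i) (A.e i x)) = cur (volK K) i x := by
  have hz := (A.e i).map_source hx
  have hnt : ∀ᶠ y in 𝓝 (A.e i x), y ∈ (A.e i).target := (A.e i).open_target.mem_nhds hz
  ext a b
  rw [Matrix.of_apply, ← hess_neg_log_det (smM_Kr K i hz)
    (hnt.mono fun y hy => (Kr_posDef K i hy).isHermitian) (det_re_pos' (Kr_posDef K i hz)) a b]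
  unfold cur
  congr 1
  funext y
  show -Real.log ((K.g i ((A.e i).symm y))ᵀ).det.re = _
  rw [Matrix.det_transpose]
  rfl

/-! ### log-Bochner -/

/-- `tr_K ∂∂̄ log U ≥ - C tr_K (cur h)` where `U > 0` -/
def LBo (K : Kah A) (h : HM L') (U : M → ℝ) (C : ℝ) : Prop :=
  ∀ i, ∀ x ∈ (A.e i).source, 0 < U x →
    -C * (trC K (cur h) i x).re ≤ (trC K (hsf A fun y => Real.log (U y)) i x).re

theorem tr_cur_nonneg (K : Kah A) {h : HM L'} (hs : h.Semipos) {i : A.ι} {x : M}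
    (hx : x ∈ (A.e i).source) : 0 ≤ (trC K (cur h) i x).re :=
  tr_re_nonneg (K.pos i x hx) (cur_posSemidef hs i hx)

theorem LBo.mono {K : Kah A} {h : HM L'} (hs : h.Semipos) {U : M → ℝ} {C C' : ℝ}
    (hU : LBo K h U C) (hC : C ≤ C') : LBo K h U C' := by
  intro i x hx h0
  have h1 := hU i x hx h0
  have h2 := tr_cur_nonneg K hs hx
  nlinarith

theorem sm_log_at {U : M → ℝ} (hU : A.Sm U) (i : A.ι) {x : M} (hx : x ∈ (A.e i).source)
    (h0 : 0 < U x) : ContDiffAt ℝ ∞ (fun z => Real.log (U ((A.e i).symm z))) (A.e i x) := by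
  have h1 := sm_contDiffAt hU i ((A.e i).map_source hx)
  refine h1.log ?_
  show U ((A.e i).symm (A.e i x)) ≠ 0
  rw [(A.e i).left_inv hx]
  exact h0.ne'

theorem hsf_congr {f g : M → ℝ} {i : A.ι} {x : M}
    (h : ∀ᶠ z in 𝓝 (A.e i x), f ((A.e i).symm z) = g ((A.e i).symm z)) :
    hsf A f i x = hsf A g i x := hess_congr h

theorem pos_near {U : M → ℝ} (hU : A.Sm U) (i : A.ι) {x : M} (hx : x ∈ (A.e i).source)
    (h0 : 0 < U x) : ∀ᶠ z in 𝓝 (A.e i x), 0 < U ((A.e i).symm z) := by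
  have h1 := (sm_contDiffAt hU i ((A.e i).map_source hx)).continuousAt
  refine h1.eventually (lt_mem_nhds ?_)
  show 0 < U ((A.e i).symm (A.e i x))
  rw [(A.e i).left_inv hx]
  exact h0

theorem LBo.mul {K : Kah A} {h : HM L'} {U V : M → ℝ} {C C' : ℝ} (sU : A.Sm U) (sV : A.Sm V)
    (hU0 : ∀ x, 0 ≤ U x) (hV0 : ∀ x, 0 ≤ V x) (hU : LBo K h U C) (hV : LBo K h V C') :
    LBo K h (fun x => U x * V x) (C + C') := by
  intro i x hx h0
  have hUx : 0 < U x := lt_of_le_of_ne (hU0 x) fun h => by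
    simp only [← h, zero_mul, lt_irrefl] at h0
  have hVx : 0 < V x := lt_of_le_of_ne (hV0 x) fun h => by
    simp only [← h, mul_zero, lt_irrefl] at h0
  have e1 : hsf A (fun y => Real.log (U y * V y)) i x
      = hsf A (fun y => Real.log (U y)) i x + hsf A (fun y => Real.log (V y)) i x := by
    have e2 : (fun z => Real.log (U ((A.e i).symm z) * V ((A.e i).symm z))) =ᶠ[𝓝 (A.e i x)]
        fun z => Real.log (U ((A.e i).symm z)) + Real.log (V ((A.e i).symm z)) := by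
      filter_upwards [pos_near sU i hx hUx, pos_near sV i hx hVx] with z hz hz'
      exact Real.log_mul hz.ne' hz'.ne'
    unfold hsf
    rw [hess_congr e2]
    exact hess_add (sm_log_at sU i hx hUx) (sm_log_at sV i hx hVx)
  have e3 : trC K (hsf A fun y => Real.log (U y * V y)) i x
      = trC K (hsf A fun y => Real.log (U y)) i x + trC K (hsf A fun y => Real.log (V y)) i x := by
    unfold trC
    rw [e1, Matrix.mul_add, Matrix.trace_add]
  show _ ≤ (trC K (hsf A fun y => Real.log (U y * V y)) i x).re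
  rw [e3, Complex.add_re]
  have h1 := hU i x hx hUx
  have h2 := hV i x hx hVx
  linarith

theorem hess_const (c : ℝ) (z : Cn n) : hess (fun _ => c) z = 0 := by
  ext a b
  rw [hess_apply]
  have h4 : wd (true, b) (cu fun _ : Cn n => c) = fun _ => 0 := by
    funext w
    exact wd_const _ _ _
  rw [h4, wd_const]
  rfl

theorem LBo.one (K : Kah A) (h : HM L') : LBo K h (fun _ => 1) 0 := by
  intro i x _ _
  have h1 : hsf A (fun _ => Real.log 1) i x = 0 := hess_const _ _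
  unfold trC
  rw [h1, Matrix.mul_zero, Matrix.trace_zero]
  simp

theorem sm_mul {U V : M → ℝ} (sU : A.Sm U) (sV : A.Sm V) : A.Sm (fun x => U x * V x) :=
  fun i => (sU i).mul (sV i)

theorem LBo.prod {σ : Type} {K : Kah A} {h : HM L'} (s : Finset σ) {U : σ → M → ℝ} {C : σ → ℝ}
    (sU : ∀ t ∈ s, A.Sm (U t)) (hU0 : ∀ t ∈ s, ∀ x, 0 ≤ U t x)
    (hU : ∀ t ∈ s, LBo K h (U t) (C t)) :
    A.Sm (fun x => ∏ t ∈ s, U t x) ∧ (∀ x, 0 ≤ ∏ t ∈ s, U t x) ∧
      LBo K h (fun x => ∏ t ∈ s, U t x) (∑ t ∈ s, C t) := by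
  classical
  induction s using Finset.induction_on with
  | empty =>
    simp only [Finset.prod_empty, Finset.sum_empty]
    exact ⟨fun i => contDiffOn_const, fun _ => zero_le_one, LBo.one K h⟩
  | insert a s ha ih =>
    obtain ⟨i1, i2, i3⟩ := ih (fun t ht => sU t (Finset.mem_insert_of_mem ht))
      (fun t ht => hU0 t (Finset.mem_insert_of_mem ht))
      (fun t ht => hU t (Finset.mem_insert_of_mem ht))
    have ha' := Finset.mem_insert_self a s
    simp only [Finset.prod_insert ha, Finset.sum_insert ha]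
    exact ⟨sm_mul (sU a ha') i1, fun x => mul_nonneg (hU0 a ha' x) (i2 x),
      LBo.mul (sU a ha') i1 (hU0 a ha') i2 (hU a ha') i3⟩

/-- the trace against `K⁻¹` -/
theorem trC_sum (K : Kah A) (S : A.ι → M → Matrix (Fin n) (Fin n) ℂ) {i : A.ι} {x : M}
    (hx : x ∈ (A.e i).source) :
    trC K S i x = ∑ c, ∑ d, (Kr K i (A.e i x))⁻¹ c d * S i x c d := by
  unfold trC Kr
  rw [(A.e i).left_inv hx, ← Matrix.transpose_nonsing_inv]
  simp only [Matrix.trace, Matrix.diag_apply, Matrix.mul_apply, Matrix.transpose_apply]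
  rw [Finset.sum_comm]

/-- null vectors do not feel the Ricci term -/
theorem so_null {K : Matrix (Fin n) (Fin n) ℂ} {T : Matrix (Fin n) (Fin n) ℂ}
    {v : FI n → ℂ} (hv : ∀ c, ∑ d, T d c • (iW (ep d) *ᵥ v) = 0) :
    so Tᵀ K *ᵥ v = 0 := by
  unfold so
  rw [Matrix.sum_mulVec]
  refine Finset.sum_eq_zero fun p _ => ?_
  rw [Matrix.sum_mulVec]
  have h1 : ∀ q, (Tᵀ p q • (eW (ep p) * Gam K * iW (ep q))) *ᵥ v
      = (eW (ep p) * Gam K) *ᵥ (T q p • (iW (ep q) *ᵥ v)) := by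
    intro q
    rw [Matrix.smul_mulVec, ← Matrix.mulVec_mulVec, Matrix.mulVec_smul, Matrix.transpose_apply]
  rw [Finset.sum_congr rfl fun q _ => h1 q, ← Matrix.mulVec_sum, hv p, Matrix.mulVec_zero]

/-- **log-Bochner for null families** -/
theorem bochner {K : Kah A} {h : HM L'} {hN : HM N} {m : ℝ}
    (hc : ∀ i, ∀ x ∈ (A.e i).source, cur (volK K) i x = cur h i x)
    (hm : ∀ i, ∀ x ∈ (A.e i).source, cur hN i x = (m : ℂ) • cur h i x)
    {v : ρ → A.ι → M → FI n → ℂ} (hv : ∀ b i T, HolAt A i univ (fun x => v b i x T))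
    (hnull : ∀ b, v b ∈ NulS h) (hτ : TS ρ N (mnr v)) :
    LBo K h (tN K hN (mnr v)) m := by
  intro i x hx h0
  have hz := (A.e i).map_source hx
  have hnt : ∀ᶠ y in 𝓝 (A.e i x), y ∈ (A.e i).target := (A.e i).open_target.mem_nhds hz
  set V : Cn n → Matrix (FI n) ρ ℂ := fun y => colM (fun b => v b i ((A.e i).symm y)) with hV
  have hVh : HolM (A.e i x) V := fun S T => holAt_sm (hv T i S) hz
  have hf : (0 : ℝ) < ((Fintype.card ρ).factorial : ℝ) := by positivity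
  -- formula for the norm
  have e1 : ∀ y ∈ (A.e i).target, tN K hN (mnr v) ((A.e i).symm y)
      = ((Fintype.card ρ).factorial : ℝ) * ((V y)ᴴ * Gam (Kr K i y) * V y).det.re *
        hN.w i ((A.e i).symm y) := by
    intro y hy
    rw [tN_eq K hN hτ ((A.e i).map_target hy)]
    unfold tU mnr
    rw [nrm_mn]
    congr 1
    rw [← Complex.ofReal_natCast, Complex.re_ofReal_mul]
    rfl
  have hxx := (A.e i).left_inv hx
  have h0' : 0 < ((V (A.e i x))ᴴ * Gam (Kr K i (A.e i x)) * V (A.e i x)).det.re := by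
    rw [← hxx, e1 _ hz] at h0
    have hw := hN.pos i _ ((A.e i).map_target hz)
    by_contra hcon
    push Not at hcon
    have : ((Fintype.card ρ).factorial : ℝ) *
        ((V (A.e i x))ᴴ * Gam (Kr K i (A.e i x)) * V (A.e i x)).det.re *
        hN.w i ((A.e i).symm (A.e i x)) ≤ 0 :=
      mul_nonpos_of_nonpos_of_nonneg (mul_nonpos_of_nonneg_of_nonpos hf.le hcon) hw.le
    linarith
  -- smoothness
  have hGs : ∀ᶠ y in 𝓝 (A.e i x), SmM y (Kr K i) := hnt.mono fun y hy => smM_Kr K i hy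
  have hGz := hGs.self_of_nhds
  have hDs : Sm (A.e i x) (fun y => ((V y)ᴴ * Gam (Kr K i y) * V y).det) :=
    SmM.det (SmM.mul (SmM.mul (SmM.conjTranspose hVh.sm) (SmM.Gam hGz)) hVh.sm)
  have hDr : ContDiffAt ℝ ∞ (fun y => ((V y)ᴴ * Gam (Kr K i y) * V y).det.re) (A.e i x) :=
    Complex.reCLM.contDiff.contDiffAt.comp _ hDs
  have hDl : ContDiffAt ℝ ∞ (fun y => Real.log ((V y)ᴴ * Gam (Kr K i y) * V y).det.re)
      (A.e i x) := hDr.log h0'.ne'
  have hwt := wt_contDiffAt hN i hz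
  -- decomposition of the logarithm
  have e2 : (fun y => Real.log (tN K hN (mnr v) ((A.e i).symm y))) =ᶠ[𝓝 (A.e i x)]
      fun y => (Real.log ((Fintype.card ρ).factorial : ℝ) +
        Real.log ((V y)ᴴ * Gam (Kr K i y) * V y).det.re) - hN.wt i y := by
    filter_upwards [hnt, hDr.continuousAt.eventually (lt_mem_nhds h0')] with y hy hy'
    have hw := hN.pos i _ ((A.e i).map_target hy)
    rw [e1 y hy, Real.log_mul (mul_pos hf hy').ne' hw.ne', Real.log_mul hf.ne' hy'.ne']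
    unfold HM.wt
    ring
  have e3 : hsf A (fun y => Real.log (tN K hN (mnr v) y)) i x
      = hess (fun y => Real.log ((V y)ᴴ * Gam (Kr K i y) * V y).det.re) (A.e i x)
        - (m : ℂ) • cur h i x := by
    unfold hsf
    rw [hess_congr e2, hess_sub (contDiffAt_const.add hDl) hwt, hess_add contDiffAt_const hDl,
      hess_const, zero_add, ← hm i x hx]
    rfl
  have e4 : trC K (hsf A fun y => Real.log (tN K hN (mnr v) y)) i x
      = ∑ c, ∑ d, (Kr K i (A.e i x))⁻¹ c d *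
        hess (fun y => Real.log ((V y)ᴴ * Gam (Kr K i y) * V y).det.re) (A.e i x) c d
        - (m : ℂ) * trC K (cur h) i x := by
    rw [← trC_sum K (fun _ _ => hess (fun y => Real.log ((V y)ᴴ * Gam (Kr K i y) * V y).det.re)
      (A.e i x)) hx]
    unfold trC
    rw [e3, Matrix.mul_sub, Matrix.trace_sub, Matrix.mul_smul, Matrix.trace_smul, smul_eq_mul]
  have key := bochner_gram hGs (hnt.mono fun y hy => Kr_posDef K i hy)
    (hnt.mono fun y hy => kahAt K i hy) hVh h0'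
  -- the Ricci term vanishes
  have hnl : so (Matrix.of (ric (Kr K i) (A.e i x)))ᵀ (Kr K i (A.e i x)) * V (A.e i x) = 0 := by
    ext S b
    rw [ric_eq K i hx, hc i x hx]
    have h1 := so_null (K := Kr K i (A.e i x)) (mem_NulS.1 (hnull b) i x hx)
    have h2 := congrFun h1 S
    simp only [hV, hxx]
    exact h2
  have hnl' : (V (A.e i x))ᴴ * so (Matrix.of (ric (Kr K i) (A.e i x)))ᵀ (Kr K i (A.e i x)) *
      V (A.e i x) = 0 := by
    rw [Matrix.mul_assoc, hnl, Matrix.mul_zero]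
  rw [hnl', Matrix.mul_zero, Matrix.trace_zero, add_zero] at key
  have key2 := (Complex.le_def.1 key).1
  rw [e4, Complex.sub_re, Complex.re_ofReal_mul]
  simp only [Complex.zero_re] at key2
  linarith

end

end Crest.Agent.R273.BochF_101
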