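import Crest.Agent.R273.BochF_101

/-!
# R273 (S0416), LEMMA FI leaf (b) (helper101): the input of the first-integral lemma

* `tN_num`, `tN_den` : norm functions of helper747's `num` and `den`;
* `LBo.pow`;
* `fi_input` : for every `K` with `cur (volK K) = cur h` the functions `U₁`, `U₂` with the
  log-Bochner inequality with a constant not depending on `K`, and `U₁ |den|² = U₂ |num|²`.
-/

set_option autoImplicit false
set_option linter.unusedSectionVars false

open Set Filter Topology Complex Matrix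
open scoped ContDiff Matrix ComplexConjugate Manifold ComplexOrder

namespace Crest.Agent.R273.BochG_101

open Crest.Agent.R275 Crest.Agent.R275.Geo Crest.Agent.R275.Core144
open Crest.Agent.R273.Defs_333 Crest.Agent.R273.HM_333 Crest.Agent.R273.Kah_333
open Crest.Agent.R273.Vol_333
open Crest.Agent.R273.Fock_243
open Crest.Agent.R273.NV_578
open Crest.Agent.R273.Cram_747 Crest.Agent.R273.FIb0_597
open Crest.Agent.R273.BochE_101 Crest.Agent.R273.BochF_101

noncomputable section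

variable {n : ℕ} {M : Type} [TopologicalSpace M] {A : Atl n M} {N L L' : LB A}
  {ρ : Type} [Fintype ρ] [DecidableEq ρ]

theorem LBo.pow {K : Kah A} {h : HM L'} {U : M → ℝ} {C : ℝ} (sU : A.Sm U) (hU0 : ∀ x, 0 ≤ U x)
    (hU : LBo K h U C) (m : ℕ) :
    A.Sm (fun x => U x ^ m) ∧ (∀ x, 0 ≤ U x ^ m) ∧ LBo K h (fun x => U x ^ m) (m * C) := by
  have h1 := LBo.prod (K := K) (h := h) (Finset.univ : Finset (Fin m)) (U := fun _ => U)
    (C := fun _ => C) (fun _ _ => sU) (fun _ _ => hU0) (fun _ _ => hU)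
  simpa using h1

theorem tU_pow (K : Kah A) (hL : HM L) (m : ℕ) (τ : A.ι → M → (ρ → FI n) → ℂ) (i : A.ι) (x : M) :
    tU K (HM_333.pow hL m) τ i x = (nrm (Gam (K.g i x)ᵀ) (τ i x)).re * hL.w i x ^ m := by
  unfold tU
  rw [pow_w]

theorem nat_id {a b c : ℕ} (hab : a < b) (hbc : b < c) :
    b * (c - a) = a * (c - b) + c * (b - a) := by
  obtain ⟨d, rfl⟩ := Nat.exists_eq_add_of_lt hab
  obtain ⟨e, rfl⟩ := Nat.exists_eq_add_of_lt hbc
  have h2 : a + d + 1 + e + 1 - (a + d + 1) = e + 1 := by omega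
  have h3 : a + d + 1 - a = d + 1 := by omega
  have h4 : a + d + 1 + e + 1 - a = d + e + 2 := by omega
  rw [h2, h3, h4]
  ring

/-- the norm of the numerator -/
theorem tN_num (K : Kah A) (hL : HM L) {a b c : ℕ} (hab : a < b) (hbc : b < c)
    (w : ℕ → A.ι → M → (ρ → FI n) → ℂ) (x : M) :
    tN K (HM_333.pow hL (b * (c - a))) (num w a b c) x
      = (tN K (HM_333.pow hL a) (w a) x) ^ (c - b) *
        (tN K (HM_333.pow hL c) (w c) x) ^ (b - a) := by
  set i := ch A x with hi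
  have hx : x ∈ (A.e i).source := mem_ch A x
  have h1 : nrm (Gam (K.g i x)ᵀ) (num w a b c i x)
      = nrm (Gam (K.g i x)ᵀ) (w a i x) ^ (c - b) * nrm (Gam (K.g i x)ᵀ) (w c i x) ^ (b - a) := by
    have h2 := nrm_tns (Gam (K.g i x)ᵀ) fun t : Fin (c - a) =>
      (if t.1 < c - b then w a else w c) i x
    rw [← prod_if_lt hab hbc]
    refine h2.trans (Finset.prod_congr rfl fun t _ => ?_)
    by_cases ht : t.1 < c - b <;> simp [ht]
  have h3 : (nrm (Gam (K.g i x)ᵀ) (num w a b c i x)).re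
      = (nrm (Gam (K.g i x)ᵀ) (w a i x)).re ^ (c - b) *
        (nrm (Gam (K.g i x)ᵀ) (w c i x)).re ^ (b - a) := by
    rw [h1, ← nrm_re K hx (w a i x), ← nrm_re K hx (w c i x), ← Complex.ofReal_pow,
      ← Complex.ofReal_pow, ← Complex.ofReal_mul, Complex.ofReal_re, Complex.ofReal_re,
      Complex.ofReal_re]
  unfold tN
  rw [tU_pow, tU_pow, tU_pow, ← hi, h3, nat_id hab hbc, mul_pow, mul_pow, ← pow_mul, ← pow_mul,
    pow_add]
  ring

/-- the norm of the denominator -/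
theorem tN_den (K : Kah A) (hL : HM L) (a b c : ℕ)
    (w : ℕ → A.ι → M → (ρ → FI n) → ℂ) (x : M) :
    tN K (HM_333.pow hL (b * (c - a))) (den w a b c) x
      = (tN K (HM_333.pow hL b) (w b) x) ^ (c - a) := by
  set i := ch A x with hi
  have hx : x ∈ (A.e i).source := mem_ch A x
  have h1 : nrm (Gam (K.g i x)ᵀ) (den w a b c i x)
      = nrm (Gam (K.g i x)ᵀ) (w b i x) ^ (c - a) := by
    have h2 := nrm_tns (Gam (K.g i x)ᵀ) fun _ : Fin (c - a) => w b i x
    rw [Finset.prod_const, Finset.card_univ, Fintype.card_fin] at h2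
    exact h2
  have h3 : (nrm (Gam (K.g i x)ᵀ) (den w a b c i x)).re
      = (nrm (Gam (K.g i x)ᵀ) (w b i x)).re ^ (c - a) := by
    rw [h1, ← nrm_re K hx (w b i x), ← Complex.ofReal_pow, Complex.ofReal_re,
      Complex.ofReal_re]
  unfold tN
  rw [tU_pow, tU_pow, ← hi, h3, mul_pow, ← pow_mul]

/-- `τ` is a holomorphic tensor given by the minors of a family of null holomorphic polyvectors -/
def IsNM (h : HM L') (τ : A.ι → M → (ρ → FI n) → ℂ) : Prop :=
  ∃ v : ρ → A.ι → M → FI n → ℂ, (∀ b i T, HolAt A i univ (fun x => v b i x T)) ∧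
    (∀ b, v b ∈ NulS h) ∧ τ = mnr v

theorem isNM_of_NV {h : HM L'} {N : ρ → LB A} {q : ρ → ℕ} {v : ρ → A.ι → M → FI n → ℂ}
    (hv : ∀ b, v b ∈ NV (N b) h (q b)) : IsNM h (mnr v) :=
  ⟨v, fun b => (hv b).1.1, fun b => (hv b).2, rfl⟩

/-- log-Bochner for one tensor with values in a power of `L` -/
theorem boch_pow {K : Kah A} {h : HM L'} {hL : HM L} {c₀ : ℝ}
    (hK : ∀ i, ∀ x ∈ (A.e i).source, cur (volK K) i x = cur h i x)
    (hc : ∀ i, ∀ x ∈ (A.e i).source, cur hL i x = (c₀ : ℂ) • cur h i x)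
    {k : ℕ} {τ : A.ι → M → (ρ → FI n) → ℂ} (hτ : TS ρ (L ^ k) τ) (hn : IsNM h τ) :
    LBo K h (tN K (HM_333.pow hL k) τ) (k * c₀) := by
  obtain ⟨v, hv, hnull, rfl⟩ := hn
  refine bochner hK (fun i x hx => ?_) hv hnull hτ
  rw [cur_pow hL k i hx, hc i x hx, smul_smul]
  push_cast
  rfl

/-- **the input of the first-integral lemma** -/
theorem fi_input {h : HM L'} {hL : HM L} {c₀ : ℝ}
    (hc : ∀ i, ∀ x ∈ (A.e i).source, cur hL i x = (c₀ : ℂ) • cur h i x)
    {a b c : ℕ} (hab : a < b) (hbc : b < c) {w : ℕ → A.ι → M → (ρ → FI n) → ℂ}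
    (ta : TS ρ (L ^ a) (w a)) (tb : TS ρ (L ^ b) (w b)) (tc : TS ρ (L ^ c) (w c))
    (na : IsNM h (w a)) (nb : IsNM h (w b)) (nc : IsNM h (w c))
    (pa : Prp (w a) (w b)) (pc : Prp (w c) (w b))
    {K : Kah A} (hK : ∀ i, ∀ x ∈ (A.e i).source, cur (volK K) i x = cur h i x) :
    ∃ U₁ U₂ : M → ℝ, A.Sm U₁ ∧ A.Sm U₂ ∧ (∀ x, 0 ≤ U₁ x) ∧ (∀ x, 0 ≤ U₂ x) ∧
      LBo K h U₁ ((b * (c - a) : ℕ) * c₀) ∧ LBo K h U₂ ((b * (c - a) : ℕ) * c₀) ∧
      (∀ i, ∀ x ∈ (A.e i).source, ∀ F, U₁ x * ‖den w a b c i x F‖ ^ 2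
        = U₂ x * ‖num w a b c i x F‖ ^ 2) ∧
      (∀ i, ∀ x ∈ (A.e i).source, den w a b c i x ≠ 0 → 0 < U₂ x) := by
  have tnum := num_TS hab hbc ta tc
  have tden := den_TS hab hbc tb
  have ba := boch_pow hK hc ta na
  have bb := boch_pow hK hc tb nb
  have bc := boch_pow hK hc tc nc
  refine ⟨tN K (HM_333.pow hL (b * (c - a))) (num w a b c),
    tN K (HM_333.pow hL (b * (c - a))) (den w a b c), sm_tN K _ tnum, sm_tN K _ tden,
    tN_nonneg K _ _, tN_nonneg K _ _, ?_, ?_, fun i x hx F =>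
      tN_prp K _ tnum tden (num_den_prp pa pc) hx F, fun i x hx h0 => tN_pos K _ tden hx h0⟩
  · obtain ⟨s1, p1, l1⟩ := LBo.pow (sm_tN K _ ta) (tN_nonneg K _ _) ba (c - b)
    obtain ⟨s2, p2, l2⟩ := LBo.pow (sm_tN K _ tc) (tN_nonneg K _ _) bc (b - a)
    have h1 := LBo.mul s1 s2 p1 p2 l1 l2
    have h2 : tN K (HM_333.pow hL (b * (c - a))) (num w a b c)
        = fun x => (tN K (HM_333.pow hL a) (w a) x) ^ (c - b) *
          (tN K (HM_333.pow hL c) (w c) x) ^ (b - a) := funext fun x => tN_num K hL hab hbc w x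
    rw [h2, nat_id hab hbc]
    convert h1 using 1
    push_cast
    ring
  · obtain ⟨s1, p1, l1⟩ := LBo.pow (sm_tN K _ tb) (tN_nonneg K _ _) bb (c - a)
    have h2 : tN K (HM_333.pow hL (b * (c - a))) (den w a b c)
        = fun x => (tN K (HM_333.pow hL b) (w b) x) ^ (c - a) :=
      funext fun x => tN_den K hL a b c w x
    rw [h2]
    convert l1 using 1
    push_cast
    ring

end

end Crest.Agent.R273.BochG_101
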