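import Crest.Agent.R273.BochF_101
import Crest.Agent.R273.FIlin_332

/-!
# R273 (S0416), LEMMA FI leaf (b) (helper101): curvature of Kronecker powers

* `prodM W`, `slot b G X` : Kronecker products; `slot` is linear in `X`;
* `rm_KP`  : `rm (KP ρ ∘ G) c d = ∑ b, slot b G (rm G c d)`;
* `so_le`  : `tr (K⁻¹ R) • Γ(K) - so R K ≥ 0` for `R ≥ 0`;
* `slot_psd`, `slot_le`.
-/

set_option autoImplicit false
set_option linter.unusedSectionVars false

open Finset Matrix Complex Filter Topology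
open scoped ContDiff ComplexConjugate Kronecker ComplexOrder MatrixOrder

namespace Crest.Agent.R273.BochH_101

open Crest.Agent.R275.Geo Crest.Agent.R273.Fock_243 Crest.Agent.R273.Calc_243
open Crest.Agent.R273.Bkn_243 Crest.Agent.R273.Pos_243 Crest.Agent.R273.Cram_747
open Crest.Agent.R273.BochA_101 Crest.Agent.R273.BochB_101 Crest.Agent.R273.BochE_101

noncomputable section

variable {n : ℕ} {κ ρ : Type} [Fintype κ] [Fintype ρ] [DecidableEq κ] [DecidableEq ρ]

/-! ### Kronecker products -/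

/-- Kronecker product of a family of matrices -/
def prodM (W : ρ → Matrix κ κ ℂ) : Matrix (ρ → κ) (ρ → κ) ℂ :=
  Matrix.of fun f h => ∏ a, W a (f a) (h a)

theorem KP_eq (G : Matrix κ κ ℂ) : KP ρ G = prodM (fun _ => G) := rfl

theorem prodM_mul (W W' : ρ → Matrix κ κ ℂ) :
    prodM (fun a => W a * W' a) = prodM W * prodM W' := by
  ext f h
  simp only [prodM, Matrix.of_apply, Matrix.mul_apply]
  rw [Finset.prod_univ_sum]
  simp only [Fintype.piFinset_univ, Finset.prod_mul_distrib]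

theorem prodM_conjTranspose (W : ρ → Matrix κ κ ℂ) :
    (prodM W)ᴴ = prodM (fun a => (W a)ᴴ) := by
  ext f h
  simp only [prodM, Matrix.conjTranspose_apply, Matrix.of_apply, star_prod]

theorem prodM_psd {W : ρ → Matrix κ κ ℂ} (h : ∀ a, (W a).PosSemidef) : (prodM W).PosSemidef := by
  have h1 : ∀ a, ∃ B : Matrix κ κ ℂ, W a = Bᴴ * B := fun a =>
    CStarAlgebra.nonneg_iff_eq_star_mul_self.mp (h a).nonneg
  choose B hB using h1
  have h2 : W = fun a => (B a)ᴴ * B a := funext hB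
  rw [h2, prodM_mul, ← prodM_conjTranspose]
  exact Matrix.posSemidef_conjTranspose_mul_self _

/-- `G ⊗ … ⊗ X ⊗ … ⊗ G`, `X` in the slot `b` -/
def slot (b : ρ) (G X : Matrix κ κ ℂ) : Matrix (ρ → κ) (ρ → κ) ℂ :=
  prodM (Function.update (fun _ => G) b X)

theorem slot_apply (b : ρ) (G X : Matrix κ κ ℂ) (f h : ρ → κ) :
    slot b G X f h = X (f b) (h b) * ∏ a ∈ univ.erase b, G (f a) (h a) := by
  unfold slot prodM
  rw [Matrix.of_apply, ← Finset.mul_prod_erase _ _ (Finset.mem_univ b), Function.update_self]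
  congr 1
  refine Finset.prod_congr rfl fun a ha => ?_
  rw [Function.update_of_ne (Finset.ne_of_mem_erase ha)]

theorem slot_self (b : ρ) (G : Matrix κ κ ℂ) : slot b G G = KP ρ G := by
  unfold slot
  rw [KP_eq]
  congr 1
  exact Function.update_eq_self b _

theorem slot_mul (b : ρ) (G G' X X' : Matrix κ κ ℂ) :
    slot b (G * G') (X * X') = slot b G X * slot b G' X' := by
  unfold slot
  rw [← prodM_mul]
  congr 1
  funext a
  by_cases h : a = b
  · subst h; simp
  · simp [Function.update_of_ne h]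

theorem slot_add (b : ρ) (G X X' : Matrix κ κ ℂ) :
    slot b G (X + X') = slot b G X + slot b G X' := by
  ext f h
  simp only [Matrix.add_apply, slot_apply]
  ring

theorem slot_smul (b : ρ) (G : Matrix κ κ ℂ) (c : ℂ) (X : Matrix κ κ ℂ) :
    slot b G (c • X) = c • slot b G X := by
  ext f h
  simp only [Matrix.smul_apply, slot_apply, smul_eq_mul]
  ring

theorem slot_neg (b : ρ) (G X : Matrix κ κ ℂ) : slot b G (-X) = - slot b G X := by
  ext f h
  simp only [Matrix.neg_apply, slot_apply]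
  ring

theorem slot_sub (b : ρ) (G X X' : Matrix κ κ ℂ) :
    slot b G (X - X') = slot b G X - slot b G X' := by
  rw [sub_eq_add_neg, slot_add, slot_neg, ← sub_eq_add_neg]

theorem slot_sum {τ : Type*} (t : Finset τ) (b : ρ) (G : Matrix κ κ ℂ) (X : τ → Matrix κ κ ℂ) :
    slot b G (∑ i ∈ t, X i) = ∑ i ∈ t, slot b G (X i) := by
  classical
  induction t using Finset.induction_on with
  | empty =>
    rw [Finset.sum_empty, Finset.sum_empty]
    ext f h
    simp [slot_apply]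
  | insert i t hi ih => rw [Finset.sum_insert hi, Finset.sum_insert hi, slot_add, ih]

theorem slot_psd (b : ρ) {G X : Matrix κ κ ℂ} (hG : G.PosSemidef) (hX : X.PosSemidef) :
    (slot b G X).PosSemidef := by
  refine prodM_psd fun a => ?_
  by_cases h : a = b
  · subst h; simpa using hX
  · rw [Function.update_of_ne h]; exact hG

/-! ### derivatives -/

theorem dM_KP {s : ℂ} {a : Fin n} {G : Cn n → Matrix κ κ ℂ} {z : Cn n}
    (hG : ∀ S T, DifferentiableAt ℝ (fun y => G y S T) z) :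
    dM s a (fun y => KP ρ (G y)) z = ∑ b, slot b (G z) (dM s a G z) := by
  ext f h
  rw [Matrix.sum_apply, dM_apply]
  have h1 : (fun y => KP ρ (G y) f h) = fun y => ∏ b ∈ univ, G y (f b) (h b) := by
    funext y; rfl
  rw [h1, dS_prod _ fun b _ => hG _ _]
  refine Finset.sum_congr rfl fun b _ => ?_
  rw [slot_apply]
  rfl

theorem dM_slot_one {s : ℂ} {a : Fin n} {X : Cn n → Matrix κ κ ℂ} {z : Cn n} (b : ρ)
    (hX : ∀ S T, DifferentiableAt ℝ (fun y => X y S T) z) :
    dM s a (fun y => slot b 1 (X y)) z = slot b 1 (dM s a X z) := by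
  ext f h
  rw [dM_apply, slot_apply]
  have h1 : (fun y => slot b (1 : Matrix κ κ ℂ) (X y) f h) = fun y =>
      (∏ a ∈ univ.erase b, (1 : Matrix κ κ ℂ) (f a) (h a)) * X y (f b) (h b) := by
    funext y; rw [slot_apply, mul_comm]
  rw [h1, dS_const_mul _ (hX _ _), mul_comm]
  rfl

theorem SmM.slot_one {X : Cn n → Matrix κ κ ℂ} {z : Cn n} (b : ρ) (hX : SmM z X) :
    SmM z (fun y => slot b (1 : Matrix κ κ ℂ) (X y)) := by
  intro f h
  simp only [slot_apply]
  exact (hX _ _).mul contDiffAt_const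

theorem dM_sum {ι κ τ : Type} {s : ℂ} {a : Fin n} (t : Finset τ)
    {X : τ → Cn n → Matrix ι κ ℂ} {z : Cn n} (hX : ∀ i ∈ t, SmM z (X i)) :
    dM s a (fun y => ∑ i ∈ t, X i y) z = ∑ i ∈ t, dM s a (X i) z := by
  ext S T
  rw [dM_apply, Matrix.sum_apply]
  have h1 : (fun y => (∑ i ∈ t, X i y) S T) = fun y => ∑ i ∈ t, X i y S T := by
    funext y; rw [Matrix.sum_apply]
  rw [h1, dS_sum _ fun i hi => (hX i hi S T).diff]
  rfl

/-- the lowered curvature as the derivative of the connection form -/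
theorem rm_eq {σ : Type} [Fintype σ] [DecidableEq σ] {G : Cn n → Matrix σ σ ℂ} {z : Cn n}
    (hG : SmM z G) (h0 : (G z).det ≠ 0) (c d : Fin n) :
    rm G z c d = - (G z * dM I d (fun y => (G y)⁻¹ * dM (-I) c G y) z) := by
  have hi : G z * (G z)⁻¹ = 1 := Matrix.mul_nonsing_inv _ (isUnit_iff_ne_zero.2 h0)
  rw [dM_mul (fun S T => (SmM.inv hG h0 S T).diff) (fun S T => (SmM.dM hG (-I) c S T).diff),
    dM_inv hG h0, Matrix.mul_add, ← Matrix.mul_assoc (G z) (G z)⁻¹, hi, Matrix.one_mul]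
  have h1 : G z * (-((G z)⁻¹ * dM I d G z * (G z)⁻¹) * dM (-I) c G z)
      = - (dM I d G z * (G z)⁻¹ * dM (-I) c G z) := by
    rw [Matrix.neg_mul, Matrix.mul_neg, ← Matrix.mul_assoc, ← Matrix.mul_assoc,
      ← Matrix.mul_assoc, hi, Matrix.one_mul]
  rw [h1]
  unfold rm
  rw [dM_comm hG]
  abel

theorem KP_inv {G : Matrix κ κ ℂ} (h0 : G.det ≠ 0) : (KP ρ G)⁻¹ = KP ρ G⁻¹ := by
  refine Matrix.inv_eq_right_inv ?_
  rw [← KP_mul, Matrix.mul_nonsing_inv _ (isUnit_iff_ne_zero.2 h0), KP_one]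

theorem KP_det_ne {G : Matrix κ κ ℂ} (h0 : G.det ≠ 0) : (KP ρ G).det ≠ 0 := by
  have h1 : KP ρ G * KP ρ G⁻¹ = 1 := by
    rw [← KP_mul, Matrix.mul_nonsing_inv _ (isUnit_iff_ne_zero.2 h0), KP_one]
  have h2 := congrArg Matrix.det h1
  rw [Matrix.det_mul, Matrix.det_one] at h2
  exact left_ne_zero_of_mul_eq_one h2

theorem SmM.KP' {G : Cn n → Matrix κ κ ℂ} {z : Cn n} (hG : SmM z G) :
    SmM z (fun y => KP ρ (G y)) := by
  intro F H
  simp only [Cram_747.KP, Matrix.of_apply]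
  exact contDiffAt_prod fun a _ => hG _ _

/-- **curvature of a Kronecker power** -/
theorem rm_KP {G : Cn n → Matrix κ κ ℂ} {z : Cn n} (hG : SmM z G) (h0 : (G z).det ≠ 0)
    (c d : Fin n) :
    rm (fun y => KP ρ (G y)) z c d = ∑ b, slot b (G z) (rm G z c d) := by
  rw [rm_eq (SmM.KP' hG) (KP_det_ne h0), rm_eq hG h0]
  set θ : Cn n → Matrix κ κ ℂ := fun y => (G y)⁻¹ * dM (-I) c G y with hθ
  have hθs : SmM z θ := SmM.mul (SmM.inv hG h0) (SmM.dM hG _ _)
  have h1 : (fun y => (KP ρ (G y))⁻¹ * dM (-I) c (fun y => KP ρ (G y)) y) =ᶠ[𝓝 z]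
      fun y => ∑ b, slot b 1 (θ y) := by
    filter_upwards [SmM.eventually hG, eventually_det_ne hG h0] with y hy hy0
    have hi : (G y)⁻¹ * G y = 1 := Matrix.nonsing_inv_mul _ (isUnit_iff_ne_zero.2 hy0)
    rw [KP_inv hy0, dM_KP hy, Matrix.mul_sum]
    refine Finset.sum_congr rfl fun b _ => ?_
    rw [← slot_self b (G y)⁻¹, ← slot_mul, hi]
  rw [dM_congr h1, dM_sum _ fun b _ => SmM.slot_one b hθs, Matrix.mul_sum,
    ← Finset.sum_neg_distrib]
  refine Finset.sum_congr rfl fun b _ => ?_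
  rw [dM_slot_one b fun S T => (hθs S T).diff, slot_neg, ← slot_self b (G z), ← slot_mul,
    Matrix.mul_one]

/-! ### the bound for `so` -/

theorem so_basis (P Q D : Matrix (Fin n) (Fin n) ℂ) :
    so (P * D * Q) (P * Q) = Gam P * so D 1 * Gam Q := by
  unfold so
  rw [Matrix.mul_sum, Matrix.sum_mul]
  have h1 : ∀ r, Gam P * (∑ s, D r s • (eW (ep r) * Gam 1 * iW (ep s))) * Gam Q
      = ∑ s, D r s • (eW (fun p => P p r) * Gam (P * Q) * iW (fun q => Q s q)) := by
    intro r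
    rw [Matrix.mul_sum, Matrix.sum_mul]
    refine Finset.sum_congr rfl fun s _ => ?_
    rw [Matrix.mul_smul, Matrix.smul_mul, Gam_one, Matrix.mul_one, ← Matrix.mul_assoc, Gam_eW_ep,
      Matrix.mul_assoc _ (iW (ep s)), iW_Gam, Gam_mul]
    have h2 : (Qᵀ *ᵥ ep s) = fun q => Q s q := by
      funext q
      simp [Matrix.mulVec, dotProduct, ep, Pi.single_apply]
    rw [h2]
    simp only [Matrix.mul_assoc]
  simp_rw [h1]
  have h3 : ∀ r s, D r s • (eW (fun p => P p r) * Gam (P * Q) * iW (fun q => Q s q))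
      = ∑ p, ∑ q, (P p r * D r s * Q s q) • (eW (ep p) * Gam (P * Q) * iW (ep q)) := by
    intro r s
    rw [eW_eq_sum, iW_eq_sum, Finset.sum_mul, Finset.sum_mul, Finset.smul_sum]
    refine Finset.sum_congr rfl fun p _ => ?_
    rw [Finset.mul_sum, Finset.smul_sum]
    refine Finset.sum_congr rfl fun q _ => ?_
    rw [Matrix.mul_smul, Matrix.smul_mul, Matrix.smul_mul, smul_smul, smul_smul]
    congr 1
    ring
  simp_rw [h3]
  have h4 : ∀ p q, (P * D * Q) p q = ∑ r, ∑ s, P p r * D r s * Q s q := by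
    intro p q
    rw [Matrix.mul_apply]
    simp only [Matrix.mul_apply, Finset.sum_mul]
    rw [Finset.sum_comm]
  simp_rw [h4, Finset.sum_smul]
  rw [Finset.sum_congr rfl fun p _ => Finset.sum_comm]
  rw [Finset.sum_comm]
  refine Finset.sum_congr rfl fun r _ => ?_
  rw [Finset.sum_congr rfl fun p _ => Finset.sum_congr rfl fun q _ => rfl]
  rw [Finset.sum_congr rfl fun p _ => Finset.sum_comm]
  rw [Finset.sum_comm]

theorem so_diag (d : Fin n → ℂ) :
    so (Matrix.diagonal d) 1 = ∑ p, d p • (eW (ep p) * iW (ep p)) := by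
  unfold so
  refine Finset.sum_congr rfl fun p _ => ?_
  rw [Finset.sum_eq_single p]
  · rw [Matrix.diagonal_apply_eq, Gam_one, Matrix.mul_one]
  · intro q _ hq
    rw [Matrix.diagonal_apply_ne _ (Ne.symm hq), zero_smul]
  · simp

theorem real_ep (j : Fin n) : (eW (ep j) : Matrix (FI n) (FI n) ℂ)ᴴ = iW (ep j) := by
  ext S T
  rw [Matrix.conjTranspose_apply]
  have h1 := congrFun (congrFun (eW_transpose (R := ℂ) (ep j : Fin n → ℂ)) S) T
  rw [Matrix.transpose_apply] at h1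
  rw [h1]
  have h2 := star_iW j (Pi.single T (1 : ℂ))
  have h3 := congrFun h2 S
  rw [Pi.star_apply] at h3
  have h4 : star (Pi.single T (1 : ℂ) : FI n → ℂ) = Pi.single T 1 := by
    funext U
    rw [Pi.star_apply]
    by_cases hU : U = T
    · subst hU; simp
    · simp [Pi.single_eq_of_ne hU]
  rw [h4, Matrix.mulVec_single_one, Matrix.col_apply] at h3
  exact h3

theorem one_sub_ei (p : Fin n) :
    (1 - eW (ep p) * iW (ep p) : Matrix (FI n) (FI n) ℂ).PosSemidef := by
  have h1 : (1 - eW (ep p) * iW (ep p) : Matrix (FI n) (FI n) ℂ)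
      = (eW (ep p))ᴴ * eW (ep p) := by
    rw [real_ep, iW_eW_ep]
    simp
  rw [h1]
  exact Matrix.posSemidef_conjTranspose_mul_self _

theorem so_le {K R : Matrix (Fin n) (Fin n) ℂ} (hK : K.PosDef) (hR : R.PosSemidef) :
    ((K⁻¹ * R).trace • Gam K - so R K).PosSemidef := by
  obtain ⟨B, d, hB, hd, hKB, hRB⟩ := FIlin_332.simd hK hR
  have h1 : (K⁻¹ * R).trace = ∑ p, (d p : ℂ) := by
    have hB' : B * B⁻¹ = 1 := Matrix.mul_nonsing_inv _ hB
    have hBH : IsUnit (Bᴴ).det := by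
      rw [Matrix.det_conjTranspose]; exact hB.star
    rw [hKB, hRB, Matrix.mul_inv_rev]
    have h2 : B⁻¹ * (Bᴴ)⁻¹ * (Bᴴ * Matrix.diagonal (fun i => (d i : ℂ)) * B)
        = B⁻¹ * (Matrix.diagonal (fun i => (d i : ℂ)) * B) := by
      rw [Matrix.mul_assoc, ← Matrix.mul_assoc (Bᴴ)⁻¹, ← Matrix.mul_assoc (Bᴴ)⁻¹,
        Matrix.nonsing_inv_mul _ hBH, Matrix.one_mul]
    rw [h2, Matrix.trace_mul_comm, Matrix.mul_assoc, hB', Matrix.mul_one, Matrix.trace_diagonal]
  have h3 : so R K = (Gam B)ᴴ * so (Matrix.diagonal fun i => (d i : ℂ)) 1 * Gam B := by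
    rw [hKB, hRB, so_basis, Gam_conjTranspose]
  have h4 : (K⁻¹ * R).trace • Gam K - so R K = (Gam B)ᴴ *
      (∑ p, (d p : ℂ) • (1 - eW (ep p) * iW (ep p))) * Gam B := by
    rw [h3, h1, so_diag]
    have h5 : Gam K = (Gam B)ᴴ * Gam B := by rw [hKB, Gam_mul, Gam_conjTranspose]
    rw [h5]
    simp only [smul_sub, Finset.sum_sub_distrib, ← Finset.sum_smul, Matrix.mul_sub, Matrix.sub_mul,
      Matrix.mul_smul, Matrix.smul_mul, Matrix.mul_one]
  rw [h4]
  refine Matrix.PosSemidef.conjTranspose_mul_mul_same ?_ _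
  refine Matrix.posSemidef_sum _ fun p _ => ?_
  refine (one_sub_ei p).smul ?_
  exact_mod_cast hd p

/-- the slots of `so` are bounded by the Kronecker power -/
theorem slot_so_le (b : ρ) {K R : Matrix (Fin n) (Fin n) ℂ} (hK : K.PosDef)
    (hR : R.PosSemidef) :
    ((K⁻¹ * R).trace • KP ρ (Gam K) - slot b (Gam K) (so R K)).PosSemidef := by
  rw [← slot_self b (Gam K), ← slot_smul, ← slot_sub]
  exact slot_psd b (Gam_posDef hK).posSemidef (so_le hK hR)

end

end Crest.Agent.R273.BochH_101
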