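import Crest.Agent.R273.BochH_101

/-!
# R273 (S0416), LEMMA FI leaf (b) (helper101): log-Bochner for arbitrary holomorphic tensors

* `boch_TS` : `K : Kah A`, `cur (volK K) = cur h` semipositive, `cur hN = m • cur h`,
  `τ : TS ρ N` : `LBo K h (tN K hN τ) (card ρ + m)`.
-/

set_option autoImplicit false
set_option linter.unusedSectionVars false

open Set Filter Topology Complex Matrix
open scoped ContDiff Matrix ComplexConjugate Manifold ComplexOrder

namespace Crest.Agent.R273.BochI_101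

open Crest.Agent.R275 Crest.Agent.R275.Geo Crest.Agent.R275.Core144
open Crest.Agent.R273.Defs_333 Crest.Agent.R273.HM_333 Crest.Agent.R273.Kah_333
open Crest.Agent.R273.Hess_333 Crest.Agent.R273.HessB_333 Crest.Agent.R273.Vol_333
open Crest.Agent.R273.Fock_243 Crest.Agent.R273.Calc_243 Crest.Agent.R273.Bkn_243
open Crest.Agent.R273.Pos_243 Crest.Agent.R273.BKNa_37 Crest.Agent.R273.NV_578
open Crest.Agent.R273.Cram_747 Crest.Agent.R273.FIb0_597 Crest.Agent.R273.FIa0_597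
open Crest.Agent.R273.BochA_101 Crest.Agent.R273.BochB_101 Crest.Agent.R273.BochC_101
open Crest.Agent.R273.BochD_101 Crest.Agent.R273.BochE_101 Crest.Agent.R273.BochF_101
open Crest.Agent.R273.BochH_101

noncomputable section

variable {n : ℕ} {M : Type} [TopologicalSpace M] {A : Atl n M} {N L L' : LB A}
  {ρ : Type} [Fintype ρ] [DecidableEq ρ]

/-- a vector as a matrix with one column -/
def uc {κ : Type} (t : κ → ℂ) : Matrix κ Unit ℂ := Matrix.of fun F _ => t F

theorem uc_mul {κ : Type} [Fintype κ] (t : κ → ℂ) (G : Matrix κ κ ℂ) :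
    (uc t)ᴴ * G * uc t = Matrix.of fun _ _ => star t ⬝ᵥ (G *ᵥ t) := by
  ext a b
  rw [Matrix.mul_assoc, Matrix.mul_apply]
  rfl

theorem tr_inv_nonneg {σ : Type} [Fintype σ] [DecidableEq σ] {M' X : Matrix σ σ ℂ}
    (hM : M'.PosDef) (hX : X.PosSemidef) : 0 ≤ (M'⁻¹ * X).trace := by
  obtain ⟨B, hB⟩ : ∃ B : Matrix σ σ ℂ, M'⁻¹ = Bᴴ * B := by
    open scoped MatrixOrder in
    exact CStarAlgebra.nonneg_iff_eq_star_mul_self.mp hM.inv.posSemidef.nonneg
  rw [hB, Matrix.mul_assoc, Matrix.trace_mul_comm]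
  exact (hX.mul_mul_conjTranspose_same B).trace_nonneg

/-- local form: `t` holomorphic, `K` Kähler with Ricci matrix `T ≥ 0` -/
theorem boch_loc {K : Cn n → Matrix (Fin n) (Fin n) ℂ} {t : Cn n → (ρ → FI n) → ℂ} {z : Cn n}
    (hK : ∀ᶠ y in 𝓝 z, SmM y K) (hp : ∀ᶠ y in 𝓝 z, (K y).PosDef)
    (hk : ∀ᶠ y in 𝓝 z, KahAt K y)
    (ht : ∀ F, ∀ᶠ y in 𝓝 z, DifferentiableAt ℂ (fun w => t w F) y)
    (hR : (Matrix.of (ric K z)).PosSemidef)
    (h0 : 0 < (nrm (Gam (K z)) (t z)).re) :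
    0 ≤ ∑ c, ∑ d, (K z)⁻¹ c d * hess (fun y => Real.log (nrm (Gam (K y)) (t y)).re) z c d
      + (Fintype.card ρ : ℂ) * ((K z)⁻¹ * (Matrix.of (ric K z))ᵀ).trace := by
  have hKz : SmM z K := hK.self_of_nhds
  have hpz := hp.self_of_nhds
  set G : Cn n → Matrix (ρ → FI n) (ρ → FI n) ℂ := fun y => KP ρ (Gam (K y)) with hGdef
  have hGam : SmM z (fun y => Gam (K y)) := SmM.Gam hKz
  have hG : ∀ᶠ y in 𝓝 z, SmM y G := by
    filter_upwards [hK] with y hy
    exact SmM.KP' (SmM.Gam hy)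
  have hGp' : ∀ y, (K y).PosDef → (G y).PosDef := by
    intro y hy
    refine (KP_posSemidef (Gam_posDef hy).posSemidef).posDef_iff_isUnit.2 ?_
    rw [Matrix.isUnit_iff_isUnit_det]
    exact isUnit_iff_ne_zero.2 (KP_det_ne (Gam_posDef hy).det_pos.ne')
  have hGh : ∀ᶠ y in 𝓝 z, (G y).IsHermitian := by
    filter_upwards [hp] with y hy
    exact (hGp' y hy).isHermitian
  have hGp : (G z).PosDef := hGp' z hpz
  have hK0 : (K z).det ≠ 0 := hpz.det_pos.ne'
  have hGa0 : (Gam (K z)).det ≠ 0 := (Gam_posDef hpz).det_pos.ne'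
  have hG0 : (G z).det ≠ 0 := hGp.det_pos.ne'
  set V : Cn n → Matrix (ρ → FI n) Unit ℂ := fun y => uc (t y) with hV
  have hVh : HolM z V := fun S _ => ht S
  -- the determinant is the norm
  have hdet : ∀ y, ((V y)ᴴ * G y * V y).det = nrm (Gam (K y)) (t y) := by
    intro y
    rw [uc_mul, Matrix.det_unique]
    rfl
  have h0' : 0 < ((V z)ᴴ * G z * V z).det.re := by rw [hdet]; exact h0
  set M' : Matrix Unit Unit ℂ := (V z)ᴴ * G z * V z with hM'def
  have hMne : M'.det ≠ 0 := by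
    intro h
    rw [h] at h0'
    simp at h0'
  have hMp : M'.PosDef := by
    refine (hGp.posSemidef.conjTranspose_mul_mul_same (V z)).posDef_iff_isUnit.2 ?_
    rw [Matrix.isUnit_iff_isUnit_det]
    exact isUnit_iff_ne_zero.2 hMne
  have h1 := gram_pos hGp.posSemidef hMp.inv.posSemidef hpz.inv.posSemidef
    (fun c => WW (G z) (G z)⁻¹ (V z) M'⁻¹ (dM (-I) c V z) (dM (-I) c G z))
  -- the contracted curvature
  set R : Matrix (Fin n) (Fin n) ℂ := (Matrix.of (ric K z))ᵀ with hRdef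
  have h2 : ∑ c, ∑ d, (K z)⁻¹ c d * (M'⁻¹ * ((V z)ᴴ * rm G z c d * V z)).trace
      = (M'⁻¹ * ((V z)ᴴ * (∑ b : ρ, slot b (Gam (K z)) (so R (K z))) * V z)).trace := by
    have h3 : R = ∑ c, ∑ d, (K z)⁻¹ c d • rm K z c d := by
      ext b a
      rw [hRdef, Matrix.transpose_apply, Matrix.of_apply, ← tr_rm hKz hk, Matrix.sum_apply]
      refine Finset.sum_congr rfl fun c _ => ?_
      rw [Matrix.sum_apply]
      rfl
    have h4 : ∑ b : ρ, slot b (Gam (K z)) (so R (K z))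
        = ∑ c, ∑ d, (K z)⁻¹ c d • rm G z c d := by
      have h5 : ∀ c d, rm G z c d = ∑ b : ρ, slot b (Gam (K z)) (so (rm K z c d) (K z)) := by
        intro c d
        rw [hGdef, rm_KP hGam hGa0]
        refine Finset.sum_congr rfl fun b _ => ?_
        rw [rm_Gam hK hK0]
      simp_rw [h5, Finset.smul_sum, ← slot_smul, ← so_smul]
      rw [h3]
      have h6 : ∀ b : ρ, slot b (Gam (K z)) (so (∑ c, ∑ d, (K z)⁻¹ c d • rm K z c d) (K z))
          = ∑ c, ∑ d, slot b (Gam (K z)) (so ((K z)⁻¹ c d • rm K z c d) (K z)) := by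
        intro b
        rw [so_sum, slot_sum]
        refine Finset.sum_congr rfl fun c _ => ?_
        rw [so_sum, slot_sum]
      simp_rw [h6]
      rw [Finset.sum_comm]
      exact Finset.sum_congr rfl fun c _ => Finset.sum_comm
    rw [h4, Matrix.mul_sum, Matrix.sum_mul, Matrix.mul_sum, Matrix.trace_sum]
    refine Finset.sum_congr rfl fun c _ => ?_
    rw [Matrix.mul_sum, Matrix.sum_mul, Matrix.mul_sum, Matrix.trace_sum]
    refine Finset.sum_congr rfl fun d _ => ?_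
    rw [Matrix.mul_smul, Matrix.smul_mul, Matrix.mul_smul, Matrix.trace_smul, smul_eq_mul]
  -- the bound
  have hRp : R.PosSemidef := hR.transpose
  have h7 : (((Fintype.card ρ : ℂ) * ((K z)⁻¹ * R).trace) • G z
      - ∑ b : ρ, slot b (Gam (K z)) (so R (K z))).PosSemidef := by
    have h8 : ((Fintype.card ρ : ℂ) * ((K z)⁻¹ * R).trace) • G z
        - ∑ b : ρ, slot b (Gam (K z)) (so R (K z))
        = ∑ b : ρ, (((K z)⁻¹ * R).trace • KP ρ (Gam (K z))
          - slot b (Gam (K z)) (so R (K z))) := by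
      rw [Finset.sum_sub_distrib, Finset.sum_const, Finset.card_univ, ← smul_assoc, nsmul_eq_mul]
    rw [h8]
    exact Matrix.posSemidef_sum _ fun b _ => slot_so_le b hpz hRp
  have h9 := tr_inv_nonneg hMp (h7.conjTranspose_mul_mul_same (V z))
  have h10 : (M'⁻¹ * ((V z)ᴴ * (((Fintype.card ρ : ℂ) * ((K z)⁻¹ * R).trace) • G z
      - ∑ b : ρ, slot b (Gam (K z)) (so R (K z))) * V z)).trace
      = (Fintype.card ρ : ℂ) * ((K z)⁻¹ * R).trace
        - (M'⁻¹ * ((V z)ᴴ * (∑ b : ρ, slot b (Gam (K z)) (so R (K z))) * V z)).trace := by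
    rw [Matrix.mul_sub, Matrix.sub_mul, Matrix.mul_sub, Matrix.trace_sub, Matrix.mul_smul,
      Matrix.smul_mul, Matrix.mul_smul, Matrix.trace_smul, ← hM'def,
      Matrix.nonsing_inv_mul _ (isUnit_iff_ne_zero.2 hMne), Matrix.trace_one]
    simp
  rw [h10] at h9
  have h11 : ∑ c, ∑ d, (K z)⁻¹ c d * hess (fun y => Real.log (nrm (Gam (K y)) (t y)).re) z c d
      = ∑ c, ∑ d, (K z)⁻¹ c d * (M'⁻¹ * ((WW (G z) (G z)⁻¹ (V z) M'⁻¹ (dM (-I) d V z)
          (dM (-I) d G z))ᴴ * G z * WW (G z) (G z)⁻¹ (V z) M'⁻¹ (dM (-I) c V z)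
          (dM (-I) c G z))).trace
        - ∑ c, ∑ d, (K z)⁻¹ c d * (M'⁻¹ * ((V z)ᴴ * rm G z c d * V z)).trace := by
    rw [← Finset.sum_sub_distrib]
    refine Finset.sum_congr rfl fun c _ => ?_
    rw [← Finset.sum_sub_distrib]
    refine Finset.sum_congr rfl fun d _ => ?_
    have h12 := hess_gram hG hGh hG0 hVh h0' c d
    simp_rw [hdet] at h12
    rw [h12, mul_sub]
  rw [h11, h2]
  have h13 := add_nonneg h1 h9
  refine h13.trans (le_of_eq ?_)
  ring

/-- **log-Bochner for arbitrary holomorphic tensors** -/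
theorem boch_TS {K : Kah A} {h : HM L'} {hN : HM N} {m : ℝ} (hs : h.Semipos)
    (hc : ∀ i, ∀ x ∈ (A.e i).source, cur (volK K) i x = cur h i x)
    (hm : ∀ i, ∀ x ∈ (A.e i).source, cur hN i x = (m : ℂ) • cur h i x)
    {τ : A.ι → M → (ρ → FI n) → ℂ} (hτ : TS ρ N τ) :
    LBo K h (tN K hN τ) (Fintype.card ρ + m) := by
  intro i x hx h0
  have hz := (A.e i).map_source hx
  have hxx := (A.e i).left_inv hx
  have hnt : ∀ᶠ y in 𝓝 (A.e i x), y ∈ (A.e i).target := (A.e i).open_target.mem_nhds hz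
  set t : Cn n → (ρ → FI n) → ℂ := fun y => τ i ((A.e i).symm y) with htd
  have ht : ∀ F, ∀ᶠ y in 𝓝 (A.e i x), DifferentiableAt ℂ (fun w => t w F) y :=
    fun F => holAt_sm (hτ.hol i F) hz
  have e1 : ∀ y ∈ (A.e i).target, tN K hN τ ((A.e i).symm y)
      = (nrm (Gam (Kr K i y)) (t y)).re * hN.w i ((A.e i).symm y) := fun y hy =>
    tN_eq K hN hτ ((A.e i).map_target hy)
  have h0' : 0 < (nrm (Gam (Kr K i (A.e i x))) (t (A.e i x))).re := by
    rw [← hxx, e1 _ hz] at h0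
    have hw := hN.pos i _ ((A.e i).map_target hz)
    by_contra hcon
    push Not at hcon
    exact absurd h0 (not_lt.2 (mul_nonpos_of_nonpos_of_nonneg hcon hw.le))
  have hGs : ∀ᶠ y in 𝓝 (A.e i x), SmM y (Kr K i) := hnt.mono fun y hy => smM_Kr K i hy
  have hDs : Sm (A.e i x) (fun y => nrm (Gam (Kr K i y)) (t y)) :=
    sm_nrm (SmM.Gam hGs.self_of_nhds) fun F => sm_of_hol (ht F)
  have hDr : ContDiffAt ℝ ∞ (fun y => (nrm (Gam (Kr K i y)) (t y)).re) (A.e i x) :=
    Complex.reCLM.contDiff.contDiffAt.comp _ hDs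
  have hDl : ContDiffAt ℝ ∞ (fun y => Real.log (nrm (Gam (Kr K i y)) (t y)).re)
      (A.e i x) := hDr.log h0'.ne'
  have hwt := wt_contDiffAt hN i hz
  have e2 : (fun y => Real.log (tN K hN τ ((A.e i).symm y))) =ᶠ[𝓝 (A.e i x)]
      fun y => Real.log (nrm (Gam (Kr K i y)) (t y)).re - hN.wt i y := by
    filter_upwards [hnt, hDr.continuousAt.eventually (lt_mem_nhds h0')] with y hy hy'
    have hw := hN.pos i _ ((A.e i).map_target hy)
    rw [e1 y hy, Real.log_mul (ne_of_gt hy') hw.ne']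
    unfold HM.wt
    ring
  have e3 : hsf A (fun y => Real.log (tN K hN τ y)) i x
      = hess (fun y => Real.log (nrm (Gam (Kr K i y)) (t y)).re) (A.e i x)
        - (m : ℂ) • cur h i x := by
    unfold hsf
    rw [hess_congr e2, hess_sub hDl hwt, ← hm i x hx]
    rfl
  have e4 : trC K (hsf A fun y => Real.log (tN K hN τ y)) i x
      = ∑ c, ∑ d, (Kr K i (A.e i x))⁻¹ c d *
        hess (fun y => Real.log (nrm (Gam (Kr K i y)) (t y)).re) (A.e i x) c d
        - (m : ℂ) * trC K (cur h) i x := by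
    rw [← trC_sum K (fun _ _ => hess (fun y => Real.log (nrm (Gam (Kr K i y)) (t y)).re)
      (A.e i x)) hx]
    unfold trC
    rw [e3, Matrix.mul_sub, Matrix.trace_sub, Matrix.mul_smul, Matrix.trace_smul, smul_eq_mul]
  have hric : Matrix.of (ric (Kr K i) (A.e i x)) = cur h i x := by
    rw [ric_eq K i hx, hc i x hx]
  have key := boch_loc hGs (hnt.mono fun y hy => Kr_posDef K i hy)
    (hnt.mono fun y hy => kahAt K i hy) ht
    (by rw [hric]; exact cur_posSemidef hs i hx) h0'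
  have e5 : ((Kr K i (A.e i x))⁻¹ * (Matrix.of (ric (Kr K i) (A.e i x)))ᵀ).trace
      = trC K (cur h) i x := by
    rw [hric]
    unfold trC Kr
    rw [hxx, ← Matrix.transpose_nonsing_inv, ← Matrix.transpose_mul, Matrix.trace_transpose,
      Matrix.trace_mul_comm]
  rw [e5] at key
  have key2 := (Complex.le_def.1 key).1
  have e6 : ((Fintype.card ρ : ℂ) * trC K (cur h) i x).re
      = (Fintype.card ρ : ℝ) * (trC K (cur h) i x).re := by
    rw [← Complex.ofReal_natCast, Complex.re_ofReal_mul]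
  rw [Complex.add_re, e6, Complex.zero_re] at key2
  rw [e4, Complex.sub_re, Complex.re_ofReal_mul]
  linarith

end

end Crest.Agent.R273.BochI_101
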