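import Crest.Agent.R275.Geo_509
import Crest.Agent.R208.N1
import Crest.Agent.R226.EucMin_77

/-!
# R273 / Yau C⁰ estimate (helper793), part a

* `gr u x`      : the real gradient of `u : ℂⁿ → ℝ`, written as a complex vector;
* `ch u z a b`  : the complex Hessian `∂_a ∂_b̄ u`;
* `abs_det_le`  : `|det_ℝ D²u| ≤ 16ⁿ |det (∂_a ∂_b̄ u)|²` where `D²u ≥ 0`;
* `abp`         : the contact set inequality (Aleksandrov-Bakelman-Pucci) on a ball.
-/

set_option autoImplicit false
set_option linter.unusedSectionVars false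

open Set Filter Topology Complex MeasureTheory
open scoped ContDiff Matrix ComplexConjugate

namespace Crest.Agent.R273.C0a_793

open Crest.Agent.R275.Geo

noncomputable section

variable {n : ℕ}

/-- basis vector `e_a` -/
abbrev ea (a : Fin n) : Cn n := EuclideanSpace.single a (1 : ℂ)

/-- basis vector `i e_a` -/
abbrev ia (a : Fin n) : Cn n := EuclideanSpace.single a (Complex.I)

/-- the real linear isomorphism from real functionals to vectors (as a linear map). -/
def PhiL (n : ℕ) : (Cn n →L[ℝ] ℝ) →ₗ[ℝ] Cn n where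
  toFun l := WithLp.toLp 2 (fun a => (l (ea a) : ℂ) + (l (ia a) : ℂ) * I)
  map_add' l m := by
    ext a
    simp
    ring
  map_smul' c l := by
    ext a
    simp
    ring

/-- continuous version. -/
def Phi (n : ℕ) : (Cn n →L[ℝ] ℝ) →L[ℝ] Cn n := LinearMap.toContinuousLinearMap (PhiL n)

theorem Phi_apply (l : Cn n →L[ℝ] ℝ) (a : Fin n) :
    Phi n l a = (l (ea a) : ℂ) + (l (ia a) : ℂ) * I := rfl

/-- the real gradient. -/
def gr (u : Cn n → ℝ) (x : Cn n) : Cn n := Phi n (fderiv ℝ u x)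

/-- the real Hessian as an operator. -/
def hsL (u : Cn n → ℝ) (x : Cn n) : Cn n →L[ℝ] Cn n := (Phi n).comp (fderiv ℝ (fderiv ℝ u) x)

theorem hasFDerivAt_gr {u : Cn n → ℝ} {x : Cn n} (hu : ContDiffAt ℝ 2 u x) :
    HasFDerivAt (gr u) (hsL u x) x := by
  have h1 : ContDiffAt ℝ 1 (fderiv ℝ u) x := hu.fderiv_right (by norm_num)
  have h2 : HasFDerivAt (fderiv ℝ u) (fderiv ℝ (fderiv ℝ u) x) x :=
    (h1.differentiableAt (by simp)).hasFDerivAt
  exact (Phi n).hasFDerivAt.comp x h2

/-- complex Hessian `∂_a ∂_b̄ u`. -/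
def ch (u : Cn n → ℝ) (z : Cn n) (a b : Fin n) : ℂ :=
  (1 / 4 : ℂ) * (((fderiv ℝ (fderiv ℝ u) z (ea a) (ea b) + fderiv ℝ (fderiv ℝ u) z (ia a) (ia b) : ℝ) : ℂ)
    + ((fderiv ℝ (fderiv ℝ u) z (ea a) (ia b) - fderiv ℝ (fderiv ℝ u) z (ia a) (ea b) : ℝ) : ℂ) * I)

/-- complex Hessian matrix. -/
def chM (u : Cn n → ℝ) (z : Cn n) : Matrix (Fin n) (Fin n) ℂ := Matrix.of (ch u z)

/-- real basis of `ℂⁿ`. -/
def rb (n : ℕ) : Module.Basis (Fin 2 × Fin n) ℝ (Cn n) :=
  Complex.basisOneI.smulTower (EuclideanSpace.basisFun (Fin n) ℂ).toBasis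

theorem rb_zero (a : Fin n) : rb n (0, a) = ea a := by
  unfold rb
  rw [Module.Basis.smulTower_apply]
  simp

theorem rb_one (a : Fin n) : rb n (1, a) = ia a := by
  unfold rb
  rw [Module.Basis.smulTower_apply]
  simp only [Complex.coe_basisOneI, Matrix.cons_val_one, OrthonormalBasis.coe_toBasis,
    EuclideanSpace.basisFun_apply]
  ext b
  by_cases h : b = a
  · subst h; simp
  · simp [h]

theorem rb_repr (v : Cn n) (p : Fin 2 × Fin n) :
    (rb n).repr v p = if p.1 = 0 then (v p.2).re else (v p.2).im := by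
  unfold rb
  obtain ⟨i, a⟩ := p
  rw [Module.Basis.smulTower_repr]
  fin_cases i <;> simp

/-- the real Hessian matrix in the basis `rb`. -/
def hR (D : Cn n →L[ℝ] Cn n →L[ℝ] ℝ) : Matrix (Fin 2 × Fin n) (Fin 2 × Fin n) ℝ :=
  Matrix.of (fun p q => D (rb n q) (rb n p))

theorem toMatrix_Phi (D : Cn n →L[ℝ] Cn n →L[ℝ] ℝ) :
    LinearMap.toMatrix (rb n) (rb n) ((Phi n).comp D : Cn n →L[ℝ] Cn n).toLinearMap = hR D := by
  ext p q
  rw [LinearMap.toMatrix_apply, rb_repr]
  obtain ⟨i, a⟩ := p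
  fin_cases i
  · simp [hR, rb_zero, Phi_apply]
  · simp [hR, rb_one, Phi_apply]

/-- the complex linear part of the Hessian operator, times 2. -/
def cL (D : Cn n →L[ℝ] Cn n →L[ℝ] ℝ) : Cn n →ₗ[ℂ] Cn n where
  toFun v := Phi n (D v) - I • Phi n (D (I • v))
  map_add' v w := by
    simp only [smul_add, map_add]
    abel
  map_smul' c v := by
    have hc : c • v = (c.re : ℝ) • v + (c.im : ℝ) • (I • v) := by
      ext a
      simp only [PiLp.smul_apply, PiLp.add_apply, Complex.real_smul, smul_eq_mul]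
      linear_combination (-(v a)) * (Complex.re_add_im c)
    have hc2 : I • (c • v) = (c.re : ℝ) • (I • v) - (c.im : ℝ) • v := by
      ext a
      simp only [PiLp.smul_apply, PiLp.sub_apply, Complex.real_smul, smul_eq_mul]
      linear_combination (-(I * v a)) * (Complex.re_add_im c) + (c.im : ℂ) * v a * I_mul_I
    rw [hc2, hc]
    simp only [map_add, map_smul, map_sub, RingHom.id_apply]
    ext a
    simp only [PiLp.smul_apply, PiLp.sub_apply, PiLp.add_apply, Complex.real_smul, smul_eq_mul]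
    linear_combination ((Phi n (D v)).ofLp a - I * (Phi n (D (I • v))).ofLp a)
      * (Complex.re_add_im c) + (c.im : ℂ) * (Phi n (D (I • v))).ofLp a * I_mul_I

/-- real matrix of `cL`. -/
def hC (D : Cn n →L[ℝ] Cn n →L[ℝ] ℝ) : Matrix (Fin 2 × Fin n) (Fin 2 × Fin n) ℝ :=
  Matrix.of (fun p q => D (rb n q) (rb n p) + D (I • rb n q) (I • rb n p))

theorem I_smul_ea (a : Fin n) : I • ea a = ia a := by
  ext b
  by_cases h : b = a
  · subst h; simp
  · simp [h]

theorem I_smul_ia (a : Fin n) : I • ia a = -ea a := by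
  ext b
  by_cases h : b = a
  · subst h; simp
  · simp [h]

theorem toMatrix_cL_real (D : Cn n →L[ℝ] Cn n →L[ℝ] ℝ) :
    LinearMap.toMatrix (rb n) (rb n) ((cL D).restrictScalars ℝ) = hC D := by
  ext p q
  rw [LinearMap.toMatrix_apply, rb_repr]
  obtain ⟨i, a⟩ := p
  fin_cases i
  · simp [hC, rb_zero, Phi_apply, cL, I_smul_ea]
  · simp [hC, rb_one, Phi_apply, cL, I_smul_ia, sub_eq_add_neg]

theorem toMatrix_cL_complex (u : Cn n → ℝ) (x : Cn n) :
    LinearMap.toMatrix (EuclideanSpace.basisFun (Fin n) ℂ).toBasis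
      (EuclideanSpace.basisFun (Fin n) ℂ).toBasis (cL (fderiv ℝ (fderiv ℝ u) x))
      = (4 : ℂ) • (chM u x)ᵀ := by
  ext a b
  rw [LinearMap.toMatrix_apply]
  simp only [OrthonormalBasis.coe_toBasis, EuclideanSpace.basisFun_apply,
    OrthonormalBasis.coe_toBasis_repr_apply, EuclideanSpace.basisFun_repr, cL, LinearMap.coe_mk,
    AddHom.coe_mk, I_smul_ea, PiLp.sub_apply, PiLp.smul_apply, Phi_apply, smul_eq_mul,
    Matrix.smul_apply, Matrix.transpose_apply, chM, ch, Matrix.of_apply]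
  push_cast
  linear_combination (-(fderiv ℝ (fderiv ℝ u) x (ia b) (ia a) : ℂ)) * I_mul_I

theorem det_cL (u : Cn n → ℝ) (x : Cn n) :
    LinearMap.det (cL (fderiv ℝ (fderiv ℝ u) x)) = 4 ^ n * (chM u x).det := by
  rw [← LinearMap.det_toMatrix (EuclideanSpace.basisFun (Fin n) ℂ).toBasis,
    toMatrix_cL_complex, Matrix.det_smul, Matrix.det_transpose]
  simp

theorem det_hC (u : Cn n → ℝ) (x : Cn n) :
    (hC (fderiv ℝ (fderiv ℝ u) x)).det = 16 ^ n * ‖(chM u x).det‖ ^ 2 := by
  rw [← toMatrix_cL_real, LinearMap.det_toMatrix, LinearMap.det_restrictScalars,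
    Algebra.norm_complex_apply, det_cL, Complex.normSq_eq_norm_sq, norm_mul, norm_pow, mul_pow]
  congr 1
  rw [← pow_mul, mul_comm n 2, pow_mul]
  norm_num

/-- quadratic form of `hR`. -/
theorem hR_form (D : Cn n →L[ℝ] Cn n →L[ℝ] ℝ) (z : Fin 2 × Fin n → ℝ) :
    z ⬝ᵥ (hR D *ᵥ z) = D (∑ p, z p • rb n p) (∑ p, z p • rb n p) := by
  simp only [dotProduct, Matrix.mulVec, hR, Matrix.of_apply, map_sum, map_smul,
    FunLike.coe_sum, Finset.sum_apply, FunLike.coe_smul, Pi.smul_apply,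
    smul_eq_mul]
  refine Finset.sum_congr rfl fun p _ => ?_
  rw [Finset.mul_sum, Finset.mul_sum]
  refine Finset.sum_congr rfl fun q _ => ?_
  ring

theorem posSemidef_of_form {m : Type*} [Fintype m] {M : Matrix m m ℝ}
    (hs : ∀ p q, M p q = M q p) (hf : ∀ z : m → ℝ, 0 ≤ z ⬝ᵥ (M *ᵥ z)) : M.PosSemidef := by
  refine Matrix.PosSemidef.of_dotProduct_mulVec_nonneg ?_ ?_
  · ext p q
    simp [hs q p]
  · intro z
    simpa using hf z

/-- determinant comparison. -/
theorem abs_det_le {u : Cn n → ℝ} {x : Cn n} (hu : ContDiffAt ℝ 2 u x)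
    (hpos : ∀ v, 0 ≤ fderiv ℝ (fderiv ℝ u) x v v) :
    |(hsL u x).det| ≤ 16 ^ n * ‖(chM u x).det‖ ^ 2 := by
  set D := fderiv ℝ (fderiv ℝ u) x with hD
  have hsymm : ∀ v w, D v w = D w v := by
    have hs : IsSymmSndFDerivAt ℝ u x := hu.isSymmSndFDerivAt (by simp)
    intro v w
    exact hs v w
  have h1 : (hsL u x).det = (hR D).det := by
    have : (hsL u x).det = LinearMap.det ((Phi n).comp D : Cn n →L[ℝ] Cn n).toLinearMap := rfl
    rw [this, ← LinearMap.det_toMatrix (rb n), toMatrix_Phi]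
  have hP1 : (hR D).PosSemidef := by
    refine posSemidef_of_form (fun p q => hsymm _ _) (fun z => ?_)
    rw [hR_form]
    exact hpos _
  have hP2 : (hC D - hR D).PosSemidef := by
    refine posSemidef_of_form (fun p q => ?_) (fun z => ?_)
    · simp only [hC, hR, Matrix.sub_apply, Matrix.of_apply, add_sub_cancel_left]
      exact hsymm _ _
    · have e : z ⬝ᵥ ((hC D - hR D) *ᵥ z)
          = D (∑ p, z p • (I • rb n p)) (∑ p, z p • (I • rb n p)) := by
        simp only [dotProduct, Matrix.mulVec, hC, hR, Matrix.sub_apply, Matrix.of_apply,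
          add_sub_cancel_left, map_sum, map_smul, FunLike.coe_sum, Finset.sum_apply,
          FunLike.coe_smul, Pi.smul_apply, smul_eq_mul]
        refine Finset.sum_congr rfl fun p _ => ?_
        rw [Finset.mul_sum, Finset.mul_sum]
        refine Finset.sum_congr rfl fun q _ => ?_
        ring
      rw [e]
      exact hpos _
  rw [h1, abs_of_nonneg hP1.det_nonneg, ← det_hC]
  exact Crest.Agent.R208.N.det_mono hP1 hP2

/-! ### the contact set inequality -/

/-- real pairing with `p`. -/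
def pair (p : Cn n) : Cn n →L[ℝ] ℝ :=
  Complex.reCLM.comp ((innerSL ℂ p).restrictScalars ℝ)

theorem pair_apply (p w : Cn n) : pair p w = (inner ℂ p w).re := rfl

theorem abs_pair_le (p w : Cn n) : |pair p w| ≤ ‖p‖ * ‖w‖ := by
  rw [pair_apply]
  exact (Complex.abs_re_le_norm _).trans (norm_inner_le_norm p w)

theorem Phi_pair (p : Cn n) : Phi n (pair p) = p := by
  ext a
  rw [Phi_apply, pair_apply, pair_apply, EuclideanSpace.inner_single_right,
    EuclideanSpace.inner_single_right]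
  apply Complex.ext
  · simp
  · simp

/-- the contact set. -/
def contact (u : Cn n → ℝ) (z : Cn n) (r c : ℝ) : Set (Cn n) :=
  {x | x ∈ Metric.ball z r ∧ u x < u z + c ∧ ∀ v, 0 ≤ fderiv ℝ (fderiv ℝ u) x v v}

theorem measurableSet_contact {u : Cn n → ℝ} {z : Cn n} {r c : ℝ}
    (hu : ∀ x ∈ Metric.closedBall z r, ContDiffAt ℝ 2 u x) :
    MeasurableSet (contact u z r c) := by
  have hc1 : ContinuousOn u (Metric.ball z r) := fun x hx =>
    ((hu x (Metric.ball_subset_closedBall hx)).continuousAt).continuousWithinAt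
  have hc2 : ContinuousOn (fun x => fderiv ℝ (fderiv ℝ u) x) (Metric.ball z r) := fun x hx => by
    have h1 : ContDiffAt ℝ 1 (fderiv ℝ u) x :=
      (hu x (Metric.ball_subset_closedBall hx)).fderiv_right (by norm_num)
    have h2 : ContDiffAt ℝ 0 (fderiv ℝ (fderiv ℝ u)) x := h1.fderiv_right (by norm_num)
    exact h2.continuousAt.continuousWithinAt
  have h1 : MeasurableSet (Metric.ball z r ∩ u ⁻¹' Set.Iio (u z + c)) :=
    (hc1.isOpen_inter_preimage Metric.isOpen_ball isOpen_Iio).measurableSet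
  have hcl : IsClosed {D : Cn n →L[ℝ] Cn n →L[ℝ] ℝ | ∀ v, 0 ≤ D v v} := by
    have : {D : Cn n →L[ℝ] Cn n →L[ℝ] ℝ | ∀ v, 0 ≤ D v v}
        = ⋂ v : Cn n, {D : Cn n →L[ℝ] Cn n →L[ℝ] ℝ | 0 ≤ D v v} := by
      ext D; simp
    rw [this]
    refine isClosed_iInter fun v => isClosed_le continuous_const ?_
    fun_prop
  have h2 : MeasurableSet (Metric.ball z r ∩ (fun x => fderiv ℝ (fderiv ℝ u) x) ⁻¹'
      {D : Cn n →L[ℝ] Cn n →L[ℝ] ℝ | ∀ v, 0 ≤ D v v}ᶜ) :=
    (hc2.isOpen_inter_preimage Metric.isOpen_ball hcl.isOpen_compl).measurableSet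
  have h3 : contact u z r c = (Metric.ball z r ∩ u ⁻¹' Set.Iio (u z + c)) \
      (Metric.ball z r ∩ (fun x => fderiv ℝ (fderiv ℝ u) x) ⁻¹'
        {D : Cn n →L[ℝ] Cn n →L[ℝ] ℝ | ∀ v, 0 ≤ D v v}ᶜ) := by
    ext x
    simp only [contact, Set.mem_setOf_eq, Set.mem_diff, Set.mem_inter_iff, Set.mem_preimage,
      Set.mem_Iio, Set.mem_compl_iff, not_and, not_not]
    constructor
    · rintro ⟨a, b, c⟩
      exact ⟨⟨a, b⟩, fun _ => c⟩
    · rintro ⟨⟨a, b⟩, c⟩
      exact ⟨a, b, c a⟩
  rw [h3]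
  exact h1.diff h2

/-- **ABP, covering form.** -/
theorem ball_subset_image {u : Cn n → ℝ} {z : Cn n} {r c : ℝ} (hr : 0 < r)
    (hu : ∀ x ∈ Metric.closedBall z r, ContDiffAt ℝ 2 u x)
    (hb : ∀ x ∈ Metric.sphere z r, u z + c ≤ u x) :
    Metric.ball (0 : Cn n) (c / r) ⊆ gr u '' (contact u z r c) := by
  intro p hp
  have hpn : ‖p‖ < c / r := by simpa using hp
  have hpr : ‖p‖ * r < c := by rwa [lt_div_iff₀ hr] at hpn
  set f : Cn n → ℝ := fun x => u x - pair p (x - z) with hf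
  have hfc : ContinuousOn f (Metric.closedBall z r) := by
    intro x hx
    have h1 := (hu x hx).continuousAt.continuousWithinAt (s := Metric.closedBall z r)
    exact h1.sub (by fun_prop)
  obtain ⟨x, hx, hmin⟩ := (isCompact_closedBall z r).exists_isMinOn
    ⟨z, Metric.mem_closedBall_self hr.le⟩ hfc
  have hz : f x ≤ f z := hmin (Metric.mem_closedBall_self hr.le)
  have hfz : f z = u z := by simp [hf]
  have hxz : ‖x - z‖ ≤ r := by simpa [dist_eq_norm] using hx
  have hb2 : |pair p (x - z)| ≤ ‖p‖ * r :=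
    (abs_pair_le p (x - z)).trans (mul_le_mul_of_nonneg_left hxz (norm_nonneg _))
  have hxb : x ∈ Metric.ball z r := by
    rw [Metric.mem_ball]
    refine lt_of_le_of_ne (Metric.mem_closedBall.1 hx) fun h => ?_
    have h1 := hb x (by rwa [Metric.mem_sphere])
    have h2 := (abs_le.1 hb2).2
    have h3 : f x = u x - pair p (x - z) := rfl
    linarith
  have hlm : IsLocalMin f x := by
    have : Metric.closedBall z r ∈ 𝓝 x :=
      mem_of_superset (Metric.isOpen_ball.mem_nhds hxb) Metric.ball_subset_closedBall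
    exact hmin.isLocalMin this
  have hux := hu x hx
  have hfx : ContDiffAt ℝ 2 f x := hux.sub (by fun_prop)
  have hd1 : ∀ᶠ y in 𝓝 x, fderiv ℝ f y = fderiv ℝ u y - pair p := by
    filter_upwards [hux.eventually (by simp)] with y hy
    have h1 : DifferentiableAt ℝ u y := hy.differentiableAt (by norm_num)
    have h2 : HasFDerivAt (fun x => pair p (x - z)) (pair p) y := by
      have := (pair p).hasFDerivAt (x := y - z)
      exact this.comp y ((hasFDerivAt_id y).sub_const z)
    exact (h1.hasFDerivAt.sub h2).fderiv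
  have hd2 : fderiv ℝ (fderiv ℝ f) x = fderiv ℝ (fderiv ℝ u) x := by
    rw [Filter.EventuallyEq.fderiv_eq hd1]
    exact fderiv_sub_const _
  have hg : fderiv ℝ u x = pair p := by
    have h1 := hlm.fderiv_eq_zero
    rw [hd1.self_of_nhds, sub_eq_zero] at h1
    exact h1
  refine ⟨x, ⟨hxb, ?_, ?_⟩, ?_⟩
  · have h2 := (abs_le.1 hb2).2
    have h3 : f x = u x - pair p (x - z) := rfl
    linarith
  · intro v
    have := Crest.Agent.R226.EucMin77.hess_nonneg_of_isLocalMin hfx hlm v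
    rwa [hd2] at this
  · rw [gr, hg, Phi_pair]

/-- **ABP.** -/
theorem abp {u : Cn n → ℝ} {z : Cn n} {r c : ℝ} (hr : 0 < r)
    (hu : ∀ x ∈ Metric.closedBall z r, ContDiffAt ℝ 2 u x)
    (hb : ∀ x ∈ Metric.sphere z r, u z + c ≤ u x) {K : ℝ}
    (hK : ∀ x ∈ contact u z r c, 16 ^ n * ‖(chM u x).det‖ ^ 2 ≤ K) :
    volume (Metric.ball (0 : Cn n) (c / r)) ≤ ENNReal.ofReal K * volume (contact u z r c) := by
  have hm := measurableSet_contact (c := c) hu
  calc volume (Metric.ball (0 : Cn n) (c / r)) ≤ volume (gr u '' (contact u z r c)) :=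
        measure_mono (ball_subset_image hr hu hb)
    _ ≤ ∫⁻ x in contact u z r c, ENNReal.ofReal |(hsL u x).det| := by
        refine addHaar_image_le_lintegral_abs_det_fderiv volume hm fun x hx => ?_
        exact (hasFDerivAt_gr (hu x (Metric.ball_subset_closedBall hx.1))).hasFDerivWithinAt
    _ ≤ ∫⁻ x in contact u z r c, ENNReal.ofReal K := by
        refine setLIntegral_mono' hm fun x hx => ?_
        refine ENNReal.ofReal_le_ofReal ?_
        exact (abs_det_le (hu x (Metric.ball_subset_closedBall hx.1)) hx.2.2).trans (hK x hx)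
    _ = ENNReal.ofReal K * volume (contact u z r c) := by
        rw [setLIntegral_const]

end

end Crest.Agent.R273.C0a_793
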