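import Crest.Agent.R273.C0a_390
import Crest.Agent.R208.N1

/-!
# R273 (S0416), Part C (Yau), C0-a, complex linear algebra (helper390)

`lm u z` : the matrix `u_{j kbar}(z)`; `det_hs_le` : where `D²u ≥ 0`,
`det_ℝ D²u ≤ 4 ^ n * |det (u_{j kbar})|²`; `abp` : the Blocki estimate in one ball.
-/

set_option autoImplicit false
set_option linter.unusedSectionVars false

open MeasureTheory Set Metric Filter Topology Matrix

namespace Crest.Agent.R273.C0b_390

open Crest.Agent.R273.C0a_390 Crest.Agent.R208.N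

noncomputable section

theorem det_mid {m : Type*} [Fintype m] [DecidableEq m] {A B : Matrix m m ℝ}
    (hA : A.PosSemidef) (hB : B.PosSemidef) :
    A.det * B.det ≤ (((1 / 2 : ℝ) • (A + B)).det) ^ 2 := by
  by_cases h0 : A.det = 0
  · rw [h0, zero_mul]; positivity
  by_cases h1 : B.det = 0
  · rw [h1, mul_zero]; positivity
  have hA' : A.PosDef := hA.posDef_iff_det_ne_zero.2 h0
  have hB' : B.PosDef := hB.posDef_iff_det_ne_zero.2 h1
  obtain ⟨C, d, hC, hd, rfl, rfl⟩ := simdiag hA' hB'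
  have e : (1 / 2 : ℝ) • (Cᵀ * C + Cᵀ * diagonal d * C)
      = Cᵀ * diagonal (fun i => (1 + d i) / 2) * C := by
    have : (diagonal (fun i => (1 + d i) / 2) : Matrix m m ℝ) = (1 / 2 : ℝ) • (1 + diagonal d) := by
      rw [← diagonal_one, diagonal_add, ← diagonal_smul]
      congr 1
      funext i
      simp only [Pi.smul_apply, smul_eq_mul]
      ring
    rw [this, Matrix.mul_smul, Matrix.smul_mul, Matrix.mul_add, Matrix.add_mul, Matrix.mul_one]
  rw [e]
  simp only [det_mul, det_transpose, det_diagonal]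
  have h2 : ∏ i, d i ≤ (∏ i, (1 + d i) / 2) ^ 2 := by
    rw [← Finset.prod_pow]
    refine Finset.prod_le_prod (fun i _ => (hd i).le) fun i _ => ?_
    nlinarith [sq_nonneg (1 - d i)]
  have h3 : 0 ≤ (C.det * C.det) ^ 2 := by positivity
  calc C.det * C.det * (C.det * (∏ i, d i) * C.det) = (C.det * C.det) ^ 2 * ∏ i, d i := by ring
    _ ≤ (C.det * C.det) ^ 2 * (∏ i, (1 + d i) / 2) ^ 2 := mul_le_mul_of_nonneg_left h2 h3
    _ = _ := by ring

variable {n : ℕ}

/-- complex `n`-space -/
abbrev V (n : ℕ) := EuclideanSpace ℂ (Fin n)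

theorem inner_eq_re (x y : V n) : inner ℝ x y = (inner ℂ x y).re := by
  simp [PiLp.inner_apply, Complex.inner]

/-- multiplication by `i` -/
def J (n : ℕ) : V n →L[ℝ] V n :=
  (Complex.I • ContinuousLinearMap.id ℂ (V n)).restrictScalars ℝ

@[simp] theorem J_apply (v : V n) : J n v = Complex.I • v := rfl

theorem inner_J (v w : V n) : inner ℝ (J n v) (J n w) = inner ℝ v w := by
  simp [inner_eq_re]

theorem J_J (v : V n) : J n (J n v) = -v := by
  simp [smul_smul]

theorem inner_J_left (v w : V n) : inner ℝ (J n v) w = - inner ℝ v (J n w) := by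
  have := inner_J v (J n w)
  rw [J_J, inner_neg_right] at this
  linarith

/-- the complex linear part -/
def cp (H : V n →L[ℝ] V n) : V n →ₗ[ℂ] V n where
  toFun v := (1 / 2 : ℝ) • (H v - J n (H (J n v)))
  map_add' v w := by
    simp only [map_add]
    module
  map_smul' c v := by
    have hc : c • v = c.re • v + c.im • (Complex.I • v) := by
      conv_lhs => rw [← Complex.re_add_im c]
      rw [add_smul, mul_smul, Complex.coe_smul, Complex.coe_smul]
    have hc2 : ∀ w : V n, c • w = c.re • w + c.im • (Complex.I • w) := by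
      intro w
      conv_lhs => rw [← Complex.re_add_im c]
      rw [add_smul, mul_smul, Complex.coe_smul, Complex.coe_smul]
    have hI : ∀ w : V n, Complex.I • (Complex.I • w) = - w := by
      intro w
      rw [smul_smul, Complex.I_mul_I, neg_one_smul]
    simp only [RingHom.id_apply]
    rw [hc2 ((1 / 2 : ℝ) • _), hc]
    simp only [J_apply, smul_add, map_add, map_smul, smul_sub]
    simp only [smul_comm Complex.I (_ : ℝ), hI, smul_neg, map_neg]
    module

theorem cp_apply (H : V n →L[ℝ] V n) (v : V n) :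
    cp H v = (1 / 2 : ℝ) • (H v - J n (H (J n v))) := rfl

theorem toMatrix_entry (L : V n →ₗ[ℝ] V n) (i j : Fin (Module.finrank ℝ (V n))) :
    LinearMap.toMatrix (stdOrthonormalBasis ℝ (V n)).toBasis (stdOrthonormalBasis ℝ (V n)).toBasis
      L i j = inner ℝ (stdOrthonormalBasis ℝ (V n) i) (L (stdOrthonormalBasis ℝ (V n) j)) := by
  rw [LinearMap.toMatrix_apply]
  simp [OrthonormalBasis.repr_apply_apply]

theorem psd_toMatrix {H : V n →L[ℝ] V n} (hs : ∀ v w, inner ℝ (H v) w = inner ℝ v (H w))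
    (hp : ∀ v, 0 ≤ inner ℝ (H v) v) :
    (LinearMap.toMatrix (stdOrthonormalBasis ℝ (V n)).toBasis
      (stdOrthonormalBasis ℝ (V n)).toBasis (H : V n →ₗ[ℝ] V n)).PosSemidef := by
  have hAs : (LinearMap.toMatrix (stdOrthonormalBasis ℝ (V n)).toBasis
      (stdOrthonormalBasis ℝ (V n)).toBasis (H : V n →ₗ[ℝ] V n)).IsHermitian := by
    ext i j
    rw [conjTranspose_apply, toMatrix_entry, toMatrix_entry]
    simp only [star_trivial]
    change inner ℝ (stdOrthonormalBasis ℝ (V n) j) (H (stdOrthonormalBasis ℝ (V n) i))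
      = inner ℝ (stdOrthonormalBasis ℝ (V n) i) (H (stdOrthonormalBasis ℝ (V n) j))
    rw [← hs, real_inner_comm]
  refine PosSemidef.of_dotProduct_mulVec_nonneg hAs fun x => ?_
  set b := stdOrthonormalBasis ℝ (V n) with hb
  have h1 := hp (∑ i, x i • b i)
  have e1 : (H (∑ i, x i • b i)) = ∑ i, x i • H (b i) := by simp
  have e2 : inner ℝ (∑ i, x i • H (b i)) (∑ j, x j • b j)
      = ∑ i, ∑ j, x i * x j * LinearMap.toMatrix b.toBasis b.toBasis (H : V n →ₗ[ℝ] V n) j i := by
    rw [sum_inner]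
    refine Finset.sum_congr rfl fun i _ => ?_
    rw [inner_sum]
    refine Finset.sum_congr rfl fun j _ => ?_
    rw [real_inner_smul_left, real_inner_smul_right, toMatrix_entry]
    change _ = x i * x j * inner ℝ (b j) (H (b i))
    rw [real_inner_comm]
    ring
  rw [e1, e2] at h1
  refine h1.trans_eq ?_
  simp only [star_trivial, dotProduct, mulVec]
  rw [Finset.sum_comm]
  refine Finset.sum_congr rfl fun i _ => ?_
  rw [Finset.mul_sum]
  refine Finset.sum_congr rfl fun j _ => ?_
  ring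

theorem det_real_nonneg {H : V n →L[ℝ] V n} (hs : ∀ v w, inner ℝ (H v) w = inner ℝ v (H w))
    (hp : ∀ v, 0 ≤ inner ℝ (H v) v) : 0 ≤ LinearMap.det (H : V n →ₗ[ℝ] V n) := by
  have := (psd_toMatrix hs hp).det_nonneg
  rwa [LinearMap.det_toMatrix] at this

theorem det_real_le {H : V n →L[ℝ] V n} (hs : ∀ v w, inner ℝ (H v) w = inner ℝ v (H w))
    (hp : ∀ v, 0 ≤ inner ℝ (H v) v) :
    LinearMap.det (H : V n →ₗ[ℝ] V n) ≤ ‖LinearMap.det (cp H)‖ ^ 2 := by
  classical
  have hAp := psd_toMatrix hs hp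
  set b := stdOrthonormalBasis ℝ (V n) with hb
  set A := LinearMap.toMatrix b.toBasis b.toBasis (H : V n →ₗ[ℝ] V n) with hA
  set K := LinearMap.toMatrix b.toBasis b.toBasis (J n : V n →ₗ[ℝ] V n) with hK
  have hKT : Kᵀ = -K := by
    ext i j
    rw [transpose_apply, neg_apply, hK, toMatrix_entry, toMatrix_entry]
    change inner ℝ (b j) (J n (b i)) = - inner ℝ (b i) (J n (b j))
    rw [real_inner_comm, inner_J_left]
  have hKK : K * K = -1 := by
    rw [hK, ← LinearMap.toMatrix_comp]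
    have : (J n : V n →ₗ[ℝ] V n) ∘ₗ (J n : V n →ₗ[ℝ] V n) = - LinearMap.id := by
      ext v : 1
      exact J_J v
    rw [this, map_neg, LinearMap.toMatrix_id]
  set B := Kᵀ * A * K with hB
  have hBp : B.PosSemidef := by
    have := hAp.conjTranspose_mul_mul_same K
    rwa [conjTranspose_eq_transpose_of_trivial] at this
  have hdet : B.det = A.det := by
    have h1 : Kᵀ * K = 1 := by rw [hKT, Matrix.neg_mul, hKK, neg_neg]
    have h2 : Kᵀ.det * K.det = 1 := by rw [← det_mul, h1, det_one]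
    rw [hB, det_mul, det_mul]
    linear_combination A.det * h2
  have hcp : ((1 / 2 : ℝ) • (A + B)) =
      LinearMap.toMatrix b.toBasis b.toBasis ((cp H).restrictScalars ℝ) := by
    have e : ((cp H).restrictScalars ℝ) = (1 / 2 : ℝ) • ((H : V n →ₗ[ℝ] V n)
        - (J n : V n →ₗ[ℝ] V n) ∘ₗ (H : V n →ₗ[ℝ] V n) ∘ₗ (J n : V n →ₗ[ℝ] V n)) := by
      ext v : 1
      rfl
    rw [e, map_smul, map_sub, LinearMap.toMatrix_comp _ b.toBasis,
      LinearMap.toMatrix_comp _ b.toBasis, ← hA, ← hK, hB, hKT]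
    simp only [Matrix.neg_mul, sub_eq_add_neg, Matrix.mul_assoc]
  have hfin : ((1 / 2 : ℝ) • (A + B)).det = ‖LinearMap.det (cp H)‖ ^ 2 := by
    rw [hcp, LinearMap.det_toMatrix, LinearMap.det_restrictScalars, Algebra.norm_complex_apply,
      Complex.normSq_eq_norm_sq]
  have h1 := det_mid hAp hBp
  rw [hdet, hfin] at h1
  have h2 : LinearMap.det (H : V n →ₗ[ℝ] V n) = A.det := by rw [hA, LinearMap.det_toMatrix]
  rw [h2]
  have h3 : 0 ≤ ‖LinearMap.det (cp H)‖ ^ 2 := by positivity
  exact abs_le_of_sq_le_sq' (by nlinarith) h3 |>.2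

/-- the matrix `u_{j kbar}` -/
def lm (u : V n → ℝ) (z : V n) : Matrix (Fin n) (Fin n) ℂ := fun j k =>
  let D := fderiv ℝ (fderiv ℝ u) z
  let e : Fin n → V n := fun j => EuclideanSpace.single j 1
  (1 / 4 : ℂ) * (((D (e j) (e k) + D (Complex.I • e j) (Complex.I • e k) : ℝ) : ℂ)
    + Complex.I * ((D (e j) (Complex.I • e k) - D (Complex.I • e j) (e k) : ℝ) : ℂ))

theorem det_cp_hs {u : V n → ℝ} {z : V n} (hu : ContDiffAt ℝ 2 u z) :
    LinearMap.det (cp (hs u z)) = 2 ^ n * (lm u z).det := by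
  classical
  have hsym : ∀ v w, fderiv ℝ (fderiv ℝ u) z v w = fderiv ℝ (fderiv ℝ u) z w v := by
    intro v w
    exact (hu.isSymmSndFDerivAt (by simp)).eq v w
  let b := EuclideanSpace.basisFun (Fin n) ℂ
  rw [← LinearMap.det_toMatrix b.toBasis]
  have : LinearMap.toMatrix b.toBasis b.toBasis (cp (hs u z)) = ((2 : ℂ) • (lm u z))ᵀ := by
    ext j k
    rw [LinearMap.toMatrix_apply, transpose_apply, Matrix.smul_apply]
    have e1 : (b.toBasis.repr (cp (hs u z) (b.toBasis k))) j
        = inner ℂ (b j) (cp (hs u z) (b k)) := by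
      simp [OrthonormalBasis.repr_apply_apply]
    have e2 : ∀ j, b j = EuclideanSpace.single j 1 := fun j => by
      simp [b]
    rw [e1, e2, e2]
    set ej : V n := EuclideanSpace.single j 1 with hej
    set ek : V n := EuclideanSpace.single k 1 with hek
    have hre : ∀ v w : V n, (inner ℂ v (cp (hs u z) w)).re
        = (1 / 2) * (fderiv ℝ (fderiv ℝ u) z w v
          + fderiv ℝ (fderiv ℝ u) z (Complex.I • w) (Complex.I • v)) := by
      intro v w
      rw [← inner_eq_re, cp_apply, real_inner_smul_right, inner_sub_right, ← neg_neg (inner ℝ v (J n _)),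
        ← inner_J_left, real_inner_comm, inner_hs, real_inner_comm, inner_hs]
      simp only [J_apply]
      ring
    have him : ∀ v w : V n, (inner ℂ v (cp (hs u z) w)).im
        = (1 / 2) * (fderiv ℝ (fderiv ℝ u) z w (Complex.I • v)
          - fderiv ℝ (fderiv ℝ u) z (Complex.I • w) v) := by
      intro v w
      have h1 := hre (Complex.I • v) w
      rw [inner_smul_left] at h1
      simp only [Complex.conj_I, Complex.mul_re, Complex.neg_re, Complex.I_re, Complex.neg_im,
        Complex.I_im, smul_smul, Complex.I_mul_I, neg_smul, one_smul, map_neg] at h1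
      linarith
    apply Complex.ext
    · rw [hre]
      simp [lm, ← hej, ← hek]
      ring
    · rw [him]
      simp [lm, ← hej, ← hek]
      rw [hsym ek (Complex.I • ej), hsym (Complex.I • ek) ej]
      ring
  rw [this, det_transpose, det_smul, Fintype.card_fin]

theorem det_hs_le {u : V n → ℝ} {z : V n} (hu : ContDiffAt ℝ 2 u z)
    (hp : ∀ v, 0 ≤ fderiv ℝ (fderiv ℝ u) z v v) :
    |(hs u z).det| ≤ 4 ^ n * ‖(lm u z).det‖ ^ 2 := by
  have hsym : ∀ v w, fderiv ℝ (fderiv ℝ u) z v w = fderiv ℝ (fderiv ℝ u) z w v := by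
    intro v w
    exact (hu.isSymmSndFDerivAt (by simp)).eq v w
  have h1 : ∀ v w, inner ℝ (hs u z v) w = inner ℝ v (hs u z w) := by
    intro v w
    rw [inner_hs, real_inner_comm, inner_hs, hsym]
  have h2 : ∀ v, 0 ≤ inner ℝ (hs u z v) v := by
    intro v
    rw [inner_hs]
    exact hp v
  have h3 := det_real_le h1 h2
  have h0 : 0 ≤ (hs u z).det := det_real_nonneg h1 h2
  rw [abs_of_nonneg h0]
  refine h3.trans_eq ?_
  rw [det_cp_hs hu, norm_mul, mul_pow, norm_pow, Complex.norm_ofNat, ← pow_mul, mul_comm n 2, pow_mul]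
  norm_num

/-- **Blocki's form of the Alexandrov-Bakelman-Pucci estimate** -/
theorem abp (μ : Measure (V n)) [μ.IsAddHaarMeasure] {u : V n → ℝ} {z0 : V n} {r a K : ℝ}
    (hr : 0 < r) (ha : 0 < a) (hu : ∀ x ∈ closedBall z0 r, ContDiffAt ℝ 2 u x)
    (hbd : ∀ x ∈ sphere z0 r, u z0 + a ≤ u x)
    (hK : ∀ x ∈ ct u z0 r a, ‖(lm u x).det‖ ≤ K) :
    μ (ball (0 : V n) (a / (2 * r))) ≤ ENNReal.ofReal (4 ^ n * K ^ 2) * μ (ct u z0 r a) := by
  refine (abp_real μ hr ha hu hbd).trans ?_
  rw [← setLIntegral_const]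
  refine setLIntegral_mono' (measurableSet_ct a hu) fun x hx => ?_
  refine ENNReal.ofReal_le_ofReal ?_
  refine (det_hs_le (hu x (ball_subset_closedBall hx.1)) hx.2.2).trans ?_
  have h0 : 0 ≤ ‖(lm u x).det‖ := norm_nonneg _
  have h1 := hK x hx
  gcongr

end

end Crest.Agent.R273.C0b_390
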