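import Crest.Agent.R273.C0a_793
import Crest.Agent.R275.FLSubB_884
import Crest.Agent.R275.FLBasic_884

/-!
# R273 / Yau C⁰ estimate (helper793), part b

* `psi u z0`     : the local potential normalised at `z0` (pluriharmonic quadratic part removed);
* `exists_quad`  : `psi u z0 z ≥ lam ‖z - z0‖²`, uniformly on compact balls;
* `chM_psi_add`  : `∂∂̄ (psi + φ) = ∂∂̄ (u + φ)`;
* `lint_neg_le`  : the L¹ bound on a ball from one value (sub-mean value inequality).
-/

set_option autoImplicit false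
set_option linter.unusedSectionVars false

open Set Filter Topology Complex MeasureTheory
open scoped ContDiff Matrix ComplexConjugate ENNReal

namespace Crest.Agent.R273.C0b_793

open Crest.Agent.R275.Geo Crest.Agent.R273.C0a_793

noncomputable section

variable {n : ℕ}

section generic

variable {E : Type*} [NormedAddCommGroup E] [NormedSpace ℝ E]

theorem line1 {g : E → ℝ} {z0 w : E} {t : ℝ} (hg : ContDiffAt ℝ 2 g (z0 + t • w)) :
    HasDerivAt (fun t : ℝ => g (z0 + t • w)) (fderiv ℝ g (z0 + t • w) w) t := by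
  have hl1 : HasDerivAt (fun t : ℝ => z0 + t • w) w t := by
    simpa using ((hasDerivAt_id t).smul_const w).const_add z0
  have h1 : HasFDerivAt g (fderiv ℝ g (z0 + t • w)) (z0 + t • w) :=
    (hg.differentiableAt (by norm_num)).hasFDerivAt
  exact h1.comp_hasDerivAt t hl1

theorem line2 {g : E → ℝ} {z0 w : E} {t : ℝ} (hg : ContDiffAt ℝ 2 g (z0 + t • w)) :
    HasDerivAt (fun t : ℝ => fderiv ℝ g (z0 + t • w) w)
      (fderiv ℝ (fderiv ℝ g) (z0 + t • w) w w) t := by
  have hl1 : HasDerivAt (fun t : ℝ => z0 + t • w) w t := by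
    simpa using ((hasDerivAt_id t).smul_const w).const_add z0
  have h1 : ContDiffAt ℝ 1 (fderiv ℝ g) (z0 + t • w) := hg.fderiv_right (by norm_num)
  have h2 : HasFDerivAt (fderiv ℝ g) (fderiv ℝ (fderiv ℝ g) (z0 + t • w)) (z0 + t • w) :=
    (h1.differentiableAt (by simp)).hasFDerivAt
  have h3 : HasFDerivAt (fun y => fderiv ℝ g y w) ((fderiv ℝ (fderiv ℝ g) (z0 + t • w)).flip w) (z0 + t • w) := by
    have := h2.clm_apply (hasFDerivAt_const w (z0 + t • w))
    simpa using this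
  exact h3.comp_hasDerivAt t hl1

/-- uniform continuity of a field of bilinear forms. -/
theorem unif_bil {D : E → E →L[ℝ] E →L[ℝ] ℝ} {K : Set E} (hK : IsCompact K)
    (hD : ContinuousOn D K) {ε : ℝ} (hε : 0 < ε) :
    ∃ δ > 0, ∀ x ∈ K, ∀ y ∈ K, dist x y < δ → ∀ w : E, |D x w w - D y w w| ≤ ε * ‖w‖ ^ 2 := by
  have hunif : @UniformContinuousOn E (E →L[ℝ] E →L[ℝ] ℝ) PseudoMetricSpace.toUniformSpace
      PseudoMetricSpace.toUniformSpace D K :=
    IsCompact.uniformContinuousOn_of_continuous (α := E) (β := E →L[ℝ] E →L[ℝ] ℝ) (f := D) hK hD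
  rw [Metric.uniformContinuousOn_iff] at hunif
  obtain ⟨δ, hδ, hδ'⟩ := hunif ε hε
  refine ⟨δ, hδ, fun x hx y hy hxy w => ?_⟩
  have h3 : ‖D x - D y‖ < ε := lt_of_eq_of_lt (dist_eq_norm (D x) (D y)).symm (hδ' x hx y hy hxy)
  have h5 := ((D x - D y) w).le_opNorm w
  have h6 := (D x - D y).le_opNorm w
  rw [Real.norm_eq_abs] at h5
  calc |D x w w - D y w w| = |(D x - D y) w w| := by simp
    _ ≤ ‖(D x - D y) w‖ * ‖w‖ := h5
    _ ≤ (‖D x - D y‖ * ‖w‖) * ‖w‖ := by gcongr
    _ ≤ (ε * ‖w‖) * ‖w‖ := by gcongr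
    _ = ε * ‖w‖ ^ 2 := by ring

end generic

/-- second real derivative. -/
abbrev D2 (u : Cn n → ℝ) (z : Cn n) : Cn n →L[ℝ] Cn n →L[ℝ] ℝ := fderiv ℝ (fderiv ℝ u) z

/-- `D²u(v,v) + D²u(iv,iv)`. -/
def lv (u : Cn n → ℝ) (z v : Cn n) : ℝ := D2 u z v v + D2 u z (I • v) (I • v)

/-- a one dimensional Taylor inequality. -/
theorem taylor_ge {g g' g'' : ℝ → ℝ} {m : ℝ}
    (h1 : ∀ t ∈ Icc (0 : ℝ) 1, HasDerivAt g (g' t) t)
    (h2 : ∀ t ∈ Icc (0 : ℝ) 1, HasDerivAt g' (g'' t) t)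
    (h0 : g' 0 = 0) (hm : ∀ t ∈ Icc (0 : ℝ) 1, m ≤ g'' t) : g 0 + m / 2 ≤ g 1 := by
  have hg' : ∀ t ∈ Icc (0 : ℝ) 1, m * t ≤ g' t := by
    have hd : ∀ t ∈ Icc (0 : ℝ) 1, HasDerivAt (fun t => g' t - m * t) (g'' t - m) t := by
      intro t ht
      have := (hasDerivAt_id t).const_mul m
      simp only [id, mul_one] at this
      exact (h2 t ht).sub this
    have hmono : MonotoneOn (fun t => g' t - m * t) (Icc 0 1) := by
      refine monotoneOn_of_deriv_nonneg (convex_Icc 0 1) ?_ ?_ ?_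
      · intro t ht
        exact (hd t ht).continuousAt.continuousWithinAt
      · intro t ht
        rw [interior_Icc] at ht
        exact (hd t (Ioo_subset_Icc_self ht)).differentiableAt.differentiableWithinAt
      · intro t ht
        rw [interior_Icc] at ht
        rw [(hd t (Ioo_subset_Icc_self ht)).deriv]
        have := hm t (Ioo_subset_Icc_self ht)
        linarith
    intro t ht
    have := hmono (left_mem_Icc.2 zero_le_one) ht ht.1
    simp only [h0, mul_zero, sub_zero] at this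
    linarith
  have hmono : MonotoneOn (fun t => g t - m / 2 * t ^ 2) (Icc 0 1) := by
    have hd : ∀ t ∈ Icc (0 : ℝ) 1, HasDerivAt (fun t => g t - m / 2 * t ^ 2)
        (g' t - m / 2 * (2 * t)) t := by
      intro t ht
      have := (hasDerivAt_pow 2 t).const_mul (m / 2)
      simp only [Nat.cast_ofNat, Nat.add_one_sub_one, pow_one] at this
      exact (h1 t ht).sub this
    refine monotoneOn_of_deriv_nonneg (convex_Icc 0 1) ?_ ?_ ?_
    · intro t ht
      exact (hd t ht).continuousAt.continuousWithinAt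
    · intro t ht
      rw [interior_Icc] at ht
      exact (hd t (Ioo_subset_Icc_self ht)).differentiableAt.differentiableWithinAt
    · intro t ht
      rw [interior_Icc] at ht
      rw [(hd t (Ioo_subset_Icc_self ht)).deriv]
      have := hg' t (Ioo_subset_Icc_self ht)
      linarith
  have := hmono (left_mem_Icc.2 zero_le_one) (right_mem_Icc.2 zero_le_one) zero_le_one
  simp only at this
  linarith

/-- the quadratic form whose complex Hessian vanishes. -/
def qf (D : Cn n →L[ℝ] Cn n →L[ℝ] ℝ) (w : Cn n) : ℝ := (1 / 4) * (D w w - D (I • w) (I • w))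

/-- the normalised potential. -/
def psi (u : Cn n → ℝ) (z0 z : Cn n) : ℝ :=
  u z - u z0 - fderiv ℝ u z0 (z - z0) - qf (D2 u z0) (z - z0)

theorem psi_self (u : Cn n → ℝ) (z0 : Cn n) : psi u z0 z0 = 0 := by simp [psi, qf]

/-- multiplication by `i` as a real linear map. -/
def Jm (n : ℕ) : Cn n →L[ℝ] Cn n := (ContinuousLinearMap.lsmul ℂ ℂ I).restrictScalars ℝ

theorem Jm_apply (v : Cn n) : Jm n v = I • v := rfl

/-- derivative of `qf`. -/
def qf1 (D : Cn n →L[ℝ] Cn n →L[ℝ] ℝ) : Cn n →L[ℝ] Cn n →L[ℝ] ℝ :=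
  (1 / 4 : ℝ) • ((D + D.flip) - ((D + D.flip).bilinearComp (Jm n) (Jm n)))

theorem qf1_apply (D : Cn n →L[ℝ] Cn n →L[ℝ] ℝ) (v w : Cn n) :
    qf1 D v w = (1 / 4) * ((D v w + D w v) - (D (I • v) (I • w) + D (I • w) (I • v))) := by
  simp [qf1, Jm_apply]

theorem hasFDerivAt_qf (D : Cn n →L[ℝ] Cn n →L[ℝ] ℝ) (w : Cn n) :
    HasFDerivAt (qf D) (qf1 D w) w := by
  have h1 : HasFDerivAt (fun w : Cn n => D w w) (D w + D.flip w) w := by
    have := D.hasFDerivAt (x := w)
    have h := this.clm_apply (hasFDerivAt_id w)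
    refine h.congr_fderiv ?_
    ext v
    simp
  have h2 : HasFDerivAt (fun w : Cn n => D (I • w) (I • w))
      ((D (I • w) + D.flip (I • w)).comp (Jm n)) w := by
    have hJ : HasFDerivAt (fun w : Cn n => I • w) (Jm n) w := (Jm n).hasFDerivAt
    have := (D.hasFDerivAt (x := I • w)).comp w hJ
    have h := this.clm_apply hJ
    refine h.congr_fderiv ?_
    ext v
    simp [Jm_apply]
  have h3 := (h1.sub h2).const_mul (1 / 4 : ℝ)
  refine h3.congr_fderiv ?_
  ext v
  rw [qf1_apply]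
  simp [Jm_apply]

theorem hasFDerivAt_psi {u : Cn n → ℝ} (z0 : Cn n) {z : Cn n} (hu : DifferentiableAt ℝ u z) :
    HasFDerivAt (psi u z0) (fderiv ℝ u z - fderiv ℝ u z0 - qf1 (D2 u z0) (z - z0)) z := by
  have h1 : HasFDerivAt (fun z : Cn n => z - z0) (ContinuousLinearMap.id ℝ (Cn n)) z :=
    (hasFDerivAt_id z).sub_const z0
  have h2 := (fderiv ℝ u z0).hasFDerivAt.comp z h1
  have h3 := (hasFDerivAt_qf (D2 u z0) (z - z0)).comp z h1
  have h4 := ((hu.hasFDerivAt.sub_const (u z0)).sub h2).sub h3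
  exact h4

theorem contDiffAt_psi {u : Cn n → ℝ} (z0 : Cn n) {z : Cn n} (hu : ContDiffAt ℝ 2 u z) :
    ContDiffAt ℝ 2 (psi u z0) z := by
  unfold psi qf
  fun_prop

theorem D2_psi {u : Cn n → ℝ} (z0 : Cn n) {z : Cn n} (hu : ContDiffAt ℝ 2 u z) :
    D2 (psi u z0) z = D2 u z - qf1 (D2 u z0) := by
  have hev : ∀ᶠ y in 𝓝 z, fderiv ℝ (psi u z0) y
      = fderiv ℝ u y - fderiv ℝ u z0 - qf1 (D2 u z0) (y - z0) := by
    filter_upwards [hu.eventually (by simp)] with y hy
    exact (hasFDerivAt_psi z0 (hy.differentiableAt (by norm_num))).fderiv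
  have h1 : ContDiffAt ℝ 1 (fderiv ℝ u) z := hu.fderiv_right (by norm_num)
  have h2 : HasFDerivAt (fderiv ℝ u) (D2 u z) z := (h1.differentiableAt (by simp)).hasFDerivAt
  have h3 : HasFDerivAt (fun y : Cn n => qf1 (D2 u z0) (y - z0)) (qf1 (D2 u z0)) z := by
    have a1 : HasFDerivAt (fun y : Cn n => y - z0) (ContinuousLinearMap.id ℝ (Cn n)) z :=
      (hasFDerivAt_id z).sub_const z0
    have a2 := (qf1 (D2 u z0)).hasFDerivAt.comp z a1
    rw [ContinuousLinearMap.comp_id] at a2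
    exact a2
  have h4 : HasFDerivAt (fun y => fderiv ℝ u y - fderiv ℝ u z0 - qf1 (D2 u z0) (y - z0))
      (D2 u z - qf1 (D2 u z0)) z := (h2.sub_const (fderiv ℝ u z0)).sub h3
  show fderiv ℝ (fderiv ℝ (psi u z0)) z = _
  rw [Filter.EventuallyEq.fderiv_eq hev]
  exact h4.fderiv

theorem symm_D2 {u : Cn n → ℝ} {z : Cn n} (hu : ContDiffAt ℝ 2 u z) (v w : Cn n) :
    D2 u z v w = D2 u z w v := by
  have hs : IsSymmSndFDerivAt ℝ u z := hu.isSymmSndFDerivAt (by simp)
  exact hs v w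

/-- `∂∂̄` does not see the normalisation. -/
theorem chM_psi_add {u p : Cn n → ℝ} {z0 z : Cn n} (hu0 : ContDiffAt ℝ 2 u z0)
    (hu : ContDiffAt ℝ 2 u z) (hp : ContDiffAt ℝ 2 p z) :
    chM (fun y => psi u z0 y + p y) z = chM (fun y => u y + p y) z := by
  have hsum : ∀ {f g : Cn n → ℝ}, ContDiffAt ℝ 2 f z → ContDiffAt ℝ 2 g z →
      D2 (fun y => f y + g y) z = D2 f z + D2 g z := by
    intro f g hf hg
    have hev : ∀ᶠ y in 𝓝 z, fderiv ℝ (fun y => f y + g y) y = fderiv ℝ f y + fderiv ℝ g y := by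
      filter_upwards [hf.eventually (by simp), hg.eventually (by simp)] with y h1 h2
      exact fderiv_fun_add (h1.differentiableAt (by norm_num)) (h2.differentiableAt (by norm_num))
    show fderiv ℝ (fderiv ℝ (fun y => f y + g y)) z = _
    rw [Filter.EventuallyEq.fderiv_eq hev]
    exact fderiv_add ((hf.fderiv_right (m := 1) (by norm_num)).differentiableAt (by norm_num))
      ((hg.fderiv_right (m := 1) (by norm_num)).differentiableAt (by norm_num))
  ext a b
  simp only [chM, Matrix.of_apply, ch]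
  change (1 / 4 : ℂ) * (((D2 (fun y => psi u z0 y + p y) z (ea a) (ea b)
    + D2 (fun y => psi u z0 y + p y) z (ia a) (ia b) : ℝ) : ℂ)
    + ((D2 (fun y => psi u z0 y + p y) z (ea a) (ia b)
      - D2 (fun y => psi u z0 y + p y) z (ia a) (ea b) : ℝ) : ℂ) * I)
    = (1 / 4 : ℂ) * (((D2 (fun y => u y + p y) z (ea a) (ea b)
    + D2 (fun y => u y + p y) z (ia a) (ia b) : ℝ) : ℂ)
    + ((D2 (fun y => u y + p y) z (ea a) (ia b)
      - D2 (fun y => u y + p y) z (ia a) (ea b) : ℝ) : ℂ) * I)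
  rw [hsum (contDiffAt_psi z0 hu) hp, hsum hu hp, D2_psi z0 hu]
  have s1 := symm_D2 hu0 (ea a) (ea b)
  have s2 := symm_D2 hu0 (ia a) (ia b)
  have s3 := symm_D2 hu0 (ea a) (ia b)
  have s4 := symm_D2 hu0 (ia a) (ea b)
  have e1 : qf1 (D2 u z0) (ea a) (ea b) + qf1 (D2 u z0) (ia a) (ia b) = 0 := by
    rw [qf1_apply, qf1_apply, I_smul_ea, I_smul_ea, I_smul_ia, I_smul_ia]
    simp only [map_neg, neg_apply, neg_neg]
    ring
  have e2 : qf1 (D2 u z0) (ea a) (ia b) - qf1 (D2 u z0) (ia a) (ea b) = 0 := by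
    rw [qf1_apply, qf1_apply, I_smul_ea, I_smul_ea, I_smul_ia, I_smul_ia]
    simp only [map_neg, neg_apply]
    rw [s3, s4]
    ring
  simp only [add_apply, sub_apply]
  congr 2
  · congr 1
    linear_combination -e1
  · congr 2
    linear_combination -e2

theorem continuousAt_D2 {u : Cn n → ℝ} {z : Cn n} (hu : ContDiffAt ℝ 2 u z) :
    ContinuousAt (D2 u) z := by
  have h1 : ContDiffAt ℝ 1 (fderiv ℝ u) z := hu.fderiv_right (by norm_num)
  have h2 : ContDiffAt ℝ 0 (fderiv ℝ (fderiv ℝ u)) z := h1.fderiv_right (by norm_num)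
  exact h2.continuousAt

/-- positivity constant of the Levi form on a compact ball. -/
theorem exists_lev_ge {u : Cn n → ℝ} {z1 : Cn n} {b : ℝ}
    (hu : ∀ x ∈ Metric.closedBall z1 b, ContDiffAt ℝ 2 u x)
    (hpos : ∀ x ∈ Metric.closedBall z1 b, ∀ v : Cn n, v ≠ 0 → 0 < lv u x v) :
    ∃ m : ℝ, 0 < m ∧ ∀ x ∈ Metric.closedBall z1 b, ∀ v : Cn n, m * ‖v‖ ^ 2 ≤ lv u x v := by
  have hcD : ContinuousOn (D2 u) (Metric.closedBall z1 b) := fun x hx =>
    (continuousAt_D2 (hu x hx)).continuousWithinAt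
  obtain ⟨m, hm0, hm⟩ : ∃ m : ℝ, 0 < m ∧ ∀ p ∈ Metric.closedBall z1 b ×ˢ Metric.sphere (0 : Cn n) 1,
      m ≤ lv u p.1 p.2 := by
    refine ((isCompact_closedBall z1 b).prod (isCompact_sphere (0 : Cn n) 1)).exists_forall_le' ?_ ?_
    · have h1 : ContinuousOn (fun p : Cn n × Cn n => D2 u p.1)
          (Metric.closedBall z1 b ×ˢ Metric.sphere (0 : Cn n) 1) :=
        hcD.comp continuousOn_fst fun p hp => hp.1
      have h2 : ContinuousOn (fun p : Cn n × Cn n => p.2)
          (Metric.closedBall z1 b ×ˢ Metric.sphere (0 : Cn n) 1) := continuousOn_snd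
      have h3 : ContinuousOn (fun p : Cn n × Cn n => I • p.2)
          (Metric.closedBall z1 b ×ˢ Metric.sphere (0 : Cn n) 1) := h2.const_smul I
      exact ((h1.clm_apply h2).clm_apply h2).add ((h1.clm_apply h3).clm_apply h3)
    · rintro ⟨x, v⟩ ⟨hx, hv⟩
      refine hpos x hx v ?_
      rintro rfl
      simp at hv
  refine ⟨m, hm0, fun x hx v => ?_⟩
  by_cases hv : v = 0
  · subst hv; simp [lv]
  · have hn : 0 < ‖v‖ := norm_pos_iff.2 hv
    have h1 := hm (x, (‖v‖⁻¹ : ℝ) • v) ⟨hx, by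
      simp [norm_smul, hn.ne']⟩
    have h2 : lv u x ((‖v‖⁻¹ : ℝ) • v) = (‖v‖⁻¹) ^ 2 * lv u x v := by
      have e1 : I • ((‖v‖⁻¹ : ℝ) • v) = (‖v‖⁻¹ : ℝ) • (I • v) := smul_comm _ _ _
      simp only [lv, e1, map_smul, FunLike.coe_smul, Pi.smul_apply, smul_eq_mul]
      ring
    rw [h2] at h1
    have h3 : (‖v‖⁻¹) ^ 2 * lv u x v * ‖v‖ ^ 2 = lv u x v := by
      field_simp
    calc m * ‖v‖ ^ 2 ≤ (‖v‖⁻¹) ^ 2 * lv u x v * ‖v‖ ^ 2 := by
          exact mul_le_mul_of_nonneg_right h1 (by positivity)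
      _ = lv u x v := h3

/-- uniform quadratic lower bound of the normalised potentials. -/
theorem exists_quad {u : Cn n → ℝ} {z1 : Cn n} {a b : ℝ} (hab : a < b)
    (hu : ∀ x ∈ Metric.closedBall z1 b, ContDiffAt ℝ 2 u x)
    (hpos : ∀ x ∈ Metric.closedBall z1 b, ∀ v : Cn n, v ≠ 0 → 0 < lv u x v) :
    ∃ ρ, 0 < ρ ∧ ρ ≤ b - a ∧ ∃ lam : ℝ, 0 < lam ∧ ∀ z0 ∈ Metric.closedBall z1 a,
      ∀ z ∈ Metric.closedBall z0 ρ, lam * ‖z - z0‖ ^ 2 ≤ psi u z0 z := by
  have hcD : ContinuousOn (D2 u) (Metric.closedBall z1 b) := fun x hx =>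
    (continuousAt_D2 (hu x hx)).continuousWithinAt
  obtain ⟨m, hm0, hm'⟩ := exists_lev_ge hu hpos
  -- uniform continuity
  obtain ⟨δ, hδ, hδ'⟩ := unif_bil (isCompact_closedBall z1 b) hcD (ε := m / 4) (by positivity)
  refine ⟨min (δ / 2) (b - a), lt_min (by positivity) (by linarith), min_le_right _ _,
    m / 8, by positivity, fun z0 hz0 z hz => ?_⟩
  have hz0b : z0 ∈ Metric.closedBall z1 b :=
    Metric.closedBall_subset_closedBall hab.le hz0
  set w : Cn n := z - z0 with hw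
  have hwn : ‖w‖ ≤ min (δ / 2) (b - a) := by simpa [hw, dist_eq_norm] using hz
  have hline : ∀ t ∈ Icc (0 : ℝ) 1, z0 + t • w ∈ Metric.closedBall z1 b ∧
      dist (z0 + t • w) z0 < δ := by
    intro t ht
    have h1 : dist (z0 + t • w) z0 ≤ ‖w‖ := by
      rw [dist_eq_norm, add_sub_cancel_left, norm_smul, Real.norm_eq_abs, abs_of_nonneg ht.1]
      exact mul_le_of_le_one_left (norm_nonneg _) ht.2
    refine ⟨?_, ?_⟩
    · rw [Metric.mem_closedBall] at hz0 ⊢
      have := dist_triangle (z0 + t • w) z0 z1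
      have h2 := hwn.trans (min_le_right _ _)
      linarith
    · have h2 := hwn.trans (min_le_left _ _)
      linarith
  have k1 : ∀ t ∈ Icc (0 : ℝ) 1, HasDerivAt (fun t : ℝ => psi u z0 (z0 + t • w))
      (fderiv ℝ (psi u z0) (z0 + t • w) w) t := fun t ht =>
    line1 (contDiffAt_psi z0 (hu _ (hline t ht).1))
  have k2 : ∀ t ∈ Icc (0 : ℝ) 1, HasDerivAt (fun t : ℝ => fderiv ℝ (psi u z0) (z0 + t • w) w)
      (D2 (psi u z0) (z0 + t • w) w w) t := fun t ht =>
    line2 (contDiffAt_psi z0 (hu _ (hline t ht).1))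
  have k0 : fderiv ℝ (psi u z0) (z0 + (0 : ℝ) • w) w = 0 := by
    have h1 := (hasFDerivAt_psi z0 (z := z0) ((hu z0 hz0b).differentiableAt (by norm_num))).fderiv
    have h2 : z0 + (0 : ℝ) • w = z0 := by simp
    rw [h2, h1]
    simp
  have k3 : ∀ t ∈ Icc (0 : ℝ) 1, m / 4 * ‖w‖ ^ 2 ≤ D2 (psi u z0) (z0 + t • w) w w := by
    intro t ht
    rw [D2_psi z0 (hu _ (hline t ht).1)]
    have h1 : qf1 (D2 u z0) w w = (1 / 2) * (D2 u z0 w w - D2 u z0 (I • w) (I • w)) := by
      rw [qf1_apply]; ring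
    have h2 := hm' z0 hz0b w
    have h4 := hδ' _ (hline t ht).1 _ hz0b (hline t ht).2 w
    have h7 := (abs_le.1 h4).1
    simp only [sub_apply] at h7 ⊢
    unfold lv at h2
    rw [h1]
    nlinarith
  have := taylor_ge k1 k2 k0 k3
  have e0 : psi u z0 (z0 + (0 : ℝ) • w) = 0 := by
    have h2 : z0 + (0 : ℝ) • w = z0 := by simp
    rw [h2, psi_self]
  have e1 : z0 + (1 : ℝ) • w = z := by simp [hw]
  rw [e0, e1] at this
  linarith

/-- circle averages in the parametrisation of `FL884`. -/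
theorem integral_cir (g : ℂ → ℝ) :
    ∫ t in Ioo (0 : ℝ) 1, g (Crest.Agent.R275.FL884.cir t) = Real.circleAverage g 0 1 := by
  have h1 : ∀ t : ℝ, Crest.Agent.R275.FL884.cir t = circleMap 0 1 (2 * Real.pi * t) := by
    intro t
    simp [Crest.Agent.R275.FL884.cir, circleMap]
  simp only [h1]
  rw [← integral_Ioc_eq_integral_Ioo, ← intervalIntegral.integral_of_le zero_le_one,
    intervalIntegral.integral_comp_mul_left (fun x => g (circleMap 0 1 x)) (by positivity)]
  simp [Real.circleAverage]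

/-- the superharmonic inequality on circles, `[0,∞]` form. -/
theorem circle_le {u : Cn n → ℝ} {z v : Cn n} {P : ℝ} {U : Set (Cn n)}
    (hD : Crest.Agent.R275.FL884.DiscIn U z v)
    (hu : ∀ x ∈ U, ContDiffAt ℝ 2 u x) (hlev : ∀ x ∈ U, ∀ v, 0 ≤ lv u x v)
    (hP : ∀ x ∈ U, u x ≤ P) :
    ∫⁻ t in Ioo (0 : ℝ) 1, ENNReal.ofReal (P - u (z + Crest.Agent.R275.FL884.cir t • v))
      ≤ ENNReal.ofReal (P - u z) := by
  set g : ℂ → ℝ := fun ζ => u (z + ζ • v) with hg
  have hdisc : ∀ ζ ∈ Metric.closedBall (0 : ℂ) 1, z + ζ • v ∈ U := fun ζ hζ =>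
    hD ζ (by simpa using hζ)
  have hgd : ∀ ζ ∈ Metric.closedBall (0 : ℂ) 1, ContDiffAt ℝ 2 g ζ := by
    intro ζ hζ
    have h1 := hu _ (hdisc ζ hζ)
    exact h1.comp ζ (Crest.Agent.R275.FL884.contDiff_line z v).contDiffAt
  have hg2 : ∀ ζ ∈ Metric.closedBall (0 : ℂ) 1, ∀ c : ℂ,
      fderiv ℝ (fderiv ℝ g) ζ c c = D2 u (z + ζ • v) (c • v) (c • v) := by
    intro ζ hζ c
    have hux := hu _ (hdisc ζ hζ)
    have hct : ContinuousAt (fun ζ : ℂ => z + ζ • v) ζ := by fun_prop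
    have hev : ∀ᶠ y in 𝓝 ζ, fderiv ℝ g y c = fderiv ℝ u (z + y • v) (c • v) := by
      have := hct.eventually (hux.eventually (by simp))
      filter_upwards [this] with y hy
      exact Crest.Agent.R275.FL884.fderiv_line (hy.differentiableAt (by norm_num)) c
    have h1 : ContDiffAt ℝ 1 (fderiv ℝ g) ζ := (hgd ζ hζ).fderiv_right (by norm_num)
    have h2 : fderiv ℝ (fun y => fderiv ℝ g y c) ζ c = fderiv ℝ (fderiv ℝ g) ζ c c := by
      have := ((h1.differentiableAt (by simp)).hasFDerivAt.clm_apply (hasFDerivAt_const c ζ)).fderiv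
      rw [this]
      simp
    rw [← h2, Filter.EventuallyEq.fderiv_eq hev]
    have h3 : DifferentiableAt ℝ (fun x => fderiv ℝ u x (c • v)) (z + ζ • v) :=
      ((hux.fderiv_right (m := 1) (by norm_num)).differentiableAt (by simp)).clm_apply
        (differentiableAt_const _)
    rw [Crest.Agent.R275.FL884.fderiv_line h3 c]
    have h4 := (((hux.fderiv_right (m := 1) (by norm_num)).differentiableAt
      (by simp)).hasFDerivAt.clm_apply (hasFDerivAt_const (c • v) (z + ζ • v))).fderiv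
    rw [h4]
    simp [D2]
  have key := Crest.Agent.R275.FL884.le_circleAverage_of_contDiffAt (c := 0) hgd (by
    intro ζ hζ
    rw [hg2 ζ hζ 1, hg2 ζ hζ Complex.I]
    have := hlev _ (hdisc ζ hζ) v
    simpa [lv] using this)
  have hcont : Continuous fun t : ℝ => g (Crest.Agent.R275.FL884.cir t) := by
    rw [continuous_iff_continuousAt]
    intro t
    have h1 := (hgd (Crest.Agent.R275.FL884.cir t) (by
      simp [Crest.Agent.R275.FL884.norm_cir])).continuousAt
    exact ContinuousAt.comp (f := Crest.Agent.R275.FL884.cir) h1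
      (Crest.Agent.R275.FL884.continuous_cir.continuousAt)
  have hint : IntegrableOn (fun t : ℝ => P - g (Crest.Agent.R275.FL884.cir t)) (Ioo (0 : ℝ) 1) :=
    ((continuous_const.sub hcont).integrableOn_Icc (a := 0) (b := 1)).mono_set Ioo_subset_Icc_self
  have hnn : 0 ≤ᵐ[volume.restrict (Ioo (0 : ℝ) 1)] fun t : ℝ => P - g (Crest.Agent.R275.FL884.cir t) := by
    refine Eventually.of_forall fun t => ?_
    have := hP _ (hdisc (Crest.Agent.R275.FL884.cir t) (by simp [Crest.Agent.R275.FL884.norm_cir]))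
    simp only [Pi.zero_apply, hg]
    linarith
  have e1 : ∫⁻ t in Ioo (0 : ℝ) 1, ENNReal.ofReal (P - u (z + Crest.Agent.R275.FL884.cir t • v))
      = ENNReal.ofReal (∫ t in Ioo (0 : ℝ) 1, (P - g (Crest.Agent.R275.FL884.cir t))) :=
    (ofReal_integral_eq_lintegral_ofReal hint hnn).symm
  rw [e1]
  refine ENNReal.ofReal_le_ofReal ?_
  rw [integral_sub (by simp) ((hcont.integrableOn_Icc (a := 0) (b := 1)).mono_set
    Ioo_subset_Icc_self), integral_cir]
  have e2 : g 0 = u z := by simp [hg]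
  rw [e2] at key
  simp
  linarith

/-- **L¹ bound from one value.** -/
theorem lint_neg_le {u p : Cn n → ℝ} {z : Cn n} {R P : ℝ} (hR : 0 ≤ R) {U : Set (Cn n)}
    (hUm : MeasurableSet U) (hBU : Metric.closedBall z R ⊆ U)
    (hu : ∀ x ∈ U, ContDiffAt ℝ 2 u x) (hp : ∀ x ∈ U, ContDiffAt ℝ 2 p x)
    (hlev : ∀ x ∈ U, ∀ v, 0 ≤ lv (fun y => u y + p y) x v)
    (hP : ∀ x ∈ U, |u x| ≤ P) (hp0 : ∀ x ∈ U, p x ≤ 0) :
    ∫⁻ x in Metric.closedBall z R, ENNReal.ofReal (-p x)
      ≤ volume (Metric.closedBall z R) * ENNReal.ofReal (2 * P - p z) := by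
  have hsum : ∀ x ∈ U, ContDiffAt ℝ 2 (fun y => u y + p y) x := fun x hx => (hu x hx).add (hp x hx)
  have hle : ∀ x ∈ U, u x + p x ≤ P := fun x hx => by
    have h1 := (abs_le.1 (hP x hx)).2
    have h2 := hp0 x hx
    linarith
  have hSM : Crest.Agent.R275.FL884.SM U 0 (fun x => ENNReal.ofReal (P - (u x + p x))) := by
    intro z' v hD
    rw [zero_mul, add_zero]
    exact circle_le hD hsum hlev hle
  have hmeas : Measurable (U.indicator fun x => ENNReal.ofReal (P - (u x + p x))) := by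
    have h1 : ContinuousOn (fun x => ENNReal.ofReal (P - (u x + p x))) U := fun x hx =>
      (ENNReal.continuous_ofReal.continuousAt.comp
        (continuousAt_const.sub (hsum x hx).continuousAt)).continuousWithinAt
    classical
    rw [← Set.piecewise_eq_indicator]
    exact ContinuousOn.measurable_piecewise h1 continuousOn_const hUm
  have key := hSM.ball (μ := volume) hmeas hR hBU
  have hz : z ∈ U := hBU (Metric.mem_closedBall_self hR)
  calc ∫⁻ x in Metric.closedBall z R, ENNReal.ofReal (-p x)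
      ≤ ∫⁻ x in Metric.closedBall z R, ENNReal.ofReal (P - (u x + p x)) := by
        refine setLIntegral_mono' measurableSet_closedBall fun x hx => ?_
        refine ENNReal.ofReal_le_ofReal ?_
        have h1 := (abs_le.1 (hP x (hBU hx))).2
        linarith
    _ ≤ volume (Metric.closedBall z R) * (ENNReal.ofReal (P - (u z + p z)) + 0 * ENNReal.ofReal (R ^ 2)) := key
    _ ≤ volume (Metric.closedBall z R) * ENNReal.ofReal (2 * P - p z) := by
        rw [zero_mul, add_zero]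
        have h1 := (abs_le.1 (hP z hz)).1
        exact mul_le_mul_right (ENNReal.ofReal_le_ofReal (by linarith)) _

end

end Crest.Agent.R273.C0b_793
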