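import Crest.Agent.R275.FLSubA_884

/-!
# R273 (S0416), Part C (Yau), C0-d, local part (helper390): sub-mean value inequality on balls of
`ℂⁿ` for `C²` functions with `D²u(v,v) + D²u(iv,iv) ≥ -Λ ‖v‖²`, and the resulting `L¹` bound.
-/

set_option autoImplicit false
set_option linter.unusedSectionVars false

open MeasureTheory Set Metric Filter Topology

namespace Crest.Agent.R273.C0d_390

noncomputable section

variable {n : ℕ}

/-- complex `n`-space -/
abbrev V (n : ℕ) := EuclideanSpace ℂ (Fin n)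

/-- `D²u(v,v) + D²u(iv,iv)` -/
def lv (u : V n → ℝ) (z v : V n) : ℝ :=
  fderiv ℝ (fderiv ℝ u) z v v + fderiv ℝ (fderiv ℝ u) z (Complex.I • v) (Complex.I • v)

/-- the disc `w ↦ z + w v` -/
theorem fderiv2_disc {u : V n → ℝ} {z v : V n} {w : ℂ} (hu : ContDiffAt ℝ 2 u (z + w • v))
    (a : ℂ) :
    fderiv ℝ (fderiv ℝ (fun w : ℂ => u (z + w • v))) w a a
      = fderiv ℝ (fderiv ℝ u) (z + w • v) (a • v) (a • v) := by
  let L : ℂ →L[ℝ] V n := (ContinuousLinearMap.smulRight (1 : ℂ →L[ℂ] ℂ) v).restrictScalars ℝ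
  have hL : ∀ w : ℂ, L w = w • v := fun w => by simp [L]
  have hLd : ∀ w : ℂ, HasFDerivAt (fun w : ℂ => z + w • v) L w := by
    intro w
    have h : HasFDerivAt (fun w : ℂ => z + L w) L w := L.hasFDerivAt.const_add z
    refine h.congr_of_eventuallyEq (Eventually.of_forall fun w' => ?_)
    simp only [hL]
  have htend : Tendsto (fun w : ℂ => z + w • v) (𝓝 w) (𝓝 (z + w • v)) :=
    (hLd w).continuousAt.tendsto
  have h1 : ∀ᶠ y in 𝓝 (z + w • v), DifferentiableAt ℝ u y := by
    filter_upwards [hu.eventually (by simp)] with y hy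
    exact hy.differentiableAt (by norm_num)
  have h2 : DifferentiableAt ℝ (fderiv ℝ u) (z + w • v) :=
    (hu.fderiv_right (m := 1) (by norm_num)).differentiableAt (by norm_num)
  have e1 : fderiv ℝ (fun w : ℂ => u (z + w • v)) =ᶠ[𝓝 w]
      fun w => (fderiv ℝ u (z + w • v)).comp L := by
    filter_upwards [htend.eventually h1] with w' hw'
    exact (hw'.hasFDerivAt.comp w' (hLd w')).fderiv
  rw [e1.fderiv_eq]
  have h3 : HasFDerivAt (fun w : ℂ => fderiv ℝ u (z + w • v))
      ((fderiv ℝ (fderiv ℝ u) (z + w • v)).comp L) w := h2.hasFDerivAt.comp w (hLd w)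
  have h4 := h3.clm_comp (hasFDerivAt_const L w)
  rw [h4.fderiv]
  simp [hL]

theorem le_circle {u : V n → ℝ} {z : V n} {R Λ : ℝ}
    (hu : ∀ x ∈ closedBall z R, ContDiffAt ℝ 2 u x)
    (hlev : ∀ x ∈ closedBall z R, ∀ v, -(Λ * ‖v‖ ^ 2) ≤ lv u x v) {v : V n} (hv : ‖v‖ ≤ R) :
    u z ≤ Real.circleAverage (fun w : ℂ => u (z + w • v)) 0 1 + Λ / 4 * ‖v‖ ^ 2 := by
  have hin : ∀ w ∈ closedBall (0 : ℂ) 1, z + w • v ∈ closedBall z R := by
    intro w hw
    rw [mem_closedBall_zero_iff] at hw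
    rw [mem_closedBall, dist_eq_norm, add_sub_cancel_left, norm_smul]
    calc ‖w‖ * ‖v‖ ≤ 1 * ‖v‖ := mul_le_mul_of_nonneg_right hw (norm_nonneg _)
      _ ≤ R := by rwa [one_mul]
  have h1 : ∀ w ∈ closedBall (0 : ℂ) 1, ContDiffAt ℝ 2 (fun w : ℂ => u (z + w • v)) w := by
    intro w hw
    have : ContDiffAt ℝ 2 (fun w : ℂ => z + w • v) w := by fun_prop
    exact (hu _ (hin w hw)).comp w this
  have := Crest.Agent.R275.FL884.le_circleAverage_of_contDiffAt h1 (c := Λ / 4 * ‖v‖ ^ 2) (by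
    intro w hw
    rw [fderiv2_disc (hu _ (hin w hw)), fderiv2_disc (hu _ (hin w hw)), one_smul]
    have := hlev _ (hin w hw) v
    unfold lv at this
    linarith)
  simpa using this

theorem mp_smul (μ : Measure (V n)) [μ.IsAddHaarMeasure] {c : ℂ} (hc : ‖c‖ = 1) :
    MeasurePreserving (fun v : V n => c • v) μ μ := by
  have hm : Measurable (fun v : V n => c • v) := (continuous_const_smul c).measurable
  refine ⟨hm, ?_⟩
  let f : V n →ₗ[ℂ] V n := c • LinearMap.id
  have hdet : LinearMap.det (f.restrictScalars ℝ) = 1 := by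
    rw [LinearMap.det_restrictScalars, Algebra.norm_complex_apply, Complex.normSq_eq_norm_sq,
      show LinearMap.det f = c ^ n by simp [f], norm_pow, hc, one_pow, one_pow]
  have := Measure.map_linearMap_addHaar_eq_smul_addHaar μ (f := f.restrictScalars ℝ)
    (by rw [hdet]; exact one_ne_zero)
  rw [hdet] at this
  have e : (⇑(f.restrictScalars ℝ) : V n → V n) = fun v => c • v := rfl
  rw [e] at this
  simpa using this

theorem setIntegral_rot (μ : Measure (V n)) [μ.IsAddHaarMeasure] {c : ℂ} (hc : ‖c‖ = 1) (R : ℝ)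
    (g : V n → ℝ) : ∫ v in ball (0 : V n) R, g (c • v) ∂μ = ∫ v in ball (0 : V n) R, g v ∂μ := by
  have hc0 : c ≠ 0 := by
    rintro rfl
    simp at hc
  have hemb : MeasurableEmbedding (fun v : V n => c • v) :=
    (Homeomorph.smulOfNeZero c hc0).measurableEmbedding
  have h1 := (mp_smul μ hc).setIntegral_preimage_emb hemb g (ball 0 R)
  have h2 : (fun v : V n => c • v) ⁻¹' ball 0 R = ball 0 R := by
    ext v
    simp [norm_smul, hc]
  rw [h2] at h1
  exact h1

/-- **sub-mean value inequality on a ball** -/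
theorem submean (μ : Measure (V n)) [μ.IsAddHaarMeasure] {u : V n → ℝ} {z : V n} {R Λ : ℝ}
    (hR : 0 ≤ R) (hΛ : 0 ≤ Λ) (hu : ∀ x ∈ closedBall z R, ContDiffAt ℝ 2 u x)
    (hlev : ∀ x ∈ closedBall z R, ∀ v, -(Λ * ‖v‖ ^ 2) ≤ lv u x v) :
    u z * μ.real (ball z R) ≤ (∫ x in ball z R, u x ∂μ) + Λ / 4 * R ^ 2 * μ.real (ball z R) := by
  have hball : μ.real (ball z R) = μ.real (ball (0 : V n) R) := by
    rw [measureReal_def, measureReal_def, Measure.addHaar_ball_center]
  have hcont : ContinuousOn u (closedBall z R) := fun x hx => (hu x hx).continuousAt.continuousWithinAt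
  have hin : ∀ (θ : ℝ) (v : V n), v ∈ closedBall (0 : V n) R →
      z + circleMap 0 1 θ • v ∈ closedBall z R := by
    intro θ v hv
    rw [mem_closedBall_zero_iff] at hv
    rw [mem_closedBall, dist_eq_norm, add_sub_cancel_left, norm_smul]
    simpa using hv
  have hcc : Continuous (fun p : ℝ × V n => z + circleMap 0 1 p.1 • p.2) := by
    have := continuous_circleMap 0 1
    fun_prop
  have hprod : IntegrableOn (fun p : ℝ × V n => u (z + circleMap 0 1 p.1 • p.2))
      (Ioc 0 (2 * Real.pi) ×ˢ ball (0 : V n) R) ((volume : Measure ℝ).prod μ) := by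
    have h1 : ContinuousOn (fun p : ℝ × V n => u (z + circleMap 0 1 p.1 • p.2))
        (Icc 0 (2 * Real.pi) ×ˢ closedBall (0 : V n) R) :=
      hcont.comp hcc.continuousOn fun p hp => hin p.1 p.2 hp.2
    have h2 := h1.integrableOn_compact (μ := (volume : Measure ℝ).prod μ)
      (isCompact_Icc.prod (isCompact_closedBall _ _))
    exact h2.mono_set (prod_mono Ioc_subset_Icc_self ball_subset_closedBall)
  rw [IntegrableOn, ← Measure.prod_restrict] at hprod
  have hswap := integral_integral_swap (f := fun (θ : ℝ) (v : V n) => u (z + circleMap 0 1 θ • v))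
    (μ := volume.restrict (Ioc 0 (2 * Real.pi))) (ν := μ.restrict (ball (0 : V n) R)) hprod
  have hrot : ∀ θ : ℝ, ∫ v in ball (0 : V n) R, u (z + circleMap 0 1 θ • v) ∂μ
      = ∫ x in ball z R, u x ∂μ := by
    intro θ
    rw [setIntegral_rot μ (c := circleMap 0 1 θ) (by simp) R (fun v => u (z + v))]
    have h1 := (measurePreserving_add_left μ z).setIntegral_preimage_emb
      (measurableEmbedding_addLeft z) u (ball z R)
    rw [← h1]
    congr 2
    ext v
    simp
  have hpi : (0 : ℝ) < 2 * Real.pi := by positivity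
  have hL : ∫ θ in Ioc 0 (2 * Real.pi), (∫ v in ball (0 : V n) R, u (z + circleMap 0 1 θ • v) ∂μ)
      = 2 * Real.pi * ∫ x in ball z R, u x ∂μ := by
    simp only [hrot]
    simp [hpi.le]
  have hca : ∀ v : V n, Real.circleAverage (fun w : ℂ => u (z + w • v)) 0 1
      = (2 * Real.pi)⁻¹ * ∫ θ in Ioc 0 (2 * Real.pi), u (z + circleMap 0 1 θ • v) := by
    intro v
    rw [Real.circleAverage_def, intervalIntegral.integral_of_le hpi.le, smul_eq_mul]
  have hint : IntegrableOn (fun v : V n => ∫ θ in Ioc 0 (2 * Real.pi), u (z + circleMap 0 1 θ • v))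
      (ball (0 : V n) R) μ := hprod.integral_prod_right
  have hfin : μ (ball (0 : V n) R) ≠ ⊤ := measure_ball_lt_top.ne
  have hmono : ∫ _v in ball (0 : V n) R, u z ∂μ ≤ ∫ v in ball (0 : V n) R,
      ((2 * Real.pi)⁻¹ * (∫ θ in Ioc 0 (2 * Real.pi), u (z + circleMap 0 1 θ • v))
        + Λ / 4 * R ^ 2) ∂μ := by
    refine setIntegral_mono_on (integrableOn_const hfin) ((hint.const_mul _).add
      (integrableOn_const hfin)) measurableSet_ball fun v hv => ?_
    rw [mem_ball_zero_iff] at hv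
    have h1 := le_circle hu hlev hv.le
    rw [hca] at h1
    have h2 : Λ / 4 * ‖v‖ ^ 2 ≤ Λ / 4 * R ^ 2 := by gcongr
    linarith
  rw [integral_add (hint.const_mul _) (integrableOn_const hfin), integral_const_mul, ← hswap, hL,
    setIntegral_const, setIntegral_const, smul_eq_mul, smul_eq_mul, ← mul_assoc,
    inv_mul_cancel₀ hpi.ne', one_mul] at hmono
  rw [hball]
  linarith

/-- the `L¹` bound in a ball: `φ ≤ 0`, value `≥ -c` at one point -/
theorem l1_ball (μ : Measure (V n)) [μ.IsAddHaarMeasure] {u : V n → ℝ} {z : V n} {R Λ c : ℝ}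
    (hR : 0 ≤ R) (hΛ : 0 ≤ Λ) (hu : ∀ x ∈ closedBall z R, ContDiffAt ℝ 2 u x)
    (hlev : ∀ x ∈ closedBall z R, ∀ v, -(Λ * ‖v‖ ^ 2) ≤ lv u x v) (hz : -c ≤ u z) :
    ∫ x in ball z R, -u x ∂μ ≤ (c + Λ / 4 * R ^ 2) * μ.real (ball z R) := by
  have h1 := submean μ hR hΛ hu hlev
  have h2 : -c * μ.real (ball z R) ≤ u z * μ.real (ball z R) :=
    mul_le_mul_of_nonneg_right hz measureReal_nonneg
  rw [integral_neg]
  linarith

end

end Crest.Agent.R273.C0d_390
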