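import Crest.Agent.R273.C0d_390
import Crest.Agent.R273.YauDefs_635

/-!
# R273 (S0416), Part C (Yau), C0-d, global part (helper390): uniform `L¹` bound of the
`ω`-plurisubharmonic functions with maximum `0` on a compact connected manifold.
-/

set_option autoImplicit false
set_option linter.unusedSectionVars false

open MeasureTheory Set Metric Filter Topology
open scoped ContDiff

namespace Crest.Agent.R273.C0e_390

open Crest.Agent.R275.Geo Crest.Agent.R275.Core144 Crest.Agent.R275.GC293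
open Crest.Agent.R273.Defs_333 Crest.Agent.R273.YauDefs_635
open Crest.Agent.R273.C0d_390 (lv submean l1_ball)

noncomputable section

variable {n : ℕ} {M : Type} [TopologicalSpace M] {A : Atl n M}

/-- a class of nonpositive quasi-plurisubharmonic functions, with uniform lower Levi bounds -/
structure Cls (A : Atl n M) (P : (M → ℝ) → Prop) : Prop where
  sm : ∀ φ, P φ → A.Sm φ
  le : ∀ φ, P φ → ∀ x, φ x ≤ 0
  lev : ∀ i, ∀ K ⊆ (A.e i).target, IsCompact K → ∃ Λ, 0 ≤ Λ ∧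
    ∀ φ, P φ → ∀ z ∈ K, ∀ v, -(Λ * ‖v‖ ^ 2) ≤ lv (inC A i φ) z v

theorem Cls.mono {P P' : (M → ℝ) → Prop} (h : Cls A P) (hP : ∀ φ, P' φ → P φ) : Cls A P' :=
  ⟨fun φ hφ => h.sm φ (hP φ hφ), fun φ hφ => h.le φ (hP φ hφ), fun i K hK hc => by
    obtain ⟨Λ, h1, h2⟩ := h.lev i K hK hc
    exact ⟨Λ, h1, fun φ hφ => h2 φ (hP φ hφ)⟩⟩

theorem two_le_inf : (2 : WithTop ℕ∞) ≤ ∞ := WithTop.coe_le_coe.2 (le_top : (2 : ℕ∞) ≤ ⊤)

theorem contDiffAt_inC {φ : M → ℝ} (h : A.Sm φ) {i : A.ι} {z : Cn n}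
    (hz : z ∈ (A.e i).target) {k : WithTop ℕ∞} (hk : k ≤ ∞) : ContDiffAt ℝ k (inC A i φ) z :=
  ((h i).contDiffAt ((A.e i).open_target.mem_nhds hz)).of_le hk

/-- uniform lower bound somewhere in every neighbourhood of `x` -/
def Q (P : (M → ℝ) → Prop) (x : M) : Prop :=
  ∀ U ∈ 𝓝 x, ∃ C : ℝ, ∀ φ, P φ → ∃ y ∈ U, -C ≤ φ y

/-- chart ball -/
def cb (A : Atl n M) (i : A.ι) (z : Cn n) (r : ℝ) : Set M :=
  (A.e i).source ∩ (A.e i) ⁻¹' (ball z r)

theorem isOpen_cb (i : A.ι) (z : Cn n) (r : ℝ) : IsOpen (cb A i z r) :=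
  (A.e i).isOpen_inter_preimage isOpen_ball

variable (μ : Measure (Cn n)) [μ.IsAddHaarMeasure]

theorem ball_step {P : (M → ℝ) → Prop} (h : Cls A P) {i : A.ι} {z : Cn n} {r : ℝ} (hr : 0 < r)
    (hz : closedBall z (3 * r) ⊆ (A.e i).target) {C : ℝ}
    (hC : ∀ φ, P φ → ∃ y ∈ ball z r, -C ≤ inC A i φ y) :
    ∃ C' : ℝ, 0 ≤ C' ∧ ∀ φ, P φ →
      ∫⁻ w in ball z r, ENNReal.ofReal (-inC A i φ w) ∂μ ≤ ENNReal.ofReal C' := by
  obtain ⟨Λ, hΛ, hlev⟩ := h.lev i _ hz (isCompact_closedBall _ _)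
  refine ⟨|(C + Λ / 4 * (2 * r) ^ 2)| * μ.real (ball (0 : Cn n) (2 * r)), by positivity,
    fun φ hφ => ?_⟩
  obtain ⟨y, hy, hyC⟩ := hC φ hφ
  have hsub : closedBall y (2 * r) ⊆ closedBall z (3 * r) := by
    refine closedBall_subset_closedBall' ?_
    have := mem_ball.1 hy
    linarith
  have hsub2 : ball z r ⊆ ball y (2 * r) := by
    refine ball_subset_ball' ?_
    have := mem_ball'.1 hy
    linarith
  have hu : ∀ x ∈ closedBall y (2 * r), ContDiffAt ℝ 2 (inC A i φ) x := fun x hx =>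
    contDiffAt_inC (h.sm φ hφ) (hz (hsub hx)) two_le_inf
  have h1 := l1_ball μ (by positivity) hΛ hu (fun x hx v => hlev φ hφ x (hsub hx) v) hyC
  have hle : ∀ w ∈ closedBall y (2 * r), 0 ≤ -inC A i φ w := fun w _ => by
    have := h.le φ hφ ((A.e i).symm w)
    unfold inC
    linarith
  have hcont : ContinuousOn (fun w => -inC A i φ w) (closedBall y (2 * r)) := fun x hx =>
    (hu x hx).continuousAt.neg.continuousWithinAt
  have hint : IntegrableOn (fun w => -inC A i φ w) (ball y (2 * r)) μ :=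
    (hcont.integrableOn_compact (isCompact_closedBall _ _)).mono_set ball_subset_closedBall
  calc ∫⁻ w in ball z r, ENNReal.ofReal (-inC A i φ w) ∂μ
      ≤ ∫⁻ w in ball y (2 * r), ENNReal.ofReal (-inC A i φ w) ∂μ :=
        lintegral_mono_set hsub2
    _ = ENNReal.ofReal (∫ w in ball y (2 * r), -inC A i φ w ∂μ) := by
        rw [ofReal_integral_eq_lintegral_ofReal hint]
        exact (ae_restrict_iff' measurableSet_ball).2
          (Eventually.of_forall fun w hw => hle w (ball_subset_closedBall hw))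
    _ ≤ _ := by
        refine ENNReal.ofReal_le_ofReal (h1.trans ?_)
        rw [measureReal_def, measureReal_def, Measure.addHaar_ball_center]
        exact mul_le_mul_of_nonneg_right (le_abs_self _) ENNReal.toReal_nonneg

theorem exists_of_l1 {P : (M → ℝ) → Prop} {i : A.ι} {z : Cn n} {r : ℝ}
    {C : ℝ} (hC : ∀ φ, P φ → ∫⁻ w in ball z r, ENNReal.ofReal (-inC A i φ w) ∂μ
      ≤ ENNReal.ofReal C) {W : Set (Cn n)} (hW : IsOpen W) (hne : W.Nonempty) (hWr : W ⊆ ball z r) :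
    ∃ C' : ℝ, ∀ φ, P φ → ∃ y ∈ W, -C' ≤ inC A i φ y := by
  have hm : 0 < μ.real W := by
    rw [measureReal_def]
    exact ENNReal.toReal_pos (hW.measure_pos μ hne).ne'
      ((measure_mono hWr).trans_lt measure_ball_lt_top).ne
  have hmt : μ W ≠ ⊤ := ((measure_mono hWr).trans_lt measure_ball_lt_top).ne
  refine ⟨(|C| + 1) / μ.real W, fun φ hφ => ?_⟩
  by_contra hcon
  push Not at hcon
  have h1 : ∫⁻ _w in W, ENNReal.ofReal ((|C| + 1) / μ.real W) ∂μ
      ≤ ∫⁻ w in W, ENNReal.ofReal (-inC A i φ w) ∂μ := by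
    refine setLIntegral_mono' hW.measurableSet fun w hw => ?_
    have := hcon w hw
    exact ENNReal.ofReal_le_ofReal (by linarith)
  have h2 : ∫⁻ w in W, ENNReal.ofReal (-inC A i φ w) ∂μ ≤ ENNReal.ofReal C :=
    (lintegral_mono_set hWr).trans (hC φ hφ)
  rw [setLIntegral_const] at h1
  have h3 : ENNReal.ofReal ((|C| + 1) / μ.real W) * μ W = ENNReal.ofReal (|C| + 1) := by
    have e : μ W = ENNReal.ofReal (μ.real W) := by
      rw [measureReal_def, ENNReal.ofReal_toReal hmt]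
    rw [e, ← ENNReal.ofReal_mul (by positivity)]
    congr 1
    field_simp
  rw [h3] at h1
  have h4 := h1.trans h2
  rw [ENNReal.ofReal_le_ofReal_iff'] at h4
  have := le_abs_self C
  have := abs_nonneg C
  rcases h4 with h | h <;> linarith

theorem spread {P : (M → ℝ) → Prop} (h : Cls A P) {i : A.ι} {z : Cn n} {r : ℝ} (hr : 0 < r)
    (hz : closedBall z (3 * r) ⊆ (A.e i).target) {C : ℝ}
    (hC : ∀ φ, P φ → ∃ y ∈ ball z r, -C ≤ inC A i φ y) {x : M} (hx : x ∈ cb A i z r) :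
    Q P x := by
  intro U hU
  obtain ⟨C1, -, hC1⟩ := ball_step (Measure.addHaar) h hr hz hC
  obtain ⟨U', hU'U, hU'o, hxU'⟩ := mem_nhds_iff.1 hU
  have hW : IsOpen (ball z r ∩ ((A.e i).target ∩ (A.e i).symm ⁻¹' U')) :=
    isOpen_ball.inter ((A.e i).isOpen_inter_preimage_symm hU'o)
  obtain ⟨C', hC'⟩ := exists_of_l1 (Measure.addHaar) hC1 hW
    ⟨A.e i x, hx.2, (A.e i).map_source hx.1, by
      rw [mem_preimage, (A.e i).left_inv hx.1]; exact hxU'⟩ inter_subset_left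
  refine ⟨C', fun φ hφ => ?_⟩
  obtain ⟨y, hy, hyC⟩ := hC' φ hφ
  exact ⟨(A.e i).symm y, hU'U hy.2.2, hyC⟩

/-- good chart balls exist around every point -/
theorem exists_cb (x : M) : ∃ (i : A.ι) (z : Cn n) (r : ℝ), 0 < r ∧
    closedBall z (3 * r) ⊆ (A.e i).target ∧ x ∈ cb A i z r := by
  obtain ⟨i, hi⟩ := A.cover x
  obtain ⟨ε, hε, hsub⟩ := Metric.isOpen_iff.1 (A.e i).open_target _ ((A.e i).map_source hi)
  refine ⟨i, A.e i x, ε / 4, by positivity, ?_, hi, mem_ball_self (by positivity)⟩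
  refine Subset.trans ?_ hsub
  intro w hw
  rw [mem_closedBall] at hw
  rw [mem_ball]
  linarith

theorem Q_cb {P : (M → ℝ) → Prop} (h : Cls A P) {i : A.ι} {z : Cn n} {r : ℝ} (hr : 0 < r)
    (hz : closedBall z (3 * r) ⊆ (A.e i).target) {x y : M} (hx : x ∈ cb A i z r)
    (hy : y ∈ cb A i z r) (hQ : Q P x) : Q P y := by
  obtain ⟨C, hC⟩ := hQ (cb A i z r) ((isOpen_cb i z r).mem_nhds hx)
  refine spread h hr hz (C := C) (fun φ hφ => ?_) hy
  obtain ⟨w, hw, hwC⟩ := hC φ hφ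
  refine ⟨A.e i w, hw.2, ?_⟩
  unfold inC
  rwa [(A.e i).left_inv hw.1]

theorem Q_conn [ConnectedSpace M] {P : (M → ℝ) → Prop} (h : Cls A P) {x : M} (hx : Q P x) (y : M) :
    Q P y := by
  have hlc : IsLocallyConstant (fun x => Q P x) := by
    rw [IsLocallyConstant.iff_exists_open]
    intro x
    obtain ⟨i, z, r, hr, hz, hx⟩ := exists_cb (A := A) x
    refine ⟨cb A i z r, isOpen_cb i z r, hx, fun y hy => ?_⟩
    exact propext ⟨fun hQ => Q_cb h hr hz hy hx hQ, fun hQ => Q_cb h hr hz hx hy hQ⟩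
  have := hlc.apply_eq_of_isPreconnected (isPreconnected_univ) (mem_univ x) (mem_univ y)
  exact this ▸ hx

theorem Q_all [CompactSpace M] [ConnectedSpace M] {P : (M → ℝ) → Prop} (h : Cls A P)
    (h0 : ∀ φ, P φ → ∃ x, φ x = 0) (x : M) : Q P x := by
  classical
  choose i z r hr hz hx using exists_cb (A := A)
  obtain ⟨T, hT⟩ := isCompact_univ.elim_finite_subcover (fun t : M => cb A (i t) (z t) (r t))
    (fun t => isOpen_cb _ _ _) (fun t _ => mem_iUnion.2 ⟨t, hx t⟩)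
  intro U hU
  have hcl : ∀ t : M, Cls A (fun φ => P φ ∧ ∃ y ∈ cb A (i t) (z t) (r t), φ y = 0) :=
    fun t => h.mono fun φ hφ => hφ.1
  have hQt : ∀ t : M, Q (fun φ => P φ ∧ ∃ y ∈ cb A (i t) (z t) (r t), φ y = 0) t := by
    intro t
    refine spread (hcl t) (hr t) (hz t) (C := 0) (fun φ hφ => ?_) (hx t)
    obtain ⟨y, hy, hy0⟩ := hφ.2
    refine ⟨A.e (i t) y, hy.2, ?_⟩
    unfold inC
    rw [(A.e (i t)).left_inv hy.1, hy0, neg_zero]
  choose C hC using fun t : M => Q_conn (hcl t) (hQt t) x U hU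
  refine ⟨∑ t ∈ T, |C t|, fun φ hφ => ?_⟩
  obtain ⟨y, hy⟩ := h0 φ hφ
  obtain ⟨t, ht⟩ := mem_iUnion.1 (hT (mem_univ y))
  obtain ⟨htT, hyt⟩ := mem_iUnion.1 ht
  obtain ⟨w, hw, hwC⟩ := hC t φ ⟨hφ, y, hyt, hy⟩
  refine ⟨w, hw, le_trans ?_ hwC⟩
  have h1 : |C t| ≤ ∑ t ∈ T, |C t| :=
    Finset.single_le_sum (f := fun t => |C t|) (fun t _ => abs_nonneg _) htT
  have := le_abs_self (C t)
  linarith

/-- **uniform `L¹` bound** on compact subsets of the charts -/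
theorem l1_compact [CompactSpace M] [ConnectedSpace M] {P : (M → ℝ) → Prop} (h : Cls A P)
    (h0 : ∀ φ, P φ → ∃ x, φ x = 0) (i : A.ι) {K : Set (Cn n)} (hK : IsCompact K)
    (hKt : K ⊆ (A.e i).target) :
    ∃ C : ℝ, 0 ≤ C ∧ ∀ φ, P φ →
      ∫⁻ w in K, ENNReal.ofReal (-inC A i φ w) ∂μ ≤ ENNReal.ofReal C := by
  refine hK.induction_on (p := fun s => ∃ C : ℝ, 0 ≤ C ∧ ∀ φ, P φ →
      ∫⁻ w in s, ENNReal.ofReal (-inC A i φ w) ∂μ ≤ ENNReal.ofReal C) ?_ ?_ ?_ ?_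
  · exact ⟨0, le_rfl, fun φ _ => by simp⟩
  · rintro s t hst ⟨C, hC0, hC⟩
    exact ⟨C, hC0, fun φ hφ => (lintegral_mono_set hst).trans (hC φ hφ)⟩
  · rintro s t ⟨C, hC0, hC⟩ ⟨C', hC0', hC'⟩
    refine ⟨C + C', add_nonneg hC0 hC0', fun φ hφ => ?_⟩
    rw [ENNReal.ofReal_add hC0 hC0']
    exact (lintegral_union_le _ _ _).trans (add_le_add (hC φ hφ) (hC' φ hφ))
  · intro z hzK
    obtain ⟨ε, hε, hsub⟩ := Metric.isOpen_iff.1 (A.e i).open_target _ (hKt hzK)
    have hr : 0 < ε / 4 := by positivity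
    have hz : closedBall z (3 * (ε / 4)) ⊆ (A.e i).target := by
      refine Subset.trans ?_ hsub
      intro w hw
      rw [mem_closedBall] at hw
      rw [mem_ball]
      linarith
    refine ⟨ball z (ε / 4), mem_nhdsWithin_of_mem_nhds (ball_mem_nhds _ hr), ?_⟩
    have hzs : (A.e i).symm z ∈ cb A i z (ε / 4) := by
      refine ⟨(A.e i).map_target (hKt hzK), ?_⟩
      rw [mem_preimage, (A.e i).right_inv (hKt hzK)]
      exact mem_ball_self hr
    obtain ⟨C, hC⟩ := Q_all h h0 ((A.e i).symm z) (cb A i z (ε / 4))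
      ((isOpen_cb _ _ _).mem_nhds hzs)
    refine ball_step μ h hr hz (C := C) fun φ hφ => ?_
    obtain ⟨w, hw, hwC⟩ := hC φ hφ
    refine ⟨A.e i w, hw.2, ?_⟩
    unfold inC
    rwa [(A.e i).left_inv hw.1]

/-! ### the class of a Hermitian metric -/

theorem contDiffAt_wt {L : LB A} (H : HM L) {i : A.ι} {z : Cn n} (hz : z ∈ (A.e i).target)
    {k : WithTop ℕ∞} (hk : k ≤ ∞) : ContDiffAt ℝ k (H.wt i) z := by
  have h1 : ContDiffAt ℝ ∞ (fun z => H.w i ((A.e i).symm z)) z :=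
    (H.sm i).contDiffAt ((A.e i).open_target.mem_nhds hz)
  exact ((h1.log (H.pos i _ ((A.e i).map_target hz)).ne').neg).of_le hk

theorem lv_eq_lev (u : Cn n → ℝ) (z v : Cn n) : lv u z v = Defs_333.lev u z v := by
  rw [lev333_eq]
  rfl

theorem lev_add {u u' : Cn n → ℝ} {z : Cn n} (hu : ContDiffAt ℝ 2 u z)
    (hu' : ContDiffAt ℝ 2 u' z) (v : Cn n) :
    Defs_333.lev (fun z => u z + u' z) z v = Defs_333.lev u z v + Defs_333.lev u' z v := by
  have e : fderiv ℝ (fun z => u z + u' z) =ᶠ[𝓝 z] fun z => fderiv ℝ u z + fderiv ℝ u' z := by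
    filter_upwards [hu.eventually (by simp), hu'.eventually (by simp)] with y hy hy'
    exact fderiv_add (hy.differentiableAt (by norm_num)) (hy'.differentiableAt (by norm_num))
  have d1 : DifferentiableAt ℝ (fderiv ℝ u) z :=
    (hu.fderiv_right (m := 1) (by norm_num)).differentiableAt (by norm_num)
  have d2 : DifferentiableAt ℝ (fderiv ℝ u') z :=
    (hu'.fderiv_right (m := 1) (by norm_num)).differentiableAt (by norm_num)
  have e2 : fderiv ℝ (fderiv ℝ (fun z => u z + u' z)) z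
      = fderiv ℝ (fderiv ℝ u) z + fderiv ℝ (fderiv ℝ u') z := by
    rw [e.fderiv_eq]
    exact fderiv_add d1 d2
  simp only [lev333_eq, D2, e2, _root_.add_apply]
  ring

/-- `ω`-plurisubharmonic functions with maximum `0` -/
def PSH {L : LB A} (H : HM L) (φ : M → ℝ) : Prop :=
  A.Sm φ ∧ KPos H φ ∧ (∀ x, φ x ≤ 0) ∧ ∃ x, φ x = 0

theorem cls_psh {L : LB A} (H : HM L) : Cls A (PSH H) := by
  refine ⟨fun φ hφ => hφ.1, fun φ hφ => hφ.2.2.1, fun i K hK hc => ?_⟩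
  have hcont : ContinuousOn (fun z => fderiv ℝ (fderiv ℝ (H.wt i)) z) K := fun z hz => by
    have h1 : ContDiffAt ℝ 2 (H.wt i) z := contDiffAt_wt H (hK hz) two_le_inf
    exact ((h1.fderiv_right (m := 1) (by norm_num)).fderiv_right (m := 0)
      (by norm_num)).continuousAt.continuousWithinAt
  obtain ⟨C, hC⟩ := hc.exists_bound_of_continuousOn (f := fun z => fderiv ℝ (fderiv ℝ (H.wt i)) z) hcont
  refine ⟨2 * |C|, by positivity, fun φ hφ z hz v => ?_⟩
  rw [lv_eq_lev]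
  have h1 : 0 ≤ Defs_333.lev (pot H φ i) z v := by
    by_cases hv : v = 0
    · subst hv
      rw [lev333_eq]
      simp [D2]
    · exact (hφ.2.1 i z (hK hz) v hv).le
  have h2 : Defs_333.lev (pot H φ i) z v
      = Defs_333.lev (H.wt i) z v + Defs_333.lev (inC A i φ) z v :=
    lev_add (contDiffAt_wt H (hK hz) two_le_inf)
      (contDiffAt_inC hφ.1 (hK hz) two_le_inf) v
  have hb : ∀ w : Cn n, |D2 (H.wt i) z w w| ≤ |C| * ‖w‖ ^ 2 := by
    intro w
    have h3 : ‖fderiv ℝ (fderiv ℝ (H.wt i)) z‖ ≤ |C| := (hC z hz).trans (le_abs_self C)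
    calc |D2 (H.wt i) z w w| ≤ ‖fderiv ℝ (fderiv ℝ (H.wt i)) z‖ * ‖w‖ * ‖w‖ :=
          (fderiv ℝ (fderiv ℝ (H.wt i)) z).le_opNorm₂ w w
      _ ≤ |C| * ‖w‖ * ‖w‖ := by gcongr
      _ = _ := by ring
  have h4 : Defs_333.lev (H.wt i) z v ≤ 2 * |C| * ‖v‖ ^ 2 := by
    rw [lev333_eq]
    have h5 := (le_abs_self _).trans (hb v)
    have h6 := (le_abs_self _).trans (hb (Complex.I • v))
    rw [norm_smul, Complex.norm_I, one_mul] at h6
    linarith
  linarith

/-- **C0-d** -/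
theorem l1_psh [CompactSpace M] [ConnectedSpace M] {L : LB A} (H : HM L) (i : A.ι)
    {K : Set (Cn n)} (hK : IsCompact K) (hKt : K ⊆ (A.e i).target) :
    ∃ C : ℝ, 0 ≤ C ∧ ∀ φ, PSH H φ →
      ∫⁻ w in K, ENNReal.ofReal (-inC A i φ w) ∂μ ≤ ENNReal.ofReal C :=
  l1_compact μ (cls_psh H) (fun _ hφ => hφ.2.2.2) i hK hKt

end

end Crest.Agent.R273.C0e_390
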