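import Crest.Agent.R273.YauMax_635

/-!
# R273 / Yau C² estimate (helper793), part a: pointwise calculus

* `hs_quad`, `dj_quad` : derivatives of `∑ M_ab V_a conj V_b`, `V` holomorphic
* `hs_hs_comm` : symmetry of the fourth derivatives
* `hasFDerivAt_det`, `hs_det`, `hs_log_det` : Jacobi's formula, second order, at the identity
* `log_quad_lower` : `∑_c ∂_c∂̄_c log u_{V V̄} ≥ ∂_v∂̄_v log det (u_ab̄) / |v|²` when `u_ab̄ = δ_ab`
-/

set_option autoImplicit false
set_option linter.unusedSectionVars false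

open Set Filter Topology Complex
open scoped ContDiff Matrix ComplexConjugate

namespace Crest.Agent.R273.C2a_793

open Crest.Agent.R275.Geo Crest.Agent.R275.Core144 Crest.Agent.R275.GC293
open Crest.Agent.R275.OmT75
open Crest.Agent.R273.Levi_145

noncomputable section

variable {n : ℕ}

/-- the real curve `z ↦ e_c` -/
abbrev ee (c : Fin n) : Cn n := EuclideanSpace.single c (1 : ℂ)

/-! ### quadratic expressions in holomorphic vector fields -/

section Quad

variable {x : Cn n} {F : Fin n → Fin n → Cn n → ℂ} {V : Fin n → Cn n → ℂ}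

/-- `∑ M_ab V_a conj V_b` -/
def quad (F : Fin n → Fin n → Cn n → ℂ) (V : Fin n → Cn n → ℂ) (z : Cn n) : ℂ :=
  ∑ a, ∑ b, F a b z * (V a z * conj (V b z))

theorem c2_vv (hV : ∀ a, ∀ᶠ w in 𝓝 x, DifferentiableAt ℂ (V a) w) (a b : Fin n) :
    ContDiffAt ℝ 2 (fun w => V a w * conj (V b w)) x :=
  (c2_of_anal (anal_of_ev (hV a)) 2).mul
    (Complex.conjCLE.contDiff.contDiffAt.comp x (c2_of_anal (anal_of_ev (hV b)) 2))

theorem dj_vv (hV : ∀ a, ∀ᶠ w in 𝓝 x, DifferentiableAt ℂ (V a) w) (a b c : Fin n) :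
    dj c (fun w => V a w * conj (V b w)) x = fderiv ℂ (V a) x (ee c) * conj (V b x) := by
  have h1 := (hV a).self_of_nhds
  have h2 := (hV b).self_of_nhds
  have hr := h2.restrictScalars ℝ
  have hc : DifferentiableAt ℝ (fun y => conj (V b y)) x :=
    (Complex.conjCLE : ℂ →L[ℝ] ℂ).differentiableAt.comp x hr
  have e := dj_mul (a := c) (g := fun y => conj (V b y)) (h1.restrictScalars ℝ) hc
  rw [e, dj_conj hr, dbj_holo h2, dj_holo h1]
  simp

theorem dbj_vv (hV : ∀ a, ∀ᶠ w in 𝓝 x, DifferentiableAt ℂ (V a) w) (a b c : Fin n) :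
    dbj c (fun w => V a w * conj (V b w)) x = V a x * conj (fderiv ℂ (V b) x (ee c)) := by
  have h1 := (hV a).self_of_nhds
  have h2 := (hV b).self_of_nhds
  have hr := h2.restrictScalars ℝ
  have hc : DifferentiableAt ℝ (fun y => conj (V b y)) x :=
    (Complex.conjCLE : ℂ →L[ℝ] ℂ).differentiableAt.comp x hr
  have e := dbj_mul' (a := c) (g := fun y => conj (V b y)) (h1.restrictScalars ℝ) hc
  rw [e, dbj_conj hr, dbj_holo h1, dj_holo h2]
  simp

theorem hs_quad (hF : ∀ a b, ContDiffAt ℝ 2 (F a b) x)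
    (hV : ∀ a, ∀ᶠ w in 𝓝 x, DifferentiableAt ℂ (V a) w) (c d : Fin n) :
    hs (quad F V) x c d = ∑ a, ∑ b, (hs (F a b) x c d * (V a x * conj (V b x))
      + F a b x * (fderiv ℂ (V a) x (ee c) * conj (fderiv ℂ (V b) x (ee d)))
      + dj c (F a b) x * (V a x * conj (fderiv ℂ (V b) x (ee d)))
      + dbj d (F a b) x * (fderiv ℂ (V a) x (ee c) * conj (V b x))) := by
  have h1 : ∀ a b, ContDiffAt ℝ 2 (fun w => F a b w * (V a w * conj (V b w))) x := fun a b =>
    (hF a b).mul (c2_vv hV a b)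
  unfold quad
  rw [hs_sum Finset.univ fun a _ => ContDiffAt.sum fun b _ => h1 a b]
  refine Finset.sum_congr rfl fun a _ => ?_
  rw [hs_sum Finset.univ fun b _ => h1 a b]
  refine Finset.sum_congr rfl fun b _ => ?_
  rw [hs_mul (hF a b) (c2_vv hV a b), hs_mul_conj (hV a) (hV b), dj_vv hV, dbj_vv hV]

theorem dj_quad (hF : ∀ a b, ContDiffAt ℝ 2 (F a b) x)
    (hV : ∀ a, ∀ᶠ w in 𝓝 x, DifferentiableAt ℂ (V a) w) (c : Fin n) :
    dj c (quad F V) x = ∑ a, ∑ b, (dj c (F a b) x * (V a x * conj (V b x))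
      + F a b x * (fderiv ℂ (V a) x (ee c) * conj (V b x))) := by
  have h1 : ∀ a b, ContDiffAt ℝ 2 (fun w => F a b w * (V a w * conj (V b w))) x := fun a b =>
    (hF a b).mul (c2_vv hV a b)
  unfold quad
  rw [dj_sum fun a _ => c2_diff (ContDiffAt.sum fun b _ => h1 a b)]
  refine Finset.sum_congr rfl fun a _ => ?_
  rw [dj_sum fun b _ => c2_diff (h1 a b)]
  refine Finset.sum_congr rfl fun b _ => ?_
  rw [dj_mul (c2_diff (hF a b)) (c2_diff (c2_vv hV a b)), dj_vv hV]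

end Quad

/-! ### smoothness, symmetry of higher derivatives -/

section Symm

variable {f : Cn n → ℂ} {x : Cn n}

theorem inf_of_one {m : ℕ} : ((m : ℕ∞) : WithTop ℕ∞) ≤ ∞ := WithTop.coe_le_coe.2 le_top

theorem sm_fderiv {W : Type*} [NormedAddCommGroup W] [NormedSpace ℝ W] {f : Cn n → W}
    (hf : ContDiffAt ℝ ∞ f x) : ContDiffAt ℝ ∞ (fderiv ℝ f) x :=
  hf.fderiv_right (by simp)

theorem sm_dj (hf : ContDiffAt ℝ ∞ f x) (a : Fin n) : ContDiffAt ℝ ∞ (dj a f) x := by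
  have h1 := sm_fderiv hf
  have h2 : ∀ v : Cn n, ContDiffAt ℝ ∞ (fun w => fderiv ℝ f w v) x := fun v =>
    h1.clm_apply contDiffAt_const
  exact ((h2 _).sub ((h2 _).const_smul I)).const_smul (1 / 2 : ℂ)

theorem sm_dbj (hf : ContDiffAt ℝ ∞ f x) (a : Fin n) : ContDiffAt ℝ ∞ (dbj a f) x := by
  have h1 := sm_fderiv hf
  have h2 : ∀ v : Cn n, ContDiffAt ℝ ∞ (fun w => fderiv ℝ f w v) x := fun v =>
    h1.clm_apply contDiffAt_const
  exact ((h2 _).add ((h2 _).const_smul I)).const_smul (1 / 2 : ℂ)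

theorem sm_hs (hf : ContDiffAt ℝ ∞ f x) (a b : Fin n) :
    ContDiffAt ℝ ∞ (fun z => hs f z a b) x := sm_dj (sm_dbj hf b) a

theorem sm2 {W : Type*} [NormedAddCommGroup W] [NormedSpace ℝ W] {f : Cn n → W}
    (hf : ContDiffAt ℝ ∞ f x) : ContDiffAt ℝ 2 f x :=
  hf.of_le (WithTop.coe_le_coe.2 (le_top : (2 : ℕ∞) ≤ ⊤))

theorem ev_sm2 {W : Type*} [NormedAddCommGroup W] [NormedSpace ℝ W] {f : Cn n → W}
    (hf : ContDiffAt ℝ ∞ f x) : ∀ᶠ y in 𝓝 x, ContDiffAt ℝ 2 f y :=
  c2_ev (sm2 hf)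

theorem ev_dj_dbj (hf : ContDiffAt ℝ ∞ f x) (a b : Fin n) :
    dj a (dbj b f) =ᶠ[𝓝 x] dbj b (dj a f) := by
  filter_upwards [ev_sm2 hf] with y hy
  exact dj_dbj_comm hy a b

theorem ev_dj_dj (hf : ContDiffAt ℝ ∞ f x) (a b : Fin n) :
    dj a (dj b f) =ᶠ[𝓝 x] dj b (dj a f) := by
  filter_upwards [ev_sm2 hf] with y hy
  exact dj_dj_comm hy a b

theorem ev_dbj_dbj (hf : ContDiffAt ℝ ∞ f x) (a b : Fin n) :
    dbj a (dbj b f) =ᶠ[𝓝 x] dbj b (dbj a f) := by
  filter_upwards [ev_sm2 hf] with y hy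
  exact dbj_dbj_comm hy a b

theorem dj_ev {f g : Cn n → ℂ} (h : f =ᶠ[𝓝 x] g) (a : Fin n) : dj a f =ᶠ[𝓝 x] dj a g := by
  filter_upwards [h.eventually_nhds] with y hy
  exact dj_congr hy

theorem dbj_ev {f g : Cn n → ℂ} (h : f =ᶠ[𝓝 x] g) (a : Fin n) : dbj a f =ᶠ[𝓝 x] dbj a g := by
  filter_upwards [h.eventually_nhds] with y hy
  exact Crest.Agent.R275.OmT75.dbj_congr hy

/-- symmetry of the fourth derivatives -/
theorem hs_hs_comm (hf : ContDiffAt ℝ ∞ f x) (a b c d : Fin n) :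
    hs (fun z => hs f z c d) x a b = hs (fun z => hs f z a b) x c d := by
  have e : ∀ a b : Fin n, (fun z => hs f z a b) = dj a (dbj b f) := fun _ _ => rfl
  rw [e, e]
  unfold hs
  -- dj a (dbj b (dj c (dbj d f)))
  have h1 : dbj b (dj c (dbj d f)) =ᶠ[𝓝 x] dj c (dbj b (dbj d f)) :=
    (ev_dj_dbj (sm_dbj hf d) c b).symm
  have h2 : dj a (dj c (dbj b (dbj d f))) =ᶠ[𝓝 x] dj c (dj a (dbj b (dbj d f))) :=
    ev_dj_dj (sm_dbj (sm_dbj hf d) b) a c
  have h3 : dbj b (dbj d f) =ᶠ[𝓝 x] dbj d (dbj b f) := ev_dbj_dbj hf b d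
  have h4 : dj a (dbj d (dbj b f)) =ᶠ[𝓝 x] dbj d (dj a (dbj b f)) :=
    ev_dj_dbj (sm_dbj hf b) a d
  have h5 : dj a (dbj b (dj c (dbj d f))) =ᶠ[𝓝 x] dj c (dbj d (dj a (dbj b f))) :=
    (dj_ev h1 a).trans (h2.trans (dj_ev ((dj_ev h3 a).trans h4) c))
  exact h5.self_of_nhds

/-- conjugate of the third derivatives -/
theorem dbj_hs_cx {u : Cn n → ℝ} (hu : ContDiffAt ℝ ∞ u x) (a b d : Fin n) :
    dbj d (fun z => hs (cx u) z a b) x = conj (dj d (fun z => hs (cx u) z b a) x) := by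
  have hc : ContDiffAt ℝ ∞ (cx u) x := Complex.ofRealCLM.contDiff.contDiffAt.comp x hu
  rw [← dbj_conj (c2_diff (sm2 (sm_hs hc b a)))]
  refine Crest.Agent.R275.OmT75.dbj_congr ?_
  filter_upwards [ev_sm2 hu] with y hy
  rw [hs_herm hy]

theorem dj_hs_symm {u : Cn n → ℝ} (hu : ContDiffAt ℝ ∞ u x) (a b c : Fin n) :
    dj c (fun z => hs (cx u) z a b) x = dj a (fun z => hs (cx u) z c b) x := by
  have hc : ContDiffAt ℝ ∞ (cx u) x := Complex.ofRealCLM.contDiff.contDiffAt.comp x hu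
  exact dj_hs (hc.of_le (WithTop.coe_le_coe.2 (le_top : (3 : ℕ∞) ≤ ⊤))) c a b

end Symm

/-! ### Jacobi's formula -/

section Det

variable {V : Type*} [NormedAddCommGroup V] [NormedSpace ℝ V]

theorem sum_adj_col (A : Matrix (Fin n) (Fin n) ℂ) (i : Fin n) (b : Fin n → ℂ) :
    (A.updateCol i b).det = ∑ j, A.adjugate i j * b j := by
  rw [← Matrix.cramer_apply, Matrix.cramer_eq_adjugate_mulVec]
  rfl

/-- Jacobi's formula. -/
theorem hasFDerivAt_det {A : V → Matrix (Fin n) (Fin n) ℂ} {A' : Fin n → Fin n → V →L[ℝ] ℂ} {x : V}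
    (hA : ∀ i j, HasFDerivAt (fun y => A y i j) (A' i j) x) :
    HasFDerivAt (fun y => (A y).det) (∑ i, ∑ j, (A x).adjugate i j • A' j i) x := by
  have h1 : ∀ y, (A y).det = ∑ σ : Equiv.Perm (Fin n),
      ((Equiv.Perm.sign σ : ℤ) : ℂ) * ∏ i, A y (σ i) i := by
    intro y; rw [Matrix.det_apply']
  simp_rw [h1]
  have h2 : HasFDerivAt (fun y => ∑ σ : Equiv.Perm (Fin n),
        ((Equiv.Perm.sign σ : ℤ) : ℂ) * ∏ i, A y (σ i) i)
      (∑ σ : Equiv.Perm (Fin n), ((Equiv.Perm.sign σ : ℤ) : ℂ) •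
        ∑ i, (∏ j ∈ Finset.univ.erase i, A x (σ j) j) • A' (σ i) i) x := by
    refine HasFDerivAt.fun_sum fun σ _ => ?_
    exact (HasFDerivAt.finsetProd (fun i _ => hA (σ i) i)).const_mul _
  refine h2.congr_fderiv ?_
  ext v
  simp only [_root_.sum_apply, _root_.smul_apply, smul_eq_mul]
  simp_rw [← sum_adj_col (A x) _ (fun j => A' j _ v), Matrix.det_apply']
  rw [Finset.sum_comm]
  refine Finset.sum_congr rfl fun σ _ => ?_
  rw [Finset.mul_sum]
  refine Finset.sum_congr rfl fun i _ => ?_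
  congr 1
  rw [← Finset.mul_prod_erase Finset.univ _ (Finset.mem_univ i)]
  simp only [Matrix.updateCol_self]
  rw [mul_comm]
  congr 1
  refine Finset.prod_congr rfl fun j hj => ?_
  rw [Matrix.updateCol_ne (Finset.ne_of_mem_erase hj)]

theorem cd_det {A : V → Matrix (Fin n) (Fin n) ℂ} {x : V} {m : WithTop ℕ∞}
    (hA : ∀ i j, ContDiffAt ℝ m (fun y => A y i j) x) :
    ContDiffAt ℝ m (fun y => (A y).det) x := by
  have h1 : (fun y => (A y).det) = fun y => ∑ σ : Equiv.Perm (Fin n),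
      ((Equiv.Perm.sign σ : ℤ) : ℂ) * ∏ i, A y (σ i) i := by
    funext y; rw [Matrix.det_apply']
  rw [h1]
  exact ContDiffAt.sum fun σ _ => contDiffAt_const.mul (contDiffAt_prod fun i _ => hA (σ i) i)

theorem cd_adj {A : V → Matrix (Fin n) (Fin n) ℂ} {x : V} {m : WithTop ℕ∞}
    (hA : ∀ i j, ContDiffAt ℝ m (fun y => A y i j) x) (i j : Fin n) :
    ContDiffAt ℝ m (fun y => (A y).adjugate i j) x := by
  simp only [Matrix.adjugate_apply]
  refine cd_det fun k l => ?_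
  by_cases hk : k = j
  · subst hk
    simp only [Matrix.updateRow_self]
    exact contDiffAt_const
  · simp only [Matrix.updateRow_ne hk]
    exact hA k l

end Det

section Det2

variable {U : Cn n → Matrix (Fin n) (Fin n) ℂ} {x : Cn n}

theorem dj_det (hU : ∀ i j, DifferentiableAt ℝ (fun y => U y i j) x) (a : Fin n) :
    dj a (fun y => (U y).det) x = ∑ i, ∑ j, (U x).adjugate i j * dj a (fun y => U y j i) x := by
  unfold dj
  rw [(hasFDerivAt_det fun i j => (hU i j).hasFDerivAt).fderiv]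
  simp only [_root_.sum_apply, _root_.smul_apply, smul_eq_mul, Finset.mul_sum,
    ← Finset.sum_sub_distrib]
  exact Finset.sum_congr rfl fun i _ => Finset.sum_congr rfl fun j _ => by ring

theorem dbj_det (hU : ∀ i j, DifferentiableAt ℝ (fun y => U y i j) x) (a : Fin n) :
    dbj a (fun y => (U y).det) x = ∑ i, ∑ j, (U x).adjugate i j * dbj a (fun y => U y j i) x := by
  unfold dbj
  rw [(hasFDerivAt_det fun i j => (hU i j).hasFDerivAt).fderiv]
  simp only [_root_.sum_apply, _root_.smul_apply, smul_eq_mul, Finset.mul_sum,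
    ← Finset.sum_add_distrib]
  exact Finset.sum_congr rfl fun i _ => Finset.sum_congr rfl fun j _ => by ring

theorem dj_adj (hU : ∀ i j, ContDiffAt ℝ 2 (fun y => U y i j) x) (h1 : U x = 1) (a i j : Fin n) :
    dj a (fun y => (U y).adjugate i j) x =
      (∑ k, dj a (fun y => U y k k) x) * (1 : Matrix (Fin n) (Fin n) ℂ) i j
        - dj a (fun y => U y i j) x := by
  have hd : ∀ i j, DifferentiableAt ℝ (fun y => U y i j) x := fun i j => c2_diff (hU i j)
  have ha : ∀ i j, DifferentiableAt ℝ (fun y => (U y).adjugate i j) x := fun i j =>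
    c2_diff (cd_adj hU i j)
  have e1 : (fun y => ∑ k, (U y).adjugate i k * U y k j) =
      fun y => (U y).det * (1 : Matrix (Fin n) (Fin n) ℂ) i j := by
    funext y
    have := congrFun (congrFun (Matrix.adjugate_mul (U y)) i) j
    rw [Matrix.mul_apply] at this
    rw [this, Matrix.smul_apply, smul_eq_mul]
  have e2 : dj a (fun y => ∑ k, (U y).adjugate i k * U y k j) x =
      ∑ k, (dj a (fun y => (U y).adjugate i k) x * U x k j
        + (U x).adjugate i k * dj a (fun y => U y k j) x) := by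
    rw [dj_sum (f := fun k y => (U y).adjugate i k * U y k j) fun k _ => (ha i k).mul (hd k j)]
    exact Finset.sum_congr rfl fun k _ => dj_mul (ha i k) (hd k j)
  have e3 : dj a (fun y => (U y).det * (1 : Matrix (Fin n) (Fin n) ℂ) i j) x =
      dj a (fun y => (U y).det) x * (1 : Matrix (Fin n) (Fin n) ℂ) i j := by
    have := dj_mul (a := a) (g := fun _ => (1 : Matrix (Fin n) (Fin n) ℂ) i j)
      (c2_diff (cd_det hU)) (differentiableAt_const _)
    rw [this, dj_const]; ring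
  rw [e1, e3, dj_det hd] at e2
  rw [h1, Matrix.adjugate_one] at e2
  simp only [Matrix.one_apply, mul_ite, mul_one, mul_zero, ite_mul, one_mul, zero_mul,
    Finset.sum_add_distrib, Finset.sum_ite_eq, Finset.sum_ite_eq', Finset.mem_univ, if_true] at e2
  rw [Matrix.one_apply]
  by_cases hij : i = j
  · simp only [hij, if_true] at e2 ⊢
    linear_combination -e2
  · simp only [hij, if_false] at e2 ⊢
    linear_combination -e2

/-- second derivatives of the determinant at the identity -/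
theorem hs_det (hU : ∀ i j, ContDiffAt ℝ 2 (fun y => U y i j) x) (h1 : U x = 1) (a b : Fin n) :
    hs (fun y => (U y).det) x a b = (∑ i, hs (fun y => U y i i) x a b)
      + (∑ i, dj a (fun y => U y i i) x) * (∑ i, dbj b (fun y => U y i i) x)
      - ∑ i, ∑ j, dj a (fun y => U y i j) x * dbj b (fun y => U y j i) x := by
  have ha : ∀ i j, DifferentiableAt ℝ (fun y => (U y).adjugate i j) x := fun i j =>
    c2_diff (cd_adj hU i j)
  have hev : dbj b (fun y => (U y).det) =ᶠ[𝓝 x] fun y =>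
      ∑ i, ∑ j, (U y).adjugate i j * dbj b (fun y => U y j i) y := by
    have h2 : ∀ᶠ y in 𝓝 x, ∀ i j, ContDiffAt ℝ 2 (fun y => U y i j) y :=
      eventually_all.2 fun i => eventually_all.2 fun j => c2_ev (hU i j)
    filter_upwards [h2] with y hy
    exact dbj_det (fun i j => c2_diff (hy i j)) b
  unfold hs
  rw [dj_congr hev]
  have hm : ∀ i j, DifferentiableAt ℝ
      (fun y => (U y).adjugate i j * dbj b (fun y => U y j i) y) x := fun i j =>
    (ha i j).mul (diff_dbj (hU j i) b)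
  rw [dj_sum fun i _ => DifferentiableAt.fun_sum fun j _ => hm i j]
  have e : ∀ i, dj a (fun y => ∑ j, (U y).adjugate i j * dbj b (fun y => U y j i) y) x =
      ∑ j, (((∑ k, dj a (fun y => U y k k) x) * (1 : Matrix (Fin n) (Fin n) ℂ) i j
        - dj a (fun y => U y i j) x) * dbj b (fun y => U y j i) x
        + (1 : Matrix (Fin n) (Fin n) ℂ) i j * dj a (dbj b (fun y => U y j i)) x) := by
    intro i
    rw [dj_sum fun j _ => hm i j]
    refine Finset.sum_congr rfl fun j _ => ?_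
    rw [dj_mul (ha i j) (diff_dbj (hU j i) b), dj_adj hU h1, h1, Matrix.adjugate_one]
  simp only [e]
  simp only [Matrix.one_apply, mul_ite, mul_one, mul_zero, ite_mul, one_mul, zero_mul,
    Finset.sum_add_distrib, sub_mul, Finset.sum_sub_distrib, Finset.sum_ite_eq, Finset.mem_univ,
    if_true, Finset.mul_sum]
  ring

/-- second derivatives of `log det` at the identity -/
theorem hs_log_det (hU : ∀ i j, ContDiffAt ℝ 2 (fun y => U y i j) x) (h1 : U x = 1)
    (hr : ∀ᶠ y in 𝓝 x, (U y).det = (((U y).det.re : ℝ) : ℂ)) (a b : Fin n) :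
    hs (cx fun y => Real.log (U y).det.re) x a b = (∑ i, hs (fun y => U y i i) x a b)
      - ∑ i, ∑ j, dj a (fun y => U y i j) x * dbj b (fun y => U y j i) x := by
  have hg : ContDiffAt ℝ 2 (fun y => (U y).det.re) x :=
    Complex.reCLM.contDiff.contDiffAt.comp x (cd_det hU)
  have hx : (U x).det.re = 1 := by rw [h1, Matrix.det_one, Complex.one_re]
  have he : cx (fun y => (U y).det.re) =ᶠ[𝓝 x] fun y => (U y).det :=
    hr.mono fun y hy => hy.symm
  have hd : ∀ i j, DifferentiableAt ℝ (fun y => U y i j) x := fun i j => c2_diff (hU i j)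
  rw [hs_log hg (by rw [hx]; exact one_pos), hx, hs_congr he, dj_congr he,
    Crest.Agent.R275.OmT75.dbj_congr he, hs_det hU h1, dj_det hd, dbj_det hd, h1,
    Matrix.adjugate_one]
  simp only [Matrix.one_apply, ite_mul, one_mul, zero_mul, Finset.sum_ite_eq, Finset.mem_univ,
    if_true, Complex.ofReal_one, one_pow, div_one]
  ring

end Det2

/-! ### the complex Hessian as a matrix -/

section Um

variable {u : Cn n → ℝ} {x : Cn n}

/-- the matrix `u_{a b̄}` -/
def Um (u : Cn n → ℝ) (z : Cn n) : Matrix (Fin n) (Fin n) ℂ := Matrix.of fun a b => hs (cx u) z a b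

theorem Um_apply (u : Cn n → ℝ) (z : Cn n) (a b : Fin n) : Um u z a b = hs (cx u) z a b := rfl

theorem sm_cx (hu : ContDiffAt ℝ ∞ u x) : ContDiffAt ℝ ∞ (cx u) x :=
  Complex.ofRealCLM.contDiff.contDiffAt.comp x hu

theorem sm_Um (hu : ContDiffAt ℝ ∞ u x) (a b : Fin n) : ContDiffAt ℝ ∞ (fun z => Um u z a b) x :=
  sm_hs (sm_cx hu) a b

theorem Um_herm (h : ContDiffAt ℝ 2 u x) : (Um u x).IsHermitian := by
  ext a b
  rw [Matrix.conjTranspose_apply, Um_apply, Um_apply]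
  exact hs_herm h b a

theorem det_Um_real (h : ContDiffAt ℝ 2 u x) : (Um u x).det = (((Um u x).det.re : ℝ) : ℂ) := by
  have h1 : conj (Um u x).det = (Um u x).det := by
    have := Matrix.det_conjTranspose (Um u x)
    rw [(Um_herm h).eq] at this
    exact this.symm
  exact ((Complex.conj_eq_iff_re).1 h1).symm

/-- the function `z ↦ log det u_{a b̄}` -/
def ld (u : Cn n → ℝ) (z : Cn n) : ℝ := Real.log (Um u z).det.re

theorem sm_ld (hu : ContDiffAt ℝ ∞ u x) (hx : (Um u x).det.re ≠ 0) : ContDiffAt ℝ ∞ (ld u) x := by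
  have h1 : ContDiffAt ℝ ∞ (fun y => (Um u y).det.re) x :=
    Complex.reCLM.contDiff.contDiffAt.comp x (cd_det (sm_Um hu))
  exact h1.log hx

variable {V : Cn n → Cn n}

theorem hV_apply (hV : ∀ᶠ z in 𝓝 x, DifferentiableAt ℂ V z) (a : Fin n) :
    ∀ᶠ z in 𝓝 x, DifferentiableAt ℂ (fun z => V z a) z := by
  filter_upwards [hV] with z hz
  exact (EuclideanSpace.proj (𝕜 := ℂ) a : Cn n →L[ℂ] ℂ).differentiableAt.comp z hz

/-- `z ↦ u_{V V̄}` -/
def QV (u : Cn n → ℝ) (V : Cn n → Cn n) (z : Cn n) : ℝ := lev u z (V z)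

theorem cx_QV (hu : ContDiffAt ℝ ∞ u x) :
    cx (QV u V) =ᶠ[𝓝 x] quad (fun a b z => hs (cx u) z a b) (fun a z => V z a) := by
  filter_upwards [ev_sm2 hu] with z hz
  simp only [cx, QV, quad]
  rw [lev_eq hz]
  exact Finset.sum_congr rfl fun a _ => Finset.sum_congr rfl fun b _ => by ring

theorem c2_quad (hu : ContDiffAt ℝ ∞ u x) (hV : ∀ᶠ z in 𝓝 x, DifferentiableAt ℂ V z) :
    ContDiffAt ℝ 2 (quad (fun a b z => hs (cx u) z a b) (fun a z => V z a)) x :=
  ContDiffAt.sum fun a _ => ContDiffAt.sum fun b _ =>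
    (sm2 (sm_hs (sm_cx hu) a b)).mul (c2_vv (hV_apply hV) a b)

theorem c2_QV (hu : ContDiffAt ℝ ∞ u x) (hV : ∀ᶠ z in 𝓝 x, DifferentiableAt ℂ V z) :
    ContDiffAt ℝ 2 (QV u V) x := by
  have h1 : ContDiffAt ℝ 2
      (fun z => (quad (fun a b z => hs (cx u) z a b) (fun a z => V z a) z).re) x :=
    Complex.reCLM.contDiff.contDiffAt.comp x (c2_quad hu hV)
  refine h1.congr_of_eventuallyEq ?_
  filter_upwards [cx_QV (V := V) hu] with z hz
  rw [← hz, cx, Complex.ofReal_re]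

theorem lev_ee {q : Cn n → ℝ} (hq : ContDiffAt ℝ 2 q x) (c : Fin n) :
    ((lev q x (ee c) : ℝ) : ℂ) = hs (cx q) x c c := by
  rw [lev_eq hq]
  simp [ee]

theorem gr_ee {q : Cn n → ℝ} (c : Fin n) : gr q x (ee c) = dj c (cx q) x := by
  unfold gr
  simp [ee]

/-- `∂_c u_{a b̄}` -/
def tt (u : Cn n → ℝ) (x : Cn n) (a b c : Fin n) : ℂ := dj c (fun z => hs (cx u) z a b) x

theorem tt_symm (hu : ContDiffAt ℝ ∞ u x) (a b c : Fin n) : tt u x a b c = tt u x c b a :=
  dj_hs_symm hu a b c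

theorem dbj_tt (hu : ContDiffAt ℝ ∞ u x) (a b d : Fin n) :
    dbj d (fun z => hs (cx u) z a b) x = conj (tt u x b a d) :=
  dbj_hs_cx hu a b d

/-- `hs` of `u_{V V̄}` -/
theorem hs_QV (hu : ContDiffAt ℝ ∞ u x) (hV : ∀ᶠ z in 𝓝 x, DifferentiableAt ℂ V z)
    (c d : Fin n) : hs (cx (QV u V)) x c d =
      ∑ a, ∑ b, (hs (fun z => hs (cx u) z a b) x c d * (V x a * conj (V x b))
      + hs (cx u) x a b * ((fderiv ℂ V x (ee c)) a * conj ((fderiv ℂ V x (ee d)) b))
      + tt u x a b c * (V x a * conj ((fderiv ℂ V x (ee d)) b))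
      + conj (tt u x b a d) * ((fderiv ℂ V x (ee c)) a * conj (V x b))) := by
  rw [hs_congr (cx_QV hu), hs_quad (fun a b => sm2 (sm_hs (sm_cx hu) a b)) (hV_apply hV)]
  have e : ∀ a c, fderiv ℂ (fun z => V z a) x (ee c) = (fderiv ℂ V x (ee c)) a := by
    intro a c
    have : HasFDerivAt (fun z => V z a)
        ((EuclideanSpace.proj (𝕜 := ℂ) a : Cn n →L[ℂ] ℂ).comp (fderiv ℂ V x)) x :=
      (EuclideanSpace.proj (𝕜 := ℂ) a : Cn n →L[ℂ] ℂ).hasFDerivAt.comp x
        hV.self_of_nhds.hasFDerivAt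
    rw [this.fderiv]; rfl
  refine Finset.sum_congr rfl fun a _ => Finset.sum_congr rfl fun b _ => ?_
  rw [e, e, dbj_tt hu]
  rfl

theorem dj_QV (hu : ContDiffAt ℝ ∞ u x) (hV : ∀ᶠ z in 𝓝 x, DifferentiableAt ℂ V z)
    (c : Fin n) : dj c (cx (QV u V)) x =
      ∑ a, ∑ b, (tt u x a b c * (V x a * conj (V x b))
      + hs (cx u) x a b * ((fderiv ℂ V x (ee c)) a * conj (V x b))) := by
  rw [dj_congr (cx_QV hu), dj_quad (fun a b => sm2 (sm_hs (sm_cx hu) a b)) (hV_apply hV)]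
  have e : ∀ a c, fderiv ℂ (fun z => V z a) x (ee c) = (fderiv ℂ V x (ee c)) a := by
    intro a c
    have : HasFDerivAt (fun z => V z a)
        ((EuclideanSpace.proj (𝕜 := ℂ) a : Cn n →L[ℂ] ℂ).comp (fderiv ℂ V x)) x :=
      (EuclideanSpace.proj (𝕜 := ℂ) a : Cn n →L[ℂ] ℂ).hasFDerivAt.comp x
        hV.self_of_nhds.hasFDerivAt
    rw [this.fderiv]; rfl
  refine Finset.sum_congr rfl fun a _ => Finset.sum_congr rfl fun b _ => ?_
  rw [e]
  rfl

end Um

end

end Crest.Agent.R273.C2a_793
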