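import Crest.Agent.R273.C2a_793

/-!
# R273 / Yau C² estimate (helper793), part b: the inequality for the new metric

* `log_quad_lower` : if `u_{a b̄}(x) = δ_ab` then
  `lev (log det u_{ab̄}) x v / lev u x v ≤ ∑_c lev (log u_{V V̄}) x e_c`, `V` holomorphic, `V x = v`
-/

set_option autoImplicit false
set_option linter.unusedSectionVars false

open Set Filter Topology Complex
open scoped ContDiff Matrix ComplexConjugate

namespace Crest.Agent.R273.C2b_793

open Crest.Agent.R275.Geo Crest.Agent.R275.Core144 Crest.Agent.R275.GC293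
open Crest.Agent.R275.OmT75
open Crest.Agent.R273.Levi_145 Crest.Agent.R273.C2a_793

noncomputable section

variable {n : ℕ} {u : Cn n → ℝ} {x : Cn n} {V : Cn n → Cn n}

/-- `τ_c(b) = ∑ ∂_c u_{a b̄} v_a` -/
def tau (u : Cn n → ℝ) (x v : Cn n) (c b : Fin n) : ℂ := ∑ a, tt u x a b c * v a

/-- the fourth order term -/
def RR (u : Cn n → ℝ) (x v : Cn n) (c d : Fin n) : ℂ :=
  ∑ a, ∑ b, hs (fun z => hs (cx u) z a b) x c d * (v a * conj (v b))

theorem hs_QV_one (hu : ContDiffAt ℝ ∞ u x) (h1 : Um u x = 1)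
    (hV : ∀ᶠ z in 𝓝 x, DifferentiableAt ℂ V z) (c : Fin n) :
    hs (cx (QV u V)) x c c = RR u x (V x) c c - ∑ b, ((‖tau u x (V x) c b‖ ^ 2 : ℝ) : ℂ)
      + ∑ b, ((‖tau u x (V x) c b + (fderiv ℂ V x (ee c)) b‖ ^ 2 : ℝ) : ℂ) := by
  rw [hs_QV hu hV]
  set v := V x with hv
  set B : Fin n → ℂ := fun b => (fderiv ℂ V x (ee c)) b with hB
  have e1 : ∀ a b, hs (cx u) x a b = (1 : Matrix (Fin n) (Fin n) ℂ) a b := fun a b => by
    rw [← h1]; rfl
  have hBb : ∀ b, (fderiv ℂ V x (ee c)) b = B b := fun b => rfl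
  simp only [hBb, e1, Finset.sum_add_distrib]
  have s1 : ∑ a, ∑ b, (1 : Matrix (Fin n) (Fin n) ℂ) a b * (B a * conj (B b)) =
      ∑ b, B b * conj (B b) := by
    simp [Matrix.one_apply]
  have s2 : ∑ a, ∑ b, tt u x a b c * (v a * conj (B b)) = ∑ b, tau u x v c b * conj (B b) := by
    rw [Finset.sum_comm]
    refine Finset.sum_congr rfl fun b _ => ?_
    rw [tau, Finset.sum_mul]
    exact Finset.sum_congr rfl fun a _ => by ring
  have s3 : ∑ a, ∑ b, conj (tt u x b a c) * (B a * conj (v b)) =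
      ∑ a, B a * conj (tau u x v c a) := by
    refine Finset.sum_congr rfl fun a _ => ?_
    rw [tau, map_sum, Finset.mul_sum]
    refine Finset.sum_congr rfl fun b _ => ?_
    rw [map_mul]; ring
  rw [s1, s2, s3]
  have s4 : ∀ b, ((‖tau u x v c b + B b‖ ^ 2 : ℝ) : ℂ) = ((‖tau u x v c b‖ ^ 2 : ℝ) : ℂ)
      + B b * conj (B b) + tau u x v c b * conj (B b) + B b * conj (tau u x v c b) := by
    intro b
    push_cast
    rw [← Complex.mul_conj', ← Complex.mul_conj', map_add]
    ring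
  simp only [s4, Finset.sum_add_distrib, RR]
  ring

theorem dj_QV_one (hu : ContDiffAt ℝ ∞ u x) (h1 : Um u x = 1)
    (hV : ∀ᶠ z in 𝓝 x, DifferentiableAt ℂ V z) (c : Fin n) :
    dj c (cx (QV u V)) x =
      ∑ b, (tau u x (V x) c b + (fderiv ℂ V x (ee c)) b) * conj (V x b) := by
  rw [dj_QV hu hV]
  have e1 : ∀ a b, hs (cx u) x a b = (1 : Matrix (Fin n) (Fin n) ℂ) a b := fun a b => by
    rw [← h1]; rfl
  simp only [e1, Finset.sum_add_distrib, add_mul]
  congr 1
  · rw [Finset.sum_comm]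
    refine Finset.sum_congr rfl fun b _ => ?_
    rw [tau, Finset.sum_mul]
    exact Finset.sum_congr rfl fun a _ => by ring
  · simp [Matrix.one_apply]

theorem lev_one (hu : ContDiffAt ℝ ∞ u x) (h1 : Um u x = 1) (v : Cn n) :
    lev u x v = ∑ b, ‖v b‖ ^ 2 := by
  have h : ((lev u x v : ℝ) : ℂ) = ((∑ b, ‖v b‖ ^ 2 : ℝ) : ℂ) := by
    rw [lev_eq (sm2 hu)]
    have e1 : ∀ a b, hs (cx u) x a b = (1 : Matrix (Fin n) (Fin n) ℂ) a b := fun a b => by
      rw [← h1]; rfl
    simp only [e1]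
    push_cast
    simp [Matrix.one_apply, ← Complex.mul_conj']
  exact_mod_cast h

/-- the Levi form of `log det` at a point where the metric is the identity -/
theorem lev_ld_one (hu : ContDiffAt ℝ ∞ u x) (h1 : Um u x = 1) (v : Cn n) :
    ((lev (ld u) x v : ℝ) : ℂ) =
      ∑ c, (RR u x v c c - ∑ b, ((‖tau u x v c b‖ ^ 2 : ℝ) : ℂ)) := by
  have hx : (Um u x).det.re ≠ 0 := by rw [h1, Matrix.det_one, Complex.one_re]; exact one_ne_zero
  have hr : ∀ᶠ y in 𝓝 x, (Um u y).det = (((Um u y).det.re : ℝ) : ℂ) := by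
    filter_upwards [ev_sm2 hu] with y hy
    exact det_Um_real hy
  rw [lev_eq (sm2 (sm_ld hu hx))]
  have e : ∀ a b, hs (cx (ld u)) x a b = (∑ i, hs (fun z => hs (cx u) z a b) x i i)
      - ∑ i, ∑ j, tt u x i j a * conj (tt u x i j b) := by
    intro a b
    have := hs_log_det (U := Um u) (x := x) (fun i j => sm2 (sm_Um hu i j)) h1 hr a b
    have e2 : (cx fun y => Real.log (Um u y).det.re) = cx (ld u) := rfl
    rw [e2] at this
    rw [this]
    congr 1
    · refine Finset.sum_congr rfl fun i _ => ?_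
      exact hs_hs_comm (sm_cx hu) a b i i
    · refine Finset.sum_congr rfl fun i _ => Finset.sum_congr rfl fun j _ => ?_
      have h3 := dbj_tt hu j i b
      simp only [Um_apply]
      rw [h3]
      rfl
  simp only [e, sub_mul, Finset.sum_sub_distrib, Finset.sum_mul]
  congr 1
  · unfold RR
    rw [Finset.sum_comm' (t' := Finset.univ) (s' := fun _ => Finset.univ) (by simp)]
    have e3 : ∀ b, ∑ a, ∑ i, hs (fun z => hs (cx u) z a b) x i i * v a * conj (v b)
        = ∑ i, ∑ a, hs (fun z => hs (cx u) z a b) x i i * v a * conj (v b) := fun b =>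
      Finset.sum_comm
    simp only [e3]
    rw [Finset.sum_comm]
    refine Finset.sum_congr rfl fun i _ => ?_
    rw [Finset.sum_comm]
    exact Finset.sum_congr rfl fun a _ => Finset.sum_congr rfl fun b _ => by ring
  · have e4 : ∀ c b, ((‖tau u x v c b‖ ^ 2 : ℝ) : ℂ) = ∑ a, ∑ d,
        tt u x c b a * conj (tt u x c b d) * v a * conj (v d) := by
      intro c b
      push_cast
      rw [← Complex.mul_conj', tau, map_sum, Finset.sum_mul_sum]
      refine Finset.sum_congr rfl fun a _ => Finset.sum_congr rfl fun d _ => ?_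
      rw [tt_symm hu a b c, tt_symm hu d b c, map_mul]
      ring
    simp only [e4]
    rw [sum4_comm (fun a b i j => tt u x i j a * conj (tt u x i j b) * v a * conj (v b))]

/-- **the inequality for the new metric** -/
theorem log_quad_lower (hu : ContDiffAt ℝ ∞ u x) (h1 : Um u x = 1)
    (hV : ∀ᶠ z in 𝓝 x, DifferentiableAt ℂ V z) (h0 : V x ≠ 0) :
    lev (ld u) x (V x) / lev u x (V x) ≤
      ∑ c, lev (fun z => Real.log (QV u V z)) x (ee c) := by
  set v := V x with hv
  have hQ : QV u V x = ∑ b, ‖v b‖ ^ 2 := lev_one hu h1 v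
  have hQl : lev u x v = QV u V x := rfl
  have hQ0 : 0 < QV u V x := by
    rw [hQ]
    have : ∃ b, v b ≠ 0 := by
      by_contra hc
      push Not at hc
      exact h0 (by ext b; simpa using hc b)
    obtain ⟨b, hb⟩ := this
    exact Finset.sum_pos' (fun _ _ => by positivity) ⟨b, Finset.mem_univ b, by positivity⟩
  set s : Fin n → Fin n → ℂ := fun c b => tau u x v c b + (fderiv ℂ V x (ee c)) b with hs'
  have hlev : ∀ c, lev (QV u V) x (ee c) =
      (RR u x v c c).re - ∑ b, ‖tau u x v c b‖ ^ 2 + ∑ b, ‖s c b‖ ^ 2 := by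
    intro c
    have e1 := lev_ee (c2_QV hu hV) c
    rw [hs_QV_one hu h1 hV] at e1
    have e2 := congrArg Complex.re e1
    simp only [Complex.ofReal_re, Complex.add_re, Complex.sub_re, Complex.re_sum] at e2
    exact e2
  have hterm : ∀ c, ((RR u x v c c).re - ∑ b, ‖tau u x v c b‖ ^ 2) / QV u V x ≤
      lev (fun z => Real.log (QV u V z)) x (ee c) := by
    intro c
    rw [lev_log (c2_QV hu hV) hQ0, hlev c, gr_ee, dj_QV_one hu h1 hV]
    have hcs : ‖∑ b, s c b * conj (v b)‖ ^ 2 ≤ (∑ b, ‖s c b‖ ^ 2) * (∑ b, ‖v b‖ ^ 2) := by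
      have h3 : ‖∑ b, s c b * conj (v b)‖ ≤ ∑ b, ‖s c b‖ * ‖v b‖ := by
        refine (norm_sum_le _ _).trans (le_of_eq ?_)
        exact Finset.sum_congr rfl fun b _ => by rw [norm_mul, RCLike.norm_conj]
      calc ‖∑ b, s c b * conj (v b)‖ ^ 2 ≤ (∑ b, ‖s c b‖ * ‖v b‖) ^ 2 := by
            gcongr
        _ ≤ _ := Finset.sum_mul_sq_le_sq_mul_sq _ _ _
    rw [← hQ] at hcs
    have h4 : ‖∑ b, s c b * conj (v b)‖ ^ 2 / QV u V x ^ 2 ≤ (∑ b, ‖s c b‖ ^ 2) / QV u V x := by
      rw [div_le_div_iff₀ (by positivity) hQ0]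
      nlinarith [hcs, hQ0]
    have h5 : ((RR u x v c c).re - ∑ b, ‖tau u x v c b‖ ^ 2 + ∑ b, ‖s c b‖ ^ 2) / QV u V x =
        ((RR u x v c c).re - ∑ b, ‖tau u x v c b‖ ^ 2) / QV u V x
          + (∑ b, ‖s c b‖ ^ 2) / QV u V x := by
      rw [add_div]
    rw [h5]
    have h6 : (∑ b, (tau u x (V x) c b + (fderiv ℂ V x (ee c)) b) * conj (V x b)) =
      ∑ b, s c b * conj (v b) := rfl
    rw [h6]
    linarith
  have hsum : lev (ld u) x v = ∑ c, ((RR u x v c c).re - ∑ b, ‖tau u x v c b‖ ^ 2) := by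
    have e1 := congrArg Complex.re (lev_ld_one hu h1 v)
    simpa only [Complex.ofReal_re, Complex.sub_re, Complex.re_sum] using e1
  rw [hQl, hsum, Finset.sum_div]
  exact Finset.sum_le_sum fun c _ => hterm c

end

end Crest.Agent.R273.C2b_793
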