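import Crest.Agent.R273.C2b_289

/-!
# R273 (S0416), Part C, C2 estimate (helper289), part 3: the estimate at a maximum point

`core` : if `log (G(v,v) / X(v,v)) - A φ` (`G = ∂∂̄u`, `X = ∂∂̄(u+φ)`, `det X = e^f det G`) is maximal
at `(z₀, v₀)`, then `G(v₀,v₀) ≤ A n X(v₀,v₀)`; `A` only depends on `G` and on the upper bound of `∂∂̄f`.
-/

set_option autoImplicit false
set_option linter.unusedSectionVars false

open Set Filter Topology Complex Matrix
open scoped ContDiff Matrix ComplexConjugate ComplexOrder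

namespace Crest.Agent.R273.C2c_289

open Crest.Agent.R275.Geo Crest.Agent.R275.EDR890
open Crest.Agent.R273.Defs_333 Crest.Agent.R273.Hess_333 Crest.Agent.R273.HessB_333
open Crest.Agent.R273.C2a_289 Crest.Agent.R273.C2b_289
open Crest.Agent.R273.GreenM_5 (trace_inv_mul_nonneg)
open Crest.Agent.R273.YauMax_635 (lev_nonneg_of_localMin)
open Crest.Agent.R273.Calc_243 (SmM SmM.det)

noncomputable section

variable {n : ℕ}

/-- curvature matrices -/
def cv (u : Cn n → ℝ) (k l : Fin n) (z : Cn n) : Matrix (Fin n) (Fin n) ℂ :=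
  wM (false, k) (wM (true, l) (hess u)) z -
    wM (false, k) (hess u) z * (hess u z)⁻¹ * wM (true, l) (hess u) z

theorem trace_eq2 (T S : Matrix (Fin n) (Fin n) ℂ) :
    (T * S).trace = ∑ k, ∑ l, T l k * S k l := by
  rw [Finset.sum_comm]
  rfl

section Form

variable {w : Cn n → ℝ} {U : Set (Cn n)} {z₀ v₀ : Cn n} {p : Fin n → Fin n → ℂ}

/-- the value of the form along the field -/
def rho (w : Cn n → ℝ) (z₀ v₀ : Cn n) (p : Fin n → Fin n → ℂ) (z : Cn n) : ℝ :=
  (bf (hess w z) (fld z₀ v₀ p z) (fld z₀ v₀ p z)).re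

theorem cu_rho (hU : IsOpen U) (hw : ContDiffOn ℝ ∞ w U) (hz : z₀ ∈ U) :
    ∀ᶠ y in 𝓝 z₀, (rho w z₀ v₀ p y : ℂ) = bf (hess w y) (fld z₀ v₀ p y) (fld z₀ v₀ p y) := by
  filter_upwards [hU.mem_nhds hz] with y hy
  exact bf_real (hess_herm (hw.contDiffAt (hU.mem_nhds hy))) _

theorem form_sm (hU : IsOpen U) (hw : ContDiffOn ℝ ∞ w U) (hz : z₀ ∈ U) :
    ContDiffAt ℝ ∞ (fun z => bf (hess w z) (fld z₀ v₀ p z) (fld z₀ v₀ p z)) z₀ :=
  form_smooth (smM_hess (hw.contDiffAt (hU.mem_nhds hz))) (fun a => (fld_smooth a).contDiffAt)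
    (fun a => (fld_smooth a).contDiffAt)

theorem rho_pos (hp : (hess w z₀).PosDef) (hv : v₀ ≠ 0) : 0 < rho w z₀ v₀ p z₀ := by
  have hv' : (fun a => v₀ a) ≠ 0 := fun h => hv (by ext a; exact congrFun h a)
  unfold rho
  rw [fld_self]
  exact (Complex.pos_iff.1 (bf_pos hp hv')).1

theorem rho_sm (hU : IsOpen U) (hw : ContDiffOn ℝ ∞ w U) (hz : z₀ ∈ U) :
    ContDiffAt ℝ ∞ (rho w z₀ v₀ p) z₀ :=
  Complex.reCLM.contDiff.contDiffAt.comp z₀ (form_sm hU hw hz)

theorem hess_log_rho (hU : IsOpen U) (hw : ContDiffOn ℝ ∞ w U) (hz : z₀ ∈ U)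
    (hp : (hess w z₀).PosDef) (hv : v₀ ≠ 0) (k l : Fin n) :
    hess (fun y => Real.log (rho w z₀ v₀ p y)) z₀ k l =
      (bf (wM (false, k) (wM (true, l) (hess w)) z₀) (fun a => v₀ a) (fun a => v₀ a)
      + bf (wM (true, l) (hess w) z₀) (p k) (fun a => v₀ a)
      + bf (wM (false, k) (hess w) z₀) (fun a => v₀ a) (p l) + bf (hess w z₀) (p k) (p l))
        / bf (hess w z₀) (fun a => v₀ a) (fun a => v₀ a) -
      (bf (wM (false, k) (hess w) z₀) (fun a => v₀ a) (fun a => v₀ a)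
        + bf (hess w z₀) (p k) (fun a => v₀ a)) *
      (bf (wM (true, l) (hess w) z₀) (fun a => v₀ a) (fun a => v₀ a)
        + bf (hess w z₀) (fun a => v₀ a) (p l)) /
          (bf (hess w z₀) (fun a => v₀ a) (fun a => v₀ a)) ^ 2 := by
  have hm := smM_hess (hw.contDiffAt (hU.mem_nhds hz))
  rw [hess_log_of (form_sm hU hw hz) (cu_rho hU hw hz) (rho_pos hp hv),
    wd2_form hU (fun y hy => smM_hess (hw.contDiffAt (hU.mem_nhds hy))) hz,
    wd_form_f (fun a b => dat (hm a b)), wd_form_t (fun a b => dat (hm a b)), fld_self]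

end Form

theorem core {u φ f : Cn n → ℝ} {U : Set (Cn n)} (hU : IsOpen U)
    (hu : ContDiffOn ℝ ∞ u U) (hφ : ContDiffOn ℝ ∞ φ U) (hf : ContDiffOn ℝ ∞ f U)
    (hG : ∀ z ∈ U, (hess u z).PosDef) (hX : ∀ z ∈ U, (hess (fun y => u y + φ y) z).PosDef)
    (hMA : ∀ z ∈ U, (hess (fun y => u y + φ y) z).det = (Real.exp (f z) : ℂ) * (hess u z).det)
    {z₀ : Cn n} (hz : z₀ ∈ U) {v₀ : Cn n} (hv : v₀ ≠ 0) {A c R K : ℝ}
    (hmax : ∀ z ∈ U, ∀ v : Fin n → ℂ, v ≠ 0 → Real.log (bf (hess u z) v v).re -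
      Real.log (bf (hess (fun y => u y + φ y) z) v v).re - A * φ z ≤
      Real.log (bf (hess u z₀) (fun a => v₀ a) (fun a => v₀ a)).re -
      Real.log (bf (hess (fun y => u y + φ y) z₀) (fun a => v₀ a) (fun a => v₀ a)).re - A * φ z₀)
    (hc : 0 < c) (hcG : (hess u z₀ - (c : ℂ) • (1 : Matrix (Fin n) (Fin n) ℂ)).PosSemidef)
    (hR : ∀ k l a b, ‖cv u k l z₀ a b‖ ≤ R) (hK0 : 0 ≤ K)
    (hK : (bf (hess (fun y => Real.log (hess u y).det.re) z₀ + hess f z₀)
      (fun a => v₀ a) (fun a => v₀ a)).re ≤ K * (bf (hess u z₀) (fun a => v₀ a) (fun a => v₀ a)).re)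
    (hA : K + n ^ 4 * R / c ^ 2 + 1 ≤ A) :
    (bf (hess u z₀) (fun a => v₀ a) (fun a => v₀ a)).re ≤
      A * n * (bf (hess (fun y => u y + φ y) z₀) (fun a => v₀ a) (fun a => v₀ a)).re := by
  set w : Cn n → ℝ := fun y => u y + φ y with hw
  have hwU : ContDiffOn ℝ ∞ w U := hu.add hφ
  have huc : ContDiffAt ℝ ∞ u z₀ := hu.contDiffAt (hU.mem_nhds hz)
  have hφc : ContDiffAt ℝ ∞ φ z₀ := hφ.contDiffAt (hU.mem_nhds hz)
  have hfc : ContDiffAt ℝ ∞ f z₀ := hf.contDiffAt (hU.mem_nhds hz)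
  have hwc : ContDiffAt ℝ ∞ w z₀ := hwU.contDiffAt (hU.mem_nhds hz)
  set v : Fin n → ℂ := fun a => v₀ a with hvdef
  have hv' : v ≠ 0 := fun h => hv (by ext a; exact congrFun h a)
  have hG0 := hG z₀ hz
  have hX0 := hX z₀ hz
  have hXd : (hess w z₀).det ≠ 0 := hX0.det_pos.ne'
  have hGd : (hess u z₀).det ≠ 0 := hG0.det_pos.ne'
  set T := (hess w z₀)⁻¹ with hT
  set p : Fin n → Fin n → ℂ := fun k => -(v ᵥ* (wM (false, k) (hess w) z₀ * T)) with hp
  set q : Fin n → Fin n → ℂ := fun k => p k + v ᵥ* (wM (false, k) (hess u) z₀ * (hess u z₀)⁻¹)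
    with hq
  set g := bf (hess u z₀) v v with hg
  set x := bf (hess w z₀) v v with hx
  have hgr : ((g.re : ℝ) : ℂ) = g := bf_real hG0.1 v
  have hxr : ((x.re : ℝ) : ℂ) = x := bf_real hX0.1 v
  have hg0 : 0 < g.re := (Complex.pos_iff.1 (bf_pos hG0 hv')).1
  have hx0 : 0 < x.re := (Complex.pos_iff.1 (bf_pos hX0 hv')).1
  have hg1 : g ≠ 0 := (bf_pos hG0 hv').ne'
  have hx1 : x ≠ 0 := (bf_pos hX0 hv').ne'
  set E := (T * hess u z₀).trace with hE
  have hE0 : 0 ≤ E := trace_inv_mul_nonneg hX0 hG0.posSemidef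
  have hEr : ((E.re : ℝ) : ℂ) = E := by
    have := (Complex.nonneg_iff.1 hE0).2
    exact Complex.ext rfl (by simpa using this)
  -- the test function
  have s1 := rho_sm (p := p) (v₀ := v₀) hU hwU hz
  have s2 := rho_sm (p := p) (v₀ := v₀) hU hu hz
  have r1 := rho_pos (p := p) hX0 hv
  have r2 := rho_pos (p := p) hG0 hv
  have l1 : ContDiffAt ℝ ∞ (fun y => Real.log (rho w z₀ v₀ p y)) z₀ := s1.log r1.ne'
  have l2 : ContDiffAt ℝ ∞ (fun y => Real.log (rho u z₀ v₀ p y)) z₀ := s2.log r2.ne'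
  set Ψ : Cn n → ℝ := fun y => (Real.log (rho w z₀ v₀ p y) - Real.log (rho u z₀ v₀ p y)) + A * φ y
    with hΨ
  have hΨs : ContDiffAt ℝ ∞ Ψ z₀ := (l1.sub l2).add (contDiffAt_const.mul hφc)
  have hmin : IsLocalMin Ψ z₀ := by
    have hne : ∀ᶠ y in 𝓝 z₀, fld z₀ v₀ p y ≠ 0 := by
      have hcont : Continuous (fun y => fld z₀ v₀ p y) :=
        continuous_pi fun a => (fld_smooth a).continuous
      refine hcont.continuousAt.eventually_ne ?_
      rw [fld_self]
      exact hv'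
    filter_upwards [hne, hU.mem_nhds hz] with y hy hyU
    have h1 := hmax y hyU _ hy
    have e1 : rho w z₀ v₀ p z₀ = x.re := by rw [rho, fld_self]
    have e2 : rho u z₀ v₀ p z₀ = g.re := by rw [rho, fld_self]
    have h2 : Ψ z₀ = Real.log x.re - Real.log g.re + A * φ z₀ := by
      rw [hΨ]
      simp only [e1, e2]
    have h3 : Ψ y = Real.log (bf (hess w y) (fld z₀ v₀ p y) (fld z₀ v₀ p y)).re -
      Real.log (bf (hess u y) (fld z₀ v₀ p y) (fld z₀ v₀ p y)).re + A * φ y := rfl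
    rw [h2, h3]
    linarith
  have hpsd : (hess Ψ z₀).PosSemidef :=
    posSemidef_hess hΨs (lev_nonneg_of_localMin (hΨs.of_le (WithTop.coe_le_coe.2 le_top)) hmin)
  have hHΨ : hess Ψ z₀ = hess (fun y => Real.log (rho w z₀ v₀ p y)) z₀ -
      hess (fun y => Real.log (rho u z₀ v₀ p y)) z₀ + (A : ℂ) • hess φ z₀ := by
    rw [hΨ, hess_add (l1.sub l2) (contDiffAt_const.mul hφc), hess_sub l1 l2,
      hess_const_mul A hφc]
  have htr := trace_inv_mul_nonneg hX0 hpsd
  rw [← hT, hHΨ, Matrix.mul_add, Matrix.mul_sub, Matrix.trace_add, Matrix.trace_sub,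
    Matrix.mul_smul, Matrix.trace_smul, smul_eq_mul] at htr
  -- the trace of `hess φ`
  have hTX : T * hess w z₀ = 1 := Matrix.nonsing_inv_mul _ (isUnit_iff_ne_zero.2 hXd)
  have t3 : (T * hess φ z₀).trace = n - E := by
    have e1 : hess φ z₀ = hess w z₀ - hess u z₀ := by
      rw [hw, hess_add huc hφc]
      abel
    rw [e1, Matrix.mul_sub, Matrix.trace_sub, hTX, Matrix.trace_one, Fintype.card_fin]
  -- the `X` part
  have t1 : (T * hess (fun y => Real.log (rho w z₀ v₀ p y)) z₀).trace =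
      bf (hess (fun y => Real.log (hess w y).det.re) z₀) v v / x := by
    rw [trace_eq2, kahler_sum hU hwU hX hz v, Finset.sum_div]
    refine Finset.sum_congr rfl fun k _ => ?_
    rw [Finset.sum_div]
    refine Finset.sum_congr rfl fun l _ => ?_
    rw [hess_log_rho hU hwU hz hX0 hv]
    have n1 := normal_eq1 hXd (wM (false, k) (hess w) z₀) v
    have n2 := normal_eq hXd (wM (false, k) (wM (true, l) (hess w)) z₀)
      (wM (false, k) (hess w) z₀) (wM (true, l) (hess w) z₀) v (p l)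
    rw [← hT] at n1 n2 ⊢
    have hpk : p k = -(v ᵥ* (wM (false, k) (hess w) z₀ * T)) := rfl
    rw [← hpk] at n1 n2
    rw [n1, n2]
    ring
  have t1' : bf (hess (fun y => Real.log (hess w y).det.re) z₀) v v =
      bf (hess (fun y => Real.log (hess u y).det.re) z₀ + hess f z₀) v v := by
    have e1 : (fun y => Real.log (hess w y).det.re) =ᶠ[𝓝 z₀]
        fun y => Real.log (hess u y).det.re + f y := by
      filter_upwards [hU.mem_nhds hz] with y hy
      have h0 := Vol_333.det_re_pos (hG y hy)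
      rw [hMA y hy, Complex.re_ofReal_mul, Real.log_mul (Real.exp_pos _).ne' h0.ne', Real.log_exp,
        add_comm]
    have hdc : ContDiffAt ℝ ∞ (fun y => (hess u y).det.re) z₀ :=
      Complex.reCLM.contDiff.contDiffAt.comp z₀ (SmM.det (smM_hess huc))
    rw [hess_congr e1, hess_add (hdc.log (Vol_333.det_re_pos hG0).ne') hfc]
  -- the `G` part
  set N : Matrix (Fin n) (Fin n) ℂ := Matrix.of fun k l =>
    bf (hess u z₀) (q k) (q l) * g - bf (hess u z₀) (q k) v * bf (hess u z₀) v (q l) with hN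
  set S : ℂ := ∑ k, ∑ l, T l k * bf (cv u k l z₀) v v with hS
  have t2 : (T * hess (fun y => Real.log (rho u z₀ v₀ p y)) z₀).trace =
      (T * N).trace / g ^ 2 + S / g := by
    rw [trace_eq2, trace_eq2, hS, Finset.sum_div, Finset.sum_div, ← Finset.sum_add_distrib]
    refine Finset.sum_congr rfl fun k _ => ?_
    rw [Finset.sum_div, Finset.sum_div, ← Finset.sum_add_distrib]
    refine Finset.sum_congr rfl fun l _ => ?_
    rw [hess_log_rho hU hu hz hG0 hv]
    have m0 := wM_hess_conj hU hu hz l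
    have m1 := square_eq hGd hG0.1 (wM (false, k) (wM (true, l) (hess u)) z₀)
      (wM (false, k) (hess u) z₀) (wM (false, l) (hess u) z₀) v (p k) (p l)
    have m2 := square_eq1 hGd (wM (false, k) (hess u) z₀) v (p k)
    have m3 := square_eq2 hGd hG0.1 (wM (false, l) (hess u) z₀) v (p l)
    rw [m0] at m1 m3
    rw [m1, m2, m3]
    change _ = T l k * N k l / g ^ 2 + T l k * bf (cv u k l z₀) v v / g
    rw [hN, Matrix.of_apply]
    change T l k * ((bf (hess u z₀) (q k) (q l) + bf (cv u k l z₀) v v) / g -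
      bf (hess u z₀) (q k) v * bf (hess u z₀) v (q l) / g ^ 2) = _
    field_simp
    ring
  have hNp : 0 ≤ (T * N).trace := trace_inv_mul_nonneg hX0 (cs_psd hG0 hv' q)
  -- bounds
  have hTp : T.PosSemidef := hX0.inv.posSemidef
  have b0 : g.re ≤ E.re * x.re := by
    have h1 := bf_le_trace hX0 hG0.posSemidef hv'
    have h2 := (Complex.le_def.1 h1).1
    change g.re ≤ (E * x).re at h2
    rw [← hEr, Complex.re_ofReal_mul] at h2
    exact h2
  have b1 : c * T.trace.re ≤ E.re := by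
    have h1 := trace_inv_mul_nonneg hX0 hcG
    rw [← hT, Matrix.mul_sub, Matrix.mul_smul, Matrix.mul_one, Matrix.trace_sub,
      Matrix.trace_smul, smul_eq_mul] at h1
    have h2 := (Complex.le_def.1 h1).1
    rw [Complex.zero_re, Complex.sub_re, Complex.re_ofReal_mul] at h2
    exact sub_nonneg.1 h2
  have hT0 : 0 ≤ T.trace.re := (Complex.nonneg_iff.1 hTp.trace_nonneg).1
  have hvn : ∀ a, ‖v a‖ ≤ ‖v₀‖ := fun a => PiLp.norm_apply_le v₀ a
  have b2 : c * ‖v₀‖ ^ 2 ≤ g.re := by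
    have h1 := bf_nonneg hcG v
    rw [bf_sub, bf_smul] at h1
    have h2 := (Complex.le_def.1 h1).1
    have h3 : bf (1 : Matrix (Fin n) (Fin n) ℂ) v v = ((‖v₀‖ ^ 2 : ℝ) : ℂ) := by
      rw [EuclideanSpace.norm_sq_eq]
      unfold bf
      rw [Matrix.one_mulVec]
      simp only [dotProduct, Pi.star_apply, RCLike.star_def, Complex.mul_conj, hvdef]
      push_cast
      exact Finset.sum_congr rfl fun a _ => by
        rw [Complex.normSq_eq_norm_sq]; push_cast; rfl
    rw [h3, Complex.zero_re, Complex.sub_re, ← Complex.ofReal_mul, Complex.ofReal_re] at h2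
    exact sub_nonneg.1 h2
  have hR0 : 0 < n → 0 ≤ R := fun hn => (norm_nonneg _).trans (hR ⟨0, hn⟩ ⟨0, hn⟩ ⟨0, hn⟩ ⟨0, hn⟩)
  have hn : 0 < n := by
    rcases Nat.eq_zero_or_pos n with h | h
    · exfalso
      subst h
      exact hv' (Subsingleton.elim _ _)
    · exact h
  have hR0 := hR0 hn
  have b3 : ‖S‖ ≤ n ^ 2 * (T.trace.re * (n ^ 2 * (R * ‖v₀‖ ^ 2))) := by
    calc ‖S‖ ≤ ∑ k : Fin n, ∑ l : Fin n, T.trace.re * (n ^ 2 * (R * ‖v₀‖ ^ 2)) := by
          refine (norm_sum_le _ _).trans (Finset.sum_le_sum fun k _ => ?_)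
          refine (norm_sum_le _ _).trans (Finset.sum_le_sum fun l _ => ?_)
          rw [norm_mul]
          exact mul_le_mul (norm_entry_le hTp l k) (norm_bf_le (hR k l) hvn) (norm_nonneg _) hT0
      _ = _ := by simp; ring
  have b4 : ‖S / g‖ ≤ n ^ 4 * R / c ^ 2 * E.re := by
    have hgn : ‖g‖ = g.re := by
      rw [← hgr, Complex.norm_real, Real.norm_of_nonneg hg0.le, Complex.ofReal_re]
    rw [norm_div, hgn, div_le_iff₀ hg0]
    calc ‖S‖ ≤ n ^ 2 * (T.trace.re * (n ^ 2 * (R * ‖v₀‖ ^ 2))) := b3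
      _ = n ^ 4 * R / c ^ 2 * ((c * T.trace.re) * (c * ‖v₀‖ ^ 2)) := by
        field_simp
      _ ≤ n ^ 4 * R / c ^ 2 * (E.re * g.re) := by
        refine mul_le_mul_of_nonneg_left ?_ (by positivity)
        exact mul_le_mul b1 b2 (by positivity) ((Complex.nonneg_iff.1 hE0).1)
      _ = _ := by ring
  have b5 : - (n ^ 4 * R / c ^ 2 * E.re) ≤ (S / g).re := by
    have := (Complex.abs_re_le_norm (S / g)).trans b4
    exact (abs_le.1 this).1
  have b6 : 0 ≤ ((T * N).trace / g ^ 2).re := by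
    rw [← hgr, ← Complex.ofReal_pow, Complex.div_ofReal_re]
    exact div_nonneg (Complex.nonneg_iff.1 hNp).1 (by positivity)
  have b7 : (bf (hess (fun y => Real.log (hess w y).det.re) z₀) v v / x).re ≤ K * E.re := by
    rw [← hxr, Complex.div_ofReal_re, t1', div_le_iff₀ hx0]
    refine hK.trans ?_
    rw [mul_assoc]
    exact mul_le_mul_of_nonneg_left b0 hK0
  have hfin := (Complex.le_def.1 htr).1
  rw [t1, t2, t3, Complex.zero_re, Complex.add_re, Complex.sub_re, Complex.re_ofReal_mul,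
    Complex.sub_re, Complex.add_re, Complex.natCast_re] at hfin
  have hEn : E.re ≤ A * n := by
    have h1 : 0 ≤ E.re := (Complex.nonneg_iff.1 hE0).1
    nlinarith
  calc g.re ≤ E.re * x.re := b0
    _ ≤ A * n * x.re := mul_le_mul_of_nonneg_right hEn hx0.le

end

end Crest.Agent.R273.C2c_289
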