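import Crest.Agent.R273.C2b_793

/-!
# R273 / Yau C² estimate (helper793), part c: the background metric

* `exists_field` : for `w` with positive Levi form there is a holomorphic field `V`, `V x = v`, with
  `lev (log w_{V V̄}) x ξ ≤ RR w x v (ξ,ξ) / lev w x v`
* `field_bound` : uniform version on compact sets
-/

set_option autoImplicit false
set_option linter.unusedSectionVars false

open Set Filter Topology Complex
open scoped ContDiff Matrix ComplexConjugate ComplexOrder

namespace Crest.Agent.R273.C2c_793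

open Crest.Agent.R275.Geo Crest.Agent.R275.Core144 Crest.Agent.R275.GC293
open Crest.Agent.R275.OmT75
open Crest.Agent.R273.Levi_145 Crest.Agent.R273.C2a_793 Crest.Agent.R273.C2b_793

noncomputable section

variable {n : ℕ} {w : Cn n → ℝ} {x : Cn n}

/-- positive Levi form gives a positive definite matrix -/
theorem quad_Um (h : ContDiffAt ℝ 2 w x) (v : Cn n) :
    ((lev w x v : ℝ) : ℂ) = star (fun a => conj (v a)) ⬝ᵥ (Um w x *ᵥ fun a => conj (v a)) := by
  rw [lev_eq h]
  simp only [dotProduct, Matrix.mulVec, Pi.star_apply, RCLike.star_def, Complex.conj_conj,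
    Um_apply, Finset.mul_sum]
  exact Finset.sum_congr rfl fun a _ => Finset.sum_congr rfl fun b _ => by ring

theorem Um_posDef (h : ContDiffAt ℝ 2 w x) (hp : ∀ v : Cn n, v ≠ 0 → 0 < lev w x v) :
    (Um w x).PosDef := by
  refine Matrix.PosDef.of_dotProduct_mulVec_pos (Um_herm h) fun y hy => ?_
  have h1 := quad_Um h (WithLp.toLp 2 fun a => conj (y a))
  have e : (fun a => conj ((WithLp.toLp 2 fun a => conj (y a) : Cn n) a)) = y := by
    funext a
    simp
  rw [e] at h1
  have h2 := hp (WithLp.toLp 2 fun a => conj (y a)) (by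
    intro h0
    apply hy
    funext a
    have := congrFun (congrArg WithLp.ofLp h0) a
    simpa using this)
  rw [← h1]
  exact_mod_cast h2

/-- an affine vector field -/
def aff (x v : Cn n) (B : Cn n →L[ℂ] Cn n) (z : Cn n) : Cn n := v + B (z - x)

theorem aff_self (x v : Cn n) (B : Cn n →L[ℂ] Cn n) : aff x v B x = v := by simp [aff]

theorem hasFDerivAt_aff (x v : Cn n) (B : Cn n →L[ℂ] Cn n) (z : Cn n) :
    HasFDerivAt (aff x v B) B z := by
  have h1 : HasFDerivAt (fun z : Cn n => z - x) (ContinuousLinearMap.id ℂ (Cn n)) z :=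
    (hasFDerivAt_id z).sub_const x
  have h2 : HasFDerivAt (fun z : Cn n => B (z - x)) (B.comp (ContinuousLinearMap.id ℂ (Cn n))) z :=
    B.hasFDerivAt.comp z h1
  rw [ContinuousLinearMap.comp_id] at h2
  exact h2.const_add v

theorem diff_aff (x v : Cn n) (B : Cn n →L[ℂ] Cn n) (z : Cn n) :
    DifferentiableAt ℂ (aff x v B) z := (hasFDerivAt_aff x v B z).differentiableAt

theorem fderiv_aff (x v : Cn n) (B : Cn n →L[ℂ] Cn n) (z : Cn n) : fderiv ℂ (aff x v B) z = B :=
  (hasFDerivAt_aff x v B z).fderiv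

/-- the fourth order form -/
def R4 (w : Cn n → ℝ) (x v ξ : Cn n) : ℝ :=
  (∑ c, ∑ d, RR w x v c d * ξ c * conj (ξ d)).re

/-- choice of a vector field for the background metric -/
theorem exists_field (hw : ContDiffAt ℝ ∞ w x) (hp : ∀ v : Cn n, v ≠ 0 → 0 < lev w x v)
    {v : Cn n} (hv : v ≠ 0) :
    ∃ B : Cn n →L[ℂ] Cn n, ∀ ξ,
      lev (fun z => Real.log (QV w (aff x v B) z)) x ξ ≤ R4 w x v ξ / lev w x v := by
  have hpd := Um_posDef (sm2 hw) hp
  have hdet : IsUnit (Um w x).transpose.det := by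
    rw [Matrix.det_transpose]
    exact hpd.det_pos.ne'.isUnit
  set T : Matrix (Fin n) (Fin n) ℂ := Matrix.of fun b c => tau w x v c b with hT
  set Bm : Matrix (Fin n) (Fin n) ℂ := - ((Um w x).transpose⁻¹ * T) with hBm
  have hB0 : (Um w x).transpose * Bm = - T := by
    rw [hBm, Matrix.mul_neg, ← Matrix.mul_assoc, Matrix.mul_nonsing_inv _ hdet, Matrix.one_mul]
  set B : Cn n →L[ℂ] Cn n := Matrix.toEuclideanCLM (n := Fin n) (𝕜 := ℂ) Bm with hB
  have hBe : ∀ ξ : Cn n, ∀ a, (B ξ) a = ∑ c, Bm a c * ξ c := by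
    intro ξ a
    rfl
  have hBc : ∀ c a, (B (ee c)) a = Bm a c := by
    intro c a
    rw [hBe]
    simp [ee]
  have key : ∀ b c, ∑ a, hs (cx w) x a b * Bm a c = - tau w x v c b := by
    intro b c
    have := congrFun (congrFun hB0 b) c
    rw [Matrix.mul_apply] at this
    simpa [hT, Um_apply] using this
  refine ⟨B, fun ξ => ?_⟩
  have hV : ∀ᶠ z in 𝓝 x, DifferentiableAt ℂ (aff x v B) z :=
    Eventually.of_forall (diff_aff x v B)
  have hQ : QV w (aff x v B) x = lev w x v := by rw [QV, aff_self]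
  have hQ0 : 0 < QV w (aff x v B) x := by rw [hQ]; exact hp v hv
  rw [lev_log (c2_QV hw hV) hQ0]
  have h1 : lev (QV w (aff x v B)) x ξ = R4 w x v ξ - lev w x (B ξ) := by
    have e : ∀ c d, hs (cx (QV w (aff x v B))) x c d = RR w x v c d
        - ∑ a, ∑ b, hs (cx w) x a b * Bm a c * conj (Bm b d) := by
      intro c d
      rw [hs_QV hw hV, aff_self, fderiv_aff]
      simp only [hBc, Finset.sum_add_distrib]
      have s1 : (∑ a, ∑ b, hs (cx w) x a b * (Bm a c * conj (Bm b d)))
          + ∑ a, ∑ b, tt w x a b c * (v a * conj (Bm b d)) = 0 := by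
        rw [Finset.sum_comm, Finset.sum_comm (f := fun a b => tt w x a b c * (v a * conj (Bm b d))),
          ← Finset.sum_add_distrib]
        refine Finset.sum_eq_zero fun b _ => ?_
        have e1 : ∑ a, hs (cx w) x a b * (Bm a c * conj (Bm b d)) =
            (∑ a, hs (cx w) x a b * Bm a c) * conj (Bm b d) := by
          rw [Finset.sum_mul]
          exact Finset.sum_congr rfl fun a _ => by ring
        have e2 : ∑ a, tt w x a b c * (v a * conj (Bm b d)) = tau w x v c b * conj (Bm b d) := by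
          rw [tau, Finset.sum_mul]
          exact Finset.sum_congr rfl fun a _ => by ring
        rw [e1, e2, key]
        ring
      have s2 : ∑ a, ∑ b, conj (tt w x b a d) * (Bm a c * conj (v b)) =
          - ∑ a, ∑ b, hs (cx w) x a b * Bm a c * conj (Bm b d) := by
        rw [← Finset.sum_neg_distrib]
        refine Finset.sum_congr rfl fun a _ => ?_
        have e3 : ∑ b, conj (tt w x b a d) * (Bm a c * conj (v b)) =
            Bm a c * conj (tau w x v d a) := by
          rw [tau, map_sum, Finset.mul_sum]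
          refine Finset.sum_congr rfl fun b _ => ?_
          rw [map_mul]; ring
        have e4 : conj (tau w x v d a) = - ∑ b, hs (cx w) x a b * conj (Bm b d) := by
          have := congrArg conj (key a d)
          rw [map_neg, map_sum] at this
          rw [← neg_eq_iff_eq_neg.2 this.symm.symm]
          simp only [map_mul, hs_herm (sm2 hw)]
        rw [e3, e4, mul_neg, Finset.mul_sum]
        congr 1
        exact Finset.sum_congr rfl fun b _ => by ring
      rw [RR, s2]
      linear_combination s1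
    have h2 : ((lev (QV w (aff x v B)) x ξ : ℝ) : ℂ) =
        (∑ c, ∑ d, RR w x v c d * ξ c * conj (ξ d)) - ((lev w x (B ξ) : ℝ) : ℂ) := by
      rw [lev_eq (c2_QV hw hV), lev_eq (sm2 hw)]
      simp only [e, sub_mul, Finset.sum_sub_distrib]
      congr 1
      simp only [Finset.sum_mul]
      rw [sum4_comm (fun c d a b => hs (cx w) x a b * Bm a c * conj (Bm b d) * ξ c * conj (ξ d))]
      refine Finset.sum_congr rfl fun a _ => Finset.sum_congr rfl fun b _ => ?_
      rw [hBe, hBe, map_sum, mul_assoc, Finset.sum_mul_sum, Finset.mul_sum]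
      refine Finset.sum_congr rfl fun c _ => ?_
      rw [Finset.mul_sum]
      refine Finset.sum_congr rfl fun d _ => ?_
      rw [map_mul]; ring
    have h3 := congrArg Complex.re h2
    simpa [R4] using h3
  have h2 : 0 ≤ lev w x (B ξ) := by
    rcases eq_or_ne (B ξ) 0 with h0 | h0
    · rw [h0, lev_zero]
    · exact (hp _ h0).le
  rw [h1, hQ]
  rw [hQ] at hQ0
  have h3 : (R4 w x v ξ - lev w x (B ξ)) / lev w x v ≤ R4 w x v ξ / lev w x v := by
    gcongr
    linarith
  have h4 : 0 ≤ ‖gr (QV w (aff x v B)) x ξ‖ ^ 2 / lev w x v ^ 2 := by positivity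
  linarith

theorem norm_apply_le' (v : Cn n) (a : Fin n) : ‖v a‖ ≤ ‖v‖ := PiLp.norm_apply_le v a

/-- bound of the fourth order form on compact sets -/
theorem R4_bound {U K : Set (Cn n)} (hU : IsOpen U) (hw : ContDiffOn ℝ ∞ w U) (hK : IsCompact K)
    (hKU : K ⊆ U) : ∃ C : ℝ, 0 ≤ C ∧ ∀ z ∈ K, ∀ v ξ, R4 w z v ξ ≤ C * ‖v‖ ^ 2 * ‖ξ‖ ^ 2 := by
  have hc : ContDiffOn ℝ ∞ (cx w) U := Complex.ofRealCLM.contDiff.comp_contDiffOn hw
  have h1 : ∀ a b c d : Fin n, ∃ C : ℝ, ∀ z ∈ K, ‖hs (fun z => hs (cx w) z a b) z c d‖ ≤ C :=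
    fun a b c d => hK.exists_bound_of_continuousOn
      ((contDiffOn_hs hU (contDiffOn_hs hU hc a b) c d).continuousOn.mono hKU)
  choose C hC using h1
  refine ⟨∑ c, ∑ d, ∑ a, ∑ b, |C a b c d|, by positivity, fun z hz v ξ => ?_⟩
  have h2 : ∀ c d, ‖RR w z v c d‖ ≤ (∑ a, ∑ b, |C a b c d|) * ‖v‖ ^ 2 := by
    intro c d
    unfold RR
    rw [Finset.sum_mul]
    refine (norm_sum_le _ _).trans (Finset.sum_le_sum fun a _ => ?_)
    rw [Finset.sum_mul]
    refine (norm_sum_le _ _).trans (Finset.sum_le_sum fun b _ => ?_)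
    rw [norm_mul, norm_mul, RCLike.norm_conj]
    have h3 := (hC a b c d z hz).trans (le_abs_self _)
    have h4 := norm_apply_le' v a
    have h5 := norm_apply_le' v b
    calc ‖hs (fun z => hs (cx w) z a b) z c d‖ * (‖v a‖ * ‖v b‖)
        ≤ |C a b c d| * (‖v‖ * ‖v‖) := by gcongr
      _ = _ := by ring
  unfold R4
  refine (Complex.re_le_norm _).trans ?_
  rw [Finset.sum_mul, Finset.sum_mul]
  refine (norm_sum_le _ _).trans (Finset.sum_le_sum fun c _ => ?_)
  rw [Finset.sum_mul, Finset.sum_mul]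
  refine (norm_sum_le _ _).trans (Finset.sum_le_sum fun d _ => ?_)
  rw [norm_mul, norm_mul, RCLike.norm_conj]
  have h4 := norm_apply_le' ξ c
  have h5 := norm_apply_le' ξ d
  calc ‖RR w z v c d‖ * ‖ξ c‖ * ‖ξ d‖
      ≤ ((∑ a, ∑ b, |C a b c d|) * ‖v‖ ^ 2) * ‖ξ‖ * ‖ξ‖ := by
        have := h2 c d
        gcongr
    _ = _ := by ring

/-- **vector fields for the background metric, uniform bound on compact sets** -/
theorem field_bound {U K : Set (Cn n)} (hU : IsOpen U) (hw : ContDiffOn ℝ ∞ w U)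
    (hp : ∀ z ∈ U, ∀ v : Cn n, v ≠ 0 → 0 < lev w z v) (hK : IsCompact K) (hKU : K ⊆ U) :
    ∃ β : ℝ, 0 ≤ β ∧ ∀ x ∈ K, ∀ v : Cn n, v ≠ 0 → ∃ B : Cn n →L[ℂ] Cn n, ∀ ξ,
      lev (fun z => Real.log (QV w (aff x v B) z)) x ξ ≤ β * lev w x ξ := by
  obtain ⟨C, hC0, hC⟩ := R4_bound hU hw hK hKU
  obtain ⟨c, hc0, hc⟩ := YauCh_635.lev_lower hU (hw.of_le YauCh_635.two_le_inf) hK hKU
    (fun z hz v hv => by
      rw [YauDefs_635.lev333_eq_lev145]
      have := hp z (hKU hz) v hv
      linarith)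
  have hc' : ∀ z ∈ K, ∀ v, c / 4 * ‖v‖ ^ 2 ≤ lev w z v := by
    intro z hz v
    have := hc z hz v
    rw [YauDefs_635.lev333_eq_lev145] at this
    linarith
  refine ⟨C / (c / 4) ^ 2, by positivity, fun x hx v hv => ?_⟩
  have hsm : ContDiffAt ℝ ∞ w x := hw.contDiffAt (hU.mem_nhds (hKU hx))
  obtain ⟨B, hB⟩ := exists_field hsm (hp x (hKU hx)) hv
  refine ⟨B, fun ξ => (hB ξ).trans ?_⟩
  have hv0 : 0 < ‖v‖ := norm_pos_iff.2 hv
  have h1 : 0 < lev w x v := hp x (hKU hx) v hv
  calc R4 w x v ξ / lev w x v ≤ (C * ‖v‖ ^ 2 * ‖ξ‖ ^ 2) / lev w x v := by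
        have := hC x hx v ξ
        gcongr
    _ ≤ (C * ‖v‖ ^ 2 * ‖ξ‖ ^ 2) / (c / 4 * ‖v‖ ^ 2) := by
        have := hc' x hx v
        gcongr
    _ = C / (c / 4) ^ 2 * (c / 4 * ‖ξ‖ ^ 2) := by field_simp
    _ ≤ C / (c / 4) ^ 2 * lev w x ξ := by
        have := hc' x hx ξ
        gcongr

end

end Crest.Agent.R273.C2c_793
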