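import Crest.Agent.R273.C2c_289

/-!
# R273 (S0416), Part C, C2 estimate (helper289), part 4: `c2_holds : C2Stmt`
-/

set_option autoImplicit false
set_option linter.unusedSectionVars false

open Set Filter Topology Complex Matrix
open scoped ContDiff Matrix ComplexConjugate ComplexOrder

namespace Crest.Agent.R273.C2d_289

open Crest.Agent.R275.Geo Crest.Agent.R275.Core144 Crest.Agent.R275.GC293
open Crest.Agent.R275.EDR890
open Crest.Agent.R273.Defs_333 Crest.Agent.R273.YauDefs_635 Crest.Agent.R273.HM_333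
open Crest.Agent.R273.YauCh_635 Crest.Agent.R273.Hess_333 Crest.Agent.R273.HessB_333
open Crest.Agent.R273.Kah_333 Crest.Agent.R273.YauMax_635
open Crest.Agent.R273.C2a_289 Crest.Agent.R273.C2b_289 Crest.Agent.R273.C2c_289
open Crest.Agent.R273.GreenM_5 (ci mem_ci)
open Crest.Agent.R273.Calc_243 (SmM SmM.det)

noncomputable section

section Local

variable {n : ℕ}

theorem lev_bf {u : Cn n → ℝ} {z : Cn n} (hu : ContDiffAt ℝ ∞ u z) (v : Cn n) :
    lev u z v = 4 * (bf (hess u z) (fun a => v a) (fun a => v a)).re := by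
  have h := hq_re hu v
  have h1 : hq u z v = bf (hess u z) (fun a => v a) (fun a => v a) := (bf_eq_sum _ _ _).symm
  rw [h1] at h
  linarith

theorem bf_one (v : Cn n) :
    bf (1 : Matrix (Fin n) (Fin n) ℂ) (fun a => v a) (fun a => v a) = ((‖v‖ ^ 2 : ℝ) : ℂ) := by
  rw [EuclideanSpace.norm_sq_eq]
  unfold bf
  rw [Matrix.one_mulVec]
  simp only [dotProduct, Pi.star_apply, RCLike.star_def, Complex.mul_conj]
  push_cast
  exact Finset.sum_congr rfl fun a _ => by
    rw [Complex.normSq_eq_norm_sq]; push_cast; rfl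

theorem psd_of_lower {u : Cn n → ℝ} {z : Cn n} (hu : ContDiffAt ℝ ∞ u z) {c : ℝ}
    (h : ∀ v, c * ‖v‖ ^ 2 ≤ lev u z v) :
    (hess u z - ((c / 4 : ℝ) : ℂ) • (1 : Matrix (Fin n) (Fin n) ℂ)).PosSemidef := by
  have hh : (hess u z - ((c / 4 : ℝ) : ℂ) • (1 : Matrix (Fin n) (Fin n) ℂ)).IsHermitian := by
    refine (hess_herm hu).sub ?_
    rw [Matrix.IsHermitian, Matrix.conjTranspose_smul, Matrix.conjTranspose_one,
      RCLike.star_def, Complex.conj_ofReal]
  refine Matrix.PosSemidef.of_dotProduct_mulVec_nonneg hh fun x => ?_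
  have h1 : star x ⬝ᵥ ((hess u z - ((c / 4 : ℝ) : ℂ) • (1 : Matrix (Fin n) (Fin n) ℂ)) *ᵥ x) =
      bf (hess u z - ((c / 4 : ℝ) : ℂ) • (1 : Matrix (Fin n) (Fin n) ℂ)) (star x) (star x) := by
    unfold bf
    rw [star_star]
  rw [h1, bf_sub, bf_smul]
  have h2 := h (WithLp.toLp 2 (star x))
  rw [lev_bf hu] at h2
  have h3 := bf_one (WithLp.toLp 2 (star x))
  change bf 1 (star x) (star x) = _ at h3
  change c * _ ≤ 4 * (bf (hess u z) (star x) (star x)).re at h2
  rw [h3, ← bf_real (hess_herm hu) (star x), ← Complex.ofReal_mul, ← Complex.ofReal_sub]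
  exact Complex.zero_le_real.2 (by linarith)

theorem cv_sm {u : Cn n → ℝ} {z : Cn n} (hu : ContDiffAt ℝ ∞ u z) (hG : (hess u z).PosDef)
    (k l : Fin n) : SmM z (cv u k l) := by
  intro a b
  have h0 := smM_hess hu
  have h1 := smM_wM (smM_wM h0 (true, l)) (false, k)
  have h2 := smM_wM h0 (false, k)
  have h3 := smM_wM h0 (true, l)
  have h4 := BKNc_37.SmM.inv h0 hG.det_pos.ne'
  have e : (fun y => cv u k l y a b) = fun y => wM (false, k) (wM (true, l) (hess u)) y a b -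
      ∑ d, (∑ c, wM (false, k) (hess u) y a c * (hess u y)⁻¹ c d) * wM (true, l) (hess u) y d b := by
    funext y
    simp only [cv, Matrix.sub_apply, Matrix.mul_apply]
  rw [e]
  exact (h1 a b).sub (ContDiffAt.sum fun d _ => (ContDiffAt.sum fun c _ => (h2 a c).mul
    (h4 c d)).mul (h3 d b))

theorem cv_bound {u : Cn n → ℝ} {U : Set (Cn n)} (hU : IsOpen U) (hu : ContDiffOn ℝ ∞ u U)
    (hG : ∀ z ∈ U, (hess u z).PosDef) {B : Set (Cn n)} (hB : IsCompact B) (hBU : B ⊆ U) :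
    ∃ R : ℝ, 0 ≤ R ∧ ∀ z ∈ B, ∀ k l a b, ‖cv u k l z a b‖ ≤ R := by
  have hc : ContinuousOn (fun z => ∑ k, ∑ l, ∑ a, ∑ b, ‖cv u k l z a b‖) B := by
    refine continuousOn_finsetSum _ fun k _ => continuousOn_finsetSum _ fun l _ =>
      continuousOn_finsetSum _ fun a _ => continuousOn_finsetSum _ fun b _ => ?_
    intro z hz
    exact ((cv_sm (hu.contDiffAt (hU.mem_nhds (hBU hz))) (hG z (hBU hz)) k l
      a b).continuousAt.continuousWithinAt).norm
  obtain ⟨C, hC⟩ := hB.exists_bound_of_continuousOn hc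
  refine ⟨max C 0, le_max_right _ _, fun z hz k l a b => ?_⟩
  have h1 := hC z hz
  have p1 : ∀ k l a, 0 ≤ ∑ b, ‖cv u k l z a b‖ := fun k l a => Finset.sum_nonneg fun _ _ =>
    norm_nonneg _
  have p2 : ∀ k l, 0 ≤ ∑ a, ∑ b, ‖cv u k l z a b‖ := fun k l => Finset.sum_nonneg fun _ _ => p1 _ _ _
  have p3 : ∀ k, 0 ≤ ∑ l, ∑ a, ∑ b, ‖cv u k l z a b‖ := fun k => Finset.sum_nonneg fun _ _ => p2 _ _
  calc ‖cv u k l z a b‖ ≤ ∑ b, ‖cv u k l z a b‖ :=
        Finset.single_le_sum (f := fun b => ‖cv u k l z a b‖) (fun _ _ => norm_nonneg _)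
          (Finset.mem_univ b)
    _ ≤ ∑ a, ∑ b, ‖cv u k l z a b‖ :=
        Finset.single_le_sum (f := fun a => ∑ b, ‖cv u k l z a b‖) (fun _ _ => p1 _ _ _)
          (Finset.mem_univ a)
    _ ≤ ∑ l, ∑ a, ∑ b, ‖cv u k l z a b‖ :=
        Finset.single_le_sum (f := fun l => ∑ a, ∑ b, ‖cv u k l z a b‖) (fun _ _ => p2 _ _)
          (Finset.mem_univ l)
    _ ≤ ∑ k, ∑ l, ∑ a, ∑ b, ‖cv u k l z a b‖ :=
        Finset.single_le_sum (f := fun k => ∑ l, ∑ a, ∑ b, ‖cv u k l z a b‖) (fun _ _ => p3 _)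
          (Finset.mem_univ k)
    _ ≤ ‖∑ k, ∑ l, ∑ a, ∑ b, ‖cv u k l z a b‖‖ := Real.le_norm_self _
    _ ≤ C := h1
    _ ≤ _ := le_max_left _ _

theorem logdet_smooth {u : Cn n → ℝ} {U : Set (Cn n)} (hU : IsOpen U) (hu : ContDiffOn ℝ ∞ u U)
    (hG : ∀ z ∈ U, (hess u z).PosDef) :
    ContDiffOn ℝ ∞ (fun y => Real.log (hess u y).det.re) U := by
  intro z hz
  have hdc : ContDiffAt ℝ ∞ (fun y => (hess u y).det.re) z :=
    Complex.reCLM.contDiff.contDiffAt.comp z
      (SmM.det (smM_hess (hu.contDiffAt (hU.mem_nhds hz))))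
  exact (hdc.log (Vol_333.det_re_pos (hG z hz)).ne').contDiffWithinAt

end Local

variable {n : ℕ} {M : Type} [TopologicalSpace M] {A : Atl n M} {L : LB A}

theorem exists_cover [CompactSpace M] (A : Atl n M) : ∃ (t : Finset M) (B : M → Set (Cn n)),
    (∀ x, IsCompact (B x) ∧ B x ⊆ (A.e (ci A x)).target) ∧
    ∀ y, ∃ x ∈ t, y ∈ (A.e (ci A x)).source ∧ A.e (ci A x) y ∈ B x := by
  have key : ∀ x : M, ∃ ρ > 0, Metric.closedBall (A.e (ci A x) x) ρ ⊆ (A.e (ci A x)).target :=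
    fun x => Metric.nhds_basis_closedBall.mem_iff.1
      ((A.e (ci A x)).open_target.mem_nhds ((A.e (ci A x)).map_source (mem_ci x)))
  choose ρ hρ hB using key
  obtain ⟨t, ht⟩ := CompactSpace.elim_nhds_subcover
    (fun x => (A.e (ci A x)).source ∩ (A.e (ci A x)) ⁻¹' Metric.ball (A.e (ci A x) x) (ρ x))
    (fun x => ((A.e (ci A x)).isOpen_inter_preimage Metric.isOpen_ball).mem_nhds
      ⟨mem_ci x, Metric.mem_ball_self (hρ x)⟩)
  refine ⟨t, fun x => Metric.closedBall (A.e (ci A x) x) (ρ x),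
    fun x => ⟨isCompact_closedBall _ _, hB x⟩, fun y => ?_⟩
  have h1 : y ∈ (⊤ : Set M) := mem_univ _
  rw [← ht] at h1
  simp only [mem_iUnion, exists_prop] at h1
  obtain ⟨x, hxt, hx⟩ := h1
  exact ⟨x, hxt, hx.1, Metric.ball_subset_closedBall hx.2⟩

theorem lev_pot (H : HM L) {φ : M → ℝ} (hφ : A.Sm φ) (i : A.ι) {z : Cn n}
    (hz : z ∈ (A.e i).target) (v : Cn n) :
    lev (pot H φ i) z v = lev (H.wt i) z v + lev (inC A i φ) z v := by
  have h := Levi_145.lev_add (wt_c2 H i hz) (inC_c2 hφ i hz) v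
  rw [lev333_eq_lev145, lev333_eq_lev145, lev333_eq_lev145, ← mul_add, ← h]
  rfl

theorem lev_pot_change (H : HM L) {φ : M → ℝ} (hφ : A.Sm φ) {i j : A.ι} {x : M}
    (hx : x ∈ (A.e i).source ∩ (A.e j).source) (w : Cn n) :
    lev (pot H φ i) (A.e i x) w
      = lev (pot H φ j) (A.e j x) (fderiv ℂ (Tm A i j) (A.e i x) w) := by
  rw [lev_pot H hφ i ((A.e i).map_source hx.1), lev_pot H hφ j ((A.e j).map_source hx.2),
    lev_wt_change H hx, lev_inC_change hφ hx]

/-- the test function -/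
def Ph (H : HM L) (φ : M → ℝ) (a : ℝ) (i : A.ι) (z v : Cn n) : ℝ :=
  Real.log (lev (H.wt i) z v) - Real.log (lev (pot H φ i) z v) - a * inC A i φ z

theorem pot_smooth (H : HM L) {φ : M → ℝ} (hφ : A.Sm φ) (i : A.ι) :
    ContDiffOn ℝ ∞ (pot H φ i) (A.e i).target := (wt_smooth H i).add (inC_smooth hφ i)

theorem Ph_change {H : HM L} (hH : H.Pos) {φ : M → ℝ} (hφ : A.Sm φ) (hKP : KPos H φ) (a : ℝ)
    {t : Finset M} {B : M → Set (Cn n)}
    (hcov : ∀ y, ∃ x ∈ t, y ∈ (A.e (ci A x)).source ∧ A.e (ci A x) y ∈ B x)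
    (i : A.ι) {z : Cn n} (hz : z ∈ (A.e i).target) {v : Cn n} (hv : v ≠ 0) :
    ∃ x ∈ t, ∃ z' ∈ B x, ∃ s ∈ Metric.sphere (0 : Cn n) 1,
      z' ∈ (A.e (ci A x)).target ∧ Ph H φ a i z v = Ph H φ a (ci A x) z' s := by
  obtain ⟨x, hxt, hxs, hxB⟩ := hcov ((A.e i).symm z)
  set y := (A.e i).symm z with hy
  have hyi : y ∈ (A.e i).source := (A.e i).map_target hz
  have hzy : A.e i y = z := (A.e i).right_inv hz
  set j := ci A x
  have hz' : A.e j y ∈ (A.e j).target := (A.e j).map_source hxs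
  set w := fderiv ℂ (Tm A i j) (A.e i y) v with hw
  have c1 := lev_wt_change H ⟨hyi, hxs⟩ v
  have c2 := lev_pot_change H hφ ⟨hyi, hxs⟩ v
  rw [← hw] at c1 c2
  rw [hzy] at c1 c2
  have hw0 : w ≠ 0 := by
    intro h0
    rw [h0, lev_zero] at c1
    exact (hH i z hz v hv).ne' c1
  have hs := mem_sphere_norm hw0
  set s := (‖w‖⁻¹ : ℝ) • w with hsdef
  have hs0 : s ≠ 0 := by
    intro h0
    rw [h0, mem_sphere_zero_iff_norm, norm_zero] at hs
    exact zero_ne_one hs
  refine ⟨x, hxt, A.e j y, hxB, s, hs, hz', ?_⟩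
  have hn : (‖w‖ ^ 2 : ℝ) ≠ 0 := pow_ne_zero 2 (norm_ne_zero_iff.2 hw0)
  unfold Ph
  rw [c1, c2, lev_norm (H.wt j) _ hw0, lev_norm (pot H φ j) _ hw0,
    Real.log_mul hn (hH j _ hz' s hs0).ne', Real.log_mul hn (hKP j _ hz' s hs0).ne']
  have e1 : inC A i φ z = inC A j φ (A.e j y) := by
    change φ y = φ ((A.e j).symm (A.e j y))
    rw [(A.e j).left_inv hxs]
  rw [e1]
  ring

theorem Ph_cont {H : HM L} (hH : H.Pos) {φ : M → ℝ} (hφ : A.Sm φ) (hKP : KPos H φ) (a : ℝ)
    (i : A.ι) {B : Set (Cn n)} (hB : B ⊆ (A.e i).target) :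
    ContinuousOn (fun p : Cn n × Cn n => Ph H φ a i p.1 p.2) (B ×ˢ Metric.sphere (0 : Cn n) 1) := by
  have hne : ∀ p ∈ B ×ˢ Metric.sphere (0 : Cn n) 1, p.2 ≠ 0 := by
    intro p hp h0
    have := hp.2
    rw [mem_sphere_zero_iff_norm, h0, norm_zero] at this
    exact zero_ne_one this
  have m1 : B ×ˢ Metric.sphere (0 : Cn n) 1 ⊆ (A.e i).target ×ˢ univ :=
    prod_mono hB (subset_univ _)
  have c1 := (continuousOn_lev (A.e i).open_target ((wt_smooth H i).of_le two_le_inf)).mono m1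
  have c2 := (continuousOn_lev (A.e i).open_target ((pot_smooth H hφ i).of_le two_le_inf)).mono m1
  have c3 : ContinuousOn (fun p : Cn n × Cn n => inC A i φ p.1)
      (B ×ˢ Metric.sphere (0 : Cn n) 1) :=
    ((inC_smooth hφ i).continuousOn.mono hB).comp continuousOn_fst fun p hp => hp.1
  exact ((c1.log fun p hp => (hH i _ (hB hp.1) _ (hne p hp)).ne').sub
    (c2.log fun p hp => (hKP i _ (hB hp.1) _ (hne p hp)).ne')).sub (continuousOn_const.mul c3)

theorem c2_holds : C2Stmt := by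
  intro n M _ _ _ _ A _ _ _ L H hH K
  obtain ⟨t, B, hB, hcov⟩ := exists_cover A
  have hGi : ∀ i, ∀ z ∈ (A.e i).target, (hess (H.wt i) z).PosDef := fun i z hz =>
    posDef_hess (wt_contDiffAt H i hz) (hH i z hz)
  have k1 : ∀ x, ∃ c : ℝ, 0 < c ∧ ∀ z ∈ B x, ∀ v, c * ‖v‖ ^ 2 ≤ lev (H.wt (ci A x)) z v := fun x =>
    lev_lower (A.e (ci A x)).open_target ((wt_smooth H _).of_le two_le_inf) (hB x).1 (hB x).2
      (fun z hz v hv => hH _ z ((hB x).2 hz) v hv)
  have k2 : ∀ x, ∃ R : ℝ, 0 ≤ R ∧ ∀ z ∈ B x, ∀ k l a b, ‖cv (H.wt (ci A x)) k l z a b‖ ≤ R :=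
    fun x => cv_bound (A.e (ci A x)).open_target (wt_smooth H _) (hGi _) (hB x).1 (hB x).2
  have k3 : ∀ x, ∃ Q : ℝ, 0 ≤ Q ∧ ∀ z ∈ B x, ∀ v,
      |lev (fun y => Real.log (hess (H.wt (ci A x)) y).det.re) z v| ≤ Q * ‖v‖ ^ 2 := fun x =>
    lev_upper (A.e (ci A x)).open_target
      ((logdet_smooth (A.e (ci A x)).open_target (wt_smooth H _) (hGi _)).of_le two_le_inf)
      (hB x).1 (hB x).2
  choose c hc0 hc using k1
  choose R hR0 hR using k2
  choose Q hQ0 hQ using k3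
  set K' := max K 0 with hK'
  have hK'0 : 0 ≤ K' := le_max_right _ _
  set a := ∑ x ∈ t, (Q x / c x + n ^ 4 * R x / (c x / 4) ^ 2) + K' + 1 with ha
  have hterm : ∀ x, 0 ≤ Q x / c x + n ^ 4 * R x / (c x / 4) ^ 2 := fun x => by
    have := hc0 x
    have := hR0 x
    have := hQ0 x
    positivity
  have hax : ∀ x ∈ t, (Q x / c x + K') + n ^ 4 * R x / (c x / 4) ^ 2 + 1 ≤ a := by
    intro x hx
    have := Finset.single_le_sum (f := fun x => Q x / c x + n ^ 4 * R x / (c x / 4) ^ 2)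
      (fun x _ => hterm x) hx
    rw [ha]
    linarith
  have ha0 : 0 ≤ a := by
    have : 0 ≤ ∑ x ∈ t, (Q x / c x + n ^ 4 * R x / (c x / 4) ^ 2) :=
      Finset.sum_nonneg fun x _ => hterm x
    rw [ha]
    linarith
  set C1 := (a * n + 1) * Real.exp (a * K') with hC1
  have hC1p : 0 < C1 := by positivity
  set C2 := C1 ^ n * Real.exp K' / C1 with hC2
  have hC2p : 0 < C2 := by positivity
  refine ⟨C1 + C2, by positivity, ?_⟩
  intro φ f hφ hf hKP hMA hfK hlev hosc
  have hXi : ∀ i, ∀ z ∈ (A.e i).target, (hess (pot H φ i) z).PosDef := fun i z hz =>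
    posDef_hess (pot_contDiffAt H hφ i hz) (hKP i z hz)
  have hdet : ∀ i, ∀ z ∈ (A.e i).target,
      (hess (pot H φ i) z).det = (Real.exp (inC A i f z) : ℂ) * (hess (H.wt i) z).det := by
    intro i z hz
    rw [← cH_eq_hess (pot_contDiffAt H hφ i hz), ← cH_eq_hess (wt_contDiffAt H i hz)]
    exact hMA i z hz
  -- first inequality
  have hfirst : ∀ i, ∀ z ∈ (A.e i).target, ∀ v : Cn n, v ≠ 0 →
      lev (H.wt i) z v ≤ C1 * lev (pot H φ i) z v := by
    intro i z hz v hv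
    set W : Set ℝ := ⋃ x ∈ t, (fun p : Cn n × Cn n => Ph H φ a (ci A x) p.1 p.2) ''
      (B x ×ˢ Metric.sphere (0 : Cn n) 1) with hW
    have hWc : IsCompact W := by
      refine t.finite_toSet.isCompact_biUnion fun x _ => ?_
      exact ((hB x).1.prod (isCompact_sphere _ _)).image_of_continuousOn
        (Ph_cont hH hφ hKP a (ci A x) (hB x).2)
    have hmemW : ∀ i, ∀ z ∈ (A.e i).target, ∀ v : Cn n, v ≠ 0 → Ph H φ a i z v ∈ W := by
      intro i z hz v hv
      obtain ⟨x, hxt, z', hz', s, hs, -, he⟩ := Ph_change hH hφ hKP a hcov i hz hv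
      rw [he, hW]
      exact mem_biUnion (show x ∈ (t : Set M) from hxt) ⟨(z', s), ⟨hz', hs⟩, rfl⟩
    obtain ⟨m, hmW, hmle⟩ := hWc.exists_isGreatest ⟨_, hmemW i z hz v hv⟩
    rw [hW] at hmW
    simp only [mem_iUnion, exists_prop, mem_image, mem_prod, Prod.exists] at hmW
    obtain ⟨x₀, hx₀, z₀, v₀, ⟨hz₀B, hv₀⟩, hm⟩ := hmW
    set i₀ := ci A x₀ with hi₀
    have hz₀ : z₀ ∈ (A.e i₀).target := (hB x₀).2 hz₀B
    have hv₀0 : v₀ ≠ 0 := by
      intro h0
      rw [h0, mem_sphere_zero_iff_norm, norm_zero] at hv₀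
      exact zero_ne_one hv₀
    have hwc := wt_contDiffAt H i₀ hz₀
    have hpc := pot_contDiffAt H hφ i₀ hz₀
    have hfc := inC_contDiffAt hf i₀ hz₀
    have hldc : ContDiffAt ℝ ∞ (fun y => Real.log (hess (H.wt i₀) y).det.re) z₀ :=
      (logdet_smooth (A.e i₀).open_target (wt_smooth H _) (hGi _)).contDiffAt
        ((A.e i₀).open_target.mem_nhds hz₀)
    have hcore := core (u := H.wt i₀) (φ := inC A i₀ φ) (f := inC A i₀ f) (A.e i₀).open_target
      (wt_smooth H i₀) (inC_smooth hφ i₀) (inC_smooth hf i₀) (hGi i₀) (hXi i₀) (hdet i₀) hz₀ hv₀0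
      (A := a) (c := c x₀ / 4) (R := R x₀) (K := Q x₀ / c x₀ + K') ?_ (by have := hc0 x₀; positivity)
      (psd_of_lower hwc (hc x₀ z₀ hz₀B)) (hR x₀ z₀ hz₀B)
      (by have := hc0 x₀; have := hQ0 x₀; positivity) ?_ (hax x₀ hx₀)
    · -- conclusion
      have hg0 := hH i₀ z₀ hz₀ v₀ hv₀0
      have hx0 := hKP i₀ z₀ hz₀ v₀ hv₀0
      have h1 : lev (H.wt i₀) z₀ v₀ ≤ (a * n + 1) * lev (pot H φ i₀) z₀ v₀ := by
        have h2 : lev (H.wt i₀) z₀ v₀ ≤ a * n * lev (pot H φ i₀) z₀ v₀ := by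
          rw [lev_bf hwc, lev_bf hpc]
          have h3 : (bf (hess (H.wt i₀) z₀) (fun a => v₀ a) (fun a => v₀ a)).re ≤
            a * n * (bf (hess (pot H φ i₀) z₀) (fun a => v₀ a) (fun a => v₀ a)).re := hcore
          linarith
        linarith
      have h2 : Real.log (lev (H.wt i₀) z₀ v₀) ≤
          Real.log (a * n + 1) + Real.log (lev (pot H φ i₀) z₀ v₀) := by
        rw [← Real.log_mul (by positivity) hx0.ne']
        exact Real.log_le_log hg0 h1
      have h3 := hmle (hmemW i z hz v hv)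
      rw [← hm] at h3
      unfold Ph at h3
      have h4 : inC A i φ z - inC A i₀ φ z₀ ≤ K' := (hosc _ _).trans (le_max_left _ _)
      have h5 : a * (inC A i φ z - inC A i₀ φ z₀) ≤ a * K' := mul_le_mul_of_nonneg_left h4 ha0
      have hg := hH i z hz v hv
      have hx := hKP i z hz v hv
      have h6 : Real.log (lev (H.wt i) z v) ≤ Real.log (C1 * lev (pot H φ i) z v) := by
        rw [hC1, Real.log_mul (by positivity) hx.ne', Real.log_mul (by positivity)
          (Real.exp_pos _).ne', Real.log_exp]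
        linarith
      exact (Real.log_le_log_iff hg (by positivity)).1 h6
    · -- maximality
      intro z hz v hv
      have hv' : (WithLp.toLp 2 v : Cn n) ≠ 0 := by
        intro h0
        apply hv
        funext b
        exact congrArg (fun w : Cn n => w b) h0
      have h3 := hmle (hmemW i₀ z hz _ hv')
      rw [← hm] at h3
      unfold Ph at h3
      have p1 := hH i₀ z hz _ hv'
      have p2 := hKP i₀ z hz _ hv'
      have p3 := hH i₀ z₀ hz₀ v₀ hv₀0
      have p4 := hKP i₀ z₀ hz₀ v₀ hv₀0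
      rw [lev_bf (wt_contDiffAt H i₀ hz)] at p1 h3
      rw [lev_bf (pot_contDiffAt H hφ i₀ hz)] at p2 h3
      rw [lev_bf hwc] at p3 h3
      rw [lev_bf hpc] at p4 h3
      rw [Real.log_mul four_ne_zero (by linarith : (0 : ℝ) < _).ne',
        Real.log_mul four_ne_zero (by linarith : (0 : ℝ) < _).ne',
        Real.log_mul four_ne_zero (by linarith : (0 : ℝ) < _).ne',
        Real.log_mul four_ne_zero (by linarith : (0 : ℝ) < _).ne'] at h3
      have h4 : Real.log (bf (hess (H.wt i₀) z) v v).re -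
        Real.log (bf (hess (pot H φ i₀) z) v v).re - a * inC A i₀ φ z ≤
        Real.log (bf (hess (H.wt i₀) z₀) (fun a => v₀ a) (fun a => v₀ a)).re -
        Real.log (bf (hess (pot H φ i₀) z₀) (fun a => v₀ a) (fun a => v₀ a)).re
          - a * inC A i₀ φ z₀ := by
        change Real.log 4 + Real.log (bf (hess (H.wt i₀) z) v v).re -
          (Real.log 4 + Real.log (bf (hess (pot H φ i₀) z) v v).re) - a * inC A i₀ φ z ≤ _ at h3
        linarith
      exact h4
    · -- upper bound of the Ricci form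
      rw [bf_add, Complex.add_re]
      have q1 := (le_abs_self _).trans (hQ x₀ z₀ hz₀B v₀)
      have q2 := (le_abs_self _).trans (hlev i₀ z₀ hz₀ v₀)
      have q3 := hc x₀ z₀ hz₀B v₀
      have hc' := hc0 x₀
      have hg0 := hH i₀ z₀ hz₀ v₀ hv₀0
      have q4 : Q x₀ * ‖v₀‖ ^ 2 ≤ Q x₀ / c x₀ * lev (H.wt i₀) z₀ v₀ := by
        calc Q x₀ * ‖v₀‖ ^ 2 = Q x₀ / c x₀ * (c x₀ * ‖v₀‖ ^ 2) := by field_simp
          _ ≤ _ := mul_le_mul_of_nonneg_left q3 (div_nonneg (hQ0 x₀) hc'.le)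
      have q5 : K * lev (H.wt i₀) z₀ v₀ ≤ K' * lev (H.wt i₀) z₀ v₀ :=
        mul_le_mul_of_nonneg_right (le_max_left _ _) hg0.le
      rw [lev_bf hldc] at q1
      rw [lev_bf hfc] at q2
      rw [lev_bf hwc] at q4 q5 q2
      linarith
  -- second inequality
  have hsecond : ∀ i, ∀ z ∈ (A.e i).target, ∀ v : Cn n, v ≠ 0 →
      lev (pot H φ i) z v ≤ C2 * lev (H.wt i) z v := by
    intro i z hz v hv
    have hwc := wt_contDiffAt H i hz
    have hpc := pot_contDiffAt H hφ i hz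
    have hG := hGi i z hz
    have hX := hXi i z hz
    have hpsd : (((C1 : ℝ) : ℂ) • hess (pot H φ i) z - hess (H.wt i) z).PosSemidef := by
      have hh : (((C1 : ℝ) : ℂ) • hess (pot H φ i) z - hess (H.wt i) z).IsHermitian := by
        refine Matrix.IsHermitian.sub ?_ hG.1
        rw [Matrix.IsHermitian, Matrix.conjTranspose_smul, hX.1.eq, RCLike.star_def,
          Complex.conj_ofReal]
      refine Matrix.PosSemidef.of_dotProduct_mulVec_nonneg hh fun x => ?_
      have h1 : star x ⬝ᵥ ((((C1 : ℝ) : ℂ) • hess (pot H φ i) z - hess (H.wt i) z) *ᵥ x) =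
          bf (((C1 : ℝ) : ℂ) • hess (pot H φ i) z - hess (H.wt i) z) (star x) (star x) := by
        unfold bf
        rw [star_star]
      rw [h1, bf_sub, bf_smul, ← bf_real hX.1, ← bf_real hG.1, ← Complex.ofReal_mul,
        ← Complex.ofReal_sub]
      refine Complex.zero_le_real.2 ?_
      rcases eq_or_ne x 0 with rfl | hx
      · simp [bf]
      · have hx' : (WithLp.toLp 2 (star x) : Cn n) ≠ 0 := by
          intro h0
          apply hx
          funext b
          have := congrArg (fun w : Cn n => w b) h0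
          simpa using this
        have h2 := hfirst i z hz _ hx'
        rw [lev_bf hwc, lev_bf hpc] at h2
        change 4 * (bf (hess (H.wt i) z) (star x) (star x)).re ≤
          C1 * (4 * (bf (hess (pot H φ i) z) (star x) (star x)).re) at h2
        linarith
    have h1 := le_det_mul hG hpsd (fun a => v a)
    rw [Matrix.det_smul, Fintype.card_fin, bf_smul, hdet i z hz] at h1
    have hd0 := Vol_333.det_re_pos hG
    have hd1 := Vol_333.det_real hG.1
    rw [← hd1, ← bf_real hX.1, ← bf_real hG.1] at h1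
    have h2 : (hess (H.wt i) z).det.re * (C1 * (bf (hess (pot H φ i) z) (fun a => v a)
        (fun a => v a)).re) ≤ C1 ^ n * (Real.exp (inC A i f z) * (hess (H.wt i) z).det.re) *
        (bf (hess (H.wt i) z) (fun a => v a) (fun a => v a)).re := by
      exact_mod_cast h1
    rw [lev_bf hwc, lev_bf hpc]
    set X1 := (bf (hess (pot H φ i) z) (fun a => v a) (fun a => v a)).re
    have hG1 : 0 ≤ (bf (hess (H.wt i) z) (fun a => v a) (fun a => v a)).re :=
      (Complex.nonneg_iff.1 (bf_nonneg hG.posSemidef _)).1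
    set G1 := (bf (hess (H.wt i) z) (fun a => v a) (fun a => v a)).re
    set d := (hess (H.wt i) z).det.re
    have h3 : C1 * X1 ≤ C1 ^ n * Real.exp (inC A i f z) * G1 := by
      have h4 : d * (C1 * X1) ≤ d * (C1 ^ n * Real.exp (inC A i f z) * G1) := by
        calc _ ≤ _ := h2
          _ = _ := by ring
      exact le_of_mul_le_mul_left h4 hd0
    have h5 : Real.exp (inC A i f z) ≤ Real.exp K' :=
      Real.exp_le_exp.2 ((le_abs_self _).trans ((hfK _).trans (le_max_left _ _)))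
    have h6 : C1 * X1 ≤ C1 ^ n * Real.exp K' * G1 := h3.trans
      (mul_le_mul_of_nonneg_right (mul_le_mul_of_nonneg_left h5 (by positivity)) hG1)
    have h7 : X1 ≤ C2 * G1 := by
      rw [hC2, div_mul_eq_mul_div, le_div_iff₀ hC1p]
      linarith
    linarith
  intro i z hz v
  rcases eq_or_ne v 0 with rfl | hv
  · simp [lev_zero]
  · have h1 := hfirst i z hz v hv
    have h2 := hsecond i z hz v hv
    have hg := hH i z hz v hv
    have hx := hKP i z hz v hv
    constructor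
    · nlinarith
    · nlinarith

end

end Crest.Agent.R273.C2d_289
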