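import Crest.Agent.R273.C2c_793

/-!
# R273 / Yau C² estimate (helper793), part d: linear changes of coordinates, linear algebra

* `Um_lin` : `u_{a b̄}` in linear coordinates
* `exists_norm` : coordinates in which `u_{a b̄}(x) = δ_ab`
* `lev_le_trace` : a nonnegative Levi form is bounded by its trace
* `lev_le_of_det` : `w ≤ τ u`, `det u = κ det w` imply `u ≤ κ τ^(n-1) w`
* `new_metric` : the inequality of part b in an adapted basis
-/

set_option autoImplicit false
set_option linter.unusedSectionVars false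

open Set Filter Topology Complex
open scoped ContDiff Matrix ComplexConjugate ComplexOrder MatrixOrder

namespace Crest.Agent.R273.C2d_793

open Crest.Agent.R275.Geo Crest.Agent.R275.Core144 Crest.Agent.R275.GC293
open Crest.Agent.R275.OmT75
open Crest.Agent.R273.Levi_145 Crest.Agent.R273.C2a_793 Crest.Agent.R273.C2b_793
open Crest.Agent.R273.C2c_793

noncomputable section

variable {n : ℕ} {u w : Cn n → ℝ} {x : Cn n}

/-- the linear map of a matrix -/
def ml (E : Matrix (Fin n) (Fin n) ℂ) : Cn n →L[ℂ] Cn n :=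
  Matrix.toEuclideanCLM (n := Fin n) (𝕜 := ℂ) E

theorem ml_apply (E : Matrix (Fin n) (Fin n) ℂ) (y : Cn n) (a : Fin n) :
    (ml E y) a = ∑ c, E a c * y c := rfl

theorem ml_ee (E : Matrix (Fin n) (Fin n) ℂ) (c a : Fin n) : (ml E (ee c)) a = E a c := by
  rw [ml_apply]; simp [ee]

theorem ml_mul (E F : Matrix (Fin n) (Fin n) ℂ) (y : Cn n) : ml E (ml F y) = ml (E * F) y := by
  ext a
  simp only [ml_apply, Matrix.mul_apply, Finset.mul_sum, Finset.sum_mul]
  rw [Finset.sum_comm]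
  exact Finset.sum_congr rfl fun c _ => Finset.sum_congr rfl fun d _ => by ring

theorem ml_one (y : Cn n) : ml (1 : Matrix (Fin n) (Fin n) ℂ) y = y := by
  ext a
  rw [ml_apply]
  simp [Matrix.one_apply]

/-- `y ↦ x + E y` -/
def TT (x : Cn n) (E : Matrix (Fin n) (Fin n) ℂ) (y : Cn n) : Cn n := x + ml E y

theorem TT_zero (x : Cn n) (E : Matrix (Fin n) (Fin n) ℂ) : TT x E 0 = x := by simp [TT]

theorem anal_TT (x : Cn n) (E : Matrix (Fin n) (Fin n) ℂ) (y : Cn n) :
    AnalyticAt ℂ (TT x E) y := analyticAt_const.add ((ml E).analyticAt y)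

theorem fderiv_TT (x : Cn n) (E : Matrix (Fin n) (Fin n) ℂ) (y : Cn n) :
    fderiv ℂ (TT x E) y = ml E :=
  ((ml E).hasFDerivAt.const_add x).fderiv

theorem sm_TT (x : Cn n) (E : Matrix (Fin n) (Fin n) ℂ) : ContDiff ℝ ∞ (TT x E) := by
  have h : ContDiff ℝ ∞ (fun y : Cn n => (ml E).restrictScalars ℝ y) :=
    ((ml E).restrictScalars ℝ).contDiff
  exact contDiff_const.add h

theorem sm_comp_TT (hu : ContDiffAt ℝ ∞ u x) (E : Matrix (Fin n) (Fin n) ℂ) :
    ContDiffAt ℝ ∞ (fun y => u (TT x E y)) 0 := by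
  have h : ContDiffAt ℝ ∞ u (TT x E 0) := by rwa [TT_zero]
  exact h.comp 0 (sm_TT x E).contDiffAt

theorem Um_lin {E : Matrix (Fin n) (Fin n) ℂ} {y : Cn n} (hu : ContDiffAt ℝ 2 u (TT x E y)) :
    Um (fun y => u (TT x E y)) y = Eᵀ * Um u (TT x E y) * E.map conj := by
  ext a b
  have h := hs_comp (f := cx u) (T := TT x E) (z := y) (anal_TT x E y) (cx_c2 hu) a b
  have e : (cx fun y => u (TT x E y)) = fun y => cx u (TT x E y) := rfl
  rw [Um_apply, e, h, fderiv_TT]
  have e2 : ∀ c a : Fin n, ((ml E) (EuclideanSpace.single a 1)) c = E c a := fun c a => ml_ee E a c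
  simp only [e2, Matrix.mul_apply, Matrix.transpose_apply, Matrix.map_apply, Um_apply,
    Finset.sum_mul]
  rw [Finset.sum_comm]
  exact Finset.sum_congr rfl fun c _ => Finset.sum_congr rfl fun d _ => by ring

theorem det_lin {E : Matrix (Fin n) (Fin n) ℂ} {y : Cn n} (hu : ContDiffAt ℝ 2 u (TT x E y)) :
    (Um (fun y => u (TT x E y)) y).det = ((‖E.det‖ ^ 2 : ℝ) : ℂ) * (Um u (TT x E y)).det := by
  rw [Um_lin hu, Matrix.det_mul, Matrix.det_mul, Matrix.det_transpose]
  have h : (E.map conj).det = conj E.det := by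
    have := RingHom.map_det (starRingEnd ℂ) E
    rw [this]; rfl
  rw [h]
  push_cast
  rw [← Complex.mul_conj']
  ring

/-- adapted linear coordinates -/
theorem exists_norm (hu : (Um u x).PosDef) : ∃ E : Matrix (Fin n) (Fin n) ℂ, E.det ≠ 0 ∧
    Eᵀ * Um u x * E.map conj = 1 := by
  obtain ⟨C, hC⟩ := CStarAlgebra.nonneg_iff_eq_star_mul_self.mp hu.posSemidef.nonneg
  rw [Matrix.star_eq_conjTranspose] at hC
  have hdet : (Um u x).det ≠ 0 := hu.det_pos.ne'
  have hCu : IsUnit C.det := by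
    rw [isUnit_iff_ne_zero]
    intro h0
    apply hdet
    rw [hC, Matrix.det_mul, h0, mul_zero]
  have hcc : ((C⁻¹).map conj).map conj = C⁻¹ := by ext a b; simp
  refine ⟨(C⁻¹).map conj, ?_, ?_⟩
  · have h : ((C⁻¹).map conj).det = conj (C⁻¹).det := by
      have := RingHom.map_det (starRingEnd ℂ) (C⁻¹)
      rw [this]; rfl
    rw [h]
    intro h0
    have h1 : (C⁻¹).det = 0 := by simpa using h0
    have h2 := Matrix.nonsing_inv_mul C hCu
    have h3 := congrArg Matrix.det h2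
    rw [Matrix.det_mul, h1, zero_mul, Matrix.det_one] at h3
    exact zero_ne_one h3
  · rw [hcc, hC]
    have e1 : ((C⁻¹).map conj)ᵀ = (C⁻¹)ᴴ := rfl
    rw [e1]
    have e2 : (C⁻¹)ᴴ * Cᴴ = 1 := by
      rw [← Matrix.conjTranspose_mul, Matrix.mul_nonsing_inv _ hCu, Matrix.conjTranspose_one]
    calc (C⁻¹)ᴴ * (Cᴴ * C) * C⁻¹ = ((C⁻¹)ᴴ * Cᴴ) * (C * C⁻¹) := by simp only [Matrix.mul_assoc]
      _ = 1 := by rw [e2, Matrix.mul_nonsing_inv _ hCu, Matrix.one_mul]

theorem lev_lin (hu : ContDiffAt ℝ 2 u x) (E : Matrix (Fin n) (Fin n) ℂ) (η : Cn n) :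
    lev (fun y => u (TT x E y)) 0 η = lev u x (ml E η) := by
  have h := lev_comp (u := u) (T := TT x E) (z := 0) (anal_TT x E 0) (by rwa [TT_zero]) η
  rw [h, fderiv_TT, TT_zero]

/-- a nonnegative Levi form is bounded by its trace -/
theorem lev_le_trace (hw : ContDiffAt ℝ 2 w x) (hp : ∀ v, 0 ≤ lev w x v) (η : Cn n) :
    lev w x η ≤ (∑ c, lev w x (ee c)) * ∑ b, ‖η b‖ ^ 2 := by
  have hps : (Um w x).PosSemidef := by
    refine Matrix.PosSemidef.of_dotProduct_mulVec_nonneg (Um_herm hw) fun y => ?_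
    have h1 := quad_Um hw (WithLp.toLp 2 fun a => conj (y a))
    have e : (fun a => conj ((WithLp.toLp 2 fun a => conj (y a) : Cn n) a)) = y := by
      funext a
      simp
    rw [e] at h1
    rw [← h1]
    exact_mod_cast hp _
  obtain ⟨C, hC⟩ := CStarAlgebra.nonneg_iff_eq_star_mul_self.mp hps.nonneg
  rw [Matrix.star_eq_conjTranspose] at hC
  have h2 : ∀ v : Cn n, lev w x v = ∑ i, ‖∑ a, C i a * conj (v a)‖ ^ 2 := by
    intro v
    have h3 := quad_Um hw v
    rw [hC, ← Matrix.mulVec_mulVec, Matrix.dotProduct_mulVec, ← Matrix.star_mulVec] at h3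
    have h4 : ((lev w x v : ℝ) : ℂ) = ((∑ i, ‖∑ a, C i a * conj (v a)‖ ^ 2 : ℝ) : ℂ) := by
      rw [h3]
      simp only [dotProduct, Matrix.mulVec, Pi.star_apply, RCLike.star_def]
      push_cast
      refine Finset.sum_congr rfl fun i _ => ?_
      rw [mul_comm, Complex.mul_conj']
    exact_mod_cast h4
  have h5 : ∀ c, lev w x (ee c) = ∑ i, ‖C i c‖ ^ 2 := by
    intro c
    rw [h2]
    refine Finset.sum_congr rfl fun i _ => ?_
    congr 2
    simp [ee]
  rw [h2 η]
  simp only [h5]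
  rw [Finset.sum_comm, Finset.sum_mul]
  refine Finset.sum_le_sum fun i _ => ?_
  calc ‖∑ a, C i a * conj (η a)‖ ^ 2 ≤ (∑ a, ‖C i a‖ * ‖η a‖) ^ 2 := by
        have h6 : ‖∑ a, C i a * conj (η a)‖ ≤ ∑ a, ‖C i a‖ * ‖η a‖ := by
          refine (norm_sum_le _ _).trans (le_of_eq ?_)
          exact Finset.sum_congr rfl fun a _ => by rw [norm_mul, RCLike.norm_conj]
        gcongr
    _ ≤ _ := Finset.sum_mul_sq_le_sq_mul_sq _ _ _

/-- determinant bound in adapted coordinates -/
theorem lev_le_det_one {c κ : ℝ} (hu : ContDiffAt ℝ 2 u x) (hc : 0 < c)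
    (hl : ∀ η, c * ∑ b, ‖η b‖ ^ 2 ≤ lev u x η) (hd : (Um u x).det = (κ : ℂ)) (η : Cn n) :
    lev u x η ≤ κ / c ^ (n - 1) * ∑ b, ‖η b‖ ^ 2 := by
  have hH := Um_herm hu
  -- quadratic form in terms of `y = conj η`
  have hq : ∀ y : Fin n → ℂ, ((lev u x (WithLp.toLp 2 fun a => conj (y a)) : ℝ) : ℂ) =
      star y ⬝ᵥ (Um u x *ᵥ y) := by
    intro y
    have h1 := quad_Um hu (WithLp.toLp 2 fun a => conj (y a))
    have e : (fun a => conj ((WithLp.toLp 2 fun a => conj (y a) : Cn n) a)) = y := by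
      funext a
      simp
    rwa [e] at h1
  have hev : ∀ i, c ≤ hH.eigenvalues i := by
    intro i
    rw [hH.eigenvalues_eq i]
    set y : Fin n → ℂ := ⇑(hH.eigenvectorBasis i) with hy
    have h1 := hq y
    rw [← h1]
    have h2 := hl (WithLp.toLp 2 fun a => conj (y a))
    have h3 : ∑ b, ‖(WithLp.toLp 2 fun a => conj (y a) : Cn n) b‖ ^ 2 = 1 := by
      have h4 : ‖hH.eigenvectorBasis i‖ = 1 := hH.eigenvectorBasis.orthonormal.1 i
      have h5 := EuclideanSpace.norm_sq_eq (hH.eigenvectorBasis i)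
      rw [h4] at h5
      simp only [RCLike.norm_conj]
      rw [← hy] at h5
      rw [← h5]; norm_num
    rw [h3, mul_one] at h2
    exact h2
  have hprod : (∏ i, hH.eigenvalues i) = κ := by
    have h1 := hH.det_eq_prod_eigenvalues
    rw [hd] at h1
    have h2 : ((κ : ℝ) : ℂ) = ((∏ i, hH.eigenvalues i : ℝ) : ℂ) := by
      rw [h1]; push_cast; rfl
    exact_mod_cast h2.symm
  have hup : ∀ i, hH.eigenvalues i ≤ κ / c ^ (n - 1) := by
    intro i
    rw [le_div_iff₀ (by positivity), ← hprod, ← Finset.mul_prod_erase Finset.univ _ (Finset.mem_univ i)]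
    have h0 : 0 ≤ hH.eigenvalues i := hc.le.trans (hev i)
    refine mul_le_mul_of_nonneg_left ?_ h0
    have hcard : (Finset.univ.erase i).card = n - 1 := by simp
    calc c ^ (n - 1) = ∏ _j ∈ Finset.univ.erase i, c := by rw [Finset.prod_const, hcard]
      _ ≤ ∏ j ∈ Finset.univ.erase i, hH.eigenvalues j :=
        Finset.prod_le_prod (fun _ _ => hc.le) fun j _ => hev j
  -- `(κ / c^(n-1)) - U` is positive semidefinite
  set m : ℝ := κ / c ^ (n - 1) with hm
  have hps : (((m : ℝ) : ℂ) • (1 : Matrix (Fin n) (Fin n) ℂ) - Um u x).PosSemidef := by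
    have hs := hH.spectral_theorem
    set P := hH.eigenvectorUnitary
    have h4 : (P : Matrix (Fin n) (Fin n) ℂ) * star (P : Matrix (Fin n) (Fin n) ℂ) = 1 :=
      Unitary.coe_mul_star_self P
    have h2 : ((m : ℝ) : ℂ) • (1 : Matrix (Fin n) (Fin n) ℂ) - Um u x =
        (P : Matrix (Fin n) (Fin n) ℂ) *
        (Matrix.diagonal fun i => (((m - hH.eigenvalues i : ℝ)) : ℂ)) *
          star (P : Matrix (Fin n) (Fin n) ℂ) := by
      have h3 : (Matrix.diagonal fun i => (((m - hH.eigenvalues i : ℝ)) : ℂ)) =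
          ((m : ℝ) : ℂ) • (1 : Matrix (Fin n) (Fin n) ℂ) -
            Matrix.diagonal (RCLike.ofReal ∘ hH.eigenvalues) := by
        rw [← Matrix.diagonal_one, ← Matrix.diagonal_smul, Matrix.diagonal_sub]
        congr 1
        funext i
        simp
      rw [h3, Matrix.mul_sub, Matrix.sub_mul, Matrix.mul_smul, Matrix.mul_one, Matrix.smul_mul, h4]
      congr 1
    rw [h2]
    have h5 : (Matrix.diagonal fun i => (((m - hH.eigenvalues i : ℝ)) : ℂ)).PosSemidef :=
      Matrix.PosSemidef.diagonal fun i => by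
        have := hup i
        have h6 : 0 ≤ m - hH.eigenvalues i := by linarith
        show (0 : ℂ) ≤ _
        exact_mod_cast h6
    have := h5.mul_mul_conjTranspose_same (P : Matrix (Fin n) (Fin n) ℂ)
    exact this
  have h6 := hps.dotProduct_mulVec_nonneg (fun a => conj (η a))
  rw [Matrix.sub_mulVec, dotProduct_sub, ← quad_Um hu η] at h6
  have h7 : star (fun a => conj (η a)) ⬝ᵥ ((((m : ℝ) : ℂ) • (1 : Matrix (Fin n) (Fin n) ℂ)) *ᵥ
      fun a => conj (η a)) = ((m * ∑ b, ‖η b‖ ^ 2 : ℝ) : ℂ) := by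
    rw [Matrix.smul_mulVec, Matrix.one_mulVec, dotProduct_smul]
    simp only [dotProduct, Pi.star_apply, RCLike.star_def, Complex.conj_conj, smul_eq_mul]
    push_cast
    congr 1
    exact Finset.sum_congr rfl fun b _ => by rw [Complex.mul_conj']
  rw [h7] at h6
  have h8 : 0 ≤ m * ∑ b, ‖η b‖ ^ 2 - lev u x η := by exact_mod_cast h6
  linarith

theorem ml_inv {E : Matrix (Fin n) (Fin n) ℂ} (hE : E.det ≠ 0) (v : Cn n) :
    ml E (ml E⁻¹ v) = v := by
  rw [ml_mul, Matrix.mul_nonsing_inv _ (isUnit_iff_ne_zero.2 hE), ml_one]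

theorem lev_nn_zero (h : ∀ v : Cn n, v ≠ 0 → 0 < lev w x v) (v : Cn n) :
    0 ≤ lev w x v := by
  rcases eq_or_ne v 0 with h0 | h0
  · rw [h0, lev_zero]
  · exact (h v h0).le

/-- `w ≤ τ u`, `det u = κ det w` imply `u ≤ κ τ^(n-1) w` -/
theorem lev_le_of_det {τ κ : ℝ} (hu : ContDiffAt ℝ ∞ u x) (hw : ContDiffAt ℝ ∞ w x)
    (hwp : (Um w x).PosDef) (hτ : 0 < τ) (hle : ∀ v, lev w x v ≤ τ * lev u x v)
    (hd : (Um u x).det = (κ : ℂ) * (Um w x).det) (v : Cn n) :
    lev u x v ≤ κ * τ ^ (n - 1) * lev w x v := by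
  obtain ⟨E, hE, hE1⟩ := exists_norm hwp
  have hu0 : ContDiffAt ℝ 2 u (TT x E 0) := by rw [TT_zero]; exact sm2 hu
  have hw0 : ContDiffAt ℝ 2 w (TT x E 0) := by rw [TT_zero]; exact sm2 hw
  have h1 : Um (fun y => w (TT x E y)) 0 = 1 := by rw [Um_lin hw0, TT_zero, hE1]
  have h2 := det_lin hu0
  have h3 := det_lin hw0
  rw [h1, Matrix.det_one, TT_zero] at h3
  rw [TT_zero, hd, ← mul_assoc, mul_comm _ (κ : ℂ), mul_assoc, ← h3, mul_one] at h2
  have h4 := lev_le_det_one (c := τ⁻¹) (sm2 (sm_comp_TT hu E)) (inv_pos.2 hτ) (fun η => by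
    rw [lev_lin (sm2 hu), ← lev_one (sm_comp_TT hw E) h1 η, lev_lin (sm2 hw)]
    rw [inv_mul_le_iff₀ hτ]
    exact hle _) h2 (ml E⁻¹ v)
  rw [lev_lin (sm2 hu), ← lev_one (sm_comp_TT hw E) h1, lev_lin (sm2 hw), ml_inv hE] at h4
  refine h4.trans (le_of_eq ?_)
  rw [inv_pow]
  field_simp

/-- **the inequality for the new metric, in an adapted basis** -/
theorem new_metric (hu : ContDiffAt ℝ ∞ u x) (hp : (Um u x).PosDef) {V : Cn n → Cn n}
    (hV : ∀ᶠ z in 𝓝 x, DifferentiableAt ℂ V z) (h0 : V x ≠ 0) :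
    ∃ e : Fin n → Cn n,
      (lev (ld u) x (V x) / lev u x (V x) ≤
        ∑ c, lev (fun z => Real.log (QV u V z)) x (e c)) ∧
      (∀ c, lev u x (e c) = 1) ∧
      (∀ w : Cn n → ℝ, ContDiffAt ℝ ∞ w x → (∀ v, 0 ≤ lev w x v) → ∀ v,
        lev w x v ≤ (∑ c, lev w x (e c)) * lev u x v) := by
  obtain ⟨E, hE, hE1⟩ := exists_norm hp
  have hu0 : ContDiffAt ℝ 2 u (TT x E 0) := by rw [TT_zero]; exact sm2 hu
  have h1 : Um (fun y => u (TT x E y)) 0 = 1 := by rw [Um_lin hu0, TT_zero, hE1]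
  have hus := sm_comp_TT hu E
  have hone : ∀ η, lev u x (ml E η) = ∑ b, ‖η b‖ ^ 2 := fun η => by
    rw [← lev_lin (sm2 hu), lev_one hus h1]
  have hTc : Tendsto (TT x E) (𝓝 0) (𝓝 x) := by
    have := (sm_TT x E).continuous.tendsto 0
    rwa [TT_zero] at this
  refine ⟨fun c => ml E (ee c), ?_, fun c => ?_, fun w hw hw0 v => ?_⟩
  · set W : Cn n → Cn n := fun y => ml E⁻¹ (V (TT x E y)) with hW
    have hWd : ∀ᶠ y in 𝓝 0, DifferentiableAt ℂ W y := by
      filter_upwards [hTc.eventually hV] with y hy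
      have h2 : DifferentiableAt ℂ (fun y => V (TT x E y)) y :=
        hy.comp y (anal_TT x E y).differentiableAt
      exact (ml E⁻¹).differentiableAt.comp y h2
    have hW0 : ml E (W 0) = V x := by rw [hW]; simp only [TT_zero]; exact ml_inv hE _
    have hWne : W 0 ≠ 0 := by
      intro h
      rw [h, map_zero] at hW0
      exact h0 hW0.symm
    have key := log_quad_lower hus h1 hWd hWne
    have hQe : QV (fun y => u (TT x E y)) W =ᶠ[𝓝 0] fun y => QV u V (TT x E y) := by
      filter_upwards [hTc.eventually (ev_sm2 hu)] with y hy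
      unfold QV
      rw [lev_comp (u := u) (T := TT x E) (anal_TT x E y) hy, fderiv_TT]
      simp only [hW]
      rw [ml_inv hE]
    have hQ0 : 0 < QV u V x := by
      unfold QV
      rw [← hW0, hone]
      have : ∃ b, W 0 b ≠ 0 := by
        by_contra hc
        push Not at hc
        exact hWne (by ext b; simpa using hc b)
      obtain ⟨b, hb⟩ := this
      exact Finset.sum_pos' (fun _ _ => by positivity) ⟨b, Finset.mem_univ b, by positivity⟩
    have hQc : ContDiffAt ℝ 2 (fun z => Real.log (QV u V z)) x := (c2_QV hu hV).log hQ0.ne'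
    have hlog : ∀ η, lev (fun z => Real.log (QV (fun y => u (TT x E y)) W z)) 0 η =
        lev (fun z => Real.log (QV u V z)) x (ml E η) := by
      intro η
      have e1 : (fun z => Real.log (QV (fun y => u (TT x E y)) W z)) =ᶠ[𝓝 0]
          fun y => (fun z => Real.log (QV u V z)) (TT x E y) := by
        filter_upwards [hQe] with y hy
        rw [hy]
      rw [lev_congr e1]
      exact lev_lin hQc E η
    have hdp : 0 < (Um u x).det.re := (Complex.pos_iff.1 hp.det_pos).1
    have hdc : ContinuousAt (fun z => (Um u z).det.re) x :=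
      (Complex.reCLM.contDiff.contDiffAt.comp x (cd_det (sm_Um hu))).continuousAt
    have hld : ∀ η, lev (ld fun y => u (TT x E y)) 0 η = lev (ld u) x (ml E η) := by
      intro η
      have e1 : (ld fun y => u (TT x E y)) =ᶠ[𝓝 0]
          fun y => (fun z => Real.log (‖E.det‖ ^ 2) + ld u z) (TT x E y) := by
        filter_upwards [hTc.eventually (ev_sm2 hu),
          hTc.eventually (hdc.eventually (lt_mem_nhds hdp))] with y hy hy2
        unfold ld
        rw [det_lin hy, Complex.re_ofReal_mul]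
        have h5 : ‖E.det‖ ^ 2 ≠ 0 := by
          have := norm_ne_zero_iff.2 hE
          positivity
        exact Real.log_mul h5 hy2.ne'
      have e2 : ContDiffAt ℝ 2 (ld u) x := sm2 (sm_ld hu hdp.ne')
      rw [lev_congr e1, lev_lin (contDiffAt_const.add e2),
        lev_add (u := fun _ => Real.log (‖E.det‖ ^ 2)) contDiffAt_const e2, lev_const, zero_add]
    simp only [hlog] at key
    rw [hld, hW0] at key
    have e3 : lev (fun y => u (TT x E y)) 0 (W 0) = lev u x (V x) := by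
      rw [lev_lin (sm2 hu), hW0]
    rw [e3] at key
    exact key
  · rw [hone]
    simp [ee, apply_ite, ite_pow]
  · have h2 := lev_le_trace (sm2 (sm_comp_TT hw E)) (fun v => by
      rw [lev_lin (sm2 hw)]; exact hw0 _) (ml E⁻¹ v)
    simp only [lev_lin (sm2 hw)] at h2
    rw [← hone, ml_inv hE] at h2
    exact h2

end

end Crest.Agent.R273.C2d_793
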