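import Crest.Agent.R273.C2d_289

/-!
# R273 / R257 (helper289): Chern-Lu inequality at a maximum point, general form

`cl` : `det ∂∂̄u = C e^f`; if `log ∂∂̄a(v,v) - log ∂∂̄u(v,v) + h` is maximal at `(z₀, v₀)` and the
curvature of `∂∂̄a` at `(z₀, v₀)` is bounded from above by `B`, then
`- B tr(X⁻¹ ∂∂̄a) + tr(X⁻¹ ∂∂̄h) ≤ ∂∂̄f(v₀,v₀) / X(v₀,v₀)`, `X = ∂∂̄u(z₀)`.
`lev_div_le_trace` : `∂∂̄a(v,v) / X(v,v) ≤ tr(X⁻¹ ∂∂̄a)`; `trace_le_mul` : `tr(X⁻¹ G) ≤ n max`.
-/

set_option autoImplicit false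
set_option linter.unusedSectionVars false

open Set Filter Topology Complex Matrix
open scoped ContDiff Matrix ComplexConjugate ComplexOrder

namespace Crest.Agent.R273.C2e_289

open Crest.Agent.R275.Geo Crest.Agent.R275.EDR890
open Crest.Agent.R273.Defs_333 Crest.Agent.R273.Hess_333 Crest.Agent.R273.HessB_333
open Crest.Agent.R273.C2a_289 Crest.Agent.R273.C2b_289 Crest.Agent.R273.C2c_289
open Crest.Agent.R273.C2d_289
open Crest.Agent.R273.GreenM_5 (trace_inv_mul_nonneg)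
open Crest.Agent.R273.YauMax_635 (lev_nonneg_of_localMin)
open Crest.Agent.R273.YauCh_635 (lev_zero)
open Crest.Agent.R273.Calc_243 (SmM SmM.det)

noncomputable section

variable {n : ℕ}

theorem hess_const (c : ℝ) (z : Cn n) : hess (fun _ => c) z = 0 := by
  ext a b
  have h1 : wd (true, b) (cu fun _ : Cn n => c) = fun _ => 0 := by
    funext w
    exact wd_const _ _ _
  rw [hess_apply, h1, wd_const, Matrix.zero_apply]

/-- an affine field -/
def fl (z₀ v₀ : Cn n) (p : Fin n → Fin n → ℂ) (z : Cn n) : Cn n := WithLp.toLp 2 (fld z₀ v₀ p z)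

theorem fl_self (z₀ v₀ : Cn n) (p : Fin n → Fin n → ℂ) : fl z₀ v₀ p z₀ = v₀ := by
  unfold fl
  rw [fld_self]

theorem fl_apply (z₀ v₀ : Cn n) (p : Fin n → Fin n → ℂ) (z : Cn n) (a : Fin n) :
    fl z₀ v₀ p z a = v₀ a + ∑ k, (z k - z₀ k) * p k a := rfl

theorem lev_rho {u : Cn n → ℝ} {z : Cn n} (hu : ContDiffAt ℝ ∞ u z) (z₀ v₀ : Cn n)
    (p : Fin n → Fin n → ℂ) : lev u z (fl z₀ v₀ p z) = 4 * rho u z₀ v₀ p z := lev_bf hu _

theorem lev_div_le_trace {u a : Cn n → ℝ} {z : Cn n} (hu : ContDiffAt ℝ ∞ u z)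
    (ha : ContDiffAt ℝ ∞ a z) (hX : (hess u z).PosDef) (hG : (hess a z).PosSemidef) {v : Cn n}
    (hv : v ≠ 0) : lev a z v / lev u z v ≤ ((hess u z)⁻¹ * hess a z).trace.re := by
  have hv' : (fun b => v b) ≠ 0 := fun h => hv (by ext a; exact congrFun h a)
  have h1 := bf_le_trace hX hG hv'
  have hx0 : 0 < (bf (hess u z) (fun b => v b) (fun b => v b)).re :=
    (Complex.pos_iff.1 (bf_pos hX hv')).1
  have hE0 := trace_inv_mul_nonneg hX hG
  have hEr : ((((hess u z)⁻¹ * hess a z).trace.re : ℝ) : ℂ) = ((hess u z)⁻¹ * hess a z).trace := by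
    have := (Complex.nonneg_iff.1 hE0).2
    exact Complex.ext rfl (by simpa using this)
  have h2 := (Complex.le_def.1 h1).1
  rw [← hEr, Complex.re_ofReal_mul] at h2
  rw [lev_bf hu, lev_bf ha, div_le_iff₀ (by positivity)]
  linarith

theorem cl {u a f h : Cn n → ℝ} {U : Set (Cn n)} (hU : IsOpen U)
    (hu : ContDiffOn ℝ ∞ u U) (ha : ContDiffOn ℝ ∞ a U) (hf : ContDiffOn ℝ ∞ f U)
    (hh : ContDiffOn ℝ ∞ h U) (hX : ∀ z ∈ U, (hess u z).PosDef)
    (hG : ∀ z ∈ U, (hess a z).PosDef) {C : ℝ} (hC : 0 < C)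
    (hMA : ∀ z ∈ U, (hess u z).det = ((C * Real.exp (f z) : ℝ) : ℂ))
    {z₀ : Cn n} (hz : z₀ ∈ U) {v₀ : Cn n} (hv : v₀ ≠ 0) {B : ℝ}
    (hmax : ∀ᶠ z in 𝓝 z₀, ∀ v : Cn n, v ≠ 0 →
      Real.log (lev a z v) - Real.log (lev u z v) + h z ≤
      Real.log (lev a z₀ v₀) - Real.log (lev u z₀ v₀) + h z₀)
    (hB : ∀ p ξ, - (B * lev a z₀ ξ) ≤ lev (fun z => Real.log (lev a z (fl z₀ v₀ p z))) z₀ ξ) :
    - B * ((hess u z₀)⁻¹ * hess a z₀).trace.re + ((hess u z₀)⁻¹ * hess h z₀).trace.re ≤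
      lev f z₀ v₀ / lev u z₀ v₀ := by
  have huc : ∀ z ∈ U, ContDiffAt ℝ ∞ u z := fun z hz => hu.contDiffAt (hU.mem_nhds hz)
  have hac : ∀ z ∈ U, ContDiffAt ℝ ∞ a z := fun z hz => ha.contDiffAt (hU.mem_nhds hz)
  have hfc : ContDiffAt ℝ ∞ f z₀ := hf.contDiffAt (hU.mem_nhds hz)
  have hhc : ContDiffAt ℝ ∞ h z₀ := hh.contDiffAt (hU.mem_nhds hz)
  set v : Fin n → ℂ := fun b => v₀ b with hvdef
  have hv' : v ≠ 0 := fun h => hv (by ext a; exact congrFun h a)
  have hX0 := hX z₀ hz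
  have hXd : (hess u z₀).det ≠ 0 := hX0.det_pos.ne'
  set T := (hess u z₀)⁻¹ with hT
  set p : Fin n → Fin n → ℂ := fun k => -(v ᵥ* (wM (false, k) (hess u) z₀ * T)) with hp
  set x := bf (hess u z₀) v v with hx
  have hxr : ((x.re : ℝ) : ℂ) = x := bf_real hX0.1 v
  have hx0 : 0 < x.re := (Complex.pos_iff.1 (bf_pos hX0 hv')).1
  have s1 := rho_sm (p := p) (v₀ := v₀) hU hu hz
  have s2 := rho_sm (p := p) (v₀ := v₀) hU ha hz
  have r1 := rho_pos (p := p) hX0 hv
  have r2 := rho_pos (p := p) (hG z₀ hz) hv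
  have l1 : ContDiffAt ℝ ∞ (fun y => Real.log (rho u z₀ v₀ p y)) z₀ := s1.log r1.ne'
  have l2 : ContDiffAt ℝ ∞ (fun y => Real.log (rho a z₀ v₀ p y)) z₀ := s2.log r2.ne'
  set Ψ : Cn n → ℝ := fun y => (Real.log (rho u z₀ v₀ p y) - Real.log (rho a z₀ v₀ p y)) - h y
    with hΨ
  have hΨs : ContDiffAt ℝ ∞ Ψ z₀ := (l1.sub l2).sub hhc
  have q1 : ∀ᶠ y in 𝓝 z₀, 0 < rho u z₀ v₀ p y := s1.continuousAt.eventually (lt_mem_nhds r1)
  have q2 : ∀ᶠ y in 𝓝 z₀, 0 < rho a z₀ v₀ p y := s2.continuousAt.eventually (lt_mem_nhds r2)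
  have g1 : ∀ᶠ y in 𝓝 z₀, Real.log (lev u y (fl z₀ v₀ p y)) =
      Real.log 4 + Real.log (rho u z₀ v₀ p y) := by
    filter_upwards [q1, hU.mem_nhds hz] with y hy hyU
    rw [lev_rho (huc y hyU), Real.log_mul four_ne_zero hy.ne']
  have g2 : ∀ᶠ y in 𝓝 z₀, Real.log (lev a y (fl z₀ v₀ p y)) =
      Real.log 4 + Real.log (rho a z₀ v₀ p y) := by
    filter_upwards [q2, hU.mem_nhds hz] with y hy hyU
    rw [lev_rho (hac y hyU), Real.log_mul four_ne_zero hy.ne']
  have hmin : IsLocalMin Ψ z₀ := by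
    have hne : ∀ᶠ y in 𝓝 z₀, fl z₀ v₀ p y ≠ 0 := by
      have hcont : Continuous (fun y => fld z₀ v₀ p y) :=
        continuous_pi fun a => (fld_smooth a).continuous
      have h1 : ∀ᶠ y in 𝓝 z₀, fld z₀ v₀ p y ≠ 0 := by
        refine hcont.continuousAt.eventually_ne ?_
        rw [fld_self]
        exact hv'
      filter_upwards [h1] with y hy h0
      apply hy
      funext b
      exact congrArg (fun w : Cn n => w b) h0
    have e1 := g1.self_of_nhds
    have e2 := g2.self_of_nhds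
    rw [fl_self] at e1 e2
    filter_upwards [hne, hmax, g1, g2] with y hy hm hy1 hy2
    have h1 := hm _ hy
    rw [hy1, hy2, e1, e2] at h1
    have h2 : Ψ z₀ = Real.log (rho u z₀ v₀ p z₀) - Real.log (rho a z₀ v₀ p z₀) - h z₀ := rfl
    have h3 : Ψ y = Real.log (rho u z₀ v₀ p y) - Real.log (rho a z₀ v₀ p y) - h y := rfl
    rw [h2, h3]
    linarith
  have hpsd : (hess Ψ z₀).PosSemidef :=
    posSemidef_hess hΨs (lev_nonneg_of_localMin (hΨs.of_le (WithTop.coe_le_coe.2 le_top)) hmin)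
  have hHΨ : hess Ψ z₀ = hess (fun y => Real.log (rho u z₀ v₀ p y)) z₀ -
      hess (fun y => Real.log (rho a z₀ v₀ p y)) z₀ - hess h z₀ := by
    rw [hΨ, hess_sub (l1.sub l2) hhc, hess_sub l1 l2]
  have htr := trace_inv_mul_nonneg hX0 hpsd
  rw [← hT, hHΨ, Matrix.mul_sub, Matrix.mul_sub, Matrix.trace_sub, Matrix.trace_sub] at htr
  -- the `u` part
  have t1 : (T * hess (fun y => Real.log (rho u z₀ v₀ p y)) z₀).trace =
      bf (hess (fun y => Real.log (hess u y).det.re) z₀) v v / x := by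
    rw [trace_eq2, kahler_sum hU hu hX hz v, Finset.sum_div]
    refine Finset.sum_congr rfl fun k _ => ?_
    rw [Finset.sum_div]
    refine Finset.sum_congr rfl fun l _ => ?_
    rw [hess_log_rho hU hu hz hX0 hv]
    have n1 := normal_eq1 hXd (wM (false, k) (hess u) z₀) v
    have n2 := normal_eq hXd (wM (false, k) (wM (true, l) (hess u)) z₀)
      (wM (false, k) (hess u) z₀) (wM (true, l) (hess u) z₀) v (p l)
    rw [← hT] at n1 n2 ⊢
    have hpk : p k = -(v ᵥ* (wM (false, k) (hess u) z₀ * T)) := rfl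
    rw [← hpk] at n1 n2
    rw [n1, n2]
    ring
  have t1' : hess (fun y => Real.log (hess u y).det.re) z₀ = hess f z₀ := by
    have e1 : (fun y => Real.log (hess u y).det.re) =ᶠ[𝓝 z₀] fun y => Real.log C + f y := by
      filter_upwards [hU.mem_nhds hz] with y hy
      rw [hMA y hy, Complex.ofReal_re, Real.log_mul hC.ne' (Real.exp_pos _).ne', Real.log_exp]
    rw [hess_congr e1, hess_add contDiffAt_const hfc, hess_const, zero_add]
  -- the `a` part
  have t2 : - B * (T * hess a z₀).trace.re ≤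
      (T * hess (fun y => Real.log (rho a z₀ v₀ p y)) z₀).trace.re := by
    have c0 : ContDiffAt ℝ ∞ (fun y => Real.log (rho a z₀ v₀ p y) + B * a y) z₀ :=
      l2.add (contDiffAt_const.mul (hac z₀ hz))
    have c1 : (hess (fun y => Real.log (rho a z₀ v₀ p y) + B * a y) z₀).PosSemidef := by
      refine posSemidef_hess c0 fun ξ => ?_
      have e0 := hB p ξ
      have c2 : ContDiffAt ℝ ∞ (fun z => Real.log (lev a z (fl z₀ v₀ p z))) z₀ :=
        (contDiffAt_const.add l2).congr_of_eventuallyEq g2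
      have e1 : hess (fun z => Real.log (lev a z (fl z₀ v₀ p z))) z₀ =
          hess (fun y => Real.log (rho a z₀ v₀ p y)) z₀ := by
        rw [hess_congr g2, hess_add contDiffAt_const l2, hess_const, zero_add]
      rw [lev_bf c2, e1, lev_bf (hac z₀ hz)] at e0
      rw [lev_bf c0, hess_add l2 (contDiffAt_const.mul (hac z₀ hz)),
        hess_const_mul B (hac z₀ hz), bf_add, bf_smul, Complex.add_re, Complex.re_ofReal_mul]
      linarith
    have c3 := trace_inv_mul_nonneg hX0 c1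
    rw [← hT, hess_add l2 (contDiffAt_const.mul (hac z₀ hz)), hess_const_mul B (hac z₀ hz),
      Matrix.mul_add, Matrix.mul_smul, Matrix.trace_add, Matrix.trace_smul, smul_eq_mul] at c3
    have c4 := (Complex.le_def.1 c3).1
    rw [Complex.zero_re, Complex.add_re, Complex.re_ofReal_mul] at c4
    linarith
  have hfin := (Complex.le_def.1 htr).1
  rw [t1, t1', Complex.zero_re, Complex.sub_re, Complex.sub_re, ← hxr, Complex.div_ofReal_re]
    at hfin
  have hquot : lev f z₀ v₀ / lev u z₀ v₀ = (bf (hess f z₀) v v).re / x.re := by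
    rw [lev_bf hfc, lev_bf (huc z₀ hz)]
    change 4 * (bf (hess f z₀) v v).re / (4 * x.re) = _
    field_simp
  rw [hquot]
  linarith

/-- `tr(X⁻¹ G) ≤ n λ` if `G ≤ λ X` -/
theorem trace_le_mul {X G : Matrix (Fin n) (Fin n) ℂ} (hX : X.PosDef) {l : ℝ}
    (h : (((l : ℝ) : ℂ) • X - G).PosSemidef) : (X⁻¹ * G).trace.re ≤ n * l := by
  have h1 := trace_inv_mul_nonneg hX h
  have hXi : X⁻¹ * X = 1 := Matrix.nonsing_inv_mul _ (isUnit_iff_ne_zero.2 hX.det_pos.ne')
  rw [Matrix.mul_sub, Matrix.mul_smul, hXi, Matrix.trace_sub, Matrix.trace_smul,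
    Matrix.trace_one, Fintype.card_fin, smul_eq_mul] at h1
  have h2 := (Complex.le_def.1 h1).1
  rw [Complex.zero_re, Complex.sub_re, Complex.re_ofReal_mul, Complex.natCast_re] at h2
  linarith

end

end Crest.Agent.R273.C2e_289
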