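import Crest.Agent.R273.Vol_333
import Crest.Agent.R273.StV_37

/-!
# R273 (S0416), leaf VOLINV, part 1 (helper5): Jacobi formula and Piola identity in a chart

* `hasFDerivAt_det`, `wd_det` : derivative of a determinant of complex valued functions
* `piola` : `∑_a ∂_a adj(m)_{ba} = 0` for a matrix field with `∂_c m_{ab} = ∂_a m_{cb}`
-/

set_option autoImplicit false
set_option linter.unusedSectionVars false

open Set Filter Topology Complex
open scoped ContDiff Matrix ComplexConjugate

namespace Crest.Agent.R273.Piola_5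

open Crest.Agent.R275.Geo Crest.Agent.R275.EDR890

noncomputable section

section det

variable {n : ℕ} {V : Type*} [NormedAddCommGroup V] [NormedSpace ℝ V]

theorem sum_adj_row {R : Type*} [CommRing R] (A : Matrix (Fin n) (Fin n) R) (i : Fin n)
    (b : Fin n → R) : (A.updateRow i b).det = ∑ j, A.adjugate j i * b j := by
  have h1 := Matrix.cramer_eq_adjugate_mulVec Aᵀ b
  have h2 := Matrix.cramer_apply Aᵀ b i
  rw [h1, Matrix.updateCol_transpose, Matrix.det_transpose] at h2
  rw [← h2]
  simp only [Matrix.mulVec, dotProduct]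
  refine Finset.sum_congr rfl fun j _ => ?_
  rw [← Matrix.adjugate_transpose]
  rfl

theorem sum_adj_col {R : Type*} [CommRing R] (A : Matrix (Fin n) (Fin n) R) (i : Fin n)
    (b : Fin n → R) : (A.updateCol i b).det = ∑ j, A.adjugate i j * b j := by
  rw [← Matrix.cramer_apply, Matrix.cramer_eq_adjugate_mulVec]
  rfl

/-- Jacobi's formula -/
theorem hasFDerivAt_det {A : V → Matrix (Fin n) (Fin n) ℂ} {A' : Fin n → Fin n → V →L[ℝ] ℂ} {x : V}
    (hA : ∀ i j, HasFDerivAt (fun y => A y i j) (A' i j) x) :
    HasFDerivAt (fun y => (A y).det) (∑ i, ∑ j, (A x).adjugate i j • A' j i) x := by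
  have h1 : ∀ y, (A y).det =
      ∑ σ : Equiv.Perm (Fin n), ((Equiv.Perm.sign σ : ℤ) : ℂ) * ∏ i, A y (σ i) i := by
    intro y; rw [Matrix.det_apply']
  simp_rw [h1]
  have h2 : HasFDerivAt (fun y => ∑ σ : Equiv.Perm (Fin n),
      ((Equiv.Perm.sign σ : ℤ) : ℂ) * ∏ i, A y (σ i) i)
      (∑ σ : Equiv.Perm (Fin n), ((Equiv.Perm.sign σ : ℤ) : ℂ) •
        ∑ i, (∏ j ∈ Finset.univ.erase i, A x (σ j) j) • A' (σ i) i) x := by
    refine HasFDerivAt.fun_sum fun σ _ => ?_
    exact (HasFDerivAt.finsetProd (fun i _ => hA (σ i) i)).const_mul _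
  refine h2.congr_fderiv ?_
  ext v
  simp only [_root_.sum_apply, _root_.smul_apply, smul_eq_mul]
  simp_rw [← sum_adj_col (A x) _ (fun j => A' j _ v), Matrix.det_apply']
  rw [Finset.sum_comm]
  refine Finset.sum_congr rfl fun σ _ => ?_
  rw [Finset.mul_sum]
  refine Finset.sum_congr rfl fun i _ => ?_
  congr 1
  rw [← Finset.mul_prod_erase Finset.univ _ (Finset.mem_univ i)]
  simp only [Matrix.updateCol_self]
  rw [mul_comm]
  congr 1
  refine Finset.prod_congr rfl fun j hj => ?_
  rw [Matrix.updateCol_ne (Finset.ne_of_mem_erase hj)]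

theorem differentiableAt_det {A : V → Matrix (Fin n) (Fin n) ℂ} {x : V}
    (hA : ∀ i j, DifferentiableAt ℝ (fun y => A y i j) x) :
    DifferentiableAt ℝ (fun y => (A y).det) x :=
  (hasFDerivAt_det fun i j => (hA i j).hasFDerivAt).differentiableAt

end det

section chart

variable {n : ℕ}

theorem wd_det {m : Cn n → Matrix (Fin n) (Fin n) ℂ} {z : Cn n}
    (hm : ∀ i j, DifferentiableAt ℝ (fun y => m y i j) z) (s : WI n) :
    wd s (fun y => (m y).det) z =
      ∑ i, ∑ j, (m z).adjugate i j * wd s (fun y => m y j i) z := by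
  have h := (hasFDerivAt_det fun i j => (hm i j).hasFDerivAt).fderiv
  rw [wd, h, ← wdLc_apply, map_sum]
  refine Finset.sum_congr rfl fun i _ => ?_
  rw [map_sum]
  refine Finset.sum_congr rfl fun j _ => ?_
  rw [wdLc_apply, wdL_smul]
  rfl

/-- derivative of a determinant, by rows -/
theorem wd_det_row {m : Cn n → Matrix (Fin n) (Fin n) ℂ} {z : Cn n}
    (hm : ∀ i j, DifferentiableAt ℝ (fun y => m y i j) z) (s : WI n) :
    wd s (fun y => (m y).det) z =
      ∑ i, ((m z).updateRow i fun j => wd s (fun y => m y i j) z).det := by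
  rw [wd_det hm s, Finset.sum_comm]
  refine Finset.sum_congr rfl fun i _ => ?_
  rw [sum_adj_row]

/-- Piola identity -/
theorem piola {m : Cn n → Matrix (Fin n) (Fin n) ℂ} {z : Cn n}
    (hm : ∀ i j, DifferentiableAt ℝ (fun y => m y i j) z)
    (hc : ∀ a b c, wd (false, c) (fun w => m w a b) z = wd (false, a) (fun w => m w c b) z)
    (b : Fin n) :
    ∑ a, wd (false, a) (fun w => (m w).adjugate b a) z = 0 := by
  classical
  set D : Fin n → Fin n → ℂ := fun a i =>
    (((m z).updateRow a (Pi.single b 1)).updateRow i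
      fun j => wd (false, a) (fun y => m y i j) z).det with hD
  -- derivative of one cofactor
  have h1 : ∀ a, wd (false, a) (fun w => (m w).adjugate b a) z =
      ∑ i ∈ Finset.univ.erase a, D a i := by
    intro a
    have e1 : (fun w => (m w).adjugate b a) =
        fun w => ((m w).updateRow a (Pi.single b 1)).det := by
      funext w
      rw [Matrix.adjugate_apply]
    have hd : ∀ i j, DifferentiableAt ℝ (fun y => (m y).updateRow a (Pi.single b 1) i j) z := by
      intro i j
      by_cases hi : i = a
      · subst hi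
        simp only [Matrix.updateRow_self]
        exact differentiableAt_const _
      · simp only [Matrix.updateRow_ne hi]
        exact hm i j
    rw [e1, wd_det_row hd, ← Finset.add_sum_erase Finset.univ _ (Finset.mem_univ a)]
    have e2 : (((m z).updateRow a (Pi.single b 1)).updateRow a fun j =>
        wd (false, a) (fun y => (m y).updateRow a (Pi.single b 1) a j) z).det = 0 := by
      apply Matrix.det_eq_zero_of_row_eq_zero a
      intro j
      simp only [Matrix.updateRow_self]
      exact wd_const _ _ _
    rw [e2, zero_add]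
    refine Finset.sum_congr rfl fun i hi => ?_
    have hia : i ≠ a := Finset.ne_of_mem_erase hi
    simp only [hD, Matrix.updateRow_ne hia]
  -- antisymmetry
  have h2 : ∀ a i, i ≠ a → D i a = - D a i := by
    intro a i hia
    have e1 : (((m z).updateRow i (Pi.single b 1)).updateRow a
        fun j => wd (false, i) (fun y => m y a j) z) =
        (((m z).updateRow a (Pi.single b 1)).updateRow i
          fun j => wd (false, a) (fun y => m y i j) z).submatrix (Equiv.swap a i) id := by
      ext k j
      simp only [Matrix.submatrix_apply, id]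
      by_cases hka : k = a
      · subst hka
        rw [Matrix.updateRow_self, Equiv.swap_apply_left, Matrix.updateRow_self]
        exact hc k j i
      · rw [Matrix.updateRow_ne hka]
        by_cases hki : k = i
        · subst hki
          rw [Matrix.updateRow_self, Equiv.swap_apply_right, Matrix.updateRow_ne hia.symm,
            Matrix.updateRow_self]
        · rw [Matrix.updateRow_ne hki, Equiv.swap_apply_of_ne_of_ne hka hki,
            Matrix.updateRow_ne hki, Matrix.updateRow_ne hka]
    simp only [hD]
    rw [e1, Matrix.det_permute, Equiv.Perm.sign_swap hia.symm]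
    simp
  have h3 : ∑ a, ∑ i ∈ Finset.univ.erase a, D a i = ∑ a, ∑ i ∈ Finset.univ.erase a, D i a := by
    have e : ∀ f : Fin n → Fin n → ℂ, ∑ a, ∑ i ∈ Finset.univ.erase a, f a i =
        ∑ a, ∑ i, if i ≠ a then f a i else 0 := by
      intro f
      refine Finset.sum_congr rfl fun a _ => ?_
      rw [← Finset.sum_filter]
      congr 1
      ext i
      simp
    rw [e D, e fun a i => D i a, Finset.sum_comm]
    refine Finset.sum_congr rfl fun a _ => Finset.sum_congr rfl fun i _ => ?_
    simp only [ne_comm]
  have h4 : ∑ a, ∑ i ∈ Finset.univ.erase a, D i a = - ∑ a, ∑ i ∈ Finset.univ.erase a, D a i := by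
    rw [← Finset.sum_neg_distrib]
    refine Finset.sum_congr rfl fun a _ => ?_
    rw [← Finset.sum_neg_distrib]
    exact Finset.sum_congr rfl fun i hi => h2 a i (Finset.ne_of_mem_erase hi)
  rw [Finset.sum_congr rfl fun a _ => h1 a]
  rw [h4] at h3
  exact self_eq_neg.1 h3

end chart

end

end Crest.Agent.R273.Piola_5
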