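import Crest.Agent.R202.EllFinal
import Crest.Agent.R273.SchE_152
import Crest.Agent.R273.Piola_5

/-!
# R273 (S0416), Part C, C-LIN (helper933), file A: the complex Laplacian in divergence form and
regularity of very weak solutions

* `DF U G`   : `G` smooth, Hermitian positive definite, divergence free on `U ⊆ Cn n`
* `divA_tau` : `div (tau G ∇ φ) = re tr (G ∂∂̄φ)`
* `weak_reg` : `u ∈ L¹_loc`, `∫ u re tr(G ∂∂̄φ) = ∫ f φ` for test functions ⟹ `u` smooth
-/

set_option autoImplicit false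
set_option linter.unusedSectionVars false

open Set Filter Topology MeasureTheory
open scoped ContDiff Matrix ComplexConjugate ComplexOrder

namespace Crest.Agent.R273.CLin_933

open Crest.Agent.R275 Crest.Agent.R275.Geo
open Crest.Agent.R275.OmT75 (dj)
open Crest.Agent.R238.Sch (ee D2)
open Crest.Agent.R273.SchA_152 Crest.Agent.R273.SchB_152 Crest.Agent.R273.SchC_152
  Crest.Agent.R273.SchD_152 Crest.Agent.R273.SchE_152
open Crest.Agent.R273.YauDefs_635 (cH)
open Crest.Agent.R202.Ell (divA ell_regularity)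
open Crest.GeometryTopology.CoordMetric (pderiv)
open Complex (I)

noncomputable section

variable {n : ℕ}

theorem two_le_inf : (2 : WithTop ℕ∞) ≤ ∞ := WithTop.coe_le_coe.2 (le_top : (2 : ℕ∞) ≤ ⊤)

/-- real coordinate space -/
abbrev ER (n : ℕ) : Type := EuclideanSpace ℝ (Fin (n * 2))

/-- smooth, positive definite, divergence free fields of Hermitian matrices -/
structure DF (U : Set (Cn n)) (G : Cn n → Matrix (Fin n) (Fin n) ℂ) : Prop where
  sm : ∀ a b, ContDiffOn ℝ ∞ (fun z => G z a b) U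
  pd : ∀ z ∈ U, (G z).PosDef
  dv : ∀ z ∈ U, ∀ a, ∑ b, dj b (fun w => G w a b) z = 0

theorem tl_contDiff {k : WithTop ℕ∞} : ContDiff ℝ k (Tl n : ER n → Cn n) :=
  (Tl n).toContinuousLinearEquiv.contDiff

theorem tl_symm_contDiff {k : WithTop ℕ∞} : ContDiff ℝ k ((Tl n).symm : Cn n → ER n) :=
  (Tl n).symm.toContinuousLinearEquiv.contDiff

theorem ee_eq (p : Fin (n * 2)) : (EuclideanSpace.single p (1 : ℝ) : ER n) = ee p := rfl

theorem pderiv_mul' {m : ℕ} {p : Fin m} {ξ : EuclideanSpace ℝ (Fin m)}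
    {f g : EuclideanSpace ℝ (Fin m) → ℝ} (hf : DifferentiableAt ℝ f ξ)
    (hg : DifferentiableAt ℝ g ξ) :
    pderiv p (fun y => f y * g y) ξ = f ξ * pderiv p g ξ + pderiv p f ξ * g ξ := by
  unfold pderiv
  rw [fderiv_fun_mul hf hg]
  simp only [_root_.add_apply, _root_.smul_apply, smul_eq_mul]
  ring

theorem pderiv_sum' {m : ℕ} {p : Fin m} {ξ : EuclideanSpace ℝ (Fin m)} {ι : Type*}
    (s : Finset ι) {f : ι → EuclideanSpace ℝ (Fin m) → ℝ}
    (hf : ∀ i ∈ s, DifferentiableAt ℝ (f i) ξ) :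
    pderiv p (fun y => ∑ i ∈ s, f i y) ξ = ∑ i ∈ s, pderiv p (f i) ξ := by
  unfold pderiv
  rw [fderiv_fun_sum hf]
  simp only [_root_.sum_apply]

/-- derivative of an entry of `tau (G ∘ Tl)` -/
theorem pderiv_tau {G : Cn n → Matrix (Fin n) (Fin n) ℂ} {ξ : ER n}
    (hG : ∀ a b, DifferentiableAt ℝ (fun z => G z a b) (Tl n ξ)) (a b c : Fin n) (s t r : Fin 2) :
    pderiv (q c r) (fun y : ER n => tau (G (Tl n y)) (q b s) (q a t)) ξ
      = 1 / 4 * (fderiv ℝ (fun z => G z a b) (Tl n ξ) (EuclideanSpace.single c (cs r))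
          * conj (cs s) * cs t).re := by
  unfold pderiv
  rw [ee_eq]
  have e : (fun y : ER n => tau (G (Tl n y)) (q b s) (q a t))
      = fun y : ER n => 1 / 4 * Complex.reCLM ((fun z => G z a b) (Tl n y) * (conj (cs s) * cs t)) := by
    funext y
    rw [tau_q, mul_assoc]
    rfl
  rw [e]
  have h1 : HasFDerivAt (fun y : ER n => (fun z => G z a b) (Tl n y))
      ((fderiv ℝ (fun z => G z a b) (Tl n ξ)).comp
        ((Tl n).toContinuousLinearEquiv : ER n →L[ℝ] Cn n)) ξ :=
    (hG a b).hasFDerivAt.comp ξ ((Tl n).toContinuousLinearEquiv : ER n →L[ℝ] Cn n).hasFDerivAt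
  have h2 := (h1.mul_const (conj (cs s) * cs t))
  have h3 := (Complex.reCLM.hasFDerivAt.comp ξ h2).const_mul (1 / 4 : ℝ)
  have h4 := h3.fderiv
  have e2 : (fun y : ER n => 1 / 4 * Complex.reCLM ((fun z => G z a b) (Tl n y)
        * (conj (cs s) * cs t)))
      = fun y : ER n => (1 / 4 : ℝ) * (Complex.reCLM ∘ fun y : ER n =>
        (fun z => G z a b) (Tl n y) * (conj (cs s) * cs t)) y := rfl
  rw [e2, h4]
  simp only [_root_.smul_apply, ContinuousLinearMap.comp_apply, smul_eq_mul]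
  have h5 : ((Tl n).toContinuousLinearEquiv : ER n →L[ℝ] Cn n) (ee (q c r))
      = EuclideanSpace.single c (cs r) := Tl_ee c r
  rw [h5]
  congr 1
  rw [Complex.reCLM_apply]
  congr 1
  ring

theorem div_tau {U : Set (Cn n)} {G : Cn n → Matrix (Fin n) (Fin n) ℂ} (hU : IsOpen U)
    (h : DF U G) {ξ : ER n} (hξ : Tl n ξ ∈ U) (p' : Fin (n * 2)) :
    ∑ p, pderiv p (fun y : ER n => tau (G (Tl n y)) p p') ξ = 0 := by
  have hG : ∀ a b, DifferentiableAt ℝ (fun z => G z a b) (Tl n ξ) := fun a b =>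
    ((h.sm a b).contDiffAt (hU.mem_nhds hξ)).differentiableAt (by simp)
  obtain ⟨⟨a, t⟩, rfl⟩ := finProdFinEquiv.surjective p'
  change ∑ p, pderiv p (fun y : ER n => tau (G (Tl n y)) p (q a t)) ξ = 0
  rw [sum_q]
  simp only [pderiv_tau hG]
  have e : ∀ b : Fin n,
      1 / 4 * (fderiv ℝ (fun z => G z a b) (Tl n ξ) (EuclideanSpace.single b (cs 0))
          * conj (cs 0) * cs t).re
        + 1 / 4 * (fderiv ℝ (fun z => G z a b) (Tl n ξ) (EuclideanSpace.single b (cs 1))
          * conj (cs 1) * cs t).re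
      = (1 / 2 * (dj b (fun w => G w a b) (Tl n ξ) * cs t)).re := by
    intro b
    have h0 : cs 0 = 1 := rfl
    have h1 : cs 1 = I := rfl
    rw [h0, h1]
    simp only [dj, smul_eq_mul, map_one, Complex.conj_I]
    rw [← mul_add, ← Complex.add_re]
    have : (1 / 4 : ℝ) * (fderiv ℝ (fun z => G z a b) (Tl n ξ) (EuclideanSpace.single b 1) * 1 * cs t
        + fderiv ℝ (fun z => G z a b) (Tl n ξ) (EuclideanSpace.single b I) * -I * cs t).re
        = ((1 / 4 : ℝ) * (fderiv ℝ (fun z => G z a b) (Tl n ξ) (EuclideanSpace.single b 1) * 1 * cs t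
        + fderiv ℝ (fun z => G z a b) (Tl n ξ) (EuclideanSpace.single b I) * -I * cs t) : ℂ).re := by
      rw [Complex.re_ofReal_mul]
    rw [this]
    congr 1
    push_cast
    ring
  rw [Finset.sum_congr rfl fun b _ => e b, ← Complex.re_sum, ← Finset.mul_sum, ← Finset.sum_mul,
    h.dv _ hξ a]
  simp

/-- the complex Laplacian in divergence form -/
theorem divA_tau {U : Set (Cn n)} {G : Cn n → Matrix (Fin n) (Fin n) ℂ} (hU : IsOpen U)
    (h : DF U G) {φ : Cn n → ℝ} {ξ : ER n} (hξ : Tl n ξ ∈ U) (hφ : ContDiffAt ℝ 2 φ (Tl n ξ)) :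
    divA (fun y : ER n => tau (G (Tl n y))) (fun y : ER n => φ (Tl n y)) ξ
      = ((G (Tl n ξ) * cH φ (Tl n ξ)).trace).re := by
  have hG : ∀ a b, DifferentiableAt ℝ (fun z => G z a b) (Tl n ξ) := fun a b =>
    ((h.sm a b).contDiffAt (hU.mem_nhds hξ)).differentiableAt (by simp)
  have hφ1 : DifferentiableAt ℝ (fderiv ℝ φ) (Tl n ξ) :=
    (hφ.fderiv_right (m := 1) (by norm_num)).differentiableAt (by norm_num)
  have hφ' : ContDiffAt ℝ 2 (fun y : ER n => φ (Tl n y)) ξ := hφ.comp ξ tl_contDiff.contDiffAt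
  have hφ'1 : DifferentiableAt ℝ (fderiv ℝ (fun y : ER n => φ (Tl n y))) ξ :=
    (hφ'.fderiv_right (m := 1) (by norm_num)).differentiableAt (by norm_num)
  rw [← P2_tau hφ1]
  have hT : ∀ p p', DifferentiableAt ℝ (fun y : ER n => tau (G (Tl n y)) p p') ξ := by
    intro p p'
    obtain ⟨⟨b, s⟩, rfl⟩ := finProdFinEquiv.surjective p
    obtain ⟨⟨a, t⟩, rfl⟩ := finProdFinEquiv.surjective p'
    change DifferentiableAt ℝ (fun y : ER n => tau (G (Tl n y)) (q b s) (q a t)) ξ
    simp only [tau_q]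
    have h1 : DifferentiableAt ℝ (fun y : ER n => (fun z => G z a b) (Tl n y)) ξ :=
      (hG a b).comp ξ (tl_contDiff (k := 1)).contDiffAt.differentiableAt_one
    exact (Complex.reCLM.differentiableAt.comp ξ
      ((h1.mul_const _).mul_const _)).const_mul _
  have hP : ∀ p', DifferentiableAt ℝ (fun y : ER n => pderiv p' (fun y : ER n => φ (Tl n y)) y) ξ :=
    fun p' => hφ'1.clm_apply (differentiableAt_const _)
  have e1 : ∀ p p', pderiv p (fun y : ER n => tau (G (Tl n y)) p p' *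
      pderiv p' (fun y : ER n => φ (Tl n y)) y) ξ
      = tau (G (Tl n ξ)) p p' * D2 (fun y : ER n => φ (Tl n y)) ξ (ee p) (ee p')
        + pderiv p (fun y : ER n => tau (G (Tl n y)) p p') ξ *
          pderiv p' (fun y : ER n => φ (Tl n y)) ξ := by
    intro p p'
    have h2 : pderiv p (fun y : ER n => pderiv p' (fun y : ER n => φ (Tl n y)) y) ξ
        = D2 (fun y : ER n => φ (Tl n y)) ξ (ee p) (ee p') := by
      unfold pderiv
      rw [fderiv_clm_apply hφ'1 (differentiableAt_const _)]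
      simp [D2, ee]
    rw [pderiv_mul' (hT p p') (hP p'), h2]
  unfold divA
  have e2 : ∀ p, pderiv p (fun y : ER n => ∑ p', tau (G (Tl n y)) p p' *
      pderiv p' (fun y : ER n => φ (Tl n y)) y) ξ
      = ∑ p', pderiv p (fun y : ER n => tau (G (Tl n y)) p p' *
          pderiv p' (fun y : ER n => φ (Tl n y)) y) ξ := by
    intro p
    exact pderiv_sum' Finset.univ (f := fun p' y => tau (G (Tl n y)) p p' *
      pderiv p' (fun y : ER n => φ (Tl n y)) y) fun p' _ => (hT p p').mul (hP p')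
  simp only [e2, e1, Finset.sum_add_distrib]
  have e3 : ∑ p, ∑ p', pderiv p (fun y : ER n => tau (G (Tl n y)) p p') ξ *
      pderiv p' (fun y : ER n => φ (Tl n y)) ξ = 0 := by
    rw [Finset.sum_comm]
    refine Finset.sum_eq_zero fun p' _ => ?_
    rw [← Finset.sum_mul, div_tau hU h hξ, zero_mul]
  rw [e3, add_zero]
  rfl

theorem tau_posDef {G : Matrix (Fin n) (Fin n) ℂ} (hG : G.PosDef) : (tau G).PosDef := by
  refine Matrix.PosDef.of_dotProduct_mulVec_pos ?_ fun ξ hξ => ?_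
  · ext p p'
    rw [Matrix.conjTranspose_apply, star_trivial]
    exact tau_symm hG.1 p' p
  · have e : star ξ ⬝ᵥ (tau G) *ᵥ ξ = ∑ p, ∑ p', tau G p p' * ξ p * ξ p' := by
      simp only [dotProduct, Matrix.mulVec, star_trivial, Pi.star_apply, Finset.mul_sum]
      refine Finset.sum_congr rfl fun p _ => Finset.sum_congr rfl fun p' _ => ?_
      ring
    rw [e, tau_quad]
    have hne : (fun b : Fin n => conj ((ξ (q b 0) : ℂ) + (ξ (q b 1) : ℂ) * I)) ≠ 0 := by
      intro h0
      apply hξ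
      funext p
      obtain ⟨⟨b, s⟩, rfl⟩ := finProdFinEquiv.surjective p
      have h1 := congrFun h0 b
      simp only [Pi.zero_apply, map_eq_zero] at h1
      have h2 := congrArg Complex.re h1
      have h3 := congrArg Complex.im h1
      simp at h2 h3
      change ξ (q b s) = 0
      fin_cases s
      · exact h2
      · exact h3
    have h1 := hG.dotProduct_mulVec_pos hne
    have h2 := (Complex.pos_iff.1 h1).1
    positivity

theorem tau_smooth {U : Set (Cn n)} {G : Cn n → Matrix (Fin n) (Fin n) ℂ}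
    (hs : ∀ a b, ContDiffOn ℝ ∞ (fun z => G z a b) U) (p p' : Fin (n * 2)) :
    ContDiffOn ℝ ∞ (fun ξ : ER n => tau (G (Tl n ξ)) p p') ((Tl n) ⁻¹' U) := by
  obtain ⟨⟨b, s⟩, rfl⟩ := finProdFinEquiv.surjective p
  obtain ⟨⟨a, t⟩, rfl⟩ := finProdFinEquiv.surjective p'
  change ContDiffOn ℝ ∞ (fun y : ER n => tau (G (Tl n y)) (q b s) (q a t)) _
  simp only [tau_q]
  have h1 : ContDiffOn ℝ ∞ (fun y : ER n => (fun z => G z a b) (Tl n y)) ((Tl n) ⁻¹' U) :=
    (hs a b).comp (tl_contDiff (k := ∞)).contDiffOn fun x hx => hx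
  exact contDiffOn_const.mul
    (Complex.reCLM.contDiff.comp_contDiffOn ((h1.mul contDiffOn_const).mul contDiffOn_const))

theorem cH_zero_of {φ : Cn n → ℝ} {z : Cn n} (h : z ∉ tsupport φ) : cH φ z = 0 := by
  have h1 : φ =ᶠ[𝓝 z] fun _ => 0 := notMem_tsupport_iff_eventuallyEq.1 h
  have h2 : fderiv ℝ (fderiv ℝ φ) z = 0 := by
    have h3 := h1.fderiv (𝕜 := ℝ)
    rw [h3.fderiv_eq]
    simp
  ext a b
  simp [cH, YauDefs_635.D2, h2]

/-- **very weak solutions are smooth** -/
theorem weak_reg {U : Set (Cn n)} (hU : IsOpen U) {G : Cn n → Matrix (Fin n) (Fin n) ℂ}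
    (h : DF U G) {f : Cn n → ℝ} (hf : ContDiffOn ℝ ∞ f U) {u : ER n → ℝ}
    (hu : LocallyIntegrableOn u ((Tl n) ⁻¹' U))
    (hw : ∀ φ : Cn n → ℝ, ContDiff ℝ ∞ φ → HasCompactSupport φ → tsupport φ ⊆ U →
      ∫ ξ : ER n, u ξ * ((G (Tl n ξ) * cH φ (Tl n ξ)).trace).re
        = ∫ ξ : ER n, f (Tl n ξ) * φ (Tl n ξ)) :
    ∃ v : Cn n → ℝ, ContDiffOn ℝ ∞ v U ∧ (∀ᵐ ξ : ER n, Tl n ξ ∈ U → v (Tl n ξ) = u ξ) ∧
      ∀ z ∈ U, ((G z * cH v z).trace).re = f z := by
  have hU' : IsOpen ((Tl n : ER n → Cn n) ⁻¹' U) := hU.preimage (Tl n).continuous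
  obtain ⟨v, hv, hvu, hve⟩ := ell_regularity (n * 2) _ hU' (fun ξ => tau (G (Tl n ξ)))
    (tau_smooth h.sm) (fun ξ hξ => tau_posDef (h.pd _ hξ)) (fun ξ => f (Tl n ξ))
    (hf.comp (tl_contDiff (k := ∞)).contDiffOn fun x hx => hx) u hu (by
      intro φ hφ hφc hφs
      set φ' : Cn n → ℝ := fun z => φ ((Tl n).symm z) with hφ'
      have h1 : ContDiff ℝ ∞ φ' := hφ.comp tl_symm_contDiff
      have h2 : HasCompactSupport φ' :=
        hφc.comp_homeomorph (Tl n).symm.toHomeomorph
      have h3 : ∀ z, z ∈ tsupport φ' → (Tl n).symm z ∈ tsupport φ := by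
        intro z hz
        have := tsupport_comp_subset_preimage φ (f := fun z => (Tl n).symm z)
          (Tl n).symm.continuous hz
        exact this
      have h4 : tsupport φ' ⊆ U := by
        intro z hz
        have := hφs (h3 z hz)
        simpa using this
      have h5 := hw φ' h1 h2 h4
      have h6 : (fun ξ : ER n => φ' (Tl n ξ)) = φ := by
        funext ξ
        simp [hφ']
      have h7 : ∀ ξ : ER n, divA (fun ξ => tau (G (Tl n ξ))) φ ξ
          = ((G (Tl n ξ) * cH φ' (Tl n ξ)).trace).re := by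
        intro ξ
        by_cases hξ : ξ ∈ tsupport φ
        · have hh := divA_tau hU h (φ := φ') (hφs hξ)
            ((h1.of_le two_le_inf).contDiffAt)
          rw [h6] at hh
          exact hh
        · have hz : Tl n ξ ∉ tsupport φ' := fun hh => hξ (by simpa using h3 _ hh)
          rw [cH_zero_of hz, mul_zero]
          have hh : ξ ∉ tsupport (divA (fun ξ : ER n => tau (G (Tl n ξ))) φ) := fun hh =>
            hξ (Crest.Agent.R202.Ell.tsupport_divA_subset _ φ hh)
          rw [image_eq_zero_of_notMem_tsupport hh]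
          simp
      simp only [h7]
      rw [h5]
      refine integral_congr_ae (Eventually.of_forall fun ξ => ?_)
      simp only [hφ', LinearIsometryEquiv.symm_apply_apply])
  refine ⟨fun z => v ((Tl n).symm z), ?_, ?_, ?_⟩
  · refine hv.comp (tl_symm_contDiff (k := ∞)).contDiffOn fun z hz => ?_
    simpa using hz
  · filter_upwards [hvu] with ξ hξ hξU
    rw [LinearIsometryEquiv.symm_apply_apply]
    exact hξ hξU
  · intro z hz
    obtain ⟨ξ, rfl⟩ := (Tl n).surjective z
    have hξ : ξ ∈ (Tl n : ER n → Cn n) ⁻¹' U := hz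
    have h1 : ContDiffAt ℝ 2 (fun z => v ((Tl n).symm z)) (Tl n ξ) := by
      have h2 : ContDiffAt ℝ ∞ v ((Tl n).symm (Tl n ξ)) := by
        rw [LinearIsometryEquiv.symm_apply_apply]
        exact hv.contDiffAt (hU'.mem_nhds hξ)
      exact (h2.comp (Tl n ξ) (tl_symm_contDiff (k := ∞)).contDiffAt).of_le
        two_le_inf
    have h3 := divA_tau hU h hz h1
    rw [← h3]
    have h4 : (fun y : ER n => v ((Tl n).symm (Tl n y))) = v := by
      funext y
      rw [LinearIsometryEquiv.symm_apply_apply]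
    rw [h4]
    exact hve ξ hξ

end

end Crest.Agent.R273.CLin_933
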