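import Crest.Agent.R236.Poinc
import Crest.Agent.R273.CLinA_933
import Crest.Agent.R273.Vm_333

/-!
# R273 (S0416), Part C, C-LIN (helper933), file B: charts with Euclidean real coordinates, local
`L²` Poincaré inequality

* `poinc2`    : `∫∫_{S×S} |f y - f x|² ≤ C ∫_S |Df|²`, `S` open, convex, bounded
* `Th`, `cc_Th`, `mp_Th` : measure preserving change of real coordinates
* `sT A i ξ`, `UT A i` : the chart `i` in the coordinates `ER n`
* `lint_vm`, `int_vm`  : integrals of functions over a chart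
* `ae_chart`, `ae_of_chart` : null sets
-/

set_option autoImplicit false
set_option linter.unusedSectionVars false

open Set Filter Topology MeasureTheory
open scoped ContDiff Matrix ComplexConjugate ComplexOrder ENNReal

namespace Crest.Agent.R273.CLin_933

open Crest.Agent.R275 Crest.Agent.R275.Geo Crest.Agent.R275.Core144
open Crest.Agent.R275.Pai323 Crest.Agent.R275.C1d194
open Crest.Agent.R238.Sch (ee D2)
open Crest.Agent.R273.SchE_152
open Crest.Agent.R273.Defs_333 Crest.Agent.R273.Vm_333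

noncomputable section

/-! ### the `L²` Poincaré inequality on convex sets -/

theorem sq_lintegral_le {f : ℝ → ℝ≥0∞} (hf : AEMeasurable f (volume.restrict (Icc (0 : ℝ) 1))) :
    (∫⁻ t in Icc (0 : ℝ) 1, f t) ^ 2 ≤ ∫⁻ t in Icc (0 : ℝ) 1, f t ^ 2 := by
  have h := ENNReal.lintegral_mul_le_Lp_mul_Lq (volume.restrict (Icc (0 : ℝ) 1))
    Real.HolderConjugate.two_two hf (aemeasurable_const (b := (1 : ℝ≥0∞)))
  simp only [Pi.mul_apply, mul_one, lintegral_const, Measure.restrict_apply,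
    MeasurableSet.univ, univ_inter, Real.volume_Icc, sub_zero, ENNReal.ofReal_one,
    ENNReal.rpow_ofNat, one_pow, ENNReal.one_rpow] at h
  calc (∫⁻ t in Icc (0 : ℝ) 1, f t) ^ 2
      ≤ ((∫⁻ t in Icc (0 : ℝ) 1, f t ^ 2) ^ (1 / 2 : ℝ)) ^ 2 := by gcongr
    _ = _ := by
      rw [← ENNReal.rpow_natCast, ← ENNReal.rpow_mul]
      norm_num

/-- **`L²` Poincaré inequality** on an open convex set -/
theorem poinc2 {m : ℕ} {S : Set (EuclideanSpace ℝ (Fin m))} (hS : IsOpen S) (hc : Convex ℝ S)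
    {f : EuclideanSpace ℝ (Fin m) → ℝ} (hf : ContDiffOn ℝ 1 f S) {d : ℝ}
    (hd : ∀ x ∈ S, ∀ y ∈ S, dist x y ≤ d) :
    ∫⁻ y in S, ∫⁻ x in S, ‖f y - f x‖ₑ ^ 2
      ≤ ENNReal.ofReal d ^ 2 * (2 ^ m * volume S * ∫⁻ z in S, ‖fderiv ℝ f z‖ₑ ^ 2) := by
  have hF : Measurable (fun z => ‖fderiv ℝ f z‖ₑ ^ 2) := (measurable_fderiv ℝ f).enorm.pow_const 2
  have hle : ∀ y ∈ S, ∀ x ∈ S, ‖f y - f x‖ₑ ^ 2 ≤ ENNReal.ofReal d ^ 2 *
      ∫⁻ t in Icc (0 : ℝ) 1, ‖fderiv ℝ f ((1 - t) • x + t • y)‖ₑ ^ 2 := by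
    intro y hy x hx
    have h1 := Crest.Agent.R236.Poinc.diff_le hS hc hf hx hy (hd x hx y hy)
    have h2 : AEMeasurable (fun t : ℝ => ‖fderiv ℝ f ((1 - t) • x + t • y)‖ₑ)
        (volume.restrict (Icc (0 : ℝ) 1)) := by
      refine Measurable.aemeasurable ?_
      exact (measurable_fderiv ℝ f).enorm.comp (by fun_prop)
    calc ‖f y - f x‖ₑ ^ 2 ≤ (ENNReal.ofReal d *
          ∫⁻ t in Icc (0 : ℝ) 1, ‖fderiv ℝ f ((1 - t) • x + t • y)‖ₑ) ^ 2 := by gcongr
      _ = ENNReal.ofReal d ^ 2 *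
          (∫⁻ t in Icc (0 : ℝ) 1, ‖fderiv ℝ f ((1 - t) • x + t • y)‖ₑ) ^ 2 := by rw [mul_pow]
      _ ≤ _ := by
        gcongr
        exact sq_lintegral_le h2
  calc ∫⁻ y in S, ∫⁻ x in S, ‖f y - f x‖ₑ ^ 2
      ≤ ∫⁻ y in S, ∫⁻ x in S, ENNReal.ofReal d ^ 2 *
          ∫⁻ t in Icc (0 : ℝ) 1, ‖fderiv ℝ f ((1 - t) • x + t • y)‖ₑ ^ 2 :=
        setLIntegral_mono' hS.measurableSet fun y hy =>
          setLIntegral_mono' hS.measurableSet fun x hx => hle y hy x hx
    _ = ENNReal.ofReal d ^ 2 * ∫⁻ y in S, ∫⁻ x in S,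
          ∫⁻ t in Icc (0 : ℝ) 1, ‖fderiv ℝ f ((1 - t) • x + t • y)‖ₑ ^ 2 := by
        have hne : ENNReal.ofReal d ^ 2 ≠ ⊤ := ENNReal.pow_ne_top ENNReal.ofReal_ne_top
        rw [← lintegral_const_mul' _ _ hne]
        refine lintegral_congr fun y => ?_
        rw [← lintegral_const_mul' _ _ hne]
    _ ≤ _ := by
        gcongr
        exact Crest.Agent.R236.Poinc.seg hS.measurableSet hc hF

/-! ### change of coordinates -/

variable {n : ℕ} {M : Type} [TopologicalSpace M] {A : Atl n M}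

/-- the two real coordinate spaces -/
def Th (n : ℕ) : ER n ≃ᵐ (RI n → ℝ) :=
  (MeasurableEquiv.toLp 2 (Fin (n * 2) → ℝ)).symm.trans
    (MeasurableEquiv.piCongrLeft (fun _ : RI n => ℝ) finProdFinEquiv.symm)

theorem Th_apply (ξ : ER n) (p : RI n) : Th n ξ p = ξ (finProdFinEquiv p) := by
  obtain ⟨a, rfl⟩ := (finProdFinEquiv (m := n) (n := 2)).symm.surjective p
  rw [Equiv.apply_symm_apply]
  exact Equiv.piCongrLeft_apply_apply (fun _ : RI n => ℝ)
    (finProdFinEquiv (m := n) (n := 2)).symm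
    ((MeasurableEquiv.toLp 2 (Fin (n * 2) → ℝ)).symm ξ) a

theorem mp_Th (n : ℕ) : MeasurePreserving (Th n) volume volume :=
  (volume_measurePreserving_piCongrLeft (fun _ : RI n => ℝ) finProdFinEquiv.symm).comp
    (EuclideanSpace.volume_preserving_symm_measurableEquiv_toLp (Fin (n * 2)))

theorem cc_Th (ξ : ER n) : (cc (Th n ξ) : Cn n) = Tl n ξ := by
  ext b
  rw [Tl_apply]
  change ((Th n ξ (b, 0) : ℝ) : ℂ) + (Th n ξ (b, 1) : ℝ) * Complex.I = _
  rw [Th_apply, Th_apply]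
  rfl

/-- the chart `i` in Euclidean coordinates -/
def sT (A : Atl n M) (i : A.ι) (ξ : ER n) : M := (A.e i).symm (Tl n ξ)

/-- the domain of the chart `i` in Euclidean coordinates -/
def UT (A : Atl n M) (i : A.ι) : Set (ER n) := (Tl n : ER n → Cn n) ⁻¹' (A.e i).target

theorem isOpen_UT (i : A.ι) : IsOpen (UT A i) := (A.e i).open_target.preimage (Tl n).continuous

theorem UT_eq (i : A.ι) : UT A i = Th n ⁻¹' Ui A i := by
  ext ξ
  change Tl n ξ ∈ (A.e i).target ↔ cc (Th n ξ) ∈ (A.e i).target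
  rw [cc_Th]

theorem sg_Th (i : A.ι) (ξ : ER n) : sg A i (Th n ξ) = sT A i ξ := by
  unfold sg sT
  rw [cc_Th]

theorem sT_mem {i : A.ι} {ξ : ER n} (hξ : ξ ∈ UT A i) : sT A i ξ ∈ (A.e i).source :=
  (A.e i).map_target hξ

theorem continuousOn_sT (i : A.ι) : ContinuousOn (sT A i) (UT A i) :=
  (A.e i).continuousOn_symm.comp (Tl n).continuous.continuousOn fun _ h => h

/-- the coordinates of a point in the chart `i` -/
def tT (A : Atl n M) (i : A.ι) (x : M) : ER n := (Tl n).symm (A.e i x)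

theorem tT_mem {i : A.ι} {x : M} (hx : x ∈ (A.e i).source) : tT A i x ∈ UT A i := by
  change Tl n ((Tl n).symm (A.e i x)) ∈ (A.e i).target
  rw [LinearIsometryEquiv.apply_symm_apply]
  exact (A.e i).map_source hx

theorem sT_tT {i : A.ι} {x : M} (hx : x ∈ (A.e i).source) : sT A i (tT A i x) = x := by
  change (A.e i).symm (Tl n ((Tl n).symm (A.e i x))) = x
  rw [LinearIsometryEquiv.apply_symm_apply, (A.e i).left_inv hx]

theorem tT_sT {i : A.ι} {ξ : ER n} (hξ : ξ ∈ UT A i) : tT A i (sT A i ξ) = ξ := by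
  change (Tl n).symm (A.e i ((A.e i).symm (Tl n ξ))) = ξ
  rw [(A.e i).right_inv hξ, LinearIsometryEquiv.symm_apply_apply]

theorem continuousOn_tT (i : A.ι) : ContinuousOn (tT A i) (A.e i).source :=
  (Tl n).symm.continuous.comp_continuousOn (A.e i).continuousOn

section meas

variable [MeasurableSpace M] [BorelSpace M] [Countable A.ι] (h : HM (KB A)⁻¹)

/-- nonnegative integrals over a chart -/
theorem lint_vm (i : A.ι) {f : M → ℝ≥0∞} (hf : Measurable f) :
    ∫⁻ x in (A.e i).source, f x ∂(vm h) =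
      ∫⁻ ξ in UT A i, ENNReal.ofReal (h.w i (sT A i ξ)) * f (sT A i ξ) := by
  rw [setLIntegral_vm h i hf, UT_eq]
  have h1 := (mp_Th n).setLIntegral_comp_preimage_emb (Th n).measurableEmbedding
    (fun y => Vm_333.dn h i y * f (sg A i y)) (Ui A i)
  rw [← h1]
  refine lintegral_congr fun ξ => ?_
  unfold Vm_333.dn
  rw [sg_Th]

/-- integrals over a chart -/
theorem int_vm {W : Type*} [NormedAddCommGroup W] [NormedSpace ℝ W] (i : A.ι) {f : M → W}
    (hf : AEStronglyMeasurable f (vm h)) :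
    ∫ x in (A.e i).source, f x ∂(vm h) =
      ∫ ξ in UT A i, h.w i (sT A i ξ) • f (sT A i ξ) := by
  rw [setIntegral_vm h i hf, UT_eq]
  have h1 := (mp_Th n).setIntegral_preimage_emb (Th n).measurableEmbedding
    (fun y => h.w i (sg A i y) • f (sg A i y)) (Ui A i)
  rw [← h1]
  refine integral_congr_ae (Eventually.of_forall fun ξ => ?_)
  simp only [sg_Th]

/-- null sets of `M` in a chart -/
theorem ae_chart (i : A.ι) {p : M → Prop} (hp : ∀ᵐ x ∂(vm h), p x) :
    ∀ᵐ ξ : ER n, ξ ∈ UT A i → p (sT A i ξ) := by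
  obtain ⟨N, hNs, hNm, hN0⟩ := exists_measurable_superset_of_null (ae_iff.1 hp)
  have h1 := lint_vm h i (f := N.indicator 1) (measurable_one.indicator hNm)
  have h2 : ∫⁻ x in (A.e i).source, N.indicator (1 : M → ℝ≥0∞) x ∂(vm h) = 0 := by
    rw [lintegral_indicator_one hNm]
    exact nonpos_iff_eq_zero.1 ((Measure.restrict_apply_le _ _).trans hN0.le)
  rw [h2] at h1
  have hm : AEMeasurable (fun ξ => ENNReal.ofReal (h.w i (sT A i ξ)) *
      N.indicator (1 : M → ℝ≥0∞) (sT A i ξ)) (volume.restrict (UT A i)) := by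
    have hs : AEMeasurable (sT A i) (volume.restrict (UT A i)) :=
      (continuousOn_sT i).aemeasurable (isOpen_UT i).measurableSet
    refine AEMeasurable.mul ?_ ((measurable_one.indicator hNm).comp_aemeasurable hs)
    have hw : ContinuousOn (fun ξ => h.w i (sT A i ξ)) (UT A i) :=
      (h.sm i).continuousOn.comp (Tl n).continuous.continuousOn fun _ h => h
    exact (hw.aemeasurable (isOpen_UT i).measurableSet).ennreal_ofReal
  have h3 := (lintegral_eq_zero_iff' hm).1 h1.symm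
  rw [EventuallyEq, ae_restrict_iff' (isOpen_UT i).measurableSet] at h3
  filter_upwards [h3] with ξ hξ hU
  have h4 := hξ hU
  by_contra hn
  have h5 : sT A i ξ ∈ N := hNs hn
  simp only [Pi.zero_apply, mul_eq_zero, indicator_of_mem h5, Pi.one_apply, one_ne_zero, or_false,
    ENNReal.ofReal_eq_zero] at h4
  exact absurd (h.pos i _ (sT_mem hU)) (not_lt.2 h4)

/-- measurable null sets of a chart -/
theorem ae_of_chart (i : A.ι) {p : M → Prop} (hm : MeasurableSet {x | x ∈ (A.e i).source ∧ ¬ p x})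
    (hp : ∀ᵐ ξ : ER n, ξ ∈ UT A i → p (sT A i ξ)) :
    ∀ᵐ x ∂(vm h), x ∈ (A.e i).source → p x := by
  set N : Set M := {x | x ∈ (A.e i).source ∧ ¬ p x} with hN
  have h1 := lint_vm h i (f := N.indicator 1) (measurable_one.indicator hm)
  have h2 : ∫⁻ ξ in UT A i, ENNReal.ofReal (h.w i (sT A i ξ)) *
      N.indicator (1 : M → ℝ≥0∞) (sT A i ξ) = 0 := by
    rw [lintegral_congr_ae (g := fun _ => 0)]
    · simp
    · rw [EventuallyEq, ae_restrict_iff' (isOpen_UT i).measurableSet]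
      filter_upwards [hp] with ξ hξ hU
      have h3 : sT A i ξ ∉ N := fun h4 => h4.2 (hξ hU)
      rw [indicator_of_notMem h3, mul_zero]
  rw [h2, lintegral_indicator_one hm, Measure.restrict_apply hm,
    inter_eq_left.2 fun x hx => hx.1] at h1
  rw [ae_iff]
  refine measure_mono_null (fun x hx => ?_) h1
  simp only [Classical.not_imp, mem_ofPred_eq] at hx
  exact hx

end meas

end

end Crest.Agent.R273.CLin_933
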