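import Crest.Agent.R273.CLinB_933
import Crest.Agent.R273.GreenM_5
import Crest.Agent.R273.NormC_505

/-!
# R273 (S0416), Part C, C-LIN (helper933), file C: the Poincaré inequality on a compact connected
Kaehler manifold

* `grad_le`    : `c |D(w ∘ chart)|² ≤ |∂w|²_K` on compact subsets of a chart
* `poincare_M` : `∫∫ (w x - w y)² ≤ C ∫ |∂w|²_K`
-/

set_option autoImplicit false
set_option linter.unusedSectionVars false

open Set Filter Topology MeasureTheory
open scoped ContDiff Matrix ComplexConjugate ComplexOrder ENNReal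

namespace Crest.Agent.R273.CLin_933

open Crest.Agent.R275 Crest.Agent.R275.Geo Crest.Agent.R275.Core144
open Crest.Agent.R275.Pai323 Crest.Agent.R275.C1d194
open Crest.Agent.R275.OmT75 (dj dl)
open Crest.Agent.R273.SchE_152 Crest.Agent.R273.SchD_152
open Crest.Agent.R273.Defs_333 Crest.Agent.R273.Vm_333 Crest.Agent.R273.Kah_333
open Crest.Agent.R273.Vol_333 Crest.Agent.R273.Green_5 Crest.Agent.R273.GreenM_5
open Crest.Agent.R273.StV_37 (db_conj)
open Crest.Agent.R273.NormC_505 (nsq nsq_nonneg exists_lower)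

noncomputable section

variable {n : ℕ} {M : Type} [TopologicalSpace M] {A : Atl n M}

/-! ### comparison of gradients -/

theorem gc_self_eq (K : Kah A) (u : M → ℝ) (i : A.ι) (x : M) :
    gc K (fun y => (u y : ℂ)) (fun y => (u y : ℂ)) i x =
      star (fun a => dl A i a (fun y => (u y : ℂ)) x) ⬝ᵥ
        (K.g i x)⁻¹ *ᵥ (fun a => dl A i a (fun y => (u y : ℂ)) x) := by
  unfold gc
  simp only [dotProduct, Matrix.mulVec, Finset.mul_sum, Pi.star_apply]
  rw [Finset.sum_comm]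
  refine Finset.sum_congr rfl fun b _ => Finset.sum_congr rfl fun a _ => ?_
  have h3 : A.db i b (fun y => (u y : ℂ)) x = star (dl A i b (fun y => (u y : ℂ)) x) := by
    have h4 := db_conj (A := A) i b (fun y => (u y : ℂ)) x
    simp only [Complex.conj_ofReal] at h4
    exact h4
  rw [h3]
  ring

/-- norm of the derivative of a real function through `∂u` -/
theorem norm_fderiv_le {u : Cn n → ℝ} {z : Cn n} (hu : DifferentiableAt ℝ u z) :
    ‖fderiv ℝ u z‖ ^ 2 ≤ 4 * nsq (fun a => dj a (fun w => (u w : ℂ)) z) := by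
  set D : Fin n → ℂ := fun a => dj a (fun w => (u w : ℂ)) z with hD
  have hcx : ∀ v, fderiv ℝ (fun w => (u w : ℂ)) z v = ((fderiv ℝ u z v : ℝ) : ℂ) := by
    intro v
    have h1 : HasFDerivAt (fun w => (u w : ℂ)) (Complex.ofRealCLM.comp (fderiv ℝ u z)) z :=
      Complex.ofRealCLM.hasFDerivAt.comp z hu.hasFDerivAt
    rw [h1.fderiv]
    rfl
  have hdb : ∀ b, dbj b (fun w => (u w : ℂ)) z = conj (D b) := by
    intro b
    simp only [hD, dj, dbj, hcx, smul_eq_mul, map_mul, map_sub, Complex.conj_ofReal, Complex.conj_I,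
      map_div₀, map_one, map_ofNat]
    ring
  have hv : ∀ v : Cn n, |fderiv ℝ u z v| ≤ 2 * Real.sqrt (nsq D) * ‖v‖ := by
    intro v
    have h1 := Crest.Agent.R275.OmT75.expand_fderiv (fun w => (u w : ℂ)) z v
    rw [hcx] at h1
    have h2 : ‖((fderiv ℝ u z v : ℝ) : ℂ)‖ ≤ ∑ b, (‖v b‖ * ‖D b‖ + ‖v b‖ * ‖D b‖) := by
      rw [h1]
      refine (norm_sum_le _ _).trans (Finset.sum_le_sum fun b _ => ?_)
      refine (norm_add_le _ _).trans (le_of_eq ?_)
      rw [hdb b, smul_eq_mul, smul_eq_mul, norm_mul, norm_mul, Complex.norm_conj,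
        Complex.norm_conj]
    rw [Complex.norm_real, Real.norm_eq_abs] at h2
    have h3 : ∑ b, ‖v b‖ * ‖D b‖ ≤ Real.sqrt (∑ b, ‖v b‖ ^ 2) * Real.sqrt (∑ b, ‖D b‖ ^ 2) :=
      Real.sum_mul_le_sqrt_mul_sqrt _ _ _
    have h4 : Real.sqrt (∑ b, ‖v b‖ ^ 2) = ‖v‖ := (EuclideanSpace.norm_eq v).symm
    rw [h4] at h3
    rw [Finset.sum_add_distrib] at h2
    have h5 : Real.sqrt (∑ b, ‖D b‖ ^ 2) = Real.sqrt (nsq D) := rfl
    rw [h5] at h3
    linarith
  have h6 : ‖fderiv ℝ u z‖ ≤ 2 * Real.sqrt (nsq D) :=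
    ContinuousLinearMap.opNorm_le_bound _ (by positivity) hv
  calc ‖fderiv ℝ u z‖ ^ 2 ≤ (2 * Real.sqrt (nsq D)) ^ 2 := by gcongr
    _ = 4 * nsq D := by
      rw [mul_pow, Real.sq_sqrt (nsq_nonneg D)]
      norm_num

theorem inv_continuousOn (K : Kah A) (i : A.ι) (a b : Fin n) :
    ContinuousOn (fun ξ : ER n => (K.g i (sT A i ξ))⁻¹ a b) (UT A i) := by
  have h1 : ContDiffOn ℝ ∞ (fun z => (K.g i ((A.e i).symm z)).adjugate a b) (A.e i).target :=
    smAt_adj (kah_cf K) i b a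
  have h2 : ContDiffOn ℝ ∞ (fun z => (K.g i ((A.e i).symm z)).det) (A.e i).target :=
    smAt_det (K.sm i)
  have h3 : ContinuousOn (fun z => ((K.g i ((A.e i).symm z)).det)⁻¹ *
      (K.g i ((A.e i).symm z)).adjugate a b) (A.e i).target :=
    (h2.continuousOn.inv₀ fun z hz => K_det_ne K ((A.e i).map_target hz)).mul h1.continuousOn
  have h4 : ContinuousOn (fun ξ : ER n => ((K.g i ((A.e i).symm (Tl n ξ))).det)⁻¹ *
      (K.g i ((A.e i).symm (Tl n ξ))).adjugate a b) (UT A i) :=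
    h3.comp (Tl n).continuous.continuousOn fun _ h => h
  refine h4.congr fun ξ _ => ?_
  rw [Matrix.inv_def, Matrix.smul_apply, smul_eq_mul, Ring.inverse_eq_inv']
  rfl

theorem smooth_sT {w : M → ℝ} (hw : A.Sm w) (i : A.ι) :
    ContDiffOn ℝ ∞ (fun ξ : ER n => w (sT A i ξ)) (UT A i) := by
  have h1 : ContDiffOn ℝ ∞ (fun z => w ((A.e i).symm z)) (A.e i).target := hw i
  exact h1.comp (tl_contDiff (k := ∞)).contDiffOn fun _ h => h

theorem grad_le (K : Kah A) (i : A.ι) {S : Set (ER n)} (hS : IsCompact S) (hSU : S ⊆ UT A i) :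
    ∃ c : ℝ, 0 < c ∧ ∀ ξ ∈ S, ∀ w : M → ℝ, A.Sm w →
      c * ‖fderiv ℝ (fun ξ : ER n => w (sT A i ξ)) ξ‖ ^ 2 ≤ grK K w w (sT A i ξ) := by
  obtain ⟨c, hc0, hc⟩ := exists_lower hS (H := fun ξ : ER n => (K.g i (sT A i ξ))⁻¹)
    (fun a b => (inv_continuousOn K i a b).mono hSU)
    (fun ξ hξ => (K.pos i _ (sT_mem (hSU hξ))).inv)
  refine ⟨c / 4, by positivity, fun ξ hξ w hw => ?_⟩
  have hx := sT_mem (hSU hξ)
  rw [grK_eq K hw hw hx, gc_self_eq]
  have h1 := hc ξ hξ (fun a => dl A i a (fun y => (w y : ℂ)) (sT A i ξ))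
  refine le_trans ?_ h1
  have hz : A.e i (sT A i ξ) = Tl n ξ := (A.e i).right_inv (hSU hξ)
  have h2 : (fun a => dl A i a (fun y => (w y : ℂ)) (sT A i ξ))
      = fun a => dj a (fun z => ((w ((A.e i).symm z) : ℝ) : ℂ)) (Tl n ξ) := by
    funext a
    unfold OmT75.dl
    rw [hz]
  rw [h2]
  have h3 : ContDiffAt ℝ ∞ (fun z => w ((A.e i).symm z)) (Tl n ξ) :=
    ContDiffOn.contDiffAt (hw i) ((A.e i).open_target.mem_nhds (hSU hξ))
  have h4 := norm_fderiv_le (h3.differentiableAt (by simp))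
  have h5 : ‖fderiv ℝ (fun ξ : ER n => w (sT A i ξ)) ξ‖ ≤
      ‖fderiv ℝ (fun z => w ((A.e i).symm z)) (Tl n ξ)‖ := by
    have h6 := fderiv_comp_iso (Tl n) (fun z => w ((A.e i).symm z)) ξ
    have h7 : (fun ξ : ER n => w (sT A i ξ)) = fun y => w ((A.e i).symm (Tl n y)) := rfl
    rw [h7, h6]
    refine (ContinuousLinearMap.opNorm_comp_le _ _).trans ?_
    have h8 : ‖((Tl n).toContinuousLinearEquiv : ER n →L[ℝ] Cn n)‖ ≤ 1 :=
      (Tl n).toLinearIsometry.norm_toContinuousLinearMap_le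
    exact (mul_le_mul_of_nonneg_left h8 (norm_nonneg _)).trans_eq (mul_one _)
  have h9 := pow_le_pow_left₀ (norm_nonneg _) h5 2
  nlinarith

/-! ### oscillation integrals -/

section meas

variable [MeasurableSpace M]

/-- `∫_S ∫_T |w x - w y|²` -/
def DD (μ : Measure M) (S T : Set M) (w : M → ℝ) : ℝ≥0∞ :=
  ∫⁻ x in S, ∫⁻ y in T, ‖w x - w y‖ₑ ^ 2 ∂μ ∂μ

theorem meas_diff {w : M → ℝ} (hw : Measurable w) :
    Measurable fun p : M × M => ‖w p.1 - w p.2‖ₑ ^ 2 :=
  ((hw.comp measurable_fst).sub (hw.comp measurable_snd)).enorm.pow_const 2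

theorem DD_mono (μ : Measure M) {S T S' T' : Set M} (hS : S ⊆ S') (hT : T ⊆ T') (w : M → ℝ) :
    DD μ S T w ≤ DD μ S' T' w := by
  unfold DD
  exact (lintegral_mono fun x => lintegral_mono_set hT).trans (lintegral_mono_set hS)

theorem DD_symm (μ : Measure M) [SFinite μ] (S T : Set M) {w : M → ℝ} (hw : Measurable w) :
    DD μ S T w = DD μ T S w := by
  unfold DD
  rw [lintegral_lintegral_swap (meas_diff hw).aemeasurable]
  refine lintegral_congr fun y => lintegral_congr fun x => ?_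
  rw [← enorm_neg, neg_sub]

theorem enorm_sq_le (a b c : ℝ) : ‖a - c‖ₑ ^ 2 ≤ 2 * ‖a - b‖ₑ ^ 2 + 2 * ‖b - c‖ₑ ^ 2 := by
  have e : ∀ x : ℝ, ‖x‖ₑ ^ 2 = ENNReal.ofReal (x ^ 2) := by
    intro x
    rw [Real.enorm_eq_ofReal_abs, ← ENNReal.ofReal_pow (abs_nonneg _), sq_abs]
  have h2 : (2 : ℝ≥0∞) = ENNReal.ofReal 2 := by simp
  rw [e, e, e, h2, ← ENNReal.ofReal_mul (by norm_num), ← ENNReal.ofReal_mul (by norm_num),
    ← ENNReal.ofReal_add (by positivity) (by positivity)]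
  apply ENNReal.ofReal_le_ofReal
  nlinarith [sq_nonneg ((a - b) - (b - c))]

/-- chain inequality -/
theorem DD_trans (μ : Measure M) [SFinite μ] {S T R : Set M} {w : M → ℝ} (hw : Measurable w) :
    μ T * DD μ S R w ≤ 2 * (μ R * DD μ S T w) + 2 * (μ S * DD μ T R w) := by
  have h1 : μ T * DD μ S R w = ∫⁻ x in S, ∫⁻ y in R, ∫⁻ t in T, ‖w x - w y‖ₑ ^ 2 ∂μ ∂μ ∂μ := by
    unfold DD
    have e : ∀ x, ∫⁻ y in R, ∫⁻ t in T, ‖w x - w y‖ₑ ^ 2 ∂μ ∂μ
        = μ T * ∫⁻ y in R, ‖w x - w y‖ₑ ^ 2 ∂μ := by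
      intro x
      simp only [setLIntegral_const]
      rw [lintegral_mul_const _ ((hw.const_sub _).enorm.pow_const 2), mul_comm]
    simp only [e]
    rw [lintegral_const_mul]
    exact Measurable.lintegral_prod_right' (meas_diff hw)
  have m1 : ∀ x, Measurable fun t => 2 * ‖w x - w t‖ₑ ^ 2 := fun x =>
    ((hw.const_sub _).enorm.pow_const 2).const_mul 2
  have h2 : ∀ x y, ∫⁻ t in T, ‖w x - w y‖ₑ ^ 2 ∂μ ≤
      2 * ∫⁻ t in T, ‖w x - w t‖ₑ ^ 2 ∂μ + 2 * ∫⁻ t in T, ‖w t - w y‖ₑ ^ 2 ∂μ := by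
    intro x y
    rw [← lintegral_const_mul 2 ((hw.const_sub _).enorm.pow_const 2),
      ← lintegral_const_mul 2 ((hw.sub_const _).enorm.pow_const 2),
      ← lintegral_add_left (m1 x)]
    exact lintegral_mono fun t => enorm_sq_le _ _ _
  have m2 : Measurable fun x => ∫⁻ t in T, ‖w x - w t‖ₑ ^ 2 ∂μ :=
    Measurable.lintegral_prod_right' (meas_diff hw)
  have m3 : Measurable fun y => ∫⁻ t in T, ‖w t - w y‖ₑ ^ 2 ∂μ :=
    Measurable.lintegral_prod_left' (meas_diff hw)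
  rw [h1]
  calc ∫⁻ x in S, ∫⁻ y in R, ∫⁻ t in T, ‖w x - w y‖ₑ ^ 2 ∂μ ∂μ ∂μ
      ≤ ∫⁻ x in S, ∫⁻ y in R, (2 * ∫⁻ t in T, ‖w x - w t‖ₑ ^ 2 ∂μ
          + 2 * ∫⁻ t in T, ‖w t - w y‖ₑ ^ 2 ∂μ) ∂μ ∂μ :=
        lintegral_mono fun x => lintegral_mono fun y => h2 x y
    _ = ∫⁻ x in S, (2 * (∫⁻ t in T, ‖w x - w t‖ₑ ^ 2 ∂μ) * μ R
          + 2 * ∫⁻ y in R, ∫⁻ t in T, ‖w t - w y‖ₑ ^ 2 ∂μ ∂μ) ∂μ := by
        refine lintegral_congr fun x => ?_
        rw [lintegral_add_left measurable_const, setLIntegral_const, lintegral_const_mul 2 m3]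
    _ = 2 * (μ R * ∫⁻ x in S, ∫⁻ t in T, ‖w x - w t‖ₑ ^ 2 ∂μ ∂μ)
          + 2 * (μ S * ∫⁻ y in R, ∫⁻ t in T, ‖w t - w y‖ₑ ^ 2 ∂μ ∂μ) := by
        rw [lintegral_add_left ((m2.const_mul 2).mul_const _), setLIntegral_const,
          lintegral_mul_const _ (m2.const_mul 2), lintegral_const_mul 2 m2]
        ring
    _ = _ := by
        unfold DD
        rw [lintegral_lintegral_swap (μ := μ.restrict R) (ν := μ.restrict T)]
        exact ((meas_diff hw).comp measurable_swap).aemeasurable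

end meas

/-! ### the global inequality -/

theorem lintegral_biUnion_le' {X ι : Type*} [MeasurableSpace X] {μ : Measure X} (t : Finset ι)
    (S : ι → Set X) (f : X → ℝ≥0∞) :
    ∫⁻ x in ⋃ i ∈ t, S i, f x ∂μ ≤ ∑ i ∈ t, ∫⁻ x in S i, f x ∂μ := by
  classical
  induction t using Finset.induction_on with
  | empty => simp
  | insert a t ha ih =>
    rw [Finset.set_biUnion_insert, Finset.sum_insert ha]
    exact (lintegral_union_le _ _ _).trans (by gcongr)

section glob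

variable [T2Space M] [CompactSpace M] [MeasurableSpace M] [BorelSpace M] [Finite A.ι] (K : Kah A)

/-- the energy -/
def EE (w : M → ℝ) : ℝ≥0∞ := ∫⁻ x, ENNReal.ofReal (grK K w w x) ∂(vm (volK K))

/-- the oscillation between `S` and `T` is controlled by the energy -/
def Rel (S T : Set M) : Prop :=
  ∃ C : ℝ≥0∞, C ≠ ⊤ ∧ ∀ w : M → ℝ, A.Sm w → DD (vm (volK K)) S T w ≤ C * EE K w

variable {K}

theorem Rel.mono {S T S' T' : Set M} (h : Rel K S T) (hS : S' ⊆ S) (hT : T' ⊆ T) :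
    Rel K S' T' := by
  obtain ⟨C, hC, h⟩ := h
  exact ⟨C, hC, fun w hw => (DD_mono _ hS hT w).trans (h w hw)⟩

theorem Rel.symm {S T : Set M} (h : Rel K S T) : Rel K T S := by
  have := isFinite_vm (volK K)
  obtain ⟨C, hC, h⟩ := h
  refine ⟨C, hC, fun w hw => ?_⟩
  rw [DD_symm _ _ _ (sm_continuous hw).measurable]
  exact h w hw

theorem Rel.trans {S T R : Set M} (h : Rel K S T) (h' : Rel K T R) (hT : vm (volK K) T ≠ 0) :
    Rel K S R := by
  have := isFinite_vm (volK K)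
  obtain ⟨C, hC, h⟩ := h
  obtain ⟨C', hC', h'⟩ := h'
  set μ := vm (volK K) with hμ
  refine ⟨(μ T)⁻¹ * (2 * (μ R * C) + 2 * (μ S * C')), ?_, fun w hw => ?_⟩
  · refine ENNReal.mul_ne_top (ENNReal.inv_ne_top.2 hT) (ENNReal.add_ne_top.2 ⟨?_, ?_⟩)
    · exact ENNReal.mul_ne_top (by simp) (ENNReal.mul_ne_top (measure_ne_top _ _) hC)
    · exact ENNReal.mul_ne_top (by simp) (ENNReal.mul_ne_top (measure_ne_top _ _) hC')
  · have h1 := DD_trans μ (S := S) (T := T) (R := R) (sm_continuous hw).measurable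
    have h2 : μ T * DD μ S R w ≤ (2 * (μ R * C) + 2 * (μ S * C')) * EE K w := by
      refine h1.trans ?_
      calc 2 * (μ R * DD μ S T w) + 2 * (μ S * DD μ T R w)
          ≤ 2 * (μ R * (C * EE K w)) + 2 * (μ S * (C' * EE K w)) := by
            gcongr
            · exact h w hw
            · exact h' w hw
        _ = _ := by ring
    calc DD μ S R w = (μ T)⁻¹ * (μ T * DD μ S R w) := by
          rw [← mul_assoc, ENNReal.inv_mul_cancel hT (measure_ne_top _ _), one_mul]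
      _ ≤ (μ T)⁻¹ * ((2 * (μ R * C) + 2 * (μ S * C')) * EE K w) := by gcongr
      _ = _ := by ring

/-- nonnegative integrals over a coordinate ball -/
theorem lint_ball (h : HM (KB A)⁻¹) (i : A.ι) {B : Set (ER n)} (hB : MeasurableSet B)
    (hBU : B ⊆ UT A i) (hm : MeasurableSet ((A.e i).source ∩ tT A i ⁻¹' B))
    {f : M → ℝ≥0∞} (hf : Measurable f) :
    ∫⁻ x in (A.e i).source ∩ tT A i ⁻¹' B, f x ∂(vm h) =
      ∫⁻ ξ in B, ENNReal.ofReal (h.w i (sT A i ξ)) * f (sT A i ξ) := by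
  set N := (A.e i).source ∩ tT A i ⁻¹' B with hN
  have h1 := lint_vm h i (f := N.indicator f) (hf.indicator hm)
  rw [lintegral_indicator hm, Measure.restrict_restrict hm,
    inter_eq_left.2 fun x hx => hx.1] at h1
  rw [h1]
  have h2 : ∀ ξ ∈ UT A i, ENNReal.ofReal (h.w i (sT A i ξ)) * N.indicator f (sT A i ξ)
      = B.indicator (fun ξ => ENNReal.ofReal (h.w i (sT A i ξ)) * f (sT A i ξ)) ξ := by
    intro ξ hξ
    by_cases hb : ξ ∈ B
    · have h3 : sT A i ξ ∈ N := ⟨sT_mem hξ, by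
        change tT A i (sT A i ξ) ∈ B
        rwa [tT_sT hξ]⟩
      rw [indicator_of_mem h3, indicator_of_mem hb]
    · have h3 : sT A i ξ ∉ N := fun h4 => hb (by
        have := h4.2
        change tT A i (sT A i ξ) ∈ B at this
        rwa [tT_sT hξ] at this)
      rw [indicator_of_notMem h3, indicator_of_notMem hb, mul_zero]
  rw [setLIntegral_congr_fun (isOpen_UT i).measurableSet h2, setLIntegral_indicator hB,
    inter_eq_left.2 hBU]

theorem exists_rel_self (K : Kah A) (x : M) : ∃ N : Set M, IsOpen N ∧ x ∈ N ∧ Rel K N N := by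
  have := isFinite_vm (volK K)
  obtain ⟨i, hi⟩ := A.cover x
  set ξ0 : ER n := tT A i x with hξ0
  obtain ⟨r, hr, hrU⟩ := Metric.nhds_basis_closedBall.mem_iff.1
    ((isOpen_UT i).mem_nhds (tT_mem hi))
  set B : Set (ER n) := Metric.ball ξ0 r with hB
  have hBc : B ⊆ Metric.closedBall ξ0 r := Metric.ball_subset_closedBall
  have hBU : B ⊆ UT A i := hBc.trans hrU
  set N : Set M := (A.e i).source ∩ tT A i ⁻¹' B with hN
  have hNo : IsOpen N := (continuousOn_tT i).isOpen_inter_preimage (A.e i).open_source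
    Metric.isOpen_ball
  have hcpt : IsCompact (Metric.closedBall ξ0 r) := isCompact_closedBall _ _
  -- bounds of the density
  have hwc : ContinuousOn (fun ξ => (volK K).w i (sT A i ξ)) (Metric.closedBall ξ0 r) :=
    ((((volK K).sm i).continuousOn.comp (Tl n).continuous.continuousOn fun _ h => h)).mono hrU
  obtain ⟨W, hW⟩ := hcpt.exists_bound_of_continuousOn hwc
  obtain ⟨w0, hw0, hw0le⟩ := hcpt.exists_forall_le' hwc (a := 0)
    (fun ξ hξ => (volK K).pos i _ (sT_mem (hrU hξ)))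
  obtain ⟨c, hc0, hc⟩ := grad_le K i hcpt hrU
  refine ⟨N, hNo, ⟨hi, Metric.mem_ball_self hr⟩, ?_⟩
  have hvB : volume B ≠ ⊤ := measure_ball_lt_top.ne
  refine ⟨ENNReal.ofReal W * ENNReal.ofReal W * (ENNReal.ofReal (2 * r) ^ 2 *
    (2 ^ (n * 2) * volume B * (ENNReal.ofReal (c⁻¹ * w0⁻¹)))), ?_, fun w hw => ?_⟩
  · refine ENNReal.mul_ne_top (ENNReal.mul_ne_top ENNReal.ofReal_ne_top ENNReal.ofReal_ne_top)
      (ENNReal.mul_ne_top (ENNReal.pow_ne_top ENNReal.ofReal_ne_top)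
        (ENNReal.mul_ne_top (ENNReal.mul_ne_top (ENNReal.pow_ne_top (by simp)) hvB)
          ENNReal.ofReal_ne_top))
  · have hwm : Measurable w := (sm_continuous hw).measurable
    set φ : ER n → ℝ := fun ξ => w (sT A i ξ) with hφ
    have hφs : ContDiffOn ℝ 1 φ B := ((smooth_sT hw i).mono hBU).of_le (by simp)
    have hWle : ∀ ξ ∈ B, (volK K).w i (sT A i ξ) ≤ W :=
      fun ξ hξ => (le_abs_self _).trans (hW ξ (hBc hξ))
    -- step 1
    have h1 : DD (vm (volK K)) N N w ≤ ENNReal.ofReal W * ENNReal.ofReal W *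
        ∫⁻ ξ in B, ∫⁻ η in B, ‖φ ξ - φ η‖ₑ ^ 2 := by
      unfold DD
      rw [lint_ball (volK K) i measurableSet_ball hBU hNo.measurableSet
        (f := fun x => ∫⁻ y in N, ‖w x - w y‖ₑ ^ 2 ∂(vm (volK K)))
        (Measurable.lintegral_prod_right' (meas_diff hwm))]
      have e1 : ∀ ξ : ER n, ∫⁻ y in N, ‖w (sT A i ξ) - w y‖ₑ ^ 2 ∂(vm (volK K)) ≤
          ENNReal.ofReal W * ∫⁻ η in B, ‖φ ξ - φ η‖ₑ ^ 2 := by
        intro ξ
        rw [lint_ball (volK K) i measurableSet_ball hBU hNo.measurableSet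
          (f := fun y => ‖w (sT A i ξ) - w y‖ₑ ^ 2) ((hwm.const_sub _).enorm.pow_const 2),
          ← lintegral_const_mul' _ _ ENNReal.ofReal_ne_top]
        refine setLIntegral_mono' measurableSet_ball fun η hη => ?_
        gcongr
        exact hWle η hη
      calc ∫⁻ ξ in B, ENNReal.ofReal ((volK K).w i (sT A i ξ)) *
            ∫⁻ y in N, ‖w (sT A i ξ) - w y‖ₑ ^ 2 ∂(vm (volK K))
          ≤ ∫⁻ ξ in B, ENNReal.ofReal W * (ENNReal.ofReal W * ∫⁻ η in B, ‖φ ξ - φ η‖ₑ ^ 2) := by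
            refine setLIntegral_mono' measurableSet_ball fun ξ hξ => ?_
            gcongr
            · exact hWle ξ hξ
            · exact e1 ξ
        _ = _ := by
            rw [lintegral_const_mul' _ _ ENNReal.ofReal_ne_top,
              lintegral_const_mul' _ _ ENNReal.ofReal_ne_top, mul_assoc]
    -- step 2
    have h2 := poinc2 (m := n * 2) Metric.isOpen_ball (convex_ball ξ0 r) hφs (d := 2 * r)
      (fun x hx y hy => by
        have h3 := dist_triangle_right x y ξ0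
        have h4 := Metric.mem_ball.1 hx
        have h5 := Metric.mem_ball.1 hy
        linarith)
    -- step 3
    have h3 : ∫⁻ z in B, ‖fderiv ℝ φ z‖ₑ ^ 2 ≤ ENNReal.ofReal (c⁻¹ * w0⁻¹) * EE K w := by
      have hgm : Measurable fun x => ENNReal.ofReal (grK K w w x) :=
        (sm_continuous (sm_grK K hw hw)).measurable.ennreal_ofReal
      have h4 : ∫⁻ x in N, ENNReal.ofReal (grK K w w x) ∂(vm (volK K)) ≤ EE K w :=
        setLIntegral_le_lintegral _ _
      rw [lint_ball (volK K) i measurableSet_ball hBU hNo.measurableSet hgm] at h4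
      refine le_trans ?_ (mul_le_mul_right h4 _)
      rw [← lintegral_const_mul' _ _ ENNReal.ofReal_ne_top]
      refine setLIntegral_mono' measurableSet_ball fun ξ hξ => ?_
      have h5 := hc ξ (hBc hξ) w hw
      have h6 := hw0le ξ (hBc hξ)
      have h7 : ‖fderiv ℝ φ ξ‖ₑ ^ 2 = ENNReal.ofReal (‖fderiv ℝ φ ξ‖ ^ 2) := by
        rw [← ofReal_norm, ENNReal.ofReal_pow (norm_nonneg _)]
      rw [h7, ← ENNReal.ofReal_mul ((volK K).pos i _ (sT_mem (hBU hξ))).le,
        ← ENNReal.ofReal_mul (by positivity)]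
      apply ENNReal.ofReal_le_ofReal
      have h8 : 0 ≤ grK K w w (sT A i ξ) := grK_nonneg K w _
      calc ‖fderiv ℝ φ ξ‖ ^ 2 = c⁻¹ * w0⁻¹ * (w0 * (c * ‖fderiv ℝ φ ξ‖ ^ 2)) := by
            field_simp
        _ ≤ c⁻¹ * w0⁻¹ * ((volK K).w i (sT A i ξ) * grK K w w (sT A i ξ)) := by
            refine mul_le_mul_of_nonneg_left ?_ (by positivity)
            exact mul_le_mul h6 h5 (by positivity) (hw0.le.trans h6)
    calc DD (vm (volK K)) N N w ≤ ENNReal.ofReal W * ENNReal.ofReal W *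
          ∫⁻ ξ in B, ∫⁻ η in B, ‖φ ξ - φ η‖ₑ ^ 2 := h1
      _ ≤ ENNReal.ofReal W * ENNReal.ofReal W * (ENNReal.ofReal (2 * r) ^ 2 *
          (2 ^ (n * 2) * volume B * (ENNReal.ofReal (c⁻¹ * w0⁻¹) * EE K w))) := by
          gcongr
          exact h2.trans (by gcongr)
      _ = _ := by ring

/-- **Poincaré inequality** on a compact connected Kaehler manifold -/
theorem poincare_M [ConnectedSpace M] (K : Kah A) : Rel K (univ : Set M) univ := by
  have hfin := isFinite_vm (volK K)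
  have hop := isOpenPos_vm (volK K)
  choose N hNo hxN hN using exists_rel_self K
  obtain ⟨x0⟩ : Nonempty M := inferInstance
  have hne : ∀ {S : Set M}, IsOpen S → S.Nonempty → vm (volK K) S ≠ 0 := fun hS hn =>
    hS.measure_ne_zero _ hn
  set U : Set M := {x | ∃ S : Set M, IsOpen S ∧ x ∈ S ∧ Rel K S (N x0)} with hU
  have hUo : IsOpen U := by
    rw [isOpen_iff_mem_nhds]
    rintro x ⟨S, hS, hxS, hr⟩
    filter_upwards [hS.mem_nhds hxS] with y hy using ⟨S, hS, hy, hr⟩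
  have hUc : IsClosed U := by
    rw [← isOpen_compl_iff, isOpen_iff_mem_nhds]
    intro x hx
    filter_upwards [(hNo x).mem_nhds (hxN x)] with y hy hyU
    obtain ⟨S, hS, hyS, hr⟩ := hyU
    refine hx ⟨N x, hNo x, hxN x, ?_⟩
    have h1 : Rel K (N x) (N x ∩ S) := (hN x).mono Subset.rfl inter_subset_left
    have h2 : Rel K (N x ∩ S) (N x0) := hr.mono inter_subset_right Subset.rfl
    exact h1.trans h2 (hne ((hNo x).inter hS) ⟨y, hy, hyS⟩)
  have hUuniv : U = univ := IsClopen.eq_univ ⟨hUc, hUo⟩ ⟨x0, N x0, hNo x0, hxN x0, hN x0⟩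
  have hall : ∀ x : M, ∃ S : Set M, IsOpen S ∧ x ∈ S ∧ Rel K S (N x0) := fun x => by
    have : x ∈ U := by rw [hUuniv]; trivial
    exact this
  choose S hSo hxS hS using hall
  obtain ⟨t, ht⟩ := isCompact_univ.elim_finite_subcover S hSo fun x _ => mem_iUnion.2 ⟨x, hxS x⟩
  have hpair : ∀ x y, Rel K (S x) (S y) := fun x y =>
    (hS x).trans (hS y).symm (hne (hNo x0) ⟨x0, hxN x0⟩)
  choose C hC hCw using hpair
  refine ⟨∑ x ∈ t, ∑ y ∈ t, C x y, ?_, fun w hw => ?_⟩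
  · exact ENNReal.sum_ne_top.2 fun x _ => ENNReal.sum_ne_top.2 fun y _ => hC x y
  · have h1 : DD (vm (volK K)) univ univ w ≤ ∑ x ∈ t, ∑ y ∈ t, DD (vm (volK K)) (S x) (S y) w := by
      unfold DD
      have h2 : ∀ f : M → ℝ≥0∞, ∫⁻ x in univ, f x ∂(vm (volK K)) ≤
          ∑ x ∈ t, ∫⁻ y in S x, f y ∂(vm (volK K)) := by
        intro f
        refine (lintegral_mono_set ht).trans ?_
        exact lintegral_biUnion_le' t S f
      refine (h2 _).trans ?_
      refine Finset.sum_le_sum fun x _ => ?_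
      rw [← lintegral_finsetSum]
      · exact lintegral_mono fun a => h2 _
      · intro y _
        exact Measurable.lintegral_prod_right' (meas_diff (sm_continuous hw).measurable)
    refine h1.trans ?_
    rw [Finset.sum_mul]
    refine Finset.sum_le_sum fun x _ => ?_
    rw [Finset.sum_mul]
    exact Finset.sum_le_sum fun y _ => hCw x y w hw

end glob

end

end Crest.Agent.R273.CLin_933
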