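import Crest.Agent.R273.CLinC_933
import Crest.Agent.R273.YauMax_635

/-!
# R273 (S0416), Part C, C-LIN (helper933), file D: existence of smooth solutions of `Δ v = f - m`

* `riesz_range` : functionals bounded by the norm of the image are represented
* `lap_l2`      : `∫ (w - mean w)² ≤ C ∫ (Δ w)²`
* `lin_kah`     : `∀ f smooth ∃ v smooth, m real, lapK K v = f - m`
-/

set_option autoImplicit false
set_option linter.unusedSectionVars false

open Set Filter Topology MeasureTheory
open scoped ContDiff Matrix ComplexConjugate ComplexOrder ENNReal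

namespace Crest.Agent.R273.CLin_933

open Crest.Agent.R275 Crest.Agent.R275.Geo Crest.Agent.R275.Core144 Crest.Agent.R275.EDR890
open Crest.Agent.R275.Pai323 Crest.Agent.R275.C1d194
open Crest.Agent.R275.OmT75 (dj dl)
open Crest.Agent.R273.SchE_152 Crest.Agent.R273.SchD_152
open Crest.Agent.R273.Defs_333 Crest.Agent.R273.Vm_333 Crest.Agent.R273.Kah_333
open Crest.Agent.R273.Hess_333 Crest.Agent.R273.HessB_333 Crest.Agent.R273.HM_333
open Crest.Agent.R273.Vol_333 Crest.Agent.R273.Green_5 Crest.Agent.R273.GreenM_5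
open Crest.Agent.R273.YauDefs_635 (cH)
open Crest.Agent.R273.YauMax_635 (cH_eq_hess)

noncomputable section

/-! ### an abstract Riesz lemma -/

theorem riesz_range {H S : Type} [NormedAddCommGroup H] [InnerProductSpace ℝ H] [CompleteSpace H]
    [AddCommGroup S] [Module ℝ S] (T : S →ₗ[ℝ] H) (ℓ : S →ₗ[ℝ] ℝ) (C : ℝ)
    (hC : ∀ w, |ℓ w| ≤ C * ‖T w‖) : ∃ u : H, ∀ w, inner ℝ u (T w) = ℓ w := by
  have hker : LinearMap.ker T ≤ LinearMap.ker ℓ := by
    intro w hw
    rw [LinearMap.mem_ker] at hw ⊢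
    have h := hC w
    rw [hw, norm_zero, mul_zero] at h
    exact abs_eq_zero.1 (le_antisymm h (abs_nonneg _))
  set g : LinearMap.range T →ₗ[ℝ] ℝ :=
    ((LinearMap.ker T).liftQ ℓ hker) ∘ₗ (T.quotKerEquivRange.symm : LinearMap.range T →ₗ[ℝ] _)
    with hg
  have hgw : ∀ w (h : T w ∈ LinearMap.range T), g ⟨T w, h⟩ = ℓ w := by
    intro w h
    have e : T.quotKerEquivRange.symm ⟨T w, h⟩ = (LinearMap.ker T).mkQ w := by
      rw [LinearEquiv.symm_apply_eq]
      rfl
    rw [hg, LinearMap.comp_apply]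
    change (LinearMap.ker T).liftQ ℓ hker (T.quotKerEquivRange.symm ⟨T w, h⟩) = _
    rw [e]
    rfl
  have hb : ∀ y : LinearMap.range T, ‖g y‖ ≤ C * ‖y‖ := by
    rintro ⟨y, hy⟩
    obtain ⟨w, rfl⟩ := LinearMap.mem_range.1 hy
    rw [hgw w hy]
    exact hC w
  obtain ⟨G, hG, _⟩ := exists_extension_norm_eq (LinearMap.range T) (g.mkContinuous C hb)
  refine ⟨(InnerProductSpace.toDual ℝ H).symm G, fun w => ?_⟩
  rw [InnerProductSpace.toDual_symm_apply]
  have h := hG ⟨T w, LinearMap.mem_range_self T w⟩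
  exact h.trans (hgw w _)

variable {n : ℕ} {M : Type} [TopologicalSpace M] {A : Atl n M}

/-! ### linearity of the Laplacian -/

theorem sm_add {u v : M → ℝ} (hu : A.Sm u) (hv : A.Sm v) : A.Sm (fun x => u x + v x) :=
  fun i => ContDiffOn.add (hu i) (hv i)

theorem sm_smul {u : M → ℝ} (c : ℝ) (hu : A.Sm u) : A.Sm (fun x => c * u x) :=
  fun i => (contDiffOn_const (c := c)).mul (hu i)

theorem sm_const' (c : ℝ) : A.Sm (fun _ : M => c) := fun _ => contDiffOn_const

theorem lapK_add (K : Kah A) {u v : M → ℝ} (hu : A.Sm u) (hv : A.Sm v) (x : M) :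
    lapK K (fun x => u x + v x) x = lapK K u x + lapK K v x := by
  have h1 : hsf A (fun x => u x + v x) (ci A x) x = hsf A u (ci A x) x + hsf A v (ci A x) x :=
    hess_add (sm_contDiffAt hu _ ((A.e _).map_source (mem_ci x)))
      (sm_contDiffAt hv _ ((A.e _).map_source (mem_ci x)))
  unfold lapK trK
  rw [h1, Matrix.mul_add, Matrix.trace_add, Complex.add_re]

theorem lapK_smul (K : Kah A) {u : M → ℝ} (c : ℝ) (hu : A.Sm u) (x : M) :
    lapK K (fun x => c * u x) x = c * lapK K u x := by
  have h1 : hsf A (fun x => c * u x) (ci A x) x = (c : ℂ) • hsf A u (ci A x) x :=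
    hess_const_mul c (sm_contDiffAt hu _ ((A.e _).map_source (mem_ci x)))
  unfold lapK trK
  rw [h1, Matrix.mul_smul, Matrix.trace_smul, smul_eq_mul, Complex.re_ofReal_mul]

/-- smooth functions -/
def SmS (A : Atl n M) : Submodule ℝ (M → ℝ) where
  carrier := {w | A.Sm w}
  add_mem' := fun h h' => sm_add h h'
  zero_mem' := sm_const' 0
  smul_mem' := fun c _ h => sm_smul c h

/-! ### extension of test functions -/

open Classical in
/-- a function of the coordinates, extended by zero -/
def ext0 (A : Atl n M) (i : A.ι) (φ : Cn n → ℝ) (x : M) : ℝ :=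
  if x ∈ (A.e i).source then φ (A.e i x) else 0

theorem ext0_mem {i : A.ι} {φ : Cn n → ℝ} {x : M} (hx : x ∈ (A.e i).source) :
    ext0 A i φ x = φ (A.e i x) := if_pos hx

theorem ext0_off {i : A.ι} {φ : Cn n → ℝ} {x : M} (hx : x ∉ (A.e i).source) :
    ext0 A i φ x = 0 := if_neg hx

/-- the support of the extension -/
theorem ext0_zero {i : A.ι} {φ : Cn n → ℝ} {x : M}
    (hx : x ∉ (A.e i).symm '' tsupport φ) : ext0 A i φ x = 0 := by
  by_cases hs : x ∈ (A.e i).source
  · rw [ext0_mem hs]
    refine image_eq_zero_of_notMem_tsupport fun h => hx ⟨A.e i x, h, (A.e i).left_inv hs⟩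
  · exact ext0_off hs

theorem ext0_closed [T2Space M] {i : A.ι} {φ : Cn n → ℝ} (hc : HasCompactSupport φ)
    (hs : tsupport φ ⊆ (A.e i).target) : IsClosed ((A.e i).symm '' tsupport φ) := by
  have : IsCompact ((A.e i).symm '' tsupport φ) :=
    IsCompact.image_of_continuousOn hc ((A.e i).continuousOn_symm.mono hs)
  exact this.isClosed

theorem ext0_sm [T2Space M] {i : A.ι} {φ : Cn n → ℝ} (hφ : ContDiff ℝ ∞ φ)
    (hc : HasCompactSupport φ) (hs : tsupport φ ⊆ (A.e i).target) : A.Sm (ext0 A i φ) := by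
  intro j z hz
  refine ContDiffAt.contDiffWithinAt ?_
  have hx := (A.e j).map_target hz
  by_cases hi : (A.e j).symm z ∈ (A.e i).source
  · have h1 : AnalyticAt ℂ (YauCh_635.Tm A j i) (A.e j ((A.e j).symm z)) :=
      YauCh_635.anal_Tm ⟨hx, hi⟩
    rw [(A.e j).right_inv hz] at h1
    have h2 : ContDiffAt ℝ ∞ (fun w => φ (YauCh_635.Tm A j i w)) z :=
      hφ.contDiffAt.comp z (h1.contDiffAt.restrict_scalars ℝ)
    refine h2.congr_of_eventuallyEq ?_
    have h3 : ∀ᶠ w in 𝓝 z, (A.e j).symm w ∈ (A.e i).source :=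
      ((A.e j).continuousAt_symm hz).eventually ((A.e i).open_source.mem_nhds hi)
    filter_upwards [h3] with w hw
    rw [ext0_mem hw]
    rfl
  · have h0 : (A.e j).symm z ∉ (A.e i).symm '' tsupport φ := by
      rintro ⟨y, hy, he⟩
      apply hi
      rw [← he]
      exact (A.e i).map_target (hs hy)
    have h3 : ∀ᶠ w in 𝓝 z, (A.e j).symm w ∉ (A.e i).symm '' tsupport φ :=
      ((A.e j).continuousAt_symm hz).eventually ((ext0_closed hc hs).isOpen_compl.mem_nhds h0)
    refine (contDiffAt_const (c := (0 : ℝ))).congr_of_eventuallyEq ?_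
    filter_upwards [h3] with w hw
    exact ext0_zero hw

theorem ext0_read {i : A.ι} {φ : Cn n → ℝ} {z : Cn n} (hz : z ∈ (A.e i).target) :
    ext0 A i φ ((A.e i).symm z) = φ z := by
  rw [ext0_mem ((A.e i).map_target hz), (A.e i).right_inv hz]

/-- the Laplacian in a chart -/
theorem lapK_read (K : Kah A) {u : M → ℝ} (hu : A.Sm u) (i : A.ι) {z : Cn n}
    (hz : z ∈ (A.e i).target) :
    lapK K u ((A.e i).symm z) * (volK K).w i ((A.e i).symm z) =
      (((K.g i ((A.e i).symm z)).adjugate * cH (fun z => u ((A.e i).symm z)) z).trace).re := by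
  have hx := (A.e i).map_target hz
  rw [lapK_eq K hu hx, cH_eq_hess (ContDiffOn.contDiffAt (hu i) ((A.e i).open_target.mem_nhds hz)),
    ← hsf_read u i hz, trace_adj K _ hx, ← volK_w K i hx, Complex.re_mul_ofReal]

theorem lapK_zero_of (K : Kah A) {u : M → ℝ} (hu : A.Sm u) {x : M} (h : u =ᶠ[𝓝 x] fun _ => 0) :
    lapK K u x = 0 := by
  have hz := (A.e (ci A x)).map_source (mem_ci x)
  have h1 : (fun z => u ((A.e (ci A x)).symm z)) =ᶠ[𝓝 (A.e (ci A x) x)] fun _ => (0 : ℝ) := by
    have hc : Tendsto (A.e (ci A x)).symm (𝓝 (A.e (ci A x) x)) (𝓝 x) := by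
      have := (A.e (ci A x)).continuousAt_symm hz
      rw [ContinuousAt, (A.e (ci A x)).left_inv (mem_ci x)] at this
      exact this
    exact hc.eventually h
  have h2 : hsf A u (ci A x) x = 0 := by
    unfold hsf
    rw [← cH_eq_hess (ContDiffOn.contDiffAt (hu _) ((A.e _).open_target.mem_nhds hz))]
    refine cH_zero_of ?_
    rw [notMem_tsupport_iff_eventuallyEq]
    exact h1
  unfold lapK trK
  rw [h2, mul_zero, Matrix.trace_zero, Complex.zero_re]

/-- the cofactor matrix -/
theorem df_adj (K : Kah A) (i : A.ι) :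
    DF (A.e i).target (fun z => (K.g i ((A.e i).symm z)).adjugate) where
  sm a b := smAt_adj (kah_cf K) i b a
  pd z hz := by
    have hx := (A.e i).map_target hz
    have hp := K.pos i _ hx
    have h1 : (K.g i ((A.e i).symm z)).adjugate =
        (K.g i ((A.e i).symm z)).det • (K.g i ((A.e i).symm z))⁻¹ := by
      rw [Matrix.inv_def, smul_smul,
        Ring.mul_inverse_cancel _ (isUnit_iff_ne_zero.2 (K_det_ne K hx)), one_smul]
    rw [h1]
    exact hp.inv.smul hp.det_pos
  dv z hz a := by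
    have h1 := Piola_5.piola (m := fun w => K.g i ((A.e i).symm w)) (z := z)
      (fun a b => (kah_cf K).diffAt hz a b) (fun a b c => K.closed i z hz a b c) a
    simpa only [dj_eq_wd] using h1

/-! ### the `L²` bound -/

section glob

variable [T2Space M] [CompactSpace M] [MeasurableSpace M] [BorelSpace M]

theorem int_cont {μ : Measure M} [IsFiniteMeasure μ] {f : M → ℝ} (hf : Continuous f) :
    Integrable f μ := hf.integrable_of_hasCompactSupport (HasCompactSupport.of_compactSpace f)

theorem enorm_sq_eq (x : ℝ) : ‖x‖ₑ ^ 2 = ENNReal.ofReal (x ^ 2) := by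
  rw [Real.enorm_eq_ofReal_abs, ← ENNReal.ofReal_pow (abs_nonneg _), sq_abs]

theorem DD_univ (μ : Measure M) [IsFiniteMeasure μ] {w : M → ℝ} (hw : Continuous w) :
    DD μ univ univ w =
      ENNReal.ofReal (2 * (μ.real univ * ∫ x, w x ^ 2 ∂μ - (∫ x, w x ∂μ) ^ 2)) := by
  set I := ∫ x, w x ∂μ with hI
  set J := ∫ x, w x ^ 2 ∂μ with hJ
  set V := μ.real univ with hV
  have h1 : ∀ x, ∫⁻ y in univ, ‖w x - w y‖ₑ ^ 2 ∂μ =
      ENNReal.ofReal (V * w x ^ 2 - 2 * I * w x + J) := by
    intro x
    rw [Measure.restrict_univ]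
    simp only [enorm_sq_eq]
    rw [← ofReal_integral_eq_lintegral_ofReal (int_cont (by fun_prop))
      (Eventually.of_forall fun y => sq_nonneg _)]
    congr 1
    have e : ∀ y, (w x - w y) ^ 2 = w x ^ 2 - 2 * w x * w y + w y ^ 2 := fun y => by ring
    simp only [e]
    rw [integral_add (int_cont (by fun_prop)) (int_cont (by fun_prop)),
      integral_sub (int_cont (by fun_prop)) (int_cont (by fun_prop)), integral_const,
      integral_const_mul, smul_eq_mul]
    ring
  unfold DD
  simp only [h1]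
  rw [Measure.restrict_univ]
  have hnn : ∀ x, 0 ≤ V * w x ^ 2 - 2 * I * w x + J := by
    intro x
    have e : ∫ y, (w x - w y) ^ 2 ∂μ = V * w x ^ 2 - 2 * I * w x + J := by
      have e : ∀ y, (w x - w y) ^ 2 = w x ^ 2 - 2 * w x * w y + w y ^ 2 := fun y => by ring
      simp only [e]
      rw [integral_add (int_cont (by fun_prop)) (int_cont (by fun_prop)),
        integral_sub (int_cont (by fun_prop)) (int_cont (by fun_prop)), integral_const,
        integral_const_mul, smul_eq_mul]
      ring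
    rw [← e]
    exact integral_nonneg fun y => sq_nonneg _
  rw [← ofReal_integral_eq_lintegral_ofReal (int_cont (by fun_prop))
    (Eventually.of_forall hnn)]
  congr 1
  rw [integral_add (int_cont (by fun_prop)) (int_cont (by fun_prop)),
    integral_sub (int_cont (by fun_prop)) (int_cont (by fun_prop)), integral_const,
    integral_const_mul, integral_const_mul, smul_eq_mul]
  ring

variable [Finite A.ι]

theorem poincare_real [ConnectedSpace M] (K : Kah A) : ∃ C : ℝ, 0 ≤ C ∧ ∀ w : M → ℝ, A.Sm w →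
    (vm (volK K)).real univ * ∫ x, w x ^ 2 ∂(vm (volK K)) - (∫ x, w x ∂(vm (volK K))) ^ 2
      ≤ C * ∫ x, grK K w w x ∂(vm (volK K)) := by
  have := isFinite_vm (volK K)
  obtain ⟨C, hC, h⟩ := poincare_M K
  refine ⟨C.toReal, ENNReal.toReal_nonneg, fun w hw => ?_⟩
  have h1 := h w hw
  have hg := sm_continuous (sm_grK K hw hw)
  have h2 : EE K w = ENNReal.ofReal (∫ x, grK K w w x ∂(vm (volK K))) := by
    unfold EE
    rw [ofReal_integral_eq_lintegral_ofReal (int_cont hg)
      (Eventually.of_forall fun x => grK_nonneg K w x)]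
  have h3 : 0 ≤ ∫ x, grK K w w x ∂(vm (volK K)) := integral_nonneg fun x => grK_nonneg K w x
  rw [DD_univ _ (sm_continuous hw), h2, ← ENNReal.ofReal_toReal hC,
    ← ENNReal.ofReal_mul ENNReal.toReal_nonneg,
    ENNReal.ofReal_le_ofReal_iff (mul_nonneg ENNReal.toReal_nonneg h3)] at h1
  have h4 : 0 ≤ C.toReal * ∫ x, grK K w w x ∂(vm (volK K)) :=
    mul_nonneg ENNReal.toReal_nonneg h3
  linarith

theorem vm_pos [ConnectedSpace M] (K : Kah A) : 0 < (vm (volK K)).real univ := by
  have := isFinite_vm (volK K)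
  have := isOpenPos_vm (volK K)
  exact ENNReal.toReal_pos (isOpen_univ.measure_ne_zero _ univ_nonempty) (measure_ne_top _ _)

/-- `∫ (w - mean w)² ≤ C ∫ (Δ w)²` -/
theorem lap_l2 [ConnectedSpace M] (K : Kah A) (P : Part A) : ∃ C : ℝ, 0 ≤ C ∧
    ∀ w : M → ℝ, A.Sm w → ∀ m : ℝ, m * (vm (volK K)).real univ = ∫ x, w x ∂(vm (volK K)) →
      ∫ x, (w x - m) ^ 2 ∂(vm (volK K)) ≤ C * ∫ x, lapK K w x ^ 2 ∂(vm (volK K)) := by
  have := isFinite_vm (volK K)
  obtain ⟨C, hC, h⟩ := poincare_real K
  set μ := vm (volK K) with hμ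
  set V := μ.real univ with hV
  have hV0 : 0 < V := vm_pos K
  refine ⟨(C / V) ^ 2, by positivity, fun w hw m hm => ?_⟩
  have hwc := sm_continuous hw
  have hlc := sm_continuous (sm_lapK K hw)
  have h1 := h w hw
  -- `∫ grK = - ∫ (w - m) Δw`
  have h2 : ∫ x, grK K w w x ∂μ = - ∫ x, (w x - m) * lapK K w x ∂μ := by
    have e1 := integral_mul_lapK K P hw hw
    have e2 := integral_lapK K P hw
    have e3 : ∫ x, (w x - m) * lapK K w x ∂μ =
        ∫ x, w x * lapK K w x ∂μ - m * ∫ x, lapK K w x ∂μ := by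
      have i1 : Integrable (fun x => w x * lapK K w x) μ := int_cont (hwc.mul hlc)
      have i2 : Integrable (fun x => m * lapK K w x) μ := int_cont (continuous_const.mul hlc)
      rw [← integral_const_mul, ← integral_sub i1 i2]
      refine integral_congr_ae (Eventually.of_forall fun x => ?_)
      simp only
      ring
    rw [e3, e2, e1]
    ring
  -- `∫ (w - m)²`
  have h3 : V * ∫ x, (w x - m) ^ 2 ∂μ = V * ∫ x, w x ^ 2 ∂μ - (∫ x, w x ∂μ) ^ 2 := by
    have e : ∀ x, (w x - m) ^ 2 = w x ^ 2 - 2 * m * w x + m ^ 2 := fun x => by ring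
    simp only [e]
    rw [integral_add (int_cont (by fun_prop)) (int_cont (by fun_prop)),
      integral_sub (int_cont (by fun_prop)) (int_cont (by fun_prop)), integral_const,
      integral_const_mul, smul_eq_mul, ← hm, ← hV]
    ring
  rw [← h3, h2] at h1
  set X := ∫ x, (w x - m) ^ 2 ∂μ with hX
  set Y := ∫ x, lapK K w x ^ 2 ∂μ with hY
  have hY0 : 0 ≤ Y := integral_nonneg fun x => sq_nonneg _
  rcases eq_or_lt_of_le hC with hC0 | hC0
  · have : V * X ≤ 0 := by rw [← hC0] at h1; simpa using h1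
    have hX0 : X ≤ 0 := by nlinarith
    exact hX0.trans (by positivity)
  · -- Young
    have h4 : - ∫ x, (w x - m) * lapK K w x ∂μ ≤ (V / (2 * C)) * X + (C / (2 * V)) * Y := by
      rw [← integral_neg, hX, hY, ← integral_const_mul, ← integral_const_mul,
        ← integral_add (int_cont (by fun_prop)) (int_cont (by fun_prop))]
      refine integral_mono (int_cont (by fun_prop)) (int_cont (by fun_prop)) fun x => ?_
      simp only
      have h5 : 0 ≤ (V / (2 * C)) * ((w x - m) + (C / V) * lapK K w x) ^ 2 := by positivity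
      have h6 : (V / (2 * C)) * ((w x - m) + (C / V) * lapK K w x) ^ 2
          = V / (2 * C) * (w x - m) ^ 2 + (w x - m) * lapK K w x
            + C / (2 * V) * lapK K w x ^ 2 := by
        field_simp
        ring
      linarith
    have h7 : V * X ≤ V / 2 * X + C ^ 2 / (2 * V) * Y := by
      refine h1.trans ((mul_le_mul_of_nonneg_left h4 hC0.le).trans_eq ?_)
      field_simp
    have h8 : V / 2 * X ≤ C ^ 2 / (2 * V) * Y := by linarith
    have h9 : X = (2 / V) * (V / 2 * X) := by field_simp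
    rw [h9]
    calc (2 / V) * (V / 2 * X) ≤ (2 / V) * (C ^ 2 / (2 * V) * Y) := by gcongr
      _ = _ := by field_simp

end glob

end

end Crest.Agent.R273.CLin_933
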