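import Crest.Agent.R238.SchFrozen
import Crest.Agent.R238.BootC
import Crest.Agent.R238.RegNL
import Crest.Agent.R238.SchMain

/-!
# R273 (S0416), Part C, C-REG (helper933), file A: the difference quotient step

Families `F z : E n → ℝ`, `‖z‖ ≤ δ`: `Bd` (bounded in `C^a`), `Sm` (`O(‖z‖)` in `C^a`).
`dq_step`: if the differences `v(·+z) - v` solve uniformly elliptic equations with Hölder
coefficients and right hand sides of size `O(‖z‖)` on a ball, then the second derivatives of `v`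
are `C^{1,a}` on a smaller ball.
-/

set_option autoImplicit false

open MeasureTheory Set Filter Metric
open scoped ContDiff Topology

namespace Crest.Agent.R273.CReg_933

open Crest.Agent.R238 Crest.Agent.R238.Boot

variable {n : ℕ}

/-- family bounded in `C^a` for `‖z‖ ≤ δ` -/
def Bd (a δ : ℝ) (F : E n → E n → ℝ) : Prop := ∃ C, ∀ z, ‖z‖ ≤ δ → HB a C (F z)

/-- family of size `O(‖z‖)` in `C^a` -/
def Sm (a δ : ℝ) (F : E n → E n → ℝ) : Prop := ∃ C, ∀ z, ‖z‖ ≤ δ → HB a (C * ‖z‖) (F z)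

theorem Bd.of_hb {a δ M : ℝ} {f : E n → ℝ} (h : HB a M f) : Bd a δ (fun _ => f) :=
  ⟨M, fun _ _ => h⟩

theorem Bd.add {a δ : ℝ} {F G : E n → E n → ℝ} (h : Bd a δ F) (h' : Bd a δ G) :
    Bd a δ (fun z x => F z x + G z x) := by
  obtain ⟨C, hC⟩ := h
  obtain ⟨C', hC'⟩ := h'
  exact ⟨C + C', fun z hz => Boot.HB.add (hC z hz) (hC' z hz)⟩

theorem Bd.mul {a δ : ℝ} {F G : E n → E n → ℝ} (h : Bd a δ F) (h' : Bd a δ G) :
    Bd a δ (fun z x => F z x * G z x) := by
  obtain ⟨C, hC⟩ := h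
  obtain ⟨C', hC'⟩ := h'
  exact ⟨2 * (C * C'), fun z hz => Boot.HB.mul (hC z hz) (hC' z hz)⟩

theorem Sm.add {a δ : ℝ} {F G : E n → E n → ℝ} (h : Sm a δ F) (h' : Sm a δ G) :
    Sm a δ (fun z x => F z x + G z x) := by
  obtain ⟨C, hC⟩ := h
  obtain ⟨C', hC'⟩ := h'
  refine ⟨C + C', fun z hz => ?_⟩
  rw [add_mul]
  exact Boot.HB.add (hC z hz) (hC' z hz)

theorem Sm.neg {a δ : ℝ} {F : E n → E n → ℝ} (h : Sm a δ F) :
    Sm a δ (fun z x => - F z x) := by
  obtain ⟨C, hC⟩ := h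
  exact ⟨C, fun z hz => Boot.HB.neg (hC z hz)⟩

theorem Sm.sub {a δ : ℝ} {F G : E n → E n → ℝ} (h : Sm a δ F) (h' : Sm a δ G) :
    Sm a δ (fun z x => F z x - G z x) := by
  simpa only [sub_eq_add_neg] using h.add h'.neg

theorem Bd.mul_sm {a δ : ℝ} {F G : E n → E n → ℝ} (h : Bd a δ F) (h' : Sm a δ G) :
    Sm a δ (fun z x => F z x * G z x) := by
  obtain ⟨C, hC⟩ := h
  obtain ⟨C', hC'⟩ := h'
  refine ⟨2 * (C * C'), fun z hz => ?_⟩
  have := Boot.HB.mul (hC z hz) (hC' z hz)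
  convert this using 1
  ring

theorem Sm.mul_bd {a δ : ℝ} {F G : E n → E n → ℝ} (h : Sm a δ F) (h' : Bd a δ G) :
    Sm a δ (fun z x => F z x * G z x) := by
  simpa only [mul_comm] using h'.mul_sm h

theorem Sm.sum {a δ : ℝ} {ι : Type*} (s : Finset ι) {F : ι → E n → E n → ℝ}
    (h : ∀ i ∈ s, Sm a δ (F i)) : Sm a δ (fun z x => ∑ i ∈ s, F i z x) := by
  classical
  induction s using Finset.induction_on with
  | empty =>
    refine ⟨0, fun z _ => ?_⟩
    simp only [Finset.sum_empty, zero_mul]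
    have := hb_const (n := n) a 0
    rwa [abs_zero] at this
  | insert i s hi ih =>
    have h1 := (h i (by simp)).add (ih fun j hj => h j (by simp [hj]))
    simpa only [Finset.sum_insert hi] using h1

theorem Sm.congr {a δ : ℝ} {F G : E n → E n → ℝ} (h : Sm a δ F)
    (he : ∀ z, ‖z‖ ≤ δ → ∀ x, G z x = F z x) : Sm a δ G := by
  obtain ⟨C, hC⟩ := h
  exact ⟨C, fun z hz => by
    have : G z = F z := funext (he z hz)
    rw [this]; exact hC z hz⟩

theorem Sm.bd {a δ : ℝ} {F : E n → E n → ℝ} (h : Sm a δ F) : Bd a δ F := by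
  obtain ⟨C, hC⟩ := h
  refine ⟨|C| * δ, fun z hz => Boot.HB.mono (hC z hz) ?_⟩
  exact (mul_le_mul_of_nonneg_right (le_abs_self C) (norm_nonneg z)).trans
    (mul_le_mul_of_nonneg_left hz (abs_nonneg C))

/-! ### differences of `CK` functions -/

theorem hb_const_mul {a M : ℝ} {f : E n → ℝ} (c : ℝ) (h : HB a M f) :
    HB a (|c| * M) (fun x => c * f x) := by
  refine ⟨fun x => ?_, fun x y => ?_⟩
  · rw [abs_mul]; exact mul_le_mul_of_nonneg_left (h.1 x) (abs_nonneg _)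
  · rw [← mul_sub, abs_mul, mul_assoc]
    exact mul_le_mul_of_nonneg_left (h.2 x y) (abs_nonneg _)

theorem hb_dir {a M : ℝ} {f : E n → ℝ} (h : ∀ i, HB a M (fun x => Boot.pd i f x)) (z : E n) :
    HB a (n * M * ‖z‖) (fun x => fderiv ℝ f x z) := by
  have e : (fun x => fderiv ℝ f x z) = fun x => ∑ i, z i * Boot.pd i f x := by
    funext x; exact fderiv_eq_sum_pd _ _ _
  rw [e]
  rcases Nat.eq_zero_or_pos n with hn | hn
  · subst hn
    simp only [Finset.univ_eq_empty, Finset.sum_empty, Nat.cast_zero, zero_mul]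
    have := hb_const (n := 0) a 0
    rwa [abs_zero] at this
  have hM : 0 ≤ M := Boot.HB.nonneg (h ⟨0, hn⟩)
  refine ⟨fun x => ?_, fun x y => ?_⟩
  · calc |∑ i, z i * Boot.pd i f x| ≤ ∑ i, |z i * Boot.pd i f x| := Finset.abs_sum_le_sum_abs _ _
      _ ≤ ∑ _i : Fin n, ‖z‖ * M := Finset.sum_le_sum fun i _ => by
          rw [abs_mul]
          exact mul_le_mul (abs_coord_le z i) ((h i).1 x) (abs_nonneg _) (norm_nonneg _)
      _ = n * M * ‖z‖ := by
          rw [Finset.sum_const, Finset.card_univ, Fintype.card_fin, nsmul_eq_mul]; ring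
  · rw [← Finset.sum_sub_distrib]
    calc |∑ i, (z i * Boot.pd i f x - z i * Boot.pd i f y)|
        ≤ ∑ i, |z i * Boot.pd i f x - z i * Boot.pd i f y| := Finset.abs_sum_le_sum_abs _ _
      _ ≤ ∑ _i : Fin n, ‖z‖ * (M * ‖x - y‖ ^ a) := Finset.sum_le_sum fun i _ => by
          rw [← mul_sub, abs_mul]
          exact mul_le_mul (abs_coord_le z i) ((h i).2 x y) (abs_nonneg _) (norm_nonneg _)
      _ = n * M * ‖z‖ * ‖x - y‖ ^ a := by
          rw [Finset.sum_const, Finset.card_univ, Fintype.card_fin, nsmul_eq_mul]; ring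

theorem hb_unif {a : ℝ} {ι : Type*} [Fintype ι] {F : ι → E n → ℝ} (h : ∀ i, ∃ M, HB a M (F i)) :
    ∃ M, 0 ≤ M ∧ ∀ i, HB a M (F i) := by
  choose M hM using h
  have h0 : ∀ i, 0 ≤ M i := fun i => Boot.HB.nonneg (hM i)
  exact ⟨∑ i, M i, Finset.sum_nonneg fun i _ => h0 i, fun i => Boot.HB.mono (hM i)
    (Finset.single_le_sum (fun j _ => h0 j) (Finset.mem_univ i))⟩

theorem sm_dq {a δ : ℝ} {f : E n → ℝ} (h : CK a 1 f) : Sm a δ (fun z => dq z f) := by
  obtain ⟨M, -, hM⟩ := hb_unif (fun i => (h.pd i : CK a 0 _).hb)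
  exact ⟨n * M, fun z _ => NL.HB_dq h.diff (hb_dir hM z)⟩

theorem ck_pd_dq {a : ℝ} {k : ℕ} {f : E n → ℝ} (h : CK a (k + 1) f) (z : E n) (i : Fin n) :
    Boot.pd i (dq z f) = dq z (Boot.pd i f) := by
  funext x
  unfold Boot.pd
  rw [NL.fderiv_dq h.diff]
  rfl

theorem ck_translate {a : ℝ} {k : ℕ} {f : E n → ℝ} (h : CK a k f) (z : E n) :
    CK a k (fun x => f (x + z)) := by
  induction k generalizing f with
  | zero =>
    obtain ⟨M, hM⟩ := h
    exact ⟨M, Boot.HB.comp_add hM z⟩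
  | succ k ih =>
    obtain ⟨M, hM⟩ := h.hb
    refine ⟨⟨M, Boot.HB.comp_add hM z⟩, ?_, fun i => ?_⟩
    · exact fun x => ((hasFDerivAt_comp_add_right z).2 (h.diff (x + z)).hasFDerivAt).differentiableAt
    · have e : (fun x => fderiv ℝ (fun x => f (x + z)) x (ee i))
          = fun x => Boot.pd i f (x + z) := by
        funext x
        rw [fderiv_comp_add_right]
        rfl
      rw [e]
      exact ih (h.pd i)

theorem ck_dq {a : ℝ} {k : ℕ} {f : E n → ℝ} (h : CK a k f) (z : E n) : CK a k (dq z f) :=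
  CK.sub (ck_translate h z) h

theorem ck_hs {a : ℝ} {k : ℕ} (ha : 0 < a) {f : E n → ℝ} (h : CK a (k + 2) f) (i j : Fin n) :
    CK a k (fun x => Hs f x i j) := by
  have h2 : ContDiff ℝ 2 f := by
    exact_mod_cast CK.contDiff ha (h.of_le (by omega : 2 ≤ k + 2))
  have e : (fun x => Hs f x i j) = Boot.pd i (Boot.pd j f) := by
    funext x; exact (pd_pd_eq h2 i j x).symm
  rw [e]
  exact (h.pd j).pd i

/-- smooth compactly supported functions are in all classes -/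
theorem ck_smooth {a : ℝ} (ha : 0 < a) (ha1 : a ≤ 1) (k : ℕ) {f : E n → ℝ}
    (hf : ContDiff ℝ ∞ f) (hc : HasCompactSupport f) : CK a k f := by
  induction k generalizing f with
  | zero => exact SF.hb_of_c1 ha.le ha1 (hf.of_le (by simp)) hc
  | succ k ih =>
    refine ⟨SF.hb_of_c1 ha.le ha1 (hf.of_le (by simp)) hc, hf.differentiable (by simp),
      fun i => ih ?_ ?_⟩
    · exact (hf.fderiv_right (m := ∞) (by simp)).clm_apply contDiff_const
    · refine (hc.fderiv (𝕜 := ℝ)).mono ?_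
      intro x hx
      simp only [Function.mem_support] at hx ⊢
      intro h; apply hx; simp [h]

/-! ### the difference quotient step -/

theorem ell_weaken {lo hi lo' hi' : ℝ} (h1 : lo' ≤ lo) (h2 : hi ≤ hi')
    {A : Matrix (Fin n) (Fin n) ℝ} (h : Ell lo hi A) : Ell lo' hi' A := by
  refine ⟨h.1, fun z => ?_⟩
  have hs : 0 ≤ ∑ i, z i ^ 2 := Finset.sum_nonneg fun i _ => sq_nonneg _
  exact ⟨(mul_le_mul_of_nonneg_right h1 hs).trans (h.2 z).1,
    (h.2 z).2.trans (mul_le_mul_of_nonneg_right h2 hs)⟩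

theorem ell_one {lo hi : ℝ} (h1 : lo ≤ 1) (h2 : 1 ≤ hi) :
    Ell lo hi (1 : Matrix (Fin n) (Fin n) ℝ) :=
  Sch.ell_one' h1 h2

theorem ell_convex {lo hi t : ℝ} (ht0 : 0 ≤ t) (ht1 : t ≤ 1) {A B : Matrix (Fin n) (Fin n) ℝ}
    (hA : Ell lo hi A) (hB : Ell lo hi B) :
    Ell lo hi (fun i j => t * A i j + (1 - t) * B i j) := by
  refine ⟨fun i j => by simp only; rw [hA.1 i j, hB.1 i j], fun z => ?_⟩
  have e : ∑ i, ∑ j, (t * A i j + (1 - t) * B i j) * z i * z j
      = t * (∑ i, ∑ j, A i j * z i * z j) + (1 - t) * ∑ i, ∑ j, B i j * z i * z j := by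
    simp only [Finset.mul_sum, ← Finset.sum_add_distrib]
    exact Finset.sum_congr rfl fun i _ => Finset.sum_congr rfl fun j _ => by ring
  rw [e]
  obtain ⟨a1, a2⟩ := hA.2 z
  obtain ⟨b1, b2⟩ := hB.2 z
  have h1 := sub_nonneg.2 ht1
  constructor
  · nlinarith [mul_le_mul_of_nonneg_left a1 ht0, mul_le_mul_of_nonneg_left b1 h1]
  · nlinarith [mul_le_mul_of_nonneg_left a2 ht0, mul_le_mul_of_nonneg_left b2 h1]

/-- **the difference quotient step** -/
theorem dq_step {a : ℝ} (ha : 0 < a) (ha1 : a < 1) {x0 : E n} {r : ℝ} (hr : 0 < r)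
    {v : E n → ℝ} (hv : CK a 2 v) {δ : ℝ} (hδ : 0 < δ)
    {A : E n → E n → Matrix (Fin n) (Fin n) ℝ} {G : E n → E n → ℝ} {lo hi K N : ℝ}
    (hlo : 0 < lo) (hlohi : lo ≤ hi)
    (hell : ∀ z, ‖z‖ ≤ δ → ∀ x ∈ ball x0 (4 * r), Ell lo hi (A z x))
    (hA : ∀ z, ‖z‖ ≤ δ → ∀ i j, SF.HBon a K (ball x0 (4 * r)) (fun x => A z x i j))
    (hG : ∀ z, ‖z‖ ≤ δ → SF.HBon a (N * ‖z‖) (ball x0 (4 * r)) (G z))
    (heq : ∀ z, ‖z‖ ≤ δ → ∀ x ∈ ball x0 (4 * r),
      ∑ i, ∑ j, A z x i j * Hs (dq z v) x i j = G z x) (i j : Fin n) :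
    ∃ F : E n → ℝ, CK a 1 F ∧ ∀ x ∈ ball x0 (r / 2), F x = Hs v x i j := by
  have hv2 : ContDiff ℝ 2 v := by exact_mod_cast CK.contDiff ha hv
  -- cut-offs
  let χ : ContDiffBump x0 := ⟨r, 2 * r, hr, by linarith⟩
  let η : ContDiffBump x0 := ⟨2 * r, 3 * r, by linarith, by linarith⟩
  let ζ : ContDiffBump x0 := ⟨r / 2, r, by linarith, by linarith⟩
  have hχ : ContDiff ℝ ∞ (χ : E n → ℝ) := χ.contDiff
  have hη : ContDiff ℝ ∞ (η : E n → ℝ) := η.contDiff
  have hζ : ContDiff ℝ ∞ (ζ : E n → ℝ) := ζ.contDiff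
  have hχ2 : ContDiff ℝ 2 (χ : E n → ℝ) := χ.contDiff
  have hχk : ∀ k, CK a k (χ : E n → ℝ) := fun k => ck_smooth ha ha1.le k hχ χ.hasCompactSupport
  have hηk : ∀ k, CK a k (η : E n → ℝ) := fun k => ck_smooth ha ha1.le k hη η.hasCompactSupport
  have hζk : ∀ k, CK a k (ζ : E n → ℝ) := fun k => ck_smooth ha ha1.le k hζ ζ.hasCompactSupport
  have hη1 : ∀ x ∈ closedBall x0 (2 * r), η x = 1 := fun x hx => η.one_of_mem_closedBall hx
  have hη0 : ∀ x ∉ ball x0 (4 * r), η x = 0 := fun x hx => η.zero_of_le_dist (by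
    rw [mem_ball, not_lt] at hx
    show 3 * r ≤ _
    linarith)
  have hχ1 : ∀ x ∈ closedBall x0 r, χ x = 1 := fun x hx => χ.one_of_mem_closedBall hx
  have hχout : ∀ x ∉ closedBall x0 (2 * r), (χ : E n → ℝ) =ᶠ[𝓝 x] fun _ => 0 := by
    intro x hx
    have ho : IsOpen (closedBall x0 (2 * r))ᶜ := isClosed_closedBall.isOpen_compl
    filter_upwards [ho.mem_nhds hx] with y hy
    apply χ.zero_of_le_dist
    simp only [mem_compl_iff, mem_closedBall, not_le] at hy
    exact hy.le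
  have hcb : closedBall x0 (2 * r) ⊆ ball x0 (4 * r) := closedBall_subset_ball (by linarith)
  -- the extended coefficients
  set τ : E n → E n → Matrix (Fin n) (Fin n) ℝ := fun z x i j =>
    η x * A z x i j + (1 - η x) * (1 : Matrix (Fin n) (Fin n) ℝ) i j with hτ
  have hτell : ∀ z, ‖z‖ ≤ δ → ∀ x, Ell (min lo 1) (max hi 1) (τ z x) := by
    intro z hz x
    by_cases hx : x ∈ ball x0 (4 * r)
    · exact ell_convex η.nonneg η.le_one
        (ell_weaken (min_le_left _ _) (le_max_left _ _) (hell z hz x hx))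
        (ell_one (min_le_right _ _) (le_max_right _ _))
    · have e : τ z x = 1 := by
        ext i j; simp [hτ, hη0 x hx]
      rw [e]
      exact ell_one (min_le_right _ _) (le_max_right _ _)
  obtain ⟨Xη, hXη⟩ := (hηk 0).hb
  have hK' : ∃ K', 0 ≤ K' ∧ ∀ z, ‖z‖ ≤ δ → ∀ i j, HB a K' (fun x => τ z x i j) := by
    refine ⟨2 * (|K| * Xη) + 2 * ((1 + Xη) * 1), ?_, fun z hz i j => ?_⟩
    · have := Boot.HB.nonneg hXη
      positivity
    have h1 : HB a (2 * (|K| * Xη)) (fun x => A z x i j * η x) := by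
      refine SF.HBon.mul (abs_nonneg K) ?_ hXη hη0
      exact ⟨fun x hx => ((hA z hz i j).1 x hx).trans (le_abs_self K), fun x hx y hy =>
        ((hA z hz i j).2 x hx y hy).trans (mul_le_mul_of_nonneg_right (le_abs_self K)
          (Real.rpow_nonneg (norm_nonneg _) _))⟩
    have h2 : HB a (|(1:ℝ)| + Xη) (fun x => (1 : ℝ) - η x) := Boot.HB.sub (hb_const a 1) hXη
    rw [abs_one] at h2
    have h3 : HB a |(1 : Matrix (Fin n) (Fin n) ℝ) i j|
        (fun _ : E n => (1 : Matrix (Fin n) (Fin n) ℝ) i j) := hb_const a _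
    have h3' : HB a 1 (fun _ : E n => (1 : Matrix (Fin n) (Fin n) ℝ) i j) := by
      refine Boot.HB.mono h3 ?_
      by_cases hij : i = j <;> simp [Matrix.one_apply, hij]
    have h4 := Boot.HB.add h1 (Boot.HB.mul h2 h3')
    refine Boot.HB.mono (M := 2 * (|K| * Xη) + 2 * ((1 + Xη) * 1)) ?_ le_rfl
    convert h4 using 2 with x
    simp only [hτ]
    ring
  obtain ⟨K', hK'0, hτK⟩ := hK'
  have hfar : ∀ ε₀ : ℝ, 0 < ε₀ → ∀ z, ‖z‖ ≤ δ → Apr.Far a ε₀ (‖x0‖ + 4 * r) (τ z) := by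
    intro ε₀ hε₀ z hz x y hx hy i j
    have hout : ∀ w : E n, ‖x0‖ + 4 * r ≤ ‖w‖ → w ∉ ball x0 (4 * r) := by
      intro w hw hwb
      rw [mem_ball, dist_eq_norm] at hwb
      have := norm_sub_norm_le w x0
      linarith
    have e : ∀ w : E n, ‖x0‖ + 4 * r ≤ ‖w‖ → τ z w i j = (1 : Matrix (Fin n) (Fin n) ℝ) i j := by
      intro w hw
      simp [hτ, hη0 w (hout w hw)]
    rw [e x hx, e y hy]
    simp only [sub_self, abs_zero]
    exact ⟨hε₀.le, mul_nonneg hε₀.le (Real.rpow_nonneg (norm_nonneg _) _)⟩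
  obtain ⟨ε₀, hε₀, HS⟩ := Sch.schStmt n a (min lo 1) (max hi 1) ha ha1 (lt_min hlo one_pos)
    ((min_le_left _ _).trans (hlohi.trans (le_max_left _ _)))
  obtain ⟨C, R', hC, HS⟩ := HS K' (‖x0‖ + 4 * r)
  -- the cut function
  have hwk : ∀ z, CK a 2 (dq z v) := fun z => ck_dq hv z
  have hw2 : ∀ z, ContDiff ℝ 2 (dq z v) := fun z => NL.contDiff_dq hv2 z
  have hhk : ∀ z, CK a 2 (fun x => χ x * dq z v x) := fun z => CK.mul (hχk 2) (hwk z)
  have hh2 : ∀ z, ContDiff ℝ 2 (fun x => χ x * dq z v x) := fun z => hχ2.mul (hw2 z)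
  -- small families
  have sw : Sm a δ (fun z => dq z v) := sm_dq (hv.of_le (by norm_num))
  have sdw : ∀ i, Sm a δ (fun z x => SF.dd (dq z v) x i) := by
    intro i
    have h1 : Sm a δ (fun z => dq z (Boot.pd i v)) := sm_dq (hv.pd i)
    refine h1.congr fun z _ x => ?_
    have := congrFun (ck_pd_dq (k := 1) hv z i) x
    exact this
  have bχ1 : ∀ i, Bd a δ (fun _ x => SF.dd (χ : E n → ℝ) x i) := fun i => by
    obtain ⟨M, hM⟩ := ((hχk 1).pd i : CK a 0 _).hb
    exact Bd.of_hb hM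
  have bχ2 : ∀ i j, Bd a δ (fun _ x => Hs (χ : E n → ℝ) x i j) := fun i j => by
    obtain ⟨M, hM⟩ := (ck_hs (k := 0) ha (hχk 2) i j).hb
    exact Bd.of_hb hM
  have bτ : ∀ i j, Bd a δ (fun z x => τ z x i j) := fun i j => ⟨K', fun z hz => hτK z hz i j⟩
  have bx : ∀ i, Bd a δ (fun _ x => x i * χ x) := fun i => by
    have h1 : CK a 0 (fun x : E n => x i * χ x) := by
      refine ck_smooth ha ha1.le 0 ?_ ?_
      · exact ((EuclideanSpace.proj i : E n →L[ℝ] ℝ).contDiff).mul hχ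
      · exact χ.hasCompactSupport.mul_left
    obtain ⟨M, hM⟩ := h1.hb
    exact Bd.of_hb hM
  have bx1 : Bd a δ (fun _ x => fderiv ℝ (χ : E n → ℝ) x x) := by
    have h1 : CK a 0 (fun x : E n => fderiv ℝ (χ : E n → ℝ) x x) := by
      refine ck_smooth ha ha1.le 0 ?_ ?_
      · exact (hχ.fderiv_right (m := ∞) (by simp)).clm_apply contDiff_id
      · refine (χ.hasCompactSupport.fderiv (𝕜 := ℝ)).mono ?_
        intro x hx
        simp only [Function.mem_support] at hx ⊢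
        intro h; apply hx; simp [h]
    obtain ⟨M, hM⟩ := h1.hb
    exact Bd.of_hb hM
  -- the main term
  have sG : Sm a δ (fun z x => G z x * χ x) := by
    obtain ⟨X, hX⟩ := (hχk 0).hb
    refine ⟨2 * (|N| * X), fun z hz => ?_⟩
    have h1 : HB a (2 * (|N| * ‖z‖ * X)) (fun x => G z x * χ x) := by
      refine SF.HBon.mul (by positivity) ?_ hX (S := ball x0 (4 * r)) fun x hx => ?_
      · have hN : N * ‖z‖ ≤ |N| * ‖z‖ :=
          mul_le_mul_of_nonneg_right (le_abs_self N) (norm_nonneg z)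
        exact ⟨fun x hx => ((hG z hz).1 x hx).trans hN, fun x hx y hy =>
          ((hG z hz).2 x hx y hy).trans (mul_le_mul_of_nonneg_right hN
            (Real.rpow_nonneg (norm_nonneg _) _))⟩
      · have : x ∉ closedBall x0 (2 * r) := fun h => hx (hcb h)
        exact (hχout x this).self_of_nhds
    exact Boot.HB.mono h1 (by linarith)
  have hLA : Sm a δ (fun z => fun x => LA (τ z) (fun x => χ x * dq z v x) x
      + 0 * (χ x * dq z v x)) := by
    have T : Sm a δ (fun z x => G z x * χ x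
        + (∑ i, ∑ j, τ z x i j * (SF.dd (χ : E n → ℝ) x i * SF.dd (dq z v) x j))
        + (∑ i, ∑ j, τ z x i j * (SF.dd (χ : E n → ℝ) x j * SF.dd (dq z v) x i))
        + (∑ i, ∑ j, τ z x i j * (Hs (χ : E n → ℝ) x i j * dq z v x))
        - (∑ i, (x i * χ x) * SF.dd (dq z v) x i)
        - fderiv ℝ (χ : E n → ℝ) x x * dq z v x) := by
      refine Sm.sub (Sm.sub (Sm.add (Sm.add (Sm.add sG ?_) ?_) ?_) ?_) (bx1.mul_sm sw)
      · exact Sm.sum _ fun i _ => Sm.sum _ fun j _ => (bτ i j).mul_sm ((bχ1 i).mul_sm (sdw j))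
      · exact Sm.sum _ fun i _ => Sm.sum _ fun j _ => (bτ i j).mul_sm ((bχ1 j).mul_sm (sdw i))
      · exact Sm.sum _ fun i _ => Sm.sum _ fun j _ => (bτ i j).mul_sm ((bχ2 i j).mul_sm sw)
      · exact Sm.sum _ fun i _ => (bx i).mul_sm (sdw i)
    refine T.congr fun z hz x => ?_
    rw [zero_mul, add_zero]
    unfold LA
    rw [SF.fderiv_mul_apply hχ2 (hw2 z)]
    have e1 : ∑ i, ∑ j, τ z x i j * Hs (fun x => χ x * dq z v x) x i j
        = χ x * (∑ i, ∑ j, τ z x i j * Hs (dq z v) x i j)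
        + (∑ i, ∑ j, τ z x i j * (SF.dd (χ : E n → ℝ) x i * SF.dd (dq z v) x j))
        + (∑ i, ∑ j, τ z x i j * (SF.dd (χ : E n → ℝ) x j * SF.dd (dq z v) x i))
        + (∑ i, ∑ j, τ z x i j * (Hs (χ : E n → ℝ) x i j * dq z v x)) := by
      simp only [Finset.mul_sum, ← Finset.sum_add_distrib]
      refine Finset.sum_congr rfl fun i _ => Finset.sum_congr rfl fun j _ => ?_
      rw [SF.Hs_mul hχ2 (hw2 z)]
      ring
    have e2 : χ x * (∑ i, ∑ j, τ z x i j * Hs (dq z v) x i j) = G z x * χ x := by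
      by_cases hx : x ∈ closedBall x0 (2 * r)
      · have h1 : ∑ i, ∑ j, τ z x i j * Hs (dq z v) x i j
            = ∑ i, ∑ j, A z x i j * Hs (dq z v) x i j := by
          refine Finset.sum_congr rfl fun i _ => Finset.sum_congr rfl fun j _ => ?_
          simp [hτ, hη1 x hx]
        rw [h1, heq z hz x (hcb hx), mul_comm]
      · have : χ x = 0 := (hχout x hx).self_of_nhds
        rw [this]; ring
    have e3 : fderiv ℝ (dq z v) x x = ∑ i, x i * SF.dd (dq z v) x i :=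
      fderiv_eq_sum_pd _ _ _
    rw [e1, e2, e3]
    have e4 : χ x * ∑ i, x i * SF.dd (dq z v) x i = ∑ i, (x i * χ x) * SF.dd (dq z v) x i := by
      rw [Finset.mul_sum]
      exact Finset.sum_congr rfl fun i _ => by ring
    rw [e4]
    ring
  -- Schauder
  obtain ⟨N1, hN1⟩ := hLA
  obtain ⟨S1, hS1⟩ := (Bd.of_hb (δ := δ) (hχk 0).hb.choose_spec).mul_sm sw
  have key : ∀ z, ‖z‖ ≤ δ → ∀ i j, HB a (C * (N1 + S1) * ‖z‖)
      (fun x => Hs (fun x => χ x * dq z v x) x i j) := by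
    intro z hz i j
    have hB : ∃ B, ∀ i j, HB a B (fun x => Hs (fun x => χ x * dq z v x) x i j) := by
      obtain ⟨B, -, hB⟩ := hb_unif (ι := Fin n × Fin n) (a := a)
        (F := fun p x => Hs (fun x => χ x * dq z v x) x p.1 p.2)
        (fun p => (ck_hs (k := 0) ha (hhk z) p.1 p.2).hb)
      exact ⟨B, fun i j => hB (i, j)⟩
    have := HS (τ z) (hτell z hz) (hτK z hz) (hfar ε₀ hε₀ z hz) 0 (Or.inl rfl)
      (fun x => χ x * dq z v x) (N1 * ‖z‖) (S1 * ‖z‖) (hh2 z) hB (hN1 z hz)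
      (fun x _ => (hS1 z hz).1 x) i j
    convert this using 1
    ring
  -- conclusion
  refine ⟨fun x => ζ x * Hs v x i j, ?_, fun x hx => ?_⟩
  · have sF : Sm a δ (fun z => dq z (fun x => ζ x * Hs v x i j)) := by
      have s1 : Sm a δ (fun z x => ζ x * Hs (fun x => χ x * dq z v x) x i j) :=
        (Bd.of_hb (δ := δ) (hζk 0).hb.choose_spec).mul_sm ⟨_, fun z hz => key z hz i j⟩
      have s2 : Sm a δ (fun z x => dq z (ζ : E n → ℝ) x * Hs v (x + z) i j) := by
        refine (sm_dq (hζk 1)).mul_bd ?_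
        obtain ⟨M, hM⟩ := (ck_hs (k := 0) ha hv i j).hb
        exact ⟨M, fun z _ => Boot.HB.comp_add hM z⟩
      refine (s1.add s2).congr fun z hz x => ?_
      have e1 : ζ x * Hs (fun x => χ x * dq z v x) x i j = ζ x * Hs (dq z v) x i j := by
        by_cases hx : x ∈ ball x0 r
        · congr 1
          apply SF.Hs_congr
          filter_upwards [isOpen_ball.mem_nhds hx] with y hy
          rw [hχ1 y (ball_subset_closedBall hy), one_mul]
        · have : ζ x = 0 := ζ.zero_of_le_dist (by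
            rw [mem_ball, not_lt] at hx
            exact hx)
          rw [this, zero_mul, zero_mul]
      rw [e1, NL.Hs_dq hv2]
      unfold Boot.dq
      ring
    obtain ⟨N2, hN2⟩ := sF
    have hD : DQ a N2 δ (fun x => ζ x * Hs v x i j) := fun z hz => hN2 z hz
    obtain ⟨h1, h2⟩ := DQ.deriv ha hδ hD
    refine ⟨?_, h1.differentiable (by norm_num), fun k => ?_⟩
    · exact (CK.mul (hζk 0) (ck_hs (k := 0) ha hv i j)).hb
    · exact ⟨_, h2 (ee k)⟩
  · have : ζ x = 1 := ζ.one_of_mem_closedBall (ball_subset_closedBall hx)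
    simp only [this, one_mul]

end Crest.Agent.R273.CReg_933
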