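import Crest.Agent.R273.CRegA_933

/-!
# R273 (S0416), Part C, C-REG (helper933), file B: local Hölder classes

`LH a U f`    : `f` is locally bounded and `a`-Hölder on `U`
`LCK a k U f` : `k` derivatives, all locally bounded and `a`-Hölder on the open set `U`
-/

set_option autoImplicit false

open MeasureTheory Set Filter Metric
open scoped ContDiff Topology

namespace Crest.Agent.R273.CReg_933

open Crest.Agent.R238 Crest.Agent.R238.Boot

variable {n : ℕ}

theorem on_mono {a M M' : ℝ} {S S' : Set (E n)} {f : E n → ℝ} (h : SF.HBon a M S f)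
    (hM : M ≤ M') (hS : S' ⊆ S) : SF.HBon a M' S' f :=
  ⟨fun x hx => (h.1 x (hS hx)).trans hM, fun x hx y hy => (h.2 x (hS hx) y (hS hy)).trans
    (mul_le_mul_of_nonneg_right hM (Real.rpow_nonneg (norm_nonneg _) _))⟩

theorem on_congr {a M : ℝ} {S : Set (E n)} {f g : E n → ℝ} (h : SF.HBon a M S f)
    (he : EqOn f g S) : SF.HBon a M S g :=
  ⟨fun x hx => by rw [← he hx]; exact h.1 x hx, fun x hx y hy => by
    rw [← he hx, ← he hy]; exact h.2 x hx y hy⟩

theorem on_add {a M M' : ℝ} {S : Set (E n)} {f g : E n → ℝ} (h : SF.HBon a M S f)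
    (h' : SF.HBon a M' S g) : SF.HBon a (M + M') S (fun x => f x + g x) := by
  refine ⟨fun x hx => (abs_add_le _ _).trans (add_le_add (h.1 x hx) (h'.1 x hx)),
    fun x hx y hy => ?_⟩
  have e : f x + g x - (f y + g y) = (f x - f y) + (g x - g y) := by ring
  rw [e, add_mul]
  exact (abs_add_le _ _).trans (add_le_add (h.2 x hx y hy) (h'.2 x hx y hy))

theorem on_neg {a M : ℝ} {S : Set (E n)} {f : E n → ℝ} (h : SF.HBon a M S f) :
    SF.HBon a M S (fun x => - f x) := by
  refine ⟨fun x hx => by rw [abs_neg]; exact h.1 x hx, fun x hx y hy => ?_⟩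
  have e : - f x - - f y = -(f x - f y) := by ring
  rw [e, abs_neg]
  exact h.2 x hx y hy

theorem on_mul {a M M' : ℝ} (hM : 0 ≤ M) (hM' : 0 ≤ M') {S : Set (E n)} {f g : E n → ℝ}
    (h : SF.HBon a M S f) (h' : SF.HBon a M' S g) :
    SF.HBon a (2 * (M * M')) S (fun x => f x * g x) := by
  refine ⟨fun x hx => ?_, fun x hx y hy => ?_⟩
  · rw [abs_mul]
    have := mul_le_mul (h.1 x hx) (h'.1 x hx) (abs_nonneg _) hM
    nlinarith [mul_nonneg hM hM']
  · have e : f x * g x - f y * g y = f x * (g x - g y) + (f x - f y) * g y := by ring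
    rw [e]
    have hr : 0 ≤ ‖x - y‖ ^ a := Real.rpow_nonneg (norm_nonneg _) _
    have h2 : |f x * (g x - g y)| ≤ M * (M' * ‖x - y‖ ^ a) := by
      rw [abs_mul]; exact mul_le_mul (h.1 x hx) (h'.2 x hx y hy) (abs_nonneg _) hM
    have h3 : |(f x - f y) * g y| ≤ (M * ‖x - y‖ ^ a) * M' := by
      rw [abs_mul]; exact mul_le_mul (h.2 x hx y hy) (h'.1 y hy) (abs_nonneg _)
        (mul_nonneg hM hr)
    have := abs_add_le (f x * (g x - g y)) ((f x - f y) * g y)
    nlinarith

theorem on_const (a c : ℝ) (S : Set (E n)) : SF.HBon a |c| S (fun _ : E n => c) :=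
  SF.hb_on (hb_const a c) S

/-! ### the class `LH` -/

/-- locally bounded and `a`-Hölder on `U` -/
def LH (a : ℝ) (U : Set (E n)) (f : E n → ℝ) : Prop :=
  ∀ x ∈ U, ∃ r > 0, ∃ M, SF.HBon a M (ball x r) f

theorem LH.mono {a : ℝ} {U V : Set (E n)} {f : E n → ℝ} (h : LH a U f) (hV : V ⊆ U) :
    LH a V f := fun x hx => h x (hV hx)

theorem LH.nonneg {a : ℝ} {U : Set (E n)} {f : E n → ℝ} (h : LH a U f) {x : E n} (hx : x ∈ U) :
    ∃ r > 0, ∃ M, 0 ≤ M ∧ SF.HBon a M (ball x r) f := by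
  obtain ⟨r, hr, M, hM⟩ := h x hx
  exact ⟨r, hr, M, (abs_nonneg _).trans (hM.1 x (mem_ball_self hr)), hM⟩

theorem LH.congr {a : ℝ} {U : Set (E n)} (hU : IsOpen U) {f g : E n → ℝ} (h : LH a U f)
    (he : EqOn f g U) : LH a U g := by
  intro x hx
  obtain ⟨r, hr, M, hM⟩ := h x hx
  obtain ⟨s, hs, hsU⟩ := Metric.isOpen_iff.1 hU x hx
  refine ⟨min r s, lt_min hr hs, M, ?_⟩
  exact on_congr (on_mono hM le_rfl (ball_subset_ball (min_le_left _ _)))
    (he.mono ((ball_subset_ball (min_le_right _ _)).trans hsU))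

theorem LH.add {a : ℝ} {U : Set (E n)} {f g : E n → ℝ} (h : LH a U f) (h' : LH a U g) :
    LH a U (fun x => f x + g x) := by
  intro x hx
  obtain ⟨r, hr, M, hM⟩ := h x hx
  obtain ⟨r', hr', M', hM'⟩ := h' x hx
  exact ⟨min r r', lt_min hr hr', M + M', on_add
    (on_mono hM le_rfl (ball_subset_ball (min_le_left _ _)))
    (on_mono hM' le_rfl (ball_subset_ball (min_le_right _ _)))⟩

theorem LH.neg {a : ℝ} {U : Set (E n)} {f : E n → ℝ} (h : LH a U f) :
    LH a U (fun x => - f x) := by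
  intro x hx
  obtain ⟨r, hr, M, hM⟩ := h x hx
  exact ⟨r, hr, M, on_neg hM⟩

theorem LH.mul {a : ℝ} {U : Set (E n)} {f g : E n → ℝ} (h : LH a U f) (h' : LH a U g) :
    LH a U (fun x => f x * g x) := by
  intro x hx
  obtain ⟨r, hr, M, hM0, hM⟩ := h.nonneg hx
  obtain ⟨r', hr', M', hM0', hM'⟩ := h'.nonneg hx
  exact ⟨min r r', lt_min hr hr', _, on_mul hM0 hM0'
    (on_mono hM le_rfl (ball_subset_ball (min_le_left _ _)))
    (on_mono hM' le_rfl (ball_subset_ball (min_le_right _ _)))⟩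

theorem LH.of_hb {a M : ℝ} {f : E n → ℝ} (h : HB a M f) (U : Set (E n)) : LH a U f :=
  fun x _ => ⟨1, one_pos, M, SF.hb_on h _⟩

theorem LH.continuousAt {a : ℝ} (ha : 0 < a) {U : Set (E n)} {f : E n → ℝ} (h : LH a U f)
    {x : E n} (hx : x ∈ U) : ContinuousAt f x := by
  obtain ⟨r, hr, M, hM0, hM⟩ := h.nonneg hx
  rw [Metric.continuousAt_iff]
  intro ε hε
  have h1 : Tendsto (fun t : ℝ => M * t ^ a) (𝓝 0) (𝓝 0) := by
    have h2 : Continuous fun t : ℝ => M * t ^ a :=
      continuous_const.mul (continuous_id.rpow_const fun _ => Or.inr ha.le)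
    have h3 := h2.tendsto 0
    simpa [Real.zero_rpow ha.ne'] using h3
  obtain ⟨δ, hδ, h4⟩ := Metric.tendsto_nhds_nhds.1 h1 ε hε
  refine ⟨min r δ, lt_min hr hδ, fun y hy => ?_⟩
  have h5 := hM.2 y (mem_ball.2 (hy.trans_le (min_le_left _ _))) x (mem_ball_self hr)
  have h6 := h4 (x := ‖y - x‖) (by
    rw [dist_zero_right, norm_norm, ← dist_eq_norm]
    exact hy.trans_le (min_le_right _ _))
  rw [dist_zero_right, Real.norm_eq_abs,
    abs_of_nonneg (mul_nonneg hM0 (Real.rpow_nonneg (norm_nonneg _) _))] at h6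
  rw [Real.dist_eq]
  exact h5.trans_lt h6

/-- composition with a `C¹` function -/
theorem LH.comp {a : ℝ} (ha : 0 < a) {ι : Type*} [Fintype ι] {U : Set (E n)} {f : ι → E n → ℝ}
    (h : ∀ l, LH a U (f l)) {Θ : (ι → ℝ) → ℝ} (hΘ : ContDiff ℝ 1 Θ) :
    LH a U (fun x => Θ (fun l => f l x)) := by
  intro x hx
  obtain ⟨K, t, ht, hL⟩ := (hΘ.contDiffAt (x := fun l => f l x)).exists_lipschitzOnWith
  obtain ⟨ε, hε, hεt⟩ := Metric.mem_nhds_iff.1 ht
  have hcont : ContinuousAt (fun y => fun l => f l y) x :=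
    continuousAt_pi.2 fun l => (h l).continuousAt ha hx
  obtain ⟨s, hs, hsb⟩ := Metric.continuousAt_iff.1 hcont ε hε
  choose r hr M hM0 hM using fun l => (h l).nonneg hx
  obtain ⟨r0, hr0, hr0l⟩ : ∃ r0 > 0, ∀ l, r0 ≤ r l := by
    rcases isEmpty_or_nonempty ι with hι | hι
    · exact ⟨1, one_pos, fun l => (IsEmpty.false l).elim⟩
    · refine ⟨Finset.univ.inf' Finset.univ_nonempty r, ?_, fun l => Finset.inf'_le _ (Finset.mem_univ l)⟩
      exact (Finset.lt_inf'_iff _).2 fun l _ => hr l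
  refine ⟨min s r0, lt_min hs hr0, |Θ (fun l => f l x)| + K * ε + K * ∑ l, M l, ?_⟩
  have hmem : ∀ y ∈ ball x (min s r0), (fun l => f l y) ∈ ball (fun l => f l x) ε := fun y hy =>
    hsb ((mem_ball.1 hy).trans_le (min_le_left _ _))
  have hS : 0 ≤ ∑ l, M l := Finset.sum_nonneg fun l _ => hM0 l
  refine ⟨fun y hy => ?_, fun y hy z hz => ?_⟩
  · have h1 := hL.dist_le_mul _ (hεt (hmem y hy)) _ (hεt (mem_ball_self hε))
    rw [Real.dist_eq] at h1
    have h2 : dist (fun l => f l y) (fun l => f l x) ≤ ε := (mem_ball.1 (hmem y hy)).le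
    have h3 : |Θ fun l => f l y| ≤ |Θ (fun l => f l x)| + K * ε := by
      have h4 : |Θ (fun l => f l y)| ≤ |Θ (fun l => f l y) - Θ (fun l => f l x)|
          + |Θ (fun l => f l x)| := by
        have := abs_add_le (Θ (fun l => f l y) - Θ (fun l => f l x)) (Θ (fun l => f l x))
        simpa using this
      have h5 : (K : ℝ) * dist (fun l => f l y) (fun l => f l x) ≤ K * ε :=
        mul_le_mul_of_nonneg_left h2 K.2
      linarith
    have : 0 ≤ (K : ℝ) * ∑ l, M l := mul_nonneg K.2 hS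
    linarith
  · have h1 := hL.dist_le_mul _ (hεt (hmem y hy)) _ (hεt (hmem z hz))
    rw [Real.dist_eq] at h1
    have hrz : 0 ≤ ‖y - z‖ ^ a := Real.rpow_nonneg (norm_nonneg _) _
    have h2 : dist (fun l => f l y) (fun l => f l z) ≤ (∑ l, M l) * ‖y - z‖ ^ a := by
      refine (dist_pi_le_iff (mul_nonneg hS hrz)).2 fun l => ?_
      rw [Real.dist_eq]
      have h3 := (hM l).2 y (ball_subset_ball ((min_le_right _ _).trans (hr0l l)) hy) z
        (ball_subset_ball ((min_le_right _ _).trans (hr0l l)) hz)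
      exact h3.trans (mul_le_mul_of_nonneg_right
        (Finset.single_le_sum (fun j _ => hM0 j) (Finset.mem_univ l)) hrz)
    refine h1.trans ?_
    have h4 : (K : ℝ) * dist (fun l => f l y) (fun l => f l z)
        ≤ K * ((∑ l, M l) * ‖y - z‖ ^ a) := mul_le_mul_of_nonneg_left h2 K.2
    have h5 : 0 ≤ (|Θ (fun l => f l x)| + K * ε) * ‖y - z‖ ^ a := by positivity
    nlinarith

/-! ### the classes `LCK` -/

/-- `k` derivatives, all locally bounded and `a`-Hölder on `U` -/
def LCK (a : ℝ) : ℕ → Set (E n) → (E n → ℝ) → Prop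
  | 0, U, f => LH a U f
  | k + 1, U, f => LH a U f ∧ DifferentiableOn ℝ f U ∧ ∀ i, LCK a k U (Boot.pd i f)

theorem LCK.lh {a : ℝ} {k : ℕ} {U : Set (E n)} {f : E n → ℝ} (h : LCK a k U f) : LH a U f := by
  cases k with
  | zero => exact h
  | succ k => exact h.1

theorem LCK.diff {a : ℝ} {k : ℕ} {U : Set (E n)} {f : E n → ℝ} (h : LCK a (k + 1) U f) :
    DifferentiableOn ℝ f U := h.2.1

theorem LCK.pd {a : ℝ} {k : ℕ} {U : Set (E n)} {f : E n → ℝ} (h : LCK a (k + 1) U f)
    (i : Fin n) : LCK a k U (Boot.pd i f) := h.2.2 i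

theorem LCK.of_succ {a : ℝ} {k : ℕ} {U : Set (E n)} {f : E n → ℝ} (h : LCK a (k + 1) U f) :
    LCK a k U f := by
  induction k generalizing f with
  | zero => exact h.1
  | succ k ih => exact ⟨h.1, h.2.1, fun i => ih (h.2.2 i)⟩

theorem LCK.of_le {a : ℝ} {k l : ℕ} {U : Set (E n)} {f : E n → ℝ} (h : LCK a k U f)
    (hl : l ≤ k) : LCK a l U f := by
  induction k with
  | zero => rwa [Nat.le_zero.1 hl]
  | succ k ih =>
    rcases Nat.lt_or_ge l (k + 1) with h1 | h1
    · exact ih h.of_succ (Nat.lt_succ_iff.1 h1)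
    · rwa [le_antisymm hl h1]

theorem LCK.mono {a : ℝ} {k : ℕ} {U V : Set (E n)} {f : E n → ℝ} (h : LCK a k U f)
    (hV : V ⊆ U) : LCK a k V f := by
  induction k generalizing f with
  | zero => exact LH.mono h hV
  | succ k ih => exact ⟨h.1.mono hV, h.2.1.mono hV, fun i => ih (h.2.2 i)⟩

theorem pd_congr {U : Set (E n)} (hU : IsOpen U) {f g : E n → ℝ} (he : EqOn f g U) (i : Fin n) :
    EqOn (Boot.pd i f) (Boot.pd i g) U := by
  intro x hx
  unfold Boot.pd
  have : f =ᶠ[𝓝 x] g := by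
    filter_upwards [hU.mem_nhds hx] with y hy
    exact he hy
  rw [this.fderiv_eq]

theorem LCK.congr {a : ℝ} {k : ℕ} {U : Set (E n)} (hU : IsOpen U) {f g : E n → ℝ}
    (h : LCK a k U f) (he : EqOn f g U) : LCK a k U g := by
  induction k generalizing f g with
  | zero => exact LH.congr hU h he
  | succ k ih =>
    exact ⟨h.1.congr hU he, h.2.1.congr fun x hx => (he hx).symm,
      fun i => ih (h.2.2 i) (pd_congr hU he i)⟩

/-- the classes are local -/
theorem LCK.local {a : ℝ} {k : ℕ} {U : Set (E n)} {f : E n → ℝ}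
    (h : ∀ x ∈ U, ∃ r > 0, LCK a k (ball x r) f) : LCK a k U f := by
  induction k generalizing f with
  | zero =>
    intro x hx
    obtain ⟨r, hr, h1⟩ := h x hx
    exact h1 x (mem_ball_self hr)
  | succ k ih =>
    refine ⟨fun x hx => ?_, fun x hx => ?_, fun i => ih fun x hx => ?_⟩
    · obtain ⟨r, hr, h1⟩ := h x hx
      exact h1.1 x (mem_ball_self hr)
    · obtain ⟨r, hr, h1⟩ := h x hx
      exact (h1.2.1.differentiableAt (ball_mem_nhds x hr)).differentiableWithinAt
    · obtain ⟨r, hr, h1⟩ := h x hx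
      exact ⟨r, hr, h1.2.2 i⟩

theorem LCK.of_ck {a : ℝ} {k : ℕ} {f : E n → ℝ} (h : CK a k f) (U : Set (E n)) :
    LCK a k U f := by
  induction k generalizing f with
  | zero =>
    obtain ⟨M, hM⟩ := h
    exact LH.of_hb hM U
  | succ k ih =>
    obtain ⟨M, hM⟩ := h.1
    exact ⟨LH.of_hb hM U, h.2.1.differentiableOn, fun i => ih (h.2.2 i)⟩

theorem pd_add_on {U : Set (E n)} (hU : IsOpen U) {f g : E n → ℝ} (hf : DifferentiableOn ℝ f U)
    (hg : DifferentiableOn ℝ g U) (i : Fin n) :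
    EqOn (fun x => Boot.pd i f x + Boot.pd i g x) (Boot.pd i (fun x => f x + g x)) U := by
  intro x hx
  unfold Boot.pd
  have h : HasFDerivAt (fun x => f x + g x) (fderiv ℝ f x + fderiv ℝ g x) x :=
    ((hf.differentiableAt (hU.mem_nhds hx)).hasFDerivAt).add
      ((hg.differentiableAt (hU.mem_nhds hx)).hasFDerivAt)
  rw [h.fderiv]
  rfl

theorem pd_mul_on {U : Set (E n)} (hU : IsOpen U) {f g : E n → ℝ} (hf : DifferentiableOn ℝ f U)
    (hg : DifferentiableOn ℝ g U) (i : Fin n) :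
    EqOn (fun x => f x * Boot.pd i g x + g x * Boot.pd i f x)
      (Boot.pd i (fun x => f x * g x)) U := by
  intro x hx
  unfold Boot.pd
  have h := ((hf.differentiableAt (hU.mem_nhds hx)).hasFDerivAt).mul
      ((hg.differentiableAt (hU.mem_nhds hx)).hasFDerivAt)
  have h' : HasFDerivAt (fun x => f x * g x) (f x • fderiv ℝ g x + g x • fderiv ℝ f x) x := h
  rw [h'.fderiv]
  rfl

theorem LCK.add {a : ℝ} {k : ℕ} {U : Set (E n)} (hU : IsOpen U) {f g : E n → ℝ}
    (h : LCK a k U f) (h' : LCK a k U g) : LCK a k U (fun x => f x + g x) := by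
  induction k generalizing f g with
  | zero => exact LH.add h h'
  | succ k ih =>
    exact ⟨h.1.add h'.1, h.2.1.add h'.2.1, fun i => (ih (h.2.2 i) (h'.2.2 i)).congr hU
      (pd_add_on hU h.2.1 h'.2.1 i)⟩

theorem LCK.mul {a : ℝ} {k : ℕ} {U : Set (E n)} (hU : IsOpen U) {f g : E n → ℝ}
    (h : LCK a k U f) (h' : LCK a k U g) : LCK a k U (fun x => f x * g x) := by
  induction k generalizing f g with
  | zero => exact LH.mul h h'
  | succ k ih =>
    refine ⟨h.1.mul h'.1, h.2.1.mul h'.2.1, fun i => ?_⟩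
    exact (LCK.add hU (ih h.of_succ (h'.2.2 i)) (ih h'.of_succ (h.2.2 i))).congr hU
      (pd_mul_on hU h.2.1 h'.2.1 i)

theorem LCK.const {a : ℝ} (c : ℝ) (k : ℕ) (U : Set (E n)) : LCK a k U (fun _ => c) :=
  LCK.of_ck (ck_const a c k) U

theorem LCK.neg {a : ℝ} {k : ℕ} {U : Set (E n)} (hU : IsOpen U) {f : E n → ℝ}
    (h : LCK a k U f) : LCK a k U (fun x => - f x) :=
  ((LCK.const (-1) k U).mul hU h).congr hU fun x _ => by ring

theorem LCK.sub {a : ℝ} {k : ℕ} {U : Set (E n)} (hU : IsOpen U) {f g : E n → ℝ}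
    (h : LCK a k U f) (h' : LCK a k U g) : LCK a k U (fun x => f x - g x) :=
  (h.add hU (h'.neg hU)).congr hU fun x _ => by ring

theorem LCK.sum {a : ℝ} {k : ℕ} {U : Set (E n)} (hU : IsOpen U) {ι : Type*} (s : Finset ι)
    {f : ι → E n → ℝ} (h : ∀ i ∈ s, LCK a k U (f i)) : LCK a k U (fun x => ∑ i ∈ s, f i x) := by
  classical
  induction s using Finset.induction_on with
  | empty => simpa using LCK.const (a := a) 0 k U
  | insert i s hi ih =>
    have h1 := LCK.add hU (h i (by simp)) (ih fun j hj => h j (by simp [hj]))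
    simpa only [Finset.sum_insert hi] using h1

/-- composition with a smooth function -/
theorem LCK.comp {a : ℝ} (ha : 0 < a) {ι : Type*} [Fintype ι] [DecidableEq ι] {k : ℕ}
    {U : Set (E n)} (hU : IsOpen U) {f : ι → E n → ℝ} (h : ∀ l, LCK a k U (f l))
    {Θ : (ι → ℝ) → ℝ} (hΘ : ContDiff ℝ ∞ Θ) : LCK a k U (fun x => Θ (fun l => f l x)) := by
  induction k generalizing Θ with
  | zero => exact LH.comp ha h (hΘ.of_le (by simp))
  | succ k ih =>
    have hd : ∀ x ∈ U, HasFDerivAt (fun x => Θ (fun l => f l x))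
        ((fderiv ℝ Θ (fun l => f l x)).comp
          (ContinuousLinearMap.pi fun l => fderiv ℝ (f l) x)) x := by
      intro x hx
      have h1 : HasFDerivAt (fun x => fun l => f l x)
          (ContinuousLinearMap.pi fun l => fderiv ℝ (f l) x) x :=
        hasFDerivAt_pi.2 fun l => (((h l).diff).differentiableAt (hU.mem_nhds hx)).hasFDerivAt
      exact ((hΘ.differentiable (by simp)) _).hasFDerivAt.comp x h1
    refine ⟨LH.comp ha (fun l => (h l).lh) (hΘ.of_le (by simp)),
      fun x hx => (hd x hx).differentiableAt.differentiableWithinAt, fun i => ?_⟩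
    have h2 : LCK a k U (fun x => ∑ l, (fderiv ℝ Θ (fun l => f l x) (Pi.single l 1))
        * Boot.pd i (f l) x) := by
      refine LCK.sum hU _ fun l _ => LCK.mul hU ?_ ((h l).pd i)
      exact ih (Θ := fun y => fderiv ℝ Θ y (Pi.single l 1)) (fun l => (h l).of_succ)
        ((hΘ.fderiv_right (m := ∞) (by simp)).clm_apply contDiff_const)
    refine h2.congr hU fun x hx => ?_
    unfold Boot.pd
    rw [(hd x hx).fderiv]
    simp only [ContinuousLinearMap.comp_apply]
    have e : (ContinuousLinearMap.pi fun l => fderiv ℝ (f l) x) (ee i)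
        = ∑ l, (fderiv ℝ (f l) x (ee i)) • (Pi.single l (1 : ℝ) : ι → ℝ) := by
      funext m
      simp [Finset.sum_apply, Pi.single_apply]
    rw [e, map_sum]
    refine Finset.sum_congr rfl fun l _ => ?_
    rw [map_smul, smul_eq_mul, mul_comm]

theorem lh_of_contDiffOn {a : ℝ} (ha0 : 0 ≤ a) (ha : a ≤ 1) {U : Set (E n)} (hU : IsOpen U)
    {f : E n → ℝ} (hf : ContDiffOn ℝ 1 f U) : LH a U f := by
  intro x hx
  obtain ⟨K, t, ht, hL⟩ := (hf.contDiffAt (hU.mem_nhds hx)).exists_lipschitzOnWith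
  obtain ⟨ε, hε, hεt⟩ := Metric.mem_nhds_iff.1 ht
  refine ⟨min ε (1 / 2), by positivity, |f x| + K, ?_⟩
  have hsub : ball x (min ε (1 / 2)) ⊆ t := (ball_subset_ball (min_le_left _ _)).trans hεt
  have hd : ∀ y ∈ ball x (min ε (1 / 2)), dist y x ≤ 1 := fun y hy =>
    ((mem_ball.1 hy).trans_le (min_le_right _ _)).le.trans (by norm_num)
  refine ⟨fun y hy => ?_, fun y hy z hz => ?_⟩
  · have h1 := hL.dist_le_mul _ (hsub hy) _ (hεt (mem_ball_self hε))
    rw [Real.dist_eq] at h1
    have h2 : |f y| ≤ |f y - f x| + |f x| := by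
      have := abs_add_le (f y - f x) (f x)
      simpa using this
    have h3 : (K : ℝ) * dist y x ≤ K * 1 := mul_le_mul_of_nonneg_left (hd y hy) K.2
    linarith
  · have h1 := hL.dist_le_mul _ (hsub hy) _ (hsub hz)
    rw [Real.dist_eq, dist_eq_norm] at h1
    have h2 : ‖y - z‖ ≤ 1 := by
      rw [← dist_eq_norm]
      have e1 := (mem_ball.1 hy).trans_le (min_le_right _ _)
      have e2 := (mem_ball.1 hz).trans_le (min_le_right _ _)
      have := dist_triangle_right y z x
      linarith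
    have h3 := SF.le_rpow_of_le_one ha (norm_nonneg (y - z)) h2
    calc |f y - f z| ≤ K * ‖y - z‖ := h1
      _ ≤ K * ‖y - z‖ ^ a := mul_le_mul_of_nonneg_left h3 K.2
      _ ≤ (|f x| + K) * ‖y - z‖ ^ a :=
        mul_le_mul_of_nonneg_right (by linarith [abs_nonneg (f x)])
          (Real.rpow_nonneg (norm_nonneg _) _)

/-- smooth functions are in all classes -/
theorem lck_of_contDiffOn {a : ℝ} (ha0 : 0 ≤ a) (ha : a ≤ 1) {U : Set (E n)} (hU : IsOpen U)
    (k : ℕ) {f : E n → ℝ} (hf : ContDiffOn ℝ ∞ f U) : LCK a k U f := by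
  induction k generalizing f with
  | zero => exact lh_of_contDiffOn ha0 ha hU (hf.of_le (by simp))
  | succ k ih =>
    refine ⟨lh_of_contDiffOn ha0 ha hU (hf.of_le (by simp)), hf.differentiableOn (by simp),
      fun i => ih ?_⟩
    exact ((hf.fderiv_of_isOpen hU (m := ∞) (by simp))).clm_apply contDiffOn_const

/-- the classes consist of `C^k` functions -/
theorem LCK.contDiffOn {a : ℝ} (ha : 0 < a) {k : ℕ} {U : Set (E n)} (hU : IsOpen U)
    {f : E n → ℝ} (h : LCK a k U f) : ContDiffOn ℝ k f U := by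
  induction k generalizing f with
  | zero =>
    rw [Nat.cast_zero, contDiffOn_zero]
    exact fun x hx => (h.continuousAt ha hx).continuousWithinAt
  | succ k ih =>
    push_cast
    rw [contDiffOn_succ_iff_fderiv_of_isOpen hU]
    refine ⟨h.diff, by simp, ?_⟩
    have e : fderiv ℝ f = fun x => ∑ i, (Boot.pd i f x) • (EuclideanSpace.proj i : E n →L[ℝ] ℝ) := by
      funext x
      ext z
      rw [fderiv_eq_sum_pd]
      rw [_root_.sum_apply]
      exact Finset.sum_congr rfl fun i _ => mul_comm _ _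
    rw [e]
    exact ContDiffOn.sum fun i _ => (ih (h.pd i)).smul contDiffOn_const

/-- localisation to the whole space -/
theorem LCK.cut {a : ℝ} (ha0 : 0 < a) (ha : a ≤ 1) {k : ℕ} {U : Set (E n)} (hU : IsOpen U)
    {f : E n → ℝ} (h : LCK a k U f) {x0 : E n} (hx0 : x0 ∈ U) :
    ∃ R > 0, ball x0 R ⊆ U ∧ ∀ χ : E n → ℝ, ContDiff ℝ ∞ χ → tsupport χ ⊆ ball x0 R →
      CK a k (fun x => χ x * f x) := by
  obtain ⟨s, hs, hsU⟩ := Metric.isOpen_iff.1 hU x0 hx0
  induction k generalizing f with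
  | zero =>
    obtain ⟨r, hr, M, hM0, hM⟩ := LH.nonneg h hx0
    refine ⟨min r s, lt_min hr hs, (ball_subset_ball (min_le_right _ _)).trans hsU, ?_⟩
    intro χ hχ hχs
    have hc : HasCompactSupport χ := by
      refine HasCompactSupport.intro' (K := closedBall x0 (min r s)) (isCompact_closedBall _ _)
        isClosed_closedBall fun x hx => ?_
      by_contra h0
      exact hx (ball_subset_closedBall (hχs (subset_tsupport _ h0)))
    obtain ⟨X, hX⟩ := SF.hb_of_c1 ha0.le ha (hχ.of_le (by simp)) hc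
    refine ⟨2 * (M * X), ?_⟩
    have h1 := SF.HBon.mul hM0 (on_mono hM le_rfl (ball_subset_ball (min_le_left r s))) hX
      (fun x hx => by
        by_contra h0
        exact hx (hχs (subset_tsupport _ h0)))
    simpa only [mul_comm] using h1
  | succ k ih =>
    obtain ⟨R0, hR0, hR0U, H0⟩ := ih h.of_succ
    choose R hR hRU H using fun i => ih (h.pd i)
    obtain ⟨R1, hR1, hR1l⟩ : ∃ R1 > 0, ∀ i, R1 ≤ R i := by
      rcases isEmpty_or_nonempty (Fin n) with hι | hι
      · exact ⟨1, one_pos, fun l => (IsEmpty.false l).elim⟩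
      · refine ⟨Finset.univ.inf' Finset.univ_nonempty R, ?_,
          fun l => Finset.inf'_le _ (Finset.mem_univ l)⟩
        exact (Finset.lt_inf'_iff _).2 fun l _ => hR l
    refine ⟨min R0 R1, lt_min hR0 hR1, (ball_subset_ball (min_le_left _ _)).trans hR0U, ?_⟩
    intro χ hχ hχs
    have hb0 := hχs.trans (ball_subset_ball (min_le_left R0 R1))
    have hb1 := hχs.trans (ball_subset_ball (min_le_right R0 R1))
    have hdU : ∀ x ∈ ball x0 R0, DifferentiableAt ℝ f x := fun x hx =>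
      h.diff.differentiableAt (hU.mem_nhds (hR0U hx))
    have hχd : Differentiable ℝ χ := hχ.differentiable (by simp)
    have hout : ∀ x ∉ tsupport χ, χ =ᶠ[𝓝 x] fun _ => 0 := fun x hx =>
      notMem_tsupport_iff_eventuallyEq.1 hx
    have hder : ∀ x, HasFDerivAt (fun x => χ x * f x) (χ x • fderiv ℝ f x + f x • fderiv ℝ χ x) x := by
      intro x
      by_cases hx : x ∈ tsupport χ
      · exact (hχd x).hasFDerivAt.mul (hdU x (hb0 hx)).hasFDerivAt
      · have h1 := hout x hx
        have e1 : χ x = 0 := h1.self_of_nhds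
        have e2 : fderiv ℝ χ x = 0 := by rw [h1.fderiv_eq]; simp
        rw [e1, e2, zero_smul, smul_zero, add_zero]
        refine (hasFDerivAt_const (0 : ℝ) x).congr_of_eventuallyEq ?_
        filter_upwards [h1] with y hy
        rw [hy, zero_mul]
    refine ⟨(H0 χ hχ hb0).hb, fun x => (hder x).differentiableAt, fun i => ?_⟩
    have e : (fun x => fderiv ℝ (fun x => χ x * f x) x (ee i))
        = fun x => χ x * Boot.pd i f x + (Boot.pd i χ x) * f x := by
      funext x
      rw [(hder x).fderiv]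
      simp only [ContinuousLinearMap.add_apply, ContinuousLinearMap.smul_apply, smul_eq_mul,
        Boot.pd]
      ring
    rw [e]
    refine CK.add ?_ ?_
    · exact H i χ hχ (hb1.trans (ball_subset_ball (hR1l i)))
    · refine H0 (Boot.pd i χ) ?_ ?_
      · exact (hχ.fderiv_right (m := ∞) (by simp)).clm_apply contDiff_const
      · refine subset_trans ?_ hb0
        refine closure_minimal ?_ (isClosed_tsupport _)
        intro x hx
        by_contra h0
        apply hx
        show fderiv ℝ χ x (ee i) = 0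
        rw [(hout x h0).fderiv_eq]
        simp

/-- a global representative near a point -/
theorem LCK.repr {a : ℝ} (ha0 : 0 < a) (ha : a ≤ 1) {k : ℕ} {U : Set (E n)} (hU : IsOpen U)
    {f : E n → ℝ} (h : LCK a k U f) {x0 : E n} (hx0 : x0 ∈ U) :
    ∃ R > 0, ball x0 R ⊆ U ∧ ∃ g : E n → ℝ, CK a k g ∧ EqOn g f (ball x0 R) := by
  obtain ⟨R, hR, hRU, H⟩ := h.cut ha0 ha hU hx0
  let χ : ContDiffBump x0 := ⟨R / 3, R / 2, by positivity, by linarith⟩
  refine ⟨R / 3, by positivity, (ball_subset_ball (by linarith)).trans hRU,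
    fun x => χ x * f x, H χ χ.contDiff ?_, fun x hx => ?_⟩
  · rw [χ.tsupport_eq]
    exact closedBall_subset_ball (by show R / 2 < R; linarith)
  · simp only [χ.one_of_mem_closedBall (ball_subset_closedBall hx), one_mul]

end Crest.Agent.R273.CReg_933
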