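import Crest.Agent.R273.CRegB_933

/-!
# R273 (S0416), Part C, C-REG (helper933), file C: linear regularity

`lin_step`  : `v ∈ C^{2,a}`, `∑ A_{ij} v_{ij} = g`, `A, g ∈ C^{1,a}` elliptic ⟹ `v ∈ C^{3,a}`
`lin_reg`   : `A, g ∈ C^{k+1,a}` ⟹ `v ∈ C^{k+3,a}`  (all local on an open set)
-/

set_option autoImplicit false

open MeasureTheory Set Filter Metric
open scoped ContDiff Topology

namespace Crest.Agent.R273.CReg_933

open Crest.Agent.R238 Crest.Agent.R238.Boot

variable {n : ℕ}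

/-- positive definite (not necessarily symmetric) coefficient field -/
def PD (A : Matrix (Fin n) (Fin n) ℝ) : Prop :=
  (∀ i j, A i j = A j i) ∧ ∀ z : Fin n → ℝ, z ≠ 0 → 0 < ∑ i, ∑ j, A i j * z i * z j

theorem sum_sq_pos {z : Fin n → ℝ} (hz : z ≠ 0) : 0 < ∑ i, z i ^ 2 := by
  obtain ⟨i, hi⟩ := Function.ne_iff.1 hz
  exact lt_of_lt_of_le (by
    have : z i ≠ 0 := hi
    positivity : 0 < z i ^ 2)
    (Finset.single_le_sum (f := fun j => z j ^ 2) (fun j _ => sq_nonneg _) (Finset.mem_univ i))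

/-- a positive definite matrix has a positive lower bound -/
theorem PD.lower {A : Matrix (Fin n) (Fin n) ℝ} (h : PD A) :
    ∃ c : ℝ, 0 < c ∧ ∀ z : Fin n → ℝ, c * ∑ i, z i ^ 2 ≤ ∑ i, ∑ j, A i j * z i * z j := by
  rcases Nat.eq_zero_or_pos n with hn | hn
  · subst hn
    exact ⟨1, one_pos, fun z => by simp⟩
  have : Nonempty (Fin n) := ⟨⟨0, hn⟩⟩
  set S : Set (E n) := sphere 0 1 with hS
  have hSc : IsCompact S := isCompact_sphere 0 1
  have hSne : S.Nonempty := ⟨ee ⟨0, hn⟩, by simp [hS]⟩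
  let q : E n → ℝ := fun z => ∑ i, ∑ j, A i j * z i * z j
  have hq : Continuous q := by
    refine continuous_finsetSum _ fun i _ => continuous_finsetSum _ fun j _ => ?_
    fun_prop
  obtain ⟨z0, hz0, hmin⟩ := hSc.exists_isMinOn hSne hq.continuousOn
  have hz0' : (WithLp.ofLp z0 : Fin n → ℝ) ≠ 0 := by
    intro h0
    have : z0 = 0 := by
      ext i; exact congrFun h0 i
    rw [this, hS, mem_sphere_zero_iff_norm, norm_zero] at hz0
    exact zero_ne_one hz0
  refine ⟨q z0, h.2 _ hz0', fun z => ?_⟩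
  rcases eq_or_ne z 0 with rfl | hz
  · simp
  set w : E n := WithLp.toLp 2 z with hw
  have hwn : ‖w‖ ^ 2 = ∑ i, z i ^ 2 := by
    rw [EuclideanSpace.norm_sq_eq]
    simp [hw]
  have hpos := sum_sq_pos hz
  have hw0 : 0 < ‖w‖ := by
    rcases (norm_nonneg w).lt_or_eq with h1 | h1
    · exact h1
    · rw [← h1] at hwn; norm_num at hwn; linarith
  have hmem : (‖w‖⁻¹ • w) ∈ S := by
    rw [hS, mem_sphere_zero_iff_norm, norm_smul, norm_inv, norm_norm, inv_mul_cancel₀ hw0.ne']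
  have h1 : q z0 ≤ q (‖w‖⁻¹ • w) := hmin hmem
  have h2 : q (‖w‖⁻¹ • w) = (‖w‖ ^ 2)⁻¹ * ∑ i, ∑ j, A i j * z i * z j := by
    simp only [q, Finset.mul_sum]
    refine Finset.sum_congr rfl fun i _ => Finset.sum_congr rfl fun j _ => ?_
    simp only [hw, PiLp.smul_apply, smul_eq_mul]
    field_simp
  rw [h2, hwn, inv_mul_eq_div, le_div_iff₀ hpos] at h1
  exact h1

theorem quad_le {A : Matrix (Fin n) (Fin n) ℝ} {e : ℝ} (h : ∀ i j, |A i j| ≤ e)
    (z : Fin n → ℝ) : |∑ i, ∑ j, A i j * z i * z j| ≤ (n : ℝ) ^ 2 * e * ∑ i, z i ^ 2 := by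
  have hs : ∀ i, z i ^ 2 ≤ ∑ i, z i ^ 2 := fun i =>
    Finset.single_le_sum (f := fun j => z j ^ 2) (fun j _ => sq_nonneg _) (Finset.mem_univ i)
  calc |∑ i, ∑ j, A i j * z i * z j| ≤ ∑ i, |∑ j, A i j * z i * z j| :=
        Finset.abs_sum_le_sum_abs _ _
    _ ≤ ∑ i, ∑ j, |A i j * z i * z j| := Finset.sum_le_sum fun i _ =>
        Finset.abs_sum_le_sum_abs _ _
    _ ≤ ∑ _i : Fin n, ∑ _j : Fin n, e * ∑ i, z i ^ 2 := by
        refine Finset.sum_le_sum fun i _ => Finset.sum_le_sum fun j _ => ?_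
        have he : 0 ≤ e := (abs_nonneg _).trans (h i j)
        have h1 : |z i * z j| ≤ ∑ i, z i ^ 2 := by
          rw [abs_le]
          constructor <;> nlinarith [sq_nonneg (z i - z j), sq_nonneg (z i + z j), hs i, hs j]
        rw [mul_assoc, abs_mul]
        exact mul_le_mul (h i j) h1 (abs_nonneg _) he
    _ = (n : ℝ) ^ 2 * e * ∑ i, z i ^ 2 := by
        simp; ring

/-- matrices near a positive definite matrix are uniformly elliptic -/
theorem PD.near {A : Matrix (Fin n) (Fin n) ℝ} (h : PD A) :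
    ∃ ε > 0, ∃ lo hi : ℝ, 0 < lo ∧ lo ≤ hi ∧ ∀ B : Matrix (Fin n) (Fin n) ℝ,
      (∀ i j, B i j = B j i) → (∀ i j, |B i j - A i j| ≤ ε) → Ell lo hi B := by
  obtain ⟨c, hc, hA⟩ := h.lower
  obtain ⟨K, hK⟩ : ∃ K : ℝ, ∀ i j, |A i j| ≤ K :=
    ⟨∑ i, ∑ j, |A i j|, fun i j => (Finset.single_le_sum (f := fun j => |A i j|)
      (fun j _ => abs_nonneg _) (Finset.mem_univ j)).trans
      (Finset.single_le_sum (f := fun i => ∑ j, |A i j|)
        (fun i _ => Finset.sum_nonneg fun j _ => abs_nonneg _) (Finset.mem_univ i))⟩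
  have hKn : 0 ≤ (n : ℝ) ^ 2 * |K| := by positivity
  refine ⟨c / (2 * ((n : ℝ) ^ 2 + 1)), by positivity, c / 2, c / 2 + c + (n : ℝ) ^ 2 * |K|,
    by positivity, by linarith, fun B hs hB => ⟨hs, fun z => ?_⟩⟩
  have e : ∑ i, ∑ j, B i j * z i * z j = (∑ i, ∑ j, A i j * z i * z j)
      + ∑ i, ∑ j, (B - A) i j * z i * z j := by
    simp only [← Finset.sum_add_distrib, Matrix.sub_apply]
    exact Finset.sum_congr rfl fun i _ => Finset.sum_congr rfl fun j _ => by ring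
  have h1 := quad_le (A := B - A) (fun i j => hB i j) z
  have hz : 0 ≤ ∑ i, z i ^ 2 := Finset.sum_nonneg fun i _ => sq_nonneg _
  have h2 : (n : ℝ) ^ 2 * (c / (2 * ((n : ℝ) ^ 2 + 1))) ≤ c / 2 := by
    rw [mul_div_assoc', div_le_div_iff₀ (by positivity) (by norm_num)]
    nlinarith [sq_nonneg (n : ℝ)]
  have h3 := mul_le_mul_of_nonneg_right h2 hz
  have h4 := quad_le (A := A) (fun i j => (hK i j).trans (le_abs_self K)) z
  have h5 := hA z
  rw [e]
  have h6 := abs_le.1 h1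
  have h7 := abs_le.1 h4
  constructor
  · nlinarith [h6.1]
  · nlinarith [h6.2, h7.2]

/-- second derivatives on an open set -/
theorem pd_pd_on {U : Set (E n)} (hU : IsOpen U) {f : E n → ℝ} (hf : ContDiffOn ℝ 2 f U)
    (i j : Fin n) : EqOn (Boot.pd i (Boot.pd j f)) (fun x => Hs f x i j) U := by
  intro x hx
  have h1 : DifferentiableAt ℝ (fderiv ℝ f) x :=
    ((hf.fderiv_of_isOpen hU (m := 1) (by norm_num)).differentiableOn
      (by norm_num)).differentiableAt (hU.mem_nhds hx)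
  unfold Boot.pd Hs
  have h2 : HasFDerivAt (fun y => fderiv ℝ f y (ee j))
      ((ContinuousLinearMap.apply ℝ ℝ (ee j : E n)).comp (fderiv ℝ (fderiv ℝ f) x)) x :=
    (ContinuousLinearMap.apply ℝ ℝ (ee j : E n)).hasFDerivAt.comp x h1.hasFDerivAt
  show fderiv ℝ (fun y => fderiv ℝ f y (ee j)) x (ee i) = _
  rw [h2.fderiv]
  rfl

theorem hs_symm_on {U : Set (E n)} (hU : IsOpen U) {f : E n → ℝ} (hf : ContDiffOn ℝ 2 f U)
    {x : E n} (hx : x ∈ U) (i j : Fin n) : Hs f x i j = Hs f x j i := by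
  have := (hf.contDiffAt (hU.mem_nhds hx)).isSymmSndFDerivAt (by simp)
  exact this (ee i) (ee j)

theorem LCK.c2 {a : ℝ} (ha : 0 < a) {k : ℕ} {U : Set (E n)} (hU : IsOpen U) {f : E n → ℝ}
    (h : LCK a (k + 2) U f) : ContDiffOn ℝ 2 f U := by
  exact_mod_cast (h.of_le (by omega : 2 ≤ k + 2)).contDiffOn ha hU

theorem LCK.hs {a : ℝ} (ha : 0 < a) {k : ℕ} {U : Set (E n)} (hU : IsOpen U) {f : E n → ℝ}
    (h : LCK a (k + 2) U f) (i j : Fin n) : LCK a k U (fun x => Hs f x i j) :=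
  ((h.pd j).pd i).congr hU (pd_pd_on hU (h.c2 ha hU) i j)

/-- gain of one derivative from the Hessian -/
theorem LCK.of_hs {a : ℝ} (ha : 0 < a) {k : ℕ} {U : Set (E n)} (hU : IsOpen U) {f : E n → ℝ}
    (h : LCK a 2 U f) (hs : ∀ i j, LCK a k U (fun x => Hs f x i j)) : LCK a (k + 2) U f := by
  have hc := LCK.c2 (k := 0) ha hU h
  refine ⟨h.1, h.2.1, fun j => ⟨(h.2.2 j).1, (h.2.2 j).2.1, fun i => ?_⟩⟩
  exact (hs i j).congr hU fun x hx => (pd_pd_on hU hc i j hx).symm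

/-- `Hs` commutes with derivatives -/
theorem pd_hs_on {a : ℝ} (ha : 0 < a) {U : Set (E n)} (hU : IsOpen U) {f : E n → ℝ}
    (h : LCK a 3 U f) (e i j : Fin n) :
    EqOn (Boot.pd e (fun x => Hs f x i j)) (fun x => Hs (Boot.pd e f) x i j) U := by
  have h2 : ContDiffOn ℝ 2 f U := LCK.c2 (k := 1) ha hU h
  have hd : ∀ l, ContDiffOn ℝ 2 (Boot.pd l f) U := fun l => LCK.c2 (k := 0) ha hU (h.pd l)
  intro x hx
  -- ∂_e ∂_i ∂_j f = ∂_i ∂_e ∂_j f = ∂_i ∂_j ∂_e f
  have e1 : Boot.pd e (fun x => Hs f x i j) x = Boot.pd e (Boot.pd i (Boot.pd j f)) x :=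
    (pd_congr hU (pd_pd_on hU h2 i j) e hx).symm
  have e2 : Boot.pd e (Boot.pd i (Boot.pd j f)) x = Boot.pd i (Boot.pd e (Boot.pd j f)) x := by
    rw [pd_pd_on hU (hd j) e i hx, pd_pd_on hU (hd j) i e hx]
    exact hs_symm_on hU (hd j) hx e i
  have e3 : EqOn (Boot.pd e (Boot.pd j f)) (Boot.pd j (Boot.pd e f)) U := fun y hy => by
    rw [pd_pd_on hU h2 e j hy, pd_pd_on hU h2 j e hy]
    exact hs_symm_on hU h2 hy e j
  rw [e1, e2, pd_congr hU e3 i hx, pd_pd_on hU (hd e) i j hx]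

theorem hs_congr_on {U : Set (E n)} (hU : IsOpen U) {f g : E n → ℝ} (he : EqOn f g U)
    {x : E n} (hx : x ∈ U) (i j : Fin n) : Hs f x i j = Hs g x i j := by
  apply SF.Hs_congr
  filter_upwards [hU.mem_nhds hx] with y hy
  exact he hy

/-- conclusion of the difference quotient step in local form -/
theorem three_of_step {a : ℝ} (ha : 0 < a) {U : Set (E n)} (hU : IsOpen U) {v : E n → ℝ}
    (hv : LCK a 2 U v) (h : ∀ x ∈ U, ∃ r > 0, ball x r ⊆ U ∧ ∀ i j, ∃ F : E n → ℝ, CK a 1 F ∧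
      EqOn F (fun y => Hs v y i j) (ball x r)) : LCK a 3 U v := by
  refine LCK.of_hs (k := 1) ha hU hv fun i j => LCK.local fun x hx => ?_
  obtain ⟨r, hr, -, H⟩ := h x hx
  obtain ⟨F, hF, he⟩ := H i j
  exact ⟨r, hr, (LCK.of_ck hF _).congr isOpen_ball he⟩

/-- **linear step** -/
theorem lin_step {a : ℝ} (ha : 0 < a) (ha1 : a < 1) {U : Set (E n)} (hU : IsOpen U)
    {v g : E n → ℝ} {A : E n → Matrix (Fin n) (Fin n) ℝ} (hv : LCK a 2 U v)
    (hA : ∀ i j, LCK a 1 U (fun x => A x i j)) (hg : LCK a 1 U g)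
    (hpd : ∀ x ∈ U, PD (A x)) (heq : ∀ x ∈ U, ∑ i, ∑ j, A x i j * Hs v x i j = g x) :
    LCK a 3 U v := by
  refine three_of_step ha hU hv fun x0 hx0 => ?_
  obtain ⟨R1, hR1, hR1U, v', hv', hev⟩ := hv.repr ha ha1.le hU hx0
  obtain ⟨R2, hR2, hR2U, g', hg', heg⟩ := hg.repr ha ha1.le hU hx0
  choose R3 hR3 hR3U A' hA' heA using fun i j => (hA i j).repr ha ha1.le hU hx0
  obtain ⟨ε, hε, lo, hi, hlo, hlohi, hell⟩ := (hpd x0 hx0).near
  -- continuity of the coefficients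
  have hcont : ∀ i j, ContinuousAt (fun x => A x i j) x0 := fun i j =>
    (hA i j).lh.continuousAt ha hx0
  have hcont' : ∀ i j, ∃ R > 0, ∀ x ∈ ball x0 R, |A x i j - A x0 i j| ≤ ε := by
    intro i j
    obtain ⟨R, hR, h1⟩ := Metric.continuousAt_iff.1 (hcont i j) ε hε
    exact ⟨R, hR, fun x hx => by
      have := h1 (mem_ball.1 hx)
      rw [Real.dist_eq] at this
      exact this.le⟩
  choose R4 hR4 h4 using hcont'
  obtain ⟨R5, hR5, h5l⟩ : ∃ R5 > 0, ∀ i j, R5 ≤ R3 i j ∧ R5 ≤ R4 i j := by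
    rcases isEmpty_or_nonempty (Fin n × Fin n) with hι | hι
    · exact ⟨1, one_pos, fun i j => (IsEmpty.false (i, j)).elim⟩
    · refine ⟨Finset.univ.inf' Finset.univ_nonempty
        (fun p : Fin n × Fin n => min (R3 p.1 p.2) (R4 p.1 p.2)), ?_, fun i j => ?_⟩
      · exact (Finset.lt_inf'_iff _).2 fun l _ => lt_min (hR3 _ _) (hR4 _ _)
      · have := Finset.inf'_le (fun p : Fin n × Fin n => min (R3 p.1 p.2) (R4 p.1 p.2))
          (Finset.mem_univ (i, j))
        exact ⟨this.trans (min_le_left _ _), this.trans (min_le_right _ _)⟩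
  set ρ : ℝ := min (min R1 R2) R5 with hρ
  have hρ0 : 0 < ρ := lt_min (lt_min hR1 hR2) hR5
  have hρ1 : ρ ≤ R1 := (min_le_left _ _).trans (min_le_left _ _)
  have hρ2 : ρ ≤ R2 := (min_le_left _ _).trans (min_le_right _ _)
  have hρ5 : ρ ≤ R5 := min_le_right _ _
  set r : ℝ := ρ / 8 with hr
  have hr0 : 0 < r := by positivity
  have hb : ball x0 (4 * r) ⊆ ball x0 ρ := ball_subset_ball (by rw [hr]; linarith)
  have hshift : ∀ z : E n, ‖z‖ ≤ r → ∀ x ∈ ball x0 (4 * r), x + z ∈ ball x0 ρ := by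
    intro z hz x hx
    rw [mem_ball, dist_eq_norm] at hx ⊢
    have h1 : x + z - x0 = (x - x0) + z := by abel
    rw [h1]
    have := norm_add_le (x - x0) z
    rw [hr] at hx hz
    linarith
  have hv2 : ContDiff ℝ 2 v' := by exact_mod_cast CK.contDiff ha hv'
  have hHs : ∀ x ∈ ball x0 ρ, ∀ i j, Hs v' x i j = Hs v x i j := fun x hx i j =>
    hs_congr_on isOpen_ball (hev.mono (ball_subset_ball hρ1)) hx i j
  have hρU : ball x0 ρ ⊆ U := (ball_subset_ball hρ1).trans hR1U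
  have hAA : ∀ x ∈ ball x0 ρ, ∀ i j, A' i j x = A x i j := fun x hx i j =>
    heA i j (ball_subset_ball (hρ5.trans (h5l i j).1) hx)
  have hgg : ∀ x ∈ ball x0 ρ, g' x = g x := fun x hx => heg (ball_subset_ball hρ2 hx)
  obtain ⟨K, hK0, hK⟩ := hb_unif (ι := Fin n × Fin n) (a := a) (F := fun p => A' p.1 p.2)
    (fun p => (hA' p.1 p.2).hb)
  -- the right hand side
  have sG : Sm a r (fun z x => dq z g' x - ∑ i, ∑ j, dq z (A' i j) x * Hs v' (x + z) i j) := by
    refine (sm_dq hg').sub (Sm.sum _ fun i _ => Sm.sum _ fun j _ => (sm_dq (hA' i j)).mul_bd ?_)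
    obtain ⟨M, hM⟩ := (ck_hs (k := 0) ha hv' i j).hb
    exact ⟨M, fun z _ => Boot.HB.comp_add hM z⟩
  obtain ⟨N, hN⟩ := sG
  have hst : ∀ z, ‖z‖ ≤ r → ∀ x ∈ ball x0 (4 * r),
      ∑ i, ∑ j, A x i j * Hs (dq z v') x i j
        = dq z g' x - ∑ i, ∑ j, dq z (A' i j) x * Hs v' (x + z) i j := by
    intro z hz x hx
    have hx1 := hb hx
    have hx2 := hshift z hz x hx
    have e1 := heq x (hρU hx1)
    have e2 := heq (x + z) (hρU hx2)
    have e3 : ∑ i, ∑ j, A x i j * Hs (dq z v') x i j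
        = (∑ i, ∑ j, A x i j * Hs v (x + z) i j) - ∑ i, ∑ j, A x i j * Hs v x i j := by
      simp only [← Finset.sum_sub_distrib]
      refine Finset.sum_congr rfl fun i _ => Finset.sum_congr rfl fun j _ => ?_
      rw [NL.Hs_dq hv2, hHs x hx1, hHs (x + z) hx2]
      ring
    have e4 : ∑ i, ∑ j, dq z (A' i j) x * Hs v' (x + z) i j
        = (∑ i, ∑ j, A (x + z) i j * Hs v (x + z) i j)
          - ∑ i, ∑ j, A x i j * Hs v (x + z) i j := by
      simp only [← Finset.sum_sub_distrib]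
      refine Finset.sum_congr rfl fun i _ => Finset.sum_congr rfl fun j _ => ?_
      unfold Boot.dq
      rw [hHs (x + z) hx2, hAA x hx1, hAA (x + z) hx2]
      ring
    rw [e3, e4, e1, e2]
    unfold Boot.dq
    rw [hgg x hx1, hgg (x + z) hx2]
    ring
  refine ⟨r / 2, by positivity, (ball_subset_ball (by rw [hr]; linarith)).trans hρU, fun i j => ?_⟩
  obtain ⟨F, hF, hFe⟩ := dq_step ha ha1 hr0 hv' hr0 (A := fun _ x => A x)
    (G := fun z x => dq z g' x - ∑ i, ∑ j, dq z (A' i j) x * Hs v' (x + z) i j)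
    (K := K) (N := N) hlo hlohi
    (fun z _ x hx => hell (A x) (hpd x (hρU (hb hx))).1 fun i j =>
      h4 i j x (ball_subset_ball (hρ5.trans (h5l i j).2) (hb hx)))
    (fun z _ i j => on_congr (SF.hb_on (hK (i, j)) _) fun x hx => hAA x (hb hx) i j)
    (fun z hz => SF.hb_on (hN z hz) _) hst i j
  refine ⟨F, hF, fun x hx => ?_⟩
  rw [hFe x hx]
  exact hHs x (ball_subset_ball (by rw [hr]; linarith) hx) i j

/-- **linear regularity** -/
theorem lin_reg {a : ℝ} (ha : 0 < a) (ha1 : a < 1) {U : Set (E n)} (hU : IsOpen U)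
    {A : E n → Matrix (Fin n) (Fin n) ℝ} (hpd : ∀ x ∈ U, PD (A x)) (k : ℕ) :
    ∀ {v g : E n → ℝ}, LCK a 2 U v → (∀ i j, LCK a (k + 1) U (fun x => A x i j)) →
      LCK a (k + 1) U g → (∀ x ∈ U, ∑ i, ∑ j, A x i j * Hs v x i j = g x) →
      LCK a (k + 3) U v := by
  induction k with
  | zero =>
    intro v g hv hA hg heq
    exact lin_step ha ha1 hU hv hA hg hpd heq
  | succ k ih =>
    intro v g hv hA hg heq
    have h3 : LCK a (k + 3) U v := ih hv (fun i j => (hA i j).of_succ) hg.of_succ heq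
    have h33 : LCK a 3 U v := h3.of_le (by omega)
    have hd : ∀ e, LCK a (k + 3) U (Boot.pd e v) := by
      intro e
      refine ih (g := fun x => Boot.pd e g x
        - ∑ i, ∑ j, Boot.pd e (fun x => A x i j) x * Hs v x i j)
        ((h3.pd e).of_le (by omega)) (fun i j => (hA i j).of_succ) ?_ ?_
      · refine (hg.pd e).sub hU (LCK.sum hU _ fun i _ => LCK.sum hU _ fun j _ => ?_)
        exact ((hA i j).pd e).mul hU (h3.hs ha hU (k := k + 1) i j)
      · intro x hx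
        have e1 : EqOn (fun x => ∑ i, ∑ j, A x i j * Hs v x i j) g U := heq
        have e2 := pd_congr hU e1 e hx
        have hdA : ∀ i j, DifferentiableAt ℝ (fun x => A x i j) x := fun i j =>
          (hA i j).diff.differentiableAt (hU.mem_nhds hx)
        have hdH : ∀ i j, DifferentiableAt ℝ (fun x => Hs v x i j) x := fun i j =>
          ((h3.hs ha hU (k := k + 1) i j).diff).differentiableAt (hU.mem_nhds hx)
        have e3 : HasFDerivAt (fun x => ∑ i, ∑ j, A x i j * Hs v x i j)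
            (∑ i, ∑ j, (A x i j • fderiv ℝ (fun x => Hs v x i j) x
              + Hs v x i j • fderiv ℝ (fun x => A x i j) x)) x := by
          refine HasFDerivAt.fun_sum fun i _ => HasFDerivAt.fun_sum fun j _ => ?_
          exact (hdA i j).hasFDerivAt.mul (hdH i j).hasFDerivAt
        rw [← e2]
        unfold Boot.pd
        rw [e3.fderiv]
        simp only [_root_.sum_apply, _root_.add_apply, _root_.smul_apply, smul_eq_mul]
        simp only [← Finset.sum_sub_distrib]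
        refine Finset.sum_congr rfl fun i _ => Finset.sum_congr rfl fun j _ => ?_
        have e4 := pd_hs_on ha hU h33 e i j hx
        unfold Boot.pd at e4
        rw [e4]
        ring
    refine ⟨hv.1, hv.2.1, fun e => hd e⟩

end Crest.Agent.R273.CReg_933
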