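import Crest.Agent.R273.CRegC_933

/-!
# R273 (S0416), Part C, C-REG (helper933), file D: nonlinear regularity

`Φ(D²u) = f` on the open set `U`, `Φ` smooth, elliptic at `D²u`, `u ∈ C^{2,a}`:
`nonlin_step` : `f ∈ C^{1,a}` ⟹ `u ∈ C^{3,a}`
`nonlin_reg`  : `f ∈ C^{k+1,a}` ⟹ `u ∈ C^{k+3,a}`
`nonlin_smooth` : `f` smooth ⟹ `u` smooth
-/

set_option autoImplicit false

open MeasureTheory Set Filter Metric
open scoped ContDiff Topology

namespace Crest.Agent.R273.CReg_933

open Crest.Agent.R238 Crest.Agent.R238.Boot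

variable {n : ℕ}

/-- matrices as functions, sup norm -/
abbrev VM (n : ℕ) : Type := Fin n → Fin n → ℝ

/-- symmetrised basis matrix -/
noncomputable def Es (i j : Fin n) : VM n := fun k l =>
  (1 / 2 : ℝ) * ((if k = i ∧ l = j then 1 else 0) + (if k = j ∧ l = i then 1 else 0))

theorem norm_Es (i j : Fin n) : ‖(Es i j : VM n)‖ ≤ 1 := by
  refine (pi_norm_le_iff_of_nonneg zero_le_one).2 fun k =>
    (pi_norm_le_iff_of_nonneg zero_le_one).2 fun l => ?_
  unfold Es
  rw [Real.norm_eq_abs]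
  split_ifs <;> norm_num

theorem sum_Es {W : VM n} (hW : ∀ i j, W i j = W j i) : ∑ i, ∑ j, W i j • (Es i j : VM n) = W := by
  funext k l
  have e : (∑ i, ∑ j, W i j • (Es i j : VM n)) k l = ∑ i, ∑ j, W i j * Es i j k l := by
    simp [Finset.sum_apply]
  rw [e]
  have e1 : ∀ i j, W i j * Es i j k l
      = (1 / 2 : ℝ) * ((if k = i then (if l = j then W i j else 0) else 0)
        + (if k = j then (if l = i then W i j else 0) else 0)) := by
    intro i j
    unfold Es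
    rw [ite_and, ite_and]
    calc W i j * ((1 / 2 : ℝ) * ((if k = i then (if l = j then (1:ℝ) else 0) else 0)
          + (if k = j then (if l = i then (1:ℝ) else 0) else 0)))
        = (1 / 2 : ℝ) * (W i j * (if k = i then (if l = j then (1:ℝ) else 0) else 0)
          + W i j * (if k = j then (if l = i then (1:ℝ) else 0) else 0)) := by ring
      _ = _ := by simp only [mul_ite, mul_one, mul_zero]
  simp only [e1, ← Finset.mul_sum, Finset.sum_add_distrib]
  have e2 : ∑ i, ∑ j, (if k = i then (if l = j then W i j else 0) else 0) = W k l := by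
    simp
  have e3 : ∑ i, ∑ j, (if k = j then (if l = i then W i j else 0) else 0) = W l k := by
    simp
  rw [e2, e3, hW l k]
  ring

/-- averaged derivative of `Φ` along the segment from `P` to `Q` -/
noncomputable def cf (Φ : VM n → ℝ) (P Q : VM n) (i j : Fin n) : ℝ :=
  ∫ t in (0:ℝ)..1, fderiv ℝ Φ (P + t • (Q - P)) (Es i j)

theorem cf_cont {Φ : VM n → ℝ} (hΦ : ContDiff ℝ ∞ Φ) (P Q W : VM n) :
    Continuous fun t : ℝ => fderiv ℝ Φ (P + t • (Q - P)) W := by
  have h1 : Continuous (fderiv ℝ Φ) := hΦ.continuous_fderiv (by simp)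
  exact (h1.comp (by fun_prop)).clm_apply continuous_const

theorem cf_sub {Φ : VM n → ℝ} (hΦ : ContDiff ℝ ∞ Φ) {P Q : VM n}
    (hs : ∀ i j, (Q - P) i j = (Q - P) j i) :
    ∑ i, ∑ j, cf Φ P Q i j * (Q - P) i j = Φ Q - Φ P := by
  have h1 : ∀ t : ℝ, HasDerivAt (fun t : ℝ => Φ (P + t • (Q - P)))
      (fderiv ℝ Φ (P + t • (Q - P)) (Q - P)) t := by
    intro t
    have h2 : HasDerivAt (fun t : ℝ => P + t • (Q - P)) (Q - P) t := by
      simpa using ((hasDerivAt_id t).smul_const (Q - P)).const_add P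
    exact ((hΦ.differentiable (by simp)) _).hasFDerivAt.comp_hasDerivAt t h2
  have h3 := intervalIntegral.integral_eq_sub_of_hasDerivAt (a := 0) (b := 1)
    (fun t _ => h1 t) ((cf_cont hΦ P Q (Q - P)).intervalIntegrable _ _)
  simp only [one_smul, zero_smul, add_zero, add_sub_cancel] at h3
  rw [← h3]
  have h4 : ∀ t : ℝ, fderiv ℝ Φ (P + t • (Q - P)) (Q - P)
      = ∑ i, ∑ j, fderiv ℝ Φ (P + t • (Q - P)) (Es i j) * (Q - P) i j := by
    intro t
    have hW : fderiv ℝ Φ (P + t • (Q - P)) (Q - P) = fderiv ℝ Φ (P + t • (Q - P))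
        (∑ i, ∑ j, (Q - P) i j • (Es i j : VM n)) := by rw [sum_Es hs]
    rw [hW, map_sum]
    refine Finset.sum_congr rfl fun i _ => ?_
    rw [map_sum]
    refine Finset.sum_congr rfl fun j _ => ?_
    rw [map_smul, smul_eq_mul, mul_comm]
  simp only [h4]
  rw [intervalIntegral.integral_finsetSum]
  · refine Finset.sum_congr rfl fun i _ => ?_
    rw [intervalIntegral.integral_finsetSum]
    · refine Finset.sum_congr rfl fun j _ => ?_
      rw [intervalIntegral.integral_mul_const]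
      rfl
    · intro j _
      exact ((cf_cont hΦ P Q (Es i j)).mul continuous_const).intervalIntegrable _ _
  · intro i _
    refine Continuous.intervalIntegrable ?_ _ _
    exact continuous_finsetSum _ fun j _ => (cf_cont hΦ P Q (Es i j)).mul continuous_const

theorem cf_diff {Φ : VM n → ℝ} (hΦ : ContDiff ℝ ∞ Φ) {H0 : VM n} {ρ : ℝ} {K : NNReal}
    (hK : LipschitzOnWith K (fderiv ℝ Φ) (closedBall H0 ρ)) {P Q P' Q' : VM n}
    (hP : P ∈ closedBall H0 ρ) (hQ : Q ∈ closedBall H0 ρ) (hP' : P' ∈ closedBall H0 ρ)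
    (hQ' : Q' ∈ closedBall H0 ρ) (i j : Fin n) :
    |cf Φ P Q i j - cf Φ P' Q' i j| ≤ K * (‖P - P'‖ + ‖Q - Q'‖) := by
  unfold cf
  rw [← intervalIntegral.integral_sub ((cf_cont hΦ P Q _).intervalIntegrable _ _)
    ((cf_cont hΦ P' Q' _).intervalIntegrable _ _)]
  have h1 := intervalIntegral.norm_integral_le_of_norm_le_const (a := (0:ℝ)) (b := 1)
    (f := fun t => fderiv ℝ Φ (P + t • (Q - P)) (Es i j)
      - fderiv ℝ Φ (P' + t • (Q' - P')) (Es i j)) (C := K * (‖P - P'‖ + ‖Q - Q'‖)) ?_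
  · simpa using h1
  intro t ht
  rw [uIoc_of_le zero_le_one] at ht
  have ht0 : 0 ≤ t := ht.1.le
  have ht1 : t ≤ 1 := ht.2
  have hc : Convex ℝ (closedBall H0 ρ) := convex_closedBall _ _
  have m1 : P + t • (Q - P) ∈ closedBall H0 ρ := hc.add_smul_sub_mem hP hQ ⟨ht0, ht1⟩
  have m2 : P' + t • (Q' - P') ∈ closedBall H0 ρ := hc.add_smul_sub_mem hP' hQ' ⟨ht0, ht1⟩
  rw [← sub_apply]
  refine ((fderiv ℝ Φ (P + t • (Q - P)) - fderiv ℝ Φ (P' + t • (Q' - P'))).le_opNorm _).trans ?_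
  have h2 := hK.dist_le_mul _ m1 _ m2
  rw [dist_eq_norm, dist_eq_norm] at h2
  have h3 : P + t • (Q - P) - (P' + t • (Q' - P')) = (1 - t) • (P - P') + t • (Q - Q') := by
    module
  have h4 : ‖P + t • (Q - P) - (P' + t • (Q' - P'))‖ ≤ ‖P - P'‖ + ‖Q - Q'‖ := by
    rw [h3]
    refine (norm_add_le _ _).trans (add_le_add ?_ ?_)
    · rw [norm_smul, Real.norm_of_nonneg (by linarith)]
      nlinarith [norm_nonneg (P - P')]
    · rw [norm_smul, Real.norm_of_nonneg ht0]
      nlinarith [norm_nonneg (Q - Q')]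
  calc ‖fderiv ℝ Φ (P + t • (Q - P)) - fderiv ℝ Φ (P' + t • (Q' - P'))‖ * ‖(Es i j : VM n)‖
      ≤ (K * (‖P - P'‖ + ‖Q - Q'‖)) * 1 :=
        mul_le_mul (h2.trans (mul_le_mul_of_nonneg_left h4 K.2)) (norm_Es i j)
          (norm_nonneg _) (by positivity)
    _ = _ := mul_one _

theorem cf_self (Φ : VM n → ℝ) (P : VM n) (i j : Fin n) :
    cf Φ P P i j = fderiv ℝ Φ P (Es i j) := by
  simp [cf]

theorem Es_comm (i j : Fin n) : (Es i j : VM n) = Es j i := by
  funext k l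
  unfold Es
  ring

theorem cf_comm (Φ : VM n → ℝ) (P Q : VM n) (i j : Fin n) : cf Φ P Q i j = cf Φ P Q j i := by
  unfold cf
  rw [Es_comm]

/-- the Hessian as an element of `VM n` -/
noncomputable def HM2 (u : E n → ℝ) (x : E n) : VM n := fun i j => Hs u x i j

/-- **nonlinear first step** -/
theorem nonlin_step {a : ℝ} (ha : 0 < a) (ha1 : a < 1) {U : Set (E n)} (hU : IsOpen U)
    {u f : E n → ℝ} {Φ : VM n → ℝ} (hΦ : ContDiff ℝ ∞ Φ) (hu : LCK a 2 U u) (hf : LCK a 1 U f)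
    (hpd : ∀ x ∈ U, PD (fun i j => fderiv ℝ Φ (HM2 u x) (Es i j)))
    (heq : ∀ x ∈ U, Φ (HM2 u x) = f x) : LCK a 3 U u := by
  refine three_of_step ha hU hu fun x0 hx0 => ?_
  obtain ⟨R1, hR1, hR1U, v', hv', hev⟩ := hu.repr ha ha1.le hU hx0
  obtain ⟨R2, hR2, hR2U, g', hg', heg⟩ := hf.repr ha ha1.le hU hx0
  obtain ⟨ε, hε, lo, hi, hlo, hlohi, hell⟩ := (hpd x0 hx0).near
  have hv2 : ContDiff ℝ 2 v' := by exact_mod_cast CK.contDiff ha hv'
  have hH0 : HM2 u x0 = HM2 v' x0 := by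
    funext i j
    exact (hs_congr_on isOpen_ball hev (mem_ball_self hR1) i j).symm
  set H0 : VM n := HM2 v' x0 with hH0d
  rw [hH0] at hell
  -- Lipschitz bound of `fderiv Φ`
  have hΦ' : ContDiff ℝ 1 (fderiv ℝ Φ) := (hΦ.fderiv_right (m := ∞) (by simp)).of_le (by simp)
  obtain ⟨K, t, ht, hK⟩ := (hΦ'.contDiffAt (x := H0)).exists_lipschitzOnWith
  obtain ⟨ρ0, hρ0, hρt⟩ := Metric.mem_nhds_iff.1 ht
  set ρ : ℝ := min (ρ0 / 2) (ε / (2 * (K + 1))) with hρ
  have hρpos : 0 < ρ := by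
    have : 0 ≤ (K : ℝ) := K.2
    positivity
  have hKρ : LipschitzOnWith K (fderiv ℝ Φ) (closedBall H0 ρ) := by
    refine hK.mono ((closedBall_subset_ball ?_).trans hρt)
    have := min_le_left (ρ0 / 2) (ε / (2 * ((K : ℝ) + 1)))
    rw [hρ]; linarith
  have hKε : K * (2 * ρ) ≤ ε := by
    have h0 : 0 ≤ (K : ℝ) := K.2
    have h1 : ρ ≤ ε / (2 * ((K : ℝ) + 1)) := min_le_right _ _
    rw [le_div_iff₀ (by positivity)] at h1
    nlinarith [hρpos]
  -- continuity of the Hessian of `v'`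
  obtain ⟨M, hM0, hM⟩ := hb_unif (ι := Fin n × Fin n) (a := a) (F := fun p x => Hs v' x p.1 p.2)
    (fun p => (ck_hs (k := 0) ha hv' p.1 p.2).hb)
  have hHdist : ∀ x y, ‖HM2 v' x - HM2 v' y‖ ≤ M * ‖x - y‖ ^ a := by
    intro x y
    have h0 : 0 ≤ M * ‖x - y‖ ^ a := mul_nonneg hM0 (Real.rpow_nonneg (norm_nonneg _) _)
    refine (pi_norm_le_iff_of_nonneg h0).2 fun i => (pi_norm_le_iff_of_nonneg h0).2 fun j => ?_
    exact (hM (i, j)).2 x y
  obtain ⟨R3, hR3, h3⟩ : ∃ R > 0, ∀ x ∈ ball x0 R, HM2 v' x ∈ closedBall H0 ρ := by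
    have h1 : Tendsto (fun t : ℝ => M * t ^ a) (𝓝 0) (𝓝 0) := by
      have h2 : Continuous fun t : ℝ => M * t ^ a :=
        continuous_const.mul (continuous_id.rpow_const fun _ => Or.inr ha.le)
      have h3 := h2.tendsto 0
      simpa [Real.zero_rpow ha.ne'] using h3
    obtain ⟨δ, hδ, h4⟩ := Metric.tendsto_nhds_nhds.1 h1 ρ hρpos
    refine ⟨δ, hδ, fun x hx => ?_⟩
    rw [mem_closedBall, dist_eq_norm]
    refine (hHdist x x0).trans ?_
    have h5 := h4 (x := ‖x - x0‖) (by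
      rw [dist_zero_right, norm_norm, ← dist_eq_norm]; exact hx)
    rw [dist_zero_right, Real.norm_eq_abs] at h5
    exact (le_abs_self _).trans h5.le
  set R : ℝ := min (min R1 R2) R3 with hRd
  have hR0 : 0 < R := lt_min (lt_min hR1 hR2) hR3
  have hRR1 : R ≤ R1 := (min_le_left _ _).trans (min_le_left _ _)
  have hRR2 : R ≤ R2 := (min_le_left _ _).trans (min_le_right _ _)
  have hRR3 : R ≤ R3 := min_le_right _ _
  set r : ℝ := R / 8 with hr
  have hr0 : 0 < r := by positivity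
  have hb : ball x0 (4 * r) ⊆ ball x0 R := ball_subset_ball (by rw [hr]; linarith)
  have hshift : ∀ z : E n, ‖z‖ ≤ r → ∀ x ∈ ball x0 (4 * r), x + z ∈ ball x0 R := by
    intro z hz x hx
    rw [mem_ball, dist_eq_norm] at hx ⊢
    have h1 : x + z - x0 = (x - x0) + z := by abel
    rw [h1]
    have := norm_add_le (x - x0) z
    rw [hr] at hx hz
    linarith
  have hHs : ∀ x ∈ ball x0 R, HM2 v' x = HM2 u x := fun x hx => by
    funext i j
    exact hs_congr_on isOpen_ball (hev.mono (ball_subset_ball hRR1)) hx i j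
  have hRU : ball x0 R ⊆ U := (ball_subset_ball hRR1).trans hR1U
  have hgg : ∀ x ∈ ball x0 R, g' x = f x := fun x hx => heg (ball_subset_ball hRR2 hx)
  have hmem : ∀ x ∈ ball x0 R, HM2 v' x ∈ closedBall H0 ρ := fun x hx =>
    h3 x (ball_subset_ball hRR3 hx)
  set A : E n → E n → Matrix (Fin n) (Fin n) ℝ := fun z x =>
    cf Φ (HM2 v' x) (HM2 v' (x + z)) with hA
  have hclose : ∀ z, ‖z‖ ≤ r → ∀ x ∈ ball x0 (4 * r), ∀ i j,
      |A z x i j - fderiv ℝ Φ H0 (Es i j)| ≤ ε := by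
    intro z hz x hx i j
    have m0 : H0 ∈ closedBall H0 ρ := mem_closedBall_self hρpos.le
    have m1 := hmem x (hb hx)
    have m2 := hmem (x + z) (hshift z hz x hx)
    have h1 := cf_diff hΦ hKρ m1 m2 m0 m0 i j
    rw [cf_self] at h1
    refine h1.trans (le_trans ?_ hKε)
    rw [mem_closedBall, dist_eq_norm] at m1 m2
    exact mul_le_mul_of_nonneg_left (by linarith) K.2
  obtain ⟨N, hN⟩ := sm_dq (δ := r) hg'
  -- bound of the coefficients
  obtain ⟨B0, hB0⟩ : ∃ B0 : ℝ, ∀ i j, |fderiv ℝ Φ H0 (Es i j)| ≤ B0 :=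
    ⟨‖fderiv ℝ Φ H0‖, fun i j => ((fderiv ℝ Φ H0).le_opNorm _).trans (by
      nlinarith [norm_Es (n := n) i j, norm_nonneg (fderiv ℝ Φ H0)])⟩
  have hAon : ∀ z, ‖z‖ ≤ r → ∀ i j,
      SF.HBon a (|B0| + ε + K * (2 * M)) (ball x0 (4 * r)) (fun x => A z x i j) := by
    intro z hz i j
    have hK0 : 0 ≤ (K : ℝ) := K.2
    refine ⟨fun x hx => ?_, fun x hx y hy => ?_⟩
    · have h1 := hclose z hz x hx i j
      have h2 := hB0 i j
      have h3 : |A z x i j| ≤ |A z x i j - fderiv ℝ Φ H0 (Es i j)|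
          + |fderiv ℝ Φ H0 (Es i j)| := by
        have := abs_add_le (A z x i j - fderiv ℝ Φ H0 (Es i j)) (fderiv ℝ Φ H0 (Es i j))
        simpa using this
      have h4 := le_abs_self B0
      have h5 : 0 ≤ (K : ℝ) * (2 * M) := by positivity
      linarith
    · have h1 := cf_diff hΦ hKρ (hmem x (hb hx)) (hmem (x + z) (hshift z hz x hx))
        (hmem y (hb hy)) (hmem (y + z) (hshift z hz y hy)) i j
      have h2 := hHdist x y
      have h3 := hHdist (x + z) (y + z)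
      rw [add_sub_add_right_eq_sub] at h3
      have hra : 0 ≤ ‖x - y‖ ^ a := Real.rpow_nonneg (norm_nonneg _) _
      refine h1.trans ?_
      calc K * (‖HM2 v' x - HM2 v' y‖ + ‖HM2 v' (x + z) - HM2 v' (y + z)‖)
          ≤ K * (2 * (M * ‖x - y‖ ^ a)) := mul_le_mul_of_nonneg_left (by linarith) hK0
        _ = (K * (2 * M)) * ‖x - y‖ ^ a := by ring
        _ ≤ (|B0| + ε + K * (2 * M)) * ‖x - y‖ ^ a :=
          mul_le_mul_of_nonneg_right (by linarith [abs_nonneg B0]) hra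
  have hst : ∀ z, ‖z‖ ≤ r → ∀ x ∈ ball x0 (4 * r),
      ∑ i, ∑ j, A z x i j * Hs (dq z v') x i j = dq z g' x := by
    intro z hz x hx
    have hx1 := hb hx
    have hx2 := hshift z hz x hx
    have e1 : ∑ i, ∑ j, A z x i j * Hs (dq z v') x i j
        = ∑ i, ∑ j, cf Φ (HM2 v' x) (HM2 v' (x + z)) i j
          * (HM2 v' (x + z) - HM2 v' x) i j := by
      refine Finset.sum_congr rfl fun i _ => Finset.sum_congr rfl fun j _ => ?_
      rw [NL.Hs_dq hv2]
      rfl
    rw [e1, cf_sub hΦ (fun i j => by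
      show Hs v' (x + z) i j - Hs v' x i j = Hs v' (x + z) j i - Hs v' x j i
      rw [Hs_symm hv2, Hs_symm hv2 x]), hHs x hx1, hHs (x + z) hx2, heq x (hRU hx1),
      heq (x + z) (hRU hx2)]
    unfold Boot.dq
    rw [hgg x hx1, hgg (x + z) hx2]
  refine ⟨r / 2, by positivity, (ball_subset_ball (by rw [hr]; linarith)).trans hRU, fun i j => ?_⟩
  obtain ⟨F, hF, hFe⟩ := dq_step ha ha1 hr0 hv' hr0 (A := A) (G := fun z x => dq z g' x)
    (K := |B0| + ε + K * (2 * M)) (N := N) hlo hlohi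
    (fun z hz x hx => hell (A z x) (fun i j => cf_comm _ _ _ _ _) (hclose z hz x hx))
    hAon (fun z hz => SF.hb_on (hN z hz) _) hst i j
  refine ⟨F, hF, fun x hx => ?_⟩
  rw [hFe x hx]
  exact congrFun (congrFun (hHs x (ball_subset_ball (by rw [hr]; linarith) hx)) i) j

/-- composition of the Hessian with a smooth function -/
theorem lck_comp_hs {a : ℝ} (ha : 0 < a) {k : ℕ} {U : Set (E n)} (hU : IsOpen U) {u : E n → ℝ}
    (h : ∀ i j, LCK a k U (fun x => Hs u x i j)) {Θ : VM n → ℝ} (hΘ : ContDiff ℝ ∞ Θ) :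
    LCK a k U (fun x => Θ (HM2 u x)) := by
  have h1 := LCK.comp ha (ι := Fin n × Fin n) hU (f := fun p x => Hs u x p.1 p.2)
    (fun p => h p.1 p.2) (Θ := fun y => Θ (fun i j => y (i, j)))
    (hΘ.comp (contDiff_pi.2 fun i => contDiff_pi.2 fun j => contDiff_apply ℝ ℝ (i, j)))
  exact h1

/-- **nonlinear regularity** -/
theorem nonlin_reg {a : ℝ} (ha : 0 < a) (ha1 : a < 1) {U : Set (E n)} (hU : IsOpen U)
    {u f : E n → ℝ} {Φ : VM n → ℝ} (hΦ : ContDiff ℝ ∞ Φ) (hu : LCK a 2 U u)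
    (hpd : ∀ x ∈ U, PD (fun i j => fderiv ℝ Φ (HM2 u x) (Es i j)))
    (heq : ∀ x ∈ U, Φ (HM2 u x) = f x) (k : ℕ) (hf : LCK a (k + 1) U f) :
    LCK a (k + 3) U u := by
  induction k with
  | zero => exact nonlin_step ha ha1 hU hΦ hu hf hpd heq
  | succ k ih =>
    have h3 : LCK a (k + 3) U u := ih hf.of_succ
    have h33 : LCK a 3 U u := h3.of_le (by omega)
    have hH : ∀ i j, LCK a (k + 1) U (fun x => Hs u x i j) := fun i j =>
      h3.hs ha hU (k := k + 1) i j
    refine ⟨hu.1, hu.2.1, fun e => ?_⟩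
    refine lin_reg ha ha1 hU hpd k (g := Boot.pd e f) ((h3.pd e).of_le (by omega))
      (fun i j => ?_) (hf.pd e) fun x hx => ?_
    · exact lck_comp_hs ha hU hH (Θ := fun y => fderiv ℝ Φ y (Es i j))
        ((hΦ.fderiv_right (m := ∞) (by simp)).clm_apply contDiff_const)
    · have e1 : EqOn (fun x => Φ (HM2 u x)) f U := heq
      rw [← pd_congr hU e1 e hx]
      have hdH : ∀ i j, DifferentiableAt ℝ (fun x => Hs u x i j) x := fun i j =>
        ((hH i j).diff).differentiableAt (hU.mem_nhds hx)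
      have h1 : HasFDerivAt (HM2 u) (ContinuousLinearMap.pi fun i =>
          ContinuousLinearMap.pi fun j => fderiv ℝ (fun x => Hs u x i j) x) x :=
        hasFDerivAt_pi.2 fun i => hasFDerivAt_pi.2 fun j => (hdH i j).hasFDerivAt
      have h2 := ((hΦ.differentiable (by simp)) (HM2 u x)).hasFDerivAt.comp x h1
      unfold Boot.pd
      have h2' : HasFDerivAt (fun x => Φ (HM2 u x)) _ x := h2
      rw [h2'.fderiv, ContinuousLinearMap.comp_apply]
      set W : VM n := (ContinuousLinearMap.pi fun i =>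
          ContinuousLinearMap.pi fun j => fderiv ℝ (fun x => Hs u x i j) x) (ee e) with hW
      have hWe : ∀ i j, W i j = Hs (fun x => fderiv ℝ u x (ee e)) x i j := by
        intro i j
        exact pd_hs_on ha hU h33 e i j hx
      have hc2 : ContDiffOn ℝ 2 (Boot.pd e u) U := LCK.c2 (k := 0) ha hU (h33.pd e)
      have hWs : ∀ i j, W i j = W j i := fun i j => by
        rw [hWe, hWe]
        exact hs_symm_on hU hc2 hx i j
      conv_rhs => rw [← sum_Es hWs]
      rw [map_sum]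
      refine Finset.sum_congr rfl fun i _ => ?_
      rw [map_sum]
      refine Finset.sum_congr rfl fun j _ => ?_
      rw [map_smul, smul_eq_mul, mul_comm, hWe]

theorem nonlin_smooth {a : ℝ} (ha : 0 < a) (ha1 : a < 1) {U : Set (E n)} (hU : IsOpen U)
    {u f : E n → ℝ} {Φ : VM n → ℝ} (hΦ : ContDiff ℝ ∞ Φ) (hu : LCK a 2 U u)
    (hpd : ∀ x ∈ U, PD (fun i j => fderiv ℝ Φ (HM2 u x) (Es i j)))
    (heq : ∀ x ∈ U, Φ (HM2 u x) = f x) (hf : ContDiffOn ℝ ∞ f U) : ContDiffOn ℝ ∞ u U := by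
  rw [contDiffOn_infty]
  intro k
  have h1 := nonlin_reg ha ha1 hU hΦ hu hpd heq k (lck_of_contDiffOn ha.le ha1.le hU _ hf)
  exact (h1.contDiffOn ha hU).of_le (by exact_mod_cast Nat.le_add_right k 3)

end Crest.Agent.R273.CReg_933
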