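import Crest.Agent.R273.ChowI_313
import Mathlib.Algebra.Polynomial.EraseLead
import Mathlib.Algebra.Polynomial.Splits

/-!
# R273 (S0416), leaf CHOW, part 4 (helper313): sections of `O^d` are rational over the coordinates

* `pdiv`       : pseudo-division by an element of minimal degree of a "prime ideal" of values;
* `exists_rat` : `q(ρ) v = a(ρ)`, `q(ρ) ≢ 0`, if `v = t / L^d` is determined by `ρ = F / L`.
-/

set_option autoImplicit false
set_option linter.unusedSectionVars false

open Set Filter Topology Complex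
open scoped ContDiff Matrix ComplexConjugate Kronecker Polynomial

namespace Crest.Agent.R273.Chow_313

open Crest.Agent.R275 Crest.Agent.R275.Geo Crest.Agent.R275.Core144 Crest.Agent.R275.Dg199
open Crest.Agent.R273.LamN127 Crest.Agent.R273.KosAb_619 Crest.Agent.R273.SerA_945
open Crest.Agent.R273.SerB_945 Crest.Agent.R273.SerC_945 Crest.Agent.R273.KosGen_313
open Crest.Agent.R273.Defs_333 Crest.Agent.R273.FS_333 Crest.Agent.R273.SteinC_794

noncomputable section

/-! ### algebra: pseudo-division -/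

section Alg

variable {S B : Type*} [CommRing B] [IsDomain B] (ev : S → B →+* ℂ) (v : S → ℂ)

/-- pseudo-division: `μ` of minimal degree among the relations with leading coefficient not
identically zero; at a point where the leading coefficient of `μ` is not zero every root of `μ`
is a root of every relation -/
theorem pdiv {μ : B[X]}
    (hμ : ∀ x, (μ.map (ev x)).eval (v x) = 0)
    (h0 : ∀ g : B, (∀ x, ev x g = 0) → g ≠ 0 → False)
    (hμ1 : 0 < μ.natDegree)
    (hmin : ∀ G : B[X], (∀ x, (G.map (ev x)).eval (v x) = 0) →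
      (∃ x, ev x G.leadingCoeff ≠ 0) → μ.natDegree ≤ G.natDegree) (N : ℕ) :
    ∀ G : B[X], G.natDegree < N → (∀ x, (G.map (ev x)).eval (v x) = 0) →
      ∀ x, ev x μ.leadingCoeff ≠ 0 → ∀ τ, (μ.map (ev x)).eval τ = 0 → (G.map (ev x)).eval τ = 0 := by
  induction N with
  | zero => intro G hG; exact absurd hG (Nat.not_lt_zero _)
  | succ N ih =>
    intro G hG hGv x hx τ hτ
    by_cases hlc : ∃ x, ev x G.leadingCoeff ≠ 0
    · have hle := hmin G hGv hlc
      have hG0 : G ≠ 0 := by
        rintro rfl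
        obtain ⟨y, hy⟩ := hlc
        exact hy (by rw [Polynomial.leadingCoeff_zero, map_zero])
      have hμ0 : μ ≠ 0 := by
        rintro rfl
        rw [Polynomial.natDegree_zero] at hμ1
        exact absurd hμ1 (lt_irrefl 0)
      have hlG : G.leadingCoeff ≠ 0 := Polynomial.leadingCoeff_ne_zero.2 hG0
      have hlμ : μ.leadingCoeff ≠ 0 := Polynomial.leadingCoeff_ne_zero.2 hμ0
      set P1 : B[X] := Polynomial.C μ.leadingCoeff * G with hP1
      set P2 : B[X] := Polynomial.C G.leadingCoeff * Polynomial.X ^ (G.natDegree - μ.natDegree) * μ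
        with hP2
      have hX : (Polynomial.C G.leadingCoeff * Polynomial.X ^ (G.natDegree - μ.natDegree) : B[X]) ≠ 0 :=
        mul_ne_zero (Polynomial.C_ne_zero.2 hlG) (pow_ne_zero _ Polynomial.X_ne_zero)
      have hP10 : P1 ≠ 0 := mul_ne_zero (Polynomial.C_ne_zero.2 hlμ) hG0
      have hP20 : P2 ≠ 0 := mul_ne_zero hX hμ0
      have hn1 : P1.natDegree = G.natDegree := Polynomial.natDegree_C_mul hlμ
      have hn2 : P2.natDegree = G.natDegree := by
        rw [hP2, Polynomial.natDegree_mul hX hμ0, Polynomial.natDegree_C_mul_X_pow _ _ hlG]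
        omega
      have hl : P1.leadingCoeff = P2.leadingCoeff := by
        rw [hP1, hP2, Polynomial.leadingCoeff_mul, Polynomial.leadingCoeff_mul,
          Polynomial.leadingCoeff_mul, Polynomial.leadingCoeff_C, Polynomial.leadingCoeff_C,
          Polynomial.leadingCoeff_X_pow, mul_one, mul_comm]
      have hdeg : P1.degree = P2.degree := by
        rw [Polynomial.degree_eq_natDegree hP10, Polynomial.degree_eq_natDegree hP20, hn1, hn2]
      have hlt := Polynomial.degree_sub_lt_left hdeg hP10 hl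
      have hN : (P1 - P2).natDegree < N := by
        by_cases h : P1 - P2 = 0
        · rw [h, Polynomial.natDegree_zero]
          omega
        · rw [Polynomial.degree_eq_natDegree h, Polynomial.degree_eq_natDegree hP10, hn1] at hlt
          have : (P1 - P2).natDegree < G.natDegree := by exact_mod_cast hlt
          omega
      have hev : ∀ (y : S) (s : ℂ), ((P1 - P2).map (ev y)).eval s =
          ev y μ.leadingCoeff * (G.map (ev y)).eval s -
            ev y G.leadingCoeff * s ^ (G.natDegree - μ.natDegree) * (μ.map (ev y)).eval s := by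
        intro y s
        rw [hP1, hP2]
        simp only [Polynomial.map_sub, Polynomial.map_mul, Polynomial.map_C, Polynomial.map_pow,
          Polynomial.map_X, Polynomial.eval_sub, Polynomial.eval_mul, Polynomial.eval_C,
          Polynomial.eval_pow, Polynomial.eval_X]
      have h1 := ih (P1 - P2) hN (fun y => by
        rw [hev, hGv y, hμ y, mul_zero, mul_zero, sub_zero]) x hx τ hτ
      rw [hev, hτ, mul_zero, sub_zero] at h1
      exact (mul_eq_zero.1 h1).resolve_left hx
    · push Not at hlc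
      have hz : G.leadingCoeff = 0 := by
        by_contra h
        exact h0 _ hlc h
      rw [Polynomial.leadingCoeff_eq_zero] at hz
      rw [hz, Polynomial.map_zero, Polynomial.eval_zero]

end Alg

variable {n : ℕ} {M : Type} [TopologicalSpace M] {A : Atl n M} {r : ℕ} {O : LB A}

section Main

variable [T2Space M] [ConnectedSpace M]

/-! ### homogenization -/

/-- homogenization with respect to the linear form `∑ l k X k` -/
def hmg (l : Fin r → ℂ) (N : ℕ) (q : MvPolynomial (Fin r) ℂ) : MvPolynomial (Fin r) ℂ :=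
  ∑ e ∈ q.support, MvPolynomial.monomial e (q.coeff e) *
    (∑ k, MvPolynomial.C (l k) * MvPolynomial.X k) ^ (N - e.degree)

theorem degree_le_of_mem {q : MvPolynomial (Fin r) ℂ} {e : Fin r →₀ ℕ} (he : e ∈ q.support) :
    e.degree ≤ q.totalDegree := by
  have h := MvPolynomial.le_totalDegree he
  exact h

theorem hmg_homog (l : Fin r → ℂ) {N : ℕ} {q : MvPolynomial (Fin r) ℂ} (hN : q.totalDegree ≤ N) :
    (hmg l N q).IsHomogeneous N := by
  refine MvPolynomial.IsHomogeneous.sum _ _ _ fun e he => ?_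
  have h1 : (∑ k, MvPolynomial.C (l k) * MvPolynomial.X k :
      MvPolynomial (Fin r) ℂ).IsHomogeneous 1 :=
    MvPolynomial.IsHomogeneous.sum _ _ _ fun k _ => MvPolynomial.isHomogeneous_C_mul_X _ _
  have h2 := (MvPolynomial.isHomogeneous_monomial (q.coeff e) (rfl : e.degree = _)).mul
    (h1.pow (N - e.degree))
  have h3 := (degree_le_of_mem he).trans hN
  rwa [one_mul, Nat.add_sub_cancel' h3] at h2

theorem eval_hmg (l : Fin r → ℂ) {N : ℕ} {q : MvPolynomial (Fin r) ℂ} (hN : q.totalDegree ≤ N)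
    (u : Fin r → ℂ) (h0 : ∑ k, l k * u k ≠ 0) : MvPolynomial.eval u (hmg l N q) =
      (∑ k, l k * u k) ^ N * MvPolynomial.eval (fun k => u k / ∑ k, l k * u k) q := by
  set c := ∑ k, l k * u k with hc
  have h1 : u = c • fun k => u k / c := by
    funext k
    rw [Pi.smul_apply, smul_eq_mul, mul_div_cancel₀ _ h0]
  conv_rhs => rw [← MvPolynomial.support_sum_monomial_coeff q]
  rw [hmg, map_sum, map_sum, Finset.mul_sum]
  refine Finset.sum_congr rfl fun e he => ?_
  have h3 := (degree_le_of_mem he).trans hN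
  have h4 : MvPolynomial.eval u (∑ k, MvPolynomial.C (l k) * MvPolynomial.X k) = c := by
    rw [map_sum, hc]
    exact Finset.sum_congr rfl fun k _ => by rw [map_mul, MvPolynomial.eval_C, MvPolynomial.eval_X]
  rw [map_mul, map_pow, h4]
  conv_lhs => rw [h1]
  rw [eval_smul (MvPolynomial.isHomogeneous_monomial (q.coeff e) (rfl : e.degree = _)),
    mul_right_comm, ← pow_add, Nat.add_sub_cancel' h3]

/-! ### the algebra of the affine part -/

/-- polynomials as functions on `{L ≠ 0}` -/
def evS (F : Fin r → Fn A) (l : Fin r → ℂ) : MvPolynomial (Fin r) ℂ →ₐ[ℂ] (nz (lf F l) → ℂ) :=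
  MvPolynomial.aeval fun k x => rh F l x k

theorem evS_apply (F : Fin r → Fn A) (l : Fin r → ℂ) (p : MvPolynomial (Fin r) ℂ)
    (x : nz (lf F l)) : evS F l p x = MvPolynomial.eval (rh F l x) p := by
  have h : ((Pi.evalRingHom (fun _ : nz (lf F l) => ℂ) x).comp
      (evS F l : MvPolynomial (Fin r) ℂ →+* _)) = MvPolynomial.eval (rh F l x) := by
    refine MvPolynomial.ringHom_ext (fun c => ?_) fun k => ?_
    · show evS F l (MvPolynomial.C c) x = _
      rw [evS, MvPolynomial.aeval_C, MvPolynomial.eval_C]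
      rfl
    · show evS F l (MvPolynomial.X k) x = _
      rw [evS, MvPolynomial.aeval_X, MvPolynomial.eval_X]
  exact congrFun (congrArg DFunLike.coe h) p

/-- the algebra `ℂ[F / L]` of functions on `{L ≠ 0}` -/
def AA (F : Fin r → Fn A) (l : Fin r → ℂ) : Subalgebra ℂ (nz (lf F l) → ℂ) := (evS F l).range

/-- polynomials to the algebra -/
def toAA (F : Fin r → Fn A) (l : Fin r → ℂ) : MvPolynomial (Fin r) ℂ →+* AA F l :=
  (evS F l).rangeRestrict.toRingHom

/-- the evaluation at a point -/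
def evP (F : Fin r → Fn A) (l : Fin r → ℂ) (x : nz (lf F l)) : AA F l →+* ℂ :=
  (Pi.evalRingHom (fun _ : nz (lf F l) => ℂ) x).comp (AA F l).val.toRingHom

theorem evP_apply (F : Fin r → Fn A) (l : Fin r → ℂ) (x : nz (lf F l)) (a : AA F l) :
    evP F l x a = a.1 x := rfl

theorem exists_rep {F : Fin r → Fn A} {l : Fin r → ℂ} (a : AA F l) :
    ∃ p : MvPolynomial (Fin r) ℂ, ∀ x : nz (lf F l), a.1 x = MvPolynomial.eval (rh F l x) p := by
  obtain ⟨a, p, rfl⟩ := a
  exact ⟨p, fun x => evS_apply F l p x⟩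

section Aff

variable {F : Fin r → Fn A} (hF : ∀ k, IsHS O univ (F k)) (l : Fin r → ℂ)

include hF

/-- cancellation of a polynomial which does not vanish identically -/
theorem cancel {q : MvPolynomial (Fin r) ℂ} (hq : ∃ x ∈ nz (lf F l), MvPolynomial.eval (rh F l x) q ≠ 0)
    {f : M → ℂ} (hf : ∀ x ∈ nz (lf F l), ContinuousAt f x)
    (h : ∀ x ∈ nz (lf F l), f x * MvPolynomial.eval (rh F l x) q = 0) :
    ∀ x ∈ nz (lf F l), f x = 0 := by
  have hev : ∀ i, ∀ x ∈ (A.e i).source, x ∈ nz (lf F l) → evF F (hmg l q.totalDegree q) i x =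
      lf F l i x ^ q.totalDegree * MvPolynomial.eval (rh F l x) q := by
    intro i x hx hxn
    have hL := (mem_nz (isHS_lf hF l) hx).1 hxn
    rw [evF_apply F _ hx, eval_hmg l le_rfl _ (by rwa [← lf_apply]), ← lf_apply, rh_eq hF l hx]
  obtain ⟨x0, hx0, hq0⟩ := hq
  obtain ⟨i0, hi0⟩ := A.cover x0
  refine eq_zero_of_mul' (isHS_evF hF (hmg_homog l (le_refl q.totalDegree))) ⟨i0, x0, ?_⟩
    (isOpen_nz (isHS_lf hF l)) hf fun i x hx hxn => ?_
  · rw [hev i0 x0 hi0 hx0]
    exact mul_ne_zero (pow_ne_zero _ ((mem_nz (isHS_lf hF l) hi0).1 hx0)) hq0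
  · rw [hev i x hx hxn, mul_left_comm, h x hxn, mul_zero]

theorem isDomain_AA (hL : (nz (lf F l)).Nonempty) : IsDomain (AA F l) := by
  have : Nonempty (nz (lf F l)) := hL.to_subtype
  have h1 : NoZeroDivisors (AA F l) := by
    refine ⟨fun {a b} hab => ?_⟩
    by_contra hcon
    push Not at hcon
    obtain ⟨ha, hb⟩ := hcon
    obtain ⟨p, hp⟩ := exists_rep a
    obtain ⟨q, hq⟩ := exists_rep b
    have hb' : ∃ x ∈ nz (lf F l), MvPolynomial.eval (rh F l x) q ≠ 0 := by
      by_contra h
      push Not at h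
      refine hb (Subtype.ext (funext fun x => ?_))
      rw [hq x]
      exact h x.1 x.2
    refine ha (Subtype.ext (funext fun x => ?_))
    rw [hp x]
    refine cancel hF l hb' (fun x hx => continuousAt_eval hF l hx p) (fun x hx => ?_) x.1 x.2
    rw [← hp ⟨x, hx⟩, ← hq ⟨x, hx⟩]
    exact congrFun (congrArg Subtype.val hab) ⟨x, hx⟩
  exact NoZeroDivisors.to_isDomain _

end Aff

/-! ### rationality -/

/-- the map `MvPolynomial σ ℂ → B[X]` used for the graph of a root -/
theorem eval_aeval {σ B : Type*} [CommRing B] [Algebra ℂ B] (φ : B →+* ℂ)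
    (hφ : ∀ c : ℂ, φ (algebraMap ℂ B c) = c) (ψ : σ → B[X]) (s : ℂ) (p : MvPolynomial σ ℂ) :
    ((MvPolynomial.aeval ψ p).map φ).eval s =
      MvPolynomial.eval (fun k => ((ψ k).map φ).eval s) p := by
  have h : ((Polynomial.evalRingHom s).comp ((Polynomial.mapRingHom φ).comp
      (MvPolynomial.aeval ψ : MvPolynomial σ ℂ →ₐ[ℂ] B[X]).toRingHom)) =
      MvPolynomial.eval (fun k => ((ψ k).map φ).eval s) := by
    refine MvPolynomial.ringHom_ext (fun c => ?_) fun k => ?_
    · show ((MvPolynomial.aeval ψ (MvPolynomial.C c)).map φ).eval s = _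
      rw [MvPolynomial.aeval_C, MvPolynomial.eval_C, Polynomial.algebraMap_apply,
        Polynomial.map_C, Polynomial.eval_C, hφ]
    · show ((MvPolynomial.aeval ψ (MvPolynomial.X k)).map φ).eval s = _
      rw [MvPolynomial.aeval_X, MvPolynomial.eval_X]
  exact congrFun (congrArg DFunLike.coe h) p

/-- the extended family `(L^d F_k, F_k^(d+1), t)` of sections of `O^(d+1)` -/
def Gf (F : Fin r → Fn A) (l : Fin r → ℂ) (d : ℕ) (t : Fn A) : Fin r ⊕ Fin r ⊕ Unit → Fn A
  | Sum.inl k => Lp F l d * F k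
  | Sum.inr (Sum.inl k) => F k ^ (d + 1)
  | Sum.inr (Sum.inr _) => t

theorem isHS_Gf {F : Fin r → Fn A} (hF : ∀ k, IsHS O univ (F k)) (l : Fin r → ℂ) {d : ℕ} {t : Fn A}
    (ht : IsHS (O ^ (d + 1)) univ t) : ∀ k, IsHS (O ^ (d + 1)) univ (Gf F l d t k)
  | Sum.inl k => by
    rw [pow_succ]
    exact (isHS_Lp hF l d).mul (hF k)
  | Sum.inr (Sum.inl k) => isHS_pow (hF k) d
  | Sum.inr (Sum.inr _) => ht

theorem Gf_ne {F : Fin r → Fn A} (hne : ∀ i, ∀ x ∈ (A.e i).source, ∃ k, F k i x ≠ 0)
    (l : Fin r → ℂ) (d : ℕ) (t : Fn A) : ∀ i, ∀ x ∈ (A.e i).source, ∃ k, Gf F l d t k i x ≠ 0 := by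
  intro i x hx
  obtain ⟨k, hk⟩ := hne i x hx
  exact ⟨Sum.inr (Sum.inl k), pow_ne_zero (d + 1) hk⟩

/-- a point whose extended coordinates satisfy all the relations comes from `M` -/
theorem root_eq {F : Fin r → Fn A} (hF : ∀ k, IsHS O univ (F k))
    (hne : ∀ i, ∀ x ∈ (A.e i).source, ∃ k, F k i x ≠ 0)
    (hfd : ∀ k : ℕ, FiniteDimensional ℂ (HS (O ^ k) univ)) {m0 : ℕ}
    (hV : ∀ m, m0 ≤ m → ∀ q, 1 ≤ q → Solv (O ^ m) q) (l : Fin r → ℂ) {d : ℕ} {t : Fn A}
    (ht : IsHS (O ^ (d + 1)) univ t) (u : Fin r → ℂ) (hu : ∑ k, l k * u k = 1) (τ : ℂ)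
    (hrel : ∀ D, ∀ p : MvPolynomial (Fin r ⊕ Fin r ⊕ Unit) ℂ, p.IsHomogeneous D →
      (∀ i, ∀ x ∈ (A.e i).source, MvPolynomial.eval (fun k => Gf F l d t k i x) p = 0) →
      MvPolynomial.eval (Sum.elim u (Sum.elim (fun k => u k ^ (d + 1)) fun _ => τ)) p = 0) :
    ∃ y ∈ nz (lf F l), u = rh F l y ∧ τ = vt F l (d + 1) t y := by
  have hfd' : ∀ k : ℕ, FiniteDimensional ℂ (HS ((O ^ (d + 1)) ^ k) univ) := fun k => by
    rw [← pow_mul]
    exact hfd _
  have hV' : ∀ m, m0 ≤ m → ∀ q, 1 ≤ q → Solv ((O ^ (d + 1)) ^ m) q := fun m hm q hq => by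
    rw [← pow_mul]
    exact hV _ (by nlinarith) q hq
  obtain ⟨j, y, hy, c, hc, h⟩ := chow_vec' (isHS_Gf hF l ht) (Gf_ne hne l d t) hfd' hV'
    (Sum.elim u (Sum.elim (fun k => u k ^ (d + 1)) fun _ => τ))
    (fun h => by
      have h1 : ∀ k, u k = 0 := fun k => congrFun h (Sum.inl k)
      rw [Finset.sum_eq_zero fun k _ => by rw [h1 k, mul_zero]] at hu
      exact zero_ne_one hu) hrel
  have h1 : ∀ k, u k = c * (lf F l j y ^ d * F k j y) := fun k => by
    have := congrFun h (Sum.inl k)
    rw [← Lp_apply F l d hy]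
    exact this
  have h2 : τ = c * t j y := congrFun h (Sum.inr (Sum.inr ()))
  have h3 : c * lf F l j y ^ (d + 1) = 1 := by
    rw [← hu, pow_succ, lf_apply F l j y, ← mul_assoc, Finset.mul_sum]
    refine Finset.sum_congr rfl fun k _ => ?_
    rw [h1 k, lf_apply F l j y]
    ring
  have hL : lf F l j y ≠ 0 := fun h0 => by
    rw [h0, zero_pow (Nat.succ_ne_zero d), mul_zero] at h3
    exact zero_ne_one h3
  have hc' : c = (lf F l j y ^ (d + 1))⁻¹ := eq_inv_of_mul_eq_one_left h3
  refine ⟨y, (mem_nz (isHS_lf hF l) hy).2 hL, ?_, ?_⟩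
  · rw [rh_eq hF l hy]
    funext k
    rw [h1 k, hc', pow_succ]
    field_simp
  · rw [vt_eq hF l ht hy, h2, hc', div_eq_mul_inv, mul_comm]

/-- **rationality** (exponent `≥ 1`) -/
theorem exists_rat' {F : Fin r → Fn A} (hF : ∀ k, IsHS O univ (F k))
    (hne : ∀ i, ∀ x ∈ (A.e i).source, ∃ k, F k i x ≠ 0)
    (hfd : ∀ k : ℕ, FiniteDimensional ℂ (HS (O ^ k) univ)) {m0 : ℕ}
    (hV : ∀ m, m0 ≤ m → ∀ q, 1 ≤ q → Solv (O ^ m) q) (l : Fin r → ℂ)
    (hL : (nz (lf F l)).Nonempty) {d : ℕ} {t : Fn A} (ht : IsHS (O ^ (d + 1)) univ t)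
    (hdet : ∀ x ∈ nz (lf F l), ∀ y ∈ nz (lf F l), rh F l x = rh F l y →
      vt F l (d + 1) t x = vt F l (d + 1) t y) :
    ∃ q a : MvPolynomial (Fin r) ℂ, (∃ x ∈ nz (lf F l), MvPolynomial.eval (rh F l x) q ≠ 0) ∧
      ∀ x ∈ nz (lf F l), MvPolynomial.eval (rh F l x) q * vt F l (d + 1) t x =
        MvPolynomial.eval (rh F l x) a := by
  classical
  have hdom := isDomain_AA hF l hL
  let v : nz (lf F l) → ℂ := fun x => vt F l (d + 1) t x
  have h0 : ∀ g : AA F l, (∀ x, evP F l x g = 0) → g ≠ 0 → False := fun g hg hg0 =>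
    hg0 (Subtype.ext (funext fun x => hg x))
  -- the minimal relation
  let PP : ℕ → Prop := fun e => ∃ G : (AA F l)[X], (∀ x, (G.map (evP F l x)).eval (v x) = 0) ∧
    G.natDegree = e ∧ ∃ x, evP F l x G.leadingCoeff ≠ 0
  have hPP : ∃ e, PP e := by
    obtain ⟨G, hG, hG0⟩ := exists_monic hF hne hfd hV l ht
    refine ⟨_, G.map (toAA F l), fun x => ?_, rfl, ?_⟩
    · have h1 : ((evP F l x).comp (toAA F l)) =
          MvPolynomial.eval (rh F l x) := RingHom.ext fun p => evS_apply F l p x
      rw [Polynomial.map_map, h1]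
      exact hG0 x x.2
    · obtain ⟨x, hx⟩ := hL
      refine ⟨⟨x, hx⟩, ?_⟩
      have h2 : (G.map (toAA F l)).Monic := hG.map _
      rw [h2.leadingCoeff, map_one]
      exact one_ne_zero
  obtain ⟨μ, hμv, hμe, hμl⟩ := Nat.find_spec hPP
  have hmin : ∀ G : (AA F l)[X], (∀ x, (G.map (evP F l x)).eval (v x) = 0) →
      (∃ x, evP F l x G.leadingCoeff ≠ 0) → μ.natDegree ≤ G.natDegree := by
    intro G h1 h2
    rw [hμe]
    exact Nat.find_le ⟨G, h1, rfl, h2⟩
  have hμ1 : 0 < μ.natDegree := by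
    rw [Nat.pos_iff_ne_zero]
    intro h
    obtain ⟨x, hx⟩ := hμl
    have h1 := hμv x
    rw [Polynomial.eq_C_of_natDegree_eq_zero h, Polynomial.map_C, Polynomial.eval_C] at h1
    have h2 : μ.leadingCoeff = μ.coeff 0 := by rw [Polynomial.leadingCoeff, h]
    rw [h2] at hx
    exact hx h1
  -- the roots of `μ` at a good point
  have hroot : ∀ x : nz (lf F l), evP F l x μ.leadingCoeff ≠ 0 → ∀ τ,
      (μ.map (evP F l x)).eval τ = 0 → τ = v x := by
    intro x hx τ hτ
    obtain ⟨i, hi⟩ := A.cover x.1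
    have hLx : lf F l i x ≠ 0 := (mem_nz (isHS_lf hF l) hi).1 x.2
    have hu : ∑ k, l k * rh F l x k = 1 := by
      rw [rh_eq hF l hi]
      have : ∀ k, l k * (F k i x / lf F l i x) = l k * F k i x / lf F l i x := fun k => by ring
      rw [Finset.sum_congr rfl fun k _ => this k, ← Finset.sum_div, ← lf_apply, div_self hLx]
    obtain ⟨y, hy, hy1, hy2⟩ := root_eq hF hne hfd hV l ht (rh F l x) hu τ
      (fun D p hp hp0 => by
        let Xb : Fin r → AA F l := fun k => ⟨evS F l (MvPolynomial.X k), ⟨_, rfl⟩⟩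
        let ψ : Fin r ⊕ Fin r ⊕ Unit → (AA F l)[X] := Sum.elim (fun k => Polynomial.C (Xb k))
          (Sum.elim (fun k => Polynomial.C (Xb k ^ (d + 1))) fun _ => Polynomial.X)
        have hXb : ∀ (y : nz (lf F l)) k, evP F l y (Xb k) = rh F l y k := fun y k => by
          show evS F l (MvPolynomial.X k) y = _
          rw [evS_apply, MvPolynomial.eval_X]
        have hψ : ∀ (y : nz (lf F l)) (s : ℂ),
            (fun k => ((ψ k).map (evP F l y)).eval s) =
              Sum.elim (rh F l y) (Sum.elim (fun k => rh F l y k ^ (d + 1)) fun _ => s) := by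
          intro y s
          funext k
          rcases k with k | k | k
          · show ((Polynomial.C (Xb k)).map (evP F l y)).eval s = rh F l y k
            rw [Polynomial.map_C, Polynomial.eval_C, hXb]
          · show ((Polynomial.C (Xb k ^ (d + 1))).map (evP F l y)).eval s = rh F l y k ^ (d + 1)
            rw [Polynomial.map_C, Polynomial.eval_C, map_pow, hXb]
          · show (Polynomial.X.map (evP F l y)).eval s = s
            rw [Polynomial.map_X, Polynomial.eval_X]
        have hG : ∀ (y : nz (lf F l)) (s : ℂ),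
            ((MvPolynomial.aeval ψ p).map (evP F l y)).eval s = MvPolynomial.eval
              (Sum.elim (rh F l y) (Sum.elim (fun k => rh F l y k ^ (d + 1)) fun _ => s)) p := by
          intro y s
          rw [eval_aeval (evP F l y) (fun c => rfl) ψ s p, hψ]
        have hGv : ∀ y : nz (lf F l),
            ((MvPolynomial.aeval ψ p).map (evP F l y)).eval (v y) = 0 := by
          intro y
          obtain ⟨j, hj⟩ := A.cover y.1
          have hLy : lf F l j y ≠ 0 := (mem_nz (isHS_lf hF l) hj).1 y.2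
          rw [hG]
          have h1 : (Sum.elim (rh F l y) (Sum.elim (fun k => rh F l y k ^ (d + 1))
              fun _ => v y) : Fin r ⊕ Fin r ⊕ Unit → ℂ) =
              (lf F l j y ^ (d + 1))⁻¹ • fun k => Gf F l d t k j y := by
            funext k
            rw [Pi.smul_apply, smul_eq_mul]
            rcases k with k | k | k
            · show rh F l y k = (lf F l j y ^ (d + 1))⁻¹ * (Lp F l d j y * F k j y)
              rw [rh_eq hF l hj, Lp_apply F l d hj, pow_succ]
              field_simp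
            · show rh F l y k ^ (d + 1) = (lf F l j y ^ (d + 1))⁻¹ * (F k j y) ^ (d + 1)
              rw [rh_eq hF l hj, div_pow, div_eq_mul_inv, mul_comm]
            · show vt F l (d + 1) t y = (lf F l j y ^ (d + 1))⁻¹ * t j y
              rw [vt_eq hF l ht hj, div_eq_mul_inv, mul_comm]
          rw [h1, eval_smul hp, hp0 j y hj, mul_zero]
        rw [← hG x τ]
        exact pdiv (evP F l) v hμv h0 hμ1 hmin _ _ (Nat.lt_succ_self _) hGv x hx τ hτ)
    rw [hy2]
    exact (hdet x x.2 y hy hy1).symm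
  -- Vieta
  have hvieta : ∀ x : nz (lf F l), evP F l x μ.leadingCoeff ≠ 0 →
      evP F l x (μ.coeff (μ.natDegree - 1)) =
        - (evP F l x μ.leadingCoeff * ((μ.natDegree : ℂ) * v x)) := by
    intro x hx
    set P := μ.map (evP F l x) with hP
    have hd : P.natDegree = μ.natDegree := Polynomial.natDegree_map_of_leadingCoeff_ne_zero _ hx
    have hlc : P.leadingCoeff = evP F l x μ.leadingCoeff :=
      Polynomial.leadingCoeff_map_of_leadingCoeff_ne_zero _ hx
    have hs : P.Splits := IsAlgClosed.splits P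
    have hP0 : P ≠ 0 := by
      intro h
      rw [h, Polynomial.natDegree_zero] at hd
      omega
    have hcard : P.roots.card = P.natDegree := hs.natDegree_eq_card_roots.symm
    have hrep : P.roots = Multiset.replicate μ.natDegree (v x) := by
      rw [Multiset.eq_replicate]
      refine ⟨by rw [hcard, hd], fun τ hτ => hroot x hx τ ?_⟩
      exact (Polynomial.mem_roots hP0).1 hτ
    have h1 := hs.nextCoeff_eq_neg_sum_roots_mul_leadingCoeff
    rw [hrep, Multiset.sum_replicate, Polynomial.nextCoeff_of_natDegree_pos (by omega), hd, hlc,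
      hP, Polynomial.coeff_map, nsmul_eq_mul] at h1
    rw [h1]
    ring
  obtain ⟨q0, hq0⟩ := exists_rep μ.leadingCoeff
  obtain ⟨a0, ha0⟩ := exists_rep (μ.coeff (μ.natDegree - 1))
  have hq0' : ∃ x ∈ nz (lf F l), MvPolynomial.eval (rh F l x) q0 ≠ 0 := by
    obtain ⟨x, hx⟩ := hμl
    exact ⟨x, x.2, by rw [← hq0 x]; exact hx⟩
  have hE : ((μ.natDegree : ℕ) : ℂ) ≠ 0 := Nat.cast_ne_zero.2 hμ1.ne'
  refine ⟨MvPolynomial.C (μ.natDegree : ℂ) * q0, - a0, ?_, ?_⟩
  · obtain ⟨x, hx, hx1⟩ := hq0'
    refine ⟨x, hx, ?_⟩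
    rw [map_mul, MvPolynomial.eval_C]
    exact mul_ne_zero hE hx1
  · intro x hx
    rw [← sub_eq_zero]
    refine cancel hF l hq0' (f := fun x => MvPolynomial.eval (rh F l x)
      (MvPolynomial.C (μ.natDegree : ℂ) * q0) * vt F l (d + 1) t x -
        MvPolynomial.eval (rh F l x) (- a0)) (fun x hx => ?_) (fun x hx => ?_) x hx
    · exact ((continuousAt_eval hF l hx _).mul (continuousAt_vt hF l ht hx)).sub
        (continuousAt_eval hF l hx _)
    · by_cases h : MvPolynomial.eval (rh F l x) q0 = 0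
      · rw [h, mul_zero]
      · have h1 := hvieta ⟨x, hx⟩ (by
          rw [evP_apply, hq0]
          exact h)
        rw [evP_apply, evP_apply, hq0, ha0] at h1
        have h2 : MvPolynomial.eval (rh F l x) a0 = - (MvPolynomial.eval (rh F l x) q0 *
          ((μ.natDegree : ℂ) * vt F l (d + 1) t x)) := h1
        show (MvPolynomial.eval (rh F l x) (MvPolynomial.C (μ.natDegree : ℂ) * q0) *
          vt F l (d + 1) t x - MvPolynomial.eval (rh F l x) (- a0)) * _ = 0
        rw [map_mul, map_neg, MvPolynomial.eval_C, h2]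
        ring

end Main

end

end Crest.Agent.R273.Chow_313
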