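import Crest.Agent.R273.SteinB_794
import Crest.Agent.R273.FS_333

/-!
# R273, STEIN complements, part C (helper794): quotients of sections, exhaustions

`nz t`      : the set where the section `t` does not vanish;
`qt s t`    : the meromorphic function `s / t`;
`Exh A V`   : finitely many holomorphic functions on `V`, `∑ |f|² → ∞` at the boundary of `V`;
`mkSD`      : the points of `V` where `z₁, …, zₙ` are local coordinates;
`Exh.mk'`   : exhaustion of `mkSD`, from an exhaustion of `V` and an immersion;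
`exists_rho`: smooth strictly plurisubharmonic exhaustion of `Mo S`.
-/

set_option autoImplicit false
set_option linter.unusedSectionVars false

open Set Filter Topology
open scoped ContDiff

namespace Crest.Agent.R273.SteinC_794

open Crest.Agent.R275.Geo Crest.Agent.R275.Core144 Crest.Agent.R273.SteinA_794
open Crest.Agent.R271.Ho51
open Crest.Agent.R273.Defs_333 (HM HM.wt HM.Semipos HM.Pos)

noncomputable section

variable {n : ℕ} {M : Type} [TopologicalSpace M] {A : Atl n M}

/-! ### sections and quotients -/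

theorem continuousAt_of_holAt {i : A.ι} {U : Set M} (hU : IsOpen U) {f : M → ℂ}
    (hf : HolAt A i U f) {x : M} (hx : x ∈ (A.e i).source) (hxU : x ∈ U) : ContinuousAt f x := by
  have h1 := (hf.diffAt hU hx hxU).continuousAt
  have h2 : ContinuousAt ((fun z => f ((A.e i).symm z)) ∘ (A.e i)) x :=
    ContinuousAt.comp (f := A.e i) h1 ((A.e i).continuousAt hx)
  refine h2.congr ?_
  filter_upwards [(A.e i).open_source.mem_nhds hx] with y hy
  simp [(A.e i).left_inv hy]

/-- the set where a section does not vanish -/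
def nz (t : A.ι → M → ℂ) : Set M := {x | t (A.cover x).choose x ≠ 0}

/-- the quotient of two sections -/
def qt (s t : A.ι → M → ℂ) (x : M) : ℂ := s (A.cover x).choose x / t (A.cover x).choose x

section sections

variable {L : LB A} {s t : A.ι → M → ℂ}

theorem mem_nz (ht : IsHS L univ t) {i : A.ι} {x : M} (hx : x ∈ (A.e i).source) :
    x ∈ nz t ↔ t i x ≠ 0 :=
  not_congr (ht.zero_iff ⟨(A.cover x).choose_spec, hx⟩ (mem_univ x))

theorem isOpen_nz (ht : IsHS L univ t) : IsOpen (nz t) := by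
  rw [isOpen_iff_mem_nhds]
  intro x hx
  obtain ⟨i, hi⟩ := A.cover x
  have h1 : ContinuousAt (t i) x := continuousAt_of_holAt isOpen_univ (ht.hol i) hi (mem_univ x)
  have h2 := h1.eventually_ne ((mem_nz ht hi).1 hx)
  filter_upwards [h2, (A.e i).open_source.mem_nhds hi] with y hy hyi
  exact (mem_nz ht hyi).2 hy

theorem qt_eq (hs : IsHS L univ s) (ht : IsHS L univ t) {i : A.ι} {x : M}
    (hx : x ∈ (A.e i).source) : qt s t x = s i x / t i x := by
  unfold qt
  set j := (A.cover x).choose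
  have hj : x ∈ (A.e j).source := (A.cover x).choose_spec
  rw [hs.tr j i x ⟨hj, hx⟩ (mem_univ x), ht.tr j i x ⟨hj, hx⟩ (mem_univ x)]
  exact mul_div_mul_left _ _ (L.ne_zero j i x)

theorem qt_hol (hs : IsHS L univ s) (ht : IsHS L univ t) (i : A.ι) :
    HolAt A i (nz t) (qt s t) := by
  have h1 : HolAt A i (nz t) (fun x => s i x * (t i x)⁻¹) :=
    ((hs.hol i).mono (subset_univ _)).mul
      (((ht.hol i).mono (subset_univ _)).inv fun x hx hxn => (mem_nz ht hx).1 hxn)
  exact h1.congr fun x hx _ => by rw [qt_eq hs ht hx, div_eq_mul_inv]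

end sections

/-! ### exhaustions -/

/-- finitely many holomorphic functions on `V` with `∑ |f|² → ∞` at the boundary -/
structure Exh (A : Atl n M) (V : Set M) where
  κ : Type
  [fκ : Fintype κ]
  f : κ → M → ℂ
  hol : ∀ i k, HolAt A i V (f k)
  big : ∀ x ∉ V, ∀ C : ℝ, ∀ᶠ y in 𝓝 x, y ∈ V → C < ∑ k, ‖f k y‖ ^ 2

attribute [instance] Exh.fκ

/-- the exhaustion of the whole space -/
def Exh.univ : Exh A (univ : Set M) where
  κ := Empty
  f k := k.elim
  hol _ k := k.elim
  big x hx := absurd (mem_univ x) hx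

/-- intersections -/
def Exh.inter {V W : Set M} (E : Exh A V) (F : Exh A W) : Exh A (V ∩ W) where
  κ := E.κ ⊕ F.κ
  f := Sum.elim E.f F.f
  hol i k := by
    rcases k with k | k
    · exact (E.hol i k).mono inter_subset_left
    · exact (F.hol i k).mono inter_subset_right
  big x hx C := by
    rw [mem_inter_iff, not_and_or] at hx
    have h0 : ∀ y, 0 ≤ ∑ k, ‖E.f k y‖ ^ 2 := fun y => Finset.sum_nonneg fun _ _ => by positivity
    have h0' : ∀ y, 0 ≤ ∑ k, ‖F.f k y‖ ^ 2 := fun y => Finset.sum_nonneg fun _ _ => by positivity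
    rcases hx with hx | hx
    · filter_upwards [E.big x hx C] with y hy hyV
      rw [Fintype.sum_sum_type]
      simp only [Sum.elim_inl, Sum.elim_inr]
      have := hy hyV.1
      linarith [h0' y]
    · filter_upwards [F.big x hx C] with y hy hyV
      rw [Fintype.sum_sum_type]
      simp only [Sum.elim_inl, Sum.elim_inr]
      have := hy hyV.2
      linarith [h0 y]

/-- the complement of the zero set of a section of a globally generated bundle -/
def Exh.ofGG {L : LB A} {t : A.ι → M → ℂ} (ht : IsHS L Set.univ t) {κ : Type} [Fintype κ]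
    (s : κ → A.ι → M → ℂ) (hs : ∀ k, IsHS L Set.univ (s k))
    (hgg : ∀ i, ∀ x ∈ (A.e i).source, ∃ k, s k i x ≠ 0) : Exh A (nz t) where
  κ := κ
  f k := qt (s k) t
  hol i k := qt_hol (hs k) ht i
  big x hx C := by
    obtain ⟨i, hi⟩ := A.cover x
    obtain ⟨k, hk⟩ := hgg i x hi
    have ht0 : t i x = 0 := by
      by_contra h
      exact hx ((mem_nz ht hi).2 h)
    have c1 : ContinuousAt (t i) x := continuousAt_of_holAt isOpen_univ (ht.hol i) hi (mem_univ x)
    have c2 : ContinuousAt (s k i) x :=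
      continuousAt_of_holAt isOpen_univ ((hs k).hol i) hi (mem_univ x)
    have c3 : ContinuousAt (fun y => ‖s k i y‖ ^ 2 - (|C| + 1) * ‖t i y‖ ^ 2) x :=
      (c2.norm.pow 2).sub ((c1.norm.pow 2).const_mul _)
    have c4 : (0 : ℝ) < ‖s k i x‖ ^ 2 - (|C| + 1) * ‖t i x‖ ^ 2 := by
      rw [ht0, norm_zero]
      have : 0 < ‖s k i x‖ := norm_pos_iff.2 hk
      simp only [ne_eq, OfNat.ofNat_ne_zero, not_false_eq_true, zero_pow, mul_zero, sub_zero]
      positivity
    filter_upwards [c3.eventually (lt_mem_nhds c4), (A.e i).open_source.mem_nhds hi] with y hy hyi hyV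
    have hty : t i y ≠ 0 := (mem_nz ht hyi).1 hyV
    have h5 : (|C| + 1) < ‖qt (s k) t y‖ ^ 2 := by
      rw [qt_eq (hs k) ht hyi, norm_div, div_pow, lt_div_iff₀ (by positivity)]
      linarith
    have h6 : ‖qt (s k) t y‖ ^ 2 ≤ ∑ l, ‖qt (s l) t y‖ ^ 2 :=
      Finset.single_le_sum (f := fun l => ‖qt (s l) t y‖ ^ 2) (fun _ _ => by positivity)
        (Finset.mem_univ k)
    linarith [le_abs_self C]

/-! ### differentials -/

/-- the differential of a holomorphic function, read in the chart `i` -/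
def df (A : Atl n M) (i : A.ι) (f : M → ℂ) (x : M) : Cn n →L[ℂ] ℂ :=
  fderiv ℂ (fun w => f ((A.e i).symm w)) (A.e i x)

/-- differential of the change of charts -/
def dJ (A : Atl n M) (i j : A.ι) (x : M) : Cn n →L[ℂ] Cn n :=
  fderiv ℂ (fun w => A.e j ((A.e i).symm w)) (A.e i x)

theorem dJ_comp {i j : A.ι} {x : M} (hi : x ∈ (A.e i).source) (hj : x ∈ (A.e j).source)
    (v : Cn n) : dJ A j i x (dJ A i j x v) = v := by
  have hij : DifferentiableAt ℂ (fun z => A.e j ((A.e i).symm z)) (A.e i x) :=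
    (A.holo i j).differentiableAt ((isOpen_ov (A := A) i j).mem_nhds (mem_ov ⟨hi, hj⟩))
  have hji : DifferentiableAt ℂ (fun z => A.e i ((A.e j).symm z)) (A.e j x) :=
    (A.holo j i).differentiableAt ((isOpen_ov (A := A) j i).mem_nhds (mem_ov ⟨hj, hi⟩))
  have hval : A.e j ((A.e i).symm (A.e i x)) = A.e j x := by rw [(A.e i).left_inv hi]
  have he : (id : Cn n → Cn n) =ᶠ[𝓝 (A.e i x)]
      (fun z => A.e i ((A.e j).symm z)) ∘ (fun z => A.e j ((A.e i).symm z)) := by
    filter_upwards [(isOpen_ov (A := A) i j).mem_nhds (mem_ov ⟨hi, hj⟩)] with z hz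
    simp [(A.e j).left_inv hz.2, (A.e i).right_inv hz.1]
  have h1 : fderiv ℂ (id : Cn n → Cn n) (A.e i x) =
      (dJ A j i x).comp (dJ A i j x) := by
    rw [he.fderiv_eq, fderiv_comp _ (by rw [hval]; exact hji) hij, hval]
    rfl
  rw [fderiv_id] at h1
  exact (DFunLike.congr_fun h1 v).symm

theorem df_chg {V : Set M} (hV : IsOpen V) {f : M → ℂ} {i j : A.ι} (hf : HolAt A j V f) {x : M}
    (hi : x ∈ (A.e i).source) (hj : x ∈ (A.e j).source) (hxV : x ∈ V) (v : Cn n) :
    df A i f x v = df A j f x (dJ A i j x v) := by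
  have h1 := hf.diffAt hV hj hxV
  have hij : DifferentiableAt ℂ (fun z => A.e j ((A.e i).symm z)) (A.e i x) :=
    (A.holo i j).differentiableAt ((isOpen_ov (A := A) i j).mem_nhds (mem_ov ⟨hi, hj⟩))
  have hval : A.e j ((A.e i).symm (A.e i x)) = A.e j x := by rw [(A.e i).left_inv hi]
  have he : (fun w => f ((A.e i).symm w)) =ᶠ[𝓝 (A.e i x)]
      (fun w => f ((A.e j).symm w)) ∘ (fun z => A.e j ((A.e i).symm z)) := by
    filter_upwards [(isOpen_ov (A := A) i j).mem_nhds (mem_ov ⟨hi, hj⟩)] with z hz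
    simp [(A.e j).left_inv hz.2]
  unfold df
  rw [he.fderiv_eq, fderiv_comp _ (by rw [hval]; exact h1) hij, hval]
  rfl

theorem fderiv_rd {m : ℕ} {V : Set M} (hV : IsOpen V) {z : Fin m → M → ℂ} {i : A.ι}
    (hz : ∀ k, HolAt A i V (z k)) {x : M} (hx : x ∈ (A.e i).source) (hxV : x ∈ V) (v : Cn n) :
    fderiv ℂ (rd A i z) (A.e i x) v = fun k => df A i (z k) x v := by
  funext k
  have h : fderiv ℂ (rd A i z) (A.e i x) = ContinuousLinearMap.pi fun k => df A i (z k) x :=
    fderiv_pi fun k => (hz k).diffAt hV hx hxV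
  rw [h]
  rfl

theorem continuousAt_df {V : Set M} (hV : IsOpen V) {f : M → ℂ} {i : A.ι} (hf : HolAt A i V f)
    {x : M} (hi : x ∈ (A.e i).source) (hxV : x ∈ V) (v : Cn n) :
    ContinuousAt (fun y => df A i f y v) x := by
  have ho : IsOpen ((A.e i).target ∩ (A.e i).symm ⁻¹' V) := isOpen_ti hV
  have hm : A.e i x ∈ (A.e i).target ∩ (A.e i).symm ⁻¹' V :=
    ⟨(A.e i).map_source hi, by rw [mem_preimage, (A.e i).left_inv hi]; exact hxV⟩
  have h1 : ContinuousAt (fderiv ℂ (fun w => f ((A.e i).symm w))) (A.e i x) :=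
    ((Crest.Agent.R266.SCV.analyticOnNhd_of_differentiableOn ho hf _ hm).fderiv).continuousAt
  have h2 : ContinuousAt (fun y => fderiv ℂ (fun w => f ((A.e i).symm w)) (A.e i y)) x :=
    ContinuousAt.comp (f := A.e i) h1 ((A.e i).continuousAt hi)
  exact h2.clm_apply continuousAt_const

/-! ### the points where given functions are coordinates -/

/-- the points of `V` where the functions `z` are local coordinates -/
def regU (A : Atl n M) (V : Set M) (z : Fin n → M → ℂ) : Set M :=
  {x | x ∈ V ∧ ∀ i, x ∈ (A.e i).source → ∀ v : Cn n, (∀ k, df A i (z k) x v = 0) → v = 0}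

theorem mem_regU {V : Set M} (hV : IsOpen V) {z : Fin n → M → ℂ}
    (hz : ∀ i k, HolAt A i V (z k)) {x : M} {i : A.ι} (hi : x ∈ (A.e i).source) (hxV : x ∈ V) :
    x ∈ regU A V z ↔ ∀ v : Cn n, (∀ k, df A i (z k) x v = 0) → v = 0 := by
  refine ⟨fun h => h.2 i hi, fun h => ⟨hxV, fun j hj v hv => ?_⟩⟩
  have h1 : dJ A j i x v = 0 := h _ fun k => by
    rw [← df_chg hV (hz i k) hj hi hxV]; exact hv k
  rw [← dJ_comp hj hi v, h1, map_zero]

theorem isOpen_regU {V : Set M} (hV : IsOpen V) {z : Fin n → M → ℂ}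
    (hz : ∀ i k, HolAt A i V (z k)) : IsOpen (regU A V z) := by
  rw [isOpen_iff_mem_nhds]
  intro x hx
  obtain ⟨i, hi⟩ := A.cover x
  have hinj := hx.2 i hi
  have ho : IsOpen ((A.e i).target ∩ (A.e i).symm ⁻¹' V) := isOpen_ti hV
  have hm : A.e i x ∈ (A.e i).target ∩ (A.e i).symm ⁻¹' V :=
    ⟨(A.e i).map_source hi, by rw [mem_preimage, (A.e i).left_inv hi]; exact hx.1⟩
  have hd : DifferentiableOn ℂ (rd A i z) ((A.e i).target ∩ (A.e i).symm ⁻¹' V) :=
    differentiableOn_pi.2 fun k => hz i k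
  have h1 : ContinuousAt (fderiv ℂ (rd A i z)) (A.e i x) :=
    ((Crest.Agent.R266.SCV.analyticOnNhd_of_differentiableOn ho hd _ hm).fderiv).continuousAt
  have h2 : ContinuousAt (fun y => fderiv ℂ (rd A i z) (A.e i y)) x :=
    ContinuousAt.comp (f := A.e i) h1 ((A.e i).continuousAt hi)
  let LL : Cn n ≃L[ℂ] (Fin n → ℂ) :=
    (LinearMap.linearEquivOfInjective
      ((fderiv ℂ (rd A i z) (A.e i x) : Cn n →L[ℂ] (Fin n → ℂ)) : Cn n →ₗ[ℂ] (Fin n → ℂ))
      ((injective_iff_map_eq_zero _).2 fun v hv => hinj v fun k => by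
        have := fderiv_rd hV (hz i) hi hx.1 v
        have h3 : fderiv ℂ (rd A i z) (A.e i x) v = 0 := hv
        rw [this] at h3
        exact congrFun h3 k)
      (by simp)).toContinuousLinearEquiv
  have hLL : (LL : Cn n →L[ℂ] (Fin n → ℂ)) = fderiv ℂ (rd A i z) (A.e i x) := by
    ext v; rfl
  have h4 : ∀ᶠ y in 𝓝 x, fderiv ℂ (rd A i z) (A.e i y) ∈
      range ((↑) : (Cn n ≃L[ℂ] (Fin n → ℂ)) → Cn n →L[ℂ] (Fin n → ℂ)) := by
    refine h2.eventually ?_
    have := ContinuousLinearEquiv.nhds LL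
    rwa [hLL] at this
  filter_upwards [h4, (A.e i).open_source.mem_nhds hi, hV.mem_nhds hx.1] with y hy hyi hyV
  rw [mem_regU hV hz hyi hyV]
  intro v hv
  obtain ⟨e, he⟩ := hy
  have h5 : e v = 0 := by
    have h6 := fderiv_rd hV (hz i) hyi hyV v
    rw [← he] at h6
    have h7 : e v = fun k => df A i (z k) y v := h6
    rw [h7]
    funext k
    exact hv k
  exact e.map_eq_zero_iff.1 h5

/-- the Stein domain data given by functions on an open set -/
def mkSD {V : Set M} (hV : IsOpen V) {z : Fin n → M → ℂ} (hz : ∀ i k, HolAt A i V (z k)) :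
    SD A where
  U := regU A V z
  isOpen := isOpen_regU hV hz
  z := z
  hol i k := (hz i k).mono fun _ hx => hx.1
  inj i x hx hxU v hv := by
    refine hxU.2 i hx v fun k => ?_
    rw [fderiv_rd hV (hz i) hx hxU.1] at hv
    exact congrFun hv k

/-! ### derivatives in the coordinates -/

variable {S : SD A}

theorem hol_D {F : Mo S → ℂ} (hF : Hol F) (v : Fin n → ℂ) : Hol (fun x => D F x v) := by
  intro e he
  have h1 : DifferentiableOn ℂ (fun ζ => fderiv ℂ (F ∘ e.symm) ζ v) e.target := fun ζ hζ =>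
    ((((Crest.Agent.R266.SCV.analyticOnNhd_of_differentiableOn e.open_target (hF e he))
      ζ hζ).fderiv.differentiableAt).clm_apply (differentiableAt_const v)).differentiableWithinAt
  refine h1.congr fun ζ hζ => ?_
  simp only [Function.comp_apply]
  rw [D_symm he hζ F, ((hF e he).differentiableAt
    (e.open_target.mem_nhds hζ)).fderiv_restrictScalars ℝ]
  rfl

/-- `∂ g / ∂ z_k` -/
def dco (S : SD A) (g : M → ℂ) (k : Fin n) : M → ℂ :=
  ext0 fun x : Mo S => D (fun x : Mo S => g x.val) x (Pi.single k 1)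

theorem dco_hol {g : M → ℂ} (hg : ∀ i, HolAt A i S.U g) (k : Fin n) (i : A.ι) :
    HolAt A i S.U (dco S g k) := holAt_ext0 (hol_D (hol_of hg) _) i

theorem D_eq_df {g : M → ℂ} (hg : ∀ i, HolAt A i S.U g) (x : Mo S) {i : A.ι}
    (hx : x.val ∈ (A.e i).source) (v : Fin n → ℂ) :
    D (fun x : Mo S => g x.val) x v = df A i g x.val ((S.LL i hx x.prop).symm v) := by
  have h1 := (hg i).diffAt S.isOpen hx x.prop
  rw [D_of x hx (h1.restrictScalars ℝ), h1.fderiv_restrictScalars ℝ]
  rfl

theorem df_eq_sum {g : M → ℂ} (hg : ∀ i, HolAt A i S.U g) {x : M} {i : A.ι}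
    (hx : x ∈ (A.e i).source) (hxU : x ∈ S.U) (v : Cn n) :
    df A i g x v = ∑ k, dco S g k x * df A i (S.z k) x v := by
  set y : Mo S := ⟨x, hxU⟩ with hy
  have hyv : y.val = x := rfl
  have h1 : ∀ k, dco S g k x = df A i g x ((S.LL i hx hxU).symm (Pi.single k 1)) := by
    intro k
    have h := ext0_val (fun x : Mo S => D (fun x : Mo S => g x.val) x (Pi.single k 1)) y
    exact h.trans (D_eq_df hg y hx _)
  have h2 : v = ∑ k, (df A i (S.z k) x v) • (S.LL i hx hxU).symm (Pi.single k 1) := by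
    have h3 : (S.LL i hx hxU) v = ∑ k, (df A i (S.z k) x v) • (Pi.single k 1 : Fin n → ℂ) := by
      rw [S.LL_apply, fderiv_rd S.isOpen (S.hol i) hx hxU]
      funext l
      simp [Finset.sum_apply, Pi.single_apply]
    have h4 := congrArg (S.LL i hx hxU).symm h3
    rw [ContinuousLinearEquiv.symm_apply_apply, map_sum] at h4
    simpa only [map_smul] using h4
  conv_lhs => rw [h2]
  rw [map_sum]
  refine Finset.sum_congr rfl fun k _ => ?_
  rw [map_smul, smul_eq_mul, h1, mul_comm]

/-- exhaustion of the set of points where `z` are coordinates -/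
def Exh.mk' {V : Set M} (hV : IsOpen V) {z : Fin n → M → ℂ} (hz : ∀ i k, HolAt A i V (z k))
    (E : Exh A V) {α : Type} [Fintype α] (g : α → M → ℂ) (hg : ∀ i a, HolAt A i V (g a))
    (himm : ∀ i, ∀ x ∈ (A.e i).source, x ∈ V → ∀ v : Cn n, (∀ a, df A i (g a) x v = 0) → v = 0) :
    Exh A (mkSD hV hz).U where
  κ := E.κ ⊕ (α × Fin n)
  f := Sum.elim E.f fun p => dco (mkSD hV hz) (g p.1) p.2
  hol i k := by
    rcases k with k | k
    · exact (E.hol i k).mono (show (mkSD hV hz).U ⊆ V from fun _ h => h.1)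
    · exact dco_hol (fun j => (hg j k.1).mono
        (show (mkSD hV hz).U ⊆ V from fun _ h => h.1)) k.2 i
  big x hx C := by
    by_cases hxV : x ∈ V
    · obtain ⟨i, hi⟩ := A.cover x
      have h1 : ¬ ∀ v : Cn n, (∀ k, df A i (z k) x v = 0) → v = 0 :=
        fun h => hx ((mem_regU hV hz hi hxV).2 h)
      push Not at h1
      obtain ⟨v, hv, hv0⟩ := h1
      obtain ⟨a, ha⟩ : ∃ a, df A i (g a) x v ≠ 0 := by
        by_contra h
        push Not at h
        exact hv0 (himm i x hi hxV v h)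
      have c1 : ContinuousAt (fun y => df A i (g a) y v) x := continuousAt_df hV (hg i a) hi hxV v
      have c2 : ∀ k, ContinuousAt (fun y => df A i (z k) y v) x := fun k =>
        continuousAt_df hV (hz i k) hi hxV v
      have c3 : ContinuousAt (fun y => ‖df A i (g a) y v‖ ^ 2 -
          (|C| + 1) * ∑ k, ‖df A i (z k) y v‖ ^ 2) x := by
        refine (c1.norm.pow 2).sub (ContinuousAt.const_mul ?_ _)
        exact tendsto_finsetSum _ fun k _ => (c2 k).norm.pow 2
      have c4 : (0 : ℝ) < ‖df A i (g a) x v‖ ^ 2 -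
          (|C| + 1) * ∑ k, ‖df A i (z k) x v‖ ^ 2 := by
        have : 0 < ‖df A i (g a) x v‖ := norm_pos_iff.2 ha
        simp only [hv, norm_zero, ne_eq, OfNat.ofNat_ne_zero, not_false_eq_true, zero_pow,
          Finset.sum_const_zero, mul_zero, sub_zero]
        positivity
      filter_upwards [c3.eventually (lt_mem_nhds c4), (A.e i).open_source.mem_nhds hi]
        with y hy hyi hyU
      have h2 := df_eq_sum (S := mkSD hV hz) (g := g a)
        (fun j => (hg j a).mono fun _ hx => hx.1) hyi hyU v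
      have h3 : ‖df A i (g a) y v‖ ^ 2 ≤ (∑ k, ‖dco (mkSD hV hz) (g a) k y‖ ^ 2) *
          ∑ k, ‖df A i (z k) y v‖ ^ 2 := by
        rw [h2]
        calc ‖∑ k, dco (mkSD hV hz) (g a) k y * df A i ((mkSD hV hz).z k) y v‖ ^ 2
            ≤ (∑ k, ‖dco (mkSD hV hz) (g a) k y‖ * ‖df A i (z k) y v‖) ^ 2 := by
              gcongr
              refine (norm_sum_le _ _).trans (Finset.sum_le_sum fun k _ => ?_)
              rw [norm_mul]
              rfl
          _ ≤ _ := Finset.sum_mul_sq_le_sq_mul_sq _ _ _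
      have hT : 0 ≤ ∑ k, ‖df A i (z k) y v‖ ^ 2 := Finset.sum_nonneg fun _ _ => by positivity
      have h4 : |C| + 1 < ∑ k, ‖dco (mkSD hV hz) (g a) k y‖ ^ 2 := by
        by_contra h
        push Not at h
        have := mul_le_mul_of_nonneg_right h hT
        linarith
      have h5 : ∑ k, ‖dco (mkSD hV hz) (g a) k y‖ ^ 2 ≤
          ∑ p : α × Fin n, ‖dco (mkSD hV hz) (g p.1) p.2 y‖ ^ 2 := by
        rw [Fintype.sum_prod_type]
        exact Finset.single_le_sum
          (f := fun b => ∑ k, ‖dco (mkSD hV hz) (g b) k y‖ ^ 2)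
          (fun _ _ => Finset.sum_nonneg fun _ _ => by positivity) (Finset.mem_univ a)
      rw [Fintype.sum_sum_type]
      simp only [Sum.elim_inl, Sum.elim_inr]
      have h6 : 0 ≤ ∑ k, ‖E.f k y‖ ^ 2 := Finset.sum_nonneg fun _ _ => by positivity
      linarith [le_abs_self C]
    · filter_upwards [E.big x hxV C] with y hy hyU
      rw [Fintype.sum_sum_type]
      simp only [Sum.elim_inl, Sum.elim_inr]
      have h6 : 0 ≤ ∑ p : α × Fin n, ‖dco (mkSD hV hz) (g p.1) p.2 y‖ ^ 2 :=
        Finset.sum_nonneg fun _ _ => by positivity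
      have := hy hyU.1
      linarith

/-! ### the plurisubharmonic exhaustion -/

/-- the exhaustion function -/
def rho (E : Exh A S.U) (x : Mo S) : ℝ :=
  Crest.Agent.R271.W792.nS (fun (k : Fin n ⊕ E.κ) (x : Mo S) => Sum.elim S.z E.f k x.val) x

theorem rho_eq (E : Exh A S.U) (x : Mo S) :
    rho E x = ∑ k, ‖S.z k x.val‖ ^ 2 + ∑ k, ‖E.f k x.val‖ ^ 2 := by
  unfold rho Crest.Agent.R271.W792.nS
  rw [Fintype.sum_sum_type]
  rfl

theorem w_hol {F : Mo S → ℂ} (hF : Hol F) : Crest.Agent.R271.W792.Hol F := by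
  refine ⟨fun x => ?_, fun x w => ?_⟩
  · exact (((Crest.Agent.R266.SCV.contDiffOn_omega_of_differentiableOn (ch x).open_target
      (hF (ch x) (isCh_ch x))).restrict_scalars ℝ).of_le le_top).contDiffAt
        ((ch x).open_target.mem_nhds ((isCh_ch x).cp_mem (mem_ch x)))
  · have h1 : DifferentiableAt ℂ (F ∘ (ch x).symm) (cp x) :=
      (hF (ch x) (isCh_ch x)).differentiableAt
        ((ch x).open_target.mem_nhds ((isCh_ch x).cp_mem (mem_ch x)))
    rw [D, h1.fderiv_restrictScalars ℝ]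
    simp

theorem D_z (k : Fin n) (x : Mo S) (w : Fin n → ℂ) :
    D (fun x : Mo S => S.z k x.val) x w = w k := by
  have h1 : ((fun x : Mo S => S.z k x.val) ∘ (ch x).symm) =ᶠ[𝓝 (cp x)] fun ζ => ζ k := by
    filter_upwards [(ch x).open_target.mem_nhds ((isCh_ch x).cp_mem (mem_ch x))] with ζ hζ
    have := (isCh_ch x).cp_symm hζ
    exact congrFun this k
  rw [D, h1.fderiv_eq]
  have h2 : fderiv ℝ (fun ζ : Fin n → ℂ => ζ k) (cp x) =
      ContinuousLinearMap.proj (R := ℝ) (φ := fun _ : Fin n => ℂ) k :=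
    (ContinuousLinearMap.proj (R := ℝ) (φ := fun _ : Fin n => ℂ) k).fderiv
  rw [h2]
  rfl

theorem hol_fam (E : Exh A S.U) (k : Fin n ⊕ E.κ) :
    Hol (fun x : Mo S => Sum.elim S.z E.f k x.val) := by
  rcases k with k | k
  · exact hol_of fun i => S.hol i k
  · exact hol_of fun i => E.hol i k

theorem rho_sm (E : Exh A S.U) : Sm (rho E) :=
  Crest.Agent.R271.W792.sm_nS fun k => (w_hol (hol_fam E k)).sm

theorem rho_levi (E : Exh A S.U) (x : Mo S) (w : Fin n → ℂ) : nsq w ≤ Levi (rho E) x w := by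
  rw [Crest.Agent.R271.W792.Levi_eq_lev (rho_sm E)]
  have h1 : Crest.Agent.R271.W792.lev (rho E) x w = _ :=
    Crest.Agent.R271.W792.lev_nS (fun k => w_hol (hol_fam E k)) x w
  rw [h1]
  unfold Crest.Agent.R271.W792.nT nsq
  rw [Fintype.sum_sum_type]
  have h2 : ∑ j, ‖w j‖ ^ 2 =
      ∑ j, ‖D (fun x : Mo S => Sum.elim S.z E.f (Sum.inl j) x.val) x w‖ ^ 2 :=
    Finset.sum_congr rfl fun j _ => by rw [← D_z (S := S) j x w]; rfl
  rw [h2]
  have h3 : 0 ≤ ∑ j, ‖D (fun x : Mo S => Sum.elim S.z E.f (Sum.inr j) x.val) x w‖ ^ 2 :=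
    Finset.sum_nonneg fun _ _ => by positivity
  linarith

theorem rho_compact [CompactSpace M] (E : Exh A S.U) (c : ℝ) : IsCompact {x | rho E x ≤ c} := by
  have hind : IsInducing (Mo.val : Mo S → M) := isOpenEmbedding_val.isInducing
  rw [hind.isCompact_iff]
  refine IsClosed.isCompact ?_
  rw [← isOpen_compl_iff, isOpen_iff_mem_nhds]
  intro x hx
  by_cases hxU : x ∈ S.U
  · have hlt : c < rho E ⟨x, hxU⟩ := by
      by_contra h
      push Not at h
      exact hx ⟨⟨x, hxU⟩, h, rfl⟩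
    have h1 : ∀ᶠ y in 𝓝 (⟨x, hxU⟩ : Mo S), c < rho E y :=
      (rho_sm E).continuous.continuousAt.eventually (lt_mem_nhds hlt)
    have h2 := isOpenEmbedding_val.isOpenMap.image_mem_nhds h1
    refine mem_of_superset h2 ?_
    rintro _ ⟨y, hy, rfl⟩ ⟨y', hy', hyy'⟩
    have : y' = y := isOpenEmbedding_val.injective hyy'
    subst this
    exact (not_le.2 hy : ¬ rho E y' ≤ c) hy'
  · filter_upwards [E.big x hxU c] with y hy
    rintro ⟨y', hy', rfl⟩
    have h1 := hy y'.prop
    have h2 : rho E y' ≤ c := hy'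
    rw [rho_eq] at h2
    have h3 : 0 ≤ ∑ k, ‖S.z k y'.val‖ ^ 2 := Finset.sum_nonneg fun _ _ => by positivity
    linarith

end

end Crest.Agent.R273.SteinC_794
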