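import Crest.Agent.R273.KosGen_313
import Crest.Agent.R273.SerC_945
import Crest.Agent.R273.SteinC_794
import Crest.Agent.R273.UCovE_914
import Mathlib.RingTheory.MvPolynomial.Homogeneous

/-!
# R273 (S0416), leaf CHOW, part 2 (helper313): the image of a projective embedding is algebraic

Proof by Koszul generation and the determinant trick (no projections, no traces).
`F : Fin r → Fn A` : sections of `O` without common zeros; `H^q(O^m) = 0` for `m ≥ m0`, `q ≥ 1`.

* `eval_smul`   : homogeneous polynomials;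
* `chow_vec`    : a vector `v ≠ 0` at which all homogeneous relations of the `F k` vanish is
                  proportional to some `F · i x`;
* `chow_alg`    : points of `{l(F) ≠ 0}` are the algebra homomorphisms.
-/

set_option autoImplicit false
set_option linter.unusedSectionVars false

open Set Filter Topology Complex
open scoped ContDiff Matrix ComplexConjugate Kronecker

namespace Crest.Agent.R273.Chow_313

open Crest.Agent.R275 Crest.Agent.R275.Geo Crest.Agent.R275.Core144 Crest.Agent.R275.Dg199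
open Crest.Agent.R273.LamN127 Crest.Agent.R273.KosAb_619 Crest.Agent.R273.SerA_945
open Crest.Agent.R273.SerB_945 Crest.Agent.R273.SerC_945 Crest.Agent.R273.KosGen_313
open Crest.Agent.R273.Defs_333 Crest.Agent.R273.FS_333 Crest.Agent.R273.SteinC_794

noncomputable section

/-! ### homogeneous polynomials -/

section Poly

variable {σ : Type*}

theorem eval_smul [Fintype σ] {φ : MvPolynomial σ ℂ} {d : ℕ} (h : φ.IsHomogeneous d) (c : ℂ)
    (v : σ → ℂ) : MvPolynomial.eval (c • v) φ = c ^ d * MvPolynomial.eval v φ := by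
  rw [MvPolynomial.eval_eq', MvPolynomial.eval_eq', Finset.mul_sum]
  refine Finset.sum_congr rfl fun e he => ?_
  have h1 : ∑ i, e i = d := by
    have h2 := h (MvPolynomial.mem_support_iff.1 he)
    rw [← h2, Finsupp.weight_apply, Finsupp.sum_fintype]
    · simp
    · intro i
      simp
  have h2 : ∏ i, (c • v) i ^ e i = c ^ d * ∏ i, v i ^ e i := by
    rw [← h1, ← Finset.prod_pow_eq_pow_sum, ← Finset.prod_mul_distrib]
    exact Finset.prod_congr rfl fun i _ => by rw [Pi.smul_apply, smul_eq_mul, mul_pow]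
  rw [h2]
  ring

theorem det_homog {κ : Type*} [Fintype κ] [DecidableEq κ] (T : Matrix κ κ (MvPolynomial σ ℂ))
    (h : ∀ a b, (T a b).IsHomogeneous 1) : T.det.IsHomogeneous (Fintype.card κ) := by
  rw [Matrix.det_apply]
  refine MvPolynomial.IsHomogeneous.sum _ _ _ fun τ _ => ?_
  have h1 : (∏ i, T (τ i) i).IsHomogeneous (Fintype.card κ) := by
    have h2 := MvPolynomial.IsHomogeneous.prod Finset.univ (fun i => T (τ i) i) (fun _ => 1)
      fun i _ => h _ _
    simpa using h2
  rcases Int.units_eq_one_or (Equiv.Perm.sign τ) with h2 | h2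
  · rw [h2, one_smul]
    exact h1
  · rw [h2, Units.neg_smul, one_smul]
    exact h1.neg

theorem det_mul_eq_zero {R κ : Type*} [CommRing R] [Fintype κ] [DecidableEq κ]
    (T : Matrix κ κ R) (b : κ → R) (h : T *ᵥ b = 0) (a : κ) : T.det * b a = 0 := by
  have h4 : (T.adjugate * T) *ᵥ b = 0 := by
    rw [← Matrix.mulVec_mulVec, h, Matrix.mulVec_zero]
  rw [Matrix.adjugate_mul, Matrix.smul_mulVec, Matrix.one_mulVec] at h4
  exact congrFun h4 a

variable {r d : ℕ}

/-- the matrix `X_{k0} δ - Σ_k c_{a k a'} (v_{k0} X_k - v_k X_{k0})` -/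
def TM (v : Fin r → ℂ) (k0 : Fin r) (c : Fin d → Fin r → Fin d → ℂ) :
    Matrix (Fin d) (Fin d) (MvPolynomial (Fin r) ℂ) := Matrix.of fun a a' =>
  (if a = a' then MvPolynomial.X k0 else 0) - ∑ k, MvPolynomial.C (c a k a') *
    (MvPolynomial.C (v k0) * MvPolynomial.X k - MvPolynomial.C (v k) * MvPolynomial.X k0)

theorem TM_homog (v : Fin r → ℂ) (k0 : Fin r) (c : Fin d → Fin r → Fin d → ℂ) (a a' : Fin d) :
    (TM v k0 c a a').IsHomogeneous 1 := by
  unfold TM
  rw [Matrix.of_apply]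
  refine MvPolynomial.IsHomogeneous.sub ?_ ?_
  · split_ifs
    · exact MvPolynomial.isHomogeneous_X ℂ k0
    · exact MvPolynomial.isHomogeneous_zero _ _ _
  · exact MvPolynomial.IsHomogeneous.sum _ _ _ fun k _ => MvPolynomial.IsHomogeneous.C_mul
      ((MvPolynomial.isHomogeneous_C_mul_X _ _).sub (MvPolynomial.isHomogeneous_C_mul_X _ _)) _

theorem eval_TM (v : Fin r → ℂ) (k0 : Fin r) (c : Fin d → Fin r → Fin d → ℂ) (u : Fin r → ℂ)
    (a a' : Fin d) : MvPolynomial.eval u (TM v k0 c a a') =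
      (if a = a' then u k0 else 0) - ∑ k, c a k a' * (v k0 * u k - v k * u k0) := by
  unfold TM
  rw [Matrix.of_apply, map_sub, map_sum]
  congr 1
  · split_ifs <;> simp
  · exact Finset.sum_congr rfl fun k _ => by simp

theorem eval_det_TM (v : Fin r → ℂ) (k0 : Fin r) (c : Fin d → Fin r → Fin d → ℂ) (u : Fin r → ℂ) :
    MvPolynomial.eval u (TM v k0 c).det =
      (Matrix.of fun a a' => (if a = a' then u k0 else 0) -
        ∑ k, c a k a' * (v k0 * u k - v k * u k0) : Matrix (Fin d) (Fin d) ℂ).det := by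
  rw [RingHom.map_det]
  congr 1
  ext a a'
  exact eval_TM v k0 c u a a'

/-- the determinant at `v` -/
theorem eval_det_self (v : Fin r → ℂ) (k0 : Fin r) (c : Fin d → Fin r → Fin d → ℂ) :
    MvPolynomial.eval v (TM v k0 c).det = v k0 ^ d := by
  rw [eval_det_TM]
  have h1 : (Matrix.of fun a a' => (if a = a' then v k0 else 0) -
        ∑ k, c a k a' * (v k0 * v k - v k * v k0) : Matrix (Fin d) (Fin d) ℂ) =
      v k0 • (1 : Matrix (Fin d) (Fin d) ℂ) := by
    ext a a'
    rw [Matrix.of_apply, Matrix.smul_apply, Matrix.one_apply, Finset.sum_eq_zero, sub_zero]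
    · split_ifs <;> simp
    · intro k _
      ring
  rw [h1, Matrix.det_smul, Matrix.det_one, mul_one, Fintype.card_fin]

/-- the determinant kills the solutions of the linear system -/
theorem eval_det_mul (v : Fin r → ℂ) (k0 : Fin r) (c : Fin d → Fin r → Fin d → ℂ)
    (u : Fin r → ℂ) (b : Fin d → ℂ)
    (h : ∀ a, u k0 * b a = ∑ k, (v k0 * u k - v k * u k0) * ∑ a', c a k a' * b a') (a : Fin d) :
    MvPolynomial.eval u (TM v k0 c).det * b a = 0 := by
  rw [eval_det_TM]
  refine det_mul_eq_zero _ b ?_ a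
  funext a
  show ∑ a', ((if a = a' then u k0 else 0) -
    ∑ k, c a k a' * (v k0 * u k - v k * u k0)) * b a' = 0
  have h6 : ∀ a', ((if a = a' then u k0 else 0) -
      ∑ k, c a k a' * (v k0 * u k - v k * u k0)) * b a' =
      (if a = a' then u k0 * b a' else 0) -
        ∑ k, (v k0 * u k - v k * u k0) * (c a k a' * b a') := by
    intro a'
    rw [sub_mul, ite_mul, zero_mul, Finset.sum_mul]
    congr 1
    exact Finset.sum_congr rfl fun k _ => by ring
  rw [Finset.sum_congr rfl fun a' _ => h6 a', Finset.sum_sub_distrib, Finset.sum_ite_eq,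
    if_pos (Finset.mem_univ _), h a, Finset.sum_comm, sub_eq_zero]
  exact Finset.sum_congr rfl fun k _ => Finset.mul_sum _ _ _

end Poly

variable {n : ℕ} {M : Type} [TopologicalSpace M] {A : Atl n M} {r : ℕ} {O : LB A}

theorem pow_g (L : LB A) (d : ℕ) (i j : A.ι) (x : M) : (L ^ d).g i j x = L.g i j x ^ d := by
  induction d with
  | zero => rw [pow_zero, pow_zero]; rfl
  | succ d ih => rw [pow_succ, pow_succ, ← ih]; rfl

open Classical in
/-- the value of a homogeneous polynomial on the coordinates -/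
def evF (F : Fin r → Fn A) (p : MvPolynomial (Fin r) ℂ) : Fn A := fun i x =>
  if x ∈ (A.e i).source then MvPolynomial.eval (fun k => F k i x) p else 0

theorem evF_apply (F : Fin r → Fn A) (p : MvPolynomial (Fin r) ℂ) {i : A.ι} {x : M}
    (hx : x ∈ (A.e i).source) : evF F p i x = MvPolynomial.eval (fun k => F k i x) p := if_pos hx

/-- the value of a homogeneous polynomial on sections is a section -/
theorem isHS_evF {F : Fin r → Fn A} (hF : ∀ k, IsHS O univ (F k)) {d : ℕ}
    {p : MvPolynomial (Fin r) ℂ} (hp : p.IsHomogeneous d) : IsHS (O ^ d) univ (evF F p) where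
  hol i := by
    have h1 : HolAt A i univ (fun x => MvPolynomial.eval (fun k => F k i x) p) := by
      have h2 : (fun x => MvPolynomial.eval (fun k => F k i x) p) = fun x =>
          ∑ e ∈ p.support, p.coeff e * ∏ k, F k i x ^ e k := by
        funext x
        exact MvPolynomial.eval_eq' _ _
      rw [h2]
      exact HolAt.sum _ fun e _ => (HolAt.prod _ fun k _ => ((hF k).hol i).pow _).const_mul _
    exact h1.congr fun x hx _ => (evF_apply F p hx).symm
  off i x hx := if_neg hx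
  tr i j x hx _ := by
    have h1 : (fun k => F k i x) = O.g i j x • fun k => F k j x :=
      funext fun k => (hF k).tr i j x hx (mem_univ x)
    rw [evF_apply F p hx.1, evF_apply F p hx.2, pow_g, ← eval_smul hp, h1]

/-- a product of sections which is zero -/
theorem eq_zero_of_mul [PreconnectedSpace M] {L L' : LB A} {s t : Fn A} (hs : IsHS L univ s)
    (ht : IsHS L' univ t) (hne : ∃ i x, t i x ≠ 0) (h : ∀ i, ∀ x ∈ (A.e i).source, s i x * t i x = 0) :
    ∀ i x, s i x = 0 := by
  intro i x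
  by_cases hx : x ∈ (A.e i).source
  · by_contra hcon
    have h1 : ContinuousAt (s i) x := continuousAt_of_holAt isOpen_univ (hs.hol i) hx (mem_univ x)
    have h2 := UCov_914.IsHS.dense_ne ht hne hx
    have h3 := (h2.and_eventually ((h1.eventually_ne hcon).and
      ((A.e i).open_source.mem_nhds hx))).exists
    obtain ⟨y, hy1, hy2, hy3⟩ := h3
    exact (mul_ne_zero hy2 hy1) (h i y hy3)
  · exact hs.off i x hx

section Main

variable [T2Space M] [ConnectedSpace M]

/-- matrix coefficients from Koszul generation -/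
theorem exists_coef {m0 m : ℕ} (hm : m0 + n ≤ m)
    (hV : ∀ m, m0 ≤ m → ∀ q, 1 ≤ q → Solv (O ^ m) q) {s : ℕ} (ℓ : Fin s → Fn A)
    (hℓ : ∀ k, IsHS O univ (ℓ k)) (hne : ∀ i, ∀ x ∈ (A.e i).source, ∃ k, ℓ k i x ≠ 0)
    {d : ℕ} (b : Module.Basis (Fin d) ℂ (HS (O ^ m) univ)) {t : Fn A} (ht : IsHS (O ^ (m + 1)) univ t) :
    ∃ c : Fin s → Fin d → ℂ, t = ∑ k, ℓ k * ∑ a', c k a' • (b a' : Fn A) := by
  have hN : ∀ p : ℕ, (O ^ (m + 1) * O⁻¹ ^ (p + 1)) * O = O ^ (m + 1) * O⁻¹ ^ p := by
    intro p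
    rw [pow_succ O⁻¹, ← mul_assoc, inv_mul_cancel_right]
  have hNq : ∀ q : ℕ, q ≤ m + 1 → O ^ (m + 1) * O⁻¹ ^ q = O ^ (m + 1 - q) := by
    intro q hq
    have e1 : O ^ (m + 1) = O ^ (m + 1 - q) * O ^ q := by
      rw [← pow_add, Nat.sub_add_cancel hq]
    rw [e1, mul_assoc, inv_pow, mul_inv_cancel, mul_one]
  have h1 : IsHS ((fun p : ℕ => O ^ (m + 1) * O⁻¹ ^ p) 0) univ t := by
    show IsHS (O ^ (m + 1) * O⁻¹ ^ 0) univ _
    rw [hNq 0 (Nat.zero_le _), Nat.sub_zero]
    exact ht
  obtain ⟨w, hw, hs⟩ := kosgen O (fun p => O ^ (m + 1) * O⁻¹ ^ p) hN ℓ hℓ hne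
    (fun q hq hqn => by
      show Solv (O ^ (m + 1) * O⁻¹ ^ (q + 1)) q
      rw [hNq (q + 1) (by omega)]
      exact hV _ (by omega) q hq) h1
  have hw' : ∀ k, w k ∈ HS (O ^ m) univ := by
    intro k
    have h2 := hw k
    rw [hNq 1 (by omega)] at h2
    exact h2
  refine ⟨fun k a' => b.repr ⟨w k, hw' k⟩ a', ?_⟩
  rw [hs]
  refine Finset.sum_congr rfl fun k _ => ?_
  congr 1
  have h3 := congrArg Subtype.val (b.sum_repr ⟨w k, hw' k⟩)
  rw [AddSubmonoidClass.coe_finsetSum] at h3
  exact h3.symm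

/-- a power of a section -/
theorem isHS_pow {t : Fn A} (ht : IsHS O univ t) (m : ℕ) : IsHS (O ^ (m + 1)) univ (t ^ (m + 1)) := by
  induction m with
  | zero => simpa using ht
  | succ m ih =>
    rw [pow_succ O, pow_succ t]
    exact ih.mul ht

/-- some basis section is not zero -/
theorem exists_basis_ne {L : LB A} {d : ℕ} (b : Module.Basis (Fin d) ℂ (HS L univ)) {t : Fn A}
    (ht : IsHS L univ t) {i : A.ι} {x : M} (h : t i x ≠ 0) : ∃ a, (b a : Fn A) i x ≠ 0 := by
  by_contra hcon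
  push Not at hcon
  refine h ?_
  have h3 := congrArg Subtype.val (b.sum_repr ⟨t, ht⟩)
  rw [AddSubmonoidClass.coe_finsetSum] at h3
  have h4 := congrFun (congrFun h3 i) x
  rw [Finset.sum_apply, Finset.sum_apply] at h4
  refine (show t i x = _ from h4.symm).trans ?_
  exact Finset.sum_eq_zero fun a _ => by
    show b.repr _ a * (b a : Fn A) i x = 0
    rw [hcon a, mul_zero]

/-- **the determinant trick** -/
theorem exists_rel {F : Fin r → Fn A} (hF : ∀ k, IsHS O univ (F k))
    (hne : ∀ i, ∀ x ∈ (A.e i).source, ∃ k, F k i x ≠ 0)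
    (hfd : ∀ k : ℕ, FiniteDimensional ℂ (HS (O ^ k) univ)) {m0 : ℕ}
    (hV : ∀ m, m0 ≤ m → ∀ q, 1 ≤ q → Solv (O ^ m) q) (v : Fin r → ℂ) (hv : v ≠ 0)
    (hno : ∀ i, ∀ x ∈ (A.e i).source, ∀ c : ℂ, c ≠ 0 → v ≠ c • fun k => F k i x) :
    ∃ d, ∃ p : MvPolynomial (Fin r) ℂ, p.IsHomogeneous d ∧
      (∀ i, ∀ x ∈ (A.e i).source, MvPolynomial.eval (fun k => F k i x) p = 0) ∧
      MvPolynomial.eval v p ≠ 0 := by
  obtain ⟨k0, hk0⟩ : ∃ k, v k ≠ 0 := by
    by_contra h
    push Not at h
    exact hv (funext h)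
  have hℓ : ∀ k, IsHS O univ (v k0 • F k - v k • F k0) := by
    intro k
    have h := ((hF k).smul (v k0)).add ((hF k0).smul (- v k))
    rwa [neg_smul, ← sub_eq_add_neg] at h
  have hℓa : ∀ k i x, (v k0 • F k - v k • F k0) i x = v k0 * F k i x - v k * F k0 i x :=
    fun k i x => rfl
  have hne' : ∀ i, ∀ x ∈ (A.e i).source, ∃ k, (v k0 • F k - v k • F k0) i x ≠ 0 := by
    intro i x hx
    by_contra h
    push Not at h
    have h1 : ∀ k, v k0 * F k i x = v k * F k0 i x := fun k => by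
      have := h k
      rwa [hℓa k i x, sub_eq_zero] at this
    have h2 : F k0 i x ≠ 0 := by
      intro h0
      obtain ⟨k, hk⟩ := hne i x hx
      have := h1 k
      rw [h0, mul_zero] at this
      exact (mul_ne_zero hk0 hk) this
    refine hno i x hx (v k0 / F k0 i x) (div_ne_zero hk0 h2) (funext fun k => ?_)
    rw [Pi.smul_apply, smul_eq_mul, div_mul_eq_mul_div, h1 k, mul_div_assoc, div_self h2, mul_one]
  have := hfd (m0 + n + 1)
  let b := Module.finBasis ℂ (HS (O ^ (m0 + n + 1)) univ)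
  have key : ∀ a, ∃ c : Fin r → Fin _ → ℂ,
      F k0 * (b a : Fn A) = ∑ k, (v k0 • F k - v k • F k0) * ∑ a', c k a' • (b a' : Fn A) := by
    intro a
    refine exists_coef (by omega) hV (fun k => v k0 • F k - v k • F k0) hℓ hne' b ?_
    rw [pow_succ, mul_comm (O ^ (m0 + n + 1))]
    exact (hF k0).mul (b a).2
  choose c hc using key
  refine ⟨_, (TM v k0 c).det, det_homog _ (TM_homog v k0 c), ?_, ?_⟩
  · -- vanishing on `M`
    have h1 : ∀ i, ∀ x ∈ (A.e i).source, ∀ a,
        MvPolynomial.eval (fun k => F k i x) (TM v k0 c).det * (b a : Fn A) i x = 0 := by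
      intro i x hx a
      refine eval_det_mul v k0 c (fun k => F k i x) (fun a => (b a : Fn A) i x) (fun a => ?_) a
      have h3 := congrFun (congrFun (hc a) i) x
      rw [Finset.sum_apply, Finset.sum_apply] at h3
      refine h3.trans (Finset.sum_congr rfl fun k _ => ?_)
      show (v k0 * F k i x - v k * F k0 i x) * (∑ a', c a k a' • (b a' : Fn A)) i x = _
      rw [Finset.sum_apply, Finset.sum_apply]
      rfl
    -- some basis vector is not zero somewhere
    obtain ⟨x0⟩ := (inferInstance : Nonempty M)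
    obtain ⟨i0, hi0⟩ := A.cover x0
    obtain ⟨k, hk⟩ := hne i0 x0 hi0
    obtain ⟨a, ha⟩ := exists_basis_ne b (isHS_pow (hF k) (m0 + n)) (i := i0) (x := x0)
      (show F k i0 x0 ^ (m0 + n + 1) ≠ 0 from pow_ne_zero _ hk)
    intro i x hx
    have h2 := eq_zero_of_mul (isHS_evF hF (det_homog _ (TM_homog v k0 c))) (b a).2
      ⟨i0, x0, ha⟩ (fun i x hx => by rw [evF_apply F _ hx]; exact h1 i x hx a) i x
    rwa [evF_apply F _ hx] at h2
  · rw [eval_det_self]
    exact pow_ne_zero _ hk0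

/-- **Chow's theorem**, vector form -/
theorem chow_vec {F : Fin r → Fn A} (hF : ∀ k, IsHS O univ (F k))
    (hne : ∀ i, ∀ x ∈ (A.e i).source, ∃ k, F k i x ≠ 0)
    (hfd : ∀ k : ℕ, FiniteDimensional ℂ (HS (O ^ k) univ)) {m0 : ℕ}
    (hV : ∀ m, m0 ≤ m → ∀ q, 1 ≤ q → Solv (O ^ m) q) (v : Fin r → ℂ) (hv : v ≠ 0)
    (hrel : ∀ d, ∀ p : MvPolynomial (Fin r) ℂ, p.IsHomogeneous d →
      (∀ i, ∀ x ∈ (A.e i).source, MvPolynomial.eval (fun k => F k i x) p = 0) →
      MvPolynomial.eval v p = 0) :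
    ∃ i, ∃ x ∈ (A.e i).source, ∃ c : ℂ, c ≠ 0 ∧ v = c • fun k => F k i x := by
  by_contra hcon
  push Not at hcon
  obtain ⟨d, p, hp, h1, h2⟩ := exists_rel hF hne hfd hV v hv hcon
  exact h2 (hrel d p hp h1)

/-- **Chow's theorem**, algebra form: `B` any algebra with elements `R k` satisfying the
homogeneous relations of the `F k` and `∑ l k * R k = 1` -/
theorem chow_alg {F : Fin r → Fn A} (hF : ∀ k, IsHS O univ (F k))
    (hne : ∀ i, ∀ x ∈ (A.e i).source, ∃ k, F k i x ≠ 0)
    (hfd : ∀ k : ℕ, FiniteDimensional ℂ (HS (O ^ k) univ)) {m0 : ℕ}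
    (hV : ∀ m, m0 ≤ m → ∀ q, 1 ≤ q → Solv (O ^ m) q) {B : Type*} [CommRing B] [Algebra ℂ B]
    (R : Fin r → B) (l : Fin r → ℂ) (hl : ∑ k, l k • R k = 1)
    (hrel : ∀ d, ∀ p : MvPolynomial (Fin r) ℂ, p.IsHomogeneous d →
      (∀ i, ∀ x ∈ (A.e i).source, MvPolynomial.eval (fun k => F k i x) p = 0) →
      MvPolynomial.aeval R p = 0) (χ : B →ₐ[ℂ] ℂ) :
    ∃ i, ∃ x ∈ (A.e i).source, ∑ k, l k * F k i x ≠ 0 ∧
      ∀ k, χ (R k) = F k i x / ∑ k, l k * F k i x := by
  have h1 : ∑ k, l k * χ (R k) = 1 := by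
    have := congrArg χ hl
    rw [map_sum, map_one] at this
    rw [← this]
    exact Finset.sum_congr rfl fun k _ => by rw [map_smul, smul_eq_mul]
  have hv : (fun k => χ (R k)) ≠ 0 := by
    intro h
    rw [Finset.sum_eq_zero fun k _ => by rw [congrFun h k, Pi.zero_apply, mul_zero]] at h1
    exact zero_ne_one h1
  obtain ⟨i, x, hx, c, hc, h2⟩ := chow_vec hF hne hfd hV (fun k => χ (R k)) hv
    fun d p hp h => by
      have h3 := hrel d p hp h
      have h4 : MvPolynomial.eval (fun k => χ (R k)) p = χ (MvPolynomial.aeval R p) := by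
        have h5 : (χ.comp (MvPolynomial.aeval R)) p = MvPolynomial.aeval (fun k => χ (R k)) p := by
          rw [MvPolynomial.comp_aeval]
        rw [← MvPolynomial.coe_aeval_eq_eval]
        exact h5.symm
      rw [h4, h3, map_zero]
  have h3 : ∀ k, χ (R k) = c * F k i x := fun k => congrFun h2 k
  have h4 : c * ∑ k, l k * F k i x = 1 := by
    rw [← h1, Finset.mul_sum]
    exact Finset.sum_congr rfl fun k _ => by rw [h3 k]; ring
  have h5 : ∑ k, l k * F k i x ≠ 0 := fun h => by
    rw [h, mul_zero] at h4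
    exact zero_ne_one h4
  refine ⟨i, x, hx, h5, fun k => ?_⟩
  rw [h3 k, eq_div_iff h5, mul_assoc, mul_comm (F k i x), ← mul_assoc, h4, one_mul]

end Main

end

end Crest.Agent.R273.Chow_313
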