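import Crest.Agent.R273.NV_578
import Crest.Agent.R273.LamN_127
import Mathlib.Analysis.Complex.AbsMax

/-!
# R273 (S0416), leaf D.14 (helper578): holomorphic forms, contraction, `PV (KB A) q ≃ Om A (n-q)`

* `Om A p`          : holomorphic `p`-forms (coefficients of `dz_T` in the charts)
* `SF`              : `v ↦ S v` (Berezin), `PV (KB A) q → Om A p`, `p + q = n`, bijective
* `ctr β v`         : contraction `∑_T β_T v_T`; a holomorphic section of `N` for `v ∈ PV N q`,
                      `β ∈ Om A q`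
* `hol_const`       : holomorphic functions on compact connected `M` are constant
* `ctr_const`       : `ctr β v` is constant for `v ∈ PV 1 q`
-/

set_option autoImplicit false
set_option linter.unusedSectionVars false

open Set Filter Topology Complex Matrix
open scoped ContDiff Matrix ComplexConjugate Manifold ComplexOrder

namespace Crest.Agent.R273.HolF_578

open Crest.Agent.R275.Geo Crest.Agent.R275.Core144 Crest.Agent.R275.Kos798
open Crest.Agent.R273.Defs_333 Crest.Agent.R273.HM_333 Crest.Agent.R273.Kah_333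
open Crest.Agent.R273.Fock_243 (FI Gam eW iW ep)
open Crest.Agent.R273.Wdg_578 Crest.Agent.R273.NV_578
open Crest.Agent.R273.Berezin_505 (Sb Sbi epsn)

noncomputable section

variable {n : ℕ} {M : Type} [TopologicalSpace M] {A : Atl n M}

/-- holomorphic `p`-forms -/
def Om (A : Atl n M) (p : ℕ) : Submodule ℂ (A.ι → M → FI n → ℂ) where
  carrier := {v | (∀ i T, HolAt A i univ (fun x => v i x T)) ∧
    (∀ i, ∀ x ∉ (A.e i).source, v i x = 0) ∧ (∀ i x T, T.card ≠ p → v i x T = 0) ∧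
    ∀ i j, ∀ x ∈ (A.e i).source ∩ (A.e j).source,
      v i x = Gam (Jm A i j x)ᵀ *ᵥ v j x}
  add_mem' := by
    rintro u v ⟨h1, h2, h3, h4⟩ ⟨k1, k2, k3, k4⟩
    refine ⟨fun i T => (h1 i T).add (k1 i T), fun i x hx => ?_, fun i x T hT => ?_,
      fun i j x hx => ?_⟩
    · simp [h2 i x hx, k2 i x hx]
    · simp [h3 i x T hT, k3 i x T hT]
    · simp only [Pi.add_apply, h4 i j x hx, k4 i j x hx, Matrix.mulVec_add]
  zero_mem' := ⟨fun i T => holAt_const 0, fun _ _ _ => rfl, fun _ _ _ _ => rfl,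
    fun _ _ _ _ => by simp⟩
  smul_mem' := by
    rintro c u ⟨h1, h2, h3, h4⟩
    refine ⟨fun i T => (h1 i T).const_mul c, fun i x hx => ?_, fun i x T hT => ?_,
      fun i j x hx => ?_⟩
    · simp [h2 i x hx]
    · simp [h3 i x T hT]
    · simp only [Pi.smul_apply, h4 i j x hx, Matrix.mulVec_smul]

/-! ### the Jacobians -/

theorem Jm_inv {i j : A.ι} {x : M} (hx : x ∈ (A.e i).source ∩ (A.e j).source) :
    Jm A j i x * Jm A i j x = 1 := by
  rw [Crest.Agent.R275.Core144.J_mul i j i ⟨hx, hx.1⟩, Crest.Agent.R275.Core144.J_self i hx.1]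

theorem Gam_Jm_inv {i j : A.ι} {x : M} (hx : x ∈ (A.e i).source ∩ (A.e j).source) :
    Gam (Jm A j i x) * Gam (Jm A i j x) = 1 := by
  rw [← Fock_243.Gam_mul, Jm_inv hx, Fock_243.Gam_one]

theorem det_Jm {i j : A.ι} {x : M} (hx : x ∈ (A.e i).source ∩ (A.e j).source) :
    (Jm A j i x).det * (Jm A i j x).det = 1 := by
  rw [← Matrix.det_mul, Jm_inv hx, Matrix.det_one]

/-- `S Gam(m) = det m • Gam(m⁻¹)ᵀ S` -/
theorem Sb_Gam {m m' : Matrix (Fin n) (Fin n) ℂ} (h : m * m' = 1) :
    Sb ℂ n * Gam m = m.det • (Gam m'ᵀ * Sb ℂ n) := by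
  refine Berezin_505.Sb_mul_of_inv (LamN127.Gam_Sb m) ?_
  rw [Fock_243.Gam_transpose, ← Fock_243.Gam_mul, ← Matrix.transpose_mul, h,
    Matrix.transpose_one, Fock_243.Gam_one]

/-! ### `PV (KB A) q` and `Om A p` -/

/-- the family `S v` -/
def SF (v : A.ι → M → FI n → ℂ) : A.ι → M → FI n → ℂ := fun i x => Sb ℂ n *ᵥ v i x

/-- the family `S⁻¹ v` -/
def SFi (v : A.ι → M → FI n → ℂ) : A.ι → M → FI n → ℂ := fun i x => Sbi ℂ n *ᵥ v i x

@[simp] theorem SF_SFi (v : A.ι → M → FI n → ℂ) : SF (SFi v) = v := by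
  funext i x
  simp [SF, SFi, Matrix.mulVec_mulVec, Berezin_505.Sb_mul_Sbi]

@[simp] theorem SFi_SF (v : A.ι → M → FI n → ℂ) : SFi (SF v) = v := by
  funext i x
  simp [SF, SFi, Matrix.mulVec_mulVec, Berezin_505.Sbi_mul_Sb]

theorem SFi_eq (v : A.ι → M → FI n → ℂ) : SFi v = epsn ℂ n • SF v := by
  funext i x
  simp [SF, SFi, Sbi, Matrix.smul_mulVec]

theorem card_compl' (T : FI n) : Tᶜ.card + T.card = n := by
  have := Finset.card_add_card_compl T
  rw [Fintype.card_fin] at this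
  omega

theorem SF_mem_Om {p q : ℕ} (hpq : p + q = n) {v : A.ι → M → FI n → ℂ} (hv : v ∈ PV (KB A) q) :
    SF v ∈ Om A p := by
  obtain ⟨h1, h2, h3, h4⟩ := hv
  refine ⟨fun i T => ?_, fun i x hx => ?_, fun i x T hT => ?_, fun i j x hx => ?_⟩
  · refine ((h1 i Tᶜ).const_mul (Berezin_505.eps ℂ T)).congr fun x _ _ => ?_
    unfold SF
    rw [Berezin_505.Sb_mulVec]
  · unfold SF
    rw [h2 i x hx, Matrix.mulVec_zero]
  · unfold SF
    rw [Berezin_505.Sb_mulVec, h3 i x Tᶜ, mul_zero]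
    have := card_compl' T
    omega
  · unfold SF
    rw [h4 i j x hx, KB_g hx, Matrix.mulVec_smul, Matrix.mulVec_mulVec,
      Sb_Gam (m' := Jm A i j x) (Jm_inv hx), Matrix.smul_mulVec, smul_smul, mul_comm, det_Jm hx,
      one_smul, Matrix.mulVec_mulVec]

theorem SFi_mem_PV {p q : ℕ} (hpq : p + q = n) {β : A.ι → M → FI n → ℂ} (hβ : β ∈ Om A p) :
    SFi β ∈ PV (KB A) q := by
  obtain ⟨h1, h2, h3, h4⟩ := hβ
  refine ⟨fun i T => ?_, fun i x hx => ?_, fun i x T hT => ?_, fun i j x hx => ?_⟩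
  · refine ((h1 i Tᶜ).const_mul (epsn ℂ n * Berezin_505.eps ℂ T)).congr fun x _ _ => ?_
    unfold SFi
    rw [Berezin_505.Sbi_mulVec]
  · unfold SFi
    rw [h2 i x hx, Matrix.mulVec_zero]
  · unfold SFi
    rw [Berezin_505.Sbi_mulVec, h3 i x Tᶜ, mul_zero]
    have := card_compl' T
    omega
  · unfold SFi
    have h5 : Sbi ℂ n * Gam (Jm A i j x)ᵀ = (Jm A i j x).det • (Gam (Jm A j i x) * Sbi ℂ n) := by
      have h6 := Sb_Gam (m' := Jm A i j x) (Jm_inv hx)
      have h7 := congrArg (fun X => (Jm A i j x).det • (Sbi ℂ n * X * Sbi ℂ n)) h6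
      rw [Matrix.mul_smul, Matrix.smul_mul, smul_smul, mul_comm ((Jm A i j x).det), det_Jm hx,
        one_smul] at h7
      simp only [← Matrix.mul_assoc, Berezin_505.Sbi_mul_Sb, Matrix.one_mul] at h7
      rw [h7]
      simp only [Matrix.mul_assoc, Berezin_505.Sb_mul_Sbi, Matrix.mul_one]
    rw [h4 i j x hx, KB_g hx, Matrix.mulVec_mulVec, h5, Matrix.smul_mulVec, Matrix.mulVec_mulVec]

/-- `PV (KB A) q ≃ Om A p` for `p + q = n` -/
def SFe (A : Atl n M) {p q : ℕ} (hpq : p + q = n) : PV (KB A) q ≃ₗ[ℂ] Om A p where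
  toFun v := ⟨SF v.1, SF_mem_Om hpq v.2⟩
  map_add' u v := by
    apply Subtype.ext
    funext i x
    simp [SF, Matrix.mulVec_add]
  map_smul' c v := by
    apply Subtype.ext
    funext i x
    simp [SF, Matrix.mulVec_smul]
  invFun β := ⟨SFi β.1, SFi_mem_PV hpq β.2⟩
  left_inv v := by apply Subtype.ext; simp
  right_inv v := by apply Subtype.ext; simp

@[simp] theorem SFe_coe {p q : ℕ} (hpq : p + q = n) (v : PV (KB A) q) :
    (SFe A hpq v : A.ι → M → FI n → ℂ) = SF v.1 := rfl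
@[simp] theorem SFe_symm_coe {p q : ℕ} (hpq : p + q = n) (β : Om A p) :
    ((SFe A hpq).symm β : A.ι → M → FI n → ℂ) = SFi β.1 := rfl

/-! ### contraction of forms and polyvectors of the same degree -/

/-- `∑_T β_T v_T` -/
def ctr (β v : A.ι → M → FI n → ℂ) : A.ι → M → ℂ := fun i x => ∑ T, β i x T * v i x T

theorem ctr_eq (β v : A.ι → M → FI n → ℂ) (i : A.ι) (x : M) :
    ctr β v i x = β i x ⬝ᵥ v i x := rfl

theorem ctr_add_left (β β' v : A.ι → M → FI n → ℂ) : ctr (β + β') v = ctr β v + ctr β' v := by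
  funext i x; simp [ctr_eq, add_dotProduct]
theorem ctr_smul_left (c : ℂ) (β v : A.ι → M → FI n → ℂ) : ctr (c • β) v = c • ctr β v := by
  funext i x; simp [ctr_eq, smul_dotProduct]
theorem ctr_add_right (β v v' : A.ι → M → FI n → ℂ) : ctr β (v + v') = ctr β v + ctr β v' := by
  funext i x; simp [ctr_eq, dotProduct_add]
theorem ctr_smul_right (c : ℂ) (β v : A.ι → M → FI n → ℂ) : ctr β (c • v) = c • ctr β v := by
  funext i x; simp [ctr_eq, dotProduct_smul]

theorem ctr_isHS {N : LB A} {p q : ℕ} {β v : A.ι → M → FI n → ℂ} (hβ : β ∈ Om A p)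
    (hv : v ∈ PV N q) : IsHS N univ (ctr β v) := by
  obtain ⟨h1, h2, h3, h4⟩ := hβ
  obtain ⟨k1, k2, k3, k4⟩ := hv
  refine ⟨fun i => ?_, fun i x hx => ?_, fun i j x hx _ => ?_⟩
  · exact HolAt.sum _ fun T _ => (h1 i T).mul (k1 i T)
  · rw [ctr_eq, h2 i x hx, zero_dotProduct]
  · rw [ctr_eq, ctr_eq, h4 i j x hx, k4 i j x hx, dotProduct_smul, smul_eq_mul]
    congr 1
    rw [← Fock_243.Gam_transpose, Matrix.mulVec_transpose, ← Matrix.dotProduct_mulVec,
      Matrix.mulVec_mulVec, Gam_Jm_inv ⟨hx.2, hx.1⟩, Matrix.one_mulVec]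

/-! ### holomorphic functions on compact connected manifolds -/

theorem holAt_continuous {f : M → ℂ} (hf : ∀ i, HolAt A i univ f) : Continuous f := by
  rw [continuous_iff_continuousAt]
  intro x
  obtain ⟨i, hi⟩ := A.cover x
  have h1 := (hf i).diffAt isOpen_univ hi (mem_univ x)
  have h2 : ContinuousAt ((fun z => f ((A.e i).symm z)) ∘ A.e i) x :=
    ContinuousAt.comp h1.continuousAt ((A.e i).continuousAt hi)
  refine h2.congr ?_
  filter_upwards [(A.e i).open_source.mem_nhds hi] with y hy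
  simp [(A.e i).left_inv hy]

/-- the maximum principle -/
theorem hol_const [CompactSpace M] [ConnectedSpace M] {f : M → ℂ}
    (hf : ∀ i, HolAt A i univ f) (x y : M) : f x = f y := by
  have hc := holAt_continuous hf
  obtain ⟨x0, -, hx0⟩ := isCompact_univ.exists_isMaxOn (univ_nonempty (α := M))
    (hc.norm.continuousOn)
  have hcl : IsClosed {x | f x = f x0} := isClosed_eq hc continuous_const
  have hop : IsOpen {x | f x = f x0} := by
    rw [isOpen_iff_mem_nhds]
    intro x hx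
    obtain ⟨i, hi⟩ := A.cover x
    have h1 : ∀ᶠ z in 𝓝 (A.e i x), DifferentiableAt ℂ (fun z => f ((A.e i).symm z)) z := by
      filter_upwards [(A.e i).open_target.mem_nhds ((A.e i).map_source hi)] with z hz
      have := (hf i).diffAt isOpen_univ ((A.e i).map_target hz) (mem_univ _)
      rwa [(A.e i).right_inv hz] at this
    have h2 : IsLocalMax (norm ∘ fun z => f ((A.e i).symm z)) (A.e i x) := by
      refine Eventually.of_forall fun z => ?_
      simp only [Function.comp_apply, (A.e i).left_inv hi]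
      have h3 : ‖f x‖ = ‖f x0‖ := by rw [hx]
      rw [h3]
      exact hx0 (mem_univ _)
    have h3 := Complex.eventually_eq_of_isLocalMax_norm h1 h2
    have h4 := ((A.e i).continuousAt hi).eventually h3
    filter_upwards [h4, (A.e i).open_source.mem_nhds hi] with y hy hyi
    rw [(A.e i).left_inv hyi, (A.e i).left_inv hi] at hy
    exact hy.trans hx
  have hall : {x | f x = f x0} = univ := IsClopen.eq_univ ⟨hcl, hop⟩ ⟨x0, rfl⟩
  have e1 : x ∈ {x | f x = f x0} := by rw [hall]; trivial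
  have e2 : y ∈ {x | f x = f x0} := by rw [hall]; trivial
  exact e1.trans e2.symm

/-- holomorphic sections of the trivial bundle on compact connected `M` -/
theorem isHS_one_const [CompactSpace M] [ConnectedSpace M] {s : A.ι → M → ℂ}
    (hs : IsHS (1 : LB A) univ s) : ∃ c : ℂ, ∀ i, ∀ x ∈ (A.e i).source, s i x = c := by
  classical
  let ch : M → A.ι := fun x => (A.cover x).choose
  have hch : ∀ x, x ∈ (A.e (ch x)).source := fun x => (A.cover x).choose_spec
  let f : M → ℂ := fun x => s (ch x) x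
  have hfs : ∀ i, ∀ x ∈ (A.e i).source, f x = s i x := by
    intro i x hx
    have := hs.tr (ch x) i x ⟨hch x, hx⟩ (mem_univ x)
    simpa using this
  have hf : ∀ i, HolAt A i univ f := fun i => (hs.hol i).congr fun x hx _ => (hfs i x hx).symm
  obtain ⟨x0⟩ := (inferInstance : Nonempty M)
  exact ⟨f x0, fun i x hx => by rw [← hfs i x hx]; exact hol_const hf x x0⟩

theorem ctr_const [CompactSpace M] [ConnectedSpace M] {p q : ℕ} {β v : A.ι → M → FI n → ℂ}
    (hβ : β ∈ Om A p) (hv : v ∈ PV (1 : LB A) q) :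
    ∃ c : ℂ, ∀ i, ∀ x ∈ (A.e i).source, ctr β v i x = c :=
  isHS_one_const (ctr_isHS hβ hv)

end

end Crest.Agent.R273.HolF_578
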