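import Crest.Agent.R273.PartA_61
import Crest.Agent.R273.TD3_733

/-!
# R273 (S0416), helper61: Part A + T-D3 ⇒ effectivity when `χ(O) ≠ 0`
-/

set_option autoImplicit false
set_option linter.unusedSectionVars false

open Set Filter Topology Complex
open scoped ContDiff Matrix ComplexConjugate Manifold

namespace Crest.Agent.R273.PartAC_61

open Crest.Agent.R275 Crest.Agent.R275.Geo Crest.Agent.R275.Core144 Crest.Agent.R275.GC293
open Crest.Agent.R273.Defs_333 Crest.Agent.R273.Kah_333 Crest.Agent.R273.HM_333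
open Crest.Agent.R273.NV_578 Crest.Agent.R273.PartA_61 Crest.Agent.R273.TD3_733
open Crest.Agent.R273.LamN127 Crest.Agent.R273.ChiPoly_290

noncomputable section

variable {n : ℕ} {M : Type} [TopologicalSpace M] {A : Atl n M}

/-- effectivity from Part A when the Euler characteristic of the structure sheaf is nonzero -/
theorem eff_of_chi [T2Space M] [CompactSpace M] [Finite A.ι] (P : Part A) (hD : D2 A)
    (hchi : chB (BN (1 : LB A)) n ≠ 0) (h : HM (KB A)⁻¹) (hs : h.Semipos) (hA : PartAt A h) :
    ∃ m : ℕ, 0 < m ∧ HasSec ((KB A)⁻¹ ^ m) := by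
  obtain ⟨q, -, hq⟩ := infinite_NV P hD hchi h hs (T := 1) (one A)
    (fun i x hx => cur_one i hx)
  obtain ⟨m, hm, hsec⟩ := hA 1 (one A) (fun i x hx => cur_one i hx) q hq
  exact ⟨m, hm, by simpa using hsec⟩

end

end Crest.Agent.R273.PartAC_61
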