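import Crest.Agent.R273.SerE_945
import Crest.Agent.R273.HolF_578
import Crest.Agent.R273.PartAC_61
import Crest.Agent.R273.YauKah_635

/-!
# R273 (S0416), leaf CHAIN (helper945): the case `H^q(O) = 0` for `q ≥ 1`

* `hB_BN_zero`     : `hB (BN L) 0 = dim HS L`
* `hB_one_zero`    : `hB (BN 1) 0 = 1` on a compact connected manifold
* `chB_one`        : `χ(O) = 1` if the higher cohomology of `O` vanishes
* `exists_kah`     : Yau: Main-level data give a Kaehler metric whose Ricci form is `cur h`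
* `D2Stmt`         : the semipositive Hodge theorem for all manifolds
* `eff_of_chi'`    : effectivity if `χ(O) ≠ 0`
* `classC`         : effectivity if `H^q(O) = 0` for `q ≥ 1`
-/

set_option autoImplicit false
set_option linter.unusedSectionVars false

open Set Filter Topology Complex
open scoped ContDiff Matrix ComplexConjugate Manifold ComplexOrder

namespace Crest.Agent.R273.ClassC_945

open Crest.Agent.R275 Crest.Agent.R275.Geo Crest.Agent.R275.Core144 Crest.Agent.R275.GC293
open Crest.Agent.R275.SerG398 (hB fr FinS Zd Bd mem_Zd mem_Bd)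
open Crest.Agent.R273.Defs_333 Crest.Agent.R273.Kah_333 Crest.Agent.R273.HM_333
open Crest.Agent.R273.FS_333 Crest.Agent.R273.Vol_333
open Crest.Agent.R273.YauDefs_635 (YauStmt)
open Crest.Agent.R273.NV_578 Crest.Agent.R273.PartA_61 Crest.Agent.R273.TD3_733
open Crest.Agent.R273.LamN127 Crest.Agent.R273.ChiPoly_290
open Crest.Agent.R273.SerA_945 Crest.Agent.R273.SerE_945

noncomputable section

variable {n : ℕ} {M : Type} [TopologicalSpace M] {A : Atl n M}

/-! ### degree zero -/

theorem pq_of_isDeg' {B : FBun A} {q : ℕ} {u : A.ι → M → B.κ → ℂ} (hu : IsDeg B q u) :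
    pq B q u = u := by
  funext i x k
  rw [pq_apply]
  by_cases h : B.deg k = q
  · rw [if_pos h]
  · rw [if_neg h]
    by_contra h1
    exact h (hu i x k (Ne.symm h1))

theorem pq_isDeg' {B : FBun A} (q : ℕ) (u : A.ι → M → B.κ → ℂ) : IsDeg B q (pq B q u) := by
  intro i x k hk
  rw [pq_apply] at hk
  by_contra h
  exact hk (if_neg h)

theorem nab_deg_zero' {B : FBun A} {w : A.ι → M → B.κ → ℂ} (i : A.ι) (x : M) (k : B.κ)
    (hk : B.deg k = 0) : nab B w i x k = 0 := by
  by_cases hx : x ∈ (A.e i).source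
  · rw [nab_apply B hx, Pi.add_apply, Finset.sum_apply]
    have h1 : ∀ a, (B.e a *ᵥ A.db i a (w i) x) k = 0 := by
      intro a
      have h3 : ∀ l, B.e a k l * A.db i a (w i) x l = 0 := by
        intro l
        by_cases h : B.e a k l = 0
        · rw [h, zero_mul]
        · have := B.e_deg a k l h
          omega
      exact Finset.sum_eq_zero fun l _ => h3 l
    have h2 : (B.α i x *ᵥ w i x) k = 0 := by
      have h3 : ∀ l, B.α i x k l * w i x l = 0 := by
        intro l
        by_cases h : B.α i x k l = 0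
        · rw [h, zero_mul]
        · have := B.α_deg i x k l h
          omega
      exact Finset.sum_eq_zero fun l _ => h3 l
    rw [h2, add_zero]
    exact Finset.sum_eq_zero fun a _ => h1 a
  · rw [nab_off B hx]
    rfl

/-- holomorphic sections as closed `(0,0)`-forms -/
def toZ (L : LB A) : HS L univ →ₗ[ℂ] Zd (BN L) 0 where
  toFun s := ⟨⟨embN s.1, (embN_mem (IsHS.smS s.2) s.2.off).1⟩, by
    rw [mem_Zd]
    exact ⟨Subtype.ext (Db_embN_hol s.2),
      Subtype.ext (pq_of_isDeg' (embN_mem (N := L) (IsHS.smS s.2) s.2.off).2)⟩⟩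
  map_add' s t := by
    refine Subtype.ext (Subtype.ext (funext fun i => funext fun x => funext fun k => ?_))
    show embN (s.1 + t.1) i x k = embN s.1 i x k + embN t.1 i x k
    unfold embN
    split_ifs <;> simp
  map_smul' c s := by
    refine Subtype.ext (Subtype.ext (funext fun i => funext fun x => funext fun k => ?_))
    show embN (c • s.1) i x k = c • embN s.1 i x k
    unfold embN
    split_ifs <;> simp

theorem toZ_inj (L : LB A) : Function.Injective (toZ L) := by
  intro s t h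
  refine Subtype.ext (funext fun i => funext fun x => ?_)
  have h1 : embN s.1 = embN t.1 := congrArg (fun w : Zd (BN L) 0 => w.1.1) h
  have h2 : embN s.1 i x ((∅ : Finset (Fin n)), ()) = embN t.1 i x (∅, ()) := by rw [h1]
  have e1 : embN s.1 i x ((∅ : Finset (Fin n)), ()) = s.1 i x := if_pos rfl
  have e2 : embN t.1 i x ((∅ : Finset (Fin n)), ()) = t.1 i x := if_pos rfl
  rw [e1, e2] at h2
  exact h2

theorem toZ_surj (L : LB A) : Function.Surjective (toZ L) := by
  rintro ⟨u, hu⟩
  obtain ⟨h1, h2⟩ := mem_Zd.1 hu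
  have hF : u.1 ∈ FF L 0 := by
    refine ⟨u.2, ?_⟩
    have h3 : pq (BN L) 0 u.1 = u.1 := congrArg Subtype.val h2
    rw [← h3]
    exact pq_isDeg' 0 u.1
  have hs := isHS_of_closed hF (congrArg Subtype.val h1)
  refine ⟨⟨_, hs⟩, Subtype.ext (Subtype.ext ?_)⟩
  exact (eq_embN hF).symm

theorem Bd_zero (L : LB A) : Bd (BN L) 0 = ⊥ := by
  rw [eq_bot_iff]
  intro u hu
  obtain ⟨⟨w, hw⟩, h0⟩ := mem_Bd.1 hu
  rw [Submodule.mem_bot]
  refine Subtype.ext ?_
  have h3 : nab (BN L) w.1 = u.1 := congrArg Subtype.val hw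
  have h4 : pq (BN L) 0 u.1 = u.1 := congrArg Subtype.val h0
  have hd : IsDeg (BN L) 0 u.1 := by
    rw [← h4]
    exact pq_isDeg' 0 u.1
  funext i x k
  by_cases hk : (BN L).deg k = 0
  · rw [← h3]
    exact nab_deg_zero' i x k hk
  · by_contra h
    exact hk (hd i x k h)

theorem fr_bot {K V : Type*} [Field K] [AddCommGroup V] [Module K V] (Z : Submodule K V) :
    fr Z ⊥ = Module.finrank K Z := by
  unfold fr
  have h0 : (⊥ : Submodule K V).submoduleOf Z = ⊥ := by
    rw [eq_bot_iff]
    intro x hx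
    exact Subtype.ext hx
  rw [h0]
  exact (Submodule.quotEquivOfEqBot (⊥ : Submodule K Z) rfl).finrank_eq

theorem finrank_bij {K V W : Type*} [Field K] [AddCommGroup V] [Module K V] [AddCommGroup W]
    [Module K W] (Z : Submodule K V) (f : W →ₗ[K] Z) (h1 : Function.Injective f)
    (h2 : Function.Surjective f) : Module.finrank K Z = Module.finrank K W :=
  (LinearEquiv.ofBijective f ⟨h1, h2⟩).finrank_eq.symm

/-- `h⁰` -/
theorem hB_BN_zero (L : LB A) : hB (BN L) 0 = Module.finrank ℂ (HS L univ) := by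
  have h1 : hB (BN L) 0 = fr (Zd (BN L) 0) ⊥ := by
    unfold hB
    rw [Bd_zero]
  rw [h1, fr_bot]
  exact finrank_bij _ (toZ L) (toZ_inj L) (toZ_surj L)

open Classical in
/-- the constant function one -/
def uno (A : Atl n M) : A.ι → M → ℂ := fun i x => if x ∈ (A.e i).source then 1 else 0

theorem uno_apply {i : A.ι} {x : M} (h : x ∈ (A.e i).source) : uno A i x = 1 := if_pos h

theorem isHS_uno : IsHS (1 : LB A) univ (uno A) := by
  refine ⟨fun i => ?_, fun i z hz => if_neg hz, fun i j z hz _ => ?_⟩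
  · exact (holAt_const (A := A) (i := i) (1 : ℂ)).congr fun z hz _ => (uno_apply hz).symm
  · rw [uno_apply hz.1, uno_apply hz.2, mul_one]
    rfl

/-- holomorphic functions are constant -/
theorem finrank_HS_one [CompactSpace M] [ConnectedSpace M] :
    Module.finrank ℂ (HS (1 : LB A) univ) = 1 := by
  obtain ⟨x0⟩ := (inferInstance : Nonempty M)
  obtain ⟨i0, hi0⟩ := A.cover x0
  refine finrank_eq_one (⟨uno A, isHS_uno⟩ : HS (1 : LB A) univ) ?_ ?_
  · intro h
    have h1 : uno A i0 x0 = 0 := congrFun (congrFun (congrArg Subtype.val h) i0) x0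
    rw [uno_apply hi0] at h1
    exact one_ne_zero h1
  · intro w
    obtain ⟨c, hc⟩ := HolF_578.isHS_one_const w.2
    refine ⟨c, Subtype.ext (funext fun i => funext fun x => ?_)⟩
    show c * uno A i x = w.1 i x
    by_cases hx : x ∈ (A.e i).source
    · rw [uno_apply hx, mul_one, hc i x hx]
    · rw [w.2.off i x hx]
      have : uno A i x = 0 := if_neg hx
      rw [this, mul_zero]

theorem hB_one_zero [CompactSpace M] [ConnectedSpace M] : hB (BN (1 : LB A)) 0 = 1 := by
  rw [hB_BN_zero, finrank_HS_one]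

/-- `χ(O) = 1` -/
theorem chB_one [CompactSpace M] [ConnectedSpace M]
    (hc : ∀ q, 1 ≤ q → hB (BN (1 : LB A)) q = 0) (m : ℕ) : chB (BN (1 : LB A)) m = 1 := by
  unfold chB
  rw [Finset.sum_eq_single 0]
  · rw [hB_one_zero]
    norm_num
  · intro q _ hq
    rw [hc q (Nat.one_le_iff_ne_zero.2 hq)]
    norm_num
  · intro h
    exact absurd (Finset.mem_range.2 (Nat.succ_pos m)) h

/-! ### Yau -/

/-- **Kaehler metric with prescribed Ricci form** from the Main-level data -/
theorem exists_kah (hY : YauStmt) [T2Space M] [CompactSpace M] [ConnectedSpace M] [Finite A.ι]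
    (hG : GoodA A) (hP : Nonempty (Part A)) (D : ProjD A) (h : HM (KB A)⁻¹) :
    ∃ (u : M → ℝ) (hu : A.Sm u) (hp : (tw (fs D) u hu).Pos) (c : ℝ),
      (∀ i, ∀ x ∈ (A.e i).source,
        (volK (kah (tw (fs D) u hu) hp)).w i x = Real.exp c * h.w i x) ∧
      ∀ i, ∀ x ∈ (A.e i).source, cur (volK (kah (tw (fs D) u hu) hp)) i x = cur h i x :=
  YauKah_635.yau_HM hY hG hP (fs_pos D) h

/-- a Kaehler metric with semipositive Ricci curvature -/
theorem exists_kah_semipos (hY : YauStmt) [T2Space M] [CompactSpace M] [ConnectedSpace M]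
    [Finite A.ι] (hG : GoodA A) (hP : Nonempty (Part A)) (D : ProjD A) (h : HM (KB A)⁻¹)
    (hs : h.Semipos) : ∃ K : Kah A, (volK K).Semipos ∧
      ∀ i, ∀ x ∈ (A.e i).source, cur (volK K) i x = cur h i x := by
  obtain ⟨u, hu, hp, c, -, h2⟩ := exists_kah hY hG hP D h
  refine ⟨kah (tw (fs D) u hu) hp, semipos_of_cur fun i x hx => ?_, h2⟩
  rw [h2 i x hx]
  exact cur_posSemidef hs i hx

/-! ### the case `χ(O) ≠ 0` -/

/-- the semipositive Hodge theorem (Part D) -/
def D2Stmt : Prop :=
  ∀ (n : ℕ) (M : Type) [TopologicalSpace M] [T2Space M] [CompactSpace M] [ConnectedSpace M]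
    (A : Atl n M) [Finite A.ι], Part A → Kah A → D2 A

/-- effectivity if `χ(O) ≠ 0` -/
theorem eff_of_chi' (hPA : PartA) (hD : D2Stmt) [T2Space M] [CompactSpace M] [ConnectedSpace M]
    [Finite A.ι] (hG : GoodA A) (hP : Nonempty (Part A)) (D : ProjD A)
    (h : HM (KB A)⁻¹) (hs : h.Semipos) (hchi : chB (BN (1 : LB A)) n ≠ 0) :
    ∃ m : ℕ, 0 < m ∧ HasSec ((KB A)⁻¹ ^ m) := by
  obtain ⟨P⟩ := id hP
  exact PartAC_61.eff_of_chi P (hD n M A P (fsKah D)) hchi h hs (hPA n M A hG hP D h hs)

/-- **class C**: effectivity if `H^q(O) = 0` for `q ≥ 1` -/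
theorem classC (hPA : PartA) (hD : D2Stmt) [T2Space M] [CompactSpace M] [ConnectedSpace M]
    [Finite A.ι] (hG : GoodA A) (hP : Nonempty (Part A)) (D : ProjD A)
    (h : HM (KB A)⁻¹) (hs : h.Semipos) (hc : ∀ q, 1 ≤ q → hB (BN (1 : LB A)) q = 0) :
    ∃ m : ℕ, 0 < m ∧ HasSec ((KB A)⁻¹ ^ m) :=
  eff_of_chi' hPA hD hG hP D h hs (by rw [chB_one hc]; exact one_ne_zero)

end

end Crest.Agent.R273.ClassC_945
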