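import Crest.Agent.R273.ClassC_945
import Crest.Agent.R273.D13_505

/-!
# R273 (S0416), leaf CHAIN (helper945): the case `χ(O) ≠ 0` from Part A alone
-/

set_option autoImplicit false
set_option linter.unusedSectionVars false

open Set Filter Topology Complex
open scoped ContDiff Matrix ComplexConjugate Manifold ComplexOrder

namespace Crest.Agent.R273.ClassD_945

open Crest.Agent.R275 Crest.Agent.R275.Geo Crest.Agent.R275.Core144 Crest.Agent.R275.GC293
open Crest.Agent.R275.SerG398 (hB)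
open Crest.Agent.R273.Defs_333 Crest.Agent.R273.Kah_333 Crest.Agent.R273.PartA_61
open Crest.Agent.R273.LamN127 Crest.Agent.R273.ChiPoly_290 Crest.Agent.R273.ClassC_945

noncomputable section

theorem d2Stmt : D2Stmt := fun _ _ _ _ _ _ _ _ P K => D13_505.d2 P K

variable {n : ℕ} {M : Type} [TopologicalSpace M] {A : Atl n M}

/-- effectivity if `χ(O) ≠ 0` -/
theorem eff_of_chi (hPA : PartA) [T2Space M] [CompactSpace M] [ConnectedSpace M]
    [Finite A.ι] (hG : GoodA A) (hP : Nonempty (Part A)) (D : ProjD A)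
    (h : HM (KB A)⁻¹) (hs : h.Semipos) (hchi : chB (BN (1 : LB A)) n ≠ 0) :
    ∃ m : ℕ, 0 < m ∧ HasSec ((KB A)⁻¹ ^ m) :=
  eff_of_chi' hPA d2Stmt hG hP D h hs hchi

/-- **class C**: effectivity if `H^q(O) = 0` for `q ≥ 1` -/
theorem classC (hPA : PartA) [T2Space M] [CompactSpace M] [ConnectedSpace M]
    [Finite A.ι] (hG : GoodA A) (hP : Nonempty (Part A)) (D : ProjD A)
    (h : HM (KB A)⁻¹) (hs : h.Semipos) (hc : ∀ q, 1 ≤ q → hB (BN (1 : LB A)) q = 0) :
    ∃ m : ℕ, 0 < m ∧ HasSec ((KB A)⁻¹ ^ m) :=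
  ClassC_945.classC hPA d2Stmt hG hP D h hs hc

end

end Crest.Agent.R273.ClassD_945
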