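import Crest.Agent.R273.SteinG_794
import Crest.Agent.R273.SerE_945

/-!
# R273, HALF 2 of Part A: comparison of `|λ|_h` with quotients of sections (helper145)

* `cmp0` : a metric of `L` is equivalent to `∑ ‖a_l‖² / ∑ ‖b_l‖²`, `a_l ∈ H⁰(L⁻¹ N)`,
  `b_l ∈ H⁰(N)` without common zeros;
* `cmp` : existence of such families, `N = lb P ^ k`, for the bundle `L ^ j0`;
* `cmp_lam` : `|λ|_h² ~ ∑ ‖α_l‖² / ∑ ‖β_l‖²` with `α_l, β_l ∈ H⁰(lb P ^ k)`.
-/

set_option autoImplicit false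
set_option linter.unusedSectionVars false

open Set Filter Topology Complex MeasureTheory
open scoped ContDiff Matrix ENNReal

namespace Crest.Agent.R273.Cmp_145

open Crest.Agent.R275.Geo Crest.Agent.R275.Core144 Crest.Agent.R275.GC293
open Crest.Agent.R273.SteinA_794 Crest.Agent.R273.SteinB_794 Crest.Agent.R273.SteinC_794
open Crest.Agent.R273.SteinM_794 Crest.Agent.R273.SteinN_794 Crest.Agent.R273.SteinG_794
open Crest.Agent.R273.Defs_333 (ProjD HM HM.wt HM.Semipos HasSec)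
open Crest.Agent.R273.SerC_945 Crest.Agent.R273.SerE_945
open Crest.Agent.R273.TD3_733 (D2)
open Crest.Agent.R273.FS_333 (lb)

noncomputable section

variable {n : ℕ} {M : Type} [TopologicalSpace M] {A : Atl n M}

/-- `∑ ‖s_l‖²` in the chart `i` -/
def sq {r : ℕ} (s : Fin r → A.ι → M → ℂ) (i : A.ι) (x : M) : ℝ := ∑ l, ‖s l i x‖ ^ 2

theorem sq_nonneg {r : ℕ} (s : Fin r → A.ι → M → ℂ) (i : A.ι) (x : M) : 0 ≤ sq s i x :=
  Finset.sum_nonneg fun _ _ => by positivity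

theorem sq_pos {r : ℕ} {s : Fin r → A.ι → M → ℂ}
    (h : ∀ i, ∀ x ∈ (A.e i).source, ∃ l, s l i x ≠ 0) {i : A.ι} {x : M}
    (hx : x ∈ (A.e i).source) : 0 < sq s i x := by
  obtain ⟨l, hl⟩ := h i x hx
  have h1 : 0 < ‖s l i x‖ ^ 2 := by
    have := norm_pos_iff.2 hl
    positivity
  exact h1.trans_le (Finset.single_le_sum (f := fun l => ‖s l i x‖ ^ 2)
    (fun _ _ => by positivity) (Finset.mem_univ l))

theorem sq_tr {L : LB A} {r : ℕ} {s : Fin r → A.ι → M → ℂ} (hs : ∀ l, IsHS L univ (s l))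
    {i j : A.ι} {x : M} (hx : x ∈ (A.e i).source ∩ (A.e j).source) :
    sq s i x = ‖L.g i j x‖ ^ 2 * sq s j x := by
  unfold sq
  rw [Finset.mul_sum]
  refine Finset.sum_congr rfl fun l _ => ?_
  rw [(hs l).tr i j x hx (mem_univ x), norm_mul, mul_pow]

theorem sq_cont {L : LB A} {r : ℕ} {s : Fin r → A.ι → M → ℂ} (hs : ∀ l, IsHS L univ (s l))
    {i : A.ι} {x : M} (hx : x ∈ (A.e i).source) : ContinuousAt (sq s i) x := by
  unfold sq
  refine tendsto_finsetSum _ fun l _ => ?_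
  exact (continuousAt_of_holAt isOpen_univ ((hs l).hol i) hx (mem_univ x)).norm.pow 2

theorem sq_mul {r : ℕ} (t : A.ι → M → ℂ) (s : Fin r → A.ι → M → ℂ) (i : A.ι) (x : M) :
    sq (fun l => t * s l) i x = ‖t i x‖ ^ 2 * sq s i x := by
  unfold sq
  rw [Finset.mul_sum]
  refine Finset.sum_congr rfl fun l _ => ?_
  show ‖t i x * s l i x‖ ^ 2 = _
  rw [norm_mul, mul_pow]

/-- a metric is comparable with a quotient of sums of squares of sections -/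
theorem cmp0 [CompactSpace M] {L N : LB A} (h : HM L) {r r' : ℕ} {a : Fin r → A.ι → M → ℂ}
    {b : Fin r' → A.ι → M → ℂ} (ha : ∀ l, IsHS (L⁻¹ * N) univ (a l))
    (ha0 : ∀ i, ∀ x ∈ (A.e i).source, ∃ l, a l i x ≠ 0) (hb : ∀ l, IsHS N univ (b l))
    (hb0 : ∀ i, ∀ x ∈ (A.e i).source, ∃ l, b l i x ≠ 0) :
    ∃ C : ℝ, 0 < C ∧ ∀ i, ∀ x ∈ (A.e i).source,
      h.w i x * sq b i x ≤ C * sq a i x ∧ sq a i x ≤ C * (h.w i x * sq b i x) := by
  set q : A.ι → M → ℝ := fun i x => h.w i x * sq b i x / sq a i x with hq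
  have hqp : ∀ i, ∀ x ∈ (A.e i).source, 0 < q i x := fun i x hx =>
    div_pos (mul_pos (h.pos i x hx) (sq_pos hb0 hx)) (sq_pos ha0 hx)
  have htr : ∀ i j, ∀ x ∈ (A.e i).source ∩ (A.e j).source, q i x = q j x := by
    intro i j x hx
    simp only [hq]
    rw [sq_tr ha hx, sq_tr hb hx]
    have h1 : h.w j x = ‖L.g i j x‖ ^ 2 * h.w i x := h.tr i j x hx
    rw [h1]
    have h2 : (L⁻¹ * N).g i j x = (L.g i j x)⁻¹ * N.g i j x := rfl
    rw [h2, norm_mul, norm_inv]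
    have h3 : ‖L.g i j x‖ ≠ 0 := norm_ne_zero_iff.2 (L.ne_zero i j x)
    have h4 : ‖N.g i j x‖ ≠ 0 := norm_ne_zero_iff.2 (N.ne_zero i j x)
    have h5 := (sq_pos ha0 hx.2).ne'
    field_simp
  set Q : M → ℝ := fun x => q (A.cover x).choose x with hQ
  have hQe : ∀ i, ∀ x ∈ (A.e i).source, Q x = q i x := fun i x hx =>
    htr _ _ x ⟨(A.cover x).choose_spec, hx⟩
  have hQc : Continuous Q := by
    rw [continuous_iff_continuousAt]
    intro x
    obtain ⟨i, hi⟩ := A.cover x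
    have h1 : ContinuousAt (q i) x := by
      simp only [hq]
      exact ((hm_cont h hi).mul (sq_cont hb hi)).div (sq_cont ha hi) (sq_pos ha0 hi).ne'
    refine h1.congr ?_
    filter_upwards [(A.e i).open_source.mem_nhds hi] with y hy
    exact (hQe i y hy).symm
  have hQp : ∀ x, 0 < Q x := fun x => hqp _ x (A.cover x).choose_spec
  rcases isEmpty_or_nonempty M with hM | hM
  · exact ⟨1, one_pos, fun i x _ => (hM.false x).elim⟩
  obtain ⟨x1, -, h1⟩ := isCompact_univ.exists_isMaxOn univ_nonempty hQc.continuousOn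
  obtain ⟨x2, -, h2⟩ := isCompact_univ.exists_isMinOn univ_nonempty hQc.continuousOn
  refine ⟨max (Q x1) (Q x2)⁻¹, lt_max_of_lt_left (hQp x1), fun i x hx => ?_⟩
  have h3 : Q x ≤ Q x1 := h1 (mem_univ x)
  have h4 : Q x2 ≤ Q x := h2 (mem_univ x)
  rw [hQe i x hx] at h3 h4
  have hap := sq_pos ha0 hx
  constructor
  · have h5 : h.w i x * sq b i x = q i x * sq a i x := by
      simp only [hq]; field_simp
    rw [h5]
    exact mul_le_mul_of_nonneg_right (h3.trans (le_max_left _ _)) hap.le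
  · have h6 : Q x2 * sq a i x ≤ h.w i x * sq b i x := by
      have h5 : h.w i x * sq b i x = q i x * sq a i x := by
        simp only [hq]; field_simp
      rw [h5]
      exact mul_le_mul_of_nonneg_right h4 hap.le
    have h7 : sq a i x ≤ (Q x2)⁻¹ * (h.w i x * sq b i x) := by
      rw [← div_eq_inv_mul, le_div_iff₀ (hQp x2)]
      linarith
    refine h7.trans (mul_le_mul_of_nonneg_right (le_max_right _ _) ?_)
    have := h.pos i x hx
    have := sq_nonneg b i x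
    positivity

/-- existence of the families -/
theorem cmp [T2Space M] [CompactSpace M] [ConnectedSpace M] [Finite A.ι] (PA : Part A) (hD : D2 A)
    (P : ProjD A) {L : LB A} (hL : HM L) (j0 : ℕ) :
    ∃ (k r r' : ℕ) (a : Fin r → A.ι → M → ℂ) (b : Fin r' → A.ι → M → ℂ) (C : ℝ), 1 ≤ k ∧ 0 < C ∧
      (∀ l, IsHS ((L ^ j0)⁻¹ * lb P ^ k) univ (a l)) ∧
      (∀ i, ∀ x ∈ (A.e i).source, ∃ l, a l i x ≠ 0) ∧
      (∀ l, IsHS (lb P ^ k) univ (b l)) ∧
      (∀ i, ∀ x ∈ (A.e i).source, ∃ l, b l i x ≠ 0) ∧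
      ∀ i, ∀ x ∈ (A.e i).source, (hL.w i x) ^ j0 * sq b i x ≤ C * sq a i x ∧
        sq a i x ≤ C * ((hL.w i x) ^ j0 * sq b i x) := by
  obtain ⟨m0, hm0⟩ := ggen_proj PA hD P (L ^ j0)⁻¹
  obtain ⟨r, a, ha, ha0⟩ := hm0 (m0 + 1) (Nat.le_succ _)
  obtain ⟨r', b, hb, hb0⟩ := (ggen_lb P).pow (m0 + 1)
  obtain ⟨C, hC, h1⟩ := cmp0 (HM_333.pow hL j0) ha ha0 hb hb0
  refine ⟨m0 + 1, r, r', a, b, C, by omega, hC, ha, ha0, hb, hb0, fun i x hx => ?_⟩
  have h2 := h1 i x hx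
  rwa [HM_333.pow_w] at h2

/-- the norm of `λ` in a chart -/
theorem lam_chart {S : SD A} {L : LB A} (hL : HM L) {σ : A.ι → M → ℂ} (hσ : IsHS L S.U σ)
    (h0 : ∀ i, ∀ x ∈ (A.e i).source, x ∈ S.U → σ i x ≠ 0) (j0 : ℕ) (c : ℂ) (x : Mo S)
    {i : A.ι} (hx : x.val ∈ (A.e i).source) :
    ‖c‖ ^ 2 * Real.exp (-(j0 * wtS hL σ x.val)) =
      ‖c * σ i x.val ^ j0‖ ^ 2 * (hL.w i x.val) ^ j0 := by
  have h1 : Real.exp (-(j0 * wtS hL σ x.val)) = (‖σ i x.val‖ ^ 2 * hL.w i x.val) ^ j0 := by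
    rw [← exp_wtS hL hσ h0 hx x.prop, ← Real.exp_nat_mul]
    congr 1
    ring
  rw [h1, norm_mul, norm_pow, mul_pow, mul_pow]
  ring

/-- **the comparison for `λ`** : `λ σ^{j0} s2 = s1` -/
theorem cmp_lam {S : SD A} {L Z N N' : LB A} (hL : HM L) {σ : A.ι → M → ℂ}
    (hσ : IsHS L S.U σ) (h0 : ∀ i, ∀ x ∈ (A.e i).source, x ∈ S.U → σ i x ≠ 0) (j0 : ℕ)
    {lam : Mo S → ℂ} {s1 s2 w : A.ι → M → ℂ} (hs1 : IsHS (Z * L ^ j0) univ s1)
    (hs2 : IsHS Z univ s2) (hw : IsHS (Z⁻¹ * N') univ w)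
    (hrel : ∀ i, ∀ x : Mo S, x.val ∈ (A.e i).source →
      lam x * σ i x.val ^ j0 * s2 i x.val = s1 i x.val)
    {r r' : ℕ} {a : Fin r → A.ι → M → ℂ} {b : Fin r' → A.ι → M → ℂ} {C : ℝ}
    (ha : ∀ l, IsHS ((L ^ j0)⁻¹ * N) univ (a l)) (hb : ∀ l, IsHS N univ (b l))
    (hab : ∀ i, ∀ x ∈ (A.e i).source, (hL.w i x) ^ j0 * sq b i x ≤ C * sq a i x ∧
        sq a i x ≤ C * ((hL.w i x) ^ j0 * sq b i x)) :
    (∀ l, IsHS (N' * N) univ (w * s1 * a l)) ∧ (∀ l, IsHS (N' * N) univ (w * s2 * b l)) ∧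
    ∀ i, ∀ x : Mo S, x.val ∈ (A.e i).source →
      ‖lam x‖ ^ 2 * Real.exp (-(j0 * wtS hL σ x.val)) * sq (fun l => w * s2 * b l) i x.val ≤
        C * sq (fun l => w * s1 * a l) i x.val ∧
      sq (fun l => w * s1 * a l) i x.val ≤
        C * (‖lam x‖ ^ 2 * Real.exp (-(j0 * wtS hL σ x.val)) *
          sq (fun l => w * s2 * b l) i x.val) := by
  refine ⟨fun l => ?_, fun l => ?_, fun i x hx => ?_⟩
  · have h1 := (hw.mul hs1).mul (ha l)
    have h2 : Z⁻¹ * N' * (Z * L ^ j0) * ((L ^ j0)⁻¹ * N) = N' * N := by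
      rw [mul_comm Z⁻¹ N', mul_assoc N', inv_mul_cancel_left, mul_assoc, mul_inv_cancel_left]
    rwa [h2] at h1
  · have h1 := (hw.mul hs2).mul (hb l)
    have h2 : Z⁻¹ * N' * Z * N = N' * N := by
      rw [mul_comm Z⁻¹ N', mul_assoc N', inv_mul_cancel, mul_one]
    rwa [h2] at h1
  · obtain ⟨h1, h2⟩ := hab i x.val hx
    have h3 := hrel i x hx
    rw [sq_mul, sq_mul, lam_chart hL hσ h0 j0 _ x hx]
    have h4 : ‖(w * s1) i x.val‖ ^ 2 = ‖w i x.val‖ ^ 2 * (‖lam x * σ i x.val ^ j0‖ ^ 2 *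
        ‖s2 i x.val‖ ^ 2) := by
      show ‖w i x.val * s1 i x.val‖ ^ 2 = _
      rw [← h3, norm_mul, norm_mul, mul_pow, mul_pow]
    have h5 : ‖(w * s2) i x.val‖ ^ 2 = ‖w i x.val‖ ^ 2 * ‖s2 i x.val‖ ^ 2 := by
      show ‖w i x.val * s2 i x.val‖ ^ 2 = _
      rw [norm_mul, mul_pow]
    rw [h4, h5]
    set W := ‖w i x.val‖ ^ 2 * (‖lam x * σ i x.val ^ j0‖ ^ 2 * ‖s2 i x.val‖ ^ 2) with hW
    have hW0 : 0 ≤ W := by positivity
    constructor
    · calc ‖lam x * σ i x.val ^ j0‖ ^ 2 * hL.w i x.val ^ j0 *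
            (‖w i x.val‖ ^ 2 * ‖s2 i x.val‖ ^ 2 * sq b i x.val)
          = W * (hL.w i x.val ^ j0 * sq b i x.val) := by rw [hW]; ring
        _ ≤ W * (C * sq a i x.val) := mul_le_mul_of_nonneg_left h1 hW0
        _ = _ := by ring
    · calc W * sq a i x.val ≤ W * (C * (hL.w i x.val ^ j0 * sq b i x.val)) :=
            mul_le_mul_of_nonneg_left h2 hW0
        _ = _ := by rw [hW]; ring

end

end Crest.Agent.R273.Cmp_145
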