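import Crest.Agent.R273.Vol_333
import Crest.Agent.R273.Levi_145

/-!
# R273 (S0416), BP-T leaf T5 (helper5): concavity along orbits

* `antitone_of_concave` : a concave function on `ℝ` which is bounded below near `-∞` is nonincreasing
* `concave_of_lev` : if `f (re z_0)` is superharmonic then `f` is concave
* `orbit_antitone` : `h : HM L` semipositive, `γ : ℂ → M` holomorphic, `s` a holomorphic frame of `L`
  along `γ` whose norm depends only on `re z` and is bounded below near `-∞`: then it is nonincreasing.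
-/

set_option autoImplicit false
set_option linter.unusedSectionVars false

open Set Filter Topology Complex
open scoped ContDiff Matrix ComplexConjugate

namespace Crest.Agent.R273.Conc_5

open Crest.Agent.R275.Geo Crest.Agent.R275.Core144
open Crest.Agent.R273.Defs_333 Crest.Agent.R273.HM_333 Crest.Agent.R273.Kah_333

noncomputable section

/-- a concave function bounded below near `-∞` is nonincreasing -/
theorem antitone_of_concave {f : ℝ → ℝ} (hf : ConcaveOn ℝ univ f)
    (hb : ∃ c, ∀ᶠ a in atBot, c ≤ f a) : Antitone f := by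
  intro a b hab
  by_contra hlt
  push Not at hlt
  have hne : a < b := lt_of_le_of_ne hab fun h => by rw [h] at hlt; exact lt_irrefl _ hlt
  obtain ⟨c, hc⟩ := hb
  set m : ℝ := (f b - f a) / (b - a) with hm
  have hm0 : 0 < m := div_pos (sub_pos.2 hlt) (sub_pos.2 hne)
  have h1 : ∀ x < a, f x ≤ f a - m * (a - x) := by
    intro x hx
    have h2 := hf.slope_anti_adjacent (mem_univ x) (mem_univ b) hx hne
    have h3 : m * (a - x) ≤ f a - f x := by
      rw [← le_div_iff₀ (sub_pos.2 hx)]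
      exact h2
    linarith
  have h4 : ∀ᶠ x in atBot, f a - m * (a - x) < c := by
    have h5 : Tendsto (fun x : ℝ => f a - m * (a - x)) atBot atBot := by
      have : (fun x : ℝ => f a - m * (a - x)) = fun x => (f a - m * a) + m * x := by
        funext x; ring
      rw [this]
      exact tendsto_atBot_add_const_left _ _ (tendsto_id.const_mul_atBot hm0)
    exact h5.eventually_lt_atBot c
  obtain ⟨x, hx1, hx2, hx3⟩ := (hc.and (h4.and (eventually_lt_atBot a))).exists
  have := h1 x hx3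
  linarith

variable {n : ℕ}

/-- second derivative along a line -/
theorem line_deriv2 {E : Type*} [NormedAddCommGroup E] [NormedSpace ℝ E] {F : E → ℝ} {z : E}
    (hF : ContDiffAt ℝ 2 F z) (v : E) :
    deriv (deriv fun s : ℝ => F (z + s • v)) 0 = fderiv ℝ (fderiv ℝ F) z v v := by
  have hl : ∀ s : ℝ, HasDerivAt (fun s : ℝ => z + s • v) v s := by
    intro s
    have := ((hasDerivAt_id s).smul_const v).const_add z
    simpa using this
  have h0 : z + (0 : ℝ) • v = z := by simp
  have h1 : ∀ᶠ s : ℝ in 𝓝 0, deriv (fun s : ℝ => F (z + s • v)) s = fderiv ℝ F (z + s • v) v := by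
    have h2 : ∀ᶠ w in 𝓝 z, DifferentiableAt ℝ F w := by
      have := (hF.of_le (m := 1) (by norm_num)).eventually (by simp)
      filter_upwards [this] with w hw
      exact hw.differentiableAt (by simp)
    have h3 : Tendsto (fun s : ℝ => z + s • v) (𝓝 0) (𝓝 z) := by
      have := (hl 0).continuousAt.tendsto
      rwa [h0] at this
    filter_upwards [h3.eventually h2] with s hs
    exact (hs.hasFDerivAt.comp_hasDerivAt s (hl s)).deriv
  have h4 : deriv (fun s : ℝ => F (z + s • v)) =ᶠ[𝓝 0] fun s => fderiv ℝ F (z + s • v) v := h1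
  rw [h4.deriv_eq]
  have h5 : DifferentiableAt ℝ (fderiv ℝ F) z :=
    (hF.fderiv_right (m := 1) (by norm_num)).differentiableAt (by simp)
  have h6 : HasDerivAt (fun s : ℝ => fderiv ℝ F (z + s • v)) (fderiv ℝ (fderiv ℝ F) z v) 0 := by
    have h7 : HasFDerivAt (fderiv ℝ F) (fderiv ℝ (fderiv ℝ F) z) (z + (0 : ℝ) • v) := by
      rw [h0]; exact h5.hasFDerivAt
    exact h7.comp_hasDerivAt (0 : ℝ) (hl 0)
  have h8 := h6.clm_apply (hasDerivAt_const (0 : ℝ) v)
  rw [h8.deriv]
  simp

/-- the function `f (re z_0)` on `Cn 1` -/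
theorem lev_re_comp {f : ℝ → ℝ} {z : Cn 1}
    (hF : ContDiffAt ℝ 2 (fun w : Cn 1 => f (w 0).re) z) :
    4 * Levi_145.lev (fun w : Cn 1 => f (w 0).re) z (EuclideanSpace.single 0 1) =
      deriv (deriv f) (z 0).re := by
  have h1 : Levi_145.lev (fun w : Cn 1 => f (w 0).re) z (EuclideanSpace.single 0 1) =
      (fderiv ℝ (fderiv ℝ (fun w : Cn 1 => f (w 0).re)) z (EuclideanSpace.single 0 1)
        (EuclideanSpace.single 0 1) +
      fderiv ℝ (fderiv ℝ (fun w : Cn 1 => f (w 0).re)) z (I • EuclideanSpace.single 0 1)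
        (I • EuclideanSpace.single 0 1)) / 4 := rfl
  rw [h1, ← line_deriv2 hF, ← line_deriv2 hF]
  have e1 : (fun s : ℝ => f ((z + s • (EuclideanSpace.single 0 1 : Cn 1)) 0).re) =
      fun s : ℝ => f ((z 0).re + s) := by
    funext s
    simp
  have e2 : (fun s : ℝ => f ((z + s • (I • EuclideanSpace.single 0 1 : Cn 1)) 0).re) =
      fun _ : ℝ => f (z 0).re := by
    funext s
    simp
  rw [e1, e2]
  have e3 : deriv (fun s : ℝ => f ((z 0).re + s)) = fun s => deriv f ((z 0).re + s) := by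
    funext s
    exact deriv_comp_const_add _ _ _
  rw [e3, deriv_comp_const_add]
  simp only [add_zero, deriv_const', deriv_const]
  ring

theorem two_le_infty : (2 : WithTop ℕ∞) ≤ ((⊤ : ℕ∞) : WithTop ℕ∞) := by
  have : ((2 : ℕ∞) : WithTop ℕ∞) ≤ ((⊤ : ℕ∞) : WithTop ℕ∞) := WithTop.coe_le_coe.mpr le_top
  simpa using this

theorem concave_of_lev {f : ℝ → ℝ} (hF : ContDiff ℝ 2 (fun w : Cn 1 => f (w 0).re))
    (hl : ∀ z : Cn 1, Levi_145.lev (fun w : Cn 1 => f (w 0).re) z (EuclideanSpace.single 0 1) ≤ 0) :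
    ConcaveOn ℝ univ f := by
  have hf : ContDiff ℝ 2 f := by
    have h1 : f = (fun w : Cn 1 => f (w 0).re) ∘ fun a : ℝ => (a • EuclideanSpace.single 0 1 : Cn 1) := by
      funext a
      simp
    rw [h1]
    exact hF.comp (contDiff_id.smul contDiff_const)
  have hd : Differentiable ℝ f := hf.differentiable (by norm_num)
  have hd2 : Differentiable ℝ (deriv f) := by
    have h2 : ContDiff ℝ (1 + 1) f := by rwa [one_add_one_eq_two]
    exact ((contDiff_succ_iff_deriv.1 h2).2.2).differentiable (by norm_num)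
  refine concaveOn_univ_of_deriv2_nonpos hd hd2 fun a => ?_
  have h3 := lev_re_comp (f := f) (z := (a • EuclideanSpace.single 0 1 : Cn 1)) hF.contDiffAt
  have h4 : ((a • EuclideanSpace.single 0 1 : Cn 1) 0).re = a := by simp
  rw [h4] at h3
  have h5 : deriv^[2] f a = deriv (deriv f) a := rfl
  rw [h5, ← h3]
  have := hl (a • EuclideanSpace.single 0 1 : Cn 1)
  linarith

variable {M : Type} [TopologicalSpace M] {A : Atl n M} {L : LB A}

/-- **T5** -/
theorem orbit_antitone {h : HM L} (hh : h.Semipos) {γ : ℂ → M} (hγc : Continuous γ)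
    (hγ : ∀ z i, γ z ∈ (A.e i).source → ∀ᶠ w in 𝓝 z, DifferentiableAt ℂ (fun w => A.e i (γ w)) w)
    {s : A.ι → ℂ → ℂ}
    (hs : ∀ z i, γ z ∈ (A.e i).source → (∀ᶠ w in 𝓝 z, DifferentiableAt ℂ (s i) w) ∧ s i z ≠ 0)
    {f : ℝ → ℝ}
    (hf : ∀ z i, γ z ∈ (A.e i).source → f z.re = Real.log (‖s i z‖ ^ 2 * h.w i (γ z)))
    (hb : ∃ c, ∀ᶠ a in atBot, c ≤ f a) : Antitone f := by
  refine antitone_of_concave ?_ hb
  -- local description on `Cn 1`
  have key : ∀ z : Cn 1, ∃ i, ∃ T : Cn 1 → Cn n, ∃ S : Cn 1 → ℂ, AnalyticAt ℂ T z ∧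
      AnalyticAt ℂ S z ∧ S z ≠ 0 ∧ T z ∈ (A.e i).target ∧
      (fun w : Cn 1 => f (w 0).re) =ᶠ[𝓝 z]
        fun w => Real.log (‖S w‖ ^ 2) - h.wt i (T w) := by
    intro z
    obtain ⟨i, hi⟩ := A.cover (γ (z 0))
    have hp : Continuous fun w : Cn 1 => w 0 := by fun_prop
    have hpd : ∀ w : Cn 1, DifferentiableAt ℂ (fun w : Cn 1 => w 0) w := fun w =>
      (EuclideanSpace.proj (𝕜 := ℂ) (0 : Fin 1)).differentiableAt
    refine ⟨i, fun w => A.e i (γ (w 0)), fun w => s i (w 0), ?_, ?_, (hs _ i hi).2,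
      (A.e i).map_source hi, ?_⟩
    · have h1 : AnalyticAt ℂ (fun w => A.e i (γ w)) (z 0) :=
        Complex.analyticAt_iff_eventually_differentiableAt.2 (hγ _ i hi)
      have h2 : AnalyticAt ℂ (fun w : Cn 1 => w 0) z :=
        (EuclideanSpace.proj (𝕜 := ℂ) (0 : Fin 1) : Cn 1 →L[ℂ] ℂ).analyticAt z
      exact AnalyticAt.comp (g := fun w => A.e i (γ w)) (f := fun w : Cn 1 => w 0) h1 h2
    · apply Levi_145.anal_of_ev
      filter_upwards [hp.continuousAt.eventually (hs _ i hi).1] with w hw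
      exact DifferentiableAt.comp (g := s i) w hw (hpd w)
    · have h1 : ∀ᶠ w : Cn 1 in 𝓝 z, γ (w 0) ∈ (A.e i).source :=
        (hγc.comp hp).continuousAt.eventually ((A.e i).open_source.mem_nhds hi)
      filter_upwards [h1] with w hw
      have h2 := (hs _ i hw).2
      have h3 := h.pos i _ hw
      rw [hf _ i hw, Real.log_mul (by positivity) h3.ne']
      simp only [HM.wt, (A.e i).left_inv hw]
      ring
  have hc2 : ∀ z : Cn 1, ContDiffAt ℝ 2 (fun w : Cn 1 => f (w 0).re) z ∧
      Levi_145.lev (fun w : Cn 1 => f (w 0).re) z (EuclideanSpace.single 0 1) ≤ 0 := by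
    intro z
    obtain ⟨i, T, S, hT, hS, hS0, hTz, he⟩ := key z
    have hu : ContDiffAt ℝ 2 (h.wt i) (T z) :=
      (wt_contDiffAt h i hTz).of_le two_le_infty
    have hTc : ContDiffAt ℝ 2 T z := (hT.contDiffAt.restrict_scalars ℝ)
    have h1 : ContDiffAt ℝ 2 (fun w => Real.log (‖S w‖ ^ 2)) z :=
      Levi_145.c2_log_normSq hS hS0 2
    have h2 : ContDiffAt ℝ 2 (fun w => h.wt i (T w)) z := hu.comp z hTc
    refine ⟨(h1.sub h2).congr_of_eventuallyEq he, ?_⟩
    rw [Levi_145.lev_congr he, Levi_145.lev_sub h1 h2, Levi_145.lev_log_normSq hS hS0,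
      Levi_145.lev_comp hT hu, zero_sub, neg_nonpos]
    have h3 := hh i (T z) hTz (fderiv ℂ T z (EuclideanSpace.single 0 1))
    have h4 : Defs_333.lev (h.wt i) (T z) (fderiv ℂ T z (EuclideanSpace.single 0 1)) =
        4 * Levi_145.lev (h.wt i) (T z) (fderiv ℂ T z (EuclideanSpace.single 0 1)) := by
      unfold Defs_333.lev Levi_145.lev
      rw [iteratedFDeriv_two_apply, iteratedFDeriv_two_apply]
      simp only [Matrix.cons_val_zero, Matrix.cons_val_one]
      ring
    rw [h4] at h3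
    linarith
  exact concave_of_lev (contDiff_iff_contDiffAt.2 fun z => (hc2 z).1) fun z => (hc2 z).2

end

end Crest.Agent.R273.Conc_5
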