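import Crest.Agent.R273.PCovA_835
import Crest.Agent.R273.UCovE_914

/-!
# R273 (S0416), Part E (helper835): 914's coverings `D.cov F` as locally biholomorphic maps
-/

set_option autoImplicit false
set_option linter.unusedSectionVars false

open Set Filter Topology Complex
open scoped ContDiff Matrix ComplexConjugate Manifold

namespace Crest.Agent.R273.CovI_835

open Crest.Agent.R275.Geo Crest.Agent.R275.Core144 Crest.Agent.R275.GC293
open Crest.Agent.R273.Defs_333 Crest.Agent.R273.Map_835 Crest.Agent.R273.PB_835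
open Crest.Agent.R273.Fam_835 Crest.Agent.R273.FS_333 Crest.Agent.R273.UCov_914

noncomputable section

variable {n : ℕ} {M : Type} [TopologicalSpace M] {A : Atl n M} {G : Type} [Group G]
  (D : MonD A G) (F : Type) [MulAction G F]

theorem holMap_pr : HolMap (D.atl F) A (D.pr : D.cov F → M) :=
  ⟨D.continuous_pr, fun i j => (A.holo i.1 j).mono fun _ hz => ⟨hz.1, hz.2⟩⟩

theorem lBih_pr : LBih (D.atl F) A (D.pr : D.cov F → M) := by
  refine ⟨holMap_pr D F, fun i j e he hj => ?_⟩
  have h1 : Jp (D.atl F) A (D.pr : D.cov F → M) i j e = Jm A i.1 j (D.pr e) := rfl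
  rw [h1]
  have hx : D.pr e ∈ (A.e i.1).source := he.1
  have h3 := J_mul (A := A) i.1 j i.1 ⟨⟨hx, hj⟩, hx⟩
  rw [J_self i.1 hx] at h3
  intro h0
  have h4 := congrArg Matrix.det h3
  rw [Matrix.det_mul, h0, mul_zero, Matrix.det_one] at h4
  exact zero_ne_one h4

/-- the charts of `D.cov F` are adapted to the projection -/
def refPr : Ref (D.atl F) A (D.pr : D.cov F → M) := ⟨fun i => i.1, fun _ _ he => he.1⟩

theorem finite_fibre [Finite F] (x : M) : Finite ((D.pr : D.cov F → M) ⁻¹' {x}) := by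
  obtain ⟨i, hi⟩ := A.cover x
  refine Finite.of_injective (fun e : (D.pr : D.cov F → M) ⁻¹' {x} => D.co i e.1) ?_
  intro e e' h
  have h1 : D.pr e.1 = x := e.2
  have h2 : D.pr e'.1 = x := e'.2
  exact Subtype.ext (D.ext_co (i := i) (by rw [h1]; exact hi) (h1.trans h2.symm) h)

/-- the identity of `D.cov F` as a map between refined atlases: equivariant maps are locally
biholomorphic -/
theorem holMap_map {F' : Type} [MulAction G F'] (φ : F →[G] F') :
    HolMap (D.atl F) (D.atl F') (D.map φ) := by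
  refine ⟨D.continuous_map φ, fun i j => ?_⟩
  exact (A.holo i.1 j.1).mono fun z hz => ⟨hz.1, hz.2.1⟩

theorem lBih_map {F' : Type} [MulAction G F'] (φ : F →[G] F') :
    LBih (D.atl F) (D.atl F') (D.map φ) := by
  refine ⟨holMap_map D F φ, fun i j e he hj => ?_⟩
  have h1 : Jp (D.atl F) (D.atl F') (D.map φ) i j e = Jm A i.1 j.1 (D.pr e) := rfl
  rw [h1]
  have hx : D.pr e ∈ (A.e i.1).source := he.1
  have hx' : D.pr e ∈ (A.e j.1).source := hj.1
  have h3 := J_mul (A := A) i.1 j.1 i.1 ⟨⟨hx, hx'⟩, hx⟩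
  rw [J_self i.1 hx] at h3
  intro h0
  have h4 := congrArg Matrix.det h3
  rw [Matrix.det_mul, h0, mul_zero, Matrix.det_one] at h4
  exact zero_ne_one h4

end

end Crest.Agent.R273.CovI_835
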