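import Crest.Agent.R273.PFlow2_522

/-!
# R273 (S0416) (helper522): complements of zero sets are dense and connected

* `preconn_ball`   : `{f ≠ 0}` is preconnected in a convex open set, `f` holomorphic;
* `not_ev`         : identity theorem for families of local holomorphic functions with a common
                     zero set (sections of line bundles);
* `preconn_compl`  : complement of a closed set contained locally in zero sets;
* `compl_sec`      : the case of a family `s` (in particular of a section);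
* `Flo.isConnected_F` : the fixed locus of the retraction is connected.
-/

set_option autoImplicit false
set_option linter.unusedSectionVars false

open Set Filter Topology Complex Function
open scoped ContDiff Matrix ComplexConjugate

namespace Crest.Agent.R273.Cpl_522

open Crest.Agent.R275.Geo Crest.Agent.R275.Core144 Crest.Agent.R273.Defs_333
  Crest.Agent.R273.PFlow_522

noncomputable section

/-! ### one variable -/

theorem countable_zeros {φ : ℂ → ℂ} {Ω : Set ℂ} (hc : IsPreconnected Ω)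
    (hφ : AnalyticOnNhd ℂ φ Ω) {a : ℂ} (ha : a ∈ Ω) (h : φ a ≠ 0) :
    {s | s ∈ Ω ∧ φ s = 0}.Countable := by
  set Z : Set ℂ := {s | s ∈ Ω ∧ φ s = 0} with hZ
  have hiso : ∀ s ∈ Z, ∃ O ∈ 𝓝 s, O ∩ Z ⊆ {s} := by
    rintro s ⟨hs, hs0⟩
    rcases (hφ s hs).eventually_eq_zero_or_eventually_ne_zero with h1 | h1
    · exact absurd (hφ.eqOn_zero_of_preconnected_of_eventuallyEq_zero hc hs h1 ha) h
    · rw [eventually_nhdsWithin_iff] at h1
      refine ⟨{z | z ∈ ({s} : Set ℂ)ᶜ → φ z ≠ 0}, h1, ?_⟩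
      rintro z ⟨hz, _, hz0⟩
      by_contra hne
      exact hz hne hz0
  choose! O hO hOZ using hiso
  obtain ⟨t, htZ, htc, hcov⟩ := TopologicalSpace.countable_cover_nhdsWithin (s := Z) (f := O)
    (fun x hx => mem_nhdsWithin_of_mem_nhds (hO x hx))
  refine htc.mono fun s hs => ?_
  obtain ⟨y, hy, hsy⟩ := mem_iUnion₂.1 (hcov hs)
  have := hOZ y (htZ hy) ⟨hsy, hs⟩
  rw [mem_singleton_iff] at this
  rwa [this]

/-- a broken segment from `0` to `1` avoiding a countable set -/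
theorem exists_avoid {Z : Set ℂ} (hZ : Z.Countable) (h0 : (0 : ℂ) ∉ Z) (h1 : (1 : ℂ) ∉ Z)
    {Ω : Set ℂ} (hΩ : IsOpen Ω) (hc : Convex ℝ Ω) (h0Ω : (0 : ℂ) ∈ Ω) (h1Ω : (1 : ℂ) ∈ Ω) :
    ∃ c ∈ Ω, Disjoint (segment ℝ 0 c ∪ segment ℝ c 1) Z := by
  have hhalf : (1 / 2 : ℂ) ∈ Ω := by
    have := hc h0Ω h1Ω (by norm_num : (0 : ℝ) ≤ 1 / 2) (by norm_num : (0 : ℝ) ≤ 1 / 2) (by norm_num)
    simpa using this
  obtain ⟨ε, hε, hball⟩ := Metric.isOpen_iff.1 hΩ _ hhalf
  set bad : Set ℝ := (fun s : ℂ => s.im / (2 * s.re)) '' Z ∪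
    (fun s : ℂ => s.im / (2 * (1 - s.re))) '' Z with hbad
  have hbadc : bad.Countable := (hZ.image _).union (hZ.image _)
  obtain ⟨θ, hθ, hθb⟩ : ∃ θ ∈ Ioo (0 : ℝ) ε, θ ∉ bad := by
    obtain ⟨θ, hθ1, hθ2⟩ := (hbadc.dense_compl ℝ).inter_open_nonempty (Ioo 0 ε) isOpen_Ioo
      (nonempty_Ioo.2 hε)
    exact ⟨θ, hθ1, hθ2⟩
  set c : ℂ := ⟨1 / 2, θ⟩ with hcdef
  refine ⟨c, hball ?_, ?_⟩
  · rw [Metric.mem_ball, dist_eq_norm]
    have : c - 1 / 2 = θ * I := by
      apply Complex.ext <;> simp [hcdef]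
    rw [this, norm_mul, Complex.norm_I, mul_one, Complex.norm_real, Real.norm_eq_abs,
      abs_of_pos hθ.1]
    exact hθ.2
  · rw [Set.disjoint_left]
    rintro s (hs | hs) hsZ
    · rw [segment_eq_image] at hs
      obtain ⟨t, ht, rfl⟩ := hs
      apply hθb
      left
      refine ⟨_, hsZ, ?_⟩
      have ht0 : t ≠ 0 := by
        rintro rfl
        apply h0
        simpa using hsZ
      simp [hcdef]
      field_simp
    · rw [segment_eq_image] at hs
      obtain ⟨t, ht, rfl⟩ := hs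
      apply hθb
      right
      refine ⟨_, hsZ, ?_⟩
      have ht0 : 1 - t ≠ 0 := by
        intro h
        apply h1
        have : t = 1 := by linarith
        subst this
        simpa using hsZ
      simp [hcdef]
      field_simp
      rw [show (2 : ℝ) - (1 - t + t * 2) = 1 - t by ring]
      field_simp

/-! ### several variables -/

section several

variable {V : Type*} [NormedAddCommGroup V] [NormedSpace ℂ V]

/-- the complement of a zero set in a convex open set is preconnected -/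
theorem preconn_ball {f : V → ℂ} {B : Set V} (hB : IsOpen B) (hBc : Convex ℝ B)
    (hf : AnalyticOnNhd ℂ f B) : IsPreconnected {z | z ∈ B ∧ f z ≠ 0} := by
  refine isPreconnected_of_forall_pair ?_
  rintro a ⟨ha, hfa⟩ b ⟨hb, hfb⟩
  set γ : ℂ → V := fun s => a + s • (b - a) with hγ
  have hγd : AnalyticOnNhd ℂ γ univ := by
    intro s _
    exact analyticAt_const.add (analyticAt_id.smul analyticAt_const)
  have hγc : Continuous γ := by
    rw [hγ]; fun_prop
  set Ω : Set ℂ := γ ⁻¹' B with hΩ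
  have hΩo : IsOpen Ω := hB.preimage hγc
  have hΩc : Convex ℝ Ω := by
    intro s hs t ht p q hp hq hpq
    have h1 := hBc hs ht hp hq hpq
    show γ (p • s + q • t) ∈ B
    have h2 : γ (p • s + q • t) = p • γ s + q • γ t := by
      simp only [hγ, smul_add, add_smul]
      have h3 : p • a + q • a = a := by rw [← add_smul, hpq, one_smul]
      rw [show p • a + p • s • (b - a) + (q • a + q • t • (b - a)) =
        (p • a + q • a) + (p • s • (b - a) + q • t • (b - a)) by abel, h3]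
      simp only [smul_assoc]
    rw [h2]
    exact h1
  have h0 : (0 : ℂ) ∈ Ω := by
    show γ 0 ∈ B
    simpa [hγ] using ha
  have h1 : (1 : ℂ) ∈ Ω := by
    show γ 1 ∈ B
    simpa [hγ] using hb
  have hφ : AnalyticOnNhd ℂ (fun s => f (γ s)) Ω := fun s hs =>
    AnalyticAt.comp (hf _ hs) (hγd s (mem_univ s))
  have hφ0 : (fun s => f (γ s)) 0 ≠ 0 := by simpa [hγ] using hfa
  have hφ1 : (fun s => f (γ s)) 1 ≠ 0 := by simpa [hγ] using hfb
  have hcount := countable_zeros hΩc.isPreconnected hφ h0 hφ0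
  obtain ⟨c, hc, hdis⟩ := exists_avoid hcount (fun h => hφ0 h.2) (fun h => hφ1 h.2) hΩo hΩc h0 h1
  refine ⟨γ '' (segment ℝ 0 c ∪ segment ℝ c 1), ?_, ?_, ?_, ?_⟩
  · rintro _ ⟨s, hs, rfl⟩
    have hsΩ : s ∈ Ω := by
      rcases hs with hs | hs
      · exact hΩc.segment_subset h0 hc hs
      · exact hΩc.segment_subset hc h1 hs
    exact ⟨hsΩ, fun h => (Set.disjoint_left.1 hdis) hs ⟨hsΩ, h⟩⟩
  · exact ⟨0, Or.inl (left_mem_segment ℝ 0 c), by simp [hγ]⟩
  · exact ⟨1, Or.inr (right_mem_segment ℝ c 1), by simp [hγ]⟩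
  · refine IsPreconnected.image ?_ _ hγc.continuousOn
    exact IsPreconnected.union c (right_mem_segment ℝ 0 c) (left_mem_segment ℝ c 1)
      (convex_segment 0 c).isPreconnected (convex_segment c 1).isPreconnected

/-- the complement of a zero set is dense -/
theorem dense_ball {f : V → ℂ} {B : Set V} (hB : IsOpen B) (hBc : Convex ℝ B)
    (hf : AnalyticOnNhd ℂ f B) {z0 : V} (hz0 : z0 ∈ B) (hne : ¬ ∀ᶠ z in 𝓝 z0, f z = 0) :
    B ⊆ closure {z | z ∈ B ∧ f z ≠ 0} := by
  intro z hz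
  by_contra hcl
  rw [mem_closure_iff_frequently, not_frequently] at hcl
  have h1 : ∀ᶠ w in 𝓝 z, f w = 0 := by
    filter_upwards [hcl, hB.mem_nhds hz] with w hw hwB
    by_contra h
    exact hw ⟨hwB, h⟩
  have h2 := hf.eqOn_zero_of_preconnected_of_eventuallyEq_zero hBc.isPreconnected hz h1
  exact hne (by filter_upwards [hB.mem_nhds hz0] with w hw using h2 hw)

end several

/-! ### topology -/

/-- connectedness of a dense complement is a local property -/
theorem preconn_of_local {X : Type*} [TopologicalSpace X] [PreconnectedSpace X] {Z : Set X}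
    (hd : Dense Zᶜ) (h : ∀ x, ∃ O ∈ 𝓝 x, IsPreconnected (O \ Z)) : IsPreconnected Zᶜ := by
  classical
  intro P Q hP hQ hcov hPne hQne
  by_contra hemp
  rw [not_nonempty_iff_eq_empty] at hemp
  set P' : Set X := {x | ∀ᶠ y in 𝓝 x, y ∉ Z → y ∈ P} with hP'
  set Q' : Set X := {x | ∀ᶠ y in 𝓝 x, y ∉ Z → y ∈ Q} with hQ'
  have hP'o : IsOpen P' := isOpen_setOfPred_eventually_nhds
  have hQ'o : IsOpen Q' := isOpen_setOfPred_eventually_nhds
  have hcov' : (univ : Set X) ⊆ P' ∪ Q' := by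
    intro x _
    obtain ⟨O, hO, hpre⟩ := h x
    have hsub : O \ Z ⊆ P ∪ Q := fun y hy => hcov hy.2
    have hsel : O \ Z ⊆ P ∨ O \ Z ⊆ Q := by
      by_contra hcon
      rw [not_or, not_subset, not_subset] at hcon
      obtain ⟨⟨y, hy, hyP⟩, z, hz, hzQ⟩ := hcon
      have hyQ : y ∈ Q := (hsub hy).resolve_left hyP
      have hzP : z ∈ P := (hsub hz).resolve_right hzQ
      obtain ⟨w, hw, hwPQ⟩ := hpre P Q hP hQ hsub ⟨z, hz, hzP⟩ ⟨y, hy, hyQ⟩
      have : w ∈ Zᶜ ∩ (P ∩ Q) := ⟨hw.2, hwPQ⟩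
      rw [hemp] at this
      exact this
    rcases hsel with h | h
    · left
      show ∀ᶠ y in 𝓝 x, y ∉ Z → y ∈ P
      filter_upwards [hO] with y hy hyT
      exact h ⟨hy, hyT⟩
    · right
      show ∀ᶠ y in 𝓝 x, y ∉ Z → y ∈ Q
      filter_upwards [hO] with y hy hyT
      exact h ⟨hy, hyT⟩
  obtain ⟨x, -, hxP', hxQ'⟩ := isPreconnected_univ P' Q' hP'o hQ'o hcov'
    (by
      obtain ⟨x, hx, hxP⟩ := hPne
      refine ⟨x, mem_univ x, ?_⟩
      show ∀ᶠ y in 𝓝 x, y ∉ Z → y ∈ P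
      filter_upwards [hP.mem_nhds hxP] with y hy _
      exact hy)
    (by
      obtain ⟨x, hx, hxQ⟩ := hQne
      refine ⟨x, mem_univ x, ?_⟩
      show ∀ᶠ y in 𝓝 x, y ∉ Z → y ∈ Q
      filter_upwards [hQ.mem_nhds hxQ] with y hy _
      exact hy)
  have h1 : ∀ᶠ y in 𝓝 x, (y ∉ Z → y ∈ P) ∧ (y ∉ Z → y ∈ Q) := by
    have h2 : ∀ᶠ y in 𝓝 x, y ∉ Z → y ∈ P := hxP'
    have h3 : ∀ᶠ y in 𝓝 x, y ∉ Z → y ∈ Q := hxQ'
    exact h2.and h3
  obtain ⟨O, hO, hOo, hxO⟩ := _root_.eventually_nhds_iff.1 h1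
  obtain ⟨y, hyO, hyT⟩ := hd.inter_open_nonempty O hOo ⟨x, hxO⟩
  obtain ⟨h3, h4⟩ := hO y hyO
  have : y ∈ Zᶜ ∩ (P ∩ Q) := ⟨hyT, h3 hyT, h4 hyT⟩
  rw [hemp] at this
  exact this

/-! ### manifolds -/

section mfd

variable {n : ℕ} {M : Type} [TopologicalSpace M] {A : Atl n M}

/-- **complement of a closed set locally contained in zero sets** -/
theorem preconn_compl [PreconnectedSpace M] {Z : Set M} (h : ∀ x, ∃ i, x ∈ (A.e i).source ∧
    ∃ f : Cn n → ℂ, AnalyticAt ℂ f (A.e i x) ∧ (¬ ∀ᶠ z in 𝓝 (A.e i x), f z = 0) ∧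
      ∀ᶠ z in 𝓝 (A.e i x), (A.e i).symm z ∈ Z → f z = 0) :
    IsPreconnected Zᶜ ∧ Dense Zᶜ := by
  have hloc : ∀ x, ∃ O ∈ 𝓝 x, IsPreconnected (O \ Z) ∧ O ⊆ closure (O \ Z) := by
    intro x
    obtain ⟨i, hi, f, hf, hne, hZ⟩ := h x
    obtain ⟨r, hr, hball⟩ := Metric.eventually_nhds_iff_ball.1
      ((hf.eventually_analyticAt.and hZ).and
        ((A.e i).open_target.mem_nhds ((A.e i).map_source hi)))
    set B : Set (Cn n) := Metric.ball (A.e i x) r with hB
    have hBt : B ⊆ (A.e i).target := fun z hz => (hball z hz).2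
    have hfB : AnalyticOnNhd ℂ f B := fun z hz => (hball z hz).1.1
    have hZB : ∀ z ∈ B, (A.e i).symm z ∈ Z → f z = 0 := fun z hz => (hball z hz).1.2
    have hpre := preconn_ball Metric.isOpen_ball (convex_ball _ r) hfB
    have hden := dense_ball Metric.isOpen_ball (convex_ball _ r) hfB (Metric.mem_ball_self hr) hne
    set O : Set M := (A.e i).symm '' B with hO
    have hOo : IsOpen O := (A.e i).symm.isOpen_image_of_subset_source Metric.isOpen_ball hBt
    have hxO : x ∈ O := ⟨A.e i x, Metric.mem_ball_self hr, (A.e i).left_inv hi⟩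
    have hsub1 : (A.e i).symm '' {z | z ∈ B ∧ f z ≠ 0} ⊆ O \ Z := by
      rintro _ ⟨z, ⟨hz, hfz⟩, rfl⟩
      exact ⟨⟨z, hz, rfl⟩, fun hzZ => hfz (hZB z hz hzZ)⟩
    have hsub2 : O ⊆ closure ((A.e i).symm '' {z | z ∈ B ∧ f z ≠ 0}) := by
      rintro _ ⟨z, hz, rfl⟩
      have h1 := hden hz
      exact ((A.e i).continuousAt_symm (hBt hz)).continuousWithinAt.mem_closure_image h1
    refine ⟨O, hOo.mem_nhds hxO, ?_, hsub2.trans (closure_mono hsub1)⟩
    refine IsPreconnected.subset_closure (s := (A.e i).symm '' {z | z ∈ B ∧ f z ≠ 0}) ?_ hsub1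
      (sdiff_subset.trans hsub2)
    refine hpre.image _ ((A.e i).continuousOn_symm.mono ?_)
    rintro z ⟨hz, _⟩
    exact hBt hz
  have hd : Dense Zᶜ := by
    intro x
    obtain ⟨O, hO, _, hcl⟩ := hloc x
    exact closure_mono (fun y hy => hy.2) (hcl (mem_of_mem_nhds hO))
  exact ⟨preconn_of_local hd fun x => ⟨_, (hloc x).choose_spec.1, (hloc x).choose_spec.2.1⟩, hd⟩

/-- families of local functions with a common zero set (e.g. sections) -/
theorem not_ev [PreconnectedSpace M] {s : A.ι → M → ℂ} (hs : ∀ i, HolAt A i univ (s i))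
    (tr : ∀ i j, ∀ x ∈ (A.e i).source ∩ (A.e j).source, s i x = 0 → s j x = 0)
    {i0 : A.ι} {x0 : M} (hx0 : x0 ∈ (A.e i0).source) (hne : s i0 x0 ≠ 0)
    {i : A.ι} {x : M} (hx : x ∈ (A.e i).source) :
    ¬ ∀ᶠ z in 𝓝 (A.e i x), s i ((A.e i).symm z) = 0 := by
  set T : Set M := {x | ∀ᶠ y in 𝓝 x, ∀ i, y ∈ (A.e i).source → s i y = 0} with hT
  have hTo : IsOpen T := isOpen_setOfPred_eventually_nhds
  have hA : ∀ i, AnalyticOnNhd ℂ (fun z => s i ((A.e i).symm z)) (A.e i).target := by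
    intro i
    have := hs i
    rw [HolAt, preimage_univ, inter_univ] at this
    exact Crest.Agent.R266.SCV.analyticOnNhd_of_differentiableOn (A.e i).open_target this
  have hiff : ∀ {i x}, x ∈ (A.e i).source →
      ((∀ᶠ z in 𝓝 (A.e i x), s i ((A.e i).symm z) = 0) → x ∈ T) := by
    intro i x hx h
    show ∀ᶠ y in 𝓝 x, ∀ i, y ∈ (A.e i).source → s i y = 0
    have h1 := ((A.e i).continuousAt hx).eventually h
    filter_upwards [h1, (A.e i).open_source.mem_nhds hx] with y hy hys j hj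
    rw [(A.e i).left_inv hys] at hy
    exact tr i j y ⟨hys, hj⟩ hy
  have hTc : IsClosed T := by
    rw [← closure_subset_iff_isClosed]
    intro x hx
    obtain ⟨i, hi⟩ := A.cover x
    refine hiff hi ?_
    obtain ⟨r, hr, hball⟩ := Metric.isOpen_iff.1 (A.e i).open_target _ ((A.e i).map_source hi)
    set B : Set (Cn n) := Metric.ball (A.e i x) r with hB
    have hO : (A.e i).source ∩ A.e i ⁻¹' B ∈ 𝓝 x :=
      ((A.e i).isOpen_inter_preimage Metric.isOpen_ball).mem_nhds
        ⟨hi, Metric.mem_ball_self hr⟩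
    obtain ⟨y, ⟨hys, hyB⟩, hyT⟩ := mem_closure_iff_nhds.1 hx _ hO
    have h1 : ∀ᶠ z in 𝓝 (A.e i y), s i ((A.e i).symm z) = 0 := by
      have h2 := ((A.e i).continuousAt_symm ((A.e i).map_source hys))
      have h3 : ∀ᶠ y' in 𝓝 ((A.e i).symm (A.e i y)), ∀ i, y' ∈ (A.e i).source → s i y' = 0 := by
        rw [(A.e i).left_inv hys]
        exact hyT
      filter_upwards [h2.eventually h3, (A.e i).open_target.mem_nhds ((A.e i).map_source hys)]
        with z hz hzt
      exact hz i ((A.e i).map_target hzt)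
    have h4 := ((hA i).mono hball).eqOn_zero_of_preconnected_of_eventuallyEq_zero
      (convex_ball _ r).isPreconnected hyB h1
    filter_upwards [Metric.ball_mem_nhds _ hr] with z hz
    exact h4 hz
  intro hev
  have hTu : T = univ := IsClopen.eq_univ ⟨hTc, hTo⟩ ⟨x, hiff hx hev⟩
  have h1 : x0 ∈ T := hTu ▸ mem_univ x0
  have h2 : ∀ᶠ y in 𝓝 x0, ∀ i, y ∈ (A.e i).source → s i y = 0 := h1
  exact hne (h2.self_of_nhds i0 hx0)

/-- **the complement of the zero set of a section is connected and dense**; more generally of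
any set contained in the zero set -/
theorem compl_sec [PreconnectedSpace M] {s : A.ι → M → ℂ} (hs : ∀ i, HolAt A i univ (s i))
    (tr : ∀ i j, ∀ x ∈ (A.e i).source ∩ (A.e j).source, s i x = 0 → s j x = 0)
    {i0 : A.ι} {x0 : M} (hx0 : x0 ∈ (A.e i0).source) (hne : s i0 x0 ≠ 0)
    {Z : Set M} (hZ : ∀ i, ∀ x ∈ (A.e i).source, x ∈ Z → s i x = 0) :
    IsPreconnected Zᶜ ∧ Dense Zᶜ := by
  refine preconn_compl (A := A) fun x => ?_
  obtain ⟨i, hi⟩ := A.cover x
  refine ⟨i, hi, fun z => s i ((A.e i).symm z), ?_, not_ev hs tr hx0 hne hi, ?_⟩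
  · have := hs i
    rw [HolAt, preimage_univ, inter_univ] at this
    exact Crest.Agent.R266.SCV.analyticOnNhd_of_differentiableOn (A.e i).open_target this _
      ((A.e i).map_source hi)
  · filter_upwards [(A.e i).open_target.mem_nhds ((A.e i).map_source hi)] with z hz hzZ
    exact hZ i _ ((A.e i).map_target hz) hzZ

end mfd

/-! ### the domain and the fixed locus of the retraction are connected -/

section flo

variable {n : ℕ} {M : Type} [TopologicalSpace M] {A : Atl n M} {P : ProjD A}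
  {x : Fin (P.N + 1) → ℝ} {m : ℝ}

theorem coord_tr (P : ProjD A) (k : Fin (P.N + 1)) (i j : A.ι) (y : M)
    (hy : y ∈ (A.e i).source ∩ (A.e j).source) (h : P.F i y k = 0) : P.F j y k = 0 := by
  obtain ⟨c, hc⟩ := P.tr j i y ⟨hy.2, hy.1⟩
  rw [hc, Pi.smul_apply, h, smul_zero]

theorem _root_.Crest.Agent.R273.PFlow_522.Flo.compl_U [PreconnectedSpace M] (D : Flo P x)
    {k : Fin (P.N + 1)} (hk : x k = m) {i0 : A.ι} {x0 : M} (hx0 : x0 ∈ (A.e i0).source)
    (hne : P.F i0 x0 k ≠ 0) : IsPreconnected (D.U m) ∧ Dense (D.U m) := by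
  have h1 := compl_sec (A := A) (s := fun i y => P.F i y k) (fun i => P.hol i k)
    (fun i j y hy h => coord_tr P k i j y hy h) hx0 hne (Z := (D.U m)ᶜ) (by
      intro i y hy hyZ
      by_contra h
      refine hyZ ⟨i, hy, fun h0 => h ?_⟩
      have := congrFun h0 k
      simpa [pr, hk] using this)
  rwa [compl_compl] at h1

/-- **the fixed locus of the retraction is connected** -/
theorem _root_.Crest.Agent.R273.PFlow_522.Flo.isConnected_F [CompactSpace M] [PreconnectedSpace M]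
    (D : Flo P x) (hm : ∀ k, m ≤ x k)
    {k : Fin (P.N + 1)} (hk : x k = m) {i0 : A.ι} {x0 : M} (hx0 : x0 ∈ (A.e i0).source)
    (hne : P.F i0 x0 k ≠ 0) : IsConnected (D.ret hm).F := by
  rw [Crest.Agent.R273.Ret_155.HRet.F_eq]
  have hxU : x0 ∈ D.U m := ⟨i0, hx0, fun h0 => hne (by
    have := congrFun h0 k
    simpa [pr, hk] using this)⟩
  exact ⟨⟨_, x0, hxU, rfl⟩, (D.compl_U hk hx0 hne).1.image _ (D.ret hm).cont⟩

end flo

end

end Crest.Agent.R273.Cpl_522
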