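import Crest.Agent.R273.DVec_733
import Crest.Agent.R273.LamN_127
import Crest.Agent.R273.StokesV_332
import Crest.Agent.R275.IndLink_509

/-!
# R273 (S0416), Part D, leaf D.6 (helper733), part 2: dictionary multivectors / forms

`N : LB A`, `K : Kah A`, `h : HM ((KB A)⁻¹ * N)`.

* `low K N : MV N ≃ₗ[ℂ] Sec (BN N)`       : lowering, `u = Gam ((K.g)ᵀ) v`;
* `cj h : MV N → Sec (BN (KB A * N⁻¹))`  : `S⁻¹ (w conj v)`; conjugate linear, bijective (`cj_surj`);
* `pr_low_cj`                               : `pr (DN N) P (low v) (cj w) = ∫ w conj(w) · G v`;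
* `nab_low`                                 : `∇ (low v) = ∑ e_c ∂̄_c (G v)`;
* `dlt h : MV N → MV N`, `nab_cj`          : `∇ (cj w) = - cj (dlt w)`.
-/

set_option autoImplicit false
set_option linter.unusedSectionVars false

open Set Filter Topology Complex
open scoped ContDiff Matrix ComplexConjugate ComplexOrder Kronecker

namespace Crest.Agent.R273.DMet_733

open Crest.Agent.R275 Crest.Agent.R275.Geo Crest.Agent.R275.Core144
open Crest.Agent.R273.Defs_333 Crest.Agent.R273.Kah_333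
open Crest.Agent.R273.Fock_243 Crest.Agent.R273.Calc_243 Crest.Agent.R273.Bkn_243
open Crest.Agent.R273.DVec_733 Crest.Agent.R273.LamN127 Crest.Agent.R273.Berezin_505

noncomputable section

variable {n : ℕ} {M : Type} [TopologicalSpace M] {A : Atl n M}

/-! ### the unit factor -/

/-- `FI n → ℂ` into the fibre of `BN N` -/
def iB (N : LB A) (v : FI n → ℂ) : (BN N).κ → ℂ := fun p => v (Prod.fst p)

/-- back -/
def oB {N : LB A} (v : (BN N).κ → ℂ) : FI n → ℂ := fun T => v (T, ())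

variable (N : LB A)

@[simp] theorem oB_iB (v : FI n → ℂ) : oB (iB N v) = v := rfl
@[simp] theorem iB_oB (v : (BN N).κ → ℂ) : iB N (oB v) = v := by
  funext p
  rfl

theorem iB_zero : iB N (0 : FI n → ℂ) = 0 := rfl
theorem oB_zero : oB (0 : (BN N).κ → ℂ) = 0 := rfl
theorem iB_add (v w : FI n → ℂ) : iB N (v + w) = iB N v + iB N w := rfl
theorem oB_add (v w : (BN N).κ → ℂ) : oB (v + w) = oB v + oB w := rfl
theorem iB_smul (c : ℂ) (v : FI n → ℂ) : iB N (c • v) = c • iB N v := rfl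
theorem oB_smul (c : ℂ) (v : (BN N).κ → ℂ) : oB (c • v) = c • oB v := rfl

theorem iB_inj {v w : FI n → ℂ} (h : iB N v = iB N w) : v = w := by
  have := congrArg oB h
  simpa using this

/-- Kronecker matrices on the fibre -/
def kB (N N' : LB A) (X : Matrix (FI n) (FI n) ℂ) (c : ℂ) : Matrix (BN N).κ (BN N').κ ℂ :=
  X ⊗ₖ (Matrix.of fun _ _ => c : Matrix Unit Unit ℂ)

theorem kB_iB (N N' : LB A) (X : Matrix (FI n) (FI n) ℂ) (c : ℂ) (v : FI n → ℂ) :
    kB N N' X c *ᵥ iB N' v = iB N (c • (X *ᵥ v)) := by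
  funext p
  show ∑ p' : FI n × Unit, X (Prod.fst p) p'.1 * c * v p'.1 = c * ∑ S, X (Prod.fst p) S * v S
  rw [Fintype.sum_prod_type, Finset.mul_sum]
  refine Finset.sum_congr rfl fun S _ => ?_
  rw [Fintype.sum_unique]
  ring

theorem dot_iB (v w : FI n → ℂ) : iB N v ⬝ᵥ iB N w = v ⬝ᵥ w := by
  show ∑ p : FI n × Unit, v p.1 * w p.1 = ∑ S, v S * w S
  rw [Fintype.sum_prod_type]
  refine Finset.sum_congr rfl fun S _ => ?_
  rw [Fintype.sum_unique]

/-- transition of sections of `BN N` -/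
theorem BN_τ (i j : A.ι) (x : M) : (BN N).τ i j x = kB N N (Tf A i j x) (N.g i j x) := rfl

variable {N}

theorem sec_tr {u : A.ι → M → (BN N).κ → ℂ} (hu : u ∈ Sec (BN N)) {i j : A.ι} {x : M}
    (hx : x ∈ (A.e i).source ∩ (A.e j).source) :
    oB (u i x) = N.g i j x • (Tf A i j x *ᵥ oB (u j x)) := by
  rw [hu.2.2 i j x hx, BN_τ]
  conv_lhs => rw [← iB_oB N (u j x)]
  rw [kB_iB, oB_iB]

/-! ### lowering -/

section low

variable (K : Kah A) (N : LB A)

theorem low_mem {v : A.ι → M → FI n → ℂ} (hv : v ∈ MV N) :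
    (fun i x => iB N (GK K i x *ᵥ v i x) : A.ι → M → (BN N).κ → ℂ) ∈ Sec (BN N) := by
  refine ⟨fun i k => ?_, fun i x hx => ?_, fun i j x hx => ?_⟩
  · exact smAt_mulVec (m := GK K i) (fun a b => GK_smooth K i a b) (hv.1 i) k.1
  · show iB N (GK K i x *ᵥ v i x) = 0
    rw [hv.2.1 i x hx, Matrix.mulVec_zero, iB_zero]
  · have h1 : (BN N).τ i j x *ᵥ iB N (GK K j x *ᵥ v j x) = iB N (GK K i x *ᵥ v i x) := by
      rw [BN_τ, kB_iB, hv.2.2 i j x hx]
      unfold Tv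
      rw [Matrix.smul_mulVec, Matrix.mulVec_smul, Matrix.mulVec_mulVec, Matrix.mulVec_mulVec,
        GK_tr K hx]
    exact h1.symm

theorem high_mem {u : A.ι → M → (BN N).κ → ℂ} (hu : u ∈ Sec (BN N)) :
    (fun i x => GI K i x *ᵥ oB (u i x) : A.ι → M → FI n → ℂ) ∈ MV N := by
  refine ⟨fun i T => ?_, fun i x hx => ?_, fun i j x hx => ?_⟩
  · exact smAt_mulVec (m := GI K i) (fun a b => GI_smooth K i a b) (fun b => hu.1 i (b, ())) T
  · show GI K i x *ᵥ oB (u i x) = 0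
    rw [hu.2.1 i x hx, oB_zero, Matrix.mulVec_zero]
  · show GI K i x *ᵥ oB (u i x) = Tv N i j x *ᵥ (GI K j x *ᵥ oB (u j x))
    rw [sec_tr hu hx, Matrix.mulVec_smul, Matrix.mulVec_mulVec, GI_tr K hx]
    unfold Tv
    rw [Matrix.smul_mulVec, Matrix.mulVec_mulVec]

/-- **lowering** of multivectors -/
def low : MV N ≃ₗ[ℂ] Sec (BN N) where
  toFun v := ⟨fun i x => iB N (GK K i x *ᵥ v.1 i x), low_mem K N v.2⟩
  invFun u := ⟨fun i x => GI K i x *ᵥ oB (u.1 i x), high_mem K N u.2⟩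
  map_add' v w := by
    apply Subtype.ext
    funext i x
    show iB N (GK K i x *ᵥ (v.1 i x + w.1 i x)) = iB N (GK K i x *ᵥ v.1 i x) + iB N (GK K i x *ᵥ w.1 i x)
    rw [Matrix.mulVec_add]
    rfl
  map_smul' c v := by
    apply Subtype.ext
    funext i x
    show iB N (GK K i x *ᵥ (c • v.1 i x)) = c • iB N (GK K i x *ᵥ v.1 i x)
    rw [Matrix.mulVec_smul]
    rfl
  left_inv v := by
    refine MV.ext fun i x hx => ?_
    show GI K i x *ᵥ oB (iB N (GK K i x *ᵥ v.1 i x)) = v.1 i x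
    rw [oB_iB, Matrix.mulVec_mulVec, GI_GK K hx, Matrix.one_mulVec]
  right_inv u := by
    apply Subtype.ext
    funext i x
    show iB N (GK K i x *ᵥ (GI K i x *ᵥ oB (u.1 i x))) = u.1 i x
    by_cases hx : x ∈ (A.e i).source
    · rw [Matrix.mulVec_mulVec, GK_GI K hx, Matrix.one_mulVec, iB_oB]
    · rw [u.2.2.1 i x hx, oB_zero, Matrix.mulVec_zero, Matrix.mulVec_zero]
      rfl

theorem low_apply (v : MV N) (i : A.ι) (x : M) :
    (low K N v).1 i x = iB N (GK K i x *ᵥ v.1 i x) := rfl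

theorem low_symm_apply (u : Sec (BN N)) (i : A.ι) (x : M) :
    ((low K N).symm u).1 i x = GI K i x *ᵥ oB (u.1 i x) := rfl

/-- lowering preserves the degree -/
theorem low_pq (q : ℕ) (v : MV N) : low K N (pqM N q v) = Geo.pqL (BN N) q (low K N v) := by
  apply Subtype.ext
  funext i x ⟨T, ⟨⟩⟩
  have h1 : (Geo.pqL (BN N) q (low K N v)).1 i x (T, ()) =
      if T.card = q then (low K N v).1 i x (T, ()) else 0 := IndLink509.pqL_apply (BN N) q (low K N v) i x (T, ())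
  rw [h1]
  show ∑ S, GK K i x T S * (if S.card = q then v.1 i x S else (0 : ℂ)) =
    if T.card = q then ∑ S, GK K i x T S * v.1 i x S else 0
  split_ifs with h
  · refine Finset.sum_congr rfl fun S _ => ?_
    by_cases h' : S.card = q
    · rw [if_pos h']
    · rw [if_neg h']
      have : GK K i x T S = 0 := by
        by_contra h0
        exact h' (by rw [← GK_deg K h0, h])
      rw [this, zero_mul, zero_mul]
  · refine Finset.sum_eq_zero fun S _ => ?_
    by_cases h' : S.card = q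
    · have : GK K i x T S = 0 := by
        by_contra h0
        exact h (by rw [GK_deg K h0, h'])
      rw [this, zero_mul]
    · rw [if_neg h', mul_zero]

end low

/-! ### the conjugate map -/

section cj

variable {N : LB A} (h : HM ((KB A)⁻¹ * N))

theorem w_ne (i : A.ι) {x : M} (hx : x ∈ (A.e i).source) : (h.w i x : ℂ) ≠ 0 :=
  ofReal_ne_zero.2 (h.pos i x hx).ne'

/-- the transition law of the weight -/
theorem w_tr {i j : A.ι} {x : M} (hx : x ∈ (A.e i).source ∩ (A.e j).source) :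
    (h.w i x : ℂ) * (N.g i j x * conj (N.g i j x)) =
      (h.w j x : ℂ) * ((KB A).g i j x * conj ((KB A).g i j x)) := by
  have h1 := h.tr i j x hx
  rw [LB.mul_g, LB.inv_g, norm_mul, norm_inv] at h1
  have h2 : ‖(KB A).g i j x‖ ≠ 0 := norm_ne_zero_iff.2 ((KB A).ne_zero i j x)
  have h3 : h.w j x * ‖(KB A).g i j x‖ ^ 2 = ‖N.g i j x‖ ^ 2 * h.w i x := by
    rw [h1]
    field_simp
  rw [Complex.mul_conj, Complex.mul_conj, Complex.normSq_eq_norm_sq, Complex.normSq_eq_norm_sq]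
  rw [← ofReal_mul, ← ofReal_mul, h3]
  ring_nf

theorem star_Gam (m : Matrix (Fin n) (Fin n) ℂ) (v : FI n → ℂ) :
    star (Gam m *ᵥ v) = Gam (m.map (starRingEnd ℂ)) *ᵥ star v := by
  rw [star_mulVec', Gam_map]

theorem star_smul' (c : ℂ) (v : FI n → ℂ) : star (c • v) = conj c • star v := by
  funext T
  simp

theorem Tf_Sbi {i j : A.ι} {x : M} (hx : x ∈ (A.e i).source ∩ (A.e j).source) (v : FI n → ℂ) :
    Tf A i j x *ᵥ (Sbi ℂ n *ᵥ v) =
      conj ((KB A).g i j x) • (Sbi ℂ n *ᵥ (Gam ((Jm A j i x).map (starRingEnd ℂ)) *ᵥ v)) := by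
  have h1 := Gam_Sb (((Jm A i j x).map (starRingEnd ℂ))ᵀ)
  have h2 : Gam ((Jm A j i x).map (starRingEnd ℂ)) *
      (Gam (((Jm A i j x).map (starRingEnd ℂ))ᵀ))ᵀ = 1 := by
    rw [Gam_transpose, Matrix.transpose_transpose, ← Gam_mul, ← Matrix.map_mul,
      Jm_mul_symm hx.symm, Matrix.map_one _ (map_zero _) (map_one _), Gam_one]
  have h3 := mul_Sbi_of_inv h1 h2
  have h4 : (((Jm A i j x).map (starRingEnd ℂ))ᵀ).det = conj ((KB A).g i j x) := by
    rw [Matrix.det_transpose, KB_g hx]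
    exact (RingHom.map_det (starRingEnd ℂ) (Jm A i j x)).symm
  rw [h4] at h3
  rw [Matrix.mulVec_mulVec]
  show (Gam (((Jm A i j x).map (starRingEnd ℂ))ᵀ) * Sbi ℂ n) *ᵥ v = _
  rw [h3, Matrix.smul_mulVec, Matrix.mulVec_mulVec]

theorem cj_mem {v : A.ι → M → FI n → ℂ} (hv : v ∈ MV N) :
    (fun i x => iB (KB A * N⁻¹) (Sbi ℂ n *ᵥ ((h.w i x : ℂ) • star (v i x))) :
      A.ι → M → (BN (KB A * N⁻¹)).κ → ℂ) ∈ Sec (BN (KB A * N⁻¹)) := by
  refine ⟨fun i k => ?_, fun i x hx => ?_, fun i j x hx => ?_⟩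
  · refine smAt_mulVec (m := fun _ => Sbi ℂ n) (fun a b => contDiffOn_const) (fun T => ?_)
      (Prod.fst k)
    have h1 : A.SmAt i (fun x => (h.w i x : ℂ)) := smAt_ofReal (h.sm i)
    have h2 : A.SmAt i (fun x => conj (v i x T)) := smAt_conj (hv.1 i T)
    exact h1.mul h2
  · show iB (KB A * N⁻¹) (Sbi ℂ n *ᵥ ((h.w i x : ℂ) • star (v i x))) = 0
    rw [hv.2.1 i x hx, star_zero, smul_zero, Matrix.mulVec_zero, iB_zero]
  · show iB (KB A * N⁻¹) (Sbi ℂ n *ᵥ ((h.w i x : ℂ) • star (v i x))) =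
      (BN (KB A * N⁻¹)).τ i j x *ᵥ iB (KB A * N⁻¹) (Sbi ℂ n *ᵥ ((h.w j x : ℂ) • star (v j x)))
    rw [BN_τ, kB_iB, Tf_Sbi hx, hv.2.2 i j x hx]
    unfold Tv
    rw [Matrix.smul_mulVec, star_smul', star_Gam, LB.mul_g, LB.inv_g]
    congr 1
    have hN := N.ne_zero i j x
    have h1 := w_tr h hx
    simp only [Matrix.mulVec_smul, smul_smul]
    congr 1
    field_simp
    linear_combination h1

theorem cjInv_mem {u : A.ι → M → (BN (KB A * N⁻¹)).κ → ℂ} (hu : u ∈ Sec (BN (KB A * N⁻¹))) :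
    (fun i x => star (((h.w i x : ℂ))⁻¹ • (Sb ℂ n *ᵥ oB (u i x))) : A.ι → M → FI n → ℂ) ∈ MV N := by
  refine ⟨fun i T => ?_, fun i x hx => ?_, fun i j x hx => ?_⟩
  · have h1 : A.SmAt i (fun x => ((h.w i x : ℂ))⁻¹) :=
      (smAt_ofReal (h.sm i)).inv fun z hz => w_ne h i ((A.e i).map_target hz)
    have h2 : A.SmAt i (fun x => (Sb ℂ n *ᵥ oB (u i x)) T) :=
      smAt_mulVec (m := fun _ => Sb ℂ n) (fun a b => contDiffOn_const)
        (fun S => hu.1 i (S, ())) T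
    exact smAt_conj (h1.mul h2)
  · show star (((h.w i x : ℂ))⁻¹ • (Sb ℂ n *ᵥ oB (u i x))) = 0
    rw [hu.2.1 i x hx, oB_zero, Matrix.mulVec_zero, smul_zero, star_zero]
  · show star (((h.w i x : ℂ))⁻¹ • (Sb ℂ n *ᵥ oB (u i x))) =
      Tv N i j x *ᵥ star (((h.w j x : ℂ))⁻¹ • (Sb ℂ n *ᵥ oB (u j x)))
    -- both sides have the same image under `v ↦ Sbi (w star v)`
    set a : FI n → ℂ := ((h.w j x : ℂ))⁻¹ • (Sb ℂ n *ᵥ oB (u j x)) with ha
    have hwi := w_ne h i hx.1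
    have hwj := w_ne h j hx.2
    have hN := N.ne_zero i j x
    have hK := (KB A).ne_zero i j x
    have e1 : oB (u j x) = Sbi ℂ n *ᵥ ((h.w j x : ℂ) • a) := by
      rw [ha, smul_smul, mul_inv_cancel₀ hwj, one_smul, Matrix.mulVec_mulVec, Sbi_mul_Sb,
        Matrix.one_mulVec]
    rw [sec_tr hu hx, e1, Tf_Sbi hx]
    unfold Tv
    rw [LB.mul_g, LB.inv_g, Matrix.mulVec_smul, Matrix.mulVec_smul,
      Matrix.mulVec_mulVec _ (Sb ℂ n) (Sbi ℂ n),
      Sb_mul_Sbi, Matrix.one_mulVec, Matrix.mulVec_smul, smul_smul, smul_smul, smul_smul,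
      star_smul', star_Gam, Matrix.smul_mulVec]
    have e2 : ((Jm A j i x).map (starRingEnd ℂ)).map (starRingEnd ℂ) = Jm A j i x := by
      ext a b; simp
    rw [e2]
    congr 1
    have h1 := w_tr h hx
    simp only [map_mul, map_inv₀, conj_conj, conj_ofReal]
    have hKc : conj ((KB A).g i j x) ≠ 0 := (map_ne_zero _).2 hK
    have hNc : conj (N.g i j x) ≠ 0 := (map_ne_zero _).2 hN
    field_simp
    linear_combination -h1

/-- `v ↦ S⁻¹ (w conj v)` -/
def cj : MV N ≃ₛₗ[starRingEnd ℂ] Sec (BN (KB A * N⁻¹)) where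
  toFun v := ⟨fun i x => iB (KB A * N⁻¹) (Sbi ℂ n *ᵥ ((h.w i x : ℂ) • star (v.1 i x))),
    cj_mem h v.2⟩
  invFun u := ⟨fun i x => star (((h.w i x : ℂ))⁻¹ • (Sb ℂ n *ᵥ oB (u.1 i x))), cjInv_mem h u.2⟩
  map_add' v w := by
    apply Subtype.ext
    funext i x
    show iB (KB A * N⁻¹) (Sbi ℂ n *ᵥ ((h.w i x : ℂ) • star (v.1 i x + w.1 i x))) =
      iB (KB A * N⁻¹) (Sbi ℂ n *ᵥ ((h.w i x : ℂ) • star (v.1 i x))) +
      iB (KB A * N⁻¹) (Sbi ℂ n *ᵥ ((h.w i x : ℂ) • star (w.1 i x)))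
    rw [star_add, smul_add, Matrix.mulVec_add]
    rfl
  map_smul' c v := by
    apply Subtype.ext
    funext i x
    show iB (KB A * N⁻¹) (Sbi ℂ n *ᵥ ((h.w i x : ℂ) • star (c • v.1 i x))) =
      conj c • iB (KB A * N⁻¹) (Sbi ℂ n *ᵥ ((h.w i x : ℂ) • star (v.1 i x)))
    rw [star_smul', smul_comm, Matrix.mulVec_smul, iB_smul]
  left_inv v := by
    refine MV.ext fun i x hx => ?_
    show star (((h.w i x : ℂ))⁻¹ • (Sb ℂ n *ᵥ oB (iB (KB A * N⁻¹)
      (Sbi ℂ n *ᵥ ((h.w i x : ℂ) • star (v.1 i x)))))) = v.1 i x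
    rw [oB_iB, Matrix.mulVec_mulVec, Sb_mul_Sbi, Matrix.one_mulVec, smul_smul,
      inv_mul_cancel₀ (w_ne h i hx), one_smul, star_star]
  right_inv u := by
    apply Subtype.ext
    funext i x
    show iB (KB A * N⁻¹) (Sbi ℂ n *ᵥ ((h.w i x : ℂ) • star (star (((h.w i x : ℂ))⁻¹ •
      (Sb ℂ n *ᵥ oB (u.1 i x)))))) = u.1 i x
    by_cases hx : x ∈ (A.e i).source
    · rw [star_star, smul_smul, mul_inv_cancel₀ (w_ne h i hx), one_smul, Matrix.mulVec_mulVec,
        Sbi_mul_Sb, Matrix.one_mulVec, iB_oB]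
    · rw [u.2.2.1 i x hx, oB_zero, Matrix.mulVec_zero, smul_zero, star_zero, star_zero, smul_zero,
        Matrix.mulVec_zero]
      rfl

theorem cj_apply (v : MV N) (i : A.ι) (x : M) :
    (cj h v).1 i x = iB (KB A * N⁻¹) (Sbi ℂ n *ᵥ ((h.w i x : ℂ) • star (v.1 i x))) := rfl

/-- the pointwise hermitian product (a density) -/
def ip (K : Kah A) (v w : A.ι → M → FI n → ℂ) (i : A.ι) (x : M) : ℂ :=
  (h.w i x : ℂ) * (star (w i x) ⬝ᵥ (GK K i x *ᵥ v i x))

theorem DN_S : (DN N).S = kB N (KB A * N⁻¹) (Sb ℂ n) 1 := by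
  show Sb ℂ n ⊗ₖ (1 : Matrix Unit Unit ℂ) = Sb ℂ n ⊗ₖ (Matrix.of fun _ _ => 1)
  congr 1

theorem dn_low_cj (K : Kah A) (v w : MV N) (i : A.ι) (x : M) :
    Pai323.dn (DN N) (low K N v).1 (cj h w).1 i x = ip h K v.1 w.1 i x := by
  unfold Pai323.dn ip
  rw [DN_S, low_apply, cj_apply, kB_iB, dot_iB, one_smul, Matrix.mulVec_mulVec, Sb_mul_Sbi,
    Matrix.one_mulVec, dotProduct_smul, smul_eq_mul, dotProduct_comm]

end cj

end

end Crest.Agent.R273.DMet_733
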