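import Crest.Agent.R273.Kah_333
import Crest.Agent.R273.Bkn_243
import Crest.Agent.R275.Lam2_130

/-!
# R273 (S0416), Part D, leaf D.6 (helper733), part 1: multivectors with values in a line bundle

* `Tv N i j x`  : transition matrix of `Λ^* T ⊗ N`;
* `MV N`        : smooth sections (all degrees together), `MV.pq q` homogeneous part;
* `VN N : VBun A` : the bundle `Λ^* T ⊗ N` (fibre `FI n`);
* `GK K i x`    : the lowering matrix `Gam ((K.g i x)ᵀ)`, `GI K i x` its inverse;
* transformation laws, smoothness, positivity.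
* `NV N h q`    : holomorphic null `q`-vectors.
-/

set_option autoImplicit false
set_option linter.unusedSectionVars false

open Set Filter Topology Complex
open scoped ContDiff Matrix ComplexConjugate ComplexOrder

namespace Crest.Agent.R273.DVec_733

open Crest.Agent.R275.Geo Crest.Agent.R275.Core144
open Crest.Agent.R273.Defs_333 Crest.Agent.R273.Kah_333
open Crest.Agent.R273.Fock_243 Crest.Agent.R273.Calc_243 Crest.Agent.R273.Bkn_243

noncomputable section

variable {n : ℕ} {M : Type} [TopologicalSpace M] {A : Atl n M}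

/-! ### Jacobians -/

theorem Jm_mul_symm {i j : A.ι} {x : M} (hx : x ∈ (A.e i).source ∩ (A.e j).source) :
    Jm A i j x * Jm A j i x = 1 := by
  have h := J_mul (A := A) j i j (x := x) ⟨⟨hx.2, hx.1⟩, hx.2⟩
  rw [h, J_self j hx.2]

theorem holAt_Jsymm (i j : A.ι) (b a : Fin n) :
    HolAt A i (A.e j).source (fun x => A.J j i x b a) := by
  have h1 := (holAt_J (A := A) j i b a).chg (A.e i).open_source i
  refine DifferentiableOn.mono h1 fun z hz => ⟨hz.1, (A.e i).map_target hz.1, hz.2⟩

/-- the minors of a holomorphic matrix are holomorphic -/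
theorem holAt_Gam {i : A.ι} {U : Set M} {m : M → Matrix (Fin n) (Fin n) ℂ}
    (h : ∀ a b, HolAt A i U (fun x => m x a b)) (S T : FI n) :
    HolAt A i U (fun x => Gam (m x) S T) := by
  by_cases hST : S.card = T.card
  · have h1 : (fun x => Gam (m x) S T) = fun x =>
        ((m x).submatrix (S.orderEmbOfFin rfl) (T.orderEmbOfFin hST.symm)).det := by
      funext x; exact Gam_eq _ _ _
    rw [h1]
    simp only [Matrix.det_apply]
    refine HolAt.sum _ fun σ _ => ?_
    have h2 : HolAt A i U fun x => ∏ b, (m x).submatrix (S.orderEmbOfFin rfl)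
        (T.orderEmbOfFin hST.symm) (σ b) b := HolAt.prod _ fun b _ => h _ _
    simp only [Units.smul_def, zsmul_eq_mul]
    exact h2.const_mul _
  · have h1 : (fun x => Gam (m x) S T) = fun _ => 0 := by
      funext x; exact Gam_of_ne _ hST
    rw [h1]
    exact holAt_const 0

/-! ### smoothness helpers -/

/-- `SmAt` of a scalar function, pointwise -/
theorem smAt_iff {i : A.ι} {f : M → ℂ} : A.SmAt i f ↔
    ∀ z ∈ (A.e i).target, Sm z (fun w => f ((A.e i).symm w)) :=
  ⟨fun h _ hz => h.contDiffAt ((A.e i).open_target.mem_nhds hz),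
    fun h z hz => (h z hz).contDiffWithinAt⟩

theorem smAt_Gam {i : A.ι} {m : M → Matrix (Fin n) (Fin n) ℂ}
    (h : ∀ a b, A.SmAt i (fun x => m x a b)) (S T : FI n) :
    A.SmAt i (fun x => Gam (m x) S T) := by
  rw [smAt_iff]
  intro z hz
  exact SmM.Gam (m := fun w => m ((A.e i).symm w)) (fun a b => smAt_iff.1 (h a b) z hz) S T

theorem smAt_mulVec {i : A.ι} {κ κ' : Type} [Fintype κ'] {m : M → Matrix κ κ' ℂ} {v : M → κ' → ℂ}
    (hm : ∀ a b, A.SmAt i (fun x => m x a b)) (hv : ∀ b, A.SmAt i (fun x => v x b)) (a : κ) :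
    A.SmAt i (fun x => (m x *ᵥ v x) a) := by
  show ContDiffOn ℝ ∞ (fun z => ∑ l, m ((A.e i).symm z) a l * v ((A.e i).symm z) l) _
  exact ContDiffOn.sum fun l _ => (hm a l).mul (hv l)

theorem smAt_conj {i : A.ι} {f : M → ℂ} (hf : A.SmAt i f) : A.SmAt i (fun x => conj (f x)) :=
  conjCLE.contDiff.comp_contDiffOn hf

theorem smAt_ofReal {i : A.ι} {f : M → ℝ} (hf : A.SmAt i f) : A.SmAt i (fun x => (f x : ℂ)) :=
  ofRealCLM.contDiff.comp_contDiffOn hf

theorem smAt_inv {i : A.ι} {m : M → Matrix (Fin n) (Fin n) ℂ}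
    (h : ∀ a b, A.SmAt i (fun x => m x a b)) (hd : ∀ x ∈ (A.e i).source, (m x).det ≠ 0)
    (a b : Fin n) : A.SmAt i (fun x => (m x)⁻¹ a b) := by
  have hdet : A.SmAt i (fun x => (m x).det) := by
    rw [smAt_iff]
    intro z hz
    exact SmM.det (m := fun w => m ((A.e i).symm w)) (fun a b => smAt_iff.1 (h a b) z hz)
  have hadj : A.SmAt i (fun x => (m x).adjugate a b) := by
    rw [smAt_iff]
    intro z hz
    simp only [Matrix.adjugate_apply]
    refine SmM.det (m := fun w => (m ((A.e i).symm w)).updateRow b (Pi.single a 1)) fun c d => ?_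
    by_cases hc : c = b
    · subst hc
      simp only [Matrix.updateRow_self]
      exact contDiffAt_const
    · simp only [Matrix.updateRow_ne hc]
      exact smAt_iff.1 (h c d) z hz
  have h1 : ContDiffOn ℝ ∞ (fun z => ((m ((A.e i).symm z)).det)⁻¹ *
      (m ((A.e i).symm z)).adjugate a b) (A.e i).target :=
    (hdet.inv fun z hz => hd _ ((A.e i).map_target hz)).mul hadj
  refine h1.congr fun z hz => ?_
  show (m ((A.e i).symm z))⁻¹ a b = _
  rw [Matrix.inv_def, Matrix.smul_apply, Ring.inverse_eq_inv', smul_eq_mul]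

/-! ### multivectors -/

/-- transition matrix of the multivectors with values in `N` -/
def Tv (N : LB A) (i j : A.ι) (x : M) : Matrix (FI n) (FI n) ℂ := N.g i j x • Gam (Jm A j i x)

theorem Tv_self (N : LB A) {i : A.ι} {x : M} (hx : x ∈ (A.e i).source) : Tv N i i x = 1 := by
  unfold Tv
  rw [J_self i hx, Gam_one, N.self, one_smul]

theorem Tv_mul (N : LB A) {i j k : A.ι} {x : M}
    (hx : x ∈ (A.e i).source ∩ (A.e j).source ∩ (A.e k).source) :
    Tv N i j x * Tv N j k x = Tv N i k x := by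
  unfold Tv
  have h := J_mul (A := A) k j i (x := x) ⟨⟨hx.2, hx.1.2⟩, hx.1.1⟩
  rw [Matrix.smul_mul, Matrix.mul_smul, ← Gam_mul, h, smul_smul, N.mul i j k x hx]

theorem Tv_mul_symm (N : LB A) {i j : A.ι} {x : M}
    (hx : x ∈ (A.e i).source ∩ (A.e j).source) : Tv N i j x * Tv N j i x = 1 := by
  rw [Tv_mul N ⟨hx, hx.1⟩, Tv_self N hx.1]

theorem Tv_hol (N : LB A) (i j : A.ι) (S T : FI n) :
    HolAt A i (A.e j).source (fun x => Tv N i j x S T) :=
  (N.hol i j).mul (holAt_Gam (fun a b => holAt_Jsymm i j a b) S T)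

theorem Tv_deg (N : LB A) {i j : A.ι} {x : M} {S T : FI n} (h : Tv N i j x S T ≠ 0) :
    S.card = T.card := by
  by_contra hne
  apply h
  show N.g i j x * Gam (Jm A j i x) S T = 0
  rw [Gam_of_ne _ hne, mul_zero]

/-- the holomorphic bundle `Λ^* T ⊗ N` -/
def VN (N : LB A) : VBun A :=
  Crest.Agent.R275.Lam2130.ofHolo (FI n) (Tv N)
    (fun i j k l => Tv_hol N i j k l) (fun _ _ hx => Tv_self N hx)
    (fun _ _ _ _ hx => Tv_mul N hx)

/-- smooth multivectors with values in `N` -/
def MV (N : LB A) : Submodule ℂ (A.ι → M → FI n → ℂ) where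
  carrier := {v | (∀ i T, A.SmAt i (fun x => v i x T)) ∧ (∀ i, ∀ x ∉ (A.e i).source, v i x = 0) ∧
    ∀ i j, ∀ x ∈ (A.e i).source ∩ (A.e j).source, v i x = Tv N i j x *ᵥ v j x}
  add_mem' := by
    rintro u v ⟨h1, h2, h3⟩ ⟨k1, k2, k3⟩
    refine ⟨fun i k => (h1 i k).add (k1 i k), fun i x hx => ?_, fun i j x hx => ?_⟩
    · simp [h2 i x hx, k2 i x hx]
    · simp [h3 i j x hx, k3 i j x hx, Matrix.mulVec_add]
  zero_mem' := ⟨fun i k => contDiffOn_const, fun i x hx => rfl, fun i j x hx => by simp⟩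
  smul_mem' := by
    rintro c u ⟨h1, h2, h3⟩
    refine ⟨fun i k => (h1 i k).const_smul c, fun i x hx => ?_, fun i j x hx => ?_⟩
    · simp [h2 i x hx]
    · simp [h3 i j x hx, Matrix.mulVec_smul]

theorem MV.ext {N : LB A} {v w : MV N} (h : ∀ i, ∀ x ∈ (A.e i).source, v.1 i x = w.1 i x) :
    v = w := by
  apply Subtype.ext
  funext i x
  by_cases hx : x ∈ (A.e i).source
  · exact h i x hx
  · rw [v.2.2.1 i x hx, w.2.2.1 i x hx]

/-- the homogeneous part of degree `q` of a family -/
def pq (q : ℕ) (v : A.ι → M → FI n → ℂ) : A.ι → M → FI n → ℂ :=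
  fun i x T => if T.card = q then v i x T else 0

theorem pq_mem {N : LB A} (q : ℕ) {v : A.ι → M → FI n → ℂ} (hv : v ∈ MV N) : pq q v ∈ MV N := by
  refine ⟨fun i T => ?_, fun i x hx => ?_, fun i j x hx => ?_⟩
  · unfold pq
    by_cases h : T.card = q
    · simp only [if_pos h]; exact hv.1 i T
    · simp only [if_neg h]; exact contDiffOn_const
  · funext T
    simp [pq, hv.2.1 i x hx]
  · funext T
    show (if T.card = q then v i x T else (0 : ℂ)) = ∑ S, Tv N i j x T S *
      (if S.card = q then v j x S else (0 : ℂ))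
    rw [hv.2.2 i j x hx]
    by_cases h : T.card = q
    · rw [if_pos h]
      show ∑ S, Tv N i j x T S * v j x S = _
      refine Finset.sum_congr rfl fun S _ => ?_
      by_cases h' : S.card = q
      · rw [if_pos h']
      · rw [if_neg h']
        have : Tv N i j x T S = 0 := by
          by_contra h0
          exact h' (by rw [← Tv_deg N h0, h])
        rw [this, zero_mul, zero_mul]
    · rw [if_neg h]
      symm
      refine Finset.sum_eq_zero fun S _ => ?_
      by_cases h' : S.card = q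
      · have : Tv N i j x T S = 0 := by
          by_contra h0
          exact h (by rw [Tv_deg N h0, h'])
        rw [this, zero_mul]
      · rw [if_neg h', mul_zero]

/-- homogeneous part, linear map on `MV N` -/
def pqM (N : LB A) (q : ℕ) : MV N →ₗ[ℂ] MV N where
  toFun v := ⟨pq q v.1, pq_mem q v.2⟩
  map_add' u v := by
    apply Subtype.ext
    funext i x T
    show (if T.card = q then u.1 i x T + v.1 i x T else (0 : ℂ)) =
      (if T.card = q then u.1 i x T else 0) + (if T.card = q then v.1 i x T else 0)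
    split_ifs
    · rfl
    · rw [add_zero]
  map_smul' c u := by
    apply Subtype.ext
    funext i x T
    show (if T.card = q then c * u.1 i x T else (0 : ℂ)) = c * (if T.card = q then u.1 i x T else 0)
    split_ifs
    · rfl
    · rw [mul_zero]

@[simp] theorem pqM_apply {N : LB A} (q : ℕ) (v : MV N) (i : A.ι) (x : M) (T : FI n) :
    (pqM N q v).1 i x T = if T.card = q then v.1 i x T else 0 := rfl

/-! ### the lowering matrices -/

/-- the lowering matrix on multivectors -/
def GK (K : Kah A) (i : A.ι) (x : M) : Matrix (FI n) (FI n) ℂ := Gam ((K.g i x)ᵀ)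

/-- the raising matrix -/
def GI (K : Kah A) (i : A.ι) (x : M) : Matrix (FI n) (FI n) ℂ := Gam (((K.g i x)ᵀ)⁻¹)

section low

variable (K : Kah A)

theorem det_ne {i : A.ι} {x : M} (hx : x ∈ (A.e i).source) : ((K.g i x)ᵀ).det ≠ 0 := by
  rw [Matrix.det_transpose]
  exact (K.pos i x hx).det_pos.ne'

theorem inv_mul {i : A.ι} {x : M} (hx : x ∈ (A.e i).source) :
    ((K.g i x)ᵀ)⁻¹ * (K.g i x)ᵀ = 1 :=
  Matrix.nonsing_inv_mul _ (isUnit_iff_ne_zero.2 (det_ne K hx))

theorem mul_inv {i : A.ι} {x : M} (hx : x ∈ (A.e i).source) :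
    (K.g i x)ᵀ * ((K.g i x)ᵀ)⁻¹ = 1 :=
  Matrix.mul_nonsing_inv _ (isUnit_iff_ne_zero.2 (det_ne K hx))

theorem GI_GK {i : A.ι} {x : M} (hx : x ∈ (A.e i).source) : GI K i x * GK K i x = 1 := by
  unfold GI GK
  rw [← Gam_mul, inv_mul K hx, Gam_one]

theorem GK_GI {i : A.ι} {x : M} (hx : x ∈ (A.e i).source) : GK K i x * GI K i x = 1 := by
  unfold GI GK
  rw [← Gam_mul, mul_inv K hx, Gam_one]

theorem GK_smooth (i : A.ι) (S T : FI n) : A.SmAt i (fun x => GK K i x S T) :=
  smAt_Gam (m := fun x => (K.g i x)ᵀ) (fun a b => K.sm i b a) S T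

theorem GI_smooth (i : A.ι) (S T : FI n) : A.SmAt i (fun x => GI K i x S T) :=
  smAt_Gam (m := fun x => ((K.g i x)ᵀ)⁻¹)
    (fun a b => smAt_inv (m := fun x => (K.g i x)ᵀ) (fun a b => K.sm i b a)
      (fun _ hx => det_ne K hx) a b) S T

theorem GK_deg {i : A.ι} {x : M} {S T : FI n} (h : GK K i x S T ≠ 0) : S.card = T.card := by
  by_contra hne
  exact h (Gam_of_ne _ hne)

theorem GI_deg {i : A.ι} {x : M} {S T : FI n} (h : GI K i x S T ≠ 0) : S.card = T.card := by
  by_contra hne
  exact h (Gam_of_ne _ hne)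

/-- transition matrix of the forms `Λ^{0,*}` -/
def Tf (A : Atl n M) (i j : A.ι) (x : M) : Matrix (FI n) (FI n) ℂ :=
  Gam (((Jm A i j x).map conj)ᵀ)

theorem Tf_mul_symm {i j : A.ι} {x : M} (hx : x ∈ (A.e i).source ∩ (A.e j).source) :
    Tf A i j x * Tf A j i x = 1 := by
  unfold Tf
  rw [← Gam_mul, ← Matrix.transpose_mul, ← Matrix.map_mul, Jm_mul_symm hx.symm,
    Matrix.map_one _ (map_zero _) (map_one _), Matrix.transpose_one, Gam_one]

/-- the lowering matrix intertwines the transition matrices -/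
theorem GK_tr {i j : A.ι} {x : M} (hx : x ∈ (A.e i).source ∩ (A.e j).source) :
    GK K i x * Gam (Jm A j i x) = Tf A i j x * GK K j x := by
  unfold GK Tf
  rw [← Gam_mul, ← Gam_mul]
  congr 1
  rw [K.tr i j x hx, Matrix.transpose_mul, Matrix.transpose_mul, Matrix.transpose_transpose,
    Matrix.mul_assoc, Matrix.mul_assoc, Jm_mul_symm hx, Matrix.mul_one]

theorem GI_tr {i j : A.ι} {x : M} (hx : x ∈ (A.e i).source ∩ (A.e j).source) :
    GI K i x * Tf A i j x = Gam (Jm A j i x) * GI K j x := by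
  have h : GI K i x * (GK K i x * Gam (Jm A j i x)) * GI K j x =
      GI K i x * (Tf A i j x * GK K j x) * GI K j x := by rw [GK_tr K hx]
  rw [← Matrix.mul_assoc, GI_GK K hx.1, Matrix.one_mul, Matrix.mul_assoc (GI K i x),
    Matrix.mul_assoc (Tf A i j x), GK_GI K hx.2, Matrix.mul_one] at h
  exact h.symm

theorem herm {i : A.ι} {x : M} (hx : x ∈ (A.e i).source) :
    ((K.g i x)ᵀ).map (starRingEnd ℂ) = ((K.g i x)ᵀ)ᵀ := by
  have h := (K.pos i x hx).isHermitian
  rw [Matrix.transpose_transpose]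
  ext a b
  have h1 := congrFun (congrFun h a) b
  rw [Matrix.conjTranspose_apply] at h1
  exact h1

theorem posDef_T {i : A.ι} {x : M} (hx : x ∈ (A.e i).source) : ((K.g i x)ᵀ).PosDef :=
  (K.pos i x hx).transpose

end low

end

end Crest.Agent.R273.DVec_733
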