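import Crest.Agent.R273.HFlow8_376
import Crest.Agent.R273.Vol_333

/-!
# R273 (S0416), HFLOW (helper376), file 9: parallel fields commute; isometries preserve the volume
form.
-/

set_option autoImplicit false
set_option linter.unusedSectionVars false

open Set Metric Filter Topology Complex Function
open scoped NNReal ContDiff Matrix ComplexConjugate ComplexOrder

namespace Crest.Agent.R273.HFlow9_376

open Crest.Agent.R275.Geo Crest.Agent.R275.Core144 Crest.Agent.R275.EDR890
open Crest.Agent.R273.Defs_333 Crest.Agent.R273.HM_333 Crest.Agent.R273.Vol_333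
open Crest.Agent.R273.Kah_333 Crest.Agent.R273.Hess_333 Crest.Agent.R273.HessB_333
open Crest.Agent.R273.HFlow3_376 Crest.Agent.R273.HFlow4_376 Crest.Agent.R273.HFlow5_376
open Crest.Agent.R273.HFlow6_376 Crest.Agent.R273.HFlow7_376 Crest.Agent.R273.HFlow8_376

noncomputable section

variable {n m l : ℕ} {M M' M'' : Type} [TopologicalSpace M] [TopologicalSpace M']
  [TopologicalSpace M''] {A : Atl n M} {B : Atl m M'} {C : Atl l M''}

/-- the derivative of a field in terms of the coordinate derivatives -/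
theorem fderiv_loc (V : HVF A) (i : A.ι) {z : Cn n} (hz : z ∈ (A.e i).target) (v : Cn n)
    (a : Fin n) : fderiv ℂ (V.loc i) z v a =
      ∑ c, v c * wd (false, c) (fun z => V.loc i z a) z := by
  have h1 : fderiv ℂ (fun z => V.loc i z a) z v = fderiv ℂ (V.loc i) z v a := by
    have h2 := ((EuclideanSpace.proj a : Cn n →L[ℂ] ℂ).hasFDerivAt).comp z
      (V_diff V i hz).hasFDerivAt
    have h3 : fderiv ℂ (fun z => V.loc i z a) z = _ := h2.fderiv
    rw [h3]
    rfl
  have h2 : v = ∑ c, v c • (EuclideanSpace.single c (1 : ℂ) : Cn n) := by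
    ext b
    simp [Finset.sum_apply, Pi.single_apply]
  have h4 : fderiv ℂ (fun z => V.loc i z a) z v =
      ∑ c, v c * fderiv ℂ (fun z => V.loc i z a) z (EuclideanSpace.single c 1) := by
    conv_lhs => rw [h2]
    simp only [map_sum, map_smul, smul_eq_mul]
  rw [← h1, h4]
  refine Finset.sum_congr rfl fun c _ => ?_
  rw [wd_hol' (V_diff_comp V i hz a)]

/-- **parallel fields commute** -/
theorem Par.comm {K : Kah A} {V W : HVF A} (hV : Par K V) (hW : Par K W) : Comm V W := by
  intro i z hz
  have hx : (A.e i).symm z ∈ (A.e i).source := (A.e i).map_target hz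
  set G : Matrix (Fin n) (Fin n) ℂ := K.g i ((A.e i).symm z) with hG
  have hdet : IsUnit G.det := (Matrix.isUnit_iff_isUnit_det _).1 (K.pos i _ hx).isUnit
  have key : ∀ {V W : HVF A}, Par K V → ∀ b, ∑ a, fderiv ℂ (V.loc i) z (W.loc i z) a * G a b =
      - ∑ a, ∑ c, W.loc i z c * V.loc i z a *
        wd (false, c) (fun w => K.g i ((A.e i).symm w) a b) z := by
    intro V W hV b
    have h1 : ∀ c, W.loc i z c * ∑ a, (wd (false, c) (fun z => V.loc i z a) z * G a b +
      V.loc i z a * wd (false, c) (fun w => K.g i ((A.e i).symm w) a b) z) = 0 := by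
      intro c
      rw [par_eq hV i hz c b, mul_zero]
    have h2 := Finset.sum_eq_zero (s := Finset.univ) fun c _ => h1 c
    simp only [Finset.mul_sum] at h2
    rw [Finset.sum_comm] at h2
    rw [← sub_eq_zero, sub_neg_eq_add, ← Finset.sum_add_distrib, ← h2]
    refine Finset.sum_congr rfl fun a _ => ?_
    rw [fderiv_loc V i hz, Finset.sum_mul, ← Finset.sum_add_distrib]
    refine Finset.sum_congr rfl fun c _ => ?_
    ring
  have h3 : (fderiv ℂ (W.loc i) z (V.loc i z) : Fin n → ℂ) ᵥ* G =
      (fderiv ℂ (V.loc i) z (W.loc i z) : Fin n → ℂ) ᵥ* G := by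
    funext b
    simp only [Matrix.vecMul, dotProduct]
    rw [key hW b, key hV b]
    congr 1
    rw [Finset.sum_comm]
    refine Finset.sum_congr rfl fun a _ => Finset.sum_congr rfl fun c _ => ?_
    rw [K.closed i z hz]
    ring
  have h4 := congrArg (fun v => v ᵥ* G⁻¹) h3
  simp only [Matrix.vecMul_vecMul, Matrix.mul_nonsing_inv _ hdet, Matrix.vecMul_one] at h4
  ext b
  exact congrFun h4 b

/-- isometries and determinants -/
theorem Isom.det {A : Atl n M} {B : Atl n M'} {K : Kah A} {K' : Kah B} {f : M → M'}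
    (h : Isom K K' f) {i : A.ι} {j : B.ι}
    {x : M} (hi : x ∈ (A.e i).source) (hj : f x ∈ (B.e j).source) :
    (K.g i x).det = ((‖(Tm A B f i j x).det‖ ^ 2 : ℝ) : ℂ) * (K'.g j (f x)).det := by
  rw [h.matrix hi hj, Matrix.det_mul, Matrix.det_mul, Matrix.det_transpose]
  have : ((Tm A B f i j x).map conj).det = conj (Tm A B f i j x).det := by
    rw [← RingHom.mapMatrix_apply, ← RingHom.map_det]
  rw [this, ← Complex.normSq_eq_norm_sq, Complex.normSq_eq_conj_mul_self]
  ring

/-- isometries preserve the volume form -/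
theorem Isom.volK_eq {A : Atl n M} {B : Atl n M'} {K : Kah A} {K' : Kah B} {f : M → M'}
    (h : Isom K K' f) {i : A.ι} {j : B.ι}
    {x : M} (hi : x ∈ (A.e i).source) (hj : f x ∈ (B.e j).source) :
    (volK K).w i x = ‖(Tm A B f i j x).det‖ ^ 2 * (volK K').w j (f x) := by
  have h1 := Isom.det h hi hj
  rw [← volK_w K i hi, ← volK_w K' j hj] at h1
  exact_mod_cast h1

/-- isometries preserve every metric on the anticanonical bundle proportional to the volume form -/
theorem Isom.vol_of_prop {A : Atl n M} {B : Atl n M'} {K : Kah A} {K' : Kah B} {f : M → M'}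
    (h : Isom K K' f) {H : HM (KB A)⁻¹} {H' : HM (KB B)⁻¹} {c : ℝ}
    (hH : ∀ i, ∀ x ∈ (A.e i).source, (volK K).w i x = Real.exp c * H.w i x)
    (hH' : ∀ i, ∀ x ∈ (B.e i).source, (volK K').w i x = Real.exp c * H'.w i x)
    {i : A.ι} {j : B.ι} {x : M} (hi : x ∈ (A.e i).source) (hj : f x ∈ (B.e j).source) :
    H.w i x = ‖(Tm A B f i j x).det‖ ^ 2 * H'.w j (f x) := by
  have h1 := Isom.volK_eq h hi hj
  rw [hH i x hi, hH' j _ hj] at h1
  have h2 : Real.exp c ≠ 0 := (Real.exp_pos c).ne'
  have h3 : Real.exp c * H.w i x = Real.exp c * (‖(Tm A B f i j x).det‖ ^ 2 * H'.w j (f x)) := by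
    rw [h1]; ring
  exact mul_left_cancel₀ h2 h3

end

end Crest.Agent.R273.HFlow9_376
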