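import Crest.Agent.R273.HolF_578

/-!
# R273 (S0416), leaf SPLIT (helper404), part 1: the endomorphism `A = β · v`

* `HEnd A`            : holomorphic endomorphisms of the tangent bundle (matrices in the charts)
* `ctE β v`           : the matrix `A^a_b = ⟨β, e_b ∧ (i_a v)⟩`
* `ctE_mem`           : it is a holomorphic endomorphism (`β ∈ Om A q`, `v ∈ PV 1 q`)
* `ctE_trace`         : `tr A = q ⟨β, v⟩`
* `ctE_null`          : `∑_a θ_{a c̄} A^a_b = 0` if `v` is null for `θ`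
-/

set_option autoImplicit false
set_option linter.unusedSectionVars false

open Set Filter Topology Complex Matrix
open scoped ContDiff Matrix ComplexConjugate Manifold ComplexOrder

namespace Crest.Agent.R273.Spl1_404

open Crest.Agent.R275.Geo Crest.Agent.R275.Core144 Crest.Agent.R275.Kos798
open Crest.Agent.R273.Defs_333 Crest.Agent.R273.HM_333 Crest.Agent.R273.Kah_333
open Crest.Agent.R273.Fock_243 (FI Gam eW iW ep eW_eq_sum iW_eq_sum)
open Crest.Agent.R273.Wdg_578 Crest.Agent.R273.NV_578 Crest.Agent.R273.HolF_578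

noncomputable section

/-! ### the number operator -/

section Alg

variable {R : Type*} [CommRing R] {n : ℕ}

theorem eW_ep_mulVec (j : Fin n) (f : FI n → R) (T : FI n) :
    (eW (ep j) *ᵥ f) T = if j ∈ T then sgn R j T * f (T.erase j) else 0 := by
  have h1 : (eW (ep j) *ᵥ f) T = op (ep j) 0 f T := by
    unfold eW
    rw [K_mulVec]
  rw [h1]
  unfold op
  rw [Finset.sum_eq_single j]
  · unfold cf tog
    by_cases h : j ∈ T
    · simp [h, ep]
    · simp [h]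
  · intro k _ hk
    unfold cf
    by_cases h : k ∈ T
    · simp [h, ep, hk]
    · simp [h]
  · simp

theorem iW_ep_mulVec (j : Fin n) (f : FI n → R) (T : FI n) :
    (iW (ep j) *ᵥ f) T = if j ∈ T then 0 else sgn R j T * f (insert j T) := by
  have h1 : (iW (ep j) *ᵥ f) T = op 0 (ep j) f T := by
    unfold iW
    rw [K_mulVec]
  rw [h1]
  unfold op
  rw [Finset.sum_eq_single j]
  · unfold cf tog
    by_cases h : j ∈ T
    · simp [h]
    · simp [h, ep]
  · intro k _ hk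
    unfold cf
    by_cases h : k ∈ T
    · simp [h]
    · simp [h, ep, hk]
  · simp

theorem eW_iW_mulVec (j : Fin n) (f : FI n → R) (T : FI n) :
    (eW (ep j) *ᵥ (iW (ep j) *ᵥ f)) T = if j ∈ T then f T else 0 := by
  rw [eW_ep_mulVec]
  split_ifs with h
  · rw [iW_ep_mulVec, if_neg (Finset.notMem_erase j T), Finset.insert_erase h]
    have h2 : sgn R j (T.erase j) = sgn R j T := by
      have h3 := sgn_tog_self (R := R) j T
      unfold tog at h3
      rwa [if_pos h] at h3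
    rw [h2, ← mul_assoc, sgn_mul_self, one_mul]
  · rfl

/-- the number operator -/
theorem num_mulVec {q : ℕ} (f : FI n → R) (hf : ∀ T : FI n, T.card ≠ q → f T = 0) :
    ∑ j, (eW (ep j) *ᵥ (iW (ep j) *ᵥ f)) = (q : R) • f := by
  ext T
  rw [Finset.sum_apply]
  simp only [eW_iW_mulVec, Pi.smul_apply, smul_eq_mul]
  rw [Finset.sum_ite_mem, Finset.univ_inter, Finset.sum_const, nsmul_eq_mul]
  by_cases h : T.card = q
  · rw [h]
  · rw [hf T h, mul_zero, mul_zero]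

/-- the contraction matrix -/
def ctM (β v : FI n → R) : Matrix (Fin n) (Fin n) R := fun a b =>
  β ⬝ᵥ (eW (ep b) *ᵥ (iW (ep a) *ᵥ v))

theorem ctM_trace {q : ℕ} (β v : FI n → R) (hv : ∀ T : FI n, T.card ≠ q → v T = 0) :
    (ctM β v).trace = (q : R) * (β ⬝ᵥ v) := by
  unfold Matrix.trace
  simp only [Matrix.diag_apply, ctM]
  rw [← dotProduct_sum, num_mulVec v hv, dotProduct_smul, smul_eq_mul]

theorem ctM_bil (β v : FI n → R) (s t : Fin n → R) :
    β ⬝ᵥ (eW s *ᵥ (iW t *ᵥ v)) = ∑ a, ∑ b, t a * ctM β v a b * s b := by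
  rw [eW_eq_sum s, iW_eq_sum t]
  simp only [Matrix.sum_mulVec, Matrix.smul_mulVec, Matrix.mulVec_sum, Matrix.mulVec_smul,
    dotProduct_sum, dotProduct_smul, smul_eq_mul, ctM, Finset.mul_sum]
  refine Finset.sum_congr rfl fun a _ => Finset.sum_congr rfl fun b _ => ?_
  ring

theorem ctM_Gam (J J' : Matrix (Fin n) (Fin n) R) (h : J' * J = 1) (β v : FI n → R) :
    ctM (Gam J'ᵀ *ᵥ β) (Gam J *ᵥ v) = J * ctM β v * J' := by
  ext a b
  have h1 : ctM (Gam J'ᵀ *ᵥ β) (Gam J *ᵥ v) a b =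
      β ⬝ᵥ (eW (J' *ᵥ ep b) *ᵥ (iW (Jᵀ *ᵥ ep a) *ᵥ v)) := by
    unfold ctM
    have e1 : iW (ep a) *ᵥ (Gam J *ᵥ v) = Gam J *ᵥ (iW (Jᵀ *ᵥ ep a) *ᵥ v) := by
      rw [Matrix.mulVec_mulVec, Fock_243.iW_Gam, Matrix.mulVec_mulVec]
    have e2 : ∀ w : FI n → R, (Gam J'ᵀ *ᵥ β) ⬝ᵥ w = β ⬝ᵥ (Gam J' *ᵥ w) := by
      intro w
      rw [← Fock_243.Gam_transpose, Matrix.mulVec_transpose, ← Matrix.dotProduct_mulVec]
    have e3 : ∀ w : FI n → R, Gam J' *ᵥ (eW (ep b) *ᵥ w) = eW (J' *ᵥ ep b) *ᵥ (Gam J' *ᵥ w) := by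
      intro w
      rw [Matrix.mulVec_mulVec, Fock_243.Gam_eW, Matrix.mulVec_mulVec]
    have e4 : ∀ w : FI n → R, Gam J' *ᵥ (Gam J *ᵥ w) = w := by
      intro w
      rw [Matrix.mulVec_mulVec, ← Fock_243.Gam_mul, h, Fock_243.Gam_one, Matrix.one_mulVec]
    rw [e1, e2, e3, e4]
  rw [h1, ctM_bil, Matrix.mul_assoc, Matrix.mul_apply]
  refine Finset.sum_congr rfl fun c _ => ?_
  rw [Matrix.mul_apply, Finset.mul_sum]
  refine Finset.sum_congr rfl fun d _ => ?_
  have h2 : (Jᵀ *ᵥ ep a) c = J a c := by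
    unfold ep
    rw [Matrix.mulVec_single_one]
    rfl
  have h3 : (J' *ᵥ ep b) d = J' d b := by
    unfold ep
    rw [Matrix.mulVec_single_one]
    rfl
  rw [h2, h3]
  ring

theorem ctM_null (β v : FI n → R) (θ : Fin n → R)
    (h : ∑ d, θ d • (iW (ep d) *ᵥ v) = 0) (b : Fin n) :
    ∑ d, θ d * ctM β v d b = 0 := by
  unfold ctM
  have h1 : ∑ d, θ d * β ⬝ᵥ (eW (ep b) *ᵥ (iW (ep d) *ᵥ v)) =
      β ⬝ᵥ (eW (ep b) *ᵥ (∑ d, θ d • (iW (ep d) *ᵥ v))) := by
    simp only [Matrix.mulVec_sum, Matrix.mulVec_smul, dotProduct_sum, dotProduct_smul, smul_eq_mul]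
  rw [h1, h, Matrix.mulVec_zero, dotProduct_zero]

end Alg

/-! ### holomorphic endomorphisms -/

variable {n : ℕ} {M : Type} [TopologicalSpace M] {A : Atl n M}

/-- holomorphic endomorphisms of the tangent bundle: `E i x a b` is the matrix in the chart `i`
(vectors transform by `ξ i = Jm A j i x *ᵥ ξ j`) -/
structure HEnd (A : Atl n M) where
  E : A.ι → M → Matrix (Fin n) (Fin n) ℂ
  hol : ∀ i a b, HolAt A i univ (fun x => E i x a b)
  tr : ∀ i j, ∀ x ∈ (A.e i).source ∩ (A.e j).source,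
    E i x = Jm A j i x * E j x * Jm A i j x

theorem holAt_mulVec {i : A.ι} {m : Matrix (FI n) (FI n) ℂ} {v : M → FI n → ℂ}
    (h : ∀ T, HolAt A i univ (fun x => v x T)) (T : FI n) :
    HolAt A i univ (fun x => (m *ᵥ v x) T) := by
  have h1 : HolAt A i univ fun x => ∑ S, m T S * v x S :=
    HolAt.sum _ fun S _ => (h S).const_mul _
  exact h1

/-- the endomorphism `β · v` -/
def ctE {q : ℕ} {β v : A.ι → M → FI n → ℂ} (hβ : β ∈ Om A q) (hv : v ∈ PV (1 : LB A) q) :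
    HEnd A where
  E i x := ctM (β i x) (v i x)
  hol i a b := by
    have h1 : HolAt A i univ (fun x => ∑ T, β i x T * (eW (ep b) *ᵥ (iW (ep a) *ᵥ v i x)) T) :=
      HolAt.sum _ fun T _ => (hβ.1 i T).mul (holAt_mulVec (holAt_mulVec (hv.1 i)) T)
    exact h1
  tr i j x hx := by
    have h1 := hβ.2.2.2 i j x hx
    have h2 := hv.2.2.2 i j x hx
    rw [LB.one_g, one_smul] at h2
    rw [h1, h2]
    exact ctM_Gam _ _ (Jm_inv ⟨hx.2, hx.1⟩) _ _

theorem ctE_trace {q : ℕ} {β v : A.ι → M → FI n → ℂ} (hβ : β ∈ Om A q) (hv : v ∈ PV (1 : LB A) q)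
    (i : A.ι) (x : M) : ((ctE hβ hv).E i x).trace = q * ctr β v i x :=
  ctM_trace _ _ (fun T hT => hv.2.2.1 i x T hT)

theorem ctE_null {q : ℕ} {L' : LB A} {h : HM L'} {β v : A.ι → M → FI n → ℂ} (hβ : β ∈ Om A q)
    (hv : v ∈ NV (1 : LB A) h q) (i : A.ι) {x : M} (hx : x ∈ (A.e i).source) :
    (cur h i x)ᵀ * (ctE hβ hv.1).E i x = 0 := by
  ext c b
  rw [Matrix.mul_apply]
  exact ctM_null _ _ (fun d => cur h i x d c) (mem_NulS.1 hv.2 i x hx c) b

end

end Crest.Agent.R273.Spl1_404
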