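import Crest.Agent.R273.ParD_880
import Crest.Agent.R273.Spl1_404
import Crest.Agent.R275.GeoHol_912

/-!
# R273 (S0416), leaf PSPL (helper880), part E: the metric dual and the endomorphism of a family

`M` compact, `K : Kah A` with semipositive Ricci form.

* `dv K β`    : the metric dual polyvector `star (Gam(g⁻¹) β)`
* `dv_mem`    : it is a holomorphic polyvector, null for the Ricci form: `dv K β ∈ NV 1 (volK K) q`
* `Bm`        : the Gram matrix `B_{cb} = ⟨i_b β, i_c β⟩`, positive semidefinite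
* `g_ctM`     : `gᵀ ctM β (dv K β) = B`
* `EF K β`    : the endomorphism `∑_j ctM (β j) (dv K (β j))` of a finite family of holomorphic
  forms; `EF_psd`, `EF_ker`, `EF_null`
-/

set_option autoImplicit false
set_option linter.unusedSectionVars false

open Set Filter Topology Complex Matrix
open scoped ContDiff Matrix ComplexConjugate ComplexOrder

namespace Crest.Agent.R273.ParE_880

open Crest.Agent.R275 Crest.Agent.R275.Geo Crest.Agent.R275.Core144
open Crest.Agent.R273.Defs_333 Crest.Agent.R273.HM_333 Crest.Agent.R273.Kah_333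
open Crest.Agent.R273.Vol_333 Crest.Agent.R273.NV_578 Crest.Agent.R273.HolF_578
open Crest.Agent.R273.Fock_243 Crest.Agent.R273.Calc_243 Crest.Agent.R273.Bkn_243
open Crest.Agent.R273.Pos_243 Crest.Agent.R273.BKNa_37 Crest.Agent.R273.Spl1_404
open Crest.Agent.R273.ParA_880 Crest.Agent.R273.ParB_880 Crest.Agent.R273.ParC_880
open Crest.Agent.R273.ParD_880

noncomputable section

variable {n : ℕ}

/-! ### pointwise algebra -/

section alg

variable {g : Matrix (Fin n) (Fin n) ℂ}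

/-- the Gram matrix of the contractions -/
def Bm (g : Matrix (Fin n) (Fin n) ℂ) (β : FI n → ℂ) : Matrix (Fin n) (Fin n) ℂ :=
  Matrix.of fun c b => star (iW (ep c) *ᵥ β) ⬝ᵥ (Gam g⁻¹ *ᵥ (iW (ep b) *ᵥ β))

/-- the matrix of the contractions -/
def Lm (β : FI n → ℂ) : Matrix (FI n) (Fin n) ℂ := Matrix.of fun S b => (iW (ep b) *ᵥ β) S

theorem Lm_mulVec (β : FI n → ℂ) (u : Fin n → ℂ) : Lm β *ᵥ u = iW u *ᵥ β := by
  rw [iW_eq_sum u, Matrix.sum_mulVec]
  funext S
  rw [Finset.sum_apply]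
  simp only [Matrix.mulVec, dotProduct, Lm, Matrix.of_apply, Matrix.smul_apply, smul_eq_mul]
  refine Finset.sum_congr rfl fun b _ => ?_
  rw [mul_comm, Finset.mul_sum]
  exact Finset.sum_congr rfl fun T _ => by ring

theorem Bm_eq (g : Matrix (Fin n) (Fin n) ℂ) (β : FI n → ℂ) :
    Bm g β = (Lm β)ᴴ * Gam g⁻¹ * Lm β := by
  ext c b
  rw [Matrix.mul_assoc, Matrix.mul_apply]
  simp only [Bm, Matrix.of_apply, dotProduct]
  refine Finset.sum_congr rfl fun S _ => ?_
  rfl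

theorem Bm_psd (hg : g.PosDef) (β : FI n → ℂ) : (Bm g β).PosSemidef := by
  rw [Bm_eq]
  exact (Gam_posDef hg.inv).posSemidef.conjTranspose_mul_mul_same _

theorem Bm_ker (hg : g.PosDef) (β : FI n → ℂ) (u : Fin n → ℂ) :
    star u ⬝ᵥ (Bm g β *ᵥ u) = 0 ↔ iW u *ᵥ β = 0 := by
  have h1 : star u ⬝ᵥ (Bm g β *ᵥ u) = star (iW u *ᵥ β) ⬝ᵥ (Gam g⁻¹ *ᵥ (iW u *ᵥ β)) := by
    rw [Bm_eq, ← Lm_mulVec, Matrix.star_mulVec, ← Matrix.mulVec_mulVec, ← Matrix.mulVec_mulVec,
      Matrix.dotProduct_mulVec]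
  rw [h1]
  constructor
  · intro h
    by_contra h2
    exact ((Gam_posDef hg.inv).dotProduct_mulVec_pos h2).ne' h
  · intro h
    rw [h, Matrix.mulVec_zero, dotProduct_zero]

/-- the contractions of the dual -/
theorem iW_dual (g : Matrix (Fin n) (Fin n) ℂ) (β : FI n → ℂ) (a : Fin n) :
    iW (ep a) *ᵥ star (Gam g⁻¹ *ᵥ β) =
      ∑ l, conj (g⁻¹ a l) • star (Gam g⁻¹ *ᵥ (iW (ep l) *ᵥ β)) := by
  rw [← star_iW, iW_Gam_ep, star_sum]
  refine Finset.sum_congr rfl fun l _ => ?_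
  ext S
  simp

theorem g_ctM (hg : g.PosDef) (β : FI n → ℂ) :
    gᵀ * ctM β (star (Gam g⁻¹ *ᵥ β)) = Bm g β := by
  have hgi : g * g⁻¹ = 1 := Matrix.mul_nonsing_inv _ hg.det_pos.ne'.isUnit
  ext c b
  rw [Matrix.mul_apply]
  have h1 : ∀ a, ctM β (star (Gam g⁻¹ *ᵥ β)) a b =
      (iW (ep b) *ᵥ β) ⬝ᵥ (iW (ep a) *ᵥ star (Gam g⁻¹ *ᵥ β)) := fun a => by
    rw [dot_iW]
    rfl
  have h2 : ∑ a, gᵀ c a * ctM β (star (Gam g⁻¹ *ᵥ β)) a b =
      (iW (ep b) *ᵥ β) ⬝ᵥ ∑ a, g a c • (iW (ep a) *ᵥ star (Gam g⁻¹ *ᵥ β)) := by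
    rw [dotProduct_sum]
    refine Finset.sum_congr rfl fun a _ => ?_
    rw [dotProduct_smul, smul_eq_mul, h1, Matrix.transpose_apply]
  have h3 : ∑ a, g a c • (iW (ep a) *ᵥ star (Gam g⁻¹ *ᵥ β)) =
      star (Gam g⁻¹ *ᵥ (iW (ep c) *ᵥ β)) := by
    have h4 : ∀ a, g a c • (iW (ep a) *ᵥ star (Gam g⁻¹ *ᵥ β)) =
        ∑ l, (g a c * conj (g⁻¹ a l)) • star (Gam g⁻¹ *ᵥ (iW (ep l) *ᵥ β)) := by
      intro a
      rw [iW_dual, Finset.smul_sum]
      exact Finset.sum_congr rfl fun l _ => smul_smul _ _ _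
    rw [Finset.sum_congr rfl fun a _ => h4 a, Finset.sum_comm]
    have h5 : ∀ l, ∑ a, g a c * conj (g⁻¹ a l) = if c = l then 1 else 0 := by
      intro l
      have h6 := congrArg (starRingEnd ℂ) (congrFun (congrFun hgi c) l)
      rw [Matrix.mul_apply, map_sum, Matrix.one_apply] at h6
      have h7 : ∀ a, g a c * conj (g⁻¹ a l) = conj (g c a * g⁻¹ a l) := by
        intro a
        rw [map_mul]
        congr 1
        exact (hg.isHermitian.apply a c).symm
      rw [Finset.sum_congr rfl fun a _ => h7 a, h6]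
      split_ifs <;> simp
    have h8 : ∀ l, ∑ a, (g a c * conj (g⁻¹ a l)) • star (Gam g⁻¹ *ᵥ (iW (ep l) *ᵥ β)) =
        (if c = l then (1 : ℂ) else 0) • star (Gam g⁻¹ *ᵥ (iW (ep l) *ᵥ β)) := by
      intro l
      rw [← Finset.sum_smul, h5]
    rw [Finset.sum_congr rfl fun l _ => h8 l]
    simp
  rw [h2, h3, dotProduct_comm, star_Gam_dot (map_eq_transpose_of_isHermitian hg.inv.isHermitian)]
  rfl

end alg

/-! ### the dual polyvector -/

variable {M : Type} [TopologicalSpace M] {A : Atl n M}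

/-- the metric dual of a form -/
def dv (K : Kah A) (β : A.ι → M → FI n → ℂ) : A.ι → M → FI n → ℂ := fun i x =>
  star (Gam (K.g i x)⁻¹ *ᵥ β i x)

theorem dv_mem [T2Space M] [CompactSpace M] (P : Part A) (K : Kah A)
    (ric : ∀ i, ∀ x ∈ (A.e i).source, (cur (volK K) i x).PosSemidef) {q : ℕ}
    {β : A.ι → M → FI n → ℂ} (hβ : β ∈ Om A q) : dv K β ∈ NV (1 : LB A) (volK K) q := by
  have hb := fun i x hx => boch_form P K ric hβ.1 hβ.2.2.2 i (x := x) hx
  have hsm := hol_sm hβ.1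
  refine ⟨⟨fun i T => ?_, fun i x hx => ?_, fun i x T hT => ?_, fun i j x hx => ?_⟩,
    mem_NulS.2 fun i x hx c => ?_⟩
  · -- holomorphy
    intro z hz
    have hzt := hz.1
    have hx := (A.e i).map_target hzt
    have hg := (gr_sm K i hzt).self_of_nhds
    have hp := (gr_pos K i hzt).self_of_nhds
    have hG : SmM z (fun y => Gam (gr K i y)⁻¹) := SmM.Gam (sm_inv hg hp.det_pos.ne')
    have hX : SmV z (fun y => Gam (gr K i y)⁻¹ *ᵥ rV β i y) :=
      SmM.mulVec hG (smV_rV hsm i hzt)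
    have h1 : DifferentiableAt ℝ (fun y => dv K β i ((A.e i).symm y) T) z :=
      (hX.star T).diff
    refine (GeoHol912.differentiableAt_of_dbj h1 fun a => ?_).differentiableWithinAt
    rw [dbj_eq]
    show dS I a (fun y => conj ((Gam (gr K i y)⁻¹ *ᵥ rV β i y) T)) z = 0
    rw [dS_conj (hX T).diff, Complex.conj_I]
    have h2 := dV_mulVec (s := -I) (a := a) (m := fun y => Gam (gr K i y)⁻¹) (v := rV β i) (z := z)
      (fun S T => (hG S T).diff) (fun S => (smV_rV hsm i hzt S).diff)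
    have h3 := (hb i _ hx).1 a
    rw [(A.e i).right_inv hzt] at h3
    unfold Dc at h3
    have h4 : Gam (gr K i z)⁻¹ * Gam (gr K i z) = 1 :=
      Gam_mul_inv (Matrix.nonsing_inv_mul _ hp.det_pos.ne'.isUnit)
    have h5 := congrArg (fun w => Gam (gr K i z)⁻¹ *ᵥ w) h3
    simp only [Matrix.mulVec_add, Matrix.mulVec_zero] at h5
    have h6 : Gam (gr K i z)⁻¹ *ᵥ (Gam (K.g i ((A.e i).symm z)) *ᵥ
        (dM (-I) a (fun y => Gam (gr K i y)⁻¹) z *ᵥ rV β i z)) =
        dM (-I) a (fun y => Gam (gr K i y)⁻¹) z *ᵥ rV β i z := by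
      rw [Matrix.mulVec_mulVec]
      have : Gam (K.g i ((A.e i).symm z)) = Gam (gr K i z) := rfl
      rw [this, h4, Matrix.one_mulVec]
    rw [h6, add_comm] at h5
    rw [h5] at h2
    have h7 : dS (-I) a (fun y => (Gam (gr K i y)⁻¹ *ᵥ rV β i y) T) z = 0 := congrFun h2 T
    rw [h7, map_zero]
  · unfold dv
    rw [hβ.2.1 i x hx, Matrix.mulVec_zero, star_zero]
  · unfold dv
    rw [Pi.star_apply]
    have h1 : (Gam (K.g i x)⁻¹ *ᵥ β i x) T = 0 := by
      rw [Matrix.mulVec, dotProduct]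
      refine Finset.sum_eq_zero fun S _ => ?_
      by_cases hS : S.card = q
      · rw [Gam_of_ne _ (by rw [hS]; exact hT), zero_mul]
      · rw [hβ.2.2.1 i x S hS, mul_zero]
    rw [h1, star_zero]
  · rw [LB.one_g, one_smul]
    unfold dv
    have hJ : Jm A j i x * Jm A i j x = 1 := Jm_inv hx
    have h1 : (K.g j x)⁻¹ = (Jm A i j x)ᵀᴴ * (K.g i x)⁻¹ * (Jm A i j x)ᵀ := inv_law K hx
    have h2 : Gam (K.g i x)⁻¹ *ᵥ β i x = Gam (Jm A j i x)ᵀᴴ *ᵥ (Gam (K.g j x)⁻¹ *ᵥ β j x) := by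
      rw [hβ.2.2.2 i j x hx, h1, Gam_mul, Gam_mul]
      rw [Matrix.mulVec_mulVec, Matrix.mulVec_mulVec, ← Matrix.mul_assoc, ← Matrix.mul_assoc,
        ← Gam_mul (Jm A j i x)ᵀᴴ, ← Matrix.conjTranspose_mul, ← Matrix.transpose_mul, hJ,
        Matrix.transpose_one, Matrix.conjTranspose_one, Gam_one, Matrix.one_mul]
    rw [h2, star_mulVec', Gam_map]
    congr 2
    ext a b
    simp
  · -- nullity
    unfold dv
    have h1 := (hb i x hx).2 c
    have h2 : ∀ d, cur (volK K) i x d c • (iW (ep d) *ᵥ star (Gam (K.g i x)⁻¹ *ᵥ β i x)) =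
        ∑ l, conj (cur (volK K) i x c d * (K.g i x)⁻¹ d l) •
          star (Gam (K.g i x)⁻¹ *ᵥ (iW (ep l) *ᵥ β i x)) := by
      intro d
      rw [iW_dual, Finset.smul_sum]
      refine Finset.sum_congr rfl fun l _ => ?_
      rw [smul_smul, map_mul]
      congr 2
      exact ((ric i x hx).isHermitian.apply d c).symm
    rw [Finset.sum_congr rfl fun d _ => h2 d, Finset.sum_comm]
    have h3 : ∀ l, ∑ d, conj (cur (volK K) i x c d * (K.g i x)⁻¹ d l) •
          star (Gam (K.g i x)⁻¹ *ᵥ (iW (ep l) *ᵥ β i x)) =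
        star (Gam (K.g i x)⁻¹ *ᵥ ((cur (volK K) i x * (K.g i x)⁻¹) c l • (iW (ep l) *ᵥ β i x))) := by
      intro l
      rw [← Finset.sum_smul, ← map_sum, ← Matrix.mul_apply, Matrix.mulVec_smul]
      ext S
      simp
    rw [Finset.sum_congr rfl fun l _ => h3 l, ← star_sum, ← Matrix.mulVec_sum, h1,
      Matrix.mulVec_zero, star_zero]

/-! ### the endomorphism of a finite family -/

/-- a finite family of holomorphic forms -/
structure Fam (A : Atl n M) where
  κ : Type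
  fin : Fintype κ
  deg : κ → ℕ
  β : κ → A.ι → M → FI n → ℂ
  mem : ∀ k, β k ∈ Om A (deg k)
  pos : ∀ k, deg k ≠ 0

attribute [instance] Fam.fin

variable (F : Fam A) (K : Kah A)

/-- the endomorphism -/
def EF [T2Space M] [CompactSpace M] (P : Part A)
    (ric : ∀ i, ∀ x ∈ (A.e i).source, (cur (volK K) i x).PosSemidef) : HEnd A where
  E i x := ∑ k, (ctE (F.mem k) (dv_mem P K ric (F.mem k)).1).E i x
  hol i a b := by
    have h1 : HolAt A i univ (fun x => ∑ k,
        (ctE (F.mem k) (dv_mem P K ric (F.mem k)).1).E i x a b) :=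
      HolAt.sum _ fun k _ => (ctE (F.mem k) (dv_mem P K ric (F.mem k)).1).hol i a b
    refine h1.congr fun x _ _ => ?_
    rw [Matrix.sum_apply]
  tr i j x hx := by
    rw [Matrix.mul_sum, Matrix.sum_mul]
    exact Finset.sum_congr rfl fun k _ => (ctE (F.mem k) (dv_mem P K ric (F.mem k)).1).tr i j x hx

section EF

variable [T2Space M] [CompactSpace M] (P : Part A)
    (ric : ∀ i, ∀ x ∈ (A.e i).source, (cur (volK K) i x).PosSemidef)

theorem EF_g {i : A.ι} {x : M} (hx : x ∈ (A.e i).source) :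
    (K.g i x)ᵀ * (EF F K P ric).E i x = ∑ k, Bm (K.g i x) (F.β k i x) := by
  show (K.g i x)ᵀ * ∑ k, ctM (F.β k i x) (dv K (F.β k) i x) = _
  rw [Matrix.mul_sum]
  exact Finset.sum_congr rfl fun k _ => g_ctM (K.pos i x hx) _

theorem EF_psd {i : A.ι} {x : M} (hx : x ∈ (A.e i).source) :
    ((K.g i x)ᵀ * (EF F K P ric).E i x).PosSemidef := by
  rw [EF_g F K P ric hx]
  exact Matrix.posSemidef_sum _ fun k _ => Bm_psd (K.pos i x hx) _

/-- the kernel of the endomorphism -/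
theorem EF_ker {i : A.ι} {x : M} (hx : x ∈ (A.e i).source) (u : Fin n → ℂ) :
    (EF F K P ric).E i x *ᵥ u = 0 ↔ ∀ k, iW u *ᵥ F.β k i x = 0 := by
  have hg := K.pos i x hx
  have h0 : (EF F K P ric).E i x *ᵥ u = 0 ↔
      ((K.g i x)ᵀ * (EF F K P ric).E i x) *ᵥ u = 0 := by
    constructor
    · intro h
      rw [← Matrix.mulVec_mulVec, h, Matrix.mulVec_zero]
    · intro h
      rw [← Matrix.mulVec_mulVec] at h
      have h1 : ((K.g i x)ᵀ)⁻¹ * (K.g i x)ᵀ = 1 := inv_T hg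
      have h2 := congrArg (fun w => ((K.g i x)ᵀ)⁻¹ *ᵥ w) h
      simp only [Matrix.mulVec_zero] at h2
      rwa [Matrix.mulVec_mulVec, h1, Matrix.one_mulVec] at h2
  rw [h0, ← (EF_psd F K P ric hx).dotProduct_mulVec_zero_iff, EF_g F K P ric hx,
    Matrix.sum_mulVec, dotProduct_sum,
    Finset.sum_eq_zero_iff_of_nonneg fun k _ => (Bm_psd hg _).dotProduct_mulVec_nonneg u]
  constructor
  · intro h k
    exact (Bm_ker hg _ u).1 (h k (Finset.mem_univ k))
  · intro h k _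
    exact (Bm_ker hg _ u).2 (h k)

/-- the image of the endomorphism is null for the Ricci form -/
theorem EF_null {i : A.ι} {x : M} (hx : x ∈ (A.e i).source) :
    (cur (volK K) i x)ᵀ * (EF F K P ric).E i x = 0 := by
  show (cur (volK K) i x)ᵀ * ∑ k, (ctE (F.mem k) (dv_mem P K ric (F.mem k)).1).E i x = 0
  rw [Matrix.mul_sum]
  exact Finset.sum_eq_zero fun k _ => ctE_null (F.mem k) (dv_mem P K ric (F.mem k)) i hx

end EF

end

end Crest.Agent.R273.ParE_880
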