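import Crest.Agent.R273.NoHVF_376
import Crest.Agent.R273.ParE_880
import Crest.Agent.R273.HFlow9_376

/-!
# R273 (S0416), Part B (helper376): polyvectors and forms of degree one

* `c1`, `v1`         : coordinates of the part of degree one of the Fock space
* `PV.toHVF`         : elements of `PV (1 : LB A) 1` as holomorphic vector fields (`HVF`)
* `ricV_of_null`     : null ⇒ `ricV = 0`
* `Om1`              : `H1 A → Om A 1`
* `exists_par`       : every holomorphic 1-form on a compact `(M, K)`, `Ric ≥ 0`, is `⟨·, V⟩` for a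
  parallel holomorphic vector field; hence `Om A 1 ≃ₗ H1 A`
-/

set_option autoImplicit false
set_option linter.unusedSectionVars false

open Set Filter Topology Complex
open scoped ContDiff Matrix ComplexConjugate ComplexOrder

namespace Crest.Agent.R273.DegOne_376

open Crest.Agent.R275.Geo Crest.Agent.R275.Core144 Crest.Agent.R275.EDR890
open Crest.Agent.R275.Kos798
open Crest.Agent.R273.Defs_333 Crest.Agent.R273.Hess_333 Crest.Agent.R273.HessB_333
open Crest.Agent.R273.HM_333 Crest.Agent.R273.Kah_333 Crest.Agent.R273.Vol_333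
open Crest.Agent.R273.HFlow3_376 Crest.Agent.R273.HFlow7_376 Crest.Agent.R273.HFlow8_376
open Crest.Agent.R273.NoHVF_376 Crest.Agent.R273.Fock_243 Crest.Agent.R273.NV_578
open Crest.Agent.R273.HolF_578 Crest.Agent.R273.ParE_880

noncomputable section

/-! ### the part of degree one of the Fock space -/

section Fock

variable {n : ℕ}

/-- the part of degree one -/
def c1 (v : FI n → ℂ) : Fin n → ℂ := fun a => v {a}

/-- the vector of degree one -/
def v1 (u : Fin n → ℂ) : FI n → ℂ := fun S => ∑ a, if S = {a} then u a else 0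

@[simp] theorem c1_v1 (u : Fin n → ℂ) : c1 (v1 u) = u := by
  funext a
  rw [c1, v1, Finset.sum_eq_single a]
  · rw [if_pos rfl]
  · intro b _ hb
    rw [if_neg]
    intro h
    exact hb (Finset.singleton_injective h).symm
  · intro h
    exact absurd (Finset.mem_univ a) h

theorem v1_single (u : Fin n → ℂ) (a : Fin n) : v1 u {a} = u a := congrFun (c1_v1 u) a

theorem v1_card {u : Fin n → ℂ} {S : FI n} (h : S.card ≠ 1) : v1 u S = 0 := by
  refine Finset.sum_eq_zero fun a _ => if_neg fun h' => h ?_
  rw [h', Finset.card_singleton]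

theorem v1_c1 {v : FI n → ℂ} (h : ∀ S : FI n, S.card ≠ 1 → v S = 0) : v1 (c1 v) = v := by
  funext S
  by_cases hS : S.card = 1
  · obtain ⟨a, rfl⟩ := Finset.card_eq_one.1 hS
    exact v1_single _ a
  · rw [v1_card hS, h S hS]

theorem sum_card_one {f : FI n → ℂ} (h : ∀ S : FI n, S.card ≠ 1 → f S = 0) :
    ∑ S, f S = ∑ a, f {a} := by
  symm
  have e := Finset.sum_map Finset.univ
    (⟨fun a : Fin n => ({a} : FI n), Finset.singleton_injective⟩ : Fin n ↪ FI n) f
  refine (e.symm : ∑ a : Fin n, f {a} = _).trans ?_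
  refine Finset.sum_subset (Finset.subset_univ _) fun S _ hS => h S fun hc => hS ?_
  obtain ⟨a, rfl⟩ := Finset.card_eq_one.1 hc
  exact Finset.mem_map.2 ⟨a, Finset.mem_univ a, rfl⟩

theorem Gam_one_one (m : Matrix (Fin n) (Fin n) ℂ) (a b : Fin n) : Gam m {a} {b} = m a b := by
  rw [Gam_eq m (k := 1) (Finset.card_singleton a) (Finset.card_singleton b)]
  rw [Matrix.det_fin_one, Matrix.submatrix_apply]
  simp [Finset.orderEmbOfFin_singleton]

theorem c1_Gam (m : Matrix (Fin n) (Fin n) ℂ) (v : FI n → ℂ) :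
    c1 (Gam m *ᵥ v) = m *ᵥ c1 v := by
  funext a
  have h1 : c1 (Gam m *ᵥ v) a = ∑ S, Gam m {a} S * v S := rfl
  rw [h1, sum_card_one]
  · simp only [Gam_one_one]
    rfl
  · intro S hS
    rw [Gam_of_ne _ (by rw [Finset.card_singleton]; exact fun h => hS h.symm), zero_mul]

theorem Gam_v1 (m : Matrix (Fin n) (Fin n) ℂ) (u : Fin n → ℂ) :
    Gam m *ᵥ v1 u = v1 (m *ᵥ u) := by
  have h1 : ∀ S : FI n, S.card ≠ 1 → (Gam m *ᵥ v1 u) S = 0 := by
    intro S hS
    change ∑ T, Gam m S T * v1 u T = 0
    refine Finset.sum_eq_zero fun T _ => ?_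
    by_cases hT : T.card = 1
    · rw [Gam_of_ne _ (by rw [hT]; exact hS), zero_mul]
    · rw [v1_card hT, mul_zero]
  rw [← v1_c1 h1, c1_Gam, c1_v1]

/-- contraction of a vector of degree one -/
theorem iW_empty (w : Fin n → ℂ) (v : FI n → ℂ) :
    (iW w *ᵥ v) ∅ = ∑ a, w a * v {a} := by
  unfold iW
  rw [K_mulVec]
  unfold op
  refine Finset.sum_congr rfl fun a _ => ?_
  simp [sgn, cf, tog]

/-- the part of degree one of `e_a ∧ f` -/
theorem eW_single_apply (a b : Fin n) (v : FI n → ℂ) :
    (eW (ep a) *ᵥ v) {b} = if a = b then v ∅ else 0 := by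
  unfold eW
  rw [K_mulVec]
  unfold op
  rw [Finset.sum_eq_single b]
  · have h1 : (({b} : FI n).filter (· < b)) = ∅ := by
      ext x
      simp only [Finset.mem_filter, Finset.mem_singleton, Finset.notMem_empty, iff_false, not_and]
      rintro rfl
      exact lt_irrefl _
    simp only [sgn, cf, tog, h1, Finset.mem_singleton, if_true, Finset.card_empty, pow_zero,
      one_mul, Finset.erase_singleton]
    by_cases hab : a = b
    · subst hab
      simp
    · rw [if_neg hab, show (ep a : Fin n → ℂ) b = 0 from Pi.single_eq_of_ne (Ne.symm hab) _,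
        zero_mul]
  · intro c _ hc
    simp [cf, Finset.mem_singleton, hc]
  · intro h
    exact absurd (Finset.mem_univ b) h

end Fock

/-! ### holomorphic vector fields as polyvectors -/

section Field

variable {n : ℕ} {M : Type} [TopologicalSpace M] {A : Atl n M}

/-- an element of `PV (1 : LB A) 1` as a holomorphic vector field -/
def toHVF {v : A.ι → M → FI n → ℂ} (hv : v ∈ PV (1 : LB A) 1) : HVF A where
  X i x := WithLp.toLp 2 (c1 (v i x))
  hol i := by
    rw [differentiableOn_euclidean]
    intro a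
    exact DifferentiableOn.mono (hv.1 i {a}) fun z hz => ⟨hz, trivial⟩
  tr i j x hx := by
    have h1 := hv.2.2.2 j i x ⟨hx.2, hx.1⟩
    rw [LB.one_g, one_smul] at h1
    have h2 : c1 (v j x) = Jm A i j x *ᵥ c1 (v i x) := by rw [h1, c1_Gam]
    have h3 := tm_eq_Tm A A id i j x (WithLp.toLp 2 (c1 (v i x)))
    ext b
    have h4 := congrFun h3 b
    have h5 := congrFun h2 b
    exact h5.trans h4.symm

@[simp] theorem toHVF_X {v : A.ι → M → FI n → ℂ} (hv : v ∈ PV (1 : LB A) 1) (i : A.ι) (x : M)
    (a : Fin n) : (toHVF hv).X i x a = v i x {a} := rfl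

/-- null vectors have no Ricci term -/
theorem ricV_of_null {K : Kah A} {v : A.ι → M → FI n → ℂ} (hv : v ∈ PV (1 : LB A) 1)
    (hn : v ∈ NulS (volK K)) {i : A.ι} {x : M} (hx : x ∈ (A.e i).source) :
    ricV K (toHVF hv) i x = 0 := by
  unfold ricV
  rw [Finset.sum_comm]
  refine Finset.sum_eq_zero fun d _ => ?_
  have h1 := congrFun (mem_NulS.1 hn i x hx d) ∅
  rw [Finset.sum_apply] at h1
  have h2 : ∀ c, (cur (volK K) i x c d • (iW (ep c) *ᵥ v i x)) ∅ =
      cur (volK K) i x c d * v i x {c} := by
    intro c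
    rw [Pi.smul_apply, smul_eq_mul, iW_empty, Finset.sum_eq_single c]
    · rw [show (ep c : Fin n → ℂ) c = 1 from Pi.single_eq_same _ _, one_mul]
    · intro b _ hb
      rw [show (ep c : Fin n → ℂ) b = 0 from Pi.single_eq_of_ne hb _, zero_mul]
    · intro h
      exact absurd (Finset.mem_univ c) h
  rw [Finset.sum_congr rfl fun c _ => h2 c] at h1
  rw [← Finset.sum_mul]
  simp only [toHVF_X]
  rw [h1]
  simp

theorem par_of_NV [T2Space M] [CompactSpace M] [Finite A.ι] (P : Part A) {K : Kah A}
    {v : A.ι → M → FI n → ℂ} (hv : v ∈ NV (1 : LB A) (volK K) 1) : Par K (toHVF hv.1) :=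
  par_of_null P fun i x hx => by rw [ricV_of_null hv.1 hv.2 hx]; exact le_of_eq rfl

/-! ### holomorphic 1-forms -/

/-- a closed holomorphic 1-form in the Fock picture -/
def om1 (b : A.ι → M → (Cn n →L[ℂ] ℂ)) : A.ι → M → FI n → ℂ := fun i x =>
  v1 fun a => b i x (EuclideanSpace.single a 1)

theorem sum_single (v : Cn n) : ∑ a, v a • (EuclideanSpace.single a (1 : ℂ) : Cn n) = v := by
  ext b
  simp [Finset.sum_apply, Pi.single_apply]

theorem clm_apply (b : Cn n →L[ℂ] ℂ) (v : Cn n) :
    b v = ∑ a, b (EuclideanSpace.single a 1) * v a := by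
  conv_lhs => rw [← sum_single v]
  rw [map_sum]
  exact Finset.sum_congr rfl fun a _ => by rw [map_smul, smul_eq_mul, mul_comm]

theorem om1_mem {b : A.ι → M → (Cn n →L[ℂ] ℂ)} (hb : b ∈ Alb645.H1 A) : om1 b ∈ Om A 1 := by
  refine ⟨fun i T => ?_, fun i x hx => ?_, fun i x T hT => v1_card hT, fun i j x hx => ?_⟩
  · have h1 : ∀ a, HolAt A i univ (fun x => b i x (EuclideanSpace.single a 1)) := by
      intro a z hz
      have h2 := hb.1 i z hz.1
      exact (h2.mono inter_subset_left).clm_apply (differentiableWithinAt_const _)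
    have h3 : HolAt A i univ (fun x => ∑ a, if T = {a} then b i x (EuclideanSpace.single a 1)
        else 0) := by
      refine HolAt.sum _ fun a _ => ?_
      by_cases h : T = {a}
      · simp only [if_pos h]; exact h1 a
      · simp only [if_neg h]; exact holAt_const 0
    exact h3
  · funext T
    have h1 : b i x = 0 := hb.2.1 i x hx
    simp [om1, v1, h1]
  · have h1 := hb.2.2.1 i j x hx
    unfold om1
    rw [Gam_v1]
    congr 1
    funext a
    rw [h1, ContinuousLinearMap.comp_apply, clm_apply]
    change _ = ∑ c, (Jm A i j x) c a * b j x (EuclideanSpace.single c 1)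
    exact Finset.sum_congr rfl fun c _ => mul_comm _ _

/-- the form of a `1`-vector is determined by the coefficients -/
theorem clm_ext {b b' : Cn n →L[ℂ] ℂ}
    (h : ∀ a, b (EuclideanSpace.single a 1) = b' (EuclideanSpace.single a 1)) : b = b' := by
  ext v
  rw [clm_apply b, clm_apply b']
  exact Finset.sum_congr rfl fun a _ => by rw [h a]

/-- every holomorphic 1-form is `⟨·, V⟩` with `V` parallel -/
theorem exists_par_om [T2Space M] [CompactSpace M] [Finite A.ι] (P : Part A) (K : Kah A)
    (hK : (volK K).Semipos) {β : A.ι → M → FI n → ℂ} (hβ : β ∈ Om A 1) :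
    ∃ V : HVF A, Par K V ∧ ∀ i, ∀ x ∈ (A.e i).source, ∀ a,
      lowF K V i x (EuclideanSpace.single a 1) = β i x {a} := by
  have hric : ∀ i, ∀ x ∈ (A.e i).source, (cur (volK K) i x).PosSemidef := fun i x hx =>
    cur_posSemidef hK i hx
  have h1 := dv_mem P K hric hβ
  refine ⟨toHVF h1.1, par_of_NV P h1, fun i x hx a => ?_⟩
  rw [lowF_hf hx, hf_eq, Finset.sum_eq_single a]
  · have hs : (EuclideanSpace.single a (1 : ℂ) : Cn n) a = 1 := by simp
    simp only [hs, mul_one]
    have h2 : ∀ b, (toHVF h1.1).X i x b = star (((K.g i x)⁻¹ *ᵥ c1 (β i x)) b) := by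
      intro b
      rw [toHVF_X]
      change star ((Gam (K.g i x)⁻¹ *ᵥ β i x) {b}) = _
      rw [← c1_Gam]
      rfl
    have h3 : ∀ b, K.g i x a b * conj ((toHVF h1.1).X i x b) =
        K.g i x a b * ((K.g i x)⁻¹ *ᵥ c1 (β i x)) b := by
      intro b
      rw [h2 b, ← RCLike.star_def, star_star]
    rw [Finset.sum_congr rfl fun b _ => h3 b]
    have h4 : K.g i x *ᵥ ((K.g i x)⁻¹ *ᵥ c1 (β i x)) = c1 (β i x) := by
      rw [Matrix.mulVec_mulVec, Matrix.mul_nonsing_inv _ (K.pos i x hx).det_pos.ne'.isUnit,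
        Matrix.one_mulVec]
    exact congrFun h4 a
  · intro b _ hb
    have hs : (EuclideanSpace.single a (1 : ℂ) : Cn n) b = 0 := by
      simp [hb]
    exact Finset.sum_eq_zero fun c _ => by rw [hs]; ring
  · intro h
    exact absurd (Finset.mem_univ a) h

/-- every closed holomorphic 1-form is `⟨·, V⟩` with `V` parallel -/
theorem exists_par [T2Space M] [CompactSpace M] [Finite A.ι] (P : Part A) (K : Kah A)
    (hK : (volK K).Semipos) {b : A.ι → M → (Cn n →L[ℂ] ℂ)} (hb : b ∈ Alb645.H1 A) :
    ∃ V : HVF A, Par K V ∧ lowF K V = b := by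
  obtain ⟨V, hV, h⟩ := exists_par_om P K hK (om1_mem hb)
  refine ⟨V, hV, ?_⟩
  funext i x
  by_cases hx : x ∈ (A.e i).source
  · refine clm_ext fun a => ?_
    rw [h i x hx a]
    exact v1_single _ a
  · rw [(lowF_mem hV).2.1 i x hx, hb.2.1 i x hx]

/-- holomorphic 1-forms are closed: `Om A 1 ≃ₗ H1 A` -/
def omH1 [T2Space M] [CompactSpace M] [Finite A.ι] (P : Part A) (K : Kah A)
    (hK : (volK K).Semipos) : Alb645.H1 A ≃ₗ[ℂ] Om A 1 :=
  LinearEquiv.ofBijective
    { toFun := fun b => ⟨om1 b.1, om1_mem b.2⟩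
      map_add' := fun b b' => by
        apply Subtype.ext
        funext i x S
        simp only [om1, v1, Submodule.coe_add, Pi.add_apply, add_apply,
          ← Finset.sum_add_distrib]
        refine Finset.sum_congr rfl fun a _ => ?_
        split_ifs <;> simp
      map_smul' := fun c b => by
        apply Subtype.ext
        funext i x S
        simp only [om1, v1, Submodule.coe_smul, Pi.smul_apply, smul_apply,
          RingHom.id_apply, smul_eq_mul, Finset.mul_sum]
        refine Finset.sum_congr rfl fun a _ => ?_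
        split_ifs <;> simp }
    (by
      constructor
      · intro b b' h
        have h0 : om1 b.1 = om1 b'.1 := congrArg Subtype.val h
        apply Subtype.ext
        funext i x
        refine clm_ext fun a => ?_
        have h1 := congrFun (congrFun (congrFun h0 i) x) {a}
        unfold om1 at h1
        rw [v1_single, v1_single] at h1
        exact h1
      · intro β
        obtain ⟨V, hV, h⟩ := exists_par_om P K hK β.2
        refine ⟨⟨lowF K V, lowF_mem hV⟩, ?_⟩
        apply Subtype.ext
        funext i x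
        change om1 (lowF K V) i x = β.1 i x
        by_cases hx : x ∈ (A.e i).source
        · rw [← v1_c1 (v := β.1 i x) (fun S hS => β.2.2.2.1 i x S hS)]
          unfold om1
          congr 1
          funext a
          exact h i x hx a
        · rw [(om1_mem (lowF_mem hV)).2.1 i x hx, β.2.2.1 i x hx])

@[simp] theorem omH1_coe [T2Space M] [CompactSpace M] [Finite A.ι] (P : Part A) (K : Kah A)
    (hK : (volK K).Semipos) (b : Alb645.H1 A) : (omH1 P K hK b).1 = om1 b.1 := rfl

end Field

end

end Crest.Agent.R273.DegOne_376
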