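import Crest.Agent.R273.Bkn_243

/-!
# R273 (S0416), BP-D leaf D.8 (helper37), part 1: change of coordinates for the weighted divergence

Pointwise in `Cn n`, for a smooth matrix `m` (the Jacobian matrix), `m` with symmetric
derivative, inverse `mi` at the point:

* `dS_det` : Jacobi's formula;
* `comm_Gam` : `∑_l i(mi_l) ∂_l (Γ(m) U) = Γ(m) ∑_l i_l ∂_l U + ∑_a tr(mi ∂_a m) Γ(m) i_a U`;
* `del_law` : the transformation law of `∑ i_l ∂_l (ρ v)`.
-/

set_option autoImplicit false
set_option linter.unusedSectionVars false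

open Finset Matrix Complex
open scoped ContDiff ComplexConjugate

namespace Crest.Agent.R273.DelLaw_37

open Crest.Agent.R275.Geo Crest.Agent.R273.Fock_243 Crest.Agent.R273.Calc_243
open Crest.Agent.R273.Bkn_243

noncomputable section

variable {n : ℕ}

theorem sum_adj_col (A : Matrix (Fin n) (Fin n) ℂ) (i : Fin n) (b : Fin n → ℂ) :
    (A.updateCol i b).det = ∑ j, A.adjugate i j * b j := by
  rw [← Matrix.cramer_apply, Matrix.cramer_eq_adjugate_mulVec]
  rfl

theorem hasFDerivAt_det {V : Type*} [NormedAddCommGroup V] [NormedSpace ℝ V]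
    {A : V → Matrix (Fin n) (Fin n) ℂ} {A' : Fin n → Fin n → V →L[ℝ] ℂ} {x : V}
    (hA : ∀ i j, HasFDerivAt (fun y => A y i j) (A' i j) x) :
    HasFDerivAt (fun y => (A y).det) (∑ i, ∑ j, (A x).adjugate i j • A' j i) x := by
  have h1 : ∀ y, (A y).det =
      ∑ σ : Equiv.Perm (Fin n), ((Equiv.Perm.sign σ : ℤ) : ℂ) * ∏ i, A y (σ i) i := by
    intro y; rw [Matrix.det_apply']
  simp_rw [h1]
  have h2 : HasFDerivAt
      (fun y => ∑ σ : Equiv.Perm (Fin n), ((Equiv.Perm.sign σ : ℤ) : ℂ) * ∏ i, A y (σ i) i)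
      (∑ σ : Equiv.Perm (Fin n), ((Equiv.Perm.sign σ : ℤ) : ℂ) •
        ∑ i, (∏ j ∈ univ.erase i, A x (σ j) j) • A' (σ i) i) x := by
    refine HasFDerivAt.fun_sum fun σ _ => ?_
    exact (HasFDerivAt.finsetProd (fun i _ => hA (σ i) i)).const_mul _
  refine h2.congr_fderiv ?_
  ext v
  simp only [_root_.sum_apply, _root_.smul_apply, smul_eq_mul]
  simp_rw [← sum_adj_col (A x) _ (fun j => A' j _ v), Matrix.det_apply']
  rw [Finset.sum_comm]
  refine Finset.sum_congr rfl fun σ _ => ?_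
  rw [Finset.mul_sum]
  refine Finset.sum_congr rfl fun i _ => ?_
  congr 1
  rw [← Finset.mul_prod_erase univ _ (mem_univ i)]
  simp only [Matrix.updateCol_self]
  rw [mul_comm]
  congr 1
  refine Finset.prod_congr rfl fun j hj => ?_
  rw [Matrix.updateCol_ne (ne_of_mem_erase hj)]

/-- Jacobi's formula -/
theorem dS_det {s : ℂ} {a : Fin n} {m : Cn n → Matrix (Fin n) (Fin n) ℂ} {z : Cn n}
    (hm : SmM z m) :
    dS s a (fun y => (m y).det) z = ∑ i, ∑ j, (m z).adjugate i j * dM s a m z j i := by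
  have h := (hasFDerivAt_det (A := m) (x := z)
    (A' := fun i j => fderiv ℝ (fun y => m y i j) z) fun i j => (hm i j).diff.hasFDerivAt).fderiv
  unfold dS
  rw [h]
  simp only [_root_.sum_apply, _root_.smul_apply, smul_eq_mul, dM, dS, Finset.mul_sum,
    ← Finset.sum_add_distrib]
  refine Finset.sum_congr rfl fun i _ => Finset.sum_congr rfl fun j _ => ?_
  ring

variable {m : Cn n → Matrix (Fin n) (Fin n) ℂ} {mi : Matrix (Fin n) (Fin n) ℂ} {z : Cn n}

theorem iW_mi_Gam {A mi : Matrix (Fin n) (Fin n) ℂ} (hi : mi * A = 1) (l : Fin n) :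
    iW (mi l) * Gam A = Gam A * iW (ep l) := by
  rw [iW_Gam]
  congr 2
  ext a
  have h := congrFun (congrFun hi l) a
  rw [Matrix.mul_apply] at h
  simp only [Matrix.mulVec, dotProduct, Matrix.transpose_apply]
  rw [Finset.sum_congr rfl fun b _ => mul_comm (A b a) (mi l b), h, Matrix.one_apply]
  by_cases hla : l = a
  · subst hla; simp
  · rw [if_neg hla, ep, Pi.single_eq_of_ne (Ne.symm hla)]

/-- `tr (mi ∂_a m)` -/
def trd (m : Cn n → Matrix (Fin n) (Fin n) ℂ) (mi : Matrix (Fin n) (Fin n) ℂ) (z : Cn n)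
    (a : Fin n) : ℂ := ∑ l, ∑ b, mi l b * dM (-I) a m z b l

theorem sum_iW_dM_Gam (hm : SmM z m) (hi : mi * m z = 1)
    (hs : ∀ k b c, dM (-I) k m z c b = dM (-I) b m z c k) :
    ∑ l, iW (mi l) * dM (-I) l (fun y => Gam (m y)) z
      = ∑ a, trd m mi z a • (Gam (m z) * iW (ep a)) := by
  have h0 : ∑ l, dM (-I) l (fun y => Gam (m y)) z * iW (ep l) = 0 :=
    kahler_i (A := m z) (fun k => dM (-I) k m z) (fun k => dM (-I) k (fun y => Gam (m y)) z)
      (fun _ j => iW_dM_Gam hm j) (fun _ S => dM_Gam_vac' S) hs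
  have h1 : ∀ l, iW (mi l) * dM (-I) l (fun y => Gam (m y)) z
      = Gam (m z) * iW (fun a => ∑ b, mi l b * dM (-I) l m z b a)
        + dM (-I) l (fun y => Gam (m y)) z * iW (ep l) := by
    intro l
    rw [iW_eq_sum (mi l), Finset.sum_mul]
    have e1 : ∀ b, mi l b • iW (ep b) * dM (-I) l (fun y => Gam (m y)) z
        = Gam (m z) * iW (mi l b • fun a => dM (-I) l m z b a)
          + dM (-I) l (fun y => Gam (m y)) z * iW (mi l b • fun a => m z b a) := by
      intro b
      rw [smul_mul_assoc, iW_dM_Gam hm b, iW_smul, iW_smul, mul_smul_comm, mul_smul_comm, smul_add]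
    have e2 : ∀ f : Fin n → Fin n → ℂ, (∑ b, iW (f b) : Matrix (FI n) (FI n) ℂ)
        = iW (fun a => ∑ b, f b a) := by
      intro f
      have e3 : (fun a => ∑ b, f b a) = ∑ b, f b := by
        ext a; rw [Finset.sum_apply]
      rw [e3]
      let F : (Fin n → ℂ) →+ Matrix (FI n) (FI n) ℂ :=
        { toFun := iW, map_zero' := iW_zero, map_add' := iW_add }
      exact (map_sum F f univ).symm
    rw [Finset.sum_congr rfl fun b _ => e1 b, Finset.sum_add_distrib, ← Finset.mul_sum,
      ← Finset.mul_sum, e2, e2]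
    congr 2
    congr 1
    ext a
    have h := congrFun (congrFun hi l) a
    rw [Matrix.mul_apply] at h
    simp only [Pi.smul_apply, smul_eq_mul]
    rw [h, Matrix.one_apply]
    by_cases hla : l = a
    · subst hla; simp
    · rw [if_neg hla, ep, Pi.single_eq_of_ne (Ne.symm hla)]
  rw [Finset.sum_congr rfl fun l _ => h1 l, Finset.sum_add_distrib, h0, add_zero]
  have h2 : ∀ l, Gam (m z) * iW (fun a => ∑ b, mi l b * dM (-I) l m z b a)
      = ∑ a, (∑ b, mi l b * dM (-I) a m z b l) • (Gam (m z) * iW (ep a)) := by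
    intro l
    rw [iW_eq_sum, Finset.mul_sum]
    refine Finset.sum_congr rfl fun a _ => ?_
    rw [mul_smul_comm]
    congr 1
    exact Finset.sum_congr rfl fun b _ => by rw [hs l a b]
  rw [Finset.sum_congr rfl fun l _ => h2 l, Finset.sum_comm]
  refine Finset.sum_congr rfl fun a _ => ?_
  rw [← Finset.sum_smul]
  rfl

/-- commutation of `Γ(m)` with the divergence -/
theorem comm_Gam (hm : SmM z m) (hi : mi * m z = 1)
    (hs : ∀ k b c, dM (-I) k m z c b = dM (-I) b m z c k) {U : Cn n → FI n → ℂ} (hU : SmV z U) :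
    ∑ l, iW (mi l) *ᵥ dV (-I) l (fun y => Gam (m y) *ᵥ U y) z
      = Gam (m z) *ᵥ (∑ l, iW (ep l) *ᵥ dV (-I) l U z)
        + ∑ a, trd m mi z a • (iW (mi a) *ᵥ (Gam (m z) *ᵥ U z)) := by
  have h1 : ∀ l, iW (mi l) *ᵥ dV (-I) l (fun y => Gam (m y) *ᵥ U y) z
      = (iW (mi l) * dM (-I) l (fun y => Gam (m y)) z) *ᵥ U z
        + Gam (m z) *ᵥ (iW (ep l) *ᵥ dV (-I) l U z) := by
    intro l
    rw [dV_mulVec (fun S T => (SmM.Gam hm S T).diff) (fun S => (hU S).diff), Matrix.mulVec_add,
      Matrix.mulVec_mulVec, Matrix.mulVec_mulVec, Matrix.mulVec_mulVec, iW_mi_Gam hi]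
  rw [Finset.sum_congr rfl fun l _ => h1 l, Finset.sum_add_distrib, ← Matrix.sum_mulVec,
    sum_iW_dM_Gam hm hi hs, ← Matrix.mulVec_sum, add_comm, Matrix.sum_mulVec]
  congr 1
  refine Finset.sum_congr rfl fun a _ => ?_
  rw [Matrix.smul_mulVec, Matrix.mulVec_mulVec, iW_mi_Gam hi]

/-- **change of coordinates for the weighted divergence** -/
theorem del_law (hm : SmM z m) (hi : mi * m z = 1)
    (hs : ∀ k b c, dM (-I) k m z c b = dM (-I) b m z c k)
    (hh : ∀ k b c, dM I k m z b c = 0)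
    {Vi Vj : Cn n → FI n → ℂ} (hVi : SmV z Vi) (hVj : SmV z Vj) {g wi wj : Cn n → ℂ}
    (hg : Sm z g) (hgh : ∀ k, dS I k g z = 0) (hwi : Sm z wi) (hwj : Sm z wj)
    (hV : ∀ᶠ y in nhds z, Gam (m y) *ᵥ Vi y = g y • Vj y)
    (hw : ∀ᶠ y in nhds z, wi y * (g y * conj (g y)) = (m y).det * conj ((m y).det) * wj y) :
    conj (g z) • (Gam (m z) *ᵥ (∑ l, iW (ep l) *ᵥ dV (-I) l (fun y => wi y • Vi y) z))
      = ((m z).det * conj ((m z).det)) •
          ∑ l, iW (mi l) *ᵥ dV (-I) l (fun y => wj y • Vj y) z := by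
  have hU : SmV z (fun y => wi y • Vi y) := fun S => hwi.mul (hVi S)
  have hUj : SmV z (fun y => wj y • Vj y) := fun S => hwj.mul (hVj S)
  have hD : Sm z (fun y => (m y).det) := SmM.det hm
  have h1 := comm_Gam hm hi hs hU
  -- multiply by `conj g`, which is killed by `∂`
  set c : Cn n → ℂ := fun y => (m y).det * conj ((m y).det) with hc
  have hcs : Sm z c := hD.mul hD.conj
  have hev : ∀ᶠ y in nhds z, conj (g y) • (Gam (m y) *ᵥ (wi y • Vi y)) = c y • (wj y • Vj y) := by
    filter_upwards [hV, hw] with y h2 h3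
    rw [Matrix.mulVec_smul, h2, smul_smul, smul_smul, smul_smul]
    congr 1
    rw [hc]
    simp only
    rw [← h3]
    ring
  have hGU : SmV z (fun y => Gam (m y) *ᵥ (wi y • Vi y)) := SmM.mulVec (SmM.Gam hm) hU
  have hdc : ∀ l, dS (-I) l (fun y => conj (g y)) z = 0 := by
    intro l
    rw [dS_conj hg.diff]
    have : conj (-I) = I := by simp
    rw [this, hgh, map_zero]
  have hddet : ∀ l, dS (-I) l c z = c z * trd m mi z l := by
    intro l
    rw [hc]
    have e1 : dS (-I) l (fun y => conj ((m y).det)) z = 0 := by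
      rw [dS_conj hD.diff]
      have : conj (-I) = I := by simp
      rw [this, dS_det hm]
      simp [hh]
    have e2 : dS (-I) l (fun y => (m y).det) z = (m z).det * trd m mi z l := by
      rw [dS_det hm]
      have e3 : (m z).adjugate = (m z).det • mi := by
        have e4 : mi * (m z * (m z).adjugate) = mi * ((m z).det • 1) := by rw [Matrix.mul_adjugate]
        rw [← mul_assoc, hi, one_mul, mul_smul_comm, mul_one] at e4
        exact e4
      rw [e3]
      unfold trd
      rw [Finset.mul_sum]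
      refine Finset.sum_congr rfl fun i _ => ?_
      rw [Finset.mul_sum]
      refine Finset.sum_congr rfl fun j _ => ?_
      rw [Matrix.smul_apply, smul_eq_mul]
      ring
    rw [dS_mul hD.diff hD.conj.diff, e1, e2]
    ring
  have h2 : ∀ l, conj (g z) • dV (-I) l (fun y => Gam (m y) *ᵥ (wi y • Vi y)) z
      = (c z * trd m mi z l) • (wj z • Vj z) + c z • dV (-I) l (fun y => wj y • Vj y) z := by
    intro l
    have e1 : dV (-I) l (fun y => conj (g y) • (Gam (m y) *ᵥ (wi y • Vi y))) z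
        = dV (-I) l (fun y => c y • (wj y • Vj y)) z := by
      funext S
      exact dS_congr (hev.mono fun y hy => congrFun hy S)
    rw [dV_smul (hg.conj).diff (fun i => (hGU i).diff), hdc, zero_smul, zero_add,
      dV_smul hcs.diff (fun i => (hUj i).diff), hddet] at e1
    exact e1
  have h3 : Gam (m z) *ᵥ (∑ l, iW (ep l) *ᵥ dV (-I) l (fun y => wi y • Vi y) z)
      = ∑ l, iW (mi l) *ᵥ dV (-I) l (fun y => Gam (m y) *ᵥ (wi y • Vi y)) z
        - ∑ a, trd m mi z a • (iW (mi a) *ᵥ (Gam (m z) *ᵥ (wi z • Vi z))) := by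
    rw [h1]; abel
  rw [h3, smul_sub, Finset.smul_sum, Finset.smul_sum, Finset.smul_sum, ← Finset.sum_sub_distrib]
  refine Finset.sum_congr rfl fun l _ => ?_
  rw [← Matrix.mulVec_smul, h2, Matrix.mulVec_add]
  have h4 : conj (g z) • trd m mi z l • (iW (mi l) *ᵥ (Gam (m z) *ᵥ (wi z • Vi z)))
      = iW (mi l) *ᵥ ((c z * trd m mi z l) • (wj z • Vj z)) := by
    rw [smul_comm, ← Matrix.mulVec_smul, hev.self_of_nhds, ← Matrix.mulVec_smul, smul_smul,
      mul_comm (trd m mi z l)]
  rw [h4, ← Matrix.mulVec_smul]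
  abel

/-- the weighted divergence as a divergence of `ρ v` -/
theorem del_eq {lam w : Cn n → ℂ} {v : Cn n → FI n → ℂ} (hl : Sm z lam) (hv : SmV z v)
    (hw : ∀ᶠ y in nhds z, w y = Complex.exp (lam y)) :
    ∑ l, iW (ep l) *ᵥ dV (-I) l (fun y => w y • v y) z = w z • del lam v z := by
  unfold del
  rw [Finset.smul_sum]
  refine Finset.sum_congr rfl fun l _ => ?_
  rw [← Matrix.mulVec_smul]
  congr 1
  have h1 : dV (-I) l (fun y => w y • v y) z
      = dV (-I) l (fun y => Complex.exp (lam y) • v y) z := by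
    funext S
    exact dS_congr (hw.mono fun y hy => by simp only [hy])
  have he : Sm z (fun y => Complex.exp (lam y)) := hl.cexp
  rw [h1, dV_smul he.diff (fun i => (hv i).diff), dS_exp hl.diff, hw.self_of_nhds, smul_add,
    smul_smul, add_comm]

end

end Crest.Agent.R273.DelLaw_37
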