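import Crest.Agent.R275.PaiB_323

/-!
# R273 (helper505): integration of densities on a compact `(M, A)`, positivity

* `IsDn A f` : smooth density (`f i` smooth on the chart `i`, `f i = dens A i j * f j`);
* `IntP P f = ∑ i, lint A i (ψ_i f_i)`; `pr_eq_IntP`;
* `th P j = ψ_j² / ∑ ψ²` : a nonnegative partition of unity; `IntP_eq_th`;
* `IntP_nonneg`, `IntP_mono`, `IntP_conj`, linearity.
-/

set_option autoImplicit false
set_option linter.unusedSectionVars false

open Set Filter Topology Complex MeasureTheory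
open scoped ContDiff Matrix ComplexConjugate

namespace Crest.Agent.R273.DnInt_505

open Crest.Agent.R275 Crest.Agent.R275.Geo Crest.Agent.R275.Tor812 Crest.Agent.R275.TorS666
  Crest.Agent.R275.C1d194 Crest.Agent.R275.Pai323
open Crest.Agent.R275.SerG398 (lint dens DPair FPair)

noncomputable section

variable {n : ℕ} {M : Type} [TopologicalSpace M] {A : Atl n M}

theorem smAt_mul {i : A.ι} {f g : M → ℂ} (hf : A.SmAt i f) (hg : A.SmAt i g) :
    A.SmAt i (fun x => f x * g x) := ContDiffOn.mul hf hg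

theorem smAt_add {i : A.ι} {f g : M → ℂ} (hf : A.SmAt i f) (hg : A.SmAt i g) :
    A.SmAt i (fun x => f x + g x) := ContDiffOn.add hf hg

theorem smAt_const (i : A.ι) (c : ℂ) : A.SmAt i (fun _ => c) := contDiffOn_const

theorem smAt_sum {i : A.ι} {σ : Type*} (s : Finset σ) {f : σ → M → ℂ}
    (hf : ∀ t ∈ s, A.SmAt i (f t)) : A.SmAt i (fun x => ∑ t ∈ s, f t x) :=
  ContDiffOn.sum hf

/-- a smooth density -/
structure IsDn (A : Atl n M) (f : A.ι → M → ℂ) : Prop where
  sm : ∀ i, A.SmAt i (f i)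
  tr : ∀ i j, ∀ x ∈ (A.e i).source ∩ (A.e j).source, f i x = dens A i j x * f j x

/-- the integral of a density -/
def IntP (P : Part A) (f : A.ι → M → ℂ) : ℂ := ∑ᶠ i, lint A i (fun x => (P.ψ i x : ℂ) * f i x)

theorem IntP_eq [Fintype A.ι] (P : Part A) (f : A.ι → M → ℂ) :
    IntP P f = ∑ i, lint A i (fun x => (P.ψ i x : ℂ) * f i x) := finsum_eq_sum_of_fintype _

theorem IntP_congr (P : Part A) {f g : A.ι → M → ℂ}
    (h : ∀ i, ∀ x ∈ (A.e i).source, f i x = g i x) : IntP P f = IntP P g := by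
  unfold IntP
  refine finsum_congr fun i => lint_congr fun x hx => ?_
  rw [h i x hx]

namespace IsDn

theorem add {f g : A.ι → M → ℂ} (hf : IsDn A f) (hg : IsDn A g) :
    IsDn A (fun i x => f i x + g i x) where
  sm i := (hf.sm i).add (hg.sm i)
  tr i j x hx := by rw [hf.tr i j x hx, hg.tr i j x hx, mul_add]

theorem sum {σ : Type*} (s : Finset σ) {f : σ → A.ι → M → ℂ} (hf : ∀ t ∈ s, IsDn A (f t)) :
    IsDn A (fun i x => ∑ t ∈ s, f t i x) where
  sm i := ContDiffOn.sum fun t ht => (hf t ht).sm i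
  tr i j x hx := by
    rw [Finset.mul_sum]
    exact Finset.sum_congr rfl fun t ht => (hf t ht).tr i j x hx

theorem fmul {g : M → ℂ} (hg : A.Sm g) {f : A.ι → M → ℂ} (hf : IsDn A f) :
    IsDn A (fun i x => g x * f i x) where
  sm i := (hg i).mul (hf.sm i)
  tr i j x hx := by rw [hf.tr i j x hx]; ring

theorem const_mul (c : ℂ) {f : A.ι → M → ℂ} (hf : IsDn A f) :
    IsDn A (fun i x => c * f i x) :=
  hf.fmul (g := fun _ => c) fun _ => contDiffOn_const

theorem sub {f g : A.ι → M → ℂ} (hf : IsDn A f) (hg : IsDn A g) :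
    IsDn A (fun i x => f i x - g i x) where
  sm i := (hf.sm i).sub (hg.sm i)
  tr i j x hx := by rw [hf.tr i j x hx, hg.tr i j x hx, mul_sub]

theorem dens_conj (i j : A.ι) (x : M) : conj (dens A i j x) = dens A i j x := by
  unfold dens
  exact Complex.conj_ofReal _

theorem conj' {f : A.ι → M → ℂ} (hf : IsDn A f) : IsDn A (fun i x => conj (f i x)) where
  sm i := Complex.conjCLE.contDiff.comp_contDiffOn (hf.sm i)
  tr i j x hx := by rw [hf.tr i j x hx, map_mul, dens_conj]

end IsDn

section two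

variable [T2Space M]

theorem cc_psi (P : Part A) {i : A.ι} {f : M → ℂ} (hf : A.SmAt i f) :
    CC A i (fun x => (P.ψ i x : ℂ) * f x) := by
  refine CC.of_zero_off ?_ (P.χ_cpt i) (P.χ_sub i) ?_
  · show ContDiffOn ℝ ∞ (fun z => (P.ψ i ((A.e i).symm z) : ℂ) * f ((A.e i).symm z)) _
    exact (smAt_ofReal (P.ψ_sm i i)).mul hf
  · intro x hx
    have : P.ψ i x = 0 := image_eq_zero_of_notMem_tsupport fun h => hx (tsupport_psi P i h)
    rw [this]; simp

theorem cc_psi_mul (P : Part A) {i : A.ι} {g : M → ℂ} (hg : A.SmAt i g) {f : M → ℂ}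
    (hf : A.SmAt i f) :
    CC A i (fun x => g x * ((P.ψ i x : ℂ) * f x)) := by
  have h := cc_psi P (smAt_mul hg hf)
  refine ⟨?_, ?_, ?_⟩
  · exact smAt_mul hg (smAt_mul (smAt_ofReal (P.ψ_sm i i)) hf)
  · have e : (fun x => g x * ((P.ψ i x : ℂ) * f x)) = fun x => (P.ψ i x : ℂ) * (g x * f x) := by
      funext x; ring
    rw [e]; exact h.cpt
  · have e : (fun x => g x * ((P.ψ i x : ℂ) * f x)) = fun x => (P.ψ i x : ℂ) * (g x * f x) := by
      funext x; ring
    rw [e]; exact h.sub

section fin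

variable [Finite A.ι]

theorem IntP_add (P : Part A) {f g : A.ι → M → ℂ} (hf : ∀ i, A.SmAt i (f i))
    (hg : ∀ i, A.SmAt i (g i)) :
    IntP P (fun i x => f i x + g i x) = IntP P f + IntP P g := by
  have := Fintype.ofFinite A.ι
  rw [IntP_eq, IntP_eq, IntP_eq, ← Finset.sum_add_distrib]
  refine Finset.sum_congr rfl fun i _ => ?_
  rw [← lint_add (cc_psi P (hf i)).integrable (cc_psi P (hg i)).integrable]
  congr 1
  funext x
  ring

theorem IntP_const_mul (P : Part A) (c : ℂ) (f : A.ι → M → ℂ) :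
    IntP P (fun i x => c * f i x) = c * IntP P f := by
  have := Fintype.ofFinite A.ι
  rw [IntP_eq, IntP_eq, Finset.mul_sum]
  refine Finset.sum_congr rfl fun i _ => ?_
  rw [← lint_smul]
  congr 1
  funext x
  ring

theorem IntP_sub (P : Part A) {f g : A.ι → M → ℂ} (hf : ∀ i, A.SmAt i (f i))
    (hg : ∀ i, A.SmAt i (g i)) :
    IntP P (fun i x => f i x - g i x) = IntP P f - IntP P g := by
  have h := IntP_add P hf (g := fun i x => (-1) * g i x) fun i => smAt_mul (smAt_const i _) (hg i)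
  rw [IntP_const_mul] at h
  have e : (fun (i : A.ι) (x : M) => f i x - g i x) = fun i x => f i x + (-1) * g i x := by
    funext i x; ring
  rw [e, h]; ring

theorem IntP_zero (P : Part A) : IntP P (fun _ _ => (0 : ℂ)) = 0 := by
  have h := IntP_const_mul P 0 (fun _ _ => (0 : ℂ))
  simpa using h

theorem IntP_sum (P : Part A) {σ : Type*} (s : Finset σ) {f : σ → A.ι → M → ℂ}
    (hf : ∀ t ∈ s, ∀ i, A.SmAt i (f t i)) :
    IntP P (fun i x => ∑ t ∈ s, f t i x) = ∑ t ∈ s, IntP P (f t) := by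
  classical
  induction s using Finset.induction_on with
  | empty => simpa using IntP_zero P
  | insert a s ha ih =>
    rw [Finset.sum_insert ha, ← ih fun t ht => hf t (Finset.mem_insert_of_mem ht),
      ← IntP_add P (hf a (Finset.mem_insert_self a s)) fun i => smAt_sum s fun t ht =>
        hf t (Finset.mem_insert_of_mem ht) i]
    congr 1
    funext i x
    rw [Finset.sum_insert ha]

/-- conjugation of an integral in a chart -/
theorem lint_conj (i : A.ι) (f : M → ℂ) : lint A i (fun x => conj (f x)) = conj (lint A i f) := by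
  unfold SerG398.lint
  rw [← integral_conj]
  congr 1
  funext x
  by_cases hx : x ∈ Ui A i
  · rw [rd_of_mem hx, rd_of_mem hx]
  · rw [rd_off hx, rd_off hx, map_zero]

theorem IntP_conj (P : Part A) (f : A.ι → M → ℂ) :
    IntP P (fun i x => conj (f i x)) = conj (IntP P f) := by
  have := Fintype.ofFinite A.ι
  rw [IntP_eq, IntP_eq, map_sum]
  refine Finset.sum_congr rfl fun i _ => ?_
  rw [← lint_conj]
  congr 1
  funext x
  rw [map_mul, Complex.conj_ofReal]

/-! ### the nonnegative partition of unity -/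

/-- `∑ ψ²` -/
def sqP (P : Part A) (x : M) : ℝ := ∑ᶠ i, P.ψ i x ^ 2

theorem sqP_eq [Fintype A.ι] (P : Part A) (x : M) : sqP P x = ∑ i, P.ψ i x ^ 2 :=
  finsum_eq_sum_of_fintype _

theorem sum_psi_fin [Fintype A.ι] (P : Part A) (x : M) : ∑ i, P.ψ i x = 1 := by
  rw [← finsum_eq_sum_of_fintype]; exact P.sum_one x

theorem sqP_pos (P : Part A) (x : M) : 0 < sqP P x := by
  have := Fintype.ofFinite A.ι
  rw [sqP_eq]
  by_contra h
  have h0 : ∑ i, P.ψ i x ^ 2 = 0 :=
    le_antisymm (not_lt.1 h) (Finset.sum_nonneg fun i _ => sq_nonneg _)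
  have h1 : ∀ i, P.ψ i x = 0 := fun i => by
    have := (Finset.sum_eq_zero_iff_of_nonneg fun i _ => sq_nonneg (P.ψ i x)).1 h0 i
      (Finset.mem_univ i)
    exact pow_eq_zero_iff two_ne_zero |>.1 this
  have h2 := sum_psi_fin P x
  simp [h1] at h2

/-- the nonnegative partition of unity -/
def th (P : Part A) (j : A.ι) (x : M) : ℝ := P.ψ j x ^ 2 / sqP P x

theorem th_nonneg (P : Part A) (j : A.ι) (x : M) : 0 ≤ th P j x :=
  div_nonneg (sq_nonneg _) (sqP_pos P x).le

theorem th_sum [Fintype A.ι] (P : Part A) (x : M) : ∑ j, th P j x = 1 := by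
  unfold th
  rw [← Finset.sum_div, ← sqP_eq, div_self (sqP_pos P x).ne']

theorem sqP_sm (P : Part A) : A.Sm (sqP P) := by
  have := Fintype.ofFinite A.ι
  intro i
  have e : (fun z => sqP P ((A.e i).symm z)) = fun z => ∑ j, P.ψ j ((A.e i).symm z) ^ 2 :=
    funext fun z => sqP_eq P _
  rw [e]
  exact ContDiffOn.sum fun j _ => (P.ψ_sm j i).pow 2

theorem th_sm (P : Part A) (j : A.ι) : A.Sm (th P j) := fun i =>
  ContDiffOn.div ((P.ψ_sm j i).pow 2) (sqP_sm P i) fun _ _ => (sqP_pos P _).ne'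

theorem th_eq (P : Part A) (j : A.ι) (x : M) :
    (th P j x : ℂ) = ((P.ψ j x / sqP P x : ℝ) : ℂ) * (P.ψ j x : ℂ) := by
  rw [← Complex.ofReal_mul]
  congr 1
  unfold th
  ring

theorem th_off (P : Part A) {j : A.ι} {x : M} (hx : x ∉ (A.e j).source) : th P j x = 0 := by
  unfold th
  rw [psi_off P hx]
  simp

theorem cc_th (P : Part A) {j : A.ι} {f : M → ℂ} (hf : A.SmAt j f) :
    CC A j (fun x => (th P j x : ℂ) * f x) := by
  have h1 : A.SmAt j (fun x => ((P.ψ j x / sqP P x : ℝ) : ℂ)) := by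
    have h2 : A.SmAt j (fun x => P.ψ j x / sqP P x) :=
      ContDiffOn.div (P.ψ_sm j j) (sqP_sm P j) fun _ _ => (sqP_pos P _).ne'
    exact smAt_ofReal h2
  have h := cc_psi_mul P h1 hf
  have e : (fun x => (th P j x : ℂ) * f x) =
      fun x => ((P.ψ j x / sqP P x : ℝ) : ℂ) * ((P.ψ j x : ℂ) * f x) := by
    funext x; rw [th_eq]; ring
  rw [e]; exact h

/-- the integral of a density by the nonnegative partition -/
theorem IntP_eq_th [Fintype A.ι] (P : Part A) {f : A.ι → M → ℂ} (hf : IsDn A f) :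
    IntP P f = ∑ j, lint A j (fun x => (th P j x : ℂ) * f j x) := by
  have h1 : ∀ i, lint A i (fun x => (P.ψ i x : ℂ) * f i x) =
      ∑ j, lint A i (fun x => (th P j x : ℂ) * ((P.ψ i x : ℂ) * f i x)) := by
    intro i
    rw [← lint_sum]
    · congr 1
      funext x
      rw [← Finset.sum_mul, ← Complex.ofReal_sum, th_sum, Complex.ofReal_one, one_mul]
    · intro j _
      exact (cc_psi_mul P (smAt_ofReal (th_sm P j i)) (hf.sm i)).integrable
  have h2 : ∀ j, lint A j (fun x => (th P j x : ℂ) * f j x) =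
      ∑ i, lint A j (fun x => (P.ψ i x : ℂ) * ((th P j x : ℂ) * f j x)) := by
    intro j
    rw [← lint_sum]
    · congr 1
      funext x
      rw [← Finset.sum_mul, ← Complex.ofReal_sum, sum_psi_fin, Complex.ofReal_one, one_mul]
    · intro i _
      have h3 := cc_th P (j := j) (f := fun x => (P.ψ i x : ℂ) * f j x)
        ((smAt_ofReal (P.ψ_sm i j)).mul (hf.sm j))
      have e : (fun x => (P.ψ i x : ℂ) * ((th P j x : ℂ) * f j x)) =
          fun x => (th P j x : ℂ) * ((P.ψ i x : ℂ) * f j x) := by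
        funext x; ring
      rw [e]; exact h3.integrable
  rw [IntP_eq, Finset.sum_congr rfl fun i _ => h1 i, Finset.sum_congr rfl fun j _ => h2 j,
    Finset.sum_comm]
  refine Finset.sum_congr rfl fun j _ => Finset.sum_congr rfl fun i _ => ?_
  apply lint_change
  · intro x hx
    by_cases hi : x ∈ (A.e i).source
    · rw [th_off P fun hj => hx ⟨hi, hj⟩]; simp
    · rw [psi_off P hi]; simp
  · intro x hx
    by_cases hi : x ∈ (A.e i).source
    · rw [th_off P fun hj => hx ⟨hi, hj⟩]; simp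
    · rw [psi_off P hi]; simp
  · intro x hx
    rw [hf.tr i j x hx]
    ring

theorem lint_re (i : A.ι) {f : M → ℂ} (hf : Integrable (rd A i f)) :
    (lint A i f).re = ∫ x, (rd A i f x).re := by
  unfold SerG398.lint
  exact (integral_re (𝕜 := ℂ) hf).symm

theorem lint_re_nonneg (i : A.ι) {f : M → ℂ} (hf : Integrable (rd A i f))
    (h : ∀ x ∈ (A.e i).source, 0 ≤ (f x).re) : 0 ≤ (lint A i f).re := by
  rw [lint_re i hf]
  refine integral_nonneg fun x => ?_
  by_cases hx : x ∈ Ui A i
  · rw [rd_of_mem hx]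
    exact h _ ((A.e i).map_target hx)
  · rw [rd_off hx]; simp

theorem lint_re_mono (i : A.ι) {f g : M → ℂ} (hf : Integrable (rd A i f))
    (hg : Integrable (rd A i g)) (h : ∀ x ∈ (A.e i).source, (f x).re ≤ (g x).re) :
    (lint A i f).re ≤ (lint A i g).re := by
  rw [lint_re i hf, lint_re i hg]
  refine integral_mono hf.re hg.re fun x => ?_
  by_cases hx : x ∈ Ui A i
  · show (rd A i f x).re ≤ (rd A i g x).re
    rw [rd_of_mem hx, rd_of_mem hx]
    exact h _ ((A.e i).map_target hx)
  · show (rd A i f x).re ≤ (rd A i g x).re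
    rw [rd_off hx, rd_off hx]

/-- positivity of the integral of a nonnegative density -/
theorem IntP_re_nonneg (P : Part A) {f : A.ι → M → ℂ} (hf : IsDn A f)
    (h : ∀ i, ∀ x ∈ (A.e i).source, 0 ≤ (f i x).re) : 0 ≤ (IntP P f).re := by
  have := Fintype.ofFinite A.ι
  rw [IntP_eq_th P hf, Complex.re_sum]
  refine Finset.sum_nonneg fun j _ => ?_
  refine lint_re_nonneg j (cc_th P (hf.sm j)).integrable fun x hx => ?_
  rw [Complex.re_ofReal_mul]
  exact mul_nonneg (th_nonneg P j x) (h j x hx)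

theorem IntP_re_mono (P : Part A) {f g : A.ι → M → ℂ} (hf : IsDn A f) (hg : IsDn A g)
    (h : ∀ i, ∀ x ∈ (A.e i).source, (f i x).re ≤ (g i x).re) : (IntP P f).re ≤ (IntP P g).re := by
  have h1 := IntP_re_nonneg P (hg.sub hf) fun i x hx => by
    rw [Complex.sub_re]; exact sub_nonneg.2 (h i x hx)
  rw [IntP_sub P hg.sm hf.sm, Complex.sub_re] at h1
  linarith

/-- a real density has a real integral -/
theorem IntP_real (P : Part A) {f : A.ι → M → ℂ}
    (h : ∀ i, ∀ x ∈ (A.e i).source, (f i x).im = 0) : (IntP P f).im = 0 := by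
  have h1 : IntP P (fun i x => conj (f i x)) = IntP P f :=
    IntP_congr P fun i x hx => Complex.conj_eq_iff_im.2 (h i x hx)
  rw [IntP_conj] at h1
  exact Complex.conj_eq_iff_im.1 h1

/-- if a nonnegative density has integral zero it vanishes -/
theorem IntP_eq_zero (P : Part A) {f : A.ι → M → ℂ} (hf : IsDn A f)
    (h : ∀ i, ∀ x ∈ (A.e i).source, 0 ≤ (f i x).re) (h0 : (IntP P f).re = 0) :
    ∀ i, ∀ x ∈ (A.e i).source, (f i x).re = 0 := by
  have := Fintype.ofFinite A.ι
  rw [IntP_eq_th P hf, Complex.re_sum] at h0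
  have hnn : ∀ j, 0 ≤ (lint A j (fun x => (th P j x : ℂ) * f j x)).re := fun j =>
    lint_re_nonneg j (cc_th P (hf.sm j)).integrable fun x hx => by
      rw [Complex.re_ofReal_mul]
      exact mul_nonneg (th_nonneg P j x) (h j x hx)
  have hz : ∀ j, (lint A j (fun x => (th P j x : ℂ) * f j x)).re = 0 := fun j =>
    (Finset.sum_eq_zero_iff_of_nonneg fun j _ => hnn j).1 h0 j (Finset.mem_univ j)
  -- pointwise vanishing in each chart
  have key : ∀ j, ∀ x ∈ (A.e j).source, th P j x * (f j x).re = 0 := by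
    intro j x hx
    have hcc := cc_th P (j := j) (hf.sm j)
    have h1 := hz j
    rw [lint_re j hcc.integrable] at h1
    have hcont : Continuous (fun y => (rd A j (fun x => (th P j x : ℂ) * f j x) y).re) :=
      Complex.continuous_re.comp hcc.isCC.smooth.continuous
    have hnn' : ∀ y, 0 ≤ (rd A j (fun x => (th P j x : ℂ) * f j x) y).re := by
      intro y
      by_cases hy : y ∈ Ui A j
      · rw [rd_of_mem hy, Complex.re_ofReal_mul]
        exact mul_nonneg (th_nonneg P j _) (h j _ ((A.e j).map_target hy))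
      · rw [rd_off hy]; simp
    have h2 := (integral_eq_zero_iff_of_nonneg hnn' hcc.integrable.re).1 h1
    have h3 : (fun y => (rd A j (fun x => (th P j x : ℂ) * f j x) y).re) = 0 :=
      (hcont.ae_eq_iff_eq volume continuous_const).1 h2
    have h4 := congrFun h3 (rc (A.e j x))
    have hm : rc (A.e j x) ∈ Ui A j := by
      show cc (rc (A.e j x)) ∈ (A.e j).target
      rw [cc_rc]; exact (A.e j).map_source hx
    simp only [rd_of_mem hm, cc_rc, (A.e j).left_inv hx, Complex.re_ofReal_mul, Pi.zero_apply] at h4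
    exact h4
  intro i x hx
  -- choose `j` with `ψ_j x ≠ 0`
  obtain ⟨j, hj⟩ : ∃ j, P.ψ j x ≠ 0 := by
    by_contra hcon
    push Not at hcon
    have h2 := sum_psi_fin P x
    simp [hcon] at h2
  have hxj : x ∈ (A.e j).source := by
    by_contra h'
    exact hj (psi_off P h')
  have h1 := key j x hxj
  have h2 : th P j x ≠ 0 := by
    unfold th
    exact div_ne_zero (pow_ne_zero 2 hj) (sqP_pos P x).ne'
  have h3 : (f j x).re = 0 := (mul_eq_zero.1 h1).resolve_left h2
  rw [hf.tr i j x ⟨hx, hxj⟩]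
  have h4 : dens A i j x = ((‖(Matrix.of (A.J i j x)).det‖ ^ 2 : ℝ) : ℂ) := rfl
  rw [h4, Complex.re_ofReal_mul, h3, mul_zero]

variable [CompactSpace M] {B B' : FBun A}

theorem isDn_dn (D : DPair B B') (u : Sec B) (w : Sec B') : IsDn A (dn D u.1 w.1) where
  sm := dn_smAt D u.2 w.2
  tr _ _ _ hx := dn_tr D u.2 w.2 hx

/-- the pairing of sections is the integral of the density `u · S w` -/
theorem pr_eq_IntP (D : DPair B B') (P : Part A) (u : Sec B) (w : Sec B') :
    pr D P u w = IntP P (dn D u.1 w.1) := by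
  have := Fintype.ofFinite A.ι
  rw [IntP_eq]
  show pairF D P _ u w = _
  rw [pairF_apply]
  refine Finset.sum_subset (Finset.subset_univ _) fun i _ hi => ?_
  have h1 : (fun x => (P.ψ i x : ℂ) * dn D u.1 w.1 i x) = fun _ => 0 := by
    funext x
    rw [psi_zero_of_notMem P _ (Finset.Subset.refl _) hi (mem_univ x)]
    simp
  rw [h1, lint_zero]

end fin

end two

end

end Crest.Agent.R273.DnInt_505
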