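import Crest.Agent.R273.DegOne_376
import Crest.Agent.R273.AlbD_645

/-!
# R273 (S0416), Part B (helper376): the parallel fields dual to the holomorphic 1-forms

* `inner_const`  : `⟨V, W⟩` is constant for `V` holomorphic, `W` parallel (`M` compact connected)
* `lin c V`      : linear combinations of vector fields
* `exists_dual`  : a basis of `H1 A`, the dual commuting parallel fields (`DualD` of helper645), the
  constant Gram matrix, orthogonality
-/

set_option autoImplicit false
set_option linter.unusedSectionVars false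

open Set Filter Topology Complex
open scoped ContDiff Matrix ComplexConjugate ComplexOrder

namespace Crest.Agent.R273.DualK_376

open Crest.Agent.R275.Geo Crest.Agent.R275.Core144 Crest.Agent.R275.EDR890
open Crest.Agent.R273.Defs_333 Crest.Agent.R273.Hess_333 Crest.Agent.R273.HessB_333
open Crest.Agent.R273.HM_333 Crest.Agent.R273.Kah_333 Crest.Agent.R273.Vol_333
open Crest.Agent.R273.HFlow3_376 Crest.Agent.R273.HFlow5_376 Crest.Agent.R273.HFlow7_376
open Crest.Agent.R273.HFlow8_376 Crest.Agent.R273.HFlow9_376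
open Crest.Agent.R273.NoHVF_376 Crest.Agent.R273.DegOne_376 Crest.Agent.R273.Alb645

noncomputable section

set_option maxHeartbeats 400000

variable {n : ℕ} {M : Type} [TopologicalSpace M] {A : Atl n M}

/-! ### linear combinations of fields -/

/-- `∑ c k • V k` -/
def lin {g : ℕ} (c : Fin g → ℂ) (V : Fin g → HVF A) : HVF A where
  X i x := ∑ k, c k • (V k).X i x
  hol i := DifferentiableOn.fun_sum fun k _ => ((V k).hol i).const_smul (c k)
  tr i j x hx := by
    rw [map_sum]
    exact Finset.sum_congr rfl fun k _ => by rw [map_smul, (V k).tr i j x hx]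

@[simp] theorem lin_X {g : ℕ} (c : Fin g → ℂ) (V : Fin g → HVF A) (i : A.ι) (x : M) :
    (lin c V).X i x = ∑ k, c k • (V k).X i x := rfl

theorem lin_X_apply {g : ℕ} (c : Fin g → ℂ) (V : Fin g → HVF A) (i : A.ι) (x : M) (a : Fin n) :
    (lin c V).X i x a = ∑ k, c k * (V k).X i x a := by
  rw [lin_X]
  exact map_sum (EuclideanSpace.proj a : Cn n →L[ℂ] ℂ) (fun k => c k • (V k).X i x) Finset.univ

theorem par_lin {K : Kah A} {g : ℕ} (c : Fin g → ℂ) {V : Fin g → HVF A}
    (hV : ∀ k, Par K (V k)) : Par K (lin c V) := by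
  intro i z hz d b
  have h1 : (fun w => ∑ a, (lin c V).loc i w a * K.g i ((A.e i).symm w) a b) =
      fun w => ∑ k, c k • ∑ a, (V k).loc i w a * K.g i ((A.e i).symm w) a b := by
    funext w
    simp only [HVF.loc, lin_X_apply, Finset.sum_mul, smul_eq_mul, Finset.mul_sum]
    rw [Finset.sum_comm]
    exact Finset.sum_congr rfl fun k _ => Finset.sum_congr rfl fun a _ => by ring
  have hd : ∀ k, DifferentiableAt ℝ (fun w => ∑ a, (V k).loc i w a *
      K.g i ((A.e i).symm w) a b) z := fun k =>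
    DifferentiableAt.fun_sum fun a _ =>
      ((V_diff_comp (V k) i hz a).restrictScalars ℝ).fun_mul (g_diff K i hz a b)
  rw [h1, wd_sum (f := fun k w => c k • ∑ a, (V k).loc i w a * K.g i ((A.e i).symm w) a b) _
    fun k _ => (hd k).fun_const_smul (c k)]
  refine Finset.sum_eq_zero fun k _ => ?_
  rw [wd_const_smul (c k) (hd k), hV k i z hz d b, smul_zero]

/-! ### sesquilinearity -/

/-- `⟨·, w⟩` as a linear map -/
def hfl (K : Kah A) (i : A.ι) (x : M) (w : Cn n) : Cn n →ₗ[ℂ] ℂ where
  toFun v := hf K i x v w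
  map_add' v v' := by
    change ((v + v' : Cn n) : Fin n → ℂ) ⬝ᵥ _ = _
    rw [show ((v + v' : Cn n) : Fin n → ℂ) = (v : Fin n → ℂ) + (v' : Fin n → ℂ) from rfl,
      add_dotProduct]
    rfl
  map_smul' c v := by
    change ((c • v : Cn n) : Fin n → ℂ) ⬝ᵥ _ = _
    rw [show ((c • v : Cn n) : Fin n → ℂ) = c • (v : Fin n → ℂ) from rfl, smul_dotProduct]
    rfl

@[simp] theorem hfl_apply (K : Kah A) (i : A.ι) (x : M) (w v : Cn n) :
    hfl K i x w v = hf K i x v w := rfl

theorem hf_sum_left (K : Kah A) (i : A.ι) (x : M) {g : ℕ} (c : Fin g → ℂ) (v : Fin g → Cn n)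
    (w : Cn n) : hf K i x (∑ k, c k • v k) w = ∑ k, c k * hf K i x (v k) w := by
  rw [← hfl_apply, map_sum]
  exact Finset.sum_congr rfl fun k _ => by rw [map_smul, smul_eq_mul, hfl_apply]

theorem hf_add_left (K : Kah A) (i : A.ι) (x : M) (v v' w : Cn n) :
    hf K i x (v + v') w = hf K i x v w + hf K i x v' w := (hfl K i x w).map_add v v'

theorem hf_smul_left (K : Kah A) (i : A.ι) (x : M) (c : ℂ) (v w : Cn n) :
    hf K i x (c • v) w = c * hf K i x v w := (hfl K i x w).map_smul c v

theorem hf_conj (K : Kah A) {i : A.ι} {x : M} (hx : x ∈ (A.e i).source) (v w : Cn n) :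
    conj (hf K i x v w) = hf K i x w v := by
  simp only [hf_eq, map_sum, map_mul, Complex.conj_conj]
  rw [Finset.sum_comm]
  refine Finset.sum_congr rfl fun b _ => Finset.sum_congr rfl fun a _ => ?_
  rw [show conj (K.g i x a b) = K.g i x b a from (K.pos i x hx).1.apply b a]
  ring

theorem hf_sum_right (K : Kah A) {i : A.ι} {x : M} (hx : x ∈ (A.e i).source) {g : ℕ}
    (c : Fin g → ℂ) (v : Fin g → Cn n) (w : Cn n) :
    hf K i x w (∑ k, c k • v k) = ∑ k, conj (c k) * hf K i x w (v k) := by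
  rw [← hf_conj K hx, hf_sum_left, map_sum]
  refine Finset.sum_congr rfl fun k _ => ?_
  rw [map_mul, hf_conj K hx]

theorem hf_pos (K : Kah A) {i : A.ι} {x : M} (hx : x ∈ (A.e i).source) {v : Cn n} (hv : v ≠ 0) :
    0 < hf K i x v v := by
  have h2 : (star (v : Fin n → ℂ)) ≠ 0 := by
    intro h3
    apply hv
    have h4 : (v : Fin n → ℂ) = 0 := star_eq_zero.1 h3
    ext b
    exact congrFun h4 b
  have h3 := (K.pos i x hx).dotProduct_mulVec_pos h2
  rw [star_star] at h3
  exact h3

theorem hf_add_right (K : Kah A) {i : A.ι} {x : M} (hx : x ∈ (A.e i).source) (v w w' : Cn n) :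
    hf K i x v (w + w') = hf K i x v w + hf K i x v w' := by
  rw [← hf_conj K hx, hf_add_left, map_add, hf_conj K hx, hf_conj K hx]

/-! ### constancy -/

/-- `⟨V, W⟩` is constant for a parallel `W` -/
theorem inner_const [CompactSpace M] [ConnectedSpace M] {K : Kah A} (V : HVF A) {W : HVF A}
    (hW : Par K W) : ∃ c : ℂ, ∀ i, ∀ x ∈ (A.e i).source, hf K i x (V.X i x) (W.X i x) = c := by
  obtain ⟨x0⟩ : Nonempty M := inferInstance
  set f : M → ℂ := fun x => hf K (A.cover x).choose x (V.X (A.cover x).choose x)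
    (W.X (A.cover x).choose x) with hf'
  have hind : ∀ i j, ∀ x ∈ (A.e i).source ∩ (A.e j).source,
      hf K j x (V.X j x) (W.X j x) = hf K i x (V.X i x) (W.X i x) := by
    intro i j x hx
    rw [← hf_tr K hx.1 hx.2 (V.X i x) (W.X i x), HVF.tr' V hx.1 hx.2, HVF.tr' W hx.1 hx.2]
  have heq : ∀ i, ∀ x ∈ (A.e i).source, f x = hf K i x (V.X i x) (W.X i x) := fun i x hx =>
    hind i _ x ⟨hx, (A.cover x).choose_spec⟩
  have hhol : ∀ i, HolAt A i univ f := by
    intro i z hz
    have hzt := hz.1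
    have h1 : DifferentiableAt ℂ (fun w => lcL K W i w (V.loc i w)) z :=
      (lcL_diff hW i hzt).clm_apply (V_diff V i hzt)
    refine (h1.congr_of_eventuallyEq ?_).differentiableWithinAt
    filter_upwards [(A.e i).open_target.mem_nhds hzt] with w hw
    rw [heq i _ ((A.e i).map_target hw), lcL_hf i hw]
    rfl
  refine ⟨f x0, fun i x hx => ?_⟩
  rw [← heq i x hx]
  exact HolF_578.hol_const hhol x x0

/-- a parallel field which vanishes at one point vanishes -/
theorem par_zero [CompactSpace M] [ConnectedSpace M] {K : Kah A} {V : HVF A} (hV : Par K V)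
    {i : A.ι} {x : M} (hx : x ∈ (A.e i).source) (h0 : V.X i x = 0) {j : A.ι} {y : M}
    (hy : y ∈ (A.e j).source) : V.X j y = 0 := by
  obtain ⟨c, hc⟩ := inner_const V hV
  have h1 := hc i x hx
  have h2 : hf K i x (0 : Cn n) (0 : Cn n) = 0 := (hfl K i x 0).map_zero
  rw [h0, h2] at h1
  by_contra hne
  exact (hf_pos K hy hne).ne' ((hc j y hy).trans h1.symm)

/-- the closed form of a parallel field, as an element of `H1 A` -/
def fo {K : Kah A} {V : HVF A} (hV : Par K V) : H1 A := ⟨lowF K V, lowF_mem hV⟩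

theorem form_zero [T2Space M] [CompactSpace M] [ConnectedSpace M] [Finite A.ι] (P : Part A)
    (K : Kah A) (hK : (volK K).Semipos) {b : H1 A} {i : A.ι} {x : M} (hx : x ∈ (A.e i).source)
    (h : b.1 i x = 0) : b = 0 := by
  obtain ⟨V, hV, hVb⟩ := exists_par P K hK b.2
  have h1 : V.X i x = 0 := X_zero_of_lowF hx (by rw [hVb]; exact h)
  apply Subtype.ext
  funext j y
  by_cases hy : y ∈ (A.e j).source
  · have h2 := par_zero hV hx h1 hy
    rw [← hVb]
    ext v
    rw [lowF_hf hy, h2, ← hf_conj K hy]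
    have h3 : hf K j y (0 : Cn n) v = 0 := (hfl K j y v).map_zero
    rw [h3, map_zero]
    rfl
  · rw [b.2.2.1 j y hy]
    rfl

/-- evaluation of a form at a point -/
def evp (A : Atl n M) (i : A.ι) (x : M) : H1 A →ₗ[ℂ] (Fin n → ℂ) where
  toFun b := fun a => b.1 i x (EuclideanSpace.single a 1)
  map_add' _ _ := rfl
  map_smul' _ _ := rfl

theorem evp_apply (i : A.ι) (x : M) (b : H1 A) (a : Fin n) :
    evp A i x b a = b.1 i x (EuclideanSpace.single a 1) := rfl

theorem evp_zero {i : A.ι} {x : M} {b : H1 A} (h : evp A i x b = 0) : b.1 i x = 0 :=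
  clm_ext fun a => congrFun h a

theorem evp_inj [T2Space M] [CompactSpace M] [ConnectedSpace M] [Finite A.ι] (P : Part A)
    (K : Kah A) (hK : (volK K).Semipos) {i : A.ι} {x : M} (hx : x ∈ (A.e i).source) :
    Function.Injective (evp A i x) := by
  rw [injective_iff_map_eq_zero]
  intro b hb
  exact form_zero P K hK hx (evp_zero hb)

/-- **finiteness** -/
theorem finite_H1 [T2Space M] [CompactSpace M] [ConnectedSpace M] [Finite A.ι] (P : Part A)
    (K : Kah A) (hK : (volK K).Semipos) : FiniteDimensional ℂ (H1 A) := by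
  obtain ⟨x0⟩ : Nonempty M := inferInstance
  obtain ⟨i, hi⟩ := A.cover x0
  exact FiniteDimensional.of_injective (evp A i x0) (evp_inj P K hK hi)

/-- linear independence at a point -/
theorem li_point [T2Space M] [CompactSpace M] [ConnectedSpace M] [Finite A.ι] (P : Part A)
    (K : Kah A) (hK : (volK K).Semipos) {g : ℕ} (bs : Module.Basis (Fin g) ℂ (H1 A)) {i : A.ι}
    {x : M} (hx : x ∈ (A.e i).source) : LinearIndependent ℂ (fun k => evp A i x (bs k)) := by
  have h := bs.linearIndependent.map_injOn (evp A i x) ((evp_inj P K hK hx).injOn)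
  exact h

/-- Gram matrix of independent vectors -/
theorem gram_posDef (K : Kah A) {i : A.ι} {x : M} (hx : x ∈ (A.e i).source) {g : ℕ}
    {v : Fin g → Cn n} (hv : ∀ c : Fin g → ℂ, ∑ k, c k • v k = 0 → c = 0)
    {G : Matrix (Fin g) (Fin g) ℂ} (hG : ∀ k l, hf K i x (v k) (v l) = G k l) : G.PosDef := by
  refine Matrix.PosDef.of_dotProduct_mulVec_pos ?_ fun c hc => ?_
  · ext k l
    change conj (G l k) = G k l
    rw [← hG, hf_conj K hx, hG]
  · have h0 : star c ≠ 0 := fun h => hc (star_eq_zero.1 h)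
    have h1 := hf_pos K hx fun h => h0 (hv (star c) h)
    have h2 : hf K i x (∑ k, star c k • v k) (∑ k, star c k • v k) = star c ⬝ᵥ (G *ᵥ c) := by
      rw [hf_sum_left]
      simp only [dotProduct, Matrix.mulVec]
      refine Finset.sum_congr rfl fun k _ => ?_
      rw [hf_sum_right K hx]
      congr 1
      refine Finset.sum_congr rfl fun l _ => ?_
      rw [hG, Pi.star_apply, RCLike.star_def, Complex.conj_conj, mul_comm]
    rw [h2] at h1
    exact h1

/-- **DUALD** : the dual parallel fields of a basis of `H1 A` -/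
theorem exists_dual [T2Space M] [CompactSpace M] [ConnectedSpace M] [Finite A.ι] (P : Part A)
    (K : Kah A) (hK : (volK K).Semipos) {g : ℕ} (bs : Module.Basis (Fin g) ℂ (H1 A)) :
    ∃ S : DualD A g, (∀ k, S.b k = bs k) ∧ (∀ k, Par K (S.V k)) ∧
      ∃ G0 : Matrix (Fin g) (Fin g) ℂ, G0.PosDef ∧
        (∀ k l, ∀ i, ∀ x ∈ (A.e i).source,
          hf K i x ((S.V k).X i x) ((S.V l).X i x) = G0 k l) ∧
        ∀ i, ∀ x ∈ (A.e i).source, ∀ w : Cn n, (∀ k, (S.b k).1 i x w = 0) →
          ∀ l, hf K i x w ((S.V l).X i x) = 0 := by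
  classical
  obtain ⟨x0⟩ : Nonempty M := inferInstance
  obtain ⟨i0, hi0⟩ := A.cover x0
  obtain ⟨β, hβ⟩ : ∃ β : Fin g → A.ι → M → (Cn n →L[ℂ] ℂ), ∀ k, β k = (bs k).1 :=
    ⟨fun k => (bs k).1, fun _ => rfl⟩
  have hβm : ∀ k, β k ∈ H1 A := fun k => by rw [hβ]; exact (bs k).2
  have hli : ∀ c : Fin g → ℂ, (∀ a : Fin n, ∑ k, c k * β k i0 x0 (EuclideanSpace.single a 1) = 0) →
      c = 0 := by
    intro c hc
    have h1 := Fintype.linearIndependent_iff.1 (li_point P K hK bs hi0) c (by
      funext a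
      rw [Finset.sum_apply]
      simp only [Pi.smul_apply, evp_apply, ← hβ, smul_eq_mul, Pi.zero_apply]
      exact hc a)
    exact funext h1
  choose W hW hWb using fun k : Fin g => exists_par P K hK (hβm k)
  choose Γ hΓ using fun k l : Fin g => inner_const (W l) (hW k)
  have hbW : ∀ k l, ∀ i, ∀ x ∈ (A.e i).source, β k i x ((W l).X i x) = Γ k l := by
    intro k l i x hx
    rw [← hWb k, lowF_hf hx, hΓ k l i x hx]
  have hindep : ∀ c : Fin g → ℂ, (∑ k, c k • (W k).X i0 x0 = 0) → c = 0 := by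
    intro c hc
    have h1 : (fun k => conj (c k)) = 0 := by
      refine hli _ fun a => ?_
      have h2 : hf K i0 x0 (EuclideanSpace.single a 1) (∑ k, c k • (W k).X i0 x0) = 0 := by
        rw [hc, ← hf_conj K hi0]
        have h3 : hf K i0 x0 (0 : Cn n) (EuclideanSpace.single a 1) = 0 :=
          (hfl K i0 x0 (EuclideanSpace.single a 1)).map_zero
        rw [h3, map_zero]
      rw [hf_sum_right K hi0] at h2
      rw [← h2]
      refine Finset.sum_congr rfl fun k _ => ?_
      rw [← hWb k, lowF_hf hi0]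
    funext k
    have h4 := congrFun h1 k
    exact (map_eq_zero (starRingEnd ℂ)).1 h4
  -- the Gram matrix, transposed
  have hPD : (Matrix.of fun k l => Γ l k : Matrix (Fin g) (Fin g) ℂ).PosDef :=
    gram_posDef K hi0 hindep fun k l => hΓ l k i0 x0 hi0
  set Γm : Matrix (Fin g) (Fin g) ℂ := Matrix.of Γ with hΓm
  have hu : IsUnit Γm.det := by
    have h1 : (Matrix.of fun k l => Γ l k : Matrix (Fin g) (Fin g) ℂ) = Γmᵀ := rfl
    rw [h1] at hPD
    have h2 := hPD.det_pos.ne'
    rw [Matrix.det_transpose] at h2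
    exact isUnit_iff_ne_zero.2 h2
  -- the dual fields
  obtain ⟨V, hVdef⟩ : ∃ V : Fin g → HVF A, ∀ l, V l = lin (fun m => Γm⁻¹ m l) W :=
    ⟨fun l => lin (fun m => Γm⁻¹ m l) W, fun _ => rfl⟩
  have hVX : ∀ l i x, (V l).X i x = ∑ m, Γm⁻¹ m l • (W m).X i x := by
    intro l i x
    rw [hVdef]
    rfl
  have hVpar : ∀ l, Par K (V l) := fun l => by rw [hVdef]; exact par_lin _ hW
  have hdual : ∀ k l i, ∀ x ∈ (A.e i).source,
      β k i x ((V l).X i x) = if k = l then 1 else 0 := by
    intro k l i x hx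
    rw [hVX, map_sum]
    have h1 : ∀ m, β k i x (Γm⁻¹ m l • (W m).X i x) = Γm k m * Γm⁻¹ m l := by
      intro m
      rw [map_smul, hbW k m i x hx, smul_eq_mul, mul_comm]
      rfl
    rw [Finset.sum_congr rfl fun m _ => h1 m, ← Matrix.mul_apply, Matrix.mul_nonsing_inv _ hu,
      Matrix.one_apply]
  refine ⟨⟨V, fun k => bs k, fun k l => Par.comm (hVpar k) (hVpar l), fun k l i x hx => ?_⟩,
    fun _ => rfl, hVpar, ?_⟩
  · rw [← hβ]
    exact hdual k l i x hx
  choose G hG using fun k l : Fin g => inner_const (V k) (hVpar l)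
  refine ⟨Matrix.of G, ?_, fun k l i x hx => hG k l i x hx, fun i x hx w hw l => ?_⟩
  · refine gram_posDef K hi0 (v := fun k => (V k).X i0 x0) (fun c hc => ?_)
      fun k l => hG k l i0 x0 hi0
    funext k
    have h1 := congrArg (β k i0 x0) hc
    rw [map_sum, map_zero, Finset.sum_eq_single k] at h1
    · rw [map_smul, hdual k k i0 x0 hi0, if_pos rfl, smul_eq_mul, mul_one] at h1
      exact h1
    · intro l _ hl
      rw [map_smul, hdual k l i0 x0 hi0, if_neg (Ne.symm hl), smul_zero]
    · intro h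
      exact absurd (Finset.mem_univ k) h
  · change hf K i x w ((V l).X i x) = 0
    rw [hVX, hf_sum_right K hx]
    refine Finset.sum_eq_zero fun m _ => ?_
    have h1 : (bs m).1 i x w = 0 := hw m
    rw [← hβ, ← hWb m, lowF_hf hx] at h1
    rw [h1, mul_zero]

/-- the same with `g = dim H1 A` -/
theorem exists_dual' [T2Space M] [CompactSpace M] [ConnectedSpace M] [Finite A.ι] (P : Part A)
    (K : Kah A) (hK : (volK K).Semipos) :
    ∃ (g : ℕ) (bs : Module.Basis (Fin g) ℂ (H1 A)) (S : DualD A g), (∀ k, bs k = S.b k) ∧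
      ∀ k, Par K (S.V k) := by
  have hf := finite_H1 P K hK
  have hfree : Module.Free ℂ (H1 A) := Module.Free.of_divisionRing (K := ℂ) (V := H1 A)
  obtain ⟨S, h1, h2, -⟩ := exists_dual P K hK (Module.finBasis ℂ (H1 A))
  exact ⟨_, _, S, fun k => (h1 k).symm, h2⟩

end

end Crest.Agent.R273.DualK_376
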