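import Crest.Agent.R273.Kah_333
import Crest.Agent.R273.PB_835
import Crest.Agent.R275.ProdAtl_363

/-!
# R273 (S0416), helper333: the atlas of `ℂ^g` by translated unit cubes
-/

set_option autoImplicit false
set_option linter.unusedSectionVars false

open Set Filter Topology Complex
open scoped ContDiff Matrix ComplexConjugate Manifold

namespace Crest.Agent.R273.EA_333

open Crest.Agent.R275.Geo Crest.Agent.R275.Core144 Crest.Agent.R275.GC293
open Crest.Agent.R273.Defs_333 Crest.Agent.R273.Map_835 Crest.Agent.R273.PB_835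

noncomputable section

/-- centre of the chart `k` -/
def ctr {g : ℕ} (k : RI g → ℤ) : Cn g := cc fun p => (k p : ℝ) / 2

/-- the open unit cube -/
def Q1 (g : ℕ) : Set (Cn g) := {z | ∀ p, rc z p ∈ Ioo (0 : ℝ) 1}

theorem rc_sub {g : ℕ} (z w : Cn g) (p : RI g) : rc (z - w) p = rc z p - rc w p := by
  obtain ⟨a, b⟩ := p
  unfold rc
  split_ifs <;> simp

theorem rc_add {g : ℕ} (z w : Cn g) (p : RI g) : rc (z + w) p = rc z p + rc w p := by
  obtain ⟨a, b⟩ := p
  unfold rc
  split_ifs <;> simp

theorem rc_smul {g : ℕ} (t : ℝ) (z : Cn g) (p : RI g) : rc (t • z) p = t * rc z p := by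
  obtain ⟨a, b⟩ := p
  unfold rc
  split_ifs <;> simp

theorem continuous_rc_apply {g : ℕ} (p : RI g) : Continuous fun z : Cn g => rc z p := by
  obtain ⟨a, b⟩ := p
  have h : Continuous fun z : Cn g => z a := (EuclideanSpace.proj a : Cn g →L[ℂ] ℂ).continuous
  unfold rc
  dsimp only
  split_ifs
  · exact Complex.continuous_re.comp h
  · exact Complex.continuous_im.comp h

theorem isOpen_Q1 (g : ℕ) : IsOpen (Q1 g) := by
  have : Q1 g = ⋂ p : RI g, {z | rc z p ∈ Ioo (0 : ℝ) 1} := by
    ext z; simp [Q1]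
  rw [this]
  exact isOpen_iInter_of_finite fun p => isOpen_Ioo.preimage (continuous_rc_apply p)

theorem convex_Q1 (g : ℕ) : Convex ℝ (Q1 g) := by
  intro z hz w hw a b ha hb hab p
  have h1 := convex_Ioo (0 : ℝ) 1 (hz p) (hw p) ha hb hab
  rw [rc_add, rc_smul, rc_smul]
  simpa [smul_eq_mul] using h1

/-- the chart `k` -/
def eE {g : ℕ} (k : RI g → ℤ) : OpenPartialHomeomorph (Cn g) (Cn g) where
  toFun z := z - ctr k
  invFun w := w + ctr k
  source := {z | z - ctr k ∈ Q1 g}
  target := Q1 g
  map_source' z hz := hz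
  map_target' w hw := by
    change w + ctr k - ctr k ∈ Q1 g
    rwa [add_sub_cancel_right]
  left_inv' z _ := sub_add_cancel z _
  right_inv' w _ := add_sub_cancel_right w _
  open_source := (isOpen_Q1 g).preimage (continuous_id.sub continuous_const)
  open_target := isOpen_Q1 g
  continuousOn_toFun := (continuous_id.sub continuous_const).continuousOn
  continuousOn_invFun := (continuous_id.add continuous_const).continuousOn

theorem eE_apply {g : ℕ} (k : RI g → ℤ) (z : Cn g) : eE k z = z - ctr k := rfl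
theorem eE_symm {g : ℕ} (k : RI g → ℤ) (z : Cn g) : (eE k).symm z = z + ctr k := rfl
theorem mem_eE_source {g : ℕ} {k : RI g → ℤ} {z : Cn g} :
    z ∈ (eE k).source ↔ z - ctr k ∈ Q1 g := Iff.rfl
theorem eE_target {g : ℕ} (k : RI g → ℤ) : (eE k).target = Q1 g := rfl

/-- **the atlas of `ℂ^g`** -/
def EA (g : ℕ) : Atl g (Cn g) where
  ι := RI g → ℤ
  e := eE
  cover z := by
    refine ⟨fun p => ⌈2 * rc z p⌉ - 1, fun p => ?_⟩
    rw [rc_sub, ctr, rc_cc]
    have h1 := Int.ceil_lt_add_one (2 * rc z p)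
    have h2 := Int.le_ceil (2 * rc z p)
    push_cast
    constructor <;> linarith
  cube k z hz := hz
  holo i j := by
    have : Differentiable ℂ fun z : Cn g => z + ctr i - ctr j :=
      (differentiable_id.add_const _).sub_const _
    exact this.differentiableOn

instance (g : ℕ) : Countable (EA g).ι := inferInstanceAs (Countable (RI g → ℤ))

theorem mem_ov {g : ℕ} {i j : (EA g).ι} {z : Cn g} :
    z ∈ (EA g).ov i j ↔ z ∈ Q1 g ∧ z + (ctr i - ctr j) ∈ Q1 g := by
  change z ∈ Q1 g ∧ z + ctr i - ctr j ∈ Q1 g ↔ _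
  rw [add_sub_assoc]

theorem goodA_EA (g : ℕ) : GoodA (EA g) := by
  intro i j
  have : (EA g).ov i j = Q1 g ∩ (fun z => z + (ctr i - ctr j)) ⁻¹' Q1 g := by
    ext z
    exact mem_ov
  rw [this]
  exact (convex_Q1 g).inter ((convex_Q1 g).translate_preimage_left _)

/-- the derivative of a change of charts is the identity -/
theorem fderiv_trans {g : ℕ} (i j : (EA g).ι) (z : Cn g) :
    fderiv ℂ (fun w => (EA g).e j (((EA g).e i).symm w)) z = ContinuousLinearMap.id ℂ _ := by
  have h : (fun w => (EA g).e j (((EA g).e i).symm w)) = fun w => w + (ctr i - ctr j) := by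
    funext w
    change w + ctr i - ctr j = _
    rw [add_sub_assoc]
  rw [h, fderiv_add_const, fderiv_fun_id]

theorem Jm_EA {g : ℕ} (i j : (EA g).ι) (z : Cn g) : Jm (EA g) i j z = 1 := by
  rw [Jm_eq, fderiv_trans, mt_id]

theorem KB_EA {g : ℕ} {i j : (EA g).ι} {z : Cn g}
    (hz : z ∈ ((EA g).e i).source ∩ ((EA g).e j).source) : (KB (EA g)).g i j z = 1 := by
  rw [KB_g hz, Jm_EA, Matrix.det_one]

/-- a translation is holomorphic with identity Jacobian -/
theorem holMap_add {g : ℕ} (v : Cn g) : HolMap (EA g) (EA g) (fun z => z + v) := by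
  refine ⟨continuous_id.add continuous_const, fun i j => ?_⟩
  have : Differentiable ℂ fun z : Cn g => z + ctr i + v - ctr j :=
    ((differentiable_id.add_const _).add_const _).sub_const _
  exact this.differentiableOn

theorem Jp_add {g : ℕ} (v : Cn g) (i j : (EA g).ι) (z : Cn g) :
    Jp (EA g) (EA g) (fun z => z + v) i j z = 1 := by
  rw [Jp_eq]
  have h : rd (EA g) (EA g) (fun z => z + v) i j = fun w => w + (ctr i + v - ctr j) := by
    funext w
    change w + ctr i + v - ctr j = _
    abel
  rw [h, fderiv_add_const, fderiv_fun_id, mt_id]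

theorem lBih_add {g : ℕ} (v : Cn g) : LBih (EA g) (EA g) (fun z => z + v) :=
  ⟨holMap_add v, fun i j x _ _ => by rw [Jp_add, Matrix.det_one]; exact one_ne_zero⟩

end

end Crest.Agent.R273.EA_333
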