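import Crest.Agent.R273.UCovE_914
import Crest.Agent.R273.Fam_835

/-!
# R273 (S0416), leaf EQV (helper914), part A: subgroups

`D.sub H : MonD (D.atl (G ⧸ H)) H` : for a subgroup `H ≤ G` the covering `D.cov G → D.cov (G ⧸ H)`
is again given by a locally constant cocycle (with values in `H`);
`D.toSub H : D.cov G ≃ₜ (D.sub H).cov H`, `H`-equivariant, over `D.cov (G ⧸ H)`, biholomorphic.
-/

set_option autoImplicit false
set_option linter.unusedSectionVars false

open Set Filter Topology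

namespace Crest.Agent.R273.UCov_914

open Crest.Agent.R275.Geo Crest.Agent.R275.ZC352 Crest.Agent.R275.GC293
open Crest.Agent.R275.Core144 Crest.Agent.R273.Defs_333 Crest.Agent.R273.Map_835

noncomputable section

variable {n : ℕ} {M : Type} [TopologicalSpace M] {A : Atl n M}

namespace MonD

variable {G : Type} [Group G] (D : MonD A G) (H : Subgroup G)

theorem mk_out_mul {v w : G ⧸ H} {g : G} (h : w = g • v) : w.out⁻¹ * (g * v.out) ∈ H := by
  rw [← QuotientGroup.eq]
  have h1 : ((g * v.out : G) : G ⧸ H) = g • ((v.out : G) : G ⧸ H) := rfl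
  rw [h1, QuotientGroup.out_eq', QuotientGroup.out_eq', h]

open Classical in
/-- the cocycle of a subgroup, on the intermediate covering -/
def sub : MonD (D.atl (G ⧸ H)) H where
  c p q e := if h : q.2.out⁻¹ * (D.c p.1 q.1 (D.pr e) * p.2.out) ∈ H then ⟨_, h⟩ else 1
  c_self p e he := by
    have h1 : p.2.out⁻¹ * (D.c p.1 p.1 (D.pr e) * p.2.out) = 1 := by
      rw [D.c_self _ _ he.1, one_mul, inv_mul_cancel]
    rw [dif_pos (h1 ▸ H.one_mem)]
    ext
    exact h1
  c_mul p q r e he := by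
    have hpq : q.2 = D.c p.1 q.1 (D.pr e) • p.2 := by
      rw [← he.1.1.2, ← he.1.2.2]; exact D.co_eq he.1.1.1 he.1.2.1
    have hqr : r.2 = D.c q.1 r.1 (D.pr e) • q.2 := by
      rw [← he.1.2.2, ← he.2.2]; exact D.co_eq he.1.2.1 he.2.1
    have hpr : r.2 = D.c p.1 r.1 (D.pr e) • p.2 := by
      rw [← he.1.1.2, ← he.2.2]; exact D.co_eq he.1.1.1 he.2.1
    rw [dif_pos (mk_out_mul H hpq), dif_pos (mk_out_mul H hqr), dif_pos (mk_out_mul H hpr)]
    ext
    simp only [Subgroup.coe_mul]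
    rw [← D.c_mul p.1 q.1 r.1 (D.pr e) ⟨⟨he.1.1.1, he.1.2.1⟩, he.2.1⟩]
    group
  c_loc p q e he e' he' := by
    have h1 := D.c_loc p.1 q.1 (D.pr e) ⟨he.1.1, he.2.1⟩ (D.pr e') ⟨he'.1.1, he'.2.1⟩
    simp only [h1]

theorem sub_c {p q : A.ι × (G ⧸ H)} {e : D.cov (G ⧸ H)} (hp : e ∈ D.sheet p.1 p.2)
    (hq : e ∈ D.sheet q.1 q.2) :
    (((D.sub H).c p q e : H) : G) = q.2.out⁻¹ * (D.c p.1 q.1 (D.pr e) * p.2.out) := by
  have hpq : q.2 = D.c p.1 q.1 (D.pr e) • p.2 := by
    rw [← hp.2, ← hq.2]; exact D.co_eq hp.1 hq.1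
  exact congrArg Subtype.val (dif_pos (mk_out_mul H hpq))

/-- the projection of `G`-sets -/
def mkHom : G →[G] (G ⧸ H) where
  toFun g := (g : G ⧸ H)
  map_smul' _ _ := rfl

@[simp] theorem mkHom_apply (g : G) : mkHom H g = (g : G ⧸ H) := rfl

/-- the intermediate covering map -/
def qm (e : D.cov G) : D.cov (G ⧸ H) := D.map (mkHom H) e

@[simp] theorem pr_qm (e : D.cov G) : D.pr (D.qm H e) = D.pr e := rfl

theorem co_qm (i : A.ι) (e : D.cov G) : D.co i (D.qm H e) = ((D.co i e : G) : G ⧸ H) :=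
  D.co_map (mkHom H) i e

theorem continuous_qm : Continuous (D.qm H) := D.continuous_map (mkHom H)

theorem qm_pt (i : A.ι) (g : G) (x : M) : D.qm H (D.pt i g x) = D.pt i (g : G ⧸ H) x :=
  D.map_pt (mkHom H) i g x

/-- the `H`-coordinate of a point of the big covering -/
def eta (i : A.ι) (e : D.cov G) : H :=
  ⟨((D.co i e : G) : G ⧸ H).out⁻¹ * D.co i e, by
    rw [← QuotientGroup.eq, QuotientGroup.out_eq']⟩

theorem coe_eta (i : A.ι) (e : D.cov G) :
    (D.eta H i e : G) = ((D.co i e : G) : G ⧸ H).out⁻¹ * D.co i e := rfl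

theorem out_mul_eta (i : A.ι) (e : D.cov G) :
    ((D.co i e : G) : G ⧸ H).out * (D.eta H i e : G) = D.co i e := by
  rw [coe_eta, mul_inv_cancel_left]

theorem qm_mem {i : A.ι} {e : D.cov G} (hi : D.pr e ∈ (A.e i).source) :
    D.qm H e ∈ D.sheet i ((D.co i e : G) : G ⧸ H) := ⟨hi, D.co_qm H i e⟩

theorem eta_change {i j : A.ι} {e : D.cov G} (hi : D.pr e ∈ (A.e i).source)
    (hj : D.pr e ∈ (A.e j).source) :
    (D.sub H).c (i, ((D.co i e : G) : G ⧸ H)) (j, ((D.co j e : G) : G ⧸ H)) (D.qm H e) *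
      D.eta H i e = D.eta H j e := by
  ext
  rw [Subgroup.coe_mul, D.sub_c H (D.qm_mem H hi) (D.qm_mem H hj), coe_eta, coe_eta]
  have h1 : D.co j e = D.c i j (D.pr e) * D.co i e := D.co_eq hi hj
  change _ * (D.c i j (D.pr e) * _) * _ = _
  rw [mul_assoc, mul_assoc, mul_inv_cancel_left, ← h1]

/-- the big covering is a covering of the intermediate one -/
def toSub (e : D.cov G) : (D.sub H).cov H :=
  (D.sub H).pt ((A.cover (D.pr e)).choose, ((D.co (A.cover (D.pr e)).choose e : G) : G ⧸ H))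
    (D.eta H (A.cover (D.pr e)).choose e) (D.qm H e)

theorem toSub_eq {i : A.ι} {e : D.cov G} (hi : D.pr e ∈ (A.e i).source) :
    D.toSub H e = (D.sub H).pt (i, ((D.co i e : G) : G ⧸ H)) (D.eta H i e) (D.qm H e) := by
  have h0 := (A.cover (D.pr e)).choose_spec
  unfold toSub
  rw [(D.sub H).pt_eq (i := ((A.cover (D.pr e)).choose,
      ((D.co (A.cover (D.pr e)).choose e : G) : G ⧸ H))) (j := (i, ((D.co i e : G) : G ⧸ H)))
      _ (D.qm_mem H h0) (D.qm_mem H hi)]
  congr 1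
  exact D.eta_change H h0 hi

@[simp] theorem pr_toSub (e : D.cov G) : (D.sub H).pr (D.toSub H e) = D.qm H e := rfl

theorem co_toSub {i : A.ι} {e : D.cov G} (hi : D.pr e ∈ (A.e i).source) :
    (D.sub H).co (i, ((D.co i e : G) : G ⧸ H)) (D.toSub H e) = D.eta H i e := by
  rw [D.toSub_eq H hi]
  exact (D.sub H).co_pt _ (D.qm_mem H hi)

/-- inverse map -/
def ofSub (e : (D.sub H).cov H) : D.cov G :=
  let i := (A.cover (D.pr ((D.sub H).pr e))).choose
  let v := D.co i ((D.sub H).pr e)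
  D.pt i (v.out * ((D.sub H).co (i, v) e : H)) (D.pr ((D.sub H).pr e))

theorem ofSub_eq {i : A.ι} {e : (D.sub H).cov H} (hi : D.pr ((D.sub H).pr e) ∈ (A.e i).source) :
    D.ofSub H e = D.pt i ((D.co i ((D.sub H).pr e)).out *
      ((D.sub H).co (i, D.co i ((D.sub H).pr e)) e : H)) (D.pr ((D.sub H).pr e)) := by
  have h0 := (A.cover (D.pr ((D.sub H).pr e))).choose_spec
  unfold ofSub
  simp only
  set k := (A.cover (D.pr ((D.sub H).pr e))).choose with hk
  rw [D.pt_eq (i := k) (j := i) _ h0 hi]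
  congr 1
  have h1 : (D.sub H).co (i, D.co i ((D.sub H).pr e)) e =
      (D.sub H).c (k, D.co k ((D.sub H).pr e)) (i, D.co i ((D.sub H).pr e)) ((D.sub H).pr e) *
        (D.sub H).co (k, D.co k ((D.sub H).pr e)) e :=
    (D.sub H).co_eq (i := (k, D.co k ((D.sub H).pr e))) (j := (i, D.co i ((D.sub H).pr e)))
      (D.mem_sheet_co h0) (D.mem_sheet_co hi)
  rw [h1, Subgroup.coe_mul, D.sub_c H (p := (k, D.co k ((D.sub H).pr e)))
    (q := (i, D.co i ((D.sub H).pr e))) (D.mem_sheet_co h0) (D.mem_sheet_co hi)]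
  simp only [smul_eq_mul]
  group

@[simp] theorem pr_ofSub (e : (D.sub H).cov H) : D.pr (D.ofSub H e) = D.pr ((D.sub H).pr e) := rfl

theorem co_ofSub {i : A.ι} {e : (D.sub H).cov H} (hi : D.pr ((D.sub H).pr e) ∈ (A.e i).source) :
    D.co i (D.ofSub H e) = (D.co i ((D.sub H).pr e)).out *
      ((D.sub H).co (i, D.co i ((D.sub H).pr e)) e : H) := by
  rw [D.ofSub_eq H hi]
  exact D.co_pt _ hi

theorem mk_out_mul_coe (v : G ⧸ H) (h : H) : ((v.out * (h : G) : G) : G ⧸ H) = v := by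
  have : ((v.out * (h : G) : G) : G ⧸ H) = ((v.out : G) : G ⧸ H) := by
    rw [eq_comm, QuotientGroup.eq, inv_mul_cancel_left]
    exact h.2
  rw [this, QuotientGroup.out_eq']

theorem ofSub_toSub (e : D.cov G) : D.ofSub H (D.toSub H e) = e := by
  obtain ⟨i, hi⟩ := A.cover (D.pr e)
  refine D.ext_co (i := i) hi rfl ?_
  rw [D.co_ofSub H (e := D.toSub H e) hi]
  simp only [pr_toSub, co_qm]
  rw [D.co_toSub H hi, D.out_mul_eta]

theorem qm_ofSub (e : (D.sub H).cov H) : D.qm H (D.ofSub H e) = (D.sub H).pr e := by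
  obtain ⟨i, hi⟩ := A.cover (D.pr ((D.sub H).pr e))
  refine D.ext_co (i := i) hi rfl ?_
  rw [co_qm, D.co_ofSub H hi, mk_out_mul_coe]

theorem toSub_ofSub (e : (D.sub H).cov H) : D.toSub H (D.ofSub H e) = e := by
  obtain ⟨i, hi⟩ := A.cover (D.pr ((D.sub H).pr e))
  have hi' : D.pr (D.ofSub H e) ∈ (A.e i).source := hi
  refine (D.sub H).ext_co (i := (i, D.co i ((D.sub H).pr e))) ?_ ?_ ?_
  · rw [pr_toSub, qm_ofSub]
    exact D.mem_sheet_co hi
  · rw [pr_toSub, qm_ofSub]
  · have h1 : ((D.co i (D.ofSub H e) : G) : G ⧸ H) = D.co i ((D.sub H).pr e) := by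
      rw [D.co_ofSub H hi, mk_out_mul_coe]
    have h2 := D.co_toSub H (e := D.ofSub H e) hi'
    rw [h1] at h2
    rw [h2]
    ext
    rw [coe_eta, h1, D.co_ofSub H hi, inv_mul_cancel_left]

theorem continuous_toSub : Continuous (D.toSub H) := by
  rw [continuous_iff_continuousAt]
  intro e
  obtain ⟨i, hi⟩ := A.cover (D.pr e)
  have h1 : ContinuousAt ((D.sub H).pt (i, ((D.co i e : G) : G ⧸ H)) (D.eta H i e)) (D.qm H e) :=
    ((D.sub H).continuousOn_pt (i, ((D.co i e : G) : G ⧸ H)) _).continuousAt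
      ((D.isOpen_sheet i _).mem_nhds (D.qm_mem H hi))
  have h2 : ContinuousAt (fun e' => (D.sub H).pt (i, ((D.co i e : G) : G ⧸ H)) (D.eta H i e)
      (D.qm H e')) e := ContinuousAt.comp (f := D.qm H) h1 (D.continuous_qm H).continuousAt
  refine h2.congr ?_
  filter_upwards [D.co_eventually hi] with e' he'
  rw [D.toSub_eq H he'.1, he'.2]
  congr 1
  ext
  rw [coe_eta, coe_eta, he'.2]

theorem continuous_ofSub : Continuous (D.ofSub H) := by
  rw [continuous_iff_continuousAt]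
  intro e
  obtain ⟨i, hi⟩ := A.cover (D.pr ((D.sub H).pr e))
  have hc : Continuous fun e : (D.sub H).cov H => D.pr ((D.sub H).pr e) :=
    D.continuous_pr.comp (D.sub H).continuous_pr
  have h1 : ContinuousAt (D.pt i ((D.co i ((D.sub H).pr e)).out *
      ((D.sub H).co (i, D.co i ((D.sub H).pr e)) e : H))) (D.pr ((D.sub H).pr e)) :=
    (D.continuousOn_pt i _).continuousAt ((A.e i).open_source.mem_nhds hi)
  have h2 := ContinuousAt.comp (f := fun e : (D.sub H).cov H => D.pr ((D.sub H).pr e)) h1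
    hc.continuousAt
  refine h2.congr ?_
  have h3 := (D.sub H).co_eventually (i := (i, D.co i ((D.sub H).pr e))) (e := e)
    (D.mem_sheet_co hi)
  filter_upwards [h3] with e' he'
  have h4 : D.co i ((D.sub H).pr e') = D.co i ((D.sub H).pr e) := he'.1.2
  rw [D.ofSub_eq H (e := e') he'.1.1, h4, he'.2]
  rfl

/-- **the two coverings agree** -/
def homeo : D.cov G ≃ₜ (D.sub H).cov H where
  toFun := D.toSub H
  invFun := D.ofSub H
  left_inv := D.ofSub_toSub H
  right_inv := D.toSub_ofSub H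
  continuous_toFun := D.continuous_toSub H
  continuous_invFun := D.continuous_ofSub H

@[simp] theorem homeo_apply (e : D.cov G) : D.homeo H e = D.toSub H e := rfl
@[simp] theorem homeo_symm_apply (e : (D.sub H).cov H) : (D.homeo H).symm e = D.ofSub H e := rfl

theorem qm_deck (h : H) (e : D.cov G) : D.qm H ((h : G) • e) = D.qm H e := by
  obtain ⟨i, hi⟩ := A.cover (D.pr e)
  refine D.ext_co (i := i) hi rfl ?_
  rw [co_qm, co_qm, co_deck, eq_comm, QuotientGroup.eq, inv_mul_cancel_left]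
  exact H.inv_mem h.2

/-- equivariance -/
theorem toSub_deck (h : H) (e : D.cov G) : D.toSub H ((h : G) • e) = h • D.toSub H e := by
  obtain ⟨i, hi⟩ := A.cover (D.pr e)
  have hi' : D.pr ((h : G) • e) ∈ (A.e i).source := hi
  have h1 : ((D.co i ((h : G) • e) : G) : G ⧸ H) = ((D.co i e : G) : G ⧸ H) := by
    rw [← co_qm, ← co_qm, qm_deck]
  refine (D.sub H).ext_co (i := (i, ((D.co i e : G) : G ⧸ H))) ?_ ?_ ?_
  · rw [pr_toSub, qm_deck]
    exact D.qm_mem H hi
  · rw [pr_toSub, qm_deck, pr_deck, pr_toSub]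
  · have h3 := (D.sub H).co_deck h (i, ((D.co i e : G) : G ⧸ H)) (D.toSub H e)
    refine Eq.trans ?_ h3.symm
    rw [D.co_toSub H hi]
    have h2 := D.co_toSub H hi'
    rw [h1] at h2
    rw [h2]
    ext
    rw [coe_eta, h1, co_deck, Subgroup.coe_mul, coe_eta]
    simp [mul_assoc]

theorem ofSub_deck (h : H) (e : (D.sub H).cov H) :
    D.ofSub H (h • e) = (h : G) • D.ofSub H e := by
  have h1 := D.toSub_deck H h (D.ofSub H e)
  rw [toSub_ofSub] at h1
  rw [← h1, ofSub_toSub]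

/-! ### holomorphy -/

/-- a continuous map over `M` between two coverings is holomorphic -/
theorem holMap_over {E E' : Type} [TopologicalSpace E] [TopologicalSpace E'] {B : Atl n E}
    {B' : Atl n E'} {π : E → M} {π' : E' → M} {r : B.ι → A.ι} {r' : B'.ι → A.ι}
    (h1 : ∀ p, ∀ z ∈ (B.e p).target, z ∈ (A.e (r p)).target ∧
      π ((B.e p).symm z) = (A.e (r p)).symm z)
    (h2 : ∀ p, ∀ e ∈ (B'.e p).source, π' e ∈ (A.e (r' p)).source ∧
      B'.e p e = A.e (r' p) (π' e))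
    {Φ : E → E'} (hc : Continuous Φ) (hπ : ∀ e, π' (Φ e) = π e) : HolMap B B' Φ := by
  refine ⟨hc, fun p q => ?_⟩
  refine ((A.holo (r p) (r' q)).mono ?_).congr ?_
  · rintro z ⟨hz1, hz2⟩
    have h3 := h1 p z hz1
    refine ⟨h3.1, ?_⟩
    rw [← h3.2, ← hπ]
    exact (h2 q _ hz2).1
  · rintro z ⟨hz1, hz2⟩
    rw [(h2 q _ hz2).2, hπ, (h1 p z hz1).2]

theorem holMap_pr (F : Type) [MulAction G F] : HolMap (D.atl F) A (D.pr (F := F)) :=
  holMap_over (A := A) (B := D.atl F) (B' := A) (π := D.pr) (π' := id)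
    (r := fun p : A.ι × F => p.1) (r' := id)
    (fun _ _ hz => ⟨hz, rfl⟩) (fun _ _ he => ⟨he, rfl⟩) D.continuous_pr fun _ => rfl

theorem holMap_map {F F' : Type} [MulAction G F] [MulAction G F'] (φ : F →[G] F') :
    HolMap (D.atl F) (D.atl F') (D.map φ) :=
  holMap_over (A := A) (B := D.atl F) (B' := D.atl F') (π := D.pr) (π' := D.pr)
    (r := fun p : A.ι × F => p.1) (r' := fun p : A.ι × F' => p.1)
    (fun _ _ hz => ⟨hz, rfl⟩) (fun _ _ he => ⟨he.1, rfl⟩) (D.continuous_map φ) fun _ => rfl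

theorem holMap_deck (g : G) : HolMap (D.atl G) (D.atl G) (fun e => g • e) :=
  D.holMap_map (rmul g)

theorem holMap_toSub : HolMap (D.atl G) ((D.sub H).atl H) (D.toSub H) :=
  holMap_over (A := A) (B := D.atl G) (B' := (D.sub H).atl H) (π := D.pr)
    (π' := fun e => D.pr ((D.sub H).pr e)) (r := fun p : A.ι × G => p.1)
    (r' := fun p : (A.ι × (G ⧸ H)) × H => p.1.1) (fun _ _ hz => ⟨hz, rfl⟩)
    (fun _ _ he => ⟨he.1.1, rfl⟩) (D.continuous_toSub H) fun _ => rfl

theorem holMap_ofSub : HolMap ((D.sub H).atl H) (D.atl G) (D.ofSub H) :=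
  holMap_over (A := A) (B := (D.sub H).atl H) (B' := D.atl G)
    (π := fun e => D.pr ((D.sub H).pr e)) (π' := D.pr)
    (r := fun p : (A.ι × (G ⧸ H)) × H => p.1.1) (r' := fun p : A.ι × G => p.1)
    (fun _ _ hz => ⟨hz, rfl⟩) (fun _ _ he => ⟨he.1, rfl⟩) (D.continuous_ofSub H) fun _ => rfl

theorem lBih_toSub : PB_835.LBih (D.atl G) ((D.sub H).atl H) (D.toSub H) :=
  Fam_835.lBih_of_inv (D.holMap_toSub H) (D.holMap_ofSub H) (D.ofSub_toSub H)

theorem lBih_ofSub : PB_835.LBih ((D.sub H).atl H) (D.atl G) (D.ofSub H) :=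
  Fam_835.lBih_of_inv (D.holMap_ofSub H) (D.holMap_toSub H) (D.toSub_ofSub H)

theorem lBih_deck (g : G) : PB_835.LBih (D.atl G) (D.atl G) (fun e => g • e) :=
  Fam_835.lBih_of_inv (D.holMap_deck g) (D.holMap_deck g⁻¹) fun e => inv_smul_smul g e

/-! ### topology of the big covering -/

instance [ConnectedSpace (D.cov G)] : ConnectedSpace ((D.sub H).cov H) :=
  (D.homeo H).surjective.connectedSpace (D.continuous_toSub H)

instance [PathConnectedSpace (D.cov G)] : PathConnectedSpace ((D.sub H).cov H) :=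
  (D.homeo H).surjective.pathConnectedSpace (D.continuous_toSub H)

instance [SimplyConnectedSpace (D.cov G)] : SimplyConnectedSpace ((D.sub H).cov H) :=
  (D.homeo H).symm.toHomotopyEquiv.simplyConnectedSpace

theorem surjective_qm : Function.Surjective (D.qm H) := by
  intro e
  obtain ⟨i, hi⟩ := A.cover (D.pr e)
  refine ⟨D.pt i (D.co i e).out (D.pr e), ?_⟩
  rw [qm_pt, QuotientGroup.out_eq', D.pt_co hi]

/-- the intermediate covering is connected -/
instance [ConnectedSpace (D.cov G)] : ConnectedSpace (D.cov (G ⧸ H)) :=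
  (D.surjective_qm H).connectedSpace (D.continuous_qm H)

instance [PathConnectedSpace (D.cov G)] : PathConnectedSpace (D.cov (G ⧸ H)) :=
  (D.surjective_qm H).pathConnectedSpace (D.continuous_qm H)

end MonD

end

end Crest.Agent.R273.UCov_914
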