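import Crest.Agent.R273.EqvC_914
import Mathlib.Topology.Covering.Quotient

/-!
# R273 (S0416), leaf EQV (helper914), part D: quotients

`π : N → Q` a quotient covering map for a group `P` (free, properly discontinuous action).
`LS π B`      : continuous sections of `π` over the charts of the atlas `B` of `Q`;
`mon hq S hB` : the cocycle `MonD B P`, `psi : N ≃ₜ (mon ..).cov P`, `P`-equivariant, over `Q`;
`qFam`        : the holomorphic charts of `Q` when `P` acts holomorphically on `N`;
`exists_quot` : finite good atlas of `Q`, cocycle, biholomorphism `N ≅ D.cov P`.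
-/

set_option autoImplicit false
set_option linter.unusedSectionVars false

open Set Filter Topology

namespace Crest.Agent.R273.Quot_914

open Crest.Agent.R275.Geo Crest.Agent.R275.ZC352 Crest.Agent.R275.GC293
open Crest.Agent.R275.Core144 Crest.Agent.R273.Defs_333 Crest.Agent.R273.Map_835
open Crest.Agent.R273.PB_835 Crest.Agent.R273.Fam_835 Crest.Agent.R273.UCov_914

noncomputable section

variable {n : ℕ} {N Q : Type} [TopologicalSpace N] [TopologicalSpace Q] {P : Type} [Group P]
  [MulAction P N] {π : N → Q} (hq : IsQuotientCoveringMap π P) {B : Atl n Q}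

/-- continuous local sections over the charts of an atlas -/
structure LS (π : N → Q) (B : Atl n Q) where
  s : B.ι → Q → N
  cont : ∀ j, ContinuousOn (s j) (B.e j).source
  sec : ∀ j, ∀ x ∈ (B.e j).source, π (s j x) = x

variable (S : LS π B)

include hq in
theorem eq_one_of_smul {p : P} {e : N} (h : p • e = e) : p = 1 := by
  obtain ⟨U, hU, hU'⟩ := hq.disjoint e
  exact hU' p ⟨e, ⟨e, mem_of_mem_nhds hU, h⟩, mem_of_mem_nhds hU⟩

include hq in
theorem smul_inj {p p' : P} {e : N} (h : p • e = p' • e) : p = p' := by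
  have h1 : (p'⁻¹ * p) • e = e := by rw [mul_smul, h, inv_smul_smul]
  have h2 := eq_one_of_smul hq h1
  rw [inv_mul_eq_one] at h2
  exact h2.symm

include hq in
theorem exists_co {j : B.ι} {e : N} (he : π e ∈ (B.e j).source) :
    ∃ p : P, p • e = S.s j (π e) := by
  have h1 : S.s j (π e) ∈ MulAction.orbit P e := hq.apply_eq_iff_mem_orbit.1 (S.sec j _ he)
  exact h1

open Classical in
/-- the coordinate of a point over a chart -/
def co (j : B.ι) (e : N) : P :=
  if he : π e ∈ (B.e j).source then (exists_co hq S he).choose else 1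

theorem co_smul {j : B.ι} {e : N} (he : π e ∈ (B.e j).source) :
    co hq S j e • e = S.s j (π e) := by
  rw [co, dif_pos he]
  exact (exists_co hq S he).choose_spec

theorem co_unique {j : B.ι} {e : N} (he : π e ∈ (B.e j).source) {p : P}
    (hp : p • e = S.s j (π e)) : co hq S j e = p :=
  smul_inj hq ((co_smul hq S he).trans hp.symm)

theorem co_deck {j : B.ι} {e : N} (he : π e ∈ (B.e j).source) (g : P) :
    co hq S j (g • e) = co hq S j e * g⁻¹ := by
  have h1 : π (g • e) = π e := hq.map_smul g
  refine co_unique hq S (by rw [h1]; exact he) ?_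
  rw [mul_smul, inv_smul_smul, h1, co_smul hq S he]

theorem co_sec {j : B.ι} {x : Q} (hx : x ∈ (B.e j).source) : co hq S j (S.s j x) = 1 := by
  have h1 : π (S.s j x) = x := S.sec j x hx
  refine co_unique hq S (by rw [h1]; exact hx) ?_
  rw [one_smul, h1]

include hq in
/-- two continuous lifts which agree up to `g` at a point agree up to `g` nearby -/
theorem lift_eventually {X : Type*} [TopologicalSpace X] {f f' : X → N} {x0 : X} {g : P}
    (hf : ContinuousAt f x0) (hf' : ContinuousAt f' x0) (h0 : g • f x0 = f' x0)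
    (h1 : ∀ᶠ x in 𝓝 x0, π (f x) = π (f' x)) : ∀ᶠ x in 𝓝 x0, g • f x = f' x := by
  obtain ⟨U, hU, hU'⟩ := hq.disjoint (f' x0)
  have : ContinuousConstSMul P N := hq.toContinuousConstSMul
  have h2 : ContinuousAt (fun x => g • f x) x0 := hf.const_smul g
  have h3 : ∀ᶠ x in 𝓝 x0, g • f x ∈ U := h2.preimage_mem_nhds (by rw [h0]; exact hU)
  have h4 : ∀ᶠ x in 𝓝 x0, f' x ∈ U := hf'.preimage_mem_nhds hU
  filter_upwards [h1, h3, h4] with x hx1 hx2 hx3
  have h5 : f' x ∈ MulAction.orbit P (g • f x) := hq.apply_eq_iff_mem_orbit.1 (by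
    rw [hq.map_smul, hx1])
  obtain ⟨p, hp⟩ := h5
  have hp' : p • (g • f x) = f' x := hp
  have h6 := hU' p ⟨f' x, ⟨g • f x, hx2, hp'⟩, hx3⟩
  rw [h6, one_smul] at hp'
  exact hp'

theorem co_eventually {j : B.ι} {e : N} (he : π e ∈ (B.e j).source) :
    ∀ᶠ e' in 𝓝 e, π e' ∈ (B.e j).source ∧ co hq S j e' = co hq S j e := by
  have hπ : Continuous π := hq.isCoveringMap.continuous
  have h0 : ∀ᶠ e' in 𝓝 e, π e' ∈ (B.e j).source :=
    hπ.continuousAt.preimage_mem_nhds ((B.e j).open_source.mem_nhds he)
  have h1 : ContinuousAt (fun e' => S.s j (π e')) e :=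
    ((S.cont j).continuousAt ((B.e j).open_source.mem_nhds he)).comp hπ.continuousAt
  have h2 := lift_eventually hq (f := fun e' : N => e') (f' := fun e' => S.s j (π e'))
    continuousAt_id h1 (co_smul hq S he) (by
      filter_upwards [h0] with e' he'
      exact (S.sec j _ he').symm)
  filter_upwards [h0, h2] with e' h3 h4
  exact ⟨h3, co_unique hq S h3 h4⟩

theorem c_eventually {i j : B.ι} {x : Q} (hx : x ∈ (B.e i).source ∩ (B.e j).source) :
    ∀ᶠ y in 𝓝 x, co hq S j (S.s i y) = co hq S j (S.s i x) := by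
  have h1 : ContinuousAt (S.s i) x := (S.cont i).continuousAt ((B.e i).open_source.mem_nhds hx.1)
  have h2 := co_eventually hq S (j := j) (e := S.s i x) (by rw [S.sec i x hx.1]; exact hx.2)
  filter_upwards [h1.eventually h2] with y hy
  exact hy.2

theorem isPreconnected_ov (hB : GoodA B) (i j : B.ι) :
    IsPreconnected ((B.e i).source ∩ (B.e j).source) := by
  have h1 : (B.e i).source ∩ (B.e j).source = (B.e i).symm '' B.ov i j := by
    ext x
    constructor
    · rintro ⟨h1, h2⟩
      exact ⟨B.e i x, ⟨(B.e i).map_source h1, by rw [(B.e i).left_inv h1]; exact h2⟩,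
        (B.e i).left_inv h1⟩
    · rintro ⟨z, hz, rfl⟩
      exact ⟨(B.e i).map_target hz.1, hz.2⟩
  rw [h1]
  exact (hB i j).isPreconnected.image _ ((B.e i).continuousOn_symm.mono fun z hz => hz.1)

/-- the cocycle -/
def mon (hB : GoodA B) : MonD B P where
  c i j x := co hq S j (S.s i x)
  c_self i x hx := co_sec hq S hx
  c_mul i j k x hx := by
    have hi : π (S.s i x) = x := S.sec i x hx.1.1
    have hj : π (S.s j x) = x := S.sec j x hx.1.2
    refine (co_unique hq S (by rw [hi]; exact hx.2) ?_).symm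
    have h1 : co hq S j (S.s i x) • S.s i x = S.s j x := by
      rw [co_smul hq S (by rw [hi]; exact hx.1.2), hi]
    rw [mul_smul, h1, co_smul hq S (by rw [hj]; exact hx.2), hj, hi]
  c_loc i j x hx y hy := by
    let _ : TopologicalSpace P := ⊥
    have _ : DiscreteTopology P := ⟨rfl⟩
    refine (isPreconnected_ov hB i j).constant (Y := P) (f := fun y => co hq S j (S.s i y))
      ?_ hx hy
    intro y hy
    apply ContinuousAt.continuousWithinAt
    refine ContinuousAt.congr (f := fun _ => co hq S j (S.s i y)) continuousAt_const ?_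
    filter_upwards [c_eventually hq S hy] with z hz
    exact hz.symm

variable (hB : GoodA B)

theorem mon_c (i j : B.ι) (x : Q) : (mon hq S hB).c i j x = co hq S j (S.s i x) := rfl

theorem co_change {i j : B.ι} {e : N} (hi : π e ∈ (B.e i).source) (hj : π e ∈ (B.e j).source) :
    (mon hq S hB).c i j (π e) * co hq S i e = co hq S j e := by
  refine (co_unique hq S hj ?_).symm
  rw [mul_smul, co_smul hq S hi, mon_c, co_smul hq S (by rw [S.sec i _ hi]; exact hj), S.sec i _ hi]

/-- the map to the total space of the cocycle -/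
def psi (e : N) : (mon hq S hB).cov P :=
  (mon hq S hB).pt (B.cover (π e)).choose (co hq S (B.cover (π e)).choose e) (π e)

@[simp] theorem pr_psi (e : N) : (mon hq S hB).pr (psi hq S hB e) = π e := rfl

theorem psi_eq {j : B.ι} {e : N} (hj : π e ∈ (B.e j).source) :
    psi hq S hB e = (mon hq S hB).pt j (co hq S j e) (π e) := by
  have h0 := (B.cover (π e)).choose_spec
  unfold psi
  rw [(mon hq S hB).pt_eq _ h0 hj]
  congr 1
  exact co_change hq S hB h0 hj

theorem co_psi {j : B.ι} {e : N} (hj : π e ∈ (B.e j).source) :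
    (mon hq S hB).co j (psi hq S hB e) = co hq S j e := by
  rw [psi_eq hq S hB hj]
  exact (mon hq S hB).co_pt _ hj

/-- the inverse map -/
def phi (e : (mon hq S hB).cov P) : N :=
  ((mon hq S hB).co (B.cover ((mon hq S hB).pr e)).choose e)⁻¹ •
    S.s (B.cover ((mon hq S hB).pr e)).choose ((mon hq S hB).pr e)

theorem phi_eq {j : B.ι} {e : (mon hq S hB).cov P} (hj : (mon hq S hB).pr e ∈ (B.e j).source) :
    phi hq S hB e = ((mon hq S hB).co j e)⁻¹ • S.s j ((mon hq S hB).pr e) := by
  have h0 := (B.cover ((mon hq S hB).pr e)).choose_spec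
  unfold phi
  set k := (B.cover ((mon hq S hB).pr e)).choose
  have h1 : (mon hq S hB).co j e = (mon hq S hB).c k j ((mon hq S hB).pr e) *
    (mon hq S hB).co k e := (mon hq S hB).co_eq h0 hj
  have h2 : (mon hq S hB).c k j ((mon hq S hB).pr e) • S.s k ((mon hq S hB).pr e) =
      S.s j ((mon hq S hB).pr e) := by
    rw [mon_c, co_smul hq S (by rw [S.sec k _ h0]; exact hj), S.sec k _ h0]
  rw [h1, mul_inv_rev, mul_smul, ← h2, inv_smul_smul]

theorem pi_phi (e : (mon hq S hB).cov P) :
    π (phi hq S hB e) = (mon hq S hB).pr e := by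
  unfold phi
  rw [hq.map_smul]
  exact S.sec _ _ (B.cover ((mon hq S hB).pr e)).choose_spec

theorem phi_psi (e : N) : phi hq S hB (psi hq S hB e) = e := by
  obtain ⟨j, hj⟩ := B.cover (π e)
  rw [phi_eq hq S hB (j := j) (e := psi hq S hB e) hj, co_psi hq S hB hj, pr_psi,
    ← co_smul hq S hj, inv_smul_smul]

theorem psi_phi (e : (mon hq S hB).cov P) : psi hq S hB (phi hq S hB e) = e := by
  obtain ⟨j, hj⟩ := B.cover ((mon hq S hB).pr e)
  have h1 : π (phi hq S hB e) = (mon hq S hB).pr e := pi_phi hq S hB e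
  have hj' : π (phi hq S hB e) ∈ (B.e j).source := by rw [h1]; exact hj
  refine (mon hq S hB).ext_co (i := j) hj' h1 ?_
  rw [co_psi hq S hB hj']
  refine co_unique hq S hj' ?_
  rw [h1, phi_eq hq S hB hj, smul_inv_smul]

theorem continuous_psi : Continuous (psi hq S hB) := by
  rw [continuous_iff_continuousAt]
  intro e
  obtain ⟨j, hj⟩ := B.cover (π e)
  have hπ : Continuous π := hq.isCoveringMap.continuous
  have h1 : ContinuousAt ((mon hq S hB).pt j (co hq S j e)) (π e) :=
    ((mon hq S hB).continuousOn_pt j _).continuousAt ((B.e j).open_source.mem_nhds hj)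
  have h2 := ContinuousAt.comp (f := π) h1 hπ.continuousAt
  refine h2.congr ?_
  filter_upwards [co_eventually hq S hj] with e' he'
  rw [psi_eq hq S hB he'.1, he'.2]
  rfl

theorem continuous_phi : Continuous (phi hq S hB) := by
  rw [continuous_iff_continuousAt]
  intro e
  have : ContinuousConstSMul P N := hq.toContinuousConstSMul
  obtain ⟨j, hj⟩ := B.cover ((mon hq S hB).pr e)
  have h1 : ContinuousAt (S.s j) ((mon hq S hB).pr e) :=
    (S.cont j).continuousAt ((B.e j).open_source.mem_nhds hj)
  have h2 := ContinuousAt.comp (f := (mon hq S hB).pr) h1 (mon hq S hB).continuous_pr.continuousAt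
  have h3 : ContinuousAt (fun e' => ((mon hq S hB).co j e)⁻¹ • S.s j ((mon hq S hB).pr e')) e :=
    h2.const_smul _
  refine h3.congr ?_
  filter_upwards [(mon hq S hB).co_eventually hj] with e' he'
  rw [phi_eq hq S hB he'.1, he'.2]

/-- **`N` is the total space of the cocycle** -/
def psiH : N ≃ₜ (mon hq S hB).cov P where
  toFun := psi hq S hB
  invFun := phi hq S hB
  left_inv := phi_psi hq S hB
  right_inv := psi_phi hq S hB
  continuous_toFun := continuous_psi hq S hB
  continuous_invFun := continuous_phi hq S hB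

@[simp] theorem psiH_apply (e : N) : psiH hq S hB e = psi hq S hB e := rfl
@[simp] theorem psiH_symm_apply (e : (mon hq S hB).cov P) :
    (psiH hq S hB).symm e = phi hq S hB e := rfl

theorem psi_deck (p : P) (e : N) : psi hq S hB (p • e) = p • psi hq S hB e := by
  obtain ⟨j, hj⟩ := B.cover (π e)
  have h1 : π (p • e) = π e := hq.map_smul p
  have hj' : π (p • e) ∈ (B.e j).source := by rw [h1]; exact hj
  refine (mon hq S hB).ext_co (i := j) hj' h1 ?_
  rw [co_psi hq S hB hj', MonD.co_deck, co_psi hq S hB hj, co_deck hq S hj]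

theorem phi_deck (p : P) (e : (mon hq S hB).cov P) :
    phi hq S hB (p • e) = p • phi hq S hB e := by
  have h1 := psi_deck hq S hB p (phi hq S hB e)
  rw [psi_phi] at h1
  rw [← h1, phi_psi]

/-! ### holomorphic structure -/

section Hol

variable {AN : Atl n N} (hol : ∀ p : P, HolMap AN AN (fun e => p • e))

/-- a local inverse of `π` at `x` -/
def lh (x : N) : OpenPartialHomeomorph N Q := (hq.isCoveringMap.isLocalHomeomorph x).choose

theorem lh_mem (x : N) : x ∈ (lh hq x).source :=
  (hq.isCoveringMap.isLocalHomeomorph x).choose_spec.1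

theorem lh_apply (x y : N) : lh hq x y = π y :=
  (congrFun (hq.isCoveringMap.isLocalHomeomorph x).choose_spec.2 y).symm

theorem pi_lh_symm (x : N) {y : Q} (hy : y ∈ (lh hq x).target) : π ((lh hq x).symm y) = y := by
  rw [← lh_apply hq x]
  exact (lh hq x).right_inv hy

include hol in
theorem key {i i' : AN.ι} {x' : N} {z : Cn n} (hz : z ∈ (AN.e i).target)
    (h1 : π ((AN.e i).symm z) ∈ (lh hq x').target)
    (h2 : (lh hq x').symm (π ((AN.e i).symm z)) ∈ (AN.e i').source) :
    DifferentiableAt ℂ (fun z => AN.e i' ((lh hq x').symm (π ((AN.e i).symm z)))) z := by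
  have hπ : Continuous π := hq.isCoveringMap.continuous
  have hc : ContinuousAt (AN.e i).symm z := (AN.e i).continuousAt_symm hz
  have h3 : (lh hq x').symm (π ((AN.e i).symm z)) ∈ MulAction.orbit P ((AN.e i).symm z) :=
    hq.apply_eq_iff_mem_orbit.1 (pi_lh_symm hq x' h1)
  obtain ⟨p, hp⟩ := h3
  have hp' : p • (AN.e i).symm z = (lh hq x').symm (π ((AN.e i).symm z)) := hp
  have hc2 : ContinuousAt (fun z => (lh hq x').symm (π ((AN.e i).symm z))) z :=
    ((lh hq x').continuousAt_symm h1).comp (f := fun z => π ((AN.e i).symm z))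
      (hπ.continuousAt.comp hc)
  have h4 : ∀ᶠ w in 𝓝 z, π ((AN.e i).symm w) ∈ (lh hq x').target :=
    (hπ.continuousAt.comp hc).preimage_mem_nhds ((lh hq x').open_target.mem_nhds h1)
  have h5 := lift_eventually hq (f := fun w => (AN.e i).symm w) hc hc2 hp' (by
    filter_upwards [h4] with w hw
    exact (pi_lh_symm hq x' hw).symm)
  have h6 : p • (AN.e i).symm z ∈ (AN.e i').source := by rw [hp']; exact h2
  have h7 : DifferentiableAt ℂ (fun w => AN.e i' (p • (AN.e i).symm w)) z :=
    (hol p).diffAt (i := i) (j := i') ⟨hz, h6⟩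
  refine h7.congr_of_eventuallyEq ?_
  filter_upwards [h5] with w hw
  rw [hw]

/-- the holomorphic charts of the quotient -/
def qFam : Fam n Q where
  ι := N × AN.ι
  e q := (lh hq q.1).symm.trans (AN.e q.2)
  cover y := by
    obtain ⟨x, rfl⟩ := hq.surjective y
    obtain ⟨i, hi⟩ := AN.cover x
    refine ⟨(x, i), ?_⟩
    rw [OpenPartialHomeomorph.trans_source, OpenPartialHomeomorph.symm_source]
    have h1 : π x ∈ (lh hq x).target := by
      rw [← lh_apply hq x]; exact (lh hq x).map_source (lh_mem hq x)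
    refine ⟨h1, ?_⟩
    have h2 : (lh hq x).symm (π x) = x := by
      rw [← lh_apply hq x x]; exact (lh hq x).left_inv (lh_mem hq x)
    change (lh hq x).symm (π x) ∈ (AN.e i).source
    rw [h2]
    exact hi
  holo q q' := by
    intro z hz
    obtain ⟨hz1, hz2⟩ := hz
    rw [OpenPartialHomeomorph.trans_target] at hz1
    have hz2' := hz2
    rw [OpenPartialHomeomorph.trans_source, OpenPartialHomeomorph.symm_source] at hz2'
    have e1 : ∀ w, ((lh hq q.1).symm.trans (AN.e q.2)).symm w = π ((AN.e q.2).symm w) := by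
      intro w
      exact lh_apply hq q.1 _
    rw [e1] at hz2'
    have h1 := key hq hol (i := q.2) (i' := q'.2) (x' := q'.1) hz1.1 hz2'.1 hz2'.2
    refine (h1.congr_of_eventuallyEq ?_).differentiableWithinAt
    refine Eventually.of_forall fun w => ?_
    change AN.e q'.2 ((lh hq q'.1).symm (((lh hq q.1).symm.trans (AN.e q.2)).symm w)) = _
    rw [e1]

theorem holC_pi : HolC (fam AN) (qFam hq hol) π := by
  refine ⟨hq.isCoveringMap.continuous, fun i q => ?_⟩
  rintro z ⟨hz1, hz2⟩
  have hz2' : π ((AN.e i).symm z) ∈ ((lh hq q.1).symm.trans (AN.e q.2)).source := hz2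
  rw [OpenPartialHomeomorph.trans_source, OpenPartialHomeomorph.symm_source] at hz2'
  exact (key hq hol (i := i) (i' := q.2) (x' := q.1) hz1 hz2'.1 hz2'.2).differentiableWithinAt

end Hol

end

end Crest.Agent.R273.Quot_914
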