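import Crest.Agent.R273.EqvD_914

/-!
# R273 (S0416), leaf EQV (helper914), part E: existence of the quotient

`QD π AN P`  : a finite good atlas `B` of the quotient with a partition of unity, a cocycle
               `D : MonD B P` and a `P`-equivariant biholomorphism `Ψ : N ≃ₜ D.cov P` over `Q`;
`exists_qd`  : existence for a quotient covering map onto a compact Hausdorff space;
`exists_qd_of_action` : free properly discontinuous cocompact holomorphic action, `Q = N / P`.
-/

set_option autoImplicit false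
set_option linter.unusedSectionVars false

open Set Filter Topology

namespace Crest.Agent.R273.Quot_914

open Crest.Agent.R275.Geo Crest.Agent.R275.ZC352 Crest.Agent.R275.GC293
open Crest.Agent.R275.Core144 Crest.Agent.R273.Defs_333 Crest.Agent.R273.Map_835
open Crest.Agent.R273.PB_835 Crest.Agent.R273.Fam_835 Crest.Agent.R273.UCov_914

noncomputable section

variable {n : ℕ} {N Q : Type} [TopologicalSpace N] [TopologicalSpace Q] {P : Type} [Group P]
  [MulAction P N] {π : N → Q} (hq : IsQuotientCoveringMap π P)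
  {AN : Atl n N} (hol : ∀ p : P, HolMap AN AN (fun e => p • e))

theorem exists_good [T2Space Q] [CompactSpace Q] :
    ∃ B : Atl n Q, Finite B.ι ∧ GoodA B ∧ Nonempty (Part B) ∧ Nonempty (LS π B) ∧
      HolC (fam B) (qFam hq hol) id ∧ HolC (qFam hq hol) (fam B) id := by
  obtain ⟨B, h1, h2, h3, h4, h5, h6⟩ := (qFam hq hol).exists_atl
    (fun x : N => (lh hq x).target) (fun x => (lh hq x).open_target) (fun y => by
      obtain ⟨x, rfl⟩ := hq.surjective y
      refine ⟨x, ?_⟩
      rw [← lh_apply hq x]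
      exact (lh hq x).map_source (lh_mem hq x))
  choose k hk using h4
  refine ⟨B, h1, h2, h3, ⟨⟨fun j x => (lh hq (k j)).symm x, fun j => ?_, fun j x hx => ?_⟩⟩, h5, h6⟩
  · exact (lh hq (k j)).continuousOn_symm.mono (hk j)
  · exact pi_lh_symm hq (k j) (hk j hx)

variable {B : Atl n Q} (S : LS π B) (hB : GoodA B)
  (h5 : HolC (fam B) (qFam hq hol) id) (h6 : HolC (qFam hq hol) (fam B) id)

include h6 in
theorem holMap_pi : HolMap AN B π := by
  have h1 := HolC.comp h6 (holC_pi hq hol)
  exact ⟨h1.cont, h1.hol⟩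

include h5 in
/-- the local sections are holomorphic -/
theorem sec_diff {j : B.ι} {i' : AN.ι} {z : Cn n} (hz : z ∈ (B.e j).target)
    (hi : S.s j ((B.e j).symm z) ∈ (AN.e i').source) :
    DifferentiableAt ℂ (fun z => AN.e i' (S.s j ((B.e j).symm z))) z := by
  have : ContinuousConstSMul P N := hq.toContinuousConstSMul
  set x := (B.e j).symm z with hx
  have hxs : x ∈ (B.e j).source := (B.e j).map_target hz
  set w := S.s j x with hw
  have hπw : π w = x := S.sec j x hxs
  -- the chart of the quotient at `w`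
  have hx1 : x ∈ (lh hq w).target := by
    rw [← hπw, ← lh_apply hq w]; exact (lh hq w).map_source (lh_mem hq w)
  have hsx : (lh hq w).symm x = w := by
    have h2 : (lh hq w).symm (π w) = w := by
      rw [← lh_apply hq w w]; exact (lh hq w).left_inv (lh_mem hq w)
    rwa [hπw] at h2
  have hx2 : x ∈ ((qFam hq hol).e (w, i')).source := by
    change x ∈ ((lh hq w).symm.trans (AN.e i')).source
    rw [OpenPartialHomeomorph.trans_source, OpenPartialHomeomorph.symm_source]
    refine ⟨hx1, ?_⟩
    change (lh hq w).symm x ∈ (AN.e i').source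
    rw [hsx]
    exact hi
  have h2 := h5.diffAt (i := j) (j := (w, i')) (z := z) hz hx2
  refine h2.congr_of_eventuallyEq ?_
  have hc : ContinuousAt (B.e j).symm z := (B.e j).continuousAt_symm hz
  have hs : ContinuousAt (fun z => S.s j ((B.e j).symm z)) z :=
    ((S.cont j).continuousAt ((B.e j).open_source.mem_nhds hxs)).comp hc
  have hl : ContinuousAt (fun z => (lh hq w).symm ((B.e j).symm z)) z :=
    ((lh hq w).continuousAt_symm hx1).comp (f := fun z => (B.e j).symm z) hc
  have h3 : ∀ᶠ u in 𝓝 z, u ∈ (B.e j).target := (B.e j).open_target.mem_nhds hz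
  have h4 : ∀ᶠ u in 𝓝 z, (B.e j).symm u ∈ (lh hq w).target :=
    hc.preimage_mem_nhds ((lh hq w).open_target.mem_nhds hx1)
  have h7 := lift_eventually hq (g := (1 : P)) hl hs (by rw [one_smul]; exact hsx) (by
    filter_upwards [h3, h4] with u hu hu'
    rw [pi_lh_symm hq w hu', S.sec j _ ((B.e j).map_target hu)])
  filter_upwards [h7] with u hu
  rw [one_smul] at hu
  change AN.e i' (S.s j ((B.e j).symm u)) = AN.e i' ((lh hq w).symm ((B.e j).symm u))
  rw [hu]

include h6 in
theorem holMap_psi : HolMap AN ((mon hq S hB).atl P) (psi hq S hB) := by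
  have h1 := holMap_pi hq hol h6
  refine ⟨continuous_psi hq S hB, fun i q => ?_⟩
  refine (h1.hol i q.1).mono ?_
  rintro z ⟨hz1, hz2⟩
  exact ⟨hz1, hz2.1⟩

include hol h5 in
theorem holMap_phi : HolMap ((mon hq S hB).atl P) AN (phi hq S hB) := by
  refine ⟨continuous_phi hq S hB, fun q i => ?_⟩
  obtain ⟨j, p⟩ := q
  rintro z ⟨hz1, hz2⟩
  have hz : z ∈ (B.e j).target := hz1
  have hxs : (B.e j).symm z ∈ (B.e j).source := (B.e j).map_target hz
  have hval : ∀ u ∈ (B.e j).target, phi hq S hB ((mon hq S hB).pt j p ((B.e j).symm u)) =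
      p⁻¹ • S.s j ((B.e j).symm u) := by
    intro u hu
    have hus := (B.e j).map_target hu
    rw [phi_eq hq S hB (j := j) (e := (mon hq S hB).pt j p ((B.e j).symm u)) hus,
      (mon hq S hB).co_pt _ hus]
    rfl
  have hz2' : p⁻¹ • S.s j ((B.e j).symm z) ∈ (AN.e i).source := by
    rw [← hval z hz]; exact hz2
  obtain ⟨i0, hi0⟩ := AN.cover (S.s j ((B.e j).symm z))
  have h1 := sec_diff hq hol S h5 hz hi0
  have h2 : DifferentiableAt ℂ (fun u => AN.e i (p⁻¹ • (AN.e i0).symm u))
      (AN.e i0 (S.s j ((B.e j).symm z))) := by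
    refine (hol p⁻¹).diffAt (i := i0) (j := i) (mem_dm hi0 ?_)
    exact hz2'
  have h3 := DifferentiableAt.comp z (g := fun u => AN.e i (p⁻¹ • (AN.e i0).symm u))
    (f := fun z => AN.e i0 (S.s j ((B.e j).symm z))) h2 h1
  refine (h3.congr_of_eventuallyEq ?_).differentiableWithinAt
  have hc : ContinuousAt (B.e j).symm z := (B.e j).continuousAt_symm hz
  have hs : ContinuousAt (fun z => S.s j ((B.e j).symm z)) z :=
    ((S.cont j).continuousAt ((B.e j).open_source.mem_nhds hxs)).comp hc
  filter_upwards [(B.e j).open_target.mem_nhds hz,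
    hs.preimage_mem_nhds ((AN.e i0).open_source.mem_nhds hi0)] with u hu hu'
  change AN.e i (phi hq S hB ((mon hq S hB).pt j p ((B.e j).symm u))) =
    AN.e i (p⁻¹ • (AN.e i0).symm (AN.e i0 (S.s j ((B.e j).symm u))))
  rw [hval u hu, (AN.e i0).left_inv hu']

/-- a complex manifold structure on the quotient -/
structure QD (π : N → Q) (AN : Atl n N) (P : Type) [Group P] [MulAction P N] where
  B : Atl n Q
  fin : Finite B.ι
  good : GoodA B
  part : Part B
  D : MonD B P
  Ψ : N ≃ₜ D.cov P
  pr_Ψ : ∀ e, D.pr (Ψ e) = π e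
  deck : ∀ (p : P) (e : N), Ψ (p • e) = p • Ψ e
  hol : LBih AN (D.atl P) Ψ
  hol' : LBih (D.atl P) AN Ψ.symm

attribute [instance] QD.fin

include hq hol in
/-- **quotients exist** -/
theorem exists_qd [T2Space Q] [CompactSpace Q] : Nonempty (QD π AN P) := by
  obtain ⟨B, h1, h2, ⟨h3⟩, ⟨S⟩, h5, h6⟩ := exists_good hq hol
  have k1 := holMap_psi hq hol S h2 h6
  have k2 := holMap_phi hq hol S h2 h5
  exact ⟨{ B := B
           fin := h1
           good := h2
           part := h3
           D := mon hq S h2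
           Ψ := psiH hq S h2
           pr_Ψ := fun e => rfl
           deck := psi_deck hq S h2
           hol := lBih_of_inv k1 k2 (phi_psi hq S h2)
           hol' := lBih_of_inv k2 k1 (psi_phi hq S h2) }⟩

namespace QD

variable (X : QD π AN P)

theorem Ψ_symm_deck (p : P) (e : X.D.cov P) : X.Ψ.symm (p • e) = p • X.Ψ.symm e := by
  rw [X.Ψ.symm_apply_eq, X.deck, X.Ψ.apply_symm_apply]

theorem pi_symm (e : X.D.cov P) : π (X.Ψ.symm e) = X.D.pr e := by
  rw [← X.pr_Ψ, X.Ψ.apply_symm_apply]

theorem holMap_pi : HolMap AN X.B π := by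
  have h1 := (X.D.holMap_pr P).comp X.hol.toHolMap
  have h2 : (fun x => X.D.pr (X.Ψ x)) = π := funext X.pr_Ψ
  rw [h2] at h1
  exact h1

end QD

end

end Crest.Agent.R273.Quot_914
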