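import Crest.Agent.R273.MerB_769
import Crest.Agent.R273.Cram_747

/-!
# R273, leaf A-FF (helper769), part 1: quotients of proportional sections, the field `FF`

* `Rel g u u'`  : `u = g u'` at the regular points of `g : Mer A`
* `exists_quo`  : two proportional sections of the same bundle, `u' ≠ 0`, have a quotient `g : Mer A`
* `tp`          : tensor product of two tensor sections
* `WW L w0 σ a` : the holomorphic sections of `(Λ^* T)^{⊗ (σ × ρ)} ⊗ L^a` proportional to `w0^{⊗ σ}`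
* `FF L w0`     : the quotients of the elements of `WW L w0 σ a`; an intermediate field
-/

set_option autoImplicit false
set_option linter.unusedSectionVars false

open Set Filter Topology Complex
open scoped ContDiff Matrix ComplexConjugate

namespace Crest.Agent.R273.FF769

open Crest.Agent.R275.Geo Crest.Agent.R275.Core144 Crest.Agent.R275.GC293
open Crest.Agent.R273.Rigid769 Crest.Agent.R273.Mer769
open Crest.Agent.R273.Cram_747 (TS KP tns tns_TS mnr)
open Crest.Agent.R273.Fock_243 (FI Gam)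

noncomputable section

variable {n : ℕ} {M : Type} [TopologicalSpace M] {A : Atl n M}

/-! ### quotients -/

/-- `u = g u'` at the regular points of `g` -/
def Rel {κ : Type*} (g : Mer A) (u u' : A.ι → M → κ → ℂ) : Prop :=
  ∀ i, ∀ x ∈ (A.e i).source, x ∈ reg g → ∀ F, u i x F = ev g x * u' i x F

section Quo

variable {κ : Type} [Fintype κ] {L : LB A} {G : A.ι → A.ι → M → Matrix κ κ ℂ}
  {u u' v v' : A.ι → M → κ → ℂ}

/-- at a point where `u' ≠ 0` the vector `u` is a multiple of `u'` -/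
theorem prp_smul (hp : Prp u u') {i : A.ι} {x : M} (hx : x ∈ (A.e i).source) {F : κ}
    (h0 : u' i x F ≠ 0) : u i x = (u i x F / u' i x F) • u' i x := by
  funext H
  have h1 := hp i x hx F H
  rw [Pi.smul_apply, smul_eq_mul, div_mul_eq_mul_div, eq_div_iff h0, ← h1]

/-- the ratio does not depend on the component and on the chart -/
theorem ratio_indep (h : IsWS L G u) (h' : IsWS L G u') (hp : Prp u u') {i j : A.ι} {x : M}
    (hi : x ∈ (A.e i).source) (hj : x ∈ (A.e j).source) {F H : κ} (h0 : u' i x F ≠ 0)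
    (h1 : u' j x H ≠ 0) : u j x H / u' j x H = u i x F / u' i x F := by
  have h2 := prp_smul hp hi h0
  set c := u i x F / u' i x F with hc
  have h3 : u j x = c • u' j x := by
    rw [h.tr j i x ⟨hj, hi⟩, h'.tr j i x ⟨hj, hi⟩, h2, Matrix.mulVec_smul, smul_comm]
  rw [h3, Pi.smul_apply, smul_eq_mul, mul_div_assoc, div_self h1, mul_one]

open Classical in
/-- the quotient as a function -/
def quoF (u u' : A.ι → M → κ → ℂ) (x : M) : ℂ :=
  if h : ∃ p : A.ι × κ, x ∈ (A.e p.1).source ∧ u' p.1 x p.2 ≠ 0 then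
    u (Classical.choose h).1 x (Classical.choose h).2 /
      u' (Classical.choose h).1 x (Classical.choose h).2 else 0

theorem quoF_eq (h : IsWS L G u) (h' : IsWS L G u') (hp : Prp u u') {i : A.ι} {x : M}
    (hi : x ∈ (A.e i).source) {F : κ} (h0 : u' i x F ≠ 0) :
    quoF u u' x = u i x F / u' i x F := by
  have hex : ∃ p : A.ι × κ, x ∈ (A.e p.1).source ∧ u' p.1 x p.2 ≠ 0 := ⟨(i, F), hi, h0⟩
  unfold quoF
  rw [dif_pos hex]
  exact ratio_indep h h' hp hi (Classical.choose_spec hex).1 h0 (Classical.choose_spec hex).2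

/-- a section which is not identically zero has near every point a component which is nowhere
locally zero -/
theorem exists_comp_nlz [PreconnectedSpace M] (h' : IsWS L G u') (h0 : NZ u') {i : A.ι} {x : M}
    (hi : x ∈ (A.e i).source) : ∃ V ⊆ (A.e i).source, IsOpen V ∧ x ∈ V ∧
      ∃ F, NLZ V fun y => u' i y F := by
  obtain ⟨V, hVU, hVo, hxV, hV⟩ := nlz_or (A := A) ((A.e i).open_source.mem_nhds hi)
  refine ⟨V, hVU, hVo, hxV, ?_⟩
  by_contra hcon
  push Not at hcon
  have h1 : ∀ F, ∀ y ∈ V, u' i y F = 0 := by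
    intro F
    have hh : HolU A V fun y => u' i y F := holU_of_holAt hVo hVU ((h'.hol i F).mono (subset_univ _))
    exact (hV _ hh).resolve_right (hcon F)
  have h2 := nlz h' h0 i hi
  refine h2 ?_
  filter_upwards [hVo.mem_nhds hxV] with y hy hne
  exact hne (funext fun F => h1 F y hy)

theorem isMer_quoF [PreconnectedSpace M] (h : IsWS L G u) (h' : IsWS L G u') (hp : Prp u u')
    (h0 : NZ u') : IsMer A (quoF u u') := by
  intro x
  obtain ⟨i, hi⟩ := A.cover x
  obtain ⟨V, hVs, hVo, hxV, F, hF⟩ := exists_comp_nlz h' h0 hi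
  refine ⟨V, hVo, hxV, fun y => u i y F, fun y => u' i y F,
    holU_of_holAt hVo hVs ((h.hol i F).mono (subset_univ _)),
    holU_of_holAt hVo hVs ((h'.hol i F).mono (subset_univ _)), hF, fun y hy hne => ?_⟩
  rw [quoF_eq h h' hp (hVs hy) hne, div_mul_cancel₀ _ hne]

/-- the quotient as an element of `Mer A` -/
def quo [PreconnectedSpace M] (h : IsWS L G u) (h' : IsWS L G u') (hp : Prp u u')
    (h0 : NZ u') : Mer A := mk (quoF u u') (isMer_quoF h h' hp h0)

/-- where `u' ≠ 0` the quotient is regular -/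
theorem quo_reg [PreconnectedSpace M] (h : IsWS L G u) (h' : IsWS L G u') (hp : Prp u u')
    (h0 : NZ u') {i : A.ι} {x : M} (hi : x ∈ (A.e i).source) {F : κ} (hne : u' i x F ≠ 0) :
    x ∈ reg (quo h h' hp h0) ∧ ev (quo h h' hp h0) x = u i x F / u' i x F := by
  refine reg_of_quot (isMer_quoF h h' hp h0) (A.e i).open_source (p := fun y => u i y F)
    (q := fun y => u' i y F) ?_ ?_ ?_ hi hne
  · exact holU_of_holAt (A.e i).open_source subset_rfl ((h.hol i F).mono (subset_univ _))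
  · exact holU_of_holAt (A.e i).open_source subset_rfl ((h'.hol i F).mono (subset_univ _))
  · intro y hy hne
    rw [quoF_eq h h' hp hy hne, div_mul_cancel₀ _ hne]

theorem quo_rel [PreconnectedSpace M] (h : IsWS L G u) (h' : IsWS L G u') (hp : Prp u u')
    (h0 : NZ u') : Rel (quo h h' hp h0) u u' := by
  intro i x hi hx F
  set g := quo h h' hp h0 with hg
  -- both sides are continuous at `x`, equality holds where `u' ≠ 0`
  have hc : ContinuousAt (fun y => u i y F - ev g y * u' i y F) x := by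
    have h1 : ContinuousAt (fun y => u i y F) x :=
      (holU_of_holAt (A.e i).open_source subset_rfl
        ((h.hol i F).mono (subset_univ _))).continuousAt (A.e i).open_source hi
    have h2 : ContinuousAt (fun y => u' i y F) x :=
      (holU_of_holAt (A.e i).open_source subset_rfl
        ((h'.hol i F).mono (subset_univ _))).continuousAt (A.e i).open_source hi
    exact h1.sub (((holU_ev g).continuousAt (isOpen_reg g) hx).mul h2)
  have hfr : ∃ᶠ y in 𝓝 x, u i y F - ev g y * u' i y F = 0 := by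
    refine ((nlz h' h0 i hi).and_eventually ((A.e i).open_source.mem_nhds hi)).mono ?_
    rintro y ⟨hy, hys⟩
    obtain ⟨H, hH⟩ := Function.ne_iff.1 hy
    have h3 := (quo_reg h h' hp h0 hys hH).2
    rw [← hg] at h3
    rw [h3]
    have h4 := congrFun (prp_smul hp hys hH) F
    rw [Pi.smul_apply, smul_eq_mul] at h4
    rw [h4, sub_self]
  have h5 : u i x F - ev g x * u' i x F = 0 := by
    by_contra hne
    exact hfr ((hc.eventually_ne hne).mono fun y hy h => hy h)
  exact sub_eq_zero.1 h5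

theorem Rel.reg_ev [ConnectedSpace M] (h : IsWS L G u) (h' : IsWS L G u')
    {g : Mer A} (hg : Rel g u u') {i : A.ι} {x : M} (hi : x ∈ (A.e i).source) {F : κ}
    (hne : u' i x F ≠ 0) : x ∈ reg g ∧ ev g x = u i x F / u' i x F := by
  -- `g` is represented by its own values
  have h1 : {y | y ∈ (A.e i).source → rep g y * u' i y F = u i y F} ∈ dn M := by
    filter_upwards [ev_rep g, dn_reg g] with y hy hyr hys
    rw [← hy, ← hg i y hys hyr F]
  have hu : HolU A (A.e i).source fun y => u i y F :=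
    holU_of_holAt (A.e i).open_source subset_rfl ((h.hol i F).mono (subset_univ _))
  have hu' : HolU A (A.e i).source fun y => u' i y F :=
    holU_of_holAt (A.e i).open_source subset_rfl ((h'.hol i F).mono (subset_univ _))
  have h2 : RegAt A (rep g) x fun y => u i y F / u' i y F := by
    refine ⟨(A.e i).source ∩ {y | u' i y F ≠ 0}, hu'.isOpen_ne (A.e i).open_source, ⟨hi, hne⟩,
      (hu.mono inter_subset_left).div (hu'.mono inter_subset_left) fun y hy => hy.2, ?_⟩
    filter_upwards [h1] with y hy hyV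
    rw [eq_div_iff hyV.2]
    exact hy hyV.1
  exact ⟨⟨_, h2⟩, h2.evF_eq⟩

/-- uniqueness of the quotient -/
theorem Rel.unique [ConnectedSpace M] {κ : Type*} {u u' : A.ι → M → κ → ℂ} (h0 : ∀ i, ∀ x ∈ (A.e i).source, ∃ᶠ y in 𝓝 x, u' i y ≠ 0)
    {g g' : Mer A} (hg : Rel g u u') (hg' : Rel g' u u') : g = g' := by
  rw [eq_iff_dn, mem_dn]
  intro x
  -- a point near `x`, regular for both
  have h1 := mem_dn.1 (inter_mem (dn_reg g) (dn_reg g')) x
  refine h1.mono fun y hy => ?_
  obtain ⟨i, hi⟩ := A.cover y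
  filter_upwards [hy, (A.e i).open_source.mem_nhds hi, eventually_eventually_nhds.2 hy] with z hz hzi hze
  -- continuity at `z`
  have hc : ContinuousAt (fun w => ev g w - ev g' w) z :=
    ((holU_ev g).continuousAt (isOpen_reg g) hz.1).sub
      ((holU_ev g').continuousAt (isOpen_reg g') hz.2)
  have hfr : ∃ᶠ w in 𝓝 z, ev g w - ev g' w = 0 := by
    refine (((h0 i z hzi).and_eventually ((A.e i).open_source.mem_nhds hzi)).and_eventually
      hze).mono ?_
    rintro w ⟨⟨hw, hwi⟩, hwr⟩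
    obtain ⟨F, hF⟩ := Function.ne_iff.1 hw
    have h2 := hg i w hwi hwr.1 F
    have h3 := hg' i w hwi hwr.2 F
    rw [h2] at h3
    exact sub_eq_zero.2 (mul_right_cancel₀ hF h3)
  have h5 : ev g z - ev g' z = 0 := by
    by_contra hne
    exact hfr ((hc.eventually_ne hne).mono fun w hw h => hw h)
  exact sub_eq_zero.1 h5

end Quo

/-! ### calculus of `Rel` -/

section RelCalc

variable {κ κ' : Type*} {u u' v v' : A.ι → M → κ → ℂ}

theorem rel_algebraMap (c : ℂ) (u : A.ι → M → κ → ℂ) :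
    Rel (algebraMap ℂ (Mer A) c) (c • u) u := by
  intro i x _ _ F
  rw [(reg_algebraMap c x).2]
  rfl

/-- `Rel` may be checked on a dense open set, for continuous families -/
theorem rel_of_dn {g : Mer A} {u u' : A.ι → M → κ → ℂ}
    (hu : ∀ i F, ∀ x ∈ (A.e i).source, ContinuousAt (fun y => u i y F) x)
    (hu' : ∀ i F, ∀ x ∈ (A.e i).source, ContinuousAt (fun y => u' i y F) x)
    (h : {x | ∀ i, x ∈ (A.e i).source → x ∈ reg g → ∀ F, u i x F = ev g x * u' i x F} ∈ dn M) :
    Rel g u u' := by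
  intro i x hi hx F
  have hc : ContinuousAt (fun y => u i y F - ev g y * u' i y F) x :=
    (hu i F x hi).sub (((holU_ev g).continuousAt (isOpen_reg g) hx).mul (hu' i F x hi))
  have hfr : ∃ᶠ y in 𝓝 x, u i y F - ev g y * u' i y F = 0 := by
    have e1 : ∀ᶠ y in 𝓝 x, y ∈ (A.e i).source := (A.e i).open_source.mem_nhds hi
    have e2 : ∀ᶠ y in 𝓝 x, y ∈ reg g := (isOpen_reg g).mem_nhds hx
    refine ((mem_dn.1 h x).and_eventually (e1.and e2)).mono ?_
    rintro y ⟨hy, hyi, hyr⟩
    have := mem_of_mem_nhds hy i hyi hyr F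
    rw [this, sub_self]
  have h5 : u i x F - ev g x * u' i x F = 0 := by
    by_contra hne
    exact hfr ((hc.eventually_ne hne).mono fun y hy h => hy h)
  exact sub_eq_zero.1 h5

end RelCalc

/-! ### tensor products -/

section TP

variable {ρ σ σ' : Type}

/-- tensor product of two tensor sections -/
def tp (τ : A.ι → M → (σ × ρ → FI n) → ℂ) (τ' : A.ι → M → (σ' × ρ → FI n) → ℂ) :
    A.ι → M → ((σ ⊕ σ') × ρ → FI n) → ℂ := fun i x F =>
  τ i x (fun p => F (Sum.inl p.1, p.2)) * τ' i x (fun p => F (Sum.inr p.1, p.2))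

/-- index tuples on `(σ ⊕ σ') × ρ` -/
def eqv (κ : Type) (σ σ' ρ : Type) :
    ((σ ⊕ σ') × ρ → κ) ≃ (σ × ρ → κ) × (σ' × ρ → κ) where
  toFun F := (fun p => F (Sum.inl p.1, p.2), fun p => F (Sum.inr p.1, p.2))
  invFun q := fun p => Sum.elim (fun s => q.1 (s, p.2)) (fun s => q.2 (s, p.2)) p.1
  left_inv F := by
    funext p
    obtain ⟨s, r⟩ := p
    cases s <;> rfl
  right_inv q := rfl

theorem tp_eqv (τ : A.ι → M → (σ × ρ → FI n) → ℂ) (τ' : A.ι → M → (σ' × ρ → FI n) → ℂ)
    (i : A.ι) (x : M) (q : (σ × ρ → FI n) × (σ' × ρ → FI n)) :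
    tp τ τ' i x ((eqv (FI n) σ σ' ρ).symm q) = τ i x q.1 * τ' i x q.2 := rfl

variable [Fintype ρ] [DecidableEq ρ] [Fintype σ] [DecidableEq σ] [Fintype σ'] [DecidableEq σ']
  {N N' : LB A} {τ : A.ι → M → (σ × ρ → FI n) → ℂ} {τ' : A.ι → M → (σ' × ρ → FI n) → ℂ}

theorem tp_TS (h : TS (σ × ρ) N τ) (h' : TS (σ' × ρ) N' τ') :
    TS ((σ ⊕ σ') × ρ) (N * N') (tp τ τ') := by
  refine ⟨fun i F => (h.hol i _).mul (h'.hol i _), fun i x hx => ?_, fun i j x hx => ?_⟩
  · funext F
    simp [tp, h.off i x hx]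
  · funext F
    rw [LB.mul_g]
    have h1 : τ i x (fun p => F (Sum.inl p.1, p.2)) = N.g i j x *
        ∑ H : σ × ρ → FI n, (∏ a, Gam (Jm A j i x) (F (Sum.inl a.1, a.2)) (H a)) * τ j x H := by
      rw [h.tr i j x hx]
      simp [Matrix.mulVec, dotProduct, KP]
    have h2 : τ' i x (fun p => F (Sum.inr p.1, p.2)) = N'.g i j x *
        ∑ H : σ' × ρ → FI n, (∏ a, Gam (Jm A j i x) (F (Sum.inr a.1, a.2)) (H a)) *
          τ' j x H := by
      rw [h'.tr i j x hx]
      simp [Matrix.mulVec, dotProduct, KP]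
    simp only [tp, Pi.smul_apply, smul_eq_mul, Matrix.mulVec, dotProduct, KP, Matrix.of_apply]
    rw [h1, h2]
    have h3 : ∑ H : (σ ⊕ σ') × ρ → FI n, (∏ a, Gam (Jm A j i x) (F a) (H a)) *
        (τ j x (fun p => H (Sum.inl p.1, p.2)) * τ' j x (fun p => H (Sum.inr p.1, p.2))) =
        (∑ H : σ × ρ → FI n, (∏ a, Gam (Jm A j i x) (F (Sum.inl a.1, a.2)) (H a)) * τ j x H) *
        ∑ H : σ' × ρ → FI n, (∏ a, Gam (Jm A j i x) (F (Sum.inr a.1, a.2)) (H a)) *
          τ' j x H := by
      rw [Finset.sum_mul_sum, ← Finset.sum_product', Finset.univ_product_univ]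
      refine Fintype.sum_equiv (eqv (FI n) σ σ' ρ) _ _ fun H => ?_
      simp only [eqv, Equiv.coe_fn_mk]
      have h4 : (∏ a : (σ ⊕ σ') × ρ, Gam (Jm A j i x) (F a) (H a)) =
          (∏ a : σ × ρ, Gam (Jm A j i x) (F (Sum.inl a.1, a.2)) (H (Sum.inl a.1, a.2))) *
          ∏ a : σ' × ρ, Gam (Jm A j i x) (F (Sum.inr a.1, a.2)) (H (Sum.inr a.1, a.2)) := by
        rw [Fintype.prod_prod_type, Fintype.prod_sum_type, Fintype.prod_prod_type,
          Fintype.prod_prod_type]
      rw [h4]; ring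
    rw [h3]; ring

theorem tp_tns (w : A.ι → M → (ρ → FI n) → ℂ) :
    tp (tns fun _ : σ => w) (tns fun _ : σ' => w) = tns fun _ : σ ⊕ σ' => w := by
  funext i x F
  simp only [tp, tns, Fintype.prod_sum_type]

end TP

theorem prp_tp {ρ σ σ' : Type} {τ w : A.ι → M → (σ × ρ → FI n) → ℂ}
    {τ' w' : A.ι → M → (σ' × ρ → FI n) → ℂ} (h : Cram_747.Prp τ w) (h' : Cram_747.Prp τ' w') :
    Cram_747.Prp (tp τ τ') (tp w w') := by
  intro i x F H
  have h1 := h i x (fun p => F (Sum.inl p.1, p.2)) (fun p => H (Sum.inl p.1, p.2))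
  have h2 := h' i x (fun p => F (Sum.inr p.1, p.2)) (fun p => H (Sum.inr p.1, p.2))
  simp only [tp]
  linear_combination (τ' i x fun p => F (Sum.inr p.1, p.2)) *
    (w' i x fun p => H (Sum.inr p.1, p.2)) * h1 +
    (τ i x fun p => H (Sum.inl p.1, p.2)) * (w i x fun p => F (Sum.inl p.1, p.2)) * h2

/-! ### bridge between `TS` and `IsWS` -/

section Bridge

variable {ρ : Type} [Fintype ρ] [DecidableEq ρ] {N : LB A}
  {τ τ' : A.ι → M → (ρ → FI n) → ℂ}

theorem ts_isWS (h : TS ρ N τ) : IsWS N (fun i j x => KP ρ (Gam (Jm A j i x))) τ :=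
  ⟨h.hol, h.tr⟩

theorem ts_nz (h : TS ρ N τ) (h0 : τ ≠ 0) : NZ τ := by
  by_contra hcon
  refine h0 ?_
  funext i x
  by_cases hx : x ∈ (A.e i).source
  · by_contra h1
    exact hcon ⟨i, x, hx, h1⟩
  · exact h.off i x hx

theorem prp_of (h : Cram_747.Prp τ τ') : Prp τ τ' := fun i x _ a b => h i x a b

theorem nz_ne (h : NZ τ) : τ ≠ 0 := by
  rintro rfl
  obtain ⟨i, x, -, h0⟩ := h
  exact h0 rfl

/-- existence of the quotient of two proportional tensor sections -/
theorem exists_rel [ConnectedSpace M] (h : TS ρ N τ) (h' : TS ρ N τ')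
    (hp : Cram_747.Prp τ τ') (h0 : τ' ≠ 0) : ∃ g : Mer A, Rel g τ τ' :=
  ⟨_, quo_rel (ts_isWS h) (ts_isWS h') (prp_of hp) (ts_nz h' h0)⟩

theorem freq_ne [ConnectedSpace M] (h' : TS ρ N τ') (h0 : τ' ≠ 0) :
    ∀ i, ∀ x ∈ (A.e i).source, ∃ᶠ y in 𝓝 x, τ' i y ≠ 0 :=
  fun i _ hx => nlz (ts_isWS h') (ts_nz h' h0) i hx

theorem rel_unique [ConnectedSpace M] (h' : TS ρ N τ') (h0 : τ' ≠ 0) {g g' : Mer A}
    (hg : Rel g τ τ') (hg' : Rel g' τ τ') : g = g' := Rel.unique (freq_ne h' h0) hg hg'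

theorem ts_cont (h : TS ρ N τ) (i : A.ι) (F : ρ → FI n) {x : M} (hx : x ∈ (A.e i).source) :
    ContinuousAt (fun y => τ i y F) x :=
  (holU_of_holAt (A.e i).open_source subset_rfl
    ((h.hol i F).mono (subset_univ _))).continuousAt (A.e i).open_source hx

/-- criterion for `Rel` on a dense open set -/
theorem rel_of_dn' {g : Mer A} (h : TS ρ N τ) (h' : TS ρ N τ')
    (he : {x | ∀ i, x ∈ (A.e i).source → x ∈ reg g → ∀ F, τ i x F = ev g x * τ' i x F} ∈ dn M) :
    Rel g τ τ' :=
  rel_of_dn (fun i F _ hx => ts_cont h i F hx) (fun i F _ hx => ts_cont h' i F hx) he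

theorem ts_add {τ τ' : A.ι → M → (ρ → FI n) → ℂ} (h : TS ρ N τ) (h' : TS ρ N τ') :
    TS ρ N (τ + τ') := by
  refine ⟨fun i F => (h.hol i F).add (h'.hol i F), fun i x hx => ?_, fun i j x hx => ?_⟩
  · simp [h.off i x hx, h'.off i x hx]
  · simp only [Pi.add_apply]
    rw [h.tr i j x hx, h'.tr i j x hx, Matrix.mulVec_add, smul_add]

theorem ts_smul (c : ℂ) (h : TS ρ N τ) : TS ρ N (c • τ) := by
  refine ⟨fun i F => (h.hol i F).const_mul c, fun i x hx => ?_, fun i j x hx => ?_⟩
  · simp [h.off i x hx]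
  · simp only [Pi.smul_apply]
    rw [h.tr i j x hx, Matrix.mulVec_smul, smul_comm]

end Bridge

theorem prp_add {κ : Type*} {τ τ' w : A.ι → M → κ → ℂ} (h : Cram_747.Prp τ w)
    (h' : Cram_747.Prp τ' w) : Cram_747.Prp (τ + τ') w := by
  intro i x F H
  have h1 := h i x F H
  have h2 := h' i x F H
  simp only [Pi.add_apply]
  linear_combination h1 + h2

theorem prp_smul' {κ : Type*} (c : ℂ) {τ w : A.ι → M → κ → ℂ} (h : Cram_747.Prp τ w) :
    Cram_747.Prp (c • τ) w := by
  intro i x F H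
  have h1 := h i x F H
  simp only [Pi.smul_apply, smul_eq_mul]
  linear_combination c * h1

end

end Crest.Agent.R273.FF769
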