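import Crest.Agent.R273.FG_259

/-!
Row 273, leaf A-FG (769, post 1674), part 2: the primitive model of a finitely generated field
extension: `E = k(y)(v)`, `v` integral over `k[y]` with monic minimal polynomial `P`, a
discriminant `δ` in the ideal `(P, P')`, and every element of `E` is `R(y,v) / q(y)`.
-/

set_option linter.unusedSectionVars false

namespace Crest.Agent.R273.FG_259

open Polynomial

/-- primitive model over an integrally closed domain -/
theorem prim_core (A E : Type*) [CommRing A] [IsDomain A] [IsIntegrallyClosed A] [CharZero A]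
    [Field E] [Algebra A E] [FaithfulSMul A E] [Algebra.EssFiniteType A E]
    [Algebra.IsAlgebraic A E] :
    ∃ (v : E) (P U V : A[X]) (δ : A), P.Monic ∧ aeval v P = 0 ∧ Irreducible P ∧
      (∀ Q : A[X], aeval v Q = 0 → P ∣ Q) ∧ δ ≠ 0 ∧ U * P + V * derivative P = C δ ∧
      ∀ f : E, ∃ q : A, q ≠ 0 ∧ ∃ R : A[X], algebraMap A E q * f = aeval v R := by
  classical
  let K := FractionRing A
  let _ : Algebra K E := FractionRing.liftAlgebra A E
  have : IsScalarTower A K E := FractionRing.isScalarTower_liftAlgebra A E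
  have : CharZero K := charZero_of_injective_algebraMap (IsFractionRing.injective A K)
  have : Algebra.EssFiniteType K E := .of_comp A K E
  have : Algebra.IsAlgebraic K E := Algebra.IsAlgebraic.extendScalars (R := A)
    (IsFractionRing.injective A K)
  have : FiniteDimensional K E := Algebra.finite_of_essFiniteType_of_isAlgebraic
  obtain ⟨α, hα⟩ := Field.exists_primitive_element K E
  obtain ⟨c, hc, hv⟩ := (Algebra.IsAlgebraic.isAlgebraic (R := A) α).exists_integral_multiple
  have hcK : algebraMap A K c ≠ 0 := by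
    rwa [Ne, IsFractionRing.to_map_eq_zero_iff]
  have hvtop : IntermediateField.adjoin K {c • α} = ⊤ := by
    rw [← top_le_iff, ← hα, IntermediateField.adjoin_simple_le_iff]
    have h1 : α = (algebraMap A K c)⁻¹ • (c • α) := by
      rw [← algebraMap_smul K c α, inv_smul_smul₀ hcK]
    have h2 : (algebraMap A K c)⁻¹ • (c • α) ∈ IntermediateField.adjoin K {c • α} :=
      IntermediateField.smul_mem _ (IntermediateField.mem_adjoin_simple_self K (c • α))
    rwa [← h1] at h2
  have hmin : minpoly K (c • α : E) = (minpoly A (c • α)).map (algebraMap A K) :=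
    minpoly.isIntegrallyClosed_eq_field_fractions' K hv
  have hsep : (minpoly K (c • α : E)).Separable := Algebra.IsSeparable.isSeparable K _
  obtain ⟨a, b, hab⟩ := hsep
  obtain ⟨d₁, hd₁, h₁⟩ := IsLocalization.integerNormalization_spec (nonZeroDivisors A) a
  obtain ⟨d₂, hd₂, h₂⟩ := IsLocalization.integerNormalization_spec (nonZeroDivisors A) b
  have hinj : Function.Injective (Polynomial.map (algebraMap A K)) :=
    Polynomial.map_injective _ (IsFractionRing.injective A K)
  refine ⟨c • α, minpoly A (c • α),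
    C d₂ * IsLocalization.integerNormalization (nonZeroDivisors A) a,
    C d₁ * IsLocalization.integerNormalization (nonZeroDivisors A) b,
    d₁ * d₂, minpoly.monic hv, minpoly.aeval _ _, minpoly.irreducible hv,
    fun Q hQ => minpoly.isIntegrallyClosed_dvd hv hQ,
    mul_ne_zero (nonZeroDivisors.ne_zero hd₁) (nonZeroDivisors.ne_zero hd₂), ?_, ?_⟩
  · apply hinj
    simp only [Polynomial.map_add, Polynomial.map_mul, h₁, h₂, Polynomial.map_C, map_mul,
      ← Polynomial.derivative_map, ← hmin]
    rw [← algebraMap_smul K d₁ a, ← algebraMap_smul K d₂ b, Polynomial.smul_eq_C_mul,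
      Polynomial.smul_eq_C_mul]
    linear_combination (C (algebraMap A K d₁) * C (algebraMap A K d₂)) * hab
  · intro f
    have hf : f ∈ IntermediateField.adjoin K {c • α} := by
      rw [hvtop]
      exact IntermediateField.mem_top
    have hf2 : f ∈ Algebra.adjoin K {c • α} := by
      rw [← IntermediateField.adjoin_simple_toSubalgebra_of_isAlgebraic
        (Algebra.IsAlgebraic.isAlgebraic (R := K) (c • α))]
      exact hf
    rw [Algebra.adjoin_singleton_eq_range_aeval] at hf2
    obtain ⟨R₀, hR₀⟩ := hf2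
    obtain ⟨q, hq0, hq⟩ := IsLocalization.integerNormalization_spec (nonZeroDivisors A) R₀
    refine ⟨q, nonZeroDivisors.ne_zero hq0,
      IsLocalization.integerNormalization (nonZeroDivisors A) R₀, ?_⟩
    have h3 : aeval (c • α) (IsLocalization.integerNormalization (nonZeroDivisors A) R₀) =
        aeval (c • α) ((IsLocalization.integerNormalization (nonZeroDivisors A) R₀).map
          (algebraMap A K)) := by
      rw [Polynomial.aeval_map_algebraMap]
    rw [h3, hq, ← algebraMap_smul K q R₀, map_smul, algebraMap_smul K q, ← Algebra.smul_def, ← hR₀]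
    rfl

/-- enlarging the denominator -/
theorem prim_finset (A E : Type*) [CommRing A] [IsDomain A] [Field E] [Algebra A E]
    [FaithfulSMul A E] (v : E)
    (h : ∀ f : E, ∃ q : A, q ≠ 0 ∧ ∃ R : A[X], algebraMap A E q * f = aeval v R)
    (S : Finset E) : ∃ q : A, q ≠ 0 ∧ ∀ f ∈ S, ∃ R : A[X], algebraMap A E q * f = aeval v R := by
  classical
  choose q hq R hR using h
  refine ⟨∏ f ∈ S, q f, Finset.prod_ne_zero_iff.2 fun f _ => hq f, fun f hf =>
    ⟨C (∏ g ∈ S.erase f, q g) * R f, ?_⟩⟩
  rw [map_mul, ← hR, aeval_C, ← Finset.prod_erase_mul S q hf, map_mul]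
  ring

/-- **primitive model of a finitely generated field extension** (`A = k[y]`) -/
theorem prim_model (k E : Type*) [Field k] [CharZero k] [Field E] [Algebra k E]
    [Algebra.EssFiniteType k E] (S : Finset E) :
    ∃ (b : ℕ) (y : Fin b → E) (v : E) (P U V : (MvPolynomial (Fin b) k)[X])
      (δ : MvPolynomial (Fin b) k), IsTranscendenceBasis k y ∧ AlgebraicIndependent k y ∧
      P.Monic ∧ P.eval₂ (MvPolynomial.aeval y).toRingHom v = 0 ∧ Irreducible P ∧
      (∀ Q : (MvPolynomial (Fin b) k)[X], Q.eval₂ (MvPolynomial.aeval y).toRingHom v = 0 →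
        P ∣ Q) ∧
      δ ≠ 0 ∧ U * P + V * derivative P = C δ ∧
      (∀ f : E, ∃ q : MvPolynomial (Fin b) k, q ≠ 0 ∧ ∃ R : (MvPolynomial (Fin b) k)[X],
        MvPolynomial.aeval y q * f = R.eval₂ (MvPolynomial.aeval y).toRingHom v) ∧
      (∀ f ∈ S, ∃ R : (MvPolynomial (Fin b) k)[X],
        MvPolynomial.aeval y δ * f = R.eval₂ (MvPolynomial.aeval y).toRingHom v) := by
  classical
  obtain ⟨s, hs⟩ := exists_finset_isTranscendenceBasis k E
  have e : s ≃ Fin s.card := s.equivFin
  obtain ⟨y, hy⟩ : ∃ y : Fin s.card → E, y = fun i => ((e.symm i : s) : E) := ⟨_, rfl⟩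
  have hyT : IsTranscendenceBasis k y := by
    rw [hy]
    exact hs.comp_equiv e.symm
  have hyI : AlgebraicIndependent k y := hyT.1
  let _ : Algebra (MvPolynomial (Fin s.card) k) E := (MvPolynomial.aeval y).toRingHom.toAlgebra
  have : IsScalarTower k (MvPolynomial (Fin s.card) k) E := by
    refine IsScalarTower.of_algebraMap_eq fun x => ?_
    exact (MvPolynomial.aeval_C y x).symm
  have hinj : Function.Injective (algebraMap (MvPolynomial (Fin s.card) k) E) := hyI
  have : FaithfulSMul (MvPolynomial (Fin s.card) k) E :=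
    (faithfulSMul_iff_algebraMap_injective _ _).2 hinj
  have : Algebra.EssFiniteType (MvPolynomial (Fin s.card) k) E := .of_comp k _ E
  have halg : Algebra.IsAlgebraic (Algebra.adjoin k (Set.range y)) E := hyT.isAlgebraic
  have hmem : ∀ p : MvPolynomial (Fin s.card) k,
      MvPolynomial.aeval y p ∈ Algebra.adjoin k (Set.range y) := by
    intro p
    rw [Algebra.adjoin_range_eq_range_aeval]
    exact ⟨p, rfl⟩
  let φ : MvPolynomial (Fin s.card) k →ₐ[k] Algebra.adjoin k (Set.range y) :=
    (MvPolynomial.aeval y).codRestrict _ hmem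
  have hφ : Function.Surjective φ := by
    rintro ⟨x, hx⟩
    have hx' := hx
    rw [Algebra.adjoin_range_eq_range_aeval] at hx'
    obtain ⟨p, hp⟩ := hx'
    exact ⟨p, Subtype.ext hp⟩
  have : Algebra.IsAlgebraic (MvPolynomial (Fin s.card) k) E :=
    Algebra.IsAlgebraic.of_ringHom_of_comp_eq φ.toRingHom (RingHom.id E) hφ
      Function.injective_id rfl
  obtain ⟨v, P, U, V, δ, h1, h2, h3, h4, h5, h6, h7⟩ := prim_core (MvPolynomial (Fin s.card) k) E
  obtain ⟨q, hq0, hq⟩ := prim_finset (MvPolynomial (Fin s.card) k) E v h7 S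
  refine ⟨s.card, y, v, P, C q * U, C q * V, q * δ, hyT, hyI, h1, h2, h3, h4, mul_ne_zero hq0 h5,
    ?_, h7, fun f hf => ?_⟩
  · rw [C_mul, ← h6]
    ring
  · obtain ⟨R, hR⟩ := hq f hf
    refine ⟨C δ * R, ?_⟩
    have : algebraMap (MvPolynomial (Fin s.card) k) E (q * δ) * f = aeval v (C δ * R) := by
      rw [map_mul, map_mul, ← hR, aeval_C]
      ring
    exact this

end Crest.Agent.R273.FG_259
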