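import Crest.Agent.R273.FIb0_597

/-!
# R273 (S0416), leaf FI, part c (helper597): the integrated log-Bochner inequality

`K : Kah A`, `det K.g = e^c h`, `U : M → ℝ` smooth, `U ≥ 0`,
`Lap_K log U ≥ - C tr_K θ` where `U > 0` and `Lap_K log U ≥ - C tr_K θ + τ` on the compact set `B`
(where `U > 0`).  Then `∫_B τ ≤ C ∫ tr_K θ` (`int_le`).
-/

set_option autoImplicit false
set_option linter.unusedSectionVars false

open Set Filter Topology Complex MeasureTheory
open scoped ContDiff Matrix ComplexConjugate ComplexOrder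

namespace Crest.Agent.R273.FIc0_597

open Crest.Agent.R275 Crest.Agent.R275.Geo Crest.Agent.R275.Core144 Crest.Agent.R275.EDR890
open Crest.Agent.R273.Defs_333 Crest.Agent.R273.Hess_333 Crest.Agent.R273.HessB_333
open Crest.Agent.R273.HM_333 Crest.Agent.R273.Kah_333 Crest.Agent.R273.Vol_333
open Crest.Agent.R273.Vm_333
open Crest.Agent.R273.Green_5 Crest.Agent.R273.FIa0_597 Crest.Agent.R273.FIb0_597

noncomputable section

variable {n : ℕ} {M : Type} [TopologicalSpace M] {A : Atl n M} {L L' : LB A}

theorem cont_sm {W : Type*} [NormedAddCommGroup W] [NormedSpace ℝ W] {f : M → W}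
    (hf : A.Sm f) : Continuous f := by
  rw [continuous_iff_continuousAt]
  intro x
  obtain ⟨i, hi⟩ := A.cover x
  have h1 : ContinuousOn (fun z => f ((A.e i).symm z)) (A.e i).target := (hf i).continuousOn
  have h2 : ContinuousOn (fun y => f ((A.e i).symm (A.e i y))) (A.e i).source :=
    h1.comp (A.e i).continuousOn fun y hy => (A.e i).map_source hy
  have h3 : ContinuousOn f (A.e i).source :=
    h2.congr fun y hy => by
      change f y = f ((A.e i).symm (A.e i y))
      rw [(A.e i).left_inv hy]
  exact h3.continuousAt ((A.e i).open_source.mem_nhds hi)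

theorem sm_log_add {U : M → ℝ} (hU : A.Sm U) (hU0 : ∀ x, 0 ≤ U x) {δ : ℝ} (hδ : 0 < δ) :
    A.Sm (fun y => Real.log (U y + δ)) := fun i =>
  ContDiffOn.log ((hU i).add contDiffOn_const) fun z _ => by
    have := hU0 ((A.e i).symm z)
    positivity

theorem lap_log_ge (K : Kah A) {U : M → ℝ} (hU : A.Sm U) {δ : ℝ} (hδ : 0 < δ) {i : A.ι} {x : M}
    (hx : x ∈ (A.e i).source) (hp : 0 < U x) :
    (U x / (U x + δ)) * (trC K (hsf A fun y => Real.log (U y)) i x).re ≤
      (trC K (hsf A fun y => Real.log (U y + δ)) i x).re := by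
  have hz := (A.e i).map_source hx
  have hUz : ContDiffAt ℝ ∞ (fun z => U ((A.e i).symm z)) (A.e i x) := sm_contDiffAt hU i hz
  have hp' : 0 < (fun z => U ((A.e i).symm z)) (A.e i x) := by
    simpa only [(A.e i).left_inv hx] using hp
  have h1 := hess_log_cmp hδ.le hUz hp'
  have h2 : hsf A (fun y => Real.log (U y + δ)) i x =
      (U x / (U x + δ) : ℝ) • hsf A (fun y => Real.log (U y)) i x +
      (δ / (U x * (U x + δ) ^ 2) : ℝ) • Matrix.vecMulVec
        (gr (fun z => U ((A.e i).symm z)) (A.e i x))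
        (star (gr (fun z => U ((A.e i).symm z)) (A.e i x))) := by
    unfold hsf
    simp only [(A.e i).left_inv hx] at h1
    exact h1
  have h3 : trC K (hsf A fun y => Real.log (U y + δ)) i x =
      ((U x / (U x + δ) : ℝ) : ℂ) * trC K (hsf A fun y => Real.log (U y)) i x +
      ((δ / (U x * (U x + δ) ^ 2) : ℝ) : ℂ) * ((K.g i x)⁻¹ * Matrix.vecMulVec
        (gr (fun z => U ((A.e i).symm z)) (A.e i x))
        (star (gr (fun z => U ((A.e i).symm z)) (A.e i x)))).trace := by
    unfold trC
    rw [h2, Matrix.mul_add, Matrix.trace_add, Matrix.mul_smul, Matrix.trace_smul,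
      Matrix.mul_smul, Matrix.trace_smul, Complex.real_smul, Complex.real_smul]
  rw [h3, Complex.add_re, Complex.re_ofReal_mul, Complex.re_ofReal_mul]
  have h4 := tr_re_nonneg (K.pos i x hx) (Matrix.posSemidef_vecMulVec_self_star
    (gr (fun z => U ((A.e i).symm z)) (A.e i x)))
  have h5 : 0 ≤ δ / (U x * (U x + δ) ^ 2) := by positivity
  nlinarith [mul_nonneg h5 h4]

/-- the pointwise inequality, everywhere -/
theorem lap_ge (K : Kah A) {θ : A.ι → M → Matrix (Fin n) (Fin n) ℂ} (hθ : TF A θ)
    {U : M → ℝ} (hU : A.Sm U) (hU0 : ∀ x, 0 ≤ U x) {C : ℝ}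
    (hB : ∀ i, ∀ x ∈ (A.e i).source, 0 < U x →
      -C * (trC K θ i x).re ≤ (trC K (hsf A fun y => Real.log (U y)) i x).re)
    {δ : ℝ} (hδ : 0 < δ) (x : M) :
    -(U x / (U x + δ)) * (C * trM K θ x) ≤ Lap K (fun y => Real.log (U y + δ)) x := by
  have hS := sm_log_add hU hU0 hδ
  have hpos : ∀ y, 0 < U y → -(U y / (U y + δ)) * (C * trM K θ y) ≤
      Lap K (fun y => Real.log (U y + δ)) y := by
    intro y hy
    have hy' := mem_ch A y
    have h1 := hB _ y hy' hy
    have h2 := lap_log_ge K hU hδ hy' hy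
    have h3 : 0 ≤ U y / (U y + δ) := by positivity
    have h4 := mul_le_mul_of_nonneg_left h1 h3
    calc -(U y / (U y + δ)) * (C * trM K θ y)
        = (U y / (U y + δ)) * (-C * (trC K θ (ch A y) y).re) := by
          unfold trM; ring
      _ ≤ _ := h4.trans h2
  by_cases hx : ∃ᶠ y in 𝓝 x, 0 < U y
  · have c1 : Continuous U := cont_sm hU
    have c2 : Continuous (trM K θ) := cont_sm (sm_trM K hθ)
    have c3 : Continuous (Lap K (fun y => Real.log (U y + δ))) := cont_sm (sm_Lap K hS)
    have c4 : Continuous fun y => -(U y / (U y + δ)) * (C * trM K θ y) := by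
      refine ((c1.div (c1.add continuous_const) fun y => ?_).neg).mul (continuous_const.mul c2)
      have h9 := hU0 y
      exact (by linarith : (0:ℝ) < U y + δ).ne'
    exact le_of_tendsto_of_tendsto_of_frequently c4.continuousAt c3.continuousAt
      (hx.mono fun y hy => hpos y hy)
  · rw [not_frequently] at hx
    have h0 : U x = 0 := le_antisymm (not_lt.1 hx.self_of_nhds) (hU0 x)
    have h1 : Lap K (fun y => Real.log (U y + δ)) x = 0 := by
      have hi := mem_ch A x
      have h2 : hsf A (fun y => Real.log (U y + δ)) (ch A x) x = 0 := by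
        unfold hsf
        have h3 : (fun z => Real.log (U ((A.e (ch A x)).symm z) + δ)) =ᶠ[𝓝 (A.e (ch A x) x)]
            fun _ => Real.log δ := by
          have hc : Tendsto (A.e (ch A x)).symm (𝓝 (A.e (ch A x) x)) (𝓝 x) := by
            have := (A.e (ch A x)).continuousAt_symm ((A.e (ch A x)).map_source hi)
            rwa [ContinuousAt, (A.e (ch A x)).left_inv hi] at this
          filter_upwards [hc.eventually hx] with z hz
          rw [le_antisymm (not_lt.1 hz) (hU0 _), zero_add]
        rw [hess_congr h3]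
        ext a b
        rw [hess_apply]
        have h4 : wd (true, b) (cu fun _ : Cn n => Real.log δ) = fun _ => 0 := by
          funext w
          exact wd_const _ _ _
        rw [h4, wd_const]
        rfl
      unfold Lap trM trC
      rw [h2, Matrix.mul_zero, Matrix.trace_zero, Complex.zero_re]
    rw [h1, h0]
    simp

section int

variable [T2Space M] [CompactSpace M] [Fintype A.ι] [MeasurableSpace M] [BorelSpace M]

theorem integrable_cont (h : HM (KB A)⁻¹) {f : M → ℝ} (hf : Continuous f) :
    Integrable f (vm h) := by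
  have := isFinite_vm h
  obtain ⟨C, hC⟩ := isCompact_univ.exists_bound_of_continuousOn hf.continuousOn
  exact Integrable.of_bound hf.measurable.aestronglyMeasurable C
    (Eventually.of_forall fun x => hC x (mem_univ x))

/-- **integrated log-Bochner inequality** -/
theorem int_le (P : Part A) (K : Kah A) (h : HM (KB A)⁻¹) {c : ℝ}
    (hc : ∀ i, ∀ x ∈ (A.e i).source, (volK K).w i x = Real.exp c * h.w i x)
    {θ : A.ι → M → Matrix (Fin n) (Fin n) ℂ} (hθ : TF A θ)
    (hθ0 : ∀ i, ∀ x ∈ (A.e i).source, (θ i x).PosSemidef)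
    {U : M → ℝ} (hU : A.Sm U) (hU0 : ∀ x, 0 ≤ U x) {C : ℝ} (hC : 0 ≤ C)
    (hB : ∀ i, ∀ x ∈ (A.e i).source, 0 < U x →
      -C * (trC K θ i x).re ≤ (trC K (hsf A fun y => Real.log (U y)) i x).re)
    {B : Set M} (hBc : IsCompact B) {τ : M → ℝ} (hτ : ContinuousOn τ B) (hτ0 : ∀ x ∈ B, 0 ≤ τ x)
    (hBU : ∀ x ∈ B, 0 < U x)
    (hBτ : ∀ x ∈ B, ∃ i, x ∈ (A.e i).source ∧
      -C * (trC K θ i x).re + τ x ≤ (trC K (hsf A fun y => Real.log (U y)) i x).re) :
    ∫ x in B, τ x ∂(vm h) ≤ C * ∫ x, trM K θ x ∂(vm h) := by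
  have := isFinite_vm h
  have hBm : MeasurableSet B := hBc.isClosed.measurableSet
  have c1 : Continuous U := cont_sm hU
  have c2 : Continuous (trM K θ) := cont_sm (sm_trM K hθ)
  have hτi : IntegrableOn τ B (vm h) := hτ.integrableOn_compact hBc
  have hm : ∃ m : ℝ, 0 < m ∧ ∀ x ∈ B, m ≤ U x := by
    rcases B.eq_empty_or_nonempty with hE | hE
    · exact ⟨1, one_pos, fun x hx => by rw [hE] at hx; exact absurd hx (notMem_empty x)⟩
    · obtain ⟨x0, hx0, hmin⟩ := hBc.exists_isMinOn hE c1.continuousOn
      exact ⟨U x0, hBU x0 hx0, fun x hx => hmin hx⟩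
  obtain ⟨m, hm0, hm⟩ := hm
  have hθi : 0 ≤ ∫ x, trM K θ x ∂(vm h) := integral_nonneg fun x => trM_nonneg K hθ0 x
  -- the estimate with `δ`
  have key : ∀ δ : ℝ, 0 < δ → (m / (m + δ)) * ∫ x in B, τ x ∂(vm h) ≤
      C * ∫ x, trM K θ x ∂(vm h) := by
    intro δ hδ
    have hS := sm_log_add hU hU0 hδ
    have c3 : Continuous (Lap K (fun y => Real.log (U y + δ))) := cont_sm (sm_Lap K hS)
    have i1 := int_Lap P K h hc hS
    have hpt : ∀ x, B.indicator (fun x => (m / (m + δ)) * τ x) x ≤
        Lap K (fun y => Real.log (U y + δ)) x + C * trM K θ x := by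
      intro x
      have hUx := hU0 x
      have hr1 : U x / (U x + δ) ≤ 1 := by
        rw [div_le_one (by positivity)]; linarith
      have hr0 : 0 ≤ U x / (U x + δ) := by positivity
      have ht := trM_nonneg K hθ0 x
      by_cases hx : x ∈ B
      · rw [indicator_of_mem hx]
        obtain ⟨i, hi, hb⟩ := hBτ x hx
        have h1 := lap_log_ge K hU hδ hi (hBU x hx)
        have h2 : Lap K (fun y => Real.log (U y + δ)) x =
            (trC K (hsf A fun y => Real.log (U y + δ)) i x).re := trM_eq K (tf_hsf hS) hi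
        have h3 : trM K θ x = (trC K θ i x).re := trM_eq K hθ hi
        rw [h2, h3]
        rw [h3] at ht
        have h4 := mul_le_mul_of_nonneg_left hb hr0
        have h5 : m / (m + δ) ≤ U x / (U x + δ) := by
          rw [div_le_div_iff₀ (by positivity) (by positivity)]
          nlinarith [hm x hx]
        have h6 := mul_le_mul_of_nonneg_right h5 (hτ0 x hx)
        have h7 : U x / (U x + δ) * (C * (trC K θ i x).re) ≤ 1 * (C * (trC K θ i x).re) :=
          mul_le_mul_of_nonneg_right hr1 (by positivity)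
        nlinarith
      · rw [indicator_of_notMem hx]
        have h1 := lap_ge K hθ hU hU0 hB hδ x
        have h7 : U x / (U x + δ) * (C * trM K θ x) ≤ 1 * (C * trM K θ x) :=
          mul_le_mul_of_nonneg_right hr1 (by positivity)
        nlinarith
    have i2 : ∫ x, B.indicator (fun x => (m / (m + δ)) * τ x) x ∂(vm h) ≤
        ∫ x, (Lap K (fun y => Real.log (U y + δ)) x + C * trM K θ x) ∂(vm h) := by
      refine integral_mono ?_ ?_ hpt
      · exact (show IntegrableOn (fun x => (m / (m + δ)) * τ x) B (vm h) from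
          hτi.const_mul _).integrable_indicator hBm
      · exact (integrable_cont h c3).add ((integrable_cont h c2).const_mul C)
    rw [integral_add (integrable_cont h c3) ((integrable_cont h c2).const_mul C), i1, zero_add,
      integral_const_mul, integral_indicator hBm, integral_const_mul] at i2
    exact i2
  -- let `δ → 0`
  have hlim : Tendsto (fun δ : ℝ => (m / (m + δ)) * ∫ x in B, τ x ∂(vm h)) (𝓝[>] 0)
      (𝓝 ((m / (m + 0)) * ∫ x in B, τ x ∂(vm h))) := by
    have hc0 : ContinuousAt (fun δ : ℝ => (m / (m + δ)) * ∫ x in B, τ x ∂(vm h)) 0 := by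
      refine ContinuousAt.mul (ContinuousAt.div continuousAt_const
        (continuousAt_const.add continuousAt_id) ?_) continuousAt_const
      simpa using hm0.ne'
    exact hc0.mono_left nhdsWithin_le_nhds
  rw [add_zero, div_self hm0.ne', one_mul] at hlim
  exact le_of_tendsto hlim (by
    filter_upwards [self_mem_nhdsWithin] with δ hδ
    exact key δ hδ)

end int

end

end Crest.Agent.R273.FIc0_597
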