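import Crest.Agent.R273.FId0_597

/-!
# R273 (S0416), leaf FI, part e (helper597): the rank inequality from Yau's theorem

`fi_abs` : if for every Yau metric `K` there is a smooth `U ≥ 0` with the log-Bochner inequalities
(everywhere, and with the extra term `tr_K T` on the open set `V`), then
`rank (cur h + T) ≤ max rank (cur h)` on `V`.
-/

set_option autoImplicit false
set_option linter.unusedSectionVars false

open Set Filter Topology Complex MeasureTheory
open scoped ContDiff Matrix ComplexConjugate ComplexOrder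

namespace Crest.Agent.R273.FIe0_597

open Crest.Agent.R275 Crest.Agent.R275.Geo Crest.Agent.R275.Core144 Crest.Agent.R275.EDR890
open Crest.Agent.R275.GC293
open Crest.Agent.R273.Defs_333 Crest.Agent.R273.Hess_333 Crest.Agent.R273.HessB_333
open Crest.Agent.R273.HM_333 Crest.Agent.R273.Kah_333 Crest.Agent.R273.Vol_333
open Crest.Agent.R273.Vm_333 Crest.Agent.R273.StV_37 Crest.Agent.R273.VolInv_5
open Crest.Agent.R273.YauDefs_635 Crest.Agent.R273.YauKah_635
open Crest.Agent.R273.Green_5 Crest.Agent.R273.FIa0_597 Crest.Agent.R273.FIb0_597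
open Crest.Agent.R273.FIc0_597 Crest.Agent.R273.FId0_597

noncomputable section

/-- linear algebra input -/
structure LinS (n : ℕ) : Prop where
  amgm : 0 < n → ∀ G S : Matrix (Fin n) (Fin n) ℂ, G.PosDef → S.PosSemidef →
    (n : ℝ) * (S.det.re / G.det.re) ^ ((1 : ℝ) / n) ≤ ((G⁻¹ * S).trace).re
  low : ∀ (X : Type) [TopologicalSpace X] (G S : X → Matrix (Fin n) (Fin n) ℂ) (p : X) (k : ℕ),
    (∀ a b, ContinuousAt (fun x => G x a b) p) → (∀ a b, ContinuousAt (fun x => S x a b) p) →
    (∀ᶠ x in 𝓝 p, (G x).PosDef) → (∀ᶠ x in 𝓝 p, (S x).PosSemidef) → k ≤ (S p).rank →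
    ∃ c : ℝ, 0 < c ∧ ∀ᶠ x in 𝓝 p, ∀ t : ℝ, 0 ≤ t → c * t ^ k ≤ ((G x + (t : ℂ) • S x).det).re
  up : ∀ (G S : Matrix (Fin n) (Fin n) ℂ) (k : ℕ) (t : ℝ), G.PosDef → S.PosSemidef →
    S.rank ≤ k → 1 ≤ t → ((G + (t : ℂ) • S).det).re ≤ t ^ k * ((G + S).det).re

variable {n : ℕ} {M : Type} [TopologicalSpace M] {A : Atl n M} {L L' : LB A}

theorem cont_smAt {W : Type*} [NormedAddCommGroup W] [NormedSpace ℝ W] {f : M → W} {i : A.ι}
    (hf : ContDiffOn ℝ ∞ (fun z => f ((A.e i).symm z)) (A.e i).target) {x : M}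
    (hx : x ∈ (A.e i).source) : ContinuousAt f x := by
  have h1 : ContinuousOn (fun z => f ((A.e i).symm z)) (A.e i).target := hf.continuousOn
  have h2 : ContinuousOn (fun y => f ((A.e i).symm (A.e i y))) (A.e i).source :=
    h1.comp (A.e i).continuousOn fun y hy => (A.e i).map_source hy
  have h3 : ContinuousOn f (A.e i).source :=
    h2.congr fun y hy => by
      change f y = f ((A.e i).symm (A.e i y))
      rw [(A.e i).left_inv hy]
  exact h3.continuousAt ((A.e i).open_source.mem_nhds hx)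

section

variable [T2Space M] [CompactSpace M] [Fintype A.ι]

theorem fi_abs [ConnectedSpace M] (hLin : LinS n) (hY : YauStmt) (hG : GoodA A) (P : Part A)
    {H : HM L} (hH : H.Pos) {h : HM (KB A)⁻¹} (hs : h.Semipos) {ν : ℕ}
    (hν : ∀ i, ∀ x ∈ (A.e i).source, (cur h i x).rank ≤ ν) {C : ℝ} (hC : 0 ≤ C)
    {i0 : A.ι} {V : Set M} (hVo : IsOpen V) (hVs : V ⊆ (A.e i0).source)
    {T : M → Matrix (Fin n) (Fin n) ℂ} (hTc : ∀ a b, ContinuousOn (fun x => T x a b) V)
    (hT0 : ∀ x ∈ V, (T x).PosSemidef)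
    (hU : ∀ K : Kah A,
      (∃ c : ℝ, ∀ i, ∀ x ∈ (A.e i).source, (volK K).w i x = Real.exp c * h.w i x) →
      (∀ i, ∀ x ∈ (A.e i).source, cur (volK K) i x = cur h i x) →
      ∃ U : M → ℝ, A.Sm U ∧ (∀ x, 0 ≤ U x) ∧ (∀ x ∈ V, 0 < U x) ∧
        (∀ i, ∀ x ∈ (A.e i).source, 0 < U x →
          -C * (trC K (cur h) i x).re ≤ (trC K (hsf A fun y => Real.log (U y)) i x).re) ∧
        ∀ x ∈ V, -C * (trC K (cur h) i0 x).re + ((K.g i0 x)⁻¹ * T x).trace.re ≤
          (trC K (hsf A fun y => Real.log (U y)) i0 x).re) :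
    ∀ x ∈ V, (cur h i0 x + T x).rank ≤ ν := by
  intro x0 hx0
  by_contra hcon
  rw [not_le] at hcon
  let _ : MeasurableSpace M := borel M
  have _ : BorelSpace M := ⟨rfl⟩
  have := isFinite_vm h
  have := isOpenPos_vm h
  have hn : 0 < n := by
    have h1 : (cur h i0 x0 + T x0).rank ≤ n := by
      simpa using Matrix.rank_le_width (cur h i0 x0 + T x0)
    omega
  have hn' : (0 : ℝ) < n := by exact_mod_cast hn
  -- lower bound near `x0`
  obtain ⟨c0, hc0, hev⟩ := hLin.low M (fun x => cur H i0 x) (fun x => cur h i0 x + T x) x0 (ν + 1)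
    (fun a b => cont_smAt (f := fun x => cur H i0 x a b) (cur_smooth H i0 a b) (hVs hx0))
    (fun a b => by
      have h1 := cont_smAt (f := fun x => cur h i0 x a b) (cur_smooth h i0 a b) (hVs hx0)
      exact h1.add ((hTc a b).continuousAt (hVo.mem_nhds hx0)))
    (by filter_upwards [hVo.mem_nhds hx0] with x hx using cur_posDef hH i0 (hVs hx))
    (by
      filter_upwards [hVo.mem_nhds hx0] with x hx
      exact (cur_posSemidef hs i0 (hVs hx)).add (hT0 x hx)) hcon
  obtain ⟨B, hB, hBs, hBc⟩ := local_compact_nhds (hev.and (hVo.mem_nhds hx0))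
  have hBV : B ⊆ V := fun x hx => (hBs hx).2
  have hμB : 0 < (vm h).real B := by
    rw [Measure.real, ENNReal.toReal_pos_iff]
    exact ⟨Measure.measure_pos_of_mem_nhds _ hB, measure_lt_top _ _⟩
  have hμ : 0 < (vm h).real univ := lt_of_lt_of_le hμB (measureReal_mono (subset_univ _))
  have hBm : MeasurableSet B := hBc.isClosed.measurableSet
  -- bound of the density
  have hWc : ContinuousOn (fun x => h.w i0 x) B := fun x hx =>
    (cont_smAt (f := fun x => h.w i0 x) (h.sm i0) (hVs (hBV hx))).continuousWithinAt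
  obtain ⟨W, hW⟩ := hBc.exists_bound_of_continuousOn hWc
  have hW0 : 0 < W := by
    have h1 := hW x0 (mem_of_mem_nhds hB)
    have h2 := h.pos i0 x0 (hVs hx0)
    rw [Real.norm_of_nonneg h2.le] at h1
    linarith
  -- total volume
  set D1 : ℝ := ∫ x, dtM h (fun i x => cur H i x + cur h i x) x ∂(vm h) with hD1
  have hTF1 : TF A (fun i x => cur H i x + cur h i x) := (tf_cur H).add (tf_cur h)
  have hTFt : ∀ t : ℕ, TF A (fun i x => cur H i x + (t : ℂ) • cur h i x) := fun t =>
    tf_of_cf (cf_t H h t)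
  have hvol : ∀ t : ℕ, 1 ≤ t →
      ∫ x, dtM h (fun i x => cur H i x + (t : ℂ) • cur h i x) x ∂(vm h) ≤ (t : ℝ) ^ ν * D1 := by
    intro t ht
    rw [hD1, ← integral_const_mul]
    refine integral_mono (integrable_cont h (cont_dtM h (hTFt t)))
      ((integrable_cont h (cont_dtM h hTF1)).const_mul _) fun x => ?_
    have hx := mem_ch A x
    have h1 := hLin.up (cur H _ x) (cur h _ x) ν t (cur_posDef hH _ hx) (cur_posSemidef hs _ hx)
      (hν _ x hx) (by exact_mod_cast ht)
    have h2 := h.pos _ x hx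
    show (cur H (ch A x) x + (t : ℂ) • cur h (ch A x) x).det.re / h.w (ch A x) x ≤
      (t : ℝ) ^ ν * ((cur H (ch A x) x + cur h (ch A x) x).det.re / h.w (ch A x) x)
    rw [← mul_div_assoc]
    refine div_le_div_of_nonneg_right ?_ h2.le
    simpa using h1
  -- `tr_K (cur h)` is controlled
  have hD1pos : 0 < D1 := by
    obtain ⟨K, c, u, hu, hc1, hc2, hg, hE⟩ := exists_Kt hY hG P hH hs 1
    have h1 := hvol 1 le_rfl
    rw [← hE] at h1
    have h2 : 0 < Real.exp c * (vm h).real univ := by positivity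
    simpa using lt_of_lt_of_le h2 h1
  set q : ℝ := c0 * (vm h).real univ / (W * D1) with hq
  have hq0 : 0 < q := by positivity
  have main : ∀ t : ℕ, 1 ≤ t → (vm h).real B * ((n : ℝ) * (q * t) ^ ((1 : ℝ) / n)) ≤
      (1 + C) * (n * (vm h).real univ) := by
    intro t ht
    have ht' : (1 : ℝ) ≤ t := by exact_mod_cast ht
    obtain ⟨K, c, u, hu, hc1, hc2, hg, hE⟩ := exists_Kt hY hG P hH hs t
    obtain ⟨U, hUs, hU0, hUV, hUb, hUV2⟩ := hU K ⟨c, hc1⟩ hc2
    have hE2 : Real.exp c * (vm h).real univ ≤ (t : ℝ) ^ ν * D1 := by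
      rw [hE]; exact hvol t ht
    set τ : M → ℝ := fun x => ((K.g i0 x)⁻¹ * T x).trace.re with hτ
    have hτ0 : ∀ x ∈ B, 0 ≤ τ x := fun x hx =>
      tr_re_nonneg (K.pos i0 x (hVs (hBV hx))) (hT0 x (hBV hx))
    have hτc : ContinuousOn τ B := by
      intro x hx
      have h1 : τ = fun x => (∑ a, ∑ b, (K.g i0 x)⁻¹ a b * T x b a).re := by
        funext x
        simp only [hτ, Matrix.trace, Matrix.diag, Matrix.mul_apply]
      rw [h1]
      refine Complex.continuous_re.continuousAt.comp_continuousWithinAt ?_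
      refine tendsto_finsetSum _ fun a _ => tendsto_finsetSum _ fun b _ => ?_
      refine Tendsto.mul ?_ ?_
      · exact (cont_smAt (f := fun x => (K.g i0 x)⁻¹ a b) (smAt_inv K i0 a b)
          (hVs (hBV hx))).continuousWithinAt
      · exact (hTc b a).mono hBV x hx
    have hint := int_le P K h hc1 (tf_cur h) (fun i x hx => cur_posSemidef hs i hx) hUs hU0 hC hUb
      hBc hτc hτ0 (fun x hx => hUV x (hBV hx))
      (fun x hx => ⟨i0, hVs (hBV hx), hUV2 x (hBV hx)⟩)
    have htot := int_trM_class P K h hc1 hu hg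
    have hαnn : ∀ x, 0 ≤ trM K (fun i x => cur H i x + (t : ℂ) • cur h i x) x := fun x =>
      trM_nonneg K (fun i x hx => ((cur_posDef hH i hx).posSemidef).add
        ((cur_posSemidef hs i hx).smul (by exact_mod_cast Nat.zero_le t))) x
    have hαc := cont_trM K (hTFt t)
    have hsplit : ∀ x, trM K (fun i x => cur H i x + (t : ℂ) • cur h i x) x =
        trM K (cur H) x + t * trM K (cur h) x := by
      intro x
      unfold trM
      rw [trC_add, trC_smul, Complex.add_re, ← Complex.ofReal_natCast, Complex.re_ofReal_mul]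
    have hθt : (t : ℝ) * ∫ x, trM K (cur h) x ∂(vm h) ≤ n * (vm h).real univ := by
      rw [← htot, ← integral_const_mul]
      refine integral_mono ((integrable_cont h (cont_trM K (tf_cur h))).const_mul _)
        (integrable_cont h hαc) fun x => ?_
      have h1 := trM_nonneg K (S := cur H) (fun i x hx => (cur_posDef hH i hx).posSemidef) x
      have h2 := hsplit x
      simp only at h2 ⊢
      linarith
    -- pointwise lower bound on `B`
    have hpt : ∀ x ∈ B, (n : ℝ) * (q * t) ^ ((1 : ℝ) / n) ≤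
        trM K (fun i x => cur H i x + (t : ℂ) • cur h i x) x + t * τ x := by
      intro x hx
      have hxs := hVs (hBV hx)
      have hlow := (hBs hx).1 t (by positivity)
      have hS : (cur H i0 x + (t : ℂ) • (cur h i0 x + T x)).PosSemidef :=
        ((cur_posDef hH i0 hxs).posSemidef).add
          (((cur_posSemidef hs i0 hxs).add (hT0 x (hBV hx))).smul
            (by exact_mod_cast Nat.zero_le t))
      have ham := hLin.amgm hn (K.g i0 x) _ (K.pos i0 x hxs) hS
      have htr : ((K.g i0 x)⁻¹ * (cur H i0 x + (t : ℂ) • (cur h i0 x + T x))).trace.re =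
          trM K (fun i x => cur H i x + (t : ℂ) • cur h i x) x + t * τ x := by
        rw [trM_eq K (hTFt t) hxs]
        unfold trC
        rw [smul_add, ← add_assoc, Matrix.mul_add, Matrix.trace_add, Complex.add_re,
          Matrix.mul_smul (K.g i0 x)⁻¹ (t : ℂ) (T x), Matrix.trace_smul, smul_eq_mul,
          ← Complex.ofReal_natCast, Complex.re_ofReal_mul]
      rw [← htr]
      refine le_trans ?_ ham
      refine mul_le_mul_of_nonneg_left ?_ hn'.le
      refine Real.rpow_le_rpow (by positivity) ?_ (by positivity)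
      have hdet : (K.g i0 x).det.re = Real.exp c * h.w i0 x := hc1 i0 x hxs
      have hwp := h.pos i0 x hxs
      have hwW : h.w i0 x ≤ W := by
        have := hW x hx
        rwa [Real.norm_of_nonneg hwp.le] at this
      rw [hdet, le_div_iff₀ (by positivity)]
      have hlow' : c0 * (t : ℝ) ^ (ν + 1) ≤
          (cur H i0 x + (t : ℂ) • (cur h i0 x + T x)).det.re := by simpa using hlow
      refine le_trans ?_ hlow'
      have e1 : Real.exp c * h.w i0 x ≤ ((t : ℝ) ^ ν * D1 / (vm h).real univ) * W := by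
        refine mul_le_mul ?_ hwW hwp.le (by positivity)
        rw [le_div_iff₀ hμ]
        exact hE2
      calc q * t * (Real.exp c * h.w i0 x)
          ≤ q * t * (((t : ℝ) ^ ν * D1 / (vm h).real univ) * W) :=
            mul_le_mul_of_nonneg_left e1 (by positivity)
        _ = c0 * (t : ℝ) ^ (ν + 1) := by
            rw [hq]
            field_simp
            ring
    have hτi : IntegrableOn τ B (vm h) := hτc.integrableOn_compact hBc
    have i1 : (vm h).real B * ((n : ℝ) * (q * t) ^ ((1 : ℝ) / n)) ≤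
        ∫ x in B, (trM K (fun i x => cur H i x + (t : ℂ) • cur h i x) x + t * τ x) ∂(vm h) := by
      have h1 : (vm h).real B * ((n : ℝ) * (q * t) ^ ((1 : ℝ) / n)) =
          ∫ _x in B, ((n : ℝ) * (q * t) ^ ((1 : ℝ) / n)) ∂(vm h) := by
        rw [setIntegral_const, smul_eq_mul]
      rw [h1]
      refine setIntegral_mono_on (integrableOn_const (measure_lt_top _ _).ne)
        ((integrable_cont h hαc).integrableOn.add (hτi.const_mul _)) hBm hpt
    have i2 : ∫ x in B, (trM K (fun i x => cur H i x + (t : ℂ) • cur h i x) x + t * τ x) ∂(vm h) =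
        ∫ x in B, trM K (fun i x => cur H i x + (t : ℂ) • cur h i x) x ∂(vm h) +
          t * ∫ x in B, τ x ∂(vm h) := by
      rw [← integral_const_mul]
      exact integral_add (integrable_cont h hαc).integrableOn (hτi.const_mul _)
    have i3 : ∫ x in B, trM K (fun i x => cur H i x + (t : ℂ) • cur h i x) x ∂(vm h) ≤
        n * (vm h).real univ := by
      rw [← htot]
      exact setIntegral_le_integral (integrable_cont h hαc) (Eventually.of_forall hαnn)
    have i4 : (t : ℝ) * ∫ x in B, τ x ∂(vm h) ≤ C * (n * (vm h).real univ) := by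
      calc (t : ℝ) * ∫ x in B, τ x ∂(vm h) ≤ t * (C * ∫ x, trM K (cur h) x ∂(vm h)) :=
            mul_le_mul_of_nonneg_left hint (by positivity)
        _ = C * (t * ∫ x, trM K (cur h) x ∂(vm h)) := by ring
        _ ≤ _ := mul_le_mul_of_nonneg_left hθt hC
    calc _ ≤ _ := i1
      _ = _ := i2
      _ ≤ n * (vm h).real univ + C * (n * (vm h).real univ) := add_le_add i3 i4
      _ = _ := by ring
  -- let `t → ∞`
  have hlim : Tendsto (fun t : ℕ => (vm h).real B * ((n : ℝ) * (q * t) ^ ((1 : ℝ) / n))) atTop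
      atTop := by
    refine Tendsto.const_mul_atTop hμB (Tendsto.const_mul_atTop hn' ?_)
    refine (tendsto_rpow_atTop (by positivity : (0 : ℝ) < 1 / n)).comp ?_
    exact Tendsto.const_mul_atTop hq0 tendsto_natCast_atTop_atTop
  obtain ⟨t, ht1, ht2⟩ := ((hlim.eventually_gt_atTop
    ((1 + C) * (n * (vm h).real univ))).and (eventually_ge_atTop 1)).exists
  exact absurd (main t ht2) (not_le.2 ht1)

end

end

end Crest.Agent.R273.FIe0_597
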