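import Crest.Agent.R273.BochD_101
import Crest.Agent.R273.Cram_747

/-!
# R273 (S0416), leaf FI, part g (helper597): curvature of Kronecker powers

* `KX m` : Kronecker product of a family of matrices; `KX_mul`, `KX_posSemidef`, slot linearity
* `dM_KX` : product rule
* `rm_KP` : `rm (KP ρ ∘ G) c d = ∑_b KX (slot b = rm G c d)`
* `so_le` : `so R K ≤ tr (K⁻¹ R) Γ(K)` for `R ≥ 0`
-/

set_option autoImplicit false
set_option linter.unusedSectionVars false

open Finset Matrix Complex Filter Topology
open scoped ContDiff ComplexConjugate Kronecker ComplexOrder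

namespace Crest.Agent.R273.FIg0_597

open Crest.Agent.R275.Geo Crest.Agent.R275.EDR890
open Crest.Agent.R273.Fock_243 Crest.Agent.R273.Calc_243
open Crest.Agent.R273.Bkn_243 Crest.Agent.R273.Pos_243 Crest.Agent.R273.BochA_101
open Crest.Agent.R273.BochB_101 Crest.Agent.R273.Cram_747
open Crest.Agent.R273.BochC_101 Crest.Agent.R273.BochD_101

noncomputable section

variable {n : ℕ} {κ ρ : Type} [Fintype κ] [DecidableEq κ] [Fintype ρ] [DecidableEq ρ]

/-! ### Kronecker products of families -/

/-- Kronecker product of a family -/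
def KX (m : ρ → Matrix κ κ ℂ) : Matrix (ρ → κ) (ρ → κ) ℂ :=
  Matrix.of fun F F' => ∏ b, m b (F b) (F' b)

theorem KX_apply (m : ρ → Matrix κ κ ℂ) (F F' : ρ → κ) : KX m F F' = ∏ b, m b (F b) (F' b) := rfl

theorem KP_eq (W : Matrix κ κ ℂ) : KP ρ W = KX fun _ => W := rfl

theorem KX_mul (m m' : ρ → Matrix κ κ ℂ) : KX m * KX m' = KX fun b => m b * m' b := by
  ext f h
  simp only [KX, Matrix.of_apply, Matrix.mul_apply]
  rw [Finset.prod_univ_sum]
  simp only [Fintype.piFinset_univ, Finset.prod_mul_distrib]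

theorem KX_conjTranspose (m : ρ → Matrix κ κ ℂ) : (KX m)ᴴ = KX fun b => (m b)ᴴ := by
  ext f h
  simp only [Matrix.conjTranspose_apply, KX_apply, star_prod]

theorem KX_update_apply (m : ρ → Matrix κ κ ℂ) (b : ρ) (x : Matrix κ κ ℂ) (F F' : ρ → κ) :
    KX (Function.update m b x) F F' =
      x (F b) (F' b) * ∏ j ∈ univ.erase b, m j (F j) (F' j) := by
  rw [KX_apply, ← Finset.mul_prod_erase _ _ (Finset.mem_univ b), Function.update_self]
  congr 1
  refine Finset.prod_congr rfl fun j hj => ?_
  rw [Function.update_of_ne (Finset.ne_of_mem_erase hj)]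

theorem KX_update_add (m : ρ → Matrix κ κ ℂ) (b : ρ) (x y : Matrix κ κ ℂ) :
    KX (Function.update m b (x + y)) = KX (Function.update m b x) + KX (Function.update m b y) := by
  ext F F'
  rw [Matrix.add_apply, KX_update_apply, KX_update_apply, KX_update_apply, Matrix.add_apply,
    add_mul]

theorem KX_update_smul (m : ρ → Matrix κ κ ℂ) (b : ρ) (c : ℂ) (x : Matrix κ κ ℂ) :
    KX (Function.update m b (c • x)) = c • KX (Function.update m b x) := by
  ext F F'
  rw [Matrix.smul_apply, KX_update_apply, KX_update_apply, Matrix.smul_apply, smul_eq_mul,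
    smul_eq_mul, mul_assoc]

theorem KX_update_zero (m : ρ → Matrix κ κ ℂ) (b : ρ) : KX (Function.update m b 0) = 0 := by
  ext F F'
  rw [KX_update_apply, Matrix.zero_apply, zero_mul, Matrix.zero_apply]

theorem KX_update_neg (m : ρ → Matrix κ κ ℂ) (b : ρ) (x : Matrix κ κ ℂ) :
    KX (Function.update m b (-x)) = -KX (Function.update m b x) := by
  ext F F'
  rw [Matrix.neg_apply, KX_update_apply, KX_update_apply, Matrix.neg_apply, neg_mul]

theorem KX_update_sum {σ : Type*} (m : ρ → Matrix κ κ ℂ) (b : ρ) (s : Finset σ)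
    (x : σ → Matrix κ κ ℂ) :
    KX (Function.update m b (∑ k ∈ s, x k)) = ∑ k ∈ s, KX (Function.update m b (x k)) := by
  classical
  induction s using Finset.induction_on with
  | empty => simp [KX_update_zero]
  | insert a s ha ih => rw [Finset.sum_insert ha, Finset.sum_insert ha, KX_update_add, ih]

theorem KX_posSemidef {m : ρ → Matrix κ κ ℂ} (h : ∀ b, (m b).PosSemidef) :
    (KX m).PosSemidef := by
  have h1 : ∀ b, ∃ B : Matrix κ κ ℂ, m b = Bᴴ * B := fun b => by
    open scoped MatrixOrder in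
    exact CStarAlgebra.nonneg_iff_eq_star_mul_self.mp (h b).nonneg
  choose B hB using h1
  have h2 : KX m = (KX B)ᴴ * KX B := by
    rw [KX_conjTranspose, KX_mul]
    congr 1
    funext b
    exact hB b
  rw [h2]
  exact posSemidef_conjTranspose_mul_self _

theorem KX_posDef {m : ρ → Matrix κ κ ℂ} (h : ∀ b, (m b).PosDef) : (KX m).PosDef := by
  have hu : IsUnit (KX m) := by
    have h1 : KX m * KX (fun b => (m b)⁻¹) = 1 := by
      rw [KX_mul, ← KP_one (ρ := ρ)]
      congr 1
      funext b
      exact Matrix.mul_nonsing_inv _ ((Matrix.isUnit_iff_isUnit_det _).1 (h b).isUnit)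
    exact IsUnit.of_mul_eq_one _ h1
  exact (KX_posSemidef fun b => (h b).posSemidef).posDef_iff_isUnit.2 hu

theorem SmM.KX {m : ρ → Cn n → Matrix κ κ ℂ} {z : Cn n} (hm : ∀ b, SmM z (m b)) :
    SmM z (fun y => KX fun b => m b y) := by
  intro F F'
  simp only [KX_apply]
  exact contDiffAt_prod fun b _ => hm b _ _

/-- product rule -/
theorem dM_KX {s : ℂ} {a : Fin n} {m : ρ → Cn n → Matrix κ κ ℂ} {z : Cn n}
    (hm : ∀ b, SmM z (m b)) :
    dM s a (fun y => KX fun b => m b y) z =
      ∑ b, KX (Function.update (fun b => m b z) b (dM s a (m b) z)) := by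
  ext F F'
  rw [dM_apply]
  simp only [KX_apply]
  rw [dS_prod _ fun b _ => (hm b _ _).diff, Matrix.sum_apply]
  refine Finset.sum_congr rfl fun b _ => ?_
  rw [KX_update_apply]
  rfl

theorem SmM.sum' {ι κ' σ : Type} {z : Cn n} (t : Finset σ) {f : σ → Cn n → Matrix ι κ' ℂ}
    (hf : ∀ i ∈ t, SmM z (f i)) : SmM z (fun y => ∑ i ∈ t, f i y) := by
  intro S T
  simp only [Matrix.sum_apply]
  exact ContDiffAt.sum fun i hi => hf i hi S T

theorem dM_sum' {ι κ' σ : Type} {s : ℂ} {a : Fin n} (t : Finset σ)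
    {f : σ → Cn n → Matrix ι κ' ℂ} {z : Cn n} (hf : ∀ i ∈ t, SmM z (f i)) :
    dM s a (fun y => ∑ i ∈ t, f i y) z = ∑ i ∈ t, dM s a (f i) z := by
  ext S T
  rw [dM_apply]
  simp only [Matrix.sum_apply]
  rw [dS_sum _ fun i hi => (hf i hi S T).diff]
  rfl

/-- **curvature of a Kronecker power** -/
theorem rm_KP {G : Cn n → Matrix κ κ ℂ} {z : Cn n} (hG : ∀ᶠ y in 𝓝 z, SmM y G)
    (h0 : (G z).det ≠ 0) (c d : Fin n) :
    rm (fun y => KP ρ (G y)) z c d =
      ∑ b, KX (Function.update (fun _ : ρ => G z) b (rm G z c d)) := by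
  have hGz : SmM z G := hG.self_of_nhds
  have hi : G z * (G z)⁻¹ = 1 := Matrix.mul_nonsing_inv _ (isUnit_iff_ne_zero.2 h0)
  have hi' : (G z)⁻¹ * G z = 1 := Matrix.nonsing_inv_mul _ (isUnit_iff_ne_zero.2 h0)
  set Gc := dM (-I) c G z with hGc
  set Gd := dM I d G z with hGd
  set Gcd := dM (-I) c (dM I d G) z with hGcd
  have hinv : (KP ρ (G z))⁻¹ = KP ρ (G z)⁻¹ := by
    refine Matrix.inv_eq_right_inv ?_
    rw [← KP_mul, hi, KP_one]
  have hc : dM (-I) c (fun y => KP ρ (G y)) z =
      ∑ b, KX (Function.update (fun _ : ρ => G z) b Gc) :=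
    dM_KX (m := fun _ : ρ => G) fun _ => hGz
  have hd : dM I d (fun y => KP ρ (G y)) z =
      ∑ b, KX (Function.update (fun _ : ρ => G z) b Gd) :=
    dM_KX (m := fun _ : ρ => G) fun _ => hGz
  have hd' : dM I d (fun y => KP ρ (G y)) =ᶠ[𝓝 z] fun y =>
      ∑ b, KX (Function.update (fun _ : ρ => G y) b (dM I d G y)) := by
    filter_upwards [hG] with y hy
    exact dM_KX (m := fun _ : ρ => G) fun _ => hy
  -- the slot functions
  have hslot : ∀ b : ρ, (fun y => KX (Function.update (fun _ : ρ => G y) b (dM I d G y))) =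
      fun y => KX fun b' => (Function.update (fun _ : ρ => G) b (dM I d G) b') y := by
    intro b
    funext y
    congr 1
    funext b'
    by_cases hb : b' = b
    · subst hb; rw [Function.update_self, Function.update_self]
    · rw [Function.update_of_ne hb, Function.update_of_ne hb]
  have hsm : ∀ b b' : ρ, SmM z (Function.update (fun _ : ρ => G) b (dM I d G) b') := by
    intro b b'
    by_cases hb : b' = b
    · subst hb; rw [Function.update_self]; exact SmM.dM hGz _ _
    · rw [Function.update_of_ne hb]; exact hGz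
  have hz : ∀ b : ρ, (fun b' => Function.update (fun _ : ρ => G) b (dM I d G) b' z) =
      Function.update (fun _ : ρ => G z) b Gd := by
    intro b
    funext b'
    by_cases hb : b' = b
    · subst hb; rw [Function.update_self, Function.update_self]
    · rw [Function.update_of_ne hb, Function.update_of_ne hb]
  have hcd : dM (-I) c (dM I d (fun y => KP ρ (G y))) z =
      ∑ b, (KX (Function.update (fun _ : ρ => G z) b Gcd) +
        ∑ b' ∈ univ.erase b,
          KX (Function.update (Function.update (fun _ : ρ => G z) b Gd) b' Gc)) := by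
    rw [dM_congr hd', dM_sum' _ fun b _ => by rw [hslot b]; exact SmM.KX (hsm b)]
    refine Finset.sum_congr rfl fun b _ => ?_
    rw [hslot b, dM_KX (hsm b), hz b, ← Finset.add_sum_erase _ _ (Finset.mem_univ b)]
    congr 1
    · rw [Function.update_self, Function.update_idem]
    · refine Finset.sum_congr rfl fun b' hb' => ?_
      rw [Function.update_of_ne (Finset.ne_of_mem_erase hb')]
  have hprod : (∑ b, KX (Function.update (fun _ : ρ => G z) b Gd)) * KP ρ (G z)⁻¹ *
      (∑ b, KX (Function.update (fun _ : ρ => G z) b Gc)) =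
      ∑ b, (KX (Function.update (fun _ : ρ => G z) b (Gd * (G z)⁻¹ * Gc)) +
        ∑ b' ∈ univ.erase b,
          KX (Function.update (Function.update (fun _ : ρ => G z) b Gd) b' Gc)) := by
    rw [Finset.sum_mul, Finset.sum_mul]
    refine Finset.sum_congr rfl fun b _ => ?_
    rw [Finset.mul_sum, ← Finset.add_sum_erase _ _ (Finset.mem_univ b)]
    congr 1
    · rw [KP_eq, KX_mul, KX_mul]
      congr 1
      funext x
      by_cases hx : x = b
      · subst hx; simp only [Function.update_self]
      · simp only [Function.update_of_ne hx, hi, Matrix.one_mul]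
    · refine Finset.sum_congr rfl fun b' hb' => ?_
      have hne := Finset.ne_of_mem_erase hb'
      rw [KP_eq, KX_mul, KX_mul]
      congr 1
      funext x
      by_cases hx : x = b'
      · subst hx
        simp only [Function.update_self, Function.update_of_ne hne, hi, Matrix.one_mul]
      · by_cases hxb : x = b
        · subst hxb
          simp only [Function.update_self, Function.update_of_ne hx, Matrix.mul_assoc, hi',
            Matrix.mul_one]
        · simp only [Function.update_of_ne hx, Function.update_of_ne hxb, hi, Matrix.one_mul]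
  unfold rm
  rw [hinv, hc, hd, hcd, hprod, ← Finset.sum_neg_distrib, ← Finset.sum_add_distrib]
  refine Finset.sum_congr rfl fun b _ => ?_
  rw [KX_update_add, KX_update_neg]
  abel

/-! ### bound of the twisted second quantisation -/

theorem eW_conjTranspose (w : Fin n → ℂ) :
    (eW w : Matrix (FI n) (FI n) ℂ)ᴴ = iW (star w) := by
  have h1 : (eW w : Matrix (FI n) (FI n) ℂ)ᴴ = ((eW w).map (starRingEnd ℂ))ᵀ := by
    ext i j; rfl
  rw [h1]
  unfold eW
  rw [K_map_conj, star_zero]
  exact eW_transpose (star w)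

/-- the rank one case -/
theorem so_le_one {K : Matrix (Fin n) (Fin n) ℂ} (hK : K.PosDef) (r : Fin n → ℂ) :
    ((star r ⬝ᵥ (K⁻¹ *ᵥ r)) • Gam K - eW r * Gam K * iW (star r)).PosSemidef := by
  obtain ⟨C, hC⟩ : ∃ C : Matrix (Fin n) (Fin n) ℂ, K = Cᴴ * C := by
    open scoped MatrixOrder in
    exact CStarAlgebra.nonneg_iff_eq_star_mul_self.mp hK.posSemidef.nonneg
  have hKu : IsUnit K.det := (Matrix.isUnit_iff_isUnit_det _).1 hK.isUnit
  have hCu : IsUnit C.det := by
    rw [hC, Matrix.det_mul] at hKu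
    exact isUnit_of_mul_isUnit_right hKu
  have hCu' : IsUnit (Cᴴ).det := by
    rw [hC, Matrix.det_mul] at hKu
    exact isUnit_of_mul_isUnit_left hKu
  set w : Fin n → ℂ := (Cᴴ)⁻¹ *ᵥ r with hw
  have hr : r = Cᴴ *ᵥ w := by
    rw [hw, Matrix.mulVec_mulVec, Matrix.mul_nonsing_inv _ hCu', Matrix.one_mulVec]
  have hG : Gam K = (Gam C)ᴴ * Gam C := by rw [hC, Gam_mul, ← Gam_conjTranspose]
  have h1 : eW r * (Gam C)ᴴ = (Gam C)ᴴ * eW w := by
    rw [Gam_conjTranspose, Gam_eW, ← hr]
  have h2 : Gam C * iW (star r) = iW (star w) * Gam C := by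
    have h3 := congrArg Matrix.conjTranspose h1
    rw [Matrix.conjTranspose_mul, Matrix.conjTranspose_mul, Matrix.conjTranspose_conjTranspose,
      eW_conjTranspose, eW_conjTranspose] at h3
    exact h3
  have h4 : eW r * Gam K * iW (star r) = (Gam C)ᴴ * (eW w * iW (star w)) * Gam C := by
    rw [hG]
    calc eW r * ((Gam C)ᴴ * Gam C) * iW (star r)
        = (eW r * (Gam C)ᴴ) * (Gam C * iW (star r)) := by simp only [Matrix.mul_assoc]
      _ = _ := by rw [h1, h2]; simp only [Matrix.mul_assoc]
  have h5 : star r ⬝ᵥ (K⁻¹ *ᵥ r) = ∑ j, w j * star w j := by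
    have h6 : star r ⬝ᵥ (K⁻¹ *ᵥ r) = star w ⬝ᵥ w := by
      have h7 : star r = star w ᵥ* C := by
        rw [hr, Matrix.star_mulVec, Matrix.conjTranspose_conjTranspose]
      rw [h7, ← Matrix.dotProduct_mulVec, Matrix.mulVec_mulVec, hC, Matrix.mul_inv_rev,
        ← Matrix.mul_assoc, Matrix.mul_nonsing_inv _ hCu, Matrix.one_mul]
    rw [h6, dotProduct]
    exact Finset.sum_congr rfl fun j _ => mul_comm _ _
  have h8 : (star r ⬝ᵥ (K⁻¹ *ᵥ r)) • Gam K - eW r * Gam K * iW (star r) =
      (Gam C)ᴴ * ((eW w)ᴴ * eW w) * Gam C := by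
    rw [eW_conjTranspose, h4, h5]
    have h9 := iW_eW (star w) w
    have h10 : iW (star w) * eW w = (∑ j, w j * star w j) • 1 - eW w * iW (star w) :=
      eq_sub_of_add_eq h9
    rw [h10, Matrix.mul_sub, Matrix.sub_mul, hG, Matrix.mul_smul, Matrix.smul_mul,
      Matrix.mul_one]
  rw [h8]
  exact (posSemidef_conjTranspose_mul_self _).conjTranspose_mul_mul_same _

/-- `so R K ≤ tr (K⁻¹ R) Γ(K)` -/
theorem so_le {K R : Matrix (Fin n) (Fin n) ℂ} (hK : K.PosDef) (hR : R.PosSemidef) :
    ((K⁻¹ * R).trace • Gam K - so R K).PosSemidef := by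
  obtain ⟨B, hB⟩ : ∃ B : Matrix (Fin n) (Fin n) ℂ, R = Bᴴ * B := by
    open scoped MatrixOrder in
    exact CStarAlgebra.nonneg_iff_eq_star_mul_self.mp hR.nonneg
  set r : Fin n → Fin n → ℂ := fun k p => star (B k p) with hr
  have hRpq : ∀ p q, R p q = ∑ k, r k p * star (r k q) := by
    intro p q
    rw [hB, Matrix.mul_apply]
    refine Finset.sum_congr rfl fun k _ => ?_
    rw [Matrix.conjTranspose_apply, hr]
    simp only [star_star]
  have h1 : (K⁻¹ * R).trace = ∑ k, star (r k) ⬝ᵥ (K⁻¹ *ᵥ r k) := by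
    simp only [Matrix.trace, Matrix.diag, Matrix.mul_apply, dotProduct, Matrix.mulVec, hRpq,
      Finset.mul_sum, Pi.star_apply]
    rw [Finset.sum_congr rfl fun a _ => Finset.sum_comm, Finset.sum_comm]
    refine Finset.sum_congr rfl fun k _ => Finset.sum_congr rfl fun a _ =>
      Finset.sum_congr rfl fun b _ => ?_
    ring
  have h2 : so R K = ∑ k, eW (r k) * Gam K * iW (star (r k)) := by
    have h3 : ∀ k, eW (r k) * Gam K * iW (star (r k)) =
        ∑ p, ∑ q, (r k p * star (r k q)) • (eW (ep p) * Gam K * iW (ep q)) := by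
      intro k
      rw [eW_eq_sum (r k), iW_eq_sum (star (r k)), Finset.sum_mul, Finset.sum_mul]
      refine Finset.sum_congr rfl fun p _ => ?_
      rw [Finset.mul_sum]
      refine Finset.sum_congr rfl fun q _ => ?_
      rw [smul_mul_assoc, smul_mul_assoc, mul_smul_comm, smul_smul, Pi.star_apply]
    simp_rw [h3]
    unfold so
    conv_rhs => rw [Finset.sum_comm]
    refine Finset.sum_congr rfl fun p _ => ?_
    conv_rhs => rw [Finset.sum_comm]
    refine Finset.sum_congr rfl fun q _ => ?_
    rw [hRpq, Finset.sum_smul]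
  rw [h1, h2, Finset.sum_smul, ← Finset.sum_sub_distrib]
  exact Matrix.posSemidef_sum _ fun k _ => so_le_one hK (r k)

end

end Crest.Agent.R273.FIg0_597
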