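import Crest.Agent.R273.FIf0_597

/-!
# R273 (S0416), leaf FI, part h (helper597): the rank inequality for a family of proportional sections

* `Bq F z = ∂∂̄ log ∑ |F_k|²`
* `rank_le_of_frequently` : lower semicontinuity of the rank
* `fi_fam` : `rank (θ + ∂∂̄ log ∑ |f_l|²) ≤ ν` for the quotients `f_l` of a proportional family
* `fi_closed` : the same for holomorphic `g_l` without common zero with `g_l τ_k = g_k τ_l`, without
  any condition on the zeros of the `τ_l`
-/

set_option autoImplicit false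
set_option linter.unusedSectionVars false

open Set Filter Topology Complex MeasureTheory
open scoped ContDiff Matrix ComplexConjugate ComplexOrder

namespace Crest.Agent.R273.FIh0_597

open Crest.Agent.R275 Crest.Agent.R275.Geo Crest.Agent.R275.Core144 Crest.Agent.R275.EDR890
open Crest.Agent.R275.GC293
open Crest.Agent.R273.Fock_243 (FI)
open Crest.Agent.R273.Defs_333 Crest.Agent.R273.Hess_333 Crest.Agent.R273.HessB_333
open Crest.Agent.R273.HM_333 Crest.Agent.R273.Kah_333 Crest.Agent.R273.Vol_333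
open Crest.Agent.R273.FS_333 Crest.Agent.R273.Cram_747
open Crest.Agent.R273.YauDefs_635
open Crest.Agent.R273.FIa0_597 Crest.Agent.R273.FIb0_597
open Crest.Agent.R273.FIc0_597 Crest.Agent.R273.FId0_597 Crest.Agent.R273.FIe0_597
open Crest.Agent.R273.FIf0_597

noncomputable section

variable {n N : ℕ}

/-- `∂∂̄ log ∑ |F_k|²` -/
def Bq (F : Cn n → Fin N → ℂ) (z : Cn n) : Matrix (Fin n) (Fin n) ℂ :=
  hess (fun w => Real.log (FS_333.sq F w)) z

theorem sm_sq {F : Cn n → Fin N → ℂ} {W : Set (Cn n)} (hW : IsOpen W)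
    (hF : ∀ k, DifferentiableOn ℂ (fun z => F z k) W) {z : Cn n} (hz : z ∈ W) :
    ContDiffAt ℝ ∞ (FS_333.sq F) z :=
  ContDiffAt.sum fun k _ => (contDiffAt_of_hol hW (hF k) hz).norm_sq ℝ

theorem sm_log_sq {F : Cn n → Fin N → ℂ} {W : Set (Cn n)} (hW : IsOpen W)
    (hF : ∀ k, DifferentiableOn ℂ (fun z => F z k) W) {z : Cn n} (hz : z ∈ W) (h0 : F z ≠ 0) :
    ContDiffAt ℝ ∞ (fun w => Real.log (FS_333.sq F w)) z :=
  (sm_sq hW hF hz).log (FS_333.sq_pos h0).ne'

theorem Bq_psd {F : Cn n → Fin N → ℂ} {W : Set (Cn n)} (hW : IsOpen W)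
    (hF : ∀ k, DifferentiableOn ℂ (fun z => F z k) W) {z : Cn n} (hz : z ∈ W) (h0 : F z ≠ 0) :
    (Bq F z).PosSemidef := by
  refine posSemidef_hess (sm_log_sq hW hF hz h0) fun v => ?_
  rw [lev_log_sq hW hF hz h0 v]
  have hp := FS_333.sq_pos h0
  have hL := (lagrange (F z) (fun k => fderiv ℂ (fun z => F z k) z v)).resolve_right hp.ne'
  change FS_333.sq F z * _ - _ = _ / FS_333.sq F z at hL
  rw [hL]
  have h1 : 0 ≤ ∑ k, ‖(∑ l, ‖F z l‖ ^ 2 : ℝ) • fderiv ℂ (fun z => F z k) z v -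
      (∑ l, fderiv ℂ (fun z => F z l) z v * conj (F z l)) * F z k‖ ^ 2 :=
    Finset.sum_nonneg fun _ _ => by positivity
  positivity

/-- lower semicontinuity of the rank -/
theorem rank_le_of_frequently (hLin : LinS n) {X : Type} [TopologicalSpace X]
    {S : X → Matrix (Fin n) (Fin n) ℂ} {p : X} {ν : ℕ}
    (hS : ∀ a b, ContinuousAt (fun x => S x a b) p) (hp : ∀ᶠ x in 𝓝 p, (S x).PosSemidef)
    (hr : ∃ᶠ x in 𝓝 p, (S x).rank ≤ ν) : (S p).rank ≤ ν := by
  by_contra hcon
  rw [not_le] at hcon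
  obtain ⟨c, hc, hev⟩ := hLin.low X (fun _ => 1) S p (ν + 1) (fun _ _ => continuousAt_const) hS
    (Eventually.of_forall fun _ => Matrix.PosDef.one) hp hcon
  obtain ⟨x, hx1, hx2, hx3⟩ := (hr.and_eventually (hev.and hp)).exists
  set D : ℝ := ((1 : Matrix (Fin n) (Fin n) ℂ) + S x).det.re with hD
  have h1 : ∀ t : ℝ, 1 ≤ t → c * t ≤ D := by
    intro t ht
    have h2 := hx2 t (by linarith)
    have h3 := hLin.up 1 (S x) ν t Matrix.PosDef.one hx3 hx1 ht
    have h4 : 0 < t ^ ν := by positivity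
    have h5 : t ^ ν * (c * t) ≤ t ^ ν * D := by
      calc t ^ ν * (c * t) = c * t ^ (ν + 1) := by ring
        _ ≤ _ := h2.trans h3
    exact le_of_mul_le_mul_left h5 h4
  have h6 := h1 (max 1 (D / c + 1)) (le_max_left _ _)
  have h7 : D < c * max 1 (D / c + 1) := by
    calc D < c * (D / c + 1) := by
          field_simp
          linarith
      _ ≤ _ := mul_le_mul_of_nonneg_left (le_max_right _ _) hc.le
  linarith

variable {M : Type} [TopologicalSpace M] {A : Atl n M} {L L' : LB A}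

/-- `∂∂̄ log ∑ U_l` for `U_l = |f_l|² U_0` -/
theorem hsf_fam {U : Fin N → M → ℝ} {l0 : Fin N} (h0 : A.Sm (U l0)) {i : A.ι} {x : M}
    (hx : x ∈ (A.e i).source) {f : Fin N → M → ℂ} {W : Set M} (hW : IsOpen W) (hxW : x ∈ W)
    (hf : ∀ l, HolAt A i W (f l)) (hU : ∀ y ∈ W, ∀ l, U l y = ‖f l y‖ ^ 2 * U l0 y)
    (hp : 0 < U l0 x) :
    hsf A (fun y => Real.log (∑ l, U l y)) i x = hsf A (fun y => Real.log (U l0 y)) i x +
      Bq (fun z l => f l ((A.e i).symm z)) (A.e i x) := by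
  have hz := (A.e i).map_source hx
  have hzW : A.e i x ∈ (A.e i).target ∩ (A.e i).symm ⁻¹' W :=
    ⟨hz, by rw [mem_preimage, (A.e i).left_inv hx]; exact hxW⟩
  have ho : IsOpen ((A.e i).target ∩ (A.e i).symm ⁻¹' W) := isOpen_ti hW
  have c0 : ContDiffAt ℝ ∞ (fun z => U l0 ((A.e i).symm z)) (A.e i x) := sm_contDiffAt h0 i hz
  have hp' : 0 < U l0 ((A.e i).symm (A.e i x)) := by rwa [(A.e i).left_inv hx]
  have hne : ∀ y ∈ W, 0 < U l0 y → f l0 y ≠ 0 := by
    intro y hy h1 h2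
    have h3 := hU y hy l0
    rw [h2, norm_zero] at h3
    norm_num at h3
    exact h1.ne' h3
  have hev : (fun z => Real.log (∑ l, U l ((A.e i).symm z))) =ᶠ[𝓝 (A.e i x)]
      fun z => (fun z => Real.log (U l0 ((A.e i).symm z))) z +
        (fun z => Real.log (FS_333.sq (fun z l => f l ((A.e i).symm z)) z)) z := by
    filter_upwards [ho.mem_nhds hzW, c0.continuousAt.eventually (lt_mem_nhds hp')] with z hz1 hz2
    have h1 : (fun l => f l ((A.e i).symm z)) ≠ 0 := fun h =>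
      hne _ hz1.2 hz2 (congrFun h l0)
    have h2 := FS_333.sq_pos (F := fun z l => f l ((A.e i).symm z)) (z := z) h1
    rw [← Real.log_mul hz2.ne' h2.ne']
    congr 1
    unfold FS_333.sq
    rw [Finset.mul_sum]
    exact Finset.sum_congr rfl fun l _ => by rw [hU _ hz1.2 l]; ring
  have c1 : ContDiffAt ℝ ∞ (fun z => Real.log (U l0 ((A.e i).symm z))) (A.e i x) :=
    c0.log hp'.ne'
  have c2 : ContDiffAt ℝ ∞ (fun z => Real.log (FS_333.sq (fun z l => f l ((A.e i).symm z)) z))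
      (A.e i x) := by
    refine sm_log_sq ho hf hzW fun h => ?_
    exact hne x hxW hp (by simpa only [(A.e i).left_inv hx, Pi.zero_apply] using congrFun h l0)
  unfold hsf Bq
  rw [hess_congr hev, hess_add c1 c2]

/-- the local quotients of a proportional family -/
theorem exists_ratio_fam {κ : Type*} {τ : Fin N → A.ι → M → κ → ℂ}
    (hol : ∀ l i F, HolAt A i univ (fun x => τ l i x F)) (hp : ∀ l l', Prp (τ l) (τ l'))
    {l0 : Fin N} {i : A.ι} {x : M} (hx : x ∈ (A.e i).source) (hne : τ l0 i x ≠ 0) :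
    ∃ (W : Set M) (f : Fin N → M → ℂ), IsOpen W ∧ x ∈ W ∧ W ⊆ (A.e i).source ∧
      (∀ l, HolAt A i W (f l)) ∧ (∀ y ∈ W, τ l0 i y ≠ 0) ∧
      ∀ l, ∀ y ∈ W, τ l i y = f l y • τ l0 i y := by
  have h1 : ∀ l, ∃ (W : Set M) (f : M → ℂ), IsOpen W ∧ x ∈ W ∧ W ⊆ (A.e i).source ∧
      HolAt A i W f ∧ (∀ y ∈ W, τ l0 i y ≠ 0) ∧ ∀ y ∈ W, τ l i y = f y • τ l0 i y := fun l =>
    exists_ratio (hol l0) (hol l) (hp l0 l) hx hne
  choose W f hWo hxW hWs hfW hne' hfr using h1
  refine ⟨⋂ l, W l, f, isOpen_iInter_of_finite hWo, mem_iInter.2 hxW,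
    (iInter_subset W l0).trans (hWs l0), fun l => (hfW l).mono (iInter_subset W l),
    fun y hy => hne' l0 y (mem_iInter.1 hy l0), fun l y hy => hfr l y (mem_iInter.1 hy l)⟩

theorem cont_Bq {i : A.ι} {W : Set M} (hW : IsOpen W) {f : Fin N → M → ℂ}
    (hf : ∀ l, HolAt A i W (f l)) {x : M} (hx : x ∈ (A.e i).source) (hxW : x ∈ W)
    (h0 : ∃ l, f l x ≠ 0) (a b : Fin n) :
    ContinuousAt (fun y => Bq (fun z l => f l ((A.e i).symm z)) (A.e i y) a b) x := by
  have ho : IsOpen ((A.e i).target ∩ (A.e i).symm ⁻¹' W) := isOpen_ti hW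
  have hzW : A.e i x ∈ (A.e i).target ∩ (A.e i).symm ⁻¹' W :=
    ⟨(A.e i).map_source hx, by rw [mem_preimage, (A.e i).left_inv hx]; exact hxW⟩
  obtain ⟨l, hl⟩ := h0
  have h1 : ContDiffAt ℝ ∞ (fun w => Real.log (FS_333.sq (fun z l => f l ((A.e i).symm z)) w))
      (A.e i x) := by
    refine sm_log_sq ho hf hzW fun h => hl ?_
    simpa only [(A.e i).left_inv hx, Pi.zero_apply] using congrFun h l
  have h2 := (contDiffAt_hess h1 a b).continuousAt
  exact ContinuousAt.comp (f := fun y => A.e i y)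
    (g := fun z => Bq (fun z l => f l ((A.e i).symm z)) z a b) h2 ((A.e i).continuousAt hx)

section

variable [T2Space M] [CompactSpace M] [Fintype A.ι]

theorem fi_fam [ConnectedSpace M] (hLin : LinS n) (hY : YauStmt) (hG : GoodA A) (P : Part A)
    {H : HM L} (hH : H.Pos) {h : HM (KB A)⁻¹} (hs : h.Semipos) {ν : ℕ}
    (hν : ∀ i, ∀ x ∈ (A.e i).source, (cur h i x).rank ≤ ν) {C : ℝ} (hC : 0 ≤ C)
    {κ : Type} {τ : Fin N → A.ι → M → κ → ℂ}
    (hol : ∀ l i F, HolAt A i univ (fun x => τ l i x F)) (hprp : ∀ l l', Prp (τ l) (τ l'))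
    (hU : ∀ K : Kah A,
      (∀ i, ∀ x ∈ (A.e i).source, cur (volK K) i x = cur h i x) →
      ∃ U : Fin N → M → ℝ, (∀ l, BU K h (τ l) C (U l)) ∧
        ∀ l l' i, ∀ x ∈ (A.e i).source, ∀ c : ℂ, τ l i x = c • τ l' i x →
          U l x = ‖c‖ ^ 2 * U l' x)
    {i0 : A.ι} {V : Set M} (hVo : IsOpen V) (hVs : V ⊆ (A.e i0).source) {l0 : Fin N}
    {f : Fin N → M → ℂ} (hf : ∀ l, HolAt A i0 V (f l))
    (hτf : ∀ l, ∀ x ∈ V, τ l i0 x = f l x • τ l0 i0 x) (hne : ∀ x ∈ V, τ l0 i0 x ≠ 0) :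
    ∀ x ∈ V, (cur h i0 x + Bq (fun z l => f l ((A.e i0).symm z)) (A.e i0 x)).rank ≤ ν := by
  have hf0 : ∀ x ∈ V, f l0 x ≠ 0 := by
    intro x hx h1
    have h2 := hτf l0 x hx
    rw [h1, zero_smul] at h2
    exact hne x hx h2
  have hgz : ∀ x ∈ V, A.e i0 x ∈ (A.e i0).target ∩ (A.e i0).symm ⁻¹' V := fun x hx =>
    ⟨(A.e i0).map_source (hVs hx), by rw [mem_preimage, (A.e i0).left_inv (hVs hx)]; exact hx⟩
  have hTp : ∀ {i : A.ι} {W : Set M} {f : Fin N → M → ℂ}, IsOpen W → W ⊆ (A.e i).source →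
      (∀ l, HolAt A i W (f l)) → ∀ x ∈ W, f l0 x ≠ 0 →
      (Bq (fun z l => f l ((A.e i).symm z)) (A.e i x)).PosSemidef := by
    intro i W f hW hWs hf x hx h0
    refine Bq_psd (isOpen_ti hW) hf
      ⟨(A.e i).map_source (hWs hx), by rw [mem_preimage, (A.e i).left_inv (hWs hx)]; exact hx⟩
      fun h => h0 ?_
    simpa only [(A.e i).left_inv (hWs hx), Pi.zero_apply] using congrFun h l0
  refine fi_abs hLin hY hG P hH hs hν hC hVo hVs
    (T := fun x => Bq (fun z l => f l ((A.e i0).symm z)) (A.e i0 x)) ?_ ?_ ?_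
  · intro a b x hx
    exact (cont_Bq hVo hf (hVs hx) hx ⟨l0, hf0 x hx⟩ a b).continuousWithinAt
  · intro x hx
    exact hTp hVo hVs hf x hx (hf0 x hx)
  · intro K _ hK2
    obtain ⟨U, b, s⟩ := hU K hK2
    have hposU : ∀ l i, ∀ x ∈ (A.e i).source, τ l i x ≠ 0 → 0 < U l x := fun l i x hx h0 =>
      lt_of_le_of_ne ((b l).nn x) fun h2 => h0 (((b l).zero i x hx).1 h2.symm)
    -- the general step
    have step : ∀ (l1 : Fin N) (i : A.ι) (x : M) (W : Set M) (f : Fin N → M → ℂ), IsOpen W →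
        x ∈ W → W ⊆ (A.e i).source → (∀ l, HolAt A i W (f l)) → (∀ y ∈ W, τ l1 i y ≠ 0) →
        (∀ l, ∀ y ∈ W, τ l i y = f l y • τ l1 i y) →
        -C * (trC K (cur h) i x).re +
            ((K.g i x)⁻¹ * Bq (fun z l => f l ((A.e i).symm z)) (A.e i x)).trace.re ≤
          (trC K (hsf A fun y => Real.log (∑ l, U l y)) i x).re := by
      intro l1 i x W f hWo hxW hWs hfW hneW hfr
      have h5 := hsf_fam (U := U) (l0 := l1) (b l1).sm (hWs hxW) hWo hxW hfW
        (fun y hy l => s l l1 i y (hWs hy) _ (hfr l y hy)) (hposU l1 i x (hWs hxW) (hneW x hxW))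
      have h6 : trC K (hsf A fun y => Real.log (∑ l, U l y)) i x =
          trC K (hsf A fun y => Real.log (U l1 y)) i x +
            ((K.g i x)⁻¹ * Bq (fun z l => f l ((A.e i).symm z)) (A.e i x)).trace := by
        unfold trC
        rw [h5, Matrix.mul_add, Matrix.trace_add]
      rw [h6, Complex.add_re]
      have h7 := (b l1).boch i x (hWs hxW) (hneW x hxW)
      linarith
    refine ⟨fun x => ∑ l, U l x, fun i => ContDiffOn.sum fun l _ => (b l).sm i,
      fun x => Finset.sum_nonneg fun l _ => (b l).nn x, ?_, ?_, ?_⟩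
    · intro x hx
      refine lt_of_lt_of_le (hposU l0 i0 x (hVs hx) (hne x hx)) ?_
      exact Finset.single_le_sum (f := fun l => U l x) (fun l _ => (b l).nn x) (Finset.mem_univ l0)
    · intro i x hx hp
      obtain ⟨l1, hl1⟩ : ∃ l1, τ l1 i x ≠ 0 := by
        by_contra hno
        push Not at hno
        have h1 : ∑ l, U l x = 0 :=
          Finset.sum_eq_zero fun l _ => ((b l).zero i x hx).2 (hno l)
        simp only [h1, lt_self_iff_false] at hp
      obtain ⟨W, f', hWo, hxW, hWs, hfW, hneW, hfr⟩ := exists_ratio_fam hol hprp hx hl1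
      have h1 := step l1 i x W f' hWo hxW hWs hfW hneW hfr
      have h2 : (Bq (fun z l => f' l ((A.e i).symm z)) (A.e i x)).PosSemidef := by
        refine Bq_psd (isOpen_ti hWo) hfW
          ⟨(A.e i).map_source hx, by rw [mem_preimage, (A.e i).left_inv hx]; exact hxW⟩
          fun h => ?_
        have h3 : f' l1 x = 0 := by
          simpa only [(A.e i).left_inv hx, Pi.zero_apply] using congrFun h l1
        have h4 := hfr l1 x hxW
        rw [h3, zero_smul] at h4
        exact hl1 h4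
      have h3 := tr_re_nonneg (K.pos i x hx) h2
      linarith
    · intro x hx
      exact step l0 i0 x V f hVo hx hVs hf hne hτf

variable {ρ : Type} [Fintype ρ] [DecidableEq ρ]

/-- **closed form** : `g_l` holomorphic without common zero, `g_l τ_k = g_k τ_l` -/
theorem fi_closed [ConnectedSpace M] (hLin : LinS n) (hY : YauStmt) (hG : GoodA A) (P : Part A)
    {H : HM L} (hH : H.Pos) {h : HM (KB A)⁻¹} (hs : h.Semipos) {ν : ℕ}
    (hν : ∀ i, ∀ x ∈ (A.e i).source, (cur h i x).rank ≤ ν) {C : ℝ} (hC : 0 ≤ C)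
    {τ : Fin N → A.ι → M → (ρ → FI n) → ℂ} (hτ : ∀ l, TS ρ L' (τ l))
    (hprp : ∀ l l', Prp (τ l) (τ l')) (hne0 : ∃ l, τ l ≠ 0)
    (hU : ∀ K : Kah A,
      (∀ i, ∀ x ∈ (A.e i).source, cur (volK K) i x = cur h i x) →
      ∃ U : Fin N → M → ℝ, (∀ l, BU K h (τ l) C (U l)) ∧
        ∀ l l' i, ∀ x ∈ (A.e i).source, ∀ c : ℂ, τ l i x = c • τ l' i x →
          U l x = ‖c‖ ^ 2 * U l' x)
    {i0 : A.ι} {V : Set M} (hVo : IsOpen V) (hVs : V ⊆ (A.e i0).source)
    {g : Fin N → M → ℂ} (hg : ∀ l, HolAt A i0 V (g l))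
    (hgτ : ∀ l k, ∀ x ∈ V, g l x • τ k i0 x = g k x • τ l i0 x) (hg0 : ∀ x ∈ V, ∃ l, g l x ≠ 0) :
    ∀ x ∈ V, (cur h i0 x + Bq (fun z l => g l ((A.e i0).symm z)) (A.e i0 x)).rank ≤ ν := by
  intro x hx
  obtain ⟨l, hl⟩ := hg0 x hx
  -- `g l ≠ 0` near `x`
  have hcg : ContinuousAt (g l) x := by
    have h2 := (hg l).diffAt hVo (hVs hx) hx
    have h3 : ContinuousAt (fun y => (fun z => g l ((A.e i0).symm z)) (A.e i0 y)) x :=
      ContinuousAt.comp (f := fun y => A.e i0 y) h2.continuousAt ((A.e i0).continuousAt (hVs hx))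
    refine h3.congr ?_
    filter_upwards [(A.e i0).open_source.mem_nhds (hVs hx)] with w hw
    simp only [(A.e i0).left_inv hw]
  have hev : ∀ᶠ y in 𝓝 x, y ∈ V ∧ g l y ≠ 0 := by
    filter_upwards [hVo.mem_nhds hx, hcg.eventually_ne hl] with y h1 h2 using ⟨h1, h2⟩
  -- `τ l ≠ 0`
  have hτl : τ l ≠ 0 := by
    intro h0
    obtain ⟨k, hk⟩ := hne0
    obtain ⟨W, hWsub, hWo, hxW⟩ := mem_nhds_iff.1 hev
    refine hk ((hτ k).eq_zero hWo ⟨x, hxW⟩ fun y hy i hyi => ?_)
    have h1 := hgτ l k y (hWsub hy).1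
    have h2 : τ l i0 y = 0 := by rw [h0]; rfl
    rw [h2, smul_zero] at h1
    have h3 : τ k i0 y = 0 := (smul_eq_zero.1 h1).resolve_left (hWsub hy).2
    exact (hτ k).zero_of_zero i i0 y ⟨hyi, hVs (hWsub hy).1⟩ h3
  have hfr : ∃ᶠ y in 𝓝 x, y ∈ nz (τ l) := by
    rw [← mem_closure_iff_frequently]
    exact (hτ l).dense_nz hτl x
  refine rank_le_of_frequently hLin
    (S := fun y => cur h i0 y + Bq (fun z l => g l ((A.e i0).symm z)) (A.e i0 y)) ?_ ?_ ?_
  · intro a b
    exact (cont_smAt (f := fun x => cur h i0 x a b) (cur_smooth h i0 a b) (hVs hx)).add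
      (cont_Bq hVo hg (hVs hx) hx ⟨l, hl⟩ a b)
  · filter_upwards [hev] with y hy
    refine (cur_posSemidef hs i0 (hVs hy.1)).add (Bq_psd (isOpen_ti hVo) hg
      ⟨(A.e i0).map_source (hVs hy.1), by
        rw [mem_preimage, (A.e i0).left_inv (hVs hy.1)]; exact hy.1⟩ fun h => hy.2 ?_)
    simpa only [(A.e i0).left_inv (hVs hy.1), Pi.zero_apply] using congrFun h l
  · refine (hfr.and_eventually hev).mono fun y hy => ?_
    obtain ⟨hy1, hyV, hyg⟩ := hy
    -- apply `fi_fam` near `y`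
    set W : Set M := V ∩ {y | g l y ≠ 0} ∩ nz (τ l) with hW
    have hWo : IsOpen W := by
      refine IsOpen.inter ?_ (hτ l).isOpen_nz
      have hc : ContinuousOn (g l) V := by
        intro y hy
        have h2 := (hg l).diffAt hVo (hVs hy) hy
        have h3 : ContinuousAt (fun y => (fun z => g l ((A.e i0).symm z)) (A.e i0 y)) y :=
          ContinuousAt.comp (f := fun y => A.e i0 y) h2.continuousAt
            ((A.e i0).continuousAt (hVs hy))
        refine (h3.congr ?_).continuousWithinAt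
        filter_upwards [(A.e i0).open_source.mem_nhds (hVs hy)] with w hw
        simp only [(A.e i0).left_inv hw]
      exact hc.isOpen_inter_preimage hVo isOpen_compl_singleton
    have hyW : y ∈ W := ⟨⟨hyV, hyg⟩, hy1⟩
    have hWV : W ⊆ V := fun w hw => hw.1.1
    have hratio : ∀ k, HolAt A i0 W (fun y => g k y / g l y) := by
      intro k
      have h1 := (hg k).mono hWV
      have h2 := ((hg l).mono hWV).inv fun y _ hy => hy.1.2
      simpa only [div_eq_mul_inv] using h1.mul h2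
    have h1 := fi_fam hLin hY hG P hH hs hν hC (fun l i F => (hτ l).hol i F) hprp hU hWo
      (hWV.trans hVs) (l0 := l) hratio (fun k w hw => by
        have h2 := hgτ l k w (hWV hw)
        have h3 : g l w ≠ 0 := hw.1.2
        rw [div_eq_mul_inv, mul_comm, mul_smul, ← h2, smul_smul, inv_mul_cancel₀ h3, one_smul])
      (fun w hw => (hτ l).ne_of_nz hw.2 (hVs (hWV hw))) y hyW
    have h2 : Bq (fun z k => g k ((A.e i0).symm z)) (A.e i0 y) =
        Bq (fun z k => g k ((A.e i0).symm z) / g l ((A.e i0).symm z)) (A.e i0 y) := by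
      have ho : IsOpen ((A.e i0).target ∩ (A.e i0).symm ⁻¹' W) := isOpen_ti hWo
      have hyt : A.e i0 y ∈ (A.e i0).target ∩ (A.e i0).symm ⁻¹' W :=
        ⟨(A.e i0).map_source (hVs hyV), by
          rw [mem_preimage, (A.e i0).left_inv (hVs hyV)]; exact hyW⟩
      have hev2 : (fun w => Real.log (FS_333.sq (fun z k => g k ((A.e i0).symm z)) w)) =ᶠ[
          𝓝 (A.e i0 y)] fun w => (fun w => Real.log (FS_333.sq (fun z k =>
            g k ((A.e i0).symm z) / g l ((A.e i0).symm z)) w)) w +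
            (fun w => Real.log (‖g l ((A.e i0).symm w)‖ ^ 2)) w := by
        filter_upwards [ho.mem_nhds hyt] with w hw
        have h3 : g l ((A.e i0).symm w) ≠ 0 := hw.2.1.2
        have h4 : (fun k => g k ((A.e i0).symm w) / g l ((A.e i0).symm w)) ≠ 0 := by
          intro h5
          have h6 := congrFun h5 l
          simp only [div_self h3, Pi.zero_apply, one_ne_zero] at h6
        have h5 := FS_333.sq_pos (F := fun z k => g k ((A.e i0).symm z) / g l ((A.e i0).symm z))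
          (z := w) h4
        rw [← Real.log_mul h5.ne' (by positivity)]
        congr 1
        unfold FS_333.sq
        rw [Finset.sum_mul]
        refine Finset.sum_congr rfl fun k _ => ?_
        rw [← mul_pow, ← norm_mul, div_mul_cancel₀ _ h3]
      have h7 : ∀ᶠ w in 𝓝 (A.e i0 y), DifferentiableAt ℂ (fun w => g l ((A.e i0).symm w)) w := by
        filter_upwards [ho.mem_nhds hyt] with w hw
        exact (((hg l).mono hWV) : DifferentiableOn ℂ _ _).differentiableAt (ho.mem_nhds hw)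
      have h8 : g l ((A.e i0).symm (A.e i0 y)) ≠ 0 := by rwa [(A.e i0).left_inv (hVs hyV)]
      have h9 : (fun k => g k ((A.e i0).symm (A.e i0 y)) / g l ((A.e i0).symm (A.e i0 y))) ≠ 0 := by
        intro h5
        have h6 := congrFun h5 l
        simp only [div_self h8, Pi.zero_apply, one_ne_zero] at h6
      have c1 := sm_log_sq ho (F := fun z k => g k ((A.e i0).symm z) / g l ((A.e i0).symm z))
        hratio hyt h9
      have c2 : ContDiffAt ℝ ∞ (fun w => Real.log (‖g l ((A.e i0).symm w)‖ ^ 2)) (A.e i0 y) := by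
        have h10 := contDiffAt_of_hol ho ((hg l).mono hWV) hyt
        exact (h10.norm_sq ℝ).log (by positivity)
      unfold Bq
      rw [hess_congr hev2, hess_add c1 c2, hess_log_norm h7 h8, add_zero]
    rw [h2]
    exact h1

end

end

end Crest.Agent.R273.FIh0_597
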