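import Crest.Agent.R273.FIh0_597
import Crest.Agent.R273.FIlin_332
import Crest.Agent.R273.BochI_101

/-!
# R273 (S0416), LEMMA FI (helper597), final form

`M` compact connected, `h : HM (KB A)⁻¹` semipositive, `ν ≥ rank (cur h)`, `H` any positive metric,
`hN : HM N` with `cur hN = m • cur h`, `m ≥ 0`.

* `bu_tN`    : the log-Bochner package of a holomorphic section of `(Λ T)^{⊗ρ} ⊗ N`
* `fi_log`   : pairwise proportional sections `τ_l : TS ρ N`, `g_l` holomorphic on `V` without common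
  zero, `g_l τ_k = g_k τ_l` on `V` : `rank (cur h + ∂∂̄ log ∑ |g_l|²) ≤ ν` on `V`
* `fi`       : `τ₁ = f τ₀`, `f` holomorphic on `V` : `rank (cur h + TT f) ≤ ν` on `V`
* `fi_deriv` : moreover `∂_v f (x) = 0` for `v ∈ ker (cur h)(x)` where `rank (cur h)(x) = ν`
No condition on the zeros of the sections.
-/

set_option autoImplicit false
set_option linter.unusedSectionVars false

open Set Filter Topology Complex MeasureTheory
open scoped ContDiff Matrix ComplexConjugate ComplexOrder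

namespace Crest.Agent.R273.FIh_597

open Crest.Agent.R275 Crest.Agent.R275.Geo Crest.Agent.R275.Core144 Crest.Agent.R275.EDR890
open Crest.Agent.R275.GC293
open Crest.Agent.R273.Fock_243 (FI Gam)
open Crest.Agent.R273.Defs_333 Crest.Agent.R273.Hess_333 Crest.Agent.R273.HessB_333
open Crest.Agent.R273.HM_333 Crest.Agent.R273.Kah_333 Crest.Agent.R273.Vol_333
open Crest.Agent.R273.FS_333 Crest.Agent.R273.Cram_747
open Crest.Agent.R273.YauDefs_635
open Crest.Agent.R273.BochE_101 Crest.Agent.R273.BochF_101 Crest.Agent.R273.BochI_101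
open Crest.Agent.R273.FIa0_597 Crest.Agent.R273.FIb0_597
open Crest.Agent.R273.FIc0_597 Crest.Agent.R273.FId0_597 Crest.Agent.R273.FIe0_597
open Crest.Agent.R273.FIf0_597 Crest.Agent.R273.FIh0_597

noncomputable section

variable {n : ℕ} {M : Type} [TopologicalSpace M] {A : Atl n M} {L N : LB A}
  {ρ : Type} [Fintype ρ] [DecidableEq ρ]

theorem bu_tN {K : Kah A} {h : HM (KB A)⁻¹} (hs : h.Semipos)
    (hc : ∀ i, ∀ x ∈ (A.e i).source, cur (volK K) i x = cur h i x) {hN : HM N} {m : ℝ}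
    (hm : ∀ i, ∀ x ∈ (A.e i).source, cur hN i x = (m : ℂ) • cur h i x)
    {τ : A.ι → M → (ρ → FI n) → ℂ} (hτ : TS ρ N τ) :
    BU K h τ (Fintype.card ρ + m) (tN K hN τ) where
  sm := sm_tN K hN hτ
  nn := tN_nonneg K hN τ
  zero i x hx := by
    constructor
    · intro h0
      by_contra h1
      exact (tN_pos K hN hτ hx h1).ne' h0
    · intro h0
      rw [tN_eq K hN hτ hx]
      unfold tU
      rw [h0, nrm_zero, Complex.zero_re, zero_mul]
  boch i x hx h0 := boch_TS hs hc hm hτ i x hx (tN_pos K hN hτ hx h0)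

theorem tN_smul (K : Kah A) (hN : HM N) {τ τ' : A.ι → M → (ρ → FI n) → ℂ} (hτ : TS ρ N τ)
    (hτ' : TS ρ N τ') {i : A.ι} {x : M} (hx : x ∈ (A.e i).source) {c : ℂ}
    (h : τ i x = c • τ' i x) : tN K hN τ x = ‖c‖ ^ 2 * tN K hN τ' x := by
  rw [tN_eq K hN hτ hx, tN_eq K hN hτ' hx]
  unfold tU
  rw [h, nrm_smul, Complex.re_ofReal_mul]
  ring

section

variable [T2Space M] [CompactSpace M] [Fintype A.ι] [ConnectedSpace M]

/-- **first integrals, logarithmic form for a family** -/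
theorem fi_log (hY : YauStmt) (hG : GoodA A) (P : Part A) {H : HM L} (hH : H.Pos)
    {h : HM (KB A)⁻¹} (hs : h.Semipos) {ν : ℕ}
    (hν : ∀ i, ∀ x ∈ (A.e i).source, (cur h i x).rank ≤ ν) {hN : HM N} {m : ℝ} (hm0 : 0 ≤ m)
    (hm : ∀ i, ∀ x ∈ (A.e i).source, cur hN i x = (m : ℂ) • cur h i x) {r : ℕ}
    {τ : Fin r → A.ι → M → (ρ → FI n) → ℂ} (hτ : ∀ l, TS ρ N (τ l))
    (hprp : ∀ l l', Prp (τ l) (τ l')) (hne0 : ∃ l, τ l ≠ 0)
    {i0 : A.ι} {V : Set M} (hVo : IsOpen V) (hVs : V ⊆ (A.e i0).source)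
    {g : Fin r → M → ℂ} (hg : ∀ l, HolAt A i0 V (g l))
    (hgτ : ∀ l k, ∀ x ∈ V, g l x • τ k i0 x = g k x • τ l i0 x) (hg0 : ∀ x ∈ V, ∃ l, g l x ≠ 0) :
    ∀ x ∈ V, (cur h i0 x + Bq (fun z l => g l ((A.e i0).symm z)) (A.e i0 x)).rank ≤ ν := by
  refine fi_closed (Crest.Agent.R273.FIlin_332.linS n) hY hG P hH hs hν
    (C := Fintype.card ρ + m) (by positivity) hτ hprp hne0 (fun K hK => ?_) hVo hVs hg hgτ hg0
  exact ⟨fun l => tN K hN (τ l), fun l => bu_tN hs hK hm (hτ l),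
    fun l l' i x hx c hc => tN_smul K hN (hτ l) (hτ l') hx hc⟩

/-- **first integrals, form for a pair** -/
theorem fi (hY : YauStmt) (hG : GoodA A) (P : Part A) {H : HM L} (hH : H.Pos)
    {h : HM (KB A)⁻¹} (hs : h.Semipos) {ν : ℕ}
    (hν : ∀ i, ∀ x ∈ (A.e i).source, (cur h i x).rank ≤ ν) {hN : HM N} {m : ℝ} (hm0 : 0 ≤ m)
    (hm : ∀ i, ∀ x ∈ (A.e i).source, cur hN i x = (m : ℂ) • cur h i x)
    {τ0 τ1 : A.ι → M → (ρ → FI n) → ℂ} (h0 : TS ρ N τ0) (h1 : TS ρ N τ1) (hprp : Prp τ0 τ1)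
    (hne0 : τ0 ≠ 0) {i0 : A.ι} {V : Set M} (hVo : IsOpen V) (hVs : V ⊆ (A.e i0).source)
    {f : M → ℂ} (hf : HolAt A i0 V f) (hfτ : ∀ x ∈ V, τ1 i0 x = f x • τ0 i0 x) :
    ∀ x ∈ V, (cur h i0 x + TT (fun z => f ((A.e i0).symm z)) (A.e i0 x)).rank ≤ ν := by
  intro x hx
  have key := fi_log (r := 2) hY hG P hH hs hν hm0 hm (τ := ![τ0, τ1])
    (fun l => by fin_cases l; exacts [h0, h1])
    (fun l l' => by
      fin_cases l <;> fin_cases l'
      exacts [Prp.refl _, hprp, hprp.symm, Prp.refl _]) ⟨0, hne0⟩ hVo hVs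
    (g := ![fun _ => 1, f])
    (fun l => by
      fin_cases l
      · exact differentiableOn_const _
      · exact hf)
    (fun l k x hx => by
      fin_cases l <;> fin_cases k
      · rfl
      · show (1 : ℂ) • τ1 i0 x = f x • τ0 i0 x
        rw [one_smul, hfτ x hx]
      · show f x • τ0 i0 x = (1 : ℂ) • τ1 i0 x
        rw [one_smul, hfτ x hx]
      · rfl)
    (fun x _ => ⟨0, one_ne_zero⟩) x hx
  have hx' := hVs hx
  have ho : IsOpen ((A.e i0).target ∩ (A.e i0).symm ⁻¹' V) := isOpen_ti hVo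
  have hz : A.e i0 x ∈ (A.e i0).target ∩ (A.e i0).symm ⁻¹' V :=
    ⟨(A.e i0).map_source hx', by rw [mem_preimage, (A.e i0).left_inv hx']; exact hx⟩
  have h2 : Bq (fun z l => (![fun _ => 1, f] : Fin 2 → M → ℂ) l ((A.e i0).symm z)) (A.e i0 x) =
      TT (fun z => f ((A.e i0).symm z)) (A.e i0 x) := by
    rw [← hess_log_one_add ho hf hz]
    unfold Bq FS_333.sq
    congr 1
    funext w
    rw [Fin.sum_univ_two]
    congr 1
    show ‖(1 : ℂ)‖ ^ 2 + ‖f ((A.e i0).symm w)‖ ^ 2 = _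
    rw [norm_one]
    ring
  rw [h2] at key
  exact key

/-- **first integrals** : the quotient is constant along the kernel of the curvature -/
theorem fi_deriv (hY : YauStmt) (hG : GoodA A) (P : Part A) {H : HM L} (hH : H.Pos)
    {h : HM (KB A)⁻¹} (hs : h.Semipos) {ν : ℕ}
    (hν : ∀ i, ∀ x ∈ (A.e i).source, (cur h i x).rank ≤ ν) {hN : HM N} {m : ℝ} (hm0 : 0 ≤ m)
    (hm : ∀ i, ∀ x ∈ (A.e i).source, cur hN i x = (m : ℂ) • cur h i x)
    {τ0 τ1 : A.ι → M → (ρ → FI n) → ℂ} (h0 : TS ρ N τ0) (h1 : TS ρ N τ1) (hprp : Prp τ0 τ1)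
    (hne0 : τ0 ≠ 0) {i0 : A.ι} {V : Set M} (hVo : IsOpen V) (hVs : V ⊆ (A.e i0).source)
    {f : M → ℂ} (hf : HolAt A i0 V f) (hfτ : ∀ x ∈ V, τ1 i0 x = f x • τ0 i0 x) {x : M}
    (hx : x ∈ V) (hr : (cur h i0 x).rank = ν) {v : Fin n → ℂ}
    (hv : ∀ b, ∑ a, v a * cur h i0 x a b = 0) :
    ∑ a, v a * fderiv ℂ (fun z => f ((A.e i0).symm z)) (A.e i0 x)
      (EuclideanSpace.single a 1) = 0 := by
  have h2 := fi hY hG P hH hs hν hm0 hm h0 h1 hprp hne0 hVo hVs hf hfτ x hx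
  rw [← hr] at h2
  exact ker_of_rank (cur_posSemidef hs i0 (hVs hx))
    (g := dgr (fun z => f ((A.e i0).symm z)) (A.e i0 x)) (by positivity) h2 hv

end

end

end Crest.Agent.R273.FIh_597
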