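import Crest.Agent.R275.TorE_812

/-!
# R273, leaf D.9 (helper106): finite rank Fourier mollifiers on the torus

`FN N : SPer d →ₗ SPer d` : the Fourier multiplier `m(|k|/(N+1))`, `m(t) = max 0 (min 1 (2-t))`.

* `nrm_FN_le`      : `‖F_N f‖_s ≤ ‖f‖_s`;
* `tendsto_FN`     : `‖F_N f - f‖_s → 0`;
* `nrm_FN_smooth`  : `‖F_N f‖_s ≤ C(N,s) ‖f‖_0`;
* `FN_eq_sum`      : `F_N` has finite rank;
* `ip_FN`          : `F_N` is symmetric;
* `comm_FN_le`     : `‖[c ∂_j, F_N] f‖_0 ≤ C(c) ‖f‖_0`, uniformly in `N`;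
* `tendsto_comm_FN`: `‖[c ∂_j, F_N] f‖_0 → 0`.
-/

set_option autoImplicit false
set_option linter.unusedSectionVars false
set_option linter.unusedSimpArgs false
set_option linter.unusedVariables false

open MeasureTheory Filter Topology Set Complex
open scoped ContDiff Real

namespace Crest.Agent.R273.TorM_106

open Crest.Agent.R275.Tor812 Crest.Agent.R275.TorE812

noncomputable section

variable {d : Type} [Fintype d]

/-! ### the length -/

theorem br_add_le (k l : d → ℤ) : br (k + l) ≤ br k + br l := by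
  refine (pow_le_pow_iff_left₀ (br_pos _).le (add_nonneg (br_pos _).le (br_pos _).le)
    two_ne_zero).1 ?_
  have h1 : (∑ i, (k i : ℝ) * (l i : ℝ)) ^ 2 ≤ (br k * br l) ^ 2 := by
    rw [mul_pow, br_sq, br_sq]
    refine (Finset.sum_mul_sq_le_sq_mul_sq _ _ _).trans ?_
    refine mul_le_mul ?_ ?_ (Finset.sum_nonneg fun i _ => sq_nonneg _) (wt_pos k).le
    · unfold wt; linarith
    · unfold wt; linarith
  have h2 : ∑ i, (k i : ℝ) * (l i : ℝ) ≤ br k * br l :=
    le_trans (le_abs_self _) (abs_le_of_sq_le_sq h1 (mul_pos (br_pos k) (br_pos l)).le)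
  rw [br_sq, add_sq, br_sq, br_sq]
  have h3 : wt (k + l) = wt k + wt l + 2 * (∑ i, (k i : ℝ) * (l i : ℝ)) - 1 := by
    unfold wt
    rw [Finset.mul_sum]
    have : ∑ i, (((k + l) i : ℤ) : ℝ) ^ 2 =
        ∑ i, (k i : ℝ) ^ 2 + ∑ i, (l i : ℝ) ^ 2 + ∑ i, 2 * ((k i : ℝ) * (l i : ℝ)) := by
      rw [← Finset.sum_add_distrib, ← Finset.sum_add_distrib]
      refine Finset.sum_congr rfl fun i _ => ?_
      simp only [Pi.add_apply, Int.cast_add]
      ring
    rw [this]
    ring
  rw [h3]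
  linarith

theorem br_neg (k : d → ℤ) : br (-k) = br k := by
  unfold br wt; simp

theorem br_sub_le (k l : d → ℤ) : br k ≤ br l + br (k - l) := by
  have := br_add_le l (k - l)
  rwa [add_sub_cancel] at this

theorem abs_br_sub_le (k l : d → ℤ) : |br k - br l| ≤ br (k - l) := by
  rw [abs_le]
  constructor
  · have := br_sub_le l k
    rw [← br_neg (l - k), neg_sub] at this
    linarith
  · have := br_sub_le k l
    linarith

/-! ### the multiplier -/

/-- the symbol -/
def mN (N : ℕ) (k : d → ℤ) : ℝ := max 0 (min 1 (2 - br k / (N + 1)))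

theorem mN_nonneg (N : ℕ) (k : d → ℤ) : 0 ≤ mN N k := le_max_left _ _

theorem mN_le_one (N : ℕ) (k : d → ℤ) : mN N k ≤ 1 := max_le zero_le_one (min_le_left _ _)

theorem N_pos (N : ℕ) : (0 : ℝ) < N + 1 := by positivity

theorem mN_eq_zero {N : ℕ} {k : d → ℤ} (h : 2 * ((N : ℝ) + 1) ≤ br k) : mN N k = 0 := by
  unfold mN
  apply max_eq_left
  refine (min_le_right _ _).trans ?_
  have : 2 ≤ br k / (N + 1) := by rw [le_div_iff₀ (N_pos N)]; exact h
  linarith

theorem mN_eq_one {N : ℕ} {k : d → ℤ} (h : br k ≤ (N : ℝ) + 1) : mN N k = 1 := by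
  unfold mN
  have h1 : br k / (N + 1) ≤ 1 := by rw [div_le_one (N_pos N)]; exact h
  rw [min_eq_left (by linarith)]
  exact max_eq_right zero_le_one

theorem mN_neg (N : ℕ) (k : d → ℤ) : mN N (-k) = mN N k := by
  unfold mN; rw [br_neg]

theorem abs_mN_sub_le (N : ℕ) (k l : d → ℤ) : |mN N k - mN N l| ≤ |br k - br l| / (N + 1) := by
  unfold mN
  rw [max_comm 0, max_comm 0, min_comm 1, min_comm 1]
  refine (abs_max_sub_max_le_abs _ _ _).trans ((abs_min_sub_min_le_max _ _ _ _).trans ?_)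
  rw [sub_self, abs_zero, max_eq_left (abs_nonneg _),
    show (2 - br k / (N + 1)) - (2 - br l / (N + 1)) = -((br k - br l) / (N + 1)) by ring,
    abs_neg, abs_div, abs_of_pos (N_pos N)]

/-- the key estimate -/
theorem key_mN (N : ℕ) (k l : d → ℤ) : |mN N l - mN N k| * br l ≤ 4 * br (k - l) := by
  by_cases h : br l ≤ 4 * ((N : ℝ) + 1)
  · have h1 := abs_mN_sub_le N l k
    have h2 := abs_br_sub_le l k
    rw [← br_neg (l - k), neg_sub] at h2
    have h3 : |mN N l - mN N k| ≤ br (k - l) / (N + 1) :=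
      h1.trans (div_le_div_of_nonneg_right h2 (N_pos N).le)
    calc |mN N l - mN N k| * br l ≤ (br (k - l) / (N + 1)) * (4 * ((N : ℝ) + 1)) :=
          mul_le_mul h3 h (br_pos l).le (div_nonneg (br_pos _).le (N_pos N).le)
      _ = 4 * br (k - l) := by field_simp
  · push Not at h
    have h0 : mN N l = 0 := mN_eq_zero (by linarith [N_pos N])
    by_cases h' : 2 * ((N : ℝ) + 1) ≤ br k
    · rw [h0, mN_eq_zero h']
      simp only [sub_self, abs_zero, zero_mul]
      exact mul_nonneg (by norm_num) (br_pos _).le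
    · push Not at h'
      have h2 := br_sub_le l k
      rw [← br_neg (l - k), neg_sub] at h2
      have h3 : |mN N l - mN N k| ≤ 1 := by
        rw [h0, zero_sub, abs_neg, abs_of_nonneg (mN_nonneg N k)]
        exact mN_le_one N k
      calc |mN N l - mN N k| * br l ≤ 1 * br l := mul_le_mul_of_nonneg_right h3 (br_pos l).le
        _ ≤ 4 * br (k - l) := by linarith [br_pos (k - l)]

theorem pb_mN (N : ℕ) : PB fun k : d → ℤ => ((mN N k : ℝ) : ℂ) :=
  ⟨1, 0, zero_le_one, fun k => by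
    rw [pow_zero, mul_one, norm_real, Real.norm_of_nonneg (mN_nonneg N k)]
    exact mN_le_one N k⟩

/-- the mollifier -/
def FN (N : ℕ) : SPer d →ₗ[ℂ] SPer d := mult _ (pb_mN N)

@[simp] theorem fc_FN (N : ℕ) (f : SPer d) (k : d → ℤ) : fc (FN N f) k = (mN N k : ℂ) * fc f k :=
  fc_mult _ _ _ _

theorem nrm_FN_le (s N : ℕ) (f : SPer d) : nrm s (FN N f) ≤ nrm s f := by
  have := nrm_le_of_coeff (s := s) (t := s) (f := FN N f) (g := f) zero_le_one fun k => ?_
  · simpa using this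
  · rw [fc_FN, norm_mul, norm_real, Real.norm_of_nonneg (mN_nonneg N k), one_pow, one_mul,
      mul_pow]
    refine mul_le_mul_of_nonneg_left ?_ (pow_nonneg (wt_pos k).le _)
    exact mul_le_of_le_one_left (sq_nonneg _) (pow_le_one₀ (mN_nonneg N k) (mN_le_one N k))

theorem nrm_FN_sub_le (s N : ℕ) (f : SPer d) :
    nrm s (FN N f - f) ≤ ((N : ℝ) + 1)⁻¹ * nrm (s + 1) f := by
  refine nrm_le_of_coeff (inv_nonneg.2 (N_pos N).le) fun k => ?_
  rw [fc_sub, fc_FN, show ((mN N k : ℝ) : ℂ) * fc f k - fc f k = ((mN N k - 1 : ℝ) : ℂ) * fc f k by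
    push_cast; ring, norm_mul, norm_real, mul_pow, pow_succ (wt k) s]
  have h1 : ‖mN N k - 1‖ ≤ ((N : ℝ) + 1)⁻¹ * br k := by
    by_cases h : br k ≤ (N : ℝ) + 1
    · rw [mN_eq_one h, sub_self, norm_zero]
      exact mul_nonneg (inv_nonneg.2 (N_pos N).le) (br_pos k).le
    · push Not at h
      have h2 : ‖mN N k - 1‖ ≤ 1 := by
        rw [Real.norm_eq_abs, abs_le]
        constructor <;> linarith [mN_nonneg N k, mN_le_one N k]
      refine h2.trans ?_
      rw [← div_eq_inv_mul, one_le_div (N_pos N)]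
      exact h.le
  have h2 : ‖mN N k - 1‖ ^ 2 ≤ ((N : ℝ) + 1)⁻¹ ^ 2 * wt k := by
    have := pow_le_pow_left₀ (norm_nonneg _) h1 2
    rwa [mul_pow, br_sq] at this
  have h3 : 0 ≤ wt k ^ s * ‖fc f k‖ ^ 2 := mul_nonneg (pow_nonneg (wt_pos k).le _) (sq_nonneg _)
  calc wt k ^ s * (‖mN N k - 1‖ ^ 2 * ‖fc f k‖ ^ 2)
      = ‖mN N k - 1‖ ^ 2 * (wt k ^ s * ‖fc f k‖ ^ 2) := by ring
    _ ≤ (((N : ℝ) + 1)⁻¹ ^ 2 * wt k) * (wt k ^ s * ‖fc f k‖ ^ 2) :=
        mul_le_mul_of_nonneg_right h2 h3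
    _ = _ := by ring

theorem tendsto_invN : Tendsto (fun N : ℕ => ((N : ℝ) + 1)⁻¹) atTop (𝓝 0) := by
  simpa [one_div] using (tendsto_one_div_add_atTop_nhds_zero_nat (𝕜 := ℝ))

/-- **strong convergence** -/
theorem tendsto_FN (s : ℕ) (f : SPer d) :
    Tendsto (fun N => nrm s (FN N f - f)) atTop (𝓝 0) := by
  have h : Tendsto (fun N : ℕ => ((N : ℝ) + 1)⁻¹ * nrm (s + 1) f) atTop (𝓝 0) := by
    simpa using tendsto_invN.mul_const (nrm (s + 1) f)
  exact squeeze_zero (fun N => nrm_nonneg _ _) (fun N => nrm_FN_sub_le s N f) h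

/-- **smoothing** for fixed `N` -/
theorem nrm_FN_smooth (s N : ℕ) (f : SPer d) :
    nrm s (FN N f) ≤ (2 * ((N : ℝ) + 1)) ^ s * nrm 0 f := by
  refine nrm_le_of_coeff (pow_nonneg (by linarith [N_pos N]) _) fun k => ?_
  rw [fc_FN, norm_mul, norm_real, Real.norm_of_nonneg (mN_nonneg N k), pow_zero, one_mul, mul_pow]
  by_cases h : 2 * ((N : ℝ) + 1) ≤ br k
  · rw [mN_eq_zero h]
    simp only [ne_eq, OfNat.ofNat_ne_zero, not_false_eq_true, zero_pow, zero_mul, mul_zero]
    positivity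
  · push Not at h
    have h1 : wt k ^ s ≤ ((2 * ((N : ℝ) + 1)) ^ s) ^ 2 := by
      rw [← br_sq, ← pow_mul, mul_comm 2 s, pow_mul]
      exact pow_le_pow_left₀ (pow_nonneg (br_pos k).le _)
        (pow_le_pow_left₀ (br_pos k).le h.le s) 2
    refine mul_le_mul h1 ?_ (by positivity) (by positivity)
    exact mul_le_of_le_one_left (sq_nonneg _) (pow_le_one₀ (mN_nonneg N k) (mN_le_one N k))

/-- the finite set of frequencies of `F_N` -/
def SN (N : ℕ) : Finset (d → ℤ) := (finite_wt_le ((2 * ((N : ℝ) + 1)) ^ 2)).toFinset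

theorem mem_SN {N : ℕ} {k : d → ℤ} (h : mN N k ≠ 0) : k ∈ SN N := by
  rw [SN, Set.Finite.mem_toFinset]
  have h1 : br k < 2 * ((N : ℝ) + 1) := by
    by_contra h'
    exact h (mN_eq_zero (not_lt.1 h'))
  show wt k ≤ _
  rw [← br_sq]
  exact pow_le_pow_left₀ (br_pos k).le h1.le 2

/-- **finite rank** -/
theorem FN_eq_sum (N : ℕ) (f : SPer d) :
    FN N f = ∑ k ∈ SN N, ((mN N k : ℂ) * fc f k) • chS k := by
  classical
  refine fc_inj fun j => ?_
  rw [fc_sum]
  simp_rw [fc_smul, fc_chS]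
  simp only [mul_ite, mul_one, mul_zero]
  rw [Finset.sum_ite_eq, fc_FN]
  split_ifs with h
  · rfl
  · have : mN N j = 0 := by
      by_contra h'
      exact h (mem_SN h')
    rw [this]; simp

/-- **symmetry** -/
theorem ip_FN (N : ℕ) (f g : SPer d) : ip (FN N f) g = ip f (FN N g) := by
  unfold FN
  rw [ip_mult]
  congr 1
  exact mult_congr _ _ (funext fun k => by rw [mN_neg]) g

theorem pd_FN (N : ℕ) (j : d) (f : SPer d) : pd j (FN N f) = FN N (pd j f) :=
  pd_mult j _ _ f

/-! ### convolution -/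

theorem hasSum_fc_mul (c f : SPer d) (k : d → ℤ) :
    HasSum (fun p => fc c p * fc f (k - p)) (fc (c * f) k) := by
  have hb : ∀ p, ‖fc c p * fc f (k - p)‖ ≤ ‖fc c p‖ * ‖desc f‖ := fun p => by
    rw [norm_mul]
    exact mul_le_mul_of_nonneg_left (norm_fc_le _ _) (norm_nonneg _)
  have hs0 : Summable fun p => ‖fc c p‖ := by
    simpa using summable_fc c 0
  have hs : Summable fun p => fc c p * fc f (k - p) :=
    Summable.of_norm_bounded (hs0.mul_right _) hb
  have h1 : fc (c * f) k = ∑' p, fc c p * fc f (k - p) := by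
    rw [fc_eq_integral _ _ 0]
    have h2 : ∀ x : d → ℝ, ch (-k) x * (c * f) x = ∑' p, fc c p * (ch (-(k - p)) x * f x) := by
      intro x
      rw [SPer.mul_apply, ← (hasSum_ch c x).tsum_eq, ← tsum_mul_right, ← tsum_mul_left]
      refine tsum_congr fun p => ?_
      rw [show -(k - p) = -k + p by abel]
      have h3 : ch (-k + p) x = ch (-k) x * ch p x := by
        unfold ch
        rw [← Complex.exp_add]
        congr 1
        rw [← mul_add, ← Finset.sum_add_distrib]
        congr 1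
        refine Finset.sum_congr rfl fun i _ => ?_
        simp only [Pi.add_apply, Int.cast_add]
        ring
      rw [h3]
      ring
    simp_rw [h2]
    rw [← integral_tsum_of_summable_integral_norm]
    · refine tsum_congr fun p => ?_
      rw [integral_const_mul, ← fc_eq_integral]
    · intro p
      exact (integrable_mul_ch f _ 0).const_mul _
    · refine Summable.of_nonneg_of_le (fun p => integral_nonneg fun x => norm_nonneg _)
        (fun p => ?_) (hs0.mul_right ‖desc f‖)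
      have h4 : ∀ x : d → ℝ, ‖fc c p * (ch (-(k - p)) x * f x)‖ ≤ ‖fc c p‖ * ‖desc f‖ := fun x => by
        rw [norm_mul, norm_mul, norm_ch, one_mul]
        exact mul_le_mul_of_nonneg_left (bdd f x) (norm_nonneg _)
      refine (integral_mono_of_nonneg (Eventually.of_forall fun x => norm_nonneg _)
        (integrable_const _) (Eventually.of_forall h4)).trans (le_of_eq ?_)
      simp [measureReal_def, volume_box]
  rw [h1]
  exact hs.hasSum

/-- **Schur/Young estimate** -/
theorem nrm_zero_le_of_conv {g f : SPer d} {a : (d → ℤ) → ℝ} {w : (d → ℤ) → (d → ℤ) → ℂ}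
    (hsum : Summable a) (ha : ∀ p, 0 ≤ a p) (hw : ∀ p k, ‖w p k‖ ≤ a p)
    (h : ∀ k, HasSum (fun p => w p k * fc f (k - p)) (fc g k)) :
    nrm 0 g ≤ (∑' p, a p) * nrm 0 f := by
  have hf := hasSum_nrm_sq 0 f
  simp only [pow_zero, one_mul] at hf
  have hfs : ∀ p, HasSum (fun k => ‖fc f (k - p)‖ ^ 2) (nrm 0 f ^ 2) := fun p =>
    (Equiv.subRight p).hasSum_iff.2 hf
  have hmem : ∀ p, Memℓp (fun k => w p k * fc f (k - p)) 2 := by
    intro p
    rw [memℓp_gen_iff (by norm_num)]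
    simp only [ENNReal.toReal_ofNat, Real.rpow_ofNat]
    refine Summable.of_nonneg_of_le (fun k => by positivity) (fun k => ?_)
      ((hfs p).summable.mul_left (a p ^ 2))
    rw [norm_mul, mul_pow]
    exact mul_le_mul_of_nonneg_right (pow_le_pow_left₀ (norm_nonneg _) (hw p k) 2) (sq_nonneg _)
  let v : (d → ℤ) → L2Z d := fun p => ⟨fun k => w p k * fc f (k - p), hmem p⟩
  have hv : ∀ p, ‖v p‖ ≤ a p * nrm 0 f := by
    intro p
    have h1 := lp.hasSum_norm (p := 2) (by norm_num) (v p)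
    simp only [ENNReal.toReal_ofNat, Real.rpow_ofNat] at h1
    have h2 : ‖v p‖ ^ 2 ≤ a p ^ 2 * nrm 0 f ^ 2 := by
      refine hasSum_le (fun k => ?_) h1 ((hfs p).mul_left (a p ^ 2))
      show ‖w p k * fc f (k - p)‖ ^ 2 ≤ _
      rw [norm_mul, mul_pow]
      exact mul_le_mul_of_nonneg_right (pow_le_pow_left₀ (norm_nonneg _) (hw p k) 2) (sq_nonneg _)
    rw [← mul_pow] at h2
    exact (pow_le_pow_iff_left₀ (norm_nonneg _) (mul_nonneg (ha p) (nrm_nonneg _ _))
      two_ne_zero).1 h2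
  have hsv : Summable fun p => ‖v p‖ :=
    Summable.of_nonneg_of_le (fun p => norm_nonneg _) hv (hsum.mul_right _)
  have hS : HasSum v (∑' p, v p) := (Summable.of_norm hsv).hasSum
  have he : emb 0 g = ∑' p, v p := by
    ext k
    have h1 := (lp.evalCLM ℂ (fun _ : d → ℤ => ℂ) 2 k).hasSum hS
    have h2 : HasSum (fun p => w p k * fc f (k - p)) ((∑' p, v p : L2Z d) k) := h1
    rw [emb_apply, pow_zero, ofReal_one, one_mul]
    exact (h k).unique h2
  unfold nrm
  rw [he]
  calc ‖∑' p, v p‖ ≤ ∑' p, ‖v p‖ := norm_tsum_le_tsum_norm hsv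
    _ ≤ ∑' p, a p * nrm 0 f := hsv.tsum_le_tsum hv (hsum.mul_right _)
    _ = (∑' p, a p) * nrm 0 f := tsum_mul_right

/-! ### commutators -/

/-- the constant in the commutator estimate -/
def cC (c : SPer d) : ℝ := ∑' p, 8 * π * (br p * ‖fc c p‖)

theorem summable_cC (c : SPer d) : Summable fun p => 8 * π * (br p * ‖fc c p‖) := by
  refine Summable.mul_left _ ?_
  refine Summable.of_nonneg_of_le (fun p => mul_nonneg (br_pos p).le (norm_nonneg _))
    (fun p => ?_) (summable_fc c 1)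
  rw [pow_one]
  exact mul_le_mul_of_nonneg_right (br_le_wt p) (norm_nonneg _)

theorem cC_nonneg (c : SPer d) : 0 ≤ cC c :=
  tsum_nonneg fun p => mul_nonneg (by positivity) (mul_nonneg (br_pos p).le (norm_nonneg _))

/-- **commutator estimate**, uniform in `N` -/
theorem comm_FN_le (N : ℕ) (c : SPer d) (j : d) (f : SPer d) :
    nrm 0 (c * pd j (FN N f) - FN N (c * pd j f)) ≤ cC c * nrm 0 f := by
  refine nrm_zero_le_of_conv (a := fun p => 8 * π * (br p * ‖fc c p‖))
    (w := fun p k => fc c p * (2 * π * I * ((k - p) j : ℂ)) * ((mN N (k - p) - mN N k : ℝ) : ℂ))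
    (summable_cC c) (fun p => mul_nonneg (by positivity) (mul_nonneg (br_pos p).le (norm_nonneg _)))
    (fun p k => ?_) (fun k => ?_)
  · rw [norm_mul, norm_mul, norm_real, Real.norm_eq_abs]
    have h1 := key_mN N k (k - p)
    rw [sub_sub_cancel] at h1
    have h2 : ‖(2 * π * I * (((k - p) j : ℤ) : ℂ) : ℂ)‖ ≤ 2 * π * br (k - p) := by
      have : ‖(2 * π * I * (((k - p) j : ℤ) : ℂ) : ℂ)‖ = 2 * π * |(((k - p) j : ℤ) : ℝ)| := by
        rw [norm_mul, norm_mul, norm_mul, Complex.norm_I, mul_one, Complex.norm_intCast,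
          Complex.norm_real, Real.norm_of_nonneg Real.pi_pos.le]
        simp
      rw [this]
      exact mul_le_mul_of_nonneg_left (abs_le_br _ _) (by positivity)
    calc ‖fc c p‖ * ‖(2 * π * I * (((k - p) j : ℤ) : ℂ) : ℂ)‖ * |mN N (k - p) - mN N k|
        ≤ ‖fc c p‖ * (2 * π * br (k - p)) * |mN N (k - p) - mN N k| := by
          refine mul_le_mul_of_nonneg_right (mul_le_mul_of_nonneg_left h2 (norm_nonneg _))
            (abs_nonneg _)
      _ = ‖fc c p‖ * (2 * π) * (|mN N (k - p) - mN N k| * br (k - p)) := by ring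
      _ ≤ ‖fc c p‖ * (2 * π) * (4 * br p) :=
          mul_le_mul_of_nonneg_left h1 (mul_nonneg (norm_nonneg _) (by positivity))
      _ = 8 * π * (br p * ‖fc c p‖) := by ring
  · have h1 := hasSum_fc_mul c (pd j (FN N f)) k
    have h2 := (hasSum_fc_mul c (pd j f) k).mul_left ((mN N k : ℝ) : ℂ)
    have h3 := h1.sub h2
    rw [fc_sub, fc_FN]
    refine (funext fun p => ?_ : (fun p => fc c p * (2 * π * I * ((k - p) j : ℂ)) *
      ((mN N (k - p) - mN N k : ℝ) : ℂ) * fc f (k - p)) = fun p =>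
      fc c p * fc (pd j (FN N f)) (k - p) - ((mN N k : ℝ) : ℂ) * (fc c p * fc (pd j f) (k - p))) ▸ h3
    rw [fc_pd, fc_pd, fc_FN]
    push_cast
    ring

/-- multiplication followed by mollification -/
theorem tendsto_mul_FN (s : ℕ) (c f : SPer d) :
    Tendsto (fun N => nrm s (c * FN N f - c * f)) atTop (𝓝 0) := by
  obtain ⟨C, hC, h⟩ := nrm_mul_le s c
  have h1 : Tendsto (fun N => C * nrm s (FN N f - f)) atTop (𝓝 0) := by
    simpa using (tendsto_FN s f).const_mul C
  refine squeeze_zero (fun N => nrm_nonneg _ _) (fun N => ?_) h1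
  rw [← mul_sub]
  exact h _

/-- **the commutators tend to zero** -/
theorem tendsto_comm_FN (s : ℕ) (c : SPer d) (j : d) (f : SPer d) :
    Tendsto (fun N => nrm s (c * pd j (FN N f) - FN N (c * pd j f))) atTop (𝓝 0) := by
  have h1 := tendsto_mul_FN s c (pd j f)
  have h2 := tendsto_FN s (c * pd j f)
  have h3 : Tendsto (fun N => nrm s (c * FN N (pd j f) - c * pd j f) +
      nrm s (FN N (c * pd j f) - c * pd j f)) atTop (𝓝 0) := by
    simpa using h1.add h2
  refine squeeze_zero (fun N => nrm_nonneg _ _) (fun N => ?_) h3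
  have : c * pd j (FN N f) - FN N (c * pd j f) =
      (c * FN N (pd j f) - c * pd j f) - (FN N (c * pd j f) - c * pd j f) := by
    rw [pd_FN]; abel
  rw [this]
  exact nrm_sub_le _ _ _

/-- zero order commutators -/
theorem comm0_FN_le (N : ℕ) (c f : SPer d) :
    nrm 0 (c * FN N f - FN N (c * f)) ≤ 2 * ‖desc c‖ * nrm 0 f := by
  refine (nrm_sub_le _ _ _).trans ?_
  have h1 := (nrm_zero_mul_le c (FN N f)).trans
    (mul_le_mul_of_nonneg_left (nrm_FN_le 0 N f) (norm_nonneg _))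
  have h2 := (nrm_FN_le 0 N (c * f)).trans (nrm_zero_mul_le c f)
  linarith

end

end Crest.Agent.R273.TorM_106
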