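import Crest.Agent.R275.RetH_666
import Crest.Agent.R273.L2K_774
import Crest.Agent.R273.TorM_106

/-!
# R273, leaf D.10 (helper106), part 1: first order operators on sections

* `pdM A i p f x` : derivative of `f : M → W` in the real coordinate `p` of the chart `i`;
* `pAmp A j p a`  : derivative of an amplitude;
* `FOp B B'`      : first order differential operators `Sec B →ₗ Sec B'` with smooth coefficients;
* `FOp.T_ext`, `FOp.loc_T` : commutation with `ext` and `loc`;
* `FOp.nS_le`     : `‖T u‖_s ≤ C ‖u‖_{s+1}`.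
-/

set_option autoImplicit false
set_option linter.unusedSectionVars false
set_option linter.unusedSimpArgs false
set_option linter.unusedVariables false

open Set Filter Topology Complex
open scoped ContDiff Matrix ComplexConjugate

namespace Crest.Agent.R273.Mol_106

open Crest.Agent.R275 Crest.Agent.R275.Geo Crest.Agent.R275.Tor812 Crest.Agent.R275.TorS666
  Crest.Agent.R275.C1d194 Crest.Agent.R275.C2812 Crest.Agent.R275.RetC666
  Crest.Agent.R273.L2K_774 Crest.Agent.R273.TorM_106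

noncomputable section

variable {n : ℕ} {M : Type} [TopologicalSpace M] {A : Atl n M}

/-! ### coordinate derivatives -/

/-- derivative in the real coordinate direction `p` of the chart `i` -/
def pdM (A : Atl n M) {W : Type*} [NormedAddCommGroup W] [NormedSpace ℝ W] (i : A.ι) (p : RI n)
    (f : M → W) (x : M) : W :=
  fderiv ℝ (fun z => f ((A.e i).symm z)) (A.e i x) (cc (ev p))

section pdM

variable {W : Type*} [NormedAddCommGroup W] [NormedSpace ℝ W]

theorem pdM_congr {i : A.ι} {f g : M → W} {x : M} (hx : x ∈ (A.e i).source) (h : f =ᶠ[𝓝 x] g)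
    (p : RI n) : pdM A i p f x = pdM A i p g x := by
  unfold pdM
  have h1 : Tendsto (A.e i).symm (𝓝 (A.e i x)) (𝓝 x) := by
    have := (A.e i).symm.continuousAt (x := A.e i x) ((A.e i).map_source hx)
    rwa [ContinuousAt, (A.e i).left_inv hx] at this
  have h2 : (fun z => f ((A.e i).symm z)) =ᶠ[𝓝 (A.e i x)] fun z => g ((A.e i).symm z) :=
    h1.eventually h
  rw [h2.fderiv_eq]

theorem pdM_const (i : A.ι) (p : RI n) (c : W) (x : M) : pdM A i p (fun _ => c) x = 0 := by
  unfold pdM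
  simp

theorem pdM_symm {i : A.ι} {z : Cn n} (hz : z ∈ (A.e i).target) (p : RI n) (f : M → W) :
    pdM A i p f ((A.e i).symm z) = fderiv ℝ (fun w => f ((A.e i).symm w)) z (cc (ev p)) := by
  unfold pdM
  rw [(A.e i).right_inv hz]

theorem SmAt.pdM {i : A.ι} {f : M → W} (hf : A.SmAt i f) (p : RI n) : A.SmAt i (pdM A i p f) := by
  have h1 : ContDiffOn ℝ ∞ (fderiv ℝ (fun z => f ((A.e i).symm z))) (A.e i).target :=
    hf.fderiv_of_isOpen (A.e i).open_target (by simp)
  refine (h1.clm_apply (contDiffOn_const (c := cc (ev p)))).congr fun z hz => ?_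
  exact pdM_symm hz p f

theorem pdM_pi {κ : Type} [Fintype κ] {i : A.ι} {f : M → κ → ℂ}
    (hf : ∀ k, A.SmAt i (fun x => f x k)) {x : M} (hx : x ∈ (A.e i).source) (p : RI n) (k : κ) :
    pdM A i p f x k = pdM A i p (fun y => f y k) x := by
  have hd : DifferentiableAt ℝ (fun z => f ((A.e i).symm z)) (A.e i x) :=
    (Atl.SmAt.pi hf).diffAt hx
  have h : fderiv ℝ (fun z => f ((A.e i).symm z) k) (A.e i x) =
      (ContinuousLinearMap.proj k : (κ → ℂ) →L[ℝ] ℂ).comp
        (fderiv ℝ (fun z => f ((A.e i).symm z)) (A.e i x)) :=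
    ((ContinuousLinearMap.proj k : (κ → ℂ) →L[ℝ] ℂ).hasFDerivAt.comp _ hd.hasFDerivAt).fderiv
  show fderiv ℝ (fun z => f ((A.e i).symm z)) (A.e i x) (cc (ev p)) k =
    fderiv ℝ (fun z => f ((A.e i).symm z) k) (A.e i x) (cc (ev p))
  rw [h]
  rfl

theorem pdM_mul {i : A.ι} {f g : M → ℂ} {x : M}
    (hf : DifferentiableAt ℝ (fun z => f ((A.e i).symm z)) (A.e i x))
    (hg : DifferentiableAt ℝ (fun z => g ((A.e i).symm z)) (A.e i x))
    (hx : x ∈ (A.e i).source) (p : RI n) :
    pdM A i p (fun y => f y * g y) x = pdM A i p f x * g x + f x * pdM A i p g x := by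
  unfold pdM
  have h : fderiv ℝ (fun z => f ((A.e i).symm z) * g ((A.e i).symm z)) (A.e i x) =
      f ((A.e i).symm (A.e i x)) • fderiv ℝ (fun z => g ((A.e i).symm z)) (A.e i x) +
      g ((A.e i).symm (A.e i x)) • fderiv ℝ (fun z => f ((A.e i).symm z)) (A.e i x) :=
    fderiv_mul hf hg
  rw [h, (A.e i).left_inv hx]
  simp only [_root_.add_apply, _root_.smul_apply, smul_eq_mul]
  ring

theorem pdM_add {i : A.ι} {f g : M → ℂ} {x : M}
    (hf : DifferentiableAt ℝ (fun z => f ((A.e i).symm z)) (A.e i x))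
    (hg : DifferentiableAt ℝ (fun z => g ((A.e i).symm z)) (A.e i x)) (p : RI n) :
    pdM A i p (fun y => f y + g y) x = pdM A i p f x + pdM A i p g x := by
  unfold pdM
  have h : fderiv ℝ (fun z => f ((A.e i).symm z) + g ((A.e i).symm z)) (A.e i x) =
      fderiv ℝ (fun z => f ((A.e i).symm z)) (A.e i x) +
      fderiv ℝ (fun z => g ((A.e i).symm z)) (A.e i x) := fderiv_add hf hg
  rw [h]
  rfl

theorem pdM_sum {i : A.ι} {σ : Type*} (s : Finset σ) {f : σ → M → ℂ} {x : M}
    (hf : ∀ t ∈ s, DifferentiableAt ℝ (fun z => f t ((A.e i).symm z)) (A.e i x)) (p : RI n) :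
    pdM A i p (fun y => ∑ t ∈ s, f t y) x = ∑ t ∈ s, pdM A i p (f t) x := by
  unfold pdM
  rw [fderiv_fun_sum hf, _root_.sum_apply]

/-- product rule -/
theorem pdM_mulVec {i : A.ι} {κ κ' : Type} [Fintype κ] [Fintype κ'] {m : M → Matrix κ κ' ℂ}
    {v : M → κ' → ℂ} {x : M} (hm : ∀ k l, A.SmAt i (fun x => m x k l))
    (hv : ∀ l, A.SmAt i (fun x => v x l)) (hx : x ∈ (A.e i).source) (p : RI n) :
    pdM A i p (fun y => m y *ᵥ v y) x =
      Matrix.of (fun k l => pdM A i p (fun y => m y k l) x) *ᵥ v x + m x *ᵥ pdM A i p v x := by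
  funext k
  have h0 : ∀ k, A.SmAt i (fun x => (m x *ᵥ v x) k) := fun k =>
    ContDiffOn.sum fun l _ => (hm k l).mul (hv l)
  rw [pdM_pi h0 hx]
  have h1 : pdM A i p (fun y => (m y *ᵥ v y) k) x = ∑ l, pdM A i p (fun y => m y k l * v y l) x :=
    pdM_sum Finset.univ (fun l _ => ((hm k l).diffAt hx).mul ((hv l).diffAt hx)) p
  rw [h1]
  simp only [Pi.add_apply, Matrix.mulVec, dotProduct, Matrix.of_apply]
  rw [← Finset.sum_add_distrib]
  refine Finset.sum_congr rfl fun l _ => ?_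
  rw [pdM_mul ((hm k l).diffAt hx) ((hv l).diffAt hx) hx, pdM_pi hv hx]

/-- derivative of a function with compact support in the chart -/
theorem IsCF.pdM {i : A.ι} {f : M → ℂ} (hf : IsCF A i f) (p : RI n) :
    IsCF A i (pdM A i p f) := by
  obtain ⟨K, hK, hKs, h0⟩ := hf.supp
  refine ⟨SmAt.pdM hf.sm p, K, hK, hKs, fun x hx hxK => ?_⟩
  have hc : IsClosed (A.e i '' K) :=
    (hK.image_of_continuousOn ((A.e i).continuousOn.mono hKs)).isClosed
  have hx1 : A.e i x ∉ A.e i '' K := by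
    rintro ⟨y, hy, hxy⟩
    have := (A.e i).injOn (hKs hy) hx hxy
    exact hxK (this ▸ hy)
  have hev : (fun z => f ((A.e i).symm z)) =ᶠ[𝓝 (A.e i x)] fun _ => 0 := by
    filter_upwards [hc.isOpen_compl.mem_nhds hx1,
      (A.e i).open_target.mem_nhds ((A.e i).map_source hx)] with z hz hz'
    refine h0 _ ((A.e i).map_target hz') fun hK' => hz ⟨_, hK', (A.e i).right_inv hz'⟩
  unfold Mol_106.pdM
  rw [hev.fderiv_eq]
  simp

/-- derivatives commute with reading in a chart -/
theorem pd_pz {i : A.ι} {f : M → ℂ} (h : IsCF A i f) (p : RI n) :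
    pd p (pz h) = pz (IsCF.pdM h p) := by
  refine SPer.ext fun x => ?_
  have e0 : pd p (pz h) x = fderiv ℝ (rd A i f) (fr x) (ev p) := by
    rw [pz, pd_perz, perz_apply]
  rw [e0]
  set y := fr x with hy
  by_cases hx : y ∈ A.cu i
  · have h1 : rd A i f =ᶠ[𝓝 y] fun w => (fun z => f ((A.e i).symm z)) (ccL n w) := by
      filter_upwards [(A.isOpen_cu i).mem_nhds hx] with w hw
      exact Geo.rd_of_mem hw
    have hd : DifferentiableAt ℝ (fun z => f ((A.e i).symm z)) (ccL n y) :=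
      (h.sm.contDiffAt ((A.e i).open_target.mem_nhds hx)).differentiableAt (by simp)
    have h2 : fderiv ℝ (fun w => (fun z => f ((A.e i).symm z)) (ccL n w)) y =
        (fderiv ℝ (fun z => f ((A.e i).symm z)) (ccL n y)).comp (ccL n) :=
      (hd.hasFDerivAt.comp y (ccL n).hasFDerivAt).fderiv
    rw [h1.fderiv_eq, h2, pz_apply_mem _ (by rw [← hy]; exact hx), ← hy, pdM_symm hx]
    rfl
  · obtain ⟨K, hK, hKs, h0⟩ := h.supp
    obtain ⟨k1, k2, k3⟩ := rd_supp hK hKs h0
    have h5 : rd A i f =ᶠ[𝓝 y] fun _ => 0 := by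
      filter_upwards [k1.isClosed.isOpen_compl.mem_nhds fun hx' => hx (k2 hx')] with w hw
      exact k3 w hw
    rw [h5.fderiv_eq, pz_apply_notMem _ (by rw [← hy]; exact hx)]
    simp

theorem pdM_per {j : A.ι} (F : SPer (RI n)) (p : RI n) {x : M} (hx : x ∈ (A.e j).source) :
    pdM A j p (fun y => F (rc (A.e j y))) x = pd p F (rc (A.e j x)) := by
  unfold pdM
  have h1 : (fun z => F (rc (A.e j ((A.e j).symm z)))) =ᶠ[𝓝 (A.e j x)]
      fun z => F (Geo.rcL n z) := by
    filter_upwards [(A.e j).open_target.mem_nhds ((A.e j).map_source hx)] with z hz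
    rw [(A.e j).right_inv hz]
    rfl
  rw [h1.fderiv_eq]
  have h2 : fderiv ℝ (fun w : Cn n => F (Geo.rcL n w)) (A.e j x) =
      (fderiv ℝ F (Geo.rcL n (A.e j x))).comp (Geo.rcL n) :=
    ((sm_diff F (Geo.rcL n (A.e j x))).hasFDerivAt.comp _ (Geo.rcL n).hasFDerivAt).fderiv
  rw [h2, pd_apply, ContinuousLinearMap.comp_apply, Geo.rcL_apply, Geo.rcL_apply, rc_cc]

/-- `∂/∂z̄_a` in terms of the real derivatives -/
theorem db_eq_pdM {κ : Type} [Fintype κ] (i : A.ι) (a : Fin n) (f : M → κ → ℂ) (x : M) :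
    A.db i a f x = (1 / 2 : ℂ) • (pdM A i (a, 0) f x + I • pdM A i (a, 1) f x) := by
  unfold Atl.db dbj pdM
  rw [cc_ev0, cc_ev1]

end pdM

/-! ### derivative of an amplitude -/

open Classical in
/-- derivative of an amplitude in the real direction `p` -/
def pAmp (A : Atl n M) (j : A.ι) (p : RI n) {κ κ' : Type} (a : M → Matrix κ κ' ℂ) (x : M) :
    Matrix κ κ' ℂ :=
  if x ∈ tsupport a then Matrix.of (fun k l => pdM A j p (fun y => a y k l) x) else 0

section pAmp

variable {κ κ' : Type} {j : A.ι} {a : M → Matrix κ κ' ℂ}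

theorem pAmp_eq {p : RI n} {x : M} (hx : x ∈ (A.e j).source) :
    pAmp A j p a x = Matrix.of (fun k l => pdM A j p (fun y => a y k l) x) := by
  unfold pAmp
  split_ifs with h
  · rfl
  · ext k l
    symm
    show pdM A j p (fun y => a y k l) x = 0
    have hev : (fun y => a y k l) =ᶠ[𝓝 x] fun _ => 0 := by
      filter_upwards [(isClosed_tsupport a).isOpen_compl.mem_nhds h] with y hy
      rw [amp_zero hy]
      rfl
    rw [pdM_congr hx hev, pdM_const]

theorem isAmp_pAmp (ha : IsAmp A j a) (p : RI n) : IsAmp A j (pAmp A j p a) := by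
  refine isAmp_of (fun k l => ?_) ha.cpt (isClosed_tsupport a) ha.sub fun x hx => ?_
  · refine ContDiffOn.congr (SmAt.pdM (ha.sm k l) p) fun z hz => ?_
    have hz' := (A.e j).map_target hz
    show pAmp A j p a ((A.e j).symm z) k l = _
    rw [pAmp_eq hz']
    rfl
  · unfold pAmp
    rw [if_neg hx]

end pAmp

/-! ### first order operators -/

/-- a first order differential operator with smooth coefficients -/
structure FOp (B B' : FBun A) where
  a : A.ι → RI n → M → Matrix B'.κ B.κ ℂ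
  b : A.ι → M → Matrix B'.κ B.κ ℂ
  a_sm : ∀ i p k l, A.SmAt i (fun x => a i p x k l)
  b_sm : ∀ i k l, A.SmAt i (fun x => b i x k l)
  T : Sec B →ₗ[ℂ] Sec B'
  hT : ∀ (u : Sec B) (i : A.ι), ∀ x ∈ (A.e i).source,
    (T u).1 i x = (∑ p, a i p x *ᵥ pdM A i p (u.1 i) x) + b i x *ᵥ u.1 i x

namespace FOp

variable {B B' : FBun A} (T : FOp B B') {κ₁ : Type} [Fintype κ₁] {j : A.ι}

theorem amp_a (p : RI n) {b : M → Matrix B.κ κ₁ ℂ} (hb : IsAmp A j b) :
    IsAmp A j (fun x => T.a j p x * b x) := isAmp_mul_left hb (T.a_sm j p)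

theorem amp_b {b : M → Matrix B.κ κ₁ ℂ} (hb : IsAmp A j b) :
    IsAmp A j (fun x => (∑ p, T.a j p x * pAmp A j p b x) + T.b j x * b x) :=
  isAmp_add (isAmp_sum _ fun p _ => isAmp_mul_left (isAmp_pAmp hb p) (T.a_sm j p))
    (isAmp_mul_left hb (T.b_sm j))

theorem ampR_a (p : RI n) {m : M → Matrix κ₁ B'.κ ℂ} (hm : IsAmp A j m) :
    IsAmp A j (fun x => m x * T.a j p x) := isAmp_mul_right hm (T.a_sm j p)

theorem ampR_b {m : M → Matrix κ₁ B'.κ ℂ} (hm : IsAmp A j m) :
    IsAmp A j (fun x => m x * T.b j x - ∑ p, pAmp A j p (fun y => m y * T.a j p y) x) :=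
  isAmp_sub (isAmp_mul_right hm (T.b_sm j)) (isAmp_sum _ fun p _ => isAmp_pAmp (T.ampR_a p hm) p)

theorem sum_mulVec' {σ κ κ' : Type} [Fintype κ'] (s : Finset σ) (m : σ → Matrix κ κ' ℂ)
    (v : κ' → ℂ) : (∑ t ∈ s, m t) *ᵥ v = ∑ t ∈ s, m t *ᵥ v := Matrix.sum_mulVec _ _ _

/-- `T ∘ ext` -/
theorem T_ext {b : M → Matrix B.κ κ₁ ℂ} (hb : IsAmp A j b) (f : κ₁ → SPer (RI n)) :
    T.T (extS B j hb f) = (∑ p, extS B' j (T.amp_a p hb) (fun l => pd p (f l))) +
      extS B' j (T.amp_b hb) f := by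
  apply Subtype.ext
  refine Sec.ext_of B' (T.T _).2 (Submodule.coe_mem _) fun x => ?_
  have hsum : ∀ i, ((∑ p, extS B' j (T.amp_a p hb) (fun l => pd p (f l))) +
      extS B' j (T.amp_b hb) f).1 i x = (∑ p, ext B' j (fun x => T.a j p x * b x)
        (fun l => pd p (f l)) i x) + ext B' j (fun x => (∑ p, T.a j p x * pAmp A j p b x) +
          T.b j x * b x) f i x := by
    intro i
    rw [Submodule.coe_add, Submodule.coe_sum, Pi.add_apply, Pi.add_apply, Finset.sum_apply,
      Finset.sum_apply]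
    rfl
  by_cases hx : x ∈ (A.e j).source
  · refine ⟨j, hx, ?_⟩
    rw [T.hT _ j x hx, hsum]
    have hv : ∀ l, A.SmAt j (fun y => (fun l => f l (rc (A.e j y))) l) := fun l => smAt_per j (f l)
    have hev : (extS B j hb f).1 j =ᶠ[𝓝 x] fun y => b y *ᵥ fun l => f l (rc (A.e j y)) := by
      filter_upwards [(A.e j).open_source.mem_nhds hx] with y hy
      exact ext_self B j hy b f
    have h1 : ∀ p, pdM A j p ((extS B j hb f).1 j) x =
        pAmp A j p b x *ᵥ (fun l => f l (rc (A.e j x)))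
          + b x *ᵥ fun l => pd p (f l) (rc (A.e j x)) := by
      intro p
      rw [pdM_congr hx hev, pdM_mulVec hb.sm hv hx, pAmp_eq hx]
      congr 2
      funext l
      rw [pdM_pi (f := fun y => fun l => f l (rc (A.e j y))) hv hx]
      exact pdM_per (f l) p hx
    have h2 : (extS B j hb f).1 j x = b x *ᵥ fun l => f l (rc (A.e j x)) := ext_self B j hx b f
    rw [h2, ext_self B' j hx]
    simp only [h1, ext_self B' j hx, Matrix.mulVec_add, Matrix.mulVec_mulVec,
      Finset.sum_add_distrib, Matrix.add_mulVec, Matrix.sum_mulVec]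
    abel
  · obtain ⟨i, hi⟩ := A.cover x
    refine ⟨i, hi, ?_⟩
    rw [T.hT _ i x hi, hsum]
    have hev : (extS B j hb f).1 i =ᶠ[𝓝 x] fun _ => 0 := by
      filter_upwards [(isClosed_tsupport b).isOpen_compl.mem_nhds fun h => hx (hb.sub h)] with y hy
      exact ext_zero_off B j hy f
    have h1 : ∀ p, pdM A i p ((extS B j hb f).1 i) x = 0 := fun p => by
      rw [pdM_congr hi hev, pdM_const]
    have h2 : (extS B j hb f).1 i x = 0 := hev.self_of_nhds
    simp only [h1, h2, ext_off' B' j hx, Matrix.mulVec_zero, Finset.sum_const_zero, add_zero]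

/-- `loc ∘ T` -/
theorem loc_T {m : M → Matrix κ₁ B'.κ ℂ} (hm : IsAmp A j m) (u : Sec B) (k : κ₁) :
    loc A j m ((T.T u).1 j) k =
      (∑ p, pd p (loc A j (fun x => m x * T.a j p x) (u.1 j) k)) +
      loc A j (fun x => m x * T.b j x - ∑ p, pAmp A j p (fun y => m y * T.a j p y) x) (u.1 j) k := by
  have hs : ∀ l, A.SmAt j (fun x => u.1 j x l) := u.2.1 j
  have hns : ∀ l, A.SmAt j (fun x => (T.T u).1 j x l) := (T.T u).2.1 j
  have hd := T.ampR_b hm
  refine SPer_ext_chart j (fun x hx => ?_) fun x hx => ?_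
  · rw [SPer.add_apply, sper_sum_apply, Geo.loc_notMem hm hns k hx, Geo.loc_notMem hd hs k hx,
      add_zero]
    symm
    refine Finset.sum_eq_zero fun p _ => ?_
    rw [Geo.loc_eq ((T.ampR_a p hm).cf hs k), pd_pz, pz_apply_notMem _ hx]
  · rw [SPer.add_apply, sper_sum_apply, loc_rc hm hns k hx, loc_rc hd hs k hx, T.hT u j x hx]
    have h1 : ∀ p, pd p (loc A j (fun x => m x * T.a j p x) (u.1 j) k) (rc (A.e j x)) =
        (pAmp A j p (fun y => m y * T.a j p y) x *ᵥ u.1 j x +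
          (m x * T.a j p x) *ᵥ pdM A j p (u.1 j) x) k := by
      intro p
      rw [Geo.loc_eq ((T.ampR_a p hm).cf hs k), pd_pz, pz_rc _ hx]
      have h2 := pdM_mulVec (T.ampR_a p hm).sm hs hx p
      rw [pAmp_eq hx, ← h2, pdM_pi (fun k => ((T.ampR_a p hm).cf hs k).sm) hx]
    simp only [h1, Matrix.mulVec_add, Matrix.mulVec_sum, Matrix.mulVec_mulVec, Matrix.sub_mulVec,
      Matrix.sum_mulVec, Pi.add_apply, Pi.sub_apply, Finset.sum_apply, Finset.sum_add_distrib]
    ring

end FOp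

end

end Crest.Agent.R273.Mol_106
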