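import Crest.Agent.R273.PB_835
import Crest.Agent.R275.C1a_509

/-!
# R273 (S0416), (helper155): pull-back of Dolbeault bundles under holomorphic maps

`HolOn A B U p`: `p : M → N` is holomorphic on the open set `U` (dimensions may differ);
`SecOn B U`    : smooth sections over the open set `U` (zero off `U`); `SecOn B univ = Sec B`;
`mulC χ u`     : `χ u`, a global section if `tsupport χ ⊆ U`; `nab_mulC` : Leibniz rule;
`FPB U p B1 B2`: a comparison `T i j x : B2_{p x} → B1_x` of Dolbeault bundles over `U`,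
                 compatible with `∇`;
`FPB.pull`     : pull-back of smooth sections; `FPB.pull_mem`, `FPB.nab_pull`, `FPB.pull_isDeg`;
`FPB.comp`     : functoriality.
-/

set_option autoImplicit false
set_option linter.unusedSectionVars false

open Set Filter Topology Complex
open scoped ContDiff Matrix ComplexConjugate

namespace Crest.Agent.R273.FPB_155

open Crest.Agent.R275.Geo Crest.Agent.R275.Core144 Crest.Agent.R273.Map_835
open Crest.Agent.R273.PB_835

noncomputable section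

variable {n m k : ℕ} {M N P : Type} [TopologicalSpace M] [TopologicalSpace N] [TopologicalSpace P]
  {A : Atl n M} {B : Atl m N} {C : Atl k P} {p : M → N} {q : N → P} {U : Set M} {V : Set N}

/-- chain rule for `∂̄` under a holomorphic map between spaces of different dimensions -/
theorem dbj_compR {W : Type*} [NormedAddCommGroup W] [NormedSpace ℂ W] {f : Cn m → W}
    {φ : Cn n → Cn m} {z : Cn n}
    (hf : DifferentiableAt ℝ f (φ z)) (hφ : DifferentiableAt ℂ φ z) (a : Fin n) :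
    dbj a (fun w => f (φ w)) z =
      ∑ b, conj ((fderiv ℂ φ z (EuclideanSpace.single a 1)) b) • dbj b f (φ z) := by
  have hφr : HasFDerivAt φ ((fderiv ℂ φ z).restrictScalars ℝ) z :=
    hφ.hasFDerivAt.restrictScalars ℝ
  have h := hf.hasFDerivAt.comp z hφr
  have h' : fderiv ℝ (fun w => f (φ w)) z =
      (fderiv ℝ f (φ z)).comp ((fderiv ℂ φ z).restrictScalars ℝ) := h.fderiv
  have hI : (EuclideanSpace.single a I : Cn n) = I • EuclideanSpace.single a (1 : ℂ) := by
    ext c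
    simp [PiLp.single_apply]
  rw [dbj, h']
  simp only [ContinuousLinearMap.comp_apply, ContinuousLinearMap.coe_restrictScalars']
  rw [hI, map_smul]
  exact dbL_apply_vec (fderiv ℝ f (φ z)) (fderiv ℂ φ z (EuclideanSpace.single a 1))

/-! ### maps holomorphic on an open set -/

/-- the domain of `rd` inside `U` -/
def dmU (A : Atl n M) (B : Atl m N) (U : Set M) (p : M → N) (i : A.ι) (j : B.ι) : Set (Cn n) :=
  (A.e i).target ∩ (A.e i).symm ⁻¹' (U ∩ p ⁻¹' (B.e j).source)

/-- `p` is holomorphic on the open set `U` -/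
structure HolOn (A : Atl n M) (B : Atl m N) (U : Set M) (p : M → N) : Prop where
  op : IsOpen U
  cont : ContinuousOn p U
  hol : ∀ i j, DifferentiableOn ℂ (rd A B p i j) (dmU A B U p i j)

theorem HolOn.of_holMap (h : HolMap A B p) (hU : IsOpen U) : HolOn A B U p where
  op := hU
  cont := h.cont.continuousOn
  hol i j := (h.hol i j).mono fun _ hz => ⟨hz.1, hz.2.2⟩

theorem HolOn.isOpen_pre (h : HolOn A B U p) {W : Set N} (hW : IsOpen W) :
    IsOpen (U ∩ p ⁻¹' W) := h.cont.isOpen_inter_preimage h.op hW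

theorem HolOn.isOpen_dm (h : HolOn A B U p) (i : A.ι) (j : B.ι) : IsOpen (dmU A B U p i j) :=
  (A.e i).isOpen_inter_preimage_symm (h.isOpen_pre (B.e j).open_source)

theorem mem_dmU {i : A.ι} {j : B.ι} {x : M} (hx : x ∈ (A.e i).source) (hU : x ∈ U)
    (hj : p x ∈ (B.e j).source) : A.e i x ∈ dmU A B U p i j :=
  ⟨(A.e i).map_source hx, by
    rw [mem_preimage, (A.e i).left_inv hx]
    exact ⟨hU, hj⟩⟩

theorem HolOn.diffAt (h : HolOn A B U p) {i : A.ι} {j : B.ι} {z : Cn n}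
    (hz : z ∈ dmU A B U p i j) : DifferentiableAt ℂ (rd A B p i j) z :=
  (h.hol i j).differentiableAt ((h.isOpen_dm i j).mem_nhds hz)

theorem HolOn.smooth_rd (hp : HolOn A B U p) (i : A.ι) (j : B.ι) :
    ContDiffOn ℝ ∞ (rd A B p i j) (dmU A B U p i j) :=
  ((Crest.Agent.R266.SCV.contDiffOn_omega_of_differentiableOn (hp.isOpen_dm i j)
    (hp.hol i j)).restrict_scalars ℝ).of_le le_top

theorem HolOn.mono (h : HolOn A B U p) {U' : Set M} (hU' : IsOpen U') (hs : U' ⊆ U) :
    HolOn A B U' p where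
  op := hU'
  cont := h.cont.mono hs
  hol i j := (h.hol i j).mono fun _ hz => ⟨hz.1, hs hz.2.1, hz.2.2⟩

theorem HolOn.comp (hq : HolOn B C V q) (hp : HolOn A B U p) (hm : MapsTo p U V) :
    HolOn A C U (fun x => q (p x)) where
  op := hp.op
  cont := hq.cont.comp hp.cont hm
  hol := by
    intro i l z hz
    obtain ⟨j, hj⟩ := B.cover (p ((A.e i).symm z))
    have hzd : z ∈ dmU A B U p i j := ⟨hz.1, hz.2.1, hj⟩
    have hwd : B.e j (p ((A.e i).symm z)) ∈ dmU B C V q j l := mem_dmU hj (hm hz.2.1) hz.2.2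
    have h1 := hp.diffAt hzd
    have h2 := hq.diffAt hwd
    have h3 : DifferentiableAt ℂ ((rd B C q j l) ∘ (rd A B p i j)) z :=
      DifferentiableAt.comp z (f := rd A B p i j) h2 h1
    refine (h3.congr_of_eventuallyEq ?_).differentiableWithinAt
    filter_upwards [(hp.isOpen_dm i j).mem_nhds hzd] with w hw
    simp only [Function.comp, rd]
    rw [(B.e j).left_inv hw.2.2]

/-- a function smooth in the chart `j` over `V`, composed with `p`, is smooth in the chart `i` -/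
theorem smooth_comp (hp : HolOn A B U p) (hm : MapsTo p U V) {W : Type*} [NormedAddCommGroup W]
    [NormedSpace ℝ W] {j : B.ι} {f : N → W}
    (hf : ContDiffOn ℝ ∞ (fun w => f ((B.e j).symm w)) ((B.e j).target ∩ (B.e j).symm ⁻¹' V))
    (i : A.ι) : ContDiffOn ℝ ∞ (fun z => f (p ((A.e i).symm z))) (dmU A B U p i j) := by
  have h1 : ContDiffOn ℝ ∞ (fun z => f ((B.e j).symm (rd A B p i j z))) (dmU A B U p i j) := by
    refine ContDiffOn.comp (g := fun w => f ((B.e j).symm w)) (f := rd A B p i j)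
      (t := (B.e j).target ∩ (B.e j).symm ⁻¹' V) hf (hp.smooth_rd i j) ?_
    intro z hz
    refine ⟨(B.e j).map_source hz.2.2, ?_⟩
    show (B.e j).symm (B.e j (p ((A.e i).symm z))) ∈ V
    rw [(B.e j).left_inv hz.2.2]
    exact hm hz.2.1
  refine h1.congr fun z hz => ?_
  simp only [rd]
  rw [(B.e j).left_inv hz.2.2]

/-- `∂̄ (f ∘ p)` -/
theorem db_comp (hp : HolOn A B U p) {W : Type*} [NormedAddCommGroup W] [NormedSpace ℂ W]
    {i : A.ι} {j : B.ι} {x : M} (hx : x ∈ (A.e i).source) (hU : x ∈ U)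
    (hj : p x ∈ (B.e j).source)
    {f : N → W} (hf : DifferentiableAt ℝ (fun w => f ((B.e j).symm w)) (B.e j (p x)))
    (a : Fin n) :
    A.db i a (fun y => f (p y)) x = ∑ b, conj (Jp A B p i j x b a) • B.db j b f (p x) := by
  unfold Atl.db
  have hev : (fun z => f (p ((A.e i).symm z))) =ᶠ[𝓝 (A.e i x)]
      fun z => (fun w => f ((B.e j).symm w)) (rd A B p i j z) := by
    filter_upwards [(hp.isOpen_dm i j).mem_nhds (mem_dmU hx hU hj)] with z hz
    simp only [rd]
    rw [(B.e j).left_inv hz.2.2]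
  rw [dbj_congr hev]
  have hxx : rd A B p i j (A.e i x) = B.e j (p x) := by
    simp only [rd]; rw [(A.e i).left_inv hx]
  have h := dbj_compR (f := fun w => f ((B.e j).symm w))
    (φ := rd A B p i j) (z := A.e i x) (by rw [hxx]; exact hf)
    (hp.diffAt (mem_dmU hx hU hj)) a
  rw [h]
  refine Finset.sum_congr rfl fun b _ => ?_
  rw [hxx]
  rfl

/-- chain rule for the Jacobian -/
theorem HolOn.Jp_comp (hq : HolOn B C V q) (hp : HolOn A B U p) (hm : MapsTo p U V)
    {i : A.ι} {j : B.ι} {l : C.ι} {x : M} (hx : x ∈ (A.e i).source) (hU : x ∈ U)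
    (hj : p x ∈ (B.e j).source) (hl : q (p x) ∈ (C.e l).source) :
    Jp B C q j l (p x) * Jp A B p i j x = Jp A C (fun x => q (p x)) i l x := by
  rw [Jp_eq, Jp_eq, ← mt_comp, Jp_eq]
  congr 1
  have hval : rd A B p i j (A.e i x) = B.e j (p x) := by
    simp only [rd]
    rw [(A.e i).left_inv hx]
  have h1 : DifferentiableAt ℂ (rd B C q j l) (rd A B p i j (A.e i x)) := by
    rw [hval]
    exact hq.diffAt (mem_dmU hj (hm hU) hl)
  have h2 : DifferentiableAt ℂ (rd A B p i j) (A.e i x) := hp.diffAt (mem_dmU hx hU hj)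
  have he : rd A C (fun x => q (p x)) i l =ᶠ[𝓝 (A.e i x)] (rd B C q j l) ∘ (rd A B p i j) := by
    filter_upwards [(hp.isOpen_dm i j).mem_nhds (mem_dmU hx hU hj)] with z hz
    simp only [rd, Function.comp]
    rw [(B.e j).left_inv hz.2.2]
  rw [he.fderiv_eq, fderiv_comp _ h1 h2, hval]

/-! ### sections over an open set -/

/-- smooth sections over `U` (zero off `U`) -/
def SecOn (B1 : FBun A) (U : Set M) : Submodule ℂ (A.ι → M → B1.κ → ℂ) where
  carrier := {u | (∀ i k, ContDiffOn ℝ ∞ (fun z => u i ((A.e i).symm z) k)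
      ((A.e i).target ∩ (A.e i).symm ⁻¹' U)) ∧
    (∀ i x, x ∉ (A.e i).source ∩ U → u i x = 0) ∧
    ∀ i j, ∀ x ∈ (A.e i).source ∩ (A.e j).source, x ∈ U → u i x = (B1.τ i j x) *ᵥ (u j x)}
  add_mem' := by
    rintro u v ⟨h1, h2, h3⟩ ⟨k1, k2, k3⟩
    refine ⟨fun i k => (h1 i k).add (k1 i k), fun i x hx => ?_, fun i j x hx hU => ?_⟩
    · simp [h2 i x hx, k2 i x hx]
    · simp [h3 i j x hx hU, k3 i j x hx hU, Matrix.mulVec_add]
  zero_mem' := ⟨fun i k => contDiffOn_const, fun i x hx => rfl, fun i j x hx _ => by simp⟩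
  smul_mem' := by
    rintro c u ⟨h1, h2, h3⟩
    refine ⟨fun i k => (h1 i k).const_smul c, fun i x hx => ?_, fun i j x hx hU => ?_⟩
    · simp [h2 i x hx]
    · simp [h3 i j x hx hU, Matrix.mulVec_smul]

theorem SecOn_univ (B1 : FBun A) : SecOn B1 univ = Sec B1 := by
  ext u
  constructor
  · rintro ⟨h1, h2, h3⟩
    refine ⟨fun i k => ?_, fun i x hx => h2 i x fun h => hx h.1, fun i j x hx =>
      h3 i j x hx (mem_univ _)⟩
    exact (h1 i k).mono fun z hz => ⟨hz, mem_univ _⟩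
  · rintro ⟨h1, h2, h3⟩
    exact ⟨fun i k => ContDiffOn.mono (h1 i k) fun z hz => hz.1,
      fun i x hx => h2 i x fun h => hx ⟨h, mem_univ _⟩, fun i j x hx _ => h3 i j x hx⟩

/-- restriction to a smaller open set -/
def resU (V : Set M) {κ : Type} (u : A.ι → M → κ → ℂ) : A.ι → M → κ → ℂ := fun i x =>
  open Classical in if x ∈ V then u i x else 0

theorem resU_eq {V : Set M} {κ : Type} {u : A.ι → M → κ → ℂ} {i : A.ι} {x : M} (hx : x ∈ V) :
    resU V u i x = u i x := if_pos hx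

theorem resU_mem {B1 : FBun A} {u : A.ι → M → B1.κ → ℂ} (hu : u ∈ SecOn B1 U) {U' : Set M}
    (hs : U' ⊆ U) : resU U' u ∈ SecOn B1 U' := by
  refine ⟨fun i k => ?_, fun i x hx => ?_, fun i j x hx hU => ?_⟩
  · refine ((hu.1 i k).mono fun z hz => ⟨hz.1, hs hz.2⟩).congr fun z hz => ?_
    have hz2 : (A.e i).symm z ∈ U' := hz.2
    rw [resU_eq hz2]
  · by_cases h : x ∈ U'
    · rw [resU_eq h]
      exact hu.2.1 i x fun h' => hx ⟨h'.1, h⟩
    · rw [resU, if_neg h]
  · rw [resU_eq hU, resU_eq hU]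
    exact hu.2.2 i j x hx (hs hU)

theorem mem_secOn_of_sec {B1 : FBun A} {u : A.ι → M → B1.κ → ℂ} (hu : u ∈ Sec B1) :
    resU U u ∈ SecOn B1 U := by
  rw [← SecOn_univ] at hu
  exact resU_mem hu (subset_univ _)

variable {B1 : FBun A} {B2 : FBun B} {B3 : FBun C}

theorem SecOn.contDiffAt (hU : IsOpen U) {u : A.ι → M → B1.κ → ℂ} (hu : u ∈ SecOn B1 U)
    {i : A.ι} {x : M} (hx : x ∈ (A.e i).source) (hxU : x ∈ U) (k : B1.κ) :
    ContDiffAt ℝ ∞ (fun z => u i ((A.e i).symm z) k) (A.e i x) := by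
  refine (hu.1 i k).contDiffAt (((A.e i).isOpen_inter_preimage_symm hU).mem_nhds ?_)
  exact ⟨(A.e i).map_source hx, by rw [mem_preimage, (A.e i).left_inv hx]; exact hxU⟩

theorem SecOn.diffAt (hU : IsOpen U) {u : A.ι → M → B1.κ → ℂ} (hu : u ∈ SecOn B1 U)
    {i : A.ι} {x : M} (hx : x ∈ (A.e i).source) (hxU : x ∈ U) (k : B1.κ) :
    DifferentiableAt ℝ (fun z => u i ((A.e i).symm z) k) (A.e i x) :=
  (SecOn.contDiffAt hU hu hx hxU k).differentiableAt (by simp)

/-- `χ u` -/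
def mulC {κ : Type} (χ : M → ℂ) (u : A.ι → M → κ → ℂ) : A.ι → M → κ → ℂ := fun i x => χ x • u i x

/-- a cut-off section over `U` is a global section -/
theorem mulC_mem (hU : IsOpen U) {χ : M → ℂ} (hχ : A.Sm χ) (hs : tsupport χ ⊆ U)
    {u : A.ι → M → B1.κ → ℂ} (hu : u ∈ SecOn B1 U) : mulC χ u ∈ Sec B1 := by
  refine ⟨fun i k => ?_, fun i x hx => ?_, fun i j x hx => ?_⟩
  · intro z hz
    have hx := (A.e i).map_target hz
    by_cases hxU : (A.e i).symm z ∈ U
    · have h1 := SecOn.contDiffAt hU hu hx hxU k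
      rw [(A.e i).right_inv hz] at h1
      have h2 : ContDiffAt ℝ ∞ (fun z => χ ((A.e i).symm z)) z :=
        (hχ i).contDiffAt ((A.e i).open_target.mem_nhds hz)
      exact (h2.mul h1).contDiffWithinAt
    · have h0 : (A.e i).symm z ∉ tsupport χ := fun h => hxU (hs h)
      rw [notMem_tsupport_iff_eventuallyEq] at h0
      have ht : Tendsto (A.e i).symm (𝓝 z) (𝓝 ((A.e i).symm z)) :=
        (A.e i).symm.continuousAt hz
      have h1 : (fun z => mulC χ u i ((A.e i).symm z) k) =ᶠ[𝓝 z] fun _ => 0 := by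
        filter_upwards [ht.eventually h0] with w hw
        show χ ((A.e i).symm w) * _ = 0
        rw [hw]
        simp
      exact (contDiffAt_const.congr_of_eventuallyEq h1).contDiffWithinAt
  · show χ x • u i x = 0
    rw [hu.2.1 i x fun h => hx h.1, smul_zero]
  · show χ x • u i x = B1.τ i j x *ᵥ (χ x • u j x)
    by_cases hxU : x ∈ U
    · rw [hu.2.2 i j x hx hxU, Matrix.mulVec_smul]
    · rw [hu.2.1 i x fun h => hxU h.2, hu.2.1 j x fun h => hxU h.2]
      simp

/-- `∇` over `U` -/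
def nabU (B1 : FBun A) (U : Set M) (u : A.ι → M → B1.κ → ℂ) : A.ι → M → B1.κ → ℂ :=
  resU U (nab B1 u)

theorem nabU_eq {u : A.ι → M → B1.κ → ℂ} {i : A.ι} {x : M} (hx : x ∈ U) :
    nabU B1 U u i x = nab B1 u i x := resU_eq hx

theorem nabU_univ (u : A.ι → M → B1.κ → ℂ) : nabU B1 univ u = nab B1 u := by
  funext i x
  exact nabU_eq (mem_univ x)

/-- Leibniz rule for `∂̄_a (χ u)` -/
theorem db_smulR {i : A.ι} {κ : Type} [Fintype κ] {χ : M → ℂ} {v : M → κ → ℂ} {x : M}
    (hχ : DifferentiableAt ℝ (fun z => χ ((A.e i).symm z)) (A.e i x))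
    (hv : ∀ l, DifferentiableAt ℝ (fun z => v ((A.e i).symm z) l) (A.e i x))
    (hx : x ∈ (A.e i).source) (a : Fin n) :
    A.db i a (fun y => χ y • v y) x = A.db i a χ x • v x + χ x • A.db i a v x := by
  have hv' : DifferentiableAt ℝ (fun z => v ((A.e i).symm z)) (A.e i x) := differentiableAt_pi.2 hv
  have h0 : DifferentiableAt ℝ (fun z => χ ((A.e i).symm z) • v ((A.e i).symm z)) (A.e i x) :=
    hχ.smul hv'
  funext l
  have h1 : A.db i a (fun y => χ y • v y) x l = A.db i a (fun y => χ y * v y l) x :=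
    dbj_pi h0 a l
  have h2 : A.db i a v x l = A.db i a (fun y => v y l) x := dbj_pi hv' a l
  rw [h1, db_mul hχ (hv l) hx]
  simp only [Pi.add_apply, Pi.smul_apply, smul_eq_mul, h2]

/-- `∇ (χ u) = χ ∇ u + (∂̄ χ) ∧ u` -/
theorem nab_mulC (hU : IsOpen U) {χ : M → ℂ} (hχ : A.Sm χ) (hs : tsupport χ ⊆ U)
    {u : A.ι → M → B1.κ → ℂ} (hu : u ∈ SecOn B1 U) {i : A.ι} {x : M}
    (hx : x ∈ (A.e i).source) :
    nab B1 (mulC χ u) i x = χ x • nabU B1 U u i x + ∑ a, A.db i a χ x • (B1.e a *ᵥ u i x) := by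
  by_cases hxU : x ∈ U
  · rw [nabU_eq hxU, nab_apply B1 hx, nab_apply B1 hx]
    have hd : DifferentiableAt ℝ (fun z => χ ((A.e i).symm z)) (A.e i x) :=
      Atl.SmAt.diffAt (hχ i) hx
    have h1 : ∀ a, A.db i a (mulC χ u i) x = A.db i a χ x • u i x + χ x • A.db i a (u i) x :=
      fun a => db_smulR hd (fun l => SecOn.diffAt hU hu hx hxU l) hx a
    simp only [h1, Matrix.mulVec_add, Matrix.mulVec_smul, Finset.sum_add_distrib, smul_add,
      Finset.smul_sum]
    have h2 : mulC χ u i x = χ x • u i x := rfl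
    rw [h2, Matrix.mulVec_smul]
    abel
  · have h0 : x ∉ tsupport χ := fun h => hxU (hs h)
    rw [notMem_tsupport_iff_eventuallyEq] at h0
    have h1 : mulC χ u i =ᶠ[𝓝 x] (0 : A.ι → M → B1.κ → ℂ) i := by
      filter_upwards [h0] with y hy
      show χ y • u i y = 0
      rw [hy]
      simp
    rw [nab_congr B1 h1, hu.2.1 i x fun h => hxU h.2, h0.eq_of_nhds]
    have h2 : nab B1 (0 : A.ι → M → B1.κ → ℂ) = 0 := by
      have := nab_smul B1 (0 : ℂ) (Sec B1).zero_mem
      simpa using this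
    rw [h2]
    simp

/-! ### comparison of Dolbeault bundles -/

/-- comparison of Dolbeault bundles over `U` -/
structure FPB (U : Set M) (p : M → N) (B1 : FBun A) (B2 : FBun B) where
  T : A.ι → B.ι → M → Matrix B1.κ B2.κ ℂ
  sm : ∀ i j k l, ContDiffOn ℝ ∞ (fun z => T i j ((A.e i).symm z) k l) (dmU A B U p i j)
  left : ∀ i i' j, ∀ x ∈ (A.e i).source ∩ (A.e i').source, x ∈ U → p x ∈ (B.e j).source →
    B1.τ i i' x * T i' j x = T i j x
  right : ∀ i j j', ∀ x ∈ (A.e i).source, x ∈ U → p x ∈ (B.e j).source ∩ (B.e j').source →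
    T i j x * B2.τ j j' (p x) = T i j' x
  symb : ∀ i j, ∀ x ∈ (A.e i).source, x ∈ U → p x ∈ (B.e j).source → ∀ b,
    ∑ a, conj (Jp A B p i j x b a) • (B1.e a * T i j x) = T i j x * B2.e b
  conn : ∀ i j, ∀ x ∈ (A.e i).source, x ∈ U → p x ∈ (B.e j).source →
    (∑ a, B1.e a * Matrix.of (fun k l => A.db i a (fun y => T i j y k l) x)) + B1.α i x * T i j x
      = T i j x * B2.α j (p x)
  deg : ∀ i j x k l, T i j x k l ≠ 0 → B1.deg k = B2.deg l

namespace FPB

variable (T : FPB U p B1 B2)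

/-- pull-back of a family -/
def pull (u : B.ι → N → B2.κ → ℂ) : A.ι → M → B1.κ → ℂ := fun i x =>
  open Classical in
  if x ∈ (A.e i).source ∩ U then T.T i (PB.ch B (p x)) x *ᵥ u (PB.ch B (p x)) (p x) else 0

theorem pull_off {u : B.ι → N → B2.κ → ℂ} {i : A.ι} {x : M} (hx : x ∉ (A.e i).source ∩ U) :
    T.pull u i x = 0 := by
  rw [pull, if_neg hx]

theorem pull_eq (hm : MapsTo p U V) {u : B.ι → N → B2.κ → ℂ} (hu : u ∈ SecOn B2 V) {i : A.ι}
    {j : B.ι} {x : M} (hx : x ∈ (A.e i).source) (hU : x ∈ U) (hj : p x ∈ (B.e j).source) :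
    T.pull u i x = T.T i j x *ᵥ u j (p x) := by
  rw [pull, if_pos ⟨hx, hU⟩, hu.2.2 _ j _ ⟨PB.ch_mem B (p x), hj⟩ (hm hU),
    Matrix.mulVec_mulVec, T.right i _ j x hx hU ⟨PB.ch_mem B (p x), hj⟩]

theorem pull_mem (hp : HolOn A B U p) (hm : MapsTo p U V) {u : B.ι → N → B2.κ → ℂ}
    (hu : u ∈ SecOn B2 V) : T.pull u ∈ SecOn B1 U := by
  refine ⟨fun i k => ?_, fun i x hx => T.pull_off hx, fun i i' x hx hU => ?_⟩
  · rintro z ⟨hz, hzU⟩
    have hx := (A.e i).map_target hz
    obtain ⟨j, hj⟩ := B.cover (p ((A.e i).symm z))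
    have hzd : z ∈ dmU A B U p i j := ⟨hz, hzU, hj⟩
    have h1 : ContDiffOn ℝ ∞ (fun z => ∑ l, T.T i j ((A.e i).symm z) k l *
        u j (p ((A.e i).symm z)) l) (dmU A B U p i j) :=
      ContDiffOn.sum fun l _ => (T.sm i j k l).mul
        (smooth_comp (f := fun y => u j y l) hp hm (hu.1 j l) i)
    have h2 := h1.contDiffAt ((hp.isOpen_dm i j).mem_nhds hzd)
    refine (h2.congr_of_eventuallyEq ?_).contDiffWithinAt
    filter_upwards [(hp.isOpen_dm i j).mem_nhds hzd] with w hw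
    rw [T.pull_eq hm hu ((A.e i).map_target hw.1) hw.2.1 hw.2.2]
    rfl
  · obtain ⟨j, hj⟩ := B.cover (p x)
    rw [T.pull_eq hm hu hx.1 hU hj, T.pull_eq hm hu hx.2 hU hj, Matrix.mulVec_mulVec,
      T.left i i' j x hx hU hj]

/-- **the pull-back commutes with `∇`** (at the points of `U`) -/
theorem nab_pull' (hp : HolOn A B U p) (hV : IsOpen V) (hm : MapsTo p U V)
    {u : B.ι → N → B2.κ → ℂ} (hu : u ∈ SecOn B2 V) {i : A.ι} {j : B.ι} {x : M}
    (hx : x ∈ (A.e i).source) (hU : x ∈ U) (hj : p x ∈ (B.e j).source) :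
    nab B1 (T.pull u) i x = T.T i j x *ᵥ nab B2 u j (p x) := by
  rw [nab_apply B1 hx, T.pull_eq hm hu hx hU hj, nab_apply B2 hj]
  have hzd := mem_dmU (A := A) (B := B) (p := p) hx hU hj
  have hev : T.pull u i =ᶠ[𝓝 x] fun y => T.T i j y *ᵥ u j (p y) := by
    have ho : IsOpen ((A.e i).source ∩ (U ∩ p ⁻¹' (B.e j).source)) :=
      (A.e i).open_source.inter (hp.isOpen_pre (B.e j).open_source)
    filter_upwards [ho.mem_nhds ⟨hx, hU, hj⟩] with y hy
    exact T.pull_eq hm hu hy.1 hy.2.1 hy.2.2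
  have hT : ∀ k l, DifferentiableAt ℝ (fun z => T.T i j ((A.e i).symm z) k l) (A.e i x) :=
    fun k l => (((T.sm i j k l).contDiffAt ((hp.isOpen_dm i j).mem_nhds hzd))).differentiableAt
      (by simp)
  have hUd : ∀ l, DifferentiableAt ℝ (fun z => u j (p ((A.e i).symm z)) l) (A.e i x) :=
    fun l => ((smooth_comp (f := fun y => u j y l) hp hm (hu.1 j l) i).contDiffAt
      ((hp.isOpen_dm i j).mem_nhds hzd)).differentiableAt (by simp)
  have hd : DifferentiableAt ℝ (fun w => u j ((B.e j).symm w)) (B.e j (p x)) :=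
    differentiableAt_pi.2 fun l => SecOn.diffAt hV hu hj (hm hU) l
  have h1 : ∀ a, A.db i a (T.pull u i) x =
      Matrix.of (fun k l => A.db i a (fun y => T.T i j y k l) x) *ᵥ u j (p x)
        + T.T i j x *ᵥ ∑ b, conj (Jp A B p i j x b a) • B.db j b (u j) (p x) := by
    intro a
    rw [Atl.db_congr hx hev a, db_mulVec (v := fun y => u j (p y)) hT hUd hx a,
      db_comp hp hx hU hj hd a]
  simp only [h1, Matrix.mulVec_add, Finset.sum_add_distrib, Matrix.mulVec_mulVec]
  have h2 : ∑ a, (B1.e a * T.T i j x) *ᵥ ∑ b, conj (Jp A B p i j x b a) • B.db j b (u j) (p x)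
      = ∑ b, (T.T i j x * B2.e b) *ᵥ B.db j b (u j) (p x) := by
    simp only [← T.symb i j x hx hU hj, Matrix.mulVec_sum, Matrix.mulVec_smul, Matrix.sum_mulVec,
      Matrix.smul_mulVec]
    rw [Finset.sum_comm]
  rw [h2]
  have h3 := congrArg (fun m => m *ᵥ u j (p x)) (T.conn i j x hx hU hj)
  simp only [Matrix.add_mulVec, Matrix.sum_mulVec] at h3
  simp only [Matrix.mulVec_sum, Matrix.mulVec_mulVec]
  rw [← h3]
  abel

theorem pull_add (u v : B.ι → N → B2.κ → ℂ) : T.pull (u + v) = T.pull u + T.pull v := by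
  funext i x
  by_cases hx : x ∈ (A.e i).source ∩ U
  · simp only [pull, if_pos hx, Pi.add_apply, Matrix.mulVec_add]
  · simp only [pull, if_neg hx, Pi.add_apply, add_zero]

theorem pull_smul (c : ℂ) (u : B.ι → N → B2.κ → ℂ) : T.pull (c • u) = c • T.pull u := by
  funext i x
  by_cases hx : x ∈ (A.e i).source ∩ U
  · simp only [pull, if_pos hx, Pi.smul_apply, Matrix.mulVec_smul]
  · simp only [pull, if_neg hx, Pi.smul_apply, smul_zero]

/-- multiplication by a function -/
theorem pull_mulC (f : N → ℂ) (u : B.ι → N → B2.κ → ℂ) :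
    T.pull (mulC f u) = mulC (fun x => f (p x)) (T.pull u) := by
  funext i x
  by_cases hx : x ∈ (A.e i).source ∩ U
  · simp only [pull, mulC, if_pos hx, Matrix.mulVec_smul]
  · simp only [pull, mulC, if_neg hx, smul_zero]

/-- degrees -/
theorem pull_isDeg {d : ℕ} {u : B.ι → N → B2.κ → ℂ} (hu : IsDeg B2 d u) :
    IsDeg B1 d (T.pull u) := by
  intro i x k hk
  by_cases hx : x ∈ (A.e i).source ∩ U
  · rw [pull, if_pos hx] at hk
    obtain ⟨l, -, hl⟩ := Finset.exists_ne_zero_of_sum_ne_zero hk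
    rw [T.deg _ _ _ _ _ (left_ne_zero_of_mul hl)]
    exact hu _ _ _ (right_ne_zero_of_mul hl)
  · rw [pull, if_neg hx] at hk
    exact absurd rfl hk

end FPB

/-! ### global pull-back -/

namespace FPB

variable (T : FPB univ p B1 B2)

theorem pull_eqG {u : B.ι → N → B2.κ → ℂ} (hu : u ∈ Sec B2) {i : A.ι} {j : B.ι} {x : M}
    (hx : x ∈ (A.e i).source) (hj : p x ∈ (B.e j).source) :
    T.pull u i x = T.T i j x *ᵥ u j (p x) := by
  rw [← SecOn_univ] at hu
  exact T.pull_eq (fun _ _ => mem_univ _) hu hx (mem_univ _) hj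

theorem pull_memG (hp : HolMap A B p) {u : B.ι → N → B2.κ → ℂ} (hu : u ∈ Sec B2) :
    T.pull u ∈ Sec B1 := by
  rw [← SecOn_univ] at hu ⊢
  exact T.pull_mem (HolOn.of_holMap hp isOpen_univ) (fun _ _ => mem_univ _) hu

theorem nab_pullG (hp : HolMap A B p) {u : B.ι → N → B2.κ → ℂ} (hu : u ∈ Sec B2) :
    nab B1 (T.pull u) = T.pull (nab B2 u) := by
  funext i x
  by_cases hx : x ∈ (A.e i).source
  · obtain ⟨j, hj⟩ := B.cover (p x)
    rw [T.pull_eqG (nab_mem B2 hu) hx hj]
    rw [← SecOn_univ] at hu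
    exact T.nab_pull' (HolOn.of_holMap hp isOpen_univ) isOpen_univ (fun _ _ => mem_univ _) hu hx
      (mem_univ _) hj
  · rw [nab_off B1 hx, T.pull_off fun h => hx h.1]

/-- the pull-back of smooth sections as a linear map -/
def pullL (hp : HolMap A B p) : Sec B2 →ₗ[ℂ] Sec B1 where
  toFun u := ⟨T.pull u.1, T.pull_memG hp u.2⟩
  map_add' u v := Subtype.ext (T.pull_add u.1 v.1)
  map_smul' c u := Subtype.ext (T.pull_smul c u.1)

@[simp] theorem pullL_val (hp : HolMap A B p) (u : Sec B2) :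
    (T.pullL hp u).1 = T.pull u.1 := rfl

theorem nabL_pullL (hp : HolMap A B p) (u : Sec B2) :
    nabL B1 (T.pullL hp u) = T.pullL hp (nabL B2 u) :=
  Subtype.ext (T.nab_pullG hp u.2)

end FPB

end

end Crest.Agent.R273.FPB_155
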