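import Crest.Agent.R273.SteinG_794

/-!
# R273, STEIN complements, part H (helper794): shrinking, homogenisation, moderate frames

* `Exh.shr`, `SD.shr`, structure `GD` (geometric domain) with `GD.shr` : remove the zeros of a section
  of a bundle trivialised on the domain, same coordinates;
* `homog`   : polynomials in quotients `s_k / t` are quotients `r / t ^ D`;
* `TFr`     : frames of moderate growth; products, inverses, sections without zeros;
* `TFr.fn`, `TFr.fn_inv` : the functions `g / σ`, `σ / g` are tame;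
* `exists_geom'` : A-GEOM with moderate frames;
* `ext_of_tame` : holomorphic functions of moderate growth are quotients of sections.
-/

set_option autoImplicit false
set_option linter.unusedSectionVars false

open Set Filter Topology Complex MeasureTheory
open scoped ContDiff Matrix ENNReal

namespace Crest.Agent.R273.SteinH_794

open Crest.Agent.R275.Geo Crest.Agent.R275.Core144 Crest.Agent.R273.SteinA_794
open Crest.Agent.R273.SteinB_794 Crest.Agent.R273.SteinC_794 Crest.Agent.R273.SteinD_794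
open Crest.Agent.R273.SteinE_794
open Crest.Agent.R273.SteinM_794 Crest.Agent.R273.SteinN_794 Crest.Agent.R273.SteinL_794
open Crest.Agent.R273.SteinF_794 Crest.Agent.R273.SteinG_794
open Crest.Agent.R273.Defs_333 (ProjD HM HM.wt HasSec)
open Crest.Agent.R273.FS_333 (lb sec isHS_sec exists_sec_ne sec_eq)
open Crest.Agent.R273.TD3_733 (D2)
open Crest.Agent.R273.Vm_333 (vm)
open Crest.Agent.R271.Ho51 (RDom cp ch IsCh IsLeb Hol Sm mem_ch isCh_ch)
open Crest.Agent.R273.Pen_93 Crest.Agent.R273.PenAlg_93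

noncomputable section

variable {n : ℕ} {M : Type} [TopologicalSpace M] {A : Atl n M}

/-! ### shrinking -/

/-- the same coordinates on a smaller open set -/
def _root_.Crest.Agent.R273.SteinA_794.SD.shr (S : SD A) {V : Set M} (hV : IsOpen V) : SD A where
  U := S.U ∩ V
  isOpen := S.isOpen.inter hV
  z := S.z
  hol i k := (S.hol i k).mono inter_subset_left
  inj i x hx hxU v hv := S.inj i x hx hxU.1 v hv

/-- removing the zeros of a holomorphic function -/
def _root_.Crest.Agent.R273.SteinC_794.Exh.shr {V : Set M} (hV : IsOpen V) (E : Exh A V)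
    {f : M → ℂ} (hf : ∀ i, HolAt A i V f) : Exh A (V ∩ {x | f x ≠ 0}) where
  κ := E.κ ⊕ Unit
  f := Sum.elim E.f fun _ x => (f x)⁻¹
  hol i k := by
    rcases k with k | k
    · exact (E.hol i k).mono inter_subset_left
    · exact ((hf i).mono inter_subset_left).inv fun x _ hxV => hxV.2
  big x hx C := by
    rw [mem_inter_iff, not_and_or] at hx
    have h0 : ∀ y, 0 ≤ ∑ k, ‖E.f k y‖ ^ 2 := fun y => Finset.sum_nonneg fun _ _ => by positivity
    by_cases hxV : x ∈ V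
    · have hx0 : f x = 0 := by
        rcases hx with hx | hx
        · exact absurd hxV hx
        · exact not_not.1 hx
      obtain ⟨i, hi⟩ := A.cover x
      have hc : ContinuousAt f x := continuousAt_of_holAt hV (hf i) hi hxV
      have hc2 : ContinuousAt (fun y => ‖f y‖ ^ 2 * (|C| + 1)) x :=
        (hc.norm.pow 2).mul continuousAt_const
      have hv : ‖f x‖ ^ 2 * (|C| + 1) < 1 := by rw [hx0]; simp
      filter_upwards [hc2.eventually (gt_mem_nhds hv)] with y hy hyV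
      rw [Fintype.sum_sum_type]
      simp only [Sum.elim_inl, Sum.elim_inr, Finset.univ_unique, Finset.sum_singleton]
      have hp : 0 < ‖f y‖ ^ 2 := by
        have := norm_pos_iff.2 hyV.2
        positivity
      have h1 : |C| + 1 < ‖(f y)⁻¹‖ ^ 2 := by
        rw [norm_inv, inv_pow, lt_inv_comm₀ (by positivity) hp, ← one_div, lt_div_iff₀ (by positivity)]
        exact hy
      have := h0 y
      linarith [le_abs_self C]
    · filter_upwards [E.big x hxV C] with y hy hyV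
      rw [Fintype.sum_sum_type]
      simp only [Sum.elim_inl, Sum.elim_inr]
      have h1 := hy hyV.1
      have h2 : 0 ≤ ∑ _k : Unit, ‖(f y)⁻¹‖ ^ 2 := Finset.sum_nonneg fun _ _ => by positivity
      linarith

/-- quotient of a section by a local frame -/
theorem exists_fn {B : LB A} {V : Set M} {g σ : A.ι → M → ℂ} (hg : IsHS B V g)
    (hσ : IsHS B V σ) (h0 : ∀ i, ∀ x ∈ (A.e i).source, x ∈ V → σ i x ≠ 0) :
    ∃ f : M → ℂ, (∀ i, HolAt A i V f) ∧ ∀ i, ∀ x ∈ (A.e i).source, x ∈ V → g i x = f x * σ i x := by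
  have key : ∀ i, ∀ x ∈ (A.e i).source, x ∈ V →
      g (A.cover x).choose x / σ (A.cover x).choose x = g i x / σ i x := by
    intro i x hx hxV
    set j := (A.cover x).choose
    have hj : x ∈ (A.e j).source := (A.cover x).choose_spec
    rw [hg.tr j i x ⟨hj, hx⟩ hxV, hσ.tr j i x ⟨hj, hx⟩ hxV]
    exact mul_div_mul_left _ _ (B.ne_zero j i x)
  refine ⟨fun x => g (A.cover x).choose x / σ (A.cover x).choose x, fun i => ?_,
    fun i x hx hxV => ?_⟩
  · have h1 : HolAt A i V (fun x => g i x * (σ i x)⁻¹) := (hg.hol i).mul ((hσ.hol i).inv (h0 i))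
    exact h1.congr fun x hx hxV => by rw [key i x hx hxV, div_eq_mul_inv]
  · show g i x = g (A.cover x).choose x / σ (A.cover x).choose x * σ i x
    rw [key i x hx hxV, div_mul_cancel₀ _ (h0 i x hx hxV)]

/-- a geometric domain: complement of a divisor with coordinates and exhaustion -/
structure GD (A : Atl n M) where
  S : SD A
  E : Exh A S.U
  LD : LB A
  d : A.ι → M → ℂ
  hd : IsHS LD univ d
  hU : S.U = nz d
  ne : S.U.Nonempty

theorem GD.hd0 (D : GD A) : Nz0 A D.d := by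
  obtain ⟨x, hx⟩ := D.ne
  rw [D.hU] at hx
  exact nz0_of_mem D.hd hx

/-- from `StD` -/
def _root_.Crest.Agent.R273.SteinE_794.StD.toGD {P : ProjD A} (D : StD A P) (h : D.S.U.Nonempty) :
    GD A := ⟨D.S, D.E, D.LD, D.d, D.isHS_d, D.U_eq, h⟩

theorem nz_mul_eq {L L' : LB A} {s t : A.ι → M → ℂ} (hs : IsHS L univ s) (ht : IsHS L' univ t) :
    nz (s * t) = nz s ∩ nz t := by
  ext x
  obtain ⟨i, hi⟩ := A.cover x
  rw [mem_inter_iff, mem_nz (hs.mul ht) hi, mem_nz hs hi, mem_nz ht hi, Pi.mul_apply, Pi.mul_apply,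
    mul_ne_zero_iff]

/-- **shrinking a geometric domain** -/
theorem GD.exists_shr [ConnectedSpace M] (D : GD A) {B : LB A} {g : A.ι → M → ℂ}
    (hg : IsHS B univ g) (hg0 : Nz0 A g) {σ : A.ι → M → ℂ} (hσ : IsHS B D.S.U σ)
    (h0 : ∀ i, ∀ x ∈ (A.e i).source, x ∈ D.S.U → σ i x ≠ 0) :
    ∃ D' : GD A, D'.S = D.S.shr (isOpen_nz hg) ∧ D'.S.U = D.S.U ∩ nz g ∧ D'.S.z = D.S.z ∧
      D'.LD = D.LD * B ∧ D'.d = D.d * g := by
  obtain ⟨f, hf, hgf⟩ := exists_fn (hg.mono (subset_univ D.S.U)) hσ h0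
  have hUf : D.S.U ∩ {x | f x ≠ 0} = D.S.U ∩ nz g := by
    ext x
    constructor
    · rintro ⟨hx, hfx⟩
      obtain ⟨i, hi⟩ := A.cover x
      refine ⟨hx, (mem_nz hg hi).2 ?_⟩
      rw [hgf i x hi hx]
      exact mul_ne_zero hfx (h0 i x hi hx)
    · rintro ⟨hx, hgx⟩
      obtain ⟨i, hi⟩ := A.cover x
      refine ⟨hx, fun hfx => (mem_nz hg hi).1 hgx ?_⟩
      rw [hgf i x hi hx, hfx, zero_mul]
  have hU : (D.S.shr (isOpen_nz hg)).U = nz (D.d * g) := by
    rw [nz_mul_eq D.hd hg, ← D.hU]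
    rfl
  have hne : (D.S.shr (isOpen_nz hg)).U.Nonempty := by
    obtain ⟨x, hx⟩ := Nz0.exists_mem (mul_ne_zero_sec D.hd hg D.hd0 hg0) (D.hd.mul hg)
    exact ⟨x, by rw [hU]; exact hx⟩
  have hE : Exh A (D.S.U ∩ nz g) := hUf ▸ Exh.shr D.S.isOpen D.E hf
  exact ⟨⟨D.S.shr (isOpen_nz hg), hE, D.LD * B, D.d * g, D.hd.mul hg, hU, hne⟩, rfl, rfl, rfl, rfl,
    rfl⟩

/-! ### homogenisation -/

/-- polynomials in the quotients `s_k / t` -/
theorem homog {κ : Type*} {B : LB A} {s : κ → A.ι → M → ℂ} {t : A.ι → M → ℂ}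
    (hs : ∀ k, IsHS B univ (s k)) (ht : IsHS B univ t) (P : MvPolynomial κ ℂ) :
    ∃ D0, ∀ D, D0 ≤ D → ∃ r, IsHS (B ^ D) univ r ∧ ∀ i, ∀ x ∈ (A.e i).source, t i x ≠ 0 →
      r i x = MvPolynomial.eval (fun k => qt (s k) t x) P * (t i x) ^ D := by
  induction P using MvPolynomial.induction_on with
  | C a =>
    refine ⟨0, fun D _ => ⟨a • (oneS A * t ^ D), (isHS_pow0 ht D).smul a, fun i x hx _ => ?_⟩⟩
    simp [oneS_eq hx]
  | add p q hp hq =>
    obtain ⟨D1, h1⟩ := hp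
    obtain ⟨D2, h2⟩ := hq
    refine ⟨max D1 D2, fun D hD => ?_⟩
    obtain ⟨r1, hr1, e1⟩ := h1 D ((le_max_left _ _).trans hD)
    obtain ⟨r2, hr2, e2⟩ := h2 D ((le_max_right _ _).trans hD)
    refine ⟨r1 + r2, hr1.add hr2, fun i x hx h0 => ?_⟩
    simp only [Pi.add_apply, e1 i x hx h0, e2 i x hx h0, map_add]
    ring
  | mul_X p k hp =>
    obtain ⟨D1, h1⟩ := hp
    refine ⟨D1 + 1, fun D hD => ?_⟩
    obtain ⟨D, rfl⟩ : ∃ D', D = D' + 1 := ⟨D - 1, by omega⟩
    obtain ⟨r1, hr1, e1⟩ := h1 D (by omega)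
    refine ⟨r1 * s k, ?_, fun i x hx h0 => ?_⟩
    · rw [pow_succ]
      exact hr1.mul (hs k)
    · simp only [Pi.mul_apply, e1 i x hx h0, map_mul, MvPolynomial.eval_X]
      rw [qt_eq (hs k) ht hx, pow_succ]
      field_simp

/-! ### frames of moderate growth -/

variable {S : SD A}

/-- frames of moderate growth, together with their inverses -/
structure TFr (S : SD A) (N : LB A) (σ : A.ι → M → ℂ) : Prop where
  hs : IsHS N S.U σ
  ne : ∀ i, ∀ x ∈ (A.e i).source, x ∈ S.U → σ i x ≠ 0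
  gr : ∃ hN : HM N, Tame S (fun x => (1 + Real.exp (-(wtS hN σ x.val)))⁻¹) ∧
    Tame S (fun x => (1 + Real.exp (wtS hN σ x.val))⁻¹)

theorem wtS_mul {N N' : LB A} (h : HM N) (h' : HM N') {σ σ' : A.ι → M → ℂ}
    (hσ : IsHS N S.U σ) (hσ' : IsHS N' S.U σ')
    (h0 : ∀ i, ∀ x ∈ (A.e i).source, x ∈ S.U → σ i x ≠ 0)
    (h0' : ∀ i, ∀ x ∈ (A.e i).source, x ∈ S.U → σ' i x ≠ 0) (x : Mo S) :
    wtS (HM_333.mul h h') (σ * σ') x.val = wtS h σ x.val + wtS h' σ' x.val := by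
  obtain ⟨i, hi⟩ := A.cover x.val
  have h00 : ∀ i, ∀ x ∈ (A.e i).source, x ∈ S.U → (σ * σ') i x ≠ 0 := fun i x hx hxU =>
    mul_ne_zero (h0 i x hx hxU) (h0' i x hx hxU)
  have e : Real.exp (-(wtS (HM_333.mul h h') (σ * σ') x.val)) =
      Real.exp (-(wtS h σ x.val + wtS h' σ' x.val)) := by
    rw [exp_wtS _ (hσ.mul hσ') h00 hi x.prop, neg_add, Real.exp_add,
      exp_wtS h hσ h0 hi x.prop, exp_wtS h' hσ' h0' hi x.prop]
    simp only [Pi.mul_apply, norm_mul, HM_333.mul]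
    ring
  have := Real.exp_injective e
  linarith

theorem wtS_inv {N : LB A} (h : HM N) {σ : A.ι → M → ℂ}
    (hσ : IsHS N S.U σ) (h0 : ∀ i, ∀ x ∈ (A.e i).source, x ∈ S.U → σ i x ≠ 0) (x : Mo S) :
    wtS (HM_333.inv h) σ⁻¹ x.val = -wtS h σ x.val := by
  obtain ⟨i, hi⟩ := A.cover x.val
  have h00 : ∀ i, ∀ x ∈ (A.e i).source, x ∈ S.U → (σ⁻¹) i x ≠ 0 := fun i x hx hxU =>
    inv_ne_zero (h0 i x hx hxU)
  have e : Real.exp (-(wtS (HM_333.inv h) σ⁻¹ x.val)) = Real.exp (wtS h σ x.val) := by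
    have e1 := exp_wtS h hσ h0 hi x.prop
    rw [exp_wtS _ (hσ.inv h0) h00 hi x.prop, ← neg_neg (wtS h σ x.val), Real.exp_neg, e1]
    simp only [Pi.inv_apply, norm_inv, HM_333.inv]
    rw [mul_inv, inv_pow]
  have := Real.exp_injective e
  linarith

theorem TFr.mul {N N' : LB A} {σ σ' : A.ι → M → ℂ} (h : TFr S N σ) (h' : TFr S N' σ') :
    TFr S (N * N') (σ * σ') := by
  obtain ⟨h1, h2, hN, h3, h4⟩ := h
  obtain ⟨h1', h2', hN', h3', h4'⟩ := h'
  refine ⟨h1.mul h1', fun i x hx hxU => mul_ne_zero (h2 i x hx hxU) (h2' i x hx hxU),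
    HM_333.mul hN hN', ?_, ?_⟩
  · refine (Tame.mul h3 h3').mono (C := 1) zero_le_one fun x => ?_
    rw [wtS_mul hN hN' h1 h1' h2 h2', one_mul, ← mul_inv, neg_add, Real.exp_add]
    refine inv_anti₀ (by positivity) ?_
    nlinarith [Real.exp_pos (-(wtS hN σ x.val)), Real.exp_pos (-(wtS hN' σ' x.val))]
  · refine (Tame.mul h4 h4').mono (C := 1) zero_le_one fun x => ?_
    rw [wtS_mul hN hN' h1 h1' h2 h2', one_mul, ← mul_inv, Real.exp_add]
    refine inv_anti₀ (by positivity) ?_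
    nlinarith [Real.exp_pos (wtS hN σ x.val), Real.exp_pos (wtS hN' σ' x.val)]

theorem TFr.inv {N : LB A} {σ : A.ι → M → ℂ} (h : TFr S N σ) : TFr S N⁻¹ σ⁻¹ := by
  obtain ⟨h1, h2, hN, h3, h4⟩ := h
  refine ⟨h1.inv h2, fun i x hx hxU => inv_ne_zero (h2 i x hx hxU), HM_333.inv hN, ?_, ?_⟩
  · simp only [wtS_inv hN h1 h2, neg_neg]
    exact h4
  · simp only [wtS_inv hN h1 h2]
    exact h3

theorem TFr.one : TFr S 1 (oneS A) := by
  have h0 : ∀ i, ∀ x ∈ (A.e i).source, x ∈ S.U → oneS A i x ≠ 0 := fun i x hx _ => by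
    simp [oneS, hx]
  have hw : ∀ x : Mo S, wtS (HM_333.one A) (oneS A) x.val = 0 := by
    intro x
    obtain ⟨i, hi⟩ := A.cover x.val
    have e1 := exp_wtS (HM_333.one A) (isHS_oneS S.U) h0 hi x.prop
    have e2 : ‖oneS A i x.val‖ ^ 2 * (HM_333.one A).w i x.val = 1 := by
      simp [oneS, hi, HM_333.one]
    rw [e2, Real.exp_eq_one_iff] at e1
    linarith
  refine ⟨isHS_oneS _, h0, HM_333.one A, ?_, ?_⟩
  · simp only [hw]
    refine Tame.one.mono (C := 2) zero_le_two fun x => ?_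
    simp only [neg_zero, Real.exp_zero]
    norm_num
  · simp only [hw]
    refine Tame.one.mono (C := 2) zero_le_two fun x => ?_
    simp only [Real.exp_zero]
    norm_num

theorem TFr.pow {N : LB A} {σ : A.ι → M → ℂ} (h : TFr S N σ) :
    ∀ m : ℕ, TFr S (N ^ m) (oneS A * σ ^ m)
  | 0 => by simpa using TFr.one (S := S)
  | m + 1 => by
    rw [pow_succ, pow_succ, ← mul_assoc]
    exact (TFr.pow h m).mul h

/-- sections without zeros on the domain -/
theorem TFr.of_sec [CompactSpace M] {N : LB A} (hN : HM N) {g : A.ι → M → ℂ}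
    (hg : IsHS N univ g) (hU : S.U ⊆ nz g) : TFr S N g := by
  have h0 : ∀ i, ∀ x ∈ (A.e i).source, x ∈ S.U → g i x ≠ 0 := fun i x hx hxU =>
    (mem_nz hg hx).1 (hU hxU)
  obtain ⟨C, hC, hCb⟩ := bdd_sec hN hg
  have hb : ∀ x : Mo S, Real.exp (-(wtS hN g x.val)) ≤ C := by
    intro x
    obtain ⟨i, hi⟩ := A.cover x.val
    rw [exp_wtS hN (hg.mono (subset_univ _)) h0 hi x.prop]
    exact hCb i _ hi
  refine ⟨hg.mono (subset_univ _), h0, hN, ?_, ?_⟩
  · refine Tame.one.mono (C := 1 + C) (by positivity) fun x => ?_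
    rw [← div_eq_mul_inv, le_div_iff₀ (by positivity)]
    linarith [hb x]
  · refine (Tame.of_frame hN (hg.mono (subset_univ _)) h0).mono (C := 1 + C) (by positivity)
      fun x => ?_
    rw [← div_eq_mul_inv, le_div_iff₀ (by positivity), mul_add, mul_one, ← Real.exp_add,
      neg_add_cancel, Real.exp_zero]
    linarith [hb x]

/-- two metrics of the same bundle are comparable -/
theorem hm_comp [CompactSpace M] {N : LB A} (h h' : HM N) :
    ∃ C : ℝ, 0 < C ∧ ∀ i, ∀ x ∈ (A.e i).source, h.w i x ≤ C * h'.w i x := by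
  set f : M → ℝ := fun x => h.w (A.cover x).choose x / h'.w (A.cover x).choose x with hf
  have hfi : ∀ i, ∀ x ∈ (A.e i).source, f x = h.w i x / h'.w i x := by
    intro i x hx
    simp only [hf]
    set j := (A.cover x).choose
    have hj : x ∈ (A.e j).source := (A.cover x).choose_spec
    have e1 := h.tr i j x ⟨hx, hj⟩
    have e2 := h'.tr i j x ⟨hx, hj⟩
    have p1 := h'.pos i x hx
    have p2 := h'.pos j x hj
    have p3 : ‖N.g i j x‖ ^ 2 ≠ 0 := pow_ne_zero _ (norm_ne_zero_iff.2 (N.ne_zero i j x))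
    rw [e1, e2]
    exact mul_div_mul_left _ _ p3
  have hc : Continuous f := by
    rw [continuous_iff_continuousAt]
    intro x
    obtain ⟨i, hi⟩ := A.cover x
    have h1 : ContinuousAt (fun y => h.w i y / h'.w i y) x :=
      (hm_cont h hi).div (hm_cont h' hi) (h'.pos i x hi).ne'
    refine h1.congr ?_
    filter_upwards [(A.e i).open_source.mem_nhds hi] with y hy
    exact (hfi i y hy).symm
  obtain ⟨C, hC⟩ := (isCompact_range hc).bddAbove
  refine ⟨max C 1, by positivity, fun i x hx => ?_⟩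
  have h1 := hC ⟨x, rfl⟩
  rw [hfi i x hx] at h1
  have p1 := h'.pos i x hx
  have h2 := (div_le_iff₀ p1).1 h1
  exact h2.trans (mul_le_mul_of_nonneg_right (le_max_left _ _) p1.le)

/-- the growth conditions for every metric -/
theorem TFr.all [CompactSpace M] {N : LB A} {σ : A.ι → M → ℂ} (h : TFr S N σ) (hN : HM N) :
    Tame S (fun x => (1 + Real.exp (-(wtS hN σ x.val)))⁻¹) ∧
    Tame S (fun x => (1 + Real.exp (wtS hN σ x.val))⁻¹) := by
  obtain ⟨h1, h2, hN', h3, h4⟩ := h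
  obtain ⟨C, hC, hCb⟩ := hm_comp hN hN'
  obtain ⟨C', hC', hCb'⟩ := hm_comp hN' hN
  have e1 : ∀ x : Mo S, Real.exp (-(wtS hN σ x.val)) ≤ C * Real.exp (-(wtS hN' σ x.val)) := by
    intro x
    obtain ⟨i, hi⟩ := A.cover x.val
    rw [exp_wtS hN h1 h2 hi x.prop, exp_wtS hN' h1 h2 hi x.prop]
    have := mul_le_mul_of_nonneg_left (hCb i _ hi) (sq_nonneg ‖σ i x.val‖)
    linarith
  have e2 : ∀ x : Mo S, Real.exp (-(wtS hN' σ x.val)) ≤ C' * Real.exp (-(wtS hN σ x.val)) := by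
    intro x
    obtain ⟨i, hi⟩ := A.cover x.val
    rw [exp_wtS hN h1 h2 hi x.prop, exp_wtS hN' h1 h2 hi x.prop]
    have := mul_le_mul_of_nonneg_left (hCb' i _ hi) (sq_nonneg ‖σ i x.val‖)
    linarith
  constructor
  · refine h3.mono (C := 1 + C) (by positivity) fun x => ?_
    have p := Real.exp_pos (-(wtS hN σ x.val))
    have p' := Real.exp_pos (-(wtS hN' σ x.val))
    rw [← div_eq_mul_inv, inv_eq_one_div, div_le_div_iff₀ (by positivity) (by positivity)]
    nlinarith [e1 x]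
  · refine h4.mono (C := 1 + C') (by positivity) fun x => ?_
    have p := Real.exp_pos (wtS hN σ x.val)
    have p' := Real.exp_pos (wtS hN' σ x.val)
    have e3 : Real.exp (wtS hN σ x.val) ≤ C' * Real.exp (wtS hN' σ x.val) := by
      have := e2 x
      rw [Real.exp_neg, Real.exp_neg, ← div_eq_mul_inv, inv_eq_one_div,
        div_le_div_iff₀ p' p] at this
      linarith
    rw [← div_eq_mul_inv, inv_eq_one_div, div_le_div_iff₀ (by positivity) (by positivity)]
    nlinarith [e3]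

/-- `|g / σ|` -/
theorem norm_fn {N : LB A} (hN : HM N) {σ g : A.ι → M → ℂ} (hσ : IsHS N S.U σ)
    (h0 : ∀ i, ∀ x ∈ (A.e i).source, x ∈ S.U → σ i x ≠ 0) {f : M → ℂ}
    (hf : ∀ i, ∀ x ∈ (A.e i).source, x ∈ S.U → g i x = f x * σ i x) (x : Mo S) {i : A.ι}
    (hx : x.val ∈ (A.e i).source) :
    ‖f x.val‖ ^ 2 = (‖g i x.val‖ ^ 2 * hN.w i x.val) * Real.exp (wtS hN σ x.val) := by
  have e1 := exp_wtS hN hσ h0 hx x.prop
  have e2 : Real.exp (wtS hN σ x.val) * (‖σ i x.val‖ ^ 2 * hN.w i x.val) = 1 := by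
    rw [← e1, ← Real.exp_add, add_neg_cancel, Real.exp_zero]
  rw [hf i _ hx x.prop, norm_mul, mul_pow]
  calc ‖f x.val‖ ^ 2 = ‖f x.val‖ ^ 2 * (Real.exp (wtS hN σ x.val) *
        (‖σ i x.val‖ ^ 2 * hN.w i x.val)) := by rw [e2, mul_one]
    _ = _ := by ring

/-- sections divided by moderate frames are tame functions -/
theorem TFr.fn [CompactSpace M] {N : LB A} {σ g : A.ι → M → ℂ} (h : TFr S N σ)
    (hg : IsHS N univ g) {f : M → ℂ}
    (hf : ∀ i, ∀ x ∈ (A.e i).source, x ∈ S.U → g i x = f x * σ i x) :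
    TameF S fun x => f x.val := by
  obtain ⟨h1, h2, hN, h3, h4⟩ := h
  obtain ⟨C, hC, hCb⟩ := bdd_sec hN hg
  refine h4.mono (C := 1 + C) (by positivity) fun x => ?_
  obtain ⟨i, hi⟩ := A.cover x.val
  have e1 := norm_fn hN h1 h2 hf x hi
  have p := Real.exp_pos (wtS hN σ x.val)
  rw [← div_eq_mul_inv, inv_eq_one_div, div_le_div_iff₀ (by positivity) (by positivity), e1]
  nlinarith [hCb i _ hi, mul_le_mul_of_nonneg_right (hCb i _ hi) p.le]

/-- and their inverses, if the section has no zeros -/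
theorem TFr.fn_inv [CompactSpace M] {N : LB A} {σ g : A.ι → M → ℂ} (h : TFr S N σ)
    (hg : IsHS N univ g) (hU : S.U ⊆ nz g) {f : M → ℂ}
    (hf : ∀ i, ∀ x ∈ (A.e i).source, x ∈ S.U → g i x = f x * σ i x) :
    TameF S fun x => (f x.val)⁻¹ := by
  obtain ⟨h1, h2, hN, h3, h4⟩ := h
  have hg2 := ((TFr.of_sec hN hg hU).all hN).2
  have h0g : ∀ i, ∀ x ∈ (A.e i).source, x ∈ S.U → g i x ≠ 0 := fun i x hx hxU =>
    (mem_nz hg hx).1 (hU hxU)
  refine (Tame.mul h3 hg2).mono (C := 1) zero_le_one fun x => ?_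
  obtain ⟨i, hi⟩ := A.cover x.val
  have e1 := norm_fn hN h1 h2 hf x hi
  rw [← exp_wtS hN (hg.mono (subset_univ _)) h0g hi x.prop] at e1
  have e2 : ‖(f x.val)⁻¹‖ ^ 2 = Real.exp (-(wtS hN σ x.val)) * Real.exp (wtS hN g x.val) := by
    rw [norm_inv, inv_pow, e1, ← Real.exp_add, ← Real.exp_neg, ← Real.exp_add]
    congr 1
    ring
  rw [one_mul, ← mul_inv, e2]
  refine inv_anti₀ (by positivity) ?_
  nlinarith [Real.exp_pos (-(wtS hN σ x.val)), Real.exp_pos (wtS hN g x.val)]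

/-! ### A-GEOM with moderate frames -/

theorem tfr_frame [CompactSpace M] [Finite A.ι] (Pt : Part A) {P : ProjD A}
    (l0 : Fin (P.N + 1) → ℂ) {L : LB A} {m : ℕ} {u : A.ι → M → ℂ}
    (hu : IsHS (L * lb P ^ m) univ u) (hU0 : S.U ⊆ nz (lin P l0)) (hUu : S.U ⊆ nz u) :
    ∃ σ, TFr S L σ := by
  obtain ⟨h1⟩ := HM_333.exists_hm Pt (L * lb P ^ m)
  obtain ⟨h2⟩ := HM_333.exists_hm Pt (lb P)
  have k1 := TFr.of_sec h1 hu hUu
  have k2 := ((TFr.of_sec h2 (isHS_lin P l0) hU0).pow m).inv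
  have k3 := k1.mul k2
  rw [mul_inv_cancel_right] at k3
  exact ⟨_, k3⟩

/-- **A-GEOM**, moderate frames -/
theorem exists_geom' [CompactSpace M] [T2Space M] [ConnectedSpace M] [Finite A.ι] (Pt : Part A)
    (hD : D2 A) (P : ProjD A) {κ : Type} [Fintype κ] (Lr : κ → LB A) (sr : κ → A.ι → M → ℂ)
    (hsr : ∀ k, IsHS (Lr k) univ (sr k)) (hsz : ∀ k, Nz0 A (sr k))
    {κ' : Type} [Fintype κ'] (Lf : κ' → LB A) {b : ℕ} (q : Fin b → QS A) {i1 : A.ι} {x1 : M}
    (hx1 : x1 ∈ (A.e i1).source) (hqt : ∀ k, (q k).t i1 x1 ≠ 0)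
    (hLI : LinearIndependent ℂ fun k => df A i1 (q k).fn x1) :
    ∃ (hb : b ≤ n) (D : StD A P), (∀ k : Fin b, D.q (Fin.castLE hb k) = q k) ∧
      D.S.U.Nonempty ∧ (∀ k, D.S.U ⊆ nz (sr k)) ∧ (∀ k, D.S.U ⊆ nz (q k).t) ∧
      D.S.U ⊆ nz (lin P D.l0) ∧ ∀ j, ∃ σ, TFr D.S (Lf j) σ := by
  have hu : ∀ j, ∃ m u, IsHS (Lf j * lb P ^ m) univ u ∧ Nz0 A u := fun j => by
    obtain ⟨m0, h⟩ := Crest.Agent.R273.SerE_945.gg_proj Pt hD P (Lf j)
    obtain ⟨s, h1, h2⟩ := h m0 le_rfl x1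
    exact ⟨m0, s, h1, i1, x1, hx1, h2 i1 hx1⟩
  choose mf u hu hu0 using hu
  obtain ⟨hb, D, h1, h2, h3, h4, h5, -⟩ := exists_geom Pt hD P
    (κ := κ ⊕ κ') (Sum.elim Lr fun j => Lf j * lb P ^ mf j) (Sum.elim sr u)
    (by rintro (k | k); exacts [hsr k, hu k]) (by rintro (k | k); exacts [hsz k, hu0 k])
    (κ' := κ') Lf q hx1 hqt hLI
  exact ⟨hb, D, h1, h2, fun k => h3 (Sum.inl k), h4, h5, fun j =>
    tfr_frame Pt D.l0 (hu j) h5 (h3 (Sum.inr j))⟩

/-! ### tame functions are quotients -/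

/-- **functions of moderate growth are quotients of sections** -/
theorem ext_of_tame [MeasurableSpace M] [BorelSpace M] [Countable A.ι] [SecondCountableTopology M]
    [ConnectedSpace M] [CompactSpace M] {μ : Measure (Mo S)} (h : HM (KB A)⁻¹) (hμ : IsLeb μ)
    (hfin : vm h univ < ⊤)
    {LD : LB A} {d : A.ι → M → ℂ} (hd : IsHS LD univ d) (hd0 : Nz0 A d) (hU : S.U = nz d)
    {F : Mo S → ℂ} (hF : Hol F) (hT : TameF S F) :
    ∃ (N : LB A) (σ s : A.ι → M → ℂ), IsHS N S.U σ ∧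
      (∀ i, ∀ x ∈ (A.e i).source, x ∈ S.U → σ i x ≠ 0) ∧ IsHS N univ s ∧
      ∀ i, ∀ x : Mo S, x.val ∈ (A.e i).source → s i x.val = F x * σ i x.val := by
  obtain ⟨N, hN, σ, hσ, h0, C, hC, hC2⟩ := hT
  have hk : ∀ i, ∀ x ∈ (A.e i).source, x ∈ S.U → (kf S * σ) i x ≠ 0 := fun i x hx hxU =>
    mul_ne_zero (kf_ne i x hx hxU) (h0 i x hx hxU)
  have hkσ : IsHS ((KB A)⁻¹ * N) S.U (kf S * σ) := (isHS_kf S).mul hσ
  have hFc : Continuous F := (Pen_93.w_hol hF).sm.continuous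
  obtain ⟨s, hs, hsF⟩ := l2_ext h hμ (HM_333.mul h hN) hkσ hk hd hd0 hU hF (by
    refine lt_of_le_of_lt (lintegral_mono (g := fun x : Mo S => vS h S x *
      (fun _ : M => ENNReal.ofReal C) x.val) fun x => ?_) ?_
    · show ‖F x‖ₑ ^ 2 * ENNReal.ofReal (Real.exp (-(wtS (HM_333.mul h hN) (kf S * σ) x.val))) ≤
        vS h S x * ENNReal.ofReal C
      rw [wtS_mul h hN (isHS_kf S) hσ kf_ne h0, vS, ← ofReal_norm (F x),
        ← ENNReal.ofReal_pow (norm_nonneg _), ← ENNReal.ofReal_mul (by positivity),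
        ← ENNReal.ofReal_mul (by positivity)]
      apply ENNReal.ofReal_le_ofReal
      rw [neg_add, Real.exp_add]
      have e1 := hC2 x
      have e2 : ‖F x‖ ^ 2 * Real.exp (-(wtS hN σ x.val)) ≤ C := by
        have p : (0 : ℝ) < 1 + ‖F x‖ ^ 2 := by positivity
        rw [← div_eq_mul_inv, le_div_iff₀ p] at e1
        have := Real.exp_pos (-(wtS hN σ x.val))
        nlinarith
      have e3 := mul_le_mul_of_nonneg_left e2 (Real.exp_pos (-(wtS h (kf S) x.val))).le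
      linarith
    · rw [lintegral_mu h hμ (fun _ => ENNReal.ofReal C) measurable_const, lintegral_const]
      refine ENNReal.mul_lt_top ENNReal.ofReal_lt_top ?_
      rw [Measure.restrict_apply MeasurableSet.univ]
      exact lt_of_le_of_lt (measure_mono (subset_univ _)) hfin)
  rw [mul_inv_cancel_left] at hs
  refine ⟨N, σ, s, hσ, h0, hs, fun i x hx => ?_⟩
  rw [hsF i x hx]
  have h1 : zf S i x.val ≠ 0 := zf_ne hx x.prop
  have h2 : kf S i x.val = (zf S i x.val)⁻¹ := rfl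
  rw [Pi.mul_apply, Pi.mul_apply, h2]
  field_simp

end

end Crest.Agent.R273.SteinH_794
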