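import Crest.Agent.R273.AsmA_73
import Crest.Agent.R273.SteinH_794
import Crest.Agent.R273.PenFin_93

/-!
# R273, Part A, half 1 (helper794): finite dimensionality and landing for `YD`

For `Y : YD h L hL` (helper73) and `V0 = φ_K + u`, `u ≤ 0` :
* `tamef_y`, `tamef_evp`, `tamef_inv` : moderate growth;
* `RR`, `le_RR`, `abs_le_RR`, `tame_RR` : the function `R` of `corner_final` (helper93);
* `hD`   : `A2 (em μ (V0 + N R))` is finite dimensional;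
* `hne`  : `A2 (em μ V0) ≠ 0`;
* `final`: `A2 (em μ (V0 + k Ψ)) ≠ 0` gives a section of `L ^ (j0 * e * k)`.
-/

set_option autoImplicit false
set_option linter.unusedSectionVars false

open Set Filter Topology Complex MeasureTheory
open scoped ContDiff Matrix ENNReal

namespace Crest.Agent.R273.FinYD_794

open Crest.Agent.R275.Geo Crest.Agent.R275.Core144
open Crest.Agent.R273.SteinA_794
open Crest.Agent.R273.SteinB_794 Crest.Agent.R273.SteinC_794 Crest.Agent.R273.SteinD_794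
open Crest.Agent.R273.SteinM_794 Crest.Agent.R273.SteinN_794 Crest.Agent.R273.SteinL_794
open Crest.Agent.R273.SteinF_794 Crest.Agent.R273.SteinG_794 Crest.Agent.R273.SteinH_794
open Crest.Agent.R273.Defs_333 (ProjD HM HM.wt HM.Semipos HasSec)
open Crest.Agent.R273.Vm_333 (vm)
open Crest.Agent.R271.Ho51 (RDom cp ch IsCh IsLeb Hol Sm mem_ch isCh_ch Levi)
open Crest.Agent.R273.Pen_93 Crest.Agent.R273.PenAlg_93 Crest.Agent.R273.PenFin_93
open Crest.Agent.R273.AsmA_73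

noncomputable section

variable {n : ℕ} {M : Type} [TopologicalSpace M] {A : Atl n M} [CompactSpace M] [T2Space M]
  [SecondCountableTopology M] {h : HM (KB A)⁻¹} {L : LB A} {hL : HM L} (Y : YD h L hL)

/-! ### moderate growth -/

theorem t_sub : Y.S.U ⊆ nz Y.t := fun x hx => by
  obtain ⟨i, hi⟩ := A.cover x
  exact (mem_nz Y.ht hi).2 (Y.t0 i x hi hx)

theorem y_qt (l : Fin Y.N) (x : Mo Y.S) : Y.y l x = qt (Y.s l) Y.t x.val := by
  obtain ⟨i, hi⟩ := A.cover x.val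
  rw [qt_eq (Y.hs l) Y.ht hi, Y.rel l i x hi, mul_div_cancel_right₀ _ (Y.t0 i _ hi x.prop)]

theorem tamef_y (l : Fin Y.N) : TameF Y.S (Y.y l) := by
  have h1 := TameF.qt Y.hBy (Y.hs l) Y.ht (t_sub Y)
  have h2 : Y.y l = fun x : Mo Y.S => qt (Y.s l) Y.t x.val := funext (y_qt Y l)
  rw [h2]
  exact h1

theorem tamef_evp (p : ℕ → MvPolynomial (Fin Y.N) ℂ) (j : ℕ) : TameF Y.S (evp Y.y p j) :=
  TameF.eval (tamef_y Y) (p j)

theorem tamef_inv {p : ℕ → MvPolynomial (Fin Y.N) ℂ} {j : ℕ} (h0 : ∀ x, evp Y.y p j x ≠ 0) :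
    TameF Y.S fun x => (evp Y.y p j x)⁻¹ := by
  obtain ⟨D, hD⟩ := homog Y.hs Y.ht (p j)
  obtain ⟨r, hr, hrt⟩ := hD D le_rfl
  have ev : ∀ x : Mo Y.S, evp Y.y p j x =
      MvPolynomial.eval (fun k => qt (Y.s k) Y.t x.val) (p j) := by
    intro x
    unfold evp
    congr 1
    congr 1
    funext l
    exact y_qt Y l x
  have hU : Y.S.U ⊆ nz r := fun x hx => by
    obtain ⟨i, hi⟩ := A.cover x
    refine (mem_nz hr hi).2 ?_
    rw [hrt i x hi (Y.t0 i x hi hx)]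
    refine mul_ne_zero ?_ (pow_ne_zero _ (Y.t0 i x hi hx))
    have := h0 ⟨x, hx⟩
    rwa [ev] at this
  have h1 := ((TFr.of_sec Y.hBy Y.ht (t_sub Y)).pow D).fn_inv hr hU
    (f := fun x => MvPolynomial.eval (fun k => qt (Y.s k) Y.t x) (p j)) (fun i x hx hxU => by
      rw [hrt i x hx (Y.t0 i x hx hxU)]
      simp [oneS_eq hx])
  have h2 : (fun x => (evp Y.y p j x)⁻¹) = fun x : Mo Y.S =>
      (MvPolynomial.eval (fun k => qt (Y.s k) Y.t x.val) (p j))⁻¹ := funext fun x => by rw [ev]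
  rw [h2]
  exact h1

theorem evp_hol (p : ℕ → MvPolynomial (Fin Y.N) ℂ) (j : ℕ) : Hol (evp Y.y p j) := by
  unfold evp
  generalize p j = P
  induction P using MvPolynomial.induction_on with
  | C a => simpa using hol_const (M := Mo Y.S) a
  | add p q hp hq => simpa using hol_add hp hq
  | mul_X p k hp => simpa using hol_mul hp (Y.hy k)

/-! ### the function `R` -/

/-- one family -/
def B1 (p : ℕ → MvPolynomial (Fin Y.N) ℂ) (m : ℕ) (x : Mo Y.S) : ℝ :=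
  (1 + Bf (evp Y.y p) m x) * (1 + ‖(evp Y.y p 0 x)⁻¹‖ ^ 2)

theorem B1_ge (p : ℕ → MvPolynomial (Fin Y.N) ℂ) (h0 : ∀ x, evp Y.y p 0 x ≠ 0) (m : ℕ)
    (x : Mo Y.S) : 1 ≤ B1 Y p m x := by
  unfold B1
  have h1 := (Bf_pos h0 m x).le
  have h2 := sq_nonneg ‖(evp Y.y p 0 x)⁻¹‖
  nlinarith [mul_nonneg h1 h2]

theorem abs_Pf_le (p : ℕ → MvPolynomial (Fin Y.N) ℂ) (h0 : ∀ x, evp Y.y p 0 x ≠ 0) (m : ℕ)
    (x : Mo Y.S) : |Pf (evp Y.y p) m x| ≤ Real.log (B1 Y p m x) := by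
  have h1 := Bf_pos h0 m x
  have h2 : 0 < ‖evp Y.y p 0 x‖ ^ 2 := by
    have := norm_pos_iff.2 (h0 x)
    positivity
  have h3 : ‖evp Y.y p 0 x‖ ^ 2 ≤ Bf (evp Y.y p) m x := by
    have h4 := Pf_mono (evp Y.y p) h0 (Nat.zero_le m) x
    unfold Pf at h4
    rw [Real.log_le_log_iff (Bf_pos h0 0 x) h1, Bf_zero] at h4
    exact h4
  have h5 : 0 ≤ ‖(evp Y.y p 0 x)⁻¹‖ ^ 2 := by positivity
  unfold Pf B1
  rw [abs_le]
  constructor
  · rw [neg_le, ← Real.log_inv]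
    refine Real.log_le_log (inv_pos.2 h1) ?_
    have h6 : (Bf (evp Y.y p) m x)⁻¹ ≤ ‖(evp Y.y p 0 x)⁻¹‖ ^ 2 := by
      rw [norm_inv, inv_pow]
      exact inv_anti₀ h2 h3
    nlinarith
  · refine Real.log_le_log h1 ?_
    nlinarith

theorem tame_B1 (p : ℕ → MvPolynomial (Fin Y.N) ℂ) (h0 : ∀ x, evp Y.y p 0 x ≠ 0) (m : ℕ) :
    Tame Y.S fun x => (B1 Y p m x)⁻¹ := by
  have h1 : Tame Y.S fun x => (Bf (evp Y.y p) m x)⁻¹ :=
    Tame.Bf h0 m fun j _ => tamef_evp Y p j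
  -- `1 / (1 + B) ≥ c / (stuff)`
  have h2 : Tame Y.S fun x => (1 + ‖(evp Y.y p 0 x)⁻¹‖ ^ 2)⁻¹ := tamef_inv Y h0
  refine (Tame.mul (Tame.mul h1 h2) h2).mono (C := 1) zero_le_one fun x => ?_
  have p1 := Bf_pos h0 m x
  have p2 : 0 < ‖evp Y.y p 0 x‖ ^ 2 := by
    have := norm_pos_iff.2 (h0 x)
    positivity
  have p3 : ‖evp Y.y p 0 x‖ ^ 2 ≤ Bf (evp Y.y p) m x := by
    have h4 := Pf_mono (evp Y.y p) h0 (Nat.zero_le m) x
    unfold Pf at h4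
    rw [Real.log_le_log_iff (Bf_pos h0 0 x) p1, Bf_zero] at h4
    exact h4
  have p5 : 0 ≤ ‖(evp Y.y p 0 x)⁻¹‖ ^ 2 := by positivity
  have p6 : 1 ≤ Bf (evp Y.y p) m x * ‖(evp Y.y p 0 x)⁻¹‖ ^ 2 := by
    rw [norm_inv, inv_pow, ← div_eq_mul_inv, le_div_iff₀ p2]
    linarith
  unfold B1
  rw [one_mul, ← mul_inv, ← mul_inv]
  refine inv_anti₀ (by positivity) ?_
  nlinarith [mul_nonneg p1.le p5]

/-- the function `R` -/
def RR (x : Mo Y.S) : ℝ := Real.log (B1 Y Y.p Y.m x) + Real.log (B1 Y Y.p' Y.m' x)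

theorem le_RR (x : Mo Y.S) : |Pf (evp Y.y Y.p) Y.m x| ≤ RR Y x := by
  have h1 := abs_Pf_le Y Y.p Y.c0 Y.m x
  have h2 := Real.log_nonneg (B1_ge Y Y.p' Y.c0' Y.m' x)
  unfold RR
  linarith

theorem le_RR' (x : Mo Y.S) : |Pf (evp Y.y Y.p') Y.m' x| ≤ RR Y x := by
  have h1 := abs_Pf_le Y Y.p' Y.c0' Y.m' x
  have h2 := Real.log_nonneg (B1_ge Y Y.p Y.c0 Y.m x)
  unfold RR
  linarith

theorem exp_RR (x : Mo Y.S) :
    Real.exp (-RR Y x) = (B1 Y Y.p Y.m x)⁻¹ * (B1 Y Y.p' Y.m' x)⁻¹ := by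
  unfold RR
  rw [neg_add, Real.exp_add, Real.exp_neg, Real.exp_neg,
    Real.exp_log (lt_of_lt_of_le one_pos (B1_ge Y Y.p Y.c0 Y.m x)),
    Real.exp_log (lt_of_lt_of_le one_pos (B1_ge Y Y.p' Y.c0' Y.m' x))]

theorem tame_RR : Tame Y.S fun x => Real.exp (-RR Y x) := by
  simp only [exp_RR]
  exact (tame_B1 Y Y.p Y.c0 Y.m).mul (tame_B1 Y Y.p' Y.c0' Y.m')

theorem B1_cont (p : ℕ → MvPolynomial (Fin Y.N) ℂ) (h0 : ∀ x, evp Y.y p 0 x ≠ 0) (m : ℕ) :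
    Continuous (B1 Y p m) := by
  have h1 : Continuous (Bf (evp Y.y p) m) := Bf_cont (evp_hol Y p) m
  have h2 : Continuous fun x => (evp Y.y p 0 x)⁻¹ := (hol_cont (evp_hol Y p 0)).inv₀ h0
  exact (continuous_const.add h1).mul (continuous_const.add (h2.norm.pow 2))

theorem RR_cont : Continuous (RR Y) := by
  refine Continuous.add ?_ ?_
  · exact (B1_cont Y Y.p Y.c0 Y.m).log fun x =>
      (lt_of_lt_of_le one_pos (B1_ge Y Y.p Y.c0 Y.m x)).ne'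
  · exact (B1_cont Y Y.p' Y.c0' Y.m').log fun x =>
      (lt_of_lt_of_le one_pos (B1_ge Y Y.p' Y.c0' Y.m' x)).ne'

/-! ### the frame of `L ^ (j0 * e * k)` -/

/-- the power of `lam` as a section of the trivial bundle -/
def lamS : A.ι → M → ℂ := funS A (ext0 Y.lam)

theorem isHS_lamS : IsHS (1 : LB A) Y.S.U (lamS Y) := isHS_funS fun i => holAt_ext0 Y.hlam i

theorem lamS_val {i : A.ι} (x : Mo Y.S) (hx : x.val ∈ (A.e i).source) :
    lamS Y i x.val = Y.lam x := by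
  unfold lamS funS
  rw [if_pos hx, ext0_val]

theorem lamS_ne : ∀ i, ∀ x ∈ (A.e i).source, x ∈ Y.S.U → lamS Y i x ≠ 0 := by
  intro i x hx hxU
  have := lamS_val Y (i := i) ⟨x, hxU⟩ hx
  have h2 : lamS Y i x = Y.lam ⟨x, hxU⟩ := this
  rw [h2]
  exact Y.lam0 _

/-- the frame `lam σ ^ j0` of `L ^ j0` -/
def tau : A.ι → M → ℂ := lamS Y * (oneS A * Y.σ ^ Y.j0)

theorem isHS_tau : IsHS (L ^ Y.j0) Y.S.U (tau Y) := by
  have h1 := (isHS_lamS Y).mul (isHS_pow0 Y.hσ Y.j0)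
  rwa [one_mul] at h1

theorem tau_ne : ∀ i, ∀ x ∈ (A.e i).source, x ∈ Y.S.U → tau Y i x ≠ 0 := by
  intro i x hx hxU
  have h1 : tau Y i x = lamS Y i x * Y.σ i x ^ Y.j0 := by
    simp [tau, oneS_eq hx]
  rw [h1]
  exact mul_ne_zero (lamS_ne Y i x hx hxU) (pow_ne_zero _ (Y.σ0 i x hx hxU))

theorem exp_tau (x : Mo Y.S) : Real.exp (-(wtS (HM_333.pow hL Y.j0) (tau Y) x.val)) =
    ‖Y.lam x‖ ^ 2 * Real.exp (-(Y.j0 * wtS hL Y.σ x.val)) := by
  obtain ⟨i, hi⟩ := A.cover x.val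
  rw [exp_wtS _ (isHS_tau Y) (tau_ne Y) hi x.prop, HM_333.pow_w, ← exp_nat_mul_neg,
    exp_wtS hL Y.hσ Y.σ0 hi x.prop]
  have h1 : tau Y i x.val = Y.lam x * Y.σ i x.val ^ Y.j0 := by
    simp [tau, oneS_eq hi, lamS_val Y x hi]
  rw [h1, norm_mul, norm_pow]
  ring

/-- the frame of `L ^ (j0 * q)` -/
def tauq (q : ℕ) : A.ι → M → ℂ := oneS A * tau Y ^ q

theorem isHS_tauq (q : ℕ) : IsHS (L ^ (Y.j0 * q)) Y.S.U (tauq Y q) := by
  rw [pow_mul]
  exact isHS_pow0 (isHS_tau Y) q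

theorem tauq_ne (q : ℕ) : ∀ i, ∀ x ∈ (A.e i).source, x ∈ Y.S.U → tauq Y q i x ≠ 0 := by
  intro i x hx hxU
  have h1 : tauq Y q i x = tau Y i x ^ q := by simp [tauq, oneS_eq hx]
  rw [h1]
  exact pow_ne_zero _ (tau_ne Y i x hx hxU)

theorem exp_tauq (q : ℕ) (x : Mo Y.S) :
    Real.exp (-(wtS (HM_333.pow hL (Y.j0 * q)) (tauq Y q) x.val)) =
      (‖Y.lam x‖ ^ 2 * Real.exp (-(Y.j0 * wtS hL Y.σ x.val))) ^ q := by
  obtain ⟨i, hi⟩ := A.cover x.val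
  rw [← exp_tau, exp_wtS _ (isHS_tauq Y q) (tauq_ne Y q) hi x.prop,
    exp_wtS _ (isHS_tau Y) (tau_ne Y) hi x.prop, HM_333.pow_w, HM_333.pow_w]
  have h1 : tauq Y q i x.val = tau Y i x.val ^ q := by simp [tauq, oneS_eq hi]
  rw [h1, norm_pow, mul_pow, pow_mul]
  ring

/-! ### finite dimensionality and landing -/

section fin

variable [ConnectedSpace M] [Finite A.ι] [MeasurableSpace M] [BorelSpace M]
  {μ : Measure (Mo Y.S)}

/-- the weight `V0` -/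
def V0 (u : M → ℝ) (x : Mo Y.S) : ℝ := wtS h (kf Y.S) x.val + u x.val

theorem meas_val : Measurable (Mo.val : Mo Y.S → M) := me_val.measurable

theorem V0_meas {u : M → ℝ} (hu : Measurable u) : Measurable (V0 Y u) :=
  (wtS_sm h (isHS_kf Y.S) kf_ne).continuous.measurable.add (hu.comp (meas_val Y))

theorem tame_V0 {u : M → ℝ} (hu0 : ∀ x, u x ≤ 0) :
    Tame Y.S fun x => Real.exp (-(V0 Y u x)) := by
  refine (Tame.of_frame h (isHS_kf Y.S) kf_ne).mono (C := 1) zero_le_one fun x => ?_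
  rw [one_mul]
  refine Real.exp_le_exp.2 ?_
  have := hu0 x.val
  unfold V0
  linarith

/-- **hypothesis `hD` of `corner_final`** -/
theorem hD (Pt : Part A) (hμ : IsLeb μ) {u : M → ℝ} (hu : Measurable u) (hu0 : ∀ x, u x ≤ 0)
    (N : ℕ) : FiniteDimensional ℂ (A2 (em μ fun x => V0 Y u x + N * RR Y x)) := by
  have hm : Measurable fun x => Real.exp (-(V0 Y u x + N * RR Y x)) :=
    Real.measurable_exp.comp (((V0_meas Y hu).add
      ((RR_cont Y).measurable.const_mul _)).neg)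
  refine fin_A2 Pt hμ Y.hd Y.d0 Y.U_eq hm ?_
  have h1 : ∀ x, Real.exp (-(V0 Y u x + N * RR Y x)) =
      Real.exp (-(V0 Y u x)) * Real.exp (-RR Y x) ^ N := by
    intro x
    rw [exp_nat_mul_neg, ← Real.exp_add]
    congr 1
    ring
  simp only [h1]
  exact (tame_V0 Y hu0).mul ((tame_RR Y).pow N)

/-- **hypothesis `hne` of `corner_final`** -/
theorem hne (Pt : Part A) (hμ : IsLeb μ) {u : M → ℝ} (hu : Measurable u) (hu0 : ∀ x, u x ≤ 0)
    (hi : ∫⁻ x, ENNReal.ofReal (Real.exp (-u x)) ∂(vm h) < ⊤) :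
    Module.finrank ℂ (A2 (em μ (V0 Y u))) ≠ 0 := by
  have h1 : (fun _ => 1 : Mo Y.S → ℂ) ∈ A2 (em μ (V0 Y u)) :=
    one_mem_A2 h hμ (hu.comp (meas_val Y)) (lt_of_le_of_lt (setLIntegral_le_lintegral _ _) hi)
  have hfd : FiniteDimensional ℂ (A2 (em μ (V0 Y u))) := by
    have h2 := hD Y Pt hμ hu hu0 0
    have h3 : (fun x => V0 Y u x + ((0 : ℕ) : ℝ) * RR Y x) = V0 Y u := by
      funext x
      simp
    rwa [h3] at h2
  have hne : Nonempty (Mo Y.S) := by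
    obtain ⟨x, hx⟩ := Nz0.exists_mem (Y.d0 : Nz0 A Y.d) Y.hd
    exact ⟨⟨x, by rw [Y.U_eq]; exact hx⟩⟩
  intro h0
  have h2 : (⟨fun _ => 1, h1⟩ : A2 (em μ (V0 Y u))) = 0 := by
    have := Module.finrank_zero_iff.1 h0
    exact Subsingleton.elim _ _
  have h3 := congrFun (congrArg Subtype.val h2) (Classical.arbitrary (Mo Y.S))
  exact one_ne_zero h3

/-- **landing** -/
theorem final (hμ : IsLeb μ) {u : M → ℝ} (hu : Measurable u) (hu0 : ∀ x, u x ≤ 0)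
    {Ψ : Mo Y.S → ℝ} (hΨm : Measurable Ψ) {C : ℝ}
    (hΨ : ∀ x, |Ψ x + Pf (evp Y.y Y.p) Y.m x - Pf (evp Y.y Y.p') Y.m' x| ≤ C) (k : ℕ)
    (hk : Module.finrank ℂ (A2 (em μ fun x => V0 Y u x + k * Ψ x)) ≠ 0) :
    HasSec (L ^ (Y.j0 * (Y.e * k))) := by
  obtain ⟨Ca, hCa, hUa⟩ := Y.Ua
  have hm : Measurable fun x => Real.exp (-(V0 Y u x + k * Ψ x)) :=
    Real.measurable_exp.comp (((V0_meas Y hu).add (hΨm.const_mul _)).neg)
  refine hasSec_of_A2 h hμ (HM_333.pow hL (Y.j0 * (Y.e * k))) (isHS_tauq Y (Y.e * k))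
    (tauq_ne Y (Y.e * k)) Y.hd Y.d0 Y.U_eq hm (C := (Ca * Real.exp C) ^ k) (by positivity)
    (fun x => ?_) hk
  set q := ‖Y.lam x‖ ^ 2 * Real.exp (-(Y.j0 * wtS hL Y.σ x.val)) with hq
  have hq0 : 0 ≤ q := by positivity
  have e1 := exp_tauq Y (Y.e * k) x
  rw [e1]
  have b1 := Bf_pos Y.c0 Y.m x
  have b2 := Bf_pos Y.c0' Y.m' x
  have e2 : q ^ Y.e ≤ Ca * Real.exp C * Real.exp (-Ψ x) := by
    have h1 := hUa x
    have h2 : q ^ Y.e ≤ Ca * (Bf (evp Y.y Y.p) Y.m x * (Bf (evp Y.y Y.p') Y.m' x)⁻¹) := by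
      rw [← mul_assoc, ← div_eq_mul_inv, le_div_iff₀ b2]
      exact h1
    refine h2.trans ?_
    rw [mul_assoc]
    refine mul_le_mul_of_nonneg_left ?_ hCa.le
    have h3 : Bf (evp Y.y Y.p) Y.m x = Real.exp (Pf (evp Y.y Y.p) Y.m x) := by
      unfold Pf
      rw [Real.exp_log b1]
    rw [Binv_exp Y.c0', h3, ← Real.exp_add, ← Real.exp_add]
    refine Real.exp_le_exp.2 ?_
    have := (abs_le.1 (hΨ x)).2
    linarith
  have e3 : Real.exp (-(wtS h (kf Y.S) x.val)) ≤ Real.exp (-(V0 Y u x)) := by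
    refine Real.exp_le_exp.2 ?_
    have := hu0 x.val
    unfold V0
    linarith
  have e4 : Real.exp (-(V0 Y u x + k * Ψ x)) = Real.exp (-(V0 Y u x)) * Real.exp (-Ψ x) ^ k := by
    rw [exp_nat_mul_neg, ← Real.exp_add]
    congr 1
    ring
  rw [e4, pow_mul]
  calc Real.exp (-(wtS h (kf Y.S) x.val)) * (q ^ Y.e) ^ k
      ≤ Real.exp (-(V0 Y u x)) * (Ca * Real.exp C * Real.exp (-Ψ x)) ^ k :=
        mul_le_mul e3 (pow_le_pow_left₀ (by positivity) e2 k) (by positivity) (Real.exp_pos _).le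
    _ = _ := by rw [mul_pow (Ca * Real.exp C)]; ring

end fin

end

end Crest.Agent.R273.FinYD_794
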