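import Crest.Agent.R273.Fock_243

/-!
# R273 (S0416), (helper155): minors of rectangular matrices

`GamR A` for `A : Matrix (Fin m) (Fin n) R`: the matrix of `Λ^* A : Λ^* R^n → Λ^* R^m`
(rectangular version of `Fock_243.Gam`, same proofs).
-/

set_option autoImplicit false

open Finset Matrix

namespace Crest.Agent.R273.GamR_155

open Crest.Agent.R275.Kos798 Crest.Agent.R273.Fock_243

variable {R : Type*} [CommRing R] {m n l : ℕ}

/-- a matrix is determined by its vacuum column and its commutation with the creation operators -/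
theorem ext_of_eWR {M N : Matrix (FI m) (FI n) R} (B : Fin n → Matrix (FI m) (FI m) R)
    (hM : ∀ j, M * eW (ep j) = B j * M) (hN : ∀ j, N * eW (ep j) = B j * N)
    (h0 : ∀ S, M S ∅ = N S ∅) : M = N := by
  apply Matrix.ext_of_mulVec_single
  intro T
  induction T using Finset.induction_on_min with
  | empty =>
    ext S
    rw [Matrix.mulVec_single_one, Matrix.mulVec_single_one]
    exact h0 S
  | insert a s ha ih =>
    rw [← eW_single ha, Matrix.mulVec_mulVec, Matrix.mulVec_mulVec, hM, hN,
      ← Matrix.mulVec_mulVec, ← Matrix.mulVec_mulVec, ih]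

/-! ### The matrix of minors -/

/-- the matrix of minors -/
def GamR (A : Matrix (Fin m) (Fin n) R) : Matrix (FI m) (FI n) R := fun S T =>
  if h : S.card = T.card then
    (A.submatrix (S.orderEmbOfFin rfl) (T.orderEmbOfFin h.symm)).det else 0

theorem GamR_eq (A : Matrix (Fin m) (Fin n) R) {S : FI m} {T : FI n} {k : ℕ} (hS : S.card = k)
    (hT : T.card = k) :
    GamR A S T = (A.submatrix (S.orderEmbOfFin hS) (T.orderEmbOfFin hT)).det := by
  subst hS
  unfold GamR
  rw [dif_pos hT.symm]

theorem GamR_of_ne (A : Matrix (Fin m) (Fin n) R) {S : FI m} {T : FI n} (h : S.card ≠ T.card) :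
    GamR A S T = 0 := by
  unfold GamR
  rw [dif_neg h]

theorem GamR_vac (A : Matrix (Fin m) (Fin n) R) (S : FI m) :
    GamR A S ∅ = if S = ∅ then 1 else 0 := by
  by_cases hS : S = ∅
  · subst hS
    rw [if_pos rfl, GamR_eq A (k := 0) rfl rfl]
    exact Matrix.det_isEmpty
  · rw [if_neg hS]
    exact GamR_of_ne A (by rw [Finset.card_empty]; exact fun h => hS (Finset.card_eq_zero.1 h))

theorem GamR_transpose (A : Matrix (Fin m) (Fin n) R) : (GamR A)ᵀ = GamR Aᵀ := by
  ext S T
  rw [Matrix.transpose_apply]
  by_cases h : T.card = S.card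
  · rw [GamR_eq A h rfl, GamR_eq Aᵀ rfl h, ← Matrix.det_transpose, Matrix.transpose_submatrix]
  · rw [GamR_of_ne _ h, GamR_of_ne _ (Ne.symm h)]

theorem GamR_map {R' : Type*} [CommRing R'] (f : R →+* R') (A : Matrix (Fin m) (Fin n) R) :
    (GamR A).map f = GamR (A.map f) := by
  ext S T
  rw [Matrix.map_apply]
  by_cases h : S.card = T.card
  · rw [GamR_eq A rfl h.symm, GamR_eq _ rfl h.symm, RingHom.map_det]
    rfl
  · rw [GamR_of_ne _ h, GamR_of_ne _ h, map_zero]

/-- Laplace expansion along the first column -/
theorem GamR_insert (A : Matrix (Fin m) (Fin n) R) {t : Fin n} {T : FI n} (h : ∀ k ∈ T, t < k)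
    (S : FI m) : GamR A S (insert t T) = (eW (fun j => A j t) * GamR A) S T := by
  have ht : t ∉ T := fun h' => lt_irrefl _ (h t h')
  have e1 : (eW (fun j => A j t) * GamR A) S T
      = ∑ j ∈ S, sgn R j S * A j t * GamR A (S.erase j) T := by
    have : (eW (fun j => A j t) * GamR A) S T = (K (fun j => A j t) 0 *ᵥ (fun U => GamR A U T)) S :=
      rfl
    rw [this, K_mulVec]
    unfold op cf
    rw [← Finset.sum_subset (Finset.subset_univ S)]
    · refine Finset.sum_congr rfl fun j hj => ?_
      rw [if_pos hj]
      unfold tog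
      rw [if_pos hj]
    · intro j _ hj
      rw [if_neg hj]
      simp
  rw [e1]
  by_cases hc : S.card = T.card + 1
  · have hT : (insert t T).card = T.card + 1 := Finset.card_insert_of_notMem ht
    rw [GamR_eq A hc hT, Matrix.det_succ_column_zero]
    have e2 : ∑ j ∈ S, sgn R j S * A j t * GamR A (S.erase j) T
        = ∑ i : Fin (T.card + 1), sgn R (S.orderEmbOfFin hc i) S * A (S.orderEmbOfFin hc i) t *
          GamR A (S.erase (S.orderEmbOfFin hc i)) T := by
      conv_lhs => rw [← Finset.map_orderEmbOfFin_univ S hc]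
      rw [Finset.sum_map]
      simp only [RelEmbedding.coe_toEmbedding, Finset.map_orderEmbOfFin_univ]
    rw [e2]
    refine Finset.sum_congr rfl fun i _ => ?_
    have h1 : (insert t T).orderEmbOfFin hT 0 = t := by
      rw [← Fin.mk_zero' , Finset.orderEmbOfFin_zero hT (by omega)]
      rw [Finset.min'_eq_iff]
      refine ⟨Finset.mem_insert_self t T, fun k hk => ?_⟩
      rcases Finset.mem_insert.1 hk with rfl | hk
      · exact le_rfl
      · exact (h k hk).le
    have h2 : (fun j : Fin T.card => (insert t T).orderEmbOfFin hT j.succ)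
        = T.orderEmbOfFin rfl := by
      apply Finset.orderEmbOfFin_unique
      · intro j
        have h3 : (insert t T).orderEmbOfFin hT j.succ ∈ insert t T :=
          Finset.orderEmbOfFin_mem _ hT _
        rcases Finset.mem_insert.1 h3 with h4 | h4
        · exfalso
          exact absurd ((insert t T).orderEmbOfFin hT |>.injective (h4.trans h1.symm))
            (Fin.succ_ne_zero j)
        · exact h4
      · intro a b hab
        exact ((insert t T).orderEmbOfFin hT).strictMono (Fin.succ_lt_succ_iff.2 hab)
    have hE : (S.erase (S.orderEmbOfFin hc i)).card = T.card := by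
      rw [Finset.card_erase_of_mem (Finset.orderEmbOfFin_mem S hc i), hc, Nat.add_sub_cancel]
    have h3 : (fun j : Fin T.card => S.orderEmbOfFin hc (i.succAbove j))
        = (S.erase (S.orderEmbOfFin hc i)).orderEmbOfFin hE := by
      apply Finset.orderEmbOfFin_unique
      · intro j
        refine Finset.mem_erase.2 ⟨fun h4 => ?_, Finset.orderEmbOfFin_mem _ hc _⟩
        exact absurd ((S.orderEmbOfFin hc).injective h4) (Fin.succAbove_ne i j)
      · intro a b hab
        exact (S.orderEmbOfFin hc).strictMono (Fin.strictMono_succAbove i hab)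
    have h4 : sgn R (S.orderEmbOfFin hc i) S = (-1) ^ (i : ℕ) := by
      unfold sgn
      rw [card_filter_lt hc i]
    rw [GamR_eq A hE rfl, h4]
    simp only [Matrix.submatrix_apply, h1]
    congr 2
    ext a b
    simp only [Matrix.submatrix_apply]
    rw [← h3, ← h2]
  · rw [GamR_of_ne A (by rw [Finset.card_insert_of_notMem ht]; exact hc)]
    symm
    refine Finset.sum_eq_zero fun j hj => ?_
    rw [GamR_of_ne A (by
      rw [Finset.card_erase_of_mem hj]
      have := Finset.card_pos.2 ⟨j, hj⟩
      omega), mul_zero]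

theorem GamR_mulVec_insert (A : Matrix (Fin m) (Fin n) R) {t : Fin n} {T : FI n}
    (h : ∀ k ∈ T, t < k) : GamR A *ᵥ Pi.single (insert t T) 1
      = eW (fun j => A j t) *ᵥ (GamR A *ᵥ Pi.single T 1) := by
  rw [Matrix.mulVec_mulVec]
  ext S
  rw [Matrix.mulVec_single_one, Matrix.mulVec_single_one]
  exact GamR_insert A h S

theorem GamR_eW_ep (A : Matrix (Fin m) (Fin n) R) (j : Fin n) :
    GamR A * eW (ep j) = eW (fun k => A k j) * GamR A := by
  apply Matrix.ext_of_mulVec_single
  intro T
  induction T using Finset.induction_on_min generalizing j with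
  | empty =>
    rw [← Matrix.mulVec_mulVec, eW_single (by simp), GamR_mulVec_insert A (by simp),
      Matrix.mulVec_mulVec]
  | insert t T ht ih =>
    rcases lt_trichotomy j t with h | h | h
    · have h1 : ∀ k ∈ insert t T, j < k := by
        intro k hk
        rcases Finset.mem_insert.1 hk with rfl | hk
        · exact h
        · exact h.trans (ht k hk)
      rw [← Matrix.mulVec_mulVec, eW_single h1, GamR_mulVec_insert A h1, Matrix.mulVec_mulVec]
    · subst h
      have e1 : (GamR A * eW (ep j)) *ᵥ Pi.single (insert j T) 1 = 0 := by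
        rw [← eW_single ht, Matrix.mulVec_mulVec, Matrix.mul_assoc, eW_sq, Matrix.mul_zero, Matrix.zero_mulVec]
      have e2 : (eW (fun k => A k j) * GamR A) *ᵥ Pi.single (insert j T) 1 = 0 := by
        rw [← Matrix.mulVec_mulVec, GamR_mulVec_insert A ht, Matrix.mulVec_mulVec, eW_sq,
          Matrix.zero_mulVec]
      rw [e1, e2]
    · have h1 : (GamR A * eW (ep t)) *ᵥ (eW (ep j) *ᵥ Pi.single T 1)
          = (eW (fun k => A k t) * GamR A) *ᵥ (eW (ep j) *ᵥ Pi.single T 1) := by
        -- `e_j ε_T` is a combination of words with all letters `> t`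
        have h2 : eW (ep j) *ᵥ Pi.single T (1 : R)
            = ∑ U, (eW (ep j : Fin n → R) U T) • (Pi.single U 1 : FI n → R) := by
          ext S
          rw [Matrix.mulVec_single_one]
          simp [Finset.sum_apply, Pi.single_apply, Matrix.col_apply]
        rw [h2]
        simp only [Matrix.mulVec_sum, Matrix.mulVec_smul]
        refine Finset.sum_congr rfl fun U _ => ?_
        by_cases h3 : eW (ep j : Fin n → R) U T = 0
        · rw [h3, zero_smul, zero_smul]
        · congr 1
          have h4 : ∀ k ∈ U, t < k := by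
            have h5 : tog U j = T := by
              by_contra h5
              apply h3
              unfold eW
              by_cases h6 : ∃ l, tog U l = T
              · obtain ⟨l, h6⟩ := h6
                have hl : l ≠ j := fun h7 => h5 (h7 ▸ h6)
                rw [← h6, K_apply_tog]
                unfold cf
                rw [show (ep j : Fin n → R) l = 0 from Pi.single_eq_of_ne hl 1]
                simp
              · push Not at h6
                exact K_apply_eq_zero _ _ h6
            intro k hk
            by_cases hkj : k = j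
            · subst hkj; exact h
            · apply ht
              rw [← h5, mem_tog_of_ne _ hkj]
              exact hk
          rw [← Matrix.mulVec_mulVec, eW_single h4, GamR_mulVec_insert A h4, Matrix.mulVec_mulVec]
      have h2 : eW (ep j : Fin n → R) * eW (ep t) = - (eW (ep t) * eW (ep j)) :=
        eq_neg_of_add_eq_zero_left (eW_anti _ _)
      have h3 : eW (fun k => A k j) * eW (fun k => A k t)
          = - (eW (fun k => A k t) * eW (fun k => A k j)) :=
        eq_neg_of_add_eq_zero_left (eW_anti _ _)
      have ihj := ih j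
      calc (GamR A * eW (ep j)) *ᵥ Pi.single (insert t T) 1
          = (GamR A * (eW (ep j) * eW (ep t))) *ᵥ Pi.single T 1 := by
            rw [← eW_single ht, Matrix.mulVec_mulVec, Matrix.mul_assoc]
        _ = - ((GamR A * eW (ep t)) *ᵥ (eW (ep j) *ᵥ Pi.single T 1)) := by
            rw [h2, Matrix.mul_neg, Matrix.neg_mulVec, Matrix.mulVec_mulVec, Matrix.mul_assoc]
        _ = - (eW (fun k => A k t) *ᵥ ((GamR A * eW (ep j)) *ᵥ Pi.single T 1)) := by
            rw [h1, Matrix.mulVec_mulVec, Matrix.mulVec_mulVec, Matrix.mul_assoc]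
        _ = - (eW (fun k => A k t) *ᵥ ((eW (fun k => A k j) * GamR A) *ᵥ Pi.single T 1)) := by
            rw [ihj]
        _ = (eW (fun k => A k j) * (eW (fun k => A k t) * GamR A)) *ᵥ Pi.single T 1 := by
            rw [← Matrix.mul_assoc, h3, Matrix.neg_mul, Matrix.neg_mulVec, Matrix.mulVec_mulVec,
              Matrix.mul_assoc]
        _ = (eW (fun k => A k j) * GamR A) *ᵥ Pi.single (insert t T) 1 := by
            rw [← Matrix.mulVec_mulVec, ← Matrix.mulVec_mulVec, ← Matrix.mulVec_mulVec,
              GamR_mulVec_insert A ht]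

/-- functoriality: `Λ(A) (v ∧ x) = (A v) ∧ Λ(A) x` -/
theorem GamR_eW (A : Matrix (Fin m) (Fin n) R) (v : Fin n → R) :
    GamR A * eW v = eW (A *ᵥ v) * GamR A := by
  have h1 : A *ᵥ v = ∑ j, v j • (fun k => A k j) := by
    ext k
    simp [Matrix.mulVec, dotProduct, Finset.sum_apply, mul_comm]
  have h2 : ∀ s : Finset (Fin n), eW (∑ j ∈ s, v j • (fun k => A k j))
      = ∑ j ∈ s, v j • eW (fun k => A k j) := by
    intro s
    induction s using Finset.induction_on with
    | empty => simp
    | insert a s ha ih => rw [Finset.sum_insert ha, Finset.sum_insert ha, eW_add, eW_smul, ih]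
  rw [h1, h2, eW_eq_sum v, Matrix.mul_sum, Matrix.sum_mul]
  refine Finset.sum_congr rfl fun j _ => ?_
  rw [Matrix.mul_smul, GamR_eW_ep, Matrix.smul_mul]

theorem iW_GamR (A : Matrix (Fin m) (Fin n) R) (w : Fin m → R) :
    iW w * GamR A = GamR A * iW (Aᵀ *ᵥ w) := by
  have h := congrArg Matrix.transpose (GamR_eW Aᵀ w)
  rw [Matrix.transpose_mul, Matrix.transpose_mul, GamR_transpose, Matrix.transpose_transpose,
    eW_transpose, eW_transpose] at h
  exact h

theorem GamR_eq_Gam (A : Matrix (Fin n) (Fin n) R) : GamR A = Gam A := rfl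

theorem GamR_one : GamR (1 : Matrix (Fin n) (Fin n) R) = 1 := Gam_one

theorem GamR_mul (A : Matrix (Fin l) (Fin m) R) (B : Matrix (Fin m) (Fin n) R) :
    GamR (A * B) = GamR A * GamR B := by
  refine ext_of_eWR (fun j => eW ((A * B) *ᵥ ep j)) (fun j => ?_) (fun j => ?_) fun S => ?_
  · rw [GamR_eW]
  · rw [Matrix.mul_assoc, GamR_eW, ← Matrix.mul_assoc, GamR_eW, Matrix.mul_assoc,
      Matrix.mulVec_mulVec]
  · rw [GamR_vac, Matrix.mul_apply, Finset.sum_eq_single ∅]
    · rw [GamR_vac, GamR_vac]; simp
    · intro U _ hU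
      rw [GamR_vac B, if_neg hU, mul_zero]
    · simp

/-- `∑ e_k ∂_{k̄} Γ = 0` for a symmetric derivative, rectangular version -/
theorem kahler_eR {A : Matrix (Fin m) (Fin n) R} (A' : Fin m → Matrix (Fin m) (Fin n) R)
    (G' : Fin m → Matrix (FI m) (FI n) R)
    (hG : ∀ k j, G' k * eW (ep j) = eW (fun b => A' k b j) * GamR A + eW (fun b => A b j) * G' k)
    (h0 : ∀ k S, G' k S ∅ = 0) (hs : ∀ k b c, A' k b c = A' b k c) :
    ∑ k, eW (ep k) * G' k = 0 := by
  refine ext_of_eWR (fun j => - eW (fun b => A b j)) (fun j => ?_) (fun j => by simp) fun S => ?_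
  · have h1 : ∑ k, eW (ep k) * eW (fun b => A' k b j) = (0 : Matrix (FI m) (FI m) R) := by
      have h2 : ∀ k, eW (ep k) * eW (fun b => A' k b j)
          = ∑ b, A' k b j • (eW (ep k) * eW (ep b) : Matrix (FI m) (FI m) R) := by
        intro k
        rw [eW_eq_sum (fun b => A' k b j), Finset.mul_sum]
        exact Finset.sum_congr rfl fun b _ => by rw [mul_smul_comm]
      -- the off diagonal terms cancel in pairs, the diagonal ones vanish
      simp_rw [h2]
      rw [← Finset.sum_product', ← Finset.sum_filter_add_sum_filter_not (s := univ ×ˢ univ)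
        (p := fun x : Fin m × Fin m => x.1 = x.2)]
      have h5 : ∑ x ∈ (univ ×ˢ univ).filter (fun x : Fin m × Fin m => x.1 = x.2),
          A' x.1 x.2 j • (eW (ep x.1) * eW (ep x.2) : Matrix (FI m) (FI m) R) = 0 := by
        refine Finset.sum_eq_zero fun x hx => ?_
        rw [Finset.mem_filter] at hx
        rw [← hx.2, eW_sq, smul_zero]
      have h6 : ∑ x ∈ (univ ×ˢ univ).filter (fun x : Fin m × Fin m => ¬ x.1 = x.2),
          A' x.1 x.2 j • (eW (ep x.1) * eW (ep x.2) : Matrix (FI m) (FI m) R) = 0 := by
        refine Finset.sum_involution (fun x _ => (x.2, x.1)) ?_ ?_ ?_ ?_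
        · rintro ⟨a, b⟩ _
          simp only
          rw [hs b a j, ← smul_add, eW_anti, smul_zero]
        · rintro ⟨a, b⟩ h _ heq
          simp only [mem_filter] at h
          exact h.2 (congrArg Prod.snd heq)
        · rintro ⟨a, b⟩ h
          simp only [mem_filter, mem_product, mem_univ, and_self, true_and] at h ⊢
          exact fun h' => h h'.symm
        · rintro ⟨a, b⟩ _; rfl
      rw [h5, h6, add_zero]
    have h2 : ∀ k, (eW (ep k) * G' k : Matrix (FI m) (FI n) R) * eW (ep j)
        = (eW (ep k) * eW (fun b => A' k b j) : Matrix (FI m) (FI m) R) * GamR A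
          - (eW (fun b => A b j) : Matrix (FI m) (FI m) R) *
            (eW (ep k) * G' k : Matrix (FI m) (FI n) R) := by
      intro k
      rw [Matrix.mul_assoc, hG, Matrix.mul_add, ← Matrix.mul_assoc, ← Matrix.mul_assoc,
        eq_neg_of_add_eq_zero_left (eW_anti (ep k) (fun b => A b j)), Matrix.neg_mul,
        Matrix.mul_assoc (eW fun b => A b j), sub_eq_add_neg]
    rw [Matrix.sum_mul, Finset.sum_congr rfl fun k _ => h2 k, Finset.sum_sub_distrib,
      ← Matrix.sum_mul, h1, ← Matrix.mul_sum, Matrix.neg_mul,
      Matrix.zero_mul, zero_sub]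
  · rw [Matrix.sum_apply]
    simp only [Matrix.zero_apply]
    refine Finset.sum_eq_zero fun k _ => ?_
    rw [Matrix.mul_apply]
    exact Finset.sum_eq_zero fun U _ => by rw [h0, mul_zero]

end Crest.Agent.R273.GamR_155
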