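import Mathlib

/-! Row 273, T9: Gordan's theorem over `ℤ` (422, post 1723).  A finite family in a finitely generated
torsion free abelian group without a nontrivial relation with natural coefficients is strictly
positive for some real functional, which can be chosen off finitely many kernels. -/

namespace Crest.Agent.R273.Gordan_106

open Filter Topology

variable {W : Type*} [AddCommGroup W]

/-- a nonzero element of a finitely generated torsion free group is positive for some integral
functional -/
theorem exists_pos (hfg : Module.Finite ℤ W)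
    (htf : ∀ (w : W) (m : ℕ), m ≠ 0 → m • w = 0 → w = 0) {w : W} (hw : w ≠ 0) :
    ∃ f : W →+ ℤ, 0 < f w := by
  have : Module.IsTorsionFree ℤ W := by
    refine Module.isTorsionFree_iff_smul_eq_zero.2 ?_
    intro r m hrm
    by_cases hr : r = 0
    · exact Or.inl hr
    · refine Or.inr (htf m r.natAbs (by simpa using hr) ?_)
      rcases Int.natAbs_eq r with h | h
      · rw [h] at hrm
        simpa using hrm
      · rw [h] at hrm
        simpa using hrm
  let b := Module.Free.chooseBasis ℤ W
  have h0 : b.repr w ≠ 0 := by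
    intro h0
    exact hw (by simpa using h0)
  obtain ⟨j, hj⟩ := Finsupp.ne_iff.1 h0
  have hj' : b.coord j w ≠ 0 := by simpa using hj
  rcases lt_or_gt_of_ne hj' with h | h
  · exact ⟨-(b.coord j).toAddMonoidHom, by simpa using h⟩
  · exact ⟨(b.coord j).toAddMonoidHom, by simpa using h⟩

/-- a rational number strictly between finitely many lower bounds and an upper bound -/
theorem exists_between_fin {ι : Type*} (s : Finset ι) (a : ι → ℚ) (b : ℚ) (h : ∀ i ∈ s, a i < b) :
    ∃ t : ℚ, (∀ i ∈ s, a i < t) ∧ t < b := by
  have h1 : ∀ᶠ t in 𝓝[<] b, ∀ i ∈ s, a i < t := by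
    rw [Filter.eventually_all_finset]
    intro i hi
    exact eventually_nhdsWithin_of_eventually_nhds (lt_mem_nhds (h i hi))
  have h2 : ∀ᶠ t in 𝓝[<] b, t < b := self_mem_nhdsWithin
  obtain ⟨t, h3, h4⟩ := (h1.and h2).exists
  exact ⟨t, h3, h4⟩

/-- integral Gordan theorem, on a finite subset of the index set -/
theorem gordan_fin (hfg : Module.Finite ℤ W)
    (htf : ∀ (w : W) (m : ℕ), m ≠ 0 → m • w = 0 → w = 0) {ι : Type*} (s : Finset ι) :
    ∀ (v : ι → W), (∀ c : ι → ℕ, ∑ i ∈ s, c i • v i = 0 → ∀ i ∈ s, c i = 0) →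
      ∃ f : W →+ ℤ, ∀ i ∈ s, 0 < f (v i) := by
  classical
  induction s using Finset.induction_on with
  | empty => intro v _; exact ⟨0, by simp⟩
  | insert a s ha ih =>
    intro v hv
    have hne : ∀ i ∈ s, i ≠ a := fun i hi h => ha (h ▸ hi)
    -- the family on `s`
    have h1 : ∀ c : ι → ℕ, ∑ i ∈ s, c i • v i = 0 → ∀ i ∈ s, c i = 0 := by
      intro c hc i hi
      have := hv (fun i => if i = a then 0 else c i) (by
        rw [Finset.sum_insert ha]
        simp only [if_true, zero_smul, zero_add]
        rw [← hc]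
        refine Finset.sum_congr rfl fun i hi => ?_
        rw [if_neg (hne i hi)]) i (Finset.mem_insert_of_mem hi)
      simpa [hne i hi] using this
    obtain ⟨f, hf⟩ := ih v h1
    rcases lt_trichotomy (f (v a)) 0 with hneg | hzero | hpos
    · -- negative case
      set p : ℕ := (f (v a)).natAbs with hp
      have hp0 : p ≠ 0 := by simpa [hp] using hneg.ne
      have hpz : (p : ℤ) = -f (v a) := by
        rw [hp]; omega
      have hq : ∀ i ∈ s, ((f (v i)).natAbs : ℤ) = f (v i) := fun i hi => by
        have := hf i hi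
        omega
      let u : ι → W := fun i => (f (v i)).natAbs • v a + p • v i
      have h2 : ∀ c : ι → ℕ, ∑ i ∈ s, c i • u i = 0 → ∀ i ∈ s, c i = 0 := by
        intro c hc i hi
        have := hv (fun i => if i = a then ∑ j ∈ s, c j * (f (v j)).natAbs else c i * p) (by
          rw [Finset.sum_insert ha]
          simp only [if_true]
          rw [← hc, Finset.sum_smul, Finset.sum_congr rfl (fun i hi => by
            rw [if_neg (hne i hi)] : ∀ i ∈ s, (if i = a then
              ∑ j ∈ s, c j * (f (v j)).natAbs else c i * p) • v i = (c i * p) • v i),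
            ← Finset.sum_add_distrib]
          refine Finset.sum_congr rfl fun i _ => ?_
          simp only [u, smul_add, mul_smul]) i (Finset.mem_insert_of_mem hi)
        simpa [hne i hi, hp0] using this
      obtain ⟨g, hg⟩ := ih u h2
      have hg' : ∀ i ∈ s, 0 < f (v i) * g (v a) + p * g (v i) := by
        intro i hi
        have := hg i hi
        simp only [u, map_add, map_nsmul, nsmul_eq_mul] at this
        rwa [hq i hi] at this
      obtain ⟨t, ht1, ht2⟩ := exists_between_fin s (fun i => -(g (v i) : ℚ) / (f (v i) : ℚ))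
        ((g (v a) : ℚ) / p) (by
          intro i hi
          have hfi : (0 : ℚ) < f (v i) := by exact_mod_cast hf i hi
          have hpp : (0 : ℚ) < p := by exact_mod_cast Nat.pos_of_ne_zero hp0
          rw [div_lt_div_iff₀ hfi hpp]
          have := hg' i hi
          have h3 : (0 : ℚ) < f (v i) * g (v a) + p * g (v i) := by exact_mod_cast this
          nlinarith)
      have htd : (0 : ℚ) < t.den := by exact_mod_cast t.den_pos
      refine ⟨t.den • g + t.num • f, fun i hi => ?_⟩
      have key : ∀ w : W, ((t.den • g + t.num • f : W →+ ℤ) w : ℚ) =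
          t.den * ((g w : ℚ) + t * (f w : ℚ)) := by
        intro w
        have : (t.num : ℚ) = t.den * t := by
          rw [mul_comm]; exact (Rat.mul_den_eq_num t).symm
        simp only [AddMonoidHom.add_apply, AddMonoidHom.coe_smul, Pi.smul_apply, nsmul_eq_mul,
          zsmul_eq_mul, Int.cast_add, Int.cast_mul, Int.cast_natCast, Int.cast_id]
        rw [this]; ring
      have goal : (0 : ℚ) < ((t.den • g + t.num • f : W →+ ℤ) (v i) : ℚ) := by
        rw [key]
        refine mul_pos htd ?_
        rcases Finset.mem_insert.1 hi with rfl | hi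
        · have hpp : (0 : ℚ) < p := by exact_mod_cast Nat.pos_of_ne_zero hp0
          rw [lt_div_iff₀ hpp] at ht2
          have h3 : (f (v i) : ℚ) = -p := by
            have : f (v i) = -(p : ℤ) := by omega
            exact_mod_cast this
          rw [h3]; linarith
        · have hfi : (0 : ℚ) < f (v i) := by exact_mod_cast hf i hi
          have h3 := ht1 i hi
          rw [div_lt_iff₀ hfi] at h3
          linarith
      exact_mod_cast goal
    · -- zero case
      have hva : v a ≠ 0 := by
        intro h0
        have := hv (fun i => if i = a then 1 else 0) (by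
          rw [Finset.sum_insert ha]
          simp only [if_true, h0, smul_zero, zero_add]
          refine Finset.sum_eq_zero fun i hi => ?_
          rw [if_neg (hne i hi), zero_smul]) a (Finset.mem_insert_self a s)
        simp at this
      obtain ⟨g, hg⟩ := exists_pos hfg htf hva
      -- a large multiple of `f`
      obtain ⟨N, hN⟩ : ∃ N : ℕ, ∀ i ∈ s, -g (v i) < N := by
        refine ⟨∑ i ∈ s, ((g (v i)).natAbs + 1), fun i hi => ?_⟩
        have : (g (v i)).natAbs + 1 ≤ ∑ i ∈ s, ((g (v i)).natAbs + 1) :=
          Finset.single_le_sum (f := fun i => (g (v i)).natAbs + 1) (fun _ _ => Nat.zero_le _) hi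
        have h3 : (((g (v i)).natAbs + 1 : ℕ) : ℤ) ≤ ((∑ i ∈ s, ((g (v i)).natAbs + 1) : ℕ) : ℤ) :=
          by exact_mod_cast this
        push_cast at h3 ⊢
        have h4 : -g (v i) ≤ |g (v i)| := neg_le_abs _
        linarith
      refine ⟨g + N • f, fun i hi => ?_⟩
      simp only [AddMonoidHom.add_apply, AddMonoidHom.coe_smul, Pi.smul_apply, nsmul_eq_mul]
      rcases Finset.mem_insert.1 hi with rfl | hi
      · rw [hzero]; simpa using hg
      · have h3 := hf i hi
        have h4 := hN i hi
        have h5 : (N : ℤ) * 1 ≤ N * f (v i) := by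
          refine mul_le_mul_of_nonneg_left ?_ (by positivity)
          omega
        linarith
    · -- positive case
      refine ⟨f, fun i hi => ?_⟩
      rcases Finset.mem_insert.1 hi with rfl | hi
      · exact hpos
      · exact hf i hi

/-- moving a functional off finitely many kernels -/
theorem generic (hfg : Module.Finite ℤ W)
    (htf : ∀ (w : W) (m : ℕ), m ≠ 0 → m • w = 0 → w = 0) {ι : Type*} [Finite ι] (v : ι → W)
    (f : W →+ ℝ) (hf : ∀ i, 0 < f (v i)) (S : Finset W) :
    (∀ w ∈ S, w ≠ 0) → ∃ x : W →+ ℝ, (∀ i, 0 < x (v i)) ∧ ∀ w ∈ S, x w ≠ 0 := by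
  classical
  induction S using Finset.induction_on with
  | empty => intro _; exact ⟨f, hf, by simp⟩
  | insert w S hw ih =>
    intro hS
    obtain ⟨x, hx1, hx2⟩ := ih fun w' hw' => hS w' (Finset.mem_insert_of_mem hw')
    by_cases h0 : x w = 0
    · obtain ⟨g, hg⟩ := exists_pos hfg htf (hS w (Finset.mem_insert_self w S))
      let g' : W →+ ℝ := (Int.castAddHom ℝ).comp g
      have hg' : 0 < g' w := by
        change (0 : ℝ) < ((g w : ℤ) : ℝ)
        exact_mod_cast hg
      have hc : ∀ u : W, ContinuousAt (fun ε : ℝ => x u + ε * g' u) 0 := fun u => by fun_prop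
      have h1 : ∀ᶠ ε in 𝓝[>] (0 : ℝ), ∀ i, 0 < x (v i) + ε * g' (v i) := by
        rw [Filter.eventually_all]
        intro i
        refine eventually_nhdsWithin_of_eventually_nhds ?_
        exact (hc (v i)).eventually (lt_mem_nhds (by simpa using hx1 i))
      have h2 : ∀ᶠ ε in 𝓝[>] (0 : ℝ), ∀ w' ∈ S, x w' + ε * g' w' ≠ 0 := by
        rw [Filter.eventually_all_finset]
        intro w' hw'
        refine eventually_nhdsWithin_of_eventually_nhds ?_
        exact (hc w').eventually (isOpen_ne.mem_nhds (by simpa using hx2 w' hw'))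
      have h3 : ∀ᶠ ε in 𝓝[>] (0 : ℝ), 0 < ε := self_mem_nhdsWithin
      obtain ⟨ε, ⟨h4, h5⟩, h6⟩ := ((h1.and h2).and h3).exists
      refine ⟨x + (AddMonoidHom.mulLeft ε).comp g', fun i => ?_, fun w' hw' => ?_⟩
      · simpa using h4 i
      · rcases Finset.mem_insert.1 hw' with rfl | hw'
        · have : x w' + ε * g' w' ≠ 0 := by
            rw [h0, zero_add]; exact (mul_pos h6 hg').ne'
          simpa using this
        · simpa using h5 w' hw'
    · refine ⟨x, hx1, fun w' hw' => ?_⟩
      rcases Finset.mem_insert.1 hw' with rfl | hw'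
      · exact h0
      · exact hx2 w' hw'

/-- **Gordan over `ℤ`**. -/
theorem gordan {W : Type*} [AddCommGroup W] (hfg : Module.Finite ℤ W)
    (htf : ∀ (w : W) (m : ℕ), m ≠ 0 → m • w = 0 → w = 0) {ι : Type*} [Fintype ι] (v : ι → W)
    (h : ∀ c : ι → ℕ, ∑ i, c i • v i = 0 → c = 0) (S : Finset W) (hS : ∀ w ∈ S, w ≠ 0) :
    ∃ x : W →+ ℝ, (∀ i, 0 < x (v i)) ∧ ∀ w ∈ S, x w ≠ 0 := by
  obtain ⟨f, hf⟩ := gordan_fin hfg htf (Finset.univ : Finset ι) v fun c hc i _ => by
    rw [h c hc]; rfl
  refine generic hfg htf v ((Int.castAddHom ℝ).comp f) (fun i => ?_) S hS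
  change (0 : ℝ) < ((f (v i) : ℤ) : ℝ)
  exact_mod_cast hf i (Finset.mem_univ i)

end Crest.Agent.R273.Gordan_106
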