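import Mathlib

/-!
# R273 (S0416), leaf T-T9 (helper798): Gordan's theorem over `ℤ`

`gordan` : in a finitely generated torsion free abelian group, a finite family without nontrivial
relation with natural coefficients is positive for some functional, which can be chosen nonzero on
finitely many given nonzero elements.
-/

set_option autoImplicit false

namespace Crest.Agent.R273.Gordan_798

variable {W : Type*} [AddCommGroup W]

/-- separation of points by integral functionals -/
def Sep (W : Type*) [AddCommGroup W] : Prop := ∀ w : W, w ≠ 0 → ∃ g : W →+ ℤ, g w ≠ 0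

theorem sep_of_fg (hfg : Module.Finite ℤ W)
    (htf : ∀ (w : W) (m : ℕ), m ≠ 0 → m • w = 0 → w = 0) : Sep W := by
  have h1 : Module.IsTorsionFree ℤ W := by
    constructor
    intro r hr a b hab
    have hr0 : r ≠ 0 := hr.ne_zero
    have h2 : r • (a - b) = 0 := by
      rw [smul_sub]; exact sub_eq_zero.2 hab
    have h3 : (r.natAbs) • (a - b) = 0 := by
      rcases Int.natAbs_eq r with h | h
      · rw [h] at h2; rwa [natCast_zsmul] at h2
      · rw [h] at h2; rw [neg_smul, natCast_zsmul, neg_eq_zero] at h2; exact h2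
    exact sub_eq_zero.1 (htf _ _ (Int.natAbs_ne_zero.2 hr0) h3)
  have h2 : Module.Free ℤ W := Module.free_of_finite_type_torsion_free'
  intro w hw
  let b := Module.Free.chooseBasis ℤ W
  have h3 : b.repr w ≠ 0 := fun h => hw (b.repr.map_eq_zero_iff.1 h)
  obtain ⟨i, hi⟩ := Finsupp.ne_iff.1 h3
  exact ⟨(b.coord i).toAddMonoidHom, hi⟩

/-- perturbation -/
theorem pert (x g : W →+ ℤ) (T : Finset W) : ∃ N : ℤ, 0 < N ∧ ∀ t ∈ T,
    (0 < x t → 0 < (N • x + g) t) ∧ (x t ≠ 0 → (N • x + g) t ≠ 0) := by
  refine ⟨1 + ∑ t ∈ T, |g t|, by positivity, fun t ht => ?_⟩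
  have h1 : |g t| ≤ ∑ t ∈ T, |g t| :=
    Finset.single_le_sum (f := fun t => |g t|) (fun _ _ => abs_nonneg _) ht
  set N : ℤ := 1 + ∑ t ∈ T, |g t| with hN
  have h2 : |g t| < N := by omega
  have h3 : (N • x + g) t = N * x t + g t := by simp
  have hN0 : 0 < N := lt_of_le_of_lt (abs_nonneg _) h2
  rw [h3]
  refine ⟨fun hx => ?_, fun hx => ?_⟩
  · have h4 : N * 1 ≤ N * x t := mul_le_mul_of_nonneg_left hx hN0.le
    have h5 := neg_abs_le (g t)
    linarith
  · intro h0
    have h4 : |N * x t| = |g t| := by
      rw [show N * x t = -g t by linarith, abs_neg]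
    rw [abs_mul, abs_of_pos hN0] at h4
    have h5 : 1 ≤ |x t| := Int.one_le_abs hx
    have h6 : N * 1 ≤ N * |x t| := mul_le_mul_of_nonneg_left h5 hN0.le
    linarith

theorem gordanZ (hW : Sep W) {ι : Type*} (T : Finset ι) : ∀ (v : ι → W),
    (∀ c : ι → ℕ, ∑ i ∈ T, c i • v i = 0 → ∀ i ∈ T, c i = 0) →
    ∃ x : W →+ ℤ, ∀ i ∈ T, 0 < x (v i) := by
  classical
  induction T using Finset.induction_on with
  | empty => exact fun v _ => ⟨0, by simp⟩
  | insert a T ha ih =>
    intro v h
    have hv : ∀ c : ι → ℕ, ∑ i ∈ T, c i • v i = 0 → ∀ i ∈ T, c i = 0 := by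
      intro c hc i hi
      have h1 := h (fun j => if j = a then 0 else c j) (by
        rw [Finset.sum_insert ha]
        simp only [if_true, zero_smul, zero_add]
        rw [← hc]
        refine Finset.sum_congr rfl fun j hj => ?_
        have : j ≠ a := fun e => ha (e ▸ hj)
        simp [this]) i (Finset.mem_insert_of_mem hi)
      have : i ≠ a := fun e => ha (e ▸ hi)
      simpa [this] using h1
    have hva : v a ≠ 0 := by
      intro h0
      have h1 := h (fun j => if j = a then 1 else 0) (by
        rw [Finset.sum_insert ha]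
        have : ∑ i ∈ T, (if i = a then 1 else 0 : ℕ) • v i = 0 := by
          refine Finset.sum_eq_zero fun j hj => ?_
          have : j ≠ a := fun e => ha (e ▸ hj)
          simp [this]
        simp [h0]) a (Finset.mem_insert_self _ _)
      simp at h1
    obtain ⟨f, hf⟩ := ih v hv
    rcases lt_trichotomy (f (v a)) 0 with hfa | hfa | hfa
    · -- negative
      set p : ℕ := (f (v a)).natAbs with hp
      have hpf : (p : ℤ) = -f (v a) := by omega
      have hp0 : 0 < p := by omega
      set w : ι → W := fun i => p • v i + (f (v i)).natAbs • v a with hw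
      have hwr : ∀ c : ι → ℕ, ∑ i ∈ T, c i • w i = 0 → ∀ i ∈ T, c i = 0 := by
        intro c hc i hi
        have h1 := h (fun j => if j = a then ∑ i ∈ T, c i * (f (v i)).natAbs else c j * p) (by
          rw [Finset.sum_insert ha]
          simp only [if_true]
          have h2 : ∑ x ∈ T, (if x = a then ∑ i ∈ T, c i * (f (v i)).natAbs else c x * p) • v x
              = ∑ x ∈ T, (c x * p) • v x := by
            refine Finset.sum_congr rfl fun j hj => ?_
            have : j ≠ a := fun e => ha (e ▸ hj)
            simp [this]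
          rw [h2, Finset.sum_smul, ← Finset.sum_add_distrib, ← hc]
          refine Finset.sum_congr rfl fun j _ => ?_
          rw [hw]
          simp only [smul_add, smul_smul]
          rw [add_comm]) i (Finset.mem_insert_of_mem hi)
        have : i ≠ a := fun e => ha (e ▸ hi)
        simp only [this, if_false] at h1
        exact (Nat.mul_eq_zero.1 h1).resolve_right hp0.ne'
      obtain ⟨g, hg⟩ := ih w hwr
      set N : ℤ := 1 + ∑ i ∈ T, |f (v i)| with hN
      refine ⟨((p : ℤ) * N) • g + (N * g (v a) - 1) • f, fun i hi => ?_⟩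
      have hsum : 0 ≤ ∑ i ∈ T, |f (v i)| := Finset.sum_nonneg fun _ _ => abs_nonneg _
      rcases Finset.mem_insert.1 hi with rfl | hi
      · have : (((p : ℤ) * N) • g + (N * g (v i) - 1) • f) (v i) = p := by
          simp only [AddMonoidHom.add_apply, AddMonoidHom.smul_apply, smul_eq_mul]
          rw [hpf]
          ring
        rw [this]
        exact_mod_cast hp0
      · have hfi := hf i hi
        have hgi := hg i hi
        have h1 : g (w i) = p * g (v i) + f (v i) * g (v a) := by
          rw [hw]
          simp only [map_add, map_nsmul, nsmul_eq_mul]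
          have : (((f (v i)).natAbs : ℕ) : ℤ) = f (v i) := by omega
          rw [this]
        have h2 : (((p : ℤ) * N) • g + (N * g (v a) - 1) • f) (v i) =
            N * g (w i) - f (v i) := by
          simp only [AddMonoidHom.add_apply, AddMonoidHom.smul_apply, smul_eq_mul]
          rw [h1]
          ring
        rw [h2]
        have h3 : |f (v i)| ≤ ∑ i ∈ T, |f (v i)| :=
          Finset.single_le_sum (f := fun i => |f (v i)|) (fun _ _ => abs_nonneg _) hi
        have h4 : N * 1 ≤ N * g (w i) := mul_le_mul_of_nonneg_left hgi (by omega)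
        have h5 := le_abs_self (f (v i))
        omega
    · -- zero
      obtain ⟨g, hg⟩ := hW _ hva
      have : ∃ g : W →+ ℤ, 0 < g (v a) := by
        rcases lt_or_gt_of_ne hg with h1 | h1
        · exact ⟨-g, by simpa using h1⟩
        · exact ⟨g, h1⟩
      obtain ⟨g, hg⟩ := this
      obtain ⟨N, hN, hT⟩ := pert f g (T.image v)
      refine ⟨N • f + g, fun i hi => ?_⟩
      rcases Finset.mem_insert.1 hi with rfl | hi
      · simp [hfa, hg]
      · exact (hT _ (Finset.mem_image_of_mem v hi)).1 (hf i hi)
    · exact ⟨f, fun i hi => by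
        rcases Finset.mem_insert.1 hi with rfl | hi
        · exact hfa
        · exact hf i hi⟩

theorem gordanZ' (hW : Sep W) {ι : Type*} [Fintype ι] (v : ι → W)
    (h : ∀ c : ι → ℕ, ∑ i, c i • v i = 0 → c = 0) (S : Finset W) (hS : ∀ w ∈ S, w ≠ 0) :
    ∃ x : W →+ ℤ, (∀ i, 0 < x (v i)) ∧ ∀ w ∈ S, x w ≠ 0 := by
  classical
  induction S using Finset.induction_on with
  | empty =>
    obtain ⟨x, hx⟩ := gordanZ hW Finset.univ v fun c hc i _ => by rw [h c hc]; rfl
    exact ⟨x, fun i => hx i (Finset.mem_univ _), by simp⟩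
  | insert a S ha ih =>
    obtain ⟨x, hx, hxS⟩ := ih fun w hw => hS w (Finset.mem_insert_of_mem hw)
    by_cases hxa : x a = 0
    · obtain ⟨g, hg⟩ := hW a (hS a (Finset.mem_insert_self _ _))
      obtain ⟨N, hN, hT⟩ := pert x g (Finset.univ.image v ∪ S)
      refine ⟨N • x + g, fun i => ?_, fun w hw => ?_⟩
      · exact (hT _ (Finset.mem_union_left _
          (Finset.mem_image_of_mem v (Finset.mem_univ i)))).1 (hx i)
      · rcases Finset.mem_insert.1 hw with rfl | hw
        · simpa [hxa] using hg
        · exact (hT _ (Finset.mem_union_right _ hw)).2 (hxS w hw)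
    · refine ⟨x, hx, fun w hw => ?_⟩
      rcases Finset.mem_insert.1 hw with rfl | hw
      · exact hxa
      · exact hxS w hw

/-- **Gordan's theorem over `ℤ`** (frozen shape of helper422, #1723) -/
theorem gordan {W : Type*} [AddCommGroup W] (hfg : Module.Finite ℤ W)
    (htf : ∀ (w : W) (m : ℕ), m ≠ 0 → m • w = 0 → w = 0) {ι : Type*} [Fintype ι] (v : ι → W)
    (h : ∀ c : ι → ℕ, ∑ i, c i • v i = 0 → c = 0) (S : Finset W) (hS : ∀ w ∈ S, w ≠ 0) :
    ∃ x : W →+ ℝ, (∀ i, 0 < x (v i)) ∧ ∀ w ∈ S, x w ≠ 0 := by
  obtain ⟨x, hx, hxS⟩ := gordanZ' (sep_of_fg hfg htf) v h S hS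
  refine ⟨(Int.castAddHom ℝ).comp x, fun i => ?_, fun w hw => ?_⟩
  · simpa using hx i
  · simpa using hxS w hw

end Crest.Agent.R273.Gordan_798
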