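import Crest.Agent.R273.Piola_5

/-!
# R273 (S0416), leaf VOLINV, part 2 (helper5): closed fields of matrices and Green's formula

* `CF A g`  : `g i x a b` smooth closed field of type `(1,1)` (no positivity): `sm`, `tr`, `closed`
  (`CF.add`, `CF.smul`, `Kah.cf`, `cf_hsf`, `cf_cur`)
* `hm A u i x a b = ∂_a ∂̄_b u` for `u : M → ℂ`; `hm_ofReal : hm A (u : ℂ) = hsf A u`
* `v10_adj` : `φ * ∑_b adj(g)_{ba} ∂̄_b u` is a vector density of type `(1,0)`
* `green`   : `∫ φ tr(adj(g) ∂∂̄u) = - ∫ ∑_{ab} adj(g)_{ba} ∂_a φ ∂̄_b u`, for `φ` or `u` with compact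
  support (`green`) or compact `M` (`greenc`).
-/

set_option autoImplicit false
set_option linter.unusedSectionVars false

open Set Filter Topology Complex
open scoped ContDiff Matrix ComplexConjugate

namespace Crest.Agent.R273.Green_5

open Crest.Agent.R275 Crest.Agent.R275.Geo Crest.Agent.R275.Core144 Crest.Agent.R275.EDR890
open Crest.Agent.R275.Pai323 Crest.Agent.R275.C1d194
open Crest.Agent.R275.SerG398 (lint dens OffZ)
open Crest.Agent.R275.OmT75 (dj dl dl_chain dl_mul db_chain dj_sum dj_congr dbj_congr)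
open Crest.Agent.R273.Defs_333 Crest.Agent.R273.Hess_333 Crest.Agent.R273.HessB_333
open Crest.Agent.R273.HM_333 Crest.Agent.R273.Kah_333 Crest.Agent.R273.Vol_333
open Crest.Agent.R273.StV_37 Crest.Agent.R273.Piola_5

noncomputable section

variable {n : ℕ} {M : Type} [TopologicalSpace M] {A : Atl n M} {L : LB A}

theorem dj_eq_wd {W : Type*} [NormedAddCommGroup W] [NormedSpace ℂ W] (a : Fin n) (f : Cn n → W)
    (z : Cn n) : dj a f z = wd (false, a) f z := by
  unfold dj wd wdL cI
  simp only [cond_false, neg_smul, sub_eq_add_neg]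

/-- closed smooth field of type `(1,1)` -/
structure CF (A : Atl n M) (g : A.ι → M → Matrix (Fin n) (Fin n) ℂ) : Prop where
  sm : ∀ i a b, A.SmAt i (fun x => g i x a b)
  tr : ∀ i j, ∀ x ∈ (A.e i).source ∩ (A.e j).source,
    g i x = (Jm A i j x)ᵀ * g j x * (Jm A i j x).map conj
  closed : ∀ i, ∀ z ∈ (A.e i).target, ∀ a b c,
    wd (false, c) (fun w => g i ((A.e i).symm w) a b) z =
      wd (false, a) (fun w => g i ((A.e i).symm w) c b) z

theorem kah_cf (K : Kah A) : CF A K.g := ⟨K.sm, K.tr, K.closed⟩

theorem cur_cf (h : HM L) : CF A (cur h) :=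
  ⟨cur_smooth h, fun _ _ _ hx => cur_tr h hx, fun i _ hz a b c => cur_closed h i hz a b c⟩

namespace CF

variable {g g' : A.ι → M → Matrix (Fin n) (Fin n) ℂ}

theorem diffAt (h : CF A g) {i : A.ι} {z : Cn n} (hz : z ∈ (A.e i).target) (a b : Fin n) :
    DifferentiableAt ℝ (fun w => g i ((A.e i).symm w) a b) z :=
  ((h.sm i a b).contDiffAt ((A.e i).open_target.mem_nhds hz)).differentiableAt (by simp)

theorem add (h : CF A g) (h' : CF A g') : CF A (fun i x => g i x + g' i x) where
  sm i a b := (h.sm i a b).add (h'.sm i a b)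
  tr i j x hx := by rw [h.tr i j x hx, h'.tr i j x hx, Matrix.mul_add, Matrix.add_mul]
  closed i z hz a b c := by
    have e : ∀ a c, wd (false, c) (fun w => (g i ((A.e i).symm w) + g' i ((A.e i).symm w)) a b) z =
        wd (false, c) (fun w => g i ((A.e i).symm w) a b) z +
          wd (false, c) (fun w => g' i ((A.e i).symm w) a b) z := fun a c =>
      wd_add (h.diffAt hz a b) (h'.diffAt hz a b) _
    rw [e a c, e c a, h.closed i z hz, h'.closed i z hz]

theorem smul (h : CF A g) (t : ℂ) : CF A (fun i x => t • g i x) where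
  sm i a b := (contDiffOn_const (c := t)).mul (h.sm i a b)
  tr i j x hx := by rw [h.tr i j x hx, Matrix.mul_smul, Matrix.smul_mul]
  closed i z hz a b c := by
    have e : ∀ a c, wd (false, c) (fun w => (t • g i ((A.e i).symm w)) a b) z =
        t • wd (false, c) (fun w => g i ((A.e i).symm w) a b) z := fun a c =>
      wd_const_smul t (h.diffAt hz a b) _
    rw [e a c, e c a, h.closed i z hz]

end CF

/-! ### second derivatives of functions -/

/-- `∂_a ∂̄_b u` -/
def hm (A : Atl n M) (u : M → ℂ) (i : A.ι) (x : M) : Matrix (Fin n) (Fin n) ℂ :=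
  Matrix.of fun a b => dl A i a (A.db i b u) x

theorem hm_apply (u : M → ℂ) (i : A.ι) (x : M) (a b : Fin n) :
    hm A u i x a b = dl A i a (A.db i b u) x := rfl

theorem db_read (u : M → ℂ) (i : A.ι) (b : Fin n) {z : Cn n} (hz : z ∈ (A.e i).target) :
    A.db i b u ((A.e i).symm z) = wd (true, b) (fun w => u ((A.e i).symm w)) z := by
  rw [wd_true]
  unfold Atl.db
  rw [(A.e i).right_inv hz]

theorem dl_read (u : M → ℂ) (i : A.ι) (b : Fin n) {z : Cn n} (hz : z ∈ (A.e i).target) :
    dl A i b u ((A.e i).symm z) = wd (false, b) (fun w => u ((A.e i).symm w)) z := by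
  rw [← dj_eq_wd]
  unfold OmT75.dl
  rw [(A.e i).right_inv hz]

theorem hm_read (u : M → ℂ) (i : A.ι) {z : Cn n} (hz : z ∈ (A.e i).target) (a b : Fin n) :
    hm A u i ((A.e i).symm z) a b =
      wd (false, a) (wd (true, b) (fun w => u ((A.e i).symm w))) z := by
  rw [hm_apply, dl_read _ i a hz]
  apply wd_congr
  filter_upwards [(A.e i).open_target.mem_nhds hz] with w hw
  exact db_read u i b hw

theorem hm_ofReal (u : M → ℝ) (i : A.ι) {x : M} (hx : x ∈ (A.e i).source) :
    hm A (fun y => (u y : ℂ)) i x = hsf A u i x := by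
  have hz := (A.e i).map_source hx
  have h1 := hsf_read (A := A) u i hz
  rw [(A.e i).left_inv hx] at h1
  rw [h1]
  ext a b
  have h2 := hm_read (A := A) (fun y => (u y : ℂ)) i hz a b
  rw [(A.e i).left_inv hx] at h2
  rw [h2]
  rfl

theorem smAt_hm {u : M → ℂ} {i : A.ι} (hu : A.SmAt i u) (a b : Fin n) :
    A.SmAt i (fun x => hm A u i x a b) := smAt_dl (hu.db b) a

theorem hsf_cf {u : M → ℝ} (hu : A.Sm u) : CF A (hsf A u) where
  sm i a b := by
    refine (smAt_hm (u := fun y => (u y : ℂ)) (smAt_ofReal (hu i)) a b).congr fun z hz => ?_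
    show hsf A u i ((A.e i).symm z) a b = hm A (fun y => (u y : ℂ)) i ((A.e i).symm z) a b
    rw [hm_ofReal u i ((A.e i).map_target hz)]
  tr i j x hx := hsf_tr hu hx
  closed i z hz a b c := by
    have hr : ∀ a, (fun w => hsf A u i ((A.e i).symm w) a b) =ᶠ[𝓝 z]
        fun w => hess (fun z => u ((A.e i).symm z)) w a b := by
      intro a
      filter_upwards [(A.e i).open_target.mem_nhds hz] with w hw
      rw [hsf_read u i hw]
    rw [wd_congr (hr a), wd_congr (hr c), wd_hess (sm_contDiffAt hu i hz)]

theorem dl_sum {i : A.ι} {a : Fin n} {f : Fin n → M → ℂ} {x : M}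
    (hf : ∀ b, DifferentiableAt ℝ (fun z => f b ((A.e i).symm z)) (A.e i x)) :
    dl A i a (fun y => ∑ b, f b y) x = ∑ b, dl A i a (f b) x := by
  unfold OmT75.dl
  exact dj_sum fun b _ => hf b

/-! ### the cofactor vector field -/

theorem smAt_adj {g : A.ι → M → Matrix (Fin n) (Fin n) ℂ} (hg : CF A g) (i : A.ι) (a b : Fin n) :
    A.SmAt i (fun x => (g i x).adjugate b a) := by
  have h1 : (fun x => (g i x).adjugate b a) =
      fun x => ((g i x).updateRow a (Pi.single b 1)).det := by
    funext x
    rw [Matrix.adjugate_apply]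
  rw [h1]
  apply smAt_det
  intro c d
  by_cases hc : c = a
  · subst hc
    simp only [Matrix.updateRow_self]
    exact contDiffOn_const
  · simp only [Matrix.updateRow_ne hc]
    exact hg.sm i c d

/-- the field `φ * ∑_b adj(g)_{ba} ∂̄_b u` -/
def adjY (A : Atl n M) (g : A.ι → M → Matrix (Fin n) (Fin n) ℂ) (φ u : M → ℂ) (i : A.ι) (x : M)
    (a : Fin n) : ℂ := φ x * ∑ b, (g i x).adjugate b a * A.db i b u x

theorem v10_adj {g : A.ι → M → Matrix (Fin n) (Fin n) ℂ} (hg : CF A g) {φ u : M → ℂ}
    (hφ : ∀ i, A.SmAt i φ) (hu : ∀ i, A.SmAt i u) : V10 A (adjY A g φ u) where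
  sm i a := (hφ i).mul (ContDiffOn.sum fun b _ => (smAt_adj hg i a b).mul ((hu i).db b))
  tr i j x hx d := by
    have h1 : ∀ b, A.db i b u x = ∑ c, conj (A.J i j x c b) * A.db j c u x := fun b =>
      db_chain (Atl.SmAt.diffAt (hu j) hx.2) hx b
    have hJ : ∀ b c, conj (A.J i j x c b) = ((Jm A i j x).map conj)ᵀ b c := fun b c => rfl
    have e1 : ((Jm A i j x).map conj).det = conj (Jm A i j x).det := by
      rw [← RingHom.mapMatrix_apply, ← RingHom.map_det]
    have e2 : Jm A i j x * ((g i x).adjugate)ᵀ * ((Jm A i j x).map conj)ᵀ =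
        dens A i j x • ((g j x).adjugate)ᵀ := by
      have e3 : (g i x).adjugate = ((Jm A i j x).map conj).adjugate * ((g j x).adjugate *
          (Jm A i j x)ᵀ.adjugate) := by
        rw [hg.tr i j x hx, Matrix.adjugate_mul_distrib, Matrix.adjugate_mul_distrib]
      have e4 : ((Jm A i j x).map conj) * (g i x).adjugate * (Jm A i j x)ᵀ =
          dens A i j x • (g j x).adjugate := by
        rw [e3]
        calc ((Jm A i j x).map conj) * (((Jm A i j x).map conj).adjugate * ((g j x).adjugate *
              (Jm A i j x)ᵀ.adjugate)) * (Jm A i j x)ᵀ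
            = (((Jm A i j x).map conj) * ((Jm A i j x).map conj).adjugate) * ((g j x).adjugate *
              ((Jm A i j x)ᵀ.adjugate * (Jm A i j x)ᵀ)) := by
              simp only [Matrix.mul_assoc]
          _ = dens A i j x • (g j x).adjugate := by
              rw [Matrix.mul_adjugate, Matrix.adjugate_mul, e1, Matrix.det_transpose,
                Matrix.smul_mul, Matrix.one_mul, Matrix.mul_smul, Matrix.mul_one, smul_smul,
                SerG398.dens_eq]
              congr 1
              unfold SerG398.detJ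
              rw [mul_comm]
              rfl
      have e5 := congrArg Matrix.transpose e4
      rw [Matrix.transpose_mul, Matrix.transpose_mul, Matrix.transpose_transpose,
        Matrix.transpose_smul, ← Matrix.mul_assoc] at e5
      exact e5
    calc ∑ a, A.J i j x d a * adjY A g φ u i x a
        = φ x * ∑ c, (∑ b, (∑ a, Jm A i j x d a * ((g i x).adjugate)ᵀ a b) *
            ((Jm A i j x).map conj)ᵀ b c) * A.db j c u x := by
          unfold adjY
          rw [Finset.mul_sum]
          have s1 : ∀ a, A.J i j x d a * (φ x * ∑ b, (g i x).adjugate b a * A.db i b u x) =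
              φ x * ∑ c, ∑ b, Jm A i j x d a * ((g i x).adjugate)ᵀ a b *
                ((Jm A i j x).map conj)ᵀ b c * A.db j c u x := by
            intro a
            rw [Finset.sum_comm, Finset.mul_sum, Finset.mul_sum, Finset.mul_sum]
            refine Finset.sum_congr rfl fun b _ => ?_
            rw [h1 b, Finset.mul_sum, Finset.mul_sum, Finset.mul_sum, Finset.mul_sum]
            refine Finset.sum_congr rfl fun c _ => ?_
            rw [hJ b c]
            simp only [Matrix.transpose_apply, Jm_apply]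
            ring
          rw [Finset.sum_congr rfl fun a _ => s1 a, ← Finset.mul_sum, ← Finset.mul_sum]
          congr 1
          rw [Finset.sum_comm]
          refine Finset.sum_congr rfl fun c _ => ?_
          rw [Finset.sum_mul, Finset.sum_comm]
          refine Finset.sum_congr rfl fun b _ => ?_
          rw [Finset.sum_mul, Finset.sum_mul]
      _ = φ x * ∑ c, (Jm A i j x * ((g i x).adjugate)ᵀ * ((Jm A i j x).map conj)ᵀ) d c *
            A.db j c u x := by
          simp only [Matrix.mul_apply]
      _ = dens A i j x * adjY A g φ u j x d := by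
          rw [e2]
          unfold adjY
          simp only [Matrix.smul_apply, Matrix.transpose_apply, smul_eq_mul]
          rw [mul_left_comm]
          congr 1
          rw [Finset.mul_sum]
          exact Finset.sum_congr rfl fun c _ => by ring

/-- divergence of `adjY` -/
theorem div_adjY {g : A.ι → M → Matrix (Fin n) (Fin n) ℂ} (hg : CF A g) {φ u : M → ℂ}
    {i : A.ι} (hφ : A.SmAt i φ) (hu : A.SmAt i u) {x : M} (hx : x ∈ (A.e i).source) :
    ∑ a, dl A i a (fun y => adjY A g φ u i y a) x =
      φ x * ((g i x).adjugate * hm A u i x).trace +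
        ∑ a, ∑ b, (g i x).adjugate b a * dl A i a φ x * A.db i b u x := by
  have hz := (A.e i).map_source hx
  have hs : ∀ a b, A.SmAt i (fun y => (g i y).adjugate b a * A.db i b u y) := fun a b =>
    (smAt_adj hg i a b).mul (hu.db b)
  have hss : ∀ a, A.SmAt i (fun y => ∑ b, (g i y).adjugate b a * A.db i b u y) := fun a =>
    ContDiffOn.sum fun b _ => hs a b
  have h1 : ∀ a, dl A i a (fun y => adjY A g φ u i y a) x =
      dl A i a φ x * (∑ b, (g i x).adjugate b a * A.db i b u x) +
      φ x * ∑ b, (dl A i a (fun y => (g i y).adjugate b a) x * A.db i b u x +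
        (g i x).adjugate b a * hm A u i x a b) := by
    intro a
    unfold adjY
    rw [dl_mul (Atl.SmAt.diffAt hφ hx) (Atl.SmAt.diffAt (hss a) hx) hx]
    congr 2
    rw [dl_sum fun b => Atl.SmAt.diffAt (hs a b) hx]
    refine Finset.sum_congr rfl fun b _ => ?_
    rw [dl_mul (Atl.SmAt.diffAt (smAt_adj hg i a b) hx) (Atl.SmAt.diffAt (hu.db b) hx) hx]
    rfl
  have h2 : ∀ b, ∑ a, dl A i a (fun y => (g i y).adjugate b a) x = 0 := by
    intro b
    have := piola (m := fun w => g i ((A.e i).symm w)) (z := A.e i x)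
      (fun a c => hg.diffAt hz a c) (fun a c d => hg.closed i _ hz a c d) b
    rw [← this]
    refine Finset.sum_congr rfl fun a _ => ?_
    have e := dl_read (A := A) (fun y => (g i y).adjugate b a) i a hz
    rw [(A.e i).left_inv hx] at e
    exact e
  rw [Finset.sum_congr rfl fun a _ => h1 a, Finset.sum_add_distrib, add_comm, ← Finset.mul_sum]
  congr 1
  · congr 1
    have e1 : ∑ a, ∑ b, (dl A i a (fun y => (g i y).adjugate b a) x * A.db i b u x +
        (g i x).adjugate b a * hm A u i x a b) =
        ∑ b, (∑ a, dl A i a (fun y => (g i y).adjugate b a) x) * A.db i b u x +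
          ∑ b, ∑ a, (g i x).adjugate b a * hm A u i x a b := by
      rw [Finset.sum_comm, ← Finset.sum_add_distrib]
      refine Finset.sum_congr rfl fun b _ => ?_
      rw [Finset.sum_add_distrib, Finset.sum_mul]
    rw [e1, Finset.sum_eq_zero fun b _ => by rw [h2 b, zero_mul], zero_add]
    rfl
  · refine Finset.sum_congr rfl fun a _ => ?_
    rw [Finset.mul_sum]
    exact Finset.sum_congr rfl fun b _ => by ring

/-! ### Green's formula -/

section green

variable [T2Space M] {g : A.ι → M → Matrix (Fin n) (Fin n) ℂ}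

theorem smAt_tr {g : A.ι → M → Matrix (Fin n) (Fin n) ℂ} (hg : CF A g) {u : M → ℂ} {i : A.ι}
    (hu : A.SmAt i u) : A.SmAt i (fun x => ((g i x).adjugate * hm A u i x).trace) := by
  have h1 : (fun x => ((g i x).adjugate * hm A u i x).trace) =
      fun x => ∑ b, ∑ a, (g i x).adjugate b a * hm A u i x a b := by
    funext x
    simp only [Matrix.trace, Matrix.diag, Matrix.mul_apply]
  rw [h1]
  exact ContDiffOn.sum fun b _ => ContDiffOn.sum fun a _ => (smAt_adj hg i a b).mul (smAt_hm hu a b)

theorem smAt_grad {g : A.ι → M → Matrix (Fin n) (Fin n) ℂ} (hg : CF A g) {φ u : M → ℂ} {i : A.ι}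
    (hφ : A.SmAt i φ) (hu : A.SmAt i u) :
    A.SmAt i (fun x => ∑ a, ∑ b, (g i x).adjugate b a * dl A i a φ x * A.db i b u x) :=
  ContDiffOn.sum fun a _ => ContDiffOn.sum fun b _ =>
    ((smAt_adj hg i a b).mul (smAt_dl hφ a)).mul (hu.db b)

/-- **Green's formula**, `φ` supported in the compact set `K` -/
theorem green (P : Part A) (hg : CF A g) {φ u : M → ℂ} (hφ : ∀ i, A.SmAt i φ)
    (hu : ∀ i, A.SmAt i u) {K : Set M} (hK : IsCompact K) {F : Finset A.ι} (hF : Fn P hK ⊆ F)
    (h0 : ∀ x ∉ K, φ x = 0) :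
    tot P F (fun i x => φ x * ((g i x).adjugate * hm A u i x).trace) =
      - tot P F (fun i x => ∑ a, ∑ b, (g i x).adjugate b a * dl A i a φ x * A.db i b u x) := by
  have h1 := stokes10 P (v10_adj hg hφ hu) hK hF fun i x hx => by
    funext a
    unfold adjY
    rw [h0 x hx, zero_mul]
    rfl
  rw [tot_congr P F fun i _ x hx => div_adjY hg (hφ i) (hu i) hx,
    tot_add P F (f := fun i x => φ x * ((g i x).adjugate * hm A u i x).trace)
      (g := fun i x => ∑ a, ∑ b, (g i x).adjugate b a * dl A i a φ x * A.db i b u x)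
      (fun i => (hφ i).mul (smAt_tr hg (hu i))) (fun i => smAt_grad hg (hφ i) (hu i))] at h1
  exact eq_neg_of_add_eq_zero_left h1

theorem db_zero_of {u : M → ℂ} {i : A.ι} {x : M} (hx : x ∈ (A.e i).source) (h : u =ᶠ[𝓝 x] 0)
    (b : Fin n) : A.db i b u x = 0 := by
  have h3 : (fun z => u ((A.e i).symm z)) =ᶠ[𝓝 (A.e i x)] fun _ => (0 : ℂ) := by
    have hc : Tendsto (A.e i).symm (𝓝 (A.e i x)) (𝓝 x) := by
      have := (A.e i).continuousAt_symm ((A.e i).map_source hx)
      rw [ContinuousAt, (A.e i).left_inv hx] at this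
      exact this
    exact hc.eventually h
  unfold Atl.db
  rw [OmT75.dbj_congr h3]
  simp [dbj]

open Classical in
/-- the integral of `tr(adj(g) ∂∂̄u)` vanishes, `u` supported in the compact set `K` -/
theorem green1 (P : Part A) (hg : CF A g) {u : M → ℂ}
    (hu : ∀ i, A.SmAt i u) {K : Set M} (hK : IsCompact K) {F : Finset A.ι} (hF : Fn P hK ⊆ F)
    (h0 : ∀ x ∉ K, u x = 0) :
    tot P F (fun i x => ((g i x).adjugate * hm A u i x).trace) = 0 := by
  set Y : A.ι → M → Fin n → ℂ := fun i x a =>
    if x ∈ (A.e i).source then adjY A g (fun _ => 1) u i x a else 0 with hY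
  have hv := v10_adj hg (φ := fun _ => 1) (fun i => contDiffOn_const) hu
  have hYe : ∀ i, ∀ x ∈ (A.e i).source, ∀ a, Y i x a = adjY A g (fun _ => 1) u i x a :=
    fun i x hx a => by simp only [hY, if_pos hx]
  have hvY : V10 A Y := by
    refine ⟨fun i a => (hv.sm i a).congr fun z hz => hYe i _ ((A.e i).map_target hz) a,
      fun i j x hx b => ?_⟩
    rw [Finset.sum_congr rfl fun a _ => by rw [hYe i x hx.1 a], hYe j x hx.2 b]
    exact hv.tr i j x hx b
  have h1 := stokes10 P hvY hK hF fun i x hx => by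
    funext a
    by_cases hxi : x ∈ (A.e i).source
    · rw [hYe i x hxi]
      have h2 : u =ᶠ[𝓝 x] 0 := by
        filter_upwards [hK.isClosed.isOpen_compl.mem_nhds hx] with y hy
        exact h0 y hy
      unfold adjY
      rw [Finset.sum_eq_zero fun b _ => by rw [db_zero_of hxi h2, mul_zero], mul_zero]
      rfl
    · simp only [hY, if_neg hxi]
      rfl
  rw [← h1]
  refine tot_congr P F fun i _ x hx => ?_
  have h3 := div_adjY hg (φ := fun _ => (1 : ℂ)) (i := i) contDiffOn_const (hu i) hx
  have h4 : ∀ a, dl A i a (fun _ : M => (1 : ℂ)) x = 0 := fun a => by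
    unfold OmT75.dl
    rw [dj_eq_wd]
    exact wd_const _ _ _
  simp only [one_mul, h4, mul_zero, zero_mul, Finset.sum_const_zero, add_zero] at h3
  rw [← h3]
  refine Finset.sum_congr rfl fun a _ => ?_
  unfold OmT75.dl
  refine dj_congr ?_
  filter_upwards [(A.e i).open_target.mem_nhds ((A.e i).map_source hx)] with z hz
  rw [hYe i _ ((A.e i).map_target hz)]

section compact

variable [CompactSpace M]

/-- **Green's formula** on compact `M` -/
theorem greenc (P : Part A) (hg : CF A g) {φ u : M → ℂ} (hφ : ∀ i, A.SmAt i φ)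
    (hu : ∀ i, A.SmAt i u) :
    totc P (fun i x => φ x * ((g i x).adjugate * hm A u i x).trace) =
      - totc P (fun i x => ∑ a, ∑ b, (g i x).adjugate b a * dl A i a φ x * A.db i b u x) :=
  green P hg hφ hu isCompact_univ (Finset.Subset.refl _) fun x hx => absurd (mem_univ x) hx

theorem dl_const (i : A.ι) (a : Fin n) (c : ℂ) (x : M) : dl A i a (fun _ => c) x = 0 := by
  unfold OmT75.dl
  rw [dj_eq_wd]
  exact wd_const _ _ _

theorem green1c (P : Part A) (hg : CF A g) {u : M → ℂ} (hu : ∀ i, A.SmAt i u) :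
    totc P (fun i x => ((g i x).adjugate * hm A u i x).trace) = 0 := by
  have h1 := greenc P hg (φ := fun _ => (1 : ℂ)) (fun i => contDiffOn_const) hu
  simp only [one_mul, dl_const, mul_zero, zero_mul, Finset.sum_const_zero] at h1
  rw [h1]
  unfold totc tot
  simp only [mul_zero, lint_zero, Finset.sum_const_zero, neg_zero]

end compact

end green

end

end Crest.Agent.R273.Green_5
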