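import Mathlib

/-!
# R273 (S0416), LEMMA G (helper757): groups of polynomial growth have virtually abelian unitary images

`Γ` is a group with a finite symmetric generating set `T ∋ 1`, `|T^R| ≤ C (R+1)^d`, and
`ρ : Γ →* A` a homomorphism to a real normed algebra with `‖ρ g‖ ≤ 1` for all `g` and totally
bounded range (for example a unitary representation of finite dimension).  Then a subgroup of
finite index has commutative image (`exists_abelian`).  Elementary: commutator contraction near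
`1`, counting of products `c₁^{n₁} ⋯ c_k^{n_k}`, and the no-small-subgroups form of Frobenius'
lemma.
-/

set_option autoImplicit false
set_option linter.unusedSectionVars false
set_option linter.unusedVariables false

open Set
open scoped Pointwise

namespace Crest.Agent.R273.GrowthU_757

/-- commutator -/
def cm {Γ : Type*} [Group Γ] (g k : Γ) : Γ := g * k * g⁻¹ * k⁻¹

section Ring

variable {Γ : Type*} [Group Γ] {A : Type*} [NormedRing A] [NormedAlgebra ℝ A]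

variable {ρ : Γ →* A}

theorem mul_inv_self' (ρ : Γ →* A) (g : Γ) : ρ g * ρ g⁻¹ = 1 := by
  rw [← map_mul, mul_inv_cancel, map_one]

theorem inv_mul_self' (ρ : Γ →* A) (g : Γ) : ρ g⁻¹ * ρ g = 1 := by
  rw [← map_mul, inv_mul_cancel, map_one]

theorem norm_mul_left (h : ∀ g, ‖ρ g‖ ≤ 1) (g : Γ) (y : A) : ‖ρ g * y‖ = ‖y‖ := by
  apply le_antisymm
  · calc ‖ρ g * y‖ ≤ ‖ρ g‖ * ‖y‖ := norm_mul_le _ _
      _ ≤ 1 * ‖y‖ := by gcongr; exact h g
      _ = ‖y‖ := one_mul _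
  · calc ‖y‖ = ‖ρ g⁻¹ * (ρ g * y)‖ := by rw [← mul_assoc, inv_mul_self', one_mul]
      _ ≤ ‖ρ g⁻¹‖ * ‖ρ g * y‖ := norm_mul_le _ _
      _ ≤ 1 * ‖ρ g * y‖ := by gcongr; exact h _
      _ = _ := one_mul _

theorem norm_mul_right (h : ∀ g, ‖ρ g‖ ≤ 1) (g : Γ) (y : A) : ‖y * ρ g‖ = ‖y‖ := by
  apply le_antisymm
  · calc ‖y * ρ g‖ ≤ ‖y‖ * ‖ρ g‖ := norm_mul_le _ _
      _ ≤ ‖y‖ * 1 := by gcongr; exact h g
      _ = ‖y‖ := mul_one _
  · calc ‖y‖ = ‖(y * ρ g) * ρ g⁻¹‖ := by rw [mul_assoc, mul_inv_self', mul_one]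
      _ ≤ ‖y * ρ g‖ * ‖ρ g⁻¹‖ := norm_mul_le _ _
      _ ≤ ‖y * ρ g‖ * 1 := by gcongr; exact h _
      _ = _ := mul_one _

/-- `dev g = ‖ρ g - 1‖` -/
noncomputable def dev (ρ : Γ →* A) (g : Γ) : ℝ := ‖ρ g - 1‖

theorem dev_nonneg (g : Γ) : 0 ≤ dev ρ g := norm_nonneg _

theorem dev_eq_zero {g : Γ} : dev ρ g = 0 ↔ ρ g = 1 := by
  unfold dev; rw [norm_eq_zero, sub_eq_zero]

theorem dev_inv (h : ∀ g, ‖ρ g‖ ≤ 1) (g : Γ) : dev ρ g⁻¹ = dev ρ g := by
  unfold dev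
  rw [← norm_mul_left h g (ρ g⁻¹ - 1), mul_sub, mul_inv_self', mul_one, norm_sub_rev]

theorem dev_mul (h : ∀ g, ‖ρ g‖ ≤ 1) (g k : Γ) : dev ρ (g * k) ≤ dev ρ g + dev ρ k := by
  unfold dev
  have : ρ (g * k) - 1 = ρ g * (ρ k - 1) + (ρ g - 1) := by rw [map_mul]; noncomm_ring
  rw [this]
  calc _ ≤ ‖ρ g * (ρ k - 1)‖ + ‖ρ g - 1‖ := norm_add_le _ _
    _ = _ := by rw [norm_mul_left h]; ring

theorem dev_one : dev ρ 1 = 0 := by simp [dev]

theorem dev_pow (h : ∀ g, ‖ρ g‖ ≤ 1) (g : Γ) (m : ℕ) : dev ρ (g ^ m) ≤ m * dev ρ g := by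
  induction m with
  | zero => simp [dev_one]
  | succ m ih =>
    rw [pow_succ]
    calc _ ≤ dev ρ (g ^ m) + dev ρ g := dev_mul h _ _
      _ ≤ m * dev ρ g + dev ρ g := by gcongr
      _ = _ := by push_cast; ring

theorem norm_sub (h : ∀ g, ‖ρ g‖ ≤ 1) (g k : Γ) : ‖ρ g - ρ k‖ = dev ρ (k⁻¹ * g) := by
  unfold dev
  rw [← norm_mul_left h k⁻¹ (ρ g - ρ k), mul_sub, inv_mul_self', map_mul]

/-- commutator contraction -/
theorem dev_cm (h : ∀ g, ‖ρ g‖ ≤ 1) (g k : Γ) : dev ρ (cm g k) ≤ 2 * dev ρ g * dev ρ k := by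
  have h1 : dev ρ (cm g k) = ‖ρ g * ρ k - ρ k * ρ g‖ := by
    unfold dev cm
    rw [← norm_mul_right h (k * g) (ρ (g * k * g⁻¹ * k⁻¹) - 1), sub_mul, ← map_mul]
    have : g * k * g⁻¹ * k⁻¹ * (k * g) = g * k := by group
    rw [this, one_mul, map_mul, map_mul]
  rw [h1]
  have h2 : ρ g * ρ k - ρ k * ρ g = (ρ g - 1) * (ρ k - 1) - (ρ k - 1) * (ρ g - 1) := by
    noncomm_ring
  rw [h2]
  calc _ ≤ ‖(ρ g - 1) * (ρ k - 1)‖ + ‖(ρ k - 1) * (ρ g - 1)‖ := norm_sub_le _ _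
    _ ≤ ‖ρ g - 1‖ * ‖ρ k - 1‖ + ‖ρ k - 1‖ * ‖ρ g - 1‖ := by gcongr <;> exact norm_mul_le _ _
    _ = _ := by unfold dev; ring

theorem dev_conj (h : ∀ g, ‖ρ g‖ ≤ 1) (g k : Γ) : dev ρ (g * k * g⁻¹) = dev ρ k := by
  unfold dev
  rw [← norm_mul_right h g (ρ (g * k * g⁻¹) - 1), sub_mul, ← map_mul, one_mul]
  have : g * k * g⁻¹ * g = g * k := by group
  rw [this, map_mul, ← norm_mul_left h g (ρ k - 1), mul_sub, mul_one]

/-- commutators are close to one as soon as one entry is -/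
theorem dev_cm' (h : ∀ g, ‖ρ g‖ ≤ 1) (g k : Γ) : dev ρ (cm g k) ≤ 2 * dev ρ k := by
  have : cm g k = (g * k * g⁻¹) * k⁻¹ := rfl
  rw [this]
  calc _ ≤ dev ρ (g * k * g⁻¹) + dev ρ k⁻¹ := dev_mul h _ _
    _ = _ := by rw [dev_conj h, dev_inv h]; ring

/-- lower bound for powers -/
theorem dev_pow_ge (h : ∀ g, ‖ρ g‖ ≤ 1) (g : Γ) (m : ℕ) (hm : 1 ≤ m) (hs : m * dev ρ g ≤ 1) :
    dev ρ g / 2 ≤ dev ρ (g ^ m) := by
  have key : ∀ m : ℕ, ‖ρ (g ^ m) - 1 - (m : ℝ) • (ρ g - 1)‖ ≤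
      ((m : ℝ) * (m - 1) / 2) * dev ρ g ^ 2 := by
    intro m
    induction m with
    | zero => simp
    | succ m ih =>
      have e : ρ (g ^ (m + 1)) - 1 - ((m + 1 : ℕ) : ℝ) • (ρ g - 1)
          = (ρ (g ^ m) - 1 - (m : ℝ) • (ρ g - 1)) + (ρ (g ^ m) - 1) * (ρ g - 1) := by
        rw [pow_succ, map_mul]
        push_cast
        rw [add_smul, one_smul]
        noncomm_ring
      rw [e]
      calc _ ≤ ‖ρ (g ^ m) - 1 - (m : ℝ) • (ρ g - 1)‖ + ‖(ρ (g ^ m) - 1) * (ρ g - 1)‖ :=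
            norm_add_le _ _
        _ ≤ ((m : ℝ) * (m - 1) / 2) * dev ρ g ^ 2 + (m * dev ρ g) * dev ρ g := by
            refine add_le_add ih ?_
            calc _ ≤ ‖ρ (g ^ m) - 1‖ * ‖ρ g - 1‖ := norm_mul_le _ _
              _ ≤ _ := by
                refine mul_le_mul (dev_pow h g m) le_rfl (norm_nonneg _) ?_
                exact mul_nonneg (Nat.cast_nonneg _) (dev_nonneg _)
        _ = _ := by push_cast; ring
  have hk := key m
  have hx := dev_nonneg (ρ := ρ) g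
  have hm1 : (1 : ℝ) ≤ m := by exact_mod_cast hm
  have h1 : ‖(m : ℝ) • (ρ g - 1)‖ = m * dev ρ g := by
    rw [norm_smul, Real.norm_of_nonneg (by linarith)]; rfl
  have h2 : ‖(m : ℝ) • (ρ g - 1)‖ ≤ dev ρ (g ^ m) + ((m : ℝ) * (m - 1) / 2) * dev ρ g ^ 2 := by
    have e : (m : ℝ) • (ρ g - 1) = (ρ (g ^ m) - 1) - (ρ (g ^ m) - 1 - (m : ℝ) • (ρ g - 1)) := by
      abel
    calc _ = ‖(ρ (g ^ m) - 1) - (ρ (g ^ m) - 1 - (m : ℝ) • (ρ g - 1))‖ := by rw [← e]
      _ ≤ _ := norm_sub_le _ _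
      _ ≤ _ := add_le_add le_rfl hk
  rw [h1] at h2
  -- `m x - m (m-1)/2 x² ≥ m x (1 - (m-1) x / 2) ≥ x/2`
  have h3 : ((m : ℝ) * (m - 1) / 2) * dev ρ g ^ 2 ≤ (m - 1) / 2 * dev ρ g := by
    have : ((m : ℝ) * (m - 1) / 2) * dev ρ g ^ 2 = (m - 1) / 2 * dev ρ g * (m * dev ρ g) := by ring
    rw [this]
    calc _ ≤ (m - 1) / 2 * dev ρ g * 1 := by
          refine mul_le_mul_of_nonneg_left hs ?_
          exact mul_nonneg (by linarith) hx
      _ = _ := mul_one _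
  nlinarith

/-- no small subgroups -/
theorem eq_one_of_pow_small (h : ∀ g, ‖ρ g‖ ≤ 1) (g : Γ) (δ : ℝ) (hδ : δ < 1)
    (hg : ∀ m : ℕ, dev ρ (g ^ m) ≤ δ) : ρ g = 1 := by
  have hx := dev_nonneg (ρ := ρ) g
  have key : ∀ m : ℕ, (2 - δ) ^ m * dev ρ g ≤ dev ρ (g ^ (2 ^ m)) := by
    intro m
    induction m with
    | zero => simp
    | succ m ih =>
      set y := g ^ (2 ^ m) with hy
      have e : g ^ (2 ^ (m + 1)) = y * y := by
        rw [hy, ← pow_add]; congr 1; ring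
      rw [e]
      have h1 : ρ (y * y) - 1 = (2 : ℝ) • (ρ y - 1) + (ρ y - 1) * (ρ y - 1) := by
        rw [map_mul, two_smul]; noncomm_ring
      have h2 : 2 * dev ρ y ≤ dev ρ (y * y) + dev ρ y * dev ρ y := by
        calc 2 * dev ρ y = ‖(2 : ℝ) • (ρ y - 1)‖ := by rw [norm_smul]; simp [dev]
          _ = ‖(ρ (y * y) - 1) - (ρ y - 1) * (ρ y - 1)‖ := by rw [h1]; congr 1; abel
          _ ≤ ‖ρ (y * y) - 1‖ + ‖(ρ y - 1) * (ρ y - 1)‖ := norm_sub_le _ _
          _ ≤ _ := add_le_add le_rfl (norm_mul_le _ _)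
      have h3 : dev ρ y ≤ δ := hg _
      have h4 := dev_nonneg (ρ := ρ) y
      calc (2 - δ) ^ (m + 1) * dev ρ g = (2 - δ) * ((2 - δ) ^ m * dev ρ g) := by ring
        _ ≤ (2 - δ) * dev ρ y := by gcongr; linarith
        _ ≤ dev ρ (y * y) := by nlinarith
  by_contra hne
  have hpos : 0 < dev ρ g := lt_of_le_of_ne hx fun e => hne (dev_eq_zero.1 e.symm)
  have ht : Filter.Tendsto (fun m : ℕ => (2 - δ) ^ m) Filter.atTop Filter.atTop :=
    tendsto_pow_atTop_atTop_of_one_lt (by linarith)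
  obtain ⟨m, hm⟩ := (ht.eventually_gt_atTop (δ / dev ρ g)).exists
  have := (key m).trans (hg _)
  rw [div_lt_iff₀ hpos] at hm
  linarith

/-- Frobenius: `a` commutes with `[a,b]` and `b` is close to `1`, then `[a,b] = 1` -/
theorem frobenius (h : ∀ g, ‖ρ g‖ ≤ 1) (a b : Γ) (hc : ρ (cm a (cm a b)) = 1)
    (hb : dev ρ b < 1 / 2) : ρ (cm a b) = 1 := by
  set c := cm a b with hcdef
  have hac : ρ a * ρ c = ρ c * ρ a := by
    have e : a * c = cm a c * (c * a) := by unfold cm; group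
    rw [← map_mul, e, map_mul, hc, one_mul, map_mul]
  -- `[a^k, b] = c^k` under `ρ`
  have key : ∀ k : ℕ, ρ (cm (a ^ k) b) = ρ (c ^ k) := by
    intro k
    induction k with
    | zero => simp [cm]
    | succ k ih =>
      have e : cm (a ^ (k + 1)) b = a ^ k * c * (a ^ k)⁻¹ * cm (a ^ k) b := by
        rw [hcdef]; unfold cm; rw [pow_succ]; group
      have hk : ρ (a ^ k) * ρ c = ρ c * ρ (a ^ k) := by
        rw [map_pow]
        exact (Commute.pow_left (show Commute (ρ a) (ρ c) from hac) k)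
      rw [e, map_mul, ih, map_mul, map_mul, hk, mul_assoc (ρ c), mul_inv_self', mul_one, pow_succ',
        map_mul]
  refine eq_one_of_pow_small h c (2 * dev ρ b) (by linarith) fun m => ?_
  unfold dev
  rw [← key m]
  exact dev_cm' h _ _

end Ring

section Chain

variable {Γ : Type*} [Group Γ] {A : Type*} [NormedRing A] [NormedAlgebra ℝ A] {ρ : Γ →* A}

/-- `k`-fold iterated commutators `[s_k, [s_{k-1}, ... , s_0]]` of elements of `W` -/
def D (W : Set Γ) : ℕ → Set Γ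
  | 0 => W
  | k + 1 => {x | ∃ s ∈ W, ∃ c ∈ D W k, x = cm s c}

theorem dev_D (h : ∀ g, ‖ρ g‖ ≤ 1) {W : Set Γ} {ε : ℝ} (hε : ε ≤ 1 / 4)
    (hW : ∀ w ∈ W, dev ρ w ≤ ε) (k : ℕ) : ∀ c ∈ D W k, dev ρ c ≤ ε := by
  induction k with
  | zero => exact hW
  | succ k ih =>
    rintro _ ⟨s, hs, c, hc, rfl⟩
    have h1 := dev_cm h s c
    have h2 := hW s hs
    have h3 := ih c hc
    have h4 := dev_nonneg (ρ := ρ) s
    have h5 := dev_nonneg (ρ := ρ) c
    nlinarith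

/-- word length bound of the elements of `D W k` -/
def Ln (l : ℕ) : ℕ → ℕ
  | 0 => l
  | k + 1 => 2 * l + 2 * Ln l k

theorem Ln_le (l k : ℕ) : Ln l k + 2 * l ≤ 2 ^ (k + 2) * l := by
  induction k with
  | zero => simp [Ln]; omega
  | succ k ih =>
    simp only [Ln]
    have e : 2 ^ (k + 1 + 2) * l = 2 * (2 ^ (k + 2) * l) := by ring
    rw [e]; omega

variable [DecidableEq Γ]

theorem inv_mem_pow {T : Finset Γ} (hT : ∀ x ∈ T, x⁻¹ ∈ T) (n : ℕ) :
    ∀ x ∈ T ^ n, x⁻¹ ∈ T ^ n := by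
  induction n with
  | zero => intro x hx; simpa using hx
  | succ n ih =>
    intro x hx
    rw [pow_succ, Finset.mem_mul] at hx
    obtain ⟨a, ha, b, hb, rfl⟩ := hx
    rw [mul_inv_rev, pow_succ']
    exact Finset.mul_mem_mul (hT b hb) (ih a ha)

theorem mem_D_len {T : Finset Γ} (hT : ∀ x ∈ T, x⁻¹ ∈ T) {W : Set Γ} {l : ℕ}
    (hW : ∀ w ∈ W, w ∈ T ^ l) (k : ℕ) : ∀ c ∈ D W k, c ∈ T ^ (Ln l k) := by
  induction k with
  | zero => exact hW
  | succ k ih =>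
    rintro _ ⟨s, hs, c, hc, rfl⟩
    have h1 := hW s hs
    have h2 := inv_mem_pow hT _ _ h1
    have h3 := ih c hc
    have h4 := inv_mem_pow hT _ _ h3
    have e : Ln l (k + 1) = l + Ln l k + l + Ln l k := by simp only [Ln]; ring
    rw [e, pow_add, pow_add, pow_add]
    exact Finset.mul_mem_mul (Finset.mul_mem_mul (Finset.mul_mem_mul h1 h3) h2) h4

/-- length bound of the product sets -/
def Rn (M l : ℕ) : ℕ → ℕ
  | 0 => M * l
  | k + 1 => Rn M l k + M * Ln l (k + 1)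

theorem Rn_le (M l k : ℕ) : Rn M l k ≤ M * (2 ^ (k + 3) * l) := by
  induction k with
  | zero =>
    simp only [Rn]
    exact Nat.mul_le_mul_left _ (by simp; omega)
  | succ k ih =>
    simp only [Rn]
    have h1 : Ln l (k + 1) ≤ 2 ^ (k + 3) * l := by
      have := Ln_le l (k + 1)
      have e : 2 ^ (k + 1 + 2) * l = 2 ^ (k + 3) * l := by ring_nf
      omega
    calc _ ≤ M * (2 ^ (k + 3) * l) + M * (2 ^ (k + 3) * l) := add_le_add ih (Nat.mul_le_mul_left _ h1)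
      _ = _ := by ring

theorem pow_sep (h : ∀ g, ‖ρ g‖ ≤ 1) {c : Γ} {M : ℕ} (hM : M * dev ρ c ≤ 1) {n m : ℕ}
    (hn : n < M) (hm : m < M) (hne : n ≠ m) : dev ρ c / 2 ≤ ‖ρ (c ^ n) - ρ (c ^ m)‖ := by
  wlog hlt : m < n generalizing n m
  · rw [norm_sub_rev]
    exact this hm hn (Ne.symm hne) (by omega)
  rw [norm_sub h]
  have e : (c ^ m)⁻¹ * c ^ n = c ^ (n - m) := by
    rw [inv_mul_eq_iff_eq_mul, ← pow_add]; congr 1; omega
  rw [e]
  refine dev_pow_ge h c (n - m) (by omega) ?_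
  refine le_trans ?_ hM
  refine mul_le_mul_of_nonneg_right ?_ (dev_nonneg _)
  exact_mod_cast (by omega : n - m ≤ M)

theorem count_step (h : ∀ g, ‖ρ g‖ ≤ 1) {T : Finset Γ} (h1 : (1 : Γ) ∈ T) {c : Γ} {M L R : ℕ}
    (hM : M * dev ρ c ≤ 1) (hc : c ∈ T ^ L) (hne : ρ c ≠ 1) {P : Finset Γ} (hP : P ⊆ T ^ R)
    {η : ℝ} (hη : ∀ p ∈ P, ∀ p' ∈ P, p ≠ p' → η ≤ ‖ρ p - ρ p'‖)
    (hη' : 2 * M * dev ρ c + dev ρ c / 4 ≤ η) :
    ∃ P' : Finset Γ, P.card * M ≤ P'.card ∧ P' ⊆ T ^ (R + M * L) ∧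
      ∀ p ∈ P', ∀ p' ∈ P', p ≠ p' → dev ρ c / 4 ≤ ‖ρ p - ρ p'‖ := by
  have hx : 0 < dev ρ c :=
    lt_of_le_of_ne (dev_nonneg _) fun e => hne (dev_eq_zero.1 e.symm)
  have sep : ∀ p ∈ P, ∀ p' ∈ P, ∀ n < M, ∀ m < M, (p, n) ≠ (p', m) →
      dev ρ c / 4 ≤ ‖ρ (p * c ^ n) - ρ (p' * c ^ m)‖ := by
    intro p hp p' hp' n hn m hm hne
    by_cases hpp : p = p'
    · subst hpp
      have hnm : n ≠ m := fun e => hne (by rw [e])
      rw [map_mul, map_mul, ← mul_sub, norm_mul_left h]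
      have := pow_sep h hM hn hm hnm
      linarith
    · have h2 := hη p hp p' hp' hpp
      have e : ρ p - ρ p' = (ρ (p * c ^ n) - ρ (p' * c ^ m)) - ρ p * (ρ (c ^ n) - 1)
          + ρ p' * (ρ (c ^ m) - 1) := by
        rw [map_mul, map_mul]; noncomm_ring
      have h3 : ‖ρ p - ρ p'‖ ≤ ‖ρ (p * c ^ n) - ρ (p' * c ^ m)‖ + dev ρ (c ^ n)
          + dev ρ (c ^ m) := by
        rw [e]
        refine (norm_add_le _ _).trans (add_le_add ((norm_sub_le _ _).trans ?_) ?_)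
        · rw [norm_mul_left h]; rfl
        · rw [norm_mul_left h]; rfl
      have h4 : ∀ n < M, dev ρ (c ^ n) ≤ M * dev ρ c := fun n hn =>
        (dev_pow h c n).trans (mul_le_mul_of_nonneg_right (by exact_mod_cast hn.le) hx.le)
      have := h4 n hn
      have := h4 m hm
      linarith
  refine ⟨(P ×ˢ Finset.range M).image fun q => q.1 * c ^ q.2, ?_, ?_, ?_⟩
  · rw [Finset.card_image_of_injOn, Finset.card_product, Finset.card_range]
    rintro ⟨p, n⟩ hp ⟨p', m⟩ hp' e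
    simp only [Finset.coe_product, Finset.coe_range, mem_prod, Finset.mem_coe, mem_Iio] at hp hp'
    by_contra hne
    have := sep p hp.1 p' hp'.1 n hp.2 m hp'.2 hne
    have e' : p * c ^ n = p' * c ^ m := e
    rw [e', sub_self, norm_zero] at this
    linarith
  · intro x hx
    simp only [Finset.mem_image, Finset.mem_product, Finset.mem_range, Prod.exists] at hx
    obtain ⟨p, n, ⟨hp, hn⟩, rfl⟩ := hx
    rw [pow_add]
    refine Finset.mul_mem_mul (hP hp) ?_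
    have h2 : c ^ n ∈ (T ^ L) ^ n := Finset.pow_mem_pow hc
    rw [← pow_mul] at h2
    exact Finset.pow_subset_pow (Finset.Subset.refl _) h1
      (by rw [mul_comm M L]; exact Nat.mul_le_mul_left _ hn.le) h2
  · intro x hx y hy hxy
    simp only [Finset.mem_image, Finset.mem_product, Finset.mem_range, Prod.exists] at hx hy
    obtain ⟨p, n, ⟨hp, hn⟩, rfl⟩ := hx
    obtain ⟨p', m, ⟨hp', hm⟩, rfl⟩ := hy
    exact sep p hp p' hp' n hn m hm fun e => hxy (by rw [Prod.mk.injEq] at e; rw [e.1, e.2])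

theorem count (h : ∀ g, ‖ρ g‖ ≤ 1) {T : Finset Γ} (h1 : (1 : Γ) ∈ T) (hT : ∀ x ∈ T, x⁻¹ ∈ T)
    {W : Set Γ} {l M : ℕ} (hW : ∀ w ∈ W, w ∈ T ^ l) {ε : ℝ} (hε0 : 0 ≤ ε) (hM1 : 1 ≤ M)
    (hε : 32 * M * ε ≤ 1) (hWε : ∀ w ∈ W, dev ρ w ≤ ε) (k : ℕ) :
    ∀ c ∈ D W k, ρ c ≠ 1 → ∃ P : Finset Γ, M ^ (k + 1) ≤ P.card ∧ P ⊆ T ^ (Rn M l k) ∧
      ∀ p ∈ P, ∀ p' ∈ P, p ≠ p' → dev ρ c / 4 ≤ ‖ρ p - ρ p'‖ := by
  have hM1' : (1 : ℝ) ≤ M := by exact_mod_cast hM1
  have hε4 : ε ≤ 1 / 4 := by nlinarith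
  have hMD : ∀ k, ∀ c ∈ D W k, M * dev ρ c ≤ 1 := by
    intro k c hc
    have h2 := dev_D h hε4 hWε k c hc
    have h3 := dev_nonneg (ρ := ρ) c
    nlinarith
  induction k with
  | zero =>
    intro c hc hne
    have hx : 0 < dev ρ c :=
      lt_of_le_of_ne (dev_nonneg _) fun e => hne (dev_eq_zero.1 e.symm)
    obtain ⟨P', hP1, hP2, hP3⟩ := count_step h h1 (hMD 0 c hc) (hW c hc) hne (P := {1}) (R := 0)
      (by simp) (η := 2 * M * dev ρ c + dev ρ c / 4) (by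
        intro p hp p' hp' hpp
        rw [Finset.mem_singleton] at hp hp'
        exact absurd (hp.trans hp'.symm) hpp) le_rfl
    refine ⟨P', ?_, ?_, hP3⟩
    · simpa using hP1
    · simpa [Rn] using hP2
  | succ k ih =>
    intro c' hc' hne
    obtain ⟨s, hs, c, hc, rfl⟩ := hc'
    have hne' : ρ c ≠ 1 := by
      intro e
      apply hne
      have h2 := dev_cm' h s c
      have h3 : dev ρ c = 0 := dev_eq_zero.2 e
      rw [h3, mul_zero] at h2
      exact dev_eq_zero.1 (le_antisymm h2 (dev_nonneg _))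
    obtain ⟨P, hP1, hP2, hP3⟩ := ih c hc hne'
    have hx := dev_nonneg (ρ := ρ) c
    have hc2 : dev ρ (cm s c) ≤ 2 * ε * dev ρ c := by
      refine (dev_cm h s c).trans ?_
      have := hWε s hs
      nlinarith
    have hmem : cm s c ∈ D W (k + 1) := ⟨s, hs, c, hc, rfl⟩
    obtain ⟨P', hP1', hP2', hP3'⟩ := count_step h h1 (hMD (k + 1) _ hmem)
      (mem_D_len hT hW (k + 1) _ hmem) hne hP2 hP3 (by
        have h5 : (2 * M + 1 / 4 : ℝ) * dev ρ (cm s c) ≤ (2 * M + 1 / 4) * (2 * ε * dev ρ c) :=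
          mul_le_mul_of_nonneg_left hc2 (by linarith)
        have h6 : (2 * M + 1 / 4 : ℝ) * (2 * ε * dev ρ c) ≤ dev ρ c / 4 := by
          have h7 : (2 * M + 1 / 4 : ℝ) * (2 * ε) ≤ 1 / 4 := by nlinarith
          calc _ = ((2 * M + 1 / 4 : ℝ) * (2 * ε)) * dev ρ c := by ring
            _ ≤ 1 / 4 * dev ρ c := mul_le_mul_of_nonneg_right h7 hx
            _ = _ := by ring
        linarith)
    refine ⟨P', ?_, hP2', hP3'⟩
    calc M ^ (k + 1 + 1) = M ^ (k + 1) * M := pow_succ _ _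
      _ ≤ P.card * M := Nat.mul_le_mul_right _ hP1
      _ ≤ _ := hP1'

/-- for `ε` small compared with the growth degree some level of iterated commutators dies -/
theorem exists_dead (h : ∀ g, ‖ρ g‖ ≤ 1) {T : Finset Γ} (h1 : (1 : Γ) ∈ T)
    (hT : ∀ x ∈ T, x⁻¹ ∈ T) {C d : ℕ} (hgr : ∀ R : ℕ, (T ^ R).card ≤ C * (R + 1) ^ d)
    {W : Set Γ} {l : ℕ} (hW : ∀ w ∈ W, w ∈ T ^ l) {ε : ℝ} (hε0 : 0 ≤ ε)
    (hε : 32 * (2 : ℝ) ^ (d + 1) * ε ≤ 1) (hWε : ∀ w ∈ W, dev ρ w ≤ ε) :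
    ∃ K, ∀ c ∈ D W K, ρ c = 1 := by
  by_contra hcon
  push Not at hcon
  set M := 2 ^ (d + 1) with hMdef
  have hbd : ∀ k : ℕ, 2 ^ (k + d + 1) ≤ C * (16 * M * (l + 1)) ^ d := by
    intro k
    obtain ⟨c, hc, hne⟩ := hcon k
    obtain ⟨P, hP1, hP2, -⟩ := count h h1 hT hW (M := M) hε0 Nat.one_le_two_pow
      (by rw [hMdef]; push_cast; exact hε) hWε k c hc hne
    have h2 : M ^ (k + 1) ≤ C * (Rn M l k + 1) ^ d :=
      hP1.trans ((Finset.card_le_card hP2).trans (hgr _))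
    have h3 : Rn M l k + 1 ≤ 2 ^ k * (16 * M * (l + 1)) := by
      have h4 := Rn_le M l k
      have h5 : 1 ≤ M * 2 ^ (k + 3) := Nat.one_le_iff_ne_zero.2 (by positivity)
      calc Rn M l k + 1 ≤ M * (2 ^ (k + 3) * l) + M * 2 ^ (k + 3) := add_le_add h4 h5
        _ = M * 2 ^ (k + 3) * (l + 1) := by ring
        _ ≤ 2 * (M * 2 ^ (k + 3) * (l + 1)) := by omega
        _ = _ := by ring
    have h6 : M ^ (k + 1) ≤ 2 ^ (k * d) * (C * (16 * M * (l + 1)) ^ d) := by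
      calc _ ≤ C * (2 ^ k * (16 * M * (l + 1))) ^ d := h2.trans (Nat.mul_le_mul_left _ (Nat.pow_le_pow_left h3 d))
        _ = _ := by rw [mul_pow, ← pow_mul]; ring
    have h7 : M ^ (k + 1) = 2 ^ (k * d) * 2 ^ (k + d + 1) := by
      rw [hMdef, ← pow_mul, ← pow_add]; congr 1; ring
    rw [h7] at h6
    exact Nat.le_of_mul_le_mul_left h6 (by positivity)
  set B := C * (16 * M * (l + 1)) ^ d
  have h8 := hbd B
  have h9 : B < 2 ^ B := Nat.lt_two_pow_self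
  have h10 : 2 ^ B ≤ 2 ^ (B + d + 1) := Nat.pow_le_pow_right (by norm_num) (by omega)
  omega

/-- descent: if level `K` is dead then level `1` is dead -/
theorem descent (h : ∀ g, ‖ρ g‖ ≤ 1) {W : Set Γ} {ε : ℝ} (hε : ε ≤ 1 / 4)
    (hWε : ∀ w ∈ W, dev ρ w ≤ ε) (K : ℕ) (hK : ∀ c ∈ D W (K + 1), ρ c = 1) :
    ∀ c ∈ D W 1, ρ c = 1 := by
  induction K with
  | zero => exact hK
  | succ K ih =>
    apply ih
    rintro _ ⟨s, hs, c, hc, rfl⟩
    refine frobenius h s c ?_ ?_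
    · exact hK _ ⟨s, hs, _, ⟨s, hs, c, hc, rfl⟩, rfl⟩
    · have := dev_D h hε hWε K c hc
      linarith

end Chain

section Main

variable {Γ : Type*} [Group Γ]

theorem exists_finite_sub {V : Set Γ} {x : Γ} (hx : x ∈ Subgroup.closure V) :
    ∃ W : Set Γ, W ⊆ V ∧ W.Finite ∧ x ∈ Subgroup.closure W := by
  induction hx using Subgroup.closure_induction with
  | mem x hx => exact ⟨{x}, by simpa using hx, finite_singleton x, Subgroup.subset_closure rfl⟩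
  | one => exact ⟨∅, empty_subset _, finite_empty, Subgroup.one_mem _⟩
  | mul x y _ _ hx hy =>
    obtain ⟨W, h1, h2, h3⟩ := hx
    obtain ⟨W', h1', h2', h3'⟩ := hy
    exact ⟨W ∪ W', union_subset h1 h1', h2.union h2', Subgroup.mul_mem _
      (Subgroup.closure_mono subset_union_left h3) (Subgroup.closure_mono subset_union_right h3')⟩
  | inv x _ hx =>
    obtain ⟨W, h1, h2, h3⟩ := hx
    exact ⟨W, h1, h2, Subgroup.inv_mem _ h3⟩

theorem exists_finite_gen {V : Set Γ} (h : (Subgroup.closure V).FG) :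
    ∃ W : Set Γ, W ⊆ V ∧ W.Finite ∧ Subgroup.closure W = Subgroup.closure V := by
  obtain ⟨S, hS, hfin⟩ := (Subgroup.fg_iff _).1 h
  have hx : ∀ x ∈ S, ∃ W : Set Γ, W ⊆ V ∧ W.Finite ∧ x ∈ Subgroup.closure W := fun x hx =>
    exists_finite_sub (by rw [← hS]; exact Subgroup.subset_closure hx)
  choose! W h1 h2 h3 using hx
  refine ⟨⋃ x ∈ S, W x, iUnion₂_subset h1, hfin.biUnion h2, le_antisymm ?_ ?_⟩
  · exact Subgroup.closure_mono (iUnion₂_subset h1)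
  · rw [← hS, Subgroup.closure_le]
    intro x hx
    exact Subgroup.closure_mono (subset_biUnion_of_mem (u := W) hx) (h3 x hx)

open Classical in
theorem mem_pow_of_closure {T : Finset Γ} (h1 : (1 : Γ) ∈ T) (hT : ∀ x ∈ T, x⁻¹ ∈ T) {x : Γ}
    (hx : x ∈ Subgroup.closure (T : Set Γ)) : ∃ n : ℕ, x ∈ T ^ n := by
  induction hx using Subgroup.closure_induction with
  | mem x hx => exact ⟨1, by simpa using hx⟩
  | one => exact ⟨0, by simp⟩
  | mul x y _ _ hx hy =>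
    obtain ⟨n, hn⟩ := hx
    obtain ⟨m, hm⟩ := hy
    exact ⟨n + m, by rw [pow_add]; exact Finset.mul_mem_mul hn hm⟩
  | inv x _ hx =>
    obtain ⟨n, hn⟩ := hx
    exact ⟨n, inv_mem_pow hT n x hn⟩

open Classical in
/-- polynomial growth (word growth of a finite symmetric generating set) -/
def PolyGrowth (Γ : Type*) [Group Γ] : Prop :=
  ∃ T : Finset Γ, (1 : Γ) ∈ T ∧ (∀ x ∈ T, x⁻¹ ∈ T) ∧ Subgroup.closure (T : Set Γ) = ⊤ ∧
    ∃ C d : ℕ, ∀ R : ℕ, (T ^ R).card ≤ C * (R + 1) ^ d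

theorem PolyGrowth.fg (h : PolyGrowth Γ) : Group.FG Γ := by
  obtain ⟨T, -, -, hT, -⟩ := h
  exact ⟨⟨T, hT⟩⟩

variable {A : Type*} [NormedRing A] [NormedAlgebra ℝ A]

/-- elements near `1` generate a subgroup of finite index -/
theorem finiteIndex_near (ρ : Γ →* A) (h : ∀ g, ‖ρ g‖ ≤ 1) (htb : TotallyBounded (range ρ))
    {ε : ℝ} (hε : 0 < ε) : (Subgroup.closure {g : Γ | dev ρ g ≤ ε}).FiniteIndex := by
  set H := Subgroup.closure {g : Γ | dev ρ g ≤ ε} with hH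
  obtain ⟨t, ht, hcov⟩ := Metric.totallyBounded_iff.1 htb (ε / 2) (by linarith)
  have hsel : ∀ q : Γ ⧸ H, ∃ y ∈ t, dist (ρ q.out) y < ε / 2 := by
    intro q
    have := hcov (mem_range_self (f := ρ) q.out)
    simpa [mem_iUnion₂, Metric.mem_ball] using this
  choose y hy hyd using hsel
  have hinj : Function.Injective (fun q : Γ ⧸ H => (⟨y q, hy q⟩ : t)) := by
    intro q q' he
    have e : y q = y q' := congrArg Subtype.val he
    have h1 : ‖ρ q.out - ρ q'.out‖ ≤ ε := by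
      rw [← dist_eq_norm]
      have h2 := hyd q
      have h3 := hyd q'
      rw [← e] at h3
      have := dist_triangle_right (ρ q.out) (ρ q'.out) (y q)
      linarith
    rw [norm_sub h] at h1
    have h2 : q'.out⁻¹ * q.out ∈ H := Subgroup.subset_closure h1
    rw [← q.out_eq', ← q'.out_eq']
    exact (QuotientGroup.eq.2 h2).symm
  have : Finite t := ht
  have : Finite (Γ ⧸ H) := Finite.of_injective _ hinj
  exact Subgroup.finiteIndex_of_finite_quotient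

/-- **Lemma G1.** polynomial growth and totally bounded isometric image: some subgroup of finite
index has commutative image. -/
theorem exists_abelian (hG : PolyGrowth Γ) (ρ : Γ →* A) (h : ∀ g, ‖ρ g‖ ≤ 1)
    (htb : TotallyBounded (range ρ)) :
    ∃ H : Subgroup Γ, H.FiniteIndex ∧ ∀ a ∈ H, ∀ b ∈ H, ρ a * ρ b = ρ b * ρ a := by
  classical
  have hfg := hG.fg
  obtain ⟨T, h1, hT, hgen, C, d, hgr⟩ := hG
  set ε : ℝ := 1 / (32 * 2 ^ (d + 1)) with hεdef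
  have hε0 : 0 < ε := by positivity
  have hε : 32 * (2 : ℝ) ^ (d + 1) * ε ≤ 1 := by
    rw [hεdef]; rw [mul_one_div, div_self (by positivity)]
  have hε4 : ε ≤ 1 / 4 := by
    have : (1 : ℝ) ≤ 2 ^ (d + 1) := one_le_pow₀ (by norm_num)
    nlinarith
  set V : Set Γ := {g : Γ | dev ρ g ≤ ε} with hV
  have hfi : (Subgroup.closure V).FiniteIndex := finiteIndex_near ρ h htb hε0
  obtain ⟨W, hWV, hWf, hW⟩ := exists_finite_gen (V := V)
    ((Group.fg_iff_subgroup_fg _).1 (Subgroup.fg_of_index_ne_zero _))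
  -- common length
  have hlen : ∃ l : ℕ, ∀ w ∈ W, w ∈ T ^ l := by
    have : ∀ w : Γ, ∃ n : ℕ, w ∈ T ^ n := fun w =>
      mem_pow_of_closure h1 hT (by rw [hgen]; trivial)
    choose f hf using this
    refine ⟨hWf.toFinset.sup f, fun w hw => ?_⟩
    exact Finset.pow_subset_pow (Finset.Subset.refl _) h1
      (Finset.le_sup (f := f) (hWf.mem_toFinset.2 hw)) (hf w)
  obtain ⟨l, hl⟩ := hlen
  obtain ⟨K, hK⟩ := exists_dead h h1 hT hgr hl hε0.le hε hWV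
  have hK' : ∀ c ∈ D W (K + 1), ρ c = 1 := by
    rintro _ ⟨s, hs, c, hc, rfl⟩
    have h2 := dev_cm' h s c
    rw [dev_eq_zero.2 (hK c hc), mul_zero] at h2
    exact dev_eq_zero.1 (le_antisymm h2 (dev_nonneg _))
  have h3 := descent h hε4 hWV K hK'
  have hcomm : ∀ a ∈ W, ∀ b ∈ W, ρ a * ρ b = ρ b * ρ a := by
    intro a ha b hb
    have h4 := h3 (cm a b) ⟨a, ha, b, hb, rfl⟩
    have e : a * b = cm a b * (b * a) := by unfold cm; group
    rw [← map_mul, e, map_mul, h4, one_mul, map_mul]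
  refine ⟨Subgroup.closure V, hfi, ?_⟩
  rw [← hW]
  -- commuting with all of `W` passes to the closure, twice
  have step : ∀ y : A, (∀ b ∈ W, y * ρ b = ρ b * y) →
      ∀ b ∈ Subgroup.closure W, y * ρ b = ρ b * y := by
    intro y hy b hb
    induction hb using Subgroup.closure_induction with
    | mem b hb => exact hy b hb
    | one => simp
    | mul b c _ _ hb hc => rw [map_mul, ← mul_assoc, hb, mul_assoc, hc, mul_assoc]
    | inv b _ hb =>
      calc y * ρ b⁻¹ = ρ b⁻¹ * (ρ b * y) * ρ b⁻¹ := by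
            rw [← mul_assoc (ρ b⁻¹), inv_mul_self', one_mul]
        _ = ρ b⁻¹ * (y * ρ b) * ρ b⁻¹ := by rw [hb]
        _ = _ := by rw [mul_assoc, mul_assoc y, mul_inv_self', mul_one]
  intro a ha b hb
  refine step (ρ a) (fun b hb => ?_) b hb
  exact (step (ρ b) (fun c hc => hcomm b hb c hc) a ha).symm

end Main

end Crest.Agent.R273.GrowthU_757
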