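import Crest.Agent.R273.GrowthU_757

/-!
# R273 (S0416), LEMMA G, part 2 (helper757)

* `exists_abelian_fd`   : G1 for isometric representations on finite dimensional normed spaces
* `exists_real_hom`     : G2: polynomial growth + a finite dimensional isometric representation
                          with a cocycle that is not a coboundary give a subgroup of finite index
                          with a nonzero homomorphism to `ℝ`
* `polyGrowth_of_sets`, `polyGrowth_of_metric` : G3, the easy half of Milnor-Svarc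
-/

set_option autoImplicit false
set_option linter.unusedSectionVars false
set_option linter.unusedVariables false

open Set MeasureTheory
open scoped Pointwise ENNReal

namespace Crest.Agent.R273.GrowthV_757

open Crest.Agent.R273.GrowthU_757

section Rep

variable {Γ : Type*} [Group Γ]
variable {E : Type*} [NormedAddCommGroup E] [NormedSpace ℝ E] [FiniteDimensional ℝ E]

theorem exists_abelian_fd (hG : PolyGrowth Γ) (π : Γ →* (E →L[ℝ] E)) (h : ∀ g v, ‖π g v‖ ≤ ‖v‖) :
    ∃ H : Subgroup Γ, H.FiniteIndex ∧ ∀ a ∈ H, ∀ b ∈ H, π a * π b = π b * π a := by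
  have hn : ∀ g, ‖π g‖ ≤ 1 := fun g =>
    ContinuousLinearMap.opNorm_le_bound _ zero_le_one fun v => by rw [one_mul]; exact h g v
  refine exists_abelian hG π hn ?_
  have hc : IsCompact (Metric.closedBall (0 : E →L[ℝ] E) 1) := isCompact_closedBall _ _
  refine hc.totallyBounded.subset ?_
  rintro _ ⟨g, rfl⟩
  simpa [Metric.mem_closedBall] using hn g

/-- a finitely generated infinite abelian group maps nontrivially to `ℤ` -/
theorem exists_int_hom (Q : Type*) [AddCommGroup Q] [AddGroup.FG Q] [Infinite Q] :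
    ∃ f : Q →+ ℤ, f ≠ 0 := by
  obtain ⟨n, ι, hι, p, hp, e, ⟨φ⟩⟩ := AddCommGroup.equiv_free_prod_directSum_zmod Q
  have hn : 0 < n := by
    rcases Nat.eq_zero_or_pos n with h0 | h0
    · exfalso
      subst h0
      have : Finite (DirectSum ι fun i => ZMod (p i ^ e i)) := by
        classical
        have : ∀ i, NeZero (p i ^ e i) := fun i => ⟨pow_ne_zero _ (hp i).ne_zero⟩
        exact Finite.of_equiv _ (DirectSum.addEquivProd fun i => ZMod (p i ^ e i)).symm.toEquiv
      have h2 : Finite ((Fin 0 →₀ ℤ) × (DirectSum ι fun i => ZMod (p i ^ e i))) := inferInstance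
      exact (not_finite_iff_infinite.2 ‹Infinite Q›) (Finite.of_equiv _ φ.symm.toEquiv)
    · exact h0
  refine ⟨((Finsupp.applyAddHom (⟨0, hn⟩ : Fin n)).comp (AddMonoidHom.fst _ _)).comp
    φ.toAddMonoidHom, fun h => ?_⟩
  have h2 := DFunLike.congr_fun h (φ.symm (Finsupp.single ⟨0, hn⟩ 1, 0))
  simp at h2

theorem exists_real_hom_of_comm {H : Type*} [Group H] [Group.FG H] {A : Type*} [Monoid A]
    (ρ : H →* A) (hcomm : ∀ a b, ρ a * ρ b = ρ b * ρ a) (hinf : (range ρ).Infinite) :
    ∃ f : H → ℝ, (∀ a b, f (a * b) = f a + f b) ∧ ∃ a, f a ≠ 0 := by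
  -- the image as a commutative group
  let K : Subgroup H := ρ.ker
  have hK : ∀ a b : H, a * b * a⁻¹ * b⁻¹ ∈ K := by
    intro a b
    show ρ (a * b * a⁻¹ * b⁻¹) = 1
    have h1 : ρ (a * b * a⁻¹ * b⁻¹) * (ρ b * ρ a) = ρ a * ρ b := by
      rw [← map_mul, ← map_mul, ← map_mul]; congr 1; group
    have h2 : ρ (a * b * a⁻¹ * b⁻¹) * (ρ b * ρ a) * (ρ a⁻¹ * ρ b⁻¹) = 1 := by
      rw [h1, hcomm a b, mul_assoc, ← mul_assoc (ρ a), ← map_mul ρ a, mul_inv_cancel, map_one,
        one_mul, ← map_mul, mul_inv_cancel, map_one]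
    rwa [mul_assoc, mul_assoc (ρ b), ← mul_assoc (ρ a), ← map_mul ρ a, mul_inv_cancel, map_one,
        one_mul, ← map_mul, mul_inv_cancel, map_one, mul_one] at h2
  let Q := H ⧸ K
  let _ : CommGroup Q :=
    { (inferInstance : Group Q) with
      mul_comm := by
        intro a b
        induction a using QuotientGroup.induction_on with | _ a
        induction b using QuotientGroup.induction_on with | _ b
        rw [← QuotientGroup.mk_mul, ← QuotientGroup.mk_mul, QuotientGroup.eq]
        have h3 := hK b⁻¹ a⁻¹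
        have e : (a * b)⁻¹ * (b * a) = b⁻¹ * a⁻¹ * b⁻¹⁻¹ * a⁻¹⁻¹ := by group
        rw [e]; exact h3 }
  have hQinf : Infinite Q := by
    by_contra hf
    rw [not_infinite_iff_finite] at hf
    apply hinf
    have : range ρ = range (fun q : Q => ρ q.out) := by
      apply Subset.antisymm
      · rintro _ ⟨a, rfl⟩
        refine ⟨(QuotientGroup.mk a : Q), ?_⟩
        obtain ⟨k, hk⟩ := QuotientGroup.mk_out_eq_mul K a
        show ρ (QuotientGroup.mk a : Q).out = ρ a
        rw [hk, map_mul, (show ρ (k : H) = 1 from k.2), mul_one]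
      · rintro _ ⟨q, rfl⟩
        exact mem_range_self _
    rw [this]
    exact finite_range _
  have hQfg : Group.FG Q := QuotientGroup.fg K
  have : AddGroup.FG (Additive Q) := AddGroup.fg_iff_mul_fg.2 (by exact hQfg)
  obtain ⟨f, hf⟩ := exists_int_hom (Additive Q)
  refine ⟨fun a => (f (Additive.ofMul (QuotientGroup.mk a : Q)) : ℝ), fun a b => ?_, ?_⟩
  · rw [← Int.cast_add, ← map_add, ← ofMul_mul]; rfl
  · by_contra hcon
    push Not at hcon
    apply hf
    refine AddMonoidHom.ext fun q => ?_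
    obtain ⟨a, ha⟩ := QuotientGroup.mk_surjective (s := K) (Additive.toMul q)
    have h3 := hcon a
    rw [ha] at h3
    have h4 : f q = 0 := by exact_mod_cast h3
    simpa using h4

/-- **Lemma G2.** -/
theorem exists_real_hom (hG : PolyGrowth Γ) (π : Γ →* (E →L[ℝ] E)) (h : ∀ g v, ‖π g v‖ ≤ ‖v‖)
    (b : Γ → E) (hb : ∀ g k, b (g * k) = b g + π g (b k)) (hnc : ¬ ∃ x, ∀ g, b g = x - π g x) :
    ∃ H : Subgroup Γ, H.FiniteIndex ∧
      ∃ f : H → ℝ, (∀ x y, f (x * y) = f x + f y) ∧ ∃ x, f x ≠ 0 := by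
  obtain ⟨H, hH, hcomm⟩ := exists_abelian_fd hG π h
  have hfg := hG.fg
  have hHfg : Group.FG H := Subgroup.fg_of_index_ne_zero H
  by_cases hinf : (range fun x : H => π x).Infinite
  · exact ⟨H, hH, exists_real_hom_of_comm (π.comp H.subtype) (fun a b => hcomm a a.2 b b.2) hinf⟩
  rw [Set.not_infinite] at hinf
  -- `K` = elements of `H` acting trivially: finite index in `Γ`
  let K : Subgroup Γ := H ⊓ π.ker
  have hKi : K.FiniteIndex := by
    have h1 : (π.ker.subgroupOf H).FiniteIndex := by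
      have : Finite (H ⧸ (π.ker.subgroupOf H)) := by
        have hfin : Finite (range fun x : H => π x) := hinf
        refine Finite.of_injective (fun q : H ⧸ (π.ker.subgroupOf H) =>
          (⟨π (q.out : H), mem_range_self _⟩ : range fun x : H => π x)) ?_
        intro q q' he
        have e : π ((q.out : H) : Γ) = π ((q'.out : H) : Γ) := congrArg Subtype.val he
        rw [← q.out_eq', ← q'.out_eq', QuotientGroup.eq, Subgroup.mem_subgroupOf]
        show π _ = 1
        rw [Subgroup.coe_mul, Subgroup.coe_inv, map_mul, ← e, ← map_mul, inv_mul_cancel, map_one]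
      exact Subgroup.finiteIndex_of_finite_quotient
    have h2 : (K.subgroupOf H) = π.ker.subgroupOf H := by
      ext x; simp [K, Subgroup.mem_subgroupOf]
    refine ⟨?_⟩
    rw [← Subgroup.relIndex_mul_index (inf_le_left : K ≤ H)]
    refine mul_ne_zero ?_ hH.index_ne_zero
    show (K.subgroupOf H).index ≠ 0
    rw [h2]; exact h1.index_ne_zero
  have hKπ : ∀ k ∈ K, π k = 1 := fun k hk => hk.2
  have hadd : ∀ k ∈ K, ∀ l : Γ, b (k * l) = b k + b l := fun k hk l => by
    rw [hb, hKπ k hk]; rfl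
  by_cases hz : ∀ k ∈ K, b k = 0
  · exfalso
    apply hnc
    have hfin : Finite (Γ ⧸ K) := Subgroup.finite_quotient_of_finiteIndex
    have : Fintype (Γ ⧸ K) := Fintype.ofFinite _
    -- `b` descends to `Γ ⧸ K`
    let B : Γ ⧸ K → E := Quotient.lift b (by
      intro g k hgk
      have h1 : g⁻¹ * k ∈ K := by
        rw [← QuotientGroup.leftRel_apply]; exact hgk
      have h2 : k = g * (g⁻¹ * k) := by group
      rw [h2, hb, hz _ h1, map_zero, add_zero])
    have hB : ∀ g : Γ, B (QuotientGroup.mk g) = b g := fun g => rfl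
    have hBs : ∀ (g : Γ) (q : Γ ⧸ K), B (g • q) = b g + π g (B q) := by
      intro g q
      induction q using QuotientGroup.induction_on with | _ k
      rw [MulAction.Quotient.smul_mk, hB, hB, smul_eq_mul, hb]
    have hN : (Fintype.card (Γ ⧸ K) : ℝ) ≠ 0 := by
      exact_mod_cast Fintype.card_ne_zero
    refine ⟨(Fintype.card (Γ ⧸ K) : ℝ)⁻¹ • ∑ q, B q, fun g => ?_⟩
    have h3 : ∑ q, B q = (Fintype.card (Γ ⧸ K) : ℝ) • b g + π g (∑ q, B q) := by
      calc ∑ q, B q = ∑ q, B (g • q) :=
            (Equiv.sum_comp (MulAction.toPerm g) B).symm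
        _ = ∑ q, (b g + π g (B q)) := Finset.sum_congr rfl fun q _ => hBs g q
        _ = _ := by
            rw [Finset.sum_add_distrib, map_sum, Finset.sum_const, Finset.card_univ]
            simp [Nat.cast_smul_eq_nsmul]
    rw [map_smul, ← smul_sub]
    nth_rw 1 [h3]
    rw [add_sub_cancel_right, smul_smul, inv_mul_cancel₀ hN, one_smul]
  · push Not at hz
    obtain ⟨k, hk, hbk⟩ := hz
    obtain ⟨φ, hφ⟩ : ∃ φ : E →L[ℝ] ℝ, φ (b k) ≠ 0 := by
      by_contra hcon
      push Not at hcon
      apply hbk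
      obtain ⟨g, -, hg⟩ := exists_dual_vector'' ℝ (b k)
      have := hcon g
      rw [hg] at this
      simpa using this
    exact ⟨K, hKi, fun x => φ (b x), fun x y => by
      show φ (b (x * y)) = _
      rw [hadd x x.2, map_add], ⟨k, hk⟩, hφ⟩

end Rep

section MS

variable {Γ : Type*} [Group Γ]

open Classical in
/-- **Lemma G3, abstract form.**  `V g` (`g ∈ Γ`) measurable sets of measure `≥ v > 0` covering
each point at most `k` times, and `V g ⊆ U R` for `g ∈ T^R`. -/
theorem polyGrowth_of_sets {Y : Type*} [MeasurableSpace Y] (m : Measure Y) (T : Finset Γ)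
    (h1 : (1 : Γ) ∈ T) (hT : ∀ x ∈ T, x⁻¹ ∈ T) (hgen : Subgroup.closure (T : Set Γ) = ⊤)
    (V : Γ → Set Y) (hV : ∀ g, MeasurableSet (V g)) (v : ℝ) (hv : 0 < v)
    (hvV : ∀ g, ENNReal.ofReal v ≤ m (V g)) (k : ℕ)
    (hk : ∀ (y : Y) (F : Finset Γ), (∀ g ∈ F, y ∈ V g) → F.card ≤ k)
    (U : ℕ → Set Y) (hU : ∀ R, ∀ g ∈ T ^ R, V g ⊆ U R) (C : ℝ) (d : ℕ)
    (hUm : ∀ R, m (U R) ≤ ENNReal.ofReal (C * (R + 1) ^ d)) : PolyGrowth Γ := by
  have hC0 : 0 ≤ max C 0 := le_max_right _ _
  refine ⟨T, h1, hT, hgen, ⌈k * max C 0 / v⌉₊, d, fun R => ?_⟩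
  have key : ((T ^ R).card : ℝ≥0∞) * ENNReal.ofReal v ≤
      k * ENNReal.ofReal (max C 0 * (R + 1) ^ d) := by
    calc ((T ^ R).card : ℝ≥0∞) * ENNReal.ofReal v = ∑ g ∈ T ^ R, ENNReal.ofReal v := by
          rw [Finset.sum_const, nsmul_eq_mul]
      _ ≤ ∑ g ∈ T ^ R, m (V g) := Finset.sum_le_sum fun g _ => hvV g
      _ = ∑ g ∈ T ^ R, ∫⁻ y, (V g).indicator 1 y ∂m := by
          refine Finset.sum_congr rfl fun g _ => ?_
          rw [lintegral_indicator_one (hV g)]
      _ = ∫⁻ y, ∑ g ∈ T ^ R, (V g).indicator 1 y ∂m := by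
          rw [lintegral_finsetSum]
          exact fun g _ => measurable_one.indicator (hV g)
      _ ≤ ∫⁻ y, (toMeasurable m (U R)).indicator (fun _ => (k : ℝ≥0∞)) y ∂m := by
          refine lintegral_mono fun y => ?_
          by_cases hy : y ∈ toMeasurable m (U R)
          · rw [indicator_of_mem hy]
            have h2 : ∑ g ∈ T ^ R, (V g).indicator (1 : Y → ℝ≥0∞) y =
                (((T ^ R).filter fun g => y ∈ V g).card : ℝ≥0∞) := by
              rw [Finset.card_filter, Nat.cast_sum]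
              refine Finset.sum_congr rfl fun g _ => ?_
              by_cases hg : y ∈ V g <;> simp [hg]
            rw [h2]
            exact Nat.cast_le.2 (hk y _ fun g hg => (Finset.mem_filter.1 hg).2)
          · rw [indicator_of_notMem hy]
            refine le_of_eq (Finset.sum_eq_zero fun g hg => ?_)
            refine indicator_of_notMem (fun hgy => hy ?_) _
            exact subset_toMeasurable _ _ (hU R g hg hgy)
      _ = k * m (U R) := by
          rw [lintegral_indicator_const (measurableSet_toMeasurable _ _), measure_toMeasurable]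
      _ ≤ _ := by
          gcongr
          refine (hUm R).trans (ENNReal.ofReal_le_ofReal ?_)
          exact mul_le_mul_of_nonneg_right (le_max_left _ _) (by positivity)
  have key2 : ((T ^ R).card : ℝ) * v ≤ k * (max C 0 * (R + 1) ^ d) := by
    have e1 : ((T ^ R).card : ℝ≥0∞) * ENNReal.ofReal v = ENNReal.ofReal (((T ^ R).card : ℝ) * v) := by
      rw [ENNReal.ofReal_mul (by positivity), ENNReal.ofReal_natCast]
    have e2 : (k : ℝ≥0∞) * ENNReal.ofReal (max C 0 * (R + 1) ^ d) =
        ENNReal.ofReal (k * (max C 0 * (R + 1) ^ d)) := by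
      rw [ENNReal.ofReal_mul (Nat.cast_nonneg k), ENNReal.ofReal_natCast]
    rw [e1, e2] at key
    exact (ENNReal.ofReal_le_ofReal_iff (by positivity)).1 key
  have h3 : ((T ^ R).card : ℝ) ≤ k * max C 0 / v * (R + 1) ^ d := by
    rw [div_mul_eq_mul_div, le_div_iff₀ hv]
    linarith
  have h4 : ((T ^ R).card : ℝ) ≤ (⌈k * max C 0 / v⌉₊ : ℝ) * (R + 1) ^ d :=
    h3.trans (mul_le_mul_of_nonneg_right (Nat.le_ceil _) (by positivity))
  exact_mod_cast h4

open Classical in
/-- **Lemma G3, metric form.** -/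
theorem polyGrowth_of_metric {Y : Type*} [PseudoMetricSpace Y] [MeasurableSpace Y]
    [OpensMeasurableSpace Y] (m : Measure Y) [MulAction Γ Y]
    (hiso : ∀ (g : Γ) (x y : Y), dist (g • x) (g • y) = dist x y)
    (hm : ∀ (g : Γ) (x : Y) (r : ℝ), m (Metric.ball (g • x) r) = m (Metric.ball x r))
    (hfg : Group.FG Γ) (x₀ : Y) (r₀ : ℝ) (hr₀ : 0 < r₀) (hpos : 0 < m (Metric.ball x₀ r₀))
    (hfin : {g : Γ | dist (g • x₀) x₀ < 2 * r₀}.Finite) (C : ℝ) (d : ℕ)
    (hgr : ∀ R : ℝ, 0 ≤ R → m (Metric.ball x₀ R) ≤ ENNReal.ofReal (C * (R + 1) ^ d)) :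
    PolyGrowth Γ := by
  obtain ⟨S, hS⟩ := hfg
  -- symmetric generating set with `1`
  let T : Finset Γ := insert 1 (S ∪ S.image fun x => x⁻¹)
  have h1 : (1 : Γ) ∈ T := Finset.mem_insert_self _ _
  have hT : ∀ x ∈ T, x⁻¹ ∈ T := by
    intro x hx
    simp only [T, Finset.mem_insert, Finset.mem_union, Finset.mem_image] at hx ⊢
    rcases hx with rfl | hx | ⟨y, hy, rfl⟩
    · exact Or.inl inv_one
    · exact Or.inr (Or.inr ⟨x, hx, rfl⟩)
    · exact Or.inr (Or.inl (by rwa [inv_inv]))
  have hgen : Subgroup.closure (T : Set Γ) = ⊤ := by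
    rw [eq_top_iff, ← hS]
    refine Subgroup.closure_mono fun x hx => ?_
    simp only [T, Finset.coe_insert, Finset.coe_union, mem_insert_iff, mem_union]
    exact Or.inr (Or.inl hx)
  -- displacement of generators
  obtain ⟨L, hL⟩ : ∃ L : ℝ, ∀ t ∈ T, dist (t • x₀) x₀ ≤ L := by
    refine ⟨∑ t ∈ T, dist (t • x₀) x₀, fun t ht => ?_⟩
    exact Finset.single_le_sum (f := fun t => dist (t • x₀) x₀) (fun _ _ => dist_nonneg) ht
  have hL0 : 0 ≤ L := dist_nonneg.trans (hL 1 h1)
  have hdisp : ∀ R : ℕ, ∀ g ∈ T ^ R, dist (g • x₀) x₀ ≤ R * L := by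
    intro R
    induction R with
    | zero => intro g hg; rw [pow_zero, Finset.mem_one] at hg; simp [hg]
    | succ R ih =>
      intro g hg
      rw [pow_succ, Finset.mem_mul] at hg
      obtain ⟨a, ha, t, ht, rfl⟩ := hg
      calc dist ((a * t) • x₀) x₀ ≤ dist ((a * t) • x₀) (a • x₀) + dist (a • x₀) x₀ :=
            dist_triangle _ _ _
        _ = dist (t • x₀) x₀ + dist (a • x₀) x₀ := by rw [mul_smul, hiso]
        _ ≤ L + R * L := add_le_add (hL t ht) (ih a ha)
        _ = _ := by push_cast; ring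
  have hfinm : m (Metric.ball x₀ r₀) ≠ ∞ :=
    ne_top_of_le_ne_top ENNReal.ofReal_ne_top (hgr r₀ hr₀.le)
  refine polyGrowth_of_sets m T h1 hT hgen (fun g => Metric.ball (g • x₀) r₀)
    (fun g => Metric.isOpen_ball.measurableSet) (m (Metric.ball x₀ r₀)).toReal
    (ENNReal.toReal_pos hpos.ne' hfinm) (fun g => ?_) hfin.toFinset.card ?_
    (fun R => Metric.ball x₀ (R * L + r₀)) ?_ (max C 0 * (L + r₀ + 1) ^ d) d ?_
  · rw [ENNReal.ofReal_toReal hfinm, hm]
  · intro y F hF
    rcases F.eq_empty_or_nonempty with rfl | ⟨a, ha⟩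
    · simp
    · refine Finset.card_le_card_of_injOn (fun g => a⁻¹ * g) ?_ ?_
      · intro g hg
        rw [Finite.coe_toFinset, mem_ofPred_eq]
        have h2 := hF g hg
        have h3 := hF a ha
        rw [Metric.mem_ball] at h2 h3
        calc dist ((a⁻¹ * g) • x₀) x₀ = dist (a • ((a⁻¹ * g) • x₀)) (a • x₀) := (hiso _ _ _).symm
          _ = dist (g • x₀) (a • x₀) := by rw [smul_smul, mul_inv_cancel_left]
          _ ≤ dist y (g • x₀) + dist y (a • x₀) := dist_triangle_left _ _ _
          _ < _ := by linarith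
      · intro g _ g' _ he
        exact mul_left_cancel he
  · intro R g hg
    refine Metric.ball_subset_ball' ?_
    have := hdisp R g hg
    linarith
  · intro R
    refine (hgr _ (by positivity)).trans (ENNReal.ofReal_le_ofReal ?_)
    have h2 : (R * L + r₀ + 1 : ℝ) ≤ (L + r₀ + 1) * (R + 1) := by
      have : (0 : ℝ) ≤ R := Nat.cast_nonneg R
      nlinarith
    calc C * (R * L + r₀ + 1) ^ d ≤ max C 0 * ((L + r₀ + 1) * (R + 1)) ^ d := by
          refine mul_le_mul (le_max_left _ _) ?_ (by positivity) (le_max_right _ _)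
          exact pow_le_pow_left₀ (by positivity) h2 d
      _ = _ := by rw [mul_pow]; ring

end MS

end Crest.Agent.R273.GrowthV_757
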