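import Crest.Agent.R247.Bgr3_546
import Crest.Agent.R247.GluM1_923
import Crest.Agent.R247.Ms10_322
import Crest.Prelude.Def_WordHyperbolic

/-!
# R273 (S0416), Part C, BGT-3 (helper289): polynomial growth from `Ric ≥ 0`

A group acting isometrically, freely, properly discontinuously and cocompactly on a connected
Riemannian manifold with `Ric ≥ 0` has polynomial growth: Bishop–Gromov (`R247`) + packing.

* `complete_of_cocompact` : a locally compact metric space with a cocompact isometric action is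
  complete;
* `card_le_of_bishop`     : orbit counting;
* `growth_wordLength`     : `ncard {g | wordLength S g ≤ k} ≤ C * k ^ m` for `k ≥ 1`.
-/

set_option autoImplicit false
noncomputable section
open Set Filter Topology MeasureTheory Metric
open scoped ContDiff Manifold ENNReal NNReal
open Bundle Crest.GeometryTopology.CoordMetric Crest.GeometryTopology.ChartCurvature
  Crest.GeometryTopology.PointedLimit
open Crest.GroupTheory (wordLength)

namespace Crest.Agent.R273.Growth_289

universe u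

section Metric

variable {N : Type*} [MetricSpace N] {Γ : Type*} [Group Γ] [MulAction Γ N]

/-- A locally compact metric space with a cocompact isometric group action is complete. -/
theorem complete_of_cocompact [LocallyCompactSpace N]
    (hiso : ∀ (g : Γ) (x y : N), dist (g • x) (g • y) = dist x y)
    {K : Set N} (hK : IsCompact K) (hcov : ∀ x : N, ∃ g : Γ, g • x ∈ K) : CompleteSpace N := by
  -- a uniform radius with compact closed balls
  obtain ⟨K', hK', hKK'⟩ := exists_compact_superset hK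
  obtain ⟨ε, hε, hthick⟩ := hK.exists_thickening_subset_open isOpen_interior hKK'
  have hball : ∀ x ∈ K, closedBall x (ε / 2) ⊆ K' := by
    intro x hx y hy
    refine interior_subset (hthick ?_)
    rw [mem_thickening_iff]
    exact ⟨x, hx, lt_of_le_of_lt hy (by linarith)⟩
  refine Metric.complete_of_cauchySeq_tendsto fun s hs => ?_
  obtain ⟨m, hm⟩ := Metric.cauchySeq_iff'.1 hs (ε / 2) (by positivity)
  obtain ⟨g, hg⟩ := hcov (s m)
  have hcpt : IsCompact (closedBall (g • s m) (ε / 2)) :=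
    hK'.of_isClosed_subset isClosed_closedBall (hball _ hg)
  have hmem : ∀ k, g • s (m + k) ∈ closedBall (g • s m) (ε / 2) := by
    intro k
    rw [mem_closedBall, hiso]
    exact (hm (m + k) (by omega)).le
  obtain ⟨y, hy, φ, hφ, hlim⟩ := hcpt.tendsto_subseq hmem
  have hlim' : Tendsto (fun k => s (m + φ k)) atTop (𝓝 (g⁻¹ • y)) := by
    rw [tendsto_iff_dist_tendsto_zero] at hlim ⊢
    refine hlim.congr fun k => ?_
    rw [Function.comp_apply, ← hiso g (s (m + φ k)), smul_inv_smul]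
  refine ⟨g⁻¹ • y, tendsto_nhds_of_cauchySeq_of_subseq hs ?_ hlim'⟩
  exact tendsto_atTop_mono (fun k => by omega : ∀ k, φ k ≤ m + φ k) hφ.tendsto_atTop

/-- lengths of words bound displacements -/
theorem dist_prod_smul_le (hiso : ∀ (g : Γ) (x y : N), dist (g • x) (g • y) = dist x y)
    (x0 : N) (S : Set Γ) {L : ℝ} (hL : ∀ s ∈ S, dist (s • x0) x0 ≤ L) :
    ∀ l : List Γ, (∀ x ∈ l, x ∈ S ∨ x⁻¹ ∈ S) → dist (l.prod • x0) x0 ≤ l.length * L := by
  intro l
  induction l with
  | nil => intro _; simp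
  | cons a l ih =>
    intro h
    have h1 := ih fun x hx => h x (by simp [hx])
    have h2 : dist (a • x0) x0 ≤ L := by
      rcases h a (by simp) with ha | ha
      · exact hL a ha
      · have := hL _ ha
        rwa [← hiso a, smul_inv_smul, dist_comm] at this
    rw [List.prod_cons, mul_smul, List.length_cons]
    have h3 := dist_triangle (a • l.prod • x0) (a • x0) x0
    rw [hiso] at h3
    push_cast
    linarith

/-- the word length is attained -/
theorem exists_word {S : Set Γ} (hS : Subgroup.closure S = ⊤) (g : Γ) :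
    ∃ l : List Γ, l.length = wordLength S g ∧ (∀ x ∈ l, x ∈ S ∨ x⁻¹ ∈ S) ∧ l.prod = g := by
  have hne : {n : ℕ | ∃ l : List Γ, l.length = n ∧ (∀ x ∈ l, x ∈ S ∨ x⁻¹ ∈ S) ∧ l.prod = g}.Nonempty := by
    have hg : g ∈ Subgroup.closure S := by rw [hS]; trivial
    rw [← Subgroup.mem_toSubmonoid, Subgroup.closure_toSubmonoid] at hg
    obtain ⟨l, hl, hp⟩ := Submonoid.exists_list_of_mem_closure hg
    exact ⟨l.length, l, rfl, fun x hx => by simpa using hl x hx, hp⟩
  exact Nat.sInf_mem hne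

theorem dist_smul_le_wordLength (hiso : ∀ (g : Γ) (x y : N), dist (g • x) (g • y) = dist x y)
    (x0 : N) {S : Set Γ} (hS : Subgroup.closure S = ⊤) {L : ℝ}
    (hL : ∀ s ∈ S, dist (s • x0) x0 ≤ L) (g : Γ) :
    dist (g • x0) x0 ≤ wordLength S g * L := by
  obtain ⟨l, hl, hlS, rfl⟩ := exists_word hS g
  rw [← hl]
  exact dist_prod_smul_le hiso x0 S hL l hlS

theorem complete_of_cocompact_manifold (m : ℕ) [ChartedSpace (EuclideanSpace ℝ (Fin m)) N]
    (hiso : ∀ (g : Γ) (x y : N), dist (g • x) (g • y) = dist x y)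
    {K : Set N} (hK : IsCompact K) (hcov : ∀ x : N, ∃ g : Γ, g • x ∈ K) : CompleteSpace N := by
  have : LocallyCompactSpace N := ChartedSpace.locallyCompactSpace (EuclideanSpace ℝ (Fin m)) N
  exact complete_of_cocompact hiso hK hcov

/-- orbit counting from a doubling type inequality -/
theorem card_mul_le [MeasurableSpace N] [BorelSpace N] (μ : Measure N)
    (hiso : ∀ (g : Γ) (x y : N), dist (g • x) (g • y) = dist x y)
    (hμ : ∀ (g : Γ) (x : N) (r : ℝ), μ (ball (g • x) r) = μ (ball x r))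
    (x0 : N) {r : ℝ} (hr : ∀ g : Γ, g ≠ 1 → 2 * r ≤ dist (g • x0) x0) {R : ℝ}
    (F : Finset Γ) (hF : ∀ g ∈ F, dist (g • x0) x0 ≤ R) :
    (F.card : ℝ≥0∞) * μ (ball x0 r) ≤ μ (ball x0 (R + r)) := by
  have hdisj : (F : Set Γ).PairwiseDisjoint fun g => ball (g • x0) r := by
    intro g _ h _ hgh
    refine ball_disjoint_ball ?_
    have h1 : h⁻¹ * g ≠ 1 := by
      intro h2; exact hgh (inv_mul_eq_one.1 h2).symm
    have h2 := hr _ h1
    rw [← hiso h, ← mul_smul, mul_inv_cancel_left] at h2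
    linarith
  calc (F.card : ℝ≥0∞) * μ (ball x0 r) = ∑ g ∈ F, μ (ball (g • x0) r) := by
        rw [Finset.sum_congr rfl fun g _ => hμ g x0 r]
        simp
    _ = μ (⋃ g ∈ F, ball (g • x0) r) :=
        (measure_biUnion_finset hdisj fun g _ => measurableSet_ball).symm
    _ ≤ μ (ball x0 (R + r)) := by
        refine measure_mono (iUnion₂_subset fun g hg y hy => ?_)
        rw [mem_ball] at hy ⊢
        have := dist_triangle y (g • x0) x0
        have := hF g hg
        linarith

end Metric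

section Riem

variable {m : ℕ} {N : Type u} [MetricSpace N] [ConnectedSpace N]
  [ChartedSpace (EuclideanSpace ℝ (Fin m)) N]
  [IsManifold 𝓘(ℝ, EuclideanSpace ℝ (Fin m)) ∞ N]
  [RiemannianBundle (fun x : N => TangentSpace 𝓘(ℝ, EuclideanSpace ℝ (Fin m)) x)]
  [IsContMDiffRiemannianBundle 𝓘(ℝ, EuclideanSpace ℝ (Fin m)) ∞ (EuclideanSpace ℝ (Fin m))
    (fun x : N => TangentSpace 𝓘(ℝ, EuclideanSpace ℝ (Fin m)) x)]
  [IsRiemannianManifold 𝓘(ℝ, EuclideanSpace ℝ (Fin m)) N]
  {Γ : Type*} [Group Γ] [MulAction Γ N]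

variable [MeasurableSpace N] [BorelSpace N]

/-- **Orbit counting** under `Ric ≥ 0`. -/
theorem card_le (hric : HasRicciLowerBound m N 0)
    (hiso : ∀ (g : Γ) (x y : N), dist (g • x) (g • y) = dist x y)
    {K : Set N} (hK : IsCompact K) (hcov : ∀ x : N, ∃ g : Γ, g • x ∈ K)
    (x0 : N) {r : ℝ} (hr0 : 0 < r) (hr : ∀ g : Γ, g ≠ 1 → 2 * r ≤ dist (g • x0) x0) {R : ℝ}
    (hR : 0 ≤ R) (F : Finset Γ) (hF : ∀ g ∈ F, dist (g • x0) x0 ≤ R) :
    (F.card : ℝ) ≤ ((R + r) / r) ^ m := by
  have : CompleteSpace N := complete_of_cocompact_manifold m hiso hK hcov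
  have hpos : (μHE[m] : Measure N).IsOpenPosMeasure := Crest.Agent.R247.Ms322.isOpenPosMeasure m N
  have h1 := card_mul_le (μHE[m] : Measure N) hiso (fun g x s => by
    have hI : Isometry fun y : N => g • y := Isometry.of_dist_eq fun a b => hiso g a b
    rw [← hI.euclideanHausdorffMeasure_image (ball x s)]
    congr 1
    ext y
    constructor
    · intro hy
      refine ⟨g⁻¹ • y, ?_, smul_inv_smul g y⟩
      rw [mem_ball] at hy ⊢
      rwa [← hiso g, smul_inv_smul]
    · rintro ⟨z, hz, rfl⟩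
      rw [mem_ball] at hz ⊢
      rwa [hiso]) x0 hr F hF
  have h2 := Crest.Agent.R247.Bgr546.bgr_all m 0 le_rfl N x0 r (R + r) (by simpa using hric) hr0
    (by linarith)
  have hb0 : (μHE[m] : Measure N) (ball x0 r) ≠ 0 := (measure_ball_pos _ _ hr0).ne'
  have hbt : (μHE[m] : Measure N) (ball x0 r) ≠ ⊤ :=
    (Crest.Agent.R247.GluM923.ball_lt_top m N x0 r).ne
  have h3 := h1.trans h2
  rw [ENNReal.mul_le_mul_iff_left hb0 hbt] at h3
  have h4 : Real.exp (0 * (R + r) ^ 2 / 2) * ((R + r) / r) ^ m = ((R + r) / r) ^ m := by simp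
  rw [h4] at h3
  have h5 : (0 : ℝ) ≤ ((R + r) / r) ^ m := by positivity
  have h6 := (ENNReal.ofReal_le_ofReal_iff h5).1 (by simpa using h3 : ENNReal.ofReal (F.card : ℝ) ≤ _)
  exact h6

/-- **BGT-3.** A group acting isometrically, freely (at `x0`), properly discontinuously and
cocompactly on a connected Riemannian manifold with `Ric ≥ 0` has polynomial growth. -/
theorem growth_wordLength (hric : HasRicciLowerBound m N 0)
    (hiso : ∀ (g : Γ) (x y : N), dist (g • x) (g • y) = dist x y)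
    {K : Set N} (hK : IsCompact K) (hcov : ∀ x : N, ∃ g : Γ, g • x ∈ K)
    (x0 : N) {U : Set N} (hU : U ∈ 𝓝 x0) (hdisc : ∀ g : Γ, g ≠ 1 → g • x0 ∉ U)
    (S : Finset Γ) (hS : Subgroup.closure (S : Set Γ) = ⊤) :
    ∃ C : ℕ, ∀ k : ℕ, 1 ≤ k → {g : Γ | wordLength (S : Set Γ) g ≤ k}.Finite ∧
      {g : Γ | wordLength (S : Set Γ) g ≤ k}.ncard ≤ C * k ^ m := by
  classical
  obtain ⟨ε, hε, hεU⟩ := Metric.mem_nhds_iff.1 hU
  have hr : ∀ g : Γ, g ≠ 1 → 2 * (ε / 2) ≤ dist (g • x0) x0 := by
    intro g hg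
    by_contra hlt
    rw [not_le] at hlt
    exact hdisc g hg (hεU (by rw [mem_ball]; linarith))
  -- displacement bound of the generators
  obtain ⟨L, hL0, hL⟩ : ∃ L : ℝ, 0 ≤ L ∧ ∀ s ∈ (S : Set Γ), dist (s • x0) x0 ≤ L := by
    refine ⟨∑ s ∈ S, dist (s • x0) x0, Finset.sum_nonneg fun _ _ => dist_nonneg, fun s hs => ?_⟩
    exact Finset.single_le_sum (f := fun s => dist (s • x0) x0) (fun _ _ => dist_nonneg) hs
  set c : ℝ := ((L + ε / 2) / (ε / 2)) ^ m with hc
  have hc0 : 0 ≤ c := by positivity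
  refine ⟨⌈c⌉₊, fun k hk => ?_⟩
  have hk1 : (1 : ℝ) ≤ k := by exact_mod_cast hk
  have hbound : ∀ F : Finset Γ, (F : Set Γ) ⊆ {g : Γ | wordLength (S : Set Γ) g ≤ k} →
      F.card ≤ ⌈c⌉₊ * k ^ m := by
    intro F hF
    have h1 : ∀ g ∈ F, dist (g • x0) x0 ≤ k * L := by
      intro g hg
      refine (dist_smul_le_wordLength hiso x0 hS hL g).trans ?_
      have h2 : wordLength (S : Set Γ) g ≤ k := hF hg
      have h3 : (wordLength (S : Set Γ) g : ℝ) ≤ k := by exact_mod_cast h2
      gcongr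
    have h2 := card_le hric hiso hK hcov x0 (by positivity : 0 < ε / 2) hr
      (by positivity : (0 : ℝ) ≤ k * L) F h1
    have h3 : (k * L + ε / 2) / (ε / 2) ≤ k * ((L + ε / 2) / (ε / 2)) := by
      rw [← mul_div_assoc]
      gcongr
      nlinarith
    have h4 : ((k * L + ε / 2) / (ε / 2)) ^ m ≤ (k * ((L + ε / 2) / (ε / 2))) ^ m := by
      gcongr
    have h5 : (F.card : ℝ) ≤ ⌈c⌉₊ * k ^ m := by
      refine (h2.trans h4).trans ?_
      rw [mul_pow, mul_comm]
      gcongr
      exact Nat.le_ceil c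
    exact_mod_cast h5
  have hfin : {g : Γ | wordLength (S : Set Γ) g ≤ k}.Finite := by
    by_contra hinf
    obtain ⟨F, hF, hcard⟩ := (Set.not_finite.1 hinf).exists_subset_card_eq (⌈c⌉₊ * k ^ m + 1)
    have := hbound F hF
    omega
  refine ⟨hfin, ?_⟩
  have := hbound hfin.toFinset (by simp)
  rwa [Set.ncard_eq_toFinset_card _ hfin]

end Riem

end Crest.Agent.R273.Growth_289
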