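import Mathlib

/-!
# R273, leaf ALB-4 (helper645): finite-by-abelian groups are virtually free abelian

`exists_inj` : `Γ` finitely generated, `f : Γ →* A`, `A` commutative torsion free, `ker f` finite
==> there is a central subgroup of finite index on which `f` is injective.
-/

set_option autoImplicit false
set_option linter.style.haveILetI false

namespace Crest.Agent.R273.Grp645

open Subgroup
open scoped IsMulCommutative

/-- a finitely generated group whose commutator subgroup is finite has a center of finite index -/
theorem center_finiteIndex {Γ : Type*} [Group Γ] [Group.FG Γ]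
    (h : ((commutator Γ : Subgroup Γ) : Set Γ).Finite) : (Subgroup.center Γ).FiniteIndex := by
  classical
  obtain ⟨S, hS⟩ := (Group.fg_def.1 ‹Group.FG Γ› : (⊤ : Subgroup Γ).FG)
  have hc : Subgroup.center Γ = ⨅ s : S, Subgroup.centralizer ({(s : Γ)} : Set Γ) := by
    apply le_antisymm
    · refine le_iInf fun s => ?_
      intro z hz
      rw [Subgroup.mem_centralizer_iff]
      intro x _
      exact (Subgroup.mem_center_iff.1 hz x)
    · intro z hz
      rw [Subgroup.mem_iInf] at hz
      rw [Subgroup.mem_center_iff]
      intro g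
      have hg : g ∈ Subgroup.closure (S : Set Γ) := by rw [hS]; trivial
      induction hg using Subgroup.closure_induction with
      | mem x hx =>
        have := hz ⟨x, hx⟩
        rw [Subgroup.mem_centralizer_iff] at this
        exact this x rfl
      | one => simp
      | mul x y _ _ hx hy => rw [mul_assoc, hy, ← mul_assoc, hx, mul_assoc]
      | inv x _ hx =>
        have h1 : x⁻¹ * (x * z) * x⁻¹ = x⁻¹ * (z * x) * x⁻¹ := by rw [hx]
        simpa [mul_assoc] using h1.symm
  rw [hc]
  haveI : Finite S := inferInstance
  have key : ∀ s : Γ, (Subgroup.centralizer ({s} : Set Γ)).FiniteIndex := by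
    intro s
    have hfin : Finite (Γ ⧸ Subgroup.centralizer ({s} : Set Γ)) := by
      let F : Γ ⧸ Subgroup.centralizer ({s} : Set Γ) → (commutator Γ : Subgroup Γ) :=
        Quotient.lift (s := QuotientGroup.leftRel _) (fun g => ⟨g * s * g⁻¹ * s⁻¹,
          Subgroup.commutator_mem_commutator (Subgroup.mem_top g) (Subgroup.mem_top s)⟩) (by
          intro a b hab
          have hab' : a⁻¹ * b ∈ Subgroup.centralizer ({s} : Set Γ) :=
            QuotientGroup.leftRel_apply.1 hab
          rw [Subgroup.mem_centralizer_iff] at hab'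
          have h1 := hab' s rfl
          apply Subtype.ext
          change a * s * a⁻¹ * s⁻¹ = b * s * b⁻¹ * s⁻¹
          congr 1
          have h2 : a * (s * (a⁻¹ * b)) * b⁻¹ = a * (a⁻¹ * b * s) * b⁻¹ := by rw [h1]
          have h3 : a * (s * (a⁻¹ * b)) * b⁻¹ = a * s * a⁻¹ := by group
          have h4 : a * (a⁻¹ * b * s) * b⁻¹ = b * s * b⁻¹ := by group
          rw [h3, h4] at h2
          exact h2)
      haveI : Finite (commutator Γ : Subgroup Γ) := h.to_subtype
      refine Finite.of_injective F ?_
      intro x y
      induction x using QuotientGroup.induction_on with | _ a =>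
      induction y using QuotientGroup.induction_on with | _ b =>
      intro hxy
      have h1 : a * s * a⁻¹ * s⁻¹ = b * s * b⁻¹ * s⁻¹ := congrArg Subtype.val hxy
      have h2 : a * s * a⁻¹ = b * s * b⁻¹ := mul_right_cancel h1
      apply QuotientGroup.eq.2
      rw [Subgroup.mem_centralizer_iff]
      intro x hx
      rw [Set.mem_singleton_iff] at hx
      subst hx
      have h3 : a⁻¹ * (a * x * a⁻¹) * b = a⁻¹ * (b * x * b⁻¹) * b := by rw [h2]
      have h4 : a⁻¹ * (a * x * a⁻¹) * b = x * (a⁻¹ * b) := by group
      have h5 : a⁻¹ * (b * x * b⁻¹) * b = a⁻¹ * b * x := by group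
      rw [h4, h5] at h3
      exact h3
    exact Subgroup.finiteIndex_of_finite_quotient
  haveI := fun s : S => key s
  exact Subgroup.finiteIndex_iInf (fun s => key s)

/-- `Γ` f.g., `f : Γ →* A` with finite kernel, `A` commutative and torsion free: there is a central
subgroup of finite index on which `f` is injective -/
theorem exists_inj {Γ A : Type*} [Group Γ] [Group.FG Γ] [CommGroup A] [IsMulTorsionFree A]
    (f : Γ →* A) (hf : (f.ker : Set Γ).Finite) :
    ∃ H : Subgroup Γ, H.FiniteIndex ∧ H ≤ Subgroup.center Γ ∧
      ∀ x ∈ H, ∀ y ∈ H, f x = f y → x = y := by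
  have hcom : (commutator Γ : Subgroup Γ) ≤ f.ker := Abelianization.commutator_subset_ker f
  haveI hZ : (Subgroup.center Γ).FiniteIndex :=
    center_finiteIndex (hf.subset (fun x hx => hcom hx))
  haveI : Finite f.ker := hf.to_subtype
  set m := Nat.card f.ker with hm
  have hm0 : m ≠ 0 := Nat.card_pos.ne'
  haveI : Group.FG (Subgroup.center Γ) := by infer_instance
  let P : Subgroup.center Γ →* Subgroup.center Γ := powMonoidHom m
  let H : Subgroup Γ := P.range.map (Subgroup.center Γ).subtype
  have hfin : Finite (Subgroup.center Γ ⧸ P.range) := by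
    haveI : Group.FG (Subgroup.center Γ ⧸ P.range) := QuotientGroup.fg _
    apply CommGroup.finite_of_fg_torsion
    intro x
    induction x using QuotientGroup.induction_on with | _ z =>
    rw [isOfFinOrder_iff_pow_eq_one]
    refine ⟨m, Nat.pos_of_ne_zero hm0, ?_⟩
    rw [← QuotientGroup.mk_pow, QuotientGroup.eq_one_iff]
    exact ⟨z, rfl⟩
  haveI : P.range.FiniteIndex := Subgroup.finiteIndex_of_finite_quotient
  refine ⟨H, ?_, ?_, ?_⟩
  · constructor
    have h1 : H.index = (Subgroup.center Γ).index * P.range.index := by
      have := Subgroup.index_map_subtype P.range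
      rw [mul_comm] at this
      exact this
    rw [h1]
    exact mul_ne_zero hZ.index_ne_zero (Subgroup.FiniteIndex.index_ne_zero)
  · rintro x ⟨z, -, rfl⟩
    exact z.2
  · have h1 : ∀ x ∈ H, f x = 1 → x = 1 := by
      rintro x ⟨z, ⟨w, rfl⟩, rfl⟩ hx
      have h2 : f (w : Γ) ^ m = 1 := by
        have h3 : f ((w : Γ) ^ m) = 1 := hx
        rwa [map_pow] at h3
      have h3 : f (w : Γ) = 1 := by
        exact (pow_eq_one_iff_left hm0).1 h2
      have h4 : (⟨(w : Γ), h3⟩ : f.ker) ^ m = 1 := pow_card_eq_one'
      have h5 : (w : Γ) ^ m = 1 := congrArg Subtype.val h4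
      exact h5
    intro x hx y hy hxy
    have h2 := h1 (x * y⁻¹) (H.mul_mem hx (H.inv_mem hy)) (by rw [map_mul, map_inv, hxy, mul_inv_cancel])
    exact mul_inv_eq_one.1 h2

end Crest.Agent.R273.Grp645
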