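import Crest.Agent.R273.NormC_505
import Crest.Agent.R273.LamN_127
import Crest.Agent.R273.NV_578
import Crest.Agent.R273.Pos_243

/-!
# R273, D.13 (helper505): Hermitian densities of a Kaehler metric and a weight

`K : Kah A`, `N : LB A`, `h : HM ((KB A)⁻¹ * N)`.

* `Kl K i x = (K.g i x)ᵀ`, `Ku K i x` its inverse; smoothness, positivity, transformation laws;
* `EV N : VBun A` : polyvectors with values in `N`; `B0 N := tw (lamN A) (EV N)`;
* `HB K h : HDen (BN N)` : `w_i • Γ(Ku)`;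
* `H0 K h : HDen (B0 N)` : `w_i • Γ(Ku) ⊗ Γ(Kl)`;
* `HT K h hs : HDen (BN N)` : the curvature term, read on the lowered section.
-/

set_option autoImplicit false
set_option linter.unusedSectionVars false

open Set Filter Topology Complex
open scoped ContDiff Matrix ComplexConjugate Kronecker ComplexOrder

namespace Crest.Agent.R273.HDN_505

open Crest.Agent.R275 Crest.Agent.R275.Geo Crest.Agent.R275.Core144 Crest.Agent.R275.SerG398
open Crest.Agent.R273.Defs_333 Crest.Agent.R273.HM_333 Crest.Agent.R273.Kah_333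
open Crest.Agent.R273.Fock_243 Crest.Agent.R273.Bkn_243 Crest.Agent.R273.Pos_243
open Crest.Agent.R273.LamN127 Crest.Agent.R273.NormC_505 Crest.Agent.R273.DnInt_505

noncomputable section

variable {n : ℕ} {M : Type} [TopologicalSpace M] {A : Atl n M}

/-! ### the lowering matrix -/

/-- lowering matrix, `Kl b a = g_{a b̄}` -/
def Kl (K : Kah A) (i : A.ι) (x : M) : Matrix (Fin n) (Fin n) ℂ := (K.g i x)ᵀ

/-- raising matrix -/
def Ku (K : Kah A) (i : A.ι) (x : M) : Matrix (Fin n) (Fin n) ℂ := (Kl K i x)⁻¹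

section metric

variable (K : Kah A) {i j : A.ι} {x : M}

theorem Kl_posDef (hx : x ∈ (A.e i).source) : (Kl K i x).PosDef := (K.pos i x hx).transpose

theorem Kl_herm (hx : x ∈ (A.e i).source) :
    (Kl K i x).map (starRingEnd ℂ) = (Kl K i x)ᵀ :=
  map_eq_transpose_of_isHermitian (Kl_posDef K hx).1

theorem Kl_unit (hx : x ∈ (A.e i).source) : IsUnit (Kl K i x).det :=
  (Matrix.isUnit_iff_isUnit_det _).1 (Kl_posDef K hx).isUnit

theorem Ku_mul_Kl (hx : x ∈ (A.e i).source) : Ku K i x * Kl K i x = 1 :=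
  Matrix.nonsing_inv_mul _ (Kl_unit K hx)

theorem Kl_mul_Ku (hx : x ∈ (A.e i).source) : Kl K i x * Ku K i x = 1 :=
  Matrix.mul_nonsing_inv _ (Kl_unit K hx)

theorem Ku_posDef (hx : x ∈ (A.e i).source) : (Ku K i x).PosDef := (Kl_posDef K hx).inv

theorem Ku_herm (hx : x ∈ (A.e i).source) :
    (Ku K i x).map (starRingEnd ℂ) = (Ku K i x)ᵀ :=
  map_eq_transpose_of_isHermitian (Ku_posDef K hx).1

theorem Kl_tr (hx : x ∈ (A.e i).source ∩ (A.e j).source) :
    Kl K i x = (Lam2130.Jm A i j x)ᴴ * Kl K j x * Lam2130.Jm A i j x := by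
  unfold Kl
  rw [K.tr i j x hx, Matrix.transpose_mul, Matrix.transpose_mul, Matrix.transpose_transpose,
    ← Matrix.mul_assoc]
  rfl

theorem Ku_tr (hx : x ∈ (A.e i).source ∩ (A.e j).source) :
    Lam2130.Jm A i j x * Ku K i x * (Lam2130.Jm A i j x)ᴴ = Ku K j x :=
  inv_trans (Kl_tr K hx) (Ku_mul_Kl K hx.1) (Ku_mul_Kl K hx.2)

theorem Kl_tr' (hx : x ∈ (A.e i).source ∩ (A.e j).source) :
    (Lam2130.Jm A j i x)ᴴ * Kl K i x * Lam2130.Jm A j i x = Kl K j x := by
  rw [← Kl_tr K ⟨hx.2, hx.1⟩]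

theorem Kl_smAt (i : A.ι) (a b : Fin n) : A.SmAt i (fun x => Kl K i x a b) := K.sm i b a

theorem Ku_smAt (i : A.ι) (a b : Fin n) : A.SmAt i (fun x => Ku K i x a b) := by
  show ContDiffOn ℝ ∞ (fun z => Ku K i ((A.e i).symm z) a b) (A.e i).target
  have h1 : ∀ z ∈ (A.e i).target, Ku K i ((A.e i).symm z) a b =
      (Kl K i ((A.e i).symm z)).det⁻¹ * (Kl K i ((A.e i).symm z)).adjugate a b := by
    intro z hz
    have h2 := Kl_unit K ((A.e i).map_target hz)
    unfold Ku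
    rw [Matrix.inv_def, Matrix.smul_apply, smul_eq_mul, Ring.inverse_eq_inv']
  refine ContDiffOn.congr ?_ h1
  have hdet : ∀ (m : M → Matrix (Fin n) (Fin n) ℂ), (∀ a b, A.SmAt i (fun x => m x a b)) →
      ContDiffOn ℝ ∞ (fun z => (m ((A.e i).symm z)).det) (A.e i).target := by
    intro m hm
    simp only [Matrix.det_apply]
    refine ContDiffOn.sum fun σ _ => ContDiffOn.const_smul _ ?_
    exact contDiffOn_prod fun b _ => hm (σ b) b
  refine ContDiffOn.mul ?_ ?_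
  · exact (hdet _ (Kl_smAt K i)).inv fun z hz => (Kl_unit K ((A.e i).map_target hz)).ne_zero
  · have h3 : (fun z => (Kl K i ((A.e i).symm z)).adjugate a b) = fun z =>
        ((fun x => (Kl K i x).updateRow b (Pi.single a 1)) ((A.e i).symm z)).det := by
      funext z
      rw [Matrix.adjugate_apply]
    rw [h3]
    refine hdet (fun x => (Kl K i x).updateRow b (Pi.single a 1)) fun c d => ?_
    by_cases hc : c = b
    · subst hc
      simp only [Matrix.updateRow_self]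
      exact contDiffOn_const
    · simp only [Matrix.updateRow_ne hc]
      exact Kl_smAt K i c d

theorem Gam_smAt {m : M → Matrix (Fin n) (Fin n) ℂ} {i : A.ι}
    (hm : ∀ a b, A.SmAt i (fun x => m x a b)) (S T : FI n) : A.SmAt i (fun x => Gam (m x) S T) :=
  contDiffOn_Gam (fun a b => hm a b) S T

end metric

/-! ### the bundles -/

/-- polyvectors with values in the line bundle `N` -/
def EV (N : LB A) : VBun A :=
  Lam2130.ofHolo (FI n) (fun i j x => N.g i j x • Gam (Lam2130.Jm A j i x))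
    (fun i j k l => by
      have h1 : DifferentiableOn ℂ (fun z => N.g i j ((A.e i).symm z)) (A.ov i j) := N.hol i j
      exact h1.mul (diffOn_Gam (fun a b => Jr_holo i j a b) k l))
    (fun i x hx => by rw [N.self, one_smul, Lam2130.Jm_self hx, Gam_one])
    (fun i j k x hx => by
      rw [Matrix.smul_mul, Matrix.mul_smul, smul_smul, N.mul i j k x hx, ← Gam_mul,
        ← Lam2130.Jm_mul ⟨⟨hx.2, hx.1.2⟩, hx.1.1⟩])

@[simp] theorem EV_g (N : LB A) (i j : A.ι) (x : M) :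
    (EV N).g i j x = N.g i j x • Gam (Lam2130.Jm A j i x) := rfl
@[simp] theorem EV_a (N : LB A) (i : A.ι) (b : Fin n) (x : M) : (EV N).a i b x = 0 := rfl

/-- forms of type `(0,*)` with values in the polyvectors with values in `N` -/
def B0 (N : LB A) : FBun A := Geo.tw (lamN A) (EV N)

theorem B0_α (N : LB A) : ∀ i, ∀ x ∈ (A.e i).source, (B0 N).α i x = 0 :=
  Brix509.tw_alpha_zero (fun _ _ _ => rfl) fun _ _ _ _ => rfl

/-! ### the weight -/

section weight

variable {N : LB A} (h : HM ((KB A)⁻¹ * N)) {i j : A.ι} {x : M}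

theorem w_tr (hx : x ∈ (A.e i).source ∩ (A.e j).source) :
    dens A i j x * (h.w j x : ℂ) = conj (N.g i j x) * N.g i j x * (h.w i x : ℂ) := by
  have h1 := h.tr i j x hx
  have h2 : (((KB A)⁻¹ * N).g i j x) = ((Core144.Jm A i j x).det)⁻¹ * N.g i j x := by
    show ((KB A)⁻¹).g i j x * N.g i j x = _
    rw [LB.inv_g, KB_g hx]
  have h3 : (Core144.Jm A i j x).det ≠ 0 := by
    rw [← KB_g hx]; exact (KB A).ne_zero i j x
  have h4 : dens A i j x = ((‖(Core144.Jm A i j x).det‖ ^ 2 : ℝ) : ℂ) := rfl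
  rw [h4, h1, h2, Complex.conj_mul', ← Complex.ofReal_mul, ← Complex.ofReal_pow,
    ← Complex.ofReal_mul, norm_mul, norm_inv]
  congr 1
  have h5 : ‖(Core144.Jm A i j x).det‖ ≠ 0 := norm_ne_zero_iff.2 h3
  field_simp

theorem w_smAt (i : A.ι) : A.SmAt i (fun x => (h.w i x : ℂ)) := C1d194.smAt_ofReal (h.sm i)

end weight

/-- constructor: the law tested on vectors -/
def mkHDen {B : FBun A} (H : A.ι → M → Matrix B.κ B.κ ℂ)
    (sm : ∀ i k l, A.SmAt i (fun x => H i x k l))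
    (psd : ∀ i, ∀ x ∈ (A.e i).source, (H i x).PosSemidef)
    (tr : ∀ i j, ∀ x ∈ (A.e i).source ∩ (A.e j).source, ∀ u w : B.κ → ℂ,
      star (B.τ i j x *ᵥ w) ⬝ᵥ (H i x *ᵥ (B.τ i j x *ᵥ u)) =
        dens A i j x * (star w ⬝ᵥ (H j x *ᵥ u))) : HDen B where
  H := H
  sm := sm
  psd := psd
  tr i j x hx := by
    ext k l
    have h1 := tr i j x hx (Pi.single l 1) (Pi.single k 1)
    have h2 : ∀ m : Matrix B.κ B.κ ℂ,
        star (Pi.single k (1 : ℂ) : B.κ → ℂ) ⬝ᵥ (m *ᵥ Pi.single l 1) = m k l := by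
      intro m
      have h3 : star (Pi.single k (1 : ℂ) : B.κ → ℂ) = Pi.single k 1 := by
        ext a
        by_cases ha : a = k
        · subst ha; simp
        · simp [ha]
      rw [h3, Matrix.mulVec_single_one, single_one_dotProduct, Matrix.col_apply]
    rw [h2, Matrix.star_mulVec, Matrix.mulVec_mulVec, ← Matrix.dotProduct_mulVec,
      Matrix.mulVec_mulVec, ← Matrix.mul_assoc, h2] at h1
    rw [Matrix.smul_apply, smul_eq_mul]
    exact h1

/-! ### the Hermitian densities -/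

section densities

variable (K : Kah A) {N : LB A} (h : HM ((KB A)⁻¹ * N))

theorem kron_psd {κ ρ : Type} [Fintype κ] [Fintype ρ] [DecidableEq κ] [DecidableEq ρ]
    {a : Matrix κ κ ℂ} {b : Matrix ρ ρ ℂ} (ha : a.PosSemidef) (hb : b.PosSemidef) :
    (a ⊗ₖ b).PosSemidef := ha.kronecker hb

theorem smul_psd {κ : Type} [Fintype κ] {c : ℝ} (hc : 0 ≤ c) {a : Matrix κ κ ℂ}
    (ha : a.PosSemidef) : ((c : ℂ) • a).PosSemidef :=
  ha.smul (by exact_mod_cast hc)

theorem smul_pd {κ : Type} [Fintype κ] {c : ℝ} (hc : 0 < c) {a : Matrix κ κ ℂ}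
    (ha : a.PosDef) : ((c : ℂ) • a).PosDef :=
  ha.smul (by exact_mod_cast hc)

theorem Jb_conjTranspose (i j : A.ι) (x : M) : (Jb A i j x)ᴴ = Lam2130.Jm A i j x := by
  ext a b
  simp [Matrix.conjTranspose_apply]

theorem Jb_eq (i j : A.ι) (x : M) : Jb A i j x = (Lam2130.Jm A i j x)ᴴ := by
  rw [← Jb_conjTranspose, Matrix.conjTranspose_conjTranspose]

/-- law of `Γ(Ku)` -/
theorem Gam_Ku_tr {i j : A.ι} {x : M} (hx : x ∈ (A.e i).source ∩ (A.e j).source) :
    (Gam (Jb A i j x))ᴴ * Gam (Ku K i x) * Gam (Jb A i j x) = Gam (Ku K j x) := by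
  rw [Gam_conjTranspose, Jb_conjTranspose, ← Gam_mul, ← Gam_mul, Jb_eq, Ku_tr K hx]

/-- law of `Γ(Kl)` -/
theorem Gam_Kl_tr {i j : A.ι} {x : M} (hx : x ∈ (A.e i).source ∩ (A.e j).source) :
    (Gam (Lam2130.Jm A j i x))ᴴ * Gam (Kl K i x) * Gam (Lam2130.Jm A j i x) = Gam (Kl K j x) := by
  rw [Gam_conjTranspose, ← Gam_mul, ← Gam_mul, Kl_tr' K hx]

/-- the metric of `BN N` -/
def HB : HDen (BN N) where
  H i x := (h.w i x : ℂ) • (Gam (Ku K i x) ⊗ₖ (1 : Matrix Unit Unit ℂ))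
  sm i := by
    rintro ⟨S, a⟩ ⟨T, b⟩
    have h1 : A.SmAt i (fun x => (h.w i x : ℂ) * (Gam (Ku K i x) S T * (1 : Matrix Unit Unit ℂ) a b)) :=
      smAt_mul (w_smAt h i) (smAt_mul (Gam_smAt (Ku_smAt K i) S T) (smAt_const i _))
    exact h1
  psd i x hx := smul_psd (h.pos i x hx).le
    (kron_psd (Gam_posSemidef (Ku_posDef K hx).posSemidef) Matrix.PosSemidef.one)
  tr i j x hx := by
    show (Gam (Jb A i j x) ⊗ₖ (Matrix.of fun _ _ => N.g i j x : Matrix Unit Unit ℂ))ᴴ *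
      ((h.w i x : ℂ) • (Gam (Ku K i x) ⊗ₖ (1 : Matrix Unit Unit ℂ))) *
      (Gam (Jb A i j x) ⊗ₖ (Matrix.of fun _ _ => N.g i j x : Matrix Unit Unit ℂ)) =
      dens A i j x • ((h.w j x : ℂ) • (Gam (Ku K j x) ⊗ₖ (1 : Matrix Unit Unit ℂ)))
    rw [Matrix.conjTranspose_kronecker, Matrix.mul_smul, Matrix.smul_mul,
      ← Matrix.mul_kronecker_mul, ← Matrix.mul_kronecker_mul, Gam_Ku_tr K hx, Matrix.mul_one,
      smul_smul, w_tr h hx]
    ext ⟨S, a⟩ ⟨T, b⟩
    simp only [Matrix.smul_apply, Matrix.kroneckerMap_apply, Matrix.mul_apply,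
      Matrix.conjTranspose_apply, Matrix.of_apply, Finset.univ_unique, Finset.sum_singleton,
      smul_eq_mul, Matrix.one_apply, Subsingleton.elim a b, if_true, Complex.star_def]
    ring

theorem HB_pos : (HB K h).Pos := fun i x hx => smul_pd (h.pos i x hx)
  ((Gam_posDef (Ku_posDef K hx)).kronecker Matrix.PosDef.one)

/-- the metric of `B0 N` -/
def H0 : HDen (B0 N) where
  H i x := (h.w i x : ℂ) • (Gam (Ku K i x) ⊗ₖ Gam (Kl K i x))
  sm i := by
    rintro ⟨S, a⟩ ⟨T, b⟩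
    have h1 : A.SmAt i (fun x => (h.w i x : ℂ) * (Gam (Ku K i x) S T * Gam (Kl K i x) a b)) :=
      smAt_mul (w_smAt h i) (smAt_mul (Gam_smAt (Ku_smAt K i) S T) (Gam_smAt (Kl_smAt K i) a b))
    exact h1
  psd i x hx := smul_psd (h.pos i x hx).le
    (kron_psd (Gam_posSemidef (Ku_posDef K hx).posSemidef)
      (Gam_posSemidef (Kl_posDef K hx).posSemidef))
  tr i j x hx := by
    show (Gam (Jb A i j x) ⊗ₖ (N.g i j x • Gam (Lam2130.Jm A j i x)))ᴴ *
      ((h.w i x : ℂ) • (Gam (Ku K i x) ⊗ₖ Gam (Kl K i x))) *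
      (Gam (Jb A i j x) ⊗ₖ (N.g i j x • Gam (Lam2130.Jm A j i x))) =
      dens A i j x • ((h.w j x : ℂ) • (Gam (Ku K j x) ⊗ₖ Gam (Kl K j x)))
    rw [Matrix.conjTranspose_kronecker, Matrix.mul_smul, Matrix.smul_mul,
      ← Matrix.mul_kronecker_mul, ← Matrix.mul_kronecker_mul, Gam_Ku_tr K hx,
      Matrix.conjTranspose_smul, Matrix.smul_mul, Matrix.smul_mul, Matrix.mul_smul,
      Gam_Kl_tr K hx, smul_smul, smul_smul, w_tr h hx, Matrix.kronecker_smul, smul_smul]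
    congr 1
    rw [Complex.star_def]
    ring

theorem H0_pos : (H0 K h).Pos := fun i x hx => smul_pd (h.pos i x hx)
  ((Gam_posDef (Ku_posDef K hx)).kronecker (Gam_posDef (Kl_posDef K hx)))

/-- contractions, as one matrix -/
def Em (n : ℕ) : Matrix (Fin n × FI n) (FI n) ℂ := Matrix.of fun p T => iW (ep p.1) p.2 T

theorem Em_mulVec (v : FI n → ℂ) (k : Fin n) (S : FI n) :
    (Em n *ᵥ v) (k, S) = (iW (ep k) *ᵥ v) S := rfl

/-- the matrix of the curvature term -/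
def HC (G : Matrix (FI n) (FI n) ℂ) (th : Matrix (Fin n) (Fin n) ℂ) : Matrix (FI n) (FI n) ℂ :=
  (Em n)ᴴ * (thᵀ ⊗ₖ G) * Em n

theorem HC_psd {G : Matrix (FI n) (FI n) ℂ} {th : Matrix (Fin n) (Fin n) ℂ}
    (hG : G.PosSemidef) (hth : th.PosSemidef) : (HC G th).PosSemidef :=
  (kron_psd hth.transpose hG).conjTranspose_mul_mul_same _

theorem HC_form (G : Matrix (FI n) (FI n) ℂ) (th : Matrix (Fin n) (Fin n) ℂ) (v w : FI n → ℂ) :
    star w ⬝ᵥ (HC G th *ᵥ v) = Cv G th v w := by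
  rw [Cv_eq_T1, T1_kron]
  unfold HC
  rw [← Matrix.mulVec_mulVec, ← Matrix.mulVec_mulVec, Matrix.dotProduct_mulVec (star w),
    ← Matrix.star_mulVec]
  rfl

/-- the matrix of the curvature term on the lowered vector -/
def HTm (K : Kah A) {L : LB A} (h : HM L) (i : A.ι) (x : M) : Matrix (FI n) (FI n) ℂ :=
  (Gam (Ku K i x))ᴴ * HC (Gam (Kl K i x)) (cur h i x) * Gam (Ku K i x)

theorem HTm_form {L : LB A} (h : HM L) (i : A.ι) (x : M) (u w : FI n → ℂ) :
    star w ⬝ᵥ (HTm K h i x *ᵥ u) =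
      Cv (Gam (Kl K i x)) (cur h i x) (Gam (Ku K i x) *ᵥ u) (Gam (Ku K i x) *ᵥ w) := by
  unfold HTm
  rw [← HC_form, ← Matrix.mulVec_mulVec, ← Matrix.mulVec_mulVec, Matrix.dotProduct_mulVec (star w),
    ← Matrix.star_mulVec]

theorem HTm_tr {L : LB A} (h : HM L) {i j : A.ι} {x : M}
    (hx : x ∈ (A.e i).source ∩ (A.e j).source) (u w : FI n → ℂ) :
    star (Gam (Jb A i j x) *ᵥ w) ⬝ᵥ (HTm K h i x *ᵥ (Gam (Jb A i j x) *ᵥ u)) =
      star w ⬝ᵥ (HTm K h j x *ᵥ u) := by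
  rw [HTm_form, HTm_form]
  have hth : ∀ l k, cur h i x l k = ∑ c, ∑ d, Lam2130.Jm A i j x c l * cur h j x c d *
      conj (Lam2130.Jm A i j x d k) := by
    intro l k
    rw [cur_tr h hx, Matrix.mul_apply]
    simp only [Matrix.mul_apply, Finset.sum_mul, Matrix.transpose_apply, Matrix.map_apply]
    rw [Finset.sum_comm]
    rfl
  rw [Cv_trans (Kl_tr K hx) hth]
  have h1 : ∀ u : FI n → ℂ, Gam (Lam2130.Jm A i j x) *ᵥ (Gam (Ku K i x) *ᵥ (Gam (Jb A i j x) *ᵥ u)) =
      Gam (Ku K j x) *ᵥ u := by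
    intro u
    rw [Matrix.mulVec_mulVec, Matrix.mulVec_mulVec, ← Gam_mul, ← Gam_mul,
      Jb_eq, Ku_tr K hx]
  rw [h1, h1]

theorem HTm_psd {L : LB A} {h : HM L} (hs : h.Semipos) {i : A.ι} {x : M}
    (hx : x ∈ (A.e i).source) : (HTm K h i x).PosSemidef :=
  (HC_psd (Gam_posSemidef (Kl_posDef K hx).posSemidef)
    (cur_posSemidef hs i hx)).conjTranspose_mul_mul_same _

theorem mat_smAt_mul {κ ρ σ : Type} [Fintype ρ] {i : A.ι} {a : M → Matrix κ ρ ℂ}
    {b : M → Matrix ρ σ ℂ} (ha : ∀ k l, A.SmAt i (fun x => a x k l))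
    (hb : ∀ k l, A.SmAt i (fun x => b x k l)) (k : κ) (l : σ) :
    A.SmAt i (fun x => (a x * b x) k l) := by
  have h1 : (fun x => (a x * b x) k l) = fun x => ∑ r, a x k r * b x r l := by
    funext x; rw [Matrix.mul_apply]
  rw [h1]
  exact smAt_sum _ fun r _ => smAt_mul (ha k r) (hb r l)

theorem mat_smAt_conjT {κ ρ : Type} {i : A.ι} {a : M → Matrix κ ρ ℂ}
    (ha : ∀ k l, A.SmAt i (fun x => a x k l)) (k : ρ) (l : κ) :
    A.SmAt i (fun x => (a x)ᴴ k l) :=
  Complex.conjCLE.contDiff.comp_contDiffOn (ha l k)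

theorem HTm_smAt {L : LB A} (h : HM L) (i : A.ι) (S T : FI n) :
    A.SmAt i (fun x => HTm K h i x S T) := by
  have hG : ∀ S T, A.SmAt i (fun x => Gam (Ku K i x) S T) := fun S T => Gam_smAt (Ku_smAt K i) S T
  refine mat_smAt_mul (mat_smAt_mul (mat_smAt_conjT hG) ?_) hG S T
  refine mat_smAt_mul (mat_smAt_mul (fun _ _ => smAt_const i _) ?_) (fun _ _ => smAt_const i _)
  rintro ⟨a, S'⟩ ⟨b, T'⟩
  have h1 : A.SmAt i (fun x => cur h i x b a * Gam (Kl K i x) S' T') :=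
    smAt_mul (cur_smooth h i b a) (Gam_smAt (Kl_smAt K i) S' T')
  exact h1

/-- the curvature term as a density on `BN N` -/
def HT (hs : h.Semipos) : HDen (BN N) where
  H i x := (h.w i x : ℂ) • (HTm K h i x ⊗ₖ (1 : Matrix Unit Unit ℂ))
  sm i := by
    rintro ⟨S, a⟩ ⟨T, b⟩
    have h1 : A.SmAt i (fun x => (h.w i x : ℂ) * (HTm K h i x S T * (1 : Matrix Unit Unit ℂ) a b)) :=
      smAt_mul (w_smAt h i) (smAt_mul (HTm_smAt K h i S T) (smAt_const i _))
    exact h1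
  psd i x hx := smul_psd (h.pos i x hx).le (kron_psd (HTm_psd K hs hx) Matrix.PosSemidef.one)
  tr i j x hx := by
    have h0 : (Gam (Jb A i j x))ᴴ * HTm K h i x * Gam (Jb A i j x) = HTm K h j x := by
      ext S T
      have h1 := HTm_tr K h hx (Pi.single T 1) (Pi.single S 1)
      have h2 : ∀ m : Matrix (FI n) (FI n) ℂ,
          star (Pi.single S (1 : ℂ) : FI n → ℂ) ⬝ᵥ (m *ᵥ Pi.single T 1) = m S T := by
        intro m
        have h3 : star (Pi.single S (1 : ℂ) : FI n → ℂ) = Pi.single S 1 := by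
          ext a
          by_cases ha : a = S
          · subst ha; simp
          · simp [ha]
        rw [h3, Matrix.mulVec_single_one, single_one_dotProduct, Matrix.col_apply]
      rw [h2, Matrix.star_mulVec, Matrix.mulVec_mulVec, ← Matrix.dotProduct_mulVec,
        Matrix.mulVec_mulVec, ← Matrix.mul_assoc, h2] at h1
      exact h1
    show (Gam (Jb A i j x) ⊗ₖ (Matrix.of fun _ _ => N.g i j x : Matrix Unit Unit ℂ))ᴴ *
      ((h.w i x : ℂ) • (HTm K h i x ⊗ₖ (1 : Matrix Unit Unit ℂ))) *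
      (Gam (Jb A i j x) ⊗ₖ (Matrix.of fun _ _ => N.g i j x : Matrix Unit Unit ℂ)) =
      dens A i j x • ((h.w j x : ℂ) • (HTm K h j x ⊗ₖ (1 : Matrix Unit Unit ℂ)))
    rw [Matrix.conjTranspose_kronecker, Matrix.mul_smul, Matrix.smul_mul,
      ← Matrix.mul_kronecker_mul, ← Matrix.mul_kronecker_mul, h0, Matrix.mul_one,
      smul_smul, w_tr h hx]
    ext ⟨S, a⟩ ⟨T, b⟩
    simp only [Matrix.smul_apply, Matrix.kroneckerMap_apply, Matrix.mul_apply,
      Matrix.conjTranspose_apply, Matrix.of_apply, Finset.univ_unique, Finset.sum_singleton,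
      smul_eq_mul, Matrix.one_apply, Subsingleton.elim a b, if_true, Complex.star_def]
    ring

end densities

end

end Crest.Agent.R273.HDN_505
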