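import Crest.Agent.R266.SCV

/-!
# R273 (S0416), HFLOW (helper376), file 1: local flows of holomorphic vector fields on open sets of a
finite dimensional complex space, holomorphic in `(t, z)`; uniqueness.
-/

set_option autoImplicit false
set_option linter.unusedSectionVars false

open Set Metric Filter Topology Complex MeasureTheory
open scoped NNReal ContDiff

namespace Crest.Agent.R273.HFlow1_376

open Crest.Agent.R266.SCV

noncomputable section

universe u

variable {E : Type u} [NormedAddCommGroup E] [NormedSpace ℂ E] [FiniteDimensional ℂ E]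

/-- data for the Picard iteration -/
structure Dat (X : E → E) (z0 : E) (r ε L K : ℝ) : Prop where
  r0 : 0 < r
  ε0 : 0 < ε
  L0 : 0 ≤ L
  K0 : 0 ≤ K
  hol : DifferentiableOn ℂ X (ball z0 (2 * r))
  bd : ∀ z ∈ ball z0 (2 * r), ‖X z‖ ≤ L
  lip : ∀ z ∈ ball z0 (2 * r), ∀ w ∈ ball z0 (2 * r), ‖X z - X w‖ ≤ K * ‖z - w‖
  hL : ε * L ≤ r
  hK : ε * K ≤ 1 / 2

/-- Picard iterates, `(t, z) ↦ z + t ∫₀¹ X (Φ_k (s t, z)) ds` -/
def pic (X : E → E) : ℕ → ℂ × E → E
  | 0 => fun p => p.2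
  | k + 1 => fun p => p.2 + p.1 • ∫ s in (0 : ℝ)..1, X (pic X k ((s : ℂ) * p.1, p.2))

variable {X : E → E} {z0 : E} {r ε L K : ℝ}

theorem mem_sc {p : ℂ × E} (hp : p ∈ ball (0 : ℂ) ε ×ˢ ball z0 r) {s : ℝ}
    (hs : s ∈ uIcc (0 : ℝ) 1) : (((s : ℂ) * p.1, p.2) : ℂ × E) ∈ ball (0 : ℂ) ε ×ˢ ball z0 r := by
  rw [uIcc_of_le zero_le_one] at hs
  refine ⟨?_, hp.2⟩
  have h1 := hp.1
  rw [mem_ball_zero_iff] at h1 ⊢
  rw [norm_mul, Complex.norm_real, Real.norm_of_nonneg hs.1]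
  calc s * ‖p.1‖ ≤ 1 * ‖p.1‖ := by gcongr; exact hs.2
    _ < ε := by rw [one_mul]; exact h1

theorem mem_of_close (hd : Dat X z0 r ε L K) {p : ℂ × E} (hp : p ∈ ball (0 : ℂ) ε ×ˢ ball z0 r)
    {w : E} (hw : ‖w - p.2‖ ≤ ‖p.1‖ * L) : w ∈ ball z0 (2 * r) := by
  have h1 : ‖p.1‖ < ε := by simpa using hp.1
  have h2 : dist p.2 z0 < r := hp.2
  have h3 : ‖p.1‖ * L ≤ r := (mul_le_mul_of_nonneg_right h1.le hd.L0).trans hd.hL
  rw [mem_ball]
  calc dist w z0 ≤ dist w p.2 + dist p.2 z0 := dist_triangle _ _ _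
    _ = ‖w - p.2‖ + dist p.2 z0 := by rw [dist_eq_norm]
    _ < 2 * r := by linarith

theorem isOpen_D : IsOpen (ball (0 : ℂ) ε ×ˢ ball z0 r) := isOpen_ball.prod isOpen_ball

theorem pic_spec (hd : Dat X z0 r ε L K) (k : ℕ) :
    AnalyticOnNhd ℂ (pic X k) (ball (0 : ℂ) ε ×ˢ ball z0 r) ∧
      ∀ p ∈ ball (0 : ℂ) ε ×ˢ ball z0 r, ‖pic X k p - p.2‖ ≤ ‖p.1‖ * L := by
  induction k with
  | zero =>
    refine ⟨fun p _ => analyticAt_snd, fun p _ => ?_⟩
    simp only [pic, sub_self, norm_zero]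
    exact mul_nonneg (norm_nonneg _) hd.L0
  | succ k ih =>
    have hmap : ∀ p ∈ ball (0 : ℂ) ε ×ˢ ball z0 r, pic X k p ∈ ball z0 (2 * r) := fun p hp =>
      mem_of_close hd hp (ih.2 p hp)
    have hcomp : DifferentiableOn ℂ (fun p => X (pic X k p)) (ball (0 : ℂ) ε ×ˢ ball z0 r) :=
      hd.hol.comp ih.1.differentiableOn hmap
    have hint : AnalyticOnNhd ℂ
        (fun p : ℂ × E => ∫ s in (0 : ℝ)..1, X (pic X k ((s : ℂ) * p.1, p.2)))
        (ball (0 : ℂ) ε ×ˢ ball z0 r) := by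
      refine analyticOnNhd_intervalIntegral
        (f := fun q : (ℂ × E) × ℝ => X (pic X k ((q.2 : ℂ) * q.1.1, q.1.2))) isOpen_D ?_ ?_
      · refine hcomp.continuousOn.comp ?_ fun q hq => mem_sc hq.1 hq.2
        exact ((continuous_ofReal.comp continuous_snd).mul
          (continuous_fst.comp continuous_fst)).prodMk
          (continuous_snd.comp continuous_fst) |>.continuousOn
      · intro s hs
        refine hcomp.comp (f := fun p : ℂ × E => (((s : ℂ) * p.1, p.2) : ℂ × E)) ?_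
          fun p hp => mem_sc hp hs
        exact ((differentiable_fst.const_mul _).prodMk differentiable_snd).differentiableOn
    refine ⟨?_, fun p hp => ?_⟩
    · intro p hp
      exact analyticAt_snd.add (analyticAt_fst.smul (hint p hp))
    · simp only [pic, add_sub_cancel_left, norm_smul]
      refine mul_le_mul_of_nonneg_left ?_ (norm_nonneg _)
      have := intervalIntegral.norm_integral_le_of_norm_le_const (a := (0 : ℝ)) (b := 1)
        (f := fun s : ℝ => X (pic X k ((s : ℂ) * p.1, p.2))) (C := L)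
        (fun s hs => hd.bd _ (hmap _ (mem_sc hp (uIoc_subset_uIcc hs))))
      simpa using this

theorem pic_mem (hd : Dat X z0 r ε L K) (k : ℕ) {p : ℂ × E}
    (hp : p ∈ ball (0 : ℂ) ε ×ˢ ball z0 r) : pic X k p ∈ ball z0 (2 * r) :=
  mem_of_close hd hp ((pic_spec hd k).2 p hp)

theorem continuous_sc (hd : Dat X z0 r ε L K) (k : ℕ) {p : ℂ × E}
    (hp : p ∈ ball (0 : ℂ) ε ×ˢ ball z0 r) :
    ContinuousOn (fun s : ℝ => X (pic X k ((s : ℂ) * p.1, p.2))) (uIcc 0 1) := by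
  refine (hd.hol.continuousOn.comp ((pic_spec hd k).1.continuousOn)
    (fun q hq => pic_mem hd k hq)).comp (f := fun s : ℝ => (((s : ℂ) * p.1, p.2) : ℂ × E)) ?_
    fun s hs => mem_sc hp hs
  exact ((continuous_ofReal.mul continuous_const).prodMk continuous_const).continuousOn

theorem pic_diff (hd : Dat X z0 r ε L K) (k : ℕ) :
    ∀ p ∈ ball (0 : ℂ) ε ×ˢ ball z0 r, ‖pic X (k + 1) p - pic X k p‖ ≤ r * (1 / 2) ^ k := by
  induction k with
  | zero =>
    intro p hp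
    have h1 := (pic_spec hd 1).2 p hp
    have h2 : ‖p.1‖ < ε := by simpa using hp.1
    simp only [pow_zero, mul_one]
    calc ‖pic X (0 + 1) p - pic X 0 p‖ = ‖pic X 1 p - p.2‖ := rfl
      _ ≤ ‖p.1‖ * L := h1
      _ ≤ ε * L := mul_le_mul_of_nonneg_right h2.le hd.L0
      _ ≤ r := hd.hL
  | succ k ih =>
    intro p hp
    have h2 : ‖p.1‖ < ε := by simpa using hp.1
    have e : pic X (k + 1 + 1) p - pic X (k + 1) p = p.1 • ∫ s in (0 : ℝ)..1,
        (X (pic X (k + 1) ((s : ℂ) * p.1, p.2)) - X (pic X k ((s : ℂ) * p.1, p.2))) := by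
      rw [intervalIntegral.integral_sub (continuous_sc hd (k + 1) hp).intervalIntegrable
        (continuous_sc hd k hp).intervalIntegrable, smul_sub]
      simp only [pic]
      abel
    rw [e, norm_smul]
    have h3 : ‖∫ s in (0 : ℝ)..1, (X (pic X (k + 1) ((s : ℂ) * p.1, p.2)) -
        X (pic X k ((s : ℂ) * p.1, p.2)))‖ ≤ K * (r * (1 / 2) ^ k) := by
      have := intervalIntegral.norm_integral_le_of_norm_le_const (a := (0 : ℝ)) (b := 1)
        (f := fun s : ℝ => X (pic X (k + 1) ((s : ℂ) * p.1, p.2)) -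
          X (pic X k ((s : ℂ) * p.1, p.2))) (C := K * (r * (1 / 2) ^ k)) (fun s hs => ?_)
      · simpa using this
      · have hs' := mem_sc hp (uIoc_subset_uIcc hs)
        refine (hd.lip _ (pic_mem hd _ hs') _ (pic_mem hd _ hs')).trans ?_
        exact mul_le_mul_of_nonneg_left (ih _ hs') hd.K0
    calc ‖p.1‖ * ‖∫ s in (0 : ℝ)..1, (X (pic X (k + 1) ((s : ℂ) * p.1, p.2)) -
        X (pic X k ((s : ℂ) * p.1, p.2)))‖ ≤ ε * (K * (r * (1 / 2) ^ k)) := by
          gcongr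
          exact hd.ε0.le
      _ = (ε * K) * (r * (1 / 2) ^ k) := by ring
      _ ≤ (1 / 2) * (r * (1 / 2) ^ k) := by
        have : 0 ≤ r * (1 / 2 : ℝ) ^ k := mul_nonneg hd.r0.le (by positivity)
        exact mul_le_mul_of_nonneg_right hd.hK this
      _ = r * (1 / 2) ^ (k + 1) := by ring

/-- the local flow -/
def flo (X : E → E) (p : ℂ × E) : E := limUnder atTop (fun k => pic X k p)

theorem pic_tendsto (hd : Dat X z0 r ε L K) {p : ℂ × E} (hp : p ∈ ball (0 : ℂ) ε ×ˢ ball z0 r) :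
    Tendsto (fun k => pic X k p) atTop (𝓝 (flo X p)) := by
  have : CompleteSpace E := FiniteDimensional.complete ℂ E
  have hc : CauchySeq (fun k => pic X k p) := by
    refine cauchySeq_of_le_geometric (1 / 2) r (by norm_num) fun k => ?_
    rw [dist_comm, dist_eq_norm]
    exact pic_diff hd k p hp
  exact hc.tendsto_limUnder

theorem pic_dist (hd : Dat X z0 r ε L K) {p : ℂ × E} (hp : p ∈ ball (0 : ℂ) ε ×ˢ ball z0 r)
    (k : ℕ) : dist (pic X k p) (flo X p) ≤ r * (1 / 2) ^ k / (1 - 1 / 2) :=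
  dist_le_of_le_geometric_of_tendsto (1 / 2) r (by norm_num)
    (fun k => by rw [dist_comm, dist_eq_norm]; exact pic_diff hd k p hp) (pic_tendsto hd hp) k

theorem tendstoUniformlyOn (hd : Dat X z0 r ε L K) :
    TendstoUniformlyOn (pic X) (flo X) atTop (ball (0 : ℂ) ε ×ˢ ball z0 r) := by
  rw [Metric.tendstoUniformlyOn_iff]
  intro δ hδ
  have h1 : Tendsto (fun k : ℕ => r * (1 / 2 : ℝ) ^ k / (1 - 1 / 2)) atTop (𝓝 0) := by
    have := (tendsto_pow_atTop_nhds_zero_of_lt_one (r := (1 / 2 : ℝ)) (by norm_num)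
      (by norm_num)).const_mul r
    simpa using this.div_const (1 - 1 / 2)
  filter_upwards [h1.eventually (gt_mem_nhds hδ)] with k hk p hp
  rw [dist_comm]
  exact (pic_dist hd hp k).trans_lt hk

theorem flo_analytic (hd : Dat X z0 r ε L K) :
    AnalyticOnNhd ℂ (flo X) (ball (0 : ℂ) ε ×ˢ ball z0 r) :=
  analyticOnNhd_of_tendstoLocallyUniformlyOn isOpen_D (tendstoUniformlyOn hd).tendstoLocallyUniformlyOn
    (Eventually.of_forall fun k => (pic_spec hd k).1.differentiableOn)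

theorem flo_close (hd : Dat X z0 r ε L K) {p : ℂ × E} (hp : p ∈ ball (0 : ℂ) ε ×ˢ ball z0 r) :
    ‖flo X p - p.2‖ ≤ ‖p.1‖ * L :=
  le_of_tendsto ((pic_tendsto hd hp).sub_const p.2).norm
    (Eventually.of_forall fun k => (pic_spec hd k).2 p hp)

theorem flo_mem (hd : Dat X z0 r ε L K) {p : ℂ × E} (hp : p ∈ ball (0 : ℂ) ε ×ˢ ball z0 r) :
    flo X p ∈ ball z0 (2 * r) := mem_of_close hd hp (flo_close hd hp)

theorem flo_int (hd : Dat X z0 r ε L K) {p : ℂ × E} (hp : p ∈ ball (0 : ℂ) ε ×ˢ ball z0 r) :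
    flo X p = p.2 + p.1 • ∫ s in (0 : ℝ)..1, X (flo X ((s : ℂ) * p.1, p.2)) := by
  have h1 : Tendsto (fun k => ∫ s in (0 : ℝ)..1, X (pic X k ((s : ℂ) * p.1, p.2))) atTop
      (𝓝 (∫ s in (0 : ℝ)..1, X (flo X ((s : ℂ) * p.1, p.2)))) := by
    refine intervalIntegral.tendsto_integral_filter_of_dominated_convergence (fun _ => L) ?_ ?_ ?_ ?_
    · refine Eventually.of_forall fun k => ?_
      exact ((continuous_sc hd k hp).mono uIoc_subset_uIcc).aestronglyMeasurable
        measurableSet_uIoc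
    · refine Eventually.of_forall fun k => Eventually.of_forall fun s hs => ?_
      exact hd.bd _ (pic_mem hd k (mem_sc hp (uIoc_subset_uIcc hs)))
    · exact intervalIntegrable_const
    · refine Eventually.of_forall fun s hs => ?_
      have hm := mem_sc hp (uIoc_subset_uIcc hs)
      exact ((hd.hol.continuousOn.continuousAt (isOpen_ball.mem_nhds (flo_mem hd hm))).tendsto).comp
        (pic_tendsto hd hm)
  have h2 : Tendsto (fun k => pic X (k + 1) p) atTop
      (𝓝 (p.2 + p.1 • ∫ s in (0 : ℝ)..1, X (flo X ((s : ℂ) * p.1, p.2)))) := by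
    simp only [pic]
    exact (h1.const_smul _).const_add _
  exact tendsto_nhds_unique ((tendsto_add_atTop_iff_nat 1).2 (pic_tendsto hd hp)) h2

theorem flo_zero (hd : Dat X z0 r ε L K) {z : E} (hz : z ∈ ball z0 r) : flo X (0, z) = z := by
  have hp : ((0, z) : ℂ × E) ∈ ball (0 : ℂ) ε ×ˢ ball z0 r := ⟨mem_ball_self hd.ε0, hz⟩
  rw [flo_int hd hp]
  simp

theorem flo_deriv (hd : Dat X z0 r ε L K) {t : ℂ} {z : E} (ht : t ∈ ball (0 : ℂ) ε)
    (hz : z ∈ ball z0 r) : HasDerivAt (fun s => flo X (s, z)) (X (flo X (t, z))) t := by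
  have : CompleteSpace E := FiniteDimensional.complete ℂ E
  have hh : DifferentiableOn ℂ (fun s => X (flo X (s, z))) (ball (0 : ℂ) ε) := by
    refine hd.hol.comp (f := fun s => flo X (s, z)) ?_ fun s hs => flo_mem hd ⟨hs, hz⟩
    exact (flo_analytic hd).differentiableOn.comp (f := fun s : ℂ => ((s, z) : ℂ × E))
      (by fun_prop) fun s hs => ⟨hs, hz⟩
  obtain ⟨g, hg⟩ := hh.isExactOn_ball
  have key : ∀ s ∈ ball (0 : ℂ) ε, flo X (s, z) = z + (g s - g 0) := by
    intro s hs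
    rw [flo_int hd ⟨hs, hz⟩]
    congr 1
    have h3 : ∀ u ∈ uIcc (0 : ℝ) 1, HasDerivAt (fun u : ℝ => g ((u : ℂ) * s))
        (s • X (flo X ((u : ℂ) * s, z))) u := by
      intro u hu
      have hm := (mem_sc (p := (s, z)) ⟨hs, hz⟩ hu).1
      have h4 := hg _ hm
      have h5 : HasDerivAt (fun u : ℝ => (u : ℂ) * s) s u := by
        simpa using (Complex.ofRealCLM.hasDerivAt (x := u)).mul_const s
      exact h4.scomp u h5
    have hcont : ContinuousOn (fun u : ℝ => s • X (flo X ((u : ℂ) * s, z))) (uIcc 0 1) := by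
      refine ContinuousOn.const_smul ?_ s
      refine hh.continuousOn.comp (f := fun u : ℝ => (u : ℂ) * s) ?_
        fun u hu => (mem_sc (p := (s, z)) ⟨hs, hz⟩ hu).1
      exact (continuous_ofReal.mul continuous_const).continuousOn
    have h6 := intervalIntegral.integral_eq_sub_of_hasDerivAt h3 hcont.intervalIntegrable
    rw [intervalIntegral.integral_smul] at h6
    simpa using h6
  have h7 : HasDerivAt (fun s => z + (g s - g 0)) (X (flo X (t, z))) t := by
    simpa using ((hg t ht).sub_const (g 0)).const_add z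
  refine h7.congr_of_eventuallyEq ?_
  filter_upwards [isOpen_ball.mem_nhds ht] with s hs
  exact key s hs

theorem exists_dat {U : Set E} (hU : IsOpen U) (hX : DifferentiableOn ℂ X U) (hz : z0 ∈ U) :
    ∃ r ε L K, Dat X z0 r ε L K ∧ ball z0 (2 * r) ⊆ U := by
  obtain ⟨ρ, hρ, hρU⟩ := Metric.nhds_basis_closedBall.mem_iff.1 (hU.mem_nhds hz)
  have : ProperSpace E := FiniteDimensional.proper ℂ E
  obtain ⟨M, hM⟩ := (isCompact_closedBall z0 ρ).exists_bound_of_continuousOn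
    (hX.continuousOn.mono hρU)
  have hM0 : 0 ≤ M := (norm_nonneg _).trans (hM z0 (mem_closedBall_self hρ.le))
  have hsub : ball z0 (2 * (ρ / 4)) ⊆ ball z0 ρ := ball_subset_ball (by linarith)
  have hder : ∀ z ∈ ball z0 (2 * (ρ / 4)), ‖fderiv ℂ X z‖ ≤ M / (ρ / 2) := by
    intro z hz
    have h1 : ball z (ρ / 2) ⊆ closedBall z0 ρ := by
      intro w hw
      rw [mem_ball] at hw hz
      rw [mem_closedBall]
      linarith [dist_triangle w z z0]
    exact norm_fderiv_le_of_ball (by linarith) (hX.mono (h1.trans hρU)) fun y hy => hM y (h1 hy)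
  have hlip : ∀ z ∈ ball z0 (2 * (ρ / 4)), ∀ w ∈ ball z0 (2 * (ρ / 4)),
      ‖X z - X w‖ ≤ (M / (ρ / 2)) * ‖z - w‖ := by
    intro z hz w hw
    refine (convex_ball z0 (2 * (ρ / 4))).norm_image_sub_le_of_norm_fderiv_le (𝕜 := ℂ)
      (fun y hy => hX.differentiableAt (hU.mem_nhds (hρU (ball_subset_closedBall (hsub hy)))))
      hder hw hz
  have hK0 : 0 ≤ M / (ρ / 2) := by positivity
  refine ⟨ρ / 4, min ((ρ / 4) / (M + 1)) (1 / (2 * (M / (ρ / 2) + 1))), M, M / (ρ / 2), ?_, ?_⟩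
  · refine ⟨by positivity, lt_min (by positivity) (by positivity), hM0, hK0,
      hX.mono ((hsub.trans ball_subset_closedBall).trans hρU), fun z hz => hM z
        (ball_subset_closedBall (hsub hz)), hlip, ?_, ?_⟩
    · calc min ((ρ / 4) / (M + 1)) (1 / (2 * (M / (ρ / 2) + 1))) * M
          ≤ ((ρ / 4) / (M + 1)) * (M + 1) := by
            refine mul_le_mul (min_le_left _ _) (by linarith) hM0 (by positivity)
        _ = ρ / 4 := by field_simp
    · calc min ((ρ / 4) / (M + 1)) (1 / (2 * (M / (ρ / 2) + 1))) * (M / (ρ / 2))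
          ≤ (1 / (2 * (M / (ρ / 2) + 1))) * (M / (ρ / 2) + 1) := by
            refine mul_le_mul (min_le_right _ _) (by linarith) hK0 (by positivity)
        _ = 1 / 2 := by field_simp
  · exact (hsub.trans ball_subset_closedBall).trans hρU

/-- **local flow**: existence, with holomorphic dependence on `(t, z)` -/
theorem exists_flow {U : Set E} (hU : IsOpen U) (hX : DifferentiableOn ℂ X U) (hz : z0 ∈ U) :
    ∃ r > 0, ∃ ε > 0, ball z0 r ⊆ U ∧ ∃ Φ : ℂ × E → E,
      AnalyticOnNhd ℂ Φ (ball 0 ε ×ˢ ball z0 r) ∧ (∀ p ∈ ball (0 : ℂ) ε ×ˢ ball z0 r, Φ p ∈ U) ∧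
      (∀ z ∈ ball z0 r, Φ (0, z) = z) ∧
      ∀ t ∈ ball (0 : ℂ) ε, ∀ z ∈ ball z0 r, HasDerivAt (fun s => Φ (s, z)) (X (Φ (t, z))) t := by
  obtain ⟨r, ε, L, K, hd, hsub⟩ := exists_dat hU hX hz
  refine ⟨r, hd.r0, ε, hd.ε0, (ball_subset_ball (by linarith [hd.r0])).trans hsub, flo X,
    flo_analytic hd, fun p hp => hsub (flo_mem hd hp), fun z hz => flo_zero hd hz,
    fun t ht z hz => flo_deriv hd ht hz⟩

/-- uniqueness on a ball -/
theorem unique_ball {γ γ' : ℂ → E} {V : Set E} {K : ℝ≥0} (hK : LipschitzOnWith K X V) {t0 : ℂ}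
    {ε : ℝ} (h : ∀ t ∈ ball t0 ε, HasDerivAt γ (X (γ t)) t)
    (h' : ∀ t ∈ ball t0 ε, HasDerivAt γ' (X (γ' t)) t)
    (hV : ∀ t ∈ ball t0 ε, γ t ∈ V) (hV' : ∀ t ∈ ball t0 ε, γ' t ∈ V) (h0 : γ t0 = γ' t0) :
    EqOn γ γ' (ball t0 ε) := by
  intro t ht
  have hseg : ∀ s ∈ Icc (0 : ℝ) 1, t0 + (s : ℂ) * (t - t0) ∈ ball t0 ε := by
    intro s hs
    rw [mem_ball, dist_eq_norm, add_sub_cancel_left, norm_mul, Complex.norm_real,
      Real.norm_of_nonneg hs.1]
    calc s * ‖t - t0‖ ≤ 1 * ‖t - t0‖ := by gcongr; exact hs.2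
      _ < ε := by rw [one_mul, ← dist_eq_norm]; exact ht
  have hder : ∀ {δ : ℂ → E}, (∀ t ∈ ball t0 ε, HasDerivAt δ (X (δ t)) t) → ∀ s ∈ Icc (0 : ℝ) 1,
      HasDerivAt (fun s : ℝ => δ (t0 + (s : ℂ) * (t - t0)))
        ((t - t0) • X (δ (t0 + (s : ℂ) * (t - t0)))) s := by
    intro δ hδ s hs
    have h5 : HasDerivAt (fun u : ℝ => t0 + (u : ℂ) * (t - t0)) (t - t0) s := by
      simpa using ((Complex.ofRealCLM.hasDerivAt (x := s)).mul_const (t - t0)).const_add t0
    exact (hδ _ (hseg s hs)).scomp s h5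
  have key := ODE_solution_unique_of_mem_Icc_right (v := fun _ x => (t - t0) • X x)
    (s := fun _ => V) (K := ‖t - t0‖₊ * K) (f := fun s : ℝ => γ (t0 + (s : ℂ) * (t - t0)))
    (g := fun s : ℝ => γ' (t0 + (s : ℂ) * (t - t0))) (a := 0) (b := 1)
    (fun s _ => by
      refine LipschitzOnWith.of_dist_le_mul fun x hx y hy => ?_
      rw [dist_eq_norm, ← smul_sub, norm_smul]
      have := hK.dist_le_mul x hx y hy
      rw [dist_eq_norm] at this
      calc ‖t - t0‖ * ‖X x - X y‖ ≤ ‖t - t0‖ * (K * dist x y) := by gcongr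
        _ = _ := by push_cast; ring)
    (fun s hs => (hder h s hs).continuousAt.continuousWithinAt)
    (fun s hs => (hder h s (Ico_subset_Icc_self hs)).hasDerivWithinAt)
    (fun s hs => hV _ (hseg s (Ico_subset_Icc_self hs)))
    (fun s hs => (hder h' s hs).continuousAt.continuousWithinAt)
    (fun s hs => (hder h' s (Ico_subset_Icc_self hs)).hasDerivWithinAt)
    (fun s hs => hV' _ (hseg s (Ico_subset_Icc_self hs)))
    (by simpa using h0)
  have h1 := key (right_mem_Icc.2 zero_le_one)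
  simpa using h1

/-- local uniqueness -/
theorem unique_nhds {U : Set E} (hU : IsOpen U) (hX : DifferentiableOn ℂ X U) {γ γ' : ℂ → E}
    {t0 : ℂ} (hm : γ t0 ∈ U) (h : ∀ᶠ t in 𝓝 t0, HasDerivAt γ (X (γ t)) t)
    (h' : ∀ᶠ t in 𝓝 t0, HasDerivAt γ' (X (γ' t)) t) (h0 : γ t0 = γ' t0) :
    ∀ᶠ t in 𝓝 t0, γ t = γ' t := by
  obtain ⟨r, ε, L, K, hd, hsub⟩ := exists_dat hU hX hm
  have hr : ball (γ t0) (2 * r) ∈ 𝓝 (γ t0) := ball_mem_nhds _ (by linarith [hd.r0])
  have h1 : ∀ᶠ t in 𝓝 t0, γ t ∈ ball (γ t0) (2 * r) := h.self_of_nhds.continuousAt hr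
  have h2 : ∀ᶠ t in 𝓝 t0, γ' t ∈ ball (γ t0) (2 * r) := by
    have h3 := h'.self_of_nhds.continuousAt
    rw [ContinuousAt, ← h0] at h3
    exact h3 hr
  obtain ⟨δ, hδ, hb⟩ := Metric.eventually_nhds_iff_ball.1 (h.and (h'.and (h1.and h2)))
  have hlip : LipschitzOnWith ⟨K, hd.K0⟩ X (ball (γ t0) (2 * r)) :=
    LipschitzOnWith.of_dist_le_mul fun x hx y hy => by
      rw [dist_eq_norm, dist_eq_norm]
      exact hd.lip x hx y hy
  have := unique_ball hlip (fun t ht => (hb t ht).1) (fun t ht => (hb t ht).2.1)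
    (fun t ht => (hb t ht).2.2.1) (fun t ht => (hb t ht).2.2.2) h0
  exact Metric.eventually_nhds_iff_ball.2 ⟨δ, hδ, fun t ht => this ht⟩

end

end Crest.Agent.R273.HFlow1_376
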