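import Mathlib.Analysis.Normed.Module.Basic
import Mathlib.Algebra.Order.Floor.Ring
import Mathlib.Logic.Function.Iterate
import Mathlib.Tactic

/-!
# R273 (S0416), HFLOW (helper376), file 2: a local action of a normed space extends to an action.
-/

set_option autoImplicit false
set_option linter.unusedSectionVars false

open Set Function

namespace Crest.Agent.R273.HFlow2_376

noncomputable section

variable {V : Type*} [NormedAddCommGroup V] [NormedSpace ℝ V] {X : Type*} {ρ : ℝ} {S : V → X → X}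

/-- local action of the normed space `V` on `X`, meaningful for `‖t‖ < ρ` -/
structure LocAct (ρ : ℝ) (S : V → X → X) : Prop where
  pos : 0 < ρ
  zero : ∀ p, S 0 p = p
  add : ∀ s t p, ‖s‖ < ρ → ‖t‖ < ρ → ‖s + t‖ < ρ → S s (S t p) = S (s + t) p

/-- number of steps -/
def steps (ρ : ℝ) (t : V) : ℕ := ⌊‖t‖ / ρ⌋₊ + 1

/-- the global action -/
def glob (ρ : ℝ) (S : V → X → X) (t : V) : X → X :=
  (S ((1 / (steps ρ t : ℝ)) • t))^[steps ρ t]

namespace LocAct

theorem norm_smul_lt {c : ℝ} (hc : |c| ≤ 1) {t : V} (ht : ‖t‖ < ρ) : ‖c • t‖ < ρ := by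
  rw [norm_smul, Real.norm_eq_abs]
  calc |c| * ‖t‖ ≤ 1 * ‖t‖ := by gcongr
    _ < ρ := by rw [one_mul]; exact ht

theorem iter (h : LocAct ρ S) {t : V} {l : ℕ} (ht : ‖(l : ℝ) • t‖ < ρ) (j : ℕ) (hj : j ≤ l) :
    (S t)^[j] = S ((j : ℝ) • t) := by
  rcases Nat.eq_zero_or_pos l with rfl | hl
  · have : j = 0 := by omega
    subst this
    funext p
    simp [h.zero]
  have hl' : (0 : ℝ) < l := by exact_mod_cast hl
  have key : ∀ i : ℕ, i ≤ l → ‖(i : ℝ) • t‖ < ρ := by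
    intro i hi
    have h1 : (i : ℝ) • t = ((i : ℝ) / l) • ((l : ℝ) • t) := by
      rw [smul_smul]; congr 1; field_simp
    rw [h1]
    refine norm_smul_lt ?_ ht
    rw [abs_of_nonneg (by positivity), div_le_one hl']
    exact_mod_cast hi
  induction j with
  | zero => funext p; simp [h.zero]
  | succ j ih =>
    funext p
    rw [Function.iterate_succ_apply', ih (by omega)]
    have h1 := key 1 hl
    rw [Nat.cast_one, one_smul] at h1
    rw [h.add t ((j : ℝ) • t) p h1 (key j (by omega)) ?_]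
    · congr 1
      push_cast
      rw [add_smul, one_smul, add_comm]
    · have : t + (j : ℝ) • t = ((j + 1 : ℕ) : ℝ) • t := by
        push_cast; rw [add_smul, one_smul, add_comm]
      rw [this]
      exact key _ hj

theorem refine_iter (h : LocAct ρ S) {t : V} {N : ℕ} (hN : N ≠ 0) (ht : ‖(1 / (N : ℝ)) • t‖ < ρ)
    {k : ℕ} (hk : k ≠ 0) :
    (S ((1 / (N : ℝ)) • t))^[N] = (S ((1 / ((k * N : ℕ) : ℝ)) • t))^[k * N] := by
  have hk' : (k : ℝ) ≠ 0 := by exact_mod_cast hk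
  have hN' : (N : ℝ) ≠ 0 := by exact_mod_cast hN
  have e : (1 / (N : ℝ)) • t = (k : ℝ) • ((1 / ((k * N : ℕ) : ℝ)) • t) := by
    rw [smul_smul]; congr 1; push_cast; field_simp
  rw [e] at ht ⊢
  rw [← h.iter ht k le_rfl, ← Function.iterate_mul]

theorem norm_lt_of_le (h : LocAct ρ S) {t : V} {N : ℕ} (hN : ‖t‖ / ρ < N) :
    ‖(1 / (N : ℝ)) • t‖ < ρ := by
  have hN0 : (0 : ℝ) < N := lt_of_le_of_lt (div_nonneg (norm_nonneg _) h.pos.le) hN
  rw [norm_smul, Real.norm_of_nonneg (by positivity), div_mul_eq_mul_div, one_mul, div_lt_iff₀ hN0]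
  rwa [div_lt_iff₀ h.pos, mul_comm] at hN

theorem steps_lt (t : V) : ‖t‖ / ρ < (steps ρ t : ℕ) := by
  rw [steps]; push_cast; exact Nat.lt_floor_add_one _

theorem steps_ne (t : V) : steps ρ t ≠ 0 := Nat.succ_ne_zero _

theorem glob_eq (h : LocAct ρ S) {t : V} {N : ℕ} (hN : N ≠ 0) (ht : ‖(1 / (N : ℝ)) • t‖ < ρ) :
    glob ρ S t = (S ((1 / (N : ℝ)) • t))^[N] := by
  rw [glob, h.refine_iter (steps_ne t) (h.norm_lt_of_le (steps_lt t)) hN,
    h.refine_iter hN ht (steps_ne (ρ := ρ) t), Nat.mul_comm]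

theorem glob_of_lt (h : LocAct ρ S) {t : V} (ht : ‖t‖ < ρ) : glob ρ S t = S t := by
  have := h.glob_eq (t := t) (N := 1) one_ne_zero (by simpa using ht)
  simpa using this

theorem glob_zero (h : LocAct ρ S) : glob ρ S 0 = id := by
  rw [h.glob_of_lt (by simpa using h.pos)]
  funext p
  exact h.zero p

theorem glob_add (h : LocAct ρ S) (s t : V) : glob ρ S (s + t) = glob ρ S s ∘ glob ρ S t := by
  obtain ⟨N, hN⟩ := exists_nat_gt ((‖s‖ + ‖t‖) / ρ)
  have hN0 : N ≠ 0 := by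
    rintro rfl
    have : (0 : ℝ) ≤ (‖s‖ + ‖t‖) / ρ := div_nonneg (by positivity) h.pos.le
    simp only [Nat.cast_zero] at hN
    linarith
  have h1 : ‖(1 / (N : ℝ)) • s‖ < ρ := h.norm_lt_of_le (lt_of_le_of_lt
    (div_le_div_of_nonneg_right (by linarith [norm_nonneg t]) h.pos.le) hN)
  have h2 : ‖(1 / (N : ℝ)) • t‖ < ρ := h.norm_lt_of_le (lt_of_le_of_lt
    (div_le_div_of_nonneg_right (by linarith [norm_nonneg s]) h.pos.le) hN)
  have h3 : ‖(1 / (N : ℝ)) • (s + t)‖ < ρ := h.norm_lt_of_le (lt_of_le_of_lt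
    (div_le_div_of_nonneg_right (norm_add_le s t) h.pos.le) hN)
  rw [h.glob_eq hN0 h1, h.glob_eq hN0 h2, h.glob_eq hN0 h3]
  have c1 : S ((1 / (N : ℝ)) • (s + t)) = S ((1 / (N : ℝ)) • s) ∘ S ((1 / (N : ℝ)) • t) := by
    funext p
    rw [smul_add] at h3 ⊢
    exact (h.add _ _ p h1 h2 h3).symm
  have c2 : S ((1 / (N : ℝ)) • s) ∘ S ((1 / (N : ℝ)) • t) =
      S ((1 / (N : ℝ)) • t) ∘ S ((1 / (N : ℝ)) • s) := by
    rw [← c1]
    funext p
    rw [smul_add, add_comm] at h3 ⊢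
    exact (h.add _ _ p h2 h1 h3).symm
  rw [c1]
  exact Function.Commute.comp_iterate (fun p => congrFun c2 p) N

end LocAct

end

end Crest.Agent.R273.HFlow2_376
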