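import Crest.Agent.R273.HFlow1_376
import Crest.Agent.R273.HFlow2_376
import Crest.Agent.R275.Geo_509

/-!
# R273 (S0416), HFLOW (helper376), file 3: holomorphic maps with parameters between `Atl` manifolds,
holomorphic vector fields, integral curves, uniqueness.
-/

set_option autoImplicit false
set_option linter.unusedSectionVars false

open Set Metric Filter Topology Complex Function
open scoped NNReal ContDiff

namespace Crest.Agent.R273.HFlow3_376

open Crest.Agent.R275.Geo Crest.Agent.R273.HFlow1_376 Crest.Agent.R273.HFlow2_376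

noncomputable section

variable {n m l : ℕ} {M M' M'' : Type} [TopologicalSpace M] [TopologicalSpace M']
  [TopologicalSpace M''] {A : Atl n M} {B : Atl m M'} {C : Atl l M''}

/-! ### chart changes -/

theorem isOpen_ov (A : Atl n M) (i j : A.ι) : IsOpen (A.ov i j) :=
  (A.e i).isOpen_inter_preimage_symm (A.e j).open_source

/-- the change of charts `i → j` is complex differentiable at `A.e i x` -/
theorem chg_diffAt (A : Atl n M) {i j : A.ι} {x : M} (hi : x ∈ (A.e i).source)
    (hj : x ∈ (A.e j).source) :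
    DifferentiableAt ℂ (fun z => A.e j ((A.e i).symm z)) (A.e i x) :=
  (A.holo i j).differentiableAt ((isOpen_ov A i j).mem_nhds
    ⟨(A.e i).map_source hi, by rw [(A.e i).left_inv hi]; exact hj⟩)

/-! ### holomorphic maps with parameters -/

section HolP

variable {P Q : Type*} [NormedAddCommGroup P] [NormedSpace ℂ P] [NormedAddCommGroup Q]
  [NormedSpace ℂ Q]

theorem symm_ca (p : P) {i : A.ι} {x : M} (hi : x ∈ (A.e i).source) :
    ContinuousAt (fun q : P × Cn n => (q.1, (A.e i).symm q.2)) (p, A.e i x) :=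
  continuousAt_fst.prodMk (ContinuousAt.comp (g := (A.e i).symm) (f := fun q : P × Cn n => q.2)
    ((A.e i).continuousAt_symm ((A.e i).map_source hi)) continuousAt_snd)

/-- `F : P → M → M'` is (jointly) complex differentiable at `(p, x)` -/
def HolP (A : Atl n M) (B : Atl m M') (F : P → M → M') (p : P) (x : M) : Prop :=
  ContinuousAt (uncurry F) (p, x) ∧ ∃ i j, x ∈ (A.e i).source ∧ F p x ∈ (B.e j).source ∧
    DifferentiableAt ℂ (fun q : P × Cn n => B.e j (F q.1 ((A.e i).symm q.2))) (p, A.e i x)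

theorem HolP.cont {F : P → M → M'} {p : P} {x : M} (h : HolP A B F p x) :
    ContinuousAt (uncurry F) (p, x) := h.1

/-- the map in charts is continuous, in the chart at the source -/
theorem continuousAt_chart {F : P → M → M'} {p : P} {x : M}
    (h : ContinuousAt (uncurry F) (p, x)) {i : A.ι} (hi : x ∈ (A.e i).source) :
    ContinuousAt (fun q : P × Cn n => F q.1 ((A.e i).symm q.2)) (p, A.e i x) := by
  have h1 := symm_ca (A := A) p hi
  have h2 : ContinuousAt (uncurry F) ((fun q : P × Cn n => (q.1, (A.e i).symm q.2)) (p, A.e i x)) :=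
    by simpa [(A.e i).left_inv hi] using h
  exact ContinuousAt.comp (f := fun q : P × Cn n => (q.1, (A.e i).symm q.2)) h2 h1

theorem HolP.diff {F : P → M → M'} {p : P} {x : M} (h : HolP A B F p x) {i : A.ι} {j : B.ι}
    (hi : x ∈ (A.e i).source) (hj : F p x ∈ (B.e j).source) :
    DifferentiableAt ℂ (fun q : P × Cn n => B.e j (F q.1 ((A.e i).symm q.2))) (p, A.e i x) := by
  obtain ⟨hc, i', j', hi', hj', hd⟩ := h
  -- the change of charts at the source
  have h1 : DifferentiableAt ℂ (fun q : P × Cn n => (q.1, A.e i' ((A.e i).symm q.2)))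
      (p, A.e i x) :=
    differentiableAt_fst.prodMk ((chg_diffAt A hi hi').comp (f := fun q : P × Cn n => q.2)
      (p, A.e i x) differentiableAt_snd)
  have e1 : (fun q : P × Cn n => (q.1, A.e i' ((A.e i).symm q.2))) (p, A.e i x) =
      (p, A.e i' x) := by simp [(A.e i).left_inv hi]
  have h2 : DifferentiableAt ℂ (fun q : P × Cn n => B.e j' (F q.1 ((A.e i').symm q.2)))
      ((fun q : P × Cn n => (q.1, A.e i' ((A.e i).symm q.2))) (p, A.e i x)) := by
    rw [e1]; exact hd
  have h3 := h2.comp (p, A.e i x) h1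
  -- the change of charts at the target
  have h4 : DifferentiableAt ℂ (fun z => B.e j ((B.e j').symm z)) (B.e j' (F p x)) :=
    chg_diffAt B hj' hj
  have h5 := DifferentiableAt.comp (p, A.e i x) (g := fun z => B.e j ((B.e j').symm z))
    (f := (fun q : P × Cn n => B.e j' (F q.1 ((A.e i').symm q.2))) ∘
      fun q : P × Cn n => (q.1, A.e i' ((A.e i).symm q.2)))
    (by simpa [(A.e i).left_inv hi, (A.e i').left_inv hi'] using h4) h3
  refine h5.congr_of_eventuallyEq ?_
  have hc1 := continuousAt_chart (A := A) hc hi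
  have hs : ∀ᶠ q : P × Cn n in 𝓝 (p, A.e i x), F q.1 ((A.e i).symm q.2) ∈ (B.e j').source :=
    hc1 ((B.e j').open_source.mem_nhds (by simpa [(A.e i).left_inv hi] using hj'))
  have hs2 : ∀ᶠ q : P × Cn n in 𝓝 (p, A.e i x), q.2 ∈ A.ov i i' :=
    continuousAt_snd ((isOpen_ov A i i').mem_nhds
      ⟨(A.e i).map_source hi, by rw [(A.e i).left_inv hi]; exact hi'⟩)
  filter_upwards [hs, hs2] with q hq hq2
  simp only [comp_apply]
  rw [(A.e i').left_inv hq2.2, (B.e j').left_inv hq]

theorem HolP.comp_param {F : P → M → M'} {f : Q → P} {q : Q} {x : M}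
    (h : HolP A B F (f q) x) (hf : DifferentiableAt ℂ f q) :
    HolP A B (fun q x => F (f q) x) q x := by
  obtain ⟨hc, i, j, hi, hj, hd⟩ := h
  refine ⟨?_, i, j, hi, hj, ?_⟩
  · exact ContinuousAt.comp (g := uncurry F) (f := fun q : Q × M => (f q.1, q.2)) hc
      ((ContinuousAt.comp (f := fun q : Q × M => q.1) hf.continuousAt continuousAt_fst).prodMk
        continuousAt_snd)
  · have h1 : DifferentiableAt ℂ (fun r : Q × Cn n => (f r.1, r.2)) (q, A.e i x) :=
      (DifferentiableAt.comp (q, A.e i x) (f := fun r : Q × Cn n => r.1) (g := f) hf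
        differentiableAt_fst).prodMk differentiableAt_snd
    exact DifferentiableAt.comp (q, A.e i x) (f := fun r : Q × Cn n => (f r.1, r.2))
      (g := fun r : P × Cn n => B.e j (F r.1 ((A.e i).symm r.2))) hd h1

theorem HolP.comp {F : P → M → M'} {G : P → M' → M''} {p : P} {x : M}
    (hG : HolP B C G p (F p x)) (hF : HolP A B F p x) :
    HolP A C (fun p x => G p (F p x)) p x := by
  obtain ⟨hcG, j, k, hj, hk, hdG⟩ := hG
  obtain ⟨hcF, i, _, hi, _, _⟩ := id hF
  have hdF := hF.diff hi hj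
  refine ⟨?_, i, k, hi, hk, ?_⟩
  · exact ContinuousAt.comp (g := uncurry G) (f := fun q : P × M => (q.1, F q.1 q.2)) hcG
      (continuousAt_fst.prodMk hcF)
  · have h1 : DifferentiableAt ℂ (fun q : P × Cn n => (q.1, B.e j (F q.1 ((A.e i).symm q.2))))
        (p, A.e i x) := differentiableAt_fst.prodMk hdF
    have h2 := DifferentiableAt.comp (p, A.e i x)
      (f := fun q : P × Cn n => (q.1, B.e j (F q.1 ((A.e i).symm q.2))))
      (g := fun r : P × Cn m => C.e k (G r.1 ((B.e j).symm r.2)))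
      (by simpa [(A.e i).left_inv hi] using hdG) h1
    refine h2.congr_of_eventuallyEq ?_
    have hs : ∀ᶠ q : P × Cn n in 𝓝 (p, A.e i x), F q.1 ((A.e i).symm q.2) ∈ (B.e j).source :=
      (continuousAt_chart (A := A) hcF hi)
        ((B.e j).open_source.mem_nhds (by simpa [(A.e i).left_inv hi] using hj))
    filter_upwards [hs] with q hq
    simp only [comp_apply]
    rw [(B.e j).left_inv hq]

theorem HolP.congr {F G : P → M → M'} {p : P} {x : M} (hF : HolP A B F p x)
    (h : ∀ᶠ q : P × M in 𝓝 (p, x), F q.1 q.2 = G q.1 q.2) : HolP A B G p x := by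
  obtain ⟨hcF, i, j, hi, hj, hd⟩ := hF
  have h0 : F p x = G p x := h.self_of_nhds
  refine ⟨hcF.congr (by filter_upwards [h] with q hq; exact hq), i, j, hi, h0 ▸ hj,
    hd.congr_of_eventuallyEq ?_⟩
  have h1 := symm_ca (A := A) p hi
  have h2 : Tendsto (fun q : P × Cn n => (q.1, (A.e i).symm q.2)) (𝓝 (p, A.e i x)) (𝓝 (p, x)) := by
    simpa [ContinuousAt, (A.e i).left_inv hi] using h1
  filter_upwards [h2.eventually h] with q hq
  rw [hq]

theorem holP_id (p : P) (x : M) : HolP A A (fun _ x => x) p x := by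
  obtain ⟨i, hi⟩ := A.cover x
  refine ⟨continuousAt_snd, i, i, hi, hi, ?_⟩
  have : ∀ᶠ q : P × Cn n in 𝓝 (p, A.e i x), q.2 ∈ (A.e i).target :=
    continuousAt_snd ((A.e i).open_target.mem_nhds ((A.e i).map_source hi))
  refine DifferentiableAt.congr_of_eventuallyEq (f₁ := fun q : P × Cn n =>
    A.e i ((A.e i).symm q.2)) (f := fun q : P × Cn n => q.2) differentiableAt_snd ?_
  filter_upwards [this] with q hq
  exact (A.e i).right_inv hq

theorem HolP.mul_iterate {F : P → M → M} {p : P} (hF : ∀ x, HolP A A F p x) (k : ℕ) (x : M) :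
    HolP A A (fun p x => (F p)^[k] x) p x := by
  induction k with
  | zero => exact holP_id p x
  | succ k ih =>
    have := HolP.comp (G := F) (hF _) ih
    refine this.congr (Eventually.of_forall fun q => ?_)
    rw [Function.iterate_succ_apply']

/-- holomorphic maps -/
def HolM (A : Atl n M) (B : Atl m M') (f : M → M') : Prop :=
  ∀ x, ContinuousAt f x ∧ ∃ i j, x ∈ (A.e i).source ∧ f x ∈ (B.e j).source ∧
    DifferentiableAt ℂ (fun z : Cn n => B.e j (f ((A.e i).symm z))) (A.e i x)

theorem HolP.slice {F : P → M → M'} {p : P} (h : ∀ x, HolP A B F p x) : HolM A B (F p) := by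
  intro x
  obtain ⟨hc, i, j, hi, hj, hd⟩ := h x
  refine ⟨ContinuousAt.comp (g := uncurry F) (f := fun x : M => (p, x)) hc
    (continuousAt_const.prodMk continuousAt_id), i, j, hi, hj, ?_⟩
  exact DifferentiableAt.comp (A.e i x) (f := fun z : Cn n => (p, z))
    (g := fun q : P × Cn n => B.e j (F q.1 ((A.e i).symm q.2))) hd
    ((differentiableAt_const p).prodMk differentiableAt_id)

theorem HolM.toP {f : M → M'} (h : HolM A B f) (p : P) (x : M) :
    HolP A B (fun _ : P => f) p x := by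
  obtain ⟨hc, i, j, hi, hj, hd⟩ := h x
  exact ⟨ContinuousAt.comp (g := f) (f := fun q : P × M => q.2) hc continuousAt_snd,
    i, j, hi, hj, DifferentiableAt.comp (p, A.e i x) (f := fun q : P × Cn n => q.2)
      (g := fun z : Cn n => B.e j (f ((A.e i).symm z))) hd differentiableAt_snd⟩

end HolP

theorem HolM.continuous {f : M → M'} (h : HolM A B f) : Continuous f :=
  continuous_iff_continuousAt.2 fun x => (h x).1

theorem HolM.diff {f : M → M'} (h : HolM A B f) {i : A.ι} {j : B.ι} {x : M}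
    (hi : x ∈ (A.e i).source) (hj : f x ∈ (B.e j).source) :
    DifferentiableAt ℂ (fun z : Cn n => B.e j (f ((A.e i).symm z))) (A.e i x) := by
  have := (h.toP (P := ℂ) 0 x).diff hi hj
  exact DifferentiableAt.comp (A.e i x) (f := fun z : Cn n => ((0 : ℂ), z))
    (g := fun q : ℂ × Cn n => B.e j (f ((A.e i).symm q.2))) this
    ((differentiableAt_const (0 : ℂ)).prodMk differentiableAt_id)

theorem HolM.comp {f : M → M'} {g : M' → M''} (hg : HolM B C g) (hf : HolM A B f) :
    HolM A C (g ∘ f) := by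
  have := HolP.slice (P := ℂ) (p := 0) (F := fun _ x => g (f x)) fun x =>
    HolP.comp (G := fun _ => g) (F := fun _ => f) (hg.toP 0 (f x)) (hf.toP 0 x)
  exact this

theorem holM_id : HolM A A id := by
  have := HolP.slice (P := ℂ) (p := 0) (F := fun _ (x : M) => x) fun x =>
    holP_id (A := A) (0 : ℂ) x
  exact this

/-! ### holomorphic vector fields -/

/-- holomorphic vector field on `(M, A)` -/
structure HVF (A : Atl n M) where
  X : A.ι → M → Cn n
  hol : ∀ i, DifferentiableOn ℂ (fun z => X i ((A.e i).symm z)) (A.e i).target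
  tr : ∀ i j, ∀ x ∈ (A.e i).source ∩ (A.e j).source,
    X j x = fderiv ℂ (fun z => A.e j ((A.e i).symm z)) (A.e i x) (X i x)

/-- the field in the chart `i` -/
def HVF.loc (V : HVF A) (i : A.ι) : Cn n → Cn n := fun z => V.X i ((A.e i).symm z)

theorem HVF.loc_e (V : HVF A) {i : A.ι} {x : M} (hx : x ∈ (A.e i).source) :
    V.loc i (A.e i x) = V.X i x := by
  rw [HVF.loc, (A.e i).left_inv hx]

/-- `γ` is differentiable at `t` with velocity `V (γ t)` -/
def IntAt (V : HVF A) (γ : ℂ → M) (t : ℂ) : Prop :=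
  ContinuousAt γ t ∧ ∃ i, γ t ∈ (A.e i).source ∧
    HasDerivAt (fun s => A.e i (γ s)) (V.X i (γ t)) t

variable {V : HVF A} {γ γ' : ℂ → M} {t : ℂ}

theorem IntAt.cont (h : IntAt V γ t) : ContinuousAt γ t := h.1

theorem IntAt.chart (h : IntAt V γ t) {j : A.ι} (hj : γ t ∈ (A.e j).source) :
    HasDerivAt (fun s => A.e j (γ s)) (V.X j (γ t)) t := by
  obtain ⟨hc, i, hi, hd⟩ := h
  have h1 := (chg_diffAt A hi hj).hasFDerivAt.comp_hasDerivAt t hd
  rw [← V.tr i j (γ t) ⟨hi, hj⟩] at h1
  refine h1.congr_of_eventuallyEq ?_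
  filter_upwards [hc ((A.e i).open_source.mem_nhds hi)] with s hs
  simp [(A.e i).left_inv hs]

theorem IntAt.congr (h : IntAt V γ t) (he : ∀ᶠ s in 𝓝 t, γ s = γ' s) : IntAt V γ' t := by
  obtain ⟨hc, i, hi, hd⟩ := h
  have h0 : γ t = γ' t := he.self_of_nhds
  refine ⟨hc.congr he, i, h0 ▸ hi, ?_⟩
  rw [← h0]
  refine hd.congr_of_eventuallyEq ?_
  filter_upwards [he] with s hs
  rw [hs]

/-- local uniqueness of integral curves -/
theorem unique_nhds (h : ∀ᶠ s in 𝓝 t, IntAt V γ s) (h' : ∀ᶠ s in 𝓝 t, IntAt V γ' s)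
    (h0 : γ t = γ' t) : ∀ᶠ s in 𝓝 t, γ s = γ' s := by
  obtain ⟨i, hi⟩ := A.cover (γ t)
  have hs : ∀ᶠ s in 𝓝 t, γ s ∈ (A.e i).source :=
    h.self_of_nhds.cont ((A.e i).open_source.mem_nhds hi)
  have hs' : ∀ᶠ s in 𝓝 t, γ' s ∈ (A.e i).source :=
    h'.self_of_nhds.cont ((A.e i).open_source.mem_nhds (h0 ▸ hi))
  have key := HFlow1_376.unique_nhds (A.e i).open_target (V.hol i) (γ := fun s => A.e i (γ s))
    (γ' := fun s => A.e i (γ' s)) (t0 := t) ((A.e i).map_source hi) ?_ ?_ (by simp only [h0])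
  · filter_upwards [key, hs, hs'] with s hk h1 h2
    exact (A.e i).injOn h1 h2 hk
  · filter_upwards [h, hs] with s h1 h2
    have := h1.chart h2
    simpa [(A.e i).left_inv h2] using this
  · filter_upwards [h', hs'] with s h1 h2
    have := h1.chart h2
    simpa [(A.e i).left_inv h2] using this

/-- uniqueness of integral curves on a preconnected open set -/
theorem unique_on [T2Space M] {S : Set ℂ} (hS : IsOpen S) (hc : IsPreconnected S)
    (h : ∀ s ∈ S, IntAt V γ s) (h' : ∀ s ∈ S, IntAt V γ' s) (ht : t ∈ S) (h0 : γ t = γ' t) :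
    EqOn γ γ' S := by
  have key : S ⊆ {s | ∀ᶠ u in 𝓝 s, γ u = γ' u} := by
    refine hc.subset_of_closure_inter_subset isOpen_setOfPred_eventually_nhds ⟨t, ht, ?_⟩ ?_
    · exact unique_nhds (eventually_of_mem (hS.mem_nhds ht) h)
        (eventually_of_mem (hS.mem_nhds ht) h') h0
    · rintro s ⟨hs, hsS⟩
      refine unique_nhds (eventually_of_mem (hS.mem_nhds hsS) h)
        (eventually_of_mem (hS.mem_nhds hsS) h') ?_
      have h1 : ∃ᶠ u in 𝓝 s, γ u = γ' u := by
        rw [mem_closure_iff_frequently] at hs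
        exact hs.mono fun u hu => hu.self_of_nhds
      by_contra hne
      have h2 : ∀ᶠ u in 𝓝 s, γ u ≠ γ' u := by
        have h3 : Tendsto (fun u => (γ u, γ' u)) (𝓝 s) (𝓝 (γ s, γ' s)) :=
          (h s hsS).cont.prodMk (h' s hsS).cont
        exact h3.eventually (isClosed_diagonal.isOpen_compl.mem_nhds hne)
      exact h1 h2
  exact fun s hs => (key hs).self_of_nhds

theorem IntAt.shift {c : ℂ} (h : IntAt V γ (t + c)) : IntAt V (fun s => γ (s + c)) t := by
  obtain ⟨hc, i, hi, hd⟩ := h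
  refine ⟨ContinuousAt.comp (f := fun s => s + c) hc (by fun_prop), i, hi, ?_⟩
  have := HasDerivAt.comp_add_const t c hd
  exact this

/-- local flow on the manifold -/
theorem exists_locFlow (V : HVF A) (x : M) : ∃ ε > 0, ∃ (N : Set M) (φ : ℂ → M → M),
    IsOpen N ∧ x ∈ N ∧ (∀ y ∈ N, φ 0 y = y) ∧
    (∀ y ∈ N, ∀ t ∈ ball (0 : ℂ) ε, IntAt V (fun s => φ s y) t) ∧
      ∀ t ∈ ball (0 : ℂ) ε, ∀ y ∈ N, HolP A A φ t y := by
  obtain ⟨i, hi⟩ := A.cover x
  obtain ⟨r, hr, ε, hε, hsub, Φ, hΦ, hm, h0, hd⟩ := exists_flow (A.e i).open_target (V.hol i)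
    ((A.e i).map_source hi)
  refine ⟨ε, hε, (A.e i).source ∩ A.e i ⁻¹' ball (A.e i x) r,
    fun t y => (A.e i).symm (Φ (t, A.e i y)), (A.e i).isOpen_inter_preimage isOpen_ball,
    ⟨hi, mem_ball_self hr⟩, ?_, ?_, ?_⟩
  · intro y hy
    simp only [h0 _ hy.2, (A.e i).left_inv hy.1]
  · intro y hy t ht
    have hmem := hm (t, A.e i y) ⟨ht, hy.2⟩
    have hder := hd t ht _ hy.2
    refine ⟨?_, i, (A.e i).map_target hmem, ?_⟩
    · exact ContinuousAt.comp (f := fun s => Φ (s, A.e i y)) ((A.e i).continuousAt_symm hmem)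
        hder.continuousAt
    · refine hder.congr_of_eventuallyEq ?_
      have : ∀ᶠ s in 𝓝 t, Φ (s, A.e i y) ∈ (A.e i).target :=
        hder.continuousAt ((A.e i).open_target.mem_nhds hmem)
      filter_upwards [this] with s hs
      exact (A.e i).right_inv hs
  · intro t ht y hy
    have hmem := hm (t, A.e i y) ⟨ht, hy.2⟩
    have hcΦ := (hΦ (t, A.e i y) ⟨ht, hy.2⟩)
    refine ⟨?_, i, i, hy.1, (A.e i).map_target hmem, ?_⟩
    · have h1 : ContinuousAt (fun p : ℂ × M => (p.1, A.e i p.2)) (t, y) :=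
        continuousAt_fst.prodMk (ContinuousAt.comp (g := A.e i) (f := fun p : ℂ × M => p.2)
          ((A.e i).continuousAt hy.1) continuousAt_snd)
      have h2 : ContinuousAt (fun p : ℂ × M => Φ (p.1, A.e i p.2)) (t, y) :=
        ContinuousAt.comp (g := Φ) (f := fun p : ℂ × M => (p.1, A.e i p.2)) hcΦ.continuousAt h1
      exact ContinuousAt.comp (f := fun p : ℂ × M => Φ (p.1, A.e i p.2))
        ((A.e i).continuousAt_symm hmem) h2
    · refine hcΦ.differentiableAt.congr_of_eventuallyEq ?_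
      have h1 : ∀ᶠ p : ℂ × Cn n in 𝓝 (t, A.e i y), Φ p ∈ (A.e i).target :=
        hcΦ.continuousAt ((A.e i).open_target.mem_nhds hmem)
      have h2 : ∀ᶠ p : ℂ × Cn n in 𝓝 (t, A.e i y), p.2 ∈ (A.e i).target :=
        continuousAt_snd ((A.e i).open_target.mem_nhds ((A.e i).map_source hy.1))
      filter_upwards [h1, h2] with p hp1 hp2
      rw [(A.e i).right_inv hp2]
      exact (A.e i).right_inv hp1

end

end Crest.Agent.R273.HFlow3_376
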