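import Crest.Agent.R273.HFlow3_376

/-!
# R273 (S0416), HFLOW (helper376), file 4: the global flow of a holomorphic vector field on a compact
manifold, jointly holomorphic; uniqueness; equivariance of maps.
-/

set_option autoImplicit false
set_option linter.unusedSectionVars false

open Set Metric Filter Topology Complex Function
open scoped NNReal ContDiff

namespace Crest.Agent.R273.HFlow4_376

open Crest.Agent.R275.Geo Crest.Agent.R273.HFlow2_376 Crest.Agent.R273.HFlow3_376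

noncomputable section

variable {n m l : ℕ} {M M' M'' : Type} [TopologicalSpace M] [TopologicalSpace M']
  [TopologicalSpace M''] {A : Atl n M} {B : Atl m M'} {C : Atl l M''}

/-- `φ` is a local flow near `x` for `|t| < ε` -/
def LocF (V : HVF A) (ε : ℝ) (x : M) (N : Set M) (φ : ℂ → M → M) : Prop :=
  IsOpen N ∧ x ∈ N ∧ (∀ y ∈ N, φ 0 y = y) ∧
    (∀ y ∈ N, ∀ t ∈ ball (0 : ℂ) ε, IntAt V (fun s => φ s y) t) ∧
      ∀ t ∈ ball (0 : ℂ) ε, ∀ y ∈ N, HolP A A φ t y

theorem LocF.mono {V : HVF A} {ε δ : ℝ} {x : M} {N : Set M} {φ : ℂ → M → M}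
    (h : LocF V ε x N φ) (hδ : δ ≤ ε) : LocF V δ x N φ :=
  ⟨h.1, h.2.1, h.2.2.1, fun y hy t ht => h.2.2.2.1 y hy t (ball_subset_ball hδ ht),
    fun t ht y hy => h.2.2.2.2 t (ball_subset_ball hδ ht) y hy⟩

/-- uniform time of existence on a compact set -/
theorem exists_unif (V : HVF A) {K : Set M} (hK : IsCompact K) :
    ∃ ε > 0, ∀ x ∈ K, ∃ N φ, LocF V ε x N φ := by
  refine IsCompact.induction_on (p := fun U => ∃ ε > 0, ∀ x ∈ U, ∃ N φ, LocF V ε x N φ)
    hK ⟨1, one_pos, fun x hx => absurd hx (notMem_empty x)⟩ ?_ ?_ ?_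
  · rintro s t hst ⟨ε, hε, h⟩
    exact ⟨ε, hε, fun x hx => h x (hst hx)⟩
  · rintro s t ⟨ε, hε, h⟩ ⟨δ, hδ, h'⟩
    refine ⟨min ε δ, lt_min hε hδ, fun x hx => ?_⟩
    rcases hx with hx | hx
    · obtain ⟨N, φ, hh⟩ := h x hx
      exact ⟨N, φ, hh.mono (min_le_left _ _)⟩
    · obtain ⟨N, φ, hh⟩ := h' x hx
      exact ⟨N, φ, hh.mono (min_le_right _ _)⟩
  · intro x _
    obtain ⟨ε, hε, N, φ, hN, hx, h0, h1, h2⟩ := exists_locFlow V x
    exact ⟨N, mem_nhdsWithin_of_mem_nhds (hN.mem_nhds hx), ε, hε,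
      fun y hy => ⟨N, φ, hN, hy, h0, h1, h2⟩⟩

/-- the flow of a holomorphic vector field -/
structure Flow (V : HVF A) where
  Φ : ℂ → M → M
  zero : ∀ x, Φ 0 x = x
  add : ∀ s t x, Φ (s + t) x = Φ s (Φ t x)
  int : ∀ x t, IntAt V (fun s => Φ s x) t
  hol : ∀ t x, HolP A A Φ t x

theorem locAct [T2Space M] {V : HVF A} {ε : ℝ} (hε : 0 < ε)
    (N : M → Set M) (φ : M → ℂ → M → M) (h : ∀ x, LocF V ε x (N x) (φ x)) :
    (∀ x, ∀ y ∈ N x, ∀ t ∈ ball (0 : ℂ) ε, φ y t y = φ x t y) ∧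
    LocAct ε (fun t x => φ x t x) := by
  have h1 : ∀ x, ∀ y ∈ N x, ∀ t ∈ ball (0 : ℂ) ε, φ y t y = φ x t y := by
    intro x y hy t ht
    refine unique_on (V := V) isOpen_ball (convex_ball (0 : ℂ) ε).isPreconnected
      (γ := fun s => φ y s y) (γ' := fun s => φ x s y) ((h y).2.2.2.1 y (h y).2.1)
      ((h x).2.2.2.1 y hy) (mem_ball_self hε) ?_ ht
    simp only [(h y).2.2.1 y (h y).2.1, (h x).2.2.1 y hy]
  refine ⟨h1, hε, fun x => (h x).2.2.1 x (h x).2.1, ?_⟩
  intro s t x hs ht hst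
  -- `u ↦ S u (S t x)` and `u ↦ S (u + t) x`
  set y := φ x t x with hy
  have hD : IsOpen (ball (0 : ℂ) ε ∩ ball (-t) ε) := isOpen_ball.inter isOpen_ball
  have hDc : IsPreconnected (ball (0 : ℂ) ε ∩ ball (-t) ε) :=
    ((convex_ball (0 : ℂ) ε).inter (convex_ball (-t) ε)).isPreconnected
  have ht0 : ‖t‖ < ε := ht
  have hmem0 : (0 : ℂ) ∈ ball (0 : ℂ) ε ∩ ball (-t) ε :=
    ⟨mem_ball_self hε, by rw [mem_ball, dist_eq_norm]; simpa using ht0⟩
  have hmems : s ∈ ball (0 : ℂ) ε ∩ ball (-t) ε :=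
    ⟨by simpa using hs, by rw [mem_ball, dist_eq_norm]; simpa using hst⟩
  refine unique_on (V := V) hD hDc (γ := fun u => φ y u y) (γ' := fun u => φ x (u + t) x)
    (fun u hu => (h y).2.2.2.1 y (h y).2.1 u hu.1) (fun u hu => ?_) hmem0 ?_ hmems
  · refine IntAt.shift (γ := fun u => φ x u x) ((h x).2.2.2.1 x (h x).2.1 (u + t) ?_)
    have := hu.2
    rw [mem_ball, dist_eq_norm] at this
    simpa using this
  · change φ y 0 y = φ x (0 + t) x
    rw [(h y).2.2.1 y (h y).2.1, zero_add]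

/-- **global flow** of a holomorphic vector field which has local flows on a uniform disc -/
theorem exists_flow_of_unif [T2Space M] (V : HVF A) {ε : ℝ} (hε : 0 < ε)
    (h0 : ∀ x, ∃ N φ, LocF V ε x N φ) : Nonempty (Flow V) := by
  choose N φ h using h0
  obtain ⟨h1, hS⟩ := locAct hε N φ h
  set S : ℂ → M → M := fun t x => φ x t x with hSdef
  -- holomorphy of `S`
  have hSh : ∀ t ∈ ball (0 : ℂ) ε, ∀ x, HolP A A S t x := by
    intro t ht x
    refine ((h x).2.2.2.2 t ht x (h x).2.1).congr ?_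
    have e1 : ∀ᶠ q : ℂ × M in 𝓝 (t, x), q.1 ∈ ball (0 : ℂ) ε :=
      (continuous_fst.tendsto (t, x)).eventually (isOpen_ball.mem_nhds ht)
    have e2 : ∀ᶠ q : ℂ × M in 𝓝 (t, x), q.2 ∈ N x :=
      (continuous_snd.tendsto (t, x)).eventually ((h x).1.mem_nhds (h x).2.1)
    filter_upwards [e1, e2] with q hq1 hq2
    exact (h1 x q.2 hq2 q.1 hq1).symm
  have hint : ∀ x, IntAt V (fun s => S s x) 0 := fun x =>
    (h x).2.2.2.1 x (h x).2.1 0 (mem_ball_self hε)
  have hglob : ∀ t (x : M), HolP A A (glob ε S) t x := by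
    intro t0 x
    obtain ⟨K, hK⟩ := exists_nat_gt (‖t0‖ / ε)
    have hK0 : K ≠ 0 := by
      rintro rfl
      have : (0 : ℝ) ≤ ‖t0‖ / ε := div_nonneg (norm_nonneg _) hε.le
      simp only [Nat.cast_zero] at hK
      linarith
    have hev : ∀ᶠ t in 𝓝 t0, ‖t‖ / ε < K :=
      ((continuous_norm.div_const ε).tendsto t0).eventually (gt_mem_nhds hK)
    have h2 : HolP A A (fun (t : ℂ) (x : M) => (S ((1 / (K : ℝ)) • t))^[K] x) t0 x := by
      refine HolP.mul_iterate (F := fun t x => S ((1 / (K : ℝ)) • t) x) (fun y => ?_) K x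
      refine HolP.comp_param (F := S) (f := fun t : ℂ => (1 / (K : ℝ)) • t) (hSh _ ?_ y) (by fun_prop)
      simpa using hS.norm_lt_of_le hK
    refine h2.congr ?_
    have e1 : ∀ᶠ q : ℂ × M in 𝓝 (t0, x), ‖q.1‖ / ε < K :=
      (continuous_fst.tendsto (t0, x)).eventually hev
    filter_upwards [e1] with q hq
    exact (congrFun (hS.glob_eq hK0 (hS.norm_lt_of_le hq)) q.2).symm
  refine ⟨⟨glob ε S, fun x => by rw [hS.glob_zero]; rfl,
    fun s t x => by rw [hS.glob_add]; rfl, ?_, hglob⟩⟩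
  intro x t
  have h2 : IntAt V (fun s => S (s + -t) (glob ε S t x)) t := by
    refine IntAt.shift (γ := fun s => S s (glob ε S t x)) ?_
    rw [add_neg_cancel]
    exact hint _
  refine h2.congr ?_
  have e1 : ∀ᶠ s in 𝓝 t, ‖s + -t‖ < ε := by
    have : ContinuousAt (fun s : ℂ => ‖s + -t‖) t := by fun_prop
    refine this.eventually (gt_mem_nhds ?_)
    simpa using hε
  filter_upwards [e1] with s hs
  rw [← congrFun (hS.glob_of_lt hs) (glob ε S t x)]
  have := congrFun (hS.glob_add (s + -t) t) x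
  rw [neg_add_cancel_right] at this
  exact this.symm

/-- **global flow** of a holomorphic vector field on a compact manifold -/
theorem exists_flow [T2Space M] [CompactSpace M] (V : HVF A) : Nonempty (Flow V) := by
  obtain ⟨ε, hε, h0⟩ := exists_unif V isCompact_univ
  exact exists_flow_of_unif V hε fun x => h0 x (mem_univ x)

namespace Flow

variable {V : HVF A}

/-- the flow -/
def of [T2Space M] [CompactSpace M] (V : HVF A) : Flow V := (exists_flow V).some

variable (F : Flow V)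

theorem neg_left (t : ℂ) (x : M) : F.Φ (-t) (F.Φ t x) = x := by
  rw [← F.add, neg_add_cancel, F.zero]

theorem neg_right (t : ℂ) (x : M) : F.Φ t (F.Φ (-t) x) = x := by
  rw [← F.add, add_neg_cancel, F.zero]

theorem holM (t : ℂ) : HolM A A (F.Φ t) := HolP.slice fun x => F.hol t x

theorem continuous_uncurry : Continuous (uncurry F.Φ) :=
  continuous_iff_continuousAt.2 fun p => (F.hol p.1 p.2).cont

/-- the time `t` map as a homeomorphism -/
def homeo (t : ℂ) : M ≃ₜ M where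
  toFun := F.Φ t
  invFun := F.Φ (-t)
  left_inv x := F.neg_left t x
  right_inv x := F.neg_right t x
  continuous_toFun := (F.holM t).continuous
  continuous_invFun := (F.holM (-t)).continuous

theorem unique [T2Space M] {γ : ℂ → M} (hγ : ∀ t, IntAt V γ t) (t : ℂ) :
    γ t = F.Φ t (γ 0) :=
  unique_on (V := V) isOpen_univ isPreconnected_univ (fun s _ => hγ s)
    (γ' := fun s => F.Φ s (γ 0)) (fun s _ => F.int (γ 0) s) (mem_univ 0)
    (by simp only [F.zero]) (mem_univ t)

end Flow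

/-- the fields `V`, `W` are related by the holomorphic map `f` -/
def Related (V : HVF A) (W : HVF B) (f : M → M') : Prop :=
  HolM A B f ∧ ∀ i j, ∀ x ∈ (A.e i).source, f x ∈ (B.e j).source →
    fderiv ℂ (fun z => B.e j (f ((A.e i).symm z))) (A.e i x) (V.X i x) = W.X j (f x)

theorem Related.intAt {V : HVF A} {W : HVF B} {f : M → M'} (h : Related V W f) {γ : ℂ → M}
    {t : ℂ} (hγ : IntAt V γ t) : IntAt W (fun s => f (γ s)) t := by
  obtain ⟨i, hi⟩ := A.cover (γ t)
  obtain ⟨j, hj⟩ := B.cover (f (γ t))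
  refine ⟨(h.1.continuous.continuousAt).comp hγ.cont, j, hj, ?_⟩
  have h1 := (h.1.diff hi hj).hasFDerivAt.comp_hasDerivAt t (hγ.chart hi)
  rw [h.2 i j _ hi hj] at h1
  refine h1.congr_of_eventuallyEq ?_
  filter_upwards [hγ.cont ((A.e i).open_source.mem_nhds hi)] with s hs
  simp [(A.e i).left_inv hs]

/-- transport of local flows by an automorphism preserving the field -/
theorem LocF.conj {V : HVF A} {ε : ℝ} {x : M} {N : Set M} {φ : ℂ → M → M}
    (h : LocF V ε x N φ) (g : M ≃ₜ M) (hg : Related V V g) (hg' : HolM A A g.symm) :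
    LocF V ε (g x) (g.symm ⁻¹' N) (fun t y => g (φ t (g.symm y))) := by
  obtain ⟨hN, hx, h0, h1, h2⟩ := h
  refine ⟨hN.preimage g.symm.continuous, by simpa using hx, fun y hy => ?_, fun y hy t ht => ?_,
    fun t ht y hy => ?_⟩
  · simp [h0 _ hy]
  · exact hg.intAt (h1 _ hy t ht)
  · exact HolP.comp (G := fun _ => g) (F := fun t y => φ t (g.symm y)) (hg.1.toP t _)
      (HolP.comp (G := φ) (F := fun _ => g.symm) (h2 t ht _ hy) (hg'.toP t y))

/-- global flow on a manifold with a cocompact group of automorphisms preserving the field -/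
theorem exists_flow_of_cocompact [T2Space M] (V : HVF A) {K : Set M} (hK : IsCompact K)
    (h : ∀ x, ∃ g : M ≃ₜ M, Related V V g ∧ HolM A A g.symm ∧ g.symm x ∈ K) :
    Nonempty (Flow V) := by
  obtain ⟨ε, hε, h0⟩ := exists_unif V hK
  refine exists_flow_of_unif V hε fun x => ?_
  obtain ⟨g, hg, hg', hgx⟩ := h x
  obtain ⟨N, φ, hh⟩ := h0 _ hgx
  have := hh.conj g hg hg'
  rw [g.apply_symm_apply] at this
  exact ⟨_, _, this⟩

/-- flows of related fields are intertwined -/
theorem Related.flow [T2Space M'] {V : HVF A} {W : HVF B} {f : M → M'} (h : Related V W f)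
    (F : Flow V) (G : Flow W) (t : ℂ) (x : M) : f (F.Φ t x) = G.Φ t (f x) := by
  have := G.unique (γ := fun s => f (F.Φ s x)) (fun s => h.intAt (F.int x s)) t
  simpa [F.zero] using this

end

end Crest.Agent.R273.HFlow4_376
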