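import Crest.Agent.R273.HFlow4_376

/-!
# R273 (S0416), HFLOW (helper376), file 5: tangent maps in charts; commuting holomorphic vector fields
have commuting flows.
-/

set_option autoImplicit false
set_option linter.unusedSectionVars false

open Set Metric Filter Topology Complex Function
open scoped NNReal ContDiff

namespace Crest.Agent.R273.HFlow5_376

open Crest.Agent.R275.Geo Crest.Agent.R273.HFlow3_376 Crest.Agent.R273.HFlow4_376

noncomputable section

/-! ### calculus -/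

section Calc

variable {P E G : Type} [NormedAddCommGroup P] [NormedSpace ℂ P]
  [NormedAddCommGroup E] [NormedSpace ℂ E] [NormedAddCommGroup G] [NormedSpace ℂ G]

theorem fderiv_slice {ψ : P × E → G} {s : P} {z : E} (h : DifferentiableAt ℂ ψ (s, z)) (w : E) :
    fderiv ℂ (fun z => ψ (s, z)) z w = fderiv ℂ ψ (s, z) (0, w) := by
  have h1 : HasFDerivAt (fun z : E => (s, z)) (ContinuousLinearMap.inr ℂ P E) z :=
    hasFDerivAt_prodMk_right s z
  have h2 := h.hasFDerivAt.comp z h1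
  rw [show (fun z => ψ (s, z)) = ψ ∘ fun z : E => (s, z) from rfl, h2.fderiv]
  simp

theorem hasDerivAt_slice {ψ : ℂ × E → G} {s : ℂ} {z : E} (h : DifferentiableAt ℂ ψ (s, z)) :
    HasDerivAt (fun s => ψ (s, z)) (fderiv ℂ ψ (s, z) (1, 0)) s := by
  have h1 : HasFDerivAt (fun s : ℂ => (s, z)) (ContinuousLinearMap.inl ℂ ℂ E) s :=
    hasFDerivAt_prodMk_left s z
  have h2 := (h.hasFDerivAt.comp s h1).hasDerivAt
  simp only [ContinuousLinearMap.coe_comp, comp_apply, ContinuousLinearMap.inl_apply] at h2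
  exact h2

/-- uniqueness for linear equations -/
theorem lin_unique [FiniteDimensional ℂ E] {L : ℂ → E →L[ℂ] E} {s0 : ℂ} {u y : ℂ → E}
    (hL : ∀ᶠ s in 𝓝 s0, DifferentiableAt ℂ L s)
    (hu : ∀ᶠ s in 𝓝 s0, HasDerivAt u (L s (u s)) s)
    (hy : ∀ᶠ s in 𝓝 s0, HasDerivAt y (L s (y s)) s) (h0 : u s0 = y s0) :
    ∀ᶠ s in 𝓝 s0, u s = y s := by
  obtain ⟨S, hS, hSo, hs0⟩ := _root_.eventually_nhds_iff.1 hL
  have hX : DifferentiableOn ℂ (fun p : ℂ × E => ((1 : ℂ), L p.1 p.2)) (S ×ˢ univ) := by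
    intro p hp
    have h1 : DifferentiableAt ℂ (fun p : ℂ × E => L p.1) p :=
      (hS p.1 hp.1).comp p differentiableAt_fst
    exact ((differentiableAt_const _).prodMk
      (h1.clm_apply differentiableAt_snd)).differentiableWithinAt
  have key := HFlow1_376.unique_nhds (hSo.prod isOpen_univ) hX (γ := fun s => (s, u s))
    (γ' := fun s => (s, y s)) (t0 := s0) ⟨hs0, mem_univ _⟩ ?_ ?_ (by simp [h0])
  · filter_upwards [key] with s hs
    exact (Prod.ext_iff.1 hs).2
  · filter_upwards [hu] with s hs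
    exact (hasDerivAt_id s).prodMk hs
  · filter_upwards [hy] with s hs
    exact (hasDerivAt_id s).prodMk hs

/-- the derivative of the differential of a flow -/
theorem hasDerivAt_fderiv_flow [FiniteDimensional ℂ E] {ψ : ℂ × E → E} {X : E → E} {s : ℂ} {z : E}
    (hψ : AnalyticAt ℂ ψ (s, z)) (hX : DifferentiableAt ℂ X (ψ (s, z)))
    (hd : ∀ᶠ q in 𝓝 (s, z), fderiv ℂ ψ q (1, 0) = X (ψ q)) (w : E) :
    HasDerivAt (fun s => fderiv ℂ ψ (s, z) (0, w))
      (fderiv ℂ X (ψ (s, z)) (fderiv ℂ ψ (s, z) (0, w))) s := by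
  have h1 : DifferentiableAt ℂ (fderiv ℂ ψ) (s, z) := hψ.fderiv.differentiableAt
  have h2 : HasDerivAt (fun s => fderiv ℂ ψ (s, z)) (fderiv ℂ (fderiv ℂ ψ) (s, z) (1, 0)) s :=
    hasDerivAt_slice h1
  have h3 : HasDerivAt (fun s => fderiv ℂ ψ (s, z) (0, w))
      (fderiv ℂ (fderiv ℂ ψ) (s, z) (1, 0) (0, w)) s := by
    have := h2.clm_apply (hasDerivAt_const s ((0, w) : ℂ × E))
    simpa using this
  have h4 : fderiv ℂ (fderiv ℂ ψ) (s, z) (1, 0) (0, w) =
      fderiv ℂ (fderiv ℂ ψ) (s, z) (0, w) (1, 0) :=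
    (hψ.contDiffAt (n := 2)).isSymmSndFDerivAt (by simp) (1, 0) (0, w)
  have h5 : fderiv ℂ (fderiv ℂ ψ) (s, z) (0, w) (1, 0) =
      fderiv ℂ (fun q => fderiv ℂ ψ q (1, 0)) (s, z) (0, w) := by
    have := (h1.hasFDerivAt.clm_apply (hasFDerivAt_const ((1, 0) : ℂ × E) (s, z)))
    rw [this.fderiv]
    simp
  have h6 : fderiv ℂ (fun q => fderiv ℂ ψ q (1, 0)) (s, z) =
      (fderiv ℂ X (ψ (s, z))).comp (fderiv ℂ ψ (s, z)) := by
    rw [(show (fun q => fderiv ℂ ψ q (1, 0)) =ᶠ[𝓝 (s, z)] fun q => X (ψ q) from hd).fderiv_eq]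
    exact (hX.hasFDerivAt.comp (s, z) hψ.differentiableAt.hasFDerivAt).fderiv
  rw [h4, h5, h6] at h3
  exact h3

end Calc

variable {n m l : ℕ} {M M' M'' : Type} [TopologicalSpace M] [TopologicalSpace M']
  [TopologicalSpace M''] {A : Atl n M} {B : Atl m M'} {C : Atl l M''}

/-- tangent map in the charts `i`, `j` -/
def tm (A : Atl n M) (B : Atl m M') (f : M → M') (i : A.ι) (j : B.ι) (x : M) :
    Cn n →L[ℂ] Cn m :=
  fderiv ℂ (fun z => B.e j (f ((A.e i).symm z))) (A.e i x)

theorem tm_comp {f : M → M'} {g : M' → M''} (hg : HolM B C g) (hf : HolM A B f) {i : A.ι}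
    {j : B.ι} {k : C.ι} {x : M} (hi : x ∈ (A.e i).source) (hj : f x ∈ (B.e j).source)
    (hk : g (f x) ∈ (C.e k).source) :
    tm A C (g ∘ f) i k x = (tm B C g j k (f x)).comp (tm A B f i j x) := by
  have h1 := (hf.diff hi hj).hasFDerivAt
  have h2 : HasFDerivAt (fun z => C.e k (g ((B.e j).symm z))) (tm B C g j k (f x))
      (B.e j (f ((A.e i).symm (A.e i x)))) := by
    rw [(A.e i).left_inv hi]; exact (hg.diff hj hk).hasFDerivAt
  have h3 := h2.comp (A.e i x) h1
  refine HasFDerivAt.fderiv (h3.congr_of_eventuallyEq ?_)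
  have h4 : ContinuousAt (fun z => f ((A.e i).symm z)) (A.e i x) := by
    refine ContinuousAt.comp (g := f) hf.continuous.continuousAt
      ((A.e i).continuousAt_symm ((A.e i).map_source hi))
  have h5 : ∀ᶠ z in 𝓝 (A.e i x), f ((A.e i).symm z) ∈ (B.e j).source :=
    h4 ((B.e j).open_source.mem_nhds (by simpa [(A.e i).left_inv hi] using hj))
  filter_upwards [h5] with z hz
  simp only [comp_apply]
  rw [(B.e j).left_inv hz]

theorem tm_id_self {i : A.ι} {x : M} (hi : x ∈ (A.e i).source) :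
    tm A A id i i x = ContinuousLinearMap.id ℂ (Cn n) := by
  have : (fun z => A.e i (id ((A.e i).symm z))) =ᶠ[𝓝 (A.e i x)] fun z => z := by
    filter_upwards [(A.e i).open_target.mem_nhds ((A.e i).map_source hi)] with z hz
    exact (A.e i).right_inv hz
  rw [tm, this.fderiv_eq]
  exact fderiv_fun_id

theorem HVF.tr' (V : HVF A) {i j : A.ι} {x : M} (hi : x ∈ (A.e i).source)
    (hj : x ∈ (A.e j).source) : tm A A id i j x (V.X i x) = V.X j x := (V.tr i j x ⟨hi, hj⟩).symm

/-- relation of two fields by a map, checked in one pair of charts -/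
theorem rel_of_one {V : HVF A} {W : HVF B} {f : M → M'} (hf : HolM A B f) {i : A.ι} {j : B.ι}
    {x : M} (hi : x ∈ (A.e i).source) (hj : f x ∈ (B.e j).source)
    (h : tm A B f i j x (V.X i x) = W.X j (f x)) {i' : A.ι} {j' : B.ι}
    (hi' : x ∈ (A.e i').source) (hj' : f x ∈ (B.e j').source) :
    tm A B f i' j' x (V.X i' x) = W.X j' (f x) := by
  have e1 : tm A B f i' j' x = (tm B B id j j' (f x)).comp (tm A B f i' j x) :=
    tm_comp (f := f) (g := id) holM_id hf hi' hj hj'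
  have e2 : tm A B f i' j x = (tm A B f i j x).comp (tm A A id i' i x) :=
    tm_comp (f := id) (g := f) hf holM_id hi' hi hj
  rw [e1, e2]
  simp only [ContinuousLinearMap.coe_comp, comp_apply]
  rw [HVF.tr' V hi' hi, h, HVF.tr' W hj hj']

/-- jointly holomorphic near a point: analytic in charts -/
theorem analyticAt_chart {P : Type} [NormedAddCommGroup P] [NormedSpace ℂ P]
    [FiniteDimensional ℂ P] {F : P → M → M'} {p : P} {x : M}
    (h : ∀ᶠ q : P × M in 𝓝 (p, x), HolP A B F q.1 q.2) {i : A.ι} {j : B.ι}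
    (hi : x ∈ (A.e i).source) (hj : F p x ∈ (B.e j).source) :
    AnalyticAt ℂ (fun q : P × Cn n => B.e j (F q.1 ((A.e i).symm q.2))) (p, A.e i x) := by
  refine Crest.Agent.R266.SCV.analyticAt_of_eventually_differentiableAt ?_
  have h1 : ContinuousAt (fun q : P × Cn n => (q.1, (A.e i).symm q.2)) (p, A.e i x) :=
    symm_ca (A := A) p hi
  have h2 : Tendsto (fun q : P × Cn n => (q.1, (A.e i).symm q.2)) (𝓝 (p, A.e i x)) (𝓝 (p, x)) := by
    simpa [ContinuousAt, (A.e i).left_inv hi] using h1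
  have h3 : ∀ᶠ q : P × Cn n in 𝓝 (p, A.e i x), F q.1 ((A.e i).symm q.2) ∈ (B.e j).source :=
    (continuousAt_chart (A := A) h.self_of_nhds.cont hi)
      ((B.e j).open_source.mem_nhds (by simpa [(A.e i).left_inv hi] using hj))
  have h4 : ∀ᶠ q : P × Cn n in 𝓝 (p, A.e i x), q.2 ∈ (A.e i).target :=
    continuousAt_snd ((A.e i).open_target.mem_nhds ((A.e i).map_source hi))
  filter_upwards [h2.eventually h, h3, h4] with q hq hq3 hq4
  have := hq.diff ((A.e i).map_target hq4) hq3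
  simpa [(A.e i).right_inv hq4] using this

/-- commuting holomorphic vector fields (zero bracket in all charts) -/
def Comm (V W : HVF A) : Prop := ∀ i, ∀ z ∈ (A.e i).target,
  fderiv ℂ (W.loc i) z (V.loc i z) = fderiv ℂ (V.loc i) z (W.loc i z)

theorem Comm.symm {V W : HVF A} (h : Comm V W) : Comm W V := fun i z hz => (h i z hz).symm

section Flow

variable {V W : HVF A} (F : Flow V)

theorem _root_.Crest.Agent.R273.HFlow4_376.Flow.analyticAt {s : ℂ} {x : M} {i j : A.ι} (hi : x ∈ (A.e i).source)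
    (hj : F.Φ s x ∈ (A.e j).source) :
    AnalyticAt ℂ (fun q : ℂ × Cn n => A.e j (F.Φ q.1 ((A.e i).symm q.2))) (s, A.e i x) :=
  analyticAt_chart (Eventually.of_forall fun q => F.hol q.1 q.2) hi hj

theorem _root_.Crest.Agent.R273.HFlow4_376.Flow.eventually_mem {s : ℂ} {x : M} {i j : A.ι} (hi : x ∈ (A.e i).source)
    (hj : F.Φ s x ∈ (A.e j).source) : ∀ᶠ q : ℂ × Cn n in 𝓝 (s, A.e i x),
      q.2 ∈ (A.e i).target ∧ F.Φ q.1 ((A.e i).symm q.2) ∈ (A.e j).source := by
  have h3 : ∀ᶠ q : ℂ × Cn n in 𝓝 (s, A.e i x), F.Φ q.1 ((A.e i).symm q.2) ∈ (A.e j).source :=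
    (continuousAt_chart (A := A) (F.hol s x).cont hi)
      ((A.e j).open_source.mem_nhds (by simpa [(A.e i).left_inv hi] using hj))
  have h4 : ∀ᶠ q : ℂ × Cn n in 𝓝 (s, A.e i x), q.2 ∈ (A.e i).target :=
    continuousAt_snd ((A.e i).open_target.mem_nhds ((A.e i).map_source hi))
  exact h4.and h3

theorem _root_.Crest.Agent.R273.HFlow4_376.Flow.fderiv_one {s : ℂ} {x : M} {i j : A.ι} (hi : x ∈ (A.e i).source)
    (hj : F.Φ s x ∈ (A.e j).source) :
    fderiv ℂ (fun q : ℂ × Cn n => A.e j (F.Φ q.1 ((A.e i).symm q.2))) (s, A.e i x) (1, 0) =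
      V.X j (F.Φ s x) := by
  have h1 := hasDerivAt_slice (F.analyticAt hi hj).differentiableAt
  have h2 := (F.int x s).chart hj
  simp only [(A.e i).left_inv hi] at h1
  exact h1.unique h2

theorem _root_.Crest.Agent.R273.HFlow4_376.Flow.eventually_fderiv_one {s : ℂ} {x : M} {i j : A.ι} (hi : x ∈ (A.e i).source)
    (hj : F.Φ s x ∈ (A.e j).source) : ∀ᶠ q : ℂ × Cn n in 𝓝 (s, A.e i x),
      fderiv ℂ (fun q : ℂ × Cn n => A.e j (F.Φ q.1 ((A.e i).symm q.2))) q (1, 0) =
        V.loc j (A.e j (F.Φ q.1 ((A.e i).symm q.2))) := by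
  filter_upwards [F.eventually_mem hi hj] with q hq
  have := F.fderiv_one ((A.e i).map_target hq.1) hq.2
  rw [(A.e i).right_inv hq.1] at this
  rw [V.loc_e hq.2, ← this]

/-- `tm` of the flow -/
theorem _root_.Crest.Agent.R273.HFlow4_376.Flow.tm_eq {s : ℂ} {x : M} {i j : A.ι} (hi : x ∈ (A.e i).source)
    (hj : F.Φ s x ∈ (A.e j).source) (w : Cn n) : tm A A (F.Φ s) i j x w =
      fderiv ℂ (fun q : ℂ × Cn n => A.e j (F.Φ q.1 ((A.e i).symm q.2))) (s, A.e i x) (0, w) :=
  fderiv_slice (ψ := fun q : ℂ × Cn n => A.e j (F.Φ q.1 ((A.e i).symm q.2)))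
    (F.analyticAt hi hj).differentiableAt w

/-- the linearised equation -/
theorem _root_.Crest.Agent.R273.HFlow4_376.Flow.hasDerivAt_tm {s : ℂ} {x : M} {i j : A.ι} (hi : x ∈ (A.e i).source)
    (hj : F.Φ s x ∈ (A.e j).source) (w : Cn n) :
    HasDerivAt (fun s => tm A A (F.Φ s) i j x w)
      (fderiv ℂ (V.loc j) (A.e j (F.Φ s x)) (tm A A (F.Φ s) i j x w)) s := by
  have h0 : DifferentiableAt ℂ (V.loc j) (A.e j (F.Φ s ((A.e i).symm (A.e i x)))) := by
    rw [(A.e i).left_inv hi]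
    exact (V.hol j).differentiableAt ((A.e j).open_target.mem_nhds ((A.e j).map_source hj))
  have h1 := hasDerivAt_fderiv_flow (F.analyticAt hi hj) (X := V.loc j) h0
    (F.eventually_fderiv_one hi hj) w
  rw [F.tm_eq hi hj]
  simp only [(A.e i).left_inv hi] at h1
  refine h1.congr_of_eventuallyEq ?_
  have hc : ContinuousAt (fun s => F.Φ s x) s := (F.int x s).cont
  filter_upwards [hc ((A.e j).open_source.mem_nhds hj)] with s' hs'
  rw [F.tm_eq hi hs']

theorem _root_.Crest.Agent.R273.HFlow4_376.Flow.related_local (hVW : Comm V W) {s0 : ℂ} {x : M} {i j : A.ι}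
    (hi : x ∈ (A.e i).source) (hj : F.Φ s0 x ∈ (A.e j).source)
    (h : tm A A (F.Φ s0) i j x (W.X i x) = W.X j (F.Φ s0 x)) :
    ∀ᶠ s in 𝓝 s0, tm A A (F.Φ s) i j x (W.X i x) = W.X j (F.Φ s x) := by
  have hc : ContinuousAt (fun s => F.Φ s x) s0 := (F.int x s0).cont
  have hs : ∀ᶠ s in 𝓝 s0, F.Φ s x ∈ (A.e j).source := hc ((A.e j).open_source.mem_nhds hj)
  have hV : AnalyticOnNhd ℂ (V.loc j) (A.e j).target :=
    Crest.Agent.R266.SCV.analyticOnNhd_of_differentiableOn (A.e j).open_target (V.hol j)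
  have hW : AnalyticOnNhd ℂ (W.loc j) (A.e j).target :=
    Crest.Agent.R266.SCV.analyticOnNhd_of_differentiableOn (A.e j).open_target (W.hol j)
  refine lin_unique (L := fun s => fderiv ℂ (V.loc j) (A.e j (F.Φ s x))) ?_ ?_ ?_ h
  · filter_upwards [hs] with s hs
    have h1 : DifferentiableAt ℂ (fderiv ℂ (V.loc j)) (A.e j (F.Φ s x)) :=
      (hV _ ((A.e j).map_source hs)).fderiv.differentiableAt
    exact h1.comp s ((F.int x s).chart hs).differentiableAt
  · filter_upwards [hs] with s hs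
    exact F.hasDerivAt_tm hi hs _
  · filter_upwards [hs.eventually_nhds] with s hs
    have hs0 := hs.self_of_nhds
    have h1 : HasFDerivAt (W.loc j) (fderiv ℂ (W.loc j) (A.e j (F.Φ s x))) (A.e j (F.Φ s x)) :=
      (hW _ ((A.e j).map_source hs0)).differentiableAt.hasFDerivAt
    have h2 := h1.comp_hasDerivAt s ((F.int x s).chart hs0)
    rw [← V.loc_e hs0, hVW j _ ((A.e j).map_source hs0), W.loc_e hs0] at h2
    refine h2.congr_of_eventuallyEq ?_
    filter_upwards [hs] with s' hs'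
    simp only [comp_apply]
    rw [W.loc_e hs']

/-- the flow of `V` preserves every `W` commuting with `V` -/
theorem _root_.Crest.Agent.R273.HFlow4_376.Flow.related (hVW : Comm V W) (s : ℂ) : Related W W (F.Φ s) := by
  refine ⟨F.holM s, fun i j x hi hj => ?_⟩
  -- the set of good times
  set S : Set ℂ := {s | ∀ j, F.Φ s x ∈ (A.e j).source →
    tm A A (F.Φ s) i j x (W.X i x) = W.X j (F.Φ s x)} with hS
  have key : ∀ s0 j, F.Φ s0 x ∈ (A.e j).source →
      tm A A (F.Φ s0) i j x (W.X i x) = W.X j (F.Φ s0 x) → s0 ∈ interior S := by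
    intro s0 j hj h
    rw [mem_interior_iff_mem_nhds]
    have hc : ContinuousAt (fun s => F.Φ s x) s0 := (F.int x s0).cont
    filter_upwards [F.related_local hVW hi hj h, hc ((A.e j).open_source.mem_nhds hj)] with s hs hs'
    intro j' hj'
    exact rel_of_one (F.holM s) hi hs' hs hi hj'
  have hSo : IsOpen S := by
    rw [← subset_interior_iff_isOpen]
    intro s0 hs0
    obtain ⟨j, hj⟩ := A.cover (F.Φ s0 x)
    exact key s0 j hj (hs0 j hj)
  have hSc : IsClosed S := by
    rw [← isOpen_compl_iff, isOpen_iff_mem_nhds]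
    intro s0 hs0
    obtain ⟨j, hj⟩ := A.cover (F.Φ s0 x)
    have hne : tm A A (F.Φ s0) i j x (W.X i x) ≠ W.X j (F.Φ s0 x) := fun h =>
      hs0 (interior_subset (key s0 j hj h))
    have hc : ContinuousAt (fun s => F.Φ s x) s0 := (F.int x s0).cont
    have hc1 : ContinuousAt (fun s => tm A A (F.Φ s) i j x (W.X i x)) s0 :=
      (F.hasDerivAt_tm hi hj _).continuousAt
    have hc2 : ContinuousAt (fun s => W.X j (F.Φ s x)) s0 := by
      have h1 : ContinuousAt (W.loc j) (A.e j (F.Φ s0 x)) :=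
        ((W.hol j).differentiableAt ((A.e j).open_target.mem_nhds
          ((A.e j).map_source hj))).continuousAt
      have h2 := ContinuousAt.comp (f := fun s => A.e j (F.Φ s x)) h1
        ((F.int x s0).chart hj).continuousAt
      refine h2.congr ?_
      filter_upwards [hc ((A.e j).open_source.mem_nhds hj)] with s hs
      exact W.loc_e hs
    have h3 : Tendsto (fun s => (tm A A (F.Φ s) i j x (W.X i x), W.X j (F.Φ s x))) (𝓝 s0)
        (𝓝 (tm A A (F.Φ s0) i j x (W.X i x), W.X j (F.Φ s0 x))) := hc1.prodMk hc2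
    filter_upwards [h3.eventually (isClosed_diagonal.isOpen_compl.mem_nhds hne),
      hc ((A.e j).open_source.mem_nhds hj)] with s hs hs' hsS
    exact hs (hsS j hs')
  have h0 : (0 : ℂ) ∈ S := by
    intro j hj
    have e : F.Φ 0 = id := funext F.zero
    rw [e] at hj ⊢
    exact HVF.tr' W hi hj
  have : S = univ := by
    have hcl : IsClopen S := ⟨hSc, hSo⟩
    exact hcl.eq_univ ⟨0, h0⟩
  have hs : s ∈ S := this ▸ mem_univ s
  exact hs j hj

/-- **commuting fields have commuting flows** -/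
theorem _root_.Crest.Agent.R273.HFlow4_376.Flow.commute [T2Space M] (G : Flow W) (hVW : Comm V W) (s t : ℂ) (x : M) :
    F.Φ s (G.Φ t x) = G.Φ t (F.Φ s x) :=
  (F.related hVW s).flow G G t x

end Flow

end

end Crest.Agent.R273.HFlow5_376
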