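import Crest.Agent.R273.HFlow6_376
import Crest.Agent.R273.Kah_333

/-!
# R273 (S0416), HFLOW (helper376), file 7: the flow of a parallel holomorphic vector field acts by
isometries.

`hf K i x v w = ∑ g_{a b̄} v_a conj w_b`;
`Isom K K' f` : `f` is holomorphic and isometric;
`Par K V`     : `∇ V = 0`, i.e. `∂_c (∑_a V^a g_{a b̄}) = 0`.
-/

set_option autoImplicit false
set_option linter.unusedSectionVars false

open Set Metric Filter Topology Complex Function
open scoped NNReal ContDiff Matrix ComplexConjugate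

namespace Crest.Agent.R273.HFlow7_376

open Crest.Agent.R275.Geo Crest.Agent.R275.Core144 Crest.Agent.R275.EDR890
open Crest.Agent.R273.Kah_333 Crest.Agent.R273.Hess_333
open Crest.Agent.R273.HFlow3_376 Crest.Agent.R273.HFlow4_376 Crest.Agent.R273.HFlow5_376
open Crest.Agent.R273.HFlow6_376

noncomputable section

variable {n m l : ℕ} {M M' M'' : Type} [TopologicalSpace M] [TopologicalSpace M']
  [TopologicalSpace M''] {A : Atl n M} {B : Atl m M'} {C : Atl l M''}

/-- the tangent map as a matrix -/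
def Tm (A : Atl n M) (B : Atl m M') (f : M → M') (i : A.ι) (j : B.ι) (x : M) :
    Matrix (Fin m) (Fin n) ℂ :=
  Matrix.of fun b a => tm A B f i j x (EuclideanSpace.single a 1) b

theorem tm_eq_Tm (A : Atl n M) (B : Atl m M') (f : M → M') (i : A.ι) (j : B.ι) (x : M)
    (v : Cn n) : (tm A B f i j x v : Fin m → ℂ) = Tm A B f i j x *ᵥ (v : Fin n → ℂ) := by
  have h1 : v = ∑ a, v a • (EuclideanSpace.single a (1 : ℂ) : Cn n) := by
    ext b
    simp [Finset.sum_apply, Pi.single_apply]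
  conv_lhs => rw [h1]
  rw [map_sum]
  simp only [map_smul]
  funext b
  simp only [Matrix.mulVec, dotProduct, Tm, Matrix.of_apply]
  rw [show (∑ a, v a • tm A B f i j x (EuclideanSpace.single a (1 : ℂ)) : Cn m) b =
    ∑ a, (v a • tm A B f i j x (EuclideanSpace.single a (1 : ℂ)) : Cn m) b by
      simp [Finset.sum_apply]]
  refine Finset.sum_congr rfl fun a _ => ?_
  simp [mul_comm]

theorem Tm_id (A : Atl n M) (i j : A.ι) (x : M) : Tm A A id i j x = Jm A i j x := rfl

theorem Tm_comp {f : M → M'} {g : M' → M''} (hg : HolM B C g) (hf : HolM A B f) {i : A.ι}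
    {j : B.ι} {k : C.ι} {x : M} (hi : x ∈ (A.e i).source) (hj : f x ∈ (B.e j).source)
    (hk : g (f x) ∈ (C.e k).source) :
    Tm A C (g ∘ f) i k x = Tm B C g j k (f x) * Tm A B f i j x := by
  ext b a
  have h := tm_comp hg hf hi hj hk
  rw [Matrix.mul_apply]
  simp only [Tm, Matrix.of_apply]
  rw [h, ContinuousLinearMap.comp_apply, tm_eq_Tm B C g j k (f x)]
  simp [Matrix.mulVec, dotProduct, Tm]

/-- the Hermitian form of a Kaehler metric in the chart `i` -/
def hf (K : Kah A) (i : A.ι) (x : M) (v w : Cn n) : ℂ :=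
  (v : Fin n → ℂ) ⬝ᵥ (K.g i x *ᵥ star (w : Fin n → ℂ))

theorem hf_eq (K : Kah A) (i : A.ι) (x : M) (v w : Cn n) :
    hf K i x v w = ∑ a, ∑ b, K.g i x a b * v a * conj (w b) := by
  simp only [hf, dotProduct, Matrix.mulVec, Finset.mul_sum]
  refine Finset.sum_congr rfl fun a _ => Finset.sum_congr rfl fun b _ => ?_
  simp only [Pi.star_apply, RCLike.star_def]
  ring

theorem star_mulVec' {p q : ℕ} (T : Matrix (Fin p) (Fin q) ℂ) (w : Fin q → ℂ) :
    star (T *ᵥ w) = T.map conj *ᵥ star w := by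
  funext b
  simp [Matrix.mulVec, dotProduct]

theorem form_pull {p q : ℕ} (T : Matrix (Fin p) (Fin q) ℂ) (G : Matrix (Fin p) (Fin p) ℂ)
    (v w : Fin q → ℂ) :
    (T *ᵥ v) ⬝ᵥ (G *ᵥ star (T *ᵥ w)) = v ⬝ᵥ ((Tᵀ * G * T.map conj) *ᵥ star w) := by
  rw [star_mulVec', Matrix.dotProduct_mulVec, Matrix.dotProduct_mulVec, Matrix.dotProduct_mulVec,
    ← Matrix.vecMul_vecMul, ← Matrix.vecMul_vecMul, Matrix.vecMul_transpose]

/-- transformation law of the Hermitian form -/
theorem hf_tr (K : Kah A) {i j : A.ι} {x : M} (hi : x ∈ (A.e i).source)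
    (hj : x ∈ (A.e j).source) (v w : Cn n) :
    hf K j x (tm A A id i j x v) (tm A A id i j x w) = hf K i x v w := by
  rw [hf, hf, tm_eq_Tm, tm_eq_Tm, form_pull, K.tr i j x ⟨hi, hj⟩, Tm_id]

/-- holomorphic isometries of Kaehler manifolds -/
def Isom (K : Kah A) (K' : Kah B) (f : M → M') : Prop :=
  HolM A B f ∧ ∀ i j, ∀ x ∈ (A.e i).source, f x ∈ (B.e j).source → ∀ v w,
    hf K' j (f x) (tm A B f i j x v) (tm A B f i j x w) = hf K i x v w

theorem Isom.matrix {K : Kah A} {K' : Kah B} {f : M → M'} (h : Isom K K' f) {i : A.ι} {j : B.ι}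
    {x : M} (hi : x ∈ (A.e i).source) (hj : f x ∈ (B.e j).source) :
    K.g i x = (Tm A B f i j x)ᵀ * K'.g j (f x) * (Tm A B f i j x).map conj := by
  have h1 := h.2 i j x hi hj
  ext a b
  have h2 := h1 (EuclideanSpace.single a 1) (EuclideanSpace.single b 1)
  rw [hf, hf, tm_eq_Tm, tm_eq_Tm, form_pull] at h2
  have e : ∀ G : Matrix (Fin n) (Fin n) ℂ,
      ((EuclideanSpace.single a (1 : ℂ) : Cn n) : Fin n → ℂ) ⬝ᵥ
        (G *ᵥ star ((EuclideanSpace.single b (1 : ℂ) : Cn n) : Fin n → ℂ)) = G a b := by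
    intro G
    have e1 : ((EuclideanSpace.single a (1 : ℂ) : Cn n) : Fin n → ℂ) = Pi.single a 1 := rfl
    have e2 : ((EuclideanSpace.single b (1 : ℂ) : Cn n) : Fin n → ℂ) = Pi.single b 1 := rfl
    rw [e1, e2, ← Pi.single_star]
    simp
  rw [e, e] at h2
  exact h2.symm

theorem Isom.of_matrix {K : Kah A} {K' : Kah B} {f : M → M'} (hf' : HolM A B f)
    (h : ∀ i j, ∀ x ∈ (A.e i).source, f x ∈ (B.e j).source →
      K.g i x = (Tm A B f i j x)ᵀ * K'.g j (f x) * (Tm A B f i j x).map conj) : Isom K K' f := by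
  refine ⟨hf', fun i j x hi hj v w => ?_⟩
  rw [hf, hf, tm_eq_Tm, tm_eq_Tm, form_pull, h i j x hi hj]

theorem isom_id (K : Kah A) : Isom K K id := ⟨holM_id, fun _ _ _ hi hj v w => hf_tr K hi hj v w⟩

theorem Isom.comp {K : Kah A} {K' : Kah B} {K'' : Kah C} {f : M → M'} {g : M' → M''}
    (hg : Isom K' K'' g) (hf' : Isom K K' f) : Isom K K'' (g ∘ f) := by
  refine ⟨hg.1.comp hf'.1, fun i k x hi hk v w => ?_⟩
  obtain ⟨j, hj⟩ := B.cover (f x)
  rw [tm_comp hg.1 hf'.1 hi hj hk]
  simp only [ContinuousLinearMap.comp_apply, comp_apply]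
  rw [hg.2 j k (f x) hj hk, hf'.2 i j x hi hj]

/-- checking the isometry property at a point in one pair of charts -/
theorem isom_of_one {K : Kah A} {K' : Kah B} {f : M → M'} (hf' : HolM A B f) {i : A.ι} {j : B.ι}
    {x : M} (hi : x ∈ (A.e i).source) (hj : f x ∈ (B.e j).source)
    (h : ∀ v w, hf K' j (f x) (tm A B f i j x v) (tm A B f i j x w) = hf K i x v w)
    {i' : A.ι} {j' : B.ι} (hi' : x ∈ (A.e i').source) (hj' : f x ∈ (B.e j').source) (v w : Cn n) :
    hf K' j' (f x) (tm A B f i' j' x v) (tm A B f i' j' x w) = hf K i' x v w := by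
  have e1 : tm A B f i' j' x = (tm B B id j j' (f x)).comp (tm A B f i' j x) :=
    tm_comp (f := f) (g := id) holM_id hf' hi' hj hj'
  have e2 : tm A B f i' j x = (tm A B f i j x).comp (tm A A id i' i x) :=
    tm_comp (f := id) (g := f) hf' holM_id hi' hi hj
  rw [e1]
  simp only [ContinuousLinearMap.comp_apply]
  rw [hf_tr K' hj hj', e2]
  simp only [ContinuousLinearMap.comp_apply]
  rw [h, hf_tr K hi' hi]

/-- parallel holomorphic vector field -/
def Par (K : Kah A) (V : HVF A) : Prop := ∀ i, ∀ z ∈ (A.e i).target, ∀ c b,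
  wd (false, c) (fun w => ∑ a, V.loc i w a * K.g i ((A.e i).symm w) a b) z = 0

end

end Crest.Agent.R273.HFlow7_376
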