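import Crest.Agent.R273.HFlow7_376

/-!
# R273 (S0416), HFLOW (helper376), file 8: flows of parallel holomorphic vector fields are isometric.
-/

set_option autoImplicit false
set_option linter.unusedSectionVars false

open Set Metric Filter Topology Complex Function
open scoped NNReal ContDiff Matrix ComplexConjugate

namespace Crest.Agent.R273.HFlow8_376

open Crest.Agent.R275.Geo Crest.Agent.R275.Core144 Crest.Agent.R275.EDR890
open Crest.Agent.R273.Kah_333 Crest.Agent.R273.Hess_333 Crest.Agent.R273.HessB_333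
open Crest.Agent.R273.HFlow3_376 Crest.Agent.R273.HFlow4_376 Crest.Agent.R273.HFlow5_376
open Crest.Agent.R273.HFlow6_376 Crest.Agent.R273.HFlow7_376

noncomputable section

variable {n m l : ℕ} {M M' M'' : Type} [TopologicalSpace M] [TopologicalSpace M']
  [TopologicalSpace M''] {A : Atl n M} {B : Atl m M'} {C : Atl l M''}

/-- the algebra of the derivative of the pulled back metric -/
theorem alg {V v w : Fin n → ℂ} {g : Fin n → Fin n → ℂ} {P Q : Fin n → Fin n → Fin n → ℂ}
    {dV : Fin n → Fin n → ℂ} (τ : ℂ) (hP : ∀ a b c, P a b c = P c b a)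
    (hQ : ∀ a b c, Q a b c = Q a c b)
    (hE : ∀ c b, ∑ a, (dV c a * g a b + V a * P a b c) = 0)
    (hE' : ∀ c a, ∑ b, (conj (dV c b) * g a b + conj (V b) * Q a b c) = 0) :
    ∑ a, ∑ b, (((∑ c, conj (τ * V c) * Q a b c) + ∑ c, (τ * V c) * P a b c) * (v a * conj (w b)) +
      g a b * ((τ * ∑ c, v c * dV c a) * conj (w b) + v a * conj (τ * ∑ c, w c * dV c b))) = 0 := by
  have h1 : ∑ a, ∑ b, ((∑ c, (τ * V c) * P a b c) * (v a * conj (w b)) +
      g a b * ((τ * ∑ c, v c * dV c a) * conj (w b))) = 0 := by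
    have e1 : ∀ a b, (∑ c, (τ * V c) * P a b c) * (v a * conj (w b)) =
        ∑ c, τ * conj (w b) * (v a * (V c * P c b a)) := by
      intro a b
      rw [Finset.sum_mul]
      refine Finset.sum_congr rfl fun c _ => ?_
      rw [hP a b c]; ring
    have e2 : ∀ a b, g a b * ((τ * ∑ c, v c * dV c a) * conj (w b)) =
        ∑ c, τ * conj (w b) * (v c * (dV c a * g a b)) := by
      intro a b
      rw [Finset.mul_sum, Finset.sum_mul, Finset.mul_sum]
      refine Finset.sum_congr rfl fun c _ => ?_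
      ring
    simp only [e1, e2]
    simp only [Finset.sum_add_distrib]
    have e3 : ∑ a, ∑ b, ∑ c, τ * conj (w b) * (v a * (V c * P c b a)) =
        ∑ b, ∑ a, ∑ c, τ * conj (w b) * (v a * (V c * P c b a)) := Finset.sum_comm
    have e4 : ∑ a, ∑ b, ∑ c, τ * conj (w b) * (v c * (dV c a * g a b)) =
        ∑ b, ∑ a, ∑ c, τ * conj (w b) * (v a * (dV a c * g c b)) := by
      rw [Finset.sum_comm]
      refine Finset.sum_congr rfl fun b _ => ?_
      rw [Finset.sum_comm]
    rw [e3, e4, ← Finset.sum_add_distrib]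
    refine Finset.sum_eq_zero fun b _ => ?_
    rw [← Finset.sum_add_distrib]
    refine Finset.sum_eq_zero fun a _ => ?_
    rw [← Finset.sum_add_distrib]
    have := hE a b
    calc ∑ c, (τ * conj (w b) * (v a * (V c * P c b a)) + τ * conj (w b) * (v a * (dV a c * g c b)))
        = τ * conj (w b) * v a * ∑ c, (dV a c * g c b + V c * P c b a) := by
          rw [Finset.mul_sum]
          refine Finset.sum_congr rfl fun c _ => ?_
          ring
      _ = 0 := by rw [this, mul_zero]
  have h2 : ∑ a, ∑ b, ((∑ c, conj (τ * V c) * Q a b c) * (v a * conj (w b)) +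
      g a b * (v a * conj (τ * ∑ c, w c * dV c b))) = 0 := by
    refine Finset.sum_eq_zero fun a _ => ?_
    have e1 : ∀ b, (∑ c, conj (τ * V c) * Q a b c) * (v a * conj (w b)) =
        ∑ c, conj τ * v a * (conj (w b) * (conj (V c) * Q a c b)) := by
      intro b
      rw [Finset.sum_mul]
      refine Finset.sum_congr rfl fun c _ => ?_
      rw [hQ a b c, map_mul]; ring
    have e2 : ∀ b, g a b * (v a * conj (τ * ∑ c, w c * dV c b)) =
        ∑ c, conj τ * v a * (conj (w c) * (conj (dV c b) * g a b)) := by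
      intro b
      rw [map_mul, map_sum, Finset.mul_sum, Finset.mul_sum, Finset.mul_sum]
      refine Finset.sum_congr rfl fun c _ => ?_
      rw [map_mul]; ring
    simp only [e1, e2]
    rw [Finset.sum_add_distrib]
    have e4 : ∑ b, ∑ c, conj τ * v a * (conj (w c) * (conj (dV c b) * g a b)) =
        ∑ b, ∑ c, conj τ * v a * (conj (w b) * (conj (dV b c) * g a c)) := Finset.sum_comm
    rw [e4, ← Finset.sum_add_distrib]
    refine Finset.sum_eq_zero fun b _ => ?_
    rw [← Finset.sum_add_distrib]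
    have := hE' b a
    calc ∑ c, (conj τ * v a * (conj (w b) * (conj (V c) * Q a c b)) +
          conj τ * v a * (conj (w b) * (conj (dV b c) * g a c)))
        = conj τ * v a * conj (w b) * ∑ c, (conj (dV b c) * g a c + conj (V c) * Q a c b) := by
          rw [Finset.mul_sum]
          refine Finset.sum_congr rfl fun c _ => ?_
          ring
      _ = 0 := by rw [this, mul_zero]
  have h3 := congrArg₂ (· + ·) h1 h2
  simp only [add_zero] at h3
  rw [← h3, ← Finset.sum_add_distrib]
  refine Finset.sum_congr rfl fun a _ => ?_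
  rw [← Finset.sum_add_distrib]
  refine Finset.sum_congr rfl fun b _ => ?_
  ring

section Metric

variable (K : Kah A)

theorem g_diff (i : A.ι) {z : Cn n} (hz : z ∈ (A.e i).target) (a b : Fin n) :
    DifferentiableAt ℝ (fun w => K.g i ((A.e i).symm w) a b) z :=
  ((K.sm i a b).contDiffAt ((A.e i).open_target.mem_nhds hz)).differentiableAt (by simp)

theorem g_herm (i : A.ι) {x : M} (hx : x ∈ (A.e i).source) (a b : Fin n) :
    conj (K.g i x b a) = K.g i x a b := (K.pos i x hx).1.apply a b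

theorem V_diff (V : HVF A) (i : A.ι) {z : Cn n} (hz : z ∈ (A.e i).target) :
    DifferentiableAt ℂ (V.loc i) z :=
  (V.hol i).differentiableAt ((A.e i).open_target.mem_nhds hz)

theorem V_diff_comp (V : HVF A) (i : A.ι) {z : Cn n} (hz : z ∈ (A.e i).target) (a : Fin n) :
    DifferentiableAt ℂ (fun z => V.loc i z a) z :=
  ((EuclideanSpace.proj a : Cn n →L[ℂ] ℂ).differentiableAt).comp z (V_diff V i hz)

variable {K} {V : HVF A}

theorem par_eq (hV : Par K V) (i : A.ι) {z : Cn n} (hz : z ∈ (A.e i).target) (c b : Fin n) :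
    ∑ a, (wd (false, c) (fun z => V.loc i z a) z * K.g i ((A.e i).symm z) a b +
      V.loc i z a * wd (false, c) (fun w => K.g i ((A.e i).symm w) a b) z) = 0 := by
  have h := hV i z hz c b
  rw [wd_sum _ (fun a _ => ((V_diff_comp V i hz a).restrictScalars ℝ).fun_mul
    (g_diff K i hz a b))] at h
  rw [← h]
  refine Finset.sum_congr rfl fun a _ => ?_
  rw [wd_mul ((V_diff_comp V i hz a).restrictScalars ℝ) (g_diff K i hz a b)]

theorem par_eq' (hV : Par K V) (i : A.ι) {z : Cn n} (hz : z ∈ (A.e i).target) (c a : Fin n) :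
    ∑ b, (conj (wd (false, c) (fun z => V.loc i z b) z) * K.g i ((A.e i).symm z) a b +
      conj (V.loc i z b) * wd (true, c) (fun w => K.g i ((A.e i).symm w) a b) z) = 0 := by
  have h := congrArg conj (par_eq hV i hz c a)
  rw [map_sum, map_zero] at h
  rw [← h]
  refine Finset.sum_congr rfl fun b _ => ?_
  rw [map_add, map_mul, map_mul, g_herm K i ((A.e i).map_target hz), conj_wd _ (g_diff K i hz b a)]
  congr 2
  refine wd_congr ?_ _
  filter_upwards [(A.e i).open_target.mem_nhds hz] with w hw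
  exact (g_herm K i ((A.e i).map_target hw) a b).symm

end Metric

/-- pulled back Hermitian form -/
def pl (K : Kah B) (f : M → M') (i : A.ι) (x : M) (v w : Cn n) : ℂ :=
  hf K (B.cover (f x)).choose (f x) (tm A B f i (B.cover (f x)).choose x v)
    (tm A B f i (B.cover (f x)).choose x w)

theorem pl_eq (K : Kah B) {f : M → M'} (hf' : HolM A B f) {i : A.ι} {j : B.ι} {x : M}
    (hi : x ∈ (A.e i).source) (hj : f x ∈ (B.e j).source) (v w : Cn n) :
    pl K f i x v w = hf K j (f x) (tm A B f i j x v) (tm A B f i j x w) := by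
  have hj' := (B.cover (f x)).choose_spec
  have e1 : tm A B f i j x = (tm B B id (B.cover (f x)).choose j (f x)).comp
      (tm A B f i (B.cover (f x)).choose x) :=
    tm_comp (f := f) (g := id) holM_id hf' hi hj' hj
  rw [e1]
  simp only [ContinuousLinearMap.comp_apply]
  rw [hf_tr K hj' hj]
  rfl

theorem pl_comp (K : Kah C) {f : M → M'} {g : M' → M''} (hf' : HolM A B f) (hg : HolM B C g)
    {i : A.ι} {j : B.ι} {x : M} (hi : x ∈ (A.e i).source) (hj : f x ∈ (B.e j).source)
    (v w : Cn n) : pl K (g ∘ f) i x v w =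
      pl K g j (f x) (tm A B f i j x v) (tm A B f i j x w) := by
  obtain ⟨k, hk⟩ := C.cover (g (f x))
  rw [pl_eq K (hg.comp hf') hi hk, pl_eq K hg hj hk, tm_comp hg hf' hi hj hk]
  rfl

variable {K : Kah A} {V : HVF A} (F : Flow V)

/-- derivative of the pulled back metric at time `0` -/
theorem deriv_zero (hV : Par K V) (τ : ℂ) {i : A.ι} {x : M} (hi : x ∈ (A.e i).source)
    (v w : Cn n) : HasDerivAt (fun s : ℝ => pl K (F.Φ ((s : ℂ) * τ)) i x v w) 0 0 := by
  have hz : A.e i x ∈ (A.e i).target := (A.e i).map_source hi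
  -- the point
  have hline : HasDerivAt (fun s : ℝ => (s : ℂ) * τ) τ 0 := by
    simpa using (Complex.ofRealCLM.hasDerivAt (x := (0 : ℝ))).mul_const τ
  have h00 : ((0 : ℝ) : ℂ) * τ = 0 := by simp
  have hx0 : F.Φ (((0 : ℝ) : ℂ) * τ) x = x := by rw [h00, F.zero]
  have hxi : F.Φ (((0 : ℝ) : ℂ) * τ) x ∈ (A.e i).source := by rw [hx0]; exact hi
  have hΦ0 : F.Φ (((0 : ℝ) : ℂ) * τ) = id := by rw [h00]; exact funext F.zero
  have hcont : ContinuousAt (fun s : ℝ => F.Φ ((s : ℂ) * τ) x) 0 :=
    ContinuousAt.comp (f := fun s : ℝ => (s : ℂ) * τ) (g := fun t => F.Φ t x)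
      (F.int x _).cont hline.continuousAt
  have hψ : HasDerivAt (fun s : ℝ => A.e i (F.Φ ((s : ℂ) * τ) x)) (τ • V.X i x) 0 := by
    have h1 := (F.int x (((0 : ℝ) : ℂ) * τ)).chart hxi
    rw [hx0] at h1
    exact h1.scomp (0 : ℝ) hline
  have hU : ∀ v : Cn n, HasDerivAt (fun s : ℝ => tm A A (F.Φ ((s : ℂ) * τ)) i i x v)
      (τ • fderiv ℂ (V.loc i) (A.e i x) v) 0 := by
    intro v
    have h1 := F.hasDerivAt_tm (s := ((0 : ℝ) : ℂ) * τ) hi hxi v
    rw [hx0, hΦ0, tm_id_self hi] at h1
    exact h1.scomp (0 : ℝ) hline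
  have hev : ∀ᶠ s : ℝ in 𝓝 0, F.Φ ((s : ℂ) * τ) x ∈ (A.e i).source :=
    hcont ((A.e i).open_source.mem_nhds hxi)
  -- the coefficients of the metric
  have hG : ∀ a b, HasDerivAt (fun s : ℝ => K.g i ((A.e i).symm (A.e i (F.Φ ((s : ℂ) * τ) x))) a b)
      (fderiv ℝ (fun w => K.g i ((A.e i).symm w) a b) (A.e i x) (τ • V.X i x)) 0 := by
    intro a b
    have h1 : HasFDerivAt (fun w => K.g i ((A.e i).symm w) a b)
        (fderiv ℝ (fun w => K.g i ((A.e i).symm w) a b) (A.e i x))
        (A.e i (F.Φ (((0 : ℝ) : ℂ) * τ) x)) := by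
      rw [hx0]
      exact (g_diff K i hz a b).hasFDerivAt
    exact h1.comp_hasDerivAt (0 : ℝ) hψ
  have hUc : ∀ (v : Cn n) (a : Fin n), HasDerivAt
      (fun s : ℝ => tm A A (F.Φ ((s : ℂ) * τ)) i i x v a)
      ((τ • fderiv ℂ (V.loc i) (A.e i x) v) a) 0 := fun v a =>
    (((EuclideanSpace.proj a : Cn n →L[ℂ] ℂ).restrictScalars ℝ).hasFDerivAt).comp_hasDerivAt
      (0 : ℝ) (hU v)
  have hUcc : ∀ (v : Cn n) (a : Fin n), HasDerivAt
      (fun s : ℝ => conj (tm A A (F.Φ ((s : ℂ) * τ)) i i x v a))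
      (conj ((τ • fderiv ℂ (V.loc i) (A.e i x) v) a)) 0 := fun v a =>
    ((conjCLE : ℂ →L[ℝ] ℂ).hasFDerivAt).comp_hasDerivAt (0 : ℝ) (hUc v a)
  have hu0 : ∀ v : Cn n, tm A A (F.Φ (((0 : ℝ) : ℂ) * τ)) i i x v = v := by
    intro v
    rw [hΦ0, tm_id_self hi]
    rfl
  -- the derivative of the form
  have key : HasDerivAt (fun s : ℝ => ∑ a, ∑ b,
      K.g i ((A.e i).symm (A.e i (F.Φ ((s : ℂ) * τ) x))) a b *
        (tm A A (F.Φ ((s : ℂ) * τ)) i i x v a * conj (tm A A (F.Φ ((s : ℂ) * τ)) i i x w b)))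
      (∑ a, ∑ b,
        (fderiv ℝ (fun w => K.g i ((A.e i).symm w) a b) (A.e i x) (τ • V.X i x) *
          (v a * conj (w b)) + K.g i x a b *
          ((τ • fderiv ℂ (V.loc i) (A.e i x) v) a * conj (w b) +
            v a * conj ((τ • fderiv ℂ (V.loc i) (A.e i x) w) b)))) 0 := by
    refine HasDerivAt.fun_sum fun a _ => HasDerivAt.fun_sum fun b _ => ?_
    have h1 := (hG a b).fun_mul ((hUc v a).fun_mul (hUcc w b))
    rw [hu0, hu0, hx0, (A.e i).left_inv hi] at h1
    exact h1
  have hzero : ∑ a, ∑ b,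
        (fderiv ℝ (fun w => K.g i ((A.e i).symm w) a b) (A.e i x) (τ • V.X i x) *
          (v a * conj (w b)) + K.g i x a b *
          ((τ • fderiv ℂ (V.loc i) (A.e i x) v) a * conj (w b) +
            v a * conj ((τ • fderiv ℂ (V.loc i) (A.e i x) w) b))) = 0 := by
    have hdV : ∀ (v : Cn n) (a : Fin n), (τ • fderiv ℂ (V.loc i) (A.e i x) v) a =
        τ * ∑ c, v c * wd (false, c) (fun z => V.loc i z a) (A.e i x) := by
      intro v a
      have h1 : fderiv ℂ (fun z => V.loc i z a) (A.e i x) v = fderiv ℂ (V.loc i) (A.e i x) v a := by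
        have h2 := ((EuclideanSpace.proj a : Cn n →L[ℂ] ℂ).hasFDerivAt).comp (A.e i x)
          (V_diff V i hz).hasFDerivAt
        have h3 : fderiv ℂ (fun z => V.loc i z a) (A.e i x) = _ := h2.fderiv
        rw [h3]
        rfl
      have h2 : v = ∑ c, v c • (EuclideanSpace.single c (1 : ℂ) : Cn n) := by
        ext b
        simp [Finset.sum_apply, Pi.single_apply]
      have h4 : fderiv ℂ (fun z => V.loc i z a) (A.e i x) v =
          ∑ c, v c * fderiv ℂ (fun z => V.loc i z a) (A.e i x) (EuclideanSpace.single c 1) := by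
        conv_lhs => rw [h2]
        simp only [map_sum, map_smul, smul_eq_mul]
      change τ * (fderiv ℂ (V.loc i) (A.e i x) v a) = _
      rw [← h1, h4]
      congr 1
      refine Finset.sum_congr rfl fun c _ => ?_
      rw [wd_hol' (V_diff_comp V i hz a)]
    have hdg : ∀ a b, fderiv ℝ (fun w => K.g i ((A.e i).symm w) a b) (A.e i x) (τ • V.X i x) =
        (∑ c, conj (τ * V.X i x c) * wd (true, c) (fun w => K.g i ((A.e i).symm w) a b) (A.e i x)) +
        ∑ c, (τ * V.X i x c) * wd (false, c) (fun w => K.g i ((A.e i).symm w) a b) (A.e i x) := by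
      intro a b
      rw [apply_eq_sum, sum_WI]
      rfl
    simp only [hdg, hdV]
    refine alg (V := fun c => V.X i x c) (v := fun c => v c) (w := fun c => w c)
      (g := fun a b => K.g i x a b)
      (P := fun a b c => wd (false, c) (fun w => K.g i ((A.e i).symm w) a b) (A.e i x))
      (Q := fun a b c => wd (true, c) (fun w => K.g i ((A.e i).symm w) a b) (A.e i x))
      (dV := fun c a => wd (false, c) (fun z => V.loc i z a) (A.e i x)) τ ?_ ?_ ?_ ?_
    · exact fun a b c => K.closed i _ hz a b c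
    · exact fun a b c => K.closed' i _ hz a b c
    · intro c b
      have := par_eq hV i hz c b
      simpa only [(A.e i).left_inv hi, V.loc_e hi] using this
    · intro c a
      have := par_eq' hV i hz c a
      simpa only [(A.e i).left_inv hi, V.loc_e hi] using this
  rw [hzero] at key
  refine key.congr_of_eventuallyEq ?_
  filter_upwards [hev] with s hs
  rw [pl_eq K (F.holM _) hi hs, hf_eq, (A.e i).left_inv hs]
  refine Finset.sum_congr rfl fun a _ => Finset.sum_congr rfl fun b _ => ?_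
  ring

theorem pl_const (hV : Par K V) (τ : ℂ) {i : A.ι} {x : M} (hi : x ∈ (A.e i).source)
    (v w : Cn n) : pl K (F.Φ τ) i x v w = hf K i x v w := by
  have h1 : ∀ s : ℝ, HasDerivAt (fun s : ℝ => pl K (F.Φ ((s : ℂ) * τ)) i x v w) 0 s := by
    intro s
    obtain ⟨j, hj⟩ := A.cover (F.Φ ((s : ℂ) * τ) x)
    have h2 := deriv_zero F hV τ hj (tm A A (F.Φ ((s : ℂ) * τ)) i j x v)
      (tm A A (F.Φ ((s : ℂ) * τ)) i j x w)
    have h3 : HasDerivAt (fun u : ℝ => pl K (F.Φ ((u : ℂ) * τ)) j (F.Φ ((s : ℂ) * τ) x)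
        (tm A A (F.Φ ((s : ℂ) * τ)) i j x v) (tm A A (F.Φ ((s : ℂ) * τ)) i j x w)) 0 (s - s) := by
      rw [sub_self]; exact h2
    have h4 := h3.comp_sub_const s s
    have h5 : (fun u : ℝ => pl K (F.Φ (((u - s : ℝ) : ℂ) * τ)) j (F.Φ ((s : ℂ) * τ) x)
        (tm A A (F.Φ ((s : ℂ) * τ)) i j x v) (tm A A (F.Φ ((s : ℂ) * τ)) i j x w)) =
        fun u : ℝ => pl K (F.Φ ((u : ℂ) * τ)) i x v w := by
      funext u
      rw [← pl_comp K (F.holM _) (F.holM _) hi hj]
      have : F.Φ (((u - s : ℝ) : ℂ) * τ) ∘ F.Φ ((s : ℂ) * τ) = F.Φ ((u : ℂ) * τ) := by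
        funext y
        rw [comp_apply, ← F.add]
        congr 1
        push_cast
        ring
      rw [this]
    exact h5 ▸ h4
  have h6 := is_const_of_deriv_eq_zero (fun s => (h1 s).differentiableAt)
    (fun s => (h1 s).deriv) 1 0
  simp only [ofReal_one, one_mul, ofReal_zero, zero_mul] at h6
  rw [h6, funext F.zero]
  change pl K id i x v w = _
  rw [pl_eq K holM_id hi hi, tm_id_self hi]
  rfl

/-- **flows of parallel holomorphic vector fields are isometric** -/
theorem _root_.Crest.Agent.R273.HFlow4_376.Flow.isom (hV : Par K V) (t : ℂ) :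
    Isom K K (F.Φ t) := by
  refine ⟨F.holM t, fun i j x hi hj v w => ?_⟩
  rw [← pl_eq K (F.holM t) hi hj, pl_const F hV t hi]

/-- actions of parallel commuting fields are isometric -/
theorem _root_.Crest.Agent.R273.HFlow6_376.MFlow.isom {g : ℕ} {V : Fin g → HVF A} (F : MFlow V)
    (hV : ∀ k, Par K (V k)) (c : Fin g → ℂ) : Isom K K (F.Φ c) := by
  refine MFlow.induct (fun c => Isom K K (F.Φ c)) ?_ ?_ c
  · have : F.Φ 0 = id := funext F.zero
    rw [this]
    exact isom_id K
  · intro k s c ih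
    have : F.Φ (Pi.single k s + c) = F.Φ (Pi.single k s) ∘ F.Φ c := funext fun x => F.add _ _ x
    rw [this]
    exact ((F.flow k).isom (hV k) s).comp ih

end

end Crest.Agent.R273.HFlow8_376
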