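import Mathlib.LinearAlgebra.Dual.Lemmas
import Mathlib.LinearAlgebra.Complex.FiniteDimensional
import Mathlib.Analysis.Complex.Basic

/-!
# R273 (S0416), leaf D.14 (helper578): abstract linear algebra of Hodge duality

* `dual_abs` : if the classes of `G v` exhaust the cohomology, those of `C v` exhaust the dual one
* `inj_abs`  : `C v` exact ⇒ `v = 0`
* `perf`     : a pairing which is injective on one side and has equal dimensions is perfect
-/

set_option autoImplicit false
set_option linter.unusedSectionVars false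

namespace Crest.Agent.R273.HodgeAbs_578

open ComplexConjugate

variable {Z Z' V : Type*} [AddCommGroup Z] [Module ℂ Z] [AddCommGroup Z'] [Module ℂ Z']
  [AddCommGroup V] [Module ℂ V]

/-- Riesz in finite dimensions for a sesquilinear pairing `b u v`, linear in `u`, conjugate linear
in `v`, with `b v v = 0 → v = 0` -/
theorem riesz_fin [FiniteDimensional ℂ V] (b : V → V → ℂ)
    (hadd1 : ∀ u u' v, b (u + u') v = b u v + b u' v) (hsmul1 : ∀ (c : ℂ) u v, b (c • u) v = c * b u v)
    (hadd2 : ∀ u v v', b u (v + v') = b u v + b u v')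
    (hsmul2 : ∀ (c : ℂ) u v, b u (c • v) = conj c * b u v) (hpos : ∀ v, b v v = 0 → v = 0)
    (l : V →ₗ[ℂ] ℂ) : ∃ v, ∀ u, b u v = l u := by
  let Φ : V →ₗ[ℝ] (V →ₗ[ℂ] ℂ) :=
    { toFun := fun v =>
        { toFun := fun u => b u v
          map_add' := fun u u' => hadd1 u u' v
          map_smul' := fun c u => hsmul1 c u v }
      map_add' := fun v v' => LinearMap.ext fun u => hadd2 u v v'
      map_smul' := fun r v => LinearMap.ext fun u => by
        have h1 := hsmul2 (r : ℂ) u v
        rw [Complex.conj_ofReal] at h1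
        have h2 : (r • v : V) = ((r : ℂ) • v : V) := (Complex.coe_smul r v).symm
        simp only [LinearMap.coe_mk, AddHom.coe_mk, RingHom.id_apply, LinearMap.smul_apply]
        rw [h2, h1, Complex.real_smul] }
  have hinj : Function.Injective Φ := by
    rw [injective_iff_map_eq_zero]
    intro v hv
    exact hpos v (congrArg (fun f : V →ₗ[ℂ] ℂ => f v) hv)
  have : FiniteDimensional ℝ V := FiniteDimensional.complexToReal V
  have : FiniteDimensional ℝ (V →ₗ[ℂ] ℂ) := FiniteDimensional.complexToReal _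
  have hdim : Module.finrank ℝ V = Module.finrank ℝ (V →ₗ[ℂ] ℂ) := by
    rw [finrank_real_of_complex, finrank_real_of_complex]
    congr 1
    exact (Subspace.dual_finrank_eq (K := ℂ) (V := V)).symm
  obtain ⟨v, hv⟩ := (LinearMap.injective_iff_surjective_of_finrank_eq_finrank hdim).1 hinj l
  exact ⟨v, fun u => congrArg (fun f : V →ₗ[ℂ] ℂ => f u) hv⟩

/-- D2*, second half -/
theorem dual_abs [FiniteDimensional ℂ V] {d : Z →ₗ[ℂ] Z} {d' : Z' →ₗ[ℂ] Z'}
    {pr : Z →ₗ[ℂ] Z' →ₗ[ℂ] ℂ} (hadj : ∀ u w, pr (d u) w = pr u (d' w))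
    (G : V →ₗ[ℂ] Z) (C : V → Z') (hCadd : ∀ v v', C (v + v') = C v + C v')
    (hCsmul : ∀ (c : ℂ) v, C (c • v) = conj c • C v)
    (hC : ∀ v, d' (C v) = 0) (hpos : ∀ v, pr (G v) (C v) = 0 → v = 0)
    (Zq : Z → Prop) (D2 : ∀ z, Zq z → ∃ v y, d y = z - G v)
    (Zq' : Submodule ℂ Z') (hCZ : ∀ v, C v ∈ Zq') (hZ' : ∀ w ∈ Zq', d' w = 0)
    (EX' : ∀ w ∈ Zq', (∀ z, Zq z → pr z w = 0) → ∃ y, d' y = w)
    {w : Z'} (hw : w ∈ Zq') : ∃ v y, d' y = w - C v := by
  obtain ⟨v, hv⟩ := riesz_fin (V := V) (fun u v => pr (G u) (C v))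
    (fun u u' v => by simp only [map_add, LinearMap.add_apply])
    (fun c u v => by simp only [map_smul, LinearMap.smul_apply, smul_eq_mul])
    (fun u v v' => by rw [hCadd, map_add])
    (fun c u v => by rw [hCsmul, map_smul, smul_eq_mul]) hpos
    ((LinearMap.flip pr w).comp G)
  have hv' : ∀ u, pr (G u) (w - C v) = 0 := by
    intro u
    rw [map_sub, sub_eq_zero]
    exact (hv u).symm
  obtain ⟨y, hy⟩ := EX' (w - C v) (Zq'.sub_mem hw (hCZ v)) fun z hz => by
    obtain ⟨u, y, hy⟩ := D2 z hz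
    have e : z = G u + d y := by rw [hy]; abel
    rw [e, map_add, LinearMap.add_apply, hv' u, hadj, map_sub, hZ' w hw, hC v, sub_zero, map_zero,
      add_zero]
  exact ⟨v, y, hy⟩

/-- `C v` exact implies `v = 0` -/
theorem inj_abs {d : Z →ₗ[ℂ] Z} {d' : Z' →ₗ[ℂ] Z'} {pr : Z →ₗ[ℂ] Z' →ₗ[ℂ] ℂ}
    (hadj : ∀ u w, pr (d u) w = pr u (d' w)) (G : V → Z) (C : V → Z')
    (hG : ∀ v, d (G v) = 0) (hpos : ∀ v, pr (G v) (C v) = 0 → v = 0) {v : V} {y : Z'}
    (h : d' y = C v) : v = 0 := by
  apply hpos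
  rw [← h, ← hadj, hG, map_zero, LinearMap.zero_apply]

/-- a pairing injective on one side with equal dimensions is perfect on the other side -/
theorem perf {K V W : Type*} [Field K] [AddCommGroup V] [Module K V] [AddCommGroup W]
    [Module K W] [FiniteDimensional K V] [FiniteDimensional K W] (b : V →ₗ[K] W →ₗ[K] K)
    (h : ∀ v, b v = 0 → v = 0) (hdim : Module.finrank K V = Module.finrank K W)
    (l : W →ₗ[K] K) : ∃ v, b v = l := by
  have hinj : Function.Injective b := (injective_iff_map_eq_zero b).2 h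
  have hd : Module.finrank K V = Module.finrank K (W →ₗ[K] K) :=
    hdim.trans (Subspace.dual_finrank_eq (K := K) (V := W)).symm
  exact (LinearMap.injective_iff_surjective_of_finrank_eq_finrank hd).1 hinj l

theorem perf_one {K V W : Type*} [Field K] [AddCommGroup V] [Module K V] [AddCommGroup W]
    [Module K W] [FiniteDimensional K V] [FiniteDimensional K W] (b : V →ₗ[K] W →ₗ[K] K)
    (h : ∀ v, b v = 0 → v = 0) (hdim : Module.finrank K V = Module.finrank K W)
    {w : W} (hw : w ≠ 0) : ∃ v, b v w = 1 := by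
  obtain ⟨l, hl⟩ : ∃ l : W →ₗ[K] K, l w = 1 := by
    by_contra hcon
    push Not at hcon
    apply hw
    rw [← Module.forall_dual_apply_eq_zero_iff K w]
    intro f
    by_contra hf
    exact hcon ((f w)⁻¹ • f) (by simp [hf])
  obtain ⟨v, hv⟩ := perf b h hdim l
  exact ⟨v, by rw [hv, hl]⟩

end Crest.Agent.R273.HodgeAbs_578
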