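import Crest.Agent.R273.HolF_578
import Crest.Agent.R273.HodgeAbs_578
import Crest.Agent.R273.DnInt_505

/-!
# R273 (S0416), leaf D.14 (helper578): conjugates of holomorphic forms, the pairing integral

* `cjS β : Sec (BN 1)`  : the conjugate of a holomorphic `p`-form, a `(0,p)`-form
* `pr_cjS`              : `pr (cjS β) (w S⁻¹ conj v) = IntP (w conj ⟨β, v⟩)`
* `pr_cjS_const`        : `= conj c * IntP w` if `⟨β, v⟩ = c`
-/

set_option autoImplicit false
set_option linter.unusedSectionVars false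

open Set Filter Topology Complex Matrix
open scoped ContDiff Matrix ComplexConjugate Manifold ComplexOrder

namespace Crest.Agent.R273.HPair_578

open Crest.Agent.R275.Geo Crest.Agent.R275.Core144 Crest.Agent.R275.Kos798
open Crest.Agent.R275.Pai323 (pr dn)
open Crest.Agent.R273.Defs_333 Crest.Agent.R273.HM_333 Crest.Agent.R273.Kah_333
open Crest.Agent.R273.Fock_243 (FI Gam eW iW ep)
open Crest.Agent.R273.Wdg_578 Crest.Agent.R273.NV_578 Crest.Agent.R273.HolF_578
open Crest.Agent.R273.Berezin_505 (Sb Sbi epsn)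
open Crest.Agent.R273.LamN127 (BN DN lamN Jb)
open Crest.Agent.R273.DnInt_505 (IntP)

noncomputable section

variable {n : ℕ} {M : Type} [TopologicalSpace M] {A : Atl n M}

/-- entries of `(P ⊗ Q) v` with `Q` of size one -/
theorem kron_unit_mulVec (P : Matrix (FI n) (FI n) ℂ) (Q : Matrix Unit Unit ℂ)
    (v : FI n × Unit → ℂ) (T : FI n) :
    (Matrix.kroneckerMap (· * ·) P Q *ᵥ v) (T, ()) =
      Q () () * (P *ᵥ fun S => v (S, ())) T := by
  simp only [Matrix.mulVec, dotProduct, Fintype.sum_prod_type, Matrix.kroneckerMap_apply,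
    Finset.univ_unique, Finset.sum_singleton, Finset.mul_sum]
  exact Finset.sum_congr rfl fun S _ => by
    show P T S * Q () () * v (S, ()) = _
    ring

/-- the conjugate of a holomorphic form -/
def cjS {p : ℕ} (β : Om A p) : Sec (BN (1 : LB A)) :=
  ⟨fun i x k => conj (β.1 i x k.1), by
    obtain ⟨h1, h2, h3, h4⟩ := β.2
    refine ⟨fun i k => ?_, fun i x hx => ?_, fun i j x hx => ?_⟩
    · have h5 : ContDiffOn ℝ ∞ (fun z => β.1 i ((A.e i).symm z) k.1) (A.e i).target := by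
        have := (h1 i k.1).contDiffOn isOpen_univ
        simpa using this
      exact conjCLE.contDiff.comp_contDiffOn h5
    · funext k
      have h5 : β.1 i x = 0 := h2 i x hx
      show conj (β.1 i x k.1) = 0
      rw [h5]
      exact map_zero _
    · funext k
      obtain ⟨T, u⟩ := k
      have e := kron_unit_mulVec (Gam (Jb A i j x)) ((1 : LB A).toVB.g i j x)
        (fun k => conj (β.1 j x k.1)) T
      have e1 : ((1 : LB A).toVB.g i j x) () () = 1 := rfl
      rw [e1, one_mul] at e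
      refine Eq.trans ?_ e.symm
      have e5 : conj (β.1 i x T) = ∑ S, conj (Gam (Jm A i j x)ᵀ T S) * conj (β.1 j x S) := by
        rw [h4 i j x hx]
        simp only [Matrix.mulVec, dotProduct, map_sum, map_mul]
      refine e5.trans ?_
      refine Finset.sum_congr rfl fun S _ => ?_
      congr 1
      have e3 := Fock_243.Gam_map (starRingEnd ℂ) (Jm A i j x)ᵀ
      have e4 := congrFun (congrFun e3 T) S
      exact e4⟩

@[simp] theorem cjS_apply {p : ℕ} (β : Om A p) (i : A.ι) (x : M) (k : FI n × Unit) :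
    (cjS β).1 i x k = conj (β.1 i x k.1) := rfl

theorem cjS_add {p : ℕ} (β β' : Om A p) : cjS (β + β') = cjS β + cjS β' := by
  apply Subtype.ext
  funext i x k
  show conj (β.1 i x k.1 + β'.1 i x k.1) = conj (β.1 i x k.1) + conj (β'.1 i x k.1)
  rw [map_add]

theorem cjS_smul {p : ℕ} (c : ℂ) (β : Om A p) : cjS (c • β) = conj c • cjS β := by
  apply Subtype.ext
  funext i x k
  show conj (c * β.1 i x k.1) = conj c * conj (β.1 i x k.1)
  rw [map_mul]

/-- `cjS β` has degree `p` -/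
theorem pqL_cjS {p : ℕ} (β : Om A p) : pqL (BN (1 : LB A)) p (cjS β) = cjS β := by
  obtain ⟨h1, h2, h3, h4⟩ := β.2
  apply Subtype.ext
  funext i x k
  rw [pqL_coe, pq_apply]
  obtain ⟨T, u⟩ := k
  have h5 : (BN (1 : LB A)).deg (T, u) = Finset.card (α := Fin n) T := rfl
  rw [h5]
  split_ifs with h
  · rfl
  · have h6 : β.1 i x T = 0 := h3 i x T h
    show 0 = conj (β.1 i x T)
    rw [h6, map_zero]

section compact

variable [CompactSpace M] [T2Space M] [Finite A.ι]

/-- the pairing integral -/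
theorem pr_cjS (P : Part A) {p : ℕ} (β : Om A p) {v : A.ι → M → FI n → ℂ} {N' : LB A}
    (D : Crest.Agent.R275.SerG398.DPair (BN (1 : LB A)) (BN N'))
    (hS : D.S = Matrix.kroneckerMap (· * ·) (Sb ℂ n) (1 : Matrix Unit Unit ℂ))
    (w : Sec (BN N')) (om : A.ι → M → ℂ)
    (hw : ∀ i, ∀ x ∈ (A.e i).source, ∀ T, w.1 i x (T, ()) =
      om i x * (Sbi ℂ n *ᵥ fun T => conj (v i x T)) T) :
    pr D P (cjS β) w = IntP P (fun i x => om i x * conj (ctr β.1 v i x)) := by
  rw [DnInt_505.pr_eq_IntP]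
  refine DnInt_505.IntP_congr P fun i x hx => ?_
  have e0 : ∀ T : FI n, (D.S *ᵥ w.1 i x) (T, ()) = om i x * conj (v i x T) := by
    intro T
    have e1 : (fun S : FI n => w.1 i x (S, ())) =
        om i x • (Sbi ℂ n *ᵥ fun T => conj (v i x T)) := by
      funext S
      rw [hw i x hx S]
      rfl
    have e2 : (Sb ℂ n *ᵥ (fun S : FI n => w.1 i x (S, ()))) T = om i x * conj (v i x T) := by
      rw [e1, Matrix.mulVec_smul, Matrix.mulVec_mulVec, Berezin_505.Sb_mul_Sbi,
        Matrix.one_mulVec]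
      simp
    have e3 : (1 : Matrix Unit Unit ℂ) () () = 1 := rfl
    have e4 : D.S *ᵥ w.1 i x = Matrix.kroneckerMap (· * ·) (Sb ℂ n)
        (1 : Matrix Unit Unit ℂ) *ᵥ w.1 i x := by rw [hS]; rfl
    have e5 := kron_unit_mulVec (Sb ℂ n) (1 : Matrix Unit Unit ℂ) (w.1 i x) T
    calc (D.S *ᵥ w.1 i x) (T, ()) = (Matrix.kroneckerMap (· * ·) (Sb ℂ n)
        (1 : Matrix Unit Unit ℂ) *ᵥ w.1 i x) (T, ()) := congrFun e4 (T, ())
      _ = (1 : Matrix Unit Unit ℂ) () () * (Sb ℂ n *ᵥ (fun S : FI n => w.1 i x (S, ()))) T := e5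
      _ = _ := by rw [e2, e3, one_mul]
  show (cjS β).1 i x ⬝ᵥ (D.S *ᵥ w.1 i x) = _
  have e2 : (cjS β).1 i x ⬝ᵥ (D.S *ᵥ w.1 i x) =
      ∑ T : FI n, conj (β.1 i x T) * (om i x * conj (v i x T)) := by
    have e3 : (cjS β).1 i x ⬝ᵥ (D.S *ᵥ w.1 i x) =
        ∑ k : FI n × Unit, (cjS β).1 i x k * (D.S *ᵥ w.1 i x) k := rfl
    rw [e3, Fintype.sum_prod_type]
    refine Finset.sum_congr rfl fun T _ => ?_
    rw [Finset.univ_unique, Finset.sum_singleton]
    show conj (β.1 i x T) * (D.S *ᵥ w.1 i x) (T, ()) = _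
    rw [e0 T]
  rw [e2]
  simp only [ctr, map_sum, map_mul, Finset.mul_sum]
  exact Finset.sum_congr rfl fun T _ => by ring

theorem pr_cjS_const (P : Part A) {p : ℕ} (β : Om A p) {v : A.ι → M → FI n → ℂ} {N' : LB A}
    (D : Crest.Agent.R275.SerG398.DPair (BN (1 : LB A)) (BN N'))
    (hS : D.S = Matrix.kroneckerMap (· * ·) (Sb ℂ n) (1 : Matrix Unit Unit ℂ))
    (w : Sec (BN N')) (om : A.ι → M → ℂ)
    (hw : ∀ i, ∀ x ∈ (A.e i).source, ∀ T, w.1 i x (T, ()) =
      om i x * (Sbi ℂ n *ᵥ fun T => conj (v i x T)) T) {c : ℂ}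
    (hc : ∀ i, ∀ x ∈ (A.e i).source, ctr β.1 v i x = c) :
    pr D P (cjS β) w = conj c * IntP P om := by
  rw [pr_cjS P β D hS w om hw, ← DnInt_505.IntP_const_mul]
  refine DnInt_505.IntP_congr P fun i x hx => ?_
  rw [hc i x hx]
  ring

theorem DN_S (N : LB A) : (DN N).S = Matrix.kroneckerMap (· * ·) (Sb ℂ n)
    (1 : Matrix Unit Unit ℂ) := rfl

end compact

end

end Crest.Agent.R273.HPair_578
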