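import Crest.Agent.R273.SerA_945
import Crest.Agent.R273.LamN_127

/-!
# R273 (S0416), Part E (helper835): finite dimension of `H⁰(M, L)`

`hs_fd : Part A → ∀ L : LB A, FiniteDimensional ℂ (HS L univ)` on a compact Hausdorff `M`
(from the finiteness of Dolbeault cohomology `BN_finite`).
-/

set_option autoImplicit false
set_option linter.unusedSectionVars false

open Set Filter Topology Complex
open scoped ContDiff Matrix ComplexConjugate Kronecker

namespace Crest.Agent.R273.HSfd_835

open Crest.Agent.R275 Crest.Agent.R275.Geo Crest.Agent.R275.Core144 Crest.Agent.R275.SerG398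
open Crest.Agent.R273.LamN127 Crest.Agent.R273.SerA_945

noncomputable section

variable {n : ℕ} {M : Type} [TopologicalSpace M] {A : Atl n M}

/-- there are no exact forms of degree zero -/
theorem bd_zero (B : FBun A) : Bd B 0 = ⊥ := by
  rw [eq_bot_iff]
  intro u hu
  obtain ⟨⟨w, hw⟩, h0⟩ := mem_Bd.1 hu
  have h1 := LinearMap.congr_fun (pqL_zero_nabL (B := B)) w
  rw [Submodule.mem_bot, ← h0, ← hw]
  exact h1

theorem embN_add (s t : Fn A) : embN (s + t) = embN s + embN t := by
  funext i x k
  show (if k.1 = ∅ then (s i x + t i x) else 0) =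
    (if k.1 = ∅ then s i x else 0) + (if k.1 = ∅ then t i x else 0)
  split_ifs
  · rfl
  · rw [add_zero]

theorem embN_smul (c : ℂ) (s : Fn A) : embN (c • s) = c • embN s := by
  funext i x k
  show (if k.1 = ∅ then (c * s i x) else 0) = c * (if k.1 = ∅ then s i x else 0)
  split_ifs
  · rfl
  · rw [mul_zero]

theorem embN_inj {s t : Fn A} (h : embN s = embN t) : s = t := by
  funext i x
  have h1 : embN s i x (∅, ()) = embN t i x (∅, ()) := by rw [h]
  simpa [embN] using h1

/-- holomorphic sections as smooth `(0,0)`-forms -/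
def embL (N : LB A) : HS N univ →ₗ[ℂ] Sec (BN N) where
  toFun s := ⟨embN s.1, (embN_mem (IsHS.smS s.2) s.2.off).1⟩
  map_add' s t := Subtype.ext (embN_add s.1 t.1)
  map_smul' c s := Subtype.ext (embN_smul c s.1)

theorem embL_inj (N : LB A) : Function.Injective (embL N) := by
  intro s t h
  exact Subtype.ext (embN_inj (congrArg Subtype.val h))

theorem embL_mem (N : LB A) (s : HS N univ) : embL N s ∈ Zd (BN N) 0 := by
  refine mem_Zd.2 ⟨Subtype.ext (Db_embN_hol s.2), Subtype.ext ?_⟩
  have hd := (embN_mem (N := N) (IsHS.smS s.2) s.2.off).2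
  refine funext fun i => funext fun x => funext fun k => ?_
  have h1 := pq_apply (B := BN N) 0 (embL N s).1 i x k
  refine h1.trans ?_
  split_ifs with h
  · rfl
  · by_contra h2
    exact h (hd i x k fun h3 => h2 h3.symm)

theorem fin_of_quot {K V : Type*} [Field K] [AddCommGroup V] [Module K V] (Z : Submodule K V)
    (h : FinS Z ⊥) : FiniteDimensional K Z := by
  unfold FinS at h
  have h0 : (⊥ : Submodule K V).submoduleOf Z = ⊥ := by
    rw [eq_bot_iff]
    intro x hx
    exact Subtype.ext hx
  rw [h0] at h
  exact Module.Finite.equiv (Submodule.quotEquivOfEqBot (⊥ : Submodule K Z) rfl)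

theorem fin_of_inj {K V W : Type*} [Field K] [AddCommGroup V] [Module K V] [AddCommGroup W]
    [Module K W] (Z : Submodule K V) (h : FiniteDimensional K Z) (f : W →ₗ[K] V)
    (hf : Function.Injective f) (hm : ∀ w, f w ∈ Z) : FiniteDimensional K W :=
  FiniteDimensional.of_injective (f.codRestrict Z hm) fun _ _ h => hf (congrArg Subtype.val h)

/-- **`H⁰(M, L)` is finite dimensional** -/
theorem hs_fd [CompactSpace M] [T2Space M] [Finite A.ι] (P : Part A) (L : LB A) :
    FiniteDimensional ℂ (HS L univ) := by
  have h1 : FinS (Zd (BN L) 0) (Bd (BN L) 0) := BN_finite P L 0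
  rw [bd_zero] at h1
  exact fin_of_inj (Zd (BN L) 0) (fin_of_quot _ h1) (embL L) (embL_inj L) (embL_mem L)

end

end Crest.Agent.R273.HSfd_835
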