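import Crest.Agent.R273.FinYD_794
import Crest.Agent.R273.PsiYD_145
import Crest.Agent.R273.RegC_844

/-!
# R273, Part A, half 1 (helper794): the section from `YD` and the weight `V0 = φ_K + u`
-/

set_option autoImplicit false
set_option linter.unusedSectionVars false

open Set Filter Topology Complex MeasureTheory
open scoped ContDiff Matrix ENNReal

namespace Crest.Agent.R273.HalfYD_794

open Crest.Agent.R275.Geo Crest.Agent.R275.Core144
open Crest.Agent.R273.SteinA_794 Crest.Agent.R273.SteinC_794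
open Crest.Agent.R273.Defs_333 (ProjD HM HM.wt HM.Semipos HasSec)
open Crest.Agent.R273.Vm_333 (vm)
open Crest.Agent.R271.Ho51 (RDom cp ch IsCh IsLeb Hol Sm mem_ch isCh_ch Levi)
open Crest.Agent.R271.W792 (lev)
open Crest.Agent.R273.Pen_93 Crest.Agent.R273.PenAlg_93 Crest.Agent.R273.PenFin_93
open Crest.Agent.R273.SolvC_93
open Crest.Agent.R273.Reg_844 (PSH)
open Crest.Agent.R273.AsmA_73 Crest.Agent.R273.FinYD_794

noncomputable section

/-- regularisation of psh functions -/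
theorem lreg_of_psh {n : ℕ} {G : Type} [TopologicalSpace G] [T2Space G]
    [RDom n G] [MeasurableSpace G] [BorelSpace G] {μ : Measure G} {Ψ : G → ℝ} (h : PSH Ψ) :
    LReg μ Ψ fun _ _ => 0 := by
  refine ⟨h.usc.measurable.aemeasurable, fun C hC => ?_⟩
  obtain ⟨U, φ, h1, h2, h3, h4, h5, h6, h7⟩ := Reg_844.exists_reg h hC
  exact ⟨U, φ, h1, h2, h3, h4, h5, Eventually.of_forall fun x hx =>
    ⟨fun k => h6 k x hx, h7 x hx⟩⟩

variable {n : ℕ} {M : Type} [TopologicalSpace M] {A : Atl n M} [CompactSpace M] [T2Space M]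
  [SecondCountableTopology M] [ConnectedSpace M] [Finite A.ι] [MeasurableSpace M] [BorelSpace M]
  {h : HM (KB A)⁻¹} {L : LB A} {hL : HM L}

/-- **half 1**, the weight `V0` as hypothesis -/
theorem half (Pt : Part A) (hs : h.Semipos) (hhL : hL.Semipos) (Y : YD h L hL)
    {μ : Measure (Mo Y.S)} (hμ : IsLeb μ) {u : M → ℝ} (hu : Measurable u) (hu0 : ∀ x, u x ≤ 0)
    (hi : ∫⁻ x, ENNReal.ofReal (Real.exp (-u x)) ∂(vm h) < ⊤) {a : ℝ} (ha : 0 < a)
    (hVc : ∀ r < Y.m, LReg μ (V0 Y u) fun x w => a * Levi (Pf (evp Y.y Y.p) (r + 1)) x w)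
    (hVc' : ∀ r < Y.m', LReg μ (V0 Y u) fun x w => a * Levi (Pf (evp Y.y Y.p') (r + 1)) x w) :
    ∃ m : ℕ, 0 < m ∧ HasSec (L ^ m) := by
  obtain ⟨Ψ, hΨ, C, hC⟩ := Crest.Agent.R273.PsiYD_145.psi_of_YD hs hhL Y
  have hΨm : Measurable Ψ := hΨ.usc.measurable
  have hC' : ∀ x, |Ψ x + Pf (evp Y.y Y.p) Y.m x - Pf (evp Y.y Y.p') Y.m' x| ≤ C := by
    intro x
    have h1 := hC x
    have h2 : Ψ x + Pf (evp Y.y Y.p) Y.m x - Pf (evp Y.y Y.p') Y.m' x =
        Ψ x - (Real.log (Bf (evp Y.y Y.p') Y.m' x) - Real.log (Bf (evp Y.y Y.p) Y.m x)) := by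
      unfold Pf
      ring
    rw [h2]
    exact h1
  obtain ⟨K0, hK0⟩ := corner_final hμ (rho_sm Y.E) (rho_compact Y.E) (rho_levi Y.E)
    (c := evp Y.y Y.p') (c' := evp Y.y Y.p) (evp_hol Y Y.p') Y.c0' (evp_hol Y Y.p) Y.c0
    (V0_meas Y hu).aemeasurable ha hVc' hVc hΨm (lreg_of_psh hΨ) hC'
    (RR_cont Y).measurable.aemeasurable
    (fun x => (le_abs_self _).trans (le_RR' Y x)) (le_RR Y)
    (hD Y Pt hμ hu hu0) (hne Y Pt hμ hu hu0 hi)
  set k := max K0 1 with hk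
  have h1 := hK0 k (le_max_left _ _)
  refine ⟨Y.j0 * (Y.e * k), ?_, final Y hμ hu hu0 hΨm hC' k h1⟩
  have h2 : 0 < k := lt_of_lt_of_le one_pos (le_max_right _ _)
  exact Nat.mul_pos Y.j0_pos (Nat.mul_pos Y.e_pos h2)

end

end Crest.Agent.R273.HalfYD_794
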