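import Crest.Agent.R275.EDRWd_890
import Crest.Agent.R273.HM_333

/-!
# R273 (S0416), Part E (helper333): complex Hessians in `ℂⁿ`

`hess u z a b = ∂_a ∂_{b̄} u (z)` (`u` real valued).
* `hess_symm`  : Hermitian
* `lev_eq`     : `lev u z v = 4 * ∑ hess u z a b v_a conj v_b`
* `hess_comp`  : composition with a holomorphic map
* `hess_log_norm` : `log |f|²` is pluriharmonic
* `wd_hess_symm`: `∂_c (hess u a b) = ∂_a (hess u c b)`
-/

set_option autoImplicit false
set_option linter.unusedSectionVars false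

open Set Filter Topology Complex
open scoped ContDiff Matrix ComplexConjugate Manifold

namespace Crest.Agent.R273.Hess_333

open Crest.Agent.R275.Geo Crest.Agent.R275.Core144 Crest.Agent.R275.EDR890
open Crest.Agent.R273.Defs_333

noncomputable section

variable {n : ℕ}

/-- a real function as a complex function -/
def cu (u : Cn n → ℝ) : Cn n → ℂ := fun z => (u z : ℂ)

/-- `∂_a ∂_{b̄} u` -/
def hess (u : Cn n → ℝ) (z : Cn n) : Matrix (Fin n) (Fin n) ℂ :=
  Matrix.of fun a b => wd (false, a) (wd (true, b) (cu u)) z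

theorem hess_apply (u : Cn n → ℝ) (z : Cn n) (a b : Fin n) :
    hess u z a b = wd (false, a) (wd (true, b) (cu u)) z := rfl

theorem contDiffAt_cu {u : Cn n → ℝ} {z : Cn n} {k : WithTop ℕ∞} (h : ContDiffAt ℝ k u z) :
    ContDiffAt ℝ k (cu u) z := Complex.ofRealCLM.contDiff.contDiffAt.comp z h

/-- conjugation of a Wirtinger component -/
theorem conj_wdL (s : WI n) (G : Cn n →L[ℝ] ℂ) :
    conj (wdL s G) = wdL (!s.1, s.2) ((conjCLE : ℂ →L[ℝ] ℂ).comp G) := by
  obtain ⟨b, a⟩ := s
  cases b <;> simp [wdL, map_ofNat (starRingEnd ℂ) 2]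

theorem conj_wd (s : WI n) {f : Cn n → ℂ} {z : Cn n} (hf : DifferentiableAt ℝ f z) :
    conj (wd s f z) = wd (!s.1, s.2) (fun w => conj (f w)) z := by
  have h : fderiv ℝ (fun w => conj (f w)) z = (conjCLE : ℂ →L[ℝ] ℂ).comp (fderiv ℝ f z) :=
    ((conjCLE : ℂ →L[ℝ] ℂ).hasFDerivAt.comp z hf.hasFDerivAt).fderiv
  rw [wd, conj_wdL, wd, h]

theorem conj_wd_real (s : WI n) {u : Cn n → ℝ} {z : Cn n} (hu : DifferentiableAt ℝ u z) :
    conj (wd s (cu u) z) = wd (!s.1, s.2) (cu u) z := by
  have h1 : DifferentiableAt ℝ (cu u) z :=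
    Complex.ofRealCLM.differentiableAt.comp z hu
  rw [conj_wd s h1]
  congr 1
  funext w
  simp [cu]

theorem conj_wd2_real (r s : WI n) {u : Cn n → ℝ} {z : Cn n} (hu : ContDiffAt ℝ ∞ u z) :
    conj (wd r (wd s (cu u)) z) = wd (!r.1, r.2) (wd (!s.1, s.2) (cu u)) z := by
  have h1 : ContDiffAt ℝ ∞ (cu u) z := contDiffAt_cu hu
  have h2 := contDiffAt_wd h1 s
  rw [conj_wd r (h2.differentiableAt (by simp))]
  apply wd_congr
  have h3 : ∀ᶠ w in 𝓝 z, DifferentiableAt ℝ u w := by
    have := (hu.of_le (m := 1) (by exact_mod_cast le_top)).eventually (by simp)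
    filter_upwards [this] with w hw
    exact hw.differentiableAt (by simp)
  filter_upwards [h3] with w hw
  exact conj_wd_real s hw

theorem hess_symm {u : Cn n → ℝ} {z : Cn n} (hu : ContDiffAt ℝ ∞ u z) (a b : Fin n) :
    conj (hess u z a b) = hess u z b a := by
  rw [hess_apply, hess_apply, conj_wd2_real _ _ hu]
  exact wd_comm (contDiffAt_cu hu) _ _

theorem hess_herm {u : Cn n → ℝ} {z : Cn n} (hu : ContDiffAt ℝ ∞ u z) :
    (hess u z).IsHermitian := by
  ext a b
  rw [Matrix.conjTranspose_apply]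
  exact hess_symm hu b a

/-- the Hermitian form of the Hessian -/
def hq (u : Cn n → ℝ) (z v : Cn n) : ℂ := ∑ a, ∑ b, hess u z a b * v a * conj (v b)

theorem fderiv_wd {f : Cn n → ℂ} {z : Cn n} (hf : ContDiffAt ℝ ∞ f z) (s : WI n) :
    fderiv ℝ (wd s f) z = (wdLc s).comp (fderiv ℝ (fderiv ℝ f) z) := by
  have h1 : DifferentiableAt ℝ (fderiv ℝ f) z :=
    (hf.fderiv_right (m := ∞) (by simp)).differentiableAt (by simp)
  exact ((wdLc s).hasFDerivAt.comp z h1.hasFDerivAt).fderiv

/-- second derivative in terms of Wirtinger derivatives -/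
theorem fderiv2_eq {f : Cn n → ℂ} {z : Cn n} (hf : ContDiffAt ℝ ∞ f z) (v w : Cn n) :
    fderiv ℝ (fderiv ℝ f) z v w = ∑ r : WI n, ∑ s : WI n, ze r v * ze s w * wd r (wd s f) z := by
  have h1 : fderiv ℝ (fderiv ℝ f) z v w = ∑ s : WI n, ze s w • wdL s (fderiv ℝ (fderiv ℝ f) z v) :=
    apply_eq_sum _ w
  rw [h1, Finset.sum_comm]
  refine Finset.sum_congr rfl fun s _ => ?_
  have h2 : wdL s (fderiv ℝ (fderiv ℝ f) z v) = fderiv ℝ (wd s f) z v := by
    rw [fderiv_wd hf s]; rfl
  rw [h2, apply_eq_sum (fderiv ℝ (wd s f) z) v, Finset.smul_sum]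
  refine Finset.sum_congr rfl fun r _ => ?_
  simp only [smul_eq_mul, wd]
  ring

theorem fderiv2_cu {u : Cn n → ℝ} {z : Cn n} (hu : ContDiffAt ℝ ∞ u z) (v w : Cn n) :
    fderiv ℝ (fderiv ℝ (cu u)) z v w = ((fderiv ℝ (fderiv ℝ u) z v w : ℝ) : ℂ) := by
  have h1 : fderiv ℝ (cu u) =ᶠ[𝓝 z] fun y => Complex.ofRealCLM.comp (fderiv ℝ u y) := by
    have := (hu.of_le (m := 1) (by exact_mod_cast le_top)).eventually (by simp)
    filter_upwards [this] with y hy
    exact (Complex.ofRealCLM.hasFDerivAt.comp y (hy.differentiableAt (by simp)).hasFDerivAt).fderiv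
  have h2 : HasFDerivAt (fderiv ℝ u) (fderiv ℝ (fderiv ℝ u) z) z :=
    ((hu.fderiv_right (m := ∞) (by simp)).differentiableAt (by simp)).hasFDerivAt
  have h3 := (hasFDerivAt_const (Complex.ofRealCLM) z).clm_comp h2
  have h4 : fderiv ℝ (fun y => Complex.ofRealCLM.comp (fderiv ℝ u y)) z = _ := h3.fderiv
  rw [h1.fderiv_eq, h4]
  simp

theorem sum_WI {α : Type*} [AddCommMonoid α] (f : WI n → α) :
    ∑ s : WI n, f s = (∑ a, f (true, a)) + ∑ a, f (false, a) := by
  rw [Fintype.sum_prod_type, Fintype.sum_bool]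

/-- the Levi form is the Hermitian form of the Hessian -/
theorem lev_eq {u : Cn n → ℝ} {z : Cn n} (hu : ContDiffAt ℝ ∞ u z) (v : Cn n) :
    ((lev u z v : ℝ) : ℂ) = 4 * hq u z v := by
  have h1 : ∀ w : Cn n, ((iteratedFDeriv ℝ 2 u z ![w, w] : ℝ) : ℂ) =
      ∑ r : WI n, ∑ s : WI n, ze r w * ze s w * wd r (wd s (cu u)) z := by
    intro w
    rw [iteratedFDeriv_two_apply, ← fderiv2_eq (contDiffAt_cu hu), fderiv2_cu hu]
    rfl
  unfold lev hq
  rw [ofReal_add, h1, h1, ← Finset.sum_add_distrib]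
  have h2 : ∀ r : WI n, (∑ s : WI n, ze r v * ze s v * wd r (wd s (cu u)) z) +
      (∑ s : WI n, ze r (I • v) * ze s (I • v) * wd r (wd s (cu u)) z) =
      2 * ∑ a, ze r v * ze (!r.1, a) v * wd r (wd (!r.1, a) (cu u)) z := by
    intro r
    obtain ⟨b, c⟩ := r
    rw [← Finset.sum_add_distrib, sum_WI, Finset.mul_sum]
    cases b
    · simp only [Bool.not_false]
      have e1 : ∑ a, (ze (false, c) v * ze (false, a) v * wd (false, c) (wd (false, a) (cu u)) z +
          ze (false, c) (I • v) * ze (false, a) (I • v) *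
            wd (false, c) (wd (false, a) (cu u)) z) = 0 := by
        refine Finset.sum_eq_zero fun a _ => ?_
        simp only [ze_apply, cj_false, PiLp.smul_apply, smul_eq_mul]
        linear_combination (v c * v a * wd (false, c) (wd (false, a) (cu u)) z) * I_sq
      rw [e1, add_zero]
      refine Finset.sum_congr rfl fun a _ => ?_
      simp only [ze_apply, cj_false, cj_true, PiLp.smul_apply, smul_eq_mul, map_mul, conj_I]
      linear_combination (- v c * conj (v a) * wd (false, c) (wd (true, a) (cu u)) z) * I_sq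
    · simp only [Bool.not_true]
      have e1 : ∑ a, (ze (true, c) v * ze (true, a) v * wd (true, c) (wd (true, a) (cu u)) z +
          ze (true, c) (I • v) * ze (true, a) (I • v) *
            wd (true, c) (wd (true, a) (cu u)) z) = 0 := by
        refine Finset.sum_eq_zero fun a _ => ?_
        simp only [ze_apply, cj_true, PiLp.smul_apply, smul_eq_mul, map_mul, conj_I]
        linear_combination (conj (v c) * conj (v a) * wd (true, c) (wd (true, a) (cu u)) z) * I_sq
      rw [e1, zero_add]
      refine Finset.sum_congr rfl fun a _ => ?_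
      simp only [ze_apply, cj_false, cj_true, PiLp.smul_apply, smul_eq_mul, map_mul, conj_I]
      linear_combination (- conj (v c) * v a * wd (true, c) (wd (false, a) (cu u)) z) * I_sq
  rw [Finset.sum_congr rfl fun r _ => h2 r, ← Finset.mul_sum, sum_WI]
  simp only [Bool.not_true, Bool.not_false, ze_apply, cj_true, cj_false]
  have h3 : ∑ c, ∑ a, conj (v c) * v a * wd (true, c) (wd (false, a) (cu u)) z =
      ∑ a, ∑ b, hess u z a b * v a * conj (v b) := by
    rw [Finset.sum_comm]
    refine Finset.sum_congr rfl fun a _ => Finset.sum_congr rfl fun b _ => ?_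
    rw [wd_comm (contDiffAt_cu hu), hess_apply]
    ring
  have h4 : ∑ c, ∑ a, v c * conj (v a) * wd (false, c) (wd (true, a) (cu u)) z =
      ∑ a, ∑ b, hess u z a b * v a * conj (v b) := by
    refine Finset.sum_congr rfl fun a _ => Finset.sum_congr rfl fun b _ => ?_
    rw [hess_apply]
    ring
  rw [h3, h4]
  ring

/-- the Hessian of a composition with a holomorphic map -/
theorem hess_comp {u : Cn n → ℝ} {T : Cn n → Cn n} {z : Cn n} (hu : ContDiffAt ℝ ∞ u (T z))
    (hT : ∀ᶠ w in 𝓝 z, DifferentiableAt ℂ T w) (a b : Fin n) :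
    hess (fun w => u (T w)) z a b = ∑ c, ∑ d,
      (fderiv ℂ T z (EuclideanSpace.single a 1)) c * hess u (T z) c d *
        conj ((fderiv ℂ T z (EuclideanSpace.single b 1)) d) := by
  have hTz : DifferentiableAt ℂ T z := hT.self_of_nhds
  have hTc : ContDiffAt ℝ ∞ T z := by
    obtain ⟨U, hU, hUo, hUz⟩ := eventually_nhds_iff.1 hT
    have h1 : DifferentiableOn ℂ T U := fun w hw => (hU w hw).differentiableWithinAt
    exact (((Crest.Agent.R266.SCV.contDiffOn_omega_of_differentiableOn hUo h1).restrict_scalars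
      ℝ).of_le le_top).contDiffAt (hUo.mem_nhds hUz)
  have hud : ∀ᶠ w in 𝓝 z, DifferentiableAt ℝ (cu u) (T w) := by
    have h1 : ∀ᶠ y in 𝓝 (T z), DifferentiableAt ℝ (cu u) y := by
      have := ((contDiffAt_cu hu).of_le (m := 1) (by exact_mod_cast le_top)).eventually (by simp)
      filter_upwards [this] with y hy
      exact hy.differentiableAt (by simp)
    exact hTz.continuousAt.eventually h1
  -- the `∂̄_b` derivative near `z`
  have h1 : wd (true, b) (cu fun w => u (T w)) =ᶠ[𝓝 z] fun w => ∑ d,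
      conj ((fderiv ℂ T w (EuclideanSpace.single b 1)) d) * wd (true, d) (cu u) (T w) := by
    filter_upwards [hT, hud] with w hw hw'
    exact wd_comp (f := cu u) hw' hw (true, b)
  rw [hess_apply, wd_congr h1]
  -- derivatives of the Jacobian entries
  have hJ : ∀ d : Fin n, ContDiffAt ℝ ∞ (fun w => (fderiv ℂ T w (EuclideanSpace.single b 1)) d) z := by
    intro d
    obtain ⟨U, hU, hUo, hUz⟩ := eventually_nhds_iff.1 hT
    have h2 : DifferentiableOn ℂ T U := fun w hw => (hU w hw).differentiableWithinAt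
    have h3 : AnalyticOnNhd ℂ (fderiv ℂ T) U :=
      (Crest.Agent.R266.SCV.analyticOnNhd_of_differentiableOn hUo h2).fderiv
    have h4 : DifferentiableOn ℂ (fun w => (fderiv ℂ T w (EuclideanSpace.single b 1)) d) U := by
      have h5 : DifferentiableOn ℂ (fun w => (fderiv ℂ T w (EuclideanSpace.single b 1))) U :=
        h3.differentiableOn.clm_apply (differentiableOn_const _)
      exact ((EuclideanSpace.proj d : Cn n →L[ℂ] ℂ).differentiable).comp_differentiableOn h5
    exact (((Crest.Agent.R266.SCV.contDiffOn_omega_of_differentiableOn hUo h4).restrict_scalars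
      ℝ).of_le le_top).contDiffAt (hUo.mem_nhds hUz)
  have hJb : ∀ d : Fin n, wd (false, a)
      (fun w => conj ((fderiv ℂ T w (EuclideanSpace.single b 1)) d)) z = 0 := by
    intro d
    have h2 : wd (true, a) (fun w => (fderiv ℂ T w (EuclideanSpace.single b 1)) d) z = 0 := by
      obtain ⟨U, hU, hUo, hUz⟩ := eventually_nhds_iff.1 hT
      have h2 : DifferentiableOn ℂ T U := fun w hw => (hU w hw).differentiableWithinAt
      have h3 : AnalyticOnNhd ℂ (fderiv ℂ T) U :=
        (Crest.Agent.R266.SCV.analyticOnNhd_of_differentiableOn hUo h2).fderiv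
      have h4 : DifferentiableOn ℂ (fun w => (fderiv ℂ T w (EuclideanSpace.single b 1)) d) U := by
        have h5 : DifferentiableOn ℂ (fun w => (fderiv ℂ T w (EuclideanSpace.single b 1))) U :=
          h3.differentiableOn.clm_apply (differentiableOn_const _)
        exact ((EuclideanSpace.proj d : Cn n →L[ℂ] ℂ).differentiable).comp_differentiableOn h5
      have h6 := (h4.differentiableAt (hUo.mem_nhds hUz))
      have h7 : fderiv ℝ (fun w => (fderiv ℂ T w (EuclideanSpace.single b 1)) d) z =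
        (fderiv ℂ (fun w => (fderiv ℂ T w (EuclideanSpace.single b 1)) d) z).restrictScalars ℝ :=
        h6.fderiv_restrictScalars ℝ
      have hI : (EuclideanSpace.single a I : Cn n) = I • EuclideanSpace.single a (1 : ℂ) := by
        ext c
        simp [PiLp.single_apply]
      rw [wd, wdL, h7]
      simp only [ContinuousLinearMap.coe_restrictScalars', hI, map_smul, smul_eq_mul, cI_true]
      linear_combination ((1 : ℂ) / 2 * (fderiv ℂ (fun w => (fderiv ℂ T w
        (EuclideanSpace.single b 1)) d) z) (EuclideanSpace.single a 1)) * I_sq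
    have h8 := conj_wd (true, a) ((hJ d).differentiableAt (by simp))
    rw [h2, map_zero] at h8
    exact h8.symm
  have hw2 : ∀ d : Fin n, ContDiffAt ℝ ∞ (wd (true, d) (cu u)) (T z) := fun d =>
    contDiffAt_wd (contDiffAt_cu hu) _
  have hd1 : ∀ d : Fin n, DifferentiableAt ℝ
      (fun w => conj ((fderiv ℂ T w (EuclideanSpace.single b 1)) d)) z := fun d =>
    (conjCLE : ℂ →L[ℝ] ℂ).differentiableAt.comp z ((hJ d).differentiableAt (by simp))
  have hd2 : ∀ d : Fin n, DifferentiableAt ℝ (fun w => wd (true, d) (cu u) (T w)) z := fun d =>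
    ((hw2 d).differentiableAt (by simp)).comp z (hTc.differentiableAt (by simp))
  have h9 := wd_sum Finset.univ (f := fun d w =>
      conj ((fderiv ℂ T w (EuclideanSpace.single b 1)) d) * wd (true, d) (cu u) (T w))
      (fun d _ => (hd1 d).mul (hd2 d)) (false, a)
  rw [h9, Finset.sum_comm]
  refine Finset.sum_congr rfl fun d _ => ?_
  rw [wd_mul (hd1 d) (hd2 d), hJb d, zero_mul, zero_add,
    wd_comp (f := wd (true, d) (cu u)) ((hw2 d).differentiableAt (by simp)) hTz (false, a),
    Finset.mul_sum]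
  refine Finset.sum_congr rfl fun c _ => ?_
  simp only [cj_false, smul_eq_mul, hess_apply]
  ring

end

end Crest.Agent.R273.Hess_333
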