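import Crest.Agent.R273.PiEndG_836
import Crest.Agent.R273.LamN_127
import Crest.Agent.R275.Dg1_199

/-!
# R273 (S0416), Part C, PI-END corollary (helper836)

`ZCoc.hB_ne_zero` : a non-coboundary in `ZCoc A` (real valued, locally constant) on a compact
connected `M` gives `hB (BN (1 : LB A)) 1 ≠ 0`, i.e. `H¹(M, 𝓞) ≠ 0`.
-/

set_option autoImplicit false
set_option linter.unusedSectionVars false

open Set Filter Topology Complex
open scoped ContDiff Matrix ComplexConjugate

namespace Crest.Agent.R273.PiEndH_836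

open Crest.Agent.R275 Crest.Agent.R275.Geo Crest.Agent.R275.OmT75 Crest.Agent.R275.Core144
open Crest.Agent.R275.GeoHol912 Crest.Agent.R275.Dg199 Crest.Agent.R275.SerG398
open Crest.Agent.R273.PiEnd_836 Crest.Agent.R273.LamN127 Crest.Agent.R273.Fock_243

noncomputable section

variable {n : ℕ} {M : Type} [TopologicalSpace M] {A : Atl n M}

/-- the Dolbeault complex of the trivial bundle -/
abbrev B1 (A : Atl n M) : FBun A := BN (1 : LB A)

/-- the degree zero vector with value `c` -/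
def vc (A : Atl n M) (c : ℂ) : (B1 A).κ → ℂ := fun k => if (B1 A).deg k = 0 then c else 0

theorem vc_apply (c : ℂ) (k : (B1 A).κ) :
    vc A c k = if (B1 A).deg k = 0 then c else 0 := rfl

/-- the index of degree zero -/
def k0 (A : Atl n M) : (B1 A).κ := ((∅ : Finset (Fin n)), ())

theorem deg_k0 : (B1 A).deg (k0 A) = 0 := rfl

theorem eq_k0 {k : (B1 A).κ} (h : (B1 A).deg k = 0) : k = k0 A := by
  obtain ⟨S, u⟩ := k
  have h1 : Finset.card (α := Fin n) S = 0 := h
  have h2 : S = (∅ : Finset (Fin n)) := Finset.card_eq_zero.1 h1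
  exact Prod.ext h2 rfl

@[simp] theorem vc_k0 (c : ℂ) : vc A c (k0 A) = c := if_pos deg_k0

theorem vc_of_ne {c : ℂ} {k : (B1 A).κ} (h : (B1 A).deg k ≠ 0) : vc A c k = 0 := if_neg h

theorem vc_add (c d : ℂ) : vc A (c + d) = vc A c + vc A d := by
  funext k
  show (if (B1 A).deg k = 0 then c + d else 0) = (if (B1 A).deg k = 0 then c else 0)
    + (if (B1 A).deg k = 0 then d else 0)
  split_ifs <;> simp

theorem vc_sub (c d : ℂ) : vc A (c - d) = vc A c - vc A d := by
  funext k
  show (if (B1 A).deg k = 0 then c - d else 0) = (if (B1 A).deg k = 0 then c else 0)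
    - (if (B1 A).deg k = 0 then d else 0)
  split_ifs <;> simp

theorem tau_k0 (i j : A.ι) (x : M) (k : (B1 A).κ) :
    (B1 A).τ i j x k (k0 A) = if (B1 A).deg k = 0 then 1 else 0 := by
  obtain ⟨S, u⟩ := k
  have h1 : (B1 A).τ i j x (S, u) (k0 A) = Gam (Jb A i j x) S ∅ * 1 := rfl
  have h3 : (B1 A).deg (S, u) = Finset.card (α := Fin n) S := rfl
  by_cases hS : Finset.card (α := Fin n) S = 0
  · have h5 : S = (∅ : Finset (Fin n)) := Finset.card_eq_zero.1 hS
    rw [if_pos (h3.trans hS), h1, mul_one]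
    exact (Gam_vac _ _).trans (if_pos h5)
  · have h5 : ¬ S = (∅ : Finset (Fin n)) := fun h => hS (Finset.card_eq_zero.2 h)
    rw [if_neg (fun h => hS (h3.symm.trans h)), h1, mul_one]
    exact (Gam_vac _ _).trans (if_neg h5)

theorem tau_vc (i j : A.ι) (x : M) (c : ℂ) : (B1 A).τ i j x *ᵥ vc A c = vc A c := by
  funext k
  have h1 : ((B1 A).τ i j x *ᵥ vc A c) k = ∑ l, (B1 A).τ i j x k l * vc A c l := rfl
  rw [h1, Finset.sum_eq_single (k0 A)]
  · rw [tau_k0, vc_k0]
    show _ = (if (B1 A).deg k = 0 then c else 0)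
    split_ifs <;> simp
  · intro l _ hl
    rw [vc_of_ne (fun h => hl (eq_k0 h)), mul_zero]
  · intro h
    exact absurd (Finset.mem_univ _) h

theorem alpha_zero {i : A.ι} {x : M} (hx : x ∈ (A.e i).source) : (B1 A).α i x = 0 :=
  BN_α 1 i x hx

/-- the section of degree zero given by a smooth function -/
def sF (A : Atl n M) (F : M → ℂ) : A.ι → M → (B1 A).κ → ℂ :=
  open Classical in fun i x => if x ∈ (A.e i).source then vc A (F x) else 0

theorem sF_apply {F : M → ℂ} {i : A.ι} {x : M} (hx : x ∈ (A.e i).source) :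
    sF A F i x = vc A (F x) := if_pos hx

theorem sF_off {F : M → ℂ} {i : A.ι} {x : M} (hx : x ∉ (A.e i).source) :
    sF A F i x = 0 := if_neg hx

theorem vc_smAt {i : A.ι} {F : M → ℂ} (hF : A.SmAt i F) (k : (B1 A).κ) :
    A.SmAt i (fun x => vc A (F x) k) := by
  by_cases hk : (B1 A).deg k = 0
  · have : (fun x => vc A (F x) k) = F := by
      funext x; rw [eq_k0 hk, vc_k0]
    rw [this]; exact hF
  · have : (fun x => vc A (F x) k) = fun _ => 0 := by
      funext x; rw [vc_of_ne hk]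
    rw [this]; exact contDiffOn_const

theorem sF_mem {F : M → ℂ} (hF : ∀ p, SmN A F p) : sF A F ∈ Sec (B1 A) := by
  refine ⟨fun i k => ?_, fun i x hx => sF_off hx, fun i j x hx => ?_⟩
  · have h1 : A.SmAt i (fun x => vc A (F x) k) := vc_smAt (smAt_of_smN fun p _ => hF p) k
    refine ContDiffOn.congr h1 fun z hz => ?_
    simp only [sF_apply ((A.e i).map_target hz)]
  · rw [sF_apply hx.1, sF_apply hx.2, tau_vc]

theorem sF_deg {F : M → ℂ} : IsDeg (B1 A) 0 (sF A F) := by
  intro i x k hk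
  by_cases hx : x ∈ (A.e i).source
  · rw [sF_apply hx] at hk
    by_contra h
    exact hk (vc_of_ne h)
  · exact absurd (by rw [sF_off hx]; rfl) hk

section main

variable [Finite A.ι] [T2Space M] (C : ZCoc A) (P : Part A)

/-- the complexified primitive -/
def pf (i : A.ι) (x : M) : ℂ := ((C.prim P i x : ℝ) : ℂ)

theorem pf_smN {i : A.ι} {p : M} (hp : p ∈ (A.e i).source) : SmN A (pf C P i) p :=
  SmN.ofReal (SmAt.smN (C.prim_sm P i) hp)

/-- the `(0,1)`-form `∂̄ f i` -/
def uF : A.ι → M → (B1 A).κ → ℂ :=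
  open Classical in fun i x => if x ∈ (A.e i).source then
    ∑ a, (B1 A).e a *ᵥ (A.db i a (fun y => vc A (pf C P i y)) x) else 0

theorem uF_apply {i : A.ι} {x : M} (hx : x ∈ (A.e i).source) :
    uF C P i x = ∑ a, (B1 A).e a *ᵥ (A.db i a (fun y => vc A (pf C P i y)) x) := by
  exact if_pos hx

theorem uF_off {i : A.ι} {x : M} (hx : x ∉ (A.e i).source) : uF C P i x = 0 := if_neg hx

theorem dbj_add_const' {W : Type*} [NormedAddCommGroup W] [NormedSpace ℂ W] {f : Cn n → W}
    (c : W) (z : Cn n) (a : Fin n) : dbj a (fun w => f w + c) z = dbj a f z := by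
  have h : fderiv ℝ (fun w => f w + c) z = fderiv ℝ f z := fderiv_add_const c
  simp only [dbj, h]

/-- near every point the form `uF` is `∇` of a global section of degree zero -/
theorem key (p : M) : ∃ F : M → ℂ, (∀ q, SmN A F q) ∧
    (∀ j, p ∈ (A.e j).source → ∃ c : ℂ, ∀ᶠ x in 𝓝 p, F x = pf C P j x + c) := by
  obtain ⟨i, hi⟩ := A.cover p
  obtain ⟨φ, hφ, hφ1, hφs, -, -, -⟩ := exists_bump A ((A.e i).open_source.mem_nhds hi)
  refine ⟨fun x => (φ x : ℂ) * pf C P i x, fun q => ?_, fun j hj => ?_⟩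
  · refine smN_mul_tsupport (φ := fun x => (φ x : ℂ)) (fun q => SmN.ofReal (hφ q)) ?_ q
    intro q hq
    refine pf_smN C P (hφs ?_)
    refine closure_mono ?_ hq
    intro y hy
    rw [Function.mem_support] at hy ⊢
    intro h
    exact hy (by simp [h])
  · refine ⟨((C.c i j p : ℝ) : ℂ), ?_⟩
    have h1 := C.lc i j p ⟨hi, hj⟩
    filter_upwards [h1, hφ1, (A.e i).open_source.mem_nhds hi,
      (A.e j).open_source.mem_nhds hj] with x h1 h2 h3 h4
    have h5 := C.prim_sub P i j ⟨h3, h4⟩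
    rw [h2, ← h1, ← h5]
    simp [pf]

omit [Finite A.ι] [T2Space M] in
theorem nab_sF {F : M → ℂ} {f : M → ℂ} {j : A.ι} {p : M} (hj : p ∈ (A.e j).source) {c : ℂ}
    (h : ∀ᶠ x in 𝓝 p, F x = f x + c) :
    nab (B1 A) (sF A F) j p = ∑ a, (B1 A).e a *ᵥ (A.db j a (fun y => vc A (f y)) p) := by
  rw [nab_apply _ hj, alpha_zero hj, Matrix.zero_mulVec, add_zero]
  refine Finset.sum_congr rfl fun a _ => ?_
  congr 1
  unfold Atl.db
  rw [← dbj_add_const' (f := fun z => vc A (f ((A.e j).symm z))) (vc A c)]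
  refine dbj_congr ?_
  have h1 : ∀ᶠ x in 𝓝 ((A.e j).symm (A.e j p)), F x = f x + c ∧ x ∈ (A.e j).source := by
    rw [(A.e j).left_inv hj]
    exact h.and ((A.e j).open_source.mem_nhds hj)
  have h2 := ((A.e j).continuousAt_symm ((A.e j).map_source hj)).eventually h1
  filter_upwards [h2] with z hz
  rw [sF_apply hz.2, hz.1, vc_add]

theorem uF_ev {p : M} {F : M → ℂ}
    (hF : ∀ j, p ∈ (A.e j).source → ∃ c : ℂ, ∀ᶠ x in 𝓝 p, F x = pf C P j x + c) {j : A.ι}
    (hj : p ∈ (A.e j).source) : uF C P j =ᶠ[𝓝 p] nab (B1 A) (sF A F) j := by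
  obtain ⟨c, hc⟩ := hF j hj
  filter_upwards [hc.eventually_nhds, (A.e j).open_source.mem_nhds hj] with x hx hx'
  rw [uF_apply C P hx', nab_sF hx' hx]

theorem uF_mem : uF C P ∈ Sec (B1 A) := by
  refine ⟨fun i k => ?_, fun i x hx => uF_off C P hx, fun i j x hx => ?_⟩
  · refine smAt_of_smN fun p hp => ?_
    obtain ⟨F, hF, hF'⟩ := key C P p
    have h1 := uF_ev C P hF' hp
    have h2 : SmN A (fun x => nab (B1 A) (sF A F) i x k) p :=
      SmAt.smN ((nab_mem (B1 A) (sF_mem hF)).1 i k) hp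
    refine h2.congr ?_
    filter_upwards [h1] with x hx
    rw [hx]
  · obtain ⟨F, hF, hF'⟩ := key C P x
    rw [(uF_ev C P hF' hx.1).self_of_nhds, (uF_ev C P hF' hx.2).self_of_nhds]
    exact Sec.tr (B1 A) (nab_mem (B1 A) (sF_mem hF)) hx

theorem nab_uF (x : M) (i : A.ι) : nab (B1 A) (uF C P) i x = 0 := by
  by_cases hx : x ∈ (A.e i).source
  · obtain ⟨F, hF, hF'⟩ := key C P x
    rw [nab_congr (B1 A) (uF_ev C P hF' hx)]
    have h1 := nab_nab_BN (1 : LB A) ⟨sF A F, sF_mem hF⟩
    have h2 := congrFun (congrFun (congrArg Subtype.val h1) i) x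
    exact h2
  · exact nab_off _ hx

theorem uF_deg : IsDeg (B1 A) 1 (uF C P) := by
  intro i x k hk
  by_cases hx : x ∈ (A.e i).source
  · obtain ⟨F, hF, hF'⟩ := key C P x
    rw [(uF_ev C P hF' hx).self_of_nhds] at hk
    exact nab_deg (B1 A) (sF_mem hF) sF_deg i x k hk
  · exact absurd (by rw [uF_off C P hx]; rfl) hk

/-- the class of `∂̄ f i` -/
def uS : Sec (B1 A) := ⟨uF C P, uF_mem C P⟩

theorem uS_mem_Zd : uS C P ∈ Zd (B1 A) 1 := by
  rw [mem_Zd]
  refine ⟨Subtype.ext (funext fun i => funext fun x => nab_uF C P x i), ?_⟩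
  refine Subtype.ext (funext fun i => funext fun x => funext fun k => ?_)
  show pq (B1 A) 1 (uF C P) i x k = uF C P i x k
  rw [pq_apply]
  split_ifs with h
  · rfl
  · by_contra h2
    exact h (uF_deg C P i x k fun h3 => h2 h3.symm)

theorem cob_of_mem_Bd [CompactSpace M] [ConnectedSpace M] (h : uS C P ∈ Bd (B1 A) 1) : C.Cob := by
  rw [mem_Bd] at h
  obtain ⟨⟨w0, hw0⟩, h1⟩ := h
  set w := Geo.pqL (B1 A) 0 w0 with hw
  have hwu : nabL (B1 A) w = uS C P := by
    have h2 := LinearMap.congr_fun (nabL_pqL (B := B1 A) 0) w0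
    simp only [LinearMap.comp_apply] at h2
    rw [hw, h2, hw0]
    exact h1
  have hdeg : IsDeg (B1 A) 0 w.1 := by
    intro i x k hk
    have h3 : w.1 i x k = pq (B1 A) 0 w0.1 i x k := rfl
    rw [h3, pq_apply] at hk
    by_contra h4
    exact hk (if_neg h4)
  -- the global function
  set g : M → ℂ := fun x => w.1 ((A.cover x).choose) x (k0 A) with hg
  have hgi : ∀ i x, x ∈ (A.e i).source → w.1 i x = vc A (g x) := by
    intro i x hx
    have h4 : ∀ j, x ∈ (A.e j).source → w.1 j x = vc A (w.1 j x (k0 A)) := by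
      intro j hj
      funext k
      by_cases hk : (B1 A).deg k = 0
      · rw [eq_k0 hk, vc_k0]
      · rw [vc_of_ne hk]
        by_contra h5
        exact hk (hdeg j x k h5)
    have hc := (A.cover x).choose_spec
    rw [Sec.tr (B1 A) w.2 ⟨hx, hc⟩, h4 _ hc, tau_vc]
  have hgS : A.Sm g := by
    intro i
    have h5 := w.2.1 i (k0 A)
    refine ContDiffOn.congr h5 fun z hz => ?_
    have h6 := congrFun (hgi i _ ((A.e i).map_target hz)) (k0 A)
    rw [vc_k0] at h6
    exact h6.symm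
  refine C.cob_of_exact (f := C.prim P) (g := g) (C.prim_sm P) (fun i j x hx => C.prim_sub P i j hx)
    hgS fun i x hx a => ?_
  obtain ⟨F, hF, hF'⟩ := key C P x
  obtain ⟨c, hc⟩ := hF' i hx
  -- the difference is killed by `∇`
  have hd : (sF A (fun y => F y - g y)) ∈ Sec (B1 A) :=
    sF_mem fun q => (hF q).sub (sm_iff.1 hgS q)
  have h7 : nab (B1 A) (sF A (fun y => F y - g y)) i x = 0 := by
    have h8 : (⟨sF A (fun y => F y - g y), hd⟩ : Sec (B1 A)) = ⟨sF A F, sF_mem hF⟩ - w := by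
      refine Subtype.ext (funext fun j => funext fun y => ?_)
      show sF A (fun y => F y - g y) j y = sF A F j y - w.1 j y
      by_cases hy : y ∈ (A.e j).source
      · rw [sF_apply hy, sF_apply hy, hgi j y hy]
        exact vc_sub _ _
      · rw [Sec.off (B1 A) w.2 hy, sF_off hy, sF_off hy, sub_zero]
    have h9 : nabL (B1 A) ⟨sF A (fun y => F y - g y), hd⟩
        = nabL (B1 A) ⟨sF A F, sF_mem hF⟩ - nabL (B1 A) w := by rw [h8, map_sub]
    have h10 := congrFun (congrFun (congrArg Subtype.val h9) i) x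
    have h11 : nab (B1 A) (sF A (fun y => F y - g y)) i x
        = nab (B1 A) (sF A F) i x - (nabL (B1 A) w).1 i x := h10
    rw [h11, hwu]
    show nab (B1 A) (sF A F) i x - uF C P i x = 0
    rw [(uF_ev C P hF' hx).self_of_nhds, sub_self]
  have h12 := (nab_eq_zero_iff hd sF_deg i hx (fun _ => 0)
    (by rw [alpha_zero hx]; simp only [Matrix.mul_zero, Finset.sum_const_zero])
    (by intro a k l h; simp at h)).1 h7 a
  simp only [Matrix.zero_mulVec, add_zero] at h12
  have h13 : A.db i a (fun y => F y - g y) x = 0 := by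
    have h14 := congrFun h12 (k0 A)
    unfold Atl.db at h14
    rw [Geo.dbj_pi (sec_diffAt hd i hx)] at h14
    unfold Atl.db
    rw [Pi.zero_apply] at h14
    rw [← h14]
    refine dbj_congr ?_
    filter_upwards [(A.e i).open_target.mem_nhds ((A.e i).map_source hx)] with z hz
    rw [sF_apply ((A.e i).map_target hz), vc_k0]
  have dF : DifferentiableAt ℝ (fun z => F ((A.e i).symm z)) (A.e i x) :=
    ((smN_iff hx).1 (hF x)).differentiableAt (by simp)
  have dg : DifferentiableAt ℝ (fun z => g ((A.e i).symm z)) (A.e i x) :=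
    ((smN_iff hx).1 (sm_iff.1 hgS x)).differentiableAt (by simp)
  have h15 : A.db i a (fun y => F y - g y) x = A.db i a F x - A.db i a g x := by
    unfold Atl.db dbj
    have h16 : fderiv ℝ (fun z => F ((A.e i).symm z) - g ((A.e i).symm z)) (A.e i x)
        = fderiv ℝ (fun z => F ((A.e i).symm z)) (A.e i x)
          - fderiv ℝ (fun z => g ((A.e i).symm z)) (A.e i x) := fderiv_fun_sub dF dg
    rw [h16]
    simp only [_root_.sub_apply, smul_sub, smul_add]
    abel
  have h17 : A.db i a F x = A.db i a (fun y => ((C.prim P i y : ℝ) : ℂ)) x := by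
    unfold Atl.db
    rw [← dbj_add_const' (f := fun z => ((C.prim P i ((A.e i).symm z) : ℝ) : ℂ)) c]
    refine dbj_congr ?_
    have h1 : ∀ᶠ y in 𝓝 ((A.e i).symm (A.e i x)), F y = pf C P i y + c := by
      rw [(A.e i).left_inv hx]
      exact hc
    filter_upwards [((A.e i).continuousAt_symm ((A.e i).map_source hx)).eventually h1] with z hz
    exact hz
  rw [← h17]
  rw [h15] at h13
  exact sub_eq_zero.1 h13

include P in
/-- **`H¹(M, 𝓞) ≠ 0`** -/
theorem hB_ne_zero [CompactSpace M] [ConnectedSpace M] (hC : ¬ C.Cob) :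
    hB (BN (1 : LB A)) 1 ≠ 0 := by
  have hfin : FinS (Zd (B1 A) 1) (Bd (B1 A) 1) := BN_finite P 1 1
  unfold FinS at hfin
  intro h
  unfold hB fr at h
  have := hfin
  rw [Module.finrank_zero_iff] at h
  apply hC
  apply cob_of_mem_Bd C P
  have h1 := Submodule.Quotient.subsingleton_iff.1 h
  have h2 : (⟨uS C P, uS_mem_Zd C P⟩ : Zd (B1 A) 1) ∈ (Bd (B1 A) 1).submoduleOf (Zd (B1 A) 1) := by
    rw [h1]; trivial
  exact h2

end main

end

end Crest.Agent.R273.PiEndH_836
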