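import Crest.Agent.R273.DegOne_376
import Crest.Agent.R273.D2U_505
import Crest.Agent.R273.PiEndH_836
import Crest.Agent.R273.AlbC_645

/-!
# R273 (S0416), Part B (helper376): the Hodge decomposition of real `H¹`

`hodgeZ` : 645's hypothesis `HodgeZ A P` holds on every compact `(M, K)` with `Ric ≥ 0`.
-/

set_option autoImplicit false
set_option linter.unusedSectionVars false

open Set Filter Topology Complex
open scoped ContDiff Matrix ComplexConjugate ComplexOrder

namespace Crest.Agent.R273.HodZ_376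

open Crest.Agent.R275 Crest.Agent.R275.Geo Crest.Agent.R275.Core144 Crest.Agent.R275.EDR890
open Crest.Agent.R275.OmT75
open Crest.Agent.R273.Defs_333 Crest.Agent.R273.Hess_333 Crest.Agent.R273.HessB_333
open Crest.Agent.R273.Kah_333 Crest.Agent.R273.Vol_333
open Crest.Agent.R273.HFlow3_376 Crest.Agent.R273.HFlow7_376 Crest.Agent.R273.HFlow8_376
open Crest.Agent.R273.NoHVF_376 Crest.Agent.R273.Fock_243 Crest.Agent.R273.NV_578
open Crest.Agent.R273.DegOne_376 Crest.Agent.R273.DMet_733 Crest.Agent.R273.LamN127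
open Crest.Agent.R273.PiEnd_836 Crest.Agent.R273.PiEndH_836 Crest.Agent.R273.Calc_243
open Crest.Agent.R273.DVec_733

noncomputable section

variable {n : ℕ} {M : Type} [TopologicalSpace M] {A : Atl n M}

/-- the metric of `K⁻¹ ⊗ 1` -/
def h1 (K : Kah A) : HM ((KB A)⁻¹ * (1 : LB A)) := HM_333.mul (volK K) (HM_333.one A)

theorem wt_h1 (K : Kah A) (i : A.ι) : (h1 K).wt i = (volK K).wt i := by
  funext z
  change - Real.log ((volK K).w i ((A.e i).symm z) * 1) = _
  rw [mul_one]
  rfl

theorem cur_h1 (K : Kah A) (i : A.ι) (x : M) : cur (h1 K) i x = cur (volK K) i x := by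
  unfold cur
  rw [wt_h1]

theorem h1_semipos {K : Kah A} (hK : (volK K).Semipos) : (h1 K).Semipos := by
  intro i z hz v
  rw [wt_h1]
  exact hK i z hz v

theorem NV_h1 (K : Kah A) (q : ℕ) : NV (1 : LB A) (h1 K) q = NV (1 : LB A) (volK K) q := by
  ext v
  constructor
  · rintro ⟨a, b⟩
    refine ⟨a, fun i x hx => ?_⟩
    have := b i x hx
    rwa [cur_h1] at this
  · rintro ⟨a, b⟩
    refine ⟨a, fun i x hx => ?_⟩
    have := b i x hx
    rwa [← cur_h1] at this

theorem g_herm' (K : Kah A) (i : A.ι) {x : M} (hx : x ∈ (A.e i).source) (a b : Fin n) :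
    conj (K.g i x a b) = K.g i x b a := (K.pos i x hx).1.apply b a

theorem Gam_mulVec_empty (m : Matrix (Fin n) (Fin n) ℂ) (v : FI n → ℂ) :
    (Gam m *ᵥ v) ∅ = v ∅ := by
  change ∑ S, Gam m ∅ S * v S = _
  rw [Finset.sum_eq_single ∅]
  · rw [Gam_vac, if_pos rfl, one_mul]
  · intro S _ hS
    rw [Gam_of_ne, zero_mul]
    rw [Finset.card_empty]
    exact fun h => hS (Finset.card_eq_zero.1 h.symm)
  · intro h
    exact absurd (Finset.mem_univ _) h

/-- the degree zero part of a section of the trivial bundle is a global function -/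
theorem zero_part {y : A.ι → M → (BN (1 : LB A)).κ → ℂ} (hy : y ∈ Sec (BN (1 : LB A))) {i j : A.ι}
    {x : M} (hi : x ∈ (A.e i).source) (hj : x ∈ (A.e j).source) :
    oB (y i x) ∅ = oB (y j x) ∅ := by
  rw [sec_tr hy ⟨hi, hj⟩, LB.one_g, one_smul]
  exact Gam_mulVec_empty _ _

/-- the degree zero part as a function -/
def zf (y : A.ι → M → (BN (1 : LB A)).κ → ℂ) (x : M) : ℂ := oB (y (A.cover x).choose x) ∅

theorem zf_eq {y : A.ι → M → (BN (1 : LB A)).κ → ℂ} (hy : y ∈ Sec (BN (1 : LB A))) {i : A.ι}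
    {x : M} (hi : x ∈ (A.e i).source) : zf y x = oB (y i x) ∅ :=
  zero_part hy (A.cover x).choose_spec hi

theorem zf_sm {y : A.ι → M → (BN (1 : LB A)).κ → ℂ} (hy : y ∈ Sec (BN (1 : LB A))) :
    A.Sm (zf y) := by
  intro i
  refine ContDiffOn.congr (hy.1 i ((∅ : FI n), ())) fun z hz => ?_
  exact zf_eq hy ((A.e i).map_target hz)

/-- the part of degree one of `∇ y` -/
theorem nab_one {y : A.ι → M → (BN (1 : LB A)).κ → ℂ} (hy : y ∈ Sec (BN (1 : LB A))) {i : A.ι}
    {x : M} (hx : x ∈ (A.e i).source) (a : Fin n) :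
    oB (nab (BN (1 : LB A)) y i x) {a} = A.db i a (zf y) x := by
  have hz := (A.e i).map_source hx
  rw [DMetB_733.oB_nab hy.1 hx, Finset.sum_apply]
  simp only [eW_single_apply]
  rw [Finset.sum_ite_eq' Finset.univ a]
  rw [if_pos (Finset.mem_univ a)]
  change dbj a (fun z => oB (y i ((A.e i).symm z)) ∅) (A.e i x) = dbj a _ (A.e i x)
  refine dbj_congr ?_
  filter_upwards [(A.e i).open_target.mem_nhds hz] with w hw
  exact (zf_eq hy ((A.e i).map_target hw)).symm

variable [T2Space M] [Finite A.ι]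

/-- the part of degree one of `uF` -/
theorem uF_one (C : ZCoc A) (P : Part A) {i : A.ι} {x : M} (hx : x ∈ (A.e i).source)
    (a : Fin n) : oB (N := (1 : LB A)) (uF C P i x) {a} =
      A.db i a (fun y => (C.prim P i y : ℂ)) x := by
  have hz := (A.e i).map_source hx
  rw [uF_apply C P hx, DMetB_733.oB_sum, Finset.sum_apply]
  have h1 : ∀ b, oB ((B1 A).e b *ᵥ A.db i b (fun y => vc A (pf C P i y)) x) {a} =
      if b = a then A.db i b (fun y => (C.prim P i y : ℂ)) x else 0 := by
    intro b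
    have h2 : (B1 A).e b *ᵥ A.db i b (fun y => vc A (pf C P i y)) x =
        iB (1 : LB A) (eW (ep b) *ᵥ oB (A.db i b (fun y => vc A (pf C P i y)) x)) := by
      have h3 := kB_iB (1 : LB A) (1 : LB A) (eW (ep b)) 1
        (oB (A.db i b (fun y => vc A (pf C P i y)) x))
      rw [iB_oB, one_smul] at h3
      rw [← h3]
      congr 1
    rw [h2, oB_iB, eW_single_apply]
    by_cases hb : b = a
    · rw [if_pos hb, if_pos hb]
      have hs : ∀ k, A.SmAt i (fun y => vc A (pf C P i y) k) := fun k =>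
        vc_smAt (smAt_ofReal (C.prim_sm P i)) k
      have hd : DifferentiableAt ℝ (fun z => vc A (pf C P i ((A.e i).symm z))) (A.e i x) :=
        differentiableAt_pi.2 fun k => ((hs k).contDiffAt
          ((A.e i).open_target.mem_nhds hz)).differentiableAt (by simp)
      change dbj b (fun z => vc A (pf C P i ((A.e i).symm z))) (A.e i x) (k0 A) = _
      rw [Crest.Agent.R275.Geo.dbj_pi hd b (k0 A)]
      simp only [vc_k0]
      subst hb
      rfl
    · rw [if_neg hb, if_neg hb]
  rw [Finset.sum_congr rfl fun b _ => h1 b, Finset.sum_ite_eq' Finset.univ a,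
    if_pos (Finset.mem_univ a)]

omit [T2Space M] [Finite A.ι] in
theorem lowF_single {K : Kah A} {V : HVF A} {i : A.ι} {x : M} (hx : x ∈ (A.e i).source)
    (a : Fin n) : lowF K V i x (EuclideanSpace.single a 1) =
      ∑ b, K.g i x a b * conj (V.X i x b) := by
  rw [lowF_hf hx, hf_eq, Finset.sum_eq_single a]
  · refine Finset.sum_congr rfl fun b _ => ?_
    have hs : (EuclideanSpace.single a (1 : ℂ) : Cn n) a = 1 := by simp
    rw [hs, mul_one]
  · intro b _ hb
    have hs : (EuclideanSpace.single a (1 : ℂ) : Cn n) b = 0 := by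
      simp [hb]
    exact Finset.sum_eq_zero fun c _ => by rw [hs]; ring
  · intro h
    exact absurd (Finset.mem_univ a) h

/-- the part of degree one of a lowered vector of degree one -/
theorem low_one (K : Kah A) {v : MV (1 : LB A)} (hv : v.1 ∈ PV (1 : LB A) 1) {i : A.ι} {x : M}
    (hx : x ∈ (A.e i).source) (a : Fin n) :
    oB ((low K (1 : LB A) v).1 i x) {a} =
      conj (lowF K (toHVF hv) i x (EuclideanSpace.single a 1)) := by
  rw [low_apply, oB_iB]
  have h0 : (GK K i x *ᵥ v.1 i x) {a} = ∑ b, K.g i x b a * v.1 i x {b} := by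
    have := congrFun (c1_Gam (K.g i x)ᵀ (v.1 i x)) a
    exact this
  rw [h0, lowF_single hx, map_sum]
  refine Finset.sum_congr rfl fun b _ => ?_
  rw [map_mul, Complex.conj_conj, g_herm' K i hx]
  rfl

/-- **HODGEZ** -/
theorem hodgeZ [CompactSpace M] (P : Part A) (K : Kah A)
    (hK : (volK K).Semipos) : Alb645.HodgeZ A P := by
  intro C
  obtain ⟨hz1, hz2⟩ := SerG398.mem_Zd.1 (uS_mem_Zd C P)
  obtain ⟨v, y, hy⟩ := D13_505.d2Ex P K (1 : LB A) (h1 K) (h1_semipos hK) 1 (uS C P) hz1 hz2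
  have hv : v.1 ∈ NV (1 : LB A) (volK K) 1 := (NV_h1 K 1).le v.2
  set V := toHVF hv.1 with hV
  have hpar : Par K V := par_of_NV P hv
  refine ⟨lowF K V, lowF_mem hpar, zf y.1, zf_sm y.2, fun i x hx a => ?_⟩
  have e1 := congrArg (fun u : Sec (BN (1 : LB A)) => oB (u.1 i x) {a}) hy
  have e2 : oB ((nabL (BN (1 : LB A)) y).1 i x) {a} = A.db i a (zf y.1) x := nab_one y.2 hx a
  have e3 : oB ((uS C P - low K (1 : LB A) (HodgeP_578.inc (1 : LB A) (h1 K) 1 v) :
      Sec (BN (1 : LB A))).1 i x) {a} = oB (N := (1 : LB A)) (uF C P i x) {a} -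
        oB ((low K (1 : LB A) (HodgeP_578.inc (1 : LB A) (h1 K) 1 v)).1 i x) {a} := rfl
  have e4 := low_one K (v := HodgeP_578.inc (1 : LB A) (h1 K) 1 v) v.2.1 hx a
  rw [uF_one C P hx a, e4] at e3
  have e5 : A.db i a (zf y.1) x = A.db i a (fun y => (C.prim P i y : ℂ)) x -
      conj (lowF K V i x (EuclideanSpace.single a 1)) := by
    exact e2.symm.trans (e1.trans e3)
  rw [e5]
  ring

end

end Crest.Agent.R273.HodZ_376
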