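import Crest.Agent.R275.RetG_666

/-!
# R273, leaf D.12 (helper803): the parametrix in the UNSHIFTED norms, holomorphic limits in L2

`S0 P B = scS P B 0` : the scale of unshifted norms `H^s` (all degrees), `s = 0` is the `L²` norm.

* `opm0_KML`, `opm0_RML` : `K`, `R : H^s → H^{s+1}`;
* `nab0_le` : `∇ : H^{s+1} → H^s`; `op0_actL0`, `op0_pqL0` : bundle maps, degree projections;
* `pow_RML_le` : `R^m : L² → H^m`;
* `exists_limit` : if `v m` is Cauchy in `L²`, `K v m = 0` (e.g. degree `0`) and `∇ v m → 0` in `L²`,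
  then `v m → w` in `L²` with `w` SMOOTH, and `∇ w = 0` if `∇ ∇ = 0`.
-/

set_option autoImplicit false
set_option linter.unusedSectionVars false
set_option linter.unusedSimpArgs false
set_option linter.unusedVariables false

open Set Filter Topology Complex
open scoped ContDiff Matrix ComplexConjugate

namespace Crest.Agent.R273.KRL2_803

open Crest.Agent.R275 Crest.Agent.R275.Geo Crest.Agent.R275.Tor812 Crest.Agent.R275.TorS666
  Crest.Agent.R275.C1d194 Crest.Agent.R275.C2812 Crest.Agent.R275.Ret666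
  Crest.Agent.R275.Fred685 Crest.Agent.R275.FHom556 Crest.Agent.R275.RetC666

noncomputable section

variable {n : ℕ} {M : Type} [TopologicalSpace M] {A : Atl n M}

section

variable [Finite A.ι] (P : Part A) (B : FBun A) {B' : FBun A}

/-- the scale of the unshifted norms `H^s` -/
abbrev S0 : Scale ℂ (Sec B) := scS P B 0

theorem shB_zero (B : FBun A) : shB 0 B = fun _ => 0 := by
  funext k
  exact Nat.zero_sub _

theorem tb_KT1 : TB1 1 (KTl B.io) (shB 0 B) (shB 0 B) :=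
  tb1_KT fun a k l h => by
    simp only [shB]
    omega

theorem tb_GT1 : TB1 1 (GTl : (B.κ → SPer (RI n)) →ₗ[ℂ] (B.κ → SPer (RI n)))
    (shB 0 B) (shB 0 B) := tb1_GT fun k => by omega

section XS

theorem opR_ExtA_any {κ₂ : Type} [Fintype κ₂] (b : AF P B.κ κ₂) (sh₂ : κ₂ → ℕ) :
    OpR 0 (scT (ws (Wt.one P) sh₂)) (S0 P B) ((XS P B).ExtA b sh₂) :=
  (XS P B).opR_ExtA b fun j x k l h => by omega

theorem opR_LocA_any {κ₁ : Type} [Fintype κ₁] (a : AF P κ₁ B.κ) :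
    OpR 0 (S0 P B) (scT (ws (Wt.one P) (fun _ : κ₁ => 0))) ((XS P B).LocA a fun _ => 0) :=
  (XS P B).opR_LocA a fun j x k l h => by omega

theorem opR_LocA_any' (a : AF P B.κ B.κ) :
    OpR 0 (S0 P B) (scT (ws (Wt.one P) (shB 0 B))) ((XS P B).LocA a (shB 0 B)) :=
  (XS P B).opR_LocA a fun j x k l h => by simp only [shB]; omega

/-- **`K : H^s → H^{s+1}`** -/
theorem opm0_KML : Opm (S0 P B) (S0 P B) (KML B P) := by
  rw [← XS_K P B, (XS P B).K_eq 0]
  have hK := opR_TT (Wt.one P) ((tb_KT1 B).tbd A)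
  have h1 : OpR 1 (S0 P B) (S0 P B) ((XS P B).ExtA (AF.chi P B) (shB 0 B) ∘ₗ
      TT (Wt.one P) ((tb_KT1 B).tbd A) ∘ₗ (XS P B).LocA (AF.psi P B) (shB 0 B)) :=
    (opR_ExtA_any P B _ _).comp0' (hK.comp0 (opR_LocA_any' P B _))
  exact opR_one.1 h1

/-- **`R : H^s → H^{s+1}`** -/
theorem opm0_RML : Opm (S0 P B) (S0 P B) (RML B P) := by
  rw [← XS_R P B, (XS P B).R_eq 0]
  have hK := opR_TT (Wt.one P) ((tb_KT1 B).tbd A)
  have hG := opR_TT (Wt.one P) ((tb_GT1 B).tbd A)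
  have h1 : OpR 1 (S0 P B) (S0 P B) ((XS P B).ExtA (AF.chi P B) (shB 0 B) ∘ₗ
      TT (Wt.one P) ((tb_GT1 B).tbd A) ∘ₗ (XS P B).LocA (AF.psi P B) (shB 0 B)) :=
    (opR_ExtA_any P B _ _).comp0' (hG.comp0 (opR_LocA_any' P B _))
  have h2 : OpR 1 (S0 P B) (S0 P B) ((XS P B).ExtA (AF.dchi P B) (shB 0 B) ∘ₗ
      TT (Wt.one P) ((tb_KT1 B).tbd A) ∘ₗ (XS P B).LocA (AF.psi P B) (shB 0 B)) :=
    (opR_ExtA_any P B _ _).comp0' (hK.comp0 (opR_LocA_any' P B _))
  have h3 : OpR 1 (S0 P B) (S0 P B) ((XS P B).ExtA (AF.chi P B) (shB 0 B) ∘ₗ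
      TT (Wt.one P) ((tb_KT1 B).tbd A) ∘ₗ (XS P B).LocA (AF.dpsi P B) (shB 0 B)) :=
    (opR_ExtA_any P B _ _).comp0' (hK.comp0 (opR_LocA_any' P B _))
  exact opR_one.1 ((h1.sub h2).add h3)

end XS

/-! ### coordinates, `∇`, bundle maps -/

theorem coord0 (s : ℕ) (u : Sec B) (i : A.ι) (k : B.κ) :
    nrm s (loc A i (P.psi B.κ i) (u.1 i) k) ≤ (S0 P B).nrm s u := by
  have h := coordS P B 0 s u i k
  rwa [Nat.zero_sub, add_zero] at h

theorem nrm0_le_sum [Fintype A.ι] (s : ℕ) (u : Sec B) :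
    (S0 P B).nrm s u ≤ ∑ i, ∑ k, nrm s (loc A i (P.psi B.κ i) (u.1 i) k) := by
  have h := nrmS_le_sum P B 0 s u
  simpa only [Nat.zero_sub, add_zero] using h

/-- localisations with any amplitude -/
theorem nrm0_loc_le {κ₁ : Type} [Fintype κ₁] {i : A.ι} {a : M → Matrix κ₁ B.κ ℂ}
    (ha : IsAmp A i a) (s : ℕ) :
    ∃ C, 0 ≤ C ∧ ∀ (u : Sec B) (k : κ₁), nrm s (loc A i a (u.1 i) k) ≤ C * (S0 P B).nrm s u := by
  obtain ⟨C, h0, h⟩ := nrm_loc_any P B ha 0 0 (fun _ => 0) (fun x k l _ => by omega) s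
  exact ⟨C, h0, fun u k => h u k⟩

/-- extensions with any amplitude -/
theorem nrm0_ext_le {κ₂ : Type} [Fintype κ₂] {j : A.ι} {b : M → Matrix B.κ κ₂ ℂ}
    (hb : IsAmp A j b) (s : ℕ) :
    ∃ C, 0 ≤ C ∧ ∀ f : κ₂ → SPer (RI n),
      (S0 P B).nrm s (extS B j hb f) ≤ C * ∑ l, nrm s (f l) := by
  obtain ⟨C, h0, h⟩ := nrm_ext_any P B hb 0 0 (fun _ => 0) (fun x k l _ => by omega) s
  exact ⟨C, h0, fun f => h f⟩

/-- **`∇ : H^{s+1} → H^s`** -/
theorem nab0_le (s : ℕ) : ∃ C, 0 ≤ C ∧ ∀ u : Sec B,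
    (S0 P B).nrm s (nabL B u) ≤ C * (S0 P B).nrm (s + 1) u := by
  classical
  have := Fintype.ofFinite A.ι
  obtain ⟨C1, hC1, h1⟩ := (tb1_DT (e := B.e) (sh₁ := fun _ => 1) (sh₂ := fun _ => 0) (r := 0)
    (fun _ _ _ _ => by omega)) s
  choose C2 hC2 h2 using fun i => nrm0_loc_le P B ((amp_dpsi B P).amp i) s
  refine ⟨∑ i, ∑ _k : B.κ, (C1 * Fintype.card B.κ + C2 i), Finset.sum_nonneg fun i _ =>
    Finset.sum_nonneg fun k _ => add_nonneg (by positivity) (hC2 i), fun u => ?_⟩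
  refine (nrm0_le_sum P B s (nabL B u)).trans ?_
  rw [Finset.sum_mul]
  refine Finset.sum_le_sum fun i _ => ?_
  rw [Finset.sum_mul]
  refine Finset.sum_le_sum fun k _ => ?_
  have h3 : loc A i (P.psi B.κ i) ((nabL B u).1 i) k
      = DTl B.e (loc A i (P.psi B.κ i) (u.1 i)) k - loc A i (dpsi B P i) (u.1 i) k :=
    congrFun (congrFun (LocF_nab B P u.2) i) k
  rw [h3]
  refine (nrm_sub_le _ _ _).trans ?_
  rw [add_mul]
  refine add_le_add ?_ ?_
  · refine (h1 (loc A i (P.psi B.κ i) (u.1 i)) k).trans ?_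
    rw [mul_assoc]
    refine mul_le_mul_of_nonneg_left ?_ hC1
    refine (Finset.sum_le_sum fun l _ => coord0 P B (s + 1) u i l).trans (le_of_eq ?_)
    rw [Finset.sum_const, nsmul_eq_mul, Finset.card_univ]
  · exact (h2 i u k).trans (mul_le_mul_of_nonneg_left ((S0 P B).mono s u) (hC2 i))

variable {B} in
/-- bundle maps are bounded in all the unshifted norms -/
theorem op0_actL0 {r : ℕ} (H : FHom r B B') : Op0 (S0 P B) (S0 P B') H.actL := by
  rw [← XS_act P B H]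
  refine opR_zero.1 ((XS P B').opR_iff.2 ?_)
  rw [(XS P B).LocA_act (XS P B') H]
  refine (opR_chw _).comp0' ((XS P B).opR_LocA _ fun i x k l h => ?_)
  simp only [shB]
  omega

/-- degree projections -/
theorem op0_pqL0 (q : ℕ) : Op0 (S0 P B) (S0 P B) (pqL B q) := by
  rw [← Hq_actL B q]
  exact op0_actL0 P (Hq B q)

/-! ### powers of `R` -/

/-- `R^m : H^s → H^{s+m}` -/
theorem pow_RML_le (m s : ℕ) : ∃ C, 0 ≤ C ∧ ∀ u : Sec B,
    (S0 P B).nrm (s + m) ((RML B P ^ m) u) ≤ C * (S0 P B).nrm s u := by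
  induction m with
  | zero => exact ⟨1, zero_le_one, fun u => by rw [one_mul]; exact le_rfl⟩
  | succ m ih =>
    obtain ⟨C, hC0, hC⟩ := ih
    obtain ⟨D, hD0, hD⟩ := exists_nonneg_const (opm0_RML P B (s + m))
    refine ⟨D * C, mul_nonneg hD0 hC0, fun u => ?_⟩
    rw [pow_succ', mul_assoc, Module.End.mul_apply]
    have h1 := hD ((RML B P ^ m) u)
    exact h1.trans (mul_le_mul_of_nonneg_left (hC u) hD0)

/-- the operator `K` in `L²` -/
theorem K_L2 : ∃ C, 0 ≤ C ∧ ∀ u : Sec B, (S0 P B).nrm 0 (KML B P u) ≤ C * (S0 P B).nrm 0 u :=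
  exists_nonneg_const ((opm0_KML P B).op0 0)

/-- the operator `R` in `L²` -/
theorem R_L2 : ∃ C, 0 ≤ C ∧ ∀ u : Sec B, (S0 P B).nrm 0 (RML B P u) ≤ C * (S0 P B).nrm 0 u :=
  exists_nonneg_const ((opm0_RML P B).op0 0)

theorem htpy_apply (u : Sec B) : nabL B (KML B P u) + KML B P (nabL B u) = u - RML B P u := by
  have h := LinearMap.congr_fun (nabL_KML B P) u
  simpa using h

/-- if `K u = 0`, then `u - R^m u = ∑_{j<m} R^j K ∇ u` is controlled by `∇ u` in `L²` -/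
theorem sub_pow_le (m : ℕ) : ∃ C, 0 ≤ C ∧ ∀ u : Sec B, KML B P u = 0 →
    (S0 P B).nrm 0 (u - (RML B P ^ m) u) ≤ C * (S0 P B).nrm 0 (nabL B u) := by
  obtain ⟨K, hK0, hK⟩ := K_L2 P B
  induction m with
  | zero => exact ⟨0, le_rfl, fun u _ => by simp⟩
  | succ m ih =>
    obtain ⟨C, hC0, hC⟩ := ih
    obtain ⟨D, hD0, hD⟩ := pow_RML_le P B m 0
    refine ⟨C + D * K, by positivity, fun u hu => ?_⟩
    have h1 : u - (RML B P ^ (m + 1)) u =
        (u - (RML B P ^ m) u) + (RML B P ^ m) (KML B P (nabL B u)) := by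
      have h2 := htpy_apply P B u
      rw [hu, map_zero, zero_add] at h2
      rw [h2, map_sub, pow_succ]
      show _ = _ + (_ - (RML B P ^ m) (RML B P u))
      rw [Module.End.mul_apply]
      abel
    rw [h1, add_mul]
    refine (map_add_le_add _ _ _).trans (add_le_add (hC u hu) ?_)
    have h3 := hD (KML B P (nabL B u))
    have h4 : (S0 P B).nrm 0 ((RML B P ^ m) (KML B P (nabL B u)))
        ≤ (S0 P B).nrm (0 + m) ((RML B P ^ m) (KML B P (nabL B u))) :=
      (S0 P B).nrm_mono (Nat.zero_le _) _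
    refine h4.trans (h3.trans ?_)
    rw [mul_assoc]
    exact mul_le_mul_of_nonneg_left (hK _) hD0

variable {P B}

/-- `∇ R = R ∇` if `∇ ∇ = 0` -/
theorem nab_R (hsq : nabL B ∘ₗ nabL B = 0) (u : Sec B) :
    nabL B (RML B P u) = RML B P (nabL B u) := by
  have h1 := htpy_apply P B u
  have h2 := htpy_apply P B (nabL B u)
  have h0 : ∀ w : Sec B, nabL B (nabL B w) = 0 := fun w => LinearMap.congr_fun hsq w
  have h3 := congrArg (nabL B) h1
  rw [map_add, h0, zero_add, map_sub] at h3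
  rw [h0, map_zero, add_zero] at h2
  rw [h3] at h2
  exact sub_right_injective h2

theorem nab_pow_R (hsq : nabL B ∘ₗ nabL B = 0) (m : ℕ) (u : Sec B) :
    nabL B ((RML B P ^ m) u) = (RML B P ^ m) (nabL B u) := by
  induction m with
  | zero => rfl
  | succ m ih =>
    rw [pow_succ', Module.End.mul_apply, nab_R hsq, ih, Module.End.mul_apply]

/-- uniqueness of `L²` limits -/
theorem limit_unique {v : ℕ → Sec B} {w w' : Sec B}
    (h : Tendsto (fun m => (S0 P B).nrm 0 (v m - w)) atTop (𝓝 0))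
    (h' : Tendsto (fun m => (S0 P B).nrm 0 (v m - w')) atTop (𝓝 0)) : w = w' := by
  have h1 : Tendsto (fun m => (S0 P B).nrm 0 (v m - w') + (S0 P B).nrm 0 (v m - w)) atTop
      (𝓝 (0 + 0)) := h'.add h
  rw [add_zero] at h1
  have h2 : (S0 P B).nrm 0 (w - w') ≤ 0 := by
    refine ge_of_tendsto h1 (Filter.Eventually.of_forall fun m => ?_)
    have h3 : w - w' = (v m - w') - (v m - w) := by abel
    rw [h3]
    exact map_sub_le_add _ _ _
  have h4 := (S0 P B).eq_zero _ (le_antisymm h2 (apply_nonneg _ _))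
  exact sub_eq_zero.1 h4

variable (P B) in
/-- **`L²` limits are smooth**: if `v m` is Cauchy in `L²`, `K v m = 0` (automatic in degree `0`)
and `∇ v m → 0` in `L²`, then `v m` converges in `L²` to a smooth section. -/
theorem exists_limit (v : ℕ → Sec B) (hK : ∀ m, KML B P (v m) = 0)
    (hC : ∀ ε > 0, ∃ N, ∀ m ≥ N, ∀ l ≥ N, (S0 P B).nrm 0 (v m - v l) < ε)
    (hd : Tendsto (fun m => (S0 P B).nrm 0 (nabL B (v m))) atTop (𝓝 0)) :
    ∃ w : Sec B, Tendsto (fun m => (S0 P B).nrm 0 (v m - w)) atTop (𝓝 0) ∧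
      ∀ s, Tendsto (fun m => (S0 P B).nrm s ((RML B P ^ s) (v m) - w)) atTop (𝓝 0) := by
  choose C hC0 hCs using sub_pow_le P B
  choose D hD0 hDs using fun m => pow_RML_le P B m 0
  -- choice of the diagonal sequence
  have hch : ∀ m : ℕ, ∃ N, m ≤ N ∧ (S0 P B).nrm 0 (nabL B (v N)) * (∑ j ∈ Finset.range (m + 1), C j)
      ≤ 1 / (m + 1) := by
    intro m
    have h1 : Tendsto (fun N => (S0 P B).nrm 0 (nabL B (v N)) *
        (∑ j ∈ Finset.range (m + 1), C j)) atTop (𝓝 (0 * (∑ j ∈ Finset.range (m + 1), C j))) :=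
      hd.mul_const _
    rw [zero_mul] at h1
    have h2 : (0 : ℝ) < 1 / (m + 1) := by positivity
    obtain ⟨N, h3, h4⟩ := ((h1.eventually (gt_mem_nhds h2)).and (eventually_ge_atTop m)).exists
    exact ⟨N, h4, h3.le⟩
  choose f hf1 hf2 using hch
  set u : ℕ → Sec B := fun m => (RML B P ^ m) (v (f m)) with hu
  -- for `j ≤ m`, `R^j v (f m)` is close to `v (f m)` in `L²`
  have hclose : ∀ m j, j ≤ m →
      (S0 P B).nrm 0 (v (f m) - (RML B P ^ j) (v (f m))) ≤ 1 / (m + 1) := by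
    intro m j hj
    refine (hCs j (v (f m)) (hK _)).trans (le_trans ?_ (hf2 m))
    rw [mul_comm]
    refine mul_le_mul_of_nonneg_left ?_ (apply_nonneg _ _)
    exact Finset.single_le_sum (f := C) (fun i _ => hC0 i) (Finset.mem_range.2 (by omega))
  -- estimate in `H^s`
  have hkey : ∀ s m l, s ≤ m → (S0 P B).nrm s (u m - (RML B P ^ s) (v l)) ≤
      D s * (1 / (m + 1) + (S0 P B).nrm 0 (v (f m) - v l)) := by
    intro s m l hsm
    have h1 : u m - (RML B P ^ s) (v l) =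
        (RML B P ^ s) ((RML B P ^ (m - s)) (v (f m)) - v l) := by
      rw [map_sub, ← Module.End.mul_apply, ← pow_add, Nat.add_sub_cancel' hsm]
    rw [h1]
    have h2 := hDs s ((RML B P ^ (m - s)) (v (f m)) - v l)
    rw [zero_add] at h2
    refine h2.trans (mul_le_mul_of_nonneg_left ?_ (hD0 s))
    have h3 : (RML B P ^ (m - s)) (v (f m)) - v l =
        (v (f m) - v l) - (v (f m) - (RML B P ^ (m - s)) (v (f m))) := by abel
    rw [h3]
    refine (map_sub_le_add _ _ _).trans ?_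
    rw [add_comm]
    exact add_le_add (hclose m (m - s) (Nat.sub_le _ _)) le_rfl
  have hinv : ∀ ε > (0 : ℝ), ∃ N : ℕ, ∀ m ≥ N, (1 : ℝ) / (m + 1) < ε := by
    intro ε hε
    obtain ⟨N, hN⟩ := exists_nat_one_div_lt hε
    refine ⟨N, fun m hm => lt_of_le_of_lt ?_ hN⟩
    exact Nat.one_div_le_one_div hm
  -- the difference `u m - R^s v l` is small in `H^s` for large `m`, `l`
  have hsmall : ∀ s, ∀ ε > 0, ∃ N, ∀ m ≥ N, ∀ l ≥ N,
      (S0 P B).nrm s (u m - (RML B P ^ s) (v l)) < ε := by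
    intro s ε hε
    have hε' : 0 < ε / (2 * (D s + 1)) := div_pos hε (by have := hD0 s; positivity)
    obtain ⟨N1, hN1⟩ := hinv _ hε'
    obtain ⟨N2, hN2⟩ := hC _ hε'
    refine ⟨max s (max N1 N2), fun m hm l hl => ?_⟩
    have hm1 : s ≤ m := (le_max_left _ _).trans hm
    have hm2 : N1 ≤ m := ((le_max_left _ _).trans (le_max_right _ _)).trans hm
    have hm3 : N2 ≤ m := ((le_max_right _ _).trans (le_max_right _ _)).trans hm
    have hl3 : N2 ≤ l := ((le_max_right _ _).trans (le_max_right _ _)).trans hl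
    have h1 := hN1 m hm2
    have h2 := hN2 (f m) (hm3.trans (hf1 m)) l hl3
    have hDp : 0 < D s + 1 := by have := hD0 s; positivity
    calc (S0 P B).nrm s (u m - (RML B P ^ s) (v l))
        ≤ D s * (1 / (m + 1) + (S0 P B).nrm 0 (v (f m) - v l)) := hkey s m l hm1
      _ ≤ D s * (ε / (2 * (D s + 1)) + ε / (2 * (D s + 1))) :=
          mul_le_mul_of_nonneg_left (add_le_add h1.le h2.le) (hD0 s)
      _ = (D s / (D s + 1)) * ε := by field_simp; ring
      _ < ε := by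
          have : D s / (D s + 1) < 1 := (div_lt_one hDp).2 (by linarith)
          nlinarith
  obtain ⟨w, hw⟩ := (S0 P B).complete u (fun s ε hε => by
    obtain ⟨N, hN⟩ := hsmall s (ε / 2) (half_pos hε)
    refine ⟨N, fun m hm l hl => ?_⟩
    have h1 : u m - u l = (u m - (RML B P ^ s) (v N)) - (u l - (RML B P ^ s) (v N)) := by abel
    rw [h1]
    refine (map_sub_le_add _ _ _).trans_lt ?_
    linarith [hN m hm N le_rfl, hN l hl N le_rfl])
  have hlim : ∀ s, Tendsto (fun m => (S0 P B).nrm s ((RML B P ^ s) (v m) - w)) atTop (𝓝 0) := by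
    intro s
    rw [Metric.tendsto_atTop]
    intro ε hε
    obtain ⟨N1, hN1⟩ := hsmall s (ε / 2) (half_pos hε)
    obtain ⟨N2, hN2⟩ := hw s (ε / 2) (half_pos hε)
    refine ⟨N1, fun l hl => ?_⟩
    rw [Real.dist_eq, sub_zero, abs_of_nonneg (apply_nonneg _ _)]
    have h1 := hN1 (max N1 N2) (le_max_left _ _) l hl
    have h2 := hN2 (max N1 N2) (le_max_right _ _)
    have h3 : (RML B P ^ s) (v l) - w =
        (u (max N1 N2) - w) - (u (max N1 N2) - (RML B P ^ s) (v l)) := by abel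
    rw [h3]
    refine (map_sub_le_add _ _ _).trans_lt ?_
    linarith
  refine ⟨w, ?_, hlim⟩
  have h0 := hlim 0
  exact h0

/-- the limit is `∇`-closed if `∇ ∇ = 0` -/
theorem limit_closed (hsq : nabL B ∘ₗ nabL B = 0) {v : ℕ → Sec B}
    (hd : Tendsto (fun m => (S0 P B).nrm 0 (nabL B (v m))) atTop (𝓝 0)) {w : Sec B}
    (hw : Tendsto (fun m => (S0 P B).nrm 1 ((RML B P ^ 1) (v m) - w)) atTop (𝓝 0)) :
    nabL B w = 0 := by
  obtain ⟨C, hC0, hC⟩ := nab0_le P B 0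
  obtain ⟨D, hD0, hD⟩ := pow_RML_le P B 1 0
  have h1 : Tendsto (fun m => C * (S0 P B).nrm 1 ((RML B P ^ 1) (v m) - w) +
      D * (S0 P B).nrm 0 (nabL B (v m))) atTop (𝓝 (C * 0 + D * 0)) :=
    (hw.const_mul C).add (hd.const_mul D)
  rw [mul_zero, mul_zero, add_zero] at h1
  have h2 : (S0 P B).nrm 0 (nabL B w) ≤ 0 := by
    refine ge_of_tendsto h1 (Filter.Eventually.of_forall fun m => ?_)
    have h3 : nabL B w = (RML B P ^ 1) (nabL B (v m)) - nabL B ((RML B P ^ 1) (v m) - w) := by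
      rw [map_sub, nab_pow_R hsq]
      abel
    rw [h3]
    refine (map_sub_le_add _ _ _).trans ?_
    rw [add_comm]
    refine add_le_add (hC _) ?_
    exact ((S0 P B).nrm_mono (Nat.zero_le _) _).trans (hD (nabL B (v m)))
  exact (S0 P B).eq_zero _ (le_antisymm h2 (apply_nonneg _ _))

variable (P B) in
/-- **D.12, degree `0`**: an `L²`-Cauchy sequence of sections of degree `0` with `∇ v m → 0` in `L²`
converges in `L²` to a smooth section `w` of degree `0` with `∇ w = 0`. -/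
theorem exists_holo_limit (hsq : nabL B ∘ₗ nabL B = 0) (v : ℕ → Sec B)
    (hdeg : ∀ m, pqL B 0 (v m) = v m)
    (hC : ∀ ε > 0, ∃ N, ∀ m ≥ N, ∀ l ≥ N, (S0 P B).nrm 0 (v m - v l) < ε)
    (hd : Tendsto (fun m => (S0 P B).nrm 0 (nabL B (v m))) atTop (𝓝 0)) :
    ∃ w : Sec B, Tendsto (fun m => (S0 P B).nrm 0 (v m - w)) atTop (𝓝 0) ∧ pqL B 0 w = w ∧
      nabL B w = 0 := by
  have hK : ∀ m, KML B P (v m) = 0 := fun m => by
    rw [← hdeg m]
    exact LinearMap.congr_fun (KML_pqL_zero P) (v m)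
  obtain ⟨w, h1, h2⟩ := exists_limit P B v hK hC hd
  refine ⟨w, h1, ?_, limit_closed hsq hd (h2 1)⟩
  obtain ⟨C, hC0, hC'⟩ := exists_nonneg_const (op0_pqL0 P B 0 0)
  have h3 : Tendsto (fun m => (S0 P B).nrm 0 (v m - pqL B 0 w)) atTop (𝓝 0) := by
    have h4 : Tendsto (fun m => C * (S0 P B).nrm 0 (v m - w)) atTop (𝓝 (C * 0)) := h1.const_mul C
    rw [mul_zero] at h4
    refine squeeze_zero (fun m => apply_nonneg _ _) (fun m => ?_) h4
    have h5 : v m - pqL B 0 w = pqL B 0 (v m - w) := by rw [map_sub, hdeg]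
    rw [h5]
    exact hC' _
  exact limit_unique h3 h1

end

end

end Crest.Agent.R273.KRL2_803
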