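import Crest.Agent.R273.HomScale_803
import Crest.Agent.R273.KRL2_803
import Crest.Agent.R275.SerR_398

/-!
# R273, leaf D.15 (helper803): Hodge type homotopy on `Sec B`, closed range, exactness in `L²`

`B : FBun A`, finite atlas, `∇ ∇ = 0`.

* `HodgeOp P B` : operators `H`, `K` on `Sec B` with `u - H u = ∇ (K u) + K (∇ u)`, `∇ H = H ∇ = 0`,
  `H` smoothing of finite rank, `K : H^s → H^{s+1}` (unshifted norms), both graded;
* `exists_hodgeOp` : they exist;
* `HodgeOp.closed_range`, `HodgeOp.exact_iff` : `z` exact ⟹ `z = ∇ (K z)`; `z` closed is exact iff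
  `H z = 0`;
* `HodgeOp.l2_split` : if `u m` is Cauchy in `L²` and `∇ u m → 0` in `L²`, then `H u m → z` in every
  `H^s` with `z` smooth and closed, `K u m` is Cauchy in `H^1`, `u m - z - ∇ K u m → 0` in `L²`;
* `HodgeOp.l2_exact` : if moreover the limit is orthogonal to the closed sections of the dual
  bundle, then `u m - ∇ y m → 0` in `L²` with `y m` smooth and Cauchy in `H^1`.
-/

set_option autoImplicit false
set_option linter.unusedSectionVars false
set_option linter.unusedVariables false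

open Set Filter Topology Complex
open scoped ContDiff Matrix ComplexConjugate

namespace Crest.Agent.R273.HodgeH_803

open Crest.Agent.R275 Crest.Agent.R275.Geo Crest.Agent.R275.Tor812 Crest.Agent.R275.TorS666
  Crest.Agent.R275.C1d194 Crest.Agent.R275.C2812 Crest.Agent.R275.Ret666
  Crest.Agent.R275.Fred685 Crest.Agent.R275.FHom556 Crest.Agent.R275.RetC666
  Crest.Agent.R275.SerG398
open Crest.Agent.R273.KRL2_803

noncomputable section

variable {n : ℕ} {M : Type} [TopologicalSpace M] {A : Atl n M}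

section

variable [Finite A.ι] (P : Part A) (B : FBun A) {B' : FBun A}

/-- `R` is negligible for the unshifted scale -/
theorem neg0_RML : Neg (S0 P B) (S0 P B) (RML B P) := neg_of_opmSS P (opm0_RML P B)

/-- Hodge type homotopy on `Sec B` -/
structure HodgeOp where
  sq : ∀ u, nabL B (nabL B u) = 0
  H : Sec B →ₗ[ℂ] Sec B
  K : Sec B →ₗ[ℂ] Sec B
  smH : SmFin (S0 P B) (S0 P B) H
  opmK : Opm (S0 P B) (S0 P B) K
  htpy : ∀ u, u - H u = nabL B (K u) + K (nabL B u)
  nabH : ∀ u, nabL B (H u) = 0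
  Hnab : ∀ u, H (nabL B u) = 0
  Hpq : ∀ q u, H (pqL B q u) = pqL B q (H u)
  Kpq : ∀ q u, K (pqL B (q + 1) u) = pqL B q (K u)
  Kpq0 : ∀ u, K (pqL B 0 u) = 0

/-- **existence of the Hodge type homotopy** -/
theorem exists_hodgeOp (hsq : ∀ u, nabL B (nabL B u) = 0) : Nonempty (HodgeOp P B) := by
  obtain ⟨H, K', h1, h2, h3, h4, h5, h6, h7, h8⟩ :=
    Crest.Agent.R273.HomScale_803.exists_homotopy_graded (S := S0 P B) (d := nabL B)
      (K := KML B P) (R := RML B P) hsq (htpy_apply P B) (opm0_KML P B) (neg0_RML P B)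
      (fun q => pqL B q) (topDeg B) (fun q => op0_pqL0 P B q)
      (fun q v => LinearMap.congr_fun (pqL_idem (B := B) q) v)
      (fun q r v h => LinearMap.congr_fun (pqL_orth (B := B) h) v)
      (fun v => pqL_sum le_rfl v)
      (fun q v => (LinearMap.congr_fun (nabL_pqL (B := B) q) v).symm)
      (fun v => LinearMap.congr_fun (pqL_zero_nabL (B := B)) v)
  exact ⟨⟨hsq, H, K', h1, h2, h3, h4, h5, h6, h7, h8⟩⟩

namespace HodgeOp

variable {P B} (T : HodgeOp P B)

/-- bounds of `H` : `L² → H^s` -/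
theorem H_le (s : ℕ) : ∃ C, 0 ≤ C ∧ ∀ u, (S0 P B).nrm s (T.H u) ≤ C * (S0 P B).nrm 0 u :=
  exists_nonneg_const (T.smH.2 s)

/-- bounds of `K` : `H^s → H^{s+1}` -/
theorem K_le (s : ℕ) : ∃ C, 0 ≤ C ∧ ∀ u, (S0 P B).nrm (s + 1) (T.K u) ≤ C * (S0 P B).nrm s u :=
  exists_nonneg_const (T.opmK s)

/-- `z` exact ⟹ `z = ∇ (K z)` -/
theorem eq_nab_K {z : Sec B} (hz : nabL B z = 0) (hH : T.H z = 0) : nabL B (T.K z) = z := by
  have h := T.htpy z
  rw [hz, map_zero, add_zero, hH, sub_zero] at h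
  exact h.symm

/-- a closed section is exact iff `H z = 0` -/
theorem exact_iff {z : Sec B} (hz : nabL B z = 0) : (∃ y, nabL B y = z) ↔ T.H z = 0 := by
  constructor
  · rintro ⟨y, rfl⟩
    exact T.Hnab y
  · intro h
    exact ⟨T.K z, T.eq_nab_K hz h⟩

include T in
/-- **closed range**, with all the estimates -/
theorem closed_range (s : ℕ) : ∃ C, 0 ≤ C ∧ ∀ x : Sec B, ∃ y : Sec B, nabL B y = nabL B x ∧
    (S0 P B).nrm (s + 1) y ≤ C * (S0 P B).nrm s (nabL B x) := by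
  obtain ⟨C, h0, hC⟩ := T.K_le s
  exact ⟨C, h0, fun x => ⟨T.K (nabL B x), T.eq_nab_K (T.sq x) (T.Hnab x), hC _⟩⟩

/-- Cauchy sequences for `nrm s` -/
def Cau (P : Part A) (B : FBun A) (s : ℕ) (u : ℕ → Sec B) : Prop :=
  ∀ ε > 0, ∃ N, ∀ m ≥ N, ∀ l ≥ N, (S0 P B).nrm s (u m - u l) < ε

theorem Cau.map {s t : ℕ} {u : ℕ → Sec B} (hu : Cau P B s u) (X : Sec B →ₗ[ℂ] Sec B')
    (hX : ∃ C, 0 ≤ C ∧ ∀ u, (S0 P B').nrm t (X u) ≤ C * (S0 P B).nrm s u) :
    Cau P B' t (fun m => X (u m)) := by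
  obtain ⟨C, hC0, hC⟩ := hX
  intro ε hε
  obtain ⟨N, hN⟩ := hu (ε / (C + 1)) (by positivity)
  refine ⟨N, fun m hm l hl => ?_⟩
  rw [← map_sub]
  have h1 := hN m hm l hl
  have h2 := hC (u m - u l)
  have h3 : (0 : ℝ) ≤ (S0 P B).nrm s (u m - u l) := apply_nonneg _ _
  have h4 : C * (ε / (C + 1)) < ε := by
    rw [mul_div_assoc', div_lt_iff₀ (by positivity)]
    nlinarith
  exact lt_of_le_of_lt (h2.trans (mul_le_mul_of_nonneg_left h1.le hC0)) h4

theorem tendsto_map {s t : ℕ} {u : ℕ → Sec B} (hu : Tendsto (fun m => (S0 P B).nrm s (u m)) atTop (𝓝 0))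
    (X : Sec B →ₗ[ℂ] Sec B')
    (hX : ∃ C, 0 ≤ C ∧ ∀ u, (S0 P B').nrm t (X u) ≤ C * (S0 P B).nrm s u) :
    Tendsto (fun m => (S0 P B').nrm t (X (u m))) atTop (𝓝 0) := by
  obtain ⟨C, hC0, hC⟩ := hX
  have h1 : Tendsto (fun m => C * (S0 P B).nrm s (u m)) atTop (𝓝 (C * 0)) := hu.const_mul C
  rw [mul_zero] at h1
  exact squeeze_zero (fun m => apply_nonneg _ _) (fun m => hC _) h1

/-- `H u m` converges in every `H^s` to one smooth section -/
theorem H_limit {u : ℕ → Sec B} (hu : Cau P B 0 u) :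
    ∃ z : Sec B, nabL B z = 0 ∧ ∀ s, Tendsto (fun m => (S0 P B).nrm s (T.H (u m) - z)) atTop (𝓝 0) := by
  obtain ⟨z, hz⟩ := (S0 P B).complete (fun m => T.H (u m)) fun s => Cau.map hu T.H (T.H_le s)
  have h1 : ∀ s, Tendsto (fun m => (S0 P B).nrm s (T.H (u m) - z)) atTop (𝓝 0) := by
    intro s
    rw [Metric.tendsto_atTop]
    intro ε hε
    obtain ⟨N, hN⟩ := hz s ε hε
    refine ⟨N, fun m hm => ?_⟩
    rw [Real.dist_eq, sub_zero, abs_of_nonneg (apply_nonneg _ _)]
    exact hN m hm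
  refine ⟨z, ?_, h1⟩
  have h2 := tendsto_map (h1 1) (nabL B) (nab0_le P B 0)
  have h3 : Tendsto (fun _ : ℕ => (S0 P B).nrm 0 (nabL B z)) atTop (𝓝 0) := by
    refine h2.congr fun m => ?_
    rw [map_sub, T.nabH, zero_sub, map_neg_eq_map]
  have h4 : (S0 P B).nrm 0 (nabL B z) = 0 := tendsto_nhds_unique tendsto_const_nhds h3
  exact (S0 P B).eq_zero _ h4

/-- **splitting of an almost closed `L²` sequence** -/
theorem l2_split {u : ℕ → Sec B} (hu : Cau P B 0 u)
    (hd : Tendsto (fun m => (S0 P B).nrm 0 (nabL B (u m))) atTop (𝓝 0)) :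
    ∃ z : Sec B, nabL B z = 0 ∧
      (∀ s, Tendsto (fun m => (S0 P B).nrm s (T.H (u m) - z)) atTop (𝓝 0)) ∧
      Cau P B 1 (fun m => T.K (u m)) ∧
      Tendsto (fun m => (S0 P B).nrm 0 (u m - z - nabL B (T.K (u m)))) atTop (𝓝 0) := by
  obtain ⟨z, hz, hlim⟩ := T.H_limit hu
  refine ⟨z, hz, hlim, Cau.map hu T.K (T.K_le 0), ?_⟩
  have h1 := tendsto_map hd T.K (t := 0) (by
    obtain ⟨C, hC0, hC⟩ := T.K_le 0
    exact ⟨C, hC0, fun u => ((S0 P B).nrm_mono (Nat.zero_le _) _).trans (hC u)⟩)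
  have h2 := (hlim 0).add h1
  rw [add_zero] at h2
  refine squeeze_zero (fun m => apply_nonneg _ _) (fun m => ?_) h2
  have h3 : u m - z - nabL B (T.K (u m)) = (T.H (u m) - z) + T.K (nabL B (u m)) := by
    have h4 := T.htpy (u m)
    have h5 : T.K (nabL B (u m)) = u m - T.H (u m) - nabL B (T.K (u m)) := by
      rw [h4]; abel
    rw [h5]
    abel
  rw [h3]
  exact map_add_le_add _ _ _

/-- degree of the limit -/
theorem limit_deg {q : ℕ} {u : ℕ → Sec B} (hq : ∀ m, pqL B q (u m) = u m) {z : Sec B}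
    (hz : Tendsto (fun m => (S0 P B).nrm 0 (T.H (u m) - z)) atTop (𝓝 0)) : pqL B q z = z := by
  have h1 := tendsto_map hz (pqL B q) (exists_nonneg_const (op0_pqL0 P B q 0))
  refine limit_unique (P := P) (v := fun m => T.H (u m)) ?_ hz
  refine h1.congr fun m => ?_
  rw [map_sub, ← T.Hpq, hq]

end HodgeOp

/-! ### duality -/

section dual

variable [CompactSpace M] [T2Space M] (D : DPair B B')

variable {B}

/-- **exactness in `L²`** : `u m` smooth of degree `q`, Cauchy in `L²`, `∇ u m → 0` in `L²`, and the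
limit is orthogonal to all closed smooth sections of the dual bundle.  Then `u m - ∇ y m → 0` in
`L²` with `y m` smooth, Cauchy in `H^1`, of the form `y m = K (u m) + y'`. -/
theorem l2_exact (T : HodgeOp P B) (D : DPair B B') {q : ℕ} (hq : q ≤ D.N) {u : ℕ → Sec B}
    (hdeg : ∀ m, pqL B q (u m) = u m) (hu : HodgeOp.Cau P B 0 u)
    (hd : Tendsto (fun m => (S0 P B).nrm 0 (nabL B (u m))) atTop (𝓝 0))
    (hprc : ∀ w : Sec B', ∃ C, 0 ≤ C ∧ ∀ v : Sec B, ‖Pai323.pr D P v w‖ ≤ C * (S0 P B).nrm 0 v)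
    (horth : ∀ w : Sec B', nabL B' w = 0 → Geo.pqL B' (D.N - q) w = w →
      Tendsto (fun m => Pai323.pr D P (u m) w) atTop (𝓝 0)) :
    ∃ y' : Sec B, HodgeOp.Cau P B 1 (fun m => T.K (u m) + y') ∧
      Tendsto (fun m => (S0 P B).nrm 0 (u m - nabL B (T.K (u m) + y'))) atTop (𝓝 0) := by
  obtain ⟨z, hz, hlim, hK, hdiff⟩ := T.l2_split hu hd
  have hzq := T.limit_deg hdeg (hlim 0)
  have hex : ∃ v, nabL B v = z := by
    rw [SerG398.exact_iff P D T.sq (rz P B) (rz P B') hq hzq]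
    intro w hw1 hw2
    obtain ⟨C, hC0, hC⟩ := hprc w
    -- `pr z w = lim pr (u m - ∇ K u m) w = lim pr (u m) w`
    have h1 : Tendsto (fun m => Pai323.pr D P (u m - z - nabL B (T.K (u m))) w) atTop (𝓝 0) := by
      rw [tendsto_zero_iff_norm_tendsto_zero]
      have h2 : Tendsto (fun m => C * (S0 P B).nrm 0 (u m - z - nabL B (T.K (u m)))) atTop
          (𝓝 (C * 0)) := hdiff.const_mul C
      rw [mul_zero] at h2
      exact squeeze_zero (fun m => norm_nonneg _) (fun m => hC _) h2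
    have h3 : ∀ m, Pai323.pr D P (u m - z - nabL B (T.K (u m))) w =
        Pai323.pr D P (u m) w - Pai323.pr D P z w := by
      intro m
      rw [map_sub, map_sub, LinearMap.sub_apply, LinearMap.sub_apply, Pai323.pr_nab, hw1,
        map_zero, sub_zero]
    simp only [h3] at h1
    have h4 := (horth w hw1 hw2).sub h1
    simp only [sub_sub_cancel, sub_zero] at h4
    exact tendsto_nhds_unique tendsto_const_nhds h4
  obtain ⟨y', hy'⟩ := hex
  refine ⟨y', ?_, ?_⟩
  · intro ε hε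
    obtain ⟨N, hN⟩ := hK ε hε
    refine ⟨N, fun m hm l hl => ?_⟩
    have := hN m hm l hl
    rwa [add_sub_add_right_eq_sub]
  · refine hdiff.congr fun m => ?_
    rw [map_add, hy']
    congr 1
    abel

end dual

end

end

end Crest.Agent.R273.HodgeH_803
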