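import Crest.Agent.R275.LauR_635

/-!
# R273, leaf D.15 (helper803), abstract part: Hodge type homotopy on a scale

`S` a scale on `V`, `d d = 0`, `d K + K d = 1 - R`, `R` negligible.  Then there are `H` (smoothing of
finite rank) and `K'` (`K` corrected) with `1 - H = d K' + K' d`, `d H = H d = 0`.
Graded version with projections `p q`.
-/

set_option autoImplicit false
set_option linter.unusedSectionVars false

namespace Crest.Agent.R273.HomScale_803

open Crest.Agent.R275.Fred685 Crest.Agent.R275.Lau635 Module LinearMap Submodule Filter Topology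

section alg

variable {𝕜 W : Type*} [Field 𝕜] [AddCommGroup W] [Module 𝕜 W]

/-- splitting of a complex of vector spaces: no finiteness needed -/
theorem exists_split (d : W →ₗ[𝕜] W) (hd : ∀ w, d (d w) = 0) :
    ∃ k H : W →ₗ[𝕜] W, (∀ w, w - H w = d (k w) + k (d w)) ∧ (∀ w, d (H w) = 0) ∧
      ∀ w, H (d w) = 0 := by
  obtain ⟨C, hC⟩ := (ker d).exists_isCompl
  let e : C ≃ₗ[𝕜] range d := LinearMap.kerComplementEquivRange d hC.symm
  have he : ∀ c : C, ((e c : range d) : W) = d (c : W) := fun c => rfl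
  obtain ⟨D, hD⟩ := (range d).exists_isCompl
  let PB : W →ₗ[𝕜] range d := Submodule.projectionOnto (range d) D hD
  have hPB : ∀ w, PB (d w) = ⟨d w, ⟨w, rfl⟩⟩ := fun w =>
    Submodule.projectionOnto_apply_left hD ⟨d w, ⟨w, rfl⟩⟩
  let k : W →ₗ[𝕜] W := C.subtype ∘ₗ (e.symm : range d →ₗ[𝕜] C) ∘ₗ PB
  have hk : ∀ w, k w = ((e.symm (PB w) : C) : W) := fun w => rfl
  have hdk : ∀ w, d (k w) = ((PB w : range d) : W) := by
    intro w
    rw [hk, ← he, e.apply_symm_apply]
  refine ⟨k, LinearMap.id - (d ∘ₗ k + k ∘ₗ d), fun w => ?_, fun w => ?_, fun w => ?_⟩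
  · simp
  · -- `d (w - d k w - k d w) = d w - d k d w`, and `d k d w = PB d w = d w`
    have h1 : d (k (d w)) = d w := by rw [hdk, hPB]
    simp [hd, h1]
  · have h1 : d (k (d w)) = d w := by rw [hdk, hPB]
    simp [hd, h1]

end alg

section scale

variable {𝕜 V : Type*} [RCLike 𝕜] [AddCommGroup V] [Module 𝕜 V] {S : Scale 𝕜 V}

theorem opm_add {A B : V →ₗ[𝕜] V} (hA : Opm S S A) (hB : Opm S S B) : Opm S S (A + B) := by
  intro s
  obtain ⟨C, hC⟩ := hA s
  obtain ⟨D, hD⟩ := hB s
  refine ⟨C + D, fun v => ?_⟩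
  rw [LinearMap.add_apply, add_mul]
  exact (map_add_le_add _ _ _).trans (add_le_add (hC v) (hD v))

theorem opm_comp_op0 {A B : V →ₗ[𝕜] V} (hA : Opm S S A) (hB : Op0 S S B) : Opm S S (A ∘ₗ B) := by
  intro s
  obtain ⟨C, hC0, hC⟩ := exists_nonneg_const (hA s)
  obtain ⟨D, hD⟩ := hB s
  refine ⟨C * D, fun v => ?_⟩
  rw [LinearMap.comp_apply, mul_assoc]
  exact (hC _).trans (mul_le_mul_of_nonneg_left (hD v) hC0)

theorem op0_comp_opm {A B : V →ₗ[𝕜] V} (hA : Op0 S S A) (hB : Opm S S B) : Opm S S (A ∘ₗ B) := by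
  intro s
  obtain ⟨C, hC0, hC⟩ := exists_nonneg_const (hA (s + 1))
  obtain ⟨D, hD⟩ := hB s
  refine ⟨C * D, fun v => ?_⟩
  rw [LinearMap.comp_apply, mul_assoc]
  exact (hC _).trans (mul_le_mul_of_nonneg_left (hD v) hC0)

theorem opm_zero : Opm S S (0 : V →ₗ[𝕜] V) := fun s => ⟨0, fun v => by simp⟩

theorem opm_sum {ι : Type*} (t : Finset ι) {f : ι → V →ₗ[𝕜] V} (h : ∀ i ∈ t, Opm S S (f i)) :
    Opm S S (∑ i ∈ t, f i) := by
  classical
  induction t using Finset.induction_on with
  | empty => simpa using opm_zero (S := S)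
  | insert i t hi ih =>
    rw [Finset.sum_insert hi]
    exact opm_add (h i (Finset.mem_insert_self i t)) (ih fun j hj => h j (Finset.mem_insert_of_mem hj))

theorem smFin_sum {ι : Type*} (t : Finset ι) {f : ι → V →ₗ[𝕜] V}
    (h : ∀ i ∈ t, SmFin S S (f i)) : SmFin S S (∑ i ∈ t, f i) := by
  classical
  induction t using Finset.induction_on with
  | empty => simpa using SmFin.zero (S := S) (T := S)
  | insert i t hi ih =>
    rw [Finset.sum_insert hi]
    exact (h i (Finset.mem_insert_self i t)).add (ih fun j hj => h j (Finset.mem_insert_of_mem hj))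

/-- **Hodge type homotopy on a scale** -/
theorem exists_homotopy {d K R : Module.End 𝕜 V} (hd : ∀ v, d (d v) = 0)
    (hKd : ∀ v, d (K v) + K (d v) = v - R v) (hK : Opm S S K) (hR : Neg S S R) :
    ∃ H K' : Module.End 𝕜 V, SmFin S S H ∧ Opm S S K' ∧
      (∀ v, v - H v = d (K' v) + K' (d v)) ∧ (∀ v, d (H v) = 0) ∧ ∀ v, H (d v) = 0 := by
  obtain ⟨p, π, hsm, hfd, hπ1, hπ2, hπ3, hπ4, hπ5, hπ6, hπ7⟩ := exists_riesz_projection hR
  -- `d` commutes with `R`
  have hdR : ∀ v, d (R v) = R (d v) := by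
    intro v
    have h1 := congrArg d (hKd v)
    have h2 := hKd (d v)
    rw [map_add, hd, zero_add, map_sub] at h1
    rw [hd, map_zero, add_zero] at h2
    rw [h1] at h2
    exact sub_right_injective h2
  have hdRm : d * R = R * d := LinearMap.ext hdR
  have hdπ : ∀ v, d (π v) = π (d v) := fun v => LinearMap.congr_fun (hπ5 d hdRm) v
  have hRπ : ∀ v, R (π v) = π (R v) := fun v => LinearMap.congr_fun (hπ5 R rfl) v
  have hππ : ∀ v, π (π v) = π v := fun v => hπ2 _ (hπ1 v)
  -- the operator `1 - N'` with `N' = R - R π` is bijective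
  have hN' : Neg S S (R - R * π) := hR.sub (hR.comp_right hsm.op0)
  have hval : ∀ v, (LinearMap.id - (R - R * π) : V →ₗ[𝕜] V) v = v - R v + R (π v) := by
    intro v
    show v - (R v - R (π v)) = _
    abel
  have hbij : Function.Bijective (LinearMap.id - (R - R * π) : V →ₗ[𝕜] V) := by
    constructor
    · rw [injective_iff_map_eq_zero]
      intro v hv
      rw [hval] at hv
      have h1 : π v = 0 := by
        have h2 := congrArg π hv
        rw [map_add, map_sub, map_zero, ← hRπ v, ← hRπ (π v), hππ] at h2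
        simpa using h2
      rw [h1, map_zero, add_zero] at hv
      exact hπ6 v h1 hv
    · intro v
      obtain ⟨w, hw1, hw2⟩ := hπ7 (v - π v) (by rw [map_sub, hππ, sub_self])
      refine ⟨w + π v, ?_⟩
      rw [hval, map_add, map_add, hw1, hππ, zero_add]
      have : w + π v - (R w + R (π v)) + R (π v) = (w - R w) + π v := by abel
      rw [this, hw2]
      abel
  obtain ⟨Q, hQ1, hQ2, hQ3, hQ4⟩ := inverse_neg hN' hbij
  have hQ1' : ∀ v, Q (v - R v + R (π v)) = v := by
    intro v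
    have h1 := hQ1 v
    have h2 : v - (R - R * π) v = v - R v + R (π v) := hval v
    rwa [h2] at h1
  have hQ2' : ∀ v, Q v - R (Q v) + R (π (Q v)) = v := by
    intro v
    have h1 := hQ2 v
    have h2 : Q v - (R - R * π) (Q v) = Q v - R (Q v) + R (π (Q v)) := hval (Q v)
    rwa [h2] at h1
  -- `Q` commutes with `d` and `π`
  have hinj : ∀ a b : V, a - R a + R (π a) = b - R b + R (π b) → a = b := by
    intro a b hab
    rw [← hQ1' a, ← hQ1' b, hab]
  have hdQ : ∀ v, d (Q v) = Q (d v) := by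
    intro v
    apply hinj
    rw [hQ2' (d v), ← hdR, ← hdπ, ← hdR, ← map_sub, ← map_add, hQ2']
  have hπQ : ∀ v, π (Q v) = Q (π v) := by
    intro v
    apply hinj
    rw [hQ2' (π v), hRπ, hRπ (π (Q v)), ← map_sub, ← map_add, hQ2']
  -- on `ker π`: `Q` inverts `1 - R`
  have hQR : ∀ v, π v = 0 → Q v - R (Q v) = v := by
    intro v hv
    have h1 := hQ2' v
    rwa [hπQ, hv, map_zero, map_zero, add_zero] at h1
  -- splitting on the range of `π`
  let W : Submodule 𝕜 V := ker ((1 - R) ^ p)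
  have hdW : ∀ w ∈ W, d w ∈ W := by
    intro w hw
    have h1 : d w = π (d w) := by rw [← hdπ, hπ2 w hw]
    rw [h1]
    exact hπ1 _
  let dW : W →ₗ[𝕜] W := d.restrict hdW
  obtain ⟨k, h, hk1, hk2, hk3⟩ := exists_split dW (fun w => Subtype.ext (hd w.1))
  let πW : V →ₗ[𝕜] W := LinearMap.codRestrict W π hπ1
  have hπW : ∀ v, ((πW v : W) : V) = π v := fun v => rfl
  have hπWd : ∀ v, πW (d v) = dW (πW v) := fun v => Subtype.ext (hdπ v).symm
  -- extend operators of `W` to `V`
  obtain ⟨C, hC⟩ := W.exists_isCompl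
  let pW : V →ₗ[𝕜] W := Submodule.projectionOnto W C hC
  have hpW : ∀ w : W, pW (w : V) = w := fun w => Submodule.projectionOnto_apply_left hC w
  have hsm' : ∀ g : W →ₗ[𝕜] W, SmFin S S (W.subtype ∘ₗ g ∘ₗ πW) := by
    intro g
    have h1 : W.subtype ∘ₗ g ∘ₗ πW = (W.subtype ∘ₗ g ∘ₗ pW) ∘ₗ π := by
      apply LinearMap.ext
      intro v
      show ((g (πW v) : W) : V) = ((g (pW (π v)) : W) : V)
      rw [← hπW, hpW]
    rw [h1]
    exact SmFin.comp_left_any hsm _
  refine ⟨W.subtype ∘ₗ h ∘ₗ πW, K ∘ₗ Q ∘ₗ (LinearMap.id - π) + W.subtype ∘ₗ k ∘ₗ πW,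
    hsm' h, ?_, ?_, ?_, ?_⟩
  · exact opm_add (opm_comp_op0 hK (hQ3.comp (Op0.id.sub hsm.op0))) (hsm' k).neg_mem.opm
  · intro v
    have h2 : ∀ v, (K ∘ₗ Q ∘ₗ (LinearMap.id - π) + W.subtype ∘ₗ k ∘ₗ πW : V →ₗ[𝕜] V) v =
        K (Q (v - π v)) + ((k (πW v) : W) : V) := fun v => rfl
    show v - ((h (πW v) : W) : V) = _
    rw [h2, h2, map_add]
    have h3 : π v - ((h (πW v) : W) : V) = d ((k (πW v) : W) : V) + ((k (πW (d v)) : W) : V) := by
      have h4 := congrArg Subtype.val (hk1 (πW v))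
      rw [hπWd]
      exact h4
    have h5 : v - π v = d (K (Q (v - π v))) + K (Q (d v - π (d v))) := by
      have h6 : π (v - π v) = 0 := by rw [map_sub, hππ, sub_self]
      have h7 := hQR (v - π v) h6
      have h8 := hKd (Q (v - π v))
      rw [h7, hdQ, map_sub d, hdπ] at h8
      exact h8.symm
    have h9 : v - ((h (πW v) : W) : V) = (v - π v) + (π v - ((h (πW v) : W) : V)) := by abel
    rw [h9, h3]
    conv_lhs => rw [h5]
    abel
  · intro v
    exact congrArg Subtype.val (hk2 (πW v))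
  · intro v
    show ((h (πW (d v)) : W) : V) = 0
    rw [hπWd, hk3]
    rfl

/-- graded version -/
theorem exists_homotopy_graded {d K R : Module.End 𝕜 V} (hd : ∀ v, d (d v) = 0)
    (hKd : ∀ v, d (K v) + K (d v) = v - R v) (hK : Opm S S K) (hR : Neg S S R)
    (p : ℕ → Module.End 𝕜 V) (m : ℕ) (hp0 : ∀ q, Op0 S S (p q)) (hpp : ∀ q v, p q (p q v) = p q v)
    (hpq : ∀ q r v, q ≠ r → p q (p r v) = 0) (hsum : ∀ v, ∑ q ∈ Finset.range (m + 1), p q v = v)
    (hpd : ∀ q v, p (q + 1) (d v) = d (p q v)) (hpd0 : ∀ v, p 0 (d v) = 0) :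
    ∃ H K' : Module.End 𝕜 V, SmFin S S H ∧ Opm S S K' ∧
      (∀ v, v - H v = d (K' v) + K' (d v)) ∧ (∀ v, d (H v) = 0) ∧ (∀ v, H (d v) = 0) ∧
      (∀ q v, H (p q v) = p q (H v)) ∧ (∀ q v, K' (p (q + 1) v) = p q (K' v)) ∧
      ∀ v, K' (p 0 v) = 0 := by
  obtain ⟨H, K', hH, hK', h1, h2, h3⟩ := exists_homotopy hd hKd hK hR
  have htop : ∀ q v, m < q → p q v = 0 := by
    intro q v hq
    have h4 := congrArg (p q) (hsum v)
    rw [map_sum] at h4
    rw [← h4]
    refine Finset.sum_eq_zero fun r hr => hpq q r v ?_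
    have := Finset.mem_range.1 hr
    omega
  let H' : Module.End 𝕜 V := ∑ q ∈ Finset.range (m + 1), p q ∘ₗ H ∘ₗ p q
  let K3 : Module.End 𝕜 V := ∑ q ∈ Finset.range (m + 1), p q ∘ₗ K' ∘ₗ p (q + 1)
  have hH' : ∀ v, H' v = ∑ q ∈ Finset.range (m + 1), p q (H (p q v)) := fun v => by
    simp only [H', LinearMap.sum_apply, LinearMap.comp_apply]
  have hK3 : ∀ v, K3 v = ∑ q ∈ Finset.range (m + 1), p q (K' (p (q + 1) v)) := fun v => by
    simp only [K3, LinearMap.sum_apply, LinearMap.comp_apply]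
  have hHq : ∀ q v, p q (H' v) = p q (H (p q v)) := by
    intro q v
    rw [hH', map_sum]
    by_cases hq : q ∈ Finset.range (m + 1)
    · rw [Finset.sum_eq_single_of_mem q hq fun r _ hr => hpq q r _ (Ne.symm hr), hpp]
    · have hq' : m < q := by
        rw [Finset.mem_range] at hq
        omega
      rw [htop q _ hq']
      exact Finset.sum_eq_zero fun r _ => htop q _ hq'
  have hKq : ∀ q v, p q (K3 v) = p q (K' (p (q + 1) v)) := by
    intro q v
    rw [hK3, map_sum]
    by_cases hq : q ∈ Finset.range (m + 1)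
    · rw [Finset.sum_eq_single_of_mem q hq fun r _ hr => hpq q r _ (Ne.symm hr), hpp]
    · have hq' : m < q := by
        rw [Finset.mem_range] at hq
        omega
      rw [htop q _ hq']
      exact Finset.sum_eq_zero fun r _ => htop q _ hq'
  have hext : ∀ a b : V, (∀ q, p q a = p q b) → a = b := by
    intro a b hab
    rw [← hsum a, ← hsum b]
    exact Finset.sum_congr rfl fun q _ => hab q
  have hHp : ∀ q v, H' (p q v) = p q (H' v) := by
    intro q v
    apply hext
    intro r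
    rw [hHq]
    by_cases hr : r = q
    · subst hr
      rw [hpp, hpp, hHq]
    · rw [hpq r q _ hr, hpq r q _ hr, map_zero, map_zero]
  refine ⟨H', K3, ?_, ?_, ?_, ?_, ?_, hHp, ?_, ?_⟩
  · refine smFin_sum _ fun q _ => ?_
    exact ((hH.comp_right (hp0 q)).comp_left (hp0 q))
  · refine opm_sum _ fun q _ => ?_
    exact op0_comp_opm (hp0 q) (opm_comp_op0 hK' (hp0 (q + 1)))
  · intro v
    apply hext
    intro q
    rw [map_sub, map_add, hHq, hKq]
    have h5 : p q (d (K3 v)) = p q (d (K' (p q v))) := by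
      cases q with
      | zero => rw [hpd0, hpd0]
      | succ q =>
        rw [hpd, hpd, hKq]
    rw [h5, hpd, ← map_add, ← h1, map_sub, hpp]
  · intro v
    apply hext
    intro q
    rw [map_zero]
    cases q with
    | zero => exact hpd0 _
    | succ q => rw [hpd, hHq, ← hpd, h2, map_zero]
  · intro v
    apply hext
    intro q
    rw [map_zero, hHq]
    cases q with
    | zero => rw [hpd0, map_zero, map_zero]
    | succ q => rw [hpd, h3, map_zero]
  · intro q v
    apply hext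
    intro r
    rw [hKq]
    by_cases hr : r = q
    · subst hr
      rw [hpp, hpp, hKq]
    · rw [hpq (r + 1) (q + 1) _ (by omega), hpq r q _ hr, map_zero, map_zero]
  · intro v
    rw [hK3]
    refine Finset.sum_eq_zero fun q _ => ?_
    rw [hpq (q + 1) 0 _ (by omega), map_zero, map_zero]

end scale

end Crest.Agent.R273.HomScale_803
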