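import Crest.Agent.R273.Indep_597

/-!
# R273, INDEP, the form (F2) (helper597)
-/

set_option autoImplicit false
set_option linter.unusedSectionVars false

open Set Filter Topology Complex
open scoped ContDiff Matrix ComplexConjugate

namespace Crest.Agent.R273.Indep_597

open Crest.Agent.R275.Geo Crest.Agent.R275.Core144 Crest.Agent.R275.GC293
open Crest.Agent.R273.Defs_333 Crest.Agent.R273.FS_333
open Crest.Agent.R273.Rigid769 Crest.Agent.R273.Mer769 Crest.Agent.R273.FF769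
open Crest.Agent.R273.SteinC_794 Crest.Agent.R273.SteinD_794 Crest.Agent.R273.SteinE_794

noncomputable section

variable {n : ℕ} {M : Type} [TopologicalSpace M] {A : Atl n M}

/-- (F2), dense form: quotients of sections -/
theorem indep_qt_dn [ConnectedSpace M] (P : ProjD A) (htr : Algebra.trdeg ℂ (KK A) ≤ n)
    {κ : Type*} {B : κ → LB A} {s t : κ → A.ι → M → ℂ} (hs : ∀ k, IsHS (B k) univ (s k))
    (ht : ∀ k, IsHS (B k) univ (t k)) (h0 : ∀ k, t k ≠ 0) {y : κ → Mer A}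
    (hy : ∀ k, RelS (y k) (s k) (t k)) (hi : AlgebraicIndependent ℂ y) :
    Finite κ ∧ Nat.card κ ≤ n ∧ {x | (∀ k, x ∈ nz (t k)) ∧ ∀ i, x ∈ (A.e i).source →
      LinearIndependent ℂ (fun k => df A i (qt (s k) (t k)) x)} ∈ dn M := by
  obtain ⟨h1, h2, h3⟩ := indep P htr
    (fun k => mem_KK.2 ⟨B k, s k, t k, hs k, ht k, h0 k, hy k⟩) hi
  refine ⟨h1, h2, ?_⟩
  have hne : ∀ k, ∃ i, ∃ x ∈ (A.e i).source, t k i x ≠ 0 := by
    intro k
    by_contra hcon
    push Not at hcon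
    refine h0 k ?_
    funext i x
    by_cases hx : x ∈ (A.e i).source
    · exact hcon i x hx
    · exact (ht k).off i x hx
  have h4 : {x | ∀ k, x ∈ nz (t k)} ∈ dn M := by
    have : {x | ∀ k, x ∈ nz (t k)} = ⋂ k, nz (t k) := by ext x; simp
    rw [this]
    exact Filter.iInter_mem.2 fun k => dn_of_dense (isOpen_nz (ht k)) (dense_nz (ht k) (hne k))
  filter_upwards [h3, h4] with x hx hx'
  refine ⟨hx', fun i hi => ?_⟩
  have h5 := hx.2 i hi
  have h6 : (fun k => df A i (qt (s k) (t k)) x) = fun k => df A i (ev (y k)) x := by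
    funext k
    refine (df_congr hi ?_).symm
    filter_upwards [(isOpen_nz (ht k)).mem_nhds (hx' k)] with z hz
    exact ((hy k).ev_qt (hs k) (ht k) hz).2
  rw [h6]
  exact h5

/-- (F2) of #1999 -/
theorem indep_qt [ConnectedSpace M] (P : ProjD A) (htr : Algebra.trdeg ℂ (KK A) ≤ n)
    {κ : Type*} {B : LB A} {s : κ → A.ι → M → ℂ} {t : A.ι → M → ℂ}
    (hs : ∀ k, IsHS B univ (s k)) (ht : IsHS B univ t) (h0 : t ≠ 0) {y : κ → Mer A}
    (hy : ∀ k, RelS (y k) (s k) t) (hi : AlgebraicIndependent ℂ y) :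
    ∃ i, ∃ x ∈ (A.e i).source, t i x ≠ 0 ∧
      LinearIndependent ℂ (fun k => df A i (qt (s k) t) x) := by
  obtain ⟨-, -, h3⟩ := indep_qt_dn P htr hs (fun _ => ht) (fun _ => h0) hy hi
  have hne : ∃ i, ∃ x ∈ (A.e i).source, t i x ≠ 0 := by
    by_contra hcon
    push Not at hcon
    refine h0 ?_
    funext i x
    by_cases hx : x ∈ (A.e i).source
    · exact hcon i x hx
    · exact ht.off i x hx
  have h4 : nz t ∈ dn M := dn_of_dense (isOpen_nz ht) (dense_nz ht hne)
  obtain ⟨x, -, hx⟩ := exists_mem_of_dn (inter_mem h3 h4) isOpen_univ univ_nonempty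
  obtain ⟨hx1, hx2⟩ := mem_of_mem_nhds hx
  obtain ⟨i, hi⟩ := A.cover x
  exact ⟨i, x, hi, (mem_nz ht hi).1 hx2, hx1.2 i hi⟩

end

end Crest.Agent.R273.Indep_597
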