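import Crest.Agent.R273.Beta_769

/-!
# R273, INDEP (helper597): algebraic independence and independence of the differentials

`SF t`   : the meromorphic functions whose differential is, on a dense open set, a combination of
           the differentials of the `t j`; an intermediate field, algebraically closed in `Mer A`
`indep`  : algebraically independent elements of `KK A` have independent differentials on a dense
           open set
`le_trdeg`, `algInd_of_df`.
-/

set_option autoImplicit false
set_option linter.unusedSectionVars false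

open Set Filter Topology Complex
open scoped ContDiff Matrix ComplexConjugate

namespace Crest.Agent.R273.Indep_597

open Crest.Agent.R275.Geo Crest.Agent.R275.Core144 Crest.Agent.R275.GC293
open Crest.Agent.R273.Defs_333 Crest.Agent.R273.FS_333
open Crest.Agent.R273.Rigid769 Crest.Agent.R273.Mer769 Crest.Agent.R273.FF769
open Crest.Agent.R273.SteinC_794 Crest.Agent.R273.SteinD_794 Crest.Agent.R273.SteinE_794

noncomputable section

variable {n : ℕ} {M : Type} [TopologicalSpace M] {A : Atl n M}

/-! ### differentials of elements of `Mer A` -/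

section Diff

variable {g h : Mer A} {x : M} {i : A.ι}

/-- the differential in the chart `i` -/
def dd (g : Mer A) (i : A.ι) (x : M) : Cn n →L[ℂ] ℂ := df A i (ev g) x

theorem diffAt_ev (hi : x ∈ (A.e i).source) (hx : x ∈ reg g) :
    DifferentiableAt ℂ (fun z => ev g ((A.e i).symm z)) (A.e i x) :=
  (holU_ev g i).diffAt (isOpen_reg g) hi hx

theorem dd_add (hi : x ∈ (A.e i).source) (hg : x ∈ reg g) (hh : x ∈ reg h) :
    dd (g + h) i x = dd g i x + dd h i x := by
  have h1 : ev (g + h) =ᶠ[𝓝 x] fun y => ev g y + ev h y := by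
    filter_upwards [(isOpen_reg g).mem_nhds hg, (isOpen_reg h).mem_nhds hh] with y h1 h2 using
      (reg_add h1 h2).2
  unfold dd
  rw [df_congr hi h1]
  exact fderiv_fun_add (diffAt_ev hi hg) (diffAt_ev hi hh)

theorem dd_mul (hi : x ∈ (A.e i).source) (hg : x ∈ reg g) (hh : x ∈ reg h) :
    dd (g * h) i x = ev g x • dd h i x + ev h x • dd g i x := by
  have h1 : ev (g * h) =ᶠ[𝓝 x] fun y => ev g y * ev h y := by
    filter_upwards [(isOpen_reg g).mem_nhds hg, (isOpen_reg h).mem_nhds hh] with y h1 h2 using
      (reg_mul h1 h2).2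
  unfold dd
  rw [df_congr hi h1]
  exact df_mul ((isOpen_reg g).inter (isOpen_reg h)) ((holU_ev g i).mono inter_subset_left)
    ((holU_ev h i).mono inter_subset_right) hi ⟨hg, hh⟩

theorem dd_algebraMap (c : ℂ) (hi : x ∈ (A.e i).source) :
    dd (algebraMap ℂ (Mer A) c) i x = 0 := by
  have h1 : ev (algebraMap ℂ (Mer A) c) =ᶠ[𝓝 x] fun _ => c :=
    Eventually.of_forall fun y => (reg_algebraMap c y).2
  unfold dd
  rw [df_congr hi h1]
  simp [df]

theorem reg_one (x : M) : x ∈ reg (1 : Mer A) ∧ ev (1 : Mer A) x = 1 := by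
  have := reg_algebraMap (A := A) 1 x
  rwa [map_one] at this

theorem dd_one (hi : x ∈ (A.e i).source) : dd (1 : Mer A) i x = 0 := by
  have := dd_algebraMap (A := A) 1 hi
  rwa [map_one] at this

theorem dd_zero (hi : x ∈ (A.e i).source) : dd (0 : Mer A) i x = 0 := by
  have := dd_algebraMap (A := A) 0 hi
  rwa [map_zero] at this

theorem reg_natCast (k : ℕ) (x : M) : x ∈ reg (k : Mer A) ∧ ev (k : Mer A) x = k := by
  have := reg_algebraMap (A := A) k x
  rwa [map_natCast] at this

theorem reg_pow (hg : x ∈ reg g) (k : ℕ) : x ∈ reg (g ^ k) ∧ ev (g ^ k) x = ev g x ^ k := by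
  induction k with
  | zero => simpa using reg_one x
  | succ k ih =>
    have := reg_mul ih.1 hg
    rw [pow_succ, pow_succ, ← ih.2]
    exact this

theorem dd_pow (hi : x ∈ (A.e i).source) (hg : x ∈ reg g) (k : ℕ) :
    dd (g ^ k) i x = ((k : ℂ) * ev g x ^ (k - 1)) • dd g i x := by
  induction k with
  | zero =>
    rw [pow_zero, dd_one hi]
    ext v
    simp only [_root_.zero_apply, _root_.smul_apply, smul_eq_mul]
    simp
  | succ k ih =>
    rw [pow_succ, dd_mul hi (reg_pow hg k).1 hg, ih, (reg_pow hg k).2]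
    ext v
    simp only [_root_.add_apply, _root_.smul_apply, smul_eq_mul]
    rcases Nat.eq_zero_or_pos k with rfl | hk
    · simp
    · obtain ⟨m, rfl⟩ : ∃ m, k = m + 1 := ⟨k - 1, by omega⟩
      simp only [Nat.add_sub_cancel]
      push_cast
      ring

theorem dd_inv [ConnectedSpace M] (hi : x ∈ (A.e i).source) (hg : x ∈ reg g) (h0 : ev g x ≠ 0) :
    dd g⁻¹ i x = (-(ev g x)⁻¹ ^ 2) • dd g i x := by
  have h1 : g ≠ 0 := by
    rintro rfl
    have := reg_algebraMap (A := A) 0 x
    rw [map_zero] at this
    exact h0 this.2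
  have h2 := reg_inv hg h0
  have h3 := dd_mul hi hg h2.1
  rw [mul_inv_cancel₀ h1, dd_one hi, h2.2] at h3
  ext v
  have h4 := congrArg (fun φ : Cn n →L[ℂ] ℂ => φ v) h3
  simp only [_root_.add_apply, _root_.smul_apply, _root_.zero_apply, smul_eq_mul] at h4 ⊢
  field_simp
  field_simp at h4
  linear_combination -h4

theorem dd_chg {j : A.ι} (hi : x ∈ (A.e i).source) (hj : x ∈ (A.e j).source) (hg : x ∈ reg g) :
    dd g i x = (dd g j x).comp (dJ A i j x) := by
  ext v
  exact df_chg (isOpen_reg g) (holU_ev g j) hi hj hg v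

end Diff

/-! ### the field `SF t` -/

section Span

variable {κ : Type*} (t : κ → Mer A)

/-- the span of the differentials -/
def sp (i : A.ι) (x : M) : Submodule ℂ (Cn n →L[ℂ] ℂ) :=
  Submodule.span ℂ (range fun j => dd (t j) i x)

/-- the points where the differential of `g` is in the span -/
def gd (g : Mer A) : Set M := {x | ∀ i, x ∈ (A.e i).source → dd g i x ∈ sp t i x}

/-- the functions whose differential is in the span of the differentials of `t` -/
def SF [ConnectedSpace M] : IntermediateField ℂ (Mer A) where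
  carrier := {g | gd t g ∈ dn M}
  mul_mem' := by
    intro g h hg hh
    show _ ∈ dn M
    filter_upwards [hg, hh, dn_reg g, dn_reg h] with x h1 h2 h3 h4 i hi
    rw [dd_mul hi h3 h4]
    exact (sp t i x).add_mem ((sp t i x).smul_mem _ (h2 i hi)) ((sp t i x).smul_mem _ (h1 i hi))
  add_mem' := by
    intro g h hg hh
    show _ ∈ dn M
    filter_upwards [hg, hh, dn_reg g, dn_reg h] with x h1 h2 h3 h4 i hi
    rw [dd_add hi h3 h4]
    exact (sp t i x).add_mem (h1 i hi) (h2 i hi)
  algebraMap_mem' := fun c => by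
    show _ ∈ dn M
    refine Filter.univ_mem' fun x i hi => ?_
    rw [dd_algebraMap c hi]
    exact (sp t i x).zero_mem
  inv_mem' := by
    intro g hg
    show _ ∈ dn M
    by_cases h0 : g = 0
    · subst h0
      rw [inv_zero]
      exact hg
    · filter_upwards [hg, dn_ne h0] with x h1 h2 i hi
      rw [dd_inv hi h2.1 h2.2]
      exact (sp t i x).smul_mem _ (h1 i hi)

variable {t}

theorem mem_SF [ConnectedSpace M] {g : Mer A} : g ∈ SF t ↔ gd t g ∈ dn M := Iff.rfl

theorem self_mem_SF [ConnectedSpace M] (j : κ) : t j ∈ SF t := by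
  rw [mem_SF]
  refine Filter.univ_mem' fun x i _ => ?_
  have h : dd (t j) i x ∈ range fun j => dd (t j) i x := ⟨j, rfl⟩
  exact Submodule.subset_span h

/-- the differential of a polynomial expression -/
theorem dd_aeval [ConnectedSpace M] (g : Mer A) (p : Polynomial (SF t)) :
    {x | ∀ i, x ∈ (A.e i).source → dd (Polynomial.aeval g p) i x -
      ev (Polynomial.aeval g (Polynomial.derivative p)) x • dd g i x ∈ sp t i x} ∈ dn M := by
  induction p using Polynomial.induction_on' with
  | add p q hp hq =>
    filter_upwards [hp, hq, dn_reg (Polynomial.aeval g p), dn_reg (Polynomial.aeval g q),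
      dn_reg (Polynomial.aeval g (Polynomial.derivative p)),
      dn_reg (Polynomial.aeval g (Polynomial.derivative q))] with x h1 h2 h3 h4 h5 h6 i hi
    rw [map_add, map_add, map_add, dd_add hi h3 h4, (reg_add h5 h6).2]
    have h7 := (sp t i x).add_mem (h1 i hi) (h2 i hi)
    convert h7 using 1
    ext v
    simp only [_root_.add_apply, _root_.sub_apply, _root_.smul_apply, smul_eq_mul]
    ring
  | monomial k c =>
    filter_upwards [c.2, dn_reg g, dn_reg (c : Mer A)] with x h1 h2 h3 i hi
    have e1 : Polynomial.aeval g (Polynomial.monomial k c) = (c : Mer A) * g ^ k := by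
      rw [Polynomial.aeval_monomial]; rfl
    have e2 : Polynomial.aeval g (Polynomial.derivative (Polynomial.monomial k c)) =
        (c : Mer A) * ((k : Mer A) * g ^ (k - 1)) := by
      rw [Polynomial.derivative_monomial, Polynomial.aeval_monomial, map_mul, map_natCast, mul_assoc]
      rfl
    have r1 := reg_natCast (A := A) k x
    have r2 := reg_pow h2 (k - 1)
    have r3 := reg_mul r1.1 r2.1
    rw [e1, e2, dd_mul hi h3 (reg_pow h2 k).1, (reg_pow h2 k).2, dd_pow hi h2,
      (reg_mul h3 r3.1).2, r3.2, r1.2, r2.2, smul_smul, add_sub_cancel_left]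
    exact (sp t i x).smul_mem _ (h1 i hi)

/-- `SF t` is algebraically closed in `Mer A` -/
theorem mem_SF_of_isAlgebraic [ConnectedSpace M] {g : Mer A} (hg : IsAlgebraic (SF t) g) :
    g ∈ SF t := by
  have hi := hg.isIntegral
  have hsep : (minpoly (SF t) g).Separable := (minpoly.irreducible hi).separable
  have h0 : Polynomial.aeval g (minpoly (SF t) g) = 0 := minpoly.aeval _ _
  have h1 := hsep.aeval_derivative_ne_zero h0
  have h2 := dd_aeval (t := t) g (minpoly (SF t) g)
  rw [mem_SF]
  filter_upwards [h2, dn_ne h1] with x h3 h4 i hi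
  have h5 := h3 i hi
  rw [h0, dd_zero hi, zero_sub] at h5
  have h6 := (sp t i x).smul_mem
    (-(ev (Polynomial.aeval g (Polynomial.derivative (minpoly (SF t) g))) x)⁻¹) h5
  have h7 : dd g i x = (-(ev (Polynomial.aeval g (Polynomial.derivative (minpoly (SF t) g))) x)⁻¹)
      • -(ev (Polynomial.aeval g (Polynomial.derivative (minpoly (SF t) g))) x • dd g i x) := by
    ext v
    simp only [_root_.neg_apply, _root_.smul_apply, smul_eq_mul]
    field_simp [h4.2]
  rw [h7]
  exact h6

theorem mem_SF_of_adjoin [ConnectedSpace M] {y : κ → Mer A} {s : Set κ} {g : Mer A}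
    (hg : IsAlgebraic (Algebra.adjoin ℂ (y '' s)) g) : g ∈ SF fun k : s => y k := by
  have h1 : ∀ a ∈ Algebra.adjoin ℂ (y '' s), a ∈ SF fun k : s => y k := by
    intro a ha
    induction ha using Algebra.adjoin_induction with
    | mem a ha =>
      obtain ⟨j, hj, rfl⟩ := ha
      exact self_mem_SF (t := fun k : s => y k) ⟨j, hj⟩
    | algebraMap c => exact (SF fun k : s => y k).algebraMap_mem c
    | add a b _ _ ha hb => exact (SF fun k : s => y k).add_mem ha hb
    | mul a b _ _ ha hb => exact (SF fun k : s => y k).mul_mem ha hb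
  let f : Algebra.adjoin ℂ (y '' s) →+* SF fun k : s => y k :=
    { toFun := fun a => ⟨a.1, h1 a.1 a.2⟩
      map_one' := rfl
      map_zero' := rfl
      map_add' := fun _ _ => rfl
      map_mul' := fun _ _ => rfl }
  have hf : Function.Injective f := by
    intro a b hab
    have := congrArg Subtype.val hab
    exact Subtype.ext this
  have h2 := hg.ringHom_of_comp_eq f (RingHom.id (Mer A)) hf (by ext a; rfl)
  exact mem_SF_of_isAlgebraic h2

/-- a field which is algebraic over `ℂ(t)` is contained in `SF t` -/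
theorem le_SF [ConnectedSpace M] {K : IntermediateField ℂ (Mer A)} {t : κ → K}
    (ht : Algebra.IsAlgebraic (Algebra.adjoin ℂ (range t)) K) :
    K ≤ SF fun j => (t j : Mer A) := by
  intro g hg
  have h1 : ∀ a ∈ Algebra.adjoin ℂ (range t), (a : Mer A) ∈ SF fun j => (t j : Mer A) := by
    intro a ha
    induction ha using Algebra.adjoin_induction with
    | mem a ha =>
      obtain ⟨j, rfl⟩ := ha
      exact self_mem_SF (t := fun j => (t j : Mer A)) j
    | algebraMap c => exact (SF fun j => (t j : Mer A)).algebraMap_mem c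
    | add a b _ _ ha hb => exact (SF fun j => (t j : Mer A)).add_mem ha hb
    | mul a b _ _ ha hb => exact (SF fun j => (t j : Mer A)).mul_mem ha hb
  let f : Algebra.adjoin ℂ (range t) →+* SF fun j => (t j : Mer A) :=
    { toFun := fun a => ⟨(a.1 : Mer A), h1 a.1 a.2⟩
      map_one' := rfl
      map_zero' := rfl
      map_add' := fun _ _ => rfl
      map_mul' := fun _ _ => rfl }
  have hf : Function.Injective f := by
    intro a b hab
    have := congrArg Subtype.val hab
    exact Subtype.ext (Subtype.ext this)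
  have h2 := (ht.isAlgebraic (⟨g, hg⟩ : K)).ringHom_of_comp_eq f (algebraMap K (Mer A)) hf
    (by ext a; rfl)
  exact mem_SF_of_isAlgebraic h2

end Span

/-! ### projective manifolds -/

section Proj

variable {κ : Type*} {t : κ → Mer A}

/-- if all quotients of sections have their differential in the span then the span is everything -/
theorem span_top [ConnectedSpace M] (P : ProjD A) (h : KK A ≤ SF t) :
    {x | ∀ i, x ∈ (A.e i).source → sp t i x = ⊤} ∈ dn M := by
  classical
  obtain ⟨x0⟩ := (inferInstance : Nonempty M)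
  obtain ⟨i0, hi0⟩ := A.cover x0
  obtain ⟨l0, hl0⟩ := exists_lin_ne P hi0
  have hne : lin P l0 ≠ 0 := by
    intro h'
    rw [h'] at hl0
    exact hl0 rfl
  have hden : nz (lin P l0) ∈ dn M :=
    dn_of_dense (isOpen_nz (isHS_lin P l0)) (dense_nz (isHS_lin P l0) ⟨i0, x0, hi0, hl0⟩)
  choose g hg using fun a => exists_relS (isHS_sec P a) (isHS_lin P l0) hne
  have hgK : ∀ a, g a ∈ KK A := fun a =>
    mem_KK.2 ⟨lb P, sec P a, lin P l0, isHS_sec P a, isHS_lin P l0, hne, hg a⟩
  have hgS : ∀ a, gd t (g a) ∈ dn M := fun a => h (hgK a)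
  have hall : {x | ∀ a, x ∈ gd t (g a)} ∈ dn M := by
    have : {x | ∀ a, x ∈ gd t (g a)} = ⋂ a, gd t (g a) := by ext x; simp
    rw [this]
    exact Filter.iInter_mem.2 hgS
  filter_upwards [hden, hall] with x hx hxg i hi
  rw [eq_top_iff]
  intro φ _
  obtain ⟨l, hl⟩ := exists_lin_df P l0 hi hx φ
  have h1 : ∀ a, df A i (gq P l0 a) x ∈ sp t i x := by
    intro a
    have h2 : ev (g a) =ᶠ[𝓝 x] gq P l0 a := by
      filter_upwards [(isOpen_nz (isHS_lin P l0)).mem_nhds hx] with y hy
      exact ((hg a).ev_qt (isHS_sec P a) (isHS_lin P l0) hy).2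
    rw [← df_congr hi h2]
    exact hxg a i hi
  have h3 : φ = ∑ a, l a • df A i (gq P l0 a) x := by
    rw [← hl]
    ext v
    rw [df_lin P l0 l hi hx v]
    simp [_root_.sum_apply]
  rw [h3]
  exact (sp t i x).sum_mem fun a _ => (sp t i x).smul_mem _ (h1 a)

theorem card_ge [ConnectedSpace M] [Fintype κ] (P : ProjD A) (h : KK A ≤ SF t) :
    n ≤ Fintype.card κ := by
  have h1 := span_top P h
  obtain ⟨x, -, hx⟩ := exists_mem_of_dn h1 isOpen_univ univ_nonempty
  obtain ⟨i, hi⟩ := A.cover x
  have h2 := mem_of_mem_nhds hx i hi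
  have h3 : Module.finrank ℂ (sp t i x) ≤ Fintype.card κ :=
    finrank_range_le_card fun j => dd (t j) i x
  rw [h2, finrank_top, finrank_dual] at h3
  exact h3

/-- **independence**, for a spanning family with at most `n` elements -/
theorem indep_basis [ConnectedSpace M] [Fintype κ] (P : ProjD A) (h : KK A ≤ SF t)
    (hc : Fintype.card κ ≤ n) :
    {x | (∀ j, x ∈ reg (t j)) ∧ ∀ i, x ∈ (A.e i).source →
      LinearIndependent ℂ (fun j => df A i (ev (t j)) x)} ∈ dn M := by
  have h0 : {x | ∀ j, x ∈ reg (t j)} ∈ dn M := by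
    have : {x | ∀ j, x ∈ reg (t j)} = ⋂ j, reg (t j) := by ext x; simp
    rw [this]
    exact Filter.iInter_mem.2 fun j => dn_reg (t j)
  filter_upwards [h0, span_top P h] with x hx hx' 
  refine ⟨hx, fun i hi => ?_⟩
  refine linearIndependent_of_top_le_span_of_card_eq_finrank (hx' i hi).ge ?_
  rw [finrank_dual]
  exact le_antisymm hc (card_ge P h)

end Proj

/-- the transcendence degree is at least `n` -/
theorem le_trdeg [ConnectedSpace M] (P : ProjD A) : (n : Cardinal) ≤ Algebra.trdeg ℂ (KK A) := by
  obtain ⟨s, hs⟩ := exists_isTranscendenceBasis ℂ (KK A)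
  rw [← hs.cardinalMk_eq_trdeg]
  rcases lt_or_ge (Cardinal.mk s) Cardinal.aleph0 with h | h
  · have : Finite s := Cardinal.lt_aleph0_iff_finite.1 h
    have := Fintype.ofFinite s
    rw [Cardinal.mk_fintype]
    exact_mod_cast card_ge P (le_SF hs.isAlgebraic)
  · exact (Cardinal.natCast_lt_aleph0).le.trans h

/-- **INDEP**: algebraically independent elements of `KK A` have independent differentials on a
dense open set -/
theorem indep [ConnectedSpace M] (P : ProjD A) (htr : Algebra.trdeg ℂ (KK A) ≤ n) {κ : Type*}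
    {y : κ → Mer A} (hy : ∀ j, y j ∈ KK A) (hi : AlgebraicIndependent ℂ y) :
    Finite κ ∧ Nat.card κ ≤ n ∧ {x | (∀ j, x ∈ reg (y j)) ∧ ∀ i, x ∈ (A.e i).source →
      LinearIndependent ℂ (fun j => df A i (ev (y j)) x)} ∈ dn M := by
  set y' : κ → KK A := fun j => ⟨y j, hy j⟩ with hy'
  have hi' : AlgebraicIndependent ℂ y' := by
    refine AlgebraicIndependent.of_comp (KK A).val ?_
    exact hi
  obtain ⟨s, hsub, hs⟩ := exists_isTranscendenceBasis_superset hi'.coe_range
  have hcard : Cardinal.mk s ≤ n := by rw [hs.cardinalMk_eq_trdeg]; exact htr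
  have hfin : Finite s := Cardinal.lt_aleph0_iff_finite.1 (hcard.trans_lt Cardinal.natCast_lt_aleph0)
  have hft := Fintype.ofFinite s
  rw [Cardinal.mk_fintype] at hcard
  have hcard' : Fintype.card s ≤ n := by exact_mod_cast hcard
  let c : κ → s := fun j => ⟨y' j, hsub ⟨j, rfl⟩⟩
  have hc : Function.Injective c := by
    intro a b hab
    exact hi'.injective (congrArg Subtype.val hab)
  have hκ : Finite κ := Finite.of_injective c hc
  refine ⟨hκ, ?_, ?_⟩
  · have h1 := Nat.card_le_card_of_injective c hc
    rw [Nat.card_eq_fintype_card (α := s)] at h1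
    omega
  · have h1 := indep_basis P (le_SF hs.isAlgebraic) hcard'
    filter_upwards [h1] with x hx
    exact ⟨fun j => hx.1 (c j), fun i hi => (hx.2 i hi).comp c hc⟩

/-- the same with another form of the bound of the transcendence degree -/
theorem trdeg_le_of [ConnectedSpace M] {K : IntermediateField ℂ (Mer A)} {m : ℕ}
    (h : ∀ y : Fin (m + 1) → K, ¬ AlgebraicIndependent ℂ y) : Algebra.trdeg ℂ K ≤ m := by
  obtain ⟨s, hs⟩ := exists_isTranscendenceBasis ℂ K
  rw [← hs.cardinalMk_eq_trdeg]
  by_contra hcon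
  push Not at hcon
  have h1 : Cardinal.mk (Fin (m + 1)) ≤ Cardinal.mk s := by
    rw [Cardinal.mk_fin]
    have := Order.succ_le_of_lt hcon
    rw [Cardinal.succ_natCast] at this
    exact_mod_cast this
  obtain ⟨f⟩ := h1
  exact h (fun j => (f j : K)) (hs.1.comp f f.injective)

/-! ### the converse -/

theorem continuousAt_dd {g : Mer A} {i : A.ι} {x : M} (hi : x ∈ (A.e i).source) (hx : x ∈ reg g) :
    ContinuousAt (dd g i) x := by
  have ho : IsOpen ((A.e i).target ∩ (A.e i).symm ⁻¹' (reg g)) := isOpen_ti (isOpen_reg g)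
  have hm : A.e i x ∈ (A.e i).target ∩ (A.e i).symm ⁻¹' (reg g) :=
    ⟨(A.e i).map_source hi, by rw [mem_preimage, (A.e i).left_inv hi]; exact hx⟩
  have h1 : ContinuousAt (fderiv ℂ (fun w => ev g ((A.e i).symm w))) (A.e i x) :=
    ((Crest.Agent.R266.SCV.analyticOnNhd_of_differentiableOn ho (holU_ev g i) _ hm).fderiv).continuousAt
  exact ContinuousAt.comp (f := A.e i) h1 ((A.e i).continuousAt hi)

/-- functions with differentials independent at one point are algebraically independent -/
theorem algInd_of_df [ConnectedSpace M] {κ : Type*} [Finite κ] {y : κ → Mer A} {i : A.ι} {x : M}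
    (hi : x ∈ (A.e i).source) (hx : ∀ j, x ∈ reg (y j))
    (hLI : LinearIndependent ℂ (fun j => df A i (ev (y j)) x)) : AlgebraicIndependent ℂ y := by
  classical
  have h0 : ∀ᶠ z in 𝓝 x, LinearIndependent ℂ (fun j => dd (y j) i z) := by
    have h1 : ContinuousAt (fun z => fun j => dd (y j) i z) x :=
      continuousAt_pi.2 fun j => continuousAt_dd hi (hx j)
    exact h1.eventually (LinearIndependent.eventually hLI)
  refine algebraicIndependent_of_finite_type' (algebraMap ℂ (Mer A)).injective
    fun s _ _ j hj halg => ?_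
  -- `y j` is in `SF`
  have h2 : y j ∈ SF fun k : s => y k := mem_SF_of_adjoin halg
  obtain ⟨z, hz1, hz2⟩ := ((frequently_of_dn h2 x).and_eventually
    (h0.and ((A.e i).open_source.mem_nhds hi))).exists
  have h3 : dd (y j) i z ∈ sp (fun k : s => y k) i z := mem_of_mem_nhds hz1 i hz2.2
  have h4 := hz2.1.notMem_span_image hj
  refine h4 ?_
  have h5 : (fun j => dd (y j) i z) '' s = range fun k : s => dd (y k) i z := by
    rw [image_eq_range]
  rw [h5]
  exact h3

/-- `INDEP` with the transcendence degree bounded in the form `n + 1` elements are dependent -/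
theorem indep' [ConnectedSpace M] (P : ProjD A)
    (htr : ∀ y : Fin (n + 1) → KK A, ¬ AlgebraicIndependent ℂ y) {b : ℕ}
    {y : Fin b → Mer A} (hy : ∀ j, y j ∈ KK A) (hi : AlgebraicIndependent ℂ y) :
    b ≤ n ∧ {x | (∀ j, x ∈ reg (y j)) ∧ ∀ i, x ∈ (A.e i).source →
      LinearIndependent ℂ (fun j => df A i (ev (y j)) x)} ∈ dn M := by
  obtain ⟨-, h2, h3⟩ := indep P (trdeg_le_of htr) hy hi
  exact ⟨by simpa using h2, h3⟩

/-- the transcendence degree is `n`, given the upper bound -/
theorem trdeg_eq [ConnectedSpace M] (P : ProjD A) (htr : Algebra.trdeg ℂ (KK A) ≤ n) :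
    Algebra.trdeg ℂ (KK A) = n := le_antisymm htr (le_trdeg P)

end

end Crest.Agent.R273.Indep_597
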