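import Mathlib.LinearAlgebra.FiniteDimensional.Lemmas
import Mathlib.LinearAlgebra.Dimension.Constructions
import Mathlib.LinearAlgebra.Dimension.Free
import Mathlib.LinearAlgebra.Dimension.RankNullity
import Mathlib.Data.Complex.Basic
import Crest.Agent.R275.Kos_798

/-!
R273 (S0416), Part A, leaves K1, K2 (helper619): the algebra of the L2-Koszul step.

* `dbl`: the double complex lemma (relation form; `D` may be an unbounded operator given by its graph).
* `euler`: an exact complex of finite dimensional spaces has alternating sum `0`.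
* `kop`: the Koszul operator on `Finset (Fin m) → V`, `kop_kop`.
* `koszul_L2`: the combined statement.
-/

set_option autoImplicit false

open Finset

namespace Crest.Agent.R273.KosAb_619

/-! ### K1: the double complex lemma -/

/-- Double complex lemma.  `W p q` : (Koszul degree, form degree).  `Dr` is the graph of `D`. -/
theorem dbl {V : Type*} [AddCommGroup V] (W : ℕ → ℕ → AddSubgroup V) (K : V →+ V)
    (Dr : AddSubgroup (V × V))
    (hKW : ∀ p q u, u ∈ W p q → K u ∈ W (p + 1) q)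
    (hKK : ∀ u, K (K u) = 0)
    (hDK : ∀ u x, (u, x) ∈ Dr → (K u, K x) ∈ Dr)
    (hfun : ∀ y, ((0 : V), y) ∈ Dr → y = 0)
    (hDD : ∀ u x, (u, x) ∈ Dr → (x, (0 : V)) ∈ Dr)
    (hK0 : ∀ q u, u ∈ W 0 q → K u = 0 → u = 0)
    (hK1 : ∀ p q u, u ∈ W (p + 1) q → (u, (0 : V)) ∈ Dr → K u = 0 →
      ∃ u' x, u' ∈ W p q ∧ x ∈ W p (q + 1) ∧ (u', x) ∈ Dr ∧ K u' = u)
    (hD : ∀ p q u, u ∈ W p (q + 1) → (u, (0 : V)) ∈ Dr → ∃ v ∈ W p q, (v, u) ∈ Dr) :
    ∀ p q u, u ∈ W (p + 1) q → (u, (0 : V)) ∈ Dr → K u = 0 →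
      ∃ u' ∈ W p q, (u', (0 : V)) ∈ Dr ∧ K u' = u := by
  intro p
  induction p with
  | zero =>
    intro q u hu hDu hKu
    obtain ⟨u', x, hu', hx, hDx, hKu'⟩ := hK1 0 q u hu hDu hKu
    have hKx : K x = 0 := by
      refine hfun _ ?_
      have h1 := Dr.sub_mem (hDK _ _ hDx) hDu
      rwa [hKu', Prod.mk_sub_mk, sub_self, sub_zero] at h1
    have hx0 := hK0 _ _ hx hKx
    exact ⟨u', hu', hx0 ▸ hDx, hKu'⟩
  | succ p ih =>
    intro q u hu hDu hKu
    obtain ⟨u', x, hu', hx, hDx, hKu'⟩ := hK1 (p + 1) q u hu hDu hKu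
    have hKx : K x = 0 := by
      refine hfun _ ?_
      have h1 := Dr.sub_mem (hDK _ _ hDx) hDu
      rwa [hKu', Prod.mk_sub_mk, sub_self, sub_zero] at h1
    obtain ⟨y, hy, hDy, hKy⟩ := ih (q + 1) x hx (hDD _ _ hDx) hKx
    obtain ⟨z, hz, hDz⟩ := hD p q y hy hDy
    refine ⟨u' - K z, (W (p + 1) q).sub_mem hu' (hKW _ _ _ hz), ?_, ?_⟩
    · have h1 := Dr.sub_mem hDx (hDK _ _ hDz)
      rwa [hKy, Prod.mk_sub_mk, sub_self] at h1
    · rw [map_sub, hKK, sub_zero, hKu']

/-! ### K2: alternating sums -/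

/-- An exact complex `0 → C 0 → C 1 → ⋯ → C N → 0` has vanishing alternating sum of dimensions. -/
theorem euler {k : Type*} [Field k] {C : ℕ → Type*} [∀ p, AddCommGroup (C p)] [∀ p, Module k (C p)]
    [∀ p, FiniteDimensional k (C p)] (d : ∀ p, C p →ₗ[k] C (p + 1))
    (h0 : Function.Injective (d 0)) (hex : ∀ p, LinearMap.ker (d (p + 1)) = LinearMap.range (d p))
    (N : ℕ) (hN : Module.finrank k (C (N + 1)) = 0) :
    ∑ p ∈ range (N + 1), (-1 : ℤ) ^ p * (Module.finrank k (C p) : ℤ) = 0 := by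
  have key : ∀ N, ∑ p ∈ range (N + 1), (-1 : ℤ) ^ p * (Module.finrank k (C p) : ℤ) =
      (-1) ^ N * (Module.finrank k (LinearMap.range (d N)) : ℤ) := by
    intro N
    induction N with
    | zero =>
      rw [LinearMap.finrank_range_of_inj h0]; simp
    | succ N ih =>
      rw [sum_range_succ, ih]
      have h1 := LinearMap.finrank_range_add_finrank_ker (d (N + 1))
      rw [hex N] at h1
      rw [← h1]
      push_cast
      ring
  rw [key N]
  have h2 : Module.finrank k (LinearMap.range (d N)) = 0 :=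
    Nat.eq_zero_of_le_zero (hN ▸ Submodule.finrank_le _)
  rw [h2]; simp

/-! ### The Koszul operator -/

open Crest.Agent.R275.Kos798

variable {R : Type*} [CommRing R] {V : Type*} [AddCommGroup V] [Module R V] {m : ℕ}

/-- The Koszul operator `s ∧ · + p ⌟ ·` on `Finset (Fin m) → V`. -/
def kop (s p : Fin m → R) : (Finset (Fin m) → V) →ₗ[R] (Finset (Fin m) → V) where
  toFun f T := ∑ j, (sgn R j T * cf s p j T) • f (tog T j)
  map_add' f g := by
    funext T
    simp only [Pi.add_apply, smul_add, Finset.sum_add_distrib]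
  map_smul' c f := by
    funext T
    simp only [Pi.smul_apply, RingHom.id_apply, Finset.smul_sum]
    refine Finset.sum_congr rfl fun j _ => ?_
    rw [smul_comm]

theorem kop_apply (s p : Fin m → R) (f : Finset (Fin m) → V) (T : Finset (Fin m)) :
    kop s p f T = ∑ j, (sgn R j T * cf s p j T) • f (tog T j) := rfl

theorem kop_eq_K (s p : Fin m → R) (f : Finset (Fin m) → V) (T : Finset (Fin m)) :
    kop s p f T = ∑ S, K s p T S • f S := by
  classical
  rw [kop_apply]
  unfold K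
  simp only [Finset.sum_smul, ite_smul, zero_smul]
  rw [Finset.sum_comm]
  refine Finset.sum_congr rfl fun j _ => ?_
  rw [Finset.sum_ite_eq]
  simp

theorem kop_kop (s p : Fin m → R) (f : Finset (Fin m) → V) :
    kop s p (kop s p f) = (∑ j, s j * p j) • f := by
  classical
  funext T
  rw [kop_eq_K]
  simp only [kop_eq_K s p f, Finset.smul_sum, smul_smul]
  rw [Finset.sum_comm]
  have h1 : ∀ S : Finset (Fin m), ∑ x, (K s p T x * K s p x S) • f S =
      ((∑ j, s j * p j) * (1 : Matrix (Finset (Fin m)) (Finset (Fin m)) R) T S) • f S := by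
    intro S
    rw [← Finset.sum_smul, ← Matrix.mul_apply, K_mul_K, Matrix.smul_apply, smul_eq_mul]
  rw [Finset.sum_congr rfl fun S _ => h1 S, Finset.sum_eq_single T]
  · rw [Matrix.one_apply_eq, mul_one]; rfl
  · intro S _ hS
    rw [Matrix.one_apply_ne hS.symm, mul_zero, zero_smul]
  · intro h; exact absurd (mem_univ _) h

theorem cf_add (s p s' p' : Fin m → R) (j : Fin m) (T : Finset (Fin m)) :
    cf (s + s') (p + p') j T = cf s p j T + cf s' p' j T := by
  unfold cf; split_ifs <;> rfl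

theorem kop_add (s p s' p' : Fin m → R) (f : Finset (Fin m) → V) :
    kop (s + s') (p + p') f = kop s p f + kop s' p' f := by
  funext T
  simp only [kop_apply, Pi.add_apply, cf_add, mul_add, add_smul, Finset.sum_add_distrib]

/-- wedge twice is zero -/
theorem wedge_wedge (s : Fin m → R) (f : Finset (Fin m) → V) : kop s 0 (kop s 0 f) = 0 := by
  rw [kop_kop]; simp

/-- contraction twice is zero -/
theorem contr_contr (p : Fin m → R) (f : Finset (Fin m) → V) : kop 0 p (kop 0 p f) = 0 := by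
  rw [kop_kop]; simp

/-- the homotopy formula `e(s) i(p) + i(p) e(s) = ⟨s,p⟩`. -/
theorem anticomm (s p : Fin m → R) (f : Finset (Fin m) → V) :
    kop s 0 (kop 0 p f) + kop 0 p (kop s 0 f) = (∑ j, s j * p j) • f := by
  have h := kop_kop s p f
  have h1 : kop s p f = kop s 0 f + kop 0 p f := by
    rw [← kop_add]; simp
  rw [h1, map_add] at h
  have h2 : ∀ g : Finset (Fin m) → V, kop s p g = kop s 0 g + kop 0 p g := by
    intro g; rw [← kop_add]; simp
  rw [h2, h2, wedge_wedge, contr_contr, zero_add, add_zero] at h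
  rw [← h]; abel

/-- support in degree `p` with values in `A`. -/
def Deg (A : AddSubgroup V) (p : ℕ) : AddSubgroup (Finset (Fin m) → V) where
  carrier := {f | (∀ T, T.card = p → f T ∈ A) ∧ ∀ T, T.card ≠ p → f T = 0}
  add_mem' := by
    rintro f g ⟨h1, h2⟩ ⟨h3, h4⟩
    exact ⟨fun T hT => A.add_mem (h1 T hT) (h3 T hT), fun T hT => by
      rw [Pi.add_apply, h2 T hT, h4 T hT, add_zero]⟩
  zero_mem' := ⟨fun T _ => A.zero_mem, fun T _ => rfl⟩
  neg_mem' := by
    rintro f ⟨h1, h2⟩
    exact ⟨fun T hT => A.neg_mem (h1 T hT), fun T hT => by rw [Pi.neg_apply, h2 T hT, neg_zero]⟩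

theorem mem_Deg {A : AddSubgroup V} {p : ℕ} {f : Finset (Fin m) → V} :
    f ∈ Deg A p ↔ (∀ T, T.card = p → f T ∈ A) ∧ ∀ T, T.card ≠ p → f T = 0 := Iff.rfl

theorem sgn_smul_mem {A : AddSubgroup V} (j : Fin m) (T : Finset (Fin m)) {v : V} (hv : v ∈ A) :
    sgn R j T • v ∈ A := by
  unfold sgn
  rcases Nat.even_or_odd (T.filter (· < j)).card with h | h
  · rw [h.neg_one_pow, one_smul]; exact hv
  · rw [h.neg_one_pow, neg_smul, one_smul]; exact A.neg_mem hv

theorem card_tog_of_mem {T : Finset (Fin m)} {j : Fin m} (h : j ∈ T) :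
    (tog T j).card + 1 = T.card := by
  unfold tog; rw [if_pos h, Finset.card_erase_add_one h]

theorem card_tog_of_notMem {T : Finset (Fin m)} {j : Fin m} (h : j ∉ T) :
    (tog T j).card = T.card + 1 := by
  unfold tog; rw [if_neg h, Finset.card_insert_of_notMem h]

/-- wedge raises the degree. -/
theorem wedge_mem {A B : AddSubgroup V} {s : Fin m → R} (hs : ∀ j v, v ∈ A → s j • v ∈ B) {p : ℕ}
    {f : Finset (Fin m) → V} (hf : f ∈ Deg A p) : kop s 0 f ∈ Deg B (p + 1) := by
  constructor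
  · intro T hT
    rw [kop_apply]
    refine B.sum_mem fun j _ => ?_
    by_cases hj : j ∈ T
    · have hc := card_tog_of_mem hj
      rw [cf, if_pos hj, mul_smul]
      exact sgn_smul_mem _ _ (hs _ _ (hf.1 _ (by omega)))
    · rw [cf, if_neg hj]; simp
  · intro T hT
    rw [kop_apply]
    refine Finset.sum_eq_zero fun j _ => ?_
    by_cases hj : j ∈ T
    · have hc := card_tog_of_mem hj
      rw [hf.2 _ (by omega), smul_zero]
    · rw [cf, if_neg hj]; simp

/-- contraction lowers the degree. -/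
theorem contr_mem {A B : AddSubgroup V} {s : Fin m → R} (hs : ∀ j v, v ∈ A → s j • v ∈ B) {p : ℕ}
    {f : Finset (Fin m) → V} (hf : f ∈ Deg A (p + 1)) : kop 0 s f ∈ Deg B p := by
  constructor
  · intro T hT
    rw [kop_apply]
    refine B.sum_mem fun j _ => ?_
    by_cases hj : j ∈ T
    · rw [cf, if_pos hj]; simp
    · have hc := card_tog_of_notMem hj
      rw [cf, if_neg hj, mul_smul]
      exact sgn_smul_mem _ _ (hs _ _ (hf.1 _ (by omega)))
  · intro T hT
    rw [kop_apply]
    refine Finset.sum_eq_zero fun j _ => ?_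
    by_cases hj : j ∈ T
    · rw [cf, if_pos hj]; simp
    · have hc := card_tog_of_notMem hj
      rw [hf.2 _ (by omega), smul_zero]

/-! ### The combined statement -/

section Combined

theorem pair_sum_mem {ι : Type*} {Dr : AddSubgroup (V × V)} (s : Finset ι) {a b : ι → V}
    (h : ∀ j ∈ s, (a j, b j) ∈ Dr) : (∑ j ∈ s, a j, ∑ j ∈ s, b j) ∈ Dr := by
  have h1 := Dr.sum_mem h
  have h2 : ∑ j ∈ s, (a j, b j) = (∑ j ∈ s, a j, ∑ j ∈ s, b j) :=
    Prod.ext (by rw [Prod.fst_sum]) (by rw [Prod.snd_sum])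
  rwa [h2] at h1

/-- The closed elements -/
def clo (Dr : AddSubgroup (V × V)) : AddSubgroup V where
  carrier := {v | (v, (0 : V)) ∈ Dr}
  add_mem' := fun {a b} ha hb => by
    have h1 := Dr.add_mem ha hb
    rwa [Prod.mk_add_mk, add_zero] at h1
  zero_mem' := Dr.zero_mem
  neg_mem' := fun {a} ha => by
    have h1 := Dr.neg_mem ha
    rwa [Prod.neg_mk, neg_zero] at h1

theorem mem_clo {Dr : AddSubgroup (V × V)} {v : V} : v ∈ clo Dr ↔ (v, (0 : V)) ∈ Dr := Iff.rfl

/-- The graph of `D` on families. -/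
def grF (Dr : AddSubgroup (V × V)) : AddSubgroup ((Finset (Fin m) → V) × (Finset (Fin m) → V)) where
  carrier := {z | ∀ T, (z.1 T, z.2 T) ∈ Dr}
  add_mem' := by
    rintro a b ha hb T
    exact Dr.add_mem (ha T) (hb T)
  zero_mem' := fun T => Dr.zero_mem
  neg_mem' := by
    rintro a ha T
    exact Dr.neg_mem (ha T)

theorem mem_grF {Dr : AddSubgroup (V × V)} {f g : Finset (Fin m) → V} :
    (f, g) ∈ grF Dr ↔ ∀ T, (f T, g T) ∈ Dr := Iff.rfl

theorem kop_grF {Dr : AddSubgroup (V × V)} {s : Fin m → R}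
    (hs : ∀ j u x, (u, x) ∈ Dr → (s j • u, s j • x) ∈ Dr) {f g : Finset (Fin m) → V}
    (h : (f, g) ∈ grF Dr) : (kop s 0 f, kop s 0 g) ∈ grF Dr := by
  intro T
  change (∑ j, (sgn R j T * cf s 0 j T) • f (tog T j), ∑ j, (sgn R j T * cf s 0 j T) • g (tog T j)) ∈ Dr
  refine pair_sum_mem _ fun j _ => ?_
  by_cases hj : j ∈ T
  · rw [cf, if_pos hj, mul_smul, mul_smul]
    have h1 := hs j _ _ (h (tog T j))
    unfold sgn
    rcases Nat.even_or_odd (T.filter (· < j)).card with he | he
    · rw [he.neg_one_pow, one_smul, one_smul]; exact h1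
    · rw [he.neg_one_pow, neg_smul, one_smul, neg_smul, one_smul]; exact Dr.neg_mem h1
  · rw [cf, if_neg hj]
    simp only [Pi.zero_apply, mul_zero, zero_smul]
    exact Dr.zero_mem

/-- Koszul exactness on `D`-closed elements of form degree `0`. -/
theorem koszul_exact (W : ℕ → ℕ → AddSubgroup V) (Dr : AddSubgroup (V × V)) (t σ : Fin m → R)
    (hts : ∑ j, t j * σ j = 1)
    (ht : ∀ i q j u, u ∈ W i q → t j • u ∈ W (i + 1) q)
    (htD : ∀ j u x, (u, x) ∈ Dr → (t j • u, t j • x) ∈ Dr)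
    (hσ : ∀ i q j u, u ∈ W (i + 1) q → (u, (0 : V)) ∈ Dr → σ j • u ∈ W i q ∧
      ∃ y ∈ W i (q + 1), (σ j • u, y) ∈ Dr)
    (hfun : ∀ y, ((0 : V), y) ∈ Dr → y = 0)
    (hDD : ∀ u x, (u, x) ∈ Dr → (x, (0 : V)) ∈ Dr)
    (hD : ∀ i q u, u ∈ W i (q + 1) → (u, (0 : V)) ∈ Dr → ∃ v ∈ W i q, (v, u) ∈ Dr)
    (i p : ℕ) (f : Finset (Fin m) → V) (hf : f ∈ Deg (W (i + (p + 1)) 0) (p + 1))
    (hfD : ∀ T, (f T, (0 : V)) ∈ Dr) (hKf : kop t 0 f = 0) :
    ∃ g : Finset (Fin m) → V, g ∈ Deg (W (i + p) 0) p ∧ (∀ T, (g T, (0 : V)) ∈ Dr) ∧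
      kop t 0 g = f := by
  have hmain := dbl (V := Finset (Fin m) → V) (fun p q => Deg (W (i + p) q) p)
    (kop t (0 : Fin m → R)).toAddMonoidHom (grF Dr)
    (fun p q u hu => wedge_mem (fun j v hv => ht _ _ j v hv) hu)
    (fun u => wedge_wedge t u)
    (fun u x h => kop_grF htD h)
    (fun y hy => funext fun T => hfun _ (hy T))
    (fun u x h T => hDD _ _ (h T))
    ?_ ?_ ?_ p 0 f hf (fun T => hfD T) hKf
  · obtain ⟨g, hg, hgD, hKg⟩ := hmain
    exact ⟨g, hg, fun T => hgD T, hKg⟩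
  · -- injectivity in Koszul degree `0`
    intro q u hu hKu
    have h1 := anticomm t σ u
    change kop t 0 u = 0 at hKu
    rw [hKu, map_zero, add_zero, hts, one_smul] at h1
    have h2 : kop 0 σ u = 0 := by
      funext T
      rw [kop_apply]
      refine Finset.sum_eq_zero fun j _ => ?_
      by_cases hj : j ∈ T
      · rw [cf, if_pos hj]; simp
      · have hc := card_tog_of_notMem hj
        rw [hu.2 _ (by omega), smul_zero]
    rw [h2, map_zero] at h1
    exact h1.symm
  · -- homotopy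
    intro p q u hu hDu hKu
    change kop t 0 u = 0 at hKu
    have h1 := anticomm t σ u
    rw [hKu, map_zero, add_zero, hts, one_smul] at h1
    -- choose the `D` of each term
    have h3 : ∀ T : Finset (Fin m), ∀ j : Fin m, ∃ y, ((σ j • u (tog T j), y) ∈ Dr) ∧
        (T.card = p → j ∉ T → σ j • u (tog T j) ∈ W (i + p) q ∧ y ∈ W (i + p) (q + 1)) ∧
        (T.card ≠ p → j ∉ T → y = 0) := by
      intro T j
      by_cases hT : (tog T j).card = p + 1
      · obtain ⟨h4, y, hy, hyD⟩ := hσ (i + p) q j (u (tog T j)) (hu.1 _ hT) (hDu _)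
        refine ⟨y, hyD, fun _ _ => ⟨h4, hy⟩, fun hTp hj => ?_⟩
        have hc := card_tog_of_notMem hj
        omega
      · refine ⟨0, ?_, fun hTp hj => ?_, fun _ _ => rfl⟩
        · rw [hu.2 _ hT, smul_zero]; exact Dr.zero_mem
        · have hc := card_tog_of_notMem hj
          omega
    choose y hy1 hy2 hy3 using h3
    refine ⟨kop 0 σ u, fun T => ∑ j, if j ∈ T then 0 else sgn R j T • y T j, ?_, ?_, ?_, h1⟩
    · refine contr_mem (A := W (i + (p + 1)) q ⊓ clo Dr) ?_ ?_
      · intro j v hv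
        exact (hσ (i + p) q j v hv.1 hv.2).1
      · exact ⟨fun T hT => ⟨hu.1 T hT, hDu T⟩, hu.2⟩
    · constructor
      · intro T hT
        refine (W (i + p) (q + 1)).sum_mem fun j _ => ?_
        split_ifs with hj
        · exact (W (i + p) (q + 1)).zero_mem
        · exact sgn_smul_mem _ _ (hy2 T j hT hj).2
      · intro T hT
        refine Finset.sum_eq_zero fun j _ => ?_
        split_ifs with hj
        · rfl
        · rw [hy3 T j hT hj, smul_zero]
    · intro T
      change (∑ j, (sgn R j T * cf 0 σ j T) • u (tog T j), ∑ j, if j ∈ T then (0 : V) else sgn R j T • y T j) ∈ Dr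
      refine pair_sum_mem _ fun j _ => ?_
      by_cases hj : j ∈ T
      · rw [cf, if_pos hj, if_pos hj]
        simp only [Pi.zero_apply, mul_zero, zero_smul]
        exact Dr.zero_mem
      · rw [cf, if_neg hj, if_neg hj, mul_smul]
        have h5 := hy1 T j
        unfold sgn
        rcases Nat.even_or_odd (T.filter (· < j)).card with he | he
        · rw [he.neg_one_pow, one_smul, one_smul]; exact h5
        · rw [he.neg_one_pow, neg_smul, one_smul, neg_smul, one_smul]; exact Dr.neg_mem h5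
  · -- `D`-exactness
    intro p q u hu hDu
    have h3 : ∀ T : Finset (Fin m), ∃ v, (v, u T) ∈ Dr ∧ (T.card = p → v ∈ W (i + p) q) ∧
        (T.card ≠ p → v = 0) := by
      intro T
      by_cases hT : T.card = p
      · obtain ⟨v, hv, hvD⟩ := hD (i + p) q (u T) (hu.1 T hT) (hDu T)
        exact ⟨v, hvD, fun _ => hv, fun h => absurd hT h⟩
      · exact ⟨0, by rw [hu.2 T hT]; exact Dr.zero_mem, fun h => absurd h hT, fun _ => rfl⟩
    choose v hv1 hv2 hv3 using h3
    exact ⟨v, ⟨fun T hT => hv2 T hT, fun T hT => hv3 T hT⟩, fun T => hv1 T⟩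

end Combined

/-! ### Dimensions -/

section Dim

variable {k : Type*} [Field k] [Module k V]

/-- support in degree `p` with values in `A`, as a subspace -/
def DegS (m : ℕ) (A : Submodule k V) (p : ℕ) : Submodule k (Finset (Fin m) → V) where
  carrier := {f | (∀ T, T.card = p → f T ∈ A) ∧ ∀ T, T.card ≠ p → f T = 0}
  add_mem' := by
    rintro f g ⟨h1, h2⟩ ⟨h3, h4⟩
    exact ⟨fun T hT => A.add_mem (h1 T hT) (h3 T hT), fun T hT => by
      rw [Pi.add_apply, h2 T hT, h4 T hT, add_zero]⟩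
  zero_mem' := ⟨fun T _ => A.zero_mem, fun T _ => rfl⟩
  smul_mem' := by
    rintro c f ⟨h1, h2⟩
    exact ⟨fun T hT => A.smul_mem c (h1 T hT), fun T hT => by
      rw [Pi.smul_apply, h2 T hT, smul_zero]⟩

theorem mem_DegS {A : Submodule k V} {p : ℕ} {f : Finset (Fin m) → V} :
    f ∈ DegS m A p ↔ f ∈ Deg A.toAddSubgroup p := Iff.rfl

/-- coordinates on `DegS` -/
def degEquiv (m : ℕ) (A : Submodule k V) (p : ℕ) :
    DegS m A p ≃ₗ[k] ({T : Finset (Fin m) // T.card = p} → A) where
  toFun f T := ⟨f.1 T.1, f.2.1 T.1 T.2⟩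
  map_add' f g := by funext T; rfl
  map_smul' c f := by funext T; rfl
  invFun g := ⟨fun T => if h : T.card = p then (g ⟨T, h⟩ : V) else 0,
    ⟨fun T hT => by simp [hT], fun T hT => by simp [hT]⟩⟩
  left_inv f := by
    ext T
    simp only
    split_ifs with h
    · rfl
    · exact (f.2.2 T h).symm
  right_inv g := by
    funext T
    ext
    simp [T.2]

instance degS_finite (A : Submodule k V) [FiniteDimensional k A] (p : ℕ) :
    FiniteDimensional k (DegS m A p) :=
  Module.Finite.equiv (degEquiv m A p).symm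

theorem finrank_DegS (A : Submodule k V) [FiniteDimensional k A] (p : ℕ) :
    Module.finrank k (DegS m A p) = m.choose p * Module.finrank k A := by
  rw [(degEquiv m A p).finrank_eq, Module.finrank_pi_fintype, Finset.sum_const, Finset.card_univ,
    Fintype.card_finset_len, Fintype.card_fin, smul_eq_mul]

/-- the Koszul operator over the small field -/
def kopk [SMulCommClass k R V] (s p : Fin m → R) :
    (Finset (Fin m) → V) →ₗ[k] (Finset (Fin m) → V) where
  toFun := kop s p
  map_add' := map_add _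
  map_smul' c f := by
    funext T
    simp only [kop_apply, Pi.smul_apply, RingHom.id_apply, Finset.smul_sum]
    refine Finset.sum_congr rfl fun j _ => ?_
    exact (smul_comm c _ _).symm

/-- alternating sum from Koszul exactness -/
theorem sum_of_exact [SMulCommClass k R V] (A : ℕ → Submodule k V)
    (hfin : ∀ i, FiniteDimensional k (A i)) (t : Fin m → R)
    (ht : ∀ i j u, u ∈ A i → t j • u ∈ A (i + 1)) (i : ℕ)
    (hinj : ∀ u ∈ A i, (∀ j, t j • u = 0) → u = 0)
    (hex : ∀ p, ∀ f ∈ DegS m (A (i + (p + 1))) (p + 1), kop t 0 f = 0 →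
      ∃ g ∈ DegS m (A (i + p)) p, kop t 0 g = f) :
    ∑ p ∈ range (m + 1), (-1 : ℤ) ^ p * (m.choose p : ℤ) * (Module.finrank k (A (i + p)) : ℤ) = 0 := by
  have hmem : ∀ p, ∀ f ∈ DegS m (A (i + p)) p, kopk (k := k) t 0 f ∈ DegS m (A (i + (p + 1))) (p + 1) :=
    fun p f hf => wedge_mem (A := (A (i + p)).toAddSubgroup) (B := (A (i + (p + 1))).toAddSubgroup)
      (fun j v hv => ht _ j v hv) hf
  have h := euler (k := k) (C := fun p => DegS m (A (i + p)) p)
    (fun p => (kopk (k := k) t 0).restrict (hmem p)) ?_ ?_ m ?_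
  · rw [← h]
    refine Finset.sum_congr rfl fun p _ => ?_
    rw [finrank_DegS]
    push_cast
    ring
  · -- injective
    rw [injective_iff_map_eq_zero]
    rintro ⟨f, hf⟩ h0
    have h1 : kop t 0 f = 0 := congrArg Subtype.val h0
    have h2 : f ∅ = 0 := by
      refine hinj _ (hf.1 ∅ rfl) fun j => ?_
      have h3 := congrFun h1 {j}
      rw [kop_apply, Finset.sum_eq_single j] at h3
      · rw [cf, if_pos (mem_singleton_self j), tog, if_pos (mem_singleton_self j)] at h3
        have h4 : sgn R j ({j} : Finset (Fin m)) = 1 := by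
          unfold sgn
          rw [Finset.filter_singleton, if_neg (lt_irrefl j)]; simp
        rw [h4, one_mul, Finset.erase_singleton] at h3
        exact h3
      · intro l _ hl
        rw [cf, if_neg (by simpa using hl)]; simp
      · intro h; exact absurd (mem_univ _) h
    ext T
    by_cases hT : T.card = 0
    · rw [Finset.card_eq_zero] at hT
      subst hT
      exact h2
    · exact hf.2 T hT
  · -- exact
    intro p
    ext ⟨f, hf⟩
    constructor
    · intro h0
      have h1 : kop t 0 f = 0 := congrArg Subtype.val h0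
      obtain ⟨g, hg, hgf⟩ := hex p f hf h1
      exact ⟨⟨g, hg⟩, Subtype.ext hgf⟩
    · rintro ⟨⟨g, hg⟩, hgf⟩
      have h1 : kop t 0 g = f := congrArg Subtype.val hgf
      refine Subtype.ext ?_
      change kop t 0 f = 0
      rw [← h1, wedge_wedge]
  · change Module.finrank k (DegS m (A (i + (m + 1))) (m + 1)) = 0
    rw [finrank_DegS, Nat.choose_succ_self, zero_mul]

/-- the closed elements as a subspace -/
def cloS (Dr : Submodule k (V × V)) : Submodule k V where
  carrier := {v | (v, (0 : V)) ∈ Dr}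
  add_mem' := fun {a b} ha hb => by
    have h1 := Dr.add_mem ha hb
    rwa [Prod.mk_add_mk, add_zero] at h1
  zero_mem' := Dr.zero_mem
  smul_mem' := fun c a ha => by
    have h1 := Dr.smul_mem c ha
    rwa [Prod.smul_mk, smul_zero] at h1

theorem mem_cloS {Dr : Submodule k (V × V)} {v : V} : v ∈ cloS Dr ↔ (v, (0 : V)) ∈ Dr := Iff.rfl

/-- L2-KOSZUL, combined statement.  `W i q`: forms of degree `q` at twist level `i`, `Dr`: graph of
`dbar`; `t` generators (of the line bundle `M`), `σ` a smooth partition `∑ t_j σ_j = 1`. -/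
theorem koszul_L2 [SMulCommClass k R V] (W : ℕ → ℕ → Submodule k V) (Dr : Submodule k (V × V))
    (t σ : Fin m → R) (hts : ∑ j, t j * σ j = 1)
    (ht : ∀ i q j u, u ∈ W i q → t j • u ∈ W (i + 1) q)
    (htD : ∀ j u x, (u, x) ∈ Dr → (t j • u, t j • x) ∈ Dr)
    (hσ : ∀ i q j u, u ∈ W (i + 1) q → (u, (0 : V)) ∈ Dr → σ j • u ∈ W i q ∧
      ∃ y ∈ W i (q + 1), (σ j • u, y) ∈ Dr)
    (hfun : ∀ y, ((0 : V), y) ∈ Dr → y = 0)
    (hDD : ∀ u x, (u, x) ∈ Dr → (x, (0 : V)) ∈ Dr)
    (hD : ∀ i q u, u ∈ W i (q + 1) → (u, (0 : V)) ∈ Dr → ∃ v ∈ W i q, (v, u) ∈ Dr)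
    (hfin : ∀ i, FiniteDimensional k (W i 0 ⊓ cloS Dr : Submodule k V)) (i : ℕ) :
    ∑ p ∈ range (m + 1), (-1 : ℤ) ^ p * (m.choose p : ℤ) *
      (Module.finrank k (W (i + p) 0 ⊓ cloS Dr : Submodule k V) : ℤ) = 0 := by
  refine sum_of_exact (fun i => W i 0 ⊓ cloS Dr) hfin t ?_ i ?_ ?_
  · intro i j u hu
    refine ⟨ht _ _ _ _ hu.1, ?_⟩
    have h1 := htD j _ _ hu.2
    rwa [smul_zero] at h1
  · intro u _ h0
    have h1 : (∑ j, t j * σ j) • u = 0 := by
      rw [Finset.sum_smul]
      refine Finset.sum_eq_zero fun j _ => ?_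
      rw [mul_comm, mul_smul, h0 j, smul_zero]
    rwa [hts, one_smul] at h1
  · intro p f hf hKf
    obtain ⟨g, hg, hgD, hKg⟩ := koszul_exact (fun i q => (W i q).toAddSubgroup) Dr.toAddSubgroup
      t σ hts ht htD hσ hfun hDD hD i p f
      ⟨fun T hT => (hf.1 T hT).1, hf.2⟩
      (fun T => by
        by_cases hT : T.card = p + 1
        · exact (hf.1 T hT).2
        · rw [hf.2 T hT]; exact Dr.zero_mem) hKf
    exact ⟨g, ⟨fun T hT => ⟨hg.1 T hT, hgD T⟩, hg.2⟩, hKg⟩

end Dim

end Crest.Agent.R273.KosAb_619
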