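import Crest.Agent.R273.SerB_945

/-!
# R273 (S0416), leaf CHOW, part 1 (helper313): Koszul generation

* `kosgen` : `N p = N (p+1) * O`, sections `ℓ j` of `O` without common zeros,
  `H^q(N (q+1)) = 0` for `1 ≤ q ≤ n` ⟹ every holomorphic section `s` of `N 0` is
  `∑ j, ℓ j * w j` with holomorphic sections `w j` of `N 1`.
-/

set_option autoImplicit false
set_option linter.unusedSectionVars false

open Set Filter Topology Complex
open scoped ContDiff Matrix ComplexConjugate Kronecker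

namespace Crest.Agent.R273.KosGen_313

open Crest.Agent.R275 Crest.Agent.R275.Geo Crest.Agent.R275.Core144 Crest.Agent.R275.Dg199
open Crest.Agent.R275.Kos798
open Crest.Agent.R273.LamN127 Crest.Agent.R273.KosAb_619 Crest.Agent.R273.SerA_945
open Crest.Agent.R273.SerB_945

noncomputable section

variable {n : ℕ} {M : Type} [TopologicalSpace M] {A : Atl n M} {r : ℕ}

theorem smN_zero_real (q : M) : SmN A (fun _ => (0 : ℝ)) q := smN_const (A := A) (0 : ℝ) q

theorem isHS_sum {α : Type*} {L : LB A} {U : Set M} (t : Finset α) {f : α → Fn A}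
    (h : ∀ a ∈ t, IsHS L U (f a)) : IsHS L U (∑ a ∈ t, f a) := by
  classical
  induction t using Finset.induction_on with
  | empty => simpa using (IsHS.zero (L := L) (U := U))
  | insert a t ha ih =>
    rw [Finset.sum_insert ha]
    exact (h a (Finset.mem_insert_self a t)).add (ih fun b hb => h b (Finset.mem_insert_of_mem hb))

/-- **Koszul generation** -/
theorem kosgen [T2Space M] (O : LB A) (N : ℕ → LB A) (hN : ∀ p, N (p + 1) * O = N p)
    (ℓ : Fin r → Fn A) (hℓ : ∀ j, IsHS O univ (ℓ j))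
    (hne : ∀ i, ∀ x ∈ (A.e i).source, ∃ j, ℓ j i x ≠ 0)
    (ex : ∀ q, 1 ≤ q → q ≤ n → Solv (N (q + 1)) q) {s : Fn A} (hs : IsHS (N 0) univ s) :
    ∃ w : Fin r → Fn A, (∀ j, IsHS (N 1) univ (w j)) ∧ s = ∑ j, ℓ j * w j := by
  classical
  have hℓm : ∀ p q j, ∀ v ∈ FF (N (p + 1)) q, ℓ j • v ∈ FF (N p) q := by
    intro p q j v hv
    rw [← hN p]
    exact (IsHS.smS (hℓ j)).smul_mem hv
  let θ : Fin r → Fn A := dualF ℓ fun _ => 0
  have hθ : ∀ j, SmS O⁻¹ (θ j) := smS_dualF hℓ (fun q => smN_zero_real q)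
    fun i x hx => Or.inr (hne i x hx)
  have hθm : ∀ p q j, ∀ v ∈ FF (N p) q, θ j • v ∈ FF (N (p + 1)) q := by
    intro p q j v hv
    have h2 : N (p + 1) = N p * O⁻¹ := by rw [← hN p, mul_inv_cancel_right]
    rw [h2]
    exact (hθ j).smul_mem hv
  have h1 : ∀ i, ∀ x ∈ (A.e i).source, ∑ j, θ j i x * ℓ j i x = 1 := fun i x hx =>
    sum_dualF ℓ (fun _ => 0) rfl (hne i x hx)
  let C : ℕ → ℕ → AddSubgroup (Finset (Fin r) → Raw A) := fun p q =>
    Deg (FF (N (p + 1)) q) (p + 1)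
  let s' : Finset (Fin r) → Raw A := fun T => if T = ∅ then embN s else 0
  have hsm := embN_mem (IsHS.smS hs) hs.off
  have hs'0 : s' ∅ = embN s := if_pos rfl
  have hs' : s' ∈ Deg (FF (N 0) 0) 0 := by
    refine ⟨fun T hT => ?_, fun T hT => ?_⟩
    · have h2 : s' T = embN s := if_pos (Finset.card_eq_zero.1 hT)
      rw [h2]
      exact hsm
    · exact if_neg fun h => hT (by rw [h]; rfl)
  -- the homotopy
  have hom : ∀ p q (u : Finset (Fin r) → Raw A), u ∈ Deg (FF (N p) q) p → kop 0 ℓ u = 0 →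
      kop 0 ℓ (kop θ 0 u) = u := by
    intro p q u hu hKu
    have h2 := anticomm θ ℓ u
    rw [hKu, map_zero, zero_add] at h2
    refine h2.trans ?_
    funext T i x k
    show (∑ j, θ j * ℓ j) i x * u T i x k = u T i x k
    have h4 : (∑ j, θ j * ℓ j) i x = ∑ j, θ j i x * ℓ j i x := by
      rw [Finset.sum_apply, Finset.sum_apply]
      rfl
    by_cases hx : x ∈ (A.e i).source
    · rw [h4, h1 i x hx, one_mul]
    · have h5 : u T i x = 0 := by
        by_cases hT : T.card = p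
        · exact FF.off (hu.1 T hT) hx
        · rw [hu.2 T hT]
          rfl
      rw [h5]
      exact mul_zero _
  have hKs' : kop 0 ℓ s' = 0 := by
    funext T
    rw [kop_apply]
    refine Finset.sum_eq_zero fun j _ => ?_
    by_cases hj : j ∈ T
    · rw [cf, if_pos hj]; simp
    · have h2 : tog T j ≠ ∅ := by
        intro h
        have := (mem_tog_self T j).2 hj
        rw [h] at this
        exact absurd this (Finset.notMem_empty j)
      have h3 : s' (tog T j) = 0 := if_neg h2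
      rw [h3, smul_zero]
  have hDs' : DF s' = 0 := by
    funext T
    by_cases hT : T = ∅
    · have h2 : s' T = embN s := if_pos hT
      show Db (s' T) = 0
      rw [h2]
      exact Db_embN_hol hs
    · have h2 : s' T = 0 := if_neg hT
      show Db (s' T) = 0
      rw [h2, Db_zero]
  have hy0 : kop θ 0 s' ∈ Deg (FF (N 1) 0) 1 := wedge_mem (fun j v hv => hθm 0 0 j v hv) hs'
  have hKy0 : kop 0 ℓ (kop θ 0 s') = s' := hom 0 0 s' hs' hKs'
  have hη : DF (kop θ 0 s') ∈ C 0 1 := DF_mem hy0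
  have hKη : kop 0 ℓ (DF (kop θ 0 s')) = 0 := by
    rw [kop_DF (L := O) (fun j => hℓ j) hy0, hKy0, hDs']
  have DDF : ∀ p q (u : Finset (Fin r) → Raw A), u ∈ Deg (FF (N p) q) p → DF (DF u) = 0 := by
    intro p q u hu
    funext T
    by_cases hT : T.card = p
    · exact Db_Db (hu.1 T hT)
    · show Db (Db (u T)) = 0
      rw [hu.2 T hT, Db_zero, Db_zero]
  have DFs : ∀ p q (u : Finset (Fin r) → Raw A), u ∈ Deg (FF (N p) q) p →
      ∀ v ∈ Deg (FF (N p) q) p, DF (u - v) = DF u - DF v := by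
    intro p q u hu v hv
    funext T
    by_cases hT : T.card = p
    · exact Db_sub (hu.1 T hT) (hv.1 T hT)
    · show Db (u T - v T) = Db (u T) - Db (v T)
      rw [hu.2 T hT, hv.2 T hT, sub_zero, Db_zero, sub_zero]
  obtain ⟨w, hw, hDw⟩ := zig n C ⊤
    (kop 0 ℓ : (Finset (Fin r) → Raw A) →ₗ[Fn A] _).toAddMonoidHom
    (kop θ 0 : (Finset (Fin r) → Raw A) →ₗ[Fn A] _).toAddMonoidHom DF
    (fun p q u hu => contr_mem (fun j v hv => hℓm (p + 1) q j v hv) hu)
    (fun p q u hu => DF_mem hu)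
    (fun p q u hu hz => AddSubgroup.mem_top _)
    (fun p q u hu hz => wedge_mem (fun j v hv => hθm (p + 1) q j v hv) hu)
    (fun p q u hu hz => AddSubgroup.mem_top _)
    (fun p q u hu => kop_DF (L := O) (fun j => hℓ j) hu)
    (fun p q u hu => DDF (p + 1) q u hu)
    (fun p q u hu v hv => DFs (p + 1) q u hu v hv)
    (fun p q u hu hz hKu => hom (p + 1) q u hu hKu)
    (fun u => contr_contr ℓ u)
    (fun p q hq u hu => funext fun T => by
      by_cases hT : T.card = p + 1
      · exact FF_top hq (hu.1 T hT)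
      · exact hu.2 T hT)
    (fun q hq hqn u hu hDu => by
      have h2 : ∀ T : Finset (Fin r), ∃ v : Raw A, (T.card = q + 1 → v ∈ FF (N (q + 1)) (q - 1)) ∧
          (T.card ≠ q + 1 → v = 0) ∧ Db v = u T := by
        intro T
        by_cases hT : T.card = q + 1
        · obtain ⟨v, hv, hDv⟩ := ex q hq hqn (u T) (hu.1 T hT) (congrFun hDu T)
          exact ⟨v, fun _ => hv, fun h => absurd hT h, hDv⟩
        · exact ⟨0, fun h => absurd h hT, fun _ => rfl, by rw [Db_zero, hu.2 T hT]⟩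
      choose v hv1 hv2 hv3 using h2
      exact ⟨v, ⟨fun T hT => hv1 T hT, fun T hT => hv2 T hT⟩, funext hv3⟩)
    (DF (kop θ 0 s')) hη (AddSubgroup.mem_top _) hKη (DDF 1 0 _ hy0)
  have hKw : kop 0 ℓ w ∈ Deg (FF (N 1) 0) 1 :=
    contr_mem (fun j v hv => hℓm 1 0 j v hv) (show w ∈ Deg (FF (N 2) 0) 2 from hw)
  have hDw' : DF (kop 0 ℓ w) = DF (kop θ 0 s') := hDw
  have hym := AddSubgroup.sub_mem _ hy0 hKw
  have hDy : DF (kop θ 0 s' - kop 0 ℓ w) = 0 := by
    rw [DFs 1 0 _ hy0 _ hKw, hDw', sub_self]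
  have hKy : kop 0 ℓ (kop θ 0 s' - kop 0 ℓ w) = s' := by
    rw [map_sub, hKy0, contr_contr, sub_zero]
  set y := kop θ 0 s' - kop 0 ℓ w with hyd
  have hyj : ∀ j : Fin r, y {j} ∈ FF (N 1) 0 := fun j => hym.1 {j} (Finset.card_singleton j)
  refine ⟨fun j i x => y {j} i x (∅, ()), fun j =>
    isHS_of_closed (hyj j) (congrFun hDy {j}), ?_⟩
  have h2 := congrFun hKy ∅
  rw [hs'0, kop_apply] at h2
  funext i x
  have h3 := congrFun (congrFun (congrFun h2 i) x) (∅, ())
  have h4 : embN s i x (∅, ()) = s i x := if_pos rfl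
  rw [h4] at h3
  rw [← h3, Finset.sum_apply, Finset.sum_apply, Finset.sum_apply, Finset.sum_apply,
    Finset.sum_apply]
  refine Finset.sum_congr rfl fun j _ => ?_
  have h5 : tog (∅ : Finset (Fin r)) j = {j} := by simp [tog]
  have h6 : cf (0 : Fin r → Fn A) ℓ j ∅ = ℓ j := by simp [cf]
  have h7 : sgn (Fn A) j (∅ : Finset (Fin r)) = 1 := by simp [sgn]
  rw [h5, h6, h7, one_mul]
  rfl

end

end Crest.Agent.R273.KosGen_313
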