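import Mathlib.Algebra.Group.ForwardDiff
import Mathlib.Algebra.Ring.GeomSum
import Mathlib.Algebra.Polynomial.Roots
import Mathlib.Algebra.Order.Archimedean.Basic
import Mathlib.LinearAlgebra.Dimension.Constructions
import Mathlib.LinearAlgebra.FiniteDimensional.Lemmas
import Mathlib.LinearAlgebra.Dimension.RankNullity
import Mathlib.LinearAlgebra.Finsupp.Pi
import Mathlib.Data.Fintype.Powerset
import Mathlib.RingTheory.Polynomial.Pochhammer
import Mathlib.Tactic.Ring
import Mathlib.Tactic.LinearCombination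

/-!
R273, leaf A-KOSZ (helper223): Koszul complexes and polynomial dimension functions.

* `sum_finrank_eq_zero` : `t 0, …, t (m-1)` operators on `W`, `V : ℕ → Submodule K W` with
  `t j (V y) ⊆ V (y+1)`, finite dimensional; if the Koszul complex
  `V 0 → V 1 ^ m → … → V m` is exact then `∑_q (-1)^q C(m,q) dim V (m-q) = 0`.
* `exists_polynomial` : `f : ℕ × ℕ → ℤ` killed by `(E₂-1)^m` and `(E₁E₂^{i₀}-1)^m` is polynomial
  along `x ↦ f (x,0)`.
-/

set_option autoImplicit false

open Finset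

namespace Crest.Agent.R273.Kosz_223

section Koszul

variable {K : Type*} [Field K] {W : Type*} [AddCommGroup W] [Module K W] {m : ℕ}

/-- sign `(-1)^{#{i ∈ J : i < j}}` -/
def sg (j : Fin m) (J : Finset (Fin m)) : K := (-1) ^ (J.filter (· < j)).card

/-- The Koszul differential, lowering the degree: `(δ s)(J) = ∑_{j ∉ J} ± t_j s(J ∪ j)`. -/
def dl (t : Fin m → W →ₗ[K] W) : (Finset (Fin m) → W) →ₗ[K] (Finset (Fin m) → W) where
  toFun s := fun J => ∑ j ∈ Jᶜ, (sg j J : K) • t j (s (insert j J))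
  map_add' s s' := by
    funext J
    simp only [Pi.add_apply, map_add, smul_add, Finset.sum_add_distrib]
  map_smul' c s := by
    funext J
    simp only [Pi.smul_apply, map_smul, RingHom.id_apply, Finset.smul_sum]
    exact Finset.sum_congr rfl (fun j _ => smul_comm _ _ _)

theorem dl_apply (t : Fin m → W →ₗ[K] W) (s : Finset (Fin m) → W) (J : Finset (Fin m)) :
    dl t s J = ∑ j ∈ Jᶜ, (sg j J : K) • t j (s (insert j J)) := rfl

/-- `C q V` : chains of degree `q` with values in `V`. -/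
def C (q : ℕ) (V : Submodule K W) : Submodule K (Finset (Fin m) → W) where
  carrier := {s | ∀ J, (J.card = q → s J ∈ V) ∧ (J.card ≠ q → s J = 0)}
  add_mem' := by
    intro a b ha hb J
    refine ⟨fun h => V.add_mem ((ha J).1 h) ((hb J).1 h), fun h => ?_⟩
    rw [Pi.add_apply, (ha J).2 h, (hb J).2 h, add_zero]
  zero_mem' := fun J => ⟨fun _ => V.zero_mem, fun _ => rfl⟩
  smul_mem' := by
    intro c a ha J
    refine ⟨fun h => V.smul_mem c ((ha J).1 h), fun h => ?_⟩
    rw [Pi.smul_apply, (ha J).2 h, smul_zero]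

theorem mem_C {q : ℕ} {V : Submodule K W} {s : Finset (Fin m) → W} :
    s ∈ C q V ↔ ∀ J, (J.card = q → s J ∈ V) ∧ (J.card ≠ q → s J = 0) := Iff.rfl

/-- `C q V` is a product of copies of `V`. -/
def equivPi (q : ℕ) (V : Submodule K W) :
    (C q V : Submodule K (Finset (Fin m) → W)) ≃ₗ[K] ({J : Finset (Fin m) // J.card = q} → V) where
  toFun s := fun J => ⟨s.1 J.1, (s.2 J.1).1 J.2⟩
  invFun u := ⟨fun J => if h : J.card = q then (u ⟨J, h⟩ : W) else 0, by
    intro J
    refine ⟨fun h => ?_, fun h => ?_⟩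
    · simp only [h, dite_true]; exact (u ⟨J, h⟩).2
    · simp only [h, dite_false]⟩
  left_inv := by
    intro s
    ext J
    by_cases h : J.card = q
    · simp [h]
    · simp only [h, dite_false]; exact ((s.2 J).2 h).symm
  right_inv := by
    intro u
    funext J
    ext
    simp [J.2]
  map_add' := by intro a b; rfl
  map_smul' := by intro c a; rfl

theorem finrank_C (q : ℕ) (V : Submodule K W) [FiniteDimensional K V] :
    Module.finrank K (C q V : Submodule K (Finset (Fin m) → W)) = m.choose q * Module.finrank K V := by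
  classical
  rw [(equivPi q V).finrank_eq, Module.finrank_pi_fintype]
  simp only [Finset.sum_const, Finset.card_univ, smul_eq_mul]
  congr 1
  have := Fintype.card_finset_len (α := Fin m) q
  rw [Fintype.card_fin] at this
  exact this

instance instFin (q : ℕ) (V : Submodule K W) [FiniteDimensional K V] :
    FiniteDimensional K (C q V : Submodule K (Finset (Fin m) → W)) :=
  Module.Finite.equiv (equivPi q V).symm

/-- `δ` maps degree `q+1` chains in `V` to degree `q` chains in `V'`. -/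
theorem dl_mem {t : Fin m → W →ₗ[K] W} {V V' : Submodule K W} (h : ∀ j, ∀ v ∈ V, t j v ∈ V')
    {q : ℕ} {s : Finset (Fin m) → W} (hs : s ∈ C (q + 1) V) : dl t s ∈ C q V' := by
  classical
  intro J
  refine ⟨fun hJ => ?_, fun hJ => ?_⟩
  · rw [dl_apply]
    refine V'.sum_mem fun j hj => V'.smul_mem _ (h j _ ?_)
    refine (hs _).1 ?_
    rw [Finset.card_insert_of_notMem (Finset.mem_compl.1 hj), hJ]
  · rw [dl_apply]
    refine Finset.sum_eq_zero fun j hj => ?_
    rw [(hs _).2 (by rw [Finset.card_insert_of_notMem (Finset.mem_compl.1 hj)]; omega), map_zero,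
      smul_zero]

theorem dl_zero_deg {t : Fin m → W →ₗ[K] W} {V : Submodule K W} {s : Finset (Fin m) → W}
    (hs : s ∈ C 0 V) : dl t s = 0 := by
  classical
  funext J
  rw [dl_apply]
  refine Finset.sum_eq_zero fun j hj => ?_
  rw [(hs _).2 (by rw [Finset.card_insert_of_notMem (Finset.mem_compl.1 hj)]; omega), map_zero,
    smul_zero]

theorem sg_insert_lt {j k : Fin m} {J : Finset (Fin m)} (hjk : j < k) (hj : j ∉ J) :
    (sg k (insert j J) : K) = - sg k J := by
  classical
  unfold sg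
  rw [Finset.filter_insert, if_pos hjk, Finset.card_insert_of_notMem (by simp [hj]), pow_succ]
  ring

theorem sg_insert_ge {j k : Fin m} {J : Finset (Fin m)} (hjk : j < k) :
    (sg j (insert k J) : K) = sg j J := by
  classical
  unfold sg
  rw [Finset.filter_insert, if_neg (not_lt.2 hjk.le)]

/-- `δ ∘ δ = 0` if the `t j` commute. -/
theorem dl_dl {t : Fin m → W →ₗ[K] W} (ht : ∀ j k w, t j (t k w) = t k (t j w))
    (s : Finset (Fin m) → W) : dl t (dl t s) = 0 := by
  classical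
  funext J
  rw [dl_apply]
  simp only [dl_apply, map_sum, map_smul, Finset.smul_sum, smul_smul]
  -- sum over pairs
  rw [Finset.sum_sigma']
  refine Finset.sum_involution (fun p _ => ⟨p.2, p.1⟩) ?_ ?_ ?_ ?_
  · rintro ⟨j, k⟩ hp
    simp only [Finset.mem_sigma, Finset.mem_compl, Finset.mem_insert, not_or] at hp
    obtain ⟨hj, hkj, hk⟩ := hp
    simp only
    rw [Finset.insert_comm k j J, ht k j, ← add_smul]
    have key : (sg j J : K) * sg k (insert j J) + sg k J * sg j (insert k J) = 0 := by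
      rcases lt_or_gt_of_ne hkj with h | h
      · rw [sg_insert_ge h, sg_insert_lt h hk]; ring
      · rw [sg_insert_ge h, sg_insert_lt h hj]; ring
    rw [key, zero_smul]
  · rintro ⟨j, k⟩ hp _ h
    simp only [Finset.mem_sigma, Finset.mem_compl, Finset.mem_insert, not_or] at hp
    have := congrArg Sigma.fst h
    exact hp.2.1 this
  · rintro ⟨j, k⟩ hp
    simp only [Finset.mem_sigma, Finset.mem_compl, Finset.mem_insert, not_or] at hp ⊢
    exact ⟨hp.2.2, fun h => hp.2.1 h.symm, hp.1⟩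
  · rintro ⟨j, k⟩ _
    rfl

/-- rank-nullity on a submodule. -/
theorem finrank_map_add {E : Type*} [AddCommGroup E] [Module K E] (S : Submodule K E)
    [FiniteDimensional K S] (f : E →ₗ[K] E) :
    Module.finrank K (S.map f) + Module.finrank K (S ⊓ LinearMap.ker f : Submodule K E)
      = Module.finrank K S := by
  have h := LinearMap.finrank_range_add_finrank_ker (f.domRestrict S)
  rw [LinearMap.range_domRestrict, LinearMap.ker_domRestrict] at h
  rw [← h, ← Submodule.map_comap_subtype, Submodule.finrank_map_subtype_eq]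

/-- **Dimension count for one exact Koszul complex** `V 0 → V 1 ^ m → … → V m → 0`. -/
theorem sum_finrank_eq_zero (t : Fin m → W →ₗ[K] W) (ht : ∀ j k w, t j (t k w) = t k (t j w))
    (V : ℕ → Submodule K W) (hfin : ∀ y, y ≤ m → FiniteDimensional K (V y))
    (htV : ∀ j y, y < m → ∀ v ∈ V y, t j v ∈ V (y + 1))
    (hinj : ∀ v ∈ V 0, (∀ j, t j v = 0) → v = 0)
    (hex : ∀ q y, q + y + 1 = m → ∀ s ∈ C q (V (y + 1)), dl t s = 0 →
      ∃ w ∈ C (q + 1) (V y), dl t w = s) :
    ∑ q ∈ Finset.range (m + 1), (-1 : ℤ) ^ q * (m.choose q * Module.finrank K (V (m - q))) = 0 := by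
  classical
  -- `c q = dim C_q`, `k q = dim ker on C_q`
  set Cq : ℕ → Submodule K (Finset (Fin m) → W) := fun q => C q (V (m - q)) with hCq
  set k : ℕ → ℤ := fun q => Module.finrank K (Cq q ⊓ LinearMap.ker (dl t) : Submodule K _) with hk
  have hf : ∀ q, FiniteDimensional K (V (m - q)) := fun q => hfin _ (Nat.sub_le _ _)
  have hc : ∀ q, (Module.finrank K (Cq q) : ℤ) = m.choose q * Module.finrank K (V (m - q)) := by
    intro q
    have := hf q
    rw [hCq]
    simp only
    rw [finrank_C]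
    push_cast
    rfl
  have hkm : k m = 0 := by
    rw [hk]
    simp only [Nat.cast_eq_zero]
    have hbot : (Cq m ⊓ LinearMap.ker (dl t) : Submodule K (Finset (Fin m) → W)) = ⊥ := by
      rw [eq_bot_iff]
      rintro s ⟨hs, hs''⟩
      have hs' : dl t s = 0 := LinearMap.mem_ker.1 hs''
      rw [Submodule.mem_bot]
      funext J
      by_cases hJ : J.card = m
      · have hJu : J = Finset.univ := by
          rw [← Finset.card_eq_iff_eq_univ, hJ, Fintype.card_fin]
        subst hJu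
        have hmem : s Finset.univ ∈ V 0 := by
          have := (hs Finset.univ).1 hJ
          rwa [Nat.sub_self] at this
        refine hinj _ hmem fun j => ?_
        have h1 := congrFun hs' (Finset.univ.erase j)
        rw [dl_apply] at h1
        have h2 : (Finset.univ.erase j)ᶜ = {j} := by ext i; simp
        rw [h2, Finset.sum_singleton, Finset.insert_erase (Finset.mem_univ j)] at h1
        have h3 : (sg j (Finset.univ.erase j) : K) ≠ 0 := pow_ne_zero _ (by simp)
        exact (smul_eq_zero.1 h1).resolve_left h3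
      · exact (hs J).2 hJ
    rw [hbot, finrank_bot]
  have hk0 : (Module.finrank K (Cq 0) : ℤ) = k 0 := by
    rw [hk]
    simp only [Nat.cast_inj]
    have hle : Cq 0 ≤ LinearMap.ker (dl t) := fun s hs => LinearMap.mem_ker.2 (dl_zero_deg hs)
    rw [inf_eq_left.2 hle]
  have hstep : ∀ q, q < m → (Module.finrank K (Cq (q + 1)) : ℤ) = k q + k (q + 1) := by
    intro q hq
    have := hf (q + 1)
    have h1 := finrank_map_add (Cq (q + 1)) (dl t)
    have h2 : (Cq (q + 1)).map (dl t) = Cq q ⊓ LinearMap.ker (dl t) := by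
      apply le_antisymm
      · rintro _ ⟨s, hs, rfl⟩
        refine ⟨?_, LinearMap.mem_ker.2 (dl_dl ht s)⟩
        have hsub : m - q = m - (q + 1) + 1 := by omega
        rw [hCq]
        simp only
        rw [hsub]
        exact dl_mem (fun j v hv => htV j _ (by omega) v hv) hs
      · rintro s ⟨hs, hs'⟩
        have hsub : m - q = m - (q + 1) + 1 := by omega
        have hs2 : s ∈ C q (V (m - (q + 1) + 1)) := by rw [← hsub]; exact hs
        obtain ⟨w, hw, hw'⟩ := hex q (m - (q + 1)) (by omega) s hs2 (LinearMap.mem_ker.1 hs')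
        exact ⟨w, hw, hw'⟩
    rw [h2] at h1
    rw [← h1]
    push_cast
    rfl
  have hsum : ∀ N, N ≤ m →
      ∑ q ∈ Finset.range (N + 1), (-1 : ℤ) ^ q * (Module.finrank K (Cq q) : ℤ) = (-1) ^ N * k N := by
    intro N
    induction N with
    | zero => intro _; simp [hk0]
    | succ N ih =>
      intro hN
      rw [Finset.sum_range_succ, ih (by omega), hstep N (by omega), pow_succ]
      ring
  have := hsum m le_rfl
  rw [hkm, mul_zero] at this
  rw [← this]
  exact Finset.sum_congr rfl fun q _ => by rw [hc]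

end Koszul

section Diff

open fwdDiff fwdDiff_aux

/-- The dimension count is a vanishing `m`-th difference. -/
theorem fwdDiff_of_sum {M : Type*} [AddCommMonoid M] (f : M → ℤ) (h : M) (m : ℕ) (a : M)
    (H : ∑ q ∈ Finset.range (m + 1), (-1 : ℤ) ^ q * (m.choose q * f (a + (m - q) • h)) = 0) :
    (fwdDiff h)^[m] f a = 0 := by
  rw [fwdDiff_iter_eq_sum_shift, ← H, ← Finset.sum_range_reflect]
  refine Finset.sum_congr rfl fun q hq => ?_
  rw [Finset.mem_range] at hq
  have h1 : m + 1 - 1 - q = m - q := by omega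
  have h2 : m - (m - q) = q := by omega
  rw [h1, h2, Nat.choose_symm (by omega), smul_eq_mul]
  ring

/-- `f` killed by `(E₂-1)^m` and `(E₁E₂^{i₀}-1)^m` is killed by `(E₁-1)^{2m}`. -/
theorem fwdDiff_fst (f : ℕ × ℕ → ℤ) (m i0 : ℕ)
    (h2 : (fwdDiff ((0, 1) : ℕ × ℕ))^[m] f = 0)
    (h12 : (fwdDiff ((1, i0) : ℕ × ℕ))^[m] f = 0) :
    (fwdDiff ((1, 0) : ℕ × ℕ))^[2 * m] f = 0 := by
  set S1 : Module.End ℤ (ℕ × ℕ → ℤ) := shiftₗ (ℕ × ℕ) ℤ (1, 0) with hS1
  set S2 : Module.End ℤ (ℕ × ℕ → ℤ) := shiftₗ (ℕ × ℕ) ℤ (0, 1) with hS2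
  set S : Module.End ℤ (ℕ × ℕ → ℤ) := shiftₗ (ℕ × ℕ) ℤ (1, i0) with hS
  have hD2 : fwdDiffₗ (ℕ × ℕ) ℤ (0, 1) = S2 - 1 := by simp [hS2, shiftₗ]
  have hD : fwdDiffₗ (ℕ × ℕ) ℤ (1, i0) = S - 1 := by simp [hS, shiftₗ]
  have hD1 : fwdDiffₗ (ℕ × ℕ) ℤ (1, 0) = S1 - 1 := by simp [hS1, shiftₗ]
  have e2 : ((S2 - 1) ^ m) f = 0 := by
    rw [← hD2, ← h2, ← coe_fwdDiffₗ_pow]
  have e12 : ((S - 1) ^ m) f = 0 := by
    rw [← hD, ← h12, ← coe_fwdDiffₗ_pow]
  have c12 : Commute S1 S2 := by
    refine LinearMap.ext fun g => funext fun y => ?_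
    simp only [Module.End.mul_apply, hS1, hS2, shiftₗ_apply]
    rw [add_right_comm]
  have hSS : S = S1 * S2 ^ i0 := by
    refine LinearMap.ext fun g => funext fun y => ?_
    rw [Module.End.mul_apply, hS1, hS2, hS, shiftₗ_apply, shiftₗ_apply, shiftₗ_pow_apply, add_assoc]
    congr 1
    simp
  -- geometric sum
  set G : Module.End ℤ (ℕ × ℕ → ℤ) := ∑ l ∈ Finset.range i0, S2 ^ l with hG
  have hgeo : G * (S2 - 1) = S2 ^ i0 - 1 := geom_sum_mul S2 i0
  set c : Module.End ℤ (ℕ × ℕ → ℤ) := S1 * G with hc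
  set a : Module.End ℤ (ℕ × ℕ → ℤ) := c * (S2 - 1) with ha
  have cG2 : Commute G (S2 - 1) := by
    refine Commute.sub_right ?_ (Commute.one_right _)
    exact Commute.sum_left _ _ _ fun l _ => (Commute.refl S2).pow_left l
  have cc : Commute c (S2 - 1) :=
    Commute.mul_left (Commute.sub_right c12 (Commute.one_right _)) cG2
  have ha' : a = S1 * (S2 ^ i0 - 1) := by rw [ha, hc, mul_assoc, hgeo]
  have hsum : S1 - 1 = (S - 1) + -a := by
    rw [ha', hSS, mul_sub, mul_one]
    abel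
  have cS : Commute (S - 1) (-a) := by
    refine Commute.neg_right ?_
    refine Commute.sub_left ?_ (Commute.one_left _)
    rw [ha', hSS]
    have h22 : Commute (S2 ^ i0) (S2 ^ i0 - 1) :=
      Commute.sub_right (Commute.refl _) (Commute.one_right _)
    have h12' : Commute S1 (S2 ^ i0) := c12.pow_right i0
    have h1 : Commute S1 (S1 * (S2 ^ i0 - 1)) :=
      Commute.mul_right (Commute.refl _) (Commute.sub_right h12' (Commute.one_right _))
    have h2 : Commute (S2 ^ i0) (S1 * (S2 ^ i0 - 1)) := Commute.mul_right h12'.symm h22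
    exact Commute.mul_left h1 h2
  have ea : ∀ i, m ≤ i → ((-a) ^ i) f = 0 := by
    intro i hi
    obtain ⟨r, rfl⟩ := Nat.exists_eq_add_of_le' hi
    have : ((-a) ^ m) f = 0 := by
      rw [neg_pow, ha, cc.mul_pow, Module.End.mul_apply, Module.End.mul_apply, e2, map_zero,
        map_zero]
    rw [pow_add, Module.End.mul_apply, this, map_zero]
  have eb : ∀ i, m ≤ i → ((S - 1) ^ i) f = 0 := by
    intro i hi
    obtain ⟨r, rfl⟩ := Nat.exists_eq_add_of_le' hi
    rw [pow_add, Module.End.mul_apply, e12, map_zero]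
  rw [← coe_fwdDiffₗ_pow, hD1, hsum, cS.add_pow, LinearMap.sum_apply]
  refine Finset.sum_eq_zero fun i _ => ?_
  rw [← nsmul_eq_mul', LinearMap.smul_apply]
  rcases le_total m i with hi | hi
  · rw [(cS.pow_pow _ _).eq, Module.End.mul_apply, eb i hi, map_zero, smul_zero]
  · rw [Module.End.mul_apply, ea _ (by omega), map_zero, smul_zero]

/-- the binomial polynomial. -/
theorem exists_choose_poly (k : ℕ) : ∃ p : Polynomial ℚ, ∀ n : ℕ, p.eval (n : ℚ) = (n.choose k : ℚ) := by
  refine ⟨Polynomial.C ((k.factorial : ℚ)⁻¹) * descPochhammer ℚ k, fun n => ?_⟩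
  rw [Polynomial.eval_mul, Polynomial.eval_C, descPochhammer_eval_eq_descFactorial,
    Nat.descFactorial_eq_factorial_mul_choose]
  push_cast
  rw [inv_mul_cancel_left₀ (by exact_mod_cast k.factorial_ne_zero)]

/-- a sequence with vanishing `N`-th difference is polynomial. -/
theorem exists_poly_of_fwdDiff (g : ℕ → ℤ) (N : ℕ) (h : (fwdDiff 1)^[N] g = 0) :
    ∃ p : Polynomial ℚ, ∀ n : ℕ, p.eval (n : ℚ) = (g n : ℚ) := by
  have hz : ∀ k, N ≤ k → (fwdDiff 1)^[k] g = 0 := by
    intro k hk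
    obtain ⟨r, rfl⟩ := Nat.exists_eq_add_of_le' hk
    rw [Function.iterate_add_apply, h, ← coe_fwdDiffₗ_pow, map_zero]
  choose P hP using exists_choose_poly
  refine ⟨∑ k ∈ Finset.range N, Polynomial.C (((fwdDiff 1)^[k] g 0 : ℤ) : ℚ) * P k, fun n => ?_⟩
  have h1 := shift_eq_sum_fwdDiff_iter 1 g n 0
  rw [zero_add, smul_eq_mul, mul_one] at h1
  rw [h1, Polynomial.eval_finsetSum]
  push_cast
  have h2 : ∀ k ∈ Finset.range N, Polynomial.eval (n : ℚ) (Polynomial.C (((fwdDiff 1)^[k] g 0 : ℤ) : ℚ) * P k)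
      = (n.choose k : ℚ) * (((fwdDiff 1)^[k] g 0 : ℤ) : ℚ) := by
    intro k _
    rw [Polynomial.eval_mul, Polynomial.eval_C, hP, mul_comm]
  rw [Finset.sum_congr rfl h2]
  rcases le_total N (n + 1) with hN | hN
  · rw [← Finset.sum_subset (Finset.range_subset_range.2 hN)]
    · exact Finset.sum_congr rfl fun k _ => by simp
    · intro k _ hk
      rw [Finset.mem_range, not_lt] at hk
      rw [hz k hk]
      simp
  · rw [← Finset.sum_subset (Finset.range_subset_range.2 hN)]
    · exact Finset.sum_congr rfl fun k _ => by simp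
    · intro k _ hk
      rw [Finset.mem_range, not_lt] at hk
      rw [Nat.choose_eq_zero_of_lt (by omega)]
      simp

/-- **Two directions.**  `f(x,y)`, `x,y ≥ 0`, with the Koszul relation in direction `(0,1)` and in
direction `(1,i₀)` (on the whole quadrant): `x ↦ f(x,0)` is a polynomial on all of `ℕ`. -/
theorem exists_polynomial (f : ℕ × ℕ → ℤ) (m i0 : ℕ)
    (H2 : ∀ x y, ∑ q ∈ Finset.range (m + 1), (-1 : ℤ) ^ q * (m.choose q * f (x, y + (m - q))) = 0)
    (H12 : ∀ x y, ∑ q ∈ Finset.range (m + 1),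
      (-1 : ℤ) ^ q * (m.choose q * f (x + (m - q), y + (m - q) * i0)) = 0) :
    ∃ p : Polynomial ℚ, ∀ x : ℕ, p.eval (x : ℚ) = (f (x, 0) : ℚ) := by
  have h2 : (fwdDiff ((0, 1) : ℕ × ℕ))^[m] f = 0 := by
    funext a
    refine fwdDiff_of_sum f (0, 1) m a ?_
    rw [← H2 a.1 a.2]
    refine Finset.sum_congr rfl fun q _ => ?_
    congr 3
    ext <;> simp
  have h12 : (fwdDiff ((1, i0) : ℕ × ℕ))^[m] f = 0 := by
    funext a
    refine fwdDiff_of_sum f (1, i0) m a ?_
    rw [← H12 a.1 a.2]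
    refine Finset.sum_congr rfl fun q _ => ?_
    congr 3
    ext <;> simp
  have h1 := fwdDiff_fst f m i0 h2 h12
  refine exists_poly_of_fwdDiff (fun x => f (x, 0)) (2 * m) ?_
  funext x
  have h3 := congrFun h1 (x, 0)
  rw [fwdDiff_iter_eq_sum_shift] at h3 ⊢
  rw [Pi.zero_apply] at h3 ⊢
  rw [← h3]
  refine Finset.sum_congr rfl fun q _ => ?_
  congr 2

/-- Consequence used in Part A: `f(0,0) ≠ 0` implies `f(x,0) ≠ 0` for all large `x`. -/
theorem eventually_ne (f : ℕ × ℕ → ℤ) (m i0 : ℕ)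
    (H2 : ∀ x y, ∑ q ∈ Finset.range (m + 1), (-1 : ℤ) ^ q * (m.choose q * f (x, y + (m - q))) = 0)
    (H12 : ∀ x y, ∑ q ∈ Finset.range (m + 1),
      (-1 : ℤ) ^ q * (m.choose q * f (x + (m - q), y + (m - q) * i0)) = 0)
    (h0 : f (0, 0) ≠ 0) : ∃ x0 : ℕ, ∀ x, x0 ≤ x → f (x, 0) ≠ 0 := by
  classical
  obtain ⟨p, hp⟩ := exists_polynomial f m i0 H2 H12
  have hp0 : p ≠ 0 := by
    rintro rfl
    have := hp 0
    rw [Polynomial.eval_zero] at this
    exact h0 (by exact_mod_cast this.symm)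
  obtain ⟨B, hB⟩ := ((p.roots.toFinset).finite_toSet.bddAbove)
  obtain ⟨N, hN⟩ := exists_nat_gt B
  refine ⟨N, fun x hx h => ?_⟩
  have hroot : (x : ℚ) ∈ p.roots.toFinset := by
    rw [Multiset.mem_toFinset, Polynomial.mem_roots hp0, Polynomial.IsRoot.def, hp x, h]
    norm_num
  have h1 : (x : ℚ) ≤ B := hB hroot
  have h2 : (N : ℚ) ≤ x := by exact_mod_cast hx
  linarith

end Diff

section Final

variable {K : Type*} [Field K] {W : Type*} [AddCommGroup W] [Module K W] {m : ℕ}

/-- **Final form.**  Spaces `V x y ⊆ W` (`x,y ≥ 0`), operators `t j : V x y → V x (y+1)` and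
`t' j : V x y → V (x+1) (y+i₀)` (`m` of each), both Koszul complexes exact on the whole quadrant.
Then `x ↦ dim V x 0` is a polynomial on all of `ℕ`. -/
theorem finrank_polynomial (t t' : Fin m → W →ₗ[K] W) (i0 : ℕ)
    (ht : ∀ j k w, t j (t k w) = t k (t j w)) (ht' : ∀ j k w, t' j (t' k w) = t' k (t' j w))
    (V : ℕ → ℕ → Submodule K W) (hfin : ∀ x y, FiniteDimensional K (V x y))
    (htV : ∀ j x y, ∀ v ∈ V x y, t j v ∈ V x (y + 1))
    (htV' : ∀ j x y, ∀ v ∈ V x y, t' j v ∈ V (x + 1) (y + i0))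
    (hinj : ∀ x y, ∀ v ∈ V x y, (∀ j, t j v = 0) → v = 0)
    (hinj' : ∀ x y, ∀ v ∈ V x y, (∀ j, t' j v = 0) → v = 0)
    (hex : ∀ x y q, q < m → m ≤ q + y + 1 → ∀ s ∈ C q (V x (y + 1)), dl t s = 0 →
      ∃ w ∈ C (q + 1) (V x y), dl t w = s)
    (hex' : ∀ x y q, q < m → m ≤ q + x + 1 → (m - q - 1) * i0 ≤ y →
      ∀ s ∈ C q (V (x + 1) (y + i0)), dl t' s = 0 → ∃ w ∈ C (q + 1) (V x y), dl t' w = s) :
    ∃ p : Polynomial ℚ, ∀ x : ℕ, p.eval (x : ℚ) = (Module.finrank K (V x 0) : ℚ) := by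
  have key := exists_polynomial (fun a => (Module.finrank K (V a.1 a.2) : ℤ)) m i0 ?_ ?_
  · obtain ⟨p, hp⟩ := key
    exact ⟨p, fun x => by rw [hp x]; push_cast; rfl⟩
  · intro x y
    refine sum_finrank_eq_zero t ht (fun l => V x (y + l)) (fun l _ => hfin _ _)
      (fun j l _ v hv => htV j _ _ v hv) (fun v hv => hinj _ _ v hv) ?_
    intro q l hq s hs hs0
    exact hex x (y + l) q (by omega) (by omega) s hs hs0
  · intro x y
    refine sum_finrank_eq_zero t' ht' (fun l => V (x + l) (y + l * i0)) (fun l _ => hfin _ _)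
      (fun j l _ v hv => ?_) (fun v hv => hinj' (x + 0) (y + 0 * i0) v hv) ?_
    · have := htV' j _ _ v hv
      rwa [add_assoc, add_assoc, ← Nat.succ_mul] at this
    · intro q l hq s hs hs0
      have e : y + (l + 1) * i0 = y + l * i0 + i0 := by ring
      have hs' : s ∈ C q (V (x + l + 1) (y + l * i0 + i0)) := by
        rw [← e, add_assoc]; exact hs
      refine hex' (x + l) (y + l * i0) q (by omega) (by omega) ?_ s hs' hs0
      have h1 : m - q - 1 = l := by omega
      rw [h1]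
      exact Nat.le_add_left _ _

/-- Corollary: if moreover `V 0 0 ≠ ⊥`, then `V x 0 ≠ ⊥` for all large `x`. -/
theorem eventually_ne_bot (t t' : Fin m → W →ₗ[K] W) (i0 : ℕ)
    (ht : ∀ j k w, t j (t k w) = t k (t j w)) (ht' : ∀ j k w, t' j (t' k w) = t' k (t' j w))
    (V : ℕ → ℕ → Submodule K W) (hfin : ∀ x y, FiniteDimensional K (V x y))
    (htV : ∀ j x y, ∀ v ∈ V x y, t j v ∈ V x (y + 1))
    (htV' : ∀ j x y, ∀ v ∈ V x y, t' j v ∈ V (x + 1) (y + i0))
    (hinj : ∀ x y, ∀ v ∈ V x y, (∀ j, t j v = 0) → v = 0)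
    (hinj' : ∀ x y, ∀ v ∈ V x y, (∀ j, t' j v = 0) → v = 0)
    (hex : ∀ x y q, q < m → m ≤ q + y + 1 → ∀ s ∈ C q (V x (y + 1)), dl t s = 0 →
      ∃ w ∈ C (q + 1) (V x y), dl t w = s)
    (hex' : ∀ x y q, q < m → m ≤ q + x + 1 → (m - q - 1) * i0 ≤ y →
      ∀ s ∈ C q (V (x + 1) (y + i0)), dl t' s = 0 → ∃ w ∈ C (q + 1) (V x y), dl t' w = s)
    (h0 : V 0 0 ≠ ⊥) : ∃ x0 : ℕ, ∀ x, x0 ≤ x → V x 0 ≠ ⊥ := by
  classical
  obtain ⟨p, hp⟩ := finrank_polynomial t t' i0 ht ht' V hfin htV htV' hinj hinj' hex hex'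
  have hp0 : p ≠ 0 := by
    rintro rfl
    have h1 := hp 0
    rw [Polynomial.eval_zero] at h1
    have h2 : Module.finrank K (V 0 0) = 0 := by exact_mod_cast h1.symm
    have := hfin 0 0
    exact h0 (Submodule.finrank_eq_zero.1 h2)
  obtain ⟨B, hB⟩ := ((p.roots.toFinset).finite_toSet.bddAbove)
  obtain ⟨N, hN⟩ := exists_nat_gt B
  refine ⟨N, fun x hx h => ?_⟩
  have hroot : (x : ℚ) ∈ p.roots.toFinset := by
    rw [Multiset.mem_toFinset, Polynomial.mem_roots hp0, Polynomial.IsRoot.def, hp x, h,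
      finrank_bot]
    norm_num
  have h1 : (x : ℚ) ≤ B := hB hroot
  have h2 : (N : ℚ) ≤ x := by exact_mod_cast hx
  linarith

end Final

end Crest.Agent.R273.Kosz_223
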