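import Mathlib.GroupTheory.Schreier
import Mathlib.GroupTheory.Index
import Mathlib.Algebra.Module.ZLattice.Basic
import Mathlib.Analysis.Normed.Module.FiniteDimension
import Mathlib.Analysis.Seminorm
import Mathlib.LinearAlgebra.FiniteDimensional.Basic

/-!
# R273 (S0416), Part B, the "maximal `q`" step: formalism independent leaves (helper127)

* `finite_range` : a group acting linearly on a real vector space, preserving the lattice spanned by a
  basis and a function which is proper on the lattice, acts through a finite group;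
* `finite_range_seminorm` : the same for a group preserving a definite seminorm (a norm);
* `finite_range_form` : the same for a positive definite (real) symmetric form;
* `finiteIndex_ker…` : the kernel has finite index;
* `exists_char` : a finitely generated group, `H` of finite index: there is a characteristic subgroup of
  finite index inside `H`; `exists_normal` : `P` normal in `G`, then its image is normal in `G`.
-/

set_option autoImplicit false

open Set Module

namespace Crest.Agent.R273.LatFin127

section lattice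

variable {V : Type*} [AddCommGroup V] [Module ℝ V] {G : Type*} [Group G] {ι : Type*}

/-- abstract form: `N` is invariant and proper on the lattice -/
theorem finite_range [Finite ι] (b : Basis ι ℝ V) (ρ : G →* (V →ₗ[ℝ] V))
    (hL : ∀ g, ∀ l ∈ Submodule.span ℤ (Set.range b), ρ g l ∈ Submodule.span ℤ (Set.range b))
    (N : V → ℝ) (hN : ∀ g v, N (ρ g v) = N v)
    (hfin : ∀ R, {l | l ∈ Submodule.span ℤ (Set.range b) ∧ N l ≤ R}.Finite) :
    (Set.range ρ).Finite := by
  classical
  have _ := Fintype.ofFinite ι
  have h1 : (Set.pi Set.univ fun i : ι =>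
      {l | l ∈ Submodule.span ℤ (Set.range b) ∧ N l ≤ N (b i)}).Finite :=
    Set.Finite.pi fun i => hfin _
  have h2 : Set.InjOn (fun (f : V →ₗ[ℝ] V) (i : ι) => f (b i)) Set.univ := by
    intro f _ g _ hfg
    exact b.ext fun i => congrFun hfg i
  refine Set.Finite.of_finite_image (f := fun (f : V →ₗ[ℝ] V) (i : ι) => f (b i)) ?_
    (h2.mono (Set.subset_univ _))
  refine h1.subset ?_
  rintro _ ⟨_, ⟨g, rfl⟩, rfl⟩ i _
  exact ⟨hL g _ (Submodule.subset_span ⟨i, rfl⟩), (hN g _).le⟩

/-- integral vectors of bounded size, for a definite seminorm -/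
theorem finite_seminorm [Finite ι] (b : Basis ι ℝ V) (p : Seminorm ℝ V)
    (hp : ∀ v, p v = 0 → v = 0) (R : ℝ) :
    {l | l ∈ Submodule.span ℤ (Set.range b) ∧ p l ≤ R}.Finite := by
  classical
  have _ := Fintype.ofFinite ι
  -- the seminorm read in the coordinates
  set q : (ι → ℝ) → ℝ := fun x => p (b.equivFun.symm x) with hq
  have hqle : ∀ x : ι → ℝ, q x ≤ (∑ i, p (b i)) * ‖x‖ := by
    intro x
    have h1 : b.equivFun.symm x = ∑ i, x i • b i := b.equivFun_symm_apply x
    calc q x = p (∑ i, x i • b i) := by rw [hq]; simp only [h1]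
      _ ≤ ∑ i, p (x i • b i) := by
          refine Finset.le_sum_of_subadditive p (map_zero p).le (map_add_le_add p) _ _
      _ = ∑ i, ‖x i‖ * p (b i) := by simp only [map_smul_eq_mul]
      _ ≤ ∑ i, ‖x‖ * p (b i) := by
          refine Finset.sum_le_sum fun i _ => ?_
          exact mul_le_mul_of_nonneg_right (norm_le_pi_norm x i) (apply_nonneg p _)
      _ = (∑ i, p (b i)) * ‖x‖ := by rw [← Finset.mul_sum, mul_comm]
  have hqsub : ∀ x y : ι → ℝ, |q x - q y| ≤ q (x - y) := by
    intro x y
    have := abs_sub_map_le_sub p (b.equivFun.symm x) (b.equivFun.symm y)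
    rw [← map_sub b.equivFun.symm] at this
    exact this
  have hqc : Continuous q := by
    have hC : 0 ≤ ∑ i, p (b i) := Finset.sum_nonneg fun i _ => apply_nonneg p _
    refine continuous_iff_continuousAt.2 fun x => ?_
    rw [ContinuousAt, tendsto_iff_norm_sub_tendsto_zero]
    have h2 : Filter.Tendsto (fun y : ι → ℝ => (∑ i, p (b i)) * ‖y - x‖) (nhds x) (nhds 0) := by
      have h3 : Filter.Tendsto (fun y : ι → ℝ => (∑ i, p (b i)) * ‖y - x‖) (nhds x)
          (nhds ((∑ i, p (b i)) * ‖x - x‖)) := by
        apply Continuous.tendsto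
        fun_prop
      simpa using h3
    refine squeeze_zero (fun _ => norm_nonneg _) (fun y => ?_) h2
    rw [Real.norm_eq_abs]
    exact (hqsub y x).trans (hqle _)
  -- positive lower bound on the sphere
  obtain ⟨c, hc, hlow⟩ : ∃ c : ℝ, 0 < c ∧ ∀ x : ι → ℝ, c * ‖x‖ ≤ q x := by
    by_cases hne : (Metric.sphere (0 : ι → ℝ) 1).Nonempty
    · obtain ⟨x0, hx0, hmin⟩ := (isCompact_sphere (0 : ι → ℝ) 1).exists_isMinOn hne
        hqc.continuousOn
      have hx0' : ‖x0‖ = 1 := by simpa using hx0
      have hpos : 0 < q x0 := by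
        rcases (apply_nonneg p (b.equivFun.symm x0)).lt_or_eq with h | h
        · exact h
        · exfalso
          have h3 := hp _ h.symm
          have h4 : x0 = 0 := (LinearEquiv.map_eq_zero_iff _).1 h3
          rw [h4] at hx0'
          simp at hx0'
      refine ⟨q x0, hpos, fun x => ?_⟩
      by_cases hx : x = 0
      · subst hx
        simp [hq]
      · have hxn : 0 < ‖x‖ := norm_pos_iff.2 hx
        have h5 : q x0 ≤ q (‖x‖⁻¹ • x) := by
          apply hmin
          simp [norm_smul, hxn.ne']
        have h6 : q (‖x‖⁻¹ • x) = ‖x‖⁻¹ * q x := by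
          simp only [hq, map_smul, map_smul_eq_mul, norm_inv, norm_norm]
        rw [h6] at h5
        calc q x0 * ‖x‖ ≤ (‖x‖⁻¹ * q x) * ‖x‖ := mul_le_mul_of_nonneg_right h5 hxn.le
          _ = q x := by field_simp
    · refine ⟨1, one_pos, fun x => ?_⟩
      have hx : x = 0 := by
        by_contra hx
        apply hne
        refine ⟨‖x‖⁻¹ • x, ?_⟩
        have hxn : 0 < ‖x‖ := norm_pos_iff.2 hx
        simp [norm_smul, hxn.ne']
      subst hx
      simp [hq]
  -- the coordinates of lattice vectors are integers of bounded size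
  have hfin : (Set.pi Set.univ fun _ : ι => (fun m : ℤ => (m : ℝ)) ''
      (Set.Icc ⌊-(R / c)⌋ ⌈R / c⌉)).Finite := Set.Finite.pi fun _ => (Set.finite_Icc _ _).image _
  refine Set.Finite.of_finite_image (f := fun v => (b.equivFun v : ι → ℝ)) ?_
    (b.equivFun.injective.injOn)
  refine hfin.subset ?_
  rintro _ ⟨l, ⟨hl, hlR⟩, rfl⟩ i _
  have hint : ∃ m : ℤ, (m : ℝ) = b.equivFun l i := by
    rw [b.mem_span_iff_repr_mem ℤ l] at hl
    obtain ⟨m, hm⟩ := hl i
    exact ⟨m, by simpa [Basis.equivFun_apply] using hm⟩
  obtain ⟨m, hm⟩ := hint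
  refine ⟨m, ?_, hm⟩
  have h7 : ‖(b.equivFun l : ι → ℝ)‖ ≤ R / c := by
    rw [le_div_iff₀ hc, mul_comm]
    refine (hlow _).trans ?_
    simpa [hq] using hlR
  have h8 : |(m : ℝ)| ≤ R / c := by
    rw [hm]
    exact (norm_le_pi_norm (b.equivFun l : ι → ℝ) i).trans h7
  rw [abs_le] at h8
  constructor
  · exact_mod_cast (Int.floor_le _).trans h8.1
  · exact_mod_cast h8.2.trans (Int.le_ceil _)

theorem finite_range_seminorm [Finite ι] (b : Basis ι ℝ V) (ρ : G →* (V →ₗ[ℝ] V))
    (hL : ∀ g, ∀ l ∈ Submodule.span ℤ (Set.range b), ρ g l ∈ Submodule.span ℤ (Set.range b))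
    (p : Seminorm ℝ V) (hp : ∀ v, p v = 0 → v = 0) (hN : ∀ g v, p (ρ g v) = p v) :
    (Set.range ρ).Finite :=
  finite_range b ρ hL p hN (finite_seminorm b p hp)

/-- a homomorphism to a monoid with finite range has a kernel of finite index -/
theorem finiteIndex_ker_of_finite_range {M : Type*} [Monoid M] (ρ : G →* M)
    (h : (Set.range ρ).Finite) : ρ.ker.FiniteIndex := by
  have : Finite (Set.range ρ) := h
  have h1 : Finite (G ⧸ ρ.ker) := by
    refine Finite.of_injective (β := Set.range ρ)
      (fun x => Quotient.liftOn' x (fun g => (⟨ρ g, g, rfl⟩ : Set.range ρ)) ?_) ?_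
    · intro a c hac
      rw [QuotientGroup.leftRel_apply, MonoidHom.mem_ker, map_mul] at hac
      apply Subtype.ext
      show ρ a = ρ c
      have h2 : ρ a * (ρ a⁻¹ * ρ c) = ρ a * 1 := by rw [hac]
      rw [← mul_assoc, ← map_mul, mul_inv_cancel, map_one, one_mul, mul_one] at h2
      exact h2.symm
    · intro x y
      refine Quotient.inductionOn₂' x y fun a c hac => ?_
      have h3 : ρ a = ρ c := congrArg Subtype.val hac
      apply Quotient.sound'
      rw [QuotientGroup.leftRel_apply, MonoidHom.mem_ker, map_mul, ← h3, ← map_mul,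
        inv_mul_cancel, map_one]
  exact Subgroup.finiteIndex_of_finite_quotient

/-- **a group of isometries preserving a lattice acts through a finite group** -/
theorem finiteIndex_ker [Finite ι] (b : Basis ι ℝ V) (ρ : G →* (V →ₗ[ℝ] V))
    (hL : ∀ g, ∀ l ∈ Submodule.span ℤ (Set.range b), ρ g l ∈ Submodule.span ℤ (Set.range b))
    (p : Seminorm ℝ V) (hp : ∀ v, p v = 0 → v = 0) (hN : ∀ g v, p (ρ g v) = p v) :
    ρ.ker.FiniteIndex :=
  finiteIndex_ker_of_finite_range ρ (finite_range_seminorm b ρ hL p hp hN)

end lattice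

/-! ### subgroups of finite index of a finitely generated group -/

section fg

variable {P : Type*} [Group P]

/-- the core of a finite index subgroup contains the kernel of a homomorphism to a finite symmetric
group; in a finitely generated group the intersection of all those kernels is characteristic of finite
index -/
theorem exists_characteristic [Group.FG P] (H : Subgroup P) [H.FiniteIndex] :
    ∃ K : Subgroup P, K ≤ H ∧ K.Characteristic ∧ K.FiniteIndex := by
  classical
  -- homomorphisms to the finite group of permutations of `P ⧸ H`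
  have hfin : Finite (P →* Equiv.Perm (P ⧸ H)) := by
    obtain ⟨T, hT⟩ := (Group.fg_def (G := P)).1 inferInstance
    refine Finite.of_injective (β := T → Equiv.Perm (P ⧸ H)) (fun f t => f t) ?_
    intro f g hfg
    refine MonoidHom.eq_of_eqOn_top ?_
    rw [← hT]
    refine MonoidHom.eqOn_closure ?_
    intro t ht
    exact congrFun hfg ⟨t, ht⟩
  refine ⟨⨅ f : P →* Equiv.Perm (P ⧸ H), f.ker, ?_, ?_, ?_⟩
  · refine (iInf_le _ (MulAction.toPermHom P (P ⧸ H))).trans ?_
    rw [← Subgroup.normalCore_eq_ker]
    exact Subgroup.normalCore_le H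
  · rw [Subgroup.characteristic_iff_le_comap]
    intro φ
    rw [Subgroup.comap_iInf]
    refine le_iInf fun f => ?_
    refine (iInf_le _ (f.comp φ.toMonoidHom)).trans ?_
    intro x hx
    exact hx
  · exact Subgroup.finiteIndex_iInf fun f => Subgroup.finiteIndex_ker f

/-- `P` normal in `G`, `K` characteristic in `P` : the image of `K` is normal in `G` -/
theorem normal_map_of_characteristic {G : Type*} [Group G] (Q : Subgroup G) [Q.Normal]
    (K : Subgroup Q) [K.Characteristic] : (K.map Q.subtype).Normal := inferInstance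

/-- combined form: `Q` normal and finitely generated in `G`, `H` a subgroup of finite index of `Q` :
there is a normal subgroup `K` of `G` contained in `H`, of finite index in `Q` -/
theorem exists_normal {G : Type*} [Group G] (Q : Subgroup G) [Q.Normal] [Group.FG Q]
    (H : Subgroup Q) [H.FiniteIndex] :
    ∃ K : Subgroup Q, K ≤ H ∧ K.FiniteIndex ∧ K.Characteristic ∧ (K.map Q.subtype).Normal := by
  obtain ⟨K, h1, h2, h3⟩ := exists_characteristic H
  exact ⟨K, h1, h3, h2, normal_map_of_characteristic Q K⟩

end fg

end Crest.Agent.R273.LatFin127
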