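import Mathlib.Analysis.Normed.Group.Constructions
import Mathlib.Analysis.Normed.Field.Lemmas
import Mathlib.Analysis.Complex.Basic
import Mathlib.Analysis.Complex.Norm
import Mathlib.Analysis.RCLike.Basic
import Mathlib.Algebra.Polynomial.Roots
import Mathlib.Algebra.Polynomial.BigOperators
import Mathlib.Data.Matrix.Mul
import Mathlib.Data.Nat.Choose.Bounds
import Mathlib.Topology.MetricSpace.ProperSpace
import Mathlib.Topology.Algebra.Polynomial
import Mathlib.Topology.Order.Compact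
import Mathlib.Tactic.Ring
import Mathlib.Tactic.Linarith
import Mathlib.Tactic.Positivity
import Mathlib.Tactic.LinearCombination

/-!
R273 (S0416), Part A, Lemma U, leaf PN (helper619): products of linear forms.

* `prod_forms`: there is a finite set `S` and `c > 0` with `max_S ∏ |l_i| ≥ c ∏ ‖l_i‖`.
* `pn`: the size of the elementary symmetric combinations of `l'_i + s l''_i`.
-/

set_option autoImplicit false

open Finset Polynomial

namespace Crest.Agent.R273.PolyN_619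

/-! ### The moment curve -/

/-- the moment curve -/
def mom (m : ℕ) (t : ℕ) : Fin m → ℂ := fun k => (t : ℂ) ^ (k : ℕ)

/-- the polynomial of a form -/
noncomputable def fpoly {m : ℕ} (l : Fin m → ℂ) : ℂ[X] := ∑ k : Fin m, C (l k) * X ^ (k : ℕ)

theorem fpoly_eval {m : ℕ} (l : Fin m → ℂ) (t : ℕ) : (fpoly l).eval (t : ℂ) = l ⬝ᵥ mom m t := by
  unfold fpoly mom dotProduct
  rw [eval_finsetSum]
  refine Finset.sum_congr rfl fun k _ => ?_
  rw [eval_mul, eval_C, eval_pow, eval_X]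

theorem fpoly_coeff {m : ℕ} (l : Fin m → ℂ) (k : Fin m) : (fpoly l).coeff k = l k := by
  unfold fpoly
  rw [finsetSum_coeff, Finset.sum_eq_single k]
  · rw [coeff_C_mul, coeff_X_pow, if_pos rfl, mul_one]
  · intro j _ hj
    rw [coeff_C_mul, coeff_X_pow, if_neg, mul_zero]
    exact fun h => hj (Fin.ext h.symm)
  · intro h; exact absurd (mem_univ _) h

theorem fpoly_ne {m : ℕ} {l : Fin m → ℂ} (hl : l ≠ 0) : fpoly l ≠ 0 := by
  intro h
  refine hl (funext fun k => ?_)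
  rw [← fpoly_coeff l k, h, coeff_zero]; rfl

theorem fpoly_natDegree {m : ℕ} (l : Fin m → ℂ) : (fpoly l).natDegree ≤ m := by
  unfold fpoly
  refine natDegree_sum_le_of_forall_le _ _ fun k _ => ?_
  refine (natDegree_C_mul_X_pow_le _ _).trans k.2.le

theorem exists_mom {m d : ℕ} {l : Fin d → Fin m → ℂ} (hl : ∀ i, l i ≠ 0) :
    ∃ t ∈ range (d * m + 1), ∏ i, (l i ⬝ᵥ mom m t) ≠ 0 := by
  by_contra h
  push Not at h
  have h1 : ∏ i, fpoly (l i) = 0 := by
    refine Polynomial.eq_zero_of_natDegree_lt_card_of_eval_eq_zero' _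
      ((range (d * m + 1)).image (fun t : ℕ => (t : ℂ))) ?_ ?_
    · intro x hx
      rw [mem_image] at hx
      obtain ⟨t, ht, rfl⟩ := hx
      rw [eval_prod, ← h t ht]
      exact Finset.prod_congr rfl fun i _ => fpoly_eval _ _
    · rw [Finset.card_image_of_injective _ Nat.cast_injective, card_range]
      refine Nat.lt_succ_of_le ((natDegree_prod_le _ _).trans ?_)
      refine (Finset.sum_le_sum fun i _ => fpoly_natDegree (l i)).trans ?_
      simp
  rw [Finset.prod_eq_zero_iff] at h1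
  obtain ⟨i, _, hi⟩ := h1
  exact fpoly_ne (hl i) hi

/-! ### products of forms -/

/-- products of linear forms, index type `Fin m`. -/
theorem prod_forms_fin (m d : ℕ) : ∃ (S : Finset (Fin m → ℂ)) (c : ℝ), 0 < c ∧ S.Nonempty ∧
    ∀ l : Fin d → Fin m → ℂ, ∃ w ∈ S, c * ∏ i, ‖l i‖ ≤ ‖∏ i, (l i ⬝ᵥ w)‖ := by
  classical
  set S : Finset (Fin m → ℂ) := (range (d * m + 1)).image (mom m) with hS
  have hSne : S.Nonempty := ⟨mom m 0, mem_image_of_mem _ (mem_range.2 (Nat.succ_pos _))⟩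
  set K : Set (Fin d → Fin m → ℂ) := Set.pi Set.univ fun _ => Metric.sphere (0 : Fin m → ℂ) 1 with hK
  have hKc : IsCompact K := isCompact_univ_pi fun _ => isCompact_sphere 0 1
  set F : (Fin d → Fin m → ℂ) → ℝ := fun l => ∑ w ∈ S, ‖∏ i, (l i ⬝ᵥ w)‖ with hF
  have hFc : Continuous F := by
    rw [hF]
    refine continuous_finsetSum _ fun w _ => ?_
    refine Continuous.norm ?_
    refine continuous_finsetProd _ fun i _ => ?_
    unfold dotProduct
    refine continuous_finsetSum _ fun k _ => ?_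
    exact (continuous_apply_apply i k).mul continuous_const
  have hFpos : ∀ l ∈ K, 0 < F l := by
    intro l hl
    have hl0 : ∀ i, l i ≠ 0 := by
      intro i h0
      have h1 : ‖l i‖ = 1 := by
        have := hl i (Set.mem_univ i)
        simpa using this
      rw [h0, norm_zero] at h1
      exact zero_ne_one h1
    obtain ⟨t, ht, htne⟩ := exists_mom hl0
    refine lt_of_lt_of_le (norm_pos_iff.2 htne) ?_
    exact Finset.single_le_sum (f := fun w => ‖∏ i, (l i ⬝ᵥ w)‖) (fun w _ => norm_nonneg _)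
      (mem_image_of_mem _ ht)
  obtain ⟨c0, hc0, hc0K⟩ : ∃ c0 : ℝ, 0 < c0 ∧ ∀ l ∈ K, c0 ≤ F l := by
    rcases K.eq_empty_or_nonempty with he | hne
    · exact ⟨1, one_pos, fun l hl => by rw [he] at hl; exact absurd hl (Set.notMem_empty _)⟩
    · obtain ⟨l0, hl0, hmin⟩ := hKc.exists_isMinOn hne hFc.continuousOn
      exact ⟨F l0, hFpos l0 hl0, fun l hl => hmin hl⟩
  have hcard : (0 : ℝ) < S.card := by exact_mod_cast hSne.card_pos
  refine ⟨S, c0 / S.card, by positivity, hSne, fun l => ?_⟩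
  by_cases h0 : ∃ i, l i = 0
  · obtain ⟨i, hi⟩ := h0
    obtain ⟨w, hw⟩ := hSne
    refine ⟨w, hw, ?_⟩
    have : ∏ i, ‖l i‖ = 0 := Finset.prod_eq_zero (mem_univ i) (by rw [hi, norm_zero])
    rw [this, mul_zero]
    exact norm_nonneg _
  · push Not at h0
    set l' : Fin d → Fin m → ℂ := fun i => ((‖l i‖⁻¹ : ℝ) : ℂ) • l i with hl'
    have hl'K : l' ∈ K := by
      intro i _
      have h1 : ‖l i‖ ≠ 0 := norm_ne_zero_iff.2 (h0 i)
      simp [hl', norm_smul, h1]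
    by_contra hcon
    push Not at hcon
    have h2 : ∀ w, ‖∏ i, (l' i ⬝ᵥ w)‖ * ∏ i, ‖l i‖ = ‖∏ i, (l i ⬝ᵥ w)‖ := by
      intro w
      rw [norm_prod, norm_prod, ← Finset.prod_mul_distrib]
      refine Finset.prod_congr rfl fun i _ => ?_
      have h1 : ‖l i‖ ≠ 0 := norm_ne_zero_iff.2 (h0 i)
      rw [hl']
      simp only [smul_dotProduct, smul_eq_mul, norm_mul, Complex.norm_real, norm_inv, norm_norm]
      field_simp
    have hpos : 0 < ∏ i, ‖l i‖ := Finset.prod_pos fun i _ => norm_pos_iff.2 (h0 i)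
    have h3 : F l' < c0 := by
      have h4 : ∀ w ∈ S, ‖∏ i, (l' i ⬝ᵥ w)‖ < c0 / S.card := by
        intro w hw
        have h5 := hcon w hw
        rw [← h2 w] at h5
        exact lt_of_mul_lt_mul_right h5 hpos.le
      calc F l' < ∑ w ∈ S, c0 / S.card := Finset.sum_lt_sum_of_nonempty hSne h4
        _ = c0 := by rw [Finset.sum_const, nsmul_eq_mul]; field_simp
    exact absurd (hc0K l' hl'K) (not_le.2 h3)

/-- products of linear forms, any finite index type. -/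
theorem prod_forms (ι : Type*) [Fintype ι] (d : ℕ) : ∃ (S : Finset (ι → ℂ)) (c : ℝ), 0 < c ∧
    S.Nonempty ∧ ∀ l : Fin d → ι → ℂ, ∃ w ∈ S, c * ∏ i, ‖l i‖ ≤ ‖∏ i, (l i ⬝ᵥ w)‖ := by
  classical
  obtain ⟨S, c, hc, hS, h⟩ := prod_forms_fin (Fintype.card ι) d
  set e := Fintype.equivFin ι with he
  refine ⟨S.image fun w => w ∘ e, c, hc, hS.image _, fun l => ?_⟩
  obtain ⟨w, hw, hlw⟩ := h fun i => l i ∘ e.symm
  refine ⟨w ∘ e, mem_image_of_mem _ hw, ?_⟩
  have h1 : ∀ i, ‖l i ∘ e.symm‖ = ‖l i‖ := by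
    intro i
    refine le_antisymm ?_ ?_
    · refine (pi_norm_le_iff_of_nonneg (norm_nonneg _)).2 fun k => norm_le_pi_norm (l i) (e.symm k)
    · refine (pi_norm_le_iff_of_nonneg (norm_nonneg _)).2 fun k => ?_
      have := norm_le_pi_norm (l i ∘ e.symm) (e k)
      simpa using this
  have h2 : ∀ i, (l i ∘ e.symm) ⬝ᵥ w = l i ⬝ᵥ (w ∘ e) := by
    intro i
    unfold dotProduct
    rw [← e.sum_comp]
    refine Finset.sum_congr rfl fun k _ => ?_
    simp
  simp only [h1, h2] at hlw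
  exact hlw

/-! ### bihomogeneous components -/

variable {ι κ : Type*} [Fintype ι] [Fintype κ] {d : ℕ}

/-- `E_j = ∑_{|T| = j} ∏_{i ∈ T} l''_i(v) ∏_{i ∉ T} l'_i(u)` -/
def E (a : Fin d → ι → ℂ) (b : Fin d → κ → ℂ) (j : ℕ) (w : ι ⊕ κ → ℂ) : ℂ :=
  ∑ T ∈ powersetCard j univ, (∏ i ∈ T, (b i ⬝ᵥ (w ∘ Sum.inr))) * ∏ i ∈ univ \ T, (a i ⬝ᵥ (w ∘ Sum.inl))

theorem E_zero (a : Fin d → ι → ℂ) (b : Fin d → κ → ℂ) (w : ι ⊕ κ → ℂ) :
    E a b 0 w = ∏ i, (a i ⬝ᵥ (w ∘ Sum.inl)) := by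
  unfold E
  rw [powersetCard_zero, sum_singleton, prod_empty, one_mul, sdiff_empty]

theorem sum_E (a : Fin d → ι → ℂ) (b : Fin d → κ → ℂ) (s : ℂ) (w : ι ⊕ κ → ℂ) :
    ∏ i, (Sum.elim (a i) (s • b i) ⬝ᵥ w) = ∑ j ∈ range (d + 1), s ^ j * E a b j w := by
  have h1 : ∀ i, Sum.elim (a i) (s • b i) ⬝ᵥ w =
      s * (b i ⬝ᵥ (w ∘ Sum.inr)) + a i ⬝ᵥ (w ∘ Sum.inl) := by
    intro i
    unfold dotProduct
    rw [Fintype.sum_sum_type, Finset.mul_sum, add_comm]
    congr 1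
    refine Finset.sum_congr rfl fun k _ => ?_
    simp [mul_assoc]
  rw [Finset.prod_congr rfl fun i _ => h1 i, Finset.prod_add,
    ← Finset.sum_fiberwise_of_maps_to (s := univ.powerset) (t := range (d + 1))
      (g := fun T : Finset (Fin d) => T.card) (fun T _ => by
        rw [mem_range]
        exact Nat.lt_succ_of_le ((card_le_univ T).trans (by rw [Fintype.card_fin])))]
  refine Finset.sum_congr rfl fun j _ => ?_
  unfold E
  rw [Finset.mul_sum]
  have h2 : (univ : Finset (Fin d)).powerset.filter (fun T => T.card = j) = powersetCard j univ := by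
    ext T; simp [mem_powersetCard]
  rw [h2]
  refine Finset.sum_congr rfl fun T hT => ?_
  rw [Finset.prod_mul_distrib, Finset.prod_const, (mem_powersetCard.1 hT).2]
  ring

omit [Fintype κ] in
theorem norm_dot_le (l w : ι → ℂ) : ‖l ⬝ᵥ w‖ ≤ ‖l‖ * ∑ k, ‖w k‖ := by
  unfold dotProduct
  refine (norm_sum_le _ _).trans ?_
  rw [Finset.mul_sum]
  refine Finset.sum_le_sum fun k _ => ?_
  rw [norm_mul]
  exact mul_le_mul_of_nonneg_right (norm_le_pi_norm l k) (norm_nonneg _)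

theorem norm_E_le {a : Fin d → ι → ℂ} {b : Fin d → κ → ℂ} {B M : ℝ} (hB : 0 ≤ B) (hM : 0 ≤ M)
    (hab : ∀ i, ‖b i‖ ≤ M * ‖a i‖) {w : ι ⊕ κ → ℂ} (hw : ∑ k, ‖w k‖ ≤ B) (j : ℕ) :
    ‖E a b j w‖ ≤ 2 ^ d * B ^ d * M ^ j * ∏ i, ‖a i‖ := by
  have hw1 : ∑ k, ‖(w ∘ Sum.inl) k‖ ≤ B := by
    refine le_trans ?_ hw
    rw [Fintype.sum_sum_type]
    exact le_add_of_nonneg_right (Finset.sum_nonneg fun k _ => norm_nonneg _)
  have hw2 : ∑ k, ‖(w ∘ Sum.inr) k‖ ≤ B := by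
    refine le_trans ?_ hw
    rw [Fintype.sum_sum_type]
    exact le_add_of_nonneg_left (Finset.sum_nonneg fun k _ => norm_nonneg _)
  have hterm : ∀ T ∈ powersetCard j (univ : Finset (Fin d)),
      ‖(∏ i ∈ T, (b i ⬝ᵥ (w ∘ Sum.inr))) * ∏ i ∈ univ \ T, (a i ⬝ᵥ (w ∘ Sum.inl))‖ ≤
        B ^ d * M ^ j * ∏ i, ‖a i‖ := by
    intro T hT
    rw [norm_mul, norm_prod, norm_prod]
    have h1 : ∏ i ∈ T, ‖b i ⬝ᵥ (w ∘ Sum.inr)‖ ≤ ∏ i ∈ T, (M * ‖a i‖ * B) := by
      refine Finset.prod_le_prod (fun i _ => norm_nonneg _) fun i _ => ?_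
      refine (norm_dot_le _ _).trans ?_
      exact mul_le_mul (hab i) hw2 (Finset.sum_nonneg fun k _ => norm_nonneg _)
        (mul_nonneg hM (norm_nonneg _))
    have h2 : ∏ i ∈ univ \ T, ‖a i ⬝ᵥ (w ∘ Sum.inl)‖ ≤ ∏ i ∈ univ \ T, (‖a i‖ * B) := by
      refine Finset.prod_le_prod (fun i _ => norm_nonneg _) fun i _ => ?_
      refine (norm_dot_le _ _).trans ?_
      exact mul_le_mul_of_nonneg_left hw1 (norm_nonneg _)
    refine (mul_le_mul h1 h2 (Finset.prod_nonneg fun i _ => norm_nonneg _)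
      (Finset.prod_nonneg fun i _ => by positivity)).trans (le_of_eq ?_)
    have hcT := (mem_powersetCard.1 hT).2
    rw [Finset.prod_mul_distrib, Finset.prod_mul_distrib, Finset.prod_mul_distrib, Finset.prod_const,
      Finset.prod_const, Finset.prod_const, hcT, card_sdiff_of_subset (subset_univ T), hcT, card_univ,
      Fintype.card_fin]
    have h3 : j ≤ d := by
      have h8 := card_le_univ T
      rwa [hcT, Fintype.card_fin] at h8
    have h4 : B ^ j * B ^ (d - j) = B ^ d := by rw [← pow_add, Nat.add_sub_cancel' h3]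
    have h5 : (∏ i ∈ T, ‖a i‖) * ∏ i ∈ univ \ T, ‖a i‖ = ∏ i, ‖a i‖ := by
      rw [mul_comm]; exact Finset.prod_sdiff (subset_univ T)
    calc M ^ j * (∏ i ∈ T, ‖a i‖) * B ^ j * ((∏ i ∈ univ \ T, ‖a i‖) * B ^ (d - j))
        = (B ^ j * B ^ (d - j)) * M ^ j * ((∏ i ∈ T, ‖a i‖) * ∏ i ∈ univ \ T, ‖a i‖) := by ring
      _ = B ^ d * M ^ j * ∏ i, ‖a i‖ := by rw [h4, h5]
  unfold E
  refine (norm_sum_le _ _).trans ((Finset.sum_le_sum hterm).trans ?_)
  rw [Finset.sum_const, nsmul_eq_mul, card_powersetCard, card_univ, Fintype.card_fin]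
  have h6 : ((d.choose j : ℕ) : ℝ) ≤ 2 ^ d := by exact_mod_cast Nat.choose_le_two_pow d j
  have h7 : 0 ≤ B ^ d * M ^ j * ∏ i, ‖a i‖ := by
    refine mul_nonneg (by positivity) (Finset.prod_nonneg fun i _ => norm_nonneg _)
  calc ((d.choose j : ℕ) : ℝ) * (B ^ d * M ^ j * ∏ i, ‖a i‖)
      ≤ 2 ^ d * (B ^ d * M ^ j * ∏ i, ‖a i‖) := mul_le_mul_of_nonneg_right h6 h7
    _ = 2 ^ d * B ^ d * M ^ j * ∏ i, ‖a i‖ := by ring

/-- Leaf PN, any finite index types. -/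
theorem pnT (ι κ : Type*) [Fintype ι] [Fintype κ] (d : ℕ) : ∃ (S : Finset (ι ⊕ κ → ℂ)) (c C : ℝ), 0 < c ∧ 0 < C ∧ S.Nonempty ∧
    ∀ (a : Fin d → ι → ℂ) (b : Fin d → κ → ℂ),
      (∃ w ∈ S, c * ∏ i, ‖a i‖ ≤ ‖E a b 0 w‖) ∧
      (∀ w ∈ S, ‖E a b 0 w‖ ≤ C * ∏ i, ‖a i‖) ∧
      (∀ M : ℝ, 0 ≤ M → (∀ i, ‖b i‖ ≤ M * ‖a i‖) → ∀ j, ∀ w ∈ S,
        ‖E a b j w‖ ≤ C * M ^ j * ∏ i, ‖a i‖) ∧
      (∀ M : ℝ, 0 ≤ M → (∃ i, M * ‖a i‖ ≤ ‖b i‖) → ∃ j, 1 ≤ j ∧ j ≤ d ∧ ∃ w ∈ S,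
        c * M ^ j * ∏ i, ‖a i‖ ≤ ‖E a b j w‖) := by
  classical
  obtain ⟨S, c, hc, hS, h⟩ := prod_forms (ι ⊕ κ) d
  -- a bound for `S`
  set B : ℝ := 1 + ∑ w ∈ S, ∑ k, ‖w k‖ with hB
  have hB1 : 1 ≤ B := by
    rw [hB]
    exact le_add_of_nonneg_right (Finset.sum_nonneg fun w _ => Finset.sum_nonneg fun k _ => norm_nonneg _)
  have hBS : ∀ w ∈ S, ∑ k, ‖w k‖ ≤ B := by
    intro w hw
    have := Finset.single_le_sum (f := fun w : ι ⊕ κ → ℂ => ∑ k, ‖w k‖)
      (fun w _ => Finset.sum_nonneg fun k _ => norm_nonneg _) hw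
    rw [hB]; linarith
  have hB0 : 0 ≤ B := zero_le_one.trans hB1
  set C : ℝ := 2 ^ d * B ^ d with hC
  have hCpos : 0 < C := by
    have : 0 < B := lt_of_lt_of_le one_pos hB1
    positivity
  -- the large parameter
  set R : ℝ := 1 + 2 * C / c with hR
  have hR1 : 1 ≤ R := by
    rw [hR]; exact le_add_of_nonneg_right (by positivity)
  have hRpos : 0 < R := lt_of_lt_of_le one_pos hR1
  have hRC : 2 * C ≤ c * R := by
    rw [hR, mul_add, mul_one, mul_div_cancel₀ _ hc.ne']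
    linarith
  set c' : ℝ := min c (C / ((d + 1) * R ^ d)) with hc'
  have hc'pos : 0 < c' := lt_min hc (by positivity)
  refine ⟨S, c', C, hc'pos, hCpos, hS, fun a b => ?_⟩
  have hPnn : 0 ≤ ∏ i, ‖a i‖ := Finset.prod_nonneg fun i _ => norm_nonneg _
  have hE0 : ∀ w ∈ S, ‖E a b 0 w‖ ≤ C * ∏ i, ‖a i‖ := by
    intro w hw
    have h1 := norm_E_le (a := a) (b := (0 : Fin d → κ → ℂ)) (M := 0) hB0 le_rfl
      (fun i => by simp) (hBS w hw) 0
    rw [E_zero] at h1 ⊢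
    rw [pow_zero, mul_one] at h1
    exact h1
  refine ⟨?_, hE0, ?_, ?_⟩
  · obtain ⟨w, hw, h1⟩ := h fun i => Sum.elim (a i) ((0 : ℂ) • b i)
    refine ⟨w, hw, ?_⟩
    rw [sum_E, Finset.sum_range_succ'] at h1
    simp only [pow_succ, mul_zero, zero_mul, Finset.sum_const_zero, pow_zero, one_mul, zero_add] at h1
    refine le_trans ?_ h1
    refine mul_le_mul (min_le_left _ _) ?_ hPnn hc.le
    refine Finset.prod_le_prod (fun i _ => norm_nonneg _) fun i _ => ?_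
    refine (pi_norm_le_iff_of_nonneg (norm_nonneg _)).2 fun k => ?_
    have := norm_le_pi_norm (Sum.elim (a i) ((0 : ℂ) • b i)) (Sum.inl k)
    simpa using this
  · intro M hM hab j w hw
    exact norm_E_le hB0 hM hab (hBS w hw) j
  · intro M hM hi
    obtain ⟨i0, hi0⟩ := hi
    have hd : 1 ≤ d := Nat.one_le_iff_ne_zero.2 (by rintro rfl; exact i0.elim0)
    rcases hM.eq_or_lt with hM0 | hMpos
    · obtain ⟨w, hw⟩ := hS
      refine ⟨1, le_rfl, hd, w, hw, ?_⟩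
      rw [← hM0]; simp
    · set s : ℝ := R / M with hs
      have hspos : 0 < s := div_pos hRpos hMpos
      obtain ⟨w, hw, h1⟩ := h fun i => Sum.elim (a i) ((s : ℂ) • b i)
      -- lower bound of the product of norms
      have h2 : R * ∏ i, ‖a i‖ ≤ ∏ i, ‖Sum.elim (a i) ((s : ℂ) • b i)‖ := by
        have hge : ∀ i, ‖a i‖ ≤ ‖Sum.elim (a i) ((s : ℂ) • b i)‖ := by
          intro i
          refine (pi_norm_le_iff_of_nonneg (norm_nonneg _)).2 fun k => ?_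
          have := norm_le_pi_norm (Sum.elim (a i) ((s : ℂ) • b i)) (Sum.inl k)
          simpa using this
        have hge0 : R * ‖a i0‖ ≤ ‖Sum.elim (a i0) ((s : ℂ) • b i0)‖ := by
          have h3 : ‖(s : ℂ) • b i0‖ ≤ ‖Sum.elim (a i0) ((s : ℂ) • b i0)‖ := by
            refine (pi_norm_le_iff_of_nonneg (norm_nonneg _)).2 fun k => ?_
            have := norm_le_pi_norm (Sum.elim (a i0) ((s : ℂ) • b i0)) (Sum.inr k)
            simpa using this
          refine le_trans ?_ h3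
          rw [norm_smul, Complex.norm_real, Real.norm_of_nonneg hspos.le, hs]
          calc R * ‖a i0‖ = R / M * (M * ‖a i0‖) := by field_simp
            _ ≤ R / M * ‖b i0‖ := mul_le_mul_of_nonneg_left hi0 (by positivity)
        rw [← Finset.mul_prod_erase univ _ (mem_univ i0), ← Finset.mul_prod_erase univ
          (fun i => ‖Sum.elim (a i) ((s : ℂ) • b i)‖) (mem_univ i0), ← mul_assoc]
        refine mul_le_mul hge0 (Finset.prod_le_prod (fun i _ => norm_nonneg _) fun i _ => hge i)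
          (Finset.prod_nonneg fun i _ => norm_nonneg _) (norm_nonneg _)
      have h3 : c * (R * ∏ i, ‖a i‖) ≤ ‖∑ j ∈ range (d + 1), (s : ℂ) ^ j * E a b j w‖ := by
        rw [← sum_E]
        exact (mul_le_mul_of_nonneg_left h2 hc.le).trans h1
      rw [Finset.sum_range_succ', pow_zero, one_mul] at h3
      have h4 : ‖∑ j ∈ range d, (s : ℂ) ^ (j + 1) * E a b (j + 1) w + E a b 0 w‖ ≤
          ∑ j ∈ range d, s ^ (j + 1) * ‖E a b (j + 1) w‖ + C * ∏ i, ‖a i‖ := by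
        refine (norm_add_le _ _).trans (add_le_add ?_ (hE0 w hw))
        refine (norm_sum_le _ _).trans (Finset.sum_le_sum fun j _ => le_of_eq ?_)
        rw [norm_mul, norm_pow, Complex.norm_real, Real.norm_of_nonneg hspos.le]
      have h5 : C * ∏ i, ‖a i‖ ≤ ∑ j ∈ range d, s ^ (j + 1) * ‖E a b (j + 1) w‖ := by
        have h6 : 2 * C * ∏ i, ‖a i‖ ≤ c * R * ∏ i, ‖a i‖ := mul_le_mul_of_nonneg_right hRC hPnn
        have h7 := h3.trans h4
        rw [← mul_assoc] at h7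
        linarith
      -- pigeonhole
      by_contra hcon
      push Not at hcon
      have h8 : ∀ j ∈ range d, s ^ (j + 1) * ‖E a b (j + 1) w‖ ≤ C / (d + 1) * ∏ i, ‖a i‖ := by
        intro j hj
        have h9 := (hcon (j + 1) (Nat.succ_le_succ (Nat.zero_le _)) (mem_range.1 hj) w hw).le
        have h10 : c' * M ^ (j + 1) * ∏ i, ‖a i‖ ≤
            C / ((d + 1) * R ^ d) * M ^ (j + 1) * ∏ i, ‖a i‖ := by
          refine mul_le_mul_of_nonneg_right ?_ hPnn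
          exact mul_le_mul_of_nonneg_right (min_le_right _ _) (by positivity)
        have h11 : s ^ (j + 1) * (C / ((d + 1) * R ^ d) * M ^ (j + 1) * ∏ i, ‖a i‖) ≤
            C / (d + 1) * ∏ i, ‖a i‖ := by
          have h12 : s ^ (j + 1) * M ^ (j + 1) = R ^ (j + 1) := by
            rw [← mul_pow, hs, div_mul_cancel₀ _ hMpos.ne']
          have h13 : R ^ (j + 1) ≤ R ^ d := pow_le_pow_right₀ hR1 (mem_range.1 hj)
          calc s ^ (j + 1) * (C / ((d + 1) * R ^ d) * M ^ (j + 1) * ∏ i, ‖a i‖)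
              = (s ^ (j + 1) * M ^ (j + 1)) * (C / ((d + 1) * R ^ d)) * ∏ i, ‖a i‖ := by ring
            _ = R ^ (j + 1) * (C / ((d + 1) * R ^ d)) * ∏ i, ‖a i‖ := by rw [h12]
            _ ≤ R ^ d * (C / ((d + 1) * R ^ d)) * ∏ i, ‖a i‖ := by
                refine mul_le_mul_of_nonneg_right ?_ hPnn
                exact mul_le_mul_of_nonneg_right h13 (by positivity)
            _ = C / (d + 1) * ∏ i, ‖a i‖ := by field_simp
        exact (mul_le_mul_of_nonneg_left (h9.trans h10) (by positivity)).trans h11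
      have h14 : ∑ j ∈ range d, s ^ (j + 1) * ‖E a b (j + 1) w‖ ≤ d * (C / (d + 1) * ∏ i, ‖a i‖) := by
        refine (Finset.sum_le_sum h8).trans (le_of_eq ?_)
        rw [Finset.sum_const, card_range, nsmul_eq_mul]
      have h15 : C * ∏ i, ‖a i‖ ≤ d * (C / (d + 1) * ∏ i, ‖a i‖) := h5.trans h14
      -- so the product vanishes
      have h16 : ∏ i, ‖a i‖ = 0 := by
        by_contra hne
        have hpos : 0 < ∏ i, ‖a i‖ := lt_of_le_of_ne hPnn (Ne.symm hne)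
        have h17 : (d : ℝ) * (C / (d + 1) * ∏ i, ‖a i‖) = d / (d + 1) * (C * ∏ i, ‖a i‖) := by ring
        rw [h17] at h15
        have h18 : (d : ℝ) / (d + 1) < 1 := by
          rw [div_lt_one (by positivity)]; linarith
        have h19 : 0 < C * ∏ i, ‖a i‖ := mul_pos hCpos hpos
        nlinarith
      have h20 := hcon 1 le_rfl hd w hw
      rw [h16, mul_zero] at h20
      exact absurd h20 (not_lt.2 (norm_nonneg _))

/-- Leaf PN. -/
theorem pn (p q d : ℕ) : ∃ (S : Finset (Fin p ⊕ Fin q → ℂ)) (c C : ℝ), 0 < c ∧ 0 < C ∧ S.Nonempty ∧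
    ∀ (a : Fin d → Fin p → ℂ) (b : Fin d → Fin q → ℂ),
      (∃ w ∈ S, c * ∏ i, ‖a i‖ ≤ ‖E a b 0 w‖) ∧
      (∀ w ∈ S, ‖E a b 0 w‖ ≤ C * ∏ i, ‖a i‖) ∧
      (∀ M : ℝ, 0 ≤ M → (∀ i, ‖b i‖ ≤ M * ‖a i‖) → ∀ j, ∀ w ∈ S,
        ‖E a b j w‖ ≤ C * M ^ j * ∏ i, ‖a i‖) ∧
      (∀ M : ℝ, 0 ≤ M → (∃ i, M * ‖a i‖ ≤ ‖b i‖) → ∃ j, 1 ≤ j ∧ j ≤ d ∧ ∃ w ∈ S,
        c * M ^ j * ∏ i, ‖a i‖ ≤ ‖E a b j w‖) := pnT (Fin p) (Fin q) d

/-- U0: a finite set of vectors `w`, `|w|_1 ≤ 1`, such that for any `d` vectors `ξ_i` some `w` is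
not almost orthogonal to any of them. -/
theorem u0 (ι : Type*) [Fintype ι] (d : ℕ) : ∃ (S : Finset (ι → ℂ)) (c : ℝ), 0 < c ∧ S.Nonempty ∧
    (∀ w ∈ S, ∑ k, ‖w k‖ ≤ 1) ∧
    ∀ ξ : Fin d → ι → ℂ, ∃ w ∈ S, ∀ i, c * ‖ξ i‖ ≤ ‖ξ i ⬝ᵥ w‖ := by
  classical
  obtain ⟨S, c, hc, hS, h⟩ := prod_forms ι d
  set B : ℝ := 1 + ∑ w ∈ S, ∑ k, ‖w k‖ with hB
  have hB1 : 1 ≤ B := by
    rw [hB]
    exact le_add_of_nonneg_right (Finset.sum_nonneg fun w _ => Finset.sum_nonneg fun k _ => norm_nonneg _)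
  have hBpos : 0 < B := lt_of_lt_of_le one_pos hB1
  have hBS : ∀ w ∈ S, ∑ k, ‖w k‖ ≤ B := by
    intro w hw
    have := Finset.single_le_sum (f := fun w : ι → ℂ => ∑ k, ‖w k‖)
      (fun w _ => Finset.sum_nonneg fun k _ => norm_nonneg _) hw
    rw [hB]; linarith
  have hBc : ‖((B⁻¹ : ℝ) : ℂ)‖ = B⁻¹ := by
    rw [Complex.norm_real, Real.norm_of_nonneg (by positivity)]
  refine ⟨S.image fun w => ((B⁻¹ : ℝ) : ℂ) • w, c / B ^ (d + 1), by positivity, hS.image _, ?_, ?_⟩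
  · intro w hw
    obtain ⟨w', hw', rfl⟩ := mem_image.1 hw
    have h1 : ∑ k, ‖(((B⁻¹ : ℝ) : ℂ) • w') k‖ = B⁻¹ * ∑ k, ‖w' k‖ := by
      rw [Finset.mul_sum]
      refine Finset.sum_congr rfl fun k _ => ?_
      rw [Pi.smul_apply, smul_eq_mul, norm_mul, hBc]
    rw [h1]
    calc B⁻¹ * ∑ k, ‖w' k‖ ≤ B⁻¹ * B := mul_le_mul_of_nonneg_left (hBS w' hw') (by positivity)
      _ = 1 := inv_mul_cancel₀ hBpos.ne'
  · intro ξ
    by_cases hι : Nonempty ι
    · set ξ' : Fin d → ι → ℂ := fun i => if ξ i = 0 then 1 else ξ i with hξ'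
      have hne : ∀ i, ξ' i ≠ 0 := by
        intro i
        rw [hξ']
        by_cases h0 : ξ i = 0
        · simp only [h0, if_true]; exact one_ne_zero
        · simp only [h0, if_false]; exact h0
      obtain ⟨w, hw, hlw⟩ := h ξ'
      refine ⟨_, mem_image_of_mem _ hw, fun i => ?_⟩
      by_cases h0 : ξ i = 0
      · rw [h0, norm_zero, mul_zero]; exact norm_nonneg _
      · have hi : ξ' i = ξ i := by rw [hξ']; simp only [h0, if_false]
        rw [dotProduct_smul, smul_eq_mul, norm_mul, hBc]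
        rw [norm_prod, ← Finset.mul_prod_erase univ _ (mem_univ i),
          ← Finset.mul_prod_erase univ (fun i => ‖ξ' i ⬝ᵥ w‖) (mem_univ i)] at hlw
        have h2 : ∏ x ∈ univ.erase i, ‖ξ' x ⬝ᵥ w‖ ≤ B ^ d * ∏ x ∈ univ.erase i, ‖ξ' x‖ := by
          have h3 : ∏ x ∈ univ.erase i, ‖ξ' x ⬝ᵥ w‖ ≤ ∏ x ∈ univ.erase i, (‖ξ' x‖ * B) := by
            refine Finset.prod_le_prod (fun x _ => norm_nonneg _) fun x _ => ?_
            exact (norm_dot_le _ _).trans (mul_le_mul_of_nonneg_left (hBS w hw) (norm_nonneg _))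
          refine h3.trans ?_
          rw [Finset.prod_mul_distrib, Finset.prod_const, mul_comm]
          refine mul_le_mul_of_nonneg_right ?_ (Finset.prod_nonneg fun x _ => norm_nonneg _)
          refine pow_le_pow_right₀ hB1 ?_
          rw [card_erase_of_mem (mem_univ i), card_univ, Fintype.card_fin]
          exact Nat.sub_le _ _
        have hpos : 0 < ∏ x ∈ univ.erase i, ‖ξ' x‖ :=
          Finset.prod_pos fun x _ => norm_pos_iff.2 (hne x)
        have h4 : c * ‖ξ' i‖ * ∏ x ∈ univ.erase i, ‖ξ' x‖ ≤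
            ‖ξ' i ⬝ᵥ w‖ * B ^ d * ∏ x ∈ univ.erase i, ‖ξ' x‖ := by
          calc c * ‖ξ' i‖ * ∏ x ∈ univ.erase i, ‖ξ' x‖
              = c * (‖ξ' i‖ * ∏ x ∈ univ.erase i, ‖ξ' x‖) := by ring
            _ ≤ ‖ξ' i ⬝ᵥ w‖ * ∏ x ∈ univ.erase i, ‖ξ' x ⬝ᵥ w‖ := hlw
            _ ≤ ‖ξ' i ⬝ᵥ w‖ * (B ^ d * ∏ x ∈ univ.erase i, ‖ξ' x‖) :=
                mul_le_mul_of_nonneg_left h2 (norm_nonneg _)
            _ = ‖ξ' i ⬝ᵥ w‖ * B ^ d * ∏ x ∈ univ.erase i, ‖ξ' x‖ := by ring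
        have h5 := le_of_mul_le_mul_right h4 hpos
        rw [hi] at h5
        calc c / B ^ (d + 1) * ‖ξ i‖ = B⁻¹ * (c * ‖ξ i‖ / B ^ d) := by
              rw [pow_succ]; field_simp
          _ ≤ B⁻¹ * ‖ξ i ⬝ᵥ w‖ := by
              refine mul_le_mul_of_nonneg_left ?_ (by positivity)
              rw [div_le_iff₀ (by positivity)]
              exact h5
    · rw [not_nonempty_iff] at hι
      obtain ⟨w, hw⟩ := hS
      refine ⟨_, mem_image_of_mem _ hw, fun i => ?_⟩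
      have : ξ i = 0 := Subsingleton.elim _ _
      rw [this, norm_zero, mul_zero]; exact norm_nonneg _

end Crest.Agent.R273.PolyN_619
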