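import Mathlib.RingTheory.Jacobson.Ring
import Mathlib.RingTheory.FiniteType
import Mathlib.RingTheory.Localization.InvSubmonoid
import Mathlib.RingTheory.Localization.Away.Basic
import Mathlib.RingTheory.MvPolynomial.Symmetric.FundamentalTheorem
import Mathlib.RingTheory.Polynomial.Vieta
import Mathlib.FieldTheory.IsAlgClosed.Basic
import Mathlib.Analysis.Complex.Polynomial.Basic
import Crest.Agent.R273.LemUA_619
import Crest.Agent.R273.PolyN_619

/-!
R273 (S0416), Part A, LEMMA U over a model, file B (helper619): existence of points, the lcm trick,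
symmetric functions of the roots.
-/

set_option autoImplicit false

open Finset
open scoped NNReal

namespace Crest.Agent.R273.LemU_619

universe w

/-! ### existence of points -/

theorem exists_point {A : Type w} [CommRing A] [IsDomain A] [Algebra ℂ A] [Algebra.FiniteType ℂ A]
    {h : A} (hh : h ≠ 0) : ∃ x : A →ₐ[ℂ] ℂ, x h ≠ 0 := by
  let L := Localization.Away h
  have hdom : IsDomain L :=
    IsLocalization.isDomain_localization (powers_le_nonZeroDivisors_of_noZeroDivisors hh)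
  have hf : Algebra.FiniteType ℂ L := inferInstance
  obtain ⟨m, hm⟩ := Ideal.exists_maximal L
  let _ := Ideal.Quotient.field m
  have hfin : Module.Finite ℂ (L ⧸ m) := finite_of_finite_type_of_isJacobsonRing ℂ (L ⧸ m)
  have hint : Algebra.IsIntegral ℂ (L ⧸ m) := inferInstance
  have hbij := IsAlgClosed.algebraMap_bijective_of_isIntegral (k := ℂ) (K := L ⧸ m)
  let e : ℂ ≃ₐ[ℂ] (L ⧸ m) := AlgEquiv.ofBijective (Algebra.ofId ℂ (L ⧸ m)) hbij
  refine ⟨(e.symm.toAlgHom.comp (Ideal.Quotient.mkₐ ℂ m)).comp (IsScalarTower.toAlgHom ℂ A L), ?_⟩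
  intro h0
  have hu : IsUnit (algebraMap A L h) := IsLocalization.Away.algebraMap_isUnit h
  have hu2 := hu.map (e.symm.toAlgHom.comp (Ideal.Quotient.mkₐ ℂ m))
  exact hu2.ne_zero h0

/-! ### the lcm trick -/

section Lcm

variable {A : Type w} [CommRing A] [Algebra ℂ A]

theorem nm_image_pow [DecidableEq A] (x : A →ₐ[ℂ] ℂ) {S : Finset A} (hS : S.Nonempty) (e : ℕ) :
    nm x (S.image fun a => a ^ e) = nm x S ^ e := by
  refine le_antisymm ?_ ?_
  · refine nm_le fun b hb => ?_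
    obtain ⟨a, ha, rfl⟩ := mem_image.1 hb
    rw [map_pow, nnnorm_pow]
    exact pow_le_pow_left₀ zero_le (le_nm ha) _
  · obtain ⟨a, ha, h⟩ := exists_nm x hS
    rw [← h, ← nnnorm_pow, ← map_pow]
    exact le_nm (mem_image_of_mem (fun a => a ^ e) ha)

/-- the lcm trick: a family of families `R j` of "weight `j`" is turned into one pair. -/
theorem lcm_trick [IsDomain A] (J : ℕ) (R : ℕ → Finset A) (hR : (R 0).Nonempty) :
    ∃ (e : ℕ) (α β : Finset A), 1 ≤ e ∧ ((∃ b ∈ R 0, b ≠ 0) → ∃ b ∈ β, b ≠ 0) ∧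
      ∀ x : A →ₐ[ℂ] ℂ, nm x β = nm x (R 0) ^ e ∧
        (∀ C M : ℝ≥0, 1 ≤ C → (∀ j, 1 ≤ j → j ≤ J → nm x (R j) ≤ C * M ^ j * nm x (R 0)) →
          nm x α ≤ C ^ e * M ^ e * nm x β) ∧
        (∀ C M : ℝ≥0, 1 ≤ C → (∃ j, 1 ≤ j ∧ j ≤ J ∧ M ^ j * nm x (R 0) ≤ C * nm x (R j)) →
          M ^ e * nm x β ≤ C ^ e * nm x α) := by
  classical
  set e := J.factorial with he
  have he1 : 1 ≤ e := Nat.factorial_pos J
  have hdiv : ∀ j, 1 ≤ j → j ≤ J → j * (e / j) = e := fun j hj hjJ =>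
    Nat.mul_div_cancel' (Nat.dvd_factorial hj hjJ)
  have hdiv1 : ∀ j, e / j ≤ e := fun j => Nat.div_le_self _ _
  set α : Finset A := (Icc 1 J).biUnion fun j =>
    image₂ (fun r r0 => r ^ (e / j) * r0 ^ (e - e / j)) (R j) (R 0) with hα
  refine ⟨e, α, (R 0).image fun a => a ^ e, he1, ?_, ?_⟩
  · rintro ⟨b, hb, hb0⟩
    exact ⟨b ^ e, mem_image_of_mem _ hb, pow_ne_zero _ hb0⟩
  intro x
  have hβ := nm_image_pow x hR e
  refine ⟨hβ, ?_, ?_⟩
  · intro C M hC hj
    rw [hβ]
    refine nm_le fun a ha => ?_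
    obtain ⟨j, hjJ, ha⟩ := mem_biUnion.1 ha
    obtain ⟨hj1, hjJ⟩ := mem_Icc.1 hjJ
    obtain ⟨r, hr, r0, hr0, rfl⟩ := mem_image₂.1 ha
    have h1 := (le_nm (x := x) hr).trans (hj j hj1 hjJ)
    have h2 := le_nm (x := x) hr0
    rw [map_mul, map_pow, map_pow, nnnorm_mul, nnnorm_pow, nnnorm_pow]
    calc ‖x r‖₊ ^ (e / j) * ‖x r0‖₊ ^ (e - e / j)
        ≤ (C * M ^ j * nm x (R 0)) ^ (e / j) * nm x (R 0) ^ (e - e / j) :=
          mul_le_mul' (pow_le_pow_left₀ zero_le h1 _) (pow_le_pow_left₀ zero_le h2 _)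
      _ = C ^ (e / j) * M ^ (j * (e / j)) * (nm x (R 0) ^ (e / j) * nm x (R 0) ^ (e - e / j)) := by
          rw [mul_pow, mul_pow, ← pow_mul]; ring
      _ = C ^ (e / j) * M ^ e * nm x (R 0) ^ e := by
          rw [hdiv j hj1 hjJ, ← pow_add, Nat.add_sub_cancel' (hdiv1 j)]
      _ ≤ C ^ e * M ^ e * nm x (R 0) ^ e := by
          refine mul_le_mul' (mul_le_mul' ?_ le_rfl) le_rfl
          exact pow_le_pow_right₀ hC (hdiv1 j)
  · rintro C M hC ⟨j, hj1, hjJ, hj⟩
    rw [hβ]
    by_cases hRj : (R j).Nonempty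
    · obtain ⟨r, hr, hr'⟩ := exists_nm x hRj
      obtain ⟨r0, hr0, hr0'⟩ := exists_nm x hR
      have h3 : nm x (R j) ^ (e / j) * nm x (R 0) ^ (e - e / j) ≤ nm x α := by
        rw [← hr', ← hr0', ← nnnorm_pow, ← nnnorm_pow, ← nnnorm_mul, ← map_pow, ← map_pow, ← map_mul]
        refine le_nm ?_
        exact mem_biUnion.2 ⟨j, mem_Icc.2 ⟨hj1, hjJ⟩, mem_image₂_of_mem hr hr0⟩
      calc M ^ e * nm x (R 0) ^ e
          = (M ^ j * nm x (R 0)) ^ (e / j) * nm x (R 0) ^ (e - e / j) := by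
            rw [mul_pow, ← pow_mul, hdiv j hj1 hjJ, mul_assoc, ← pow_add,
              Nat.add_sub_cancel' (hdiv1 j)]
        _ ≤ (C * nm x (R j)) ^ (e / j) * nm x (R 0) ^ (e - e / j) :=
            mul_le_mul' (pow_le_pow_left₀ zero_le hj _) le_rfl
        _ = C ^ (e / j) * (nm x (R j) ^ (e / j) * nm x (R 0) ^ (e - e / j)) := by
            rw [mul_pow, mul_assoc]
        _ ≤ C ^ e * nm x α := mul_le_mul' (pow_le_pow_right₀ hC (hdiv1 j)) h3
    · rw [not_nonempty_iff_eq_empty] at hRj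
      have h4 : nm x (R j) = 0 := by rw [hRj]; rfl
      rw [h4, mul_zero] at hj
      have h5 : M ^ j * nm x (R 0) = 0 := le_antisymm hj zero_le
      rcases mul_eq_zero.1 h5 with h6 | h6
      · have h7 : M = 0 := pow_eq_zero_iff (by omega) |>.1 h6
        rw [h7, zero_pow (by omega), zero_mul]; exact zero_le
      · rw [h6, zero_pow (by omega), mul_zero]; exact zero_le

end Lcm

/-! ### points of a simple extension -/

section Ev

open Polynomial

variable {A : Type w} [CommRing A] [Algebra ℂ A]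

/-- evaluation of a polynomial at `(x, ζ)` -/
noncomputable def ev (x : A →ₐ[ℂ] ℂ) (ζ : ℂ) : A[X] →+* ℂ :=
  Polynomial.eval₂RingHom (x : A →+* ℂ) ζ

theorem ev_C (x : A →ₐ[ℂ] ℂ) (ζ : ℂ) (a : A) : ev x ζ (C a) = x a := by
  unfold ev; simp

theorem ev_X (x : A →ₐ[ℂ] ℂ) (ζ : ℂ) : ev x ζ X = ζ := by
  unfold ev; simp

theorem ev_apply (x : A →ₐ[ℂ] ℂ) (ζ : ℂ) (p : A[X]) : ev x ζ p = p.eval₂ (x : A →+* ℂ) ζ := rfl

theorem ev_eq_eval (x : A →ₐ[ℂ] ℂ) (ζ : ℂ) (p : A[X]) :
    ev x ζ p = (p.map (x : A →+* ℂ)).eval ζ := by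
  rw [ev_apply, Polynomial.eval_map]

variable {B : Type w} [CommRing B] [Algebra ℂ B] [Algebra A B] [IsScalarTower ℂ A B]

theorem apply_aeval (x' : B →ₐ[ℂ] ℂ) (z : B) (p : A[X]) :
    x' (aeval z p) = ev (res A x') (x' z) p := by
  rw [aeval_def, ev_apply]
  exact hom_eval₂ p (algebraMap A B) (x' : B →+* ℂ) z

theorem exists_lift {z : B} (hz : Function.Surjective (aeval (R := A) z)) (x : A →ₐ[ℂ] ℂ) (ζ : ℂ)
    (hker : ∀ p : A[X], aeval z p = 0 → ev x ζ p = 0) :
    ∃ x' : B →ₐ[ℂ] ℂ, res A x' = x ∧ x' z = ζ := by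
  have hz' : Function.Surjective ((aeval (R := A) z : A[X] →ₐ[A] B) : A[X] →+* B) := hz
  set φ : B →+* ℂ := RingHom.liftOfSurjective ((aeval (R := A) z : A[X] →ₐ[A] B) : A[X] →+* B) hz'
    ⟨ev x ζ, fun p hp => by
      rw [RingHom.mem_ker] at hp ⊢
      exact hker p hp⟩ with hφ
  have hφ1 : ∀ p : A[X], φ (aeval z p) = ev x ζ p := by
    intro p
    have := RingHom.liftOfRightInverse_comp_apply ((aeval (R := A) z : A[X] →ₐ[A] B) : A[X] →+* B)
      (Function.surjInv hz') (Function.rightInverse_surjInv hz')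
      ⟨ev x ζ, fun p hp => by
        rw [RingHom.mem_ker] at hp ⊢
        exact hker p hp⟩ p
    exact this
  have hφA : ∀ a : A, φ (algebraMap A B a) = x a := by
    intro a
    have := hφ1 (C a)
    rwa [aeval_C, ev_C] at this
  refine ⟨{ φ with commutes' := fun c => ?_ }, ?_, ?_⟩
  · change φ (algebraMap ℂ B c) = _
    rw [IsScalarTower.algebraMap_apply ℂ A B, hφA, AlgHom.commutes]
  · ext a
    exact hφA a
  · have := hφ1 X
    rwa [aeval_X, ev_X] at this

omit [Algebra ℂ B] [IsScalarTower ℂ A B] in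
/-- the lift through the minimal annihilator -/
theorem ev_eq_zero_of_min [IsDomain A] {z : B} {m0 : A[X]} (hm0 : m0 ≠ 0) (hmz : aeval z m0 = 0)
    (hmin : ∀ p : A[X], p ≠ 0 → aeval z p = 0 → m0.natDegree ≤ p.natDegree) {x : A →ₐ[ℂ] ℂ} {ζ : ℂ}
    (hx : x m0.leadingCoeff ≠ 0) (hζ : ev x ζ m0 = 0) (p : A[X]) (hp : aeval z p = 0) :
    ev x ζ p = 0 := by
  induction hn : p.natDegree using Nat.strong_induction_on generalizing p with
  | _ n ih =>
    subst hn
    by_cases hp0 : p = 0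
    · rw [hp0, map_zero]
    have hle := hmin p hp0 hp
    set q : A[X] := C p.leadingCoeff * X ^ (p.natDegree - m0.natDegree) * m0 with hq
    have hlc : m0.leadingCoeff ≠ 0 := leadingCoeff_ne_zero.2 hm0
    have hplc : p.leadingCoeff ≠ 0 := leadingCoeff_ne_zero.2 hp0
    have hap : C m0.leadingCoeff * p ≠ 0 := mul_ne_zero (C_ne_zero.2 hlc) hp0
    have hq0 : q ≠ 0 := mul_ne_zero (mul_ne_zero (C_ne_zero.2 hplc) (pow_ne_zero _ X_ne_zero)) hm0
    have hdeg : (C m0.leadingCoeff * p).degree = q.degree := by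
      rw [degree_eq_natDegree hap, degree_eq_natDegree hq0, hq, natDegree_mul (C_ne_zero.2 hlc) hp0,
        natDegree_mul (mul_ne_zero (C_ne_zero.2 hplc) (pow_ne_zero _ X_ne_zero)) hm0,
        natDegree_C_mul_X_pow _ _ hplc, natDegree_C, zero_add, Nat.sub_add_cancel hle]
    have hlead : (C m0.leadingCoeff * p).leadingCoeff = q.leadingCoeff := by
      rw [hq, leadingCoeff_mul, leadingCoeff_mul, leadingCoeff_mul, leadingCoeff_C, leadingCoeff_C,
        leadingCoeff_X_pow]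
      ring
    have hlt := degree_sub_lt_left hdeg hap hlead
    have hz1 : aeval z (C m0.leadingCoeff * p - q) = 0 := by
      rw [map_sub, map_mul, hp, mul_zero, hq, map_mul, hmz, mul_zero, sub_zero]
    have hev : ev x ζ (C m0.leadingCoeff * p - q) = x m0.leadingCoeff * ev x ζ p := by
      rw [map_sub, map_mul, ev_C, hq, map_mul, hζ, mul_zero, sub_zero]
    have hzero : ev x ζ (C m0.leadingCoeff * p - q) = 0 := by
      by_cases h1 : C m0.leadingCoeff * p - q = 0
      · rw [h1, map_zero]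
      · have h2 : (C m0.leadingCoeff * p - q).natDegree < p.natDegree := by
          have h3 := natDegree_lt_natDegree h1 hlt
          rwa [natDegree_mul (C_ne_zero.2 hlc) hp0, natDegree_C, zero_add] at h3
        exact ih _ h2 _ hz1 rfl
    rw [hev] at hzero
    exact (mul_eq_zero.1 hzero).resolve_left hx

/-- the roots of the minimal annihilator at a point -/
theorem exists_roots {m0 : A[X]} {x : A →ₐ[ℂ] ℂ} (hx : x m0.leadingCoeff ≠ 0) :
    ∃ ζ : Fin m0.natDegree → ℂ, m0.map (x : A →+* ℂ) =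
      C (x m0.leadingCoeff) * ((univ.val.map ζ).map fun r => X - C r).prod := by
  set f := m0.map (x : A →+* ℂ) with hf
  have hdeg : f.natDegree = m0.natDegree := natDegree_map_of_leadingCoeff_ne_zero _ hx
  have hcard : f.roots.card = f.natDegree := (splits_iff_card_roots.1 (IsAlgClosed.splits f))
  have hlen : f.roots.toList.length = m0.natDegree := by
    rw [Multiset.length_toList, hcard, hdeg]
  refine ⟨fun i => f.roots.toList.get (i.cast hlen.symm), ?_⟩
  have h1 : (univ.val.map fun i : Fin m0.natDegree => f.roots.toList.get (i.cast hlen.symm)) =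
      f.roots := by
    rw [Fin.univ_val_map]
    conv_rhs => rw [← Multiset.coe_toList f.roots]
    congr 1
    refine List.ext_get (by simp [hlen]) fun n h1 h2 => ?_
    simp
  have h2 : f.leadingCoeff = x m0.leadingCoeff := leadingCoeff_map_of_leadingCoeff_ne_zero _ hx
  have h3 := C_leadingCoeff_mul_prod_multiset_X_sub_C hcard
  rw [h1, ← h2]
  exact h3.symm

end Ev

end Crest.Agent.R273.LemU_619
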