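import Crest.Agent.R273.LemUB_619

/-!
R273 (S0416), Part A, LEMMA U over a model, file C (helper619): symmetric functions of the roots, the
algebraic step.
-/

set_option autoImplicit false

open Finset
open scoped NNReal

namespace Crest.Agent.R273.LemU_619

universe w

open Polynomial

section Sym

variable {A : Type w} [CommRing A] [Algebra ℂ A]

/-- evaluation of multivariate polynomials at `(x, ζ)` -/
noncomputable def mev {σ : Type} (x : A →ₐ[ℂ] ℂ) (ζ : σ → ℂ) : MvPolynomial σ A →+* ℂ :=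
  MvPolynomial.eval₂Hom (x : A →+* ℂ) ζ

theorem mev_C {σ : Type} (x : A →ₐ[ℂ] ℂ) (ζ : σ → ℂ) (a : A) : mev x ζ (MvPolynomial.C a) = x a := by
  unfold mev; simp

theorem mev_X {σ : Type} (x : A →ₐ[ℂ] ℂ) (ζ : σ → ℂ) (i : σ) : mev x ζ (MvPolynomial.X i) = ζ i := by
  unfold mev; simp

theorem mev_esymm {e : ℕ} (x : A →ₐ[ℂ] ℂ) (ζ : Fin e → ℂ) (n : ℕ) :
    mev x ζ (MvPolynomial.esymm (Fin e) A n) = (univ.val.map ζ).esymm n := by
  let _ := (x : A →+* ℂ).toAlgebra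
  exact MvPolynomial.aeval_esymm_eq_multiset_esymm (S := ℂ) (Fin e) A n ζ

/-- an elementary symmetric function of the roots, times the leading coefficient -/
theorem coeff_esymm {m0 : A[X]} {x : A →ₐ[ℂ] ℂ} {ζ : Fin m0.natDegree → ℂ}
    (hm : m0.map (x : A →+* ℂ) =
      C (x m0.leadingCoeff) * ((univ.val.map ζ).map fun r => X - C r).prod)
    {i : ℕ} (hi : i ≤ m0.natDegree) :
    x ((-1) ^ i * m0.coeff (m0.natDegree - i)) =
      x m0.leadingCoeff * (univ.val.map ζ).esymm i := by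
  have hcard : (univ.val.map ζ).card = m0.natDegree := by simp
  have h1 : (m0.map (x : A →+* ℂ)).coeff (m0.natDegree - i) = x (m0.coeff (m0.natDegree - i)) := by
    rw [coeff_map]; rfl
  rw [map_mul, ← h1, hm, coeff_C_mul, Multiset.prod_X_sub_C_coeff _ (by rw [hcard]; exact Nat.sub_le _ _),
    hcard, Nat.sub_sub_self hi, map_pow, map_neg, map_one]
  have h2 : ((-1 : ℂ) ^ i) * (-1) ^ i = 1 := by rw [← mul_pow]; simp
  linear_combination (x m0.leadingCoeff * (univ.val.map ζ).esymm i) * h2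

/-- SYM: a symmetric function of the roots of `m0` is, up to a power of the leading coefficient, given
by an element of `A`. -/
theorem sym_red (m0 : A[X]) {Φ : MvPolynomial (Fin m0.natDegree) A} (hΦ : Φ.IsSymmetric) :
    ∃ k0 : ℕ, ∀ k, k0 ≤ k → ∃ r : A, ∀ x : A →ₐ[ℂ] ℂ, ∀ ζ : Fin m0.natDegree → ℂ,
      m0.map (x : A →+* ℂ) =
        C (x m0.leadingCoeff) * ((univ.val.map ζ).map fun r => X - C r).prod →
      x r = x m0.leadingCoeff ^ k * mev x ζ Φ := by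
  obtain ⟨Ψ, hΨ⟩ := MvPolynomial.esymmAlgHom_surjective (σ := Fin m0.natDegree) A
    (n := m0.natDegree) (by simp) ⟨Φ, hΦ⟩
  have hΨ' : MvPolynomial.aeval (fun i : Fin m0.natDegree =>
      MvPolynomial.esymm (Fin m0.natDegree) A (i + 1)) Ψ = Φ := by
    rw [← MvPolynomial.esymmAlgHom_apply, hΨ]
  rw [← hΨ']
  clear hΨ hΨ' hΦ
  induction Ψ using MvPolynomial.induction_on with
  | C a =>
    refine ⟨0, fun k _ => ⟨m0.leadingCoeff ^ k * a, fun x ζ _ => ?_⟩⟩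
    rw [map_mul, map_pow, MvPolynomial.aeval_C, MvPolynomial.algebraMap_eq, mev_C]
  | add p q hp hq =>
    obtain ⟨k1, h1⟩ := hp
    obtain ⟨k2, h2⟩ := hq
    refine ⟨max k1 k2, fun k hk => ?_⟩
    obtain ⟨r1, hr1⟩ := h1 k ((le_max_left _ _).trans hk)
    obtain ⟨r2, hr2⟩ := h2 k ((le_max_right _ _).trans hk)
    refine ⟨r1 + r2, fun x ζ hm => ?_⟩
    rw [map_add, hr1 x ζ hm, hr2 x ζ hm, map_add, map_add, mul_add]
  | mul_X p i hp =>
    obtain ⟨k1, h1⟩ := hp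
    refine ⟨k1 + 1, fun k hk => ?_⟩
    obtain ⟨r1, hr1⟩ := h1 (k - 1) (by omega)
    refine ⟨r1 * ((-1) ^ ((i : ℕ) + 1) * m0.coeff (m0.natDegree - ((i : ℕ) + 1))), fun x ζ hm => ?_⟩
    rw [map_mul, hr1 x ζ hm, coeff_esymm hm (Nat.succ_le_of_lt i.2), map_mul, MvPolynomial.aeval_X,
      map_mul, mev_esymm]
    have hk' : k = (k - 1) + 1 := by omega
    conv_rhs => rw [hk', pow_succ]
    ring

/-- permutation invariance of the sums `E_j` -/
theorem sum_perm {R : Type*} [CommRing R] {e : ℕ} (f g : Fin e → R) (σ : Equiv.Perm (Fin e)) (j : ℕ) :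
    ∑ T ∈ powersetCard j univ, (∏ i ∈ T, g (σ i)) * ∏ i ∈ univ \ T, f (σ i) =
      ∑ T ∈ powersetCard j univ, (∏ i ∈ T, g i) * ∏ i ∈ univ \ T, f i := by
  refine Finset.sum_bij (fun T _ => T.map σ.toEmbedding) ?_ ?_ ?_ ?_
  · intro T hT
    rw [mem_powersetCard] at hT ⊢
    exact ⟨subset_univ _, by rw [card_map]; exact hT.2⟩
  · intro T _ T' _ h
    exact Finset.map_injective _ h
  · intro T hT
    refine ⟨T.map σ.symm.toEmbedding, ?_, ?_⟩
    · rw [mem_powersetCard] at hT ⊢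
      exact ⟨subset_univ _, by rw [card_map]; exact hT.2⟩
    · ext i; simp
  · intro T _
    have h1 : univ \ T.map σ.toEmbedding = (univ \ T).map σ.toEmbedding := by
      ext i; simp
    rw [h1, Finset.prod_map, Finset.prod_map]
    rfl

/-- the polynomial `Φ_j` with values `E_j` -/
noncomputable def Phi (e : ℕ) (f g : A[X]) (j : ℕ) : MvPolynomial (Fin e) A :=
  ∑ T ∈ powersetCard j univ, (∏ i ∈ T, aeval (MvPolynomial.X i : MvPolynomial (Fin e) A) g) *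
    ∏ i ∈ univ \ T, aeval (MvPolynomial.X i : MvPolynomial (Fin e) A) f

omit [Algebra ℂ A] in
theorem Phi_symm (e : ℕ) (f g : A[X]) (j : ℕ) : (Phi e f g j).IsSymmetric := by
  intro σ
  have h1 : ∀ (p : A[X]) (i : Fin e), MvPolynomial.rename σ
      (aeval (MvPolynomial.X i : MvPolynomial (Fin e) A) p) =
        aeval (MvPolynomial.X (σ i) : MvPolynomial (Fin e) A) p := by
    intro p i
    rw [← Polynomial.aeval_algHom_apply, MvPolynomial.rename_X]
  unfold Phi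
  rw [map_sum]
  rw [← sum_perm (fun i => aeval (MvPolynomial.X i : MvPolynomial (Fin e) A) f)
    (fun i => aeval (MvPolynomial.X i : MvPolynomial (Fin e) A) g) σ j]
  refine Finset.sum_congr rfl fun T _ => ?_
  rw [map_mul, map_prod, map_prod]
  simp only [h1]

theorem mev_aeval_X {e : ℕ} (x : A →ₐ[ℂ] ℂ) (ζ : Fin e → ℂ) (p : A[X]) (i : Fin e) :
    mev x ζ (aeval (MvPolynomial.X i : MvPolynomial (Fin e) A) p) = ev x (ζ i) p := by
  rw [aeval_def, ev_apply, hom_eval₂, mev_X]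
  congr 1
  ext a
  simp only [RingHom.comp_apply, MvPolynomial.algebraMap_eq, mev_C]
  rfl

theorem mev_Phi {e : ℕ} (x : A →ₐ[ℂ] ℂ) (ζ : Fin e → ℂ) (f g : A[X]) (j : ℕ) :
    mev x ζ (Phi e f g j) =
      ∑ T ∈ powersetCard j univ, (∏ i ∈ T, ev x (ζ i) g) * ∏ i ∈ univ \ T, ev x (ζ i) f := by
  unfold Phi
  rw [map_sum]
  refine Finset.sum_congr rfl fun T _ => ?_
  rw [map_mul, map_prod, map_prod]
  simp only [mev_aeval_X]

end Sym

section Alg

variable {A B : Type w} [CommRing A] [Algebra ℂ A] [CommRing B] [Algebra ℂ B] [Algebra A B]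
  [IsScalarTower ℂ A B]

/-- linear combination of polynomials with complex coefficients -/
noncomputable def lc {ι : Type w} [Fintype ι] (w : ι → ℂ) (p : ι → A[X]) : A[X] :=
  ∑ k, C (algebraMap ℂ A (w k)) * p k

theorem ev_lc {ι : Type w} [Fintype ι] (w : ι → ℂ) (p : ι → A[X]) (x : A →ₐ[ℂ] ℂ) (ζ : ℂ) :
    ev x ζ (lc w p) = (fun k => ev x ζ (p k)) ⬝ᵥ w := by
  unfold lc dotProduct
  rw [map_sum]
  refine Finset.sum_congr rfl fun k _ => ?_
  rw [map_mul, ev_C, AlgHom.commutes, mul_comm]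
  rfl

/-- the sup norm of the vector of values is `nm` -/
theorem nnnorm_eq_nm (x' : B →ₐ[ℂ] ℂ) (S : Finset B) :
    ‖(fun b : S => x' (b : B))‖₊ = nm x' S := by
  refine le_antisymm ?_ ?_
  · refine (pi_nnnorm_le_iff).2 fun b => le_nm b.2
  · refine nm_le fun b hb => ?_
    exact nnnorm_le_pi_nnnorm (fun b : S => x' (b : B)) ⟨b, hb⟩

/-- The algebraic step. -/
theorem stp_alg [IsDomain A] [IsDomain B] [Algebra.FiniteType ℂ A]
    (hinj : Function.Injective (algebraMap A B)) {z : B} (hz : Algebra.adjoin A {z} = ⊤)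
    (hza : IsAlgebraic A z) : Stp A B := by
  classical
  have hsurj : Function.Surjective (aeval (R := A) z) := by
    intro b
    have h1 : b ∈ Algebra.adjoin A {z} := by rw [hz]; exact Algebra.mem_top
    rw [Algebra.adjoin_singleton_eq_range_aeval] at h1
    exact h1
  have halg : ∀ b : B, IsAlgebraic A b := by
    intro b
    have h1 : b ∈ Algebra.adjoin A {z} := by rw [hz]; exact Algebra.mem_top
    induction h1 using Algebra.adjoin_induction with
    | mem y hy => rw [Set.mem_singleton_iff.1 hy]; exact hza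
    | algebraMap a => exact isAlgebraic_algebraMap a
    | add y1 y2 _ _ h1 h2 => exact h1.add h2
    | mul y1 y2 _ _ h1 h2 => exact h1.mul h2
  -- the minimal annihilator
  obtain ⟨m0, hm0, hmz, hmin⟩ : ∃ m0 : A[X], m0 ≠ 0 ∧ aeval z m0 = 0 ∧
      ∀ p : A[X], p ≠ 0 → aeval z p = 0 → m0.natDegree ≤ p.natDegree := by
    obtain ⟨p1, hp1, hp1z⟩ := hza
    have hex : ∃ n : ℕ, ∃ p : A[X], p ≠ 0 ∧ aeval z p = 0 ∧ p.natDegree = n := ⟨_, p1, hp1, hp1z, rfl⟩
    obtain ⟨m0, h1, h2, h3⟩ := Nat.find_spec hex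
    refine ⟨m0, h1, h2, fun p hp hpz => ?_⟩
    rw [h3]
    exact Nat.find_min' hex ⟨p, hp, hpz, rfl⟩
  set e := m0.natDegree with he
  have hlc0 : m0.leadingCoeff ≠ 0 := leadingCoeff_ne_zero.2 hm0
  intro α' β' g' hβ' hg'
  -- representatives
  choose rep hrep using hsurj
  obtain ⟨S, c, C0, hc, hC0, hS, hpn⟩ := PolyN_619.pnT β' α' e
  set Φ : ℕ → (β' ⊕ α' → ℂ) → MvPolynomial (Fin e) A := fun j w =>
    Phi e (lc (w ∘ Sum.inl) fun b : β' => rep b) (lc (w ∘ Sum.inr) fun b : α' => rep b) j with hΦ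
  have hred : ∀ j w, ∃ k0 : ℕ, ∀ k, k0 ≤ k → ∃ r : A, ∀ x : A →ₐ[ℂ] ℂ, ∀ ζ : Fin m0.natDegree → ℂ,
      m0.map (x : A →+* ℂ) =
        C (x m0.leadingCoeff) * ((univ.val.map ζ).map fun r => X - C r).prod →
      x r = x m0.leadingCoeff ^ k * mev x ζ (Φ j w) := fun j w => sym_red m0 (Phi_symm _ _ _ _)
  choose k0 hk0 using hred
  set k := (range (e + 1)).sup fun j => S.sup fun w => k0 j w with hk
  have hkle : ∀ j, j ≤ e → ∀ w ∈ S, k0 j w ≤ k := by
    intro j hj w hw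
    refine (Finset.le_sup (f := fun w => k0 j w) hw).trans ?_
    exact Finset.le_sup (f := fun j => S.sup fun w => k0 j w) (mem_range.2 (Nat.lt_succ_of_le hj))
  have hr : ∀ j w, ∃ r : A, j ≤ e → w ∈ S → ∀ x : A →ₐ[ℂ] ℂ, ∀ ζ : Fin m0.natDegree → ℂ,
      m0.map (x : A →+* ℂ) =
        C (x m0.leadingCoeff) * ((univ.val.map ζ).map fun r => X - C r).prod →
      x r = x m0.leadingCoeff ^ k * mev x ζ (Φ j w) := by
    intro j w
    by_cases h : j ≤ e ∧ w ∈ S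
    · obtain ⟨r, hr⟩ := hk0 j w k (hkle j h.1 w h.2)
      exact ⟨r, fun _ _ => hr⟩
    · exact ⟨0, fun h1 h2 => absurd ⟨h1, h2⟩ h⟩
  choose r hr using hr
  obtain ⟨b0, hb0, hb0'⟩ := hβ'
  obtain ⟨h1, hh1, hh1'⟩ := (halg g').exists_nonzero_dvd (mem_nonZeroDivisors_of_ne_zero hg')
  obtain ⟨h2, hh2, hh2'⟩ := (halg b0).exists_nonzero_dvd (mem_nonZeroDivisors_of_ne_zero hb0')
  -- points over `x`
  have hnz : ∀ (x' : B →ₐ[ℂ] ℂ) (f : B) (h : A), f ∣ algebraMap A B h → res A x' h ≠ 0 → x' f ≠ 0 := by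
    rintro x' f h ⟨q, hq⟩ hx h0
    rw [res_apply, hq, map_mul, h0, zero_mul] at hx
    exact hx rfl
  set R : ℕ → Finset A := fun j => S.image (r j) with hR
  obtain ⟨e', α, β, he', hβ0, hlcm⟩ := lcm_trick e R (hS.image _)
  set c' : ℝ≥0 := ⟨c, hc.le⟩ with hc'
  set C0' : ℝ≥0 := ⟨C0, hC0.le⟩ with hC0'
  have hc'0 : c' ≠ 0 := fun h => hc.ne' (congrArg NNReal.toReal h)
  set C1 : ℝ≥0 := max 1 (C0' / c') with hC1
  have hC1' : C0' ≤ C1 * c' := by
    have h3 : C0' / c' ≤ C1 := le_max_right _ _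
    calc C0' = C0' / c' * c' := by rw [div_mul_cancel₀ _ hc'0]
      _ ≤ C1 * c' := mul_le_mul' h3 le_rfl
  have hmain : ∀ x : A →ₐ[ℂ] ℂ, x (m0.leadingCoeff * h1 * h2) ≠ 0 → nm x β ≠ 0 ∧
        ∀ M : ℝ≥0, (∀ x' : B →ₐ[ℂ] ℂ, res A x' = x → x' g' ≠ 0 → nm x' α' ≤ M * nm x' β') →
          nm x α ≤ C1 ^ e' * M ^ e' * nm x β ∧
          ∀ x' : B →ₐ[ℂ] ℂ, res A x' = x → x' g' ≠ 0 →
            nm x' α' ^ e' * nm x β ≤ C1 ^ e' * nm x α * nm x' β' ^ e' := by
    intro x hx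
    rw [map_mul, map_mul] at hx
    have hxh2 := right_ne_zero_of_mul hx
    have hxh1 := right_ne_zero_of_mul (left_ne_zero_of_mul hx)
    have hxlc := left_ne_zero_of_mul (left_ne_zero_of_mul hx)
    obtain ⟨ζ, hζ⟩ := exists_roots hxlc
    have hroot : ∀ t : ℂ, ev x t m0 = 0 ↔ ∃ i, ζ i = t := by
      intro t
      rw [ev_eq_eval, hζ, eval_mul, eval_C, mul_eq_zero, or_iff_right hxlc, eval_multiset_prod,
        Multiset.prod_eq_zero_iff]
      simp [sub_eq_zero, eq_comm]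
    have hlift : ∀ i, ∃ x' : B →ₐ[ℂ] ℂ, res A x' = x ∧ x' z = ζ i := fun i =>
      exists_lift (fun b => ⟨rep b, hrep b⟩) x (ζ i) fun p hp =>
        ev_eq_zero_of_min hm0 hmz hmin hxlc ((hroot _).2 ⟨i, rfl⟩) p hp
    choose y hyx hyz using hlift
    have hyb : ∀ i b, ev x (ζ i) (rep b) = y i b := by
      intro i b
      rw [← hyx i, ← hyz i, ← apply_aeval, hrep]
    set a : Fin e → β' → ℂ := fun i b => y i b with ha
    set bb : Fin e → α' → ℂ := fun i b => y i b with hbb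
    have hna : ∀ i, ‖a i‖₊ = nm (y i) β' := fun i => nnnorm_eq_nm (y i) β'
    have hnb : ∀ i, ‖bb i‖₊ = nm (y i) α' := fun i => nnnorm_eq_nm (y i) α'
    have hE : ∀ j w, mev x ζ (Φ j w) = PolyN_619.E a bb j w := by
      intro j w
      refine (mev_Phi (e := e) x ζ _ _ j).trans ?_
      refine Finset.sum_congr rfl fun T _ => ?_
      congr 1
      · refine Finset.prod_congr rfl fun i _ => ?_
        rw [ev_lc]
        exact congrArg (fun f => f ⬝ᵥ (w ∘ Sum.inr)) (funext fun b => hyb i b)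
      · refine Finset.prod_congr rfl fun i _ => ?_
        rw [ev_lc]
        exact congrArg (fun f => f ⬝ᵥ (w ∘ Sum.inl)) (funext fun b => hyb i b)
    set lam : ℝ≥0 := ‖x m0.leadingCoeff‖₊ ^ k with hlam
    have hlampos : lam ≠ 0 := pow_ne_zero _ (nnnorm_ne_zero_iff.2 hxlc)
    have hxr : ∀ j w, j ≤ e → w ∈ S → ‖x (r j w)‖₊ = lam * ‖PolyN_619.E a bb j w‖₊ := by
      intro j w hj hw
      rw [hr j w hj hw x ζ hζ, nnnorm_mul, nnnorm_pow, hE]
    set Pn : ℝ≥0 := ∏ i, ‖a i‖₊ with hPn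
    have hPn' : ((Pn : ℝ≥0) : ℝ) = ∏ i, ‖a i‖ := by
      rw [hPn, NNReal.coe_prod]; rfl
    have hPnpos : Pn ≠ 0 := by
      rw [hPn]
      refine Finset.prod_ne_zero_iff.2 fun i _ => ?_
      rw [hna]
      refine nm_ne_zero hb0 (hnz _ _ _ hh2' ?_)
      rw [hyx]; exact hxh2
    obtain ⟨p1, p2, p3, p4⟩ := hpn a bb
    have q1 : c' * (lam * Pn) ≤ nm x (R 0) := by
      obtain ⟨w0, hw0, h3⟩ := p1
      have h4 : c' * Pn ≤ ‖PolyN_619.E a bb 0 w0‖₊ := by
        rw [← NNReal.coe_le_coe, NNReal.coe_mul, hPn']; exact h3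
      calc c' * (lam * Pn) = lam * (c' * Pn) := by ring
        _ ≤ lam * ‖PolyN_619.E a bb 0 w0‖₊ := mul_le_mul' le_rfl h4
        _ = ‖x (r 0 w0)‖₊ := (hxr 0 w0 (Nat.zero_le _) hw0).symm
        _ ≤ nm x (R 0) := le_nm (mem_image_of_mem _ hw0)
    have q2 : nm x (R 0) ≤ C0' * (lam * Pn) := by
      refine nm_le fun f hf => ?_
      obtain ⟨w, hw, rfl⟩ := mem_image.1 hf
      have h4 : ‖PolyN_619.E a bb 0 w‖₊ ≤ C0' * Pn := by
        rw [← NNReal.coe_le_coe, NNReal.coe_mul, hPn']; exact p2 w hw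
      rw [hxr 0 w (Nat.zero_le _) hw]
      calc lam * ‖PolyN_619.E a bb 0 w‖₊ ≤ lam * (C0' * Pn) := mul_le_mul' le_rfl h4
        _ = C0' * (lam * Pn) := by ring
    have q3 : ∀ M : ℝ≥0, (∀ i, ‖bb i‖₊ ≤ M * ‖a i‖₊) → ∀ j, j ≤ e →
        nm x (R j) ≤ C0' * M ^ j * (lam * Pn) := by
      intro M hM j hj
      refine nm_le fun f hf => ?_
      obtain ⟨w, hw, rfl⟩ := mem_image.1 hf
      have h4 : ‖PolyN_619.E a bb j w‖₊ ≤ C0' * M ^ j * Pn := by
        rw [← NNReal.coe_le_coe, NNReal.coe_mul, hPn']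
        push_cast
        exact p3 M M.2 (fun i => by exact_mod_cast hM i) j w hw
      rw [hxr j w hj hw]
      calc lam * ‖PolyN_619.E a bb j w‖₊ ≤ lam * (C0' * M ^ j * Pn) := mul_le_mul' le_rfl h4
        _ = C0' * M ^ j * (lam * Pn) := by ring
    have q4 : ∀ M : ℝ≥0, (∃ i, M * ‖a i‖₊ ≤ ‖bb i‖₊) → ∃ j, 1 ≤ j ∧ j ≤ e ∧
        c' * M ^ j * (lam * Pn) ≤ nm x (R j) := by
      rintro M ⟨i, hi⟩
      obtain ⟨j, hj1, hje, w, hw, h3⟩ := p4 M M.2 ⟨i, by exact_mod_cast hi⟩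
      refine ⟨j, hj1, hje, ?_⟩
      have h4 : c' * M ^ j * Pn ≤ ‖PolyN_619.E a bb j w‖₊ := by
        rw [← NNReal.coe_le_coe, NNReal.coe_mul, hPn']
        push_cast
        exact h3
      calc c' * M ^ j * (lam * Pn) = lam * (c' * M ^ j * Pn) := by ring
        _ ≤ lam * ‖PolyN_619.E a bb j w‖₊ := mul_le_mul' le_rfl h4
        _ = ‖x (r j w)‖₊ := (hxr j w hje hw).symm
        _ ≤ nm x (R j) := le_nm (mem_image_of_mem _ hw)
    have hR0 : nm x (R 0) ≠ 0 := by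
      intro h3
      rw [h3] at q1
      exact (mul_ne_zero hc'0 (mul_ne_zero hlampos hPnpos)) (le_antisymm q1 zero_le)
    obtain ⟨l1, l2, l3⟩ := hlcm x
    refine ⟨by rw [l1]; exact pow_ne_zero _ hR0, fun M hM => ⟨?_, ?_⟩⟩
    · refine l2 C1 M (le_max_left _ _) fun j hj1 hje => ?_
      have h3 : ∀ i, ‖bb i‖₊ ≤ M * ‖a i‖₊ := by
        intro i
        rw [hna, hnb]
        refine hM (y i) (hyx i) (hnz _ _ _ hh1' ?_)
        rw [hyx]; exact hxh1
      calc nm x (R j) ≤ C0' * M ^ j * (lam * Pn) := q3 M h3 j hje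
        _ ≤ (C1 * c') * M ^ j * (lam * Pn) := mul_le_mul' (mul_le_mul' hC1' le_rfl) le_rfl
        _ = C1 * M ^ j * (c' * (lam * Pn)) := by ring
        _ ≤ C1 * M ^ j * nm x (R 0) := mul_le_mul' le_rfl q1
    · intro x' hx' _
      have hx'z : ev x (x' z) m0 = 0 := by
        rw [← hx', ← apply_aeval, hmz, map_zero]
      obtain ⟨i, hi⟩ := (hroot _).1 hx'z
      have hyx' : y i = x' := by
        ext b
        rw [← hyb i b, hi, ← hx', ← apply_aeval, hrep]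
      have hβ'0 : nm x' β' ≠ 0 := by
        refine nm_ne_zero hb0 (hnz _ _ _ hh2' ?_)
        rw [hx']; exact hxh2
      set M1 : ℝ≥0 := nm x' α' / nm x' β' with hM1
      have hM1' : M1 * nm x' β' = nm x' α' := div_mul_cancel₀ _ hβ'0
      obtain ⟨j, hj1, hje, h3⟩ := q4 M1 ⟨i, by rw [hna, hnb, hyx', hM1']⟩
      have h5 : M1 ^ e' * nm x β ≤ C1 ^ e' * nm x α := by
        refine l3 C1 M1 (le_max_left _ _) ⟨j, hj1, hje, ?_⟩
        calc M1 ^ j * nm x (R 0) ≤ M1 ^ j * (C0' * (lam * Pn)) := mul_le_mul' le_rfl q2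
          _ ≤ M1 ^ j * ((C1 * c') * (lam * Pn)) :=
              mul_le_mul' le_rfl (mul_le_mul' hC1' le_rfl)
          _ = C1 * (c' * M1 ^ j * (lam * Pn)) := by ring
          _ ≤ C1 * nm x (R j) := mul_le_mul' le_rfl h3
      calc nm x' α' ^ e' * nm x β = (M1 ^ e' * nm x β) * nm x' β' ^ e' := by
            rw [← hM1', mul_pow]; ring
        _ ≤ (C1 ^ e' * nm x α) * nm x' β' ^ e' := mul_le_mul' h5 le_rfl
  have hh0 : m0.leadingCoeff * h1 * h2 ≠ 0 := mul_ne_zero (mul_ne_zero hlc0 hh1) hh2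
  refine ⟨e', C1 ^ e', α, β, g', m0.leadingCoeff * h1 * h2, he', ?_, dvd_rfl, hg', hh0, hmain⟩
  obtain ⟨x, hx⟩ := exists_point hh0
  have h3 := (hmain x hx).1
  by_contra hcon
  push Not at hcon
  refine h3 (le_antisymm (nm_le fun b hb => ?_) zero_le)
  rw [hcon b hb, map_zero, nnnorm_zero]

end Alg

end Crest.Agent.R273.LemU_619
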