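import Mathlib

/-!
# R273 (S0416), Lemma U (helper145): suprema of quotients of polynomial families via resultants

`forms_exist` : finitely many linear forms such that one of them is large on `d` given vectors;
`res_factor`  : `Res(f, g) = a ∏ f(ε_i)` over the roots of `g` in `ℙ¹(ℂ)`;
`sup_res`     : for vectors `P`, `Q` of polynomials of degree `≤ D`, `Q` without common zero on
  `ℙ¹`, the number `M = sup |P|/|Q|` is comparable to `max_j (|c_j| / |c_0|)^(1/j)`, the `c_j`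
  being the coefficients of `w^j` in `Res(l₀·(Q, wP), l₁·(Q, wP))`, `l₀, l₁` in a finite set.
-/

set_option autoImplicit false

open Polynomial

namespace Crest.Agent.R273.Res_145

noncomputable section

/-! ### linear forms which are large on given vectors -/

section Forms

variable {κ : Type} [Fintype κ]

/-- pairing -/
def dot (l ξ : κ → ℂ) : ℂ := ∑ k, l k * ξ k

theorem dot_smul (l ξ : κ → ℂ) (c : ℂ) : dot l (c • ξ) = c * dot l ξ := by
  simp only [dot, Pi.smul_apply, smul_eq_mul, Finset.mul_sum]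
  exact Finset.sum_congr rfl fun k _ => by ring

theorem continuous_dot (l : κ → ℂ) : Continuous (dot l) := by
  unfold dot
  exact continuous_finsetSum _ fun k _ => continuous_const.mul (continuous_apply k)

theorem norm_dot_le (l ξ : κ → ℂ) : ‖dot l ξ‖ ≤ (∑ k, ‖l k‖) * ‖ξ‖ := by
  unfold dot
  rw [Finset.sum_mul]
  refine (norm_sum_le _ _).trans (Finset.sum_le_sum fun k _ => ?_)
  rw [norm_mul]
  exact mul_le_mul_of_nonneg_left (norm_le_pi_norm ξ k) (norm_nonneg _)

/-- moment curve on an arbitrary index type -/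
def mom (e : κ ≃ Fin (Fintype.card κ)) (t : ℕ) : κ → ℂ := fun k => (t : ℂ) ^ (e k : ℕ)

/-- a nonzero vector is killed by fewer than `card κ` points of the moment curve -/
theorem mom_zero_card (e : κ ≃ Fin (Fintype.card κ)) {ξ : κ → ℂ} (hξ : ξ ≠ 0) (T : ℕ) :
    ((Finset.range T).filter fun t => dot (mom e t) ξ = 0).card ≤ Fintype.card κ := by
  classical
  set f : ℂ[X] := ∑ k, C (ξ k) * X ^ (e k : ℕ) with hf
  have hf0 : f ≠ 0 := by
    intro h
    apply hξ
    funext k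
    have h1 : f.coeff (e k) = ξ k := by
      rw [hf, finsetSum_coeff]
      simp only [coeff_C_mul, coeff_X_pow]
      rw [Finset.sum_eq_single k]
      · simp
      · intro j _ hj
        rw [if_neg, mul_zero]
        intro h2
        exact hj (e.injective (Fin.ext h2)).symm
      · simp
    rw [← h1, h]; simp
  have hdeg : f.natDegree ≤ Fintype.card κ := by
    rw [hf]
    refine natDegree_sum_le_of_forall_le _ _ fun k _ => ?_
    refine (natDegree_C_mul_X_pow_le _ _).trans (e k).isLt.le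
  have hev : ∀ t : ℕ, f.eval (t : ℂ) = dot (mom e t) ξ := by
    intro t
    rw [hf, eval_finsetSum]
    unfold dot mom
    exact Finset.sum_congr rfl fun k _ => by rw [eval_mul, eval_C, eval_pow, eval_X, mul_comm]
  have hinj : Function.Injective (fun t : ℕ => (t : ℂ)) := Nat.cast_injective
  calc ((Finset.range T).filter fun t => dot (mom e t) ξ = 0).card
      = (((Finset.range T).filter fun t => dot (mom e t) ξ = 0).image fun t : ℕ => (t : ℂ)).card :=
        (Finset.card_image_of_injective _ hinj).symm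
    _ ≤ f.roots.toFinset.card := by
        refine Finset.card_le_card fun z hz => ?_
        obtain ⟨t, ht, rfl⟩ := Finset.mem_image.1 hz
        rw [Multiset.mem_toFinset, mem_roots hf0, IsRoot.def, hev]
        exact (Finset.mem_filter.1 ht).2
    _ ≤ Multiset.card f.roots := Multiset.toFinset_card_le _
    _ ≤ f.natDegree := card_roots' f
    _ ≤ Fintype.card κ := hdeg

/-- **finitely many linear forms, one of which is large on all of `d` given vectors** -/
theorem forms_exist (κ : Type) [Fintype κ] (d : ℕ) :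
    ∃ (S : Finset (κ → ℂ)) (c : ℝ), S.Nonempty ∧ 0 < c ∧ ∀ ξ : Fin d → κ → ℂ, ∃ l ∈ S, ∀ i,
      c * ‖ξ i‖ ≤ ‖dot l (ξ i)‖ := by
  classical
  set e := Fintype.equivFin κ
  set T := d * Fintype.card κ + 1 with hT
  set S : Finset (κ → ℂ) := (Finset.range T).image (mom e) with hS
  have hSne : S.Nonempty := ⟨mom e 0, Finset.mem_image_of_mem _ (by simp [hT])⟩
  -- positivity for nonzero vectors
  have hpos : ∀ ξ : Fin d → κ → ℂ, (∀ i, ξ i ≠ 0) → ∃ l ∈ S, ∀ i, dot l (ξ i) ≠ 0 := by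
    intro ξ hξ
    by_contra hcon
    push Not at hcon
    have h1 : Finset.range T ⊆ Finset.univ.biUnion fun i : Fin d =>
        (Finset.range T).filter fun t => dot (mom e t) (ξ i) = 0 := by
      intro t ht
      obtain ⟨i, hi⟩ := hcon (mom e t) (Finset.mem_image_of_mem _ ht)
      exact Finset.mem_biUnion.2 ⟨i, Finset.mem_univ _, Finset.mem_filter.2 ⟨ht, hi⟩⟩
    have h2 := Finset.card_le_card h1
    have h3 : (Finset.univ.biUnion fun i : Fin d =>
        (Finset.range T).filter fun t => dot (mom e t) (ξ i) = 0).card ≤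
        ∑ _i : Fin d, Fintype.card κ :=
      Finset.card_biUnion_le.trans (Finset.sum_le_sum fun i _ => mom_zero_card e (hξ i) T)
    rw [Finset.card_range] at h2
    simp only [Finset.sum_const, Finset.card_univ, Fintype.card_fin, smul_eq_mul] at h3
    omega
  -- compactness
  set K : Set (Fin d → κ → ℂ) := Set.univ.pi fun _ => Metric.sphere (0 : κ → ℂ) 1 with hK
  have hKc : IsCompact K := isCompact_univ_pi fun _ => isCompact_sphere _ _
  set g : (Fin d → κ → ℂ) → ℝ := fun ξ => S.sup' hSne fun l => ∏ i, ‖dot l (ξ i)‖ with hg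
  have hgc : Continuous g := by
    rw [hg]
    refine Continuous.finset_sup'_apply hSne fun l _ => ?_
    exact continuous_finsetProd _ fun i _ =>
      ((continuous_dot l).comp (continuous_apply i)).norm
  have hgpos : ∀ ξ ∈ K, 0 < g ξ := by
    intro ξ hξ
    have hne : ∀ i, ξ i ≠ 0 := by
      intro i h0
      have := hξ i (Set.mem_univ i)
      rw [mem_sphere_zero_iff_norm, h0, norm_zero] at this
      exact zero_ne_one this
    obtain ⟨l, hl, hli⟩ := hpos ξ hne
    have h1 : 0 < ∏ i, ‖dot l (ξ i)‖ := Finset.prod_pos fun i _ => norm_pos_iff.2 (hli i)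
    exact lt_of_lt_of_le h1 (Finset.le_sup' (fun l => ∏ i, ‖dot l (ξ i)‖) hl)
  obtain ⟨c0, hc0, hc0g⟩ : ∃ c0 : ℝ, 0 < c0 ∧ ∀ ξ ∈ K, c0 ≤ g ξ := by
    rcases K.eq_empty_or_nonempty with hE | hE
    · exact ⟨1, one_pos, fun ξ hξ => by rw [hE] at hξ; exact hξ.elim⟩
    · obtain ⟨ξ0, h0, hmin⟩ := hKc.exists_isMinOn hE hgc.continuousOn
      exact ⟨g ξ0, hgpos ξ0 h0, fun ξ hξ => hmin hξ⟩
  -- common bound for the forms
  set B : ℝ := 1 + ∑ l ∈ S, ∑ k, ‖l k‖ with hB
  have hB1 : 1 ≤ B := by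
    have : 0 ≤ ∑ l ∈ S, ∑ k, ‖l k‖ :=
      Finset.sum_nonneg fun _ _ => Finset.sum_nonneg fun _ _ => norm_nonneg _
    linarith
  have hBl : ∀ l ∈ S, ∑ k, ‖l k‖ ≤ B := by
    intro l hl
    have : ∑ k, ‖l k‖ ≤ ∑ l ∈ S, ∑ k, ‖l k‖ :=
      Finset.single_le_sum (f := fun l : κ → ℂ => ∑ k, ‖l k‖)
      (fun l _ => Finset.sum_nonneg fun _ _ => norm_nonneg _) hl
    linarith
  refine ⟨S, c0 / B ^ d, hSne, by positivity, fun ξ => ?_⟩
  -- a unit vector, if `κ` is nonempty
  rcases isEmpty_or_nonempty κ with hκ | ⟨⟨k0⟩⟩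
  · obtain ⟨l, hl⟩ := hSne
    refine ⟨l, hl, fun i => ?_⟩
    have : ξ i = 0 := Subsingleton.elim _ _
    rw [this, norm_zero, mul_zero]
    exact norm_nonneg _
  · set u0 : κ → ℂ := Pi.single k0 1
    have hu0 : ‖u0‖ = 1 := by
      simp [u0, Pi.norm_single]
    set η : Fin d → κ → ℂ := fun i => if ξ i = 0 then u0 else ((‖ξ i‖ : ℂ)⁻¹) • ξ i with hη
    have hηK : η ∈ K := by
      intro i _
      rw [mem_sphere_zero_iff_norm]
      simp only [hη]
      split_ifs with h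
      · exact hu0
      · rw [norm_smul, norm_inv, Complex.norm_real, norm_norm,
          inv_mul_cancel₀ (norm_ne_zero_iff.2 h)]
    obtain ⟨l, hl, hlg⟩ := Finset.exists_mem_eq_sup' hSne fun l => ∏ i, ‖dot l (η i)‖
    have h1 : c0 ≤ ∏ i, ‖dot l (η i)‖ := by
      have := hc0g η hηK
      rw [hg] at this
      simp only at this
      rwa [hlg] at this
    refine ⟨l, hl, fun i => ?_⟩
    by_cases hi : ξ i = 0
    · rw [hi, norm_zero, mul_zero]; exact norm_nonneg _
    have hle : ∀ j, ‖dot l (η j)‖ ≤ B := by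
      intro j
      refine (norm_dot_le l (η j)).trans ?_
      have : ‖η j‖ = 1 := mem_sphere_zero_iff_norm.1 (hηK j (Set.mem_univ j))
      rw [this, mul_one]
      exact hBl l hl
    have h2 : ∏ j, ‖dot l (η j)‖ ≤ ‖dot l (η i)‖ * B ^ d := by
      rw [← Finset.mul_prod_erase Finset.univ _ (Finset.mem_univ i)]
      refine mul_le_mul_of_nonneg_left ?_ (norm_nonneg _)
      calc ∏ j ∈ Finset.univ.erase i, ‖dot l (η j)‖ ≤ ∏ _j ∈ Finset.univ.erase i, B :=
            Finset.prod_le_prod (fun _ _ => norm_nonneg _) fun j _ => hle j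
        _ = B ^ (Finset.univ.erase i).card := by rw [Finset.prod_const]
        _ ≤ B ^ d := by
            refine pow_le_pow_right₀ hB1 ?_
            refine (Finset.card_le_card (Finset.erase_subset _ _)).trans ?_
            simp
    have h3 : ‖dot l (η i)‖ = ‖ξ i‖⁻¹ * ‖dot l (ξ i)‖ := by
      simp only [hη, if_neg hi]
      rw [dot_smul, norm_mul, norm_inv, Complex.norm_real, norm_norm]
    have h4 : c0 / B ^ d ≤ ‖dot l (η i)‖ := by
      rw [div_le_iff₀ (by positivity)]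
      exact h1.trans h2
    rw [h3] at h4
    have hpos' : 0 < ‖ξ i‖ := norm_pos_iff.2 hi
    calc c0 / B ^ d * ‖ξ i‖ ≤ ‖ξ i‖⁻¹ * ‖dot l (ξ i)‖ * ‖ξ i‖ :=
          mul_le_mul_of_nonneg_right h4 hpos'.le
      _ = ‖dot l (ξ i)‖ := by field_simp

end Forms

/-! ### points of `ℙ¹` and the factorisation of the resultant -/

/-- value at a point of `ℙ¹` (`none` is the point at infinity) of a polynomial of formal degree
`D` -/
def ev (D : ℕ) : Option ℂ → ℂ[X] → ℂ
  | none, f => f.coeff D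
  | some z, f => f.eval z

@[simp] theorem ev_none (D : ℕ) (f : ℂ[X]) : ev D none f = f.coeff D := rfl
@[simp] theorem ev_some (D : ℕ) (z : ℂ) (f : ℂ[X]) : ev D (some z) f = f.eval z := rfl

theorem ev_add (D : ℕ) (e : Option ℂ) (f g : ℂ[X]) : ev D e (f + g) = ev D e f + ev D e g := by
  cases e <;> simp [ev]

theorem ev_C_mul (D : ℕ) (e : Option ℂ) (c : ℂ) (f : ℂ[X]) : ev D e (C c * f) = c * ev D e f := by
  cases e <;> simp [ev]

theorem ev_sum {ι : Type} (s : Finset ι) (D : ℕ) (e : Option ℂ) (f : ι → ℂ[X]) :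
    ev D e (∑ i ∈ s, f i) = ∑ i ∈ s, ev D e (f i) := by
  cases e with
  | none => simp [ev, finsetSum_coeff]
  | some z => simp [ev, eval_finsetSum]

theorem res_factor {D : ℕ} {g : ℂ[X]} (hg : g.natDegree ≤ D) (hg0 : g ≠ 0) :
    ∃ (a : ℂ) (ε : Fin D → Option ℂ), a ≠ 0 ∧
      (∀ f : ℂ[X], f.natDegree ≤ D → resultant f g D D = a * ∏ i, ev D (ε i) f) ∧
      ∀ z, g.eval z = 0 → ∃ i, ε i = some z := by
  classical
  set k := D - g.natDegree with hk
  have hkD : g.natDegree + k = D := by omega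
  set m : Multiset (Option ℂ) := g.roots.map some + Multiset.replicate k none with hm
  have hsp : g.Splits := IsAlgClosed.splits g
  have hcard : Multiset.card m = D := by
    rw [hm, Multiset.card_add, Multiset.card_map, Multiset.card_replicate,
      ← hsp.natDegree_eq_card_roots, hkD]
  obtain ⟨ε, hε⟩ : ∃ ε : Fin D → Option ℂ, Multiset.map ε Finset.univ.val = m := by
    have hl : m.toList.length = D := by rw [Multiset.length_toList, hcard]
    refine ⟨fun i => m.toList.get (Fin.cast hl.symm i), ?_⟩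
    have h1 : Multiset.map (fun i : Fin D => m.toList.get (Fin.cast hl.symm i)) Finset.univ.val
        = (List.ofFn fun i : Fin D => m.toList.get (Fin.cast hl.symm i) : Multiset (Option ℂ)) := by
      rw [Fin.univ_val_map]
    rw [h1]
    have h2 : (List.ofFn fun i : Fin D => m.toList.get (Fin.cast hl.symm i)) = m.toList := by
      refine List.ext_get (by simp [hl]) fun i h1 h2 => ?_
      simp
    rw [h2, Multiset.coe_toList]
  refine ⟨(-1) ^ (D * g.natDegree) * g.leadingCoeff ^ D, ε, ?_, fun f hf => ?_, fun z hz => ?_⟩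
  · exact mul_ne_zero (pow_ne_zero _ (by norm_num)) (pow_ne_zero _ (leadingCoeff_ne_zero.2 hg0))
  · have h1 : ∏ i, ev D (ε i) f = (m.map fun e => ev D e f).prod := by
      rw [← hε, Multiset.map_map]
      rfl
    have h2 : (m.map fun e => ev D e f).prod = (g.roots.map f.eval).prod * f.coeff D ^ k := by
      rw [hm, Multiset.map_add, Multiset.prod_add, Multiset.map_map, Multiset.map_replicate,
        Multiset.prod_replicate]
      rfl
    have h3 : resultant f g D D = f.coeff D ^ k * resultant f g D g.natDegree := by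
      have := resultant_add_right_deg f g D g.natDegree k le_rfl
      rwa [hkD] at this
    have h4 : resultant f g D g.natDegree = (-1) ^ (D * g.natDegree) *
        (g.leadingCoeff ^ D * (g.roots.map f.eval).prod) := by
      rw [resultant_comm, resultant_eq_prod_eval g f D hf hsp]
    rw [h1, h2, h3, h4]
    ring
  · have h1 : some z ∈ m := by
      rw [hm, Multiset.mem_add]
      left
      exact Multiset.mem_map_of_mem _ ((mem_roots hg0).2 hz)
    rw [← hε] at h1
    obtain ⟨i, -, hi⟩ := Multiset.mem_map.1 h1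
    exact ⟨i, hi⟩

/-- `Res` is, up to sign, symmetric -/
theorem res_symm (f g : ℂ[X]) (D : ℕ) : ‖resultant f g D D‖ = ‖resultant g f D D‖ := by
  rw [resultant_comm, norm_mul, norm_pow, norm_neg, norm_one, one_pow, one_mul]

theorem res_zero_right {f : ℂ[X]} {D : ℕ} (hD : 0 < D) : resultant f 0 D D = 0 := by
  rw [resultant_zero_right, zero_pow hD.ne', zero_mul]

/-- invariance under `SL₂` -/
theorem res_SL2 {R : Type*} [Field R] (f g : R[X]) (D : ℕ) (hf : f.natDegree ≤ D)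
    (hg : g.natDegree ≤ D) (a b c d : R) (h : a * d - b * c = 1) :
    resultant (C a * f + C b * g) (C c * f + C d * g) D D = resultant f g D D := by
  have key : ∀ (f g : R[X]) (_ : f.natDegree ≤ D) (_ : g.natDegree ≤ D) (t : R),
      resultant f (g + f * C t) D D = resultant f g D D := by
    intro f g hf _ t
    exact resultant_add_mul_right f g (C t) D D (by simp) hf
  have key2 : ∀ (f g : R[X]) (_ : f.natDegree ≤ D) (_ : g.natDegree ≤ D) (t : R),
      resultant (f + g * C t) g D D = resultant f g D D := by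
    intro f g _ hg t
    exact resultant_add_mul_left f g (C t) D D (by simp) hg
  have hCf : ∀ (t : R), (C t * f).natDegree ≤ D := fun t => (natDegree_C_mul_le _ _).trans hf
  have hCg : ∀ (t : R), (C t * g).natDegree ≤ D := fun t => (natDegree_C_mul_le _ _).trans hg
  by_cases ha : a = 0
  · -- `b c = -1`
    subst ha
    have hbc : b * c = -1 := by linear_combination -h
    have hb : b ≠ 0 := by rintro rfl; simp at hbc
    have hc : c ≠ 0 := by rintro rfl; simp at hbc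
    have e1 : C c * f + C d * g = C c * f + (C b * g) * C (d / b) := by
      rw [mul_comm (C b * g), ← mul_assoc, ← C_mul, div_mul_cancel₀ d hb]
    rw [C_0, zero_mul, zero_add, e1, key _ _ (hCg b) (hCf c)]
    rw [resultant_C_mul_left, resultant_C_mul_right, resultant_comm]
    have h2 : b ^ D * (c ^ D * ((-1) ^ (D * D) * resultant f g D D))
        = (b * c) ^ D * (-1) ^ (D * D) * resultant f g D D := by rw [mul_pow]; ring
    rw [h2, hbc, ← pow_add]
    have h3 : Even (D + D * D) := by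
      have : D + D * D = D * (D + 1) := by ring
      rw [this]
      exact Nat.even_mul_succ_self D
    rw [h3.neg_one_pow, one_mul]
  · have hd : d = (1 + b * c) / a := by
      rw [eq_div_iff ha]; linear_combination h
    have hF : (C a * f + C b * g).natDegree ≤ D :=
      (natDegree_add_le _ _).trans (max_le (hCf a) (hCg b))
    have e1 : C c * f + C d * g = C a⁻¹ * g + (C a * f + C b * g) * C (c / a) := by
      have e2 : (C a * f + C b * g) * C (c / a) = C c * f + C (b * (c / a)) * g := by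
        rw [add_mul, mul_comm (C a * f), ← mul_assoc, ← C_mul, div_mul_cancel₀ c ha,
          mul_comm (C b * g), ← mul_assoc, ← C_mul, mul_comm (c / a) b]
      rw [e2, hd]
      have e3 : (1 + b * c) / a = a⁻¹ + b * (c / a) := by field_simp
      rw [e3, C_add]
      ring
    have hG : (C a⁻¹ * g).natDegree ≤ D := hCg _
    rw [e1, key _ _ hF hG]
    have e4 : C a * f + C b * g = C a * f + (C a⁻¹ * g) * C (a * b) := by
      rw [mul_comm (C a⁻¹ * g), ← mul_assoc, ← C_mul]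
      congr 3
      field_simp
    rw [e4, key2 _ _ (hCf a) hG, resultant_C_mul_left, resultant_C_mul_right, ← mul_assoc,
      ← mul_pow, mul_inv_cancel₀ ha, one_pow, one_mul]

/-- Cauchy's estimate for the coefficients of a polynomial -/
theorem coeff_bound (r : ℂ[X]) {R B : ℝ} (hR : 0 < R) (h : ∀ w : ℂ, ‖w‖ = R → ‖r.eval w‖ ≤ B)
    (j : ℕ) : ‖r.coeff j‖ * R ^ j ≤ B := by
  have h1 : ∀ (n : ℕ), iteratedDeriv n (fun z => r.eval z) =
      fun z => ((derivative^[n]) r).eval z := by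
    intro n
    induction n with
    | zero => simp
    | succ n ih =>
      rw [iteratedDeriv_succ, ih, Function.iterate_succ_apply']
      funext z
      exact Polynomial.deriv _
  have h2 := Complex.norm_iteratedDeriv_le_of_forall_mem_sphere_norm_le (c := (0 : ℂ)) (R := R)
    (C := B) (f := fun z => r.eval z) j hR
    (r.differentiable.diffContOnCl) (fun z hz => h z (by simpa using hz))
  rw [h1 j] at h2
  have h3 : ((derivative^[j]) r).eval 0 = (j.factorial : ℂ) * r.coeff j := by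
    rw [← coeff_zero_eq_eval_zero, coeff_iterate_derivative]
    simp [Nat.descFactorial_self]
  simp only [h3] at h2
  rw [norm_mul, Complex.norm_natCast] at h2
  have hf : (0 : ℝ) < j.factorial := by exact_mod_cast j.factorial_pos
  have h4 : ‖r.coeff j‖ ≤ B / R ^ j := by
    have h5 : (j.factorial : ℝ) * ‖r.coeff j‖ ≤ (j.factorial : ℝ) * (B / R ^ j) := by
      rw [mul_div_assoc] at h2
      exact h2
    exact le_of_mul_le_mul_left h5 hf
  rwa [le_div_iff₀ (by positivity)] at h4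

/-! ### the resultant polynomial in `w` -/

section Resw

variable {G : Type*} [CommRing G] [Algebra ℂ G] {κ κP κQ : Type} [Fintype κ] [Fintype κP]
  [Fintype κQ]

/-- `∑ l_k F_k` -/
def lin (l : κ → ℂ) (F : κ → G[X]) : G[X] := ∑ k, C (algebraMap ℂ G (l k)) * F k

/-- `l' · Q + w l'' · P` as a polynomial over `G[w]` -/
def lw (P : κP → G[X]) (Q : κQ → G[X]) (l : κQ ⊕ κP → ℂ) : G[X][X] :=
  (lin (fun c => l (Sum.inl c)) Q).map C + C X * (lin (fun b => l (Sum.inr b)) P).map C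

/-- the resultant as a polynomial in `w` -/
def resw (D : ℕ) (P : κP → G[X]) (Q : κQ → G[X]) (l0 l1 : κQ ⊕ κP → ℂ) : G[X] :=
  resultant (lw P Q l0) (lw P Q l1) D D

theorem lin_map {G' : Type*} [CommRing G'] [Algebra ℂ G'] (φ : G →ₐ[ℂ] G') (l : κ → ℂ)
    (F : κ → G[X]) :
    (lin l F).map (φ : G →+* G') = lin l (fun k => (F k).map (φ : G →+* G')) := by
  unfold lin
  rw [Polynomial.map_sum]
  refine Finset.sum_congr rfl fun k _ => ?_
  rw [Polynomial.map_mul, Polynomial.map_C]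
  simp

theorem resw_map {G' : Type*} [CommRing G'] [Algebra ℂ G'] (φ : G →ₐ[ℂ] G') (D : ℕ)
    (P : κP → G[X]) (Q : κQ → G[X]) (l0 l1 : κQ ⊕ κP → ℂ) :
    (resw D P Q l0 l1).map (φ : G →+* G') =
      resw D (fun b => (P b).map (φ : G →+* G')) (fun c => (Q c).map (φ : G →+* G')) l0 l1 := by
  have h : ∀ l, (lw P Q l).map (mapRingHom (φ : G →+* G')) =
      lw (fun b => (P b).map (φ : G →+* G')) (fun c => (Q c).map (φ : G →+* G')) l := by
    intro l
    unfold lw
    rw [Polynomial.map_add, Polynomial.map_mul, Polynomial.map_C, Polynomial.map_map,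
      Polynomial.map_map, ← lin_map φ, ← lin_map φ, Polynomial.map_map, Polynomial.map_map]
    have e1 : (mapRingHom (φ : G →+* G')).comp C = (C : G' →+* G'[X]).comp (φ : G →+* G') := by
      ext x; simp
    rw [e1]
    simp
  unfold resw
  rw [← h, ← h, resultant_map_map]
  rfl

theorem resw_eval (D : ℕ) (P : κP → ℂ[X]) (Q : κQ → ℂ[X]) (l0 l1 : κQ ⊕ κP → ℂ) (w : ℂ) :
    (resw D P Q l0 l1).eval w = resultant
      (lin (fun c => l0 (Sum.inl c)) Q + C w * lin (fun b => l0 (Sum.inr b)) P)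
      (lin (fun c => l1 (Sum.inl c)) Q + C w * lin (fun b => l1 (Sum.inr b)) P) D D := by
  have h : ∀ l, (lw P Q l).map (evalRingHom w) =
      lin (fun c => l (Sum.inl c)) Q + C w * lin (fun b => l (Sum.inr b)) P := by
    intro l
    unfold lw
    rw [Polynomial.map_add, Polynomial.map_mul, Polynomial.map_C, Polynomial.map_map,
      Polynomial.map_map]
    have e1 : (evalRingHom w).comp (C : ℂ →+* ℂ[X]) = RingHom.id ℂ := by ext x; simp
    rw [e1, Polynomial.map_id, Polynomial.map_id]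
    simp
  unfold resw
  rw [← h, ← h, resultant_map_map]
  rfl

theorem resw_natDegree (D : ℕ) (P : κP → G[X]) (Q : κQ → G[X]) (l0 l1 : κQ ⊕ κP → ℂ) :
    (resw D P Q l0 l1).natDegree ≤ D + D := by
  set f0 := lin (fun c => l0 (Sum.inl c)) Q
  set f1 := lin (fun b => l0 (Sum.inr b)) P
  set g0 := lin (fun c => l1 (Sum.inl c)) Q
  set g1 := lin (fun b => l1 (Sum.inr b)) P
  have h : sylvester (lw P Q l0) (lw P Q l1) D D =
      (X : G[X]) • (sylvester f1 g1 D D).map C + (sylvester f0 g0 D D).map C := by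
    ext i j : 2
    refine Fin.addCases (fun j => ?_) (fun j => ?_) j
    · simp only [sylvester, Matrix.of_apply, Matrix.add_apply, Matrix.smul_apply, Matrix.map_apply,
        Fin.addCases_left]
      split_ifs
      · simp only [lw, coeff_add, coeff_C_mul, coeff_map, smul_eq_mul]
        rw [add_comm]
      · simp
    · simp only [sylvester, Matrix.of_apply, Matrix.add_apply, Matrix.smul_apply, Matrix.map_apply,
        Fin.addCases_right]
      split_ifs
      · simp only [lw, coeff_add, coeff_C_mul, coeff_map, smul_eq_mul]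
        rw [add_comm]
      · simp
  unfold resw resultant
  rw [h]
  refine (natDegree_det_X_add_C_le _ _).trans ?_
  simp

end Resw

/-! ### the main estimate -/

section Main

variable {κ κP κQ : Type} [Fintype κ] [Fintype κP] [Fintype κQ] {D : ℕ}

/-- the vector of values of a family -/
def evv (D : ℕ) (e : Option ℂ) (F : κ → ℂ[X]) : κ → ℂ := fun k => ev D e (F k)

theorem ev_lin (e : Option ℂ) (l : κ → ℂ) (F : κ → ℂ[X]) :
    ev D e (lin l F) = dot l (evv D e F) := by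
  unfold lin dot evv
  rw [ev_sum]
  exact Finset.sum_congr rfl fun k _ => ev_C_mul D e _ _

theorem lin_natDegree {l : κ → ℂ} {F : κ → ℂ[X]} (hF : ∀ k, (F k).natDegree ≤ D) :
    (lin l F).natDegree ≤ D := by
  unfold lin
  exact natDegree_sum_le_of_forall_le _ _ fun k _ => (natDegree_C_mul_le _ _).trans (hF k)

/-- half of the comparison: replace the first argument by a sample form in `Q` -/
theorem half_up (hD : 0 < D) {Q : κQ → ℂ[X]} {S' : Finset (κQ → ℂ)} {c : ℝ} (hc : 0 < c)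
    (hS' : S'.Nonempty)
    (hS : ∀ ξ : Fin D → κQ → ℂ, ∃ l ∈ S', ∀ i, c * ‖ξ i‖ ≤ ‖dot l (ξ i)‖)
    (hQ : ∀ k, (Q k).natDegree ≤ D)
    {f g : ℂ[X]} (hf : f.natDegree ≤ D) (hg : g.natDegree ≤ D) {B : ℝ} (hB : 0 ≤ B)
    (hfB : ∀ e, ‖ev D e f‖ ≤ B * ‖evv D e Q‖) :
    ∃ s ∈ S', ‖resultant f g D D‖ ≤ (B / c) ^ D * ‖resultant (lin s Q) g D D‖ := by
  by_cases hg0 : g = 0
  · obtain ⟨s, hs⟩ := hS'
    refine ⟨s, hs, ?_⟩
    rw [hg0, res_zero_right hD, norm_zero]
    positivity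
  obtain ⟨a, ε, ha, hfac, -⟩ := res_factor hg hg0
  obtain ⟨s, hs, hsi⟩ := hS fun i => evv D (ε i) Q
  refine ⟨s, hs, ?_⟩
  rw [hfac f hf, hfac _ (lin_natDegree hQ), norm_mul, norm_mul, mul_left_comm]
  refine mul_le_mul_of_nonneg_left ?_ (norm_nonneg a)
  rw [norm_prod, norm_prod]
  have h1 : (B / c) ^ D = ∏ _i : Fin D, (B / c) := by
    rw [Finset.prod_const, Finset.card_univ, Fintype.card_fin]
  rw [h1, ← Finset.prod_mul_distrib]
  refine Finset.prod_le_prod (fun _ _ => norm_nonneg _) fun i _ => ?_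
  refine (hfB (ε i)).trans ?_
  rw [ev_lin, div_mul_eq_mul_div, le_div_iff₀ hc]
  calc B * ‖evv D (ε i) Q‖ * c = B * (c * ‖evv D (ε i) Q‖) := by ring
    _ ≤ B * ‖dot s (evv D (ε i) Q)‖ := mul_le_mul_of_nonneg_left (hsi i) hB

/-- both arguments -/
theorem full_up (hD : 0 < D) {Q : κQ → ℂ[X]} {S' : Finset (κQ → ℂ)} {c : ℝ} (hc : 0 < c)
    (hS' : S'.Nonempty)
    (hS : ∀ ξ : Fin D → κQ → ℂ, ∃ l ∈ S', ∀ i, c * ‖ξ i‖ ≤ ‖dot l (ξ i)‖)
    (hQ : ∀ k, (Q k).natDegree ≤ D)
    {f g : ℂ[X]} (hf : f.natDegree ≤ D) (hg : g.natDegree ≤ D) {B B' : ℝ} (hB : 0 ≤ B)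
    (hB' : 0 ≤ B')
    (hfB : ∀ e, ‖ev D e f‖ ≤ B * ‖evv D e Q‖) (hgB : ∀ e, ‖ev D e g‖ ≤ B' * ‖evv D e Q‖) :
    ∃ s ∈ S', ∃ s' ∈ S', ‖resultant f g D D‖ ≤
      (B / c) ^ D * ((B' / c) ^ D * ‖resultant (lin s Q) (lin s' Q) D D‖) := by
  obtain ⟨s, hs, h1⟩ := half_up hD hc hS' hS hQ hf hg hB hfB
  obtain ⟨s', hs', h2⟩ := half_up hD hc hS' hS hQ hg (lin_natDegree hQ (l := s)) hB' hgB
  refine ⟨s, hs, s', hs', h1.trans (mul_le_mul_of_nonneg_left ?_ (by positivity))⟩
  rw [res_symm, res_symm (lin s Q)]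
  exact h2

/-- a unitary change of two forms after which the second one vanishes at a given point -/
theorem sl2_adjust (hD : 0 < D) {f0 f1 : ℂ[X]} (hf0d : f0.natDegree ≤ D)
    (hf1d : f1.natDegree ≤ D) (hres : resultant f0 f1 D D ≠ 0) (z0 : ℂ) :
    ∃ a b c d : ℂ, ‖a‖ ≤ 1 ∧ ‖b‖ ≤ 1 ∧ ‖c‖ ≤ 1 ∧ ‖d‖ ≤ 1 ∧ a * d - b * c = 1 ∧
      (C c * f0 + C d * f1).eval z0 = 0 := by
  have hf1ne : f1 ≠ 0 := by
    intro h0
    rw [h0, res_zero_right hD] at hres
    exact hres rfl
  obtain ⟨x0, hx0⟩ : ∃ x0, f0.eval z0 = x0 := ⟨_, rfl⟩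
  obtain ⟨x1, hx1⟩ : ∃ x1, f1.eval z0 = x1 := ⟨_, rfl⟩
  have hx : 0 < ‖x0‖ ^ 2 + ‖x1‖ ^ 2 := by
    by_contra hcon
    have h1 : ‖x0‖ ^ 2 + ‖x1‖ ^ 2 ≤ 0 := not_lt.1 hcon
    have h2 : ‖x0‖ ^ 2 = 0 := le_antisymm (by linarith [sq_nonneg ‖x1‖]) (sq_nonneg _)
    have h3 : ‖x1‖ ^ 2 = 0 := le_antisymm (by linarith [sq_nonneg ‖x0‖]) (sq_nonneg _)
    rw [sq_eq_zero_iff, norm_eq_zero] at h2 h3
    obtain ⟨a, ε, ha, hfac, hroot⟩ := res_factor hf1d hf1ne
    obtain ⟨i, hi⟩ := hroot z0 (hx1.trans h3)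
    apply hres
    rw [hfac f0 hf0d]
    refine mul_eq_zero_of_right _ (Finset.prod_eq_zero (Finset.mem_univ i) ?_)
    rw [hi]
    exact hx0.trans h2
  obtain ⟨N, hN⟩ : ∃ N : ℝ, Real.sqrt (‖x0‖ ^ 2 + ‖x1‖ ^ 2) = N := ⟨_, rfl⟩
  have hNp : 0 < N := hN ▸ Real.sqrt_pos.2 hx
  have hN2 : N * N = ‖x0‖ ^ 2 + ‖x1‖ ^ 2 := hN ▸ Real.mul_self_sqrt hx.le
  have hx0N : ‖x0‖ ≤ N := by
    rw [← hN]
    refine Real.le_sqrt_of_sq_le ?_
    linarith [sq_nonneg ‖x1‖]
  have hx1N : ‖x1‖ ≤ N := by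
    rw [← hN]
    refine Real.le_sqrt_of_sq_le ?_
    linarith [sq_nonneg ‖x0‖]
  have hNc : (N : ℂ) ≠ 0 := by exact_mod_cast hNp.ne'
  have hn : ∀ y : ℂ, ‖y‖ ≤ N → ‖y / N‖ ≤ 1 := by
    intro y hy
    rw [norm_div, Complex.norm_real, Real.norm_of_nonneg hNp.le, div_le_one hNp]
    exact hy
  refine ⟨(starRingEnd ℂ) x0 / N, (starRingEnd ℂ) x1 / N, -x1 / N, x0 / N,
    hn _ (by rw [Complex.norm_conj]; exact hx0N), hn _ (by rw [Complex.norm_conj]; exact hx1N),
    hn _ (by rw [norm_neg]; exact hx1N), hn _ hx0N, ?_, ?_⟩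
  · have e1 : (starRingEnd ℂ) x0 * x0 + (starRingEnd ℂ) x1 * x1 = (N : ℂ) * N := by
      rw [Complex.conj_mul', Complex.conj_mul', ← Complex.ofReal_mul, hN2]
      push_cast
      ring
    field_simp
    linear_combination e1
  · rw [eval_add, eval_mul, eval_mul, eval_C, eval_C, hx0, hx1]
    ring

set_option maxHeartbeats 4000000 in
/-- **Lemma U, one variable step.** -/
theorem sup_res (hD : 0 < D) (κP κQ : Type) [Fintype κP] [Fintype κQ] :
    ∃ (S : Finset (κQ ⊕ κP → ℂ)) (K : ℝ), 0 < K ∧ ∀ (P : κP → ℂ[X]) (Q : κQ → ℂ[X]) (M : ℝ),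
      (∀ b, (P b).natDegree ≤ D) → (∀ k, (Q k).natDegree ≤ D) → 0 < M →
      (∀ e, evv D e Q ≠ 0) → (∀ e, ‖evv D e P‖ ≤ M * ‖evv D e Q‖) →
      (∃ z : ℂ, M * ‖evv D (some z) Q‖ ≤ 2 * ‖evv D (some z) P‖) →
      ∃ ρ : ℝ, 0 < ρ ∧ (∀ l0 ∈ S, ∀ l1 ∈ S, ‖(resw D P Q l0 l1).coeff 0‖ ≤ ρ) ∧
        (∃ l0 ∈ S, ∃ l1 ∈ S, ρ ≤ ‖(resw D P Q l0 l1).coeff 0‖) ∧
        (∀ l0 ∈ S, ∀ l1 ∈ S, ∀ j, ‖(resw D P Q l0 l1).coeff j‖ ≤ K * M ^ j * ρ) ∧
        ∃ l0 ∈ S, ∃ l1 ∈ S, ∃ j, 1 ≤ j ∧ j ≤ D + D ∧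
          M ^ j * ρ ≤ K * ‖(resw D P Q l0 l1).coeff j‖ := by
  classical
  obtain ⟨S1, c1, hS1n, hc1, hS1⟩ := forms_exist (κQ ⊕ κP) D
  obtain ⟨S', c, hS'n, hc, hS'⟩ := forms_exist κQ D
  set emb : (κQ → ℂ) → (κQ ⊕ κP → ℂ) := fun s => Sum.elim s 0 with hemb
  set S : Finset (κQ ⊕ κP → ℂ) := S1 ∪ S'.image emb with hSdef
  have hembS : ∀ s ∈ S', emb s ∈ S := fun s hs =>
    Finset.mem_union_right _ (Finset.mem_image_of_mem _ hs)
  -- bound of the forms
  set B : ℝ := 1 + ∑ l ∈ S, ∑ k, ‖l k‖ with hB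
  have hBl : ∀ l ∈ S, ∑ k, ‖l k‖ ≤ B := by
    intro l hl
    have : ∑ k, ‖l k‖ ≤ ∑ l ∈ S, ∑ k, ‖l k‖ :=
      Finset.single_le_sum (f := fun l : κQ ⊕ κP → ℂ => ∑ k, ‖l k‖)
      (fun l _ => Finset.sum_nonneg fun _ _ => norm_nonneg _) hl
    linarith
  have hB1 : 1 ≤ B := by
    have : 0 ≤ ∑ l ∈ S, ∑ k, ‖l k‖ :=
      Finset.sum_nonneg fun _ _ => Finset.sum_nonneg fun _ _ => norm_nonneg _
    linarith
  have hBQ : ∀ l ∈ S, ∑ k, ‖l (Sum.inl k)‖ ≤ B := by
    intro l hl
    refine le_trans ?_ (hBl l hl)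
    rw [Fintype.sum_sum_type]
    have : 0 ≤ ∑ k, ‖l (Sum.inr k)‖ := Finset.sum_nonneg fun _ _ => norm_nonneg _
    linarith
  have hBP : ∀ l ∈ S, ∑ k, ‖l (Sum.inr k)‖ ≤ B := by
    intro l hl
    refine le_trans ?_ (hBl l hl)
    rw [Fintype.sum_sum_type]
    have : 0 ≤ ∑ k, ‖l (Sum.inl k)‖ := Finset.sum_nonneg fun _ _ => norm_nonneg _
    linarith
  have hBs : ∀ s ∈ S', ∑ k, ‖s k‖ ≤ B := by
    intro s hs
    have := hBQ _ (hembS s hs)
    simpa [hemb] using this
  -- constants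
  set C4 : ℝ := (B / c) ^ D * (B / c) ^ D with hC4
  set C1 : ℝ := (2 * B / c) ^ D * (2 * B / c) ^ D with hC1
  set c3 : ℝ := (c / (2 * B)) ^ D * (c1 ^ D * (1 / 2) * (1 / (2 * B)) ^ D) with hc3
  have hB0 : 0 < B := by linarith
  have hC4p : 0 < C4 := by positivity
  have hC1p : 0 < C1 := by positivity
  have hc3p : 0 < c3 := by positivity
  set R : ℝ := (C4 + 1) / c3 + 2 with hR
  have hR2 : 2 ≤ R := by
    have : 0 ≤ (C4 + 1) / c3 := by positivity
    linarith
  have hR0 : 0 < R := by linarith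
  refine ⟨S, C1 + ((D + D : ℕ) : ℝ) * R ^ (D + D) * C4 + 1, by positivity, ?_⟩
  intro P Q M hP hQ hM hne hle ⟨z0, hz0⟩
  -- the value at `w = 0`
  have hcoeff0 : ∀ l0 l1 : κQ ⊕ κP → ℂ, (resw D P Q l0 l1).coeff 0 =
      resultant (lin (fun k => l0 (Sum.inl k)) Q) (lin (fun k => l1 (Sum.inl k)) Q) D D := by
    intro l0 l1
    rw [coeff_zero_eq_eval_zero, resw_eval, C_0, zero_mul, zero_mul, add_zero, add_zero]
  have hemb0 : ∀ s : κQ → ℂ, (fun k => emb s (Sum.inl k)) = s := fun s => rfl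
  -- `ρ'`
  obtain ⟨p, hp, hpmax⟩ := Finset.exists_max_image (S' ×ˢ S')
    (fun p => ‖resultant (lin p.1 Q) (lin p.2 Q) D D‖) (hS'n.product hS'n)
  obtain ⟨hp1, hp2⟩ := Finset.mem_product.1 hp
  set ρ' : ℝ := ‖resultant (lin p.1 Q) (lin p.2 Q) D D‖ with hρ'
  have hρ'le : ∀ s ∈ S', ∀ s' ∈ S', ‖resultant (lin s Q) (lin s' Q) D D‖ ≤ ρ' :=
    fun s hs s' hs' => hpmax (s, s') (Finset.mem_product.2 ⟨hs, hs'⟩)
  -- positivity of `ρ'`
  have hρ'pos : 0 < ρ' := by
    obtain ⟨s1, hs1, h1⟩ := hS' fun _ => evv D (some 0) Q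
    have hD0 : Fin D := ⟨0, hD⟩
    have h2 : lin s1 Q ≠ 0 := by
      intro h0
      have h3 := h1 hD0
      rw [← ev_lin, h0] at h3
      simp only [ev_some, eval_zero, norm_zero] at h3
      have h4 : 0 < ‖evv D (some 0) Q‖ := norm_pos_iff.2 (hne _)
      have : 0 < c * ‖evv D (some 0) Q‖ := by positivity
      linarith
    obtain ⟨a, ε, ha, hfac, -⟩ := res_factor (lin_natDegree hQ (l := s1)) h2
    obtain ⟨s0, hs0, h3⟩ := hS' fun i => evv D (ε i) Q
    have h4 : resultant (lin s0 Q) (lin s1 Q) D D ≠ 0 := by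
      rw [hfac _ (lin_natDegree hQ)]
      refine mul_ne_zero ha (Finset.prod_ne_zero_iff.2 fun i _ => ?_)
      rw [ev_lin]
      intro h0
      have h5 := h3 i
      rw [h0, norm_zero] at h5
      have h6 : 0 < ‖evv D (ε i) Q‖ := norm_pos_iff.2 (hne _)
      have : 0 < c * ‖evv D (ε i) Q‖ := by positivity
      linarith
    exact lt_of_lt_of_le (norm_pos_iff.2 h4) (hρ'le s0 hs0 s1 hs1)
  -- bound for forms in `Q`
  have hlinQ : ∀ (l : κQ → ℂ) (e : Option ℂ), ‖ev D e (lin l Q)‖ ≤ (∑ k, ‖l k‖) * ‖evv D e Q‖ :=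
    fun l e => by rw [ev_lin]; exact norm_dot_le _ _
  -- `ρ`
  have hSn : S.Nonempty := hS1n.mono Finset.subset_union_left
  obtain ⟨r, hr, hrmax⟩ := Finset.exists_max_image (S ×ˢ S)
    (fun p => ‖(resw D P Q p.1 p.2).coeff 0‖) (hSn.product hSn)
  obtain ⟨hr1, hr2⟩ := Finset.mem_product.1 hr
  set ρ : ℝ := ‖(resw D P Q r.1 r.2).coeff 0‖ with hρ
  have hρle : ∀ l0 ∈ S, ∀ l1 ∈ S, ‖(resw D P Q l0 l1).coeff 0‖ ≤ ρ :=
    fun l0 h0 l1 h1 => hrmax (l0, l1) (Finset.mem_product.2 ⟨h0, h1⟩)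
  have hρ'ρ : ρ' ≤ ρ := by
    have := hρle _ (hembS _ hp1) _ (hembS _ hp2)
    rw [hcoeff0, hemb0, hemb0] at this
    exact this
  have hρC4 : ρ ≤ C4 * ρ' := by
    rw [hρ, hcoeff0]
    obtain ⟨s, hs, s', hs', h1⟩ := full_up hD hc hS'n hS' hQ
      (lin_natDegree hQ (l := fun k => r.1 (Sum.inl k)))
      (lin_natDegree hQ (l := fun k => r.2 (Sum.inl k))) hB0.le hB0.le
      (fun e => (hlinQ _ e).trans (mul_le_mul_of_nonneg_right (hBQ _ hr1) (norm_nonneg _)))
      (fun e => (hlinQ _ e).trans (mul_le_mul_of_nonneg_right (hBQ _ hr2) (norm_nonneg _)))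
    refine h1.trans ?_
    rw [hC4, mul_assoc]
    exact mul_le_mul_of_nonneg_left (mul_le_mul_of_nonneg_left (hρ'le s hs s' hs')
      (by positivity)) (by positivity)
  have hρpos : 0 < ρ := lt_of_lt_of_le hρ'pos hρ'ρ
  have hdeg : ∀ (l : κQ ⊕ κP → ℂ) (w : ℂ), (lin (fun k => l (Sum.inl k)) Q +
      C w * lin (fun b => l (Sum.inr b)) P).natDegree ≤ D := fun l w =>
    (natDegree_add_le _ _).trans (max_le (lin_natDegree hQ)
      ((natDegree_C_mul_le _ _).trans (lin_natDegree hP)))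
  refine ⟨ρ, hρpos, hρle, ⟨r.1, hr1, r.2, hr2, le_refl _⟩, ?_, ?_⟩
  · -- upper bound
    intro l0 hl0 l1 hl1 j
    have hev : ∀ l ∈ S, ∀ w : ℂ, ‖w‖ = 1 / M → ∀ e, ‖ev D e (lin (fun k => l (Sum.inl k)) Q +
        C w * lin (fun b => l (Sum.inr b)) P)‖ ≤ (2 * B) * ‖evv D e Q‖ := by
      intro l hl w hw e
      rw [ev_add, ev_C_mul]
      refine (norm_add_le _ _).trans ?_
      have h1 : ‖ev D e (lin (fun k => l (Sum.inl k)) Q)‖ ≤ B * ‖evv D e Q‖ :=
        (hlinQ _ e).trans (mul_le_mul_of_nonneg_right (hBQ l hl) (norm_nonneg _))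
      have h2 : ‖ev D e (lin (fun b => l (Sum.inr b)) P)‖ ≤ B * (M * ‖evv D e Q‖) := by
        rw [ev_lin]
        refine (norm_dot_le _ _).trans ?_
        exact mul_le_mul (hBP l hl) (hle e) (norm_nonneg _) hB0.le
      rw [norm_mul, hw]
      calc ‖ev D e (lin (fun k => l (Sum.inl k)) Q)‖ +
            1 / M * ‖ev D e (lin (fun b => l (Sum.inr b)) P)‖
          ≤ B * ‖evv D e Q‖ + 1 / M * (B * (M * ‖evv D e Q‖)) :=
            add_le_add h1 (mul_le_mul_of_nonneg_left h2 (by positivity))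
        _ = (2 * B) * ‖evv D e Q‖ := by field_simp; ring
    have hb : ∀ w : ℂ, ‖w‖ = 1 / M → ‖(resw D P Q l0 l1).eval w‖ ≤ C1 * ρ' := by
      intro w hw
      rw [resw_eval]
      obtain ⟨s, hs, s', hs', h1⟩ := full_up hD hc hS'n hS' hQ (hdeg l0 w) (hdeg l1 w)
        (by positivity : (0 : ℝ) ≤ 2 * B) (by positivity : (0 : ℝ) ≤ 2 * B)
        (hev l0 hl0 w hw) (hev l1 hl1 w hw)
      refine h1.trans ?_
      rw [hC1, mul_assoc]
      exact mul_le_mul_of_nonneg_left (mul_le_mul_of_nonneg_left (hρ'le s hs s' hs')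
        (by positivity)) (by positivity)
    have h3 := coeff_bound (resw D P Q l0 l1) (by positivity : 0 < 1 / M) hb j
    have h4 : ‖(resw D P Q l0 l1).coeff j‖ ≤ C1 * ρ' * M ^ j := by
      rw [one_div, inv_pow] at h3
      have hMj : 0 < M ^ j := by positivity
      calc ‖(resw D P Q l0 l1).coeff j‖
          = ‖(resw D P Q l0 l1).coeff j‖ * (M ^ j)⁻¹ * M ^ j := by field_simp
        _ ≤ C1 * ρ' * M ^ j := mul_le_mul_of_nonneg_right h3 hMj.le
    refine h4.trans ?_
    have h5 : C1 * ρ' * M ^ j ≤ C1 * M ^ j * ρ := by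
      have : C1 * ρ' * M ^ j = C1 * M ^ j * ρ' := by ring
      rw [this]
      exact mul_le_mul_of_nonneg_left hρ'ρ (by positivity)
    refine h5.trans ?_
    refine mul_le_mul_of_nonneg_right (mul_le_mul_of_nonneg_right ?_ (by positivity)) hρpos.le
    have : 0 ≤ ((D + D : ℕ) : ℝ) * R ^ (D + D) * C4 := by positivity
    linarith
  · -- lower bound
    set f0 := lin p.1 Q with hf0
    set f1 := lin p.2 Q with hf1
    have hf0d : f0.natDegree ≤ D := lin_natDegree hQ
    have hf1d : f1.natDegree ≤ D := lin_natDegree hQ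
    have hres : resultant f0 f1 D D ≠ 0 := norm_pos_iff.1 hρ'pos
    have hf1ne : f1 ≠ 0 := by
      intro h0
      rw [h0, res_zero_right hD] at hres
      exact hres rfl
    obtain ⟨a, b, c', d, hna, hnb, hnc, hnd, hdet, hF1z⟩ :=
      sl2_adjust hD hf0d hf1d hres z0
    set F0 := C a * f0 + C b * f1 with hF0
    set F1 := C c' * f0 + C d * f1 with hF1
    have hF0d : F0.natDegree ≤ D := (natDegree_add_le _ _).trans
      (max_le ((natDegree_C_mul_le _ _).trans hf0d) ((natDegree_C_mul_le _ _).trans hf1d))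
    have hF1d : F1.natDegree ≤ D := (natDegree_add_le _ _).trans
      (max_le ((natDegree_C_mul_le _ _).trans hf0d) ((natDegree_C_mul_le _ _).trans hf1d))
    have hresF : resultant F0 F1 D D = resultant f0 f1 D D :=
      res_SL2 f0 f1 D hf0d hf1d a b c' d hdet
    have hF1ne : F1 ≠ 0 := by
      intro h0
      rw [h0, res_zero_right hD] at hresF
      exact hres hresF.symm
    have hevf : ∀ (s : κQ → ℂ), s ∈ S' → ∀ e, ‖ev D e (lin s Q)‖ ≤ B * ‖evv D e Q‖ := fun s hs e =>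
      (hlinQ s e).trans (mul_le_mul_of_nonneg_right (hBs s hs) (norm_nonneg _))
    have hevF : ∀ (u v : ℂ), ‖u‖ ≤ 1 → ‖v‖ ≤ 1 → ∀ e, ‖ev D e (C u * f0 + C v * f1)‖ ≤
        (2 * B) * ‖evv D e Q‖ := by
      intro u v hu hv e
      rw [ev_add, ev_C_mul, ev_C_mul]
      refine (norm_add_le _ _).trans ?_
      rw [norm_mul, norm_mul]
      have h1 := hevf _ hp1 e
      have h2 := hevf _ hp2 e
      have h3 : ‖u‖ * ‖ev D e f0‖ ≤ 1 * (B * ‖evv D e Q‖) :=
        mul_le_mul hu h1 (norm_nonneg _) zero_le_one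
      have h4 : ‖v‖ * ‖ev D e f1‖ ≤ 1 * (B * ‖evv D e Q‖) :=
        mul_le_mul hv h2 (norm_nonneg _) zero_le_one
      linarith
    obtain ⟨a1, ε, ha1, hfac, hroot⟩ := res_factor hF1d hF1ne
    obtain ⟨i0, hi0⟩ := hroot z0 hF1z
    -- the parameter
    set w : ℂ := ((R / M : ℝ) : ℂ) with hw
    have hwn : ‖w‖ = R / M := by
      rw [hw, Complex.norm_real, Real.norm_of_nonneg (by positivity)]
    obtain ⟨l, hl, hli⟩ := hS1 fun i => Sum.elim (evv D (ε i) Q) (w • evv D (ε i) P)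
    have hlS : l ∈ S := Finset.mem_union_left _ hl
    set L : ℂ[X] := lin (fun k => l (Sum.inl k)) Q + C w * lin (fun b => l (Sum.inr b)) P with hL
    have hLd : L.natDegree ≤ D := hdeg l w
    have hLev : ∀ i, ev D (ε i) L =
        dot l (Sum.elim (evv D (ε i) Q) (w • evv D (ε i) P)) := by
      intro i
      rw [hL, ev_add, ev_C_mul, ev_lin, ev_lin]
      unfold dot
      rw [Fintype.sum_sum_type]
      simp only [Sum.elim_inl, Sum.elim_inr, Pi.smul_apply, smul_eq_mul, Finset.mul_sum]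
      congr 1
      exact Finset.sum_congr rfl fun k _ => by ring
    have hξQ : ∀ i, ‖evv D (ε i) Q‖ ≤ ‖(Sum.elim (evv D (ε i) Q) (w • evv D (ε i) P) :
        κQ ⊕ κP → ℂ)‖ := by
      intro i
      refine (pi_norm_le_iff_of_nonneg (norm_nonneg _)).2 fun k => ?_
      exact norm_le_pi_norm (Sum.elim (evv D (ε i) Q) (w • evv D (ε i) P) : κQ ⊕ κP → ℂ)
        (Sum.inl k)
    have hξP : ∀ i, ‖w‖ * ‖evv D (ε i) P‖ ≤ ‖(Sum.elim (evv D (ε i) Q) (w • evv D (ε i) P) :
        κQ ⊕ κP → ℂ)‖ := by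
      intro i
      rw [← norm_smul]
      refine (pi_norm_le_iff_of_nonneg (norm_nonneg _)).2 fun k => ?_
      exact norm_le_pi_norm (Sum.elim (evv D (ε i) Q) (w • evv D (ε i) P) : κQ ⊕ κP → ℂ)
        (Sum.inr k)
    have hevL : ∀ i, c1 * ‖evv D (ε i) Q‖ ≤ ‖ev D (ε i) L‖ := by
      intro i
      rw [hLev]
      exact (mul_le_mul_of_nonneg_left (hξQ i) hc1.le).trans (hli i)
    have hevL0 : c1 * (R / 2) * ‖evv D (ε i0) Q‖ ≤ ‖ev D (ε i0) L‖ := by
      rw [hLev]
      refine le_trans ?_ (hli i0)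
      rw [mul_assoc]
      refine mul_le_mul_of_nonneg_left (le_trans ?_ (hξP i0)) hc1.le
      rw [hi0, hwn]
      have h1 : R / 2 * ‖evv D (some z0) Q‖ = (R / (2 * M)) * (M * ‖evv D (some z0) Q‖) := by
        field_simp
      rw [h1]
      calc R / (2 * M) * (M * ‖evv D (some z0) Q‖)
          ≤ R / (2 * M) * (2 * ‖evv D (some z0) P‖) :=
            mul_le_mul_of_nonneg_left hz0 (by positivity)
        _ = R / M * ‖evv D (some z0) P‖ := by field_simp
    -- `|a₁| ∏ |Q(ε_i)|` is large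
    set Pq : ℝ := ∏ i, ‖evv D (ε i) Q‖ with hPq
    have hPq1 : ρ' ≤ ‖a1‖ * ((2 * B) ^ D * Pq) := by
      have h1 : ρ' = ‖a1‖ * ∏ i, ‖ev D (ε i) F0‖ := by
        rw [← norm_prod, ← norm_mul, ← hfac F0 hF0d, hresF]
      rw [h1]
      refine mul_le_mul_of_nonneg_left ?_ (norm_nonneg _)
      have h2 : (2 * B) ^ D = ∏ _i : Fin D, (2 * B) := by simp
      rw [hPq, h2, ← Finset.prod_mul_distrib]
      exact Finset.prod_le_prod (fun _ _ => norm_nonneg _) fun i _ => hevF a b hna hnb (ε i)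
    have hPq2 : c1 ^ D * (R / 2) * Pq ≤ ∏ i, ‖ev D (ε i) L‖ := by
      rw [hPq, ← Finset.mul_prod_erase Finset.univ _ (Finset.mem_univ i0),
        ← Finset.mul_prod_erase Finset.univ (fun i => ‖ev D (ε i) L‖) (Finset.mem_univ i0)]
      have h1 : ∏ i ∈ Finset.univ.erase i0, (c1 * ‖evv D (ε i) Q‖) ≤
          ∏ i ∈ Finset.univ.erase i0, ‖ev D (ε i) L‖ :=
        Finset.prod_le_prod (fun _ _ => by positivity) fun i _ => hevL i
      rw [Finset.prod_mul_distrib, Finset.prod_const] at h1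
      have hcard : (Finset.univ.erase i0).card = D - 1 := by
        rw [Finset.card_erase_of_mem (Finset.mem_univ i0)]
        simp
      rw [hcard] at h1
      have h2 : c1 ^ D = c1 * c1 ^ (D - 1) := by
        rw [← pow_succ', Nat.sub_add_cancel hD]
      have h3 := mul_le_mul hevL0 h1 (by positivity) (norm_nonneg _)
      refine le_trans (le_of_eq ?_) h3
      rw [h2]
      ring
    have hbig : c1 ^ D * (1 / 2) * (1 / (2 * B)) ^ D * (R * ρ') ≤ ‖resultant L F1 D D‖ := by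
      rw [hfac L hLd, norm_mul, norm_prod]
      have h1 : ‖a1‖ * (c1 ^ D * (R / 2) * Pq) ≤ ‖a1‖ * ∏ i, ‖ev D (ε i) L‖ :=
        mul_le_mul_of_nonneg_left hPq2 (norm_nonneg _)
      refine le_trans ?_ h1
      have h2 : (1 / (2 * B)) ^ D * ρ' ≤ ‖a1‖ * Pq := by
        have h3 : (1 / (2 * B)) ^ D * ρ' ≤ (1 / (2 * B)) ^ D * (‖a1‖ * ((2 * B) ^ D * Pq)) :=
          mul_le_mul_of_nonneg_left hPq1 (by positivity)
        refine h3.trans (le_of_eq ?_)
        have h4 : (1 / (2 * B)) ^ D * (2 * B) ^ D = 1 := by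
          rw [← mul_pow, one_div, inv_mul_cancel₀ (by positivity), one_pow]
        calc (1 / (2 * B)) ^ D * (‖a1‖ * ((2 * B) ^ D * Pq))
            = ((1 / (2 * B)) ^ D * (2 * B) ^ D) * (‖a1‖ * Pq) := by ring
          _ = ‖a1‖ * Pq := by rw [h4, one_mul]
      calc c1 ^ D * (1 / 2) * (1 / (2 * B)) ^ D * (R * ρ')
          = (c1 ^ D * (R / 2)) * ((1 / (2 * B)) ^ D * ρ') := by ring
        _ ≤ (c1 ^ D * (R / 2)) * (‖a1‖ * Pq) := mul_le_mul_of_nonneg_left h2 (by positivity)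
        _ = ‖a1‖ * (c1 ^ D * (R / 2) * Pq) := by ring
    -- replace `F1` by a sample form
    obtain ⟨s', hs', h5⟩ := half_up hD hc hS'n hS' hQ hF1d hLd (by positivity : (0 : ℝ) ≤ 2 * B)
      (hevF c' d hnc hnd)
    have h6 : c3 * (R * ρ') ≤ ‖resultant L (lin s' Q) D D‖ := by
      rw [res_symm F1 L, res_symm (lin s' Q) L] at h5
      have h7 := hbig.trans h5
      have h8 : (c / (2 * B)) ^ D * (2 * B / c) ^ D = 1 := by
        rw [← mul_pow]
        have : c / (2 * B) * (2 * B / c) = 1 := by field_simp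
        rw [this, one_pow]
      calc c3 * (R * ρ')
          = (c / (2 * B)) ^ D * (c1 ^ D * (1 / 2) * (1 / (2 * B)) ^ D * (R * ρ')) := by
            rw [hc3]; ring
        _ ≤ (c / (2 * B)) ^ D * ((2 * B / c) ^ D * ‖resultant L (lin s' Q) D D‖) :=
            mul_le_mul_of_nonneg_left h7 (by positivity)
        _ = ‖resultant L (lin s' Q) D D‖ := by rw [← mul_assoc, h8, one_mul]
    have h7 : (resw D P Q l (emb s')).eval w = resultant L (lin s' Q) D D := by
      rw [resw_eval]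
      have e1 : (fun k => emb s' (Sum.inl k)) = s' := rfl
      have e2 : lin (fun b => emb s' (Sum.inr b)) P = 0 := by
        unfold lin
        refine Finset.sum_eq_zero fun b _ => ?_
        simp [hemb]
      rw [e1, e2, mul_zero, add_zero]
    have h8 : (C4 + 1) * ρ' ≤ ‖(resw D P Q l (emb s')).eval w‖ := by
      rw [h7]
      refine le_trans ?_ h6
      have : c3 * R = C4 + 1 + 2 * c3 := by
        rw [hR]; field_simp
      calc (C4 + 1) * ρ' ≤ (C4 + 1 + 2 * c3) * ρ' := by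
            refine mul_le_mul_of_nonneg_right ?_ hρ'pos.le
            linarith
        _ = c3 * (R * ρ') := by rw [← this]; ring
    -- find the coefficient
    set q := resw D P Q l (emb s') with hq
    have hqd : q.natDegree < D + D + 1 := Nat.lt_succ_of_le (resw_natDegree D P Q l (emb s'))
    have h9 : q.eval w = ∑ j ∈ Finset.range (D + D + 1), q.coeff j * w ^ j :=
      eval_eq_sum_range' hqd w
    have h10 : ρ' ≤ ∑ j ∈ Finset.range (D + D), ‖q.coeff (j + 1)‖ * ‖w‖ ^ (j + 1) := by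
      have h11 : ‖q.eval w‖ ≤ ‖q.coeff 0‖ +
          ∑ j ∈ Finset.range (D + D), ‖q.coeff (j + 1)‖ * ‖w‖ ^ (j + 1) := by
        rw [h9, Finset.sum_range_succ']
        refine (norm_add_le _ _).trans ?_
        rw [add_comm]
        refine add_le_add (by simp) ((norm_sum_le _ _).trans (Finset.sum_le_sum fun j _ => ?_))
        rw [norm_mul, norm_pow]
      have h12 : ‖q.coeff 0‖ ≤ C4 * ρ' := (hρle l hlS _ (hembS s' hs')).trans hρC4
      linarith [h8.trans h11]
    have h13 : ∃ j ∈ Finset.range (D + D), ρ' / ((D + D : ℕ) : ℝ) ≤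
        ‖q.coeff (j + 1)‖ * ‖w‖ ^ (j + 1) := by
      by_contra hcon
      push Not at hcon
      have h14 : ∑ j ∈ Finset.range (D + D), ‖q.coeff (j + 1)‖ * ‖w‖ ^ (j + 1) <
          ∑ _j ∈ Finset.range (D + D), ρ' / ((D + D : ℕ) : ℝ) :=
        Finset.sum_lt_sum_of_nonempty (by simp; omega) hcon
      rw [Finset.sum_const, Finset.card_range, nsmul_eq_mul] at h14
      have h15 : ((D + D : ℕ) : ℝ) * (ρ' / ((D + D : ℕ) : ℝ)) = ρ' := by
        have : ((D + D : ℕ) : ℝ) ≠ 0 := by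
          have : 0 < D + D := by omega
          exact_mod_cast this.ne'
        field_simp
      rw [h15] at h14
      linarith
    obtain ⟨j, hj, hjle⟩ := h13
    refine ⟨l, hlS, emb s', hembS s' hs', j + 1, by omega, by
      have := Finset.mem_range.1 hj; omega, ?_⟩
    have hDD : (0 : ℝ) < ((D + D : ℕ) : ℝ) := by
      have : 0 < D + D := by omega
      exact_mod_cast this
    have h16 : M ^ (j + 1) * ρ' ≤ ((D + D : ℕ) : ℝ) * R ^ (D + D) * ‖q.coeff (j + 1)‖ := by
      rw [hwn, div_pow] at hjle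
      rw [div_le_iff₀ hDD] at hjle
      have hMj : 0 < M ^ (j + 1) := by positivity
      have hRj : R ^ (j + 1) ≤ R ^ (D + D) := pow_le_pow_right₀ (by linarith) (by
        have := Finset.mem_range.1 hj; omega)
      calc M ^ (j + 1) * ρ'
          ≤ M ^ (j + 1) * (‖q.coeff (j + 1)‖ * (R ^ (j + 1) / M ^ (j + 1)) *
              ((D + D : ℕ) : ℝ)) := mul_le_mul_of_nonneg_left hjle hMj.le
        _ = ((D + D : ℕ) : ℝ) * R ^ (j + 1) * ‖q.coeff (j + 1)‖ := by field_simp
        _ ≤ ((D + D : ℕ) : ℝ) * R ^ (D + D) * ‖q.coeff (j + 1)‖ :=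
            mul_le_mul_of_nonneg_right (mul_le_mul_of_nonneg_left hRj hDD.le) (norm_nonneg _)
    calc M ^ (j + 1) * ρ ≤ M ^ (j + 1) * (C4 * ρ') :=
          mul_le_mul_of_nonneg_left hρC4 (by positivity)
      _ = C4 * (M ^ (j + 1) * ρ') := by ring
      _ ≤ C4 * (((D + D : ℕ) : ℝ) * R ^ (D + D) * ‖q.coeff (j + 1)‖) :=
          mul_le_mul_of_nonneg_left h16 hC4p.le
      _ = (((D + D : ℕ) : ℝ) * R ^ (D + D) * C4) * ‖q.coeff (j + 1)‖ := by ring
      _ ≤ (C1 + ((D + D : ℕ) : ℝ) * R ^ (D + D) * C4 + 1) * ‖q.coeff (j + 1)‖ := by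
          refine mul_le_mul_of_nonneg_right ?_ (norm_nonneg _)
          linarith

end Main

end

end Crest.Agent.R273.Res_145
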