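import Mathlib
import Crest.Agent.R273.Res_145

/-!
# Lemma U2 in terms of polynomials in the coefficients (helper145, row 273)

`U2`: for vectors of polynomials `P`, `Q` in one variable `z` (formal degree `D`, `Q` without zero
on the projective line) the number `sup_z ‖P z‖ / ‖Q z‖` is, up to constants and to a power `E`,
the quotient of the norms of two finite families of polynomials in the coefficients of `P`, `Q`.
-/

namespace Crest.Agent.R273.U2_145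

open Polynomial Crest.Agent.R273.Res_145

noncomputable section

variable {κP κQ : Type} [Fintype κP] [Fintype κQ] {D : ℕ}

/-! ### the ratio on `ℙ¹` -/

theorem refl_eval {κ : Type} (F : κ → ℂ[X]) (hF : ∀ k, (F k).natDegree ≤ D) {z : ℂ} (hz : z ≠ 0) :
    (fun k => (F k).eval z) = fun k => (reflect D (F k)).eval z⁻¹ * z ^ D := by
  funext k
  have : Invertible z := invertibleOfNonzero hz
  have := eval₂_reflect_mul_pow (RingHom.id ℂ) z D (F k) (hF k)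
  rw [← eval₂_id, ← eval₂_id, ← this]
  simp

theorem norm_refl {κ : Type} [Fintype κ] (F : κ → ℂ[X]) (hF : ∀ k, (F k).natDegree ≤ D) {z : ℂ}
    (hz : z ≠ 0) :
    ‖evv D (some z) F‖ = ‖z‖ ^ D * ‖fun k => (reflect D (F k)).eval z⁻¹‖ := by
  have h : evv D (some z) F = (z ^ D) • fun k => (reflect D (F k)).eval z⁻¹ := by
    have := refl_eval F hF hz
    unfold evv
    simp only [ev_some]
    rw [this]
    funext k
    simp [mul_comm]
  rw [h, norm_smul, norm_pow]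

theorem refl_zero {κ : Type} (F : κ → ℂ[X]) :
    (fun k => (reflect D (F k)).eval 0) = evv D none F := by
  funext k
  rw [← coeff_zero_eq_eval_zero, coeff_reflect, revAt_zero]
  rfl

theorem exists_sup {P : κP → ℂ[X]} {Q : κQ → ℂ[X]} (hP : ∀ b, (P b).natDegree ≤ D)
    (hQ : ∀ k, (Q k).natDegree ≤ D) (hQ0 : ∀ e, evv D e Q ≠ 0) :
    ∃ M : ℝ, 0 ≤ M ∧ (∀ e, ‖evv D e P‖ ≤ M * ‖evv D e Q‖) ∧
      ∀ M' : ℝ, (∀ z : ℂ, ‖evv D (some z) P‖ ≤ M' * ‖evv D (some z) Q‖) → M ≤ M' := by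
  have hpos : ∀ e, 0 < ‖evv D e Q‖ := fun e => norm_pos_iff.2 (hQ0 e)
  have hcont : ∀ {κ : Type} [Fintype κ] (F : κ → ℂ[X]),
      Continuous fun z : ℂ => ‖fun k => (F k).eval z‖ := by
    intro κ _ F
    exact (continuous_pi fun k => (F k).continuous).norm
  set r : ℂ → ℝ := fun z => ‖evv D (some z) P‖ / ‖evv D (some z) Q‖ with hr
  have hrc : Continuous r := by
    refine Continuous.div ?_ ?_ fun z => (hpos _).ne'
    · exact hcont P
    · exact hcont Q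
  set r2 : ℂ → ℝ := fun w => ‖fun k => (reflect D (P k)).eval w‖ /
    ‖fun k => (reflect D (Q k)).eval w‖ with hr2
  have hr2pos : ∀ w, 0 < ‖fun k => (reflect D (Q k)).eval w‖ := by
    intro w
    by_cases hw : w = 0
    · rw [hw, refl_zero]; exact hpos none
    · have h1 := norm_refl Q hQ (inv_ne_zero hw)
      rw [inv_inv] at h1
      have h2 := hpos (some w⁻¹)
      rw [h1] at h2
      have h3 : (0 : ℝ) < ‖w⁻¹‖ ^ D := pow_pos (norm_pos_iff.2 (inv_ne_zero hw)) _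
      exact (pos_iff_pos_of_mul_pos h2).1 h3
  have hr2c : Continuous r2 := (hcont fun k => reflect D (P k)).div (hcont fun k => reflect D (Q k))
    fun w => (hr2pos w).ne'
  have hrr : ∀ w : ℂ, w ≠ 0 → r2 w = r w⁻¹ := by
    intro w hw
    have h3 : (0 : ℝ) < ‖w⁻¹‖ ^ D := pow_pos (norm_pos_iff.2 (inv_ne_zero hw)) _
    simp only [hr, hr2]
    rw [norm_refl P hP (inv_ne_zero hw), norm_refl Q hQ (inv_ne_zero hw), inv_inv,
      mul_div_mul_left _ _ h3.ne']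
  obtain ⟨B1, hB1⟩ := (isCompact_closedBall (0 : ℂ) 1).bddAbove_image hrc.continuousOn
  obtain ⟨B2, hB2⟩ := (isCompact_closedBall (0 : ℂ) 1).bddAbove_image hr2c.continuousOn
  have hbdd : BddAbove (Set.range r) := by
    refine ⟨max B1 B2, ?_⟩
    rintro _ ⟨z, rfl⟩
    by_cases hz : ‖z‖ ≤ 1
    · exact le_max_of_le_left (hB1 ⟨z, by simpa using hz, rfl⟩)
    · push Not at hz
      have hz0 : z ≠ 0 := by
        intro h; rw [h, norm_zero] at hz; linarith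
      have h1 : r z = r2 z⁻¹ := by rw [hrr _ (inv_ne_zero hz0), inv_inv]
      rw [h1]
      refine le_max_of_le_right (hB2 ⟨z⁻¹, ?_, rfl⟩)
      rw [mem_closedBall_zero_iff, norm_inv]
      exact inv_le_one_of_one_le₀ hz.le
  have hr0 : ∀ z, 0 ≤ r z := fun z => div_nonneg (norm_nonneg _) (norm_nonneg _)
  set M := ⨆ z, r z with hM
  have hrM : ∀ z, r z ≤ M := fun z => le_ciSup hbdd z
  refine ⟨M, (hr0 0).trans (hrM 0), ?_, ?_⟩
  · intro e
    cases e with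
    | some z => exact (div_le_iff₀ (hpos (some z))).1 (hrM z)
    | none =>
      have h1 : r2 0 ≤ M := by
        have h2 : Filter.Tendsto r2 (nhdsWithin 0 {0}ᶜ) (nhds (r2 0)) :=
          (hr2c.tendsto 0).mono_left nhdsWithin_le_nhds
        refine le_of_tendsto h2 ?_
        filter_upwards [self_mem_nhdsWithin] with w hw
        rw [hrr w hw]
        exact hrM _
      have h3 : r2 0 = ‖evv D none P‖ / ‖evv D none Q‖ := by
        simp only [hr2]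
        rw [refl_zero, refl_zero]
      rw [h3] at h1
      exact (div_le_iff₀ (hpos none)).1 h1
  · intro M' hM'
    exact ciSup_le fun z => (div_le_iff₀ (hpos (some z))).2 (hM' z)

theorem resw_coeff_zero (P P' : κP → ℂ[X]) (Q : κQ → ℂ[X]) (l0 l1 : κQ ⊕ κP → ℂ) :
    (resw D P Q l0 l1).coeff 0 = (resw D P' Q l0 l1).coeff 0 := by
  rw [coeff_zero_eq_eval_zero, coeff_zero_eq_eval_zero, resw_eval, resw_eval]
  rw [C_0, zero_mul, zero_mul, zero_mul, zero_mul]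

/-- `sup_res` with the supremum eliminated -/
theorem sup_res' (hD : 0 < D) (κP κQ : Type) [Fintype κP] [Nonempty κP] [Fintype κQ] :
    ∃ (S : Finset (κQ ⊕ κP → ℂ)) (K : ℝ), 0 < K ∧ ∀ (P : κP → ℂ[X]) (Q : κQ → ℂ[X]),
      (∀ b, (P b).natDegree ≤ D) → (∀ k, (Q k).natDegree ≤ D) → (∀ e, evv D e Q ≠ 0) →
      ∃ ρ : ℝ, 0 < ρ ∧ (∀ l0 ∈ S, ∀ l1 ∈ S, ‖(resw D P Q l0 l1).coeff 0‖ ≤ ρ) ∧
        (∃ l0 ∈ S, ∃ l1 ∈ S, ρ = ‖(resw D P Q l0 l1).coeff 0‖) ∧
        (∀ M : ℝ, (∀ z : ℂ, ‖evv D (some z) P‖ ≤ M * ‖evv D (some z) Q‖) →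
          ∀ l0 ∈ S, ∀ l1 ∈ S, ∀ j, 1 ≤ j → ‖(resw D P Q l0 l1).coeff j‖ ≤ K * M ^ j * ρ) ∧
        ∃ l0 ∈ S, ∃ l1 ∈ S, ∃ j, 1 ≤ j ∧ j ≤ D + D ∧ ∀ z : ℂ,
          ‖evv D (some z) P‖ ^ j * ρ ≤
            K * ‖(resw D P Q l0 l1).coeff j‖ * ‖evv D (some z) Q‖ ^ j := by
  obtain ⟨S, K, hK, H⟩ := sup_res hD κP κQ
  refine ⟨S, K, hK, ?_⟩
  -- the case of nonzero `P`
  have main : ∀ (P : κP → ℂ[X]) (Q : κQ → ℂ[X]),
      (∀ b, (P b).natDegree ≤ D) → (∀ k, (Q k).natDegree ≤ D) → (∀ e, evv D e Q ≠ 0) → P ≠ 0 →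
      ∃ ρ : ℝ, 0 < ρ ∧ (∀ l0 ∈ S, ∀ l1 ∈ S, ‖(resw D P Q l0 l1).coeff 0‖ ≤ ρ) ∧
        (∃ l0 ∈ S, ∃ l1 ∈ S, ρ = ‖(resw D P Q l0 l1).coeff 0‖) ∧
        (∀ M : ℝ, (∀ z : ℂ, ‖evv D (some z) P‖ ≤ M * ‖evv D (some z) Q‖) →
          ∀ l0 ∈ S, ∀ l1 ∈ S, ∀ j, 1 ≤ j → ‖(resw D P Q l0 l1).coeff j‖ ≤ K * M ^ j * ρ) ∧
        ∃ l0 ∈ S, ∃ l1 ∈ S, ∃ j, 1 ≤ j ∧ j ≤ D + D ∧ ∀ z : ℂ,
          ‖evv D (some z) P‖ ^ j * ρ ≤
            K * ‖(resw D P Q l0 l1).coeff j‖ * ‖evv D (some z) Q‖ ^ j := by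
    intro P Q hP hQ hQ0 hP0
    obtain ⟨M0, hM0, h1, h2⟩ := exists_sup hP hQ hQ0
    have hpos : ∀ e, 0 < ‖evv D e Q‖ := fun e => norm_pos_iff.2 (hQ0 e)
    have hM0' : 0 < M0 := by
      refine lt_of_le_of_ne hM0 fun h0 => hP0 ?_
      funext b
      refine Polynomial.funext fun z => ?_
      have h3 := h1 (some z)
      rw [← h0, zero_mul] at h3
      have h4 := norm_le_zero_iff.1 h3
      have h5 := congrFun h4 b
      simpa [evv] using h5
    have hw : ∃ z : ℂ, M0 * ‖evv D (some z) Q‖ ≤ 2 * ‖evv D (some z) P‖ := by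
      by_contra hcon
      push Not at hcon
      have := h2 (M0 / 2) fun z => by have := hcon z; linarith
      linarith
    obtain ⟨ρ, hρ, g1, ⟨l0, hl0, l1, hl1, g2⟩, g3, k0, hk0, k1, hk1, j, hj1, hj2, g4⟩ :=
      H P Q M0 hP hQ hM0' hQ0 h1 hw
    refine ⟨ρ, hρ, g1, ⟨l0, hl0, l1, hl1, le_antisymm g2 (g1 l0 hl0 l1 hl1)⟩, ?_,
      k0, hk0, k1, hk1, j, hj1, hj2, ?_⟩
    · intro M hM l0 hl0 l1 hl1 j _
      refine (g3 l0 hl0 l1 hl1 j).trans ?_
      have := h2 M hM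
      gcongr
    · intro z
      have h3 : ‖evv D (some z) P‖ ^ j ≤ M0 ^ j * ‖evv D (some z) Q‖ ^ j := by
        rw [← mul_pow]
        exact pow_le_pow_left₀ (norm_nonneg _) (h1 _) _
      calc ‖evv D (some z) P‖ ^ j * ρ ≤ M0 ^ j * ‖evv D (some z) Q‖ ^ j * ρ := by gcongr
        _ = (M0 ^ j * ρ) * ‖evv D (some z) Q‖ ^ j := by ring
        _ ≤ _ := by gcongr
  intro P Q hP hQ hQ0
  by_cases hP0 : P = 0
  · -- compare with an auxiliary nonzero `P'`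
    obtain ⟨k, hk⟩ : ∃ k, (Q k).coeff D ≠ 0 := by
      by_contra hcon
      push Not at hcon
      exact hQ0 none (funext fun k => by simp [evv, hcon k])
    obtain ⟨ρ, hρ, g1, ⟨l0, hl0, l1, hl1, g2⟩, -, -⟩ := main (fun _ => Q k) Q (fun _ => hQ k) hQ hQ0
      (by
        intro h
        obtain ⟨b⟩ := (inferInstance : Nonempty κP)
        have := congrFun h b
        simp only [Pi.zero_apply] at this
        rw [this] at hk
        simp at hk)
    have hz : ∀ l0 l1 j, 1 ≤ j → (resw D P Q l0 l1).coeff j = 0 := by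
      intro l0 l1 j hj
      have h1 : (resw D P Q l0 l1) = C ((resw D P Q l0 l1).coeff 0) := by
        refine Polynomial.funext fun w => ?_
        rw [coeff_zero_eq_eval_zero, resw_eval, eval_C, resw_eval, hP0]
        have : ∀ l : κP → ℂ, lin l (0 : κP → ℂ[X]) = 0 := by
          intro l; unfold lin; simp
        rw [this, this, mul_zero, mul_zero]
      rw [h1, coeff_C, if_neg (by omega)]
    refine ⟨ρ, hρ, fun l0 h0 l1 h1 => ?_, ⟨l0, hl0, l1, hl1, ?_⟩, ?_, l0, hl0, l1, hl1, 1, le_rfl,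
      by omega, ?_⟩
    · rw [resw_coeff_zero P (fun _ => Q k)]; exact g1 l0 h0 l1 h1
    · rw [resw_coeff_zero P (fun _ => Q k)]; exact g2
    · intro M hM l0 _ l1 _ j hj
      rw [hz l0 l1 j hj, norm_zero]
      have h3 : 0 ≤ M := by
        have h4 := hM 0
        rw [hP0] at h4
        have h5 : evv D (some (0 : ℂ)) (0 : κP → ℂ[X]) = 0 := by
          funext b; simp [evv]
        rw [h5, norm_zero] at h4
        have h6 : 0 < ‖evv D (some (0 : ℂ)) Q‖ := norm_pos_iff.2 (hQ0 _)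
        exact nonneg_of_mul_nonneg_left h4 h6
      positivity
    · intro z
      have h5 : evv D (some z) P = 0 := by
        rw [hP0]; funext b; simp [evv]
      rw [h5, norm_zero, hz _ _ 1 le_rfl, norm_zero]
      simp
  · exact main P Q hP hQ hQ0 hP0

/-! ### polynomials in the coefficients -/

/-- the index set of the coefficients -/
abbrev V (D : ℕ) (κP κQ : Type) : Type := (κP × Fin (D + 1)) ⊕ (κQ × Fin (D + 1))

/-- the coefficients of the families `P`, `Q` -/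
def cf {G : Type*} [CommRing G] (D : ℕ) (P : κP → G[X]) (Q : κQ → G[X]) : V D κP κQ → G :=
  Sum.elim (fun p => (P p.1).coeff p.2) (fun q => (Q q.1).coeff q.2)

omit [Fintype κP] [Fintype κQ] in
theorem cf_inl {G : Type*} [CommRing G] (P : κP → G[X]) (Q : κQ → G[X]) (b : κP) (j : Fin (D + 1)) :
    cf D P Q (Sum.inl (b, j)) = (P b).coeff j := rfl

omit [Fintype κP] [Fintype κQ] in
theorem cf_inr {G : Type*} [CommRing G] (P : κP → G[X]) (Q : κQ → G[X]) (b : κQ) (j : Fin (D + 1)) :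
    cf D P Q (Sum.inr (b, j)) = (Q b).coeff j := rfl

/-- generic polynomial -/
def gen {κ W : Type} (D : ℕ) (f : κ × Fin (D + 1) → W) (b : κ) : (MvPolynomial W ℂ)[X] :=
  ∑ j : Fin (D + 1), C (MvPolynomial.X (f (b, j))) * X ^ (j : ℕ)

theorem gen_map {κ W : Type} {G : Type*} [CommRing G] [Algebra ℂ G] (f : κ × Fin (D + 1) → W)
    (x : W → G) (F : κ → G[X]) (hF : ∀ k, (F k).natDegree ≤ D)
    (hx : ∀ b (j : Fin (D + 1)), x (f (b, j)) = (F b).coeff j) (b : κ) :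
    (gen D f b).map ((MvPolynomial.aeval x : MvPolynomial W ℂ →ₐ[ℂ] G) : MvPolynomial W ℂ →+* G) =
      F b := by
  unfold gen
  rw [Polynomial.map_sum]
  have h1 : ∀ j : Fin (D + 1), (C (MvPolynomial.X (f (b, j))) * X ^ (j : ℕ) :
      (MvPolynomial W ℂ)[X]).map ((MvPolynomial.aeval x : MvPolynomial W ℂ →ₐ[ℂ] G) :
        MvPolynomial W ℂ →+* G) = C ((F b).coeff j) * X ^ (j : ℕ) := by
    intro j
    rw [Polynomial.map_mul, Polynomial.map_C, Polynomial.map_pow, Polynomial.map_X]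
    simp [hx]
  rw [Finset.sum_congr rfl fun j _ => h1 j, Fin.sum_univ_eq_sum_range
    (fun j => C ((F b).coeff j) * X ^ j) (D + 1)]
  exact (as_sum_range_C_mul_X_pow' (F b) (Nat.lt_succ_of_le (hF b))).symm

/-- coefficient of the resultant as a polynomial in the coefficients of `P`, `Q` -/
def Rg (D : ℕ) (l0 l1 : κQ ⊕ κP → ℂ) (j : ℕ) : MvPolynomial (V D κP κQ) ℂ :=
  (resw D (gen D (Sum.inl : κP × Fin (D + 1) → V D κP κQ))
    (gen D (Sum.inr : κQ × Fin (D + 1) → V D κP κQ)) l0 l1).coeff j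

theorem aeval_Rg {G : Type*} [CommRing G] [Algebra ℂ G] (P : κP → G[X]) (Q : κQ → G[X])
    (hP : ∀ b, (P b).natDegree ≤ D) (hQ : ∀ k, (Q k).natDegree ≤ D) (l0 l1 : κQ ⊕ κP → ℂ) (j : ℕ) :
    MvPolynomial.aeval (cf D P Q) (Rg D l0 l1 j) = (resw D P Q l0 l1).coeff j := by
  have h := resw_map (MvPolynomial.aeval (cf D P Q) : MvPolynomial (V D κP κQ) ℂ →ₐ[ℂ] G) D
    (gen D (Sum.inl : κP × Fin (D + 1) → V D κP κQ))
    (gen D (Sum.inr : κQ × Fin (D + 1) → V D κP κQ)) l0 l1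
  have e1 := fun b => gen_map (D := D) (Sum.inl : κP × Fin (D + 1) → V D κP κQ) (cf D P Q) P hP
    (fun b j => rfl) b
  have e2 := fun b => gen_map (D := D) (Sum.inr : κQ × Fin (D + 1) → V D κP κQ) (cf D P Q) Q hQ
    (fun b j => rfl) b
  simp only [e1, e2] at h
  rw [← h, coeff_map]
  rfl

theorem exists_norm_eq {κ : Type} [Fintype κ] [Nonempty κ] (x : κ → ℂ) : ∃ k, ‖x k‖ = ‖x‖ := by
  obtain ⟨k, -, hk⟩ := Finset.exists_max_image Finset.univ (fun k => ‖x k‖)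
    (Finset.univ_nonempty (α := κ))
  refine ⟨k, le_antisymm (norm_le_pi_norm x k) ?_⟩
  exact (pi_norm_le_iff_of_nonneg (norm_nonneg _)).2 fun i => hk i (Finset.mem_univ _)

theorem alg_up {K K' M ρ a b : ℝ} {j e E : ℕ} (hK : 0 < K) (hKK' : K ≤ K') (hK'1 : 1 ≤ K')
    (hje : j * e = E) (he : e ≤ E) (hM : 0 ≤ M) (hρ : 0 < ρ) (ha : 0 ≤ a) (hb : 0 ≤ b)
    (h1 : a ≤ K * M ^ j * ρ) (h2 : b ≤ ρ) :
    a ^ e * b ^ (E - e) ≤ K' ^ E * M ^ E * ρ ^ E := by
  have h7 : K ^ e ≤ K' ^ E :=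
    (pow_le_pow_left₀ hK.le hKK' _).trans (pow_le_pow_right₀ hK'1 he)
  calc a ^ e * b ^ (E - e) ≤ (K * M ^ j * ρ) ^ e * ρ ^ (E - e) := by gcongr
    _ = K ^ e * (M ^ (j * e)) * (ρ ^ e * ρ ^ (E - e)) := by
        rw [mul_pow, mul_pow, ← pow_mul]; ring
    _ = K ^ e * M ^ E * ρ ^ E := by
        rw [hje, ← pow_add, Nat.add_sub_cancel' he]
    _ ≤ K' ^ E * M ^ E * ρ ^ E := by gcongr

theorem alg_low {K K' ρ a x y : ℝ} {j e E : ℕ} (hK : 0 < K) (hKK' : K ≤ K') (hK'1 : 1 ≤ K')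
    (hje : j * e = E) (he : e ≤ E) (hρ : 0 < ρ) (ha : 0 ≤ a) (hx : 0 ≤ x) (hy : 0 ≤ y)
    (h1 : x ^ j * ρ ≤ K * a * y ^ j) :
    x ^ E * ρ ^ E ≤ K' ^ E * (a ^ e * ρ ^ (E - e)) * y ^ E := by
  have h7 : K ^ e ≤ K' ^ E :=
    (pow_le_pow_left₀ hK.le hKK' _).trans (pow_le_pow_right₀ hK'1 he)
  have h2 := pow_le_pow_left₀ (by positivity) h1 e
  rw [mul_pow, mul_pow, mul_pow, ← pow_mul, ← pow_mul, hje] at h2
  calc x ^ E * ρ ^ E = x ^ E * ρ ^ e * ρ ^ (E - e) := by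
        rw [mul_assoc, ← pow_add, Nat.add_sub_cancel' he]
    _ ≤ (K ^ e * a ^ e * y ^ E) * ρ ^ (E - e) := by gcongr
    _ ≤ (K' ^ E * a ^ e * y ^ E) * ρ ^ (E - e) := by gcongr
    _ = _ := by ring

/-- **U2**: the supremum over `z` of `‖P z‖ / ‖Q z‖`, as a quotient of norms of polynomials in the
coefficients of `P` and `Q`. -/
theorem U2 (D : ℕ) (κP κQ : Type) [Fintype κP] [Fintype κQ] :
    ∃ (E : ℕ) (K : ℝ) (c c'' : Finset (MvPolynomial (V D κP κQ) ℂ)), 1 ≤ E ∧ 0 < K ∧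
      ∀ (P : κP → ℂ[X]) (Q : κQ → ℂ[X]), (∀ b, (P b).natDegree ≤ D) → (∀ k, (Q k).natDegree ≤ D) →
      (∀ z : ℂ, ∃ k, (Q k).eval z ≠ 0) → (∃ k, (Q k).coeff D ≠ 0) →
      ∃ ρ : ℝ, 0 < ρ ∧ (∀ p ∈ c'', ‖MvPolynomial.aeval (cf D P Q) p‖ ≤ ρ) ∧
        (∃ p ∈ c'', ρ = ‖MvPolynomial.aeval (cf D P Q) p‖) ∧
        (∀ M : ℝ, (∀ z : ℂ, ‖fun b => (P b).eval z‖ ≤ M * ‖fun k => (Q k).eval z‖) →
          ∀ p ∈ c, ‖MvPolynomial.aeval (cf D P Q) p‖ ≤ K * M ^ E * ρ) ∧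
        (∀ z : ℂ, ∃ p ∈ c, ‖fun b => (P b).eval z‖ ^ E * ρ ≤
          K * ‖MvPolynomial.aeval (cf D P Q) p‖ * ‖fun k => (Q k).eval z‖ ^ E) := by
  classical
  rcases isEmpty_or_nonempty κP with hκ | hκ
  · -- no `P`
    refine ⟨1, 1, {0}, {1}, le_rfl, one_pos, ?_⟩
    intro P Q _ _ hQ _
    refine ⟨1, one_pos, by simp, by simp, ?_, ?_⟩
    · intro M hM p hp
      rw [Finset.mem_singleton] at hp
      subst hp
      have h4 := hM 0
      have h5 : (fun b => (P b).eval 0) = 0 := Subsingleton.elim _ _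
      rw [h5, norm_zero] at h4
      obtain ⟨k, hk⟩ := hQ 0
      have h6 : 0 < ‖fun k => (Q k).eval 0‖ := norm_pos_iff.2 fun h => hk (congrFun h k)
      have := nonneg_of_mul_nonneg_left h4 h6
      simp [this]
    · intro z
      refine ⟨0, by simp, ?_⟩
      have h5 : (fun b => (P b).eval z) = 0 := Subsingleton.elim _ _
      rw [h5]
      simp
  rcases Nat.eq_zero_or_pos D with hD | hD
  · -- constants
    subst hD
    refine ⟨1, 1, Finset.univ.image fun b : κP => MvPolynomial.X (Sum.inl (b, 0)),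
      Finset.univ.image fun b : κQ => MvPolynomial.X (Sum.inr (b, 0)), le_rfl, one_pos, ?_⟩
    intro P Q hP hQ hQ0 _
    have hP' : ∀ z, (fun b => (P b).eval z) = fun b => (P b).coeff 0 := by
      intro z; funext b
      conv_lhs => rw [eq_C_of_natDegree_le_zero (hP b)]
      simp
    have hQ' : ∀ z, (fun b => (Q b).eval z) = fun b => (Q b).coeff 0 := by
      intro z; funext b
      conv_lhs => rw [eq_C_of_natDegree_le_zero (hQ b)]
      simp
    have hne : Nonempty κQ := ⟨(hQ0 0).choose⟩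
    have hρ : 0 < ‖fun k => (Q k).coeff 0‖ := by
      rw [← hQ' 0]
      obtain ⟨k, hk⟩ := hQ0 0
      exact norm_pos_iff.2 fun h => hk (congrFun h k)
    refine ⟨‖fun k => (Q k).coeff 0‖, hρ, ?_, ?_, ?_, ?_⟩
    · intro p hp
      obtain ⟨k, -, rfl⟩ := Finset.mem_image.1 hp
      rw [MvPolynomial.aeval_X, cf_inr]
      exact norm_le_pi_norm (fun k => (Q k).coeff 0) k
    · obtain ⟨k, hk⟩ := exists_norm_eq (fun k => (Q k).coeff 0)
      refine ⟨_, Finset.mem_image_of_mem _ (Finset.mem_univ k), ?_⟩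
      rw [MvPolynomial.aeval_X, cf_inr]
      exact hk.symm
    · intro M hM p hp
      obtain ⟨k, -, rfl⟩ := Finset.mem_image.1 hp
      rw [MvPolynomial.aeval_X, cf_inl, one_mul, pow_one]
      have := hM 0
      rw [hP', hQ'] at this
      exact (norm_le_pi_norm (fun k => (P k).coeff 0) k).trans this
    · intro z
      obtain ⟨k, hk⟩ := exists_norm_eq (fun k => (P k).coeff 0)
      refine ⟨_, Finset.mem_image_of_mem _ (Finset.mem_univ k), ?_⟩
      rw [MvPolynomial.aeval_X, cf_inl, one_mul, pow_one, pow_one, hP', hQ']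
      exact (mul_le_mul_of_nonneg_right hk.ge hρ.le)
  obtain ⟨S, K, hK, H⟩ := sup_res' hD κP κQ
  set K' := max K 1 with hK'
  have hK'1 : 1 ≤ K' := le_max_right _ _
  have hKK' : K ≤ K' := le_max_left _ _
  set E := (D + D).factorial with hE
  have hE1 : 1 ≤ E := Nat.succ_le_of_lt (Nat.factorial_pos _)
  have hdvd : ∀ j, 1 ≤ j → j ≤ D + D → j * (E / j) = E := fun j h1 h2 =>
    Nat.mul_div_cancel' (Nat.dvd_factorial (by omega) h2)
  have hle : ∀ j, E / j ≤ E := fun j => Nat.div_le_self _ _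
  set T : Finset ((κQ ⊕ κP → ℂ) × (κQ ⊕ κP → ℂ)) := S ×ˢ S with hT
  refine ⟨E, K' ^ E, (T ×ˢ T ×ˢ Finset.Icc 1 (D + D)).image fun x =>
      (Rg D x.1.1 x.1.2 x.2.2) ^ (E / x.2.2) * (Rg D x.2.1.1 x.2.1.2 0) ^ (E - E / x.2.2),
    T.image fun x => (Rg D x.1 x.2 0) ^ E, hE1, by positivity, ?_⟩
  intro P Q hP hQ hQ0 hQD
  have hQe : ∀ e, evv D e Q ≠ 0 := by
    intro e h
    cases e with
    | some z =>
      obtain ⟨k, hk⟩ := hQ0 z
      exact hk (by simpa [evv] using congrFun h k)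
    | none =>
      obtain ⟨k, hk⟩ := hQD
      exact hk (by simpa [evv] using congrFun h k)
  obtain ⟨ρ, hρ, g1, ⟨l0, hl0, l1, hl1, g2⟩, g3, k0, hk0, k1, hk1, j, hj1, hj2, g4⟩ :=
    H P Q hP hQ hQe
  have hpz : ∀ z, (fun b => (P b).eval z) = evv D (some z) P := fun z => rfl
  have hqz : ∀ z, (fun b => (Q b).eval z) = evv D (some z) Q := fun z => rfl
  refine ⟨ρ ^ E, by positivity, ?_, ?_, ?_, ?_⟩
  · intro p hp
    obtain ⟨x, hx, rfl⟩ := Finset.mem_image.1 hp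
    rw [map_pow, aeval_Rg P Q hP hQ, norm_pow]
    rw [hT, Finset.mem_product] at hx
    exact pow_le_pow_left₀ (norm_nonneg _) (g1 _ hx.1 _ hx.2) _
  · refine ⟨_, Finset.mem_image_of_mem _ (Finset.mem_product.2 ⟨hl0, hl1⟩ : (l0, l1) ∈ T), ?_⟩
    rw [map_pow, aeval_Rg P Q hP hQ, norm_pow, ← g2]
  · intro M hM p hp
    obtain ⟨x, hx, rfl⟩ := Finset.mem_image.1 hp
    rw [Finset.mem_product, Finset.mem_product, hT, Finset.mem_product, Finset.mem_product,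
      Finset.mem_Icc] at hx
    obtain ⟨⟨x1, x2⟩, ⟨x3, x4⟩, x5, x6⟩ := hx
    have hM0 : 0 ≤ M := by
      have h4 := hM 0
      have h6 : 0 < ‖fun k => (Q k).eval 0‖ := norm_pos_iff.2 (hQe (some 0))
      exact nonneg_of_mul_nonneg_left ((norm_nonneg _).trans h4) h6
    rw [map_mul, map_pow, map_pow, aeval_Rg P Q hP hQ, aeval_Rg P Q hP hQ, norm_mul, norm_pow,
      norm_pow]
    have h1 := g3 M hM _ x1 _ x2 _ x5
    have h2 := g1 _ x3 _ x4
    exact alg_up hK hKK' hK'1 (hdvd _ x5 x6) (hle _) hM0 hρ (norm_nonneg _) (norm_nonneg _) h1 h2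
  · intro z
    refine ⟨_, Finset.mem_image_of_mem _ (Finset.mem_product.2
      ⟨(Finset.mem_product.2 ⟨hk0, hk1⟩ : (k0, k1) ∈ T), Finset.mem_product.2
        ⟨(Finset.mem_product.2 ⟨hl0, hl1⟩ : (l0, l1) ∈ T), Finset.mem_Icc.2 ⟨hj1, hj2⟩⟩⟩ :
        ((k0, k1), (l0, l1), j) ∈ T ×ˢ T ×ˢ Finset.Icc 1 (D + D)), ?_⟩
    rw [map_mul, map_pow, map_pow, aeval_Rg P Q hP hQ, aeval_Rg P Q hP hQ, norm_mul, norm_pow,
      norm_pow, ← g2, hpz, hqz]
    exact alg_low hK hKK' hK'1 (hdvd _ hj1 hj2) (hle _) hρ (norm_nonneg _) (norm_nonneg _)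
      (norm_nonneg _) (g4 z)

end

end Crest.Agent.R273.U2_145
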