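import Mathlib
import Crest.Agent.R273.U2_145

/-!
# The interface `U2Stmt` of helper619 (helper145, row 273)
-/

namespace Crest.Agent.R273.U2s_145

open Polynomial Crest.Agent.R273.Res_145 Crest.Agent.R273.U2_145
open scoped NNReal

noncomputable section

/-- the interface consumed in U3 -/
def U2Stmt : Prop :=
  ∀ (D l m : ℕ), 1 ≤ D → ∃ (J : ℕ) (C : ℝ≥0)
    (R : ℕ → Finset (MvPolynomial ((Fin l ⊕ Fin m) × Fin (D + 1)) ℂ)),
    ∀ (P : Fin l → ℂ[X]) (Q : Fin m → ℂ[X]), (∀ b, (P b).natDegree ≤ D) →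
      (∀ c, (Q c).natDegree ≤ D) → (∃ c, (Q c).coeff D ≠ 0) → (∀ z, ∃ c, (Q c).eval z ≠ 0) →
      let v : (Fin l ⊕ Fin m) × Fin (D + 1) → ℂ := fun i => (Sum.elim P Q i.1).coeff i.2
      let N : ℕ → ℝ≥0 := fun j => (R j).sup fun r => ‖MvPolynomial.eval v r‖₊
      N 0 ≠ 0 ∧
      (∀ M : ℝ≥0, (∀ z, ∀ b, ∃ c, ‖(P b).eval z‖₊ ≤ M * ‖(Q c).eval z‖₊) →
        ∀ j, N j ≤ C * M ^ j * N 0) ∧
      (∀ (M : ℝ≥0) z, (∃ b, ∀ c, M * ‖(Q c).eval z‖₊ ≤ ‖(P b).eval z‖₊) →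
        ∃ j, 1 ≤ j ∧ j ≤ J ∧ M ^ j * N 0 ≤ C * N j)

/-- coefficient of the resultant, in 619's variables -/
def Rh (D l m : ℕ) (l0 l1 : Fin m ⊕ Fin l → ℂ) (j : ℕ) :
    MvPolynomial ((Fin l ⊕ Fin m) × Fin (D + 1)) ℂ :=
  (resw D (gen D (fun p : Fin l × Fin (D + 1) => ((Sum.inl p.1 : Fin l ⊕ Fin m), p.2)))
    (gen D (fun p : Fin m × Fin (D + 1) => ((Sum.inr p.1 : Fin l ⊕ Fin m), p.2))) l0 l1).coeff j

theorem eval_Rh {D l m : ℕ} (P : Fin l → ℂ[X]) (Q : Fin m → ℂ[X])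
    (hP : ∀ b, (P b).natDegree ≤ D) (hQ : ∀ k, (Q k).natDegree ≤ D) (l0 l1 : Fin m ⊕ Fin l → ℂ)
    (j : ℕ) :
    MvPolynomial.eval (fun i : (Fin l ⊕ Fin m) × Fin (D + 1) => (Sum.elim P Q i.1).coeff i.2)
      (Rh D l m l0 l1 j) = (resw D P Q l0 l1).coeff j := by
  set v : (Fin l ⊕ Fin m) × Fin (D + 1) → ℂ := fun i => (Sum.elim P Q i.1).coeff i.2 with hv
  have h := resw_map (MvPolynomial.aeval v :
      MvPolynomial ((Fin l ⊕ Fin m) × Fin (D + 1)) ℂ →ₐ[ℂ] ℂ) D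
    (gen D (fun p : Fin l × Fin (D + 1) => ((Sum.inl p.1 : Fin l ⊕ Fin m), p.2)))
    (gen D (fun p : Fin m × Fin (D + 1) => ((Sum.inr p.1 : Fin l ⊕ Fin m), p.2))) l0 l1
  have e1 := fun b => gen_map (D := D)
    (fun p : Fin l × Fin (D + 1) => ((Sum.inl p.1 : Fin l ⊕ Fin m), p.2)) v P hP
    (fun b j => rfl) b
  have e2 := fun b => gen_map (D := D)
    (fun p : Fin m × Fin (D + 1) => ((Sum.inr p.1 : Fin l ⊕ Fin m), p.2)) v Q hQ
    (fun b j => rfl) b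
  simp only [e1, e2] at h
  rw [← h, coeff_map, ← MvPolynomial.coe_aeval_eq_eval]
  rfl

theorem u2Stmt : U2Stmt := by
  classical
  intro D l m hD
  rcases Nat.eq_zero_or_pos l with hl | hl
  · subst hl
    refine ⟨0, 1, fun j => if j = 0 then {1} else {0}, ?_⟩
    intro P Q _ _ _ _ v N
    have hN0 : N 0 = 1 := by simp [N]
    have hN : ∀ j, j ≠ 0 → N j = 0 := by
      intro j hj; simp [N, hj]
    refine ⟨by rw [hN0]; exact one_ne_zero, ?_, ?_⟩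
    · intro M _ j
      rcases Nat.eq_zero_or_pos j with hj | hj
      · subst hj; simp
      · rw [hN j hj.ne']; exact bot_le
    · rintro M z ⟨b, -⟩
      exact b.elim0
  have : Nonempty (Fin l) := ⟨⟨0, hl⟩⟩
  obtain ⟨S, K, hK, H⟩ := sup_res' (D := D) hD (Fin l) (Fin m)
  refine ⟨D + D, Real.toNNReal (max K 1), fun j => (S ×ˢ S).image fun x => Rh D l m x.1 x.2 j, ?_⟩
  intro P Q hP hQ hQD hQ0 v N
  have hC : ((Real.toNNReal (max K 1) : ℝ≥0) : ℝ) = max K 1 :=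
    Real.coe_toNNReal _ (le_max_of_le_right zero_le_one)
  have hQe : ∀ e, evv D e Q ≠ 0 := by
    intro e h
    cases e with
    | some z =>
      obtain ⟨k, hk⟩ := hQ0 z
      exact hk (by simpa [evv] using congrFun h k)
    | none =>
      obtain ⟨k, hk⟩ := hQD
      exact hk (by simpa [evv] using congrFun h k)
  obtain ⟨ρ, hρ, g1, ⟨l0, hl0, l1, hl1, g2⟩, g3, k0, hk0, k1, hk1, j, hj1, hj2, g4⟩ :=
    H P Q hP hQ hQe
  have hev : ∀ l0 l1 j, MvPolynomial.eval v (Rh D l m l0 l1 j) = (resw D P Q l0 l1).coeff j :=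
    fun l0 l1 j => eval_Rh P Q hP hQ l0 l1 j
  have hle : ∀ l0 ∈ S, ∀ l1 ∈ S, ∀ j, ‖(resw D P Q l0 l1).coeff j‖ ≤ (N j : ℝ) := by
    intro l0 h0 l1 h1 j
    rw [← hev]
    exact_mod_cast Finset.le_sup (f := fun r => ‖MvPolynomial.eval v r‖₊)
      (Finset.mem_image_of_mem (fun x : (Fin m ⊕ Fin l → ℂ) × (Fin m ⊕ Fin l → ℂ) =>
        Rh D l m x.1 x.2 j) (Finset.mem_product.2 ⟨h0, h1⟩ : (l0, l1) ∈ S ×ˢ S))
  have hsup : ∀ (j : ℕ) (B : ℝ≥0), (∀ l0 ∈ S, ∀ l1 ∈ S, ‖(resw D P Q l0 l1).coeff j‖ ≤ (B : ℝ)) →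
      N j ≤ B := by
    intro j B hB
    refine Finset.sup_le fun r hr => ?_
    obtain ⟨x, hx, rfl⟩ := Finset.mem_image.1 hr
    rw [Finset.mem_product] at hx
    have := hB _ hx.1 _ hx.2
    rw [← hev] at this
    exact_mod_cast this
  have hN0 : (N 0 : ℝ) = ρ := by
    refine le_antisymm ?_ ?_
    · have := hsup 0 ⟨ρ, hρ.le⟩ (fun l0 h0 l1 h1 => g1 l0 h0 l1 h1)
      exact_mod_cast this
    · rw [g2]; exact hle _ hl0 _ hl1 0
  have hpos : ∀ e, 0 < ‖evv D e Q‖ := fun e => norm_pos_iff.2 (hQe e)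
  refine ⟨?_, ?_, ?_⟩
  · intro h
    rw [h] at hN0
    simp only [NNReal.coe_zero] at hN0
    exact hρ.ne hN0
  · intro M hM j
    have hM' : ∀ z : ℂ, ‖evv D (some z) P‖ ≤ (M : ℝ) * ‖evv D (some z) Q‖ := by
      intro z
      refine (pi_norm_le_iff_of_nonneg (by positivity)).2 fun b => ?_
      obtain ⟨c, hc⟩ := hM z b
      have hc' : ‖(P b).eval z‖ ≤ (M : ℝ) * ‖(Q c).eval z‖ := by exact_mod_cast hc
      refine hc'.trans (mul_le_mul_of_nonneg_left ?_ M.2)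
      exact norm_le_pi_norm (evv D (some z) Q) c
    refine hsup j _ fun l0 h0 l1 h1 => ?_
    push_cast
    rw [hC, hN0]
    rcases Nat.eq_zero_or_pos j with hj | hj
    · subst hj
      rw [pow_zero, mul_one]
      exact (g1 l0 h0 l1 h1).trans (le_mul_of_one_le_left hρ.le (le_max_right _ _))
    · refine (g3 M hM' l0 h0 l1 h1 j hj).trans ?_
      have : (0 : ℝ) ≤ M := M.2
      have := le_max_left K 1
      gcongr
  · rintro M z ⟨b, hb⟩
    refine ⟨j, hj1, hj2, ?_⟩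
    have h1 := g4 z
    have h2 : (M : ℝ) * ‖evv D (some z) Q‖ ≤ ‖evv D (some z) P‖ := by
      have hne : Nonempty (Fin m) := ⟨hQD.choose⟩
      obtain ⟨c, hc⟩ := U2_145.exists_norm_eq (evv D (some z) Q)
      rw [← hc]
      have h3 : (M : ℝ) * ‖(Q c).eval z‖ ≤ ‖(P b).eval z‖ := by exact_mod_cast hb c
      exact h3.trans (norm_le_pi_norm (evv D (some z) P) b)
    have h3 : ((M : ℝ) * ‖evv D (some z) Q‖) ^ j * ρ ≤
        K * ‖(resw D P Q k0 k1).coeff j‖ * ‖evv D (some z) Q‖ ^ j :=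
      (mul_le_mul_of_nonneg_right (pow_le_pow_left₀ (by have := M.2; positivity) h2 j) hρ.le).trans
        h1
    have h4 : 0 < ‖evv D (some z) Q‖ ^ j := pow_pos (hpos _) _
    have h5 : (M : ℝ) ^ j * ρ ≤ K * ‖(resw D P Q k0 k1).coeff j‖ := by
      rw [mul_pow] at h3
      refine le_of_mul_le_mul_right ?_ h4
      calc (M : ℝ) ^ j * ρ * ‖evv D (some z) Q‖ ^ j
          = (M : ℝ) ^ j * ‖evv D (some z) Q‖ ^ j * ρ := by ring
        _ ≤ _ := h3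
    have h6 : (M : ℝ) ^ j * (N 0 : ℝ) ≤ max K 1 * (N j : ℝ) := by
      rw [hN0]
      refine h5.trans ?_
      have h7 := hle _ hk0 _ hk1 j
      have h8 : (0 : ℝ) ≤ max K 1 := le_max_of_le_right zero_le_one
      exact mul_le_mul (le_max_left _ _) h7 (norm_nonneg _) h8
    rw [← hC] at h6
    exact_mod_cast h6

end

end Crest.Agent.R273.U2s_145
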