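import Mathlib.RingTheory.Localization.Integral
import Mathlib.RingTheory.Polynomial.Content
import Mathlib.Algebra.Polynomial.FieldDivision
import Mathlib.RingTheory.PrincipalIdealDomain
import Mathlib.Topology.Algebra.Module.Cardinality
import Crest.Agent.R273.LemUB_619
import Crest.Agent.R273.U2s_145

/-!
R273 (S0416), Part A, LEMMA U over a model, file D (helper619): the transcendental step.
-/

set_option autoImplicit false

open Finset
open scoped NNReal

namespace Crest.Agent.R273.LemU_619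

universe w

open Polynomial

/-! ### removing the common factor -/

section Gcd

variable {A : Type w} [CommRing A] [IsDomain A]

theorem clear_one (p : (FractionRing A)[X]) : ∃ a : A, a ≠ 0 ∧ ∃ P : A[X],
    P.map (algebraMap A (FractionRing A)) = C (algebraMap A (FractionRing A) a) * p := by
  obtain ⟨b, hb', hb⟩ := IsLocalization.integerNormalization_spec (nonZeroDivisors A) p
  refine ⟨b, nonZeroDivisors.ne_zero hb', _, hb.trans ?_⟩
  rw [← Polynomial.smul_eq_C_mul]
  ext k
  simp [Algebra.smul_def]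

theorem clear_fin (T : Finset (FractionRing A)[X]) : ∃ a : A, a ≠ 0 ∧ ∀ p ∈ T, ∃ P : A[X],
    P.map (algebraMap A (FractionRing A)) = C (algebraMap A (FractionRing A) a) * p := by
  classical
  induction T using Finset.induction with
  | empty => exact ⟨1, one_ne_zero, fun p hp => absurd hp (notMem_empty _)⟩
  | insert q T _ ih =>
    obtain ⟨a, ha, h⟩ := ih
    obtain ⟨b, hb, Q, hQ⟩ := clear_one q
    refine ⟨a * b, mul_ne_zero ha hb, fun p hp => ?_⟩
    rcases mem_insert.1 hp with rfl | hp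
    · refine ⟨C a * Q, ?_⟩
      rw [Polynomial.map_mul, hQ, map_C, map_mul, C_mul]; ring
    · obtain ⟨P, hP⟩ := h p hp
      refine ⟨C b * P, ?_⟩
      rw [Polynomial.map_mul, hP, map_C, map_mul, C_mul]; ring

/-- common factor and Bezout, without denominators -/
theorem gcd_data (S : Finset A[X]) (hS : ∃ f ∈ S, f ≠ 0) :
    ∃ (a : A) (G : A[X]) (til s : A[X] → A[X]), a ≠ 0 ∧ G ≠ 0 ∧
      (∀ f ∈ S, C a * f = G * til f) ∧ ∑ f ∈ S, s f * til f = C a := by
  classical
  set F := FractionRing A with hF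
  set φ : A[X] →+* F[X] := mapRingHom (algebraMap A F) with hφ
  have hinj : Function.Injective φ := map_injective _ (IsFractionRing.injective A F)
  set I : Ideal F[X] := Ideal.span ((S.image φ : Finset F[X]) : Set F[X]) with hI
  obtain ⟨g, hg⟩ : ∃ g, I = Ideal.span {g} := ⟨_, (Ideal.span_singleton_generator I).symm⟩
  have hdvd : ∀ f ∈ S, ∃ q, φ f = g * q := by
    intro f hf
    have h1 : φ f ∈ I := Ideal.subset_span (mem_coe.2 (mem_image_of_mem _ hf))
    rw [hg, Ideal.mem_span_singleton] at h1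
    exact h1
  have hg0 : g ≠ 0 := by
    rintro rfl
    obtain ⟨f, hf, hf0⟩ := hS
    obtain ⟨q, hq⟩ := hdvd f hf
    rw [zero_mul] at hq
    exact hf0 (hinj (by rw [hq, map_zero]))
  -- Bezout
  have hgI : g ∈ I := by rw [hg]; exact Ideal.mem_span_singleton_self g
  have hbez : ∃ s : A[X] → F[X], ∑ f ∈ S, s f * φ f = g := by
    have h2 : I = Submodule.span F[X] (φ '' (S : Set A[X])) := by
      rw [hI, coe_image]
    rw [h2] at hgI
    obtain ⟨c, hc⟩ := (Submodule.mem_span_image_finset_iff_exists_fun F[X]).1 hgI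
    refine ⟨fun f => if h : f ∈ S then c ⟨f, h⟩ else 0, ?_⟩
    rw [← Finset.sum_coe_sort S, ← hc]
    refine Finset.sum_congr rfl fun f _ => ?_
    simp [smul_eq_mul]
  obtain ⟨s, hs⟩ := hbez
  have hq : ∀ f : A[X], ∃ q, f ∈ S → φ f = g * q := by
    intro f
    by_cases hf : f ∈ S
    · obtain ⟨q, hq⟩ := hdvd f hf
      exact ⟨q, fun _ => hq⟩
    · exact ⟨0, fun h => absurd h hf⟩
  choose q hq using hq
  obtain ⟨a, ha, hclear⟩ := clear_fin (insert g (S.image q ∪ S.image s))
  obtain ⟨G, hG⟩ := hclear g (mem_insert_self _ _)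
  have h3 : ∀ f : A[X], ∃ P : A[X], f ∈ S → P.map (algebraMap A F) = C (algebraMap A F a) * q f := by
    intro f
    by_cases hf : f ∈ S
    · obtain ⟨P, hP⟩ := hclear (q f) (mem_insert_of_mem (mem_union_left _ (mem_image_of_mem _ hf)))
      exact ⟨P, fun _ => hP⟩
    · exact ⟨0, fun h => absurd h hf⟩
  have h4 : ∀ f : A[X], ∃ P : A[X], f ∈ S → P.map (algebraMap A F) = C (algebraMap A F a) * s f := by
    intro f
    by_cases hf : f ∈ S
    · obtain ⟨P, hP⟩ := hclear (s f) (mem_insert_of_mem (mem_union_right _ (mem_image_of_mem _ hf)))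
      exact ⟨P, fun _ => hP⟩
    · exact ⟨0, fun h => absurd h hf⟩
  choose til htil using h3
  choose s0 hs0 using h4
  have hCa : φ (C a) = C (algebraMap A F a) := by
    rw [hφ, coe_mapRingHom, map_C]
  have hG' : φ G = C (algebraMap A F a) * g := hG
  have haF : (C (algebraMap A F a) : F[X]) ≠ 0 := by
    rw [Ne, C_eq_zero]
    intro h
    exact ha ((IsFractionRing.injective A F) (by rw [h, map_zero]))
  refine ⟨a * a, G, til, s0, mul_ne_zero ha ha, ?_, ?_, ?_⟩
  · rintro rfl
    rw [map_zero] at hG'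
    exact (mul_ne_zero haF hg0) hG'.symm
  · intro f hf
    refine hinj ?_
    have h5 : φ (til f) = C (algebraMap A F a) * q f := htil f hf
    rw [C_mul, map_mul, map_mul, map_mul, hCa, hG', h5, hq f hf]; ring
  · refine hinj ?_
    rw [map_sum, C_mul, map_mul, hCa]
    have h6 : ∀ f ∈ S, φ (s0 f * til f) =
        C (algebraMap A F a) * C (algebraMap A F a) * (s f * q f) := by
      intro f hf
      have h5 : φ (til f) = C (algebraMap A F a) * q f := htil f hf
      have h7 : φ (s0 f) = C (algebraMap A F a) * s f := hs0 f hf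
      rw [map_mul, h5, h7]; ring
    rw [Finset.sum_congr rfl h6, ← Finset.mul_sum]
    have h8 : ∑ f ∈ S, s f * q f = 1 := by
      have h9 : g * ∑ f ∈ S, s f * q f = g * 1 := by
        rw [mul_one, Finset.mul_sum]
        conv_rhs => rw [← hs]
        refine Finset.sum_congr rfl fun f hf => ?_
        rw [hq f hf]; ring
      exact mul_left_cancel₀ hg0 h9
    rw [h8, mul_one]

end Gcd

/-! ### growth -/

/-- a bound `|P| ≤ M ∑ |Q_c|` on the whole plane implies `deg P ≤ max deg Q_c`. -/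
theorem natDegree_le_of_bound {ι : Type*} (s : Finset ι) {P : ℂ[X]} {Q : ι → ℂ[X]} {n : ℕ}
    (hQ : ∀ c ∈ s, (Q c).natDegree ≤ n) {M : ℝ}
    (h : ∀ z, ‖P.eval z‖ ≤ M * ∑ c ∈ s, ‖(Q c).eval z‖) : P.natDegree ≤ n := by
  by_contra hcon
  push Not at hcon
  set N := P.natDegree with hN
  have hP0 : P.coeff N ≠ 0 := by
    have : P ≠ 0 := by rintro rfl; simp at hN; omega
    rw [hN]; exact leadingCoeff_ne_zero.2 this
  have hM0 : (0 : ℝ) ≤ |M| := abs_nonneg _
  -- upper bound for Q
  have hub : ∀ t : ℝ, 1 ≤ t → ∀ c ∈ s, ‖(Q c).eval (t : ℂ)‖ ≤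
      (∑ k ∈ range (n + 1), ‖(Q c).coeff k‖) * t ^ (N - 1) := by
    intro t ht c hc
    rw [eval_eq_sum_range' (Nat.lt_succ_of_le (hQ c hc)), Finset.sum_mul]
    refine (norm_sum_le _ _).trans (Finset.sum_le_sum fun k hk => ?_)
    rw [norm_mul, norm_pow, Complex.norm_real, Real.norm_of_nonneg (by linarith)]
    refine mul_le_mul_of_nonneg_left ?_ (norm_nonneg _)
    exact pow_le_pow_right₀ ht (by have := mem_range.1 hk; omega)
  have hlb : ∀ t : ℝ, 1 ≤ t → ‖P.coeff N‖ * t ^ N ≤
      ‖P.eval (t : ℂ)‖ + (∑ k ∈ range N, ‖P.coeff k‖) * t ^ (N - 1) := by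
    intro t ht
    have h1 : P.eval (t : ℂ) = ∑ k ∈ range N, P.coeff k * (t : ℂ) ^ k + P.coeff N * (t : ℂ) ^ N := by
      rw [eval_eq_sum_range, Finset.sum_range_succ]
    have h2 : P.coeff N * (t : ℂ) ^ N = P.eval (t : ℂ) - ∑ k ∈ range N, P.coeff k * (t : ℂ) ^ k := by
      rw [h1]; ring
    have h3 : ‖P.coeff N * (t : ℂ) ^ N‖ = ‖P.coeff N‖ * t ^ N := by
      rw [norm_mul, norm_pow, Complex.norm_real, Real.norm_of_nonneg (by linarith)]
    rw [← h3, h2]
    refine (norm_sub_le _ _).trans (add_le_add le_rfl ?_)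
    rw [Finset.sum_mul]
    refine (norm_sum_le _ _).trans (Finset.sum_le_sum fun k hk => ?_)
    rw [norm_mul, norm_pow, Complex.norm_real, Real.norm_of_nonneg (by linarith)]
    refine mul_le_mul_of_nonneg_left ?_ (norm_nonneg _)
    exact pow_le_pow_right₀ ht (by have := mem_range.1 hk; omega)
  set K : ℝ := |M| * ∑ c ∈ s, ∑ k ∈ range (n + 1), ‖(Q c).coeff k‖ + ∑ k ∈ range N, ‖P.coeff k‖ with hK
  have hfin : ∀ t : ℝ, 1 ≤ t → ‖P.coeff N‖ * t ≤ K := by
    intro t ht
    have h4 : ‖P.coeff N‖ * t ^ N ≤ K * t ^ (N - 1) := by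
      refine (hlb t ht).trans ?_
      rw [hK, add_mul]
      refine add_le_add ((h _).trans ?_) le_rfl
      rw [mul_assoc, Finset.sum_mul]
      refine (mul_le_mul_of_nonneg_right (le_abs_self M)
        (Finset.sum_nonneg fun c _ => norm_nonneg _)).trans ?_
      exact mul_le_mul_of_nonneg_left (Finset.sum_le_sum fun c hc => hub t ht c hc) hM0
    have h5 : t ^ N = t * t ^ (N - 1) := by
      rw [← pow_succ']; congr 1; omega
    rw [h5, ← mul_assoc] at h4
    exact le_of_mul_le_mul_right h4 (by positivity)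
  have hpos : 0 < ‖P.coeff N‖ := norm_pos_iff.2 hP0
  have h6 := hfin (max 1 ((K + 1) / ‖P.coeff N‖)) (le_max_left _ _)
  have h7 : K + 1 ≤ ‖P.coeff N‖ * max 1 ((K + 1) / ‖P.coeff N‖) := by
    calc K + 1 = ‖P.coeff N‖ * ((K + 1) / ‖P.coeff N‖) := by field_simp
      _ ≤ _ := mul_le_mul_of_nonneg_left (le_max_right _ _) hpos.le
  linarith

end Crest.Agent.R273.LemU_619
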