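import Crest.Agent.R273.LemUD_619
import Mathlib.Topology.Order.Lattice

/-!
R273 (S0416), Part A, LEMMA U over a model, file E (helper619): the transcendental step.
-/

set_option autoImplicit false

open Finset
open scoped NNReal

namespace Crest.Agent.R273.LemU_619

universe w

open Polynomial

section Tr

variable {A B : Type w} [CommRing A] [Algebra ℂ A] [CommRing B] [Algebra ℂ B] [Algebra A B]
  [IsScalarTower ℂ A B]

/-- the size of a family of polynomials at `(x, ζ)` -/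
noncomputable def nev (x : A →ₐ[ℂ] ℂ) (ζ : ℂ) (t : B → A[X]) (S : Finset B) : ℝ≥0 :=
  S.sup fun b => ‖ev x ζ (t b)‖₊

omit [CommRing B] [Algebra ℂ B] [Algebra A B] [IsScalarTower ℂ A B] in
theorem le_nev {x : A →ₐ[ℂ] ℂ} {ζ : ℂ} {t : B → A[X]} {S : Finset B} {b : B} (hb : b ∈ S) :
    ‖ev x ζ (t b)‖₊ ≤ nev x ζ t S :=
  Finset.le_sup (f := fun b => ‖ev x ζ (t b)‖₊) hb

omit [CommRing B] [Algebra ℂ B] [Algebra A B] [IsScalarTower ℂ A B] in
theorem continuous_nev (x : A →ₐ[ℂ] ℂ) (t : B → A[X]) (S : Finset B) :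
    Continuous fun ζ => nev x ζ t S := by
  unfold nev
  refine Continuous.finset_sup_apply fun b _ => ?_
  refine Continuous.nnnorm ?_
  simp only [ev_eq_eval]
  exact Polynomial.continuous _

/-- vacuous case -/
theorem stp_vacuous [IsDomain A] {α' β' : Finset B} {g' : B} (hg' : g' ≠ 0) {h : A} (hh : h ≠ 0)
    (hv : ∀ x : A →ₐ[ℂ] ℂ, x h ≠ 0 → ∀ M : ℝ≥0,
      ¬ ∀ x' : B →ₐ[ℂ] ℂ, res A x' = x → x' g' ≠ 0 → nm x' α' ≤ M * nm x' β') :
    ∃ (e : ℕ) (C : ℝ≥0) (α β : Finset A) (h' : B) (h : A), 1 ≤ e ∧ (∃ b ∈ β, b ≠ 0) ∧ g' ∣ h' ∧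
      h' ≠ 0 ∧ h ≠ 0 ∧ ∀ x : A →ₐ[ℂ] ℂ, x h ≠ 0 → nm x β ≠ 0 ∧
        ∀ M : ℝ≥0, (∀ x' : B →ₐ[ℂ] ℂ, res A x' = x → x' h' ≠ 0 → nm x' α' ≤ M * nm x' β') →
          nm x α ≤ C * M ^ e * nm x β ∧
          ∀ x' : B →ₐ[ℂ] ℂ, res A x' = x → x' h' ≠ 0 →
            nm x' α' ^ e * nm x β ≤ C * nm x α * nm x' β' ^ e := by
  refine ⟨1, 1, {1}, {1}, g', h, le_rfl, ⟨1, mem_singleton_self _, one_ne_zero⟩, dvd_rfl, hg', hh, ?_⟩
  intro x hx
  refine ⟨nm_ne_zero (mem_singleton_self 1) (by rw [map_one]; exact one_ne_zero), fun M hM => ?_⟩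
  exact absurd hM (hv x hx M)

/-- The transcendental step. -/
theorem stp_trans [IsDomain A] [IsDomain B] {z : B} (hz : Algebra.adjoin A {z} = ⊤)
    (hzt : Transcendental A z) : Stp A B := by
  classical
  have hsurj : Function.Surjective (aeval (R := A) z) := by
    intro b
    have h1 : b ∈ Algebra.adjoin A {z} := by rw [hz]; exact Algebra.mem_top
    rw [Algebra.adjoin_singleton_eq_range_aeval] at h1
    exact h1
  have hker : ∀ p : A[X], aeval z p = 0 → p = 0 := fun p hp => by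
    by_contra hp0
    exact hzt ⟨p, hp0, hp⟩
  intro α' β' g' hβ' hg'
  choose rep hrep using hsurj
  obtain ⟨b0, hb0, hb0'⟩ := hβ'
  have hrep0 : ∀ b : B, b ≠ 0 → rep b ≠ 0 := by
    intro b hb h0
    exact hb (by rw [← hrep b, h0, map_zero])
  obtain ⟨a, G, til, s, ha, hG, htil, hbez⟩ := gcd_data ((α' ∪ β').image rep)
    ⟨rep b0, mem_image_of_mem _ (mem_union_right _ hb0), hrep0 b0 hb0'⟩
  set t : B → A[X] := fun b => til (rep b) with ht
  have htb : ∀ b ∈ α' ∪ β', C a * rep b = G * t b := fun b hb => htil _ (mem_image_of_mem _ hb)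
  have ht0 : t b0 ≠ 0 := by
    intro h0
    have h1 := htb b0 (mem_union_right _ hb0)
    rw [h0, mul_zero] at h1
    exact (mul_ne_zero (C_ne_zero.2 ha) (hrep0 b0 hb0')) h1
  set DQ := β'.sup fun c => (t c).natDegree with hDQ
  set DP := α'.sup fun b => (t b).natDegree with hDP
  obtain ⟨c1, hc1, hc1D, hc10⟩ : ∃ c1 ∈ β', (t c1).natDegree = DQ ∧ t c1 ≠ 0 := by
    obtain ⟨c1, hc1, h1⟩ := Finset.exists_mem_eq_sup β' ⟨b0, hb0⟩ fun c => (t c).natDegree
    by_cases h2 : t c1 = 0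
    · refine ⟨b0, hb0, ?_, ht0⟩
      have h3 : DQ = 0 := by rw [hDQ, h1]; simp [h2]
      have h4 : (t b0).natDegree ≤ DQ := Finset.le_sup (f := fun c => (t c).natDegree) hb0
      omega
    · exact ⟨c1, hc1, h1.symm, h2⟩
  obtain ⟨pa, hpa, hpaD⟩ : ∃ pa : A, pa ≠ 0 ∧ ∀ x : A →ₐ[ℂ] ℂ, x pa ≠ 0 → ∀ n : ℕ,
      (∀ b ∈ α', ((t b).map (x : A →+* ℂ)).natDegree ≤ n) → DP ≤ n := by
    by_cases h1 : DP = 0
    · exact ⟨1, one_ne_zero, fun x _ n _ => by omega⟩
    · have hne : α'.Nonempty := by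
        rw [nonempty_iff_ne_empty]
        rintro h2
        apply h1
        rw [hDP, h2, sup_empty]; rfl
      obtain ⟨b1, hb1, h2⟩ := Finset.exists_mem_eq_sup α' hne fun c => (t c).natDegree
      have h3 : t b1 ≠ 0 := by
        intro h3
        apply h1
        rw [hDP, h2]; simp [h3]
      refine ⟨(t b1).leadingCoeff, leadingCoeff_ne_zero.2 h3, fun x hx n hn => ?_⟩
      have h4 := hn b1 hb1
      have h5 : ((t b1).map (x : A →+* ℂ)).natDegree = (t b1).natDegree :=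
        natDegree_map_of_leadingCoeff_ne_zero _ hx
      rw [h5] at h4
      rw [hDP, h2]; exact h4
  set qa := (t c1).leadingCoeff with hqa
  have hqa0 : qa ≠ 0 := leadingCoeff_ne_zero.2 hc10
  set h0 : A := a * G.leadingCoeff * (rep g').leadingCoeff * qa * pa with hh0
  have hh0' : h0 ≠ 0 := mul_ne_zero (mul_ne_zero (mul_ne_zero (mul_ne_zero ha
    (leadingCoeff_ne_zero.2 hG)) (leadingCoeff_ne_zero.2 (hrep0 g' hg'))) hqa0) hpa
  -- the facts at a point
  have hxa : ∀ x : A →ₐ[ℂ] ℂ, x h0 ≠ 0 → x a ≠ 0 ∧ x G.leadingCoeff ≠ 0 ∧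
      x (rep g').leadingCoeff ≠ 0 ∧ x qa ≠ 0 ∧ x pa ≠ 0 := by
    intro x hx
    rw [hh0, map_mul, map_mul, map_mul, map_mul] at hx
    exact ⟨left_ne_zero_of_mul (left_ne_zero_of_mul (left_ne_zero_of_mul (left_ne_zero_of_mul hx))),
      right_ne_zero_of_mul (left_ne_zero_of_mul (left_ne_zero_of_mul (left_ne_zero_of_mul hx))),
      right_ne_zero_of_mul (left_ne_zero_of_mul (left_ne_zero_of_mul hx)),
      right_ne_zero_of_mul (left_ne_zero_of_mul hx), right_ne_zero_of_mul hx⟩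
  have hval : ∀ (x' : B →ₐ[ℂ] ℂ) (b : B), x' b = ev (res A x') (x' z) (rep b) := by
    intro x' b
    rw [← apply_aeval, hrep]
  have hval2 : ∀ (x' : B →ₐ[ℂ] ℂ) (b : B), b ∈ α' ∪ β' →
      ‖res A x' a‖₊ * ‖x' b‖₊ = ‖ev (res A x') (x' z) G‖₊ * ‖ev (res A x') (x' z) (t b)‖₊ := by
    intro x' b hb
    rw [hval x' b, ← nnnorm_mul, ← nnnorm_mul, ← map_mul, ← htb b hb, map_mul, ev_C]
  have hnm : ∀ (x' : B →ₐ[ℂ] ℂ) (S : Finset B), S ⊆ α' ∪ β' →
      ‖res A x' a‖₊ * nm x' S = ‖ev (res A x') (x' z) G‖₊ * nev (res A x') (x' z) t S := by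
    intro x' S hS
    unfold nm nev
    rw [NNReal.mul_finset_sup, NNReal.mul_finset_sup]
    exact Finset.sup_congr rfl fun b hb => hval2 x' b (hS hb)
  have hlift : ∀ (x : A →ₐ[ℂ] ℂ) (ζ : ℂ), ∃ x' : B →ₐ[ℂ] ℂ, res A x' = x ∧ x' z = ζ := fun x ζ =>
    exists_lift (fun b => ⟨rep b, hrep b⟩) x ζ fun p hp => by rw [hker p hp, map_zero]
  -- the bound holds on the whole fibre
  have hbd : ∀ x : A →ₐ[ℂ] ℂ, x h0 ≠ 0 → ∀ M : ℝ≥0,
      (∀ x' : B →ₐ[ℂ] ℂ, res A x' = x → x' g' ≠ 0 → nm x' α' ≤ M * nm x' β') →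
      ∀ ζ, nev x ζ t α' ≤ M * nev x ζ t β' := by
    intro x hx M hM ζ
    obtain ⟨x1, x2, x3, x4, x5⟩ := hxa x hx
    set F : ℂ[X] := (G * rep g').map (x : A →+* ℂ) with hF
    have hF0 : F ≠ 0 := by
      rw [hF, Polynomial.map_mul]
      refine mul_ne_zero ?_ ?_
      · exact fun h => x2 (by
          have := congrArg (fun p => p.coeff G.natDegree) h
          simpa using this)
      · exact fun h => x3 (by
          have := congrArg (fun p => p.coeff (rep g').natDegree) h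
          simpa using this)
    have hdense : Dense ({w : ℂ | F.eval w = 0}ᶜ) := by
      refine Set.Countable.dense_compl ℂ ?_
      refine Set.Finite.countable ?_
      refine (F.roots.toFinset.finite_toSet).subset fun w hw => ?_
      rw [mem_coe, Multiset.mem_toFinset, mem_roots hF0]
      exact hw
    have hcl : IsClosed {w : ℂ | nev x w t α' ≤ M * nev x w t β'} :=
      isClosed_le (continuous_nev x t α') (continuous_const.mul (continuous_nev x t β'))
    have hsub : {w : ℂ | F.eval w = 0}ᶜ ⊆ {w : ℂ | nev x w t α' ≤ M * nev x w t β'} := by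
      intro w hw
      have hw' : ev x w G * ev x w (rep g') ≠ 0 := by
        rw [← map_mul, ev_eq_eval]; exact hw
      obtain ⟨x', hx', hx'z⟩ := hlift x w
      have h1 := hM x' hx' (by
        rw [hval x' g', hx', hx'z]; exact right_ne_zero_of_mul hw')
      have h2 := hnm x' α' subset_union_left
      have h3 := hnm x' β' subset_union_right
      rw [hx', hx'z] at h2 h3
      have hGpos : 0 < ‖ev x w G‖₊ := nnnorm_pos.2 (left_ne_zero_of_mul hw')
      refine le_of_mul_le_mul_left ?_ hGpos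
      calc ‖ev x w G‖₊ * nev x w t α' = ‖x a‖₊ * nm x' α' := h2.symm
        _ ≤ ‖x a‖₊ * (M * nm x' β') := mul_le_mul' le_rfl h1
        _ = M * (‖x a‖₊ * nm x' β') := by ring
        _ = ‖ev x w G‖₊ * (M * nev x w t β') := by rw [h3]; ring
    have h4 : ζ ∈ closure ({w : ℂ | F.eval w = 0}ᶜ) := hdense ζ
    exact hcl.closure_subset_iff.2 hsub h4
  have hDQb : ∀ x : A →ₐ[ℂ] ℂ, ∀ c ∈ β', ((t c).map (x : A →+* ℂ)).natDegree ≤ DQ := fun x c hc =>
    natDegree_map_le.trans (Finset.le_sup (f := fun c => (t c).natDegree) hc)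
  have hDPb : ∀ x : A →ₐ[ℂ] ℂ, ∀ c ∈ α', ((t c).map (x : A →+* ℂ)).natDegree ≤ DP := fun x c hc =>
    natDegree_map_le.trans (Finset.le_sup (f := fun c => (t c).natDegree) hc)
  -- case DQ < DP
  by_cases hcase1 : DQ < DP
  · refine stp_vacuous hg' hh0' fun x hx M hM => ?_
    have h1 := hbd x hx M hM
    obtain ⟨x1, x2, x3, x4, x5⟩ := hxa x hx
    have h2 : DP ≤ DQ := by
      refine hpaD x x5 DQ fun b hb => ?_
      refine natDegree_le_of_bound β' (Q := fun c => (t c).map (x : A →+* ℂ)) (M := M)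
        (hDQb x) fun ζ => ?_
      have h3 : ‖ev x ζ (t b)‖₊ ≤ M * ∑ c ∈ β', ‖ev x ζ (t c)‖₊ := by
        refine (le_nev hb).trans ((h1 ζ).trans (mul_le_mul' le_rfl ?_))
        unfold nev
        refine Finset.sup_le fun c hc => ?_
        exact Finset.single_le_sum (f := fun c => ‖ev x ζ (t c)‖₊) (fun _ _ => zero_le) hc
      have h4 := NNReal.coe_le_coe.2 h3
      push_cast at h4
      simpa only [ev_eq_eval] using h4
    omega
  push Not at hcase1
  -- nonvanishing of `Q`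
  have hQ0 : ∀ x : A →ₐ[ℂ] ℂ, x h0 ≠ 0 → ∀ M : ℝ≥0,
      (∀ x' : B →ₐ[ℂ] ℂ, res A x' = x → x' g' ≠ 0 → nm x' α' ≤ M * nm x' β') →
      ∀ ζ, ∃ c ∈ β', ev x ζ (t c) ≠ 0 := by
    intro x hx M hM ζ
    by_contra hcon
    push Not at hcon
    obtain ⟨x1, x2, x3, x4, x5⟩ := hxa x hx
    have h1 : nev x ζ t β' = 0 := by
      refine le_antisymm (Finset.sup_le fun c hc => ?_) zero_le
      rw [hcon c hc, nnnorm_zero]
    have h2 := hbd x hx M hM ζ
    rw [h1, mul_zero] at h2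
    have h3 : ∀ b ∈ α' ∪ β', ev x ζ (t b) = 0 := by
      intro b hb
      rcases mem_union.1 hb with hb | hb
      · exact nnnorm_eq_zero.1 (le_antisymm ((le_nev hb).trans h2) zero_le)
      · exact hcon b hb
    have h4 := congrArg (ev x ζ) hbez
    rw [map_sum, ev_C] at h4
    refine x1 (h4.symm.trans (Finset.sum_eq_zero fun f hf => ?_))
    obtain ⟨b, hb, rfl⟩ := mem_image.1 hf
    rw [map_mul]
    have := h3 b hb
    rw [ht] at this
    rw [this, mul_zero]
  by_cases hcase2 : DQ = 0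
  · -- constants
    have hconst : ∀ b ∈ α' ∪ β', t b = C ((t b).coeff 0) := by
      intro b hb
      refine eq_C_of_natDegree_eq_zero ?_
      rcases mem_union.1 hb with hb | hb
      · have h1 : (t b).natDegree ≤ DP := Finset.le_sup (f := fun c => (t c).natDegree) hb
        omega
      · have h1 : (t b).natDegree ≤ DQ := Finset.le_sup (f := fun c => (t c).natDegree) hb
        omega
    have hnc : ∀ (x : A →ₐ[ℂ] ℂ) (ζ : ℂ) (S : Finset B), S ⊆ α' ∪ β' →
        nm x (S.image fun b => (t b).coeff 0) = nev x ζ t S := by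
      intro x ζ S hS
      unfold nm nev
      rw [Finset.sup_image]
      refine Finset.sup_congr rfl fun b hb => ?_
      rw [hconst b (hS hb), ev_C]
      simp
    have hqac : qa = (t c1).coeff 0 := by
      rw [hqa, leadingCoeff, hc1D, hcase2]
    refine ⟨1, 1, α'.image fun b => (t b).coeff 0, β'.image fun b => (t b).coeff 0, g', h0, le_rfl,
      ⟨_, mem_image_of_mem _ hc1, by rw [← hqac]; exact hqa0⟩, dvd_rfl, hg', hh0', ?_⟩
    intro x hx
    obtain ⟨x1, x2, x3, x4, x5⟩ := hxa x hx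
    refine ⟨nm_ne_zero (mem_image_of_mem (fun b => (t b).coeff 0) hc1) (by
      change x ((t c1).coeff 0) ≠ 0
      rw [← hqac]; exact x4), fun M hM => ⟨?_, ?_⟩⟩
    · rw [hnc x 0 α' subset_union_left, hnc x 0 β' subset_union_right, one_mul, pow_one]
      exact hbd x hx M hM 0
    · intro x' hx' _
      rw [pow_one, pow_one, one_mul]
      have h2 := hnm x' α' subset_union_left
      have h3 := hnm x' β' subset_union_right
      rw [hx'] at h2 h3
      rw [hnc x (x' z) α' subset_union_left, hnc x (x' z) β' subset_union_right]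
      have hapos : 0 < ‖x a‖₊ := nnnorm_pos.2 x1
      refine le_of_mul_le_mul_left (le_of_eq ?_) hapos
      calc ‖x a‖₊ * (nm x' α' * nev x (x' z) t β')
          = (‖x a‖₊ * nm x' α') * nev x (x' z) t β' := by ring
        _ = nev x (x' z) t α' * (‖ev x (x' z) G‖₊ * nev x (x' z) t β') := by rw [h2]; ring
        _ = ‖x a‖₊ * (nev x (x' z) t α' * nm x' β') := by rw [← h3]; ring
  -- the main case
  have hD1 : 1 ≤ DQ := Nat.one_le_iff_ne_zero.2 hcase2
  set l := α'.card with hl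
  set m := β'.card with hm
  obtain ⟨J, C0, R, HR⟩ := U2s_145.u2Stmt DQ l m hD1
  set Pt : Fin l → A[X] := fun i => t (α'.equivFin.symm i : B) with hPt
  set Qt : Fin m → A[X] := fun i => t (β'.equivFin.symm i : B) with hQt
  set vA : (Fin l ⊕ Fin m) × Fin (DQ + 1) → A := fun i => (Sum.elim Pt Qt i.1).coeff i.2 with hvA
  set RA : ℕ → Finset A := fun j => (R j).image fun r => MvPolynomial.aeval vA r with hRA
  have hPex : ∀ b ∈ α', ∃ i, t b = Pt i := fun b hb => ⟨α'.equivFin ⟨b, hb⟩, by simp [hPt]⟩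
  have hQex : ∀ b ∈ β', ∃ i, t b = Qt i := fun b hb => ⟨β'.equivFin ⟨b, hb⟩, by simp [hQt]⟩
  have hPmem : ∀ i, ∃ b ∈ α', t b = Pt i := fun i => ⟨_, (α'.equivFin.symm i).2, rfl⟩
  have hQmem : ∀ i, ∃ b ∈ β', t b = Qt i := fun i => ⟨_, (β'.equivFin.symm i).2, rfl⟩
  -- U2 at a point
  have HU : ∀ x : A →ₐ[ℂ] ℂ, x h0 ≠ 0 → ∀ M : ℝ≥0,
      (∀ x' : B →ₐ[ℂ] ℂ, res A x' = x → x' g' ≠ 0 → nm x' α' ≤ M * nm x' β') →
      nm x (RA 0) ≠ 0 ∧ (∀ j, nm x (RA j) ≤ C0 * M ^ j * nm x (RA 0)) ∧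
      ∀ (M1 : ℝ≥0) (ζ : ℂ), α'.Nonempty → M1 * nev x ζ t β' ≤ nev x ζ t α' →
        ∃ j, 1 ≤ j ∧ j ≤ J ∧ M1 ^ j * nm x (RA 0) ≤ C0 * nm x (RA j) := by
    intro x hx M hM
    obtain ⟨x1, x2, x3, x4, x5⟩ := hxa x hx
    have hN : ∀ j, nm x (RA j) = (R j).sup fun r => ‖MvPolynomial.eval
        (fun i : (Fin l ⊕ Fin m) × Fin (DQ + 1) =>
          (Sum.elim (fun i => (Pt i).map (x : A →+* ℂ)) (fun i => (Qt i).map (x : A →+* ℂ)) i.1).coeff
            i.2) r‖₊ := by
      intro j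
      unfold nm
      rw [hRA, Finset.sup_image]
      refine Finset.sup_congr rfl fun r _ => ?_
      simp only [Function.comp_apply]
      congr 1
      have h5 : x (MvPolynomial.aeval vA r) = MvPolynomial.aeval (fun i => x (vA i)) r := by
        rw [← MvPolynomial.comp_aeval_apply]
      rw [h5, MvPolynomial.aeval_eq_eval]
      congr 1
      congr 1
      funext i
      rcases i with ⟨i | i, k⟩ <;> simp [hvA]
    have HU' := HR (fun i => (Pt i).map (x : A →+* ℂ)) (fun i => (Qt i).map (x : A →+* ℂ))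
      (fun i => by
        obtain ⟨b, hb, hbi⟩ := hPmem i
        change ((Pt i).map (x : A →+* ℂ)).natDegree ≤ DQ
        rw [← hbi]; exact (hDPb x b hb).trans hcase1)
      (fun i => by
        obtain ⟨b, hb, hbi⟩ := hQmem i
        change ((Qt i).map (x : A →+* ℂ)).natDegree ≤ DQ
        rw [← hbi]; exact hDQb x b hb)
      (by
        obtain ⟨i, hi⟩ := hQex c1 hc1
        refine ⟨i, ?_⟩
        change ((Qt i).map (x : A →+* ℂ)).coeff DQ ≠ 0
        rw [← hi, coeff_map, ← hc1D]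
        exact x4)
      (fun ζ => by
        obtain ⟨c, hc, hc0⟩ := hQ0 x hx M hM ζ
        obtain ⟨i, hi⟩ := hQex c hc
        refine ⟨i, ?_⟩
        change ((Qt i).map (x : A →+* ℂ)).eval ζ ≠ 0
        rw [← hi, ← ev_eq_eval]
        exact hc0)
    obtain ⟨u1, u2, u3⟩ := HU'
    simp only [← hN] at u1 u2 u3
    refine ⟨u1, ?_, ?_⟩
    · refine u2 M fun ζ i => ?_
      obtain ⟨b, hb, hbi⟩ := hPmem i
      have h1 := hbd x hx M hM ζ
      obtain ⟨c, hc, hc'⟩ := Finset.exists_mem_eq_sup β' ⟨b0, hb0⟩ fun b => ‖ev x ζ (t b)‖₊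
      obtain ⟨k, hk⟩ := hQex c hc
      refine ⟨k, ?_⟩
      rw [← hbi, ← hk, ← ev_eq_eval, ← ev_eq_eval]
      refine (le_nev hb).trans (h1.trans (mul_le_mul' le_rfl (le_of_eq ?_)))
      exact hc'
    · intro M1 ζ hne h1
      refine u3 M1 ζ ?_
      obtain ⟨b, hb, hb'⟩ := Finset.exists_mem_eq_sup α' hne fun b => ‖ev x ζ (t b)‖₊
      obtain ⟨i, hi⟩ := hPex b hb
      refine ⟨i, fun k => ?_⟩
      obtain ⟨c, hc, hck⟩ := hQmem k
      rw [← hi, ← hck, ← ev_eq_eval, ← ev_eq_eval]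
      refine (mul_le_mul' le_rfl (le_nev hc)).trans (h1.trans (le_of_eq ?_))
      exact hb'
  by_cases hR0 : ∃ r ∈ RA 0, r ≠ 0
  · obtain ⟨r0, hr0, hr0'⟩ := hR0
    obtain ⟨e, α, β, he, hβ, hlcm⟩ := lcm_trick J RA ⟨r0, hr0⟩
    set C1 : ℝ≥0 := max 1 C0 with hC1
    refine ⟨e, C1 ^ e, α, β, g', h0 * r0, he, hβ ⟨r0, hr0, hr0'⟩, dvd_rfl, hg',
      mul_ne_zero hh0' hr0', ?_⟩
    intro x hx
    rw [map_mul] at hx
    have hx0 := left_ne_zero_of_mul hx
    obtain ⟨x1, x2, x3, x4, x5⟩ := hxa x hx0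
    obtain ⟨l1, l2, l3⟩ := hlcm x
    have hnR0 : nm x (RA 0) ≠ 0 := nm_ne_zero hr0 (right_ne_zero_of_mul hx)
    refine ⟨by rw [l1]; exact pow_ne_zero _ hnR0, fun M hM => ?_⟩
    obtain ⟨u1, u2, u3⟩ := HU x hx0 M hM
    constructor
    · refine l2 C1 M (le_max_left _ _) fun j _ _ => ?_
      exact (u2 j).trans (mul_le_mul' (mul_le_mul' (le_max_right _ _) le_rfl) le_rfl)
    · intro x' hx' _
      by_cases hne : α'.Nonempty
      · have h2 := hnm x' α' subset_union_left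
        have h3 := hnm x' β' subset_union_right
        rw [hx'] at h2 h3
        set pP := nev x (x' z) t α' with hpP
        set pQ := nev x (x' z) t β' with hpQ
        have hpQ0 : pQ ≠ 0 := by
          obtain ⟨c, hc, hc0⟩ := hQ0 x hx0 M hM (x' z)
          intro h4
          have h5 := le_nev (x := x) (ζ := x' z) (t := t) hc
          rw [← hpQ, h4] at h5
          exact hc0 (nnnorm_eq_zero.1 (le_antisymm h5 zero_le))
        set M1 := pP / pQ with hM1
        have hM1' : M1 * pQ = pP := div_mul_cancel₀ _ hpQ0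
        obtain ⟨j, hj1, hjJ, hj⟩ := u3 M1 (x' z) hne hM1'.le
        have h4 : M1 ^ e * nm x β ≤ C1 ^ e * nm x α := by
          refine l3 C1 M1 (le_max_left _ _) ⟨j, hj1, hjJ, hj.trans ?_⟩
          exact mul_le_mul' (le_max_right _ _) le_rfl
        have hapos : 0 < ‖x a‖₊ ^ e := pow_pos (nnnorm_pos.2 x1) _
        refine le_of_mul_le_mul_left ?_ hapos
        calc ‖x a‖₊ ^ e * (nm x' α' ^ e * nm x β)
            = (‖x a‖₊ * nm x' α') ^ e * nm x β := by rw [mul_pow]; ring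
          _ = (‖ev x (x' z) G‖₊ * pP) ^ e * nm x β := by rw [h2]
          _ = (‖ev x (x' z) G‖₊ * pQ) ^ e * (M1 ^ e * nm x β) := by
              rw [← hM1', mul_pow, mul_pow, mul_pow]; ring
          _ ≤ (‖ev x (x' z) G‖₊ * pQ) ^ e * (C1 ^ e * nm x α) := mul_le_mul' le_rfl h4
          _ = (‖x a‖₊ * nm x' β') ^ e * (C1 ^ e * nm x α) := by rw [h3]
          _ = ‖x a‖₊ ^ e * (C1 ^ e * nm x α * nm x' β' ^ e) := by rw [mul_pow]; ring
      · rw [not_nonempty_iff_eq_empty] at hne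
        have h1 : nm x' α' = 0 := by rw [hne]; rfl
        rw [h1, zero_pow (by omega), zero_mul]
        exact zero_le
  · push Not at hR0
    refine stp_vacuous hg' hh0' fun x hx M hM => ?_
    refine (HU x hx M hM).1 (le_antisymm (nm_le fun r hr => ?_) zero_le)
    rw [hR0 r hr, map_zero, nnnorm_zero]

end Tr

end Crest.Agent.R273.LemU_619
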