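import Crest.Agent.R273.LemU_619
import Mathlib.Analysis.SpecialFunctions.Sqrt

/-!
R273 (S0416), Part A, LEMMA U (helper619): the form used by the master file of Part A. `X` is the set of
points of the geometric model, `E x` the evaluation at `x`, `Q x` the square of the size of `λ`.
-/

set_option autoImplicit false

open Finset
open scoped NNReal

namespace Crest.Agent.R273.LemU_619

universe w

/-- enumeration of a finite set starting with a given element -/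
theorem exists_enum {T : Type*} (c : Finset T) {p0 : T} (h0 : p0 ∈ c) :
    ∃ (m : ℕ) (p : ℕ → T), p 0 = p0 ∧ (∀ j, p j ∈ c) ∧ ∀ q ∈ c, ∃ j, j ≤ m ∧ p j = q := by
  classical
  refine ⟨c.card, fun j => if h : 0 < j ∧ j ≤ c.card then
    (c.equivFin.symm ⟨j - 1, by omega⟩ : T) else p0, by simp, ?_, ?_⟩
  · intro j
    dsimp only
    by_cases h : 0 < j ∧ j ≤ c.card
    · rw [dif_pos h]; exact (c.equivFin.symm _).2
    · rw [dif_neg h]; exact h0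
  · intro q hq
    have hk := (c.equivFin ⟨q, hq⟩).2
    refine ⟨(c.equivFin ⟨q, hq⟩ : ℕ) + 1, hk, ?_⟩
    dsimp only
    rw [dif_pos ⟨Nat.succ_pos _, hk⟩]
    simp

/-- the sum of squares and the sup -/
theorem sum_sq_bounds {s : ℕ} (y : Fin s → ℂ) {c : Finset (MvPolynomial (Fin s) ℂ)} {m : ℕ}
    {p : ℕ → MvPolynomial (Fin s) ℂ} (hp : ∀ j, p j ∈ c) (hq : ∀ q ∈ c, ∃ j, j ≤ m ∧ p j = q) :
    (pnm y c : ℝ) ^ 2 ≤ ∑ j : Fin (m + 1), ‖MvPolynomial.eval y (p j)‖ ^ 2 ∧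
    ∑ j : Fin (m + 1), ‖MvPolynomial.eval y (p j)‖ ^ 2 ≤ (m + 1) * (pnm y c : ℝ) ^ 2 := by
  constructor
  · obtain ⟨q, hqc, hq1⟩ := Finset.exists_mem_eq_sup c ⟨p 0, hp 0⟩ fun p => ‖MvPolynomial.eval y p‖₊
    obtain ⟨j, hj, hj'⟩ := hq q hqc
    have h1 : (pnm y c : ℝ) = ‖MvPolynomial.eval y (p j)‖ := by
      unfold pnm
      rw [hq1, hj']; rfl
    rw [h1]
    set k : Fin (m + 1) := ⟨j, Nat.lt_succ_of_le hj⟩ with hk
    have hkj : (k : ℕ) = j := rfl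
    set f : ℕ → ℝ := fun j => ‖MvPolynomial.eval y (p j)‖ ^ 2 with hf
    have h2 : ∀ i ∈ (univ : Finset (Fin (m + 1))), 0 ≤ f i := fun i _ => by
      rw [hf]; exact sq_nonneg _
    have h3 : f k ≤ ∑ i : Fin (m + 1), f i := Finset.single_le_sum h2 (mem_univ k)
    rw [hkj] at h3
    exact h3
  · have h2 : ∀ j : Fin (m + 1), ‖MvPolynomial.eval y (p j)‖ ^ 2 ≤ (pnm y c : ℝ) ^ 2 := by
      intro j
      have h3 : ‖MvPolynomial.eval y (p j)‖ ≤ (pnm y c : ℝ) := by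
        exact_mod_cast le_pnm (y := y) (hp j)
      exact pow_le_pow_left₀ (norm_nonneg _) h3 2
    calc ∑ j : Fin (m + 1), ‖MvPolynomial.eval y (p j)‖ ^ 2
        ≤ ∑ j : Fin (m + 1), (pnm y c : ℝ) ^ 2 := Finset.sum_le_sum fun j _ => h2 j
      _ = (m + 1) * (pnm y c : ℝ) ^ 2 := by
          rw [Finset.sum_const, card_univ, Fintype.card_fin, nsmul_eq_mul]; push_cast; ring

/-- LEMMA U on a geometric model. `hE`: every point of the algebra outside `g = 0` is a geometric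
point; `hq1`, `hq2`: `Q` is comparable to the square of the ratio; `hbd`: `Q` is bounded on the generic
fibres. -/
theorem model {X : Type*} {B : Type w} [CommRing B] [IsDomain B] [Algebra ℂ B]
    [Algebra.FiniteType ℂ B] (E : X → (B →ₐ[ℂ] ℂ)) {s : ℕ} (u : Fin s → B) (α β : Finset B)
    (hα : ∃ a ∈ α, a ≠ 0) (hβ : ∃ b ∈ β, b ≠ 0) {g : B} (hg : g ≠ 0)
    (hE : ∀ χ : B →ₐ[ℂ] ℂ, χ g ≠ 0 → ∃ x, E x = χ) (Q : X → ℝ) (hQ : ∀ x, 0 ≤ Q x) {K : ℝ}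
    (hK : 0 < K)
    (hq1 : ∀ x, E x g ≠ 0 → (nm (E x) α : ℝ) ^ 2 ≤ K * Q x * (nm (E x) β : ℝ) ^ 2)
    (hq2 : ∀ x, E x g ≠ 0 → Q x * (nm (E x) β : ℝ) ^ 2 ≤ K * (nm (E x) α : ℝ) ^ 2)
    (hbd : ∃ g0 : B, g0 ≠ 0 ∧ ∀ x, E x g0 ≠ 0 → ∃ b : ℝ, ∀ x', (∀ l, E x' (u l) = E x (u l)) →
      E x' g0 ≠ 0 → Q x' ≤ b) :
    ∃ (e : ℕ) (p p' : ℕ → MvPolynomial (Fin s) ℂ) (m m' : ℕ) (h : B), 0 < e ∧ g ∣ h ∧ h ≠ 0 ∧
      (∀ x, E x h ≠ 0 → MvPolynomial.eval (fun l => E x (u l)) (p 0) ≠ 0) ∧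
      (∀ x, E x h ≠ 0 → MvPolynomial.eval (fun l => E x (u l)) (p' 0) ≠ 0) ∧
      (∃ C : ℝ, 0 < C ∧ ∀ x, E x h ≠ 0 →
        Q x ^ e * ∑ j : Fin (m' + 1), ‖MvPolynomial.eval (fun l => E x (u l)) (p' j)‖ ^ 2 ≤
          C * ∑ j : Fin (m + 1), ‖MvPolynomial.eval (fun l => E x (u l)) (p j)‖ ^ 2) ∧
      (∃ C : ℝ, 0 < C ∧ ∀ x, E x h ≠ 0 → ∀ b : ℝ, 0 ≤ b →
        (∀ x', E x' h ≠ 0 → (∀ l, E x' (u l) = E x (u l)) → Q x' ≤ b) →
          ∑ j : Fin (m + 1), ‖MvPolynomial.eval (fun l => E x (u l)) (p j)‖ ^ 2 ≤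
            C * b ^ e *
              ∑ j : Fin (m' + 1), ‖MvPolynomial.eval (fun l => E x (u l)) (p' j)‖ ^ 2) := by
  classical
  obtain ⟨g0, hg0, hbd⟩ := hbd
  obtain ⟨b0, hb0, hb0'⟩ := hβ
  obtain ⟨a0, ha0, ha0'⟩ := hα
  set gg : B := g * g0 * b0 with hgg
  have hgg0 : gg ≠ 0 := mul_ne_zero (mul_ne_zero hg hg0) hb0'
  obtain ⟨e, C, c, c', h, he, ⟨q0', hq0', hq0''⟩, ⟨kk, hkk⟩, hh, H⟩ :=
    lemU u α β ⟨b0, hb0, hb0'⟩ hgg0
  have hsplit : ∀ x : B →ₐ[ℂ] ℂ, x h ≠ 0 → x g ≠ 0 ∧ x g0 ≠ 0 ∧ x b0 ≠ 0 := by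
    intro x hx
    rw [hkk, hgg, map_mul, map_mul, map_mul] at hx
    exact ⟨left_ne_zero_of_mul (left_ne_zero_of_mul (left_ne_zero_of_mul hx)),
      right_ne_zero_of_mul (left_ne_zero_of_mul (left_ne_zero_of_mul hx)),
      right_ne_zero_of_mul (left_ne_zero_of_mul hx)⟩
  -- from a bound of `Q` to a bound of the ratio
  have hMof : ∀ (x : B →ₐ[ℂ] ℂ) (b : ℝ), 0 ≤ b → (∀ x' : X, (∀ l, E x' (u l) = x (u l)) →
      E x' h ≠ 0 → Q x' ≤ b) → ∀ x' : B →ₐ[ℂ] ℂ, (∀ i, x' (u i) = x (u i)) → x' h ≠ 0 →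
        nm x' α ≤ Real.toNNReal (Real.sqrt (K * b)) * nm x' β := by
    intro x b hb hx x' hx' hx'h
    obtain ⟨x1, rfl⟩ := hE x' (hsplit x' hx'h).1
    have h1 := hx x1 hx' hx'h
    have h2 := hq1 x1 (hsplit _ hx'h).1
    have h3 : (nm (E x1) α : ℝ) ^ 2 ≤ (Real.sqrt (K * b) * (nm (E x1) β : ℝ)) ^ 2 := by
      rw [mul_pow, Real.sq_sqrt (mul_nonneg hK.le hb)]
      refine h2.trans (mul_le_mul_of_nonneg_right ?_ (by positivity))
      exact mul_le_mul_of_nonneg_left h1 hK.le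
    have h4 := abs_le_of_sq_le_sq h3 (by positivity)
    rw [← NNReal.coe_le_coe, NNReal.coe_mul, Real.coe_toNNReal _ (Real.sqrt_nonneg _)]
    exact (abs_le.1 h4).2
  -- the numerator family is not zero
  obtain ⟨q0, hq0, hq0n⟩ : ∃ q ∈ c, MvPolynomial.aeval u q ≠ 0 := by
    by_contra hcon
    push Not at hcon
    obtain ⟨χ, hχ⟩ := exists_point (mul_ne_zero hh ha0')
    rw [map_mul] at hχ
    have hχh := left_ne_zero_of_mul hχ
    obtain ⟨hc'0, H1⟩ := H χ hχh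
    obtain ⟨x, rfl⟩ := hE χ (hsplit χ hχh).1
    obtain ⟨b, hb⟩ := hbd x (hsplit _ hχh).2.1
    have hM := hMof (E x) (max b 0) (le_max_right _ _) fun x' hx' hx'h =>
      (hb x' hx' (hsplit _ hx'h).2.1).trans (le_max_left _ _)
    have h1 := (H1 _ hM).2 (E x) (fun _ => rfl) hχh
    have h2 : pnm (fun i => E x (u i)) c = 0 := by
      refine le_antisymm (Finset.sup_le fun q hq => ?_) zero_le
      have h3 : MvPolynomial.eval (fun i => E x (u i)) q = E x (MvPolynomial.aeval u q) := by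
        rw [MvPolynomial.comp_aeval_apply, MvPolynomial.aeval_eq_eval]
      rw [h3, hcon q hq, map_zero, nnnorm_zero]
    rw [h2, mul_zero, zero_mul] at h1
    have h4 : nm (E x) α ^ e * pnm (fun i => E x (u i)) c' = 0 := le_antisymm h1 zero_le
    exact mul_ne_zero (pow_ne_zero _ (nm_ne_zero ha0 (right_ne_zero_of_mul hχ))) hc'0 h4
  obtain ⟨m, p, hp0, hpc, hpm⟩ := exists_enum c hq0
  obtain ⟨m', p', hp0', hpc', hpm'⟩ := exists_enum c' hq0'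
  have hev : ∀ (x : B →ₐ[ℂ] ℂ) q, MvPolynomial.eval (fun i => x (u i)) q =
      x (MvPolynomial.aeval u q) := by
    intro x q
    rw [MvPolynomial.comp_aeval_apply, MvPolynomial.aeval_eq_eval]
  set hf : B := h * (MvPolynomial.aeval u q0 * MvPolynomial.aeval u q0') with hhf
  have hhf0 : hf ≠ 0 := mul_ne_zero hh (mul_ne_zero hq0n hq0'')
  have hfs : ∀ x : B →ₐ[ℂ] ℂ, x hf ≠ 0 ↔ x h ≠ 0 ∧ MvPolynomial.eval (fun i => x (u i)) q0 ≠ 0 ∧
      MvPolynomial.eval (fun i => x (u i)) q0' ≠ 0 := by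
    intro x
    rw [hhf, map_mul, map_mul, hev, hev, mul_ne_zero_iff, mul_ne_zero_iff]
  refine ⟨e, p, p', m, m', hf, he, ?_, hhf0, ?_, ?_, ?_, ?_⟩
  · exact Dvd.dvd.mul_right (Dvd.dvd.trans ((Dvd.intro _ rfl : g ∣ g * g0).mul_right _)
      ⟨kk, hkk⟩) _
  · intro x hx
    rw [hp0]; exact ((hfs _).1 hx).2.1
  · intro x hx
    rw [hp0']; exact ((hfs _).1 hx).2.2
  · -- Ua
    refine ⟨(m' + 1) * ((C : ℝ) ^ 2 * K ^ e) + 1, by positivity, fun x hx => ?_⟩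
    have hxh := ((hfs _).1 hx).1
    obtain ⟨x1, x2, x3⟩ := hsplit _ hxh
    obtain ⟨b, hb⟩ := hbd x x2
    have hM := hMof (E x) (max b 0) (le_max_right _ _) fun x' hx' hx'h =>
      (hb x' hx' (hsplit _ hx'h).2.1).trans (le_max_left _ _)
    have h1 := ((H (E x) hxh).2 _ hM).2 (E x) (fun _ => rfl) hxh
    set y : Fin s → ℂ := fun l => E x (u l) with hy
    have hs1 := sum_sq_bounds y hpc hpm
    have hs2 := sum_sq_bounds y hpc' hpm'
    set P : ℝ := (pnm y c : ℝ) with hP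
    set P' : ℝ := (pnm y c' : ℝ) with hP'
    set a : ℝ := (nm (E x) α : ℝ) with ha
    set b' : ℝ := (nm (E x) β : ℝ) with hb'
    have hb'pos : 0 < b' := by
      have h3 : nm (E x) β ≠ 0 := nm_ne_zero hb0 x3
      exact_mod_cast pos_iff_ne_zero.2 h3
    have h2 : a ^ e * P' ≤ C * P * b' ^ e := by
      have := NNReal.coe_le_coe.2 h1
      push_cast at this
      exact this
    have h3 := hq2 x x1
    have hP0 : 0 ≤ P := NNReal.coe_nonneg _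
    have hP'0 : 0 ≤ P' := NNReal.coe_nonneg _
    have ha0 : 0 ≤ a := NNReal.coe_nonneg _
    have h4 : (Q x * b' ^ 2) ^ e ≤ (K * a ^ 2) ^ e :=
      pow_le_pow_left₀ (mul_nonneg (hQ x) (by positivity)) h3 e
    have h5 : (a ^ e * P') ^ 2 ≤ (C * P * b' ^ e) ^ 2 :=
      pow_le_pow_left₀ (by positivity) h2 2
    have h6 : Q x ^ e * P' ^ 2 ≤ K ^ e * (C : ℝ) ^ 2 * P ^ 2 := by
      have hpos : 0 < b' ^ (2 * e) := by positivity
      refine le_of_mul_le_mul_right ?_ hpos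
      calc Q x ^ e * P' ^ 2 * b' ^ (2 * e) = (Q x * b' ^ 2) ^ e * P' ^ 2 := by
            rw [mul_pow, ← pow_mul]; ring
        _ ≤ (K * a ^ 2) ^ e * P' ^ 2 := mul_le_mul_of_nonneg_right h4 (by positivity)
        _ = K ^ e * (a ^ e * P') ^ 2 := by rw [mul_pow, mul_pow, ← pow_mul, ← pow_mul]; ring
        _ ≤ K ^ e * (C * P * b' ^ e) ^ 2 := mul_le_mul_of_nonneg_left h5 (by positivity)
        _ = K ^ e * (C : ℝ) ^ 2 * P ^ 2 * b' ^ (2 * e) := by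
            rw [mul_pow, mul_pow, ← pow_mul, mul_comm e 2]; ring
    calc Q x ^ e * ∑ j : Fin (m' + 1), ‖MvPolynomial.eval y (p' j)‖ ^ 2
        ≤ Q x ^ e * ((m' + 1) * P' ^ 2) := mul_le_mul_of_nonneg_left hs2.2 (pow_nonneg (hQ x) _)
      _ = (m' + 1) * (Q x ^ e * P' ^ 2) := by ring
      _ ≤ (m' + 1) * (K ^ e * (C : ℝ) ^ 2 * P ^ 2) := mul_le_mul_of_nonneg_left h6 (by positivity)
      _ = (m' + 1) * ((C : ℝ) ^ 2 * K ^ e) * P ^ 2 := by ring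
      _ ≤ ((m' + 1) * ((C : ℝ) ^ 2 * K ^ e) + 1) * P ^ 2 :=
          mul_le_mul_of_nonneg_right (by linarith) (by positivity)
      _ ≤ _ := mul_le_mul_of_nonneg_left hs1.1 (by positivity)
  · -- Ub
    refine ⟨(m + 1) * ((C : ℝ) ^ 2 * K ^ e) + 1, by positivity, fun x hx b hb hbx => ?_⟩
    have hxx := (hfs _).1 hx
    have hxh := hxx.1
    have hM := hMof (E x) b hb fun x' hx' hx'h => hbx x' ((hfs _).2 ⟨hx'h, by
      have h1 : (fun i => E x' (u i)) = fun i => E x (u i) := funext hx'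
      rw [h1]; exact hxx.2⟩) hx'
    have h1 := ((H (E x) hxh).2 _ hM).1
    set y : Fin s → ℂ := fun l => E x (u l) with hy
    have hs1 := sum_sq_bounds y hpc hpm
    have hs2 := sum_sq_bounds y hpc' hpm'
    set P : ℝ := (pnm y c : ℝ) with hP
    set P' : ℝ := (pnm y c' : ℝ) with hP'
    have hP0 : 0 ≤ P := NNReal.coe_nonneg _
    have hP'0 : 0 ≤ P' := NNReal.coe_nonneg _
    have h2 : P ≤ C * Real.sqrt (K * b) ^ e * P' := by
      have := NNReal.coe_le_coe.2 h1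
      push_cast at this
      rw [Real.coe_toNNReal _ (Real.sqrt_nonneg _)] at this
      exact this
    have h3 : P ^ 2 ≤ (C : ℝ) ^ 2 * K ^ e * b ^ e * P' ^ 2 := by
      refine (pow_le_pow_left₀ hP0 h2 2).trans (le_of_eq ?_)
      rw [mul_pow, mul_pow, ← pow_mul, mul_comm e 2, pow_mul, Real.sq_sqrt (mul_nonneg hK.le hb),
        mul_pow]
      ring
    calc ∑ j : Fin (m + 1), ‖MvPolynomial.eval y (p j)‖ ^ 2 ≤ (m + 1) * P ^ 2 := hs1.2
      _ ≤ (m + 1) * ((C : ℝ) ^ 2 * K ^ e * b ^ e * P' ^ 2) :=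
          mul_le_mul_of_nonneg_left h3 (by positivity)
      _ = (m + 1) * ((C : ℝ) ^ 2 * K ^ e) * b ^ e * P' ^ 2 := by ring
      _ ≤ ((m + 1) * ((C : ℝ) ^ 2 * K ^ e) + 1) * b ^ e * P' ^ 2 := by
          refine mul_le_mul_of_nonneg_right ?_ (by positivity)
          refine mul_le_mul_of_nonneg_right (by linarith) (pow_nonneg hb _)
      _ ≤ _ := mul_le_mul_of_nonneg_left hs2.1 (by positivity)

end Crest.Agent.R273.LemU_619
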