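import Crest.Agent.R273.LemUF_619

/-!
R273 (S0416), Part A, LEMMA U (helper619): the form (C3) of the master list of HALF 2.
-/

set_option autoImplicit false

open Finset
open scoped NNReal

namespace Crest.Agent.R273.LemU_619

universe w

/-- (C3): LEMMA U over a finitely generated domain, on all the characters. -/
theorem c3 {B : Type w} [CommRing B] [IsDomain B] [Algebra ℂ B] [Algebra.FiniteType ℂ B] {s : ℕ}
    (u : Fin s → B) (α β : Finset B) (hα : ∃ a ∈ α, a ≠ 0) (hβ : ∃ b ∈ β, b ≠ 0) {g : B}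
    (hg : g ≠ 0)
    (hR : ∀ x : B →ₐ[ℂ] ℂ, x g ≠ 0 → ∃ b : ℝ, ∀ x' : B →ₐ[ℂ] ℂ, x' g ≠ 0 →
      (∀ l, x' (u l) = x (u l)) → (nm x' α : ℝ) ≤ b * nm x' β) :
    ∃ (e : ℕ) (p p' : ℕ → MvPolynomial (Fin s) ℂ) (m m' : ℕ) (h : B), 1 ≤ e ∧ g ∣ h ∧ h ≠ 0 ∧
      (∀ x : B →ₐ[ℂ] ℂ, x h ≠ 0 → x g ≠ 0 ∧
        MvPolynomial.eval (fun l => x (u l)) (p 0) ≠ 0 ∧
        MvPolynomial.eval (fun l => x (u l)) (p' 0) ≠ 0) ∧
      ∃ C : ℝ, 0 < C ∧
        (∀ x : B →ₐ[ℂ] ℂ, x h ≠ 0 → (nm x α : ℝ) ^ (2 * e) *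
          ∑ j : Fin (m' + 1), ‖MvPolynomial.eval (fun l => x (u l)) (p' j)‖ ^ 2 ≤
          C * (∑ j : Fin (m + 1), ‖MvPolynomial.eval (fun l => x (u l)) (p j)‖ ^ 2) *
            (nm x β : ℝ) ^ (2 * e)) ∧
        (∀ x : B →ₐ[ℂ] ℂ, x h ≠ 0 → ∀ b : ℝ, 0 ≤ b →
          (∀ x' : B →ₐ[ℂ] ℂ, x' h ≠ 0 → (∀ l, x' (u l) = x (u l)) →
            (nm x' α : ℝ) ≤ b * nm x' β) →
          ∑ j : Fin (m + 1), ‖MvPolynomial.eval (fun l => x (u l)) (p j)‖ ^ 2 ≤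
            C * b ^ (2 * e) *
              ∑ j : Fin (m' + 1), ‖MvPolynomial.eval (fun l => x (u l)) (p' j)‖ ^ 2) := by
  classical
  obtain ⟨b0, hb0, hb0'⟩ := hβ
  obtain ⟨a0, ha0, ha0'⟩ := hα
  obtain ⟨e, C, c, c', h, he, ⟨q0', hq0', hq0''⟩, ⟨kk, hkk⟩, hh, H⟩ :=
    lemU u α β ⟨b0, hb0, hb0'⟩ hg
  have hsplit : ∀ x : B →ₐ[ℂ] ℂ, x h ≠ 0 → x g ≠ 0 := by
    intro x hx
    rw [hkk, map_mul] at hx
    exact left_ne_zero_of_mul hx
  -- bounds with values in `ℝ≥0`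
  have hMof : ∀ (x : B →ₐ[ℂ] ℂ) (b : ℝ), 0 ≤ b →
      (∀ x' : B →ₐ[ℂ] ℂ, x' h ≠ 0 → (∀ l, x' (u l) = x (u l)) → (nm x' α : ℝ) ≤ b * nm x' β) →
      ∀ x' : B →ₐ[ℂ] ℂ, (∀ i, x' (u i) = x (u i)) → x' h ≠ 0 →
        nm x' α ≤ Real.toNNReal b * nm x' β := by
    intro x b hb hx x' hx' hx'h
    rw [← NNReal.coe_le_coe, NNReal.coe_mul, Real.coe_toNNReal _ hb]
    exact hx x' hx'h hx'
  have hM : ∀ x : B →ₐ[ℂ] ℂ, x h ≠ 0 → ∃ M : ℝ≥0, ∀ x' : B →ₐ[ℂ] ℂ, (∀ i, x' (u i) = x (u i)) →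
      x' h ≠ 0 → nm x' α ≤ M * nm x' β := by
    intro x hx
    obtain ⟨b, hb⟩ := hR x (hsplit x hx)
    refine ⟨_, hMof x (max b 0) (le_max_right _ _) fun x' hx'h hx' => ?_⟩
    exact (hb x' (hsplit _ hx'h) hx').trans
      (mul_le_mul_of_nonneg_right (le_max_left _ _) (NNReal.coe_nonneg _))
  -- the numerator family is not zero
  obtain ⟨q0, hq0, hq0n⟩ : ∃ q ∈ c, MvPolynomial.aeval u q ≠ 0 := by
    by_contra hcon
    push Not at hcon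
    obtain ⟨χ, hχ⟩ := exists_point (mul_ne_zero hh ha0')
    rw [map_mul] at hχ
    have hχh := left_ne_zero_of_mul hχ
    obtain ⟨hc'0, H1⟩ := H χ hχh
    obtain ⟨M, hM1⟩ := hM χ hχh
    have h1 := (H1 M hM1).2 χ (fun _ => rfl) hχh
    have h2 : pnm (fun i => χ (u i)) c = 0 := by
      refine le_antisymm (Finset.sup_le fun q hq => ?_) zero_le
      have h3 : MvPolynomial.eval (fun i => χ (u i)) q = χ (MvPolynomial.aeval u q) := by
        rw [MvPolynomial.comp_aeval_apply, MvPolynomial.aeval_eq_eval]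
      rw [h3, hcon q hq, map_zero, nnnorm_zero]
    rw [h2, mul_zero, zero_mul] at h1
    have h4 : nm χ α ^ e * pnm (fun i => χ (u i)) c' = 0 := le_antisymm h1 zero_le
    exact mul_ne_zero (pow_ne_zero _ (nm_ne_zero ha0 (right_ne_zero_of_mul hχ))) hc'0 h4
  obtain ⟨m, p, hp0, hpc, hpm⟩ := exists_enum c hq0
  obtain ⟨m', p', hp0', hpc', hpm'⟩ := exists_enum c' hq0'
  have hev : ∀ (x : B →ₐ[ℂ] ℂ) q, MvPolynomial.eval (fun i => x (u i)) q =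
      x (MvPolynomial.aeval u q) := by
    intro x q
    rw [MvPolynomial.comp_aeval_apply, MvPolynomial.aeval_eq_eval]
  set hf : B := h * (MvPolynomial.aeval u q0 * MvPolynomial.aeval u q0') with hhf
  have hhf0 : hf ≠ 0 := mul_ne_zero hh (mul_ne_zero hq0n hq0'')
  have hfs : ∀ x : B →ₐ[ℂ] ℂ, x hf ≠ 0 ↔ x h ≠ 0 ∧ MvPolynomial.eval (fun i => x (u i)) q0 ≠ 0 ∧
      MvPolynomial.eval (fun i => x (u i)) q0' ≠ 0 := by
    intro x
    rw [hhf, map_mul, map_mul, hev, hev, mul_ne_zero_iff, mul_ne_zero_iff]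
  refine ⟨e, p, p', m, m', hf, he, ?_, hhf0, ?_, (m + 1 + (m' + 1)) * (C : ℝ) ^ 2 + 1, by positivity,
    ?_, ?_⟩
  · exact Dvd.dvd.mul_right ⟨kk, hkk⟩ _
  · intro x hx
    obtain ⟨x1, x2, x3⟩ := (hfs _).1 hx
    exact ⟨hsplit x x1, by rw [hp0]; exact x2, by rw [hp0']; exact x3⟩
  · -- Ua
    intro x hx
    have hxh := ((hfs _).1 hx).1
    obtain ⟨M, hM1⟩ := hM x hxh
    have h1 := ((H x hxh).2 M hM1).2 x (fun _ => rfl) hxh
    set y : Fin s → ℂ := fun l => x (u l) with hy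
    have hs1 := sum_sq_bounds y hpc hpm
    have hs2 := sum_sq_bounds y hpc' hpm'
    set P : ℝ := (pnm y c : ℝ) with hP
    set P' : ℝ := (pnm y c' : ℝ) with hP'
    set a : ℝ := (nm x α : ℝ) with ha
    set b' : ℝ := (nm x β : ℝ) with hb'
    have h2 : a ^ e * P' ≤ C * P * b' ^ e := by
      have := NNReal.coe_le_coe.2 h1
      push_cast at this
      exact this
    have hP0 : 0 ≤ P := NNReal.coe_nonneg _
    have hP'0 : 0 ≤ P' := NNReal.coe_nonneg _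
    have ha0 : 0 ≤ a := NNReal.coe_nonneg _
    have hb'0 : 0 ≤ b' := NNReal.coe_nonneg _
    have h6 : a ^ (2 * e) * P' ^ 2 ≤ (C : ℝ) ^ 2 * P ^ 2 * b' ^ (2 * e) := by
      calc a ^ (2 * e) * P' ^ 2 = (a ^ e * P') ^ 2 := by
            rw [mul_pow, ← pow_mul, mul_comm e 2]
        _ ≤ (C * P * b' ^ e) ^ 2 := pow_le_pow_left₀ (by positivity) h2 2
        _ = (C : ℝ) ^ 2 * P ^ 2 * b' ^ (2 * e) := by
            rw [mul_pow, mul_pow, ← pow_mul, mul_comm e 2]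
    calc a ^ (2 * e) * ∑ j : Fin (m' + 1), ‖MvPolynomial.eval y (p' j)‖ ^ 2
        ≤ a ^ (2 * e) * ((m' + 1) * P' ^ 2) := mul_le_mul_of_nonneg_left hs2.2 (by positivity)
      _ = (m' + 1) * (a ^ (2 * e) * P' ^ 2) := by ring
      _ ≤ (m' + 1) * ((C : ℝ) ^ 2 * P ^ 2 * b' ^ (2 * e)) :=
          mul_le_mul_of_nonneg_left h6 (by positivity)
      _ = ((m' + 1) * (C : ℝ) ^ 2) * (P ^ 2 * b' ^ (2 * e)) := by ring
      _ ≤ ((m + 1 + (m' + 1)) * (C : ℝ) ^ 2 + 1) * (P ^ 2 * b' ^ (2 * e)) := by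
          refine mul_le_mul_of_nonneg_right ?_ (by positivity)
          have : 0 ≤ (m + 1 : ℝ) * (C : ℝ) ^ 2 := by positivity
          linarith
      _ = ((m + 1 + (m' + 1)) * (C : ℝ) ^ 2 + 1) * P ^ 2 * b' ^ (2 * e) := by ring
      _ ≤ _ := by
          refine mul_le_mul_of_nonneg_right ?_ (by positivity)
          exact mul_le_mul_of_nonneg_left hs1.1 (by positivity)
  · -- Ub
    intro x hx b hb hbx
    have hxx := (hfs _).1 hx
    have hxh := hxx.1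
    have hM1 := hMof x b hb fun x' hx'h hx' => hbx x' ((hfs _).2 ⟨hx'h, by
      have h1 : (fun i => x' (u i)) = fun i => x (u i) := funext hx'
      rw [h1]; exact hxx.2⟩) hx'
    have h1 := ((H x hxh).2 _ hM1).1
    set y : Fin s → ℂ := fun l => x (u l) with hy
    have hs1 := sum_sq_bounds y hpc hpm
    have hs2 := sum_sq_bounds y hpc' hpm'
    set P : ℝ := (pnm y c : ℝ) with hP
    set P' : ℝ := (pnm y c' : ℝ) with hP'
    have hP0 : 0 ≤ P := NNReal.coe_nonneg _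
    have hP'0 : 0 ≤ P' := NNReal.coe_nonneg _
    have h2 : P ≤ C * b ^ e * P' := by
      have := NNReal.coe_le_coe.2 h1
      push_cast at this
      rw [Real.coe_toNNReal _ hb] at this
      exact this
    have h3 : P ^ 2 ≤ (C : ℝ) ^ 2 * b ^ (2 * e) * P' ^ 2 := by
      refine (pow_le_pow_left₀ hP0 h2 2).trans (le_of_eq ?_)
      rw [mul_pow, mul_pow, ← pow_mul, mul_comm e 2]
    calc ∑ j : Fin (m + 1), ‖MvPolynomial.eval y (p j)‖ ^ 2 ≤ (m + 1) * P ^ 2 := hs1.2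
      _ ≤ (m + 1) * ((C : ℝ) ^ 2 * b ^ (2 * e) * P' ^ 2) :=
          mul_le_mul_of_nonneg_left h3 (by positivity)
      _ = (m + 1) * (C : ℝ) ^ 2 * (b ^ (2 * e) * P' ^ 2) := by ring
      _ ≤ ((m + 1 + (m' + 1)) * (C : ℝ) ^ 2 + 1) * (b ^ (2 * e) * P' ^ 2) := by
          refine mul_le_mul_of_nonneg_right ?_ (by positivity)
          have : 0 ≤ (m' + 1 : ℝ) * (C : ℝ) ^ 2 := by positivity
          linarith
      _ = ((m + 1 + (m' + 1)) * (C : ℝ) ^ 2 + 1) * b ^ (2 * e) * P' ^ 2 := by ring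
      _ ≤ _ := mul_le_mul_of_nonneg_left hs2.1 (by positivity)

end Crest.Agent.R273.LemU_619
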