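import Crest.Agent.R273.LemUC_619
import Crest.Agent.R273.LemUE_619

/-!
R273 (S0416), Part A, LEMMA U over a model (helper619): the size of a bounded ratio of two families on
the fibres of an algebraic map is, up to constants and a power, the ratio of two families of functions
on the base.
-/

set_option autoImplicit false

open Finset
open scoped NNReal

namespace Crest.Agent.R273.LemU_619

universe w

/-- size of a finite family of polynomials at a point -/
noncomputable def pnm {s : ℕ} (y : Fin s → ℂ) (c : Finset (MvPolynomial (Fin s) ℂ)) : ℝ≥0 :=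
  c.sup fun p => ‖MvPolynomial.eval y p‖₊

theorem le_pnm {s : ℕ} {y : Fin s → ℂ} {c : Finset (MvPolynomial (Fin s) ℂ)}
    {p : MvPolynomial (Fin s) ℂ} (hp : p ∈ c) : ‖MvPolynomial.eval y p‖₊ ≤ pnm y c :=
  Finset.le_sup (f := fun p => ‖MvPolynomial.eval y p‖₊) hp

theorem stp_one (A B : Type w) [CommRing A] [IsDomain A] [Algebra ℂ A] [Algebra.FiniteType ℂ A]
    [CommRing B] [IsDomain B] [Algebra ℂ B] [Algebra A B] [IsScalarTower ℂ A B] (z : B)
    (hinj : Function.Injective (algebraMap A B)) (hz : Algebra.adjoin A {z} = ⊤) : Stp A B := by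
  by_cases h : IsAlgebraic A z
  · exact stp_alg hinj hz h
  · exact stp_trans hz h

theorem stp_all (A B : Type w) [CommRing A] [IsDomain A] [Algebra ℂ A] [Algebra.FiniteType ℂ A]
    [CommRing B] [IsDomain B] [Algebra ℂ B] [Algebra.FiniteType ℂ B] [Algebra A B]
    [IsScalarTower ℂ A B] (hinj : Function.Injective (algebraMap A B)) : Stp A B := by
  obtain ⟨S, hS⟩ := (inferInstance : Algebra.FiniteType ℂ B).out
  refine Stp.of_gen (fun A B _ _ _ _ _ _ _ _ _ z => stp_one A B z) S.card A B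
    (fun i => (S.equivFin.symm i : B)) hinj ?_
  have hr : Set.range (fun i => (S.equivFin.symm i : B)) = (S : Set B) := by
    ext b
    constructor
    · rintro ⟨i, rfl⟩; exact (S.equivFin.symm i).2
    · intro hb
      exact ⟨S.equivFin ⟨b, hb⟩, by simp⟩
  rw [hr, eq_top_iff]
  intro b _
  have hb : b ∈ Algebra.adjoin ℂ (S : Set B) := by rw [hS]; exact Algebra.mem_top
  have hle : Algebra.adjoin ℂ (S : Set B) ≤ (Algebra.adjoin A (S : Set B)).restrictScalars ℂ :=
    Algebra.adjoin_le fun y hy => (Subalgebra.mem_restrictScalars ℂ).2 (Algebra.subset_adjoin hy)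
  exact (Subalgebra.mem_restrictScalars ℂ).1 (hle hb)

/-- LEMMA U over a model. -/
theorem lemU {B : Type w} [CommRing B] [IsDomain B] [Algebra ℂ B] [Algebra.FiniteType ℂ B] {s : ℕ}
    (u : Fin s → B) (α β : Finset B) (hβ : ∃ b ∈ β, b ≠ 0) {g : B} (hg : g ≠ 0) :
    ∃ (e : ℕ) (C : ℝ≥0) (c c' : Finset (MvPolynomial (Fin s) ℂ)) (h : B), 1 ≤ e ∧
      (∃ p ∈ c', MvPolynomial.aeval u p ≠ 0) ∧ g ∣ h ∧ h ≠ 0 ∧
      ∀ x : B →ₐ[ℂ] ℂ, x h ≠ 0 → pnm (fun i => x (u i)) c' ≠ 0 ∧
        ∀ M : ℝ≥0, (∀ x' : B →ₐ[ℂ] ℂ, (∀ i, x' (u i) = x (u i)) → x' h ≠ 0 →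
          nm x' α ≤ M * nm x' β) →
          pnm (fun i => x (u i)) c ≤ C * M ^ e * pnm (fun i => x (u i)) c' ∧
          ∀ x' : B →ₐ[ℂ] ℂ, (∀ i, x' (u i) = x (u i)) → x' h ≠ 0 →
            nm x' α ^ e * pnm (fun i => x (u i)) c' ≤
              C * pnm (fun i => x (u i)) c * nm x' β ^ e := by
  classical
  set A : Subalgebra ℂ B := Algebra.adjoin ℂ (Set.range u) with hA
  have hft : Algebra.FiniteType ℂ A := (Subalgebra.fg_iff_finiteType A).1
    ⟨univ.image u, by rw [coe_image, coe_univ, Set.image_univ]⟩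
  obtain ⟨e, C, α0, β0, h', h, he, hβ0, hgh, hh', hh, H⟩ :=
    stp_all A B Subtype.val_injective α β g hβ hg
  have hpoly : ∀ a : A, ∃ p : MvPolynomial (Fin s) ℂ, MvPolynomial.aeval u p = (a : B) := by
    intro a
    have h1 : (a : B) ∈ Algebra.adjoin ℂ (Set.range u) := a.2
    rw [Algebra.adjoin_range_eq_range_aeval] at h1
    exact h1
  choose P hP using hpoly
  have hval : ∀ (x : B →ₐ[ℂ] ℂ) (a : A), MvPolynomial.eval (fun i => x (u i)) (P a) = res A x a := by
    intro x a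
    rw [res_apply]
    change _ = x (a : B)
    rw [← hP a, MvPolynomial.comp_aeval_apply, MvPolynomial.aeval_eq_eval]
  have hnm : ∀ (x : B →ₐ[ℂ] ℂ) (S : Finset A),
      pnm (fun i => x (u i)) (S.image P) = nm (res A x) S := by
    intro x S
    unfold pnm nm
    rw [Finset.sup_image]
    refine Finset.sup_congr rfl fun a _ => ?_
    rw [Function.comp_apply, hval]
  have hres : ∀ x x' : B →ₐ[ℂ] ℂ, res A x' = res A x ↔ ∀ i, x' (u i) = x (u i) := by
    intro x x'
    constructor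
    · intro h1 i
      have hu : u i ∈ A := Algebra.subset_adjoin ⟨i, rfl⟩
      have h2 := congrArg (fun f : A →ₐ[ℂ] ℂ => f ⟨u i, hu⟩) h1
      exact h2
    · intro h1
      ext a
      rw [← hval, ← hval]
      congr 2
      funext i
      exact h1 i
  refine ⟨e, C, α0.image P, β0.image P, h' * (h : B), he, ?_, hgh.mul_right _,
    mul_ne_zero hh' fun h0 => hh (Subtype.ext h0), ?_⟩
  · obtain ⟨b, hb, hb0⟩ := hβ0
    exact ⟨P b, mem_image_of_mem _ hb, by rw [hP]; exact fun h0 => hb0 (Subtype.ext h0)⟩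
  intro x hx
  rw [map_mul] at hx
  obtain ⟨H1, H2⟩ := H (res A x) (right_ne_zero_of_mul hx)
  refine ⟨by rw [hnm]; exact H1, fun M hM => ?_⟩
  have hbig : ∀ x' : B →ₐ[ℂ] ℂ, res A x' = res A x → x' h' ≠ 0 → x' (h' * (h : B)) ≠ 0 := by
    intro x' hx' hx'h
    rw [map_mul]
    refine mul_ne_zero hx'h ?_
    have h3 := congrArg (fun f : A →ₐ[ℂ] ℂ => f h) hx'
    have h4 : x' (h : B) = x (h : B) := h3
    rw [h4]
    exact right_ne_zero_of_mul hx
  obtain ⟨H3, H4⟩ := H2 M fun x' hx' hx'h => hM x' ((hres x x').1 hx') (hbig x' hx' hx'h)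
  rw [hnm, hnm]
  refine ⟨H3, fun x' hx' hx'h => H4 x' ((hres x x').2 hx') ?_⟩
  rw [map_mul] at hx'h
  exact left_ne_zero_of_mul hx'h

end Crest.Agent.R273.LemU_619
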