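import Crest.Agent.R273.LogA_5

/-!
# R273 (S0416), leaf T6/T7 of BP-T (helper5): finite volume and logarithmic cut-offs

`P : ProjD A`, `S : Finset (Fin (P.N + 1))`, `US P S = {∑ k ∈ S, |F_k|² ≠ 0}`, `HS P S` the
Hessian of `log ∑ k ∈ S, |F_k|²` on it (LogA_5), `K : Kah A`, `M` compact.
* `finite_vol` : `∫_US det (K + HS) < ∞`
* `exists_cutoff` : cut-offs `χ_m`, `0` near `US^c`, `→ 1`, `∫_US adj (K + HS) (∂χ_m, ∂̄χ_m) → 0`
-/

set_option autoImplicit false
set_option linter.unusedSectionVars false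

open Set Filter Topology Complex MeasureTheory
open scoped ContDiff Matrix ComplexConjugate ComplexOrder ENNReal

namespace Crest.Agent.R273.LogCut_5

open Crest.Agent.R275 Crest.Agent.R275.Geo Crest.Agent.R275.Core144 Crest.Agent.R275.EDR890
open Crest.Agent.R275.Pai323 Crest.Agent.R275.C1d194
open Crest.Agent.R275.SerG398 (lint dens OffZ)
open Crest.Agent.R275.OmT75 (dj dl)
open Crest.Agent.R273.Defs_333 Crest.Agent.R273.Hess_333 Crest.Agent.R273.HessB_333
open Crest.Agent.R273.HM_333 Crest.Agent.R273.Kah_333 Crest.Agent.R273.Vol_333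
open Crest.Agent.R273.FS_333 Crest.Agent.R273.Vm_333 Crest.Agent.R273.StV_37
open Crest.Agent.R273.Green_5 Crest.Agent.R273.VolInv_5
open Crest.Agent.R273.GreenM_5 Crest.Agent.R273.GreenG_5 Crest.Agent.R273.LogA_5

noncomputable section

variable {n : ℕ} {M : Type} [TopologicalSpace M] {A : Atl n M}

/-! ### generalities -/

theorem hsf_neg {u : M → ℝ} (hu : A.Sm u) {i : A.ι} {x : M} (hx : x ∈ (A.e i).source) :
    hsf A (fun x => - u x) i x = - hsf A u i x := by
  have hz := (A.e i).map_source hx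
  have h1 := hsf_read (A := A) (fun x => - u x) i hz
  have h2 := hsf_read (A := A) u i hz
  rw [(A.e i).left_inv hx] at h1 h2
  rw [h1, h2, ← hess_neg (sm_contDiffAt hu i hz)]

/-- the value of the function of a density at one chart -/
theorem fnD_at (K : Kah A) {f : A.ι → M → ℂ} {i : A.ι} {x : M} (hx : x ∈ (A.e i).source)
    (h : f i x = dens A i (ci A x) x * f (ci A x) x) : fnD K f x = f i x / (K.g i x).det := by
  have h2 := (K_tn K).det i (ci A x) x ⟨hx, mem_ci x⟩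
  have h3 := K_det_ne K (mem_ci x)
  have h4 : (K.g i x).det = dens A i (ci A x) x * (K.g (ci A x) x).det := h2
  have h5 : dens A i (ci A x) x ≠ 0 := by
    intro h0
    rw [h0, zero_mul] at h4
    exact K_det_ne K hx h4
  unfold fnD
  rw [h, h4]
  field_simp

theorem wd_comp_real (s : WI n) {θ : ℝ → ℝ} {u : Cn n → ℝ} {z : Cn n}
    (hθ : DifferentiableAt ℝ θ (u z)) (hu : DifferentiableAt ℝ u z) :
    wd s (cu fun w => θ (u w)) z = ((deriv θ (u z) : ℝ) : ℂ) * wd s (cu u) z := by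
  have e1 : HasFDerivAt (fun w => θ (u w)) (deriv θ (u z) • fderiv ℝ u z) z :=
    hθ.hasDerivAt.comp_hasFDerivAt z hu.hasFDerivAt
  have e2 := (Complex.ofRealCLM.hasFDerivAt.comp z e1).fderiv
  have e3 := (Complex.ofRealCLM.hasFDerivAt.comp z hu.hasFDerivAt).fderiv
  change fderiv ℝ (cu fun w => θ (u w)) z = _ at e2
  change fderiv ℝ (cu u) z = _ at e3
  have e4 : fderiv ℝ (cu fun w => θ (u w)) z = ((deriv θ (u z) : ℝ) : ℂ) • fderiv ℝ (cu u) z := by
    rw [e2, e3]
    ext v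
    simp
  rw [wd, e4, wdL_smul]
  rfl

theorem dl_comp_real {θ : ℝ → ℝ} (hθ : Differentiable ℝ θ) {u : M → ℝ} (hu : A.Sm u) {i : A.ι}
    {x : M} (hx : x ∈ (A.e i).source) (a : Fin n) :
    dl A i a (fun y => ((θ (u y) : ℝ) : ℂ)) x =
      ((deriv θ (u x) : ℝ) : ℂ) * dl A i a (fun y => (u y : ℂ)) x := by
  have hz := (A.e i).map_source hx
  have h1 := wd_comp_real (false, a) (θ := θ) (u := fun z => u ((A.e i).symm z)) (z := A.e i x)
    (hθ _) ((sm_contDiffAt hu i hz).differentiableAt (by simp))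
  rw [(A.e i).left_inv hx] at h1
  unfold OmT75.dl
  rw [dj_eq_wd, dj_eq_wd]
  exact h1

theorem grd_comp {G : A.ι → M → Matrix (Fin n) (Fin n) ℂ} {θ : ℝ → ℝ} (hθ : Differentiable ℝ θ)
    {u : M → ℝ} (hu : A.Sm u) {i : A.ι} {x : M} (hx : x ∈ (A.e i).source) :
    grd G (fun y => ((θ (u y) : ℝ) : ℂ)) (fun y => ((θ (u y) : ℝ) : ℂ)) i x =
      (((deriv θ (u x)) ^ 2 : ℝ) : ℂ) * grd G (fun y => (u y : ℂ)) (fun y => (u y : ℂ)) i x := by
  rw [grd_qa, grd_qa]
  have h1 : (fun a => dl A i a (fun y => ((θ (u y) : ℝ) : ℂ)) x) =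
      fun a => ((deriv θ (u x) : ℝ) : ℂ) * dl A i a (fun y => (u y : ℂ)) x :=
    funext fun a => dl_comp_real hθ hu hx a
  have h2 : (fun b => A.db i b (fun y => ((θ (u y) : ℝ) : ℂ)) x) =
      fun b => ((deriv θ (u x) : ℝ) : ℂ) * A.db i b (fun y => (u y : ℂ)) x := by
    funext b
    rw [db_ofReal (fun y => θ (u y)) i b x, dl_comp_real hθ hu hx b, map_mul, conj_ofReal,
      ← db_ofReal u i b x]
  rw [h1, h2, qa_smul]
  push_cast
  ring

/-- Fatou's lemma in the form used below -/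
theorem fatou {X : Type*} [MeasurableSpace X] {μ : Measure X} {U : Set X} (hU : MeasurableSet U)
    {f : ℕ → X → ℝ} {f₀ : X → ℝ} (hm : ∀ m, Measurable (f m)) (h0 : ∀ m x, 0 ≤ f m x)
    (hi : ∀ m, Integrable (f m) μ) {c : ℝ} (hc : ∀ m, ∫ x, f m x ∂μ ≤ c)
    (ht : ∀ x ∈ U, Tendsto (fun m => f m x) atTop (𝓝 (f₀ x))) :
    ∫⁻ x in U, ENNReal.ofReal (f₀ x) ∂μ ≤ ENNReal.ofReal c := by
  have h1 : ∫⁻ x in U, ENNReal.ofReal (f₀ x) ∂μ ≤
      ∫⁻ x in U, liminf (fun m => ENNReal.ofReal (f m x)) atTop ∂μ := by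
    refine setLIntegral_mono' hU fun x hx => ?_
    have h2 : Tendsto (fun m => ENNReal.ofReal (f m x)) atTop (𝓝 (ENNReal.ofReal (f₀ x))) :=
      (ENNReal.continuous_ofReal.tendsto _).comp (ht x hx)
    exact h2.liminf_eq.ge
  refine h1.trans ((setLIntegral_le_lintegral _ _).trans ?_)
  refine (lintegral_liminf_le fun m => (hm m).ennreal_ofReal).trans ?_
  refine liminf_le_of_frequently_le' (Frequently.of_forall fun m => ?_)
  rw [← ofReal_integral_eq_lintegral_ofReal (hi m) (Eventually.of_forall (h0 m))]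
  exact ENNReal.ofReal_le_ofReal (hc m)

/-! ### the functions `g_ε` -/

section gE

variable (P : ProjD A) (S : Finset (Fin (P.N + 1)))

theorem wq_cE_mono {N : ℕ} (S : Finset (Fin N)) {ε ε' : ℝ} (h : ε ≤ ε') (v : Fin N → ℂ) :
    wq (cE S ε) v ≤ wq (cE S ε') v := by
  refine Finset.sum_le_sum fun k _ => mul_le_mul_of_nonneg_right ?_ (by positivity)
  unfold cE
  split_ifs
  · exact le_rfl
  · exact h

theorem wq_cE_ge {N : ℕ} (S : Finset (Fin N)) {ε : ℝ} (h1 : ε ≤ 1) (v : Fin N → ℂ) :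
    ε * wq (cE S 1) v ≤ wq (cE S ε) v := by
  unfold wq
  rw [Finset.mul_sum]
  refine Finset.sum_le_sum fun k _ => ?_
  rw [← mul_assoc]
  refine mul_le_mul_of_nonneg_right ?_ (by positivity)
  unfold cE
  split_ifs
  · linarith
  · linarith

theorem wq_cE_eq {N : ℕ} (S : Finset (Fin N)) {ε : ℝ} {v : Fin N → ℂ} (h : ∀ k ∈ S, v k = 0) :
    wq (cE S ε) v = ε * wq (cE S 1) v := by
  unfold wq
  rw [Finset.mul_sum]
  refine Finset.sum_congr rfl fun k _ => ?_
  unfold cE
  split_ifs with hk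
  · rw [h k hk]; simp
  · ring

/-- `g_ε = log (N_1 / N_ε)` -/
def gE {ε : ℝ} (hε : 0 < ε) : M → ℝ := ratio (hE P S one_pos) (hE P S hε)

theorem gE_sm {ε : ℝ} (hε : 0 < ε) : A.Sm (gE P S hε) := sm_ratio _ _

theorem gE_eq {ε : ℝ} (hε : 0 < ε) {i : A.ι} {x : M} (hx : x ∈ (A.e i).source) :
    gE P S hε x = Real.log (wq (cE S 1) (P.F i x)) - Real.log (wq (cE S ε) (P.F i x)) := by
  unfold gE
  rw [ratio_eq _ _ hx]
  change Real.log (wq (cE S ε) (P.F i x))⁻¹ - Real.log (wq (cE S 1) (P.F i x))⁻¹ = _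
  rw [Real.log_inv, Real.log_inv]
  ring

theorem wqF_pos {ε : ℝ} (hε : 0 < ε) {i : A.ι} {x : M} (hx : x ∈ (A.e i).source) :
    0 < wq (cE S ε) (P.F i x) := wq_pos (cE_pos S hε) (P.ne i x hx)

theorem gE_nonneg {ε : ℝ} (hε : 0 < ε) (h1 : ε ≤ 1) (x : M) : 0 ≤ gE P S hε x := by
  have hx := mem_ci (A := A) x
  rw [gE_eq P S hε hx]
  have := Real.log_le_log (wqF_pos P S hε hx) (wq_cE_mono S h1 (P.F (ci A x) x))
  linarith

theorem gE_le {ε : ℝ} (hε : 0 < ε) (h1 : ε ≤ 1) (x : M) : gE P S hε x ≤ - Real.log ε := by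
  have hx := mem_ci (A := A) x
  rw [gE_eq P S hε hx]
  have h2 := wqF_pos P S one_pos hx
  have := Real.log_le_log (mul_pos hε h2) (wq_cE_ge S h1 (P.F (ci A x) x))
  rw [Real.log_mul hε.ne' h2.ne'] at this
  linarith

theorem gE_off {ε : ℝ} (hε : 0 < ε) {x : M} (hx : x ∉ US P S) :
    gE P S hε x = - Real.log ε := by
  have hxi := mem_ci (A := A) x
  have h1 : ∀ k ∈ S, P.F (ci A x) x k = 0 := by
    intro k hk
    by_contra h
    exact hx ((mem_US_iff P S hxi).2 ⟨k, hk, h⟩)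
  rw [gE_eq P S hε hxi, wq_cE_eq (ε := ε) S h1,
    Real.log_mul hε.ne' (wqF_pos P S one_pos hxi).ne']
  ring

theorem gE_le_on {ε : ℝ} (hε : 0 < ε) {i : A.ι} {x : M} (hx : x ∈ (A.e i).source)
    (hU : x ∈ US P S) :
    gE P S hε x ≤ Real.log (wq (cE S 1) (P.F i x)) - Real.log (wq (cE S 0) (P.F i x)) := by
  rw [gE_eq P S hε hx]
  have h0 : 0 < wq (cE S 0) (P.F i x) := by
    rw [← tsq_eq]
    exact tsq_pos P S hx hU
  have := Real.log_le_log h0 (wq_cE_mono S hε.le (P.F i x))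
  linarith

theorem hsf_gE {ε : ℝ} (hε : 0 < ε) (i : A.ι) {x : M} (hx : x ∈ (A.e i).source) :
    hsf A (gE P S hε) i x = cur (hE P S one_pos) i x - cur (hE P S hε) i x := by
  rw [cur_ratio (hE P S one_pos) (hE P S hε) i hx]
  unfold gE
  abel

theorem cur_hE {ε : ℝ} (hε : 0 < ε) (i : A.ι) {x : M} (hx : x ∈ (A.e i).source) :
    cur (hE P S hε) i x = cur (hE P S one_pos) i x + hsf A (fun x => - gE P S hε x) i x := by
  rw [hsf_neg (gE_sm P S hε) hx, hsf_gE P S hε i hx]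
  abel

end gE

/-! ### the estimates -/

section main

variable [T2Space M] [CompactSpace M] [MeasurableSpace M] [BorelSpace M] [Finite A.ι]
variable (P : ProjD A) (S : Finset (Fin (P.N + 1)))

/-- `K + HS` -/
def KH (K : Kah A) (i : A.ι) (x : M) : Matrix (Fin n) (Fin n) ℂ := K.g i x + HS P S i x

/-- `K + cur h_ε` -/
def Kw (K : Kah A) {ε : ℝ} (hε : 0 < ε) (i : A.ι) (x : M) : Matrix (Fin n) (Fin n) ℂ :=
  K.g i x + cur (hE P S hε) i x

theorem Kw_cf (K : Kah A) {ε : ℝ} (hε : 0 < ε) : CF A (Kw P S K hε) :=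
  (kah_cf K).add (cur_cf _)

theorem Kw_pos (K : Kah A) {ε : ℝ} (hε : 0 < ε) (i : A.ι) {x : M} (hx : x ∈ (A.e i).source) :
    (Kw P S K hε i x).PosDef := (K.pos i x hx).add_posSemidef (cfs_psd P _ i hx)

theorem KH_pos (K : Kah A) {i : A.ι} {x : M} (hx : x ∈ (A.e i).source) (h : x ∈ US P S) :
    (KH P S K i x).PosDef := (K.pos i x hx).add_posSemidef (HS_psd P S hx h)

theorem KH_tr (K : Kah A) {i j : A.ι} {x : M} (hx : x ∈ (A.e i).source ∩ (A.e j).source)
    (h : x ∈ US P S) :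
    KH P S K i x = (Jm A i j x)ᵀ * KH P S K j x * (Jm A i j x).map conj := by
  unfold KH
  rw [K.tr i j x hx, HS_tr P S hx h, Matrix.mul_add, Matrix.add_mul]

/-- `δ_m → 0` -/
def dm (m : ℕ) : ℝ := 1 / ((m : ℝ) + 1)

theorem dm_pos (m : ℕ) : 0 < dm m := Nat.one_div_pos_of_nat

theorem tendsto_dm : Tendsto dm atTop (𝓝 0) := tendsto_one_div_add_atTop_nhds_zero_nat

theorem tendsto_Kw (K : Kah A) {i : A.ι} {x : M} (hx : x ∈ (A.e i).source) (h : x ∈ US P S) :
    Tendsto (fun m => Kw P S K (dm_pos m) i x) atTop (𝓝 (KH P S K i x)) := by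
  have h1 := (tendsto_wE P S hx h).comp tendsto_dm
  have h2 : (fun m => cur (hE P S (dm_pos m)) i x) = (fun ε => wE P S ε i x) ∘ dm := by
    funext m
    exact (wE_eq P S (dm_pos m) hx).symm
  rw [← h2] at h1
  exact tendsto_const_nhds.add h1

/-- **T6**: the volume of `US` with respect to `K + ∂∂̄ log |t|²` is finite -/
theorem finite_vol (K : Kah A) (Pt : Part A) :
    ∫⁻ x in US P S, ENNReal.ofReal (fnD K (fun i x => (KH P S K i x).det) x).re ∂(vm (volK K)) ≤
      ENNReal.ofReal (totc Pt (fun i x => (Kw P S K one_pos i x).det)).re := by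
  refine fatou (f := fun m x => (fnD K (fun i x => (Kw P S K (dm_pos m) i x).det) x).re)
    (isOpen_US P S).measurableSet ?_ ?_ ?_ ?_ ?_
  · intro m
    have h1 := Kw_cf P S K (dm_pos m)
    exact (sm_continuous (sm_re (sm_fnD K (CF.tn h1).det fun i => smAt_det (h1.sm i)))).measurable
  · intro m x
    have hx := mem_ci (A := A) x
    exact (Complex.le_def.1 (div_nonneg (Kw_pos P S K (dm_pos m) _ hx).det_pos.le
      (K.pos _ _ hx).det_pos.le)).1
  · intro m
    have h1 := Kw_cf P S K (dm_pos m)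
    exact integrable_sm _ (sm_re (sm_fnD K (CF.tn h1).det fun i => smAt_det (h1.sm i)))
  · intro m
    have h1 := Kw_cf P S K (dm_pos m)
    rw [integral_fnD_re K Pt (CF.tn h1).det fun i => smAt_det (h1.sm i)]
    have h2 := volinv Pt (Kw_cf P S K one_pos) (u := fun x => - gE P S (dm_pos m) x)
      fun i => (gE_sm P S (dm_pos m) i).neg
    rw [← h2]
    refine le_of_eq ?_
    congr 1
    refine totc_congr Pt fun i x hx => ?_
    congr 1
    unfold Kw
    rw [cur_hE P S (dm_pos m) i hx, add_assoc]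
  · intro x hx
    have h1 := tendsto_Kw P S K (mem_ci x) hx
    have h2 : Tendsto (fun m => (Kw P S K (dm_pos m) (ci A x) x).det) atTop
        (𝓝 (KH P S K (ci A x) x).det) :=
      ((Continuous.matrix_det continuous_id).tendsto _).comp h1
    exact (Complex.continuous_re.tendsto _).comp (h2.div_const _)

/-- the constant of T7 -/
def c7 (K : Kah A) (Pt : Part A) : ℝ :=
  (totc Pt (fun i x => ((Kw P S K one_pos i x).adjugate * cur (hE P S one_pos) i x).trace)).re

theorem c7_eq (K : Kah A) (Pt : Part A) {δ ε : ℝ} (hδ : 0 < δ) (hε : 0 < ε) :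
    (totc Pt (fun i x => ((Kw P S K hδ i x).adjugate * cur (hE P S hε) i x).trace)).re =
      c7 P S K Pt := by
  unfold c7
  have h2 := mixed Pt (Kw_cf P S K one_pos) (cur_cf (hE P S one_pos))
    (u := fun x => - gE P S hδ x) (v := fun x => - gE P S hε x)
    (fun i => (gE_sm P S hδ i).neg) (fun i => (gE_sm P S hε i).neg)
  have h3 : totc Pt (fun i x => ((Kw P S K hδ i x).adjugate * cur (hE P S hε) i x).trace) =
      totc Pt (fun i x => ((Kw P S K one_pos i x + hsf A (fun x => - gE P S hδ x) i x).adjugate *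
        (cur (hE P S one_pos) i x + hsf A (fun x => - gE P S hε x) i x)).trace) := by
    refine totc_congr Pt fun i x hx => ?_
    have e1 : Kw P S K hδ i x = Kw P S K one_pos i x + hsf A (fun x => - gE P S hδ x) i x := by
      unfold Kw
      rw [cur_hE P S hδ i hx, add_assoc]
    have e2 := cur_hE P S hε i hx
    rw [e1, e2]
  rw [h3, h2]

/-- **T7**, energy of `g_ε` -/
theorem energy_gE (K : Kah A) (Pt : Part A) {ε : ℝ} (hε : 0 < ε) (h1 : ε ≤ 1) :
    ∫⁻ x in US P S, ENNReal.ofReal (fnD K (grd (KH P S K) (fun y => (gE P S hε y : ℂ))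
      (fun y => (gE P S hε y : ℂ))) x).re ∂(vm (volK K)) ≤
      ENNReal.ofReal (- Real.log ε * c7 P S K Pt) := by
  set gc : M → ℂ := fun y => (gE P S hε y : ℂ) with hgc
  have hgs : ∀ i, A.SmAt i gc := fun i => smAt_ofReal (gE_sm P S hε i)
  refine fatou (f := fun m x => (fnD K (grd (Kw P S K (dm_pos m)) gc gc) x).re)
    (isOpen_US P S).measurableSet ?_ ?_ ?_ ?_ ?_
  · intro m
    have h1 := Kw_cf P S K (dm_pos m)
    exact (sm_continuous (sm_re (sm_fnD K (grd_dn (CF.tn h1) hgs hgs)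
      fun i => smAt_grd h1 hgs hgs i))).measurable
  · intro m x
    have hx := mem_ci (A := A) x
    exact (Complex.le_def.1 (div_nonneg (grd_nonneg _ (Kw_pos P S K (dm_pos m) _ hx))
      (K.pos _ _ hx).det_pos.le)).1
  · intro m
    have h1 := Kw_cf P S K (dm_pos m)
    exact integrable_sm _ (sm_re (sm_fnD K (grd_dn (CF.tn h1) hgs hgs)
      fun i => smAt_grd h1 hgs hgs i))
  · intro m
    have h2 := Kw_cf P S K (dm_pos m)
    rw [integral_fnD_re K Pt (grd_dn (CF.tn h2) hgs hgs) fun i => smAt_grd h2 hgs hgs i]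
    rw [← c7_eq P S K Pt (dm_pos m) hε]
    exact grd_le K Pt h2 (cur_cf (hE P S one_pos)) (cur_cf (hE P S hε))
      (fun i x hx => Kw_pos P S K (dm_pos m) i hx) (fun i x hx => cfs_psd P _ i hx)
      (fun i x hx => cfs_psd P _ i hx) (gE_sm P S hε) (fun i x hx => hsf_gE P S hε i hx)
      (gE_nonneg P S hε h1) (gE_le P S hε h1)
  · intro x hx
    have h2 := tendsto_Kw P S K (mem_ci x) hx
    have h3 : Tendsto (fun m => grd (Kw P S K (dm_pos m)) gc gc (ci A x) x) atTop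
        (𝓝 (grd (KH P S K) gc gc (ci A x) x)) := by
      have h4 : Continuous fun G : Matrix (Fin n) (Fin n) ℂ => qa G.adjugate
          (fun a => dl A (ci A x) a gc x) (fun b => A.db (ci A x) b gc x) := by
        unfold qa
        refine continuous_finsetSum _ fun a _ => continuous_finsetSum _ fun b _ => ?_
        refine Continuous.mul (Continuous.mul ?_ continuous_const) continuous_const
        exact (continuous_id.matrix_adjugate).matrix_elem b a
      exact (h4.tendsto _).comp h2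
    exact (Complex.continuous_re.tendsto _).comp (h3.div_const _)

/-! ### the cut-off -/

/-- `1` for `y ≤ 1/3`, `0` for `2/3 ≤ y` -/
def th (y : ℝ) : ℝ := Real.smoothTransition (2 - 3 * y)

theorem th_contDiff : ContDiff ℝ ∞ th :=
  Real.smoothTransition.contDiff.comp (contDiff_const.sub (contDiff_const.mul contDiff_id))

theorem th_nonneg (y : ℝ) : 0 ≤ th y := Real.smoothTransition.nonneg _

theorem th_le (y : ℝ) : th y ≤ 1 := Real.smoothTransition.le_one _

theorem th_one {y : ℝ} (h : y ≤ 1 / 3) : th y = 1 :=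
  Real.smoothTransition.one_of_one_le (by linarith)

theorem th_zero {y : ℝ} (h : 2 / 3 ≤ y) : th y = 0 :=
  Real.smoothTransition.zero_of_nonpos (by linarith)

theorem th_deriv : ∃ C : ℝ, 0 ≤ C ∧ ∀ y ∈ Icc (0 : ℝ) 1, |deriv th y| ≤ C := by
  have h1 : Continuous (deriv th) := th_contDiff.continuous_deriv (by simp)
  obtain ⟨C, hC⟩ := (isCompact_Icc (a := (0 : ℝ)) (b := 1)).exists_bound_of_continuousOn
    h1.continuousOn
  refine ⟨max C 0, le_max_right _ _, fun y hy => (hC y hy).trans (le_max_left _ _)⟩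

/-- `ε_m = e^{-(m+1)}` -/
def em (m : ℕ) : ℝ := Real.exp (-((m : ℝ) + 1))

theorem em_pos (m : ℕ) : 0 < em m := Real.exp_pos _

theorem em_le (m : ℕ) : em m ≤ 1 := Real.exp_le_one_iff.2 (by have : (0 : ℝ) ≤ m := m.cast_nonneg; linarith)

theorem log_em (m : ℕ) : - Real.log (em m) = (m : ℝ) + 1 := by
  unfold em
  rw [Real.log_exp, neg_neg]

/-- the cut-off functions -/
def chi (m : ℕ) (x : M) : ℝ := th (gE P S (em_pos m) x / ((m : ℝ) + 1))

theorem chi_sm (m : ℕ) : A.Sm (chi P S m) := fun i =>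
  th_contDiff.comp_contDiffOn ((gE_sm P S (em_pos m) i).div_const _)

theorem chi_nonneg (m : ℕ) (x : M) : 0 ≤ chi P S m x := th_nonneg _

theorem chi_le (m : ℕ) (x : M) : chi P S m x ≤ 1 := th_le _

theorem chi_off (m : ℕ) : ∀ᶠ x in 𝓝ˢ (US P S)ᶜ, chi P S m x = 0 := by
  rw [eventually_nhdsSet_iff_forall]
  intro x hx
  have h1 : gE P S (em_pos m) x / ((m : ℝ) + 1) = 1 := by
    rw [gE_off P S (em_pos m) hx, log_em, div_self (by positivity)]
  have h2 : Continuous fun y => gE P S (em_pos m) y / ((m : ℝ) + 1) :=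
    (sm_continuous (gE_sm P S (em_pos m))).div_const _
  have h3 : ∀ᶠ y in 𝓝 x, 2 / 3 < gE P S (em_pos m) y / ((m : ℝ) + 1) :=
    h2.continuousAt.eventually (lt_mem_nhds (by
      change (2 / 3 : ℝ) < gE P S (em_pos m) x / ((m : ℝ) + 1)
      rw [h1]
      norm_num))
  filter_upwards [h3] with y hy
  exact th_zero hy.le

theorem chi_on {x : M} (hx : x ∈ US P S) :
    ∃ V ∈ 𝓝 x, ∃ m₀, ∀ m ≥ m₀, ∀ y ∈ V, chi P S m y = 1 := by
  have hxi := mem_ci (A := A) x
  set i := ci A x with hi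
  set B : M → ℝ := fun y => Real.log (wq (cE S 1) (P.F i y)) - Real.log (wq (cE S 0) (P.F i y))
    with hB
  have h0 : 0 < wq (cE S 0) (P.F i x) := by
    rw [← tsq_eq]
    exact tsq_pos P S hxi hx
  have hcont : ∀ c, ContinuousAt (fun y => wq c (P.F i y)) x := fun c =>
    (continuousOn_wqF P c i).continuousAt ((A.e i).open_source.mem_nhds hxi)
  have hBc : ContinuousAt B x :=
    ((hcont _).log (wqF_pos P S one_pos hxi).ne').sub ((hcont _).log h0.ne')
  obtain ⟨m₀, hm₀⟩ := exists_nat_gt (3 * (B x + 1))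
  refine ⟨{y | B y < B x + 1} ∩ ((A.e i).source ∩ US P S), ?_, m₀, ?_⟩
  · exact inter_mem (hBc.eventually (gt_mem_nhds (lt_add_one _)))
      (inter_mem ((A.e i).open_source.mem_nhds hxi) ((isOpen_US P S).mem_nhds hx))
  · rintro m hm y ⟨hy1, hy2, hy3⟩
    refine th_one ?_
    have h4 := gE_le_on P S (em_pos m) hy2 hy3
    have h5 : (m₀ : ℝ) ≤ m := by exact_mod_cast hm
    have h6 : B y < B x + 1 := hy1
    rw [div_le_iff₀ (by positivity)]
    have h7 : gE P S (em_pos m) y ≤ B y := h4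
    linarith

theorem chi_energy (K : Kah A) (Pt : Part A) :
    Tendsto (fun m => ∫⁻ x in US P S, ENNReal.ofReal (fnD K (grd (KH P S K)
      (fun y => (chi P S m y : ℂ)) (fun y => (chi P S m y : ℂ))) x).re ∂(vm (volK K)))
      atTop (𝓝 0) := by
  obtain ⟨C, hC0, hC⟩ := th_deriv
  have hbd : ∀ m : ℕ, ∫⁻ x in US P S, ENNReal.ofReal (fnD K (grd (KH P S K)
      (fun y => (chi P S m y : ℂ)) (fun y => (chi P S m y : ℂ))) x).re ∂(vm (volK K)) ≤
      ENNReal.ofReal (C ^ 2 * c7 P S K Pt / ((m : ℝ) + 1)) := by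
    intro m
    have hm : (0 : ℝ) < (m : ℝ) + 1 := by positivity
    set M₀ : ℝ := (m : ℝ) + 1 with hM₀
    set θ : ℝ → ℝ := fun y => th (y / M₀) with hθ
    have hθd : Differentiable ℝ θ := by
      have : ContDiff ℝ ∞ θ := th_contDiff.comp (contDiff_id.div_const _)
      exact this.differentiable (by simp)
    have hdθ : ∀ y, deriv θ y = deriv th (y / M₀) / M₀ := by
      intro y
      have h1 : HasDerivAt th (deriv th (y / M₀)) (y / M₀) :=
        ((th_contDiff.differentiable (by simp)) _).hasDerivAt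
      have h2 : HasDerivAt (fun y : ℝ => y / M₀) (1 / M₀) y := (hasDerivAt_id y).div_const _
      have h3 := h1.comp y h2
      have h4 : HasDerivAt θ (deriv th (y / M₀) * (1 / M₀)) y := h3
      rw [h4.deriv]
      ring
    set gc : M → ℂ := fun y => (gE P S (em_pos m) y : ℂ) with hgc
    have key : ∀ x ∈ US P S, ENNReal.ofReal (fnD K (grd (KH P S K)
        (fun y => (chi P S m y : ℂ)) (fun y => (chi P S m y : ℂ))) x).re ≤
        ENNReal.ofReal ((C / M₀) ^ 2) * ENNReal.ofReal (fnD K (grd (KH P S K) gc gc) x).re := by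
      intro x hx
      have hxi := mem_ci (A := A) x
      rw [← ENNReal.ofReal_mul (by positivity)]
      refine ENNReal.ofReal_le_ofReal ?_
      have h1 : grd (KH P S K) (fun y => (chi P S m y : ℂ)) (fun y => (chi P S m y : ℂ))
          (ci A x) x = (((deriv θ (gE P S (em_pos m) x)) ^ 2 : ℝ) : ℂ) *
            grd (KH P S K) gc gc (ci A x) x :=
        grd_comp (θ := θ) hθd (gE_sm P S (em_pos m)) hxi
      have h2 : 0 ≤ (fnD K (grd (KH P S K) gc gc) x).re :=
        (Complex.le_def.1 (div_nonneg (grd_nonneg _ (KH_pos P S K hxi hx))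
          (K.pos _ _ hxi).det_pos.le)).1
      have h3 : fnD K (grd (KH P S K) (fun y => (chi P S m y : ℂ))
          (fun y => (chi P S m y : ℂ))) x =
          (((deriv θ (gE P S (em_pos m) x)) ^ 2 : ℝ) : ℂ) *
            fnD K (grd (KH P S K) gc gc) x := by
        unfold fnD
        rw [h1, mul_div_assoc]
      rw [h3, Complex.re_ofReal_mul]
      refine mul_le_mul_of_nonneg_right ?_ h2
      rw [hdθ]
      have h4 : gE P S (em_pos m) x / M₀ ∈ Icc (0 : ℝ) 1 := by
        refine ⟨div_nonneg (gE_nonneg P S _ (em_le m) x) hm.le, ?_⟩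
        rw [div_le_one hm, hM₀, ← log_em m]
        exact gE_le P S _ (em_le m) x
      have h5 := hC _ h4
      rw [div_pow, div_pow]
      refine div_le_div_of_nonneg_right ?_ (by positivity)
      rw [← sq_abs]
      exact pow_le_pow_left₀ (abs_nonneg _) h5 2
    calc ∫⁻ x in US P S, ENNReal.ofReal (fnD K (grd (KH P S K)
          (fun y => (chi P S m y : ℂ)) (fun y => (chi P S m y : ℂ))) x).re ∂(vm (volK K))
        ≤ ∫⁻ x in US P S, ENNReal.ofReal ((C / M₀) ^ 2) *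
            ENNReal.ofReal (fnD K (grd (KH P S K) gc gc) x).re ∂(vm (volK K)) :=
          setLIntegral_mono' (isOpen_US P S).measurableSet key
      _ = ENNReal.ofReal ((C / M₀) ^ 2) * ∫⁻ x in US P S,
            ENNReal.ofReal (fnD K (grd (KH P S K) gc gc) x).re ∂(vm (volK K)) :=
          lintegral_const_mul' _ _ ENNReal.ofReal_ne_top
      _ ≤ ENNReal.ofReal ((C / M₀) ^ 2) * ENNReal.ofReal (- Real.log (em m) * c7 P S K Pt) := by
          gcongr
          exact energy_gE P S K Pt (em_pos m) (em_le m)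
      _ = ENNReal.ofReal (C ^ 2 * c7 P S K Pt / M₀) := by
          rw [← ENNReal.ofReal_mul (by positivity), log_em, ← hM₀]
          congr 1
          field_simp
  have hlim : Tendsto (fun m : ℕ => ENNReal.ofReal (C ^ 2 * c7 P S K Pt / ((m : ℝ) + 1)))
      atTop (𝓝 0) := by
    have h1 : Tendsto (fun m : ℕ => C ^ 2 * c7 P S K Pt / ((m : ℝ) + 1)) atTop (𝓝 0) := by
      have := (tendsto_one_div_add_atTop_nhds_zero_nat (𝕜 := ℝ)).const_mul (C ^ 2 * c7 P S K Pt)
      rw [mul_zero] at this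
      refine this.congr fun m => ?_
      ring
    have h2 := (ENNReal.continuous_ofReal.tendsto _).comp h1
    rwa [ENNReal.ofReal_zero] at h2
  exact tendsto_of_tendsto_of_tendsto_of_le_of_le tendsto_const_nhds hlim (fun _ => zero_le)
    hbd

/-! ### the final statements -/

/-- chart independence, volume -/
theorem fnD_det (K : Kah A) {i : A.ι} {x : M} (hx : x ∈ (A.e i).source) (h : x ∈ US P S) :
    fnD K (fun i x => (KH P S K i x).det) x = (KH P S K i x).det / (K.g i x).det := by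
  refine fnD_at K hx ?_
  change (KH P S K i x).det = dens A i (ci A x) x * (KH P S K (ci A x) x).det
  rw [KH_tr P S K ⟨hx, mem_ci x⟩ h, Matrix.det_mul, Matrix.det_mul, Matrix.det_transpose,
    det_map_conj, dens_Jm]
  ring

/-- chart independence, gradient -/
theorem fnD_grd (K : Kah A) {φ u : M → ℂ} (hφ : ∀ i, A.SmAt i φ) (hu : ∀ i, A.SmAt i u)
    {i : A.ι} {x : M} (hx : x ∈ (A.e i).source) (h : x ∈ US P S) :
    fnD K (grd (KH P S K) φ u) x = grd (KH P S K) φ u i x / (K.g i x).det :=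
  fnD_at K hx (grd_tr ⟨hx, mem_ci x⟩ (KH_tr P S K ⟨hx, mem_ci x⟩ h) (hφ _) (hu _))

theorem finite_vol_lt (K : Kah A) (Pt : Part A) :
    ∫⁻ x in US P S, ENNReal.ofReal (fnD K (fun i x => (KH P S K i x).det) x).re ∂(vm (volK K)) <
      ⊤ := (finite_vol P S K Pt).trans_lt ENNReal.ofReal_lt_top

/-- **T7**: logarithmic cut-off functions -/
theorem exists_cutoff (K : Kah A) (Pt : Part A) : ∃ χ : ℕ → M → ℝ,
    (∀ m, A.Sm (χ m)) ∧ (∀ m x, 0 ≤ χ m x) ∧ (∀ m x, χ m x ≤ 1) ∧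
    (∀ m, ∀ᶠ x in 𝓝ˢ (US P S)ᶜ, χ m x = 0) ∧
    (∀ x ∈ US P S, ∃ V ∈ 𝓝 x, ∃ m₀, ∀ m ≥ m₀, ∀ y ∈ V, χ m y = 1) ∧
    Tendsto (fun m => ∫⁻ x in US P S, ENNReal.ofReal (fnD K (grd (KH P S K)
      (fun y => (χ m y : ℂ)) (fun y => (χ m y : ℂ))) x).re ∂(vm (volK K))) atTop (𝓝 0) :=
  ⟨chi P S, chi_sm P S, chi_nonneg P S, chi_le P S, chi_off P S, fun _ hx => chi_on P S hx,
    chi_energy P S K Pt⟩

/-- on a compact subset of `US` the cut-offs are eventually `1` -/
theorem chi_compact {C : Set M} (hC : IsCompact C) (hCU : C ⊆ US P S) :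
    ∃ m₀, ∀ m ≥ m₀, ∀ᶠ y in 𝓝ˢ C, chi P S m y = 1 := by
  have h1 : ∀ x ∈ C, ∃ V : Set M, IsOpen V ∧ x ∈ V ∧ ∃ m₀, ∀ m ≥ m₀, ∀ y ∈ V,
      chi P S m y = 1 := by
    intro x hx
    obtain ⟨V, hV, m₀, h⟩ := chi_on P S (hCU hx)
    obtain ⟨W, hWV, hW, hxW⟩ := mem_nhds_iff.1 hV
    exact ⟨W, hW, hxW, m₀, fun m hm y hy => h m hm y (hWV hy)⟩
  choose! V hVo hxV m₀ hm₀ using h1
  obtain ⟨t, htC, ht⟩ := hC.elim_nhds_subcover V fun x hx => (hVo x hx).mem_nhds (hxV x hx)
  refine ⟨t.sup m₀, fun m hm => ?_⟩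
  rw [eventually_nhdsSet_iff_exists]
  refine ⟨⋃ x ∈ t, V x, isOpen_biUnion fun x hx => hVo x (htC x hx), ht, fun y hy => ?_⟩
  obtain ⟨x, hx, hyV⟩ := mem_iUnion₂.1 hy
  exact hm₀ x (htC x hx) m ((Finset.le_sup hx).trans hm) y hyV

end main

end

end Crest.Agent.R273.LogCut_5
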