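import Crest.Agent.R273.RetF_155
import Crest.Agent.R273.LogCut_5
import Crest.Agent.R273.NormC_505
import Crest.Agent.R273.YauMax_635

/-!
# R273 (S0416), torus step, leaf LEVI-R (helper155)

`Q : RF P` (helper422), `S : FAtl Q.T`, `Sm Q = {k | Q.x k = Q.m}`:
* `U_sub`, `US_eq`  : the open set `U` of the retraction is `US P (Sm Q)`;
* `bb_hol`          : holomorphy of `bb`;
* `hess_compR`      : chain rule of the complex Hessian (different dimensions);
* `HS_pull`         : `HS P (Sm Q) = Prᵀ (Fubini-Study metric of F) conj Pr`, `Pr` the Jacobian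
                      of the retraction;
* `exists_C`        : `C • HS - Prᵀ conj Pr ≥ 0` over compacts of `F`.
-/

set_option autoImplicit false
set_option linter.unusedSectionVars false

open Set Filter Topology Complex
open scoped ContDiff Manifold Matrix ComplexConjugate ComplexOrder

namespace Crest.Agent.R273.LeviR_155

open Crest.Agent.R275 Crest.Agent.R275.Geo Crest.Agent.R275.Core144 Crest.Agent.R275.EDR890
open Crest.Agent.R273.Defs_333 Crest.Agent.R273.Hess_333 Crest.Agent.R273.HessB_333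
open Crest.Agent.R273.HM_333 Crest.Agent.R273.Kah_333 Crest.Agent.R273.FS_333
open Crest.Agent.R273.Map_835 Crest.Agent.R273.PB_835 Crest.Agent.R273.FPB_155
open Crest.Agent.R273.TorFr_422 Crest.Agent.R273.PFlow_522 Crest.Agent.R273.Ret_155
open Crest.Agent.R273.Ret_155.FAtl Crest.Agent.R273.LogA_5

noncomputable section

variable {n : ℕ} {M : Type} [TopologicalSpace M] {A : Atl n M} {P : ProjD A} (Q : RF P)

/-! ### (a) the open set -/

/-- the columns of weight `m` -/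
def Sm : Finset (Fin (P.N + 1)) := Finset.univ.filter fun k => Q.x k = Q.m

theorem mem_Sm {k : Fin (P.N + 1)} : k ∈ Sm Q ↔ Q.x k = Q.m := by
  simp [Sm]

theorem tsq_Sm (i : A.ι) (x : M) :
    tsq P (Sm Q) i x = ∑ k, ‖prm Q.x Q.m (P.F i x) k‖ ^ 2 := by
  unfold tsq
  rw [Sm, Finset.sum_filter]
  refine Finset.sum_congr rfl fun k _ => ?_
  unfold prm
  split_ifs <;> simp

theorem U_sub : Q.T.U ⊆ US P (Sm Q) := by
  intro x hx
  obtain ⟨i, hi⟩ := A.cover x
  obtain ⟨j, hj⟩ := A.cover (Q.T.r x)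
  rw [mem_US_iff P (Sm Q) hi]
  have h1 := bb_spec Q hx hi hj
  obtain ⟨k, hk⟩ : ∃ k, P.F j (Q.T.r x) k ≠ 0 := Function.ne_iff.1 (P.ne j _ hj)
  have h2 := congrFun h1.2 k
  have hkx : Q.x k = Q.m := by
    by_contra hne
    simp only [prm, if_neg hne, Pi.smul_apply, smul_eq_mul] at h2
    exact (mul_ne_zero h1.1 hk) h2.symm
  refine ⟨k, (mem_Sm Q).2 hkx, ?_⟩
  simp only [prm, if_pos hkx, Pi.smul_apply, smul_eq_mul] at h2
  rw [h2]
  exact mul_ne_zero h1.1 hk

theorem US_eq (hU : ∀ y v, R P y v → prm Q.x Q.m v ≠ 0 → y ∈ Q.T.U) :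
    US P (Sm Q) = Q.T.U := by
  refine Subset.antisymm (fun x hx => ?_) (U_sub Q)
  obtain ⟨i, hi⟩ := A.cover x
  obtain ⟨k, hk, hne⟩ := (mem_US_iff P (Sm Q) hi).1 hx
  refine hU x _ (R_F hi) fun h0 => hne ?_
  have h1 := congrFun h0 k
  simp only [prm, if_pos ((mem_Sm Q).1 hk), Pi.zero_apply] at h1
  exact h1

/-! ### (b) the Levi form -/

/-- `bb` is holomorphic -/
theorem bb_hol (i j : A.ι) :
    HolAt A i (Q.T.U ∩ Q.T.r ⁻¹' (A.e j).source) (bb Q i j) := by
  refine holAt_of_local fun y hy hyU => ?_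
  obtain ⟨k, hk⟩ : ∃ k, P.F j (Q.T.r y) k ≠ 0 := Function.ne_iff.1 (P.ne j _ hyU.2)
  set V0 : Set M := {q | q ∈ (A.e j).source ∧ P.F j q k ≠ 0} with hV0
  have hV0o : IsOpen V0 := by
    rw [isOpen_iff_mem_nhds]
    rintro q ⟨h1, h3⟩
    have hc : ContinuousAt (fun q => P.F j q k) q :=
      (continuous_apply k).continuousAt.comp (continuousAt_F h1)
    filter_upwards [(A.e j).open_source.mem_nhds h1, hc.eventually_ne h3] with q' a1 a3
    exact ⟨a1, a3⟩
  set V : Set M := Q.T.U ∩ Q.T.r ⁻¹' V0 with hV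
  have hVo : IsOpen V := Q.T.isOpen_pre hV0o
  refine ⟨V, hVo, ⟨hyU.1, hyU.2, hk⟩, ?_⟩
  have hpull : ∀ f : M → ℂ, HolAt A j univ f → HolAt A i V (fun y => f (Q.T.r y)) := by
    intro f hf
    have h1 : DifferentiableOn ℂ (fun z => f ((A.e j).symm (A.e j (Q.T.r ((A.e i).symm z)))))
        ((A.e i).target ∩ (A.e i).symm ⁻¹' V) := by
      refine DifferentiableOn.comp (t := (A.e j).target ∩ (A.e j).symm ⁻¹' univ)
        (g := fun z => f ((A.e j).symm z)) hf ((Q.T.hol i j).mono ?_) ?_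
      · rintro z ⟨h1, h2⟩
        exact ⟨h1, h2.1, h2.2.1⟩
      · rintro z ⟨_, h2⟩
        exact ⟨(A.e j).map_source h2.2.1, mem_univ _⟩
    refine DifferentiableOn.congr h1 fun z hz => ?_
    show f (Q.T.r ((A.e i).symm z)) = _
    rw [(A.e j).left_inv hz.2.2.1]
  have hkx : Q.x k = Q.m := by
    by_contra hne
    have := congrFun (bb_spec Q hyU.1 hy hyU.2).2 k
    simp only [prm, if_neg hne, Pi.smul_apply, smul_eq_mul] at this
    exact (mul_ne_zero (bb_spec Q hyU.1 hy hyU.2).1 hk) this.symm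
  have h1 : HolAt A i V (fun y => P.F i y k * (P.F j (Q.T.r y) k)⁻¹) :=
    HolAt.mul ((P.hol i k).mono (subset_univ _))
      ((hpull _ (P.hol j k)).inv fun x _ hx => hx.2.2)
  refine h1.congr fun x hx hxV => ?_
  have h2 := congrFun (bb_spec Q hxV.1 hx hxV.2.1).2 k
  simp only [prm, if_pos hkx, Pi.smul_apply, smul_eq_mul] at h2
  rw [h2, mul_assoc, mul_inv_cancel₀ hxV.2.2, mul_one]

theorem hess_hs {m : ℕ} (u : Cn m → ℝ) (z : Cn m) (a b : Fin m) :
    hess u z a b = Levi_145.hs (Levi_145.cx u) z a b := by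
  rw [hess_apply]
  simp only [Levi_145.hs, Crest.Agent.R275.OmT75.dj, wd, wdL, cI_false]
  rw [neg_smul, ← sub_eq_add_neg]
  rfl

/-- chain rule for the complex Hessian -/
theorem hess_compR {m : ℕ} {u : Cn m → ℝ} {T : Cn n → Cn m} {z : Cn n}
    (hT : AnalyticAt ℂ T z) (hu : ContDiffAt ℝ 2 u (T z)) :
    hess (fun w => u (T w)) z =
      (mt (fderiv ℂ T z))ᵀ * hess u (T z) * (mt (fderiv ℂ T z)).map conj := by
  ext a b
  rw [hess_hs]
  have e : Levi_145.cx (fun w => u (T w)) = fun w => (Levi_145.cx u) (T w) := rfl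
  rw [e, Levi_145.hs_comp hT (Levi_145.cx_c2 hu)]
  simp only [Matrix.mul_apply, Matrix.transpose_apply, Matrix.map_apply, Finset.sum_mul, hess_hs]
  rw [Finset.sum_comm]
  refine Finset.sum_congr rfl fun c _ => Finset.sum_congr rfl fun d _ => ?_
  show _ = (fderiv ℂ T z (EuclideanSpace.single a 1)) d * _ *
    conj ((fderiv ℂ T z (EuclideanSpace.single b 1)) c)
  ring

/-- **(b)** the Levi form of `log ∑ |F_k|²`, `k ∈ Sm`, is the pull-back of the Fubini-Study
metric of `F` by the retraction -/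
theorem HS_pull (S : FAtl Q.T) (p : Q.T.F) {i : A.ι} {l : S.B.ι} {x : M}
    (hx : x ∈ (A.e i).source) (hU : x ∈ Q.T.U) (hl : rho Q.T p x ∈ (S.B.e l).source) :
    HS P (Sm Q) i x = (Jp A S.B (rho Q.T p) i l x)ᵀ *
      cur (fs (S.projD P)) l (rho Q.T p x) * (Jp A S.B (rho Q.T p) i l x).map conj := by
  have hp := S.holOn_rho p
  have hz := mem_dmU (A := A) (B := S.B) (p := rho Q.T p) hx hU hl
  have ho := hp.isOpen_dm i l
  have hTz : Map_835.rd A S.B (rho Q.T p) i l (A.e i x) = S.B.e l (rho Q.T p x) := by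
    simp only [Map_835.rd]
    rw [(A.e i).left_inv hx]
  have hTa : AnalyticAt ℂ (Map_835.rd A S.B (rho Q.T p) i l) (A.e i x) :=
    Crest.Agent.R266.SCV.analyticOnNhd_of_differentiableOn ho (hp.hol i l) _ hz
  have hv : ContDiffAt ℝ ∞ ((fs (S.projD P)).wt l) (Map_835.rd A S.B (rho Q.T p) i l (A.e i x)) := by
    rw [hTz]
    exact wt_contDiffAt _ l ((S.B.e l).map_source hl)
  have hvT : ContDiffAt ℝ ∞ (fun w => (fs (S.projD P)).wt l
      (Map_835.rd A S.B (rho Q.T p) i l w)) (A.e i x) :=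
    hv.comp (A.e i x) (hTa.contDiffAt.restrict_scalars ℝ)
  have hr : ∀ w ∈ dmU A S.B Q.T.U (rho Q.T p) i l,
      Q.T.r ((A.e i).symm w) ∈ (A.e (S.refV.r l)).source := by
    intro w hw
    have h := S.refV.sub l _ hw.2.2
    rwa [rho_val p hw.2.1] at h
  have hbo : IsOpen ((A.e i).target ∩ (A.e i).symm ⁻¹'
      (Q.T.U ∩ Q.T.r ⁻¹' (A.e (S.refV.r l)).source)) :=
    (A.e i).isOpen_inter_preimage_symm (Q.T.isOpen_pre (A.e (S.refV.r l)).open_source)
  have hbd : ∀ᶠ w in 𝓝 (A.e i x), DifferentiableAt ℂ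
      (fun w => bb Q i (S.refV.r l) ((A.e i).symm w)) w := by
    filter_upwards [ho.mem_nhds hz] with w hw
    exact DifferentiableOn.differentiableAt (bb_hol Q i (S.refV.r l))
      (hbo.mem_nhds ⟨hw.1, hw.2.1, hr w hw⟩)
  have hrx : Q.T.r x ∈ (A.e (S.refV.r l)).source := by
    have h := S.refV.sub l _ hl
    rwa [rho_val p hU] at h
  have hb0 : bb Q i (S.refV.r l) ((A.e i).symm (A.e i x)) ≠ 0 := by
    rw [(A.e i).left_inv hx]
    exact (bb_spec Q hU hx hrx).1
  have hbc : ContDiffAt ℝ ∞ (fun w => bb Q i (S.refV.r l) ((A.e i).symm w)) (A.e i x) :=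
    contDiffAt_of_hol hbo (bb_hol Q i (S.refV.r l)) ⟨hz.1, hz.2.1, hr _ hz⟩
  have hlog : ContDiffAt ℝ ∞ (fun w => Real.log (‖bb Q i (S.refV.r l) ((A.e i).symm w)‖ ^ 2))
      (A.e i x) := (hbc.norm_sq ℝ).log (by
        have h := norm_pos_iff.2 hb0
        positivity)
  have key : (fun w => Real.log (tsq P (Sm Q) i ((A.e i).symm w))) =ᶠ[𝓝 (A.e i x)]
      fun w => (fun w => (fs (S.projD P)).wt l (Map_835.rd A S.B (rho Q.T p) i l w)) w +
        (fun w => Real.log (‖bb Q i (S.refV.r l) ((A.e i).symm w)‖ ^ 2)) w := by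
    filter_upwards [ho.mem_nhds hz] with w hw
    have hy := (A.e i).map_target hw.1
    have h1 := bb_spec Q hw.2.1 hy (hr w hw)
    have h2 : tsq P (Sm Q) i ((A.e i).symm w) = ‖bb Q i (S.refV.r l) ((A.e i).symm w)‖ ^ 2 *
        ∑ k, ‖P.F (S.refV.r l) (Q.T.r ((A.e i).symm w)) k‖ ^ 2 := by
      rw [tsq_Sm, h1.2, Finset.mul_sum]
      refine Finset.sum_congr rfl fun k _ => ?_
      rw [Pi.smul_apply, smul_eq_mul, norm_mul, mul_pow]
    have h3 : (fs (S.projD P)).wt l (Map_835.rd A S.B (rho Q.T p) i l w) =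
        Real.log (∑ k, ‖P.F (S.refV.r l) (Q.T.r ((A.e i).symm w)) k‖ ^ 2) := by
      simp only [HM.wt, fs, Real.log_inv, neg_neg, Map_835.rd]
      rw [(S.B.e l).left_inv hw.2.2]
      congr 1
      refine Finset.sum_congr rfl fun k _ => ?_
      show ‖P.F (S.refV.r l) (rho Q.T p ((A.e i).symm w)) k‖ ^ 2 = _
      rw [rho_val p hw.2.1]
    have h4 : (∑ k, ‖P.F (S.refV.r l) (Q.T.r ((A.e i).symm w)) k‖ ^ 2) ≠ 0 :=
      (FS_333.sq_pos (n := 0) (F := fun _ => P.F (S.refV.r l) (Q.T.r ((A.e i).symm w))) (z := 0)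
        (P.ne _ _ (hr w hw))).ne'
    have h5 := norm_pos_iff.2 h1.1
    rw [h2, h3, Real.log_mul (by positivity) h4]
    ring
  unfold LogA_5.HS
  rw [hess_congr key, hess_add hvT hlog, hess_log_norm hbd hb0, add_zero,
    hess_compR hTa (hv.of_le (by norm_cast)), hTz, ← Jp_eq]
  rfl

/-! ### (c) compact sets -/

/-- **(c)** lower bound over a compact part of a chart of `F` -/
theorem exists_C (S : FAtl Q.T) (l : S.B.ι) {KF : Set Q.T.F} (hK : IsCompact KF)
    (hKs : KF ⊆ (S.B.e l).source) : ∃ C : ℝ, 0 < C ∧ ∀ (p : Q.T.F) (i : A.ι) (x : M),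
      x ∈ (A.e i).source → x ∈ Q.T.U → rho Q.T p x ∈ KF →
      ((C : ℂ) • HS P (Sm Q) i x - (Jp A S.B (rho Q.T p) i l x)ᵀ *
        (Jp A S.B (rho Q.T p) i l x).map conj).PosSemidef := by
  have hg : ∀ a b, ContinuousOn (fun q => cur (fs (S.projD P)) l q a b) KF := fun a b =>
    (NormC_505.continuousOn_of_smAt (cur_smooth (fs (S.projD P)) l a b)).mono hKs
  obtain ⟨c, hc0, hc⟩ := NormC_505.exists_lower hK hg
    fun q hq => cur_posDef (fs_pos (S.projD P)) l (hKs hq)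
  refine ⟨c⁻¹, inv_pos.2 hc0, fun p i x hx hU hxK => ?_⟩
  set g := cur (fs (S.projD P)) l (rho Q.T p x) with hgd
  set Pr := Jp A S.B (rho Q.T p) i l x with hPr
  have h1 : (((c⁻¹ : ℝ) : ℂ) • g - 1).PosSemidef := by
    have hherm := cur_herm (fs (S.projD P)) l (hKs hxK)
    refine Matrix.PosSemidef.of_dotProduct_mulVec_nonneg ?_ fun v => ?_
    · refine Matrix.IsHermitian.sub ?_ Matrix.isHermitian_one
      rw [Matrix.IsHermitian, Matrix.conjTranspose_smul, hherm.eq]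
      simp [hgd]
    · have h2 := hc _ hxK v
      have h3 : star v ⬝ᵥ v = ((NormC_505.nsq v : ℝ) : ℂ) := by
        unfold NormC_505.nsq
        simp only [dotProduct, Pi.star_apply, ofReal_sum]
        refine Finset.sum_congr rfl fun k _ => ?_
        rw [RCLike.star_def, Complex.conj_mul', ofReal_pow]
      have h4 : star v ⬝ᵥ (g *ᵥ v) = (((star v ⬝ᵥ (g *ᵥ v)).re : ℝ) : ℂ) := by
        refine (Complex.ext ?_ ?_)
        · rfl
        · have h5 := (cur_posDef (fs_pos (S.projD P)) l (hKs hxK)).posSemidef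
          have h6 := (Complex.le_def.1 (h5.dotProduct_mulVec_nonneg v)).2
          rw [ofReal_im]
          exact h6.symm
      rw [Matrix.sub_mulVec, Matrix.smul_mulVec, dotProduct_sub, Matrix.one_mulVec,
        dotProduct_smul, h3, h4, smul_eq_mul, ← ofReal_mul, ← ofReal_sub]
      have h7 : 0 ≤ c⁻¹ * (star v ⬝ᵥ (g *ᵥ v)).re - NormC_505.nsq v := by
        have h8 : NormC_505.nsq v ≤ c⁻¹ * (star v ⬝ᵥ (g *ᵥ v)).re := by
          rw [inv_mul_eq_div, le_div_iff₀ hc0, mul_comm]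
          exact h2
        linarith
      exact_mod_cast h7
  have h2 := h1.conjTranspose_mul_mul_same (Pr.map conj)
  have h3 : (Pr.map conj)ᴴ = Prᵀ := by
    ext a b
    simp [Matrix.conjTranspose_apply]
  rw [h3] at h2
  rw [HS_pull Q S p hx hU (hKs hxK)]
  convert h2 using 1
  rw [Matrix.mul_sub, Matrix.sub_mul, Matrix.mul_one, Matrix.mul_smul, Matrix.smul_mul]

end

end Crest.Agent.R273.LeviR_155
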