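import Mathlib

/-!
# R273 (S0416), torus step BP-T (helper522): T1-C, commuting lifts and characters

* `comm_pow`          : `Φ Ψ = c Ψ Φ` on a finite dimensional space ⇒ `Φ ^ dim` commutes with `Ψ`
* `exists_char_basis` : a unitary representation of an abelian group on a finite dimensional space
                        has an orthonormal basis of common eigenvectors (characters)
* `exists_char_of_proj` : unitary lifts of commuting automorphisms: after a power, characters
-/

set_option autoImplicit false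
set_option linter.unusedSectionVars false

open Finset Module
open scoped ComplexConjugate

namespace Crest.Agent.R273.TorC_522

noncomputable section

section commpow

variable {V : Type*} [AddCommGroup V] [Module ℂ V] [FiniteDimensional ℂ V]

theorem pow_finrank_eq_one (Φ Ψ : V ≃ₗ[ℂ] V) (c : ℂ)
    (h : ∀ v, Φ (Ψ v) = c • Ψ (Φ v)) : c ^ finrank ℂ V = 1 := by
  have h1 : (Φ : V →ₗ[ℂ] V) ∘ₗ (Ψ : V →ₗ[ℂ] V) = c • ((Ψ : V →ₗ[ℂ] V) ∘ₗ (Φ : V →ₗ[ℂ] V)) := by
    ext v; exact h v
  have h2 := congrArg LinearMap.det h1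
  rw [LinearMap.det_smul, LinearMap.det_comp, LinearMap.det_comp] at h2
  have hΦ : LinearMap.det (Φ : V →ₗ[ℂ] V) ≠ 0 := (LinearEquiv.isUnit_det' Φ).ne_zero
  have hΨ : LinearMap.det (Ψ : V →ₗ[ℂ] V) ≠ 0 := (LinearEquiv.isUnit_det' Ψ).ne_zero
  have h3 : (c ^ finrank ℂ V - 1) * (LinearMap.det (Φ : V →ₗ[ℂ] V) *
      LinearMap.det (Ψ : V →ₗ[ℂ] V)) = 0 := by
    linear_combination -h2
  rcases mul_eq_zero.1 h3 with h4 | h4
  · exact sub_eq_zero.1 h4
  · exact absurd h4 (mul_ne_zero hΦ hΨ)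

theorem pow_comm_smul (Φ Ψ : V ≃ₗ[ℂ] V) (c : ℂ)
    (h : ∀ v, Φ (Ψ v) = c • Ψ (Φ v)) (k : ℕ) (v : V) :
    (Φ ^ k) (Ψ v) = c ^ k • Ψ ((Φ ^ k) v) := by
  induction k generalizing v with
  | zero => simp
  | succ k ih =>
    rw [pow_succ, LinearEquiv.mul_apply, h, map_smul, ih, LinearEquiv.mul_apply, smul_smul,
      pow_succ, mul_comm]

/-- T1: lifts which commute up to scalars commute after taking the power `dim V` -/
theorem comm_pow (Φ Ψ : V ≃ₗ[ℂ] V) (c : ℂ)
    (h : ∀ v, Φ (Ψ v) = c • Ψ (Φ v)) (v : V) :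
    (Φ ^ finrank ℂ V) (Ψ v) = Ψ ((Φ ^ finrank ℂ V) v) := by
  rw [pow_comm_smul Φ Ψ c h, pow_finrank_eq_one Φ Ψ c h, one_smul]

end commpow

section charbasis

variable {V : Type*} [NormedAddCommGroup V] [InnerProductSpace ℂ V] [FiniteDimensional ℂ V]
variable {G : Type*} [CommGroup G] (Φ : G →* (V ≃ₗᵢ[ℂ] V))

/-- invariant subspace -/
def Inv (W : Submodule ℂ V) : Prop := ∀ g, ∀ w ∈ W, Φ g w ∈ W

theorem phi_comm (g h : G) (v : V) : Φ g (Φ h v) = Φ h (Φ g v) := by
  have h1 : Φ (g * h) = Φ (h * g) := by rw [mul_comm]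
  rw [map_mul, map_mul] at h1
  exact congrArg (fun T : V ≃ₗᵢ[ℂ] V => T v) h1

theorem exists_common {W : Submodule ℂ V} (hW : Inv Φ W) (hne : W ≠ ⊥) :
    ∃ v ∈ W, v ≠ 0 ∧ ∀ g, ∃ z : ℂ, Φ g v = z • v := by
  classical
  let P : ℕ → Prop := fun k => ∃ U : Submodule ℂ V, U ≠ ⊥ ∧ U ≤ W ∧ Inv Φ U ∧ finrank ℂ U = k
  have hex : ∃ k, P k := ⟨_, W, hne, le_rfl, hW, rfl⟩
  obtain ⟨U, hU0, hUW, hUi, hUk⟩ := Nat.find_spec hex
  have hmin : ∀ k, P k → Nat.find hex ≤ k := fun k hk => Nat.find_min' hex hk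
  have hUn : Nontrivial U := (Submodule.nontrivial_iff_ne_bot).2 hU0
  have hscal : ∀ g, ∃ z : ℂ, ∀ w ∈ U, Φ g w = z • w := by
    intro g
    have hinv : ∀ w ∈ U, ((Φ g).toLinearEquiv : V →ₗ[ℂ] V) w ∈ U := fun w hw => hUi g w hw
    obtain ⟨z, hz⟩ := Module.End.exists_eigenvalue
      (((Φ g).toLinearEquiv : V →ₗ[ℂ] V).restrict hinv)
    obtain ⟨v, hv⟩ := hz.exists_hasEigenvector
    have h1 : Φ g (v : V) = z • (v : V) := by
      have := congrArg Subtype.val hv.apply_eq_smul
      simpa using this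
    refine ⟨z, ?_⟩
    let E : Submodule ℂ V := U ⊓ Module.End.eigenspace ((Φ g).toLinearEquiv : V →ₗ[ℂ] V) z
    have hE : ∀ w, w ∈ E ↔ w ∈ U ∧ Φ g w = z • w := fun w => by
      rw [Submodule.mem_inf, Module.End.mem_eigenspace_iff]; rfl
    have hE0 : E ≠ ⊥ := by
      intro hbot
      have h2 : (v : V) ∈ E := (hE _).2 ⟨v.2, h1⟩
      rw [hbot, Submodule.mem_bot] at h2
      exact hv.2 (Subtype.ext h2)
    have hEi : Inv Φ E := by
      intro h w hw
      obtain ⟨hw1, hw2⟩ := (hE w).1 hw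
      refine (hE _).2 ⟨hUi h w hw1, ?_⟩
      rw [phi_comm, hw2, map_smul]
    have hEU : E ≤ U := inf_le_left
    have hle : finrank ℂ U ≤ finrank ℂ E := by
      rw [hUk]
      exact hmin _ ⟨E, hE0, hEU.trans hUW, hEi, rfl⟩
    have hEeq : E = U := Submodule.eq_of_le_of_finrank_le hEU hle
    intro w hw
    rw [← hEeq] at hw
    exact ((hE w).1 hw).2
  obtain ⟨v, hv⟩ := exists_ne (0 : U)
  refine ⟨v, hUW v.2, fun h => hv (Subtype.ext h), fun g => ?_⟩
  obtain ⟨z, hz⟩ := hscal g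
  exact ⟨z, hz v v.2⟩

theorem exists_family : ∀ (k : ℕ) (W : Submodule ℂ V), Inv Φ W → finrank ℂ W = k →
    ∃ e : Fin k → V, Orthonormal ℂ e ∧ ∀ i, e i ∈ W ∧ ∀ g, ∃ z : ℂ, Φ g (e i) = z • e i := by
  intro k
  induction k with
  | zero =>
    intro W _ _
    exact ⟨fun i => i.elim0, ⟨fun i => i.elim0, fun i => i.elim0⟩, fun i => i.elim0⟩
  | succ k ih =>
    intro W hW hk
    have hne : W ≠ ⊥ := by
      intro h0
      rw [h0, finrank_bot] at hk
      omega
    obtain ⟨v0, hv0W, hv0, hv0g⟩ := exists_common Φ hW hne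
    -- normalise
    set v : V := ((‖v0‖ : ℂ)⁻¹) • v0 with hv
    have hnorm : ‖v‖ = 1 := by
      rw [hv, norm_smul, norm_inv, Complex.norm_real, norm_norm,
        inv_mul_cancel₀ (norm_ne_zero_iff.2 hv0)]
    have hvW : v ∈ W := W.smul_mem _ hv0W
    have hvg : ∀ g, ∃ z : ℂ, Φ g v = z • v := by
      intro g
      obtain ⟨z, hz⟩ := hv0g g
      exact ⟨z, by rw [hv, map_smul, hz, smul_comm]⟩
    set W' : Submodule ℂ V := (ℂ ∙ v)ᗮ ⊓ W with hW'
    have hvne : v ≠ 0 := by
      intro h0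
      rw [h0, norm_zero] at hnorm
      exact zero_ne_one hnorm
    have hle : (ℂ ∙ v) ≤ W := (Submodule.span_singleton_le_iff_mem v W).2 hvW
    have hfr : finrank ℂ W' = k := by
      have h1 := Submodule.finrank_add_inf_finrank_orthogonal hle
      rw [finrank_span_singleton hvne, hk] at h1
      have h2 : finrank ℂ W' = finrank ℂ ((ℂ ∙ v)ᗮ ⊓ W : Submodule ℂ V) := rfl
      omega
    have hinv : Inv Φ W' := by
      intro g w hw
      refine ⟨?_, hW g w hw.2⟩
      obtain ⟨z, hz⟩ := hvg g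
      have hz1 : ‖z‖ = 1 := by
        have h1 : ‖Φ g v‖ = ‖z • v‖ := congrArg norm hz
        rw [LinearIsometryEquiv.norm_map, norm_smul z v, hnorm, mul_one] at h1
        exact h1.symm
      have hz0 : z ≠ 0 := fun h0 => by rw [h0, norm_zero] at hz1; exact zero_ne_one hz1
      rw [SetLike.mem_coe, Submodule.mem_orthogonal_singleton_iff_inner_right]
      have h1 : inner ℂ v w = 0 :=
        (Submodule.mem_orthogonal_singleton_iff_inner_right).1 hw.1
      have h2 : inner ℂ (Φ g v) (Φ g w) = 0 := by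
        rw [LinearIsometryEquiv.inner_map_map, h1]
      rw [hz, inner_smul_left] at h2
      rcases mul_eq_zero.1 h2 with h3 | h3
      · exact absurd ((map_eq_zero _).1 h3) hz0
      · exact h3
    obtain ⟨e, heo, he⟩ := ih W' hinv hfr
    refine ⟨Fin.cons v e, ?_, ?_⟩
    · rw [orthonormal_iff_ite]
      intro i j
      have hve : ∀ j, inner ℂ v (e j) = 0 := fun j =>
        (Submodule.mem_orthogonal_singleton_iff_inner_right).1 (he j).1.1
      refine Fin.cases ?_ (fun i => ?_) i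
      · refine Fin.cases ?_ (fun j => ?_) j
        · simp [hnorm, inner_self_eq_norm_sq_to_K]
        · rw [Fin.cons_zero, Fin.cons_succ, hve, if_neg (Fin.succ_ne_zero j).symm]
      · refine Fin.cases ?_ (fun j => ?_) j
        · rw [Fin.cons_zero, Fin.cons_succ, if_neg (Fin.succ_ne_zero i), ← inner_conj_symm, hve,
            map_zero]
        · rw [Fin.cons_succ, Fin.cons_succ, (orthonormal_iff_ite.1 heo) i j]
          simp [Fin.succ_inj]
    · intro i
      refine Fin.cases ?_ (fun i => ?_) i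
      · exact ⟨hvW, hvg⟩
      · exact ⟨(he i).1.2, (he i).2⟩

/-- orthonormal basis of common eigenvectors -/
theorem exists_basis : ∃ b : OrthonormalBasis (Fin (finrank ℂ V)) ℂ V,
    ∀ i g, ∃ z : ℂ, Φ g (b i) = z • b i := by
  obtain ⟨e, heo, he⟩ := exists_family Φ (finrank ℂ V) ⊤ (fun _ _ _ => trivial) (finrank_top ℂ V)
  have hspan : ⊤ ≤ Submodule.span ℂ (Set.range e) := by
    have h1 : finrank ℂ (Submodule.span ℂ (Set.range e)) = finrank ℂ V := by
      rw [finrank_span_eq_card heo.linearIndependent, Fintype.card_fin]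
    exact (Submodule.eq_top_of_finrank_eq h1).ge
  refine ⟨OrthonormalBasis.mk heo hspan, fun i g => ?_⟩
  rw [OrthonormalBasis.coe_mk]
  exact (he i).2 g

/-- the characters of a unitary representation of an abelian group -/
theorem exists_char_basis : ∃ (b : OrthonormalBasis (Fin (finrank ℂ V)) ℂ V)
    (χ : Fin (finrank ℂ V) → (G →* Circle)), ∀ i g, Φ g (b i) = (χ i g : ℂ) • b i := by
  obtain ⟨b, hb⟩ := exists_basis Φ
  choose z hz using hb
  have hbn : ∀ i, b i ≠ 0 := fun i => b.orthonormal.ne_zero i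
  have hinj : ∀ i, ∀ a c : ℂ, a • b i = c • b i → a = c := fun i a c h =>
    smul_left_injective ℂ (hbn i) h
  have hz1 : ∀ i g, ‖z i g‖ = 1 := by
    intro i g
    have h1 := congrArg norm (hz i g)
    rw [LinearIsometryEquiv.norm_map, norm_smul, b.orthonormal.1 i, mul_one] at h1
    exact h1.symm
  refine ⟨b, fun i =>
    { toFun := fun g => ⟨z i g, mem_sphere_zero_iff_norm.2 (hz1 i g)⟩
      map_one' := by
        ext
        apply hinj i
        show z i 1 • b i = (1 : ℂ) • b i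
        rw [← hz, map_one, one_smul]
        rfl
      map_mul' := by
        intro g h
        ext
        apply hinj i
        show z i (g * h) • b i = (z i g * z i h) • b i
        rw [← hz, map_mul]
        show Φ g (Φ h (b i)) = _
        rw [hz, map_smul, hz, smul_smul, mul_comm] }, fun i g => ?_⟩
  exact hz i g

end charbasis

end

end Crest.Agent.R273.TorC_522
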