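import Crest.Agent.R273.TorG_522
import Crest.Agent.R273.TorC_522

/-!
# R273 (S0416), torus step BP-T, T1 (helper522): projective representations of abelian groups

* `ker_sq`, `maxGen_eq` : isometries of a definite seminorm have no Jordan blocks;
* `exists_joint`        : joint eigenbasis of a commuting family of such isometries;
* `proj_rep`            : a projective isometric representation of a finitely generated abelian
  group is diagonal with torsion free ratios of characters on the subgroup of `N`-th powers;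
* `finiteIndex_range_pow`.
-/

set_option autoImplicit false
set_option linter.unusedSectionVars false

open Module Set

namespace Crest.Agent.R273.LiftA_522

noncomputable section

section joint

variable {V : Type*} [AddCommGroup V] [Module ℂ V] (p : Seminorm ℂ V)
  (hp : ∀ v, p v = 0 → v = 0)

include hp

/-- an isometry of a definite seminorm has no Jordan block -/
theorem ker_sq (T : End ℂ V) (hT : ∀ v, p (T v) = p v) (μ : ℂ) {v : V}
    (h : T (T v - μ • v) = μ • (T v - μ • v)) : T v - μ • v = 0 := by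
  set w := T v - μ • v with hw
  by_contra hne
  have hpw : 0 < p w := lt_of_le_of_ne (apply_nonneg p w) (fun h0 => hne (hp w h0.symm))
  have hμ : ‖μ‖ = 1 := by
    have h1 := hT w
    rw [h, map_smul_eq_mul] at h1
    exact mul_right_cancel₀ hpw.ne' (by rw [h1, one_mul])
  have hμ0 : μ ≠ 0 := by
    intro h0
    rw [h0, norm_zero] at hμ
    exact zero_ne_one hμ
  have hTv : T v = μ • v + w := by rw [hw]; abel
  have hpow : ∀ n : ℕ, (T ^ n) v = μ ^ n • v + ((n : ℂ) * (μ ^ n / μ)) • w := by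
    intro n
    induction n with
    | zero => simp
    | succ n ih =>
      rw [pow_succ', Module.End.mul_apply, ih, map_add, map_smul, map_smul, hTv, h, smul_add,
        smul_smul, smul_smul, ← pow_succ, add_assoc, ← add_smul]
      congr 2
      push_cast
      field_simp
      ring
  have hiso : ∀ n : ℕ, p ((T ^ n) v) = p v := by
    intro n
    induction n with
    | zero => simp
    | succ n ih => rw [pow_succ', Module.End.mul_apply, hT, ih]
  have hbd : ∀ n : ℕ, (n : ℝ) * p w ≤ 2 * p v := by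
    intro n
    have h1 : ((n : ℂ) * (μ ^ n / μ)) • w = (T ^ n) v - μ ^ n • v := by
      rw [hpow n]; abel
    have h2 := congrArg p h1
    rw [map_smul_eq_mul, norm_mul, norm_div, norm_pow, hμ, one_pow, div_one, mul_one,
      Complex.norm_natCast] at h2
    rw [h2]
    calc p ((T ^ n) v - μ ^ n • v) ≤ p ((T ^ n) v) + p (μ ^ n • v) := map_sub_le_add p _ _
      _ = 2 * p v := by
        rw [hiso, map_smul_eq_mul, norm_pow, hμ, one_pow, one_mul]; ring
  obtain ⟨n, hn⟩ := exists_nat_gt (2 * p v / p w)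
  rw [div_lt_iff₀ hpw] at hn
  exact absurd (hbd n) (not_le.2 hn)

theorem maxGen_le (T : End ℂ V) (hT : ∀ v, p (T v) = p v) (μ : ℂ) {v : V}
    (hv : v ∈ T.maxGenEigenspace μ) : T v = μ • v := by
  rw [Module.End.mem_maxGenEigenspace] at hv
  obtain ⟨k, hk⟩ := hv
  have key : ∀ (k : ℕ), ((T - μ • 1) ^ (k + 1)) v = 0 → (T - μ • 1) v = 0 := by
    intro k
    induction k with
    | zero => intro h; simpa using h
    | succ k ih =>
      intro h
      apply ih
      set u := ((T - μ • 1) ^ k) v with hu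
      have h1 : (T - μ • 1) ((T - μ • 1) u) = 0 := by
        rw [pow_succ', pow_succ', Module.End.mul_apply, Module.End.mul_apply] at h
        exact h
      have h2 : T u - μ • u = 0 := by
        apply ker_sq p hp T hT μ
        have h3 : (T - μ • 1) u = T u - μ • u := by simp
        rw [h3] at h1
        have h4 : (T - μ • 1) (T u - μ • u) = T (T u - μ • u) - μ • (T u - μ • u) := by simp
        rw [h4] at h1
        exact sub_eq_zero.1 h1
      rw [pow_succ', Module.End.mul_apply]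
      have h3 : (T - μ • 1) u = T u - μ • u := by simp
      rw [h3]
      exact h2
  have h1 : (T - μ • 1) v = 0 := by
    rcases k with _ | k
    · have : v = 0 := by simpa using hk
      rw [this, map_zero]
    · exact key k hk
  have h3 : (T - μ • 1) v = T v - μ • v := by simp
  rw [h3] at h1
  exact sub_eq_zero.1 h1

/-- joint eigenbasis -/
theorem exists_joint [FiniteDimensional ℂ V] {α : Type*} (T : α → End ℂ V)
    (hT : ∀ a v, p (T a v) = p v) (hc : ∀ a b, Commute (T a) (T b)) :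
    ∃ b : Basis (Fin (finrank ℂ V)) ℂ V, ∀ k a, ∃ z : ℂ, T a (b k) = z • b k := by
  classical
  have h1 := Module.End.iSup_iInf_maxGenEigenspace_eq_top_of_iSup_maxGenEigenspace_eq_top_of_commute
    T (fun a b _ => hc a b) (fun a => Module.End.iSup_maxGenEigenspace_eq_top (T a))
  set S : Set V := {v | ∀ a, ∃ z : ℂ, T a v = z • v} with hS
  have hspan : ⊤ ≤ Submodule.span ℂ S := by
    rw [← h1]
    refine iSup_le fun χ => ?_
    intro v hv
    rw [Submodule.mem_iInf] at hv
    exact Submodule.subset_span fun a => ⟨χ a, maxGen_le p hp (T a) (hT a) (χ a) (hv a)⟩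
  set b0 := Basis.ofSpan hspan with hb0
  have hfin : Fintype ((linearIndepOn_empty ℂ id).extend (empty_subset S)) :=
    FiniteDimensional.fintypeBasisIndex b0
  have hcard : Fintype.card ((linearIndepOn_empty ℂ id).extend (empty_subset S)) =
      finrank ℂ V := (finrank_eq_card_basis b0).symm
  refine ⟨b0.reindex (Fintype.equivFinOfCardEq hcard), fun k a => ?_⟩
  rw [Basis.reindex_apply]
  have h2 : b0 ((Fintype.equivFinOfCardEq hcard).symm k) ∈ S :=
    Basis.ofSpan_subset hspan ⟨_, rfl⟩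
  exact h2 a

end joint

/-! ### projective representations -/

/-- a projective isometric representation of the commutative group `G`: `Lf g φ` means that `φ`
is a lift of `g` -/
structure PRep (V : Type*) [AddCommGroup V] [Module ℂ V] (G : Type*) [CommGroup G] where
  p : Seminorm ℂ V
  hp : ∀ v, p v = 0 → v = 0
  Lf : G → End ℂ V → Prop
  ex : ∀ g, ∃ φ, Lf g φ
  one : Lf 1 1
  mul : ∀ {g g' φ φ'}, Lf g φ → Lf g' φ' → Lf (g * g') (φ * φ')
  uniq : ∀ {g φ φ'}, Lf g φ → Lf g φ' → ∃ u : ℂ, ‖u‖ = 1 ∧ φ = u • φ'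
  iso : ∀ {g φ}, Lf g φ → ∀ v, p (φ v) = p v

namespace PRep

variable {V : Type*} [AddCommGroup V] [Module ℂ V] {G : Type*} [CommGroup G] (R : PRep V G)

theorem pow {g : G} {φ : End ℂ V} (h : R.Lf g φ) (m : ℕ) : R.Lf (g ^ m) (φ ^ m) := by
  induction m with
  | zero => simpa using R.one
  | succ m ih => rw [pow_succ, pow_succ]; exact R.mul ih h

/-- the restriction to a subgroup -/
def res (H : Subgroup G) : PRep V H where
  p := R.p
  hp := R.hp
  Lf g φ := R.Lf g φ
  ex g := R.ex g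
  one := R.one
  mul h h' := R.mul h h'
  uniq h h' := R.uniq h h'
  iso h := R.iso h

variable [FiniteDimensional ℂ V]

/-- the powers of the lifts commute -/
theorem exists_basis :
    ∃ b : Basis (Fin (finrank ℂ V)) ℂ V, ∀ g φ,
      g ∈ (powMonoidHom (finrank ℂ V) : G →* G).range → R.Lf g φ →
      ∀ k, ∃ z : ℂ, ‖z‖ = 1 ∧ φ (b k) = z • b k := by
  choose φ hφ using R.ex
  have hinj : ∀ g, Function.Injective (φ g) := by
    intro g
    rw [injective_iff_map_eq_zero]
    intro v hv
    apply R.hp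
    rw [← R.iso (hφ g) v, hv, map_zero]
  set Φ : G → (V ≃ₗ[ℂ] V) := fun g => LinearEquiv.ofInjectiveEndo (φ g) (hinj g) with hΦ
  have hΦv : ∀ g v, Φ g v = φ g v := fun g v => rfl
  have hpow : ∀ g (m : ℕ) v, (Φ g ^ m) v = (φ g ^ m) v := by
    intro g m
    induction m with
    | zero => intro v; rfl
    | succ m ih => intro v; rw [pow_succ, pow_succ, LinearEquiv.mul_apply, ih]; rfl
  have hcomm : ∀ g g' v, (φ g ^ finrank ℂ V) (φ g' v) = φ g' ((φ g ^ finrank ℂ V) v) := by
    intro g g' v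
    have h1 := R.mul (hφ g) (hφ g')
    have h2 := R.mul (hφ g') (hφ g)
    rw [mul_comm g' g] at h2
    obtain ⟨u, _, hu⟩ := R.uniq h1 h2
    have h3 := TorC_522.comm_pow (Φ g) (Φ g') u (fun w => by
      have := congrArg (fun f : End ℂ V => f w) hu
      exact this) v
    rw [hpow] at h3
    rw [← hpow g _ v]
    exact h3
  have hc : ∀ g g', Commute (φ g ^ finrank ℂ V) (φ g' ^ finrank ℂ V) := by
    intro g g'
    have h1 : Commute (φ g ^ finrank ℂ V) (φ g') := LinearMap.ext fun v => hcomm g g' v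
    exact h1.pow_right _
  have hiso : ∀ g v, R.p ((φ g ^ finrank ℂ V) v) = R.p v := fun g v =>
    R.iso (R.pow (hφ g) _) v
  obtain ⟨b, hb⟩ := exists_joint R.p R.hp (fun g => φ g ^ finrank ℂ V) hiso hc
  refine ⟨b, ?_⟩
  rintro _ ψ ⟨g, rfl⟩ hψ k
  have h1 : R.Lf (g ^ finrank ℂ V) (φ g ^ finrank ℂ V) := R.pow (hφ g) _
  obtain ⟨u, hu, hu'⟩ := R.uniq hψ h1
  obtain ⟨z, hz⟩ := hb k g
  have h2 : ψ (b k) = (u * z) • b k := by
    rw [hu', LinearMap.smul_apply, hz, smul_smul]
  refine ⟨u * z, ?_, h2⟩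
  have h3 := R.iso hψ (b k)
  rw [h2, map_smul_eq_mul] at h3
  have h4 : R.p (b k) ≠ 0 := fun h0 => b.ne_zero k (R.hp _ h0)
  exact mul_right_cancel₀ h4 (by rw [h3, one_mul])

/-- ratios of characters, before making them torsion free -/
theorem exists_char (hV : 0 < finrank ℂ V) (b : Basis (Fin (finrank ℂ V)) ℂ V)
    (hb : ∀ g φ, R.Lf g φ → ∀ k, ∃ z : ℂ, ‖z‖ = 1 ∧ φ (b k) = z • b k) :
    ∃ χ : Fin (finrank ℂ V) → (G →* Circle), ∀ g φ, R.Lf g φ →
      ∃ c : ℂ, c ≠ 0 ∧ ∀ k, φ (b k) = (c * χ k g) • b k := by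
  choose φ hφ using R.ex
  have h0 := fun g k => hb g (φ g) (hφ g) k
  choose z hz1 hz using h0
  set k0 : Fin (finrank ℂ V) := ⟨0, hV⟩ with hk0
  have hzne : ∀ g k, z g k ≠ 0 := fun g k h => by
    have := hz1 g k
    rw [h, norm_zero] at this
    exact zero_ne_one this
  have hbs : ∀ k (a c : ℂ), a • b k = c • b k → a = c := fun k a c h =>
    smul_left_injective ℂ (b.ne_zero k) h
  -- uniqueness
  have huni : ∀ g ψ, R.Lf g ψ → ∃ u : ℂ, ‖u‖ = 1 ∧ ∀ k, ψ (b k) = (u * z g k) • b k := by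
    intro g ψ hψ
    obtain ⟨u, hu, hu'⟩ := R.uniq hψ (hφ g)
    refine ⟨u, hu, fun k => ?_⟩
    rw [hu', LinearMap.smul_apply, hz, smul_smul]
  have hone : ∀ k, z 1 k = z 1 k0 := by
    obtain ⟨u, hu, hu'⟩ := huni 1 1 R.one
    have h1 : ∀ k, u * z 1 k = 1 := fun k => (hbs k _ _ (by
      rw [← hu' k, one_smul, Module.End.one_apply]))
    have hune : u ≠ 0 := fun h => by rw [h, norm_zero] at hu; exact zero_ne_one hu
    intro k
    exact mul_left_cancel₀ hune ((h1 k).trans (h1 k0).symm)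
  have hmul : ∀ g g', ∃ u : ℂ, u ≠ 0 ∧ ∀ k, z g k * z g' k = u * z (g * g') k := by
    intro g g'
    obtain ⟨u, hu, hu'⟩ := huni (g * g') _ (R.mul (hφ g) (hφ g'))
    refine ⟨u, fun h => by rw [h, norm_zero] at hu; exact zero_ne_one hu, fun k => ?_⟩
    apply hbs k
    rw [← hu' k, Module.End.mul_apply, hz, map_smul, hz, smul_smul, mul_comm]
  set χ : Fin (finrank ℂ V) → (G →* Circle) := fun k =>
    { toFun := fun g => ⟨z g k / z g k0, by
        rw [Submonoid.unitSphere, Submonoid.mem_mk, Subsemigroup.mem_mk, mem_sphere_zero_iff_norm, norm_div, hz1, hz1, div_one]⟩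
      map_one' := by
        apply Circle.ext
        show z 1 k / z 1 k0 = 1
        rw [hone k, div_self (hzne _ _)]
      map_mul' := by
        intro g g'
        apply Circle.ext
        show z (g * g') k / z (g * g') k0 = (z g k / z g k0) * (z g' k / z g' k0)
        obtain ⟨u, hu, hu'⟩ := hmul g g'
        rw [div_mul_div_comm, hu' k, hu' k0, mul_div_mul_left _ _ hu] } with hχ
  refine ⟨χ, fun g ψ hψ => ?_⟩
  obtain ⟨u, hu, hu'⟩ := huni g ψ hψ
  refine ⟨u * z g k0, mul_ne_zero (fun h => by rw [h, norm_zero] at hu; exact zero_ne_one hu)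
    (hzne _ _), fun k => ?_⟩
  rw [hu' k]
  congr 1
  show u * z g k = u * z g k0 * (z g k / z g k0)
  field_simp [hzne g k0]

end PRep

/-- the exponent of the torsion of a finitely generated group of characters -/
theorem exists_exp {G : Type*} [CommGroup G] (W : Subgroup (G →* Circle)) (hfg : W.FG) :
    ∃ M : ℕ, 0 < M ∧ ∀ w ∈ W, ∀ m : ℕ, m ≠ 0 → (w ^ M) ^ m = 1 → w ^ M = 1 := by
  have h1 : (Subgroup.toAddSubgroup W).FG := (Subgroup.fg_iff_add_fg W).1 hfg
  have h2 : (AddSubgroup.toIntSubmodule (Subgroup.toAddSubgroup W)).FG := by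
    rw [Submodule.fg_iff_addSubgroup_fg, AddSubgroup.toIntSubmodule_toAddSubgroup]
    exact h1
  obtain ⟨M, hM, h⟩ := TorG_522.exists_pow_torsionFree _ h2
  refine ⟨M, hM, fun w hw m hm hwm => ?_⟩
  have h3 := h (Additive.ofMul w) hw (m : ℤ) (by exact_mod_cast hm) (by
    rw [natCast_zsmul]
    exact congrArg Additive.ofMul hwm)
  exact h3

/-- the subgroup of `N`-th powers has finite index -/
theorem finiteIndex_range_pow (G : Type*) [CommGroup G] [Group.FG G] {N : ℕ} (hN : 0 < N) :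
    ((powMonoidHom N : G →* G).range).FiniteIndex := by
  have h1 : IsMulTorsion (G ⧸ (powMonoidHom N : G →* G).range) := by
    intro q
    obtain ⟨g, rfl⟩ := QuotientGroup.mk_surjective q
    rw [isOfFinOrder_iff_pow_eq_one]
    refine ⟨N, hN, ?_⟩
    rw [← QuotientGroup.mk_pow, QuotientGroup.eq_one_iff]
    exact ⟨g, rfl⟩
  have h2 : Finite (G ⧸ (powMonoidHom N : G →* G).range) :=
    CommGroup.finite_of_fg_isMulTorsion _ h1
  exact Subgroup.finiteIndex_of_finite_quotient

/-- **T1, algebra**: a projective isometric representation of a finitely generated abelian group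
is diagonal on the subgroup of `N`-th powers, with a torsion free group of ratios -/
theorem PRep.main {V : Type*} [AddCommGroup V] [Module ℂ V] {G : Type*} [CommGroup G]
    (R : PRep V G) [FiniteDimensional ℂ V] (hV : 0 < finrank ℂ V) :
    ∃ N : ℕ, 0 < N ∧ ∃ (b : Basis (Fin (finrank ℂ V)) ℂ V)
      (χ : Fin (finrank ℂ V) → ((powMonoidHom N : G →* G).range →* Circle)),
      (∀ (γ : (powMonoidHom N : G →* G).range) φ, R.Lf γ φ →
        ∃ c : ℂ, c ≠ 0 ∧ ∀ k, φ (b k) = (c * χ k γ) • b k) ∧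
      (∀ w ∈ Subgroup.closure {w : (powMonoidHom N : G →* G).range →* Circle |
        ∃ k l, w = χ k / χ l}, ∀ m : ℕ, m ≠ 0 → w ^ m = 1 → w = 1) := by
  classical
  have hB := R.exists_basis
  obtain ⟨b, hb⟩ := hB
  set H0 : Subgroup G := (powMonoidHom (finrank ℂ V) : G →* G).range with hH0
  obtain ⟨χ0, hχ0⟩ := (R.res H0).exists_char hV b (fun g φ hφ k => hb g φ g.2 hφ k)
  set S0 : Set (H0 →* Circle) := {w | ∃ k l, w = χ0 k / χ0 l} with hS0
  have hS0f : S0.Finite := by
    refine (Set.finite_range fun q : Fin (finrank ℂ V) × Fin (finrank ℂ V) => χ0 q.1 / χ0 q.2).subset ?_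
    rintro _ ⟨k, l, rfl⟩
    exact ⟨(k, l), rfl⟩
  have hfg : (Subgroup.closure S0).FG := by
    rw [Subgroup.fg_iff]
    exact ⟨S0, rfl, hS0f⟩
  obtain ⟨M0, hM0, hM⟩ := exists_exp _ hfg
  have hle : (powMonoidHom (finrank ℂ V * M0) : G →* G).range ≤ H0 := by
    rintro _ ⟨g, rfl⟩
    exact ⟨g ^ M0, by
      show (g ^ M0) ^ finrank ℂ V = g ^ (finrank ℂ V * M0)
      rw [← pow_mul, mul_comm]⟩
  set H : Subgroup G := (powMonoidHom (finrank ℂ V * M0) : G →* G).range with hH
  set r : (H0 →* Circle) →* (H →* Circle) :=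
    { toFun := fun w => w.comp (Subgroup.inclusion hle)
      map_one' := rfl
      map_mul' := fun _ _ => rfl } with hr
  refine ⟨finrank ℂ V * M0, Nat.mul_pos hV hM0, b, fun k => r (χ0 k), ?_, ?_⟩
  · intro γ φ hφ
    exact hχ0 (Subgroup.inclusion hle γ) φ hφ
  · intro w hw m hm hwm
    have hmap : w ∈ (Subgroup.closure S0).map r := by
      rw [MonoidHom.map_closure]
      refine Subgroup.closure_mono ?_ hw
      rintro _ ⟨k, l, rfl⟩
      exact ⟨χ0 k / χ0 l, ⟨k, l, rfl⟩, by rw [map_div]⟩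
    obtain ⟨w0, hw0, rfl⟩ := hmap
    -- `w0 ^ M0` is torsion
    have h1 : (w0 ^ M0) ^ m = 1 := by
      ext γ
      obtain ⟨g, hg⟩ := γ.2
      have hmem : γ.1 ^ M0 ∈ H := ⟨g, by
        rw [← hg]
        show g ^ (finrank ℂ V * M0) = (g ^ finrank ℂ V) ^ M0
        rw [pow_mul]⟩
      have h2 : ((r w0) ^ m) ⟨γ.1 ^ M0, hmem⟩ = 1 := by rw [hwm]; rfl
      have h3 : ((r w0) ^ m) ⟨γ.1 ^ M0, hmem⟩ = (w0 (γ ^ M0)) ^ m := rfl
      rw [h3, map_pow] at h2
      have h4 : ((w0 ^ M0) ^ m) γ = ((w0 γ) ^ M0) ^ m := rfl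
      rw [h4, h2]
      rfl
    have h2 := hM w0 hw0 m hm h1
    ext γ
    obtain ⟨g, hg⟩ := γ.2
    have h3 : (w0 ^ M0) ⟨g ^ finrank ℂ V, ⟨g, rfl⟩⟩ = 1 := by rw [h2]; rfl
    have h4 : (r w0) γ = (w0 ^ M0) ⟨g ^ finrank ℂ V, ⟨g, rfl⟩⟩ := by
      show w0 (Subgroup.inclusion hle γ) = (w0 ⟨g ^ finrank ℂ V, ⟨g, rfl⟩⟩) ^ M0
      rw [← map_pow]
      congr 1
      apply Subtype.ext
      show γ.1 = (g ^ finrank ℂ V) ^ M0
      rw [← hg, ← pow_mul]
      rfl
    rw [h4, h3]
    rfl

end

end Crest.Agent.R273.LiftA_522
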