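import Crest.Agent.R273.LiftA_522
import Crest.Agent.R273.PCovA_835
import Crest.Agent.R273.FlatSec_534
import Crest.Agent.R273.Kah_333

/-!
# R273 (S0416), torus step BP-T, T1 (helper522): unitary lifts to a hermitian line bundle

* `cur_pull`  : curvature of a pull-back metric (any dimensions);
* `UL h g`    : unitary lift of `g : M → M` to `(L, h)`;
* `exists_ul` : existence, `M` simply connected, `g` preserving the curvature;
* `IsLift`    : the operators on `H⁰(M, L)`.
-/

set_option autoImplicit false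
set_option linter.unusedSectionVars false

open Set Filter Topology Complex
open scoped ContDiff Matrix ComplexConjugate

namespace Crest.Agent.R273.LiftB_522

open Crest.Agent.R275.Geo Crest.Agent.R275.Core144 Crest.Agent.R273.Defs_333
  Crest.Agent.R273.Hess_333 Crest.Agent.R273.HM_333 Crest.Agent.R273.Kah_333
  Crest.Agent.R273.Map_835 Crest.Agent.R273.PB_835 Crest.Agent.R273.PCovA_835
  Crest.Agent.R275.GC293

noncomputable section

variable {n m : ℕ} {M N : Type} [TopologicalSpace M] [TopologicalSpace N] {A : Atl n M}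
  {B : Atl m N} {p : M → N}

/-! ### curvature of a pull-back -/

/-- polarisation -/
theorem eq_of_quad {k : ℕ} {X Y : Matrix (Fin k) (Fin k) ℂ}
    (h : ∀ v : Fin k → ℂ, ∑ a, ∑ b, X a b * v a * conj (v b) =
      ∑ a, ∑ b, Y a b * v a * conj (v b)) : X = Y := by
  set D : Matrix (Fin k) (Fin k) ℂ := X - Y with hD
  set Bf : (Fin k → ℂ) → (Fin k → ℂ) → ℂ := fun v w => ∑ a, ∑ b, D a b * v a * conj (w b) with hBf
  have h0 : ∀ v, Bf v v = 0 := by
    intro v
    have h1 := h v
    rw [← sub_eq_zero, ← Finset.sum_sub_distrib] at h1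
    rw [hBf, ← h1]
    refine Finset.sum_congr rfl fun a _ => ?_
    rw [← Finset.sum_sub_distrib]
    refine Finset.sum_congr rfl fun b _ => ?_
    rw [hD, Matrix.sub_apply]; ring
  have hadd : ∀ v w, Bf (v + w) (v + w) = Bf v v + Bf v w + Bf w v + Bf w w := by
    intro v w
    simp only [hBf, ← Finset.sum_add_distrib]
    refine Finset.sum_congr rfl fun a _ => Finset.sum_congr rfl fun b _ => ?_
    rw [Pi.add_apply, Pi.add_apply, map_add]; ring
  have hI1 : ∀ v w, Bf v (I • w) = -I * Bf v w := by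
    intro v w
    simp only [hBf, Finset.mul_sum]
    refine Finset.sum_congr rfl fun a _ => Finset.sum_congr rfl fun b _ => ?_
    rw [Pi.smul_apply, smul_eq_mul, map_mul, conj_I]; ring
  have hI2 : ∀ v w, Bf (I • v) w = I * Bf v w := by
    intro v w
    simp only [hBf, Finset.mul_sum]
    refine Finset.sum_congr rfl fun a _ => Finset.sum_congr rfl fun b _ => ?_
    rw [Pi.smul_apply, smul_eq_mul]; ring
  have hB0 : ∀ v w, Bf v w = 0 := by
    intro v w
    have h1 := hadd v w
    have h2 := hadd v (I • w)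
    rw [hI1, hI2, h0, h0, h0] at h2
    rw [h0, h0, h0] at h1
    have h3 : Bf v w + Bf w v = 0 := by linear_combination -h1
    have h4 : Bf v w - Bf w v = 0 := by linear_combination (-I) * h2 + (Bf v w - Bf w v) * I_sq
    linear_combination (h3 + h4) / 2
  have hD0 : D = 0 := by
    ext a b
    have h1 := hB0 (Pi.single a 1) (Pi.single b 1)
    simp only [hBf] at h1
    rw [Finset.sum_eq_single a, Finset.sum_eq_single b] at h1
    · simpa using h1
    · intro c _ hc
      simp [hc]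
    · simp
    · intro c _ hc
      refine Finset.sum_eq_zero fun d _ => ?_
      simp [hc]
    · simp
  exact sub_eq_zero.1 hD0

theorem sum4 {α β : Type*} [Fintype α] [Fintype β] (f : α → α → β → β → ℂ) :
    ∑ c, ∑ d, ∑ b, ∑ a, f c d b a = ∑ a, ∑ b, ∑ d, ∑ c, f c d b a := by
  calc ∑ c, ∑ d, ∑ b, ∑ a, f c d b a
      = ∑ c, ∑ d, ∑ a, ∑ b, f c d b a :=
        Finset.sum_congr rfl fun c _ => Finset.sum_congr rfl fun d _ => Finset.sum_comm
    _ = ∑ c, ∑ a, ∑ d, ∑ b, f c d b a := Finset.sum_congr rfl fun c _ => Finset.sum_comm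
    _ = ∑ a, ∑ c, ∑ d, ∑ b, f c d b a := Finset.sum_comm
    _ = ∑ a, ∑ c, ∑ b, ∑ d, f c d b a :=
        Finset.sum_congr rfl fun a _ => Finset.sum_congr rfl fun c _ => Finset.sum_comm
    _ = ∑ a, ∑ b, ∑ c, ∑ d, f c d b a := Finset.sum_congr rfl fun a _ => Finset.sum_comm
    _ = ∑ a, ∑ b, ∑ d, ∑ c, f c d b a :=
        Finset.sum_congr rfl fun a _ => Finset.sum_congr rfl fun b _ => Finset.sum_comm

/-- curvature of a pull-back metric -/
theorem cur_pull {L' : LB A} {L : LB B} (T : PB p L' L) (hp : HolMap A B p) (h : HM L)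
    {i : A.ι} {j : B.ι} {x : M} (hx : x ∈ (A.e i).source) (hj : p x ∈ (B.e j).source) :
    cur (T.pullHM hp h) i x =
      (Jp A B p i j x)ᵀ * cur h j (p x) * (Jp A B p i j x).map conj := by
  have hz : A.e i x ∈ dm A B p i j := mem_dm hx hj
  have hpx : rd A B p i j (A.e i x) = B.e j (p x) := by
    simp only [rd]
    rw [(A.e i).left_inv hx]
  refine eq_of_quad fun v => ?_
  have h1 := T.pullHM_lev hp h hz (WithLp.toLp 2 v)
  have h2 := lev_eq (wt_contDiffAt (T.pullHM hp h) i ((A.e i).map_source hx)) (WithLp.toLp 2 v)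
  have h3 := lev_eq (u := h.wt j) (z := rd A B p i j (A.e i x))
    (by rw [hpx]; exact wt_contDiffAt h j ((B.e j).map_source hj))
    (fderiv ℂ (rd A B p i j) (A.e i x) (WithLp.toLp 2 v))
  rw [h1, h3, hpx] at h2
  have h4 := mul_left_cancel₀ (by norm_num : (4 : ℂ) ≠ 0) h2
  simp only [hq] at h4
  have h5 : ∀ c, (fderiv ℂ (rd A B p i j) (A.e i x) (WithLp.toLp 2 v)) c =
      ∑ a, Jp A B p i j x c a * v a := fun c => mt_apply _ _ c
  rw [show cur (T.pullHM hp h) i x = hess ((T.pullHM hp h).wt i) (A.e i x) from rfl]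
  refine h4.symm.trans ?_
  simp only [h5, map_sum, map_mul, Matrix.mul_apply, Matrix.transpose_apply, Matrix.map_apply,
    Finset.sum_mul, Finset.mul_sum]
  rw [sum4]
  refine Finset.sum_congr rfl fun a _ => Finset.sum_congr rfl fun b _ =>
    Finset.sum_congr rfl fun d _ => Finset.sum_congr rfl fun c _ => ?_
  rw [show cur h j (p x) c d = hess (h.wt j) (B.e j (p x)) c d from rfl]
  ring

/-! ### unitary lifts -/

variable {L : LB A}

/-- unitary lift of `g : M → M` to the hermitian line bundle `(L, h)` -/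
structure UL (h : HM L) (g : M → M) where
  T : PB (A := A) (B := A) g L L
  unit : ∀ i j, ∀ x ∈ (A.e i).source, g x ∈ (A.e j).source →
    ‖T.c i j x‖ ^ 2 * h.w i x = h.w j (g x)

/-- the identity -/
def UL.refl (h : HM L) : UL h id where
  T := PB.refl L
  unit i j x hx hj := by
    show ‖L.g i j x‖ ^ 2 * h.w i x = h.w j x
    exact (h.tr i j x ⟨hx, hj⟩).symm

/-- composition -/
def UL.comp {h : HM L} {g g' : M → M} (hg : HolMap A A g) (hg' : HolMap A A g') (T : UL h g)
    (S : UL h g') : UL h (fun x => g' (g x)) where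
  T := PB.comp hg hg' T.T S.T
  unit i l x hx hl := by
    obtain ⟨j, hj⟩ := A.cover (g x)
    rw [PB.comp_c hg hg' T.T S.T hx hj hl, norm_mul, mul_pow, ← S.unit j l (g x) hj hl,
      ← T.unit i j x hx hj]
    ring

/-- unitary lifts are unique up to a constant -/
theorem UL.uniq [PreconnectedSpace M] [Nonempty M] {h : HM L} {g : M → M}
    (hg : HolMap A A g) (T T' : UL h g) :
    ∃ u : ℂ, ‖u‖ = 1 ∧ ∀ i j, ∀ x ∈ (A.e i).source, g x ∈ (A.e j).source →
      T.T.c i j x = u * T'.T.c i j x := by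
  set r : M → ℂ := fun x => T.T.c (PB.ch A x) (PB.ch A (g x)) x /
    T'.T.c (PB.ch A x) (PB.ch A (g x)) x with hr
  have hri : ∀ i j, ∀ x ∈ (A.e i).source, g x ∈ (A.e j).source →
      r x = T.T.c i j x / T'.T.c i j x := by
    intro i j x hx hj
    have hx' := PB.ch_mem A x
    have hj' := PB.ch_mem A (g x)
    rw [hr]
    simp only
    rw [← T.T.left (PB.ch A x) i _ x ⟨hx', hx⟩ hj', ← T'.T.left (PB.ch A x) i _ x ⟨hx', hx⟩ hj',
      mul_div_mul_left _ _ (L.ne_zero _ _ _), ← T.T.right i j (PB.ch A (g x)) x hx ⟨hj, hj'⟩,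
      ← T'.T.right i j (PB.ch A (g x)) x hx ⟨hj, hj'⟩, mul_div_mul_right _ _ (L.ne_zero _ _ _)]
  have hnn : ∀ i j, ∀ x ∈ (A.e i).source, g x ∈ (A.e j).source →
      ‖T.T.c i j x / T'.T.c i j x‖ = 1 := by
    intro i j x hx hj
    have e1 := T.unit i j x hx hj
    have e2 := T'.unit i j x hx hj
    have e3 := h.pos i x hx
    have e4 : ‖T.T.c i j x‖ ^ 2 = ‖T'.T.c i j x‖ ^ 2 :=
      mul_right_cancel₀ e3.ne' (e1.trans e2.symm)
    have e5 : ‖T.T.c i j x‖ = ‖T'.T.c i j x‖ := (sq_eq_sq₀ (norm_nonneg _) (norm_nonneg _)).1 e4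
    rw [norm_div, e5, div_self (norm_ne_zero_iff.2 (T'.T.ne i j x hx hj))]
  have hloc : IsLocallyConstant r := by
    rw [IsLocallyConstant.iff_eventually_eq]
    intro x
    obtain ⟨i, hi⟩ := A.cover x
    obtain ⟨j, hj⟩ := A.cover (g x)
    have hzd : A.e i x ∈ dm A A g i j := mem_dm hi hj
    obtain ⟨ρ, hρ, hb⟩ := Metric.isOpen_iff.1 (hg.isOpen_dm i j) _ hzd
    have ho : IsOpen (g ⁻¹' (A.e j).source) := (A.e j).open_source.preimage hg.cont
    have hd : DifferentiableOn ℂ (fun z => r ((A.e i).symm z)) (Metric.ball (A.e i x) ρ) := by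
      have h3 : HolAt A i (g ⁻¹' (A.e j).source) (fun x => T.T.c i j x * (T'.T.c i j x)⁻¹) :=
        (T.T.hol i j).mul ((T'.T.hol i j).inv fun x hx hj => T'.T.ne i j x hx hj)
      refine DifferentiableOn.congr (f := fun z => T.T.c i j ((A.e i).symm z) *
        (T'.T.c i j ((A.e i).symm z))⁻¹) (DifferentiableOn.mono h3 fun z hz => ?_) fun z hz => ?_
      · exact hb hz
      · rw [hri i j _ ((A.e i).map_target (hb hz).1) (hb hz).2, div_eq_mul_inv]
    have h4 : ∀ z ∈ Metric.ball (A.e i x) ρ, ‖r ((A.e i).symm z)‖ = 1 := by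
      intro z hz
      rw [hri i j _ ((A.e i).map_target (hb hz).1) (hb hz).2]
      exact hnn i j _ ((A.e i).map_target (hb hz).1) (hb hz).2
    have h2 : ∀ᶠ y in 𝓝 x, A.e i y ∈ Metric.ball (A.e i x) ρ :=
      ((A.e i).continuousAt hi).eventually (Metric.ball_mem_nhds _ hρ)
    filter_upwards [h2, (A.e i).open_source.mem_nhds hi] with y hy hy'
    have h5 := FlatSec_534.const_of_norm Metric.isOpen_ball (convex_ball _ _).isPreconnected hd h4
      hy (Metric.mem_ball_self hρ)
    simpa only [(A.e i).left_inv hy', (A.e i).left_inv hi] using h5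
  obtain ⟨x0⟩ := ‹Nonempty M›
  refine ⟨r x0, ?_, ?_⟩
  · rw [hri _ _ x0 (PB.ch_mem A x0) (PB.ch_mem A (g x0))]
    exact hnn _ _ x0 (PB.ch_mem A x0) (PB.ch_mem A (g x0))
  · intro i j x hx hj
    have h3 : r x = r x0 :=
      hloc.apply_eq_of_isPreconnected isPreconnected_univ (mem_univ x) (mem_univ x0)
    rw [hri i j x hx hj] at h3
    rw [← h3, div_mul_cancel₀ _ (T'.T.ne i j x hx hj)]

/-- inverse of the identification `(L on the refined atlas)`  -/
def refInv {A' : Atl n M} (hid : HolMap A' A id) (R0 : Ref A' A id) (L : LB A) :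
    PB (A := A) (B := A') id L (pullLB hid R0 L) where
  c i j x := L.g i (R0.r j) x
  hol i j := by
    have h1 : HolAt A i (A.e (R0.r j)).source (L.g i (R0.r j)) := L.hol i (R0.r j)
    exact h1.mono fun x hx => R0.sub j x hx
  ne i j x _ _ := L.ne_zero _ _ _
  left i i' j x hx hj := L.mul i i' (R0.r j) x ⟨hx, R0.sub j x hj⟩
  right i j j' x hx hj := by
    have h1 : (pullLB hid R0 L).g j j' (id x) = L.g (R0.r j) (R0.r j') x :=
      pullLB_g hid R0 L hj
    rw [h1]
    exact L.mul i _ _ x ⟨⟨hx, R0.sub j x hj.1⟩, R0.sub j' x hj.2⟩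

/-- **existence of unitary lifts** -/
theorem exists_ul [CompactSpace M] [T2Space M] [SimplyConnectedSpace M] (h : HM L) {g : M → M}
    (hg : HolMap A A g) (hcur : ∀ i j, ∀ x ∈ (A.e i).source, g x ∈ (A.e j).source →
      cur h i x = (Jp A A g i j x)ᵀ * cur h j (g x) * (Jp A A g i j x).map conj) :
    Nonempty (UL h g) := by
  obtain ⟨A', -, hgood, -, ⟨R0⟩, ⟨R1⟩, hl, hl'⟩ := exists_refMap A hg
  have hid : HolMap A' A id := hl.toHolMap
  have hid' : HolMap A A' id := hl'.toHolMap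
  have hg' : HolMap A' A g := hg.comp hid
  set T1 := PB.ref hg' R1 L with hT1
  set T0 := PB.ref hid R0 L with hT0
  set h1 := T1.pullHM hg' h with hh1
  set h0 := T0.pullHM hid h with hh0
  have hflat : ∀ i, ∀ x ∈ (A'.e i).source, cur (mul (inv h1) h0) i x = 0 := by
    intro i x hx
    rw [cur_mul _ _ i hx, cur_inv _ i hx]
    obtain ⟨k, hk⟩ := A.cover x
    obtain ⟨j, hj⟩ := A.cover (g x)
    rw [hh1, hh0, cur_pull T1 hg' h hx hj, cur_pull T0 hid h hx (j := k) hk]
    have e1 : Jp A' A g i j x = Jp A A g k j x * Jp A' A id i k x :=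
      (Jp_comp (p := id) hg hid (j := k) hx hk hj).symm
    have e2 : (Jp A A g k j x * Jp A' A id i k x).map conj =
        (Jp A A g k j x).map conj * (Jp A' A id i k x).map conj :=
      Matrix.map_mul (f := (starRingEnd ℂ))
    rw [e1, e2, show cur h k (id x) = cur h k x from rfl, hcur k j x hk hj, Matrix.transpose_mul]
    simp only [Matrix.mul_assoc]
    exact neg_add_cancel _
  obtain ⟨σ, hσ, hσ1⟩ := FlatSec_534.flatSec hgood (mul (inv h1) h0) hflat
  have hσne : ∀ i, ∀ x ∈ (A'.e i).source, σ i x ≠ 0 := by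
    intro i x hx h0
    have := hσ1 i x hx
    rw [h0, norm_zero] at this
    norm_num at this
  let S : PB (A := A') (B := A) g (pullLB hid R0 L) L :=
    { c := fun i j x => σ i x * T1.c i j x
      hol := fun i j => ((hσ.hol i).mono (subset_univ _)).mul (T1.hol i j)
      ne := fun i j x hx hj => mul_ne_zero (hσne i x hx) (T1.ne i j x hx hj)
      left := by
        intro i i' j x hx hj
        have e1 := hσ.tr i i' x hx (mem_univ x)
        rw [e1, ← T1.left i i' j x hx hj, LB.mul_g, LB.inv_g]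
        have e2 := (pullLB hg' R1 L).ne_zero i i' x
        field_simp
      right := by
        intro i j j' x hx hj
        rw [mul_assoc, T1.right i j j' x hx hj] }
  let T : PB (A := A) (B := A) g L L := PB.comp hid' hg' (refInv hid R0 L) S
  refine ⟨⟨T, ?_⟩⟩
  intro i l x hx hl
  obtain ⟨i', hi'⟩ := A'.cover x
  set k := R0.r i' with hk
  have hkx : x ∈ (A.e k).source := R0.sub i' x hi'
  have hc : T.c i l x = L.g i k x * (σ i' x * T1.c i' l x) :=
    PB.comp_c hid' hg' (refInv hid R0 L) S hx (j := i') hi' hl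
  rw [hc, norm_mul, norm_mul, mul_pow, mul_pow]
  have e1 : h.w k x = ‖L.g i k x‖ ^ 2 * h.w i x := h.tr i k x ⟨hx, hkx⟩
  have e2 : h1.w i' x = h.w l (g x) / ‖T1.c i' l x‖ ^ 2 := T1.pullHM_w hg' h hi' hl
  have e3 : h0.w i' x = h.w k x / ‖T0.c i' k x‖ ^ 2 := T0.pullHM_w hid h hi' hkx
  have e4 : T0.c i' k x = 1 := L.self _ _
  have e5 : (h1.w i' x)⁻¹ * h0.w i' x * ‖σ i' x‖ ^ 2 = 1 := hσ1 i' x hi'
  have e6 := h1.pos i' x hi'
  have e7 := T1.ne i' l x hi' hl
  have e8 : 0 < ‖T1.c i' l x‖ := norm_pos_iff.2 e7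
  rw [e4, norm_one, one_pow, div_one] at e3
  rw [e3] at e5
  have e9 : h.w k x * ‖σ i' x‖ ^ 2 = h1.w i' x := by
    field_simp at e5
    linarith
  calc ‖L.g i k x‖ ^ 2 * (‖σ i' x‖ ^ 2 * ‖T1.c i' l x‖ ^ 2) * h.w i x
      = (h.w k x * ‖σ i' x‖ ^ 2) * ‖T1.c i' l x‖ ^ 2 := by rw [e1]; ring
    _ = h.w l (g x) := by
      rw [e9, e2]
      field_simp

end

end Crest.Agent.R273.LiftB_522
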