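import Crest.Agent.R273.B0_505
import Crest.Agent.R273.BKNe_37

/-!
# R273, D.13 (helper505): dictionary, part 2

`up : MV N →ₗ Sec (B0 N)` (degree zero sections of `B0 N`), `dwn`; the densities of 37 and 733 as
`HDen` densities of `low v`, `up v`, `∇ (low v)`, `∇ (up v)`.
-/

set_option autoImplicit false
set_option linter.unusedSectionVars false

open Set Filter Topology Complex
open scoped ContDiff Matrix ComplexConjugate Kronecker ComplexOrder

namespace Crest.Agent.R273.Lim_505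

open Crest.Agent.R275 Crest.Agent.R275.Geo Crest.Agent.R275.Core144
open Crest.Agent.R273.Defs_333 Crest.Agent.R273.HM_333 Crest.Agent.R273.Kah_333
open Crest.Agent.R273.Fock_243 Crest.Agent.R273.Calc_243 Crest.Agent.R273.Bkn_243
open Crest.Agent.R273.Pos_243
open Crest.Agent.R273.LamN127 Crest.Agent.R273.NormC_505 Crest.Agent.R273.DnInt_505
open Crest.Agent.R273.DVec_733 Crest.Agent.R273.DMet_733 Crest.Agent.R273.DMetB_733
open Crest.Agent.R273.StV_37 Crest.Agent.R273.BKNa_37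
open Crest.Agent.R273.BKNb_37 Crest.Agent.R273.BKNc_37 Crest.Agent.R273.BKNd_37
open Crest.Agent.R273.BKNe_37
open Crest.Agent.R273.HDN_505 (EV B0 B0_α Kl Ku HB HB_pos H0 H0_pos HC HTm HTm_form HT)
open Crest.Agent.R273.B0_505 (IsPV ofV vec un0 ofV_mem vec_ofV ofV_vec pqL_ofV isPV_vec)

noncomputable section

variable {n : ℕ} {M : Type} [TopologicalSpace M] {A : Atl n M} {N : LB A}

/-! ### `MV N` and degree zero sections of `B0 N` -/

theorem isPV (v : MV N) : IsPV N v.1 where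
  sm := v.2.1
  off := v.2.2.1
  tr i j x hx := by
    rw [v.2.2.2 i j x hx]
    unfold Tv
    rw [Matrix.smul_mulVec]
    rfl

theorem ofV_add (v w : A.ι → M → FI n → ℂ) (i : A.ι) (x : M) :
    ofV (v + w) i x = ofV v i x + ofV w i x := by
  funext p
  show (if p.1 = ∅ then (v + w) i x p.2 else 0) = (if p.1 = ∅ then v i x p.2 else 0) +
    (if p.1 = ∅ then w i x p.2 else 0)
  split_ifs
  · rfl
  · rw [add_zero]

theorem ofV_smul (c : ℂ) (v : A.ι → M → FI n → ℂ) (i : A.ι) (x : M) :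
    ofV (c • v) i x = c • ofV v i x := by
  funext p
  show (if p.1 = ∅ then (c • v) i x p.2 else 0) = c * (if p.1 = ∅ then v i x p.2 else 0)
  split_ifs
  · rfl
  · rw [mul_zero]

/-- polyvectors as degree zero sections of `B0 N` -/
def up (N : LB A) : MV N →ₗ[ℂ] Sec (B0 N) where
  toFun v := ⟨ofV v.1, ofV_mem (isPV v)⟩
  map_add' v w := Subtype.ext (by
    funext i x
    exact ofV_add v.1 w.1 i x)
  map_smul' c v := Subtype.ext (by
    funext i x
    exact ofV_smul c v.1 i x)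

theorem up_apply (v : MV N) (i : A.ι) (x : M) : (up N v).1 i x = ofV v.1 i x := rfl

theorem pqL_up (v : MV N) : Geo.pqL (B0 N) 0 (up N v) = up N v := pqL_ofV (isPV v)

theorem vec_mem (w : Sec (B0 N)) : vec (un0 w) ∈ MV N :=
  ⟨(isPV_vec w).sm, (isPV_vec w).off, fun i j x hx => by
    rw [(isPV_vec w).tr i j x hx]
    unfold Tv
    rw [Matrix.smul_mulVec]
    rfl⟩

/-- back -/
def dwn (w : Sec (B0 N)) : MV N := ⟨vec (un0 w), vec_mem w⟩

theorem up_dwn {w : Sec (B0 N)} (hw : Geo.pqL (B0 N) 0 w = w) : up N (dwn w) = w :=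
  Subtype.ext (ofV_vec hw)

/-! ### pure tensors -/

/-- pure tensors -/
def tp (a p : FI n → ℂ) : FI n × FI n → ℂ := fun q => a q.1 * p q.2

theorem kron_tp (X Y : Matrix (FI n) (FI n) ℂ) (a p : FI n → ℂ) :
    (X ⊗ₖ Y) *ᵥ tp a p = tp (X *ᵥ a) (Y *ᵥ p) := by
  funext ⟨S, T⟩
  rw [B0_505.kron_mulVec]
  show ∑ S', X S S' * (Y *ᵥ fun T' => a S' * p T') T = (X *ᵥ a) S * (Y *ᵥ p) T
  have h1 : ∀ S', (Y *ᵥ fun T' => a S' * p T') T = a S' * (Y *ᵥ p) T := by
    intro S'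
    have h2 : (fun T' => a S' * p T') = a S' • p := rfl
    rw [h2, Matrix.mulVec_smul]
    rfl
  simp only [h1]
  show _ = (∑ S', X S S' * a S') * _
  rw [Finset.sum_mul]
  exact Finset.sum_congr rfl fun S' _ => by ring

theorem dot_tp (a p b r : FI n → ℂ) : tp a p ⬝ᵥ tp b r = (a ⬝ᵥ b) * (p ⬝ᵥ r) := by
  show ∑ q : FI n × FI n, (a q.1 * p q.2) * (b q.1 * r q.2) = (∑ S, a S * b S) * ∑ T, p T * r T
  rw [Fintype.sum_prod_type, Finset.sum_mul_sum]
  exact Finset.sum_congr rfl fun S _ => Finset.sum_congr rfl fun T _ => by ring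

theorem star_tp (a p : FI n → ℂ) : star (tp a p) = tp (star a) (star p) := by
  funext q
  show conj (a q.1 * p q.2) = conj (a q.1) * conj (p q.2)
  rw [map_mul]

theorem form_tp (X Y : Matrix (FI n) (FI n) ℂ) (a p b r : FI n → ℂ) :
    star (tp a p) ⬝ᵥ ((X ⊗ₖ Y) *ᵥ tp b r) =
      (star a ⬝ᵥ (X *ᵥ b)) * (star p ⬝ᵥ (Y *ᵥ r)) := by
  rw [kron_tp, star_tp, dot_tp]

theorem ofV_tp (v : A.ι → M → FI n → ℂ) (i : A.ι) (x : M) :
    ofV v i x = tp (Pi.single ∅ 1) (v i x) := by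
  funext ⟨S, T⟩
  show (if S = ∅ then v i x T else 0) = (Pi.single (∅ : FI n) (1 : ℂ) : FI n → ℂ) S * v i x T
  by_cases h : S = ∅
  · subst h; simp
  · simp [h]

theorem eW_vac (a : Fin n) :
    (eW (ep a) : Matrix (FI n) (FI n) ℂ) *ᵥ Pi.single ∅ 1 = Pi.single {a} 1 := by
  rw [eW_single (by simp)]
  rfl

theorem Gam_single (m : Matrix (Fin n) (Fin n) ℂ) (a b : Fin n) :
    Gam m {a} {b} = m a b := by
  rw [Gam_eq m (k := 1) (Finset.card_singleton a) (Finset.card_singleton b),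
    Matrix.det_fin_one, Matrix.submatrix_apply, Finset.orderEmbOfFin_singleton,
    Finset.orderEmbOfFin_singleton]

theorem star_single' (S : FI n) : star (Pi.single S (1 : ℂ) : FI n → ℂ) = Pi.single S 1 := by
  ext a
  by_cases ha : a = S
  · subst ha; simp
  · simp [ha]

theorem form_single (X : Matrix (FI n) (FI n) ℂ) (S T : FI n) :
    star (Pi.single S (1 : ℂ) : FI n → ℂ) ⬝ᵥ (X *ᵥ Pi.single T 1) = X S T := by
  rw [star_single', Matrix.mulVec_single_one, single_one_dotProduct, Matrix.col_apply]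

/-! ### the operator `∇` on `up v` -/

theorem db_ofV {v : A.ι → M → FI n → ℂ} (hv : ∀ i T, A.SmAt i (fun x => v i x T)) {i : A.ι}
    {x : M} (hx : x ∈ (A.e i).source) (a : Fin n) :
    A.db i a (ofV v i) x = tp (Pi.single ∅ 1) (dbV v i a x) := by
  have hs : ∀ q : FI n × FI n, A.SmAt i (fun x => ofV v i x q) := by
    rintro ⟨S, T⟩
    by_cases hS : S = ∅
    · have h1 : (fun x => ofV v i x (S, T)) = fun x => v i x T := by
        funext x; exact if_pos hS
      rw [h1]; exact hv i T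
    · have h1 : (fun x => ofV v i x (S, T)) = fun _ => (0 : ℂ) := by
        funext x; exact if_neg hS
      rw [h1]; exact smAt_const i 0
  have hd : DifferentiableAt ℝ (fun z => ofV v i ((A.e i).symm z)) (A.e i x) :=
    differentiableAt_pi.2 fun q =>
      ((smAt_iff.1 (hs q)) _ ((A.e i).map_source hx)).diff
  funext ⟨S, T⟩
  have h1 : A.db i a (ofV v i) x (S, T) = A.db i a (fun y => ofV v i y (S, T)) x :=
    dbj_pi hd a (S, T)
  rw [h1]
  by_cases hS : S = ∅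
  · subst hS
    have h2 : (fun y => ofV v i y ((∅ : FI n), T)) = fun y => v i y T := by
      funext y; exact if_pos rfl
    rw [h2]
    show _ = (Pi.single (∅ : FI n) (1 : ℂ) : FI n → ℂ) ∅ * dbV v i a x T
    rw [Pi.single_eq_same, one_mul]
    rfl
  · have h2 : (fun y => ofV v i y (S, T)) = fun _ => (0 : ℂ) := by
      funext y; exact if_neg hS
    rw [h2]
    show _ = (Pi.single (∅ : FI n) (1 : ℂ) : FI n → ℂ) S * dbV v i a x T
    rw [Pi.single_eq_of_ne hS, zero_mul]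
    simp [Atl.db, dbj]

theorem nab_up (v : MV N) {i : A.ι} {x : M} (hx : x ∈ (A.e i).source) :
    (nabL (B0 N) (up N v)).1 i x = ∑ a, tp (Pi.single {a} 1) (dbV v.1 i a x) := by
  have h0 : (nabL (B0 N) (up N v)).1 i x = nab (B0 N) (up N v).1 i x := rfl
  rw [h0, nab_apply (B0 N) hx, B0_α N i x hx, Matrix.zero_mulVec, add_zero]
  refine Finset.sum_congr rfl fun a _ => ?_
  show (eW (ep a) ⊗ₖ (1 : Matrix (FI n) (FI n) ℂ)) *ᵥ (A.db i a (ofV v.1 i) x) = _
  rw [db_ofV v.2.1 hx, kron_tp, Matrix.one_mulVec, eW_vac]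

/-! ### densities -/

section dens

variable (K : Kah A) (h : HM ((KB A)⁻¹ * N))

theorem Gam_Kl (i : A.ι) (x : M) : Gam (Kl K i x) = GK K i x := rfl

theorem Gam_Ku (i : A.ι) (x : M) : Gam (Ku K i x) = GI K i x := rfl

theorem GK_herm {i : A.ι} {x : M} (hx : x ∈ (A.e i).source) : (GK K i x)ᴴ = GK K i x :=
  (Gam_posDef (HDN_505.Kl_posDef K hx)).1

/-- a form on `BN N`, literal types -/
theorem form_iB (c : ℂ) (X : Matrix (FI n) (FI n) ℂ) (p q : FI n → ℂ) :
    star (fun r : FI n × Unit => p r.1) ⬝ᵥ ((c • (X ⊗ₖ (1 : Matrix Unit Unit ℂ))) *ᵥ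
      fun r : FI n × Unit => q r.1) = c * (star p ⬝ᵥ (X *ᵥ q)) := by
  have h1 : (X ⊗ₖ (1 : Matrix Unit Unit ℂ)) *ᵥ (fun r : FI n × Unit => q r.1) =
      fun r : FI n × Unit => (X *ᵥ q) r.1 := by
    funext ⟨S, T⟩
    rw [B0_505.kron_mulVec]
    simp only [Matrix.one_mulVec]
    rfl
  rw [Matrix.smul_mulVec, h1, dotProduct_smul, smul_eq_mul]
  congr 1
  show ∑ r : FI n × Unit, star (p r.1) * (X *ᵥ q) r.1 = ∑ S, star (p S) * (X *ᵥ q) S
  rw [Fintype.sum_prod_type]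
  refine Finset.sum_congr rfl fun S _ => ?_
  rw [Fintype.sum_unique]

theorem HB_hd_iB (p q : A.ι → M → (BN N).κ → ℂ) (i : A.ι) (x : M) :
    (HB K h).hd p q i x = (h.w i x : ℂ) * (star (oB (p i x)) ⬝ᵥ (GI K i x *ᵥ oB (q i x))) := by
  exact form_iB (h.w i x : ℂ) (GI K i x) (oB (p i x)) (oB (q i x))

/-- pairing of lowered polyvectors -/
theorem HB_hd (v w : MV N) {i : A.ι} {x : M} (hx : x ∈ (A.e i).source) :
    (HB K h).hd (low K N v).1 (low K N w).1 i x = inG K h w.1 v.1 i x := by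
  rw [HB_hd_iB]
  show (h.w i x : ℂ) * (star (GK K i x *ᵥ v.1 i x) ⬝ᵥ (GI K i x *ᵥ (GK K i x *ᵥ w.1 i x))) =
    (h.w i x : ℂ) * (star (v.1 i x) ⬝ᵥ (GK K i x *ᵥ w.1 i x))
  rw [Matrix.mulVec_mulVec, GI_GK K hx, Matrix.one_mulVec, Matrix.star_mulVec, GK_herm K hx,
    ← Matrix.dotProduct_mulVec]

/-- pairing in degree zero -/
theorem H0_hd (v w : MV N) (i : A.ι) (x : M) :
    (H0 K h).hd (up N v).1 (up N w).1 i x = inG K h w.1 v.1 i x := by
  show star (ofV v.1 i x) ⬝ᵥ (((h.w i x : ℂ) • (Gam (Ku K i x) ⊗ₖ Gam (Kl K i x))) *ᵥ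
    ofV w.1 i x) = _
  rw [ofV_tp, ofV_tp, Matrix.smul_mulVec, dotProduct_smul, form_tp, form_single, Gam_vac,
    if_pos rfl, one_mul, smul_eq_mul]
  rfl

/-- the full gradient -/
theorem H0_hd_nab (v w : MV N) {i : A.ι} {x : M} (hx : x ∈ (A.e i).source) :
    (H0 K h).hd (nabL (B0 N) (up N v)).1 (nabL (B0 N) (up N w)).1 i x =
      inD K h w.1 v.1 i x := by
  have e0 : (H0 K h).hd (nabL (B0 N) (up N v)).1 (nabL (B0 N) (up N w)).1 i x =
      star (∑ a, tp (Pi.single {a} 1) (dbV v.1 i a x)) ⬝ᵥ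
        (((h.w i x : ℂ) • (Gam (Ku K i x) ⊗ₖ Gam (Kl K i x))) *ᵥ
        ∑ a, tp (Pi.single {a} 1) (dbV w.1 i a x)) := by
    rw [← nab_up v hx, ← nab_up w hx]
    rfl
  rw [e0, Matrix.smul_mulVec, dotProduct_smul, smul_eq_mul]
  show _ = (h.w i x : ℂ) * T1 (Gam (Kl K i x)) (Ku K i x) (fun k => dbV w.1 i k x)
    (fun l => dbV v.1 i l x)
  congr 1
  unfold T1
  rw [Matrix.mulVec_sum, star_sum, dotProduct_sum]
  refine Finset.sum_congr rfl fun k _ => ?_
  rw [sum_dotProduct]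
  refine Finset.sum_congr rfl fun l _ => ?_
  rw [form_tp, form_single, Gam_single]

/-- the curvature term -/
theorem HT_hd (hs : h.Semipos) (v w : MV N) {i : A.ι} {x : M} (hx : x ∈ (A.e i).source) :
    (HT K h hs).hd (low K N v).1 (low K N w).1 i x = inT K h w.1 v.1 i x := by
  have e0 : (HT K h hs).hd (low K N v).1 (low K N w).1 i x =
      (h.w i x : ℂ) * (star (GK K i x *ᵥ v.1 i x) ⬝ᵥ (HTm K h i x *ᵥ (GK K i x *ᵥ w.1 i x))) :=
    form_iB (h.w i x : ℂ) (HTm K h i x) _ _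
  rw [e0, HTm_form, Gam_Ku, Matrix.mulVec_mulVec, Matrix.mulVec_mulVec, GI_GK K hx,
    Matrix.one_mulVec, Matrix.one_mulVec]
  rfl

/-- `∇` of the lowered field -/
theorem HB_hd_nab (v w : MV N) {i : A.ι} {x : M} (hx : x ∈ (A.e i).source) :
    (HB K h).hd (nabL (BN N) (low K N v)).1 (nabL (BN N) (low K N w)).1 i x =
      inU K h w.1 v.1 i x := by
  rw [HB_hd_iB, nab_low_eq_duV K v hx, nab_low_eq_duV K w hx]
  rfl

end dens

end

end Crest.Agent.R273.Lim_505
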