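import Crest.Agent.R273.CLinE_933
import Crest.Agent.R273.YauLin_635

/-!
# R273 (S0416), Part C, YAU (helper933): `LinExist` of `YauLin_635`
-/

set_option autoImplicit false

namespace Crest.Agent.R273.CLin_933

open Crest.Agent.R273.YauLin_635 Crest.Agent.R273.YauDefs_635

theorem linExist : LinExist := by
  intro n M _ _ _ _ A _ _ hP L H _ φ hφ hK f hf
  obtain ⟨P⟩ := hP
  exact lin_exist P H hφ hK hf

theorem yau_of (h2 : C2Stmt) (h3 : C3Stmt) : YauStmt := yau_from h2 h3 linExist

end Crest.Agent.R273.CLin_933
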