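import Crest.Agent.R273.Dsc_333
import Mathlib.Analysis.Complex.Liouville

/-!
# R273 (S0416), helper333: from `M` to the fibre of the normal form (Liouville)

* `exists_nsq_le`  : sections of metrised bundles on compact manifolds are bounded
* `slc`            : the family on `ℂ^g × Y` of a family on the covering
* `Gd_of_hasSec`   : a nonzero section of `((KB A)⁻¹ * D.fl v) ^ m` gives `Gd B v`
-/

set_option autoImplicit false
set_option linter.unusedSectionVars false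

open Set Filter Topology Complex
open scoped ContDiff Matrix ComplexConjugate Manifold ComplexOrder

namespace Crest.Agent.R273.Lio_333

open Crest.Agent.R275.Geo Crest.Agent.R275.Core144 Crest.Agent.R275.GC293
open Crest.Agent.R275.Prod363
open Crest.Agent.R273.Defs_333 Crest.Agent.R273.Kah_333 Crest.Agent.R273.Vol_333
open Crest.Agent.R273.Map_835 Crest.Agent.R273.PB_835 Crest.Agent.R273.EA_333
open Crest.Agent.R273.UCov_914 Crest.Agent.R273.Prd_835 Crest.Agent.R273.Sus_333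
open Crest.Agent.R273.HM_333 Crest.Agent.R273.TorDefs_422 Crest.Agent.R273.Dsc_333

noncomputable section

/-! ### boundedness of sections -/

section bdd

variable {n : ℕ} {M : Type} [TopologicalSpace M] {A : Atl n M} {L : LB A}

theorem continuousOn_of_holAt {i : A.ι} {f : M → ℂ} (h : HolAt A i univ f) :
    ContinuousOn f (A.e i).source := by
  have h0 : DifferentiableOn ℂ (fun z => f ((A.e i).symm z)) (A.e i).target :=
    DifferentiableOn.mono h fun z hz => ⟨hz, mem_univ _⟩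
  have h2 : ContinuousOn (fun x => f ((A.e i).symm (A.e i x))) (A.e i).source :=
    h0.continuousOn.comp (A.e i).continuousOn fun y hy => (A.e i).map_source hy
  refine h2.congr fun y hy => ?_
  change f y = f ((A.e i).symm (A.e i y))
  rw [(A.e i).left_inv hy]

theorem continuousOn_of_smAt {i : A.ι} {f : M → ℝ} (h : A.SmAt i f) :
    ContinuousOn f (A.e i).source := by
  have h0 : ContinuousOn (fun z => f ((A.e i).symm z)) (A.e i).target := ContDiffOn.continuousOn h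
  have h2 : ContinuousOn (fun x => f ((A.e i).symm (A.e i x))) (A.e i).source :=
    h0.comp (A.e i).continuousOn fun y hy => (A.e i).map_source hy
  refine h2.congr fun y hy => ?_
  change f y = f ((A.e i).symm (A.e i y))
  rw [(A.e i).left_inv hy]

theorem exists_nsq_le [CompactSpace M] (h : HM L) {s : A.ι → M → ℂ} (hs : IsHS L univ s) :
    ∃ C : ℝ, ∀ i, ∀ x ∈ (A.e i).source, nsq h s i x ≤ C := by
  set F : M → ℝ := fun x => nsq h s (PB.ch A x) x with hF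
  have h1 : ∀ i, ∀ x ∈ (A.e i).source, F x = nsq h s i x := fun i x hx =>
    nsq_indep h hs ⟨PB.ch_mem A x, hx⟩ (mem_univ x)
  have h2 : Continuous F := by
    rw [continuous_iff_continuousAt]
    intro x
    obtain ⟨i, hi⟩ := A.cover x
    have h3 : ContinuousOn (fun x => nsq h s i x) (A.e i).source :=
      (((continuousOn_of_holAt (hs.hol i)).norm.pow 2).mul (continuousOn_of_smAt (h.sm i)))
    have h4 : ContinuousOn F (A.e i).source := h3.congr fun y hy => h1 i y hy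
    exact h4.continuousAt ((A.e i).open_source.mem_nhds hi)
  obtain ⟨C, hC⟩ := isCompact_univ.exists_bound_of_continuousOn h2.continuousOn
  refine ⟨C, fun i x hx => ?_⟩
  rw [← h1 i x hx]
  exact (le_abs_self _).trans (hC x (mem_univ x))

end bdd

variable {g d : ℕ} {M : Type} [TopologicalSpace M] {A : Atl (g + d) M} {G : Type} [CommGroup G]
variable {D : MonD A G} {K : Kah A} {Y : Type} [TopologicalSpace Y] [MulAction G Y]
  {B : Atl d Y} (S : Sus D K B)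

/-- comparison of the anticanonical bundles along `Ψ` -/
def cmp' (k : ℕ) : PB S.Ψ ((KB ((EA g).prod B))⁻¹ ^ k) ((KB (D.atl G))⁻¹ ^ k) :=
  powT (PB.KB S.lb).inv k

theorem cmp'_c (k : ℕ) (r : ((EA g).prod B).ι) (p : (D.atl G).ι) (q : Cn g × Y) :
    (cmp' S k).c r p q = ((Jp ((EA g).prod B) (D.atl G) S.Ψ r p q).det)⁻¹ ^ k := rfl

/-- the family on `ℂ^g × Y` -/
def slc (k : ℕ) (t : (D.atl G).ι → D.cov G → ℂ) : ((EA g).prod B).ι → Cn g × Y → ℂ :=
  (cmp' S k).pull t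

section slc

variable {k : ℕ} {t : (D.atl G).ι → D.cov G → ℂ}

theorem isHS_slc (ht : IsHS (D.pullLB G ((KB A)⁻¹ ^ k)) univ t) :
    IsHS ((KB ((EA g).prod B))⁻¹ ^ k) univ (slc S k t) := by
  rw [pullLB_aK] at ht
  exact (cmp' S k).pull_isHS S.lb.toHolMap isOpen_univ ht

theorem slc_eq (ht : IsHS (D.pullLB G ((KB A)⁻¹ ^ k)) univ t) {r : ((EA g).prod B).ι}
    {q : Cn g × Y} (hq : q ∈ (((EA g).prod B).e r).source) {p : (D.atl G).ι}
    (hp : S.Ψ q ∈ ((D.atl G).e p).source) :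
    slc S k t r q = ((Jp ((EA g).prod B) (D.atl G) S.Ψ r p q).det)⁻¹ ^ k * t p (S.Ψ q) := by
  rw [pullLB_aK] at ht
  unfold slc
  rw [(cmp' S k).pull_eq hq hp ht (mem_univ _), cmp'_c]

/-- the Jacobians of `Ψ` and of `π` agree in corresponding charts -/
theorem Jp_Ψ {r : ((EA g).prod B).ι} {q : Cn g × Y} (hq : q ∈ (((EA g).prod B).e r).source)
    {p : (D.atl G).ι} (hp : S.Ψ q ∈ ((D.atl G).e p).source) :
    Jp ((EA g).prod B) A S.π r p.1 q = Jp ((EA g).prod B) (D.atl G) S.Ψ r p q := by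
  have h1 := Jp_comp (Sus_333.holMap_pr D) S.lb.toHolMap (i := r) (j := p) (l := p.1) (x := q)
    hq hp hp.1
  have h6 : D.pr (S.Ψ q) ∈ (A.e p.1).source := hp.1
  rw [Sus_333.Jp_pr, J_self _ h6, Matrix.one_mul] at h1
  exact h1.symm

/-- the chart of `ℂ^g` does not matter -/
theorem slc_chart (ht : IsHS (D.pullLB G ((KB A)⁻¹ ^ k)) univ t) {i i' : (EA g).ι} {j : B.ι}
    {z : Cn g} {y : Y} (hz : z ∈ ((EA g).e i).source) (hz' : z ∈ ((EA g).e i').source)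
    (hy : y ∈ (B.e j).source) : slc S k t (i, j) (z, y) = slc S k t (i', j) (z, y) := by
  have h1 := (isHS_slc S ht).tr (i, j) (i', j) (z, y) ⟨⟨hz, hy⟩, ⟨hz', hy⟩⟩ (mem_univ _)
  rw [h1, LB_pow_g, LB.inv_g, KB_prod ⟨hz, hz'⟩ ⟨hy, hy⟩, KB_EA ⟨hz, hz'⟩, (KB B).self]
  simp

/-- equivariance -/
theorem slc_act (ht : IsHS (D.pullLB G ((KB A)⁻¹ ^ k)) univ t) {χ : G →* Circle}
    (hχ : D.Eqv χ t) (γ : G) {i i' : (EA g).ι} {j j' : B.ι} {q : Cn g × Y}
    (hi : q.1 ∈ ((EA g).e i).source) (hj : q.2 ∈ (B.e j).source)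
    (hi' : (S.act γ q).1 ∈ ((EA g).e i').source) (hj' : (S.act γ q).2 ∈ (B.e j').source) :
    slc S k t (i', j') (S.act γ q) =
      (χ γ : ℂ) * (Ja B γ j j' q.2).det ^ k * slc S k t (i, j) q := by
  obtain ⟨p, hp⟩ := (D.atl G).cover (S.Ψ q)
  have hp' : S.Ψ (S.act γ q) ∈ ((D.atl G).e (p.1, p.2 * γ⁻¹)).source := by
    rw [S.Ψ_act]; exact D.mem_sheet_deck hp
  have hpq : γ • S.Ψ q ∈ ((D.atl G).e (p.1, p.2 * γ⁻¹)).source := D.mem_sheet_deck hp
  rw [slc_eq S ht (r := (i', j')) ⟨hi', hj'⟩ hp', slc_eq S ht (r := (i, j)) ⟨hi, hj⟩ hp, S.Ψ_act,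
    hχ γ p (S.Ψ q) hp]
  have h1 := Jp_comp (Sus_333.holMap_deck D γ) S.lb.toHolMap (i := (i, j)) (j := p)
    (l := (p.1, p.2 * γ⁻¹)) (x := q) ⟨hi, hj⟩ hp hpq
  have h2 := Jp_comp S.lb.toHolMap (S.lb_act γ).toHolMap (i := (i, j)) (j := (i', j'))
    (l := (p.1, p.2 * γ⁻¹)) (x := q) ⟨hi, hj⟩ ⟨hi', hj'⟩ hp'
  have h3 : (fun q => γ • S.Ψ q) = fun q => S.Ψ (S.act γ q) := funext fun q => (S.Ψ_act γ q).symm
  have h6 : D.pr (S.Ψ q) ∈ (A.e p.1).source := hp.1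
  have h7 : Jp (D.atl G) (D.atl G) (fun e : D.cov G => γ • e) p (p.1, p.2 * γ⁻¹) (S.Ψ q) = 1 := by
    exact (Sus_333.Jp_deck D γ p (p.1, p.2 * γ⁻¹) (S.Ψ q)).trans (J_self _ h6)
  rw [h3, ← h2, h7, Matrix.one_mul] at h1
  have h4 := S.Jp_act γ (z := q.1) (y := q.2) hi hj hi' hj'
  have h5 : (q.1, q.2) = q := rfl
  rw [h5] at h4
  have h8 := congrArg Matrix.det h1
  rw [Matrix.det_mul, h4, det_blk, Matrix.det_one, one_mul] at h8
  have h9 : (Jp B B (fun y : Y => γ • y) j j' q.2).det ≠ 0 :=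
    (S.lb_smul γ).det j j' _ hj hj'
  have h10 : Ja B γ j j' q.2 = Jp B B (fun y : Y => γ • y) j j' q.2 := rfl
  rw [h10, h8, smul_eq_mul, mul_inv, mul_pow]
  set a := (Jp B B (fun y : Y => γ • y) j j' q.2).det
  set b := (Jp ((EA g).prod B) (D.atl G) S.Ψ (i', j') (p.1, p.2 * γ⁻¹) (S.act γ q)).det
  have h11 : a⁻¹ ^ k * a ^ k = 1 := by rw [← mul_pow, inv_mul_cancel₀ h9, one_pow]
  linear_combination (-(b⁻¹ ^ k * ((χ γ : ℂ) * t p (S.Ψ q)))) * h11

end slc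

/-! ### Liouville -/

/-- functions on `ℂ^g` which are locally holomorphic are differentiable -/
theorem differentiable_of_EA {g : ℕ} {f : Cn g → ℂ}
    (h : ∀ z, ∃ (i : (EA g).ι) (F : Cn g → ℂ), z ∈ ((EA g).e i).source ∧
      HolAt (EA g) i univ F ∧ ∀ w ∈ ((EA g).e i).source, f w = F w) : Differentiable ℂ f := by
  intro z
  obtain ⟨i, F, hz, hF, hf⟩ := h z
  have h1 : DifferentiableAt ℂ (fun w => F (w + ctr i)) (z - ctr i) :=
    hF.diffAt isOpen_univ (((EA g).e i).map_source hz) (mem_univ _)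
  have h2 : DifferentiableAt ℂ (fun w => F (w - ctr i + ctr i)) z :=
    h1.comp z (f := fun w => w - ctr i) ((differentiableAt_id).sub_const _)
  have h3 : (fun w => F (w - ctr i + ctr i)) = F := by
    funext w
    rw [sub_add_cancel]
  rw [h3] at h2
  refine h2.congr_of_eventuallyEq ?_
  filter_upwards [((EA g).e i).open_source.mem_nhds hz] with w hw using hf w hw

section lio

variable [CompactSpace M] {m : ℕ} {v : G →* Circle} {s0 : A.ι → M → ℂ}

theorem bound_slc (hs0 : IsHS ((KB A)⁻¹ ^ m * D.fl v) univ s0) : ∃ C : ℝ,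
    ∀ (i : (EA g).ι) (j : B.ι) (z : Cn g) (y : Y), z ∈ ((EA g).e i).source →
      y ∈ (B.e j).source → ‖slc S m (D.up v s0) (i, j) (z, y)‖ ^ 2 *
        (S.G0.det.re * (volK S.KY).w j y) ^ m ≤ C := by
  obtain ⟨C, hC⟩ := exists_nsq_le (D.twHM (HM_333.pow (volK K) m) v) hs0
  refine ⟨C, fun i j z y hz hy => ?_⟩
  obtain ⟨p, hp⟩ := (D.atl G).cover (S.Ψ (z, y))
  have hp1 : S.π (z, y) ∈ (A.e p.1).source := hp.1
  have hJ := Jp_Ψ S (r := (i, j)) (q := (z, y)) ⟨hz, hy⟩ hp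
  have hd : (Jp ((EA g).prod B) (D.atl G) S.Ψ (i, j) p (z, y)).det ≠ 0 :=
    S.lb.det (i, j) p (z, y) ⟨hz, hy⟩ hp
  rw [slc_eq S (D.isHS_up v hs0) (r := (i, j)) (q := (z, y)) ⟨hz, hy⟩ hp,
    D.up_apply v s0 (p := p) hp, ← S.vol_eq hz hy hp1, hJ]
  have h1 := hC p.1 (S.π (z, y)) hp1
  unfold nsq at h1
  rw [D.twHM_w, HM_333.pow_w] at h1
  refine le_trans (le_of_eq ?_) h1
  rw [norm_mul, norm_pow, norm_inv, norm_smul, Circle.norm_coe, one_mul]
  have h2 : ‖(Jp ((EA g).prod B) (D.atl G) S.Ψ (i, j) p (z, y)).det‖ ≠ 0 := norm_ne_zero_iff.2 hd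
  set a := ‖(Jp ((EA g).prod B) (D.atl G) S.Ψ (i, j) p (z, y)).det‖
  have h3 : S.π (z, y) = D.pr (S.Ψ (z, y)) := rfl
  rw [h3]
  set w := (volK K).w p.1 (D.pr (S.Ψ (z, y)))
  set s := ‖s0 p.1 (D.pr (S.Ψ (z, y)))‖
  have h4 : (a⁻¹) ^ m * a ^ m = 1 := by rw [← mul_pow, inv_mul_cancel₀ h2, one_pow]
  calc ((a⁻¹) ^ m * s) ^ 2 * (a ^ 2 * w) ^ m = (((a⁻¹) ^ m * a ^ m)) ^ 2 * (s ^ 2 * w ^ m) := by
        rw [mul_pow (a ^ 2) w m, ← pow_mul, ← mul_comm m 2, pow_mul a m 2]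
        ring
    _ = s ^ 2 * w ^ m := by rw [h4, one_pow, one_mul]

/-- **Liouville** -/
theorem slc_const (hs0 : IsHS ((KB A)⁻¹ ^ m * D.fl v) univ s0) {i i' : (EA g).ι} {j : B.ι}
    {z z' : Cn g} {y : Y} (hz : z ∈ ((EA g).e i).source) (hz' : z' ∈ ((EA g).e i').source)
    (hy : y ∈ (B.e j).source) :
    slc S m (D.up v s0) (i, j) (z, y) = slc S m (D.up v s0) (i', j) (z', y) := by
  have ht := D.isHS_up v hs0
  set f : Cn g → ℂ := fun z => slc S m (D.up v s0) (PB.ch (EA g) z, j) (z, y) with hf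
  have h1 : ∀ (i : (EA g).ι) (z : Cn g), z ∈ ((EA g).e i).source →
      f z = slc S m (D.up v s0) (i, j) (z, y) := fun i z hz =>
    slc_chart S ht (PB.ch_mem (EA g) z) hz hy
  have h2 : Differentiable ℂ f := by
    refine differentiable_of_EA fun z => ?_
    obtain ⟨i, hi⟩ := (EA g).cover z
    refine ⟨i, fun z => slc S m (D.up v s0) (i, j) (z, y), hi, ?_, fun w hw => h1 i w hw⟩
    have h3 := (holMap_inl (A := EA g) (B := B) y).comp_holAt (i := i) (j := (i, j))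
      ((isHS_slc S ht).hol (i, j))
    exact DifferentiableOn.mono h3 fun w hw => ⟨hw.1, mem_univ _, ⟨((EA g).e i).map_target hw.1, hy⟩⟩
  obtain ⟨C, hC⟩ := bound_slc S hs0
  have hw : 0 < (S.G0.det.re * (volK S.KY).w j y) ^ m :=
    pow_pos (mul_pos (det_re_pos S.G0pos) ((volK S.KY).pos j y hy)) m
  have h4 : Bornology.IsBounded (range f) := by
    rw [isBounded_iff_forall_norm_le]
    refine ⟨C / (S.G0.det.re * (volK S.KY).w j y) ^ m + 1, ?_⟩
    rintro _ ⟨z, rfl⟩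
    obtain ⟨i, hi⟩ := (EA g).cover z
    rw [h1 i z hi]
    have h5 := hC i j z y hi hy
    rw [← le_div_iff₀ hw] at h5
    nlinarith [sq_nonneg (‖slc S m (D.up v s0) (i, j) (z, y)‖ - 1),
      norm_nonneg (slc S m (D.up v s0) (i, j) (z, y))]
  rw [← h1 i z hz, ← h1 i' z' hz']
  exact h2.apply_eq_apply_of_bounded h4 z z'

/-- the section on the fibre -/
def fib (t : (D.atl G).ι → D.cov G → ℂ) (k : ℕ) : B.ι → Y → ℂ := fun j y =>
  slc S k t (PB.ch (EA g) 0, j) (0, y)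

theorem isHS_fib {k : ℕ} {t : (D.atl G).ι → D.cov G → ℂ}
    (ht : IsHS (D.pullLB G ((KB A)⁻¹ ^ k)) univ t) : IsHS ((KB B)⁻¹ ^ k) univ (fib S t k) := by
  have h0 := isHS_slc S ht
  have hz : (0 : Cn g) ∈ ((EA g).e (PB.ch (EA g) 0)).source := PB.ch_mem _ _
  refine ⟨fun j => ?_, fun j y hy => ?_, fun j j' y hy _ => ?_⟩
  · have h3 := (holMap_inr (A := EA g) (B := B) (0 : Cn g)).comp_holAt (i := j)
      (j := (PB.ch (EA g) 0, j)) (h0.hol (PB.ch (EA g) 0, j))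
    exact DifferentiableOn.mono h3 fun w hw => ⟨hw.1, mem_univ _, ⟨hz, (B.e j).map_target hw.1⟩⟩
  · exact h0.off (PB.ch (EA g) 0, j) (0, y) fun h => hy h.2
  · have h1 := h0.tr (PB.ch (EA g) 0, j) (PB.ch (EA g) 0, j') (0, y) ⟨⟨hz, hy.1⟩, ⟨hz, hy.2⟩⟩
      (mem_univ _)
    unfold fib
    rw [h1, LB_pow_g, LB.inv_g, KB_prod ⟨hz, hz⟩ hy, KB_EA ⟨hz, hz⟩, one_mul, LB_pow_g, LB.inv_g]

include S in
/-- **DOWN**: a section on `M` gives a section on the fibre -/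
theorem Gd_of_hasSec (hm : 0 < m) (h : HasSec (((KB A)⁻¹ * D.fl v) ^ m)) : Gd B v := by
  rw [mul_pow, ← D.fl_pow] at h
  obtain ⟨s0, hs0, i0, x0, hx0, h0⟩ := h
  have ht := D.isHS_up (v ^ m) hs0
  have hz : (0 : Cn g) ∈ ((EA g).e (PB.ch (EA g) 0)).source := PB.ch_mem _ _
  refine ⟨m, hm, fib S (D.up (v ^ m) s0) m, isHS_fib S ht, ?_, ?_⟩
  · have h1 : D.up (v ^ m) s0 (i0, (1 : G)) (D.pt i0 (1 : G) x0) ≠ 0 := by
      rw [D.up_apply _ _ (p := (i0, (1 : G))) (D.pt_mem_sheet 1 hx0)]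
      simpa using h0
    set e : D.cov G := D.pt i0 (1 : G) x0 with he
    have hp : e ∈ ((D.atl G).e (i0, (1 : G))).source := D.pt_mem_sheet 1 hx0
    obtain ⟨i, hi⟩ := (EA g).cover (S.Ψ.symm e).1
    obtain ⟨j, hj⟩ := B.cover (S.Ψ.symm e).2
    refine ⟨j, (S.Ψ.symm e).2, hj, ?_⟩
    unfold fib
    rw [slc_const S hs0 hz hi hj]
    have h2 : ((S.Ψ.symm e).1, (S.Ψ.symm e).2) = S.Ψ.symm e := rfl
    rw [h2]
    have h3 : S.Ψ (S.Ψ.symm e) = e := S.Ψ.apply_symm_apply e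
    have hp' : S.Ψ (S.Ψ.symm e) ∈ ((D.atl G).e (i0, (1 : G))).source := by rw [h3]; exact hp
    rw [slc_eq S ht (r := (i, j)) (q := S.Ψ.symm e) ⟨hi, hj⟩ hp', h3]
    exact mul_ne_zero (pow_ne_zero _ (inv_ne_zero (S.lb.det (i, j) (i0, (1 : G)) _ ⟨hi, hj⟩ hp'))) h1
  · intro γ j j' y hj hj'
    obtain ⟨i', hi'⟩ := (EA g).cover (0 + Multiplicative.toAdd (S.lam γ))
    unfold fib
    rw [slc_const S hs0 hz hi' hj']
    exact slc_act S ht (D.eqv_up _ _) γ (q := ((0 : Cn g), y)) hz hj hi' hj'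

end lio

end

end Crest.Agent.R273.Lio_333
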