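import Crest.Agent.R273.HFlow8_376

/-!
# R273 (S0416), leaf LIP (helper106), file A: local equicontinuity of isometries

* `hf_lower`, `hf_upper` : the Hermitian form of a Kaehler metric on compact subsets of a chart;
* `exit`                 : an isometry cannot leave a chart ball too fast;
* `equi`                 : for `x : M` and `K1 ⊆ M'` compact there are a neighbourhood `U` of `x` and a
  compact `K2` such that `f U ⊆ K2` for all isometries `f : M → M'` with `f x ∈ K1`.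
-/

set_option autoImplicit false
set_option linter.unusedSectionVars false

open Set Metric Filter Topology Complex Function
open scoped NNReal ContDiff Matrix ComplexConjugate ComplexOrder

namespace Crest.Agent.R273.Lip_106

open Crest.Agent.R275.Geo Crest.Agent.R275.Core144 Crest.Agent.R275.EDR890
open Crest.Agent.R273.Kah_333 Crest.Agent.R273.HFlow3_376 Crest.Agent.R273.HFlow4_376
open Crest.Agent.R273.HFlow5_376 Crest.Agent.R273.HFlow6_376 Crest.Agent.R273.HFlow7_376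
open Crest.Agent.R273.HFlow8_376

noncomputable section

variable {n m : ℕ} {M M' : Type} [TopologicalSpace M] [TopologicalSpace M'] {A : Atl n M}
  {B : Atl m M'}

/-! ### the Hermitian form on compact sets -/

theorem hf_cont (K : Kah A) (i : A.ι) :
    ContinuousOn (fun p : Cn n × Cn n => (hf K i ((A.e i).symm p.1) p.2 p.2).re)
      ((A.e i).target ×ˢ univ) := by
  have h1 : ∀ a b, ContinuousOn (fun p : Cn n × Cn n => K.g i ((A.e i).symm p.1) a b)
      ((A.e i).target ×ˢ univ) := by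
    intro a b
    have h2 : ContinuousOn (fun z => K.g i ((A.e i).symm z) a b) (A.e i).target :=
      (K.sm i a b).continuousOn
    exact h2.comp continuousOn_fst fun p hp => hp.1
  simp only [hf_eq]
  refine Complex.continuous_re.comp_continuousOn ?_
  refine continuousOn_finsetSum _ fun a _ => continuousOn_finsetSum _ fun b _ => ?_
  refine ((h1 a b).mul ?_).mul ?_
  · exact Continuous.continuousOn (by fun_prop)
  · exact Continuous.continuousOn (by fun_prop)

theorem hf_pos (K : Kah A) (i : A.ι) {x : M} (hx : x ∈ (A.e i).source) {v : Cn n} (hv : v ≠ 0) :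
    0 < (hf K i x v v).re := by
  have h1 := K.pos i x hx
  have h2 : (star (v : Fin n → ℂ)) ≠ 0 := by
    intro h
    apply hv
    have h3 : (v : Fin n → ℂ) = 0 := by
      have := congrArg star h
      simpa using this
    ext a
    exact congrFun h3 a
  have h3 := h1.dotProduct_mulVec_pos h2
  rw [star_star] at h3
  exact (Complex.lt_def.1 h3).1

theorem hf_smul_real (K : Kah A) (i : A.ι) (x : M) (t : ℝ) (v : Cn n) :
    (hf K i x (t • v) (t • v)).re = t ^ 2 * (hf K i x v v).re := by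
  have h1 : hf K i x (t • v) (t • v) = ((t ^ 2 : ℝ) : ℂ) * hf K i x v v := by
    rw [hf_eq, hf_eq, Finset.mul_sum]
    refine Finset.sum_congr rfl fun a _ => ?_
    rw [Finset.mul_sum]
    refine Finset.sum_congr rfl fun b _ => ?_
    simp only [PiLp.smul_apply, Complex.real_smul, map_mul, Complex.conj_ofReal]
    push_cast
    ring
  rw [h1, Complex.re_ofReal_mul]

theorem hf_lower (K : Kah A) (i : A.ι) {Q : Set (Cn n)} (hQ : IsCompact Q)
    (hs : Q ⊆ (A.e i).target) :
    ∃ c : ℝ, 0 < c ∧ ∀ z ∈ Q, ∀ v : Cn n, (c * ‖v‖) ^ 2 ≤ (hf K i ((A.e i).symm z) v v).re := by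
  have hc : IsCompact (Q ×ˢ sphere (0 : Cn n) 1) := hQ.prod (isCompact_sphere _ _)
  obtain ⟨a, ha, hle⟩ := hc.exists_forall_le' (a := (0 : ℝ))
    ((hf_cont K i).mono fun p hp => ⟨hs hp.1, mem_univ _⟩) (by
      rintro ⟨z, v⟩ ⟨hz, hv⟩
      refine hf_pos K i ((A.e i).map_target (hs hz)) ?_
      rintro h
      have : ‖v‖ = 1 := by simpa using hv
      have h0 : v = 0 := h
      rw [h0, norm_zero] at this
      exact zero_ne_one this)
  refine ⟨Real.sqrt a, Real.sqrt_pos.2 ha, fun z hz v => ?_⟩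
  rw [mul_pow, Real.sq_sqrt ha.le]
  by_cases hv : v = 0
  · rw [hv, norm_zero]
    have : (hf K i ((A.e i).symm z) (0 : Cn n) 0).re = 0 := by
      rw [hf_eq]; simp
    rw [this]; simp
  · have hn : 0 < ‖v‖ := norm_pos_iff.2 hv
    have h1 : v = ‖v‖ • (‖v‖⁻¹ • v) := by
      rw [smul_smul, mul_inv_cancel₀ hn.ne', one_smul]
    have h2 : ‖(‖v‖⁻¹ • v : Cn n)‖ = 1 := by
      rw [norm_smul, norm_inv, norm_norm, inv_mul_cancel₀ hn.ne']
    have h3 := hle (z, ‖v‖⁻¹ • v) ⟨hz, by simpa using h2⟩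
    have h4 := hf_smul_real K i ((A.e i).symm z) ‖v‖ (‖v‖⁻¹ • v)
    rw [← h1] at h4
    rw [h4, mul_comm a]
    exact mul_le_mul_of_nonneg_left h3 (by positivity)

theorem hf_upper (K : Kah A) (i : A.ι) {Q : Set (Cn n)} (hQ : IsCompact Q)
    (hs : Q ⊆ (A.e i).target) :
    ∃ C : ℝ, 0 < C ∧ ∀ z ∈ Q, ∀ v : Cn n, (hf K i ((A.e i).symm z) v v).re ≤ (C * ‖v‖) ^ 2 := by
  have hc : IsCompact (Q ×ˢ sphere (0 : Cn n) 1) := hQ.prod (isCompact_sphere _ _)
  obtain ⟨a, ha⟩ := hc.exists_bound_of_continuousOn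
    ((hf_cont K i).mono fun p hp => ⟨hs hp.1, mem_univ _⟩)
  refine ⟨Real.sqrt (|a| + 1), Real.sqrt_pos.2 (by positivity), fun z hz v => ?_⟩
  rw [mul_pow, Real.sq_sqrt (by positivity)]
  by_cases hv : v = 0
  · rw [hv, norm_zero]
    have : (hf K i ((A.e i).symm z) (0 : Cn n) 0).re = 0 := by
      rw [hf_eq]; simp
    rw [this]; simp
  · have hn : 0 < ‖v‖ := norm_pos_iff.2 hv
    have h1 : v = ‖v‖ • (‖v‖⁻¹ • v) := by
      rw [smul_smul, mul_inv_cancel₀ hn.ne', one_smul]
    have h2 : ‖(‖v‖⁻¹ • v : Cn n)‖ = 1 := by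
      rw [norm_smul, norm_inv, norm_norm, inv_mul_cancel₀ hn.ne']
    have h3 := ha (z, ‖v‖⁻¹ • v) ⟨hz, by simpa using h2⟩
    have h4 := hf_smul_real K i ((A.e i).symm z) ‖v‖ (‖v‖⁻¹ • v)
    rw [← h1] at h4
    rw [h4, mul_comm (|a| + 1)]
    refine mul_le_mul_of_nonneg_left ?_ (by positivity)
    refine (le_abs_self _).trans (h3.trans ?_)
    linarith [le_abs_self a]

/-! ### first exit -/

theorem exit [T2Space M'] {K : Kah A} {K' : Kah B} {f : M → M'} (hf' : Isom K K' f) {i : A.ι}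
    {j : B.ι} {x0 : M} (hi : x0 ∈ (A.e i).source) (hj : f x0 ∈ (B.e j).source) {ρ r C c δ : ℝ}
    (hρ : closedBall (A.e i x0) ρ ⊆ (A.e i).target)
    (hup : ∀ z ∈ closedBall (A.e i x0) ρ, ∀ v : Cn n,
      (hf K i ((A.e i).symm z) v v).re ≤ (C * ‖v‖) ^ 2)
    (hr : closedBall (B.e j (f x0)) r ⊆ (B.e j).target)
    (hlo : ∀ w ∈ closedBall (B.e j (f x0)) r, ∀ v : Cn m,
      (c * ‖v‖) ^ 2 ≤ (hf K' j ((B.e j).symm w) v v).re)
    (hc : 0 < c) (hC : 0 < C) (hδρ : δ ≤ ρ) (hδ : C / c * δ < r) {z : Cn n}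
    (hz : z ∈ ball (A.e i x0) δ) :
    f ((A.e i).symm z) ∈ (B.e j).symm '' closedBall (B.e j (f x0)) r := by
  set z0 := A.e i x0 with hz0
  set w0 := B.e j (f x0) with hw0
  set v : Cn n := z - z0 with hv
  have hvn : ‖v‖ < δ := by rwa [mem_ball, dist_eq_norm] at hz
  have hδ0 : 0 < δ := lt_of_le_of_lt (norm_nonneg _) hvn
  have hr0 : 0 < r := lt_of_le_of_lt (by positivity) hδ
  have hmem : ∀ t ∈ Icc (0 : ℝ) 1, z0 + t • v ∈ closedBall z0 ρ := by
    intro t ht
    rw [mem_closedBall, dist_eq_norm, add_sub_cancel_left, norm_smul, Real.norm_eq_abs,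
      abs_of_nonneg ht.1]
    nlinarith [norm_nonneg v, ht.2]
  set σ : ℝ → M := fun t => (A.e i).symm (z0 + t • v) with hσ
  set γ : ℝ → M' := fun t => f (σ t) with hγ
  have hσs : ∀ t ∈ Icc (0 : ℝ) 1, σ t ∈ (A.e i).source := fun t ht =>
    (A.e i).map_target (hρ (hmem t ht))
  have hσc : ContinuousOn σ (Icc 0 1) := by
    refine (A.e i).continuousOn_symm.comp (f := fun t : ℝ => z0 + t • v)
      (Continuous.continuousOn (by fun_prop)) fun t ht => hρ (hmem t ht)
  have hγc : ContinuousOn γ (Icc 0 1) := hf'.1.continuous.comp_continuousOn hσc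
  have hσ0 : σ 0 = x0 := by
    change (A.e i).symm (z0 + (0 : ℝ) • v) = x0
    rw [zero_smul, add_zero, hz0, (A.e i).left_inv hi]
  have hγ0 : γ 0 = f x0 := by rw [hγ]; simp only [hσ0]
  -- the open set
  set O : Set M' := (B.e j).source ∩ B.e j ⁻¹' ball w0 r with hO
  have hOo : IsOpen O := (B.e j).isOpen_inter_preimage isOpen_ball
  have hO0 : γ 0 ∈ O := by
    rw [hγ0]
    exact ⟨hj, mem_ball_self hr0⟩
  -- the compact set
  set Q : Set M' := (B.e j).symm '' closedBall w0 (C / c * ‖v‖) with hQ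
  have hCv : C / c * ‖v‖ < r := by
    refine lt_of_le_of_lt ?_ hδ
    exact mul_le_mul_of_nonneg_left hvn.le (by positivity)
  have hQt : closedBall w0 (C / c * ‖v‖) ⊆ (B.e j).target :=
    (closedBall_subset_closedBall hCv.le).trans hr
  have hQc : IsClosed Q :=
    ((isCompact_closedBall _ _).image_of_continuousOn
      ((B.e j).continuousOn_symm.mono hQt)).isClosed
  have hQO : Q ⊆ O := by
    rintro _ ⟨w, hw, rfl⟩
    refine ⟨(B.e j).map_target (hQt hw), ?_⟩
    rw [mem_preimage, (B.e j).right_inv (hQt hw)]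
    exact closedBall_subset_ball hCv hw
  -- speed estimate
  have hspeed : ∀ t ∈ Icc (0 : ℝ) 1, γ t ∈ O →
      HasDerivAt (fun s => B.e j (f ((A.e i).symm (z0 + s • v)))) (tm A B f i j (σ t) v) t ∧
      ‖tm A B f i j (σ t) v‖ ≤ C / c * ‖v‖ := by
    intro t ht hγt
    have h1 := hf'.1.diff (hσs t ht) hγt.1
    have h2 : A.e i (σ t) = z0 + t • v := (A.e i).right_inv (hρ (hmem t ht))
    have h3 : HasFDerivAt (fun z : Cn n => B.e j (f ((A.e i).symm z)))
        ((tm A B f i j (σ t)).restrictScalars ℝ) (z0 + t • v) := by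
      rw [← h2]
      exact h1.hasFDerivAt.restrictScalars ℝ
    have h4 : HasDerivAt (fun s : ℝ => z0 + s • v) v t := by
      have := (hasDerivAt_id t).smul_const v
      simpa using this.const_add z0
    have h43 : HasDerivAt (fun s : ℝ => B.e j (f ((A.e i).symm (z0 + s • v))))
        ((tm A B f i j (σ t)).restrictScalars ℝ v) t :=
      HasFDerivAt.comp_hasDerivAt_of_eq (f := fun s : ℝ => z0 + s • v) t h3 h4 rfl
    refine ⟨h43, ?_⟩
    have h5 := hf'.2 i j (σ t) (hσs t ht) hγt.1 v v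
    have h6 := hup _ (hmem t ht) v
    have h7 := hlo (B.e j (γ t)) (ball_subset_closedBall hγt.2) (tm A B f i j (σ t) v)
    rw [(B.e j).left_inv hγt.1] at h7
    have h8 : (c * ‖tm A B f i j (σ t) v‖) ^ 2 ≤ (C * ‖v‖) ^ 2 := by
      refine h7.trans ?_
      rw [show γ t = f (σ t) from rfl, h5]
      exact h6
    have h9 := abs_le_of_sq_le_sq h8 (by positivity)
    have h10 := (le_abs_self _).trans h9
    rw [div_mul_eq_mul_div, le_div_iff₀ hc, mul_comm]
    exact h10
  -- all the points are in `O`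
  have hall : ∀ t ∈ Icc (0 : ℝ) 1, γ t ∈ O := by
    by_contra hcon
    push Not at hcon
    obtain ⟨t1, ht1, hnt1⟩ := hcon
    set E : Set ℝ := Icc (0 : ℝ) 1 ∩ γ ⁻¹' Oᶜ with hE
    have hEc : IsClosed E := hγc.preimage_isClosed_of_isClosed isClosed_Icc hOo.isClosed_compl
    have hEne : E.Nonempty := ⟨t1, ht1, hnt1⟩
    have hEb : BddBelow E := ⟨0, fun t ht => ht.1.1⟩
    set T := sInf E with hT
    have hTE : T ∈ E := hEc.csInf_mem hEne hEb
    have hT0 : 0 < T := by
      rcases hTE.1.1.lt_or_eq with h | h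
      · exact h
      · exact absurd (h ▸ hO0) (fun h' => hTE.2 h')
    have hlt : ∀ t ∈ Ico (0 : ℝ) T, γ t ∈ O := by
      intro t ht
      by_contra h
      exact absurd (csInf_le hEb (show t ∈ E from ⟨⟨ht.1, ht.2.le.trans hTE.1.2⟩, h⟩))
        (not_le.2 ht.2)
    have hQt' : ∀ t ∈ Ico (0 : ℝ) T, γ t ∈ Q := by
      intro t ht
      have h1 : ∀ s ∈ Icc (0 : ℝ) t, γ s ∈ O := fun s hs => hlt s ⟨hs.1, lt_of_le_of_lt hs.2 ht.2⟩
      have h01 : ∀ s ∈ Icc (0 : ℝ) t, s ∈ Icc (0 : ℝ) 1 := fun s hs =>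
        ⟨hs.1, (hs.2.trans ht.2.le).trans hTE.1.2⟩
      have h2 := norm_image_sub_le_of_norm_deriv_le_segment' (a := 0) (b := t)
        (f := fun s => B.e j (f ((A.e i).symm (z0 + s • v))))
        (f' := fun s => tm A B f i j (σ s) v) (C := C / c * ‖v‖)
        (fun s hs => ((hspeed s (h01 s hs) (h1 s hs)).1).hasDerivWithinAt)
        (fun s hs => (hspeed s (h01 s ⟨hs.1, hs.2.le⟩) (h1 s ⟨hs.1, hs.2.le⟩)).2)
        t ⟨ht.1, le_rfl⟩
      have h3 : B.e j (f ((A.e i).symm (z0 + (0 : ℝ) • v))) = w0 := by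
        rw [zero_smul, add_zero, hz0, (A.e i).left_inv hi]
      rw [h3, sub_zero] at h2
      have ht1' : t ≤ 1 := (h01 t ⟨ht.1, le_rfl⟩).2
      refine ⟨B.e j (γ t), ?_, (B.e j).left_inv (hlt t ht).1⟩
      rw [mem_closedBall, dist_eq_norm]
      refine h2.trans ?_
      have : 0 ≤ C / c * ‖v‖ := by positivity
      nlinarith
    have hTcl : T ∈ closure (Ico (0 : ℝ) T) := by
      rw [closure_Ico hT0.ne]
      exact ⟨hT0.le, le_rfl⟩
    have hsub : Ico (0 : ℝ) T ⊆ Icc 0 1 := fun t ht => ⟨ht.1, ht.2.le.trans hTE.1.2⟩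
    have h5 : γ T ∈ closure (γ '' Ico (0 : ℝ) T) :=
      ((hγc T hTE.1).mono hsub).mem_closure_image hTcl
    have h6 : γ T ∈ Q := by
      refine closure_minimal ?_ hQc h5
      rintro _ ⟨t, ht, rfl⟩
      exact hQt' t ht
    exact hTE.2 (hQO h6)
  have h1 := hall 1 ⟨zero_le_one, le_rfl⟩
  have h2 : γ 1 = f ((A.e i).symm z) := by
    change f ((A.e i).symm (z0 + (1 : ℝ) • v)) = _
    rw [one_smul, hv, add_sub_cancel]
  rw [h2] at h1
  exact ⟨B.e j (f ((A.e i).symm z)), ball_subset_closedBall h1.2, (B.e j).left_inv h1.1⟩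

/-- **local equicontinuity of isometries** -/
theorem equi [T2Space M'] (K : Kah A) (K' : Kah B) (x : M) {K1 : Set M'} (hK1 : IsCompact K1) :
    ∃ U ∈ 𝓝 x, ∃ K2 : Set M', IsCompact K2 ∧ ∀ f : M → M', Isom K K' f → f x ∈ K1 →
      MapsTo f U K2 := by
  obtain ⟨i, hi⟩ := A.cover x
  obtain ⟨ρ, hρ0, hρ⟩ := Metric.nhds_basis_closedBall.mem_iff.1
    ((A.e i).open_target.mem_nhds ((A.e i).map_source hi))
  obtain ⟨C, hC, hup⟩ := hf_upper K i (isCompact_closedBall (A.e i x) ρ) hρ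
  refine hK1.induction_on (p := fun s => ∃ U ∈ 𝓝 x, ∃ K2 : Set M', IsCompact K2 ∧
    ∀ f : M → M', Isom K K' f → f x ∈ s → MapsTo f U K2) ?_ ?_ ?_ ?_
  · exact ⟨univ, univ_mem, ∅, isCompact_empty, fun f _ h => absurd h (notMem_empty _)⟩
  · rintro s t hst ⟨U, hU, K2, hK2, h⟩
    exact ⟨U, hU, K2, hK2, fun f hf' hx => h f hf' (hst hx)⟩
  · rintro s t ⟨U, hU, K2, hK2, h⟩ ⟨U', hU', K2', hK2', h'⟩
    refine ⟨U ∩ U', inter_mem hU hU', K2 ∪ K2', hK2.union hK2', ?_⟩
    rintro f hf' (hx | hx) y hy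
    · exact Or.inl (h f hf' hx hy.1)
    · exact Or.inr (h' f hf' hx hy.2)
  · intro y _
    obtain ⟨j, hj⟩ := B.cover y
    obtain ⟨R, hR0, hR⟩ := Metric.nhds_basis_closedBall.mem_iff.1
      ((B.e j).open_target.mem_nhds ((B.e j).map_source hj))
    obtain ⟨c, hc, hlo⟩ := hf_lower K' j (isCompact_closedBall (B.e j y) R) hR
    set r := R / 2 with hr
    have hr0 : 0 < r := by positivity
    set V : Set M' := (B.e j).source ∩ B.e j ⁻¹' ball (B.e j y) r with hV
    have hVn : V ∈ 𝓝 y := ((B.e j).isOpen_inter_preimage isOpen_ball).mem_nhds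
      ⟨hj, mem_ball_self hr0⟩
    set δ := min ρ (c / C * r / 2) with hδ
    have hδ0 : 0 < δ := lt_min hρ0 (by positivity)
    refine ⟨V, mem_nhdsWithin_of_mem_nhds hVn,
      (A.e i).source ∩ A.e i ⁻¹' ball (A.e i x) δ,
      ((A.e i).isOpen_inter_preimage isOpen_ball).mem_nhds ⟨hi, mem_ball_self hδ0⟩,
      (B.e j).symm '' closedBall (B.e j y) R,
      (isCompact_closedBall _ _).image_of_continuousOn ((B.e j).continuousOn_symm.mono hR), ?_⟩
    rintro f hf' ⟨hfx, hfx'⟩ y' ⟨hy', hy''⟩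
    have hsub : closedBall (B.e j (f x)) r ⊆ closedBall (B.e j y) R := by
      refine closedBall_subset_closedBall' ?_
      have : dist (B.e j (f x)) (B.e j y) < r := hfx'
      linarith
    have h1 := exit hf' hi hfx (ρ := ρ) (r := r) (C := C) (c := c) (δ := δ) hρ hup
      (hsub.trans hR) (fun w hw => hlo w (hsub hw)) hc hC (min_le_left _ _) (by
        have h2 : δ ≤ c / C * r / 2 := min_le_right _ _
        calc C / c * δ ≤ C / c * (c / C * r / 2) := mul_le_mul_of_nonneg_left h2 (by positivity)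
          _ = r / 2 := by field_simp
          _ < r := by linarith) (z := A.e i y') hy''
    rw [(A.e i).left_inv hy'] at h1
    exact image_mono hsub h1

end

end Crest.Agent.R273.Lip_106
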