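import Mathlib

/-!
# R273 (S0416), leaf LIP (helper106), file B: the abstract argument

`X` connected, `G` acting on `X`, `V` (additive group) acting by `Φ`, commuting with `G`; `H ≤ G` and `V`
act together cocompactly and properly; `τ` additive on `H`. If the maps `γ • Φ z ·` are locally
equicontinuous, `|τ h| ≤ ℓ h` for a length function `ℓ` on the whole group `G`.
-/

set_option autoImplicit false
set_option linter.unusedSectionVars false

open Set Filter Topology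

namespace Crest.Agent.R273.Lip_106

/-- the data of the abstract argument -/
structure LipD (X G V : Type*) [TopologicalSpace X] [Group G] [MulAction G X]
    [AddCommGroup V] where
  Φ : V → X → X
  add : ∀ c d x, Φ (c + d) x = Φ c (Φ d x)
  comm : ∀ (γ : G) c x, Φ c (γ • x) = γ • Φ c x
  H : Subgroup G
  τ : G → ℝ
  hτ : ∀ x ∈ H, ∀ y ∈ H, τ (x * y) = τ x + τ y
  K1 : Set X
  hK1 : IsCompact K1
  coc : ∀ x, ∃ h ∈ H, ∃ z, h • Φ z x ∈ K1
  fin : ∀ K L : Set X, IsCompact K → IsCompact L →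
    {h : G | h ∈ H ∧ ∃ z, ∃ x ∈ K, h • Φ z x ∈ L}.Finite
  eq : ∀ x, ∃ U ∈ 𝓝 x, ∃ K2, IsCompact K2 ∧ ∀ (γ : G) z, γ • Φ z x ∈ K1 →
    ∀ y ∈ U, γ • Φ z y ∈ K2

namespace LipD

variable {X G V : Type*} [TopologicalSpace X] [Group G] [MulAction G X] [AddCommGroup V]
  (D : LipD X G V)

theorem τ_inv {x : G} (hx : x ∈ D.H) : D.τ x⁻¹ = - D.τ x := by
  have h1 := D.hτ x hx x⁻¹ (D.H.inv_mem hx)
  have h2 := D.hτ 1 D.H.one_mem 1 D.H.one_mem
  rw [mul_inv_cancel] at h1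
  rw [mul_one] at h2
  linarith

theorem τ_one : D.τ 1 = 0 := by
  have h2 := D.hτ 1 D.H.one_mem 1 D.H.one_mem
  rw [mul_one] at h2
  linarith

theorem τ_pow {x : G} (hx : x ∈ D.H) (k : ℕ) : D.τ (x ^ k) = k * D.τ x := by
  induction k with
  | zero => simp [D.τ_one]
  | succ k ih =>
    rw [pow_succ, D.hτ _ (D.H.pow_mem hx k) _ hx, ih]
    push_cast
    ring

noncomputable def h (x : X) : G := (D.coc x).choose

theorem h_mem (x : X) : D.h x ∈ D.H := (D.coc x).choose_spec.1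

noncomputable def z (x : X) : V := (D.coc x).choose_spec.2.choose

theorem hz (x : X) : D.h x • D.Φ (D.z x) x ∈ D.K1 := (D.coc x).choose_spec.2.choose_spec

noncomputable def W (x : X) : ℝ := - D.τ (D.h x)

theorem cmp {K2 : Set X} (hK2 : IsCompact K2) : ∃ C : ℝ, ∀ x, ∀ h ∈ D.H, ∀ z,
    h • D.Φ z x ∈ K2 → |D.W x + D.τ h| ≤ C := by
  obtain ⟨C, hC⟩ := ((D.fin K2 D.K1 hK2 D.hK1).image fun h => |D.τ h|).bddAbove
  refine ⟨C, fun x h hh z hx => ?_⟩
  have h1 : D.h x * h⁻¹ ∈ D.H := D.H.mul_mem (D.h_mem x) (D.H.inv_mem hh)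
  have h2 : (D.h x * h⁻¹) • D.Φ (D.z x - z) (h • D.Φ z x) ∈ D.K1 := by
    rw [D.comm, ← D.add, sub_add_cancel, smul_smul, inv_mul_cancel_right]
    exact D.hz x
  have h3 := hC (mem_image_of_mem _ ⟨h1, D.z x - z, _, hx, h2⟩)
  have h4 : D.W x + D.τ h = - D.τ (D.h x * h⁻¹) := by
    rw [D.hτ _ (D.h_mem x) _ (D.H.inv_mem hh), D.τ_inv hh, W]
    ring
  rw [h4, abs_neg]
  exact h3

theorem loc (x : X) : ∃ U ∈ 𝓝 x, ∃ C : ℝ, ∀ γ : G, ∀ y ∈ U, |D.W (γ • y) - D.W (γ • x)| ≤ C := by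
  obtain ⟨U, hU, K2, hK2, h⟩ := D.eq x
  obtain ⟨C1, hC1⟩ := D.cmp D.hK1
  obtain ⟨C2, hC2⟩ := D.cmp hK2
  refine ⟨U, hU, C1 + C2, fun γ y hy => ?_⟩
  obtain ⟨a, ha, z, haz⟩ := D.coc (γ • x)
  have h1 := hC1 (γ • x) a ha z haz
  rw [D.comm, smul_smul] at haz
  have h2 := h (a * γ) z haz y hy
  rw [mul_smul, ← D.comm] at h2
  have h3 := hC2 (γ • y) a ha z h2
  have h4 : D.W (γ • y) - D.W (γ • x) =
    (D.W (γ • y) + D.τ a) - (D.W (γ • x) + D.τ a) := by ring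
  rw [h4]
  exact (abs_sub _ _).trans (by linarith)

theorem glob [PreconnectedSpace X] (x y : X) :
    ∃ C : ℝ, ∀ γ : G, |D.W (γ • y) - D.W (γ • x)| ≤ C := by
  set S : Set X := {y | ∃ C : ℝ, ∀ γ : G, |D.W (γ • y) - D.W (γ • x)| ≤ C} with hS
  have hcl : IsClopen S := by
    constructor
    · rw [← isOpen_compl_iff, isOpen_iff_mem_nhds]
      intro y hy
      obtain ⟨U, hU, C, hC⟩ := D.loc y
      filter_upwards [hU] with y' hy' hyS
      obtain ⟨C', hC'⟩ := hyS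
      refine hy ⟨C' + C, fun γ => ?_⟩
      have h1 := hC γ y' hy'
      have h2 := hC' γ
      have h4 : D.W (γ • y) - D.W (γ • x) = (D.W (γ • y') - D.W (γ • x)) -
        (D.W (γ • y') - D.W (γ • y)) := by ring
      rw [h4]
      exact (abs_sub _ _).trans (by linarith)
    · rw [isOpen_iff_mem_nhds]
      rintro y ⟨C', hC'⟩
      obtain ⟨U, hU, C, hC⟩ := D.loc y
      filter_upwards [hU] with y' hy'
      refine ⟨C' + C, fun γ => ?_⟩
      have h1 := hC γ y' hy'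
      have h2 := hC' γ
      have h4 : D.W (γ • y') - D.W (γ • x) = (D.W (γ • y) - D.W (γ • x)) +
        (D.W (γ • y') - D.W (γ • y)) := by ring
      rw [h4]
      exact (abs_add_le _ _).trans (by linarith)
  have h1 : S = univ := hcl.eq_univ ⟨x, 0, fun γ => by simp⟩
  have h2 : y ∈ S := h1 ▸ mem_univ y
  exact h2

theorem eqv : ∃ C : ℝ, ∀ h ∈ D.H, ∀ y, |D.W (h • y) - D.W y - D.τ h| ≤ C := by
  obtain ⟨C, hC⟩ := D.cmp D.hK1
  refine ⟨C, fun h hh y => ?_⟩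
  have h1 : (D.h y * h⁻¹) • D.Φ (D.z y) (h • y) ∈ D.K1 := by
    rw [D.comm, smul_smul, inv_mul_cancel_right]
    exact D.hz y
  have h2 := hC (h • y) _ (D.H.mul_mem (D.h_mem y) (D.H.inv_mem hh)) _ h1
  rw [D.hτ _ (D.h_mem y) _ (D.H.inv_mem hh), D.τ_inv hh] at h2
  have h3 : D.W (h • y) - D.W y - D.τ h = D.W (h • y) + (D.τ (D.h y) + -D.τ h) := by
    rw [W, W]
    ring
  rw [h3]
  exact h2

/-- **the length function** -/
theorem exists_len [PreconnectedSpace X] [Nonempty X] :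
    ∃ ℓ : G → ℝ, ℓ 1 = 0 ∧ (∀ x, 0 ≤ ℓ x) ∧ (∀ x, ℓ x⁻¹ = ℓ x) ∧
      (∀ x y, ℓ (x * y) ≤ ℓ x + ℓ y) ∧ ∀ h ∈ D.H, |D.τ h| ≤ ℓ h := by
  obtain ⟨x0⟩ := ‹Nonempty X›
  let T : G → G → ℝ := fun s γ => |D.W ((γ * s) • x0) - D.W (γ • x0)|
  have hb : ∀ s, BddAbove (range (T s)) := by
    intro s
    obtain ⟨C, hC⟩ := D.glob x0 (s • x0)
    refine ⟨C, ?_⟩
    rintro _ ⟨γ, rfl⟩
    have := hC γ
    rwa [smul_smul] at this
  let ℓ : G → ℝ := fun s => ⨆ γ, T s γ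
  have hle : ∀ s γ, T s γ ≤ ℓ s := fun s γ => le_ciSup (hb s) γ
  have hadd : ∀ x y, ℓ (x * y) ≤ ℓ x + ℓ y := by
    intro x y
    refine ciSup_le fun γ => ?_
    have h1 := hle x γ
    have h2 := hle y (γ * x)
    change |D.W ((γ * (x * y)) • x0) - D.W (γ • x0)| ≤ _
    have h3 : D.W ((γ * (x * y)) • x0) - D.W (γ • x0) =
        (D.W ((γ * x) • x0) - D.W (γ • x0)) +
        (D.W ((γ * x * y) • x0) - D.W ((γ * x) • x0)) := by
      rw [mul_assoc]; ring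
    rw [h3]
    exact (abs_add_le _ _).trans (add_le_add h1 h2)
  have hinv' : ∀ x, ℓ x⁻¹ ≤ ℓ x := by
    intro x
    refine ciSup_le fun γ => ?_
    have h1 := hle x (γ * x⁻¹)
    change |D.W ((γ * x⁻¹) • x0) - D.W (γ • x0)| ≤ _
    have h2 : T x (γ * x⁻¹) = |D.W ((γ * x⁻¹) • x0) - D.W (γ • x0)| := by
      change |D.W ((γ * x⁻¹ * x) • x0) - D.W ((γ * x⁻¹) • x0)| = _
      rw [inv_mul_cancel_right, abs_sub_comm]
    rw [← h2]
    exact h1
  have h0 : ∀ x, 0 ≤ ℓ x := fun x => Real.iSup_nonneg fun γ => abs_nonneg _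
  refine ⟨ℓ, ?_, h0, fun x => le_antisymm (hinv' x) ?_, hadd, ?_⟩
  · refine le_antisymm (ciSup_le fun γ => ?_) (h0 1)
    change |D.W ((γ * 1) • x0) - D.W (γ • x0)| ≤ 0
    rw [mul_one, sub_self, abs_zero]
  · have := hinv' x⁻¹
    rwa [inv_inv] at this
  · intro h hh
    obtain ⟨C, hC⟩ := D.eqv
    have hpow : ∀ k : ℕ, ℓ (h ^ k) ≤ k * ℓ h := by
      intro k
      induction k with
      | zero =>
        simp only [pow_zero, Nat.cast_zero, zero_mul]
        refine ciSup_le fun γ => ?_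
        change |D.W ((γ * 1) • x0) - D.W (γ • x0)| ≤ 0
        rw [mul_one, sub_self, abs_zero]
      | succ k ih =>
        rw [pow_succ]
        refine (hadd _ _).trans ?_
        push_cast
        linarith
    have key : ∀ k : ℕ, k * |D.τ h| ≤ C + k * ℓ h := by
      intro k
      have h1 := hC (h ^ k) (D.H.pow_mem hh k) x0
      have h2 := hle (h ^ k) 1
      have h2' : |D.W ((h ^ k) • x0) - D.W x0| ≤ ℓ (h ^ k) := by
        have h3 : T (h ^ k) 1 = |D.W ((h ^ k) • x0) - D.W x0| := by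
          change |D.W ((1 * h ^ k) • x0) - D.W ((1 : G) • x0)| = _
          rw [one_mul, one_smul]
        rw [← h3]
        exact h2
      rw [D.τ_pow hh] at h1
      have h4 : (k : ℝ) * |D.τ h| = |(k : ℝ) * D.τ h| := by
        rw [abs_mul, Nat.abs_cast]
      rw [h4]
      have h5 : (k : ℝ) * D.τ h = (D.W ((h ^ k) • x0) - D.W x0) -
        (D.W ((h ^ k) • x0) - D.W x0 - k * D.τ h) := by ring
      have h6 := hpow k
      calc |(k : ℝ) * D.τ h| = |(D.W ((h ^ k) • x0) - D.W x0) -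
            (D.W ((h ^ k) • x0) - D.W x0 - k * D.τ h)| := by rw [← h5]
        _ ≤ |D.W ((h ^ k) • x0) - D.W x0| +
            |D.W ((h ^ k) • x0) - D.W x0 - k * D.τ h| := abs_sub _ _
        _ ≤ ℓ (h ^ k) + C := add_le_add h2' h1
        _ ≤ C + k * ℓ h := by linarith
    by_contra hcon
    push Not at hcon
    obtain ⟨k, hk⟩ := exists_nat_gt (C / (|D.τ h| - ℓ h))
    have h1 : 0 < |D.τ h| - ℓ h := sub_pos.2 hcon
    have h2 := key k
    rw [div_lt_iff₀ h1] at hk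
    nlinarith

end LipD

end Crest.Agent.R273.Lip_106
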