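import Crest.Agent.R273.LipA_106
import Crest.Agent.R273.LipB_106
import Crest.Agent.R273.HFlowC_376
import Crest.Agent.R273.AlbD_645

/-!
# R273 (S0416), leaf LIP (helper106), file C: homomorphisms of finite index subgroups of the kernel of
the period map are bounded by a length function on the whole group (Part B, MAXQ, post 909.B)

* `exists_len` : with the discreteness of the period group as a hypothesis
* `exists_len_univ` : with `Lat.Univ` and `Group.FG G`
-/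

set_option autoImplicit false
set_option linter.unusedSectionVars false

open Set Metric Filter Topology Complex Function
open scoped NNReal ContDiff Matrix ComplexConjugate ComplexOrder

namespace Crest.Agent.R273.Lip_106

open Crest.Agent.R275.Geo Crest.Agent.R275.Core144 Crest.Agent.R275.GC293
open Crest.Agent.R275.ZC352 Crest.Agent.R273.UCov_914 Crest.Agent.R273.PiEnd_836
open Crest.Agent.R273.HFlow3_376 Crest.Agent.R273.HFlow4_376 Crest.Agent.R273.HFlow5_376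
open Crest.Agent.R273.HFlow6_376 Crest.Agent.R273.HFlow7_376 Crest.Agent.R273.HFlow8_376
open Crest.Agent.R273.Kah_333 Crest.Agent.R273.Alb645

noncomputable section

variable {n : ℕ} {M : Type} [TopologicalSpace M] {A : Atl n M}
variable {G : Type} [Group G] (D : MonD A G)
variable {g : ℕ} (S : DualD A g) [CompactSpace M] [T2Space M] [Finite A.ι]
variable [SimplyConnectedSpace (D.cov G)] (hA : GoodA A) (e0 : D.cov G)

/-- the maps `γ • Φ_z` are isometries -/
theorem isom_γΦ (K : Kah A) (hV : ∀ k, Par K (S.V k)) (γ : G) (z : Fin g → ℂ) :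
    Isom (HFlowC_376.pullK D K : Kah (D.atl G)) (HFlowC_376.pullK D K)
      (fun e => γ • (mflowN D S).Φ z e) := by
  have h1 : ∀ k, Par (HFlowC_376.pullK D K : Kah (D.atl G)) (Alb645.pullV D G (S.V k)) :=
    fun k => HFlowC_376.pullK_par D (hV k)
  have h2 := (mflowN D S).isom h1 z
  exact (HFlowC_376.isom_deck D γ K).comp h2

/-- the finite set of periods meeting a compact set, with representatives -/
theorem coc_aux (hd : ∀ C : Set (Fin g → ℂ), IsCompact C →
      {v | v ∈ C ∧ ∃ γ, Multiplicative.toAdd (lamB D hA e0 S.b γ) = v}.Finite)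
    (H : Subgroup G) (hfi : H.relIndex (lamB D hA e0 S.b).ker ≠ 0) :
    ∃ K1 : Set (D.cov G), IsCompact K1 ∧ ∀ x, ∃ h ∈ H, ∃ z,
      h • (mflowN D S).Φ z x ∈ K1 := by
  classical
  set lam := lamB D hA e0 S.b with hlam
  set P := lam.ker with hP
  obtain ⟨K, hK, hKc⟩ := D.exists_fund (A := A)
  set T : Set (Fin g → ℂ) := {v | v ∈ avec D S hA e0 '' K ∧ ∃ γ, Multiplicative.toAdd (lam γ) = v}
    with hT
  have hTf : T.Finite := hd _ (hK.image (continuous_avec D S hA e0))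
  have : Finite T := hTf
  have hrep : ∀ v : T, ∃ γ, Multiplicative.toAdd (lam γ) = (v : Fin g → ℂ) := fun v => v.2.2
  choose rep hr using hrep
  have hfi' : (H.subgroupOf P).FiniteIndex := ⟨hfi⟩
  have : Finite (P ⧸ H.subgroupOf P) := inferInstance
  let q : P ⧸ H.subgroupOf P → G := fun c => ((Quotient.out c : P) : G)
  refine ⟨⋃ v : T, ⋃ c : P ⧸ H.subgroupOf P, (fun e => ((q c)⁻¹ * (rep v)⁻¹) • e) '' K,
    isCompact_iUnion fun v => isCompact_iUnion fun c => hK.image (continuous_const_smul _),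
    fun x => ?_⟩
  set y := (mflowN D S).Φ (-avec D S hA e0 x) x with hy
  have hay : avec D S hA e0 y = 0 := by rw [hy, avec_flow, add_neg_cancel]
  obtain ⟨γ, hγ⟩ := hKc y
  have h1 : avec D S hA e0 (γ • y) = Multiplicative.toAdd (lam γ) := by
    rw [avec_deck, hay, zero_add]
  have hv : Multiplicative.toAdd (lam γ) ∈ T := ⟨⟨γ • y, hγ, h1⟩, γ, rfl⟩
  set v : T := ⟨_, hv⟩ with hvd
  have hrv : lam (rep v) = lam γ := Multiplicative.toAdd.injective (hr v)
  have hp : (rep v)⁻¹ * γ ∈ P := by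
    rw [hP, MonoidHom.mem_ker, map_mul, map_inv, hrv, inv_mul_cancel]
  set p : P := ⟨_, hp⟩ with hpd
  set c : P ⧸ H.subgroupOf P := (p : P ⧸ H.subgroupOf P) with hc
  have h2 : (Quotient.out c : P)⁻¹ * p ∈ H.subgroupOf P :=
    QuotientGroup.leftRel_apply.1 (Quotient.mk_out (s := QuotientGroup.leftRel _) p)
  have h3 : (q c)⁻¹ * ((rep v)⁻¹ * γ) ∈ H := h2
  refine ⟨_, h3, -avec D S hA e0 x, ?_⟩
  refine mem_iUnion.2 ⟨v, mem_iUnion.2 ⟨c, γ • y, hγ, ?_⟩⟩
  change ((q c)⁻¹ * (rep v)⁻¹) • γ • y = ((q c)⁻¹ * ((rep v)⁻¹ * γ)) • y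
  rw [smul_smul, mul_assoc]

theorem fin_aux (H : Subgroup G) (hH : H ≤ (lamB D hA e0 S.b).ker) {K L : Set (D.cov G)}
    (hK : IsCompact K) (hL : IsCompact L) :
    {h : G | h ∈ H ∧ ∃ z, ∃ x ∈ K, h • (mflowN D S).Φ z x ∈ L}.Finite := by
  set a := avec D S hA e0 with ha
  have hac : Continuous a := continuous_avec D S hA e0
  set Z : Set (Fin g → ℂ) := (fun p : (Fin g → ℂ) × (Fin g → ℂ) => p.1 - p.2) '' ((a '' L) ×ˢ (a '' K))
    with hZ
  have hZc : IsCompact Z := ((hL.image hac).prod (hK.image hac)).image (by fun_prop)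
  have hK' : IsCompact (uncurry (mflowN D S).Φ '' (Z ×ˢ K)) :=
    (hZc.prod hK).image (mflowN D S).continuous_uncurry
  refine (D.finite_deck hK' hL).subset ?_
  rintro h ⟨hh, z, x, hx, hL'⟩
  refine ⟨(mflowN D S).Φ z x, ⟨(z, x), ⟨?_, hx⟩, rfl⟩, hL'⟩
  refine ⟨(a (h • (mflowN D S).Φ z x), a x), ⟨⟨_, hL', rfl⟩, ⟨_, hx, rfl⟩⟩, ?_⟩
  have h1 : lamB D hA e0 S.b h = 1 := hH hh
  change a (h • (mflowN D S).Φ z x) - a x = z
  rw [ha, avec_deck, h1, avec_flow]
  simp

/-- **LIP** -/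
theorem exists_len (K : Kah A) (hV : ∀ k, Par K (S.V k))
    (hd : ∀ C : Set (Fin g → ℂ), IsCompact C →
      {v | v ∈ C ∧ ∃ γ, Multiplicative.toAdd (lamB D hA e0 S.b γ) = v}.Finite)
    (H : Subgroup G) (hH : H ≤ (lamB D hA e0 S.b).ker)
    (hfi : H.relIndex (lamB D hA e0 S.b).ker ≠ 0) (τ : G → ℝ)
    (hτ : ∀ x ∈ H, ∀ y ∈ H, τ (x * y) = τ x + τ y) :
    ∃ ℓ : G → ℝ, ℓ 1 = 0 ∧ (∀ x, 0 ≤ ℓ x) ∧ (∀ x, ℓ x⁻¹ = ℓ x) ∧
      (∀ x y, ℓ (x * y) ≤ ℓ x + ℓ y) ∧ ∀ h ∈ H, |τ h| ≤ ℓ h := by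
  obtain ⟨K1, hK1, hcoc⟩ := coc_aux D S hA e0 hd H hfi
  let E : LipD (D.cov G) G (Fin g → ℂ) :=
    { Φ := (mflowN D S).Φ
      add := (mflowN D S).add
      comm := fun γ c x => flow_deck D S c γ x
      H := H
      τ := τ
      hτ := hτ
      K1 := K1
      hK1 := hK1
      coc := hcoc
      fin := fun K L hK hL => fin_aux D S hA e0 H hH hK hL
      eq := fun x => by
        obtain ⟨U, hU, K2, hK2, h⟩ := equi (HFlowC_376.pullK D K : Kah (D.atl G))
          (HFlowC_376.pullK D K) x hK1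
        exact ⟨U, hU, K2, hK2, fun γ z hx y hy =>
          h (fun e => γ • (mflowN D S).Φ z e) (isom_γΦ D S K hV γ z) hx hy⟩ }
  have : Nonempty (D.cov G) := ⟨e0⟩
  exact E.exists_len

/-- discreteness of the period group from its universality -/
theorem finite_of_univ [Group.FG G] {V : Type*} [NormedAddCommGroup V] [NormedSpace ℝ V]
    [FiniteDimensional ℝ V] {lam : G →* Multiplicative V} (hU : Lat.Univ lam) {C : Set V}
    (hC : IsCompact C) : {v | v ∈ C ∧ ∃ γ, Multiplicative.toAdd (lam γ) = v}.Finite := by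
  have h1 : DiscreteTopology (Lat.L lam) := Lat.discrete_L hU
  have h2 : DiscreteTopology (Lat.L lam).toAddSubgroup := h1
  have h3 : IsClosed ((Lat.L lam).toAddSubgroup : Set V) := AddSubgroup.isClosed_of_discrete
  have h4 : (C ∩ ((Lat.L lam).toAddSubgroup : Set V)).Finite := by
    have h5 : IsCompact (C ∩ ((Lat.L lam).toAddSubgroup : Set V)) := hC.inter_right h3
    refine h5.finite ?_
    exact IsDiscrete.mono ⟨h2⟩ inter_subset_right
  exact h4

/-- **LIP**, with the universality of the period map -/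
theorem exists_len_univ [Group.FG G] (K : Kah A) (hV : ∀ k, Par K (S.V k))
    (hU : Lat.Univ (lamB D hA e0 S.b))
    (H : Subgroup G) (hH : H ≤ (lamB D hA e0 S.b).ker)
    (hfi : H.relIndex (lamB D hA e0 S.b).ker ≠ 0) (τ : G → ℝ)
    (hτ : ∀ x ∈ H, ∀ y ∈ H, τ (x * y) = τ x + τ y) :
    ∃ ℓ : G → ℝ, ℓ 1 = 0 ∧ (∀ x, 0 ≤ ℓ x) ∧ (∀ x, ℓ x⁻¹ = ℓ x) ∧
      (∀ x y, ℓ (x * y) ≤ ℓ x + ℓ y) ∧ ∀ h ∈ H, |τ h| ≤ ℓ h :=
  exists_len D S hA e0 K hV (fun _ hC => finite_of_univ hU hC) H hH hfi τ hτ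

end

end Crest.Agent.R273.Lip_106
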