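import Crest.Agent.R273.Mer_769

/-!
# R273, leaf A-MER (helper769): regular points and values of meromorphic functions

* `RegAt f x F`   : `F` is holomorphic near `x` and `f = F` densely near `x`
* `reg g`, `ev g` : regular points and values of `g : Mer A`
-/

set_option autoImplicit false
set_option linter.unusedSectionVars false

open Set Filter Topology Complex
open scoped ContDiff Matrix ComplexConjugate

namespace Crest.Agent.R273.Mer769

open Crest.Agent.R275.Geo Crest.Agent.R275.Core144 Crest.Agent.R275.GC293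
open Crest.Agent.R273.Cic769 Crest.Agent.R273.Rigid769

noncomputable section

variable {n : ℕ} {M : Type} [TopologicalSpace M] {A : Atl n M}

/-- `F` is holomorphic near `x` and `f = F` on a dense open subset of a neighbourhood of `x` -/
def RegAt (A : Atl n M) (f : M → ℂ) (x : M) (F : M → ℂ) : Prop :=
  ∃ V, IsOpen V ∧ x ∈ V ∧ HolU A V F ∧ {y | y ∈ V → f y = F y} ∈ dn M

namespace RegAt

variable {f g F G : M → ℂ} {x : M}

theorem congr_left (h : RegAt A f x F) (hfg : {y | f y = g y} ∈ dn M) : RegAt A g x F := by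
  obtain ⟨V, hV, hx, hF, he⟩ := h
  refine ⟨V, hV, hx, hF, ?_⟩
  filter_upwards [he, hfg] with y hy hy' hyV
  rw [← hy', hy hyV]

theorem add (h : RegAt A f x F) (h' : RegAt A g x G) :
    RegAt A (fun y => f y + g y) x fun y => F y + G y := by
  obtain ⟨V, hV, hx, hF, he⟩ := h
  obtain ⟨W, hW, hxW, hG, he'⟩ := h'
  refine ⟨V ∩ W, hV.inter hW, ⟨hx, hxW⟩, (hF.mono inter_subset_left).add
    (hG.mono inter_subset_right), ?_⟩
  filter_upwards [he, he'] with y hy hy' hyV
  rw [hy hyV.1, hy' hyV.2]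

theorem mul (h : RegAt A f x F) (h' : RegAt A g x G) :
    RegAt A (fun y => f y * g y) x fun y => F y * G y := by
  obtain ⟨V, hV, hx, hF, he⟩ := h
  obtain ⟨W, hW, hxW, hG, he'⟩ := h'
  refine ⟨V ∩ W, hV.inter hW, ⟨hx, hxW⟩, (hF.mono inter_subset_left).mul
    (hG.mono inter_subset_right), ?_⟩
  filter_upwards [he, he'] with y hy hy' hyV
  rw [hy hyV.1, hy' hyV.2]

theorem inv (h : RegAt A f x F) (h0 : F x ≠ 0) : RegAt A (fun y => (f y)⁻¹) x fun y => (F y)⁻¹ := by
  obtain ⟨V, hV, hx, hF, he⟩ := h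
  refine ⟨V ∩ {y | F y ≠ 0}, hF.isOpen_ne hV, ⟨hx, h0⟩, (hF.mono inter_subset_left).inv
    fun y hy => hy.2, ?_⟩
  filter_upwards [he] with y hy hyV
  rw [hy hyV.1]

theorem const (c : ℂ) : RegAt A (fun _ => c) x fun _ => c :=
  ⟨univ, isOpen_univ, trivial, HolU.const c, by simp⟩

/-- uniqueness of the value -/
theorem unique (h : RegAt A f x F) (h' : RegAt A f x G) : F x = G x := by
  obtain ⟨V, hV, hx, hF, he⟩ := h
  obtain ⟨W, hW, hxW, hG, he'⟩ := h'
  have hc : ContinuousAt (fun y => F y - G y) x :=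
    (hF.continuousAt hV hx).sub (hG.continuousAt hW hxW)
  by_contra hne
  have h1 : ∀ᶠ y in 𝓝 x, F y - G y ≠ 0 := hc.eventually_ne (sub_ne_zero.2 hne)
  have h2 := mem_dn.1 (inter_mem he he') x
  have hVx : ∀ᶠ y in 𝓝 x, y ∈ V := hV.mem_nhds hx
  have hWx : ∀ᶠ y in 𝓝 x, y ∈ W := hW.mem_nhds hxW
  obtain ⟨y, hy1, hy2, hy3, hy4⟩ := (h2.and_eventually (h1.and (hVx.and hWx))).exists
  have hy5 := mem_of_mem_nhds hy1
  refine hy2 ?_
  rw [← hy5.1 hy3, hy5.2 hy4, sub_self]

end RegAt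

open Classical in
/-- the value of `f` at `x` (zero if `f` is not regular at `x`) -/
def evF (A : Atl n M) (f : M → ℂ) (x : M) : ℂ :=
  if h : ∃ F, RegAt A f x F then Classical.choose h x else 0

theorem RegAt.evF_eq {f F : M → ℂ} {x : M} (h : RegAt A f x F) : evF A f x = F x := by
  have hex : ∃ F, RegAt A f x F := ⟨F, h⟩
  unfold evF
  rw [dif_pos hex]
  exact (Classical.choose_spec hex).unique h

theorem RegAt.self {f F : M → ℂ} {x : M} (h : RegAt A f x F) : RegAt A f x (evF A f) := by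
  obtain ⟨V, hV, hx, hF, he⟩ := h
  have h1 : ∀ y ∈ V, evF A f y = F y := fun y hy => RegAt.evF_eq ⟨V, hV, hy, hF, he⟩
  refine ⟨V, hV, hx, hF.congr fun y hy => (h1 y hy).symm, ?_⟩
  filter_upwards [he] with y hy hyV
  rw [hy hyV, h1 y hyV]

theorem evF_congr {f g : M → ℂ} (h : {y | f y = g y} ∈ dn M) : evF A f = evF A g := by
  funext x
  by_cases hex : ∃ F, RegAt A f x F
  · obtain ⟨F, hF⟩ := hex
    rw [hF.evF_eq, (hF.congr_left h).evF_eq]
  · have hex' : ¬ ∃ F, RegAt A g x F := by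
      rintro ⟨F, hF⟩
      exact hex ⟨F, hF.congr_left (by filter_upwards [h] with y hy using hy.symm)⟩
    unfold evF
    rw [dif_neg hex, dif_neg hex']

/-- regular points of `f` -/
def regF (A : Atl n M) (f : M → ℂ) : Set M := {x | ∃ F, RegAt A f x F}

theorem regF_congr {f g : M → ℂ} (h : {y | f y = g y} ∈ dn M) : regF A f = regF A g := by
  have h' : {y | g y = f y} ∈ dn M := by filter_upwards [h] with y hy using hy.symm
  ext x
  exact ⟨fun ⟨F, hF⟩ => ⟨F, hF.congr_left h⟩, fun ⟨F, hF⟩ => ⟨F, hF.congr_left h'⟩⟩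

theorem isOpen_regF (f : M → ℂ) : IsOpen (regF A f) := by
  rw [isOpen_iff_mem_nhds]
  rintro x ⟨F, V, hV, hx, hF, he⟩
  exact Filter.mem_of_superset (hV.mem_nhds hx) fun y hy => ⟨F, V, hV, hy, hF, he⟩

theorem IsMer.dn_regF {f : M → ℂ} (hf : IsMer A f) : regF A f ∈ dn M := by
  rw [mem_dn]
  intro x
  obtain ⟨U, hU, hxU, p, q, hp, hq, hq0, he⟩ := hf x
  refine (hq0.freq_nhds hU hq hxU).mono ?_
  rintro y ⟨hyU, hy⟩
  refine (isOpen_regF f).mem_nhds ⟨fun z => p z / q z, U ∩ {z | q z ≠ 0}, hq.isOpen_ne hU,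
    ⟨hyU, hy.self_of_nhds⟩, (hp.mono inter_subset_left).div (hq.mono inter_subset_left)
      fun z hz => hz.2, ?_⟩
  refine Filter.univ_mem' fun z => ?_
  rintro ⟨hzU, hz⟩
  rw [eq_div_iff hz]
  exact he z hzU hz

theorem IsMer.evF_eq {f : M → ℂ} (hf : IsMer A f) : {x | evF A f x = f x} ∈ dn M := by
  rw [mem_dn]
  intro x
  obtain ⟨U, hU, hxU, p, q, hp, hq, hq0, he⟩ := hf x
  refine (hq0.freq_nhds hU hq hxU).mono ?_
  rintro y ⟨hyU, hy⟩
  filter_upwards [hy, hU.mem_nhds hyU] with z hz hzU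
  have h1 : RegAt A f z fun z => p z / q z := ⟨U ∩ {z | q z ≠ 0}, hq.isOpen_ne hU,
    ⟨hzU, hz⟩, (hp.mono inter_subset_left).div (hq.mono inter_subset_left)
      fun z hz => hz.2, Filter.univ_mem' fun w => by
        rintro ⟨hwU, hw⟩
        rw [eq_div_iff hw]
        exact he w hwU hw⟩
  rw [h1.evF_eq, div_eq_iff hz]
  exact (he z hzU hz).symm

/-! ### values of elements of `Mer A` -/

/-- the value of `g` at `x` -/
def ev (g : Mer A) (x : M) : ℂ := evF A (rep g) x

/-- regular points -/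
def reg (g : Mer A) : Set M := regF A (rep g)

theorem rep_mk {f : M → ℂ} (hf : IsMer A f) : {x | rep (mk f hf) x = f x} ∈ dn M :=
  Germ.coe_eq.1 (rep_coe (mk f hf))

theorem ev_mk {f : M → ℂ} (hf : IsMer A f) : ev (mk f hf) = evF A f := evF_congr (rep_mk hf)

theorem reg_mk {f : M → ℂ} (hf : IsMer A f) : reg (mk f hf) = regF A f := regF_congr (rep_mk hf)

/-- on an open set where `f` is holomorphic all points are regular and the value is `f x` -/
theorem RegAt.of_hol {f : M → ℂ} {V : Set M} (hV : IsOpen V) (hf : HolU A V f) {x : M}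
    (hx : x ∈ V) : RegAt A f x f := ⟨V, hV, hx, hf, Filter.univ_mem' fun _ _ => rfl⟩

theorem ev_mk_of_hol {f : M → ℂ} (hf : IsMer A f) {V : Set M} (hV : IsOpen V) (h : HolU A V f)
    {x : M} (hx : x ∈ V) : x ∈ reg (mk f hf) ∧ ev (mk f hf) x = f x := by
  rw [reg_mk, ev_mk]
  exact ⟨⟨f, RegAt.of_hol hV h hx⟩, (RegAt.of_hol hV h hx).evF_eq⟩

theorem isOpen_reg (g : Mer A) : IsOpen (reg g) := isOpen_regF _

theorem dn_reg (g : Mer A) : reg g ∈ dn M := (rep_mer g).dn_regF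

theorem dense_reg (g : Mer A) : Dense (reg g) := by
  have := dn_reg g
  have h : Dense (interior (reg g)) := this
  exact h.mono interior_subset

theorem regAt_ev {g : Mer A} {x : M} (hx : x ∈ reg g) : RegAt A (rep g) x (ev g) := by
  obtain ⟨F, hF⟩ := hx
  exact hF.self

theorem regAt_ev' {f : M → ℂ} (hf : IsMer A f) {x : M} (hx : x ∈ reg (mk f hf)) :
    RegAt A f x (ev (mk f hf)) := (regAt_ev hx).congr_left (rep_mk hf)

/-- the value is a holomorphic function on the regular set -/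
theorem holU_ev (g : Mer A) : HolU A (reg g) (ev g) := by
  refine HolU.of_local fun x hx => ?_
  obtain ⟨V, hV, hxV, hF, -⟩ := regAt_ev hx
  exact ⟨V, hV, hxV, hF⟩

theorem ev_rep (g : Mer A) : {x | ev g x = rep g x} ∈ dn M := (rep_mer g).evF_eq

theorem ev_eq_dn {f : M → ℂ} (hf : IsMer A f) : {x | ev (mk f hf) x = f x} ∈ dn M := by
  rw [ev_mk]; exact hf.evF_eq

theorem isMer_ev (g : Mer A) : IsMer A (ev g) := by
  intro x
  obtain ⟨U, hU, hxU, p, q, hp, hq, hq0, he⟩ := rep_mer g x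
  refine ⟨U, hU, hxU, p, q, hp, hq, hq0, fun y hy h0 => ?_⟩
  have h1 : RegAt A (rep g) y fun z => p z / q z := ⟨U ∩ {z | q z ≠ 0}, hq.isOpen_ne hU,
    ⟨hy, h0⟩, (hp.mono inter_subset_left).div (hq.mono inter_subset_left)
      fun z hz => hz.2, Filter.univ_mem' fun w => by
        rintro ⟨hwU, hw⟩
        rw [eq_div_iff hw]
        exact he w hwU hw⟩
  show evF A (rep g) y * q y = p y
  rw [h1.evF_eq, div_mul_cancel₀ _ h0]

theorem mk_ev (g : Mer A) : mk (ev g) (isMer_ev g) = g := by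
  conv_rhs => rw [← mk_rep g]
  rw [mk_eq]
  exact ev_rep g

/-- a meromorphic function is regular where a local presentation has a nonzero denominator -/
theorem reg_of_quot {f : M → ℂ} (hf : IsMer A f) {V : Set M} (hV : IsOpen V) {p q : M → ℂ}
    (hp : HolU A V p) (hq : HolU A V q) (he : ∀ y ∈ V, q y ≠ 0 → f y * q y = p y) {x : M}
    (hx : x ∈ V) (h0 : q x ≠ 0) : x ∈ reg (mk f hf) ∧ ev (mk f hf) x = p x / q x := by
  have h1 : RegAt A f x fun z => p z / q z := ⟨V ∩ {z | q z ≠ 0}, hq.isOpen_ne hV,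
    ⟨hx, h0⟩, (hp.mono inter_subset_left).div (hq.mono inter_subset_left)
      fun z hz => hz.2, Filter.univ_mem' fun w => by
        rintro ⟨hwU, hw⟩
        rw [eq_div_iff hw]
        exact he w hwU hw⟩
  rw [reg_mk, ev_mk]
  exact ⟨⟨_, h1⟩, h1.evF_eq⟩

theorem reg_add {g h : Mer A} {x : M} (hg : x ∈ reg g) (hh : x ∈ reg h) :
    x ∈ reg (g + h) ∧ ev (g + h) x = ev g x + ev h x := by
  have h1 := (regAt_ev hg).add (regAt_ev hh)
  have h2 : g + h = mk _ ((rep_mer g).add (rep_mer h)) := by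
    rw [← mk_add (rep_mer g) (rep_mer h), mk_rep, mk_rep]
  rw [h2, reg_mk, ev_mk]
  exact ⟨⟨_, h1⟩, h1.evF_eq⟩

theorem reg_mul {g h : Mer A} {x : M} (hg : x ∈ reg g) (hh : x ∈ reg h) :
    x ∈ reg (g * h) ∧ ev (g * h) x = ev g x * ev h x := by
  have h1 := (regAt_ev hg).mul (regAt_ev hh)
  have h2 : g * h = mk _ ((rep_mer g).mul (rep_mer h)) := by
    rw [← mk_mul (rep_mer g) (rep_mer h), mk_rep, mk_rep]
  rw [h2, reg_mk, ev_mk]
  exact ⟨⟨_, h1⟩, h1.evF_eq⟩

theorem reg_algebraMap (c : ℂ) (x : M) :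
    x ∈ reg (algebraMap ℂ (Mer A) c) ∧ ev (algebraMap ℂ (Mer A) c) x = c := by
  rw [algebraMap_eq]
  exact ev_mk_of_hol _ isOpen_univ (HolU.const c) (mem_univ x)

theorem reg_inv [ConnectedSpace M] {g : Mer A} {x : M} (hg : x ∈ reg g) (h0 : ev g x ≠ 0) :
    x ∈ reg g⁻¹ ∧ ev g⁻¹ x = (ev g x)⁻¹ := by
  have h1 := (regAt_ev hg).inv h0
  have h2 : g⁻¹ = mk _ (rep_mer g).inv := by
    rw [← mk_inv (rep_mer g), mk_rep]
  rw [h2, reg_mk, ev_mk]
  exact ⟨⟨_, h1⟩, h1.evF_eq⟩

/-- the local ring of `x` -/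
def loc (A : Atl n M) (x : M) : Subalgebra ℂ (Mer A) where
  carrier := {g | x ∈ reg g}
  mul_mem' := fun hg hh => (reg_mul hg hh).1
  add_mem' := fun hg hh => (reg_add hg hh).1
  algebraMap_mem' := fun c => (reg_algebraMap c x).1

@[simp] theorem mem_loc {g : Mer A} {x : M} : g ∈ loc A x ↔ x ∈ reg g := Iff.rfl

/-- evaluation at `x`, an algebra homomorphism on the local ring -/
def evH (A : Atl n M) (x : M) : loc A x →ₐ[ℂ] ℂ where
  toFun g := ev g.1 x
  map_one' := by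
    have := (reg_algebraMap (A := A) 1 x).2
    rwa [map_one] at this
  map_mul' g h := (reg_mul g.2 h.2).2
  map_zero' := by
    have := (reg_algebraMap (A := A) 0 x).2
    rwa [map_zero] at this
  map_add' g h := (reg_add g.2 h.2).2
  commutes' c := (reg_algebraMap c x).2

@[simp] theorem evH_apply {x : M} (g : loc A x) : evH A x g = ev g.1 x := rfl

/-! ### zero test -/

theorem dn_ne [ConnectedSpace M] {g : Mer A} (h : g ≠ 0) : {x | x ∈ reg g ∧ ev g x ≠ 0} ∈ dn M := by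
  rw [← mk_rep g] at h
  have h1 := (mk_ne_zero (rep_mer g)).1 h
  filter_upwards [h1, ev_rep g, dn_reg g] with x hx hx' hx''
  exact ⟨hx'', by rw [hx']; exact hx⟩

/-- identity theorem -/
theorem eq_zero_of_freq [ConnectedSpace M] {g : Mer A} {x : M}
    (h : ∃ᶠ y in 𝓝 x, ∀ᶠ z in 𝓝 y, z ∈ reg g → ev g z = 0) : g = 0 := by
  by_contra hne
  obtain ⟨y, hy⟩ := h.exists
  obtain ⟨z, hz, hz'⟩ := (mem_dn.1 (dn_ne hne) y |>.and_eventually
    (eventually_eventually_nhds.2 hy)).exists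
  have h1 := mem_of_mem_nhds hz
  exact h1.2 (hz'.self_of_nhds h1.1)

theorem eq_zero_of_open [ConnectedSpace M] {g : Mer A} {U : Set M} (hU : IsOpen U)
    (hne : U.Nonempty) (h : ∀ x ∈ U, x ∈ reg g → ev g x = 0) : g = 0 := by
  obtain ⟨x, hx⟩ := hne
  refine eq_zero_of_freq (x := x) (Eventually.frequently ?_)
  have := hU.mem_nhds hx
  filter_upwards [eventually_eventually_nhds.2 this] with y hy
  filter_upwards [hy] with z hz
  exact h z hz

theorem eq_of_open [ConnectedSpace M] {g h : Mer A} {U : Set M} (hU : IsOpen U)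
    (hne : U.Nonempty) (he : ∀ x ∈ U, x ∈ reg g → x ∈ reg h → ev g x = ev h x) : g = h := by
  rw [← sub_eq_zero]
  have hrg : {x | x ∈ U ∧ x ∈ reg g ∧ x ∈ reg h} = U ∩ (reg g ∩ reg h) := rfl
  have ho : IsOpen (U ∩ (reg g ∩ reg h)) := hU.inter ((isOpen_reg g).inter (isOpen_reg h))
  have hn : (U ∩ (reg g ∩ reg h)).Nonempty := by
    obtain ⟨x, hxU, hx⟩ := exists_mem_of_dn (inter_mem (dn_reg g) (dn_reg h)) hU hne
    exact ⟨x, hxU, mem_of_mem_nhds hx⟩
  refine eq_zero_of_open ho hn ?_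
  rintro x ⟨hxU, hxg, hxh⟩ hx
  have h2 : g = (g - h) + h := by ring
  have h3 := (reg_add hx hxh).2
  rw [sub_add_cancel, he x hxU hxg hxh] at h3
  linear_combination -h3

/-- two elements with the same values on an open set where both are regular -/
theorem eq_iff_dn [ConnectedSpace M] {g h : Mer A} : g = h ↔ {x | ev g x = ev h x} ∈ dn M := by
  constructor
  · rintro rfl
    simp
  · intro h'
    rw [← mk_ev g, ← mk_ev h, mk_eq]
    exact h'

end

end Crest.Agent.R273.Mer769
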