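import Crest.Agent.R273.Rigid_769

/-!
# R273, leaf A-MER (helper769): the field of meromorphic functions on a connected complex manifold

* `HolU A U f`  : `f : M → ℂ` is holomorphic on the open set `U` (in all charts)
* `dn M`        : the filter of the sets which contain a dense open set
* `IsMer A f`   : `f` is locally a quotient of holomorphic functions (arbitrary values at the zeros
                  of the denominator)
* `Mer A`       : germs along `dn M` of meromorphic functions; a field, a `ℂ`-algebra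
* `reg g`, `ev g x` : open dense set of regular points of `g : Mer A`, value at a regular point
-/

set_option autoImplicit false
set_option linter.unusedSectionVars false

open Set Filter Topology Complex
open scoped ContDiff Matrix ComplexConjugate

namespace Crest.Agent.R273.Mer769

open Crest.Agent.R275.Geo Crest.Agent.R275.Core144 Crest.Agent.R275.GC293
open Crest.Agent.R273.Cic769 Crest.Agent.R273.Rigid769

noncomputable section

/-! ### the filter of dense open sets -/

section Dn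

variable (M : Type) [TopologicalSpace M]

/-- the sets which contain a dense open set -/
def dn : Filter M where
  sets := {s | Dense (interior s)}
  univ_sets := by simp
  sets_of_superset := fun h hs => Dense.mono (interior_mono hs) h
  inter_sets := fun {s t} hs ht => by
    show Dense (interior (s ∩ t))
    rw [interior_inter]
    exact Dense.inter_of_isOpen_left hs ht isOpen_interior

variable {M}

theorem mem_dn {s : Set M} : s ∈ dn M ↔ ∀ x, ∃ᶠ y in 𝓝 x, s ∈ 𝓝 y := by
  show Dense (interior s) ↔ _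
  unfold Dense
  refine forall_congr' fun x => ?_
  rw [mem_closure_iff_frequently]
  simp only [mem_interior_iff_mem_nhds]

theorem dn_neBot [Nonempty M] : (dn M).NeBot := by
  rw [neBot_iff]
  intro h
  have h1 : (∅ : Set M) ∈ dn M := by rw [h]; exact mem_bot
  rw [mem_dn] at h1
  obtain ⟨x⟩ := ‹Nonempty M›
  exact (h1 x).exists.elim fun y hy => (mem_of_mem_nhds hy).elim

instance [Nonempty M] : (dn M).NeBot := dn_neBot

theorem dn_of_dense {s : Set M} (ho : IsOpen s) (hd : Dense s) : s ∈ dn M := by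
  show Dense (interior s)
  rwa [ho.interior_eq]

/-- elements of `dn` meet every nonempty open set, in an interior point -/
theorem exists_mem_of_dn {s U : Set M} (hs : s ∈ dn M) (hU : IsOpen U) (hne : U.Nonempty) :
    ∃ x ∈ U, s ∈ 𝓝 x := by
  obtain ⟨x, hx⟩ := hne
  obtain ⟨y, hy, hyU⟩ := ((mem_dn.1 hs x).and_eventually (hU.mem_nhds hx)).exists
  exact ⟨y, hyU, hy⟩

theorem frequently_of_dn {s : Set M} (hs : s ∈ dn M) (x : M) : ∃ᶠ y in 𝓝 x, s ∈ 𝓝 y :=
  mem_dn.1 hs x

end Dn

variable {n : ℕ} {M : Type} [TopologicalSpace M] {A : Atl n M}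

/-! ### holomorphic functions on open sets -/

/-- `f` is holomorphic on `U` -/
def HolU (A : Atl n M) (U : Set M) (f : M → ℂ) : Prop := ∀ i, HolAt A i U f

namespace HolU

variable {U V : Set M} {f g : M → ℂ}

theorem mono (h : HolU A U f) (hV : V ⊆ U) : HolU A V f := fun i => (h i).mono hV
theorem congr (h : HolU A U f) (he : ∀ x ∈ U, f x = g x) : HolU A U g :=
  fun i => (h i).congr fun x _ hx => he x hx
theorem const (c : ℂ) : HolU A U (fun _ => c) := fun _ => holAt_const c
theorem add (h : HolU A U f) (h' : HolU A U g) : HolU A U fun x => f x + g x :=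
  fun i => (h i).add (h' i)
theorem sub (h : HolU A U f) (h' : HolU A U g) : HolU A U fun x => f x - g x :=
  fun i => (h i).sub (h' i)
theorem mul (h : HolU A U f) (h' : HolU A U g) : HolU A U fun x => f x * g x :=
  fun i => (h i).mul (h' i)
theorem neg (h : HolU A U f) : HolU A U fun x => - f x := fun i => (h i).neg
theorem pow (h : HolU A U f) (m : ℕ) : HolU A U fun x => f x ^ m := fun i => (h i).pow m
theorem inv (h : HolU A U f) (h0 : ∀ x ∈ U, f x ≠ 0) : HolU A U fun x => (f x)⁻¹ :=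
  fun i => (h i).inv fun x _ hx => h0 x hx
theorem div (h : HolU A U f) (h' : HolU A U g) (h0 : ∀ x ∈ U, g x ≠ 0) :
    HolU A U fun x => f x / g x := by
  simp only [div_eq_mul_inv]
  exact h.mul (h'.inv h0)

theorem continuousAt (h : HolU A U f) (hU : IsOpen U) {x : M} (hx : x ∈ U) :
    ContinuousAt f x := by
  obtain ⟨i, hi⟩ := A.cover x
  have h1 := ((h i).diffAt hU hi hx).continuousAt
  have h2 : ContinuousAt ((fun z => f ((A.e i).symm z)) ∘ (A.e i)) x :=
    ContinuousAt.comp (g := fun z => f ((A.e i).symm z)) h1 ((A.e i).continuousAt hi)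
  refine h2.congr ?_
  filter_upwards [(A.e i).open_source.mem_nhds hi] with y hy
  simp [(A.e i).left_inv hy]

theorem continuousOn (h : HolU A U f) (hU : IsOpen U) : ContinuousOn f U :=
  fun _ hx => (h.continuousAt hU hx).continuousWithinAt

theorem isOpen_ne (h : HolU A U f) (hU : IsOpen U) : IsOpen (U ∩ {x | f x ≠ 0}) :=
  (h.continuousOn hU).isOpen_inter_preimage hU isOpen_compl_singleton

/-- union of open sets -/
theorem of_local (h : ∀ x ∈ U, ∃ V, IsOpen V ∧ x ∈ V ∧ HolU A V f) : HolU A U f := by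
  intro i z hz
  obtain ⟨V, hVo, hxV, hV⟩ := h _ hz.2
  have h1 : DifferentiableAt ℂ (fun z => f ((A.e i).symm z)) z :=
    (hV i).differentiableAt (IsOpen.mem_nhds (isOpen_ti hVo) ⟨hz.1, hxV⟩)
  exact h1.differentiableWithinAt

theorem sum {κ : Type*} (s : Finset κ) {F : κ → M → ℂ} (h : ∀ k ∈ s, HolU A U (F k)) :
    HolU A U fun x => ∑ k ∈ s, F k x := fun i => HolAt.sum s fun k hk => h k hk i

theorem prod {κ : Type*} (s : Finset κ) {F : κ → M → ℂ} (h : ∀ k ∈ s, HolU A U (F k)) :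
    HolU A U fun x => ∏ k ∈ s, F k x := fun i => HolAt.prod s fun k hk => h k hk i

end HolU

/-- from one chart to all charts -/
theorem holU_of_holAt {i : A.ι} {U : Set M} {f : M → ℂ} (hU : IsOpen U)
    (hUi : U ⊆ (A.e i).source) (h : HolAt A i U f) : HolU A U f := by
  intro j
  refine ((h.chg hU j).mono fun x hx => ⟨hx, hUi hx⟩)

/-- small neighbourhoods where the identity theorem holds -/
theorem exists_ball {x : M} {U : Set M} (hU : U ∈ 𝓝 x) :
    ∃ V ⊆ U, IsOpen V ∧ x ∈ V ∧ ∀ f : M → ℂ, HolU A V f →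
      (∃ y ∈ V, ∀ᶠ z in 𝓝 y, f z = 0) → ∀ z ∈ V, f z = 0 := by
  obtain ⟨i, hi⟩ := A.cover x
  have hxt := (A.e i).map_source hi
  have h1 : (A.e i).target ∩ (A.e i).symm ⁻¹' U ∈ 𝓝 (A.e i x) := by
    refine inter_mem ((A.e i).open_target.mem_nhds hxt) ?_
    have := (A.e i).continuousAt_symm hxt
    apply this
    rwa [(A.e i).left_inv hi]
  obtain ⟨ε, hε, hball⟩ := Metric.mem_nhds_iff.1 h1
  set B := Metric.ball (A.e i x) ε with hB
  refine ⟨(A.e i).source ∩ (A.e i) ⁻¹' B, ?_, (A.e i).isOpen_inter_preimage Metric.isOpen_ball,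
    ⟨hi, Metric.mem_ball_self hε⟩, ?_⟩
  · rintro y ⟨hy, hyB⟩
    have := (hball hyB).2
    rwa [mem_preimage, (A.e i).left_inv hy] at this
  · rintro f hf ⟨y, ⟨hy, hyB⟩, hev⟩ z ⟨hz, hzB⟩
    have hd : DifferentiableOn ℂ (fun z => f ((A.e i).symm z)) B := by
      refine DifferentiableOn.mono (hf i) fun w hw => ?_
      have hwt := (hball hw).1
      refine ⟨hwt, (A.e i).map_target hwt, ?_⟩
      show A.e i ((A.e i).symm w) ∈ B
      rwa [(A.e i).right_inv hwt]
    have han : AnalyticOnNhd ℂ (fun z => f ((A.e i).symm z)) B :=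
      Crest.Agent.R266.SCV.analyticOnNhd_of_differentiableOn Metric.isOpen_ball hd
    have hev' : (fun z => f ((A.e i).symm z)) =ᶠ[𝓝 (A.e i y)] 0 := by
      have hc := (A.e i).continuousAt_symm ((A.e i).map_source hy)
      rw [ContinuousAt, (A.e i).left_inv hy] at hc
      exact hc.eventually hev
    have := han.eqOn_zero_of_preconnected_of_eventuallyEq_zero
      ((convex_ball _ _).isPreconnected) hyB hev' hzB
    simpa [(A.e i).left_inv hz] using this

/-- `f` is nowhere locally zero on `V` -/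
def NLZ (V : Set M) (f : M → ℂ) : Prop := ∀ y ∈ V, ∃ᶠ z in 𝓝 y, f z ≠ 0

theorem NLZ.mono {V W : Set M} {f : M → ℂ} (h : NLZ V f) (hW : W ⊆ V) : NLZ W f :=
  fun y hy => h y (hW hy)

theorem NLZ.freq_nhds {V : Set M} {f : M → ℂ} (h : NLZ V f) (hV : IsOpen V) (hf : HolU A V f)
    {y : M} (hy : y ∈ V) : ∃ᶠ z in 𝓝 y, z ∈ V ∧ ∀ᶠ w in 𝓝 z, f w ≠ 0 := by
  refine ((h y hy).and_eventually (hV.mem_nhds hy)).mono ?_
  rintro z ⟨hz, hzV⟩
  exact ⟨hzV, (hf.continuousAt hV hzV).eventually_ne hz⟩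

theorem NLZ.mul {V : Set M} {f g : M → ℂ} (h : NLZ V f) (h' : NLZ V g) (hV : IsOpen V)
    (hf : HolU A V f) : NLZ V fun x => f x * g x := by
  intro y hy
  have h1 : ∃ᶠ z in 𝓝 y, (∀ᶠ u in 𝓝 z, f u ≠ 0) ∧ ∃ᶠ u in 𝓝 z, g u ≠ 0 :=
    (h.freq_nhds hV hf hy).mono fun z hz => ⟨hz.2, h' z hz.1⟩
  exact (freq_and h1).mono fun z hz => mul_ne_zero hz.1 hz.2

/-- dichotomy on a small neighbourhood -/
theorem nlz_or {x : M} {U : Set M} (hU : U ∈ 𝓝 x) :
    ∃ V ⊆ U, IsOpen V ∧ x ∈ V ∧ ∀ f : M → ℂ, HolU A V f → (∀ z ∈ V, f z = 0) ∨ NLZ V f := by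
  obtain ⟨V, hVU, hVo, hxV, hV⟩ := exists_ball (A := A) hU
  refine ⟨V, hVU, hVo, hxV, fun f hf => ?_⟩
  by_cases h : ∃ y ∈ V, ∀ᶠ z in 𝓝 y, f z = 0
  · exact Or.inl (hV f hf h)
  · right
    push Not at h
    exact h

/-! ### meromorphic functions -/

/-- `f` is locally a quotient of holomorphic functions -/
def IsMer (A : Atl n M) (f : M → ℂ) : Prop :=
  ∀ x, ∃ V, IsOpen V ∧ x ∈ V ∧ ∃ p q : M → ℂ, HolU A V p ∧ HolU A V q ∧ NLZ V q ∧
    ∀ y ∈ V, q y ≠ 0 → f y * q y = p y

theorem isMer_of_holU {f : M → ℂ} (h : HolU A univ f) : IsMer A f := fun _ =>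
  ⟨univ, isOpen_univ, trivial, f, fun _ => 1, h, HolU.const 1,
    fun _ _ => (Eventually.of_forall fun _ => one_ne_zero).frequently, fun _ _ _ => mul_one _⟩

theorem isMer_const (c : ℂ) : IsMer A fun _ => c := isMer_of_holU (HolU.const c)

theorem IsMer.add {f g : M → ℂ} (hf : IsMer A f) (hg : IsMer A g) :
    IsMer A fun x => f x + g x := by
  intro x
  obtain ⟨V, hV, hxV, p, q, hp, hq, hq0, he⟩ := hf x
  obtain ⟨V', hV', hxV', p', q', hp', hq', hq0', he'⟩ := hg x
  refine ⟨V ∩ V', hV.inter hV', ⟨hxV, hxV'⟩, fun y => p y * q' y + p' y * q y,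
    fun y => q y * q' y, ?_, ?_, ?_, ?_⟩
  · exact ((hp.mono inter_subset_left).mul (hq'.mono inter_subset_right)).add
      ((hp'.mono inter_subset_right).mul (hq.mono inter_subset_left))
  · exact (hq.mono inter_subset_left).mul (hq'.mono inter_subset_right)
  · exact NLZ.mul (hq0.mono inter_subset_left) (hq0'.mono inter_subset_right) (hV.inter hV')
      (hq.mono inter_subset_left)
  · intro y hy h0
    have h1 := he y hy.1 (left_ne_zero_of_mul h0)
    have h2 := he' y hy.2 (right_ne_zero_of_mul h0)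
    beta_reduce
    rw [← h1, ← h2]; ring

theorem IsMer.mul {f g : M → ℂ} (hf : IsMer A f) (hg : IsMer A g) :
    IsMer A fun x => f x * g x := by
  intro x
  obtain ⟨V, hV, hxV, p, q, hp, hq, hq0, he⟩ := hf x
  obtain ⟨V', hV', hxV', p', q', hp', hq', hq0', he'⟩ := hg x
  refine ⟨V ∩ V', hV.inter hV', ⟨hxV, hxV'⟩, fun y => p y * p' y,
    fun y => q y * q' y, ?_, ?_, ?_, ?_⟩
  · exact (hp.mono inter_subset_left).mul (hp'.mono inter_subset_right)
  · exact (hq.mono inter_subset_left).mul (hq'.mono inter_subset_right)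
  · exact NLZ.mul (hq0.mono inter_subset_left) (hq0'.mono inter_subset_right) (hV.inter hV')
      (hq.mono inter_subset_left)
  · intro y hy h0
    have h1 := he y hy.1 (left_ne_zero_of_mul h0)
    have h2 := he' y hy.2 (right_ne_zero_of_mul h0)
    beta_reduce
    rw [← h1, ← h2]; ring

theorem IsMer.neg {f : M → ℂ} (hf : IsMer A f) : IsMer A fun x => - f x := by
  have := (isMer_const (A := A) (-1)).mul hf
  simpa using this

/-- zero near a point or nonzero on a dense open subset of a neighbourhood -/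
theorem IsMer.dich {f : M → ℂ} (hf : IsMer A f) (x : M) : ∃ V, IsOpen V ∧ x ∈ V ∧
    ((∀ y ∈ V, ∃ᶠ z in 𝓝 y, ∀ᶠ w in 𝓝 z, f w = 0) ∨
      ∀ y ∈ V, ∃ᶠ z in 𝓝 y, ∀ᶠ w in 𝓝 z, f w ≠ 0) := by
  obtain ⟨U, hU, hxU, p, q, hp, hq, hq0, he⟩ := hf x
  obtain ⟨V, hVU, hVo, hxV, hV⟩ := nlz_or (A := A) (hU.mem_nhds hxU)
  refine ⟨V, hVo, hxV, ?_⟩
  rcases hV p (hp.mono hVU) with h | h
  · left
    intro y hy
    refine ((hq0.mono hVU).freq_nhds hVo (hq.mono hVU) hy).mono ?_
    rintro z ⟨hzV, hz⟩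
    filter_upwards [hz, hVo.mem_nhds hzV] with w hw hwV
    have := he w (hVU hwV) hw
    rw [h w hwV] at this
    exact (mul_eq_zero.1 this).resolve_right hw
  · right
    intro y hy
    have h1 := h.mul (hq0.mono hVU) hVo (hp.mono hVU)
    refine (h1.freq_nhds hVo ((hp.mono hVU).mul (hq.mono hVU)) hy).mono ?_
    rintro z ⟨hzV, hz⟩
    filter_upwards [hz, hVo.mem_nhds hzV] with w hw hwV h0
    have := he w (hVU hwV) (right_ne_zero_of_mul hw)
    rw [h0, zero_mul] at this
    exact left_ne_zero_of_mul hw this.symm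

/-- a meromorphic function on a connected manifold is zero densely or nonzero densely -/
theorem IsMer.zero_or [PreconnectedSpace M] {f : M → ℂ} (hf : IsMer A f) :
    {x | f x = 0} ∈ dn M ∨ {x | f x ≠ 0} ∈ dn M := by
  set Z : Set M := {x | ∀ᶠ y in 𝓝 x, ∃ᶠ z in 𝓝 y, ∀ᶠ w in 𝓝 z, f w = 0} with hZ
  have hop : IsOpen Z := by
    rw [isOpen_iff_mem_nhds]
    intro x hx
    exact eventually_eventually_nhds.2 hx
  have key : ∀ x, (∃ᶠ y in 𝓝 x, ∀ᶠ w in 𝓝 y, f w = 0) → x ∈ Z := by
    intro x hx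
    obtain ⟨V, hVo, hxV, h⟩ := hf.dich x
    rcases h with h | h
    · exact Filter.mem_of_superset (hVo.mem_nhds hxV) h
    · exfalso
      obtain ⟨y, hy, hyV⟩ := (hx.and_eventually (hVo.mem_nhds hxV)).exists
      have h2 := (h y hyV).and_eventually (eventually_eventually_nhds.2 hy)
      obtain ⟨z, hz1, hz2⟩ := h2.exists
      exact hz1.self_of_nhds hz2.self_of_nhds
  have hcl : IsClosed Z := by
    rw [← closure_subset_iff_isClosed]
    intro x hx
    apply key
    rw [mem_closure_iff_frequently] at hx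
    refine frequently_frequently_nhds.1 (hx.mono fun y hy => ?_)
    exact hy.self_of_nhds
  rcases isClopen_iff.1 ⟨hcl, hop⟩ with h | h
  · right
    rw [mem_dn]
    intro x
    obtain ⟨V, hVo, hxV, h'⟩ := hf.dich x
    rcases h' with h' | h'
    · exfalso
      have : x ∈ Z := Filter.mem_of_superset (hVo.mem_nhds hxV) h'
      rw [h] at this
      exact this
    · exact h' x hxV
  · left
    rw [mem_dn]
    intro x
    have : x ∈ Z := by rw [h]; trivial
    exact this.self_of_nhds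

theorem IsMer.inv {f : M → ℂ} (hf : IsMer A f) :
    IsMer A fun x => (f x)⁻¹ := by
  intro x
  obtain ⟨U, hU, hxU, p, q, hp, hq, hq0, he⟩ := hf x
  obtain ⟨V, hVU, hVo, hxV, hV⟩ := nlz_or (A := A) (hU.mem_nhds hxU)
  rcases hV p (hp.mono hVU) with h | h
  · refine ⟨V, hVo, hxV, fun _ => 0, q, HolU.const 0, hq.mono hVU, hq0.mono hVU, ?_⟩
    intro y hy h0
    have := he y (hVU hy) h0
    rw [h y hy] at this
    beta_reduce
    rw [(mul_eq_zero.1 this).resolve_right h0]
    simp
  · refine ⟨V, hVo, hxV, fun y => q y * q y, fun y => p y * q y,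
      (hq.mono hVU).mul (hq.mono hVU), (hp.mono hVU).mul (hq.mono hVU),
      h.mul (hq0.mono hVU) hVo (hp.mono hVU), ?_⟩
    intro y hy h0
    have h1 := he y (hVU hy) (right_ne_zero_of_mul h0)
    have h2 : f y ≠ 0 := fun h3 => left_ne_zero_of_mul h0 (by rw [← h1, h3, zero_mul])
    beta_reduce
    rw [← h1]
    field_simp

/-! ### the field -/

/-- the ring of germs of meromorphic functions -/
def MerS (A : Atl n M) : Subring ((dn M).Germ ℂ) where
  carrier := {g | ∃ f : M → ℂ, IsMer A f ∧ (f : (dn M).Germ ℂ) = g}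
  mul_mem' := by
    rintro _ _ ⟨f, hf, rfl⟩ ⟨g, hg, rfl⟩
    exact ⟨_, hf.mul hg, rfl⟩
  one_mem' := ⟨_, isMer_const 1, rfl⟩
  add_mem' := by
    rintro _ _ ⟨f, hf, rfl⟩ ⟨g, hg, rfl⟩
    exact ⟨_, hf.add hg, rfl⟩
  zero_mem' := ⟨_, isMer_const 0, rfl⟩
  neg_mem' := by
    rintro _ ⟨f, hf, rfl⟩
    exact ⟨_, hf.neg, rfl⟩

/-- meromorphic functions on `M` -/
def Mer (A : Atl n M) : Type := MerS A

instance : CommRing (Mer A) := inferInstanceAs (CommRing (MerS A))

/-- the class of a meromorphic function -/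
def mk (f : M → ℂ) (hf : IsMer A f) : Mer A := ⟨(f : (dn M).Germ ℂ), f, hf, rfl⟩

/-- a representative -/
def rep (g : Mer A) : M → ℂ := Classical.choose g.2

theorem rep_mer (g : Mer A) : IsMer A (rep g) := (Classical.choose_spec g.2).1

theorem rep_coe (g : Mer A) : ((rep g : M → ℂ) : (dn M).Germ ℂ) = g.1 :=
  (Classical.choose_spec g.2).2

theorem mk_rep (g : Mer A) : mk (rep g) (rep_mer g) = g := Subtype.ext (rep_coe g)

theorem mk_eq {f g : M → ℂ} (hf : IsMer A f) (hg : IsMer A g) :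
    mk f hf = mk g hg ↔ {x | f x = g x} ∈ dn M := by
  constructor
  · intro h
    exact Germ.coe_eq.1 (congrArg Subtype.val h)
  · intro h
    exact Subtype.ext (Germ.coe_eq.2 h)

theorem exists_mk (g : Mer A) : ∃ (f : M → ℂ) (hf : IsMer A f), g = mk f hf :=
  ⟨rep g, rep_mer g, (mk_rep g).symm⟩

theorem mk_add {f g : M → ℂ} (hf : IsMer A f) (hg : IsMer A g) :
    mk f hf + mk g hg = mk _ (hf.add hg) := rfl

theorem mk_mul {f g : M → ℂ} (hf : IsMer A f) (hg : IsMer A g) :
    mk f hf * mk g hg = mk _ (hf.mul hg) := rfl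

theorem mk_neg {f : M → ℂ} (hf : IsMer A f) : - mk f hf = mk _ hf.neg := rfl

/-- constants -/
def cst : ℂ →+* Mer A where
  toFun c := mk (fun _ => c) (isMer_const c)
  map_one' := rfl
  map_mul' _ _ := rfl
  map_zero' := rfl
  map_add' _ _ := rfl

instance : Algebra ℂ (Mer A) := (cst (A := A)).toAlgebra

theorem algebraMap_eq (c : ℂ) : algebraMap ℂ (Mer A) c = mk (fun _ => c) (isMer_const c) := rfl

theorem mk_zero : (0 : Mer A) = mk (fun _ => 0) (isMer_const 0) := rfl
theorem mk_one : (1 : Mer A) = mk (fun _ => 1) (isMer_const 1) := rfl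

theorem mk_eq_zero {f : M → ℂ} (hf : IsMer A f) : mk f hf = 0 ↔ {x | f x = 0} ∈ dn M := by
  rw [mk_zero, mk_eq]

theorem mk_ne_zero [PreconnectedSpace M] [Nonempty M] {f : M → ℂ} (hf : IsMer A f) :
    mk f hf ≠ 0 ↔ {x | f x ≠ 0} ∈ dn M := by
  rw [Ne, mk_eq_zero]
  constructor
  · intro h
    exact hf.zero_or.resolve_left h
  · intro h h'
    have := inter_mem h h'
    have hne := dn_neBot (M := M)
    obtain ⟨x, hx⟩ := hne.nonempty_of_mem this
    exact hx.1 hx.2

/-- inverse -/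
def minv (g : Mer A) : Mer A :=
  ⟨g.1⁻¹, by
    obtain ⟨f, hf, h⟩ := g.2
    exact ⟨_, hf.inv, by rw [← h]; rfl⟩⟩

theorem minv_mk {f : M → ℂ} (hf : IsMer A f) :
    minv (mk f hf) = mk _ hf.inv := rfl

instance [ConnectedSpace M] : Field (Mer A) where
  inv := minv
  exists_pair_ne := ⟨0, 1, by
    intro h
    rw [mk_zero, mk_one, mk_eq] at h
    have hne := dn_neBot (M := M)
    obtain ⟨x, hx⟩ := hne.nonempty_of_mem h
    exact zero_ne_one (hx : (0 : ℂ) = 1)⟩
  mul_inv_cancel := by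
    intro g hg
    obtain ⟨f, hf, rfl⟩ := exists_mk g
    have h1 := (mk_ne_zero hf).1 hg
    show mk f hf * minv (mk f hf) = 1
    rw [minv_mk, mk_mul, mk_one, mk_eq]
    exact Filter.mem_of_superset h1 fun x hx => mul_inv_cancel₀ hx
  inv_zero := by
    show minv (mk (fun _ => 0) (isMer_const 0)) = mk (fun _ => 0) (isMer_const 0)
    rw [minv_mk, mk_eq]
    simp
  nnqsmul := _
  nnqsmul_def := fun _ _ => rfl
  qsmul := _
  qsmul_def := fun _ _ => rfl

theorem mk_inv [ConnectedSpace M] {f : M → ℂ} (hf : IsMer A f) :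
    (mk f hf)⁻¹ = mk _ hf.inv := rfl

end

end Crest.Agent.R273.Mer769
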