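import Crest.Agent.R273.FOp_106

/-!
# R273, leaf D.10 (helper106), part 2: the mollifiers `J_N`

* `JN P B N : Sec B →ₗ[ℂ] Sec B`;
* `nS_JN_le`       (F1b) `‖J_N u‖_s ≤ C ‖u‖_s`, `C` independent of `N`;
* `tendsto_JN`     (F1)  `‖J_N u - u‖_s → 0` for every `s`;
* `FOp.nS_le`      `‖T u‖_s ≤ C ‖u‖_{s+1}`;
* `FOp.comm_le`    (F2b) `‖T (J_N u) - J_N (T u)‖_0 ≤ C ‖u‖_0`, `C` independent of `N`;
* `FOp.tendsto_comm` (F2) `‖T (J_N u) - J_N (T u)‖_s → 0` for every `s`.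
-/

set_option autoImplicit false
set_option linter.unusedSectionVars false
set_option linter.unusedSimpArgs false
set_option linter.unusedVariables false

open Set Filter Topology Complex
open scoped ContDiff Matrix ComplexConjugate

namespace Crest.Agent.R273.Mol_106

open Crest.Agent.R275 Crest.Agent.R275.Geo Crest.Agent.R275.Tor812 Crest.Agent.R275.TorS666
  Crest.Agent.R275.C1d194 Crest.Agent.R275.C2812 Crest.Agent.R275.RetC666
  Crest.Agent.R273.L2K_774 Crest.Agent.R273.TorM_106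

noncomputable section

variable {n : ℕ} {M : Type} [TopologicalSpace M] {A : Atl n M}

/-! ### vectors of periodic functions -/

section torus

variable {κ κ₁ κ₂ : Type} [Fintype κ] [Fintype κ₁] [Fintype κ₂]

/-- `F_N` componentwise -/
def FNv (κ : Type) (n N : ℕ) : (κ → SPer (RI n)) →ₗ[ℂ] (κ → SPer (RI n)) where
  toFun f k := FN N (f k)
  map_add' f g := by funext k; simp
  map_smul' c f := by funext k; simp

@[simp] theorem FNv_apply (N : ℕ) (f : κ → SPer (RI n)) (k : κ) : FNv κ n N f k = FN N (f k) := rfl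

/-- `∂_p` componentwise -/
def pdv (κ : Type) (p : RI n) : (κ → SPer (RI n)) →ₗ[ℂ] (κ → SPer (RI n)) where
  toFun f k := pd p (f k)
  map_add' f g := by funext k; simp
  map_smul' c f := by funext k; simp

@[simp] theorem pdv_apply (p : RI n) (f : κ → SPer (RI n)) (k : κ) : pdv κ p f k = pd p (f k) := rfl

theorem pdv_FNv (p : RI n) (N : ℕ) (f : κ → SPer (RI n)) :
    pdv κ p (FNv κ n N f) = FNv κ n N (pdv κ p f) := by
  funext k
  simp [pd_FN]

theorem nv_FNv_le (s N : ℕ) (f : κ → SPer (RI n)) : nv s (FNv κ n N f) ≤ nv s f :=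
  Finset.sum_le_sum fun k _ => nrm_FN_le s N (f k)

theorem nv_pdv_le (s : ℕ) (p : RI n) (f : κ → SPer (RI n)) :
    nv s (pdv κ p f) ≤ 2 * Real.pi * nv (s + 1) f := by
  unfold nv
  rw [Finset.mul_sum]
  exact Finset.sum_le_sum fun k _ => nrm_pd_le s p (f k)

theorem nv_mulS_le (s : ℕ) (m : Matrix κ₂ κ₁ (SPer (RI n))) :
    ∃ C, 0 ≤ C ∧ ∀ f : κ₁ → SPer (RI n), nv s (mulS m f) ≤ C * nv s f := nrmv_mulS_le s m

theorem tendsto_FNv (s : ℕ) (f : κ → SPer (RI n)) :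
    Tendsto (fun N => nv s (FNv κ n N f - f)) atTop (𝓝 0) := by
  have := tendsto_finsetSum (Finset.univ : Finset κ) fun k _ => tendsto_FN s (f k)
  rw [Finset.sum_const_zero] at this
  exact this

/-- derivative of a matrix of periodic functions -/
def pdm (p : RI n) (m : Matrix κ₂ κ₁ (SPer (RI n))) : Matrix κ₂ κ₁ (SPer (RI n)) :=
  Matrix.of fun k l => pd p (m k l)

theorem pdv_mulS (p : RI n) (m : Matrix κ₂ κ₁ (SPer (RI n))) (f : κ₁ → SPer (RI n)) :
    pdv κ₂ p (mulS m f) = mulS (pdm p m) f + mulS m (pdv κ₁ p f) := by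
  funext k
  rw [Pi.add_apply, pdv_apply, mulS_apply, mulS_apply, mulS_apply, map_sum,
    ← Finset.sum_add_distrib]
  exact Finset.sum_congr rfl fun l _ => by rw [pd_mul]; rfl

/-- **commutator of `C ∂_p` with `F_N`** (matrix form), uniform in `N` -/
theorem nv_comm_le (m : Matrix κ₂ κ₁ (SPer (RI n))) (p : RI n) : ∃ C, 0 ≤ C ∧
    ∀ (N : ℕ) (f : κ₁ → SPer (RI n)),
      nv 0 (mulS m (pdv κ₁ p (FNv κ₁ n N f)) - FNv κ₂ n N (mulS m (pdv κ₁ p f))) ≤
        C * nv 0 f := by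
  refine ⟨∑ k, ∑ l, cC (m k l), Finset.sum_nonneg fun k _ => Finset.sum_nonneg fun l _ =>
    cC_nonneg _, fun N f => ?_⟩
  unfold nv
  rw [Finset.sum_mul]
  refine Finset.sum_le_sum fun k _ => ?_
  have h1 : (mulS m (pdv κ₁ p (FNv κ₁ n N f)) - FNv κ₂ n N (mulS m (pdv κ₁ p f))) k =
      ∑ l, (m k l * pd p (FN N (f l)) - FN N (m k l * pd p (f l))) := by
    rw [Pi.sub_apply, FNv_apply, mulS_apply, mulS_apply, map_sum, ← Finset.sum_sub_distrib]
    rfl
  rw [h1, Finset.sum_mul]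
  refine (nrm_sum_le _ _ _).trans (Finset.sum_le_sum fun l _ => ?_)
  refine (comm_FN_le N (m k l) p (f l)).trans ?_
  exact mul_le_mul_of_nonneg_left (nrm_le_nv 0 f l) (cC_nonneg _)

/-- **commutator of `C` with `∂_p F_N`**, uniform in `N` -/
theorem nv_commD_le (m : Matrix κ₂ κ₁ (SPer (RI n))) (p : RI n) : ∃ C, 0 ≤ C ∧
    ∀ (N : ℕ) (f : κ₁ → SPer (RI n)),
      nv 0 (mulS m (pdv κ₁ p (FNv κ₁ n N f)) - FNv κ₂ n N (pdv κ₂ p (mulS m f))) ≤
        C * nv 0 f := by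
  obtain ⟨C, hC0, hC⟩ := nv_comm_le m p
  obtain ⟨D, hD0, hD⟩ := nv_mulS_le 0 (pdm p m)
  refine ⟨C + D, add_nonneg hC0 hD0, fun N f => ?_⟩
  have h1 : mulS m (pdv κ₁ p (FNv κ₁ n N f)) - FNv κ₂ n N (pdv κ₂ p (mulS m f)) =
      (mulS m (pdv κ₁ p (FNv κ₁ n N f)) - FNv κ₂ n N (mulS m (pdv κ₁ p f))) -
        FNv κ₂ n N (mulS (pdm p m) f) := by
    rw [pdv_mulS, map_add]; abel
  rw [h1, add_mul]
  exact (nv_sub_le _ _ _).trans (add_le_add (hC N f) ((nv_FNv_le _ _ _).trans (hD f)))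

end torus

/-! ### families of amplitudes -/

section fam

variable {P : Part A} {κ₁ κ₂ κ₃ : Type} [Fintype κ₁] [Fintype κ₂] [Fintype κ₃]

theorem ampF_of {b : A.ι → M → Matrix κ₁ κ₂ ℂ} (hb : AmpF P b)
    {c : A.ι → M → Matrix κ₂ κ₃ ℂ} (hc : ∀ j, IsAmp A j (c j))
    (h0 : ∀ j x, x ∉ tsupport (b j) → c j x = 0) : AmpF P c := by
  refine ⟨hc, fun j => (closure_minimal ?_ (isClosed_tsupport _)).trans (hb.sub j)⟩
  intro x hx
  by_contra h
  exact hx (h0 j x h)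

theorem ExtFL_eq_sum [Fintype A.ι] (B : FBun A) {b : A.ι → M → Matrix B.κ κ₁ ℂ} (hb : AmpF P b)
    (f : A.ι → κ₁ → SPer (RI n)) : ExtFL B hb f = ∑ j, extS B j (hb.amp j) (f j) := by
  apply Subtype.ext
  rw [Submodule.coe_sum]
  funext i x
  rw [Finset.sum_apply, Finset.sum_apply]
  exact finsum_eq_sum_of_fintype _

end fam

namespace FOp

variable {B B' : FBun A} (T : FOp B B') {P : Part A} {κ₁ : Type} [Fintype κ₁]

theorem ampF_a (p : RI n) {b : A.ι → M → Matrix B.κ κ₁ ℂ} (hb : AmpF P b) :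
    AmpF P (fun j x => T.a j p x * b j x) :=
  ⟨fun j => T.amp_a p (hb.amp j), fun j => (closure_minimal (fun x hx => by
    by_contra h
    exact hx (by
      show T.a j p x * b j x = 0
      rw [amp_zero h, Matrix.mul_zero])) (isClosed_tsupport _)).trans (hb.sub j)⟩

theorem ampF_b {b : A.ι → M → Matrix B.κ κ₁ ℂ} (hb : AmpF P b) :
    AmpF P (fun j x => (∑ p, T.a j p x * pAmp A j p (b j) x) + T.b j x * b j x) :=
  ⟨fun j => T.amp_b (hb.amp j), fun j => (closure_minimal (fun x hx => by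
    by_contra h
    refine hx ?_
    show (∑ p, T.a j p x * pAmp A j p (b j) x) + T.b j x * b j x = 0
    rw [amp_zero h, Matrix.mul_zero, add_zero]
    refine Finset.sum_eq_zero fun p _ => ?_
    rw [pAmp, if_neg h, Matrix.mul_zero]) (isClosed_tsupport _)).trans (hb.sub j)⟩

theorem ampFR_a (p : RI n) {m : A.ι → M → Matrix κ₁ B'.κ ℂ} (hm : AmpF P m) :
    AmpF P (fun j x => m j x * T.a j p x) :=
  ⟨fun j => T.ampR_a p (hm.amp j), fun j => (closure_minimal (fun x hx => by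
    by_contra h
    exact hx (by
      show m j x * T.a j p x = 0
      rw [amp_zero h, Matrix.zero_mul])) (isClosed_tsupport _)).trans (hm.sub j)⟩

theorem ampFR_b {m : A.ι → M → Matrix κ₁ B'.κ ℂ} (hm : AmpF P m) :
    AmpF P (fun j x => m j x * T.b j x - ∑ p, pAmp A j p (fun y => m j y * T.a j p y) x) :=
  ⟨fun j => T.ampR_b (hm.amp j), fun j => (closure_minimal (fun x hx => by
    by_contra h
    refine hx ?_
    show m j x * T.b j x - ∑ p, pAmp A j p (fun y => m j y * T.a j p y) x = 0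
    rw [amp_zero h, Matrix.zero_mul, zero_sub, neg_eq_zero]
    refine Finset.sum_eq_zero fun p _ => ?_
    have h' : x ∉ tsupport (fun y => m j y * T.a j p y) := fun h'' => h
      (closure_minimal (fun y hy => by
        by_contra h3
        exact hy (by
          show m j y * T.a j p y = 0
          rw [amp_zero h3, Matrix.zero_mul])) (isClosed_tsupport _) h'')
    rw [pAmp, if_neg h']) (isClosed_tsupport _)).trans (hm.sub j)⟩

/-- `T ∘ Ext` -/
theorem T_ExtFL [Fintype A.ι] {b : A.ι → M → Matrix B.κ κ₁ ℂ} (hb : AmpF P b)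
    (f : A.ι → κ₁ → SPer (RI n)) :
    T.T (ExtFL B hb f) = (∑ p, ExtFL B' (T.ampF_a p hb) (fun j => pdv κ₁ p (f j))) +
      ExtFL B' (T.ampF_b hb) f := by
  rw [ExtFL_eq_sum, map_sum]
  simp only [ExtFL_eq_sum, T.T_ext]
  rw [Finset.sum_add_distrib, Finset.sum_comm]
  rfl

/-- `Loc ∘ T` -/
theorem LocF_T {m : A.ι → M → Matrix κ₁ B'.κ ℂ} (hm : AmpF P m) (u : Sec B) (j : A.ι) :
    LocF B' m (T.T u).1 j = (∑ p, pdv κ₁ p (LocF B (fun j x => m j x * T.a j p x) u.1 j)) +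
      LocF B (fun j x => m j x * T.b j x - ∑ p, pAmp A j p (fun y => m j y * T.a j p y) x)
        u.1 j := by
  funext k
  rw [Pi.add_apply, Finset.sum_apply]
  exact T.loc_T (hm.amp j) u k

end FOp

/-! ### the mollifiers -/

section JN

variable [Finite A.ι] (P : Part A) (B : FBun A)

/-- `F_N` on families -/
def FNF (κ : Type) (N : ℕ) : (A.ι → κ → SPer (RI n)) →ₗ[ℂ] (A.ι → κ → SPer (RI n)) where
  toFun f j := FNv κ n N (f j)
  map_add' f g := by funext j; simp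
  map_smul' c f := by funext j; simp

@[simp] theorem FNF_apply {κ : Type} (N : ℕ) (f : A.ι → κ → SPer (RI n)) (j : A.ι) :
    FNF (A := A) κ N f j = FNv κ n N (f j) := rfl

theorem nF_FNF_le {κ : Type} [Fintype κ] (s N : ℕ) (f : A.ι → κ → SPer (RI n)) :
    nF s (FNF (A := A) κ N f) ≤ nF s f := by
  have := Fintype.ofFinite A.ι
  rw [nF_eq, nF_eq]
  exact Finset.sum_le_sum fun j _ => nv_FNv_le s N (f j)

theorem tendsto_FNF {κ : Type} [Fintype κ] (s : ℕ) (f : A.ι → κ → SPer (RI n)) :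
    Tendsto (fun N => nF s (FNF (A := A) κ N f - f)) atTop (𝓝 0) := by
  have := Fintype.ofFinite A.ι
  have h := tendsto_finsetSum (Finset.univ : Finset A.ι) fun j _ => tendsto_FNv s (f j)
  simp only [Finset.sum_const_zero] at h
  refine h.congr fun N => ?_
  rw [nF_eq]
  rfl

/-- **the mollifier** -/
def JN (N : ℕ) : Sec B →ₗ[ℂ] Sec B :=
  ExtFL B (P.amp_chi B.κ) ∘ₗ FNF (A := A) B.κ N ∘ₗ LocFL B (P.amp_psi B.κ)

theorem JN_apply (N : ℕ) (u : Sec B) :
    JN P B N u = ExtFL B (P.amp_chi B.κ) (FNF (A := A) B.κ N (LocFL B (P.amp_psi B.κ) u)) := rfl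

theorem ExtFL_LocFL (u : Sec B) :
    ExtFL B (P.amp_chi B.κ) (LocFL B (P.amp_psi B.κ) u) = u := Subtype.ext (ExtF_LocF B P u.2)

/-- (F1b) `J_N` is bounded in every norm, uniformly in `N` -/
theorem nS_JN_le (s : ℕ) : ∃ C, 0 ≤ C ∧ ∀ (N : ℕ) (u : Sec B),
    nS P B s (JN P B N u) ≤ C * nS P B s u := by
  obtain ⟨C, hC0, hC⟩ := nS_ExtFL_le P (P.amp_chi B.κ) s
  refine ⟨C, hC0, fun N u => (hC _).trans (mul_le_mul_of_nonneg_left ?_ hC0)⟩
  exact nF_FNF_le s N _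

/-- (F1) `J_N u → u` in every norm -/
theorem tendsto_JN (s : ℕ) (u : Sec B) :
    Tendsto (fun N => nS P B s (JN P B N u - u)) atTop (𝓝 0) := by
  obtain ⟨C, hC0, hC⟩ := nS_ExtFL_le P (P.amp_chi B.κ) s
  have h := (tendsto_FNF (A := A) s (LocFL B (P.amp_psi B.κ) u)).const_mul C
  rw [mul_zero] at h
  refine squeeze_zero (fun _ => nS_nonneg _ _ _ _) (fun N => ?_) h
  have h1 : JN P B N u - u = ExtFL B (P.amp_chi B.κ)
      (FNF (A := A) B.κ N (LocFL B (P.amp_psi B.κ) u) - LocFL B (P.amp_psi B.κ) u) := by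
    rw [map_sub, ExtFL_LocFL, JN_apply]
  rw [h1]
  exact hC _

/-- `J_N` is smoothing -/
theorem nS_JN_smooth (s N : ℕ) : ∃ C, 0 ≤ C ∧ ∀ u : Sec B,
    nS P B s (JN P B N u) ≤ C * nS P B 0 u := by
  have := Fintype.ofFinite A.ι
  obtain ⟨C, hC0, hC⟩ := nS_ExtFL_le P (P.amp_chi B.κ) s
  refine ⟨C * (2 * ((N : ℝ) + 1)) ^ s, by positivity, fun u => (hC _).trans ?_⟩
  rw [mul_assoc]
  refine mul_le_mul_of_nonneg_left ?_ hC0
  unfold nS
  rw [nF_eq, nF_eq, Finset.mul_sum]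
  refine Finset.sum_le_sum fun j _ => ?_
  unfold nv
  rw [Finset.mul_sum]
  exact Finset.sum_le_sum fun k _ => nrm_FN_smooth s N _

end JN

/-! ### first order operators -/

namespace FOp

variable [Finite A.ι] (P : Part A) {B B' : FBun A} (T : FOp B B')

theorem nS_sum_le {σ : Type*} (B : FBun A) (s : ℕ) (t : Finset σ) (u : σ → Sec B) :
    nS P B s (∑ i ∈ t, u i) ≤ ∑ i ∈ t, nS P B s (u i) := by
  classical
  induction t using Finset.induction_on with
  | empty => simp [nS_zero]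
  | insert i t hi ih =>
    rw [Finset.sum_insert hi, Finset.sum_insert hi]
    exact (nS_add_le P B s _ _).trans (add_le_add le_rfl ih)

theorem nF_sum_le {σ κ : Type} [Fintype κ] (s : ℕ) (t : Finset σ)
    (f : σ → A.ι → κ → SPer (RI n)) :
    nF s (∑ i ∈ t, f i) ≤ ∑ i ∈ t, nF s (f i) := by
  have := Fintype.ofFinite A.ι
  simp only [nF_eq]
  rw [Finset.sum_comm]
  refine Finset.sum_le_sum fun j _ => ?_
  rw [Finset.sum_apply]
  exact nv_sum_le s t _

theorem nF_pdv_le {κ : Type} [Fintype κ] (s : ℕ) (p : RI n) (f : A.ι → κ → SPer (RI n)) :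
    nF s (fun j => pdv κ p (f j)) ≤ 2 * Real.pi * nF (s + 1) f := by
  have := Fintype.ofFinite A.ι
  rw [nF_eq, nF_eq, Finset.mul_sum]
  exact Finset.sum_le_sum fun j _ => nv_pdv_le s p (f j)

/-- a first order operator costs one derivative -/
theorem nS_le (s : ℕ) : ∃ C, 0 ≤ C ∧ ∀ u : Sec B, nS P B' s (T.T u) ≤ C * nS P B (s + 1) u := by
  choose C1 h10 h1 using fun p => nF_LocF_le P (T.ampFR_a p (P.amp_psi B'.κ)) (s + 1)
  obtain ⟨C2, h20, h2⟩ := nF_LocF_le P (T.ampFR_b (P.amp_psi B'.κ)) s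
  refine ⟨(∑ p, 2 * Real.pi * C1 p) + C2, add_nonneg (Finset.sum_nonneg fun p _ =>
    mul_nonneg (by positivity) (h10 p)) h20, fun u => ?_⟩
  have e : LocF B' (P.psi B'.κ) (T.T u).1 =
      (∑ p, fun j => pdv B'.κ p (LocF B (fun j x => P.psi B'.κ j x * T.a j p x) u.1 j)) +
      LocF B (fun j x => P.psi B'.κ j x * T.b j x -
        ∑ p, pAmp A j p (fun y => P.psi B'.κ j y * T.a j p y) x) u.1 := by
    funext j
    rw [T.LocF_T (P.amp_psi B'.κ) u j, Pi.add_apply, Finset.sum_apply]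
  show nF s (LocF B' (P.psi B'.κ) (T.T u).1) ≤ _
  rw [e, add_mul, Finset.sum_mul]
  refine (nF_add_le _ _ _).trans (add_le_add ((nF_sum_le _ _ _).trans
    (Finset.sum_le_sum fun p _ => ?_)) ((h2 u).trans ?_))
  · refine (nF_pdv_le s p _).trans ?_
    rw [mul_assoc (2 * Real.pi)]
    exact mul_le_mul_of_nonneg_left (h1 p u) (by positivity)
  · exact mul_le_mul_of_nonneg_left (nS_mono P B (by omega) u) h20

/-- the amplitude `χ a^p` -/
theorem amp_ca (p : RI n) (j : A.ι) : IsAmp A j (fun x => P.chi B'.κ j x * T.a j p x) :=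
  T.ampR_a p ((P.amp_chi B'.κ).amp j)

/-- the commutator of `T` with `J_N` -/
theorem comm_eq (N : ℕ) (u : Sec B) :
    T.T (JN P B N u) - JN P B' N (T.T u) =
      (∑ p, (ExtFL B' (P.amp_chi B'.κ) (fun j =>
          mulS (ampT (T.amp_ca P p j)) (pdv B.κ p (FNv B.κ n N (LocF B (P.psi B.κ) u.1 j))) -
          FNv B'.κ n N (pdv B'.κ p (mulS (ampT (T.amp_ca P p j)) (LocF B (P.psi B.κ) u.1 j)))) -
        ExtFL B' (T.ampF_a p (P.amp_chi B.κ)) (fun j =>
          mulS (ampT (IsAmp.chi P B j)) (pdv B.κ p (FNv B.κ n N (LocF B (P.psi B.κ) u.1 j))) -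
          FNv B.κ n N (pdv B.κ p (mulS (ampT (IsAmp.chi P B j))
            (LocF B (P.psi B.κ) u.1 j)))))) +
      (ExtFL B' (T.ampF_b (P.amp_chi B.κ)) (FNF (A := A) B.κ N (LocFL B (P.amp_psi B.κ) u)) -
        ExtFL B' (P.amp_chi B'.κ) (FNF (A := A) B'.κ N
          (LocFL B (T.ampFR_b (P.amp_psi B'.κ)) u))) := by
  have := Fintype.ofFinite A.ι
  have hcolC : ∀ j x, ((P.χ j x : ℝ) : ℂ) * ((P.ψ j x : ℝ) : ℂ) = ((P.ψ j x : ℝ) : ℂ) := by
    intro j x; rw [← ofReal_mul, P.chi_mul_psi]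
  set g : A.ι → B.κ → SPer (RI n) := LocF B (P.psi B.κ) u.1 with hg
  -- `X g = g`
  have hX : ∀ j, mulS (ampT (IsAmp.chi P B j)) (g j) = g j := by
    intro j
    show mulS _ (loc A j (P.psi B.κ j) (u.1 j)) = loc A j (P.psi B.κ j) (u.1 j)
    rw [mulS_loc (IsAmp.chi P B j) ((P.amp_psi B.κ).amp j) (u.2.1 j)]
    congr 1
    funext x
    simp only [Part.psi, Part.chi, Matrix.smul_mul, Matrix.one_mul, smul_smul]
    rw [hcolC]
  -- `C g = Loc (ψ a) u`
  have hC : ∀ p j, mulS (ampT (T.amp_ca P p j)) (g j) =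
      LocF B (fun j x => P.psi B'.κ j x * T.a j p x) u.1 j := by
    intro p j
    show mulS _ (loc A j (P.psi B.κ j) (u.1 j)) = loc A j (fun x => P.psi B'.κ j x * T.a j p x)
      (u.1 j)
    rw [mulS_loc (T.amp_ca P p j) ((P.amp_psi B.κ).amp j) (u.2.1 j)]
    congr 1
    funext x
    simp only [Part.psi, Part.chi, Matrix.smul_mul, Matrix.one_mul, Matrix.mul_smul,
      Matrix.mul_one, smul_smul]
    rw [mul_comm, hcolC]
  -- `Ext(χ) C = Ext(a χ) X`
  have hE : ∀ p (f : A.ι → B.κ → SPer (RI n)),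
      ExtFL B' (P.amp_chi B'.κ) (fun j => mulS (ampT (T.amp_ca P p j)) (f j)) =
      ExtFL B' (T.ampF_a p (P.amp_chi B.κ)) (fun j => mulS (ampT (IsAmp.chi P B j)) (f j)) := by
    intro p f
    apply Subtype.ext
    show ExtF B' (P.chi B'.κ) (fun j => mulS (ampT (T.amp_ca P p j)) (f j)) =
      ExtF B' (fun j x => T.a j p x * P.chi B.κ j x)
        (fun j => mulS (ampT (IsAmp.chi P B j)) (f j))
    rw [ExtF_mulS B' (b := P.chi B'.κ) (c := fun j x => P.chi B'.κ j x * T.a j p x)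
      (fun j => T.amp_ca P p j), ExtF_mulS B' (b := fun j x => T.a j p x * P.chi B.κ j x)
      (c := P.chi B.κ) (fun j => IsAmp.chi P B j)]
    congr 1
    funext j x
    simp only [Part.chi, Matrix.smul_mul, Matrix.one_mul, Matrix.mul_smul, Matrix.mul_one]
  have e1 : T.T (JN P B N u) = (∑ p, ExtFL B' (T.ampF_a p (P.amp_chi B.κ))
      (fun j => pdv B.κ p (FNv B.κ n N (g j)))) +
      ExtFL B' (T.ampF_b (P.amp_chi B.κ)) (FNF (A := A) B.κ N (LocFL B (P.amp_psi B.κ) u)) := by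
    rw [JN_apply, T.T_ExtFL]
    rfl
  have e2 : JN P B' N (T.T u) = (∑ p, ExtFL B' (P.amp_chi B'.κ)
      (fun j => FNv B'.κ n N (pdv B'.κ p (mulS (ampT (T.amp_ca P p j)) (g j))))) +
      ExtFL B' (P.amp_chi B'.κ) (FNF (A := A) B'.κ N
          (LocFL B (T.ampFR_b (P.amp_psi B'.κ)) u)) := by
    rw [JN_apply]
    have h1 : FNF (A := A) B'.κ N (LocFL B' (P.amp_psi B'.κ) (T.T u)) =
        (∑ p, fun j => FNv B'.κ n N (pdv B'.κ p (mulS (ampT (T.amp_ca P p j)) (g j)))) +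
        FNF (A := A) B'.κ N (LocFL B (T.ampFR_b (P.amp_psi B'.κ)) u) := by
      funext j
      rw [Pi.add_apply, Finset.sum_apply, FNF_apply, FNF_apply]
      have h2 : LocFL B' (P.amp_psi B'.κ) (T.T u) j = _ := T.LocF_T (P.amp_psi B'.κ) u j
      rw [h2, map_add, map_sum]
      simp only [hC]
      rfl
    rw [h1, map_add, map_sum]
  rw [e1, e2]
  have e3 : ∀ p, ExtFL B' (P.amp_chi B'.κ) (fun j =>
          mulS (ampT (T.amp_ca P p j)) (pdv B.κ p (FNv B.κ n N (g j))) -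
          FNv B'.κ n N (pdv B'.κ p (mulS (ampT (T.amp_ca P p j)) (g j)))) =
      ExtFL B' (P.amp_chi B'.κ) (fun j =>
          mulS (ampT (T.amp_ca P p j)) (pdv B.κ p (FNv B.κ n N (g j)))) -
      ExtFL B' (P.amp_chi B'.κ) (fun j =>
          FNv B'.κ n N (pdv B'.κ p (mulS (ampT (T.amp_ca P p j)) (g j)))) := by
    intro p
    rw [← map_sub]
    rfl
  have e4 : ∀ p, ExtFL B' (T.ampF_a p (P.amp_chi B.κ)) (fun j =>
          mulS (ampT (IsAmp.chi P B j)) (pdv B.κ p (FNv B.κ n N (g j))) -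
          FNv B.κ n N (pdv B.κ p (mulS (ampT (IsAmp.chi P B j)) (g j)))) =
      ExtFL B' (T.ampF_a p (P.amp_chi B.κ)) (fun j =>
          mulS (ampT (IsAmp.chi P B j)) (pdv B.κ p (FNv B.κ n N (g j)))) -
      ExtFL B' (T.ampF_a p (P.amp_chi B.κ)) (fun j => pdv B.κ p (FNv B.κ n N (g j))) := by
    intro p
    rw [← map_sub]
    congr 1
    funext j
    rw [Pi.sub_apply, hX, pdv_FNv]
  have e5 : (∑ p, (ExtFL B' (P.amp_chi B'.κ) (fun j =>
          mulS (ampT (T.amp_ca P p j)) (pdv B.κ p (FNv B.κ n N (g j))) -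
          FNv B'.κ n N (pdv B'.κ p (mulS (ampT (T.amp_ca P p j)) (g j)))) -
        ExtFL B' (T.ampF_a p (P.amp_chi B.κ)) (fun j =>
          mulS (ampT (IsAmp.chi P B j)) (pdv B.κ p (FNv B.κ n N (g j))) -
          FNv B.κ n N (pdv B.κ p (mulS (ampT (IsAmp.chi P B j)) (g j)))))) =
      (∑ p, ExtFL B' (T.ampF_a p (P.amp_chi B.κ)) (fun j => pdv B.κ p (FNv B.κ n N (g j)))) -
      ∑ p, ExtFL B' (P.amp_chi B'.κ) (fun j =>
          FNv B'.κ n N (pdv B'.κ p (mulS (ampT (T.amp_ca P p j)) (g j)))) := by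
    rw [← Finset.sum_sub_distrib]
    refine Finset.sum_congr rfl fun p _ => ?_
    rw [e3, e4, hE]
    abel
  rw [e5]
  abel

/-- (F2b) **the commutators `[T, J_N]` are bounded in `L²`, uniformly in `N`** -/
theorem comm_le : ∃ C, 0 ≤ C ∧ ∀ (N : ℕ) (u : Sec B),
    nS P B' 0 (T.T (JN P B N u) - JN P B' N (T.T u)) ≤ C * nS P B 0 u := by
  have := Fintype.ofFinite A.ι
  obtain ⟨C1, h10, h1⟩ := nS_ExtFL_le P (P.amp_chi B'.κ) 0
  choose C2 h20 h2 using fun p => nS_ExtFL_le P (T.ampF_a p (P.amp_chi B.κ)) 0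
  obtain ⟨C3, h30, h3⟩ := nS_ExtFL_le P (T.ampF_b (P.amp_chi B.κ)) 0
  obtain ⟨C4, h40, h4⟩ := nF_LocF_le P (T.ampFR_b (P.amp_psi B'.κ)) 0
  choose D1 d10 d1 using fun (p : RI n) (j : A.ι) => nv_commD_le (ampT (T.amp_ca P p j)) p
  choose D2 d20 d2 using fun (p : RI n) (j : A.ι) => nv_commD_le (ampT (IsAmp.chi P B j)) p
  refine ⟨(∑ p, (C1 * ∑ j, D1 p j + C2 p * ∑ j, D2 p j)) + (C3 + C1 * C4), ?_, fun N u => ?_⟩
  · refine add_nonneg (Finset.sum_nonneg fun p _ => add_nonneg ?_ ?_) (by positivity)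
    · exact mul_nonneg h10 (Finset.sum_nonneg fun j _ => d10 p j)
    · exact mul_nonneg (h20 p) (Finset.sum_nonneg fun j _ => d20 p j)
  rw [T.comm_eq P N u, add_mul, add_mul, Finset.sum_mul]
  refine (nS_add_le P B' 0 _ _).trans (add_le_add ((nS_sum_le P B' 0 _ _).trans
    (Finset.sum_le_sum fun p _ => ?_)) ((nS_sub_le P B' 0 _ _).trans (add_le_add ?_ ?_)))
  · rw [add_mul, mul_assoc, mul_assoc]
    refine (nS_sub_le P B' 0 _ _).trans (add_le_add ((h1 _).trans ?_) ((h2 p _).trans ?_))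
    · refine mul_le_mul_of_nonneg_left ?_ h10
      rw [nF_eq, Finset.sum_mul]
      refine Finset.sum_le_sum fun j _ => (d1 p j N _).trans ?_
      exact mul_le_mul_of_nonneg_left (nv_le_nF 0 _ j) (d10 p j)
    · refine mul_le_mul_of_nonneg_left ?_ (h20 p)
      rw [nF_eq, Finset.sum_mul]
      refine Finset.sum_le_sum fun j _ => (d2 p j N _).trans ?_
      exact mul_le_mul_of_nonneg_left (nv_le_nF 0 _ j) (d20 p j)
  · exact (h3 _).trans (mul_le_mul_of_nonneg_left (nF_FNF_le 0 N _) h30)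
  · refine (h1 _).trans ?_
    rw [mul_assoc]
    exact mul_le_mul_of_nonneg_left ((nF_FNF_le 0 N _).trans (h4 u)) h10

/-- (F2) **the commutators `[T, J_N]` tend to zero** -/
theorem tendsto_comm (s : ℕ) (u : Sec B) :
    Tendsto (fun N => nS P B' s (T.T (JN P B N u) - JN P B' N (T.T u))) atTop (𝓝 0) := by
  obtain ⟨C, hC0, hC⟩ := T.nS_le P s
  have h1 := (tendsto_JN P B (s + 1) u).const_mul C
  have h2 := h1.add (tendsto_JN P B' s (T.T u))
  rw [mul_zero, add_zero] at h2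
  refine squeeze_zero (fun _ => nS_nonneg _ _ _ _) (fun N => ?_) h2
  have h3 : T.T (JN P B N u) - JN P B' N (T.T u) =
      T.T (JN P B N u - u) - (JN P B' N (T.T u) - T.T u) := by
    rw [map_sub]; abel
  rw [h3]
  exact (nS_sub_le P B' s _ _).trans (add_le_add (hC _) le_rfl)

end FOp

end

end Crest.Agent.R273.Mol_106
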