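import Crest.Agent.R273.PB_835

/-!
# R273 (S0416), Part E (helper835): identity theorem for sections, norm along a finite covering

* `nz_dense`     : a section of a line bundle over a connected manifold which is not identically
                   zero is nonzero on a dense open set;
* `sheets`       : the local sheets of a covering map;
* `nrmS`         : the norm of a section, a section of `L ^ d`;
* `hasSec_norm`  : `HasSec L' → ∃ d > 0, HasSec (L ^ d)` for `L' ≅ p^* L`;
* `hasSec_KB`    : the case of the powers of the anticanonical bundle.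
-/

set_option autoImplicit false
set_option linter.unusedSectionVars false

open Set Filter Topology Complex
open scoped ContDiff Matrix ComplexConjugate Manifold

namespace Crest.Agent.R273.Nrm_835

open Crest.Agent.R275.Geo Crest.Agent.R275.Core144 Crest.Agent.R273.Defs_333
open Crest.Agent.R273.Map_835 Crest.Agent.R273.PB_835

noncomputable section

variable {n : ℕ} {M N : Type} [TopologicalSpace M] [TopologicalSpace N]
  {A : Atl n M} {B : Atl n N} {p : M → N} {L' : LB A} {L : LB B}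

/-! ### identity theorem -/

/-- the nonvanishing set -/
def nzs (A : Atl n M) (s : A.ι → M → ℂ) : Set M := {x | ∃ i, x ∈ (A.e i).source ∧ s i x ≠ 0}

theorem mem_nzs {s : A.ι → M → ℂ} (hs : IsHS L' univ s) {i : A.ι} {x : M}
    (hx : x ∈ (A.e i).source) : x ∈ nzs A s ↔ s i x ≠ 0 := by
  constructor
  · rintro ⟨j, hj, h0⟩ h1
    exact h0 ((hs.zero_iff ⟨hx, hj⟩ (mem_univ x)).1 h1)
  · intro h
    exact ⟨i, hx, h⟩

theorem contAt {s : A.ι → M → ℂ} (hs : IsHS L' univ s) {i : A.ι} {x : M}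
    (hx : x ∈ (A.e i).source) : ContinuousAt (s i) x := by
  have h1 := ((hs.hol i).diffAt isOpen_univ hx (mem_univ x)).continuousAt
  have h2 : ContinuousAt (fun y => s i ((A.e i).symm (A.e i y))) x :=
    ContinuousAt.comp (g := fun z => s i ((A.e i).symm z)) h1 ((A.e i).continuousAt hx)
  refine h2.congr ?_
  filter_upwards [(A.e i).open_source.mem_nhds hx] with y hy
  rw [(A.e i).left_inv hy]

theorem isOpen_nzs {s : A.ι → M → ℂ} (hs : IsHS L' univ s) : IsOpen (nzs A s) := by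
  rw [isOpen_iff_mem_nhds]
  rintro x ⟨i, hi, h0⟩
  filter_upwards [(A.e i).open_source.mem_nhds hi, (contAt hs hi).eventually_ne h0] with y h1 h2
  exact ⟨i, h1, h2⟩

/-- identity theorem -/
theorem nz_dense [PreconnectedSpace M] {s : A.ι → M → ℂ} (hs : IsHS L' univ s)
    (h0 : (nzs A s).Nonempty) : Dense (nzs A s) := by
  -- `Z` = interior of the zero set is open and closed
  set Z : Set M := (closure (nzs A s))ᶜ with hZ
  have hZo : IsOpen Z := isClosed_closure.isOpen_compl
  have hZc : IsClosed Z := by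
    rw [← isOpen_compl_iff, hZ, compl_compl, isOpen_iff_mem_nhds]
    intro x hx
    obtain ⟨i, hi⟩ := A.cover x
    by_contra hcon
    -- the section vanishes on an open set accumulating at `x`
    have hfr : ∃ᶠ y in 𝓝 x, y ∈ Z := by
      intro h
      exact hcon (by filter_upwards [h] with y hy; exact not_not.1 hy)
    obtain ⟨r, hr, hb⟩ := Metric.isOpen_iff.1 (A.e i).open_target (A.e i x)
      ((A.e i).map_source hi)
    have hnb : (A.e i).source ∩ (A.e i) ⁻¹' (Metric.ball (A.e i x) r) ∈ 𝓝 x :=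
      ((A.e i).isOpen_inter_preimage Metric.isOpen_ball).mem_nhds ⟨hi, Metric.mem_ball_self hr⟩
    obtain ⟨y, hyZ, hys, hyb⟩ := (hfr.and_eventually hnb).exists
    have han : AnalyticOnNhd ℂ (fun z => s i ((A.e i).symm z)) (Metric.ball (A.e i x) r) := by
      have h1 := Crest.Agent.R266.SCV.analyticOnNhd_of_differentiableOn
        (isOpen_ti (A := A) (i := i) isOpen_univ) (hs.hol i)
      exact h1.mono fun z hz => ⟨hb hz, mem_univ _⟩
    have hev : (fun z => s i ((A.e i).symm z)) =ᶠ[𝓝 (A.e i y)] 0 := by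
      have h2 : ContinuousAt (A.e i).symm (A.e i y) :=
        (A.e i).continuousAt_symm ((A.e i).map_source hys)
      have h3 : ∀ᶠ z in 𝓝 (A.e i y), (A.e i).symm z ∈ Z := by
        refine h2.preimage_mem_nhds ?_
        rw [(A.e i).left_inv hys]
        exact hZo.mem_nhds hyZ
      filter_upwards [h3, (A.e i).open_target.mem_nhds ((A.e i).map_source hys)] with z h4 h5
      by_contra h6
      exact h4 (subset_closure ⟨i, (A.e i).map_target h5, h6⟩)
    have hzero := han.eqOn_zero_of_preconnected_of_eventuallyEq_zero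
      (convex_ball _ _).isPreconnected hyb hev
    -- so `x` is not in the closure
    have hnot : ∀ᶠ y in 𝓝 x, y ∉ nzs A s := by
      filter_upwards [hnb] with y hy hyn
      have h7 := hzero hy.2
      simp only [Pi.zero_apply] at h7
      rw [(A.e i).left_inv hy.1] at h7
      exact (mem_nzs hs hy.1).1 hyn h7
    exact (mem_closure_iff_frequently.1 hx) hnot
  rcases isClopen_iff.1 ⟨hZc, hZo⟩ with h | h
  · intro x
    by_contra hx
    have : x ∈ Z := hx
    rw [h] at this
    exact this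
  · exfalso
    obtain ⟨x, hx⟩ := h0
    have : x ∈ Z := by rw [h]; exact mem_univ _
    exact this (subset_closure hx)

/-! ### sheets -/

/-- the sheets of a covering near a point -/
theorem sheets (hc : IsCoveringMap p) (y₀ : N) : ∃ (V : Set N) (I : Type) (σ : I → N → M),
    IsOpen V ∧ y₀ ∈ V ∧ (∀ v, ContinuousOn (σ v) V) ∧ (∀ v, ∀ y ∈ V, p (σ v y) = y) ∧
    (∀ y ∈ V, ∀ e, p e = y → ∃ v, σ v y = e) ∧
    (∀ y ∈ V, ∀ v w, σ v y = σ w y → v = w) ∧
    (∀ v, ∀ V' ⊆ V, IsOpen V' → IsOpen (σ v '' V')) ∧ Nonempty (I ≃ p ⁻¹' {y₀}) := by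
  classical
  obtain ⟨hd, U, hy, hU, hpU, H, hH⟩ := hc y₀
  refine ⟨U, p ⁻¹' {y₀}, fun v y => if h : y ∈ U then (H.symm (⟨y, h⟩, v)).1 else v.1, hU, hy,
    ?_, ?_, ?_, ?_, ?_, ⟨Equiv.refl _⟩⟩
  · intro v
    rw [continuousOn_iff_continuous_domRestrict]
    have h1 : U.domRestrict (fun y => if h : y ∈ U then (H.symm (⟨y, h⟩, v)).1 else v.1) =
        fun y : U => (H.symm (y, v)).1 := by
      funext y
      simp [domRestrict, y.2]
    have h2 : Continuous fun y : U => (H.symm (y, v)).1 :=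
      continuous_subtype_val.comp (H.symm.continuous.comp (by fun_prop))
    rw [← h1] at h2
    exact h2
  · intro v y hy
    simp only [hy, dif_pos]
    have := hH (H.symm (⟨y, hy⟩, v))
    rw [H.apply_symm_apply] at this
    exact this.symm
  · intro y hy e he
    have he' : e ∈ p ⁻¹' U := by rw [mem_preimage, he]; exact hy
    refine ⟨(H ⟨e, he'⟩).2, ?_⟩
    simp only [hy, dif_pos]
    have h1 : (⟨y, hy⟩ : U) = (H ⟨e, he'⟩).1 := by
      ext
      rw [hH]
      exact he.symm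
    rw [h1, Prod.mk.eta, H.symm_apply_apply]
  · intro y hy v w hvw
    simp only [hy, dif_pos] at hvw
    have h1 := H.symm.injective (Subtype.ext hvw)
    exact congrArg Prod.snd h1
  · intro v V' hV' hVo
    have h1 : (fun y => if h : y ∈ U then (H.symm (⟨y, h⟩, v)).1 else v.1) '' V' =
        Subtype.val '' (H.symm '' {q : U × (p ⁻¹' {y₀}) | q.1.1 ∈ V' ∧ q.2 = v}) := by
      ext e
      constructor
      · rintro ⟨y, hyV, rfl⟩
        have hyU := hV' hyV
        refine ⟨H.symm (⟨y, hyU⟩, v), ⟨(⟨y, hyU⟩, v), ⟨hyV, rfl⟩, rfl⟩, ?_⟩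
        simp only [hyU, dif_pos]
      · rintro ⟨_, ⟨⟨y, w⟩, ⟨h1, h2⟩, rfl⟩, rfl⟩
        simp only at h1 h2
        subst h2
        refine ⟨y.1, h1, ?_⟩
        simp only [y.2, dif_pos, Subtype.coe_eta]
    rw [h1]
    refine hpU.isOpenMap_subtype_val _ (H.symm.isOpenMap _ ?_)
    have h2 : IsOpen ({v} : Set (p ⁻¹' {y₀})) := isOpen_discrete _
    exact (hVo.preimage (continuous_subtype_val.comp continuous_fst)).inter
      (h2.preimage continuous_snd)

theorem card_const [PreconnectedSpace N] (hc : IsCoveringMap p) (y₁ y₂ : N) :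
    Nat.card (p ⁻¹' {y₁}) = Nat.card (p ⁻¹' {y₂}) := by
  have h1 : IsLocallyConstant fun y => Nat.card (p ⁻¹' {y}) := by
    rw [IsLocallyConstant.iff_eventually_eq]
    intro y₀
    obtain ⟨V, I, σ, hV, hy, -, hp, hs, hi, -, -⟩ := sheets hc y₀
    have h2 : ∀ y ∈ V, Nat.card (p ⁻¹' {y}) = Nat.card I := by
      intro y hy
      refine (Nat.card_congr (Equiv.ofBijective
        (fun v : I => (⟨σ v y, hp v y hy⟩ : p ⁻¹' {y})) ⟨?_, ?_⟩)).symm
      · intro v w h
        exact hi y hy v w (congrArg Subtype.val h)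
      · rintro ⟨e, he⟩
        obtain ⟨v, hv⟩ := hs y hy e he
        exact ⟨v, Subtype.ext hv⟩
    filter_upwards [hV.mem_nhds hy] with y hyV
    rw [h2 y hyV, h2 y₀ hy]
  exact h1.apply_eq_of_preconnectedSpace y₁ y₂

/-! ### the norm -/

/-- the quotient of the section by the frame of `L` -/
def qt (T : PB p L' L) (s : A.ι → M → ℂ) (j : B.ι) (e : M) : ℂ :=
  s (PB.ch A e) e / T.c (PB.ch A e) j e

theorem qt_eq (T : PB p L' L) {s : A.ι → M → ℂ} (hs : IsHS L' univ s) {i : A.ι} {j : B.ι} {e : M}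
    (hi : e ∈ (A.e i).source) (hj : p e ∈ (B.e j).source) : qt T s j e = s i e / T.c i j e := by
  have h1 := T.ne i j e hi hj
  have h2 := T.ne (PB.ch A e) j e (PB.ch_mem A e) hj
  rw [qt, div_eq_div_iff h2 h1, hs.tr (PB.ch A e) i e ⟨PB.ch_mem A e, hi⟩ (mem_univ _),
    ← T.left (PB.ch A e) i j e ⟨PB.ch_mem A e, hi⟩ hj]
  ring

theorem qt_tr (T : PB p L' L) (s : A.ι → M → ℂ) {j j' : B.ι} {e : M}
    (hj : p e ∈ (B.e j).source ∩ (B.e j').source) :
    qt T s j e = L.g j j' (p e) * qt T s j' e := by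
  have h1 := T.ne (PB.ch A e) j e (PB.ch_mem A e) hj.1
  have h2 := L.ne_zero j j' (p e)
  rw [qt, qt, ← T.right _ j j' e (PB.ch_mem A e) hj]
  field_simp

/-- the norm of a section -/
def nrmS (T : PB p L' L) (s : A.ι → M → ℂ) : B.ι → N → ℂ := fun j y =>
  open Classical in
  if y ∈ (B.e j).source then ∏ᶠ e : p ⁻¹' {y}, qt T s j e.1 else 0

theorem LB_pow_g (L : LB B) (m : ℕ) (i j : B.ι) (x : N) :
    (L ^ m : LB B).g i j x = L.g i j x ^ m := HM_333.LB_pow_g L m i j x

theorem nrmS_isHS (h : LBih A B p) (hc : IsCoveringMap p) (hf : ∀ y, Finite (p ⁻¹' {y})) {d : ℕ}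
    (hd : ∀ y, Nat.card (p ⁻¹' {y}) = d) (T : PB p L' L) {s : A.ι → M → ℂ}
    (hs : IsHS L' univ s) : IsHS (L ^ d) univ (nrmS T s) := by
  classical
  refine ⟨fun j => ?_, fun j y hy => if_neg hy, fun j j' y hy _ => ?_⟩
  · refine holAt_of_local fun y₀ hy₀ _ => ?_
    obtain ⟨V, I, σ, hV, hyV, hσc, hσp, hσs, hσi, -, ⟨eqv⟩⟩ := sheets hc y₀
    have : Finite I := Finite.of_equiv _ eqv.symm
    have := Fintype.ofFinite I
    choose i hi using fun v : I => A.cover (σ v y₀)
    -- the neighbourhood where `σ v` stays in the chart `i v`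
    have hW : ∀ v, IsOpen (V ∩ (σ v) ⁻¹' (A.e (i v)).source) := fun v =>
      (hσc v).isOpen_inter_preimage hV (A.e (i v)).open_source
    refine ⟨V ∩ ⋂ v, (V ∩ (σ v) ⁻¹' (A.e (i v)).source) ∩ (B.e j).source, ?_, ?_, ?_⟩
    · exact hV.inter (isOpen_iInter_of_finite fun v => (hW v).inter (B.e j).open_source)
    · exact ⟨hyV, mem_iInter.2 fun v => ⟨⟨hyV, hi v⟩, hy₀⟩⟩
    · have h1 : HolAt B j (V ∩ ⋂ v, (V ∩ (σ v) ⁻¹' (A.e (i v)).source) ∩ (B.e j).source)
          (fun y => ∏ v : I, (fun e => s (i v) e / T.c (i v) j e) (σ v y)) := by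
        refine HolAt.prod _ fun v _ => ?_
        have hf : HolAt A (i v) (p ⁻¹' (B.e j).source) (fun e => s (i v) e / T.c (i v) j e) := by
          have h2 := ((hs.hol (i v)).mono (subset_univ (p ⁻¹' (B.e j).source))).mul
            ((T.hol (i v) j).inv fun x hx hj => T.ne (i v) j x hx hj)
          simpa only [div_eq_mul_inv] using h2
        have h3 := h.sec_holAt (j := j) hV (hσc v) (hσp v)
          ((B.e j).open_source.preimage h.cont) hf
        refine h3.mono ?_
        rintro y ⟨hy1, hy2⟩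
        have hy3 := mem_iInter.1 hy2 v
        refine ⟨hy1, ?_, hy3.1.2⟩
        show p (σ v y) ∈ (B.e j).source
        rw [hσp v y hy1]
        exact hy3.2
      refine h1.congr fun y hyj hy => ?_
      have hy1 := hy.1
      rw [nrmS, if_pos hyj]
      have hbij : Function.Bijective (fun v : I => (⟨σ v y, hσp v y hy1⟩ : p ⁻¹' {y})) := by
        refine ⟨fun v w hvw => hσi y hy1 v w (congrArg Subtype.val hvw), ?_⟩
        rintro ⟨e, he⟩
        obtain ⟨v, hv⟩ := hσs y hy1 e he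
        exact ⟨v, Subtype.ext hv⟩
      rw [← finprod_eq_of_bijective (f := fun v : I => qt T s j (σ v y))
        (g := fun e : p ⁻¹' {y} => qt T s j e.1) _ hbij (fun v => rfl), finprod_eq_prod_of_fintype]
      refine Finset.prod_congr rfl fun v _ => ?_
      have hy3 := mem_iInter.1 hy.2 v
      exact (qt_eq T hs hy3.1.2 (by rw [hσp v y hy1]; exact hyj)).symm
  · have := hf y
    have := Fintype.ofFinite (p ⁻¹' {y})
    rw [nrmS, if_pos hy.1, nrmS, if_pos hy.2, finprod_eq_prod_of_fintype,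
      finprod_eq_prod_of_fintype, LB_pow_g, ← hd y, Nat.card_eq_fintype_card,
      ← Finset.card_univ, ← Finset.prod_const, ← Finset.prod_mul_distrib]
    refine Finset.prod_congr rfl fun e _ => ?_
    have he : p e.1 = y := e.2
    have h1 := qt_tr T s (j := j) (j' := j') (e := e.1) (by rw [he]; exact hy)
    rw [h1, he]

/-- the norm of a nonzero section is nonzero -/
theorem hasSec_norm [PreconnectedSpace M] [PreconnectedSpace N] (h : LBih A B p)
    (hc : IsCoveringMap p) (hf : ∀ y, Finite (p ⁻¹' {y})) (T : PB p L' L) (H : HasSec L') :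
    ∃ d, 0 < d ∧ (∀ y, Nat.card (p ⁻¹' {y}) = d) ∧ HasSec (L ^ d) := by
  classical
  obtain ⟨s, hs, i, x, hx, hne⟩ := H
  set y₀ := p x
  have hd : ∀ y, Nat.card (p ⁻¹' {y}) = Nat.card (p ⁻¹' {y₀}) := fun y => card_const hc y y₀
  have hdp : 0 < Nat.card (p ⁻¹' {y₀}) := by
    have : Nonempty (p ⁻¹' {y₀}) := ⟨⟨x, rfl⟩⟩
    have := hf y₀
    exact Nat.card_pos
  refine ⟨_, hdp, hd, nrmS T s, nrmS_isHS h hc hf hd T hs, ?_⟩
  have hD := nz_dense hs ⟨x, i, hx, hne⟩
  have hDo := isOpen_nzs hs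
  obtain ⟨V, I, σ, hV, hyV, hσc, hσp, hσs, hσi, hσo, ⟨eqv⟩⟩ := sheets hc y₀
  have hfin := hf y₀
  have : Finite I := Finite.of_equiv _ eqv.symm
  have := Fintype.ofFinite I
  obtain ⟨V', hV'V, hV'o, hV'ne, hV'⟩ : ∃ V' ⊆ V, IsOpen V' ∧ V'.Nonempty ∧
      ∀ v ∈ (Finset.univ : Finset I), ∀ y ∈ V', σ v y ∈ nzs A s := by
    induction (Finset.univ : Finset I) using Finset.induction_on with
    | empty => exact ⟨V, subset_rfl, hV, ⟨y₀, hyV⟩, fun v hv => absurd hv (by simp)⟩
    | insert v F hv ih =>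
      obtain ⟨W, hWV, hWo, hWn, hW⟩ := ih
      obtain ⟨e, ⟨y, hy, rfl⟩, heD⟩ := hD.inter_open_nonempty _ (hσo v W hWV hWo) (hWn.image _)
      refine ⟨W ∩ (σ v) ⁻¹' (nzs A s), fun z hz => hWV hz.1,
        ((hσc v).mono hWV).isOpen_inter_preimage hWo hDo, ⟨y, hy, heD⟩, ?_⟩
      intro w hw z hz
      rcases Finset.mem_insert.1 hw with rfl | hw
      · exact hz.2
      · exact hW w hw z hz.1
  obtain ⟨y, hy⟩ := hV'ne
  obtain ⟨j, hj⟩ := B.cover y
  refine ⟨j, y, hj, ?_⟩
  have := hf y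
  have := Fintype.ofFinite (p ⁻¹' {y})
  rw [nrmS, if_pos hj, finprod_eq_prod_of_fintype, Finset.prod_ne_zero_iff]
  rintro ⟨e, he⟩ _
  have he' : p e = y := he
  obtain ⟨v, hv⟩ := hσs y (hV'V hy) e he'
  have h1 : e ∈ nzs A s := by rw [← hv]; exact hV' v (Finset.mem_univ _) y hy
  show qt T s j e ≠ 0
  rw [qt]
  refine div_ne_zero ((mem_nzs hs (PB.ch_mem A e)).1 h1) (T.ne _ _ _ (PB.ch_mem A e) ?_)
  rw [he']
  exact hj

/-- (NORM) for the powers of the anticanonical bundle -/
theorem hasSec_KB [PreconnectedSpace M] [PreconnectedSpace N] (h : LBih A B p)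
    (hc : IsCoveringMap p) (hf : ∀ y, Finite (p ⁻¹' {y})) {m : ℕ} (hm : 0 < m)
    (H : HasSec ((KB A)⁻¹ ^ m)) : ∃ m', 0 < m' ∧ HasSec ((KB B)⁻¹ ^ m') := by
  obtain ⟨d, hd, -, h1⟩ := hasSec_norm h hc hf ((PB.KB h).inv.pow m) H
  exact ⟨m * d, Nat.mul_pos hm hd, by rw [pow_mul]; exact h1⟩

end

end Crest.Agent.R273.Nrm_835
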