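import Crest.Agent.R273.CovI_835
import Crest.Agent.R273.SerC_945

/-!
# R273 (S0416), Part E (helper835): PCOV, homogeneous coordinates on finite étale coverings

`fdOf h R P hf` : 945's data `FD` for the pull-back of the hyperplane bundle along a locally
biholomorphic map with finite fibres;
`pcov_of`       : `ProjD A` from the vanishing `Solv (O ^ m) q` and the finiteness of `H⁰`;
`pcov_cov_of`   : the case of 914's coverings `D.cov F`.
-/

set_option autoImplicit false
set_option linter.unusedSectionVars false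

open Set Filter Topology Complex
open scoped ContDiff Matrix ComplexConjugate Manifold

namespace Crest.Agent.R273.PCov_835

open Crest.Agent.R275.Geo Crest.Agent.R275.Core144 Crest.Agent.R275.GC293
open Crest.Agent.R273.Defs_333 Crest.Agent.R273.Map_835 Crest.Agent.R273.PB_835
open Crest.Agent.R273.Fam_835 Crest.Agent.R273.FS_333 Crest.Agent.R273.UCov_914
open Crest.Agent.R273.PCovA_835 Crest.Agent.R273.CovI_835 Crest.Agent.R273.SerC_945 Crest.Agent.R273.SerB_945

noncomputable section

variable {n : ℕ} {M N : Type} [TopologicalSpace M] [TopologicalSpace N]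
  {A : Atl n M} {B : Atl n N} {p : M → N}

/-- the pulled back homogeneous coordinates -/
def fdOf (h : LBih A B p) (R : Ref A B p) (P : ProjD B) (hf : ∀ y, (p ⁻¹' {y}).Finite) :
    FD (OB h.toHolMap R P) where
  N := P.N
  F := Fk R P
  hs k := Fk_hs h.toHolMap k
  ne _ _ hx := Fk_ne hx
  imm _ _ hz _ := fun ⟨_, hc⟩ => Fk_imm h hz hc
  fin x := (hf (p x)).subset fun y hy => by
    obtain ⟨i, j, hi, hj, c, hc⟩ := hy
    exact Fk_prop hj hi hc

/-- PCOV, conditional on the vanishing theorem and the finiteness of `H⁰` -/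
theorem pcov_of [T2Space M] [CompactSpace M] (h : LBih A B p) (R : Ref A B p) (P : ProjD B)
    (hf : ∀ y, (p ⁻¹' {y}).Finite) (hfd : ∀ L : LB A, FiniteDimensional ℂ (HS L univ)) {m0 : ℕ}
    (hV : ∀ m, m0 ≤ m → ∀ q, 1 ≤ q → Solv ((OB h.toHolMap R P) ^ m) q) {m : ℕ}
    (hm : m0 + n + 1 ≤ m) : ∃ P' : ProjD A, lb P' = (OB h.toHolMap R P) ^ m := by
  obtain ⟨P', hP'⟩ := exists_projD (fdOf h R P hf) 1 hfd (m0 := m0)
    (fun m hm q hq => by rw [one_mul]; exact hV m hm q hq) hm
  exact ⟨P', by rw [hP', one_mul]⟩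

variable {G : Type} [Group G] (D : MonD A G) (F : Type) [MulAction G F]

/-- 914's pull-back agrees with the pull-back along the projection -/
theorem pullLB_eq (L : LB A) : PB_835.pullLB (holMap_pr D F) (refPr D F) L = D.pullLB F L := by
  refine MonD.LB_ext_on ?_
  intro i j e he
  rw [PB_835.pullLB_g (holMap_pr D F) (refPr D F) L he, D.pullLB_g L he]
  rfl

end

end Crest.Agent.R273.PCov_835
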