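import Crest.Agent.R273.RetB_155

/-!
# R273 (S0416), torus step (helper155): the fixed locus of a holomorphic retraction

`HRet A`      : a holomorphic retraction `r : U → U`, `r ∘ r = r`, of an open subset of `M`;
`HRet.F`      : its image = fixed locus;
`HRet.exists_adp` : adapted charts around the points of `F` in which `r` is a linear projection;
`HRet.exists_fam` : the same dimension everywhere if `F` is connected.
-/

set_option autoImplicit false
set_option linter.unusedSectionVars false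

open Set Filter Topology
open scoped ContDiff Manifold

namespace Crest.Agent.R273.Ret_155

open Crest.Agent.R275.Geo Crest.Agent.R275.Core144 Crest.Agent.R273.Map_835

noncomputable section

variable {n : ℕ} {M : Type} [TopologicalSpace M] {A : Atl n M} {d d' : ℕ}

/-- a holomorphic retraction of the open set `U` -/
structure HRet (A : Atl n M) where
  U : Set M
  isOpen_U : IsOpen U
  r : M → M
  maps : MapsTo r U U
  idem : ∀ x ∈ U, r (r x) = r x
  cont : ContinuousOn r U
  hol : ∀ i j, DifferentiableOn ℂ (fun z => A.e j (r ((A.e i).symm z)))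
    ((A.e i).target ∩ (A.e i).symm ⁻¹' (U ∩ r ⁻¹' (A.e j).source))

namespace HRet

/-- the image = the fixed locus -/
def F (R : HRet A) : Set M := {x | x ∈ R.U ∧ R.r x = x}

theorem mem_F (R : HRet A) {x : M} : x ∈ R.F ↔ x ∈ R.U ∧ R.r x = x := Iff.rfl

theorem r_mem (R : HRet A) {x : M} (hx : x ∈ R.U) : R.r x ∈ R.F := ⟨R.maps hx, R.idem x hx⟩

theorem F_sub (R : HRet A) : R.F ⊆ R.U := fun _ h => h.1

theorem F_eq (R : HRet A) : R.F = R.r '' R.U := by
  ext x
  constructor
  · rintro ⟨h1, h2⟩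
    exact ⟨x, h1, h2⟩
  · rintro ⟨y, hy, rfl⟩
    exact R.r_mem hy

theorem isOpen_pre (R : HRet A) {S : Set M} (hS : IsOpen S) : IsOpen (R.U ∩ R.r ⁻¹' S) :=
  R.cont.isOpen_inter_preimage R.isOpen_U hS

/-- compatibility of an adapted chart with the retraction -/
structure Cmp (R : HRet A) (a : Adp A R.F d) : Prop where
  sub : a.φ.source ⊆ R.U
  maps : MapsTo R.r a.φ.source a.φ.source
  lin : ∀ x ∈ a.φ.source, a.φ (R.r x) = a.K (a.L (a.φ x))
  dom : ∃ i, a.φ.source ⊆ (A.e i).source

/-- adapted charts around the points of `F` -/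
theorem exists_adp (R : HRet A) {p : M} (hp : p ∈ R.F) {O : Set M} (hO : IsOpen O)
    (hpO : p ∈ O) : ∃ (d : ℕ) (a : Adp A R.F d), p ∈ a.φ.source ∧ a.φ.source ⊆ O ∧ R.Cmp a := by
  obtain ⟨i, hi⟩ := A.cover p
  set W : Set (Cn n) := (A.e i).target ∩ (A.e i).symm ⁻¹'
    ((R.U ∩ R.r ⁻¹' (A.e i).source) ∩ O) with hWdef
  have hW : IsOpen W :=
    (A.e i).isOpen_inter_preimage_symm ((R.isOpen_pre (A.e i).open_source).inter hO)
  have hz0 : A.e i p ∈ W := by
    refine ⟨(A.e i).map_source hi, ?_⟩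
    rw [mem_preimage, (A.e i).left_inv hi]
    exact ⟨⟨hp.1, by rw [mem_preimage, hp.2]; exact hi⟩, hpO⟩
  have hRd : DifferentiableOn ℂ (fun z => A.e i (R.r ((A.e i).symm z))) W := by
    refine (R.hol i i).mono ?_
    rintro z ⟨h1, h2⟩
    exact ⟨h1, h2.1⟩
  have hRa := Crest.Agent.R266.SCV.analyticOnNhd_of_differentiableOn hW hRd
  have hid : ∀ z ∈ W, A.e i (R.r ((A.e i).symm (A.e i (R.r ((A.e i).symm z))))) =
      A.e i (R.r ((A.e i).symm z)) := by
    rintro z ⟨h1, h2⟩
    rw [(A.e i).left_inv h2.1.2, R.idem _ h2.1.1]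
  obtain ⟨e, P, hPP, he0, heW, -, hea, hes, hmap, hlin, -⟩ :=
    straight (R := fun z => A.e i (R.r ((A.e i).symm z))) (z0 := A.e i p) hW hz0 hRa
      (by simp only [(A.e i).left_inv hi, hp.2]) hid
  obtain ⟨d, L, K, hLK, hKL⟩ := exists_coord P hPP
  have hLK' : ∀ w, L (K w) = w := fun w => congrArg (fun T : Cn d →L[ℂ] Cn d => T w) hLK
  have hKL' : ∀ v, K (L v) = P v := fun v => congrArg (fun T : Cn n →L[ℂ] Cn n => T v) hKL
  set φ : OpenPartialHomeomorph M (Cn n) := (A.e i) ≫ₕ e with hφ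
  have hsrc : ∀ x, x ∈ φ.source ↔ x ∈ (A.e i).source ∧ A.e i x ∈ e.source := by
    intro x
    rw [hφ, OpenPartialHomeomorph.trans_source]
    exact Iff.rfl
  have htgt : ∀ w, w ∈ φ.target → w ∈ e.target ∧ e.symm w ∈ (A.e i).target := by
    intro w hw
    rw [hφ, OpenPartialHomeomorph.trans_target] at hw
    exact hw
  have hφx : ∀ x, φ x = e (A.e i x) := fun x => rfl
  have hφs : ∀ w, φ.symm w = (A.e i).symm (e.symm w) := fun w => rfl
  -- facts on the source
  have hfact : ∀ x ∈ φ.source, x ∈ R.U ∧ R.r x ∈ (A.e i).source ∧ x ∈ O ∧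
      A.e i (R.r x) ∈ e.source := by
    intro x hx
    obtain ⟨h1, h2⟩ := (hsrc x).1 hx
    have h3 := heW h2
    have h4 := h3.2
    rw [mem_preimage, (A.e i).left_inv h1] at h4
    refine ⟨h4.1.1, h4.1.2, h4.2, ?_⟩
    have h5 := hmap h2
    simp only [(A.e i).left_inv h1] at h5
    exact h5
  have hlin' : ∀ x ∈ φ.source, φ (R.r x) = P (φ x) := by
    intro x hx
    obtain ⟨h1, h2⟩ := (hsrc x).1 hx
    have h3 := hlin _ h2
    rw [(A.e i).left_inv h1] at h3
    rw [hφx, hφx, h3]
  let a : Adp A R.F d :=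
    { φ := φ
      hol := by
        intro j
        refine DifferentiableOn.comp (g := fun v => e v) (f := fun z => A.e i ((A.e j).symm z))
          (t := e.source) hea.differentiableOn ((A.holo j i).mono ?_) ?_
        · rintro z ⟨h1, h2⟩
          exact ⟨h1, ((hsrc _).1 h2).1⟩
        · rintro z ⟨h1, h2⟩
          exact ((hsrc _).1 h2).2
      hol' := by
        intro j
        refine DifferentiableOn.comp (g := fun v => A.e j ((A.e i).symm v))
          (f := fun w => e.symm w) (t := A.ov i j) (A.holo i j)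
          (hes.differentiableOn.mono ?_) ?_
        · rintro w ⟨h1, h2⟩
          exact (htgt w h1).1
        · rintro w ⟨h1, h2⟩
          exact ⟨(htgt w h1).2, h2⟩
      L := L
      K := K
      LK := hLK'
      mem_iff := by
        intro x hx
        obtain ⟨h1, h2⟩ := (hsrc x).1 hx
        obtain ⟨f1, f2, f3, f4⟩ := hfact x hx
        rw [hKL']
        constructor
        · intro h
          rw [← hlin' x hx, h.2]
        · intro h
          refine ⟨f1, ?_⟩
          rw [← hlin' x hx, hφx, hφx] at h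
          have h5 : A.e i (R.r x) = A.e i x := e.injOn f4 h2 h
          exact (A.e i).injOn f2 h1 h5 }
  refine ⟨d, a, ?_, ?_, ?_, ?_, ?_, ?_⟩
  · exact (hsrc p).2 ⟨hi, he0⟩
  · exact fun x hx => (hfact x hx).2.2.1
  · exact fun x hx => (hfact x hx).1
  · intro x hx
    obtain ⟨f1, f2, f3, f4⟩ := hfact x hx
    exact (hsrc _).2 ⟨f2, f4⟩
  · intro x hx
    show φ (R.r x) = K (L (φ x))
    rw [hKL', hlin' x hx]
  · exact ⟨i, fun x hx => ((hsrc x).1 hx).1⟩

/-- a family of adapted charts, all of the same dimension -/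
theorem exists_fam (R : HRet A) (hc : IsConnected R.F) :
    ∃ (d : ℕ) (G : Fam A R.F d), ∀ x, R.Cmp (G.a x) := by
  have h1 : ∀ p : R.F, ∃ (d : ℕ) (a : Adp A R.F d), (p : M) ∈ a.φ.source ∧ R.Cmp a := by
    intro p
    obtain ⟨d, a, h1, _, h2⟩ := R.exists_adp p.2 isOpen_univ (mem_univ _)
    exact ⟨d, a, h1, h2⟩
  choose dd aa hmem hcmp using h1
  have hloc : IsLocallyConstant dd := by
    rw [IsLocallyConstant.iff_eventually_eq]
    intro x
    have h2 : {y : R.F | (y : M) ∈ (aa x).φ.source} ∈ 𝓝 x :=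
      ((aa x).φ.open_source.preimage continuous_subtype_val).mem_nhds (hmem x)
    filter_upwards [h2] with y hy
    exact (aa y).dim_eq (aa x) y.2 (hmem y) hy
  have hpc : PreconnectedSpace R.F := Subtype.preconnectedSpace hc.isPreconnected
  obtain ⟨x0, hx0⟩ := hc.nonempty
  have hconst : ∀ x, dd x = dd ⟨x0, hx0⟩ := fun x => hloc.apply_eq_of_preconnectedSpace _ _
  refine ⟨dd ⟨x0, hx0⟩, ⟨fun x => hconst x ▸ aa x, fun x => ?_⟩, fun x => ?_⟩
  · have : ∀ (d : ℕ) (h : dd x = d), (x : M) ∈ ((h ▸ aa x : Adp A R.F d)).φ.source := by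
      rintro d rfl
      exact hmem x
    exact this _ (hconst x)
  · have : ∀ (d : ℕ) (h : dd x = d), R.Cmp (h ▸ aa x : Adp A R.F d) := by
      rintro d rfl
      exact hcmp x
    exact this _ (hconst x)

end HRet

end

end Crest.Agent.R273.Ret_155
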