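import Mathlib

/-!
# R273 (S0416), torus step BP-T (helper522): formalism independent group theory

* `norm_const_le`  : constant coefficient of a trigonometric polynomial on any abelian group
* `kron_dense`     : Kronecker's theorem for characters of any abelian group
* `kron_flow`      : the same in the shape used by BP-T (T2)
* `exists_pow_torsionFree` : (T1) killing the torsion of a finitely generated group of characters
* `gordan`         : (T9) Gordan's alternative for integer vectors, with a generic functional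
-/

set_option autoImplicit false

open Finset Filter Topology
open scoped ComplexConjugate

namespace Crest.Agent.R273.TorG_522

noncomputable section

section mean

variable {Λ : Type*} [AddCommGroup Λ]

theorem norm_geom_le {z : ℂ} (hz : ‖z‖ = 1) (N : ℕ) : ‖∑ k ∈ range N, z ^ k‖ * ‖z - 1‖ ≤ 2 := by
  rw [← norm_mul, geom_sum_mul]
  refine (norm_sub_le _ _).trans ?_
  rw [norm_pow, hz]
  norm_num

/-- the constant coefficient of a trigonometric polynomial is bounded by its supremum -/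
theorem norm_const_le {ι : Type*} [DecidableEq ι] (s : Finset ι) (ψ : ι → AddChar Λ Circle)
    (hψ : ∀ i ∈ s, ψ i ≠ 1) (c0 : ℂ) : ∀ (c : ι → ℂ) (B : ℝ),
    (∀ γ, ‖c0 + ∑ i ∈ s, c i * (ψ i γ : ℂ)‖ ≤ B) → ‖c0‖ ≤ B := by
  induction s using Finset.induction_on with
  | empty =>
    intro c B h
    simpa using h 0
  | insert j s hj ih =>
    intro c B h
    obtain ⟨γ0, hγ0⟩ := (AddChar.ne_one_iff).1 (hψ j (mem_insert_self _ _))
    set z : ℂ := (ψ j γ0 : ℂ) with hz
    have hz1 : ‖z‖ = 1 := Circle.norm_coe _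
    have hzne : z - 1 ≠ 0 := by
      intro h0
      apply hγ0
      refine Circle.ext ?_
      rw [Circle.coe_one]
      exact sub_eq_zero.1 h0
    have hzpos : 0 < ‖z - 1‖ := norm_pos_iff.2 hzne
    -- averaged inequality
    have key : ∀ N : ℕ, 0 < N → ‖c0‖ ≤ B + ‖c j‖ * (2 / ‖z - 1‖) / N := by
      intro N hN
      have hN' : (N : ℂ) ≠ 0 := by exact_mod_cast hN.ne'
      have hNr : (0 : ℝ) < N := by exact_mod_cast hN
      apply ih (fun i hi => hψ i (mem_insert_of_mem hi))
        (fun i => c i * ((∑ k ∈ range N, (ψ i γ0 : ℂ) ^ k) / N))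
      intro γ
      have e : c0 + ∑ i ∈ s, c i * ((∑ k ∈ range N, (ψ i γ0 : ℂ) ^ k) / N) * (ψ i γ : ℂ) =
          (∑ k ∈ range N, (c0 + ∑ i ∈ insert j s, c i * (ψ i (γ + k • γ0) : ℂ))) / N
            - c j * ((∑ k ∈ range N, z ^ k) / N) * (ψ j γ : ℂ) := by
        have e1 : ∀ k : ℕ, (c0 + ∑ i ∈ insert j s, c i * (ψ i (γ + k • γ0) : ℂ)) =
            c0 + (c j * z ^ k * (ψ j γ : ℂ) + ∑ i ∈ s, c i * (ψ i γ0 : ℂ) ^ k * (ψ i γ : ℂ)) := by
          intro k
          rw [sum_insert hj]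
          have e2 : ∀ i, (ψ i (γ + k • γ0) : ℂ) = (ψ i γ0 : ℂ) ^ k * (ψ i γ : ℂ) := by
            intro i
            rw [AddChar.map_add_eq_mul, AddChar.map_nsmul_eq_pow]
            push_cast
            ring
          simp only [e2, ← mul_assoc]
          rw [hz]
        simp only [e1]
        rw [sum_add_distrib, sum_add_distrib, sum_const, card_range, nsmul_eq_mul, sum_comm,
          ← sum_mul, ← mul_sum]
        have e3 : ∀ i ∈ s, ∑ k ∈ range N, c i * (ψ i γ0 : ℂ) ^ k * (ψ i γ : ℂ) =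
            c i * (∑ k ∈ range N, (ψ i γ0 : ℂ) ^ k) * (ψ i γ : ℂ) := by
          intro i _
          rw [← sum_mul, ← mul_sum]
        rw [sum_congr rfl e3]
        have e4 : ∑ i ∈ s, c i * ((∑ k ∈ range N, (ψ i γ0 : ℂ) ^ k) / N) * (ψ i γ : ℂ) =
            (∑ i ∈ s, c i * (∑ k ∈ range N, (ψ i γ0 : ℂ) ^ k) * (ψ i γ : ℂ)) / N := by
          rw [sum_div]
          refine sum_congr rfl fun i _ => ?_
          ring
        rw [e4]
        field_simp
        ring
      rw [e]
      refine (norm_sub_le _ _).trans (add_le_add ?_ ?_)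
      · rw [norm_div, Complex.norm_natCast, div_le_iff₀ hNr]
        refine (norm_sum_le _ _).trans ?_
        refine (sum_le_sum fun k _ => h (γ + k • γ0)).trans ?_
        rw [sum_const, card_range, nsmul_eq_mul]
        exact le_of_eq (by ring)
      · rw [norm_mul, norm_mul, norm_div, Complex.norm_natCast, Circle.norm_coe, mul_one, mul_div]
        refine div_le_div_of_nonneg_right ?_ hNr.le
        refine mul_le_mul_of_nonneg_left ?_ (norm_nonneg _)
        rw [le_div_iff₀ hzpos]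
        exact norm_geom_le hz1 N
    refine le_of_forall_pos_le_add fun ε hε => ?_
    obtain ⟨N, hN⟩ := exists_nat_gt ((‖c j‖ * (2 / ‖z - 1‖)) / ε)
    have hN0 : 0 < N := by
      rcases Nat.eq_zero_or_pos N with h0 | h0
      · subst h0
        have : 0 ≤ (‖c j‖ * (2 / ‖z - 1‖)) / ε := by positivity
        simp only [Nat.cast_zero] at hN
        linarith
      · exact h0
    have hNr : (0 : ℝ) < N := by exact_mod_cast hN0
    refine (key N hN0).trans (add_le_add le_rfl ?_)
    rw [div_lt_iff₀ hε] at hN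
    rw [div_le_iff₀ hNr]
    linarith

/-- version with several (possibly trivial) characters -/
theorem norm_const_le' {ι : Type*} [DecidableEq ι] (s : Finset ι) (ψ : ι → AddChar Λ Circle)
    (c : ι → ℂ) (B : ℝ) (h : ∀ γ, ‖∑ i ∈ s, c i * (ψ i γ : ℂ)‖ ≤ B) :
    ‖∑ i ∈ s with ψ i = 1, c i‖ ≤ B := by
  refine norm_const_le (s.filter fun i => ψ i ≠ 1) ψ (fun i hi => (mem_filter.1 hi).2) _ c B
    fun γ => ?_
  have e : ∑ i ∈ s with ψ i = 1, c i = ∑ i ∈ s with ψ i = 1, c i * (ψ i γ : ℂ) := by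
    refine sum_congr rfl fun i hi => ?_
    rw [(mem_filter.1 hi).2]
    simp
  rw [e]
  have := sum_filter_add_sum_filter_not s (fun i => ψ i = 1) (fun i => c i * (ψ i γ : ℂ))
  rw [this]
  exact h γ

end mean

section kron

variable {Λ : Type*} [AddCommGroup Λ]

/-- one factor: `|1 + z|^{2K}` expanded -/
theorem factor_expand (z : ℂ) (K : ℕ) :
    (1 + z) ^ K * (1 + conj z) ^ K =
      ∑ ab ∈ range (K + 1) ×ˢ range (K + 1),
        ((K.choose ab.1 : ℂ) * (K.choose ab.2 : ℂ)) * (z ^ ab.1 * (conj z) ^ ab.2) := by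
  have h1 : ∀ w : ℂ, (1 + w) ^ K = ∑ a ∈ range (K + 1), (K.choose a : ℂ) * w ^ a := by
    intro w
    rw [add_comm, add_pow]
    refine sum_congr rfl fun a _ => ?_
    rw [one_pow]
    ring
  rw [h1, h1, sum_mul_sum, sum_product]
  refine sum_congr rfl fun a _ => sum_congr rfl fun b _ => ?_
  ring

theorem norm_one_add_sq {z : ℂ} (hz : ‖z‖ = 1) : ‖1 + z‖ ^ 2 = 4 - ‖z - 1‖ ^ 2 := by
  have h1 : ‖1 + z‖ ^ 2 + ‖z - 1‖ ^ 2 = 4 := by
    have := parallelogram_law_with_norm ℝ z 1
    rw [hz, norm_one] at this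
    rw [add_comm 1 z]
    nlinarith
  linarith

theorem exp_contra {a : ℝ} (h0 : 0 ≤ a) (h1 : a < 1) (r : ℕ) :
    ∃ K : ℕ, a ^ K * (2 * (K : ℝ) + 1) ^ r < 1 := by
  have h : Tendsto (fun K : ℕ => a ^ K * (2 * (K : ℝ) + 1) ^ r) atTop (𝓝 0) := by
    have h2 : Tendsto (fun K : ℕ => (K : ℝ) ^ r * a ^ K) atTop (𝓝 0) :=
      tendsto_pow_const_mul_const_pow_of_lt_one r h0 h1
    have h3 : Tendsto (fun K : ℕ => (3 : ℝ) ^ r * ((K : ℝ) ^ r * a ^ K)) atTop (𝓝 0) := by
      simpa using h2.const_mul ((3 : ℝ) ^ r)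
    refine squeeze_zero' (Eventually.of_forall fun K => by positivity) ?_ h3
    filter_upwards [eventually_ge_atTop 1] with K hK
    have hK' : (1 : ℝ) ≤ K := by exact_mod_cast hK
    have h4 : (2 * (K : ℝ) + 1) ^ r ≤ (3 * (K : ℝ)) ^ r :=
      pow_le_pow_left₀ (by positivity) (by linarith) r
    calc a ^ K * (2 * (K : ℝ) + 1) ^ r ≤ a ^ K * (3 * (K : ℝ)) ^ r :=
          mul_le_mul_of_nonneg_left h4 (by positivity)
      _ = (3 : ℝ) ^ r * ((K : ℝ) ^ r * a ^ K) := by rw [mul_pow]; ring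
  exact (h.eventually (gt_mem_nhds one_pos)).exists

/-- **Kronecker's theorem**: independent characters of an abelian group have dense image -/
theorem kron_approx {r : ℕ} (χ : Fin r → AddChar Λ Circle) (hind : LinearIndependent ℤ χ)
    (τ : Fin r → Circle) {ε : ℝ} (hε : 0 < ε) :
    ∃ γ : Λ, ∀ i, ‖(χ i γ : ℂ) - (τ i : ℂ)‖ < ε := by
  classical
  by_contra hcon
  push Not at hcon
  -- wlog ε ≤ 1
  set ε' : ℝ := min ε 1 with hε'
  have hε'0 : 0 < ε' := lt_min hε one_pos
  have hε'1 : ε' ≤ 1 := min_le_right _ _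
  set a : ℝ := (4 - ε' ^ 2) / 4 with ha
  have ha0 : 0 ≤ a := by rw [ha]; nlinarith
  have ha1 : a < 1 := by rw [ha]; nlinarith [pow_pos hε'0 2]
  obtain ⟨K, hK⟩ := exp_contra ha0 ha1 r
  set t : Finset (ℕ × ℕ) := range (K + 1) ×ˢ range (K + 1) with ht
  set S : Finset (Fin r → ℕ × ℕ) := Fintype.piFinset fun _ => t with hS
  set ψ : (Fin r → ℕ × ℕ) → AddChar Λ Circle := fun p =>
    ∑ i, (((p i).1 : ℤ) - ((p i).2 : ℤ)) • χ i with hψ
  set c : (Fin r → ℕ × ℕ) → ℂ := fun p =>
    ∏ i, (((K.choose (p i).1 : ℂ) * (K.choose (p i).2 : ℂ)) *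
      ((conj (τ i : ℂ)) ^ (p i).1 * (τ i : ℂ) ^ (p i).2)) with hc
  -- the product function
  have hprod : ∀ γ, ∑ p ∈ S, c p * (ψ p γ : ℂ) =
      ∏ i, ((1 + (χ i γ : ℂ) * conj (τ i : ℂ)) ^ K *
        (1 + conj ((χ i γ : ℂ) * conj (τ i : ℂ))) ^ K) := by
    intro γ
    simp only [factor_expand]
    rw [Finset.prod_univ_sum]
    refine sum_congr rfl fun p _ => ?_
    have e1 : (ψ p γ : ℂ) = ∏ i, ((χ i γ : ℂ) ^ (p i).1 * (conj (χ i γ : ℂ)) ^ (p i).2) := by
      have e2 : ψ p γ = ∏ i, ((χ i γ) ^ (p i).1 * ((χ i γ)⁻¹) ^ (p i).2) := by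
        simp only [hψ, AddChar.sum_apply]
        refine prod_congr rfl fun i _ => ?_
        rw [AddChar.zsmul_apply, zpow_sub, zpow_natCast, zpow_natCast, inv_pow]
      rw [e2]
      refine (map_prod Circle.coeHom (fun i => (χ i γ) ^ (p i).1 * ((χ i γ)⁻¹) ^ (p i).2)
        univ).trans ?_
      refine prod_congr rfl fun i _ => ?_
      show (((χ i γ) ^ (p i).1 * ((χ i γ)⁻¹) ^ (p i).2 : Circle) : ℂ) = _
      rw [Circle.coe_mul, Circle.coe_pow, Circle.coe_pow, Circle.coe_inv_eq_conj]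
    rw [e1, hc, ← prod_mul_distrib]
    refine prod_congr rfl fun i _ => ?_
    simp only [map_mul, Complex.conj_conj]
    ring
  have hτ : ∀ i, ‖(τ i : ℂ)‖ = 1 := fun i => Circle.norm_coe _
  -- upper bound
  have hub : ∀ γ, ‖∑ p ∈ S, c p * (ψ p γ : ℂ)‖ ≤ (4 * a) ^ K * 4 ^ (K * (r - 1)) := by
    intro γ
    obtain ⟨i0, hi0⟩ := hcon γ
    rw [hprod γ, norm_prod]
    have hf : ∀ i, ‖(1 + (χ i γ : ℂ) * conj (τ i : ℂ)) ^ K *
        (1 + conj ((χ i γ : ℂ) * conj (τ i : ℂ))) ^ K‖ =
        (4 - ‖(χ i γ : ℂ) - (τ i : ℂ)‖ ^ 2) ^ K := by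
      intro i
      have h1 : ‖(χ i γ : ℂ) * conj (τ i : ℂ)‖ = 1 := by
        rw [norm_mul, Complex.norm_conj, hτ, Circle.norm_coe, mul_one]
      have h2 : (1 + conj ((χ i γ : ℂ) * conj (τ i : ℂ))) =
          conj (1 + (χ i γ : ℂ) * conj (τ i : ℂ)) := by simp
      have h3 : ‖(χ i γ : ℂ) * conj (τ i : ℂ) - 1‖ = ‖(χ i γ : ℂ) - (τ i : ℂ)‖ := by
        have h4 : (χ i γ : ℂ) * conj (τ i : ℂ) - 1 =
            ((χ i γ : ℂ) - (τ i : ℂ)) * conj (τ i : ℂ) := by
          have h5 : (τ i : ℂ) * conj (τ i : ℂ) = 1 := by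
            rw [Complex.mul_conj, Complex.normSq_eq_norm_sq, hτ]; simp
          rw [sub_mul, h5]
        rw [h4, norm_mul, Complex.norm_conj, hτ, mul_one]
      rw [norm_mul, norm_pow, norm_pow, h2, Complex.norm_conj, ← mul_pow, ← sq,
        norm_one_add_sq h1, h3]
    simp only [hf]
    rw [← mul_prod_erase univ _ (mem_univ i0)]
    have hnn : ∀ i, 0 ≤ 4 - ‖(χ i γ : ℂ) - (τ i : ℂ)‖ ^ 2 := by
      intro i
      have h1 : ‖(χ i γ : ℂ) - (τ i : ℂ)‖ ≤ 2 := by
        refine (norm_sub_le _ _).trans ?_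
        rw [hτ, Circle.norm_coe]; norm_num
      nlinarith [norm_nonneg ((χ i γ : ℂ) - (τ i : ℂ))]
    refine mul_le_mul ?_ ?_ (prod_nonneg fun i _ => pow_nonneg (hnn i) K) (by positivity)
    · refine pow_le_pow_left₀ (hnn i0) ?_ K
      have h1 : ε' ≤ ‖(χ i0 γ : ℂ) - (τ i0 : ℂ)‖ := (min_le_left _ _).trans hi0
      rw [ha]
      nlinarith
    · refine (prod_le_prod (fun i _ => pow_nonneg (hnn i) K)
        (fun i _ => pow_le_pow_left₀ (hnn i) (sub_le_self 4 (by positivity)) K)).trans ?_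
      rw [prod_const, card_erase_of_mem (mem_univ _), card_univ, Fintype.card_fin, ← pow_mul]
  have hmean := norm_const_le' S ψ c _ hub
  -- the constant coefficient
  have hdiag : ∀ p ∈ S, ψ p = 1 ↔ ∀ i, (p i).1 = (p i).2 := by
    intro p _
    constructor
    · intro h i
      have h1 := (linearIndependent_iff'.1 hind) univ (fun i => ((p i).1 : ℤ) - ((p i).2 : ℤ))
        (by rw [← AddChar.one_eq_zero, ← h]) i (mem_univ i)
      have : ((p i).1 : ℤ) = ((p i).2 : ℤ) := by linarith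
      exact_mod_cast this
    · intro h
      rw [AddChar.one_eq_zero]
      show ∑ i, (((p i).1 : ℤ) - ((p i).2 : ℤ)) • χ i = 0
      refine sum_eq_zero fun i _ => ?_
      rw [h i, sub_self]
      exact zero_zsmul _
  have hconst : ∑ p ∈ S with ψ p = 1, c p = ((K.centralBinom ^ r : ℕ) : ℂ) := by
    have e0 : ∑ p ∈ S with ψ p = 1, c p =
        ∑ p ∈ S, ∏ i, (if (p i).1 = (p i).2 then ((K.choose (p i).1 : ℂ)) ^ 2 else 0) := by
      rw [sum_filter]
      refine sum_congr rfl fun p hp => ?_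
      split_ifs with h
      · have h' := (hdiag p hp).1 h
        rw [hc]
        refine prod_congr rfl fun i _ => ?_
        rw [if_pos (h' i), ← h' i, ← mul_pow]
        have h5 : conj (τ i : ℂ) * (τ i : ℂ) = 1 := by
          rw [mul_comm, Complex.mul_conj, Complex.normSq_eq_norm_sq, hτ]; simp
        rw [h5, one_pow, mul_one, sq]
      · have h' : ¬ ∀ i, (p i).1 = (p i).2 := fun h2 => h ((hdiag p hp).2 h2)
        push Not at h'
        obtain ⟨i, hi⟩ := h'
        symm
        exact prod_eq_zero (mem_univ i) (if_neg hi)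
    rw [e0, hS, ← Finset.prod_univ_sum (fun _ : Fin r => t)
      (fun _ ab => (if ab.1 = ab.2 then ((K.choose ab.1 : ℂ)) ^ 2 else 0))]
    rw [prod_const, card_univ, Fintype.card_fin]
    push_cast
    congr 1
    rw [ht, sum_product]
    have e1 : ∀ x ∈ range (K + 1), ∑ y ∈ range (K + 1),
        (if x = y then ((K.choose x : ℂ)) ^ 2 else 0) = ((K.choose x : ℂ)) ^ 2 := by
      intro x hx
      rw [sum_ite_eq, if_pos hx]
    rw [sum_congr rfl e1]
    have e2 := Nat.sum_range_choose_sq K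
    rw [Nat.centralBinom, ← e2]
    push_cast
    rfl
  rw [hconst] at hmean
  have h1 : ‖((K.centralBinom ^ r : ℕ) : ℂ)‖ = (K.centralBinom : ℝ) ^ r := by
    rw [Complex.norm_natCast]; push_cast; rfl
  rw [h1] at hmean
  have hr : 0 < r := by
    rcases Nat.eq_zero_or_pos r with h0 | h0
    · subst h0
      obtain ⟨i, _⟩ := hcon 0
      exact i.elim0
    · exact h0
  have h2 : (4 : ℝ) ^ K ≤ (2 * (K : ℝ) + 1) * K.centralBinom := by
    have := Nat.four_pow_le_two_mul_add_one_mul_central_binom K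
    rw [← Nat.centralBinom] at this
    exact_mod_cast this
  have h3 : ((4 : ℝ) ^ K) ^ r ≤ (2 * (K : ℝ) + 1) ^ r * ((4 * a) ^ K * 4 ^ (K * (r - 1))) :=
    calc ((4 : ℝ) ^ K) ^ r ≤ ((2 * (K : ℝ) + 1) * K.centralBinom) ^ r :=
          pow_le_pow_left₀ (by positivity) h2 r
      _ = (2 * (K : ℝ) + 1) ^ r * (K.centralBinom : ℝ) ^ r := mul_pow _ _ _
      _ ≤ _ := mul_le_mul_of_nonneg_left hmean (by positivity)
  have h4 : (4 * a) ^ K * (4 : ℝ) ^ (K * (r - 1)) = a ^ K * ((4 : ℝ) ^ K) ^ r := by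
    rw [mul_pow, ← pow_mul]
    have : K * r = K + K * (r - 1) := by
      obtain ⟨m, rfl⟩ : ∃ m, r = m + 1 := ⟨r - 1, by omega⟩
      simp only [Nat.add_sub_cancel]
      ring
    rw [this, pow_add]
    ring
  rw [h4] at h3
  have h5 : (0 : ℝ) < ((4 : ℝ) ^ K) ^ r := by positivity
  nlinarith [mul_lt_mul_of_pos_right hK h5]

theorem kron_dense {r : ℕ} (χ : Fin r → AddChar Λ Circle) (hind : LinearIndependent ℤ χ) :
    DenseRange (fun (γ : Λ) (i : Fin r) => χ i γ) := by
  rw [DenseRange, Metric.dense_iff]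
  intro τ ε hε
  obtain ⟨γ, hγ⟩ := kron_approx χ hind τ hε
  refine ⟨fun i => χ i γ, ?_, Set.mem_range_self γ⟩
  rw [Metric.mem_ball, dist_pi_lt_iff hε]
  intro i
  have := hγ i
  change dist (χ i γ : ℂ) (τ i : ℂ) < ε
  rwa [dist_eq_norm]

end kron

/-! ### shape used by BP-T -/

section flow

variable {Λ : Type*} [AddCommGroup Λ]

/-- a finitely generated torsion free group of characters: every real functional `x` on it is
approximated by evaluations at elements of `Λ` -/
theorem kron_flow (W : Submodule ℤ (AddChar Λ Circle)) (hfg : W.FG)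
    (htf : ∀ w ∈ W, ∀ m : ℤ, m ≠ 0 → m • w = 0 → w = 0) (x : W →+ ℝ) (S : Finset W)
    {ε : ℝ} (hε : 0 < ε) :
    ∃ γ : Λ, ∀ w ∈ S, ‖((w : AddChar Λ Circle) γ : ℂ) - Complex.exp ((x w : ℝ) * Complex.I)‖ < ε := by
  classical
  have : Module.Finite ℤ W := Module.Finite.iff_fg.2 hfg
  have : Module.IsTorsionFree ℤ W := by
    refine Module.IsTorsionFree.of_smul_eq_zero fun m w h => ?_
    by_cases hm : m = 0
    · exact Or.inl hm
    · refine Or.inr (Subtype.ext (htf w w.2 m hm ?_))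
      have := congrArg (Subtype.val) h
      simpa using this
  have : Module.Free ℤ W := inferInstance
  set b := Module.finBasis ℤ W with hb
  set χ : Fin (Module.finrank ℤ W) → AddChar Λ Circle := fun i => (b i : AddChar Λ Circle) with hχ
  have hind : LinearIndependent ℤ χ := b.linearIndependent.map' W.subtype W.ker_subtype
  -- evaluation of `w` in terms of the basis
  have hw : ∀ (w : W) (γ : Λ), (w : AddChar Λ Circle) γ = ∏ i, (χ i γ) ^ (b.repr w i) := by
    intro w γ
    have h1 : (w : AddChar Λ Circle) = ∑ i, (b.repr w i) • χ i := by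
      have h2 := congrArg (W.subtype) (b.sum_repr w).symm
      rw [map_sum] at h2
      refine h2.trans (sum_congr rfl fun i _ => ?_)
      rw [map_zsmul]
      rfl
    rw [h1, AddChar.sum_apply]
    refine prod_congr rfl fun i _ => ?_
    rw [AddChar.zsmul_apply]
  set τ : Fin (Module.finrank ℤ W) → Circle := fun i => Circle.exp (x (b i)) with hτ
  have hx : ∀ w : W, Circle.exp (x w) = ∏ i, (τ i) ^ (b.repr w i) := by
    intro w
    have h1 : x w = ∑ i, (b.repr w i) • x (b i) := by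
      conv_lhs => rw [← b.sum_repr w]
      rw [map_sum]
      simp
    rw [h1]
    have h2 : ∀ s : Finset (Fin (Module.finrank ℤ W)),
        Circle.exp (∑ i ∈ s, (b.repr w i) • x (b i)) = ∏ i ∈ s, (τ i) ^ (b.repr w i) := by
      intro s
      induction s using Finset.induction_on with
      | empty => simp
      | insert j s hj ih =>
        rw [sum_insert hj, prod_insert hj, Circle.exp_add, ih, hτ]
        congr 1
        rw [← Circle.exp_zsmul]
    exact h2 univ
  set O : Set (Fin (Module.finrank ℤ W) → Circle) :=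
    {θ | ∀ w ∈ S, ‖((∏ i, (θ i) ^ (b.repr w i) : Circle) : ℂ) - ((Circle.exp (x w) : Circle) : ℂ)‖ < ε}
    with hO
  have hOo : IsOpen O := by
    have : O = ⋂ w ∈ S, {θ | ‖((∏ i, (θ i) ^ (b.repr w i) : Circle) : ℂ) -
        ((Circle.exp (x w) : Circle) : ℂ)‖ < ε} := by
      ext θ
      simp [hO]
    rw [this]
    refine isOpen_biInter_finset fun w _ => isOpen_lt ?_ continuous_const
    refine (Continuous.sub ?_ continuous_const).norm
    have hc : Continuous fun θ : Fin (Module.finrank ℤ W) → Circle =>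
        (∏ i, (θ i) ^ (b.repr w i) : Circle) :=
      continuous_finsetProd _ fun i _ => (continuous_apply i).zpow _
    have hv : Continuous (fun z : Circle => (z : ℂ)) := continuous_subtype_val
    exact hv.comp hc
  obtain ⟨γ, hγ⟩ := (kron_dense χ hind).exists_mem_open hOo ⟨τ, fun w _ => by
    rw [hx w, sub_self, norm_zero]; exact hε⟩
  refine ⟨γ, fun w hwS => ?_⟩
  have h1 := hγ w hwS
  rw [← hw w γ] at h1
  rwa [Circle.coe_exp] at h1

end flow

/-- **T1**: after passing to a multiple, a finitely generated abelian group is torsion free -/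
theorem exists_pow_torsionFree {A : Type*} [AddCommGroup A] (W : Submodule ℤ A) (hfg : W.FG) :
    ∃ M : ℕ, 0 < M ∧ ∀ w ∈ W, ∀ m : ℤ, m ≠ 0 → m • (M • w) = 0 → M • w = 0 := by
  classical
  have : Module.Finite ℤ W := Module.Finite.iff_fg.2 hfg
  have : IsNoetherian ℤ W := inferInstance
  set T : Submodule ℤ W := Submodule.torsion ℤ W with hT
  have : Module.Finite ℤ T := inferInstance
  have hTt : Module.IsTorsion ℤ T := Submodule.torsion_isTorsion
  have : Finite T := Module.finite_of_fg_torsion T hTt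
  refine ⟨Nat.card T, Nat.card_pos, fun w hw m hm h => ?_⟩
  set w' : W := ⟨w, hw⟩ with hw'
  have h1 : w' ∈ T := by
    rw [hT, Submodule.mem_torsion_iff]
    have hne : (m * (Nat.card T : ℤ)) ≠ 0 := mul_ne_zero hm (by exact_mod_cast Nat.card_pos.ne')
    refine ⟨⟨m * (Nat.card T : ℤ), mem_nonZeroDivisors_of_ne_zero hne⟩, ?_⟩
    apply Subtype.ext
    show (m * (Nat.card T : ℤ)) • w = 0
    rw [mul_smul, natCast_zsmul]
    exact h
  have h2 : Nat.card T • (⟨w', h1⟩ : T) = 0 := card_nsmul_eq_zero'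
  have h3 := congrArg (fun t : T => ((t : W) : A)) h2
  simpa using h3

end

end Crest.Agent.R273.TorG_522
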