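import Crest.Agent.R273.PFlow_522
import Crest.Agent.R273.RetC_155
import Crest.Agent.R273.TorG_522

/-!
# R273 (S0416), torus step BP-T (helper522): the flow and the retraction

* `Flo P x`     : complex flow `D z` on `M` covering the diagonal action `Ez x z`;
* `exists_flo`  : it exists as soon as the imaginary times preserve the image of `M`;
* `ret`         : the retraction `r y = lim D(-τ) y` onto the fixed locus (155's `HRet`);
* `pres_kron`   : Kronecker: `Ez x (tI)` is a limit of diagonal maps `diag (χ k γ)`.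
-/

set_option autoImplicit false
set_option linter.unusedSectionVars false

open Set Filter Topology Complex Function
open scoped ContDiff Matrix ComplexConjugate

namespace Crest.Agent.R273.PFlow_522

open Crest.Agent.R275.Geo Crest.Agent.R275.Core144 Crest.Agent.R273.Defs_333
  Crest.Agent.R273.HFlow3_376 Crest.Agent.R273.Ret_155

noncomputable section

variable {n : ℕ} {M : Type} [TopologicalSpace M] {A : Atl n M} {P : ProjD A}

/-- complex flow on `M` covering the diagonal action with weights `x` -/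
structure Flo (P : ProjD A) (x : Fin (P.N + 1) → ℝ) where
  D : ℂ → M → M
  spec : ∀ z y v, R P y v → R P (D z y) (Ez x z v)

theorem exists_flo [CompactSpace M] {x : Fin (P.N + 1) → ℝ}
    (h : ∀ t : ℝ, Pres P (Ez x (t * I))) : Nonempty (Flo P x) := by
  have h1 := fun z y => pres_all h z y _ (exists_R (P := P) y).choose_spec
  choose D hD using h1
  refine ⟨⟨D, fun z y v hv => ?_⟩⟩
  obtain ⟨c, hc, hv'⟩ := (exists_R (P := P) y).choose_spec.prop hv
  rw [hv', Ez_smul]
  exact (hD z y).smul hc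

namespace Flo

variable {x : Fin (P.N + 1) → ℝ} (D : Flo P x)

theorem eq_of {z : ℂ} {y y' : M} {v : E P} (hv : R P y v) (h : R P y' (Ez x z v)) :
    D.D z y = y' := (D.spec z y v hv).uniq h

theorem zero (y : M) : D.D 0 y = y := by
  obtain ⟨v, hv⟩ := exists_R (P := P) y
  exact D.eq_of hv (by rwa [Ez_zero])

theorem add (z w : ℂ) (y : M) : D.D (z + w) y = D.D z (D.D w y) := by
  obtain ⟨v, hv⟩ := exists_R (P := P) y
  refine D.eq_of hv ?_
  rw [Ez_add]
  exact D.spec _ _ _ (D.spec _ _ _ hv)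

theorem neg_left (z : ℂ) (y : M) : D.D (-z) (D.D z y) = y := by
  rw [← D.add, neg_add_cancel, D.zero]

theorem neg_right (z : ℂ) (y : M) : D.D z (D.D (-z) y) = y := by
  rw [← D.add, add_neg_cancel, D.zero]

/-- the flow is jointly holomorphic -/
theorem holP [CompactSpace M] (z : ℂ) (y : M) : HolP A A D.D z y := by
  obtain ⟨i, hi⟩ := A.cover y
  obtain ⟨j, hj⟩ := A.cover (D.D z y)
  refine ⟨?_, i, j, hi, hj, ?_⟩
  · have hG : ContinuousAt (fun q : ℂ × M => Ez x q.1 (P.F i q.2)) (z, y) := by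
      refine ContinuousAt.comp (f := fun q : ℂ × M => (q.1, P.F i q.2)) (g := fun q => Ez x q.1 q.2)
        (continuous_Ez x).continuousAt ?_
      exact continuousAt_fst.prodMk (ContinuousAt.comp (f := fun q : ℂ × M => q.2)
        (continuousAt_F hi) continuousAt_snd)
    refine lift_cont (g := uncurry D.D) hG ?_
    filter_upwards [continuousAt_snd.eventually_mem ((A.e i).open_source.mem_nhds hi)] with q hq
    exact D.spec _ _ _ (R_F hq)
  · have hsymm : (A.e i).symm (A.e i y) = y := (A.e i).left_inv hi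
    have hG : DifferentiableAt ℂ (fun q : ℂ × Cn n => Ez x q.1 (P.F i ((A.e i).symm q.2)))
        (z, A.e i y) := by
      have h1 : DifferentiableAt ℂ (fun q : ℂ × Cn n => (q.1, P.F i ((A.e i).symm q.2)))
          (z, A.e i y) := differentiableAt_fst.prodMk
        (DifferentiableAt.comp (z, A.e i y) (f := fun q : ℂ × Cn n => q.2)
          (g := fun w => P.F i ((A.e i).symm w)) (diff_F hi) differentiableAt_snd)
      exact DifferentiableAt.comp (z, A.e i y)
        (f := fun q : ℂ × Cn n => (q.1, P.F i ((A.e i).symm q.2)))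
        (g := fun q : ℂ × E P => Ez x q.1 q.2) (differentiable_Ez x _) h1
    refine lift_diff (g := fun q : ℂ × Cn n => D.D q.1 ((A.e i).symm q.2)) hG ?_
      (by simpa [hsymm] using hj)
    filter_upwards [continuousAt_snd.eventually_mem
      ((A.e i).open_target.mem_nhds ((A.e i).map_source hi))] with q hq
    exact D.spec _ _ _ (R_F ((A.e i).map_target hq))

theorem holM [CompactSpace M] (z : ℂ) : HolM A A (D.D z) := HolP.slice fun y => D.holP z y

theorem continuous_uncurry [CompactSpace M] : Continuous (uncurry D.D) :=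
  continuous_iff_continuousAt.2 fun q => (D.holP q.1 q.2).cont

theorem unique {D' : Flo P x} (z : ℂ) (y : M) : D.D z y = D'.D z y := by
  obtain ⟨v, hv⟩ := exists_R (P := P) y
  exact D.eq_of hv (D'.spec _ _ _ hv)

/-- a map covering a diagonal map commutes with the flow -/
theorem comm {g : M → M} {u : E P} (hg : ∀ y v, R P y v → R P (g y) (fun k => u k * v k))
    (z : ℂ) (y : M) : g (D.D z y) = D.D z (g y) := by
  obtain ⟨v, hv⟩ := exists_R (P := P) y
  symm
  refine D.eq_of (hg _ _ hv) ?_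
  have h := hg _ _ (D.spec z _ _ hv)
  have : (fun k => u k * Ez x z v k) = Ez x z (fun k => u k * v k) := by
    funext k
    simp only [Ez]
    ring
  rwa [this] at h

end Flo

/-- a holomorphic map in 376's sense is holomorphic in 835's sense -/
theorem _root_.Crest.Agent.R273.HFlow3_376.HolM.toMap {m : ℕ} {M' : Type} [TopologicalSpace M']
    {B : Atl m M'} {f : M → M'} (h : HolM A B f) : Crest.Agent.R273.Map_835.HolMap A B f where
  cont := h.continuous
  hol := by
    intro i j z hz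
    have h1 := h.diff (i := i) (j := j) ((A.e i).map_target hz.1) hz.2
    rw [(A.e i).right_inv hz.1] at h1
    exact h1.differentiableWithinAt

/-! ### the retraction -/

/-- projection to the coordinates of weight `m` -/
def pr {N : ℕ} (x : Fin (N + 1) → ℝ) (m : ℝ) (v : Fin (N + 1) → ℂ) : Fin (N + 1) → ℂ :=
  fun k => if x k = m then v k else 0

section pr

variable {N : ℕ} (x : Fin (N + 1) → ℝ) (m : ℝ)

theorem pr_smul (c : ℂ) (v : Fin (N + 1) → ℂ) : pr x m (c • v) = c • pr x m v := by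
  funext k
  simp only [pr, Pi.smul_apply, smul_eq_mul]
  split_ifs <;> simp

theorem pr_pr (v : Fin (N + 1) → ℂ) : pr x m (pr x m v) = pr x m v := by
  funext k
  simp only [pr]
  split_ifs <;> rfl

theorem differentiable_pr : Differentiable ℂ (pr x m) := by
  rw [differentiable_pi]
  intro k
  simp only [pr]
  split_ifs
  · exact differentiable_apply k
  · exact differentiable_const _

theorem continuous_pr : Continuous (pr x m) := (differentiable_pr x m).continuous

theorem pr_Ez (z : ℂ) (v : Fin (N + 1) → ℂ) :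
    pr x m (Ez x z v) = Complex.exp (z * m) • pr x m v := by
  funext k
  simp only [pr, Ez, Pi.smul_apply, smul_eq_mul]
  split_ifs with h
  · rw [h]
  · simp

theorem Ez_pr (z : ℂ) (v : Fin (N + 1) → ℂ) :
    Ez x z (pr x m v) = Complex.exp (z * m) • pr x m v := by
  funext k
  simp only [pr, Ez, Pi.smul_apply, smul_eq_mul]
  split_ifs with h
  · rw [h]
  · simp

/-- `e^{τ m} Ez(-τ) v → pr v` -/
theorem tendsto_Ez (hm : ∀ k, m ≤ x k) (v : Fin (N + 1) → ℂ) :
    Tendsto (fun τ : ℝ => Complex.exp (τ * m) • Ez x (-τ) v) atTop (𝓝 (pr x m v)) := by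
  rw [tendsto_pi_nhds]
  intro k
  have he : ∀ τ : ℝ, (Complex.exp (τ * m) • Ez x (-τ) v) k =
      ((Real.exp (-(τ * (x k - m))) : ℝ) : ℂ) * v k := by
    intro τ
    simp only [Ez, Pi.smul_apply, smul_eq_mul]
    rw [← mul_assoc, ← Complex.exp_add, Complex.ofReal_exp]
    congr 2
    push_cast
    ring
  simp only [he, pr]
  split_ifs with h
  · simp [h]
  · have hpos : 0 < x k - m := sub_pos.2 (lt_of_le_of_ne (hm k) (Ne.symm h))
    have h1 : Tendsto (fun τ : ℝ => Real.exp (-(τ * (x k - m)))) atTop (𝓝 0) :=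
      Real.tendsto_exp_neg_atTop_nhds_zero.comp (tendsto_id.atTop_mul_const hpos)
    have h2 : Tendsto (fun τ : ℝ => ((Real.exp (-(τ * (x k - m))) : ℝ) : ℂ)) atTop (𝓝 ((0 : ℝ) : ℂ)) :=
      (Complex.continuous_ofReal.tendsto 0).comp h1
    simpa using h2.mul_const (v k)

end pr

namespace Flo

variable {x : Fin (P.N + 1) → ℝ} (D : Flo P x) (m : ℝ)

/-- the domain of the retraction -/
def U (_D : Flo P x) (m : ℝ) : Set M := {y | ∃ i, y ∈ (A.e i).source ∧ pr x m (P.F i y) ≠ 0}

theorem mem_U {y : M} {v : E P} (hv : R P y v) : y ∈ D.U m ↔ pr x m v ≠ 0 := by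
  constructor
  · rintro ⟨i, hi, h⟩
    obtain ⟨c, hc, hc'⟩ := hv.chart hi
    rw [hc', pr_smul]
    exact smul_ne_zero hc h
  · intro h
    obtain ⟨i, hi⟩ := A.cover y
    obtain ⟨c, hc, hc'⟩ := hv.chart hi
    refine ⟨i, hi, fun h0 => h ?_⟩
    rw [hc', pr_smul, h0, smul_zero]

theorem isOpen_U : IsOpen (D.U m) := by
  rw [isOpen_iff_mem_nhds]
  rintro y ⟨i, hi, h⟩
  have h1 : ∀ᶠ y' in 𝓝 y, y' ∈ (A.e i).source := (A.e i).open_source.mem_nhds hi
  have h2 : ∀ᶠ y' in 𝓝 y, pr x m (P.F i y') ≠ 0 :=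
    (ContinuousAt.comp (g := pr x m) (f := P.F i) (continuous_pr x m).continuousAt
      (continuousAt_F hi)).eventually_ne h
  filter_upwards [h1, h2] with y' h1 h2 using ⟨i, h1, h2⟩

/-- the limit of the flow -/
theorem exists_r [CompactSpace M] (hm : ∀ k, m ≤ x k) {y : M} (hy : y ∈ D.U m) :
    ∃ y', (∀ v, R P y v → R P y' (pr x m v)) ∧
      Tendsto (fun τ : ℝ => D.D (-τ) y) atTop (𝓝 y') := by
  obtain ⟨v, hv⟩ := exists_R (P := P) y
  have h0 := (D.mem_U m hv).1 hy
  obtain ⟨y', hy', hlim⟩ := exists_lim (P := P) (l := (atTop : Filter ℝ))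
    (x := fun τ : ℝ => D.D (-τ) y) (tendsto_Ez x m hm v) h0
    (Eventually.of_forall fun τ => (D.spec (-τ) y v hv).smul (Complex.exp_ne_zero _))
  refine ⟨y', fun w hw => ?_, hlim⟩
  obtain ⟨c, hc, hw'⟩ := hv.prop hw
  rw [hw', pr_smul]
  exact hy'.smul hc

/-- the retraction -/
def r [CompactSpace M] (hm : ∀ k, m ≤ x k) (y : M) : M :=
  open Classical in if h : y ∈ D.U m then (D.exists_r m hm h).choose else y

variable {m}

theorem r_spec [CompactSpace M] (hm : ∀ k, m ≤ x k) {y : M} (hy : y ∈ D.U m) {v : E P}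
    (hv : R P y v) : R P (D.r m hm y) (pr x m v) := by
  rw [r, dif_pos hy]
  exact (D.exists_r m hm hy).choose_spec.1 v hv

theorem r_lim [CompactSpace M] (hm : ∀ k, m ≤ x k) {y : M} (hy : y ∈ D.U m) :
    Tendsto (fun τ : ℝ => D.D (-τ) y) atTop (𝓝 (D.r m hm y)) := by
  rw [r, dif_pos hy]
  exact (D.exists_r m hm hy).choose_spec.2

theorem r_maps [CompactSpace M] (hm : ∀ k, m ≤ x k) : MapsTo (D.r m hm) (D.U m) (D.U m) := by
  intro y hy
  obtain ⟨v, hv⟩ := exists_R (P := P) y
  rw [D.mem_U m (D.r_spec hm hy hv), pr_pr]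
  exact (D.mem_U m hv).1 hy

theorem r_idem [CompactSpace M] (hm : ∀ k, m ≤ x k) {y : M} (hy : y ∈ D.U m) :
    D.r m hm (D.r m hm y) = D.r m hm y := by
  obtain ⟨v, hv⟩ := exists_R (P := P) y
  have h1 := D.r_spec hm hy hv
  have h2 := D.r_spec hm (D.r_maps hm hy) h1
  rw [pr_pr] at h2
  exact h2.uniq h1

theorem D_mem [CompactSpace M] {z : ℂ} {y : M} (hy : y ∈ D.U m) : D.D z y ∈ D.U m := by
  obtain ⟨v, hv⟩ := exists_R (P := P) y
  rw [D.mem_U m (D.spec z _ _ hv), pr_Ez]
  exact smul_ne_zero (Complex.exp_ne_zero _) ((D.mem_U m hv).1 hy)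

theorem r_D [CompactSpace M] (hm : ∀ k, m ≤ x k) (z : ℂ) {y : M} (hy : y ∈ D.U m) :
    D.r m hm (D.D z y) = D.r m hm y := by
  obtain ⟨v, hv⟩ := exists_R (P := P) y
  have h1 := D.r_spec hm (D.D_mem (z := z) hy) (D.spec z _ _ hv)
  rw [pr_Ez] at h1
  exact (h1.of_smul (Complex.exp_ne_zero _)).uniq (D.r_spec hm hy hv)

theorem D_r [CompactSpace M] (hm : ∀ k, m ≤ x k) (z : ℂ) {y : M} (hy : y ∈ D.U m) :
    D.D z (D.r m hm y) = D.r m hm y := by
  obtain ⟨v, hv⟩ := exists_R (P := P) y
  have h1 := D.r_spec hm hy hv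
  refine D.eq_of h1 ?_
  rw [Ez_pr]
  exact h1.smul (Complex.exp_ne_zero _)

/-- the retraction as an `HRet` -/
def ret [CompactSpace M] (hm : ∀ k, m ≤ x k) : HRet A where
  U := D.U m
  isOpen_U := D.isOpen_U m
  r := D.r m hm
  maps := D.r_maps hm
  idem := fun _ hy => D.r_idem hm hy
  cont := by
    intro y hy
    refine ContinuousAt.continuousWithinAt ?_
    obtain ⟨i, hi⟩ := A.cover y
    have hG : ContinuousAt (fun y => pr x m (P.F i y)) y :=
      ContinuousAt.comp (g := pr x m) (f := P.F i) (continuous_pr x m).continuousAt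
        (continuousAt_F hi)
    refine lift_cont (g := D.r m hm) hG ?_
    filter_upwards [(A.e i).open_source.mem_nhds hi, (D.isOpen_U m).mem_nhds hy] with y' h1 h2
    exact D.r_spec hm h2 (R_F h1)
  hol := by
    rintro i j z ⟨hz, hU, hj⟩
    refine DifferentiableAt.differentiableWithinAt ?_
    have hG : DifferentiableAt ℂ (fun z => pr x m (P.F i ((A.e i).symm z))) z := by
      have h1 := diff_F (P := P) ((A.e i).map_target hz)
      rw [(A.e i).right_inv hz] at h1
      exact DifferentiableAt.comp z (g := pr x m) (differentiable_pr x m _) h1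
    refine lift_diff (g := fun z => D.r m hm ((A.e i).symm z)) hG ?_ hj
    have ho : IsOpen ((A.e i).target ∩ (A.e i).symm ⁻¹' (D.U m)) :=
      (A.e i).isOpen_inter_preimage_symm (D.isOpen_U m)
    filter_upwards [ho.mem_nhds ⟨hz, hU⟩] with w hw
    exact D.r_spec hm hw.2 (R_F ((A.e i).map_target hw.1))

theorem mem_F [CompactSpace M] (hm : ∀ k, m ≤ x k) {y : M} {v : E P} (hv : R P y v) :
    y ∈ (D.ret hm).F ↔ pr x m v = v := by
  constructor
  · rintro ⟨h1, h2⟩
    have h3 := D.r_spec hm h1 hv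
    have h4 : D.r m hm y = y := h2
    rw [h4] at h3
    obtain ⟨c, hc, hc'⟩ := h3.prop hv
    rw [hc', pr_smul, pr_pr]
  · intro h
    have h1 : y ∈ D.U m := by
      rw [D.mem_U m hv, h]
      exact hv.ne
    refine ⟨h1, ?_⟩
    have h3 := D.r_spec hm h1 hv
    rw [h] at h3
    exact h3.uniq hv

theorem isClosed_F [CompactSpace M] (hm : ∀ k, m ≤ x k) : IsClosed (D.ret hm).F := by
  rw [← isOpen_compl_iff, isOpen_iff_mem_nhds]
  intro y hy
  obtain ⟨i, hi⟩ := A.cover y
  have h0 : pr x m (P.F i y) ≠ P.F i y := fun h => hy ((D.mem_F hm (R_F hi)).2 h)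
  have h1 : ∀ᶠ y' in 𝓝 y, y' ∈ (A.e i).source := (A.e i).open_source.mem_nhds hi
  have h2 : ∀ᶠ y' in 𝓝 y, pr x m (P.F i y') ≠ P.F i y' := by
    have hc : ContinuousAt (fun y' => pr x m (P.F i y') - P.F i y') y :=
      (ContinuousAt.comp (g := pr x m) (f := P.F i) (continuous_pr x m).continuousAt
        (continuousAt_F hi)).sub (continuousAt_F hi)
    have := hc.eventually_ne (sub_ne_zero.2 h0)
    filter_upwards [this] with y' hy' using sub_ne_zero.1 hy'
  filter_upwards [h1, h2] with y' h1 h2 h3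
  exact h2 ((D.mem_F hm (R_F h1)).1 h3)

theorem isCompact_F [CompactSpace M] (hm : ∀ k, m ≤ x k) : IsCompact (D.ret hm).F :=
  (D.isClosed_F hm).isCompact

/-- points of `F` are fixed by the flow -/
theorem D_of_mem_F [CompactSpace M] (hm : ∀ k, m ≤ x k) (z : ℂ) {y : M}
    (hy : y ∈ (D.ret hm).F) : D.D z y = y := by
  have h1 : D.r m hm y = y := hy.2
  have h2 := D.D_r hm z hy.1
  rwa [h1] at h2

/-- a map covering a diagonal map preserves `U` and commutes with `r` -/
theorem r_comm [CompactSpace M] (hm : ∀ k, m ≤ x k) {g : M → M} {u : E P}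
    (hu : ∀ k, u k ≠ 0) (hg : ∀ y v, R P y v → R P (g y) (fun k => u k * v k))
    {y : M} (hy : y ∈ D.U m) : g y ∈ D.U m ∧ g (D.r m hm y) = D.r m hm (g y) := by
  obtain ⟨v, hv⟩ := exists_R (P := P) y
  have hpr : ∀ v : E P, pr x m (fun k => u k * v k) = fun k => u k * pr x m v k := by
    intro v
    funext k
    simp only [pr]
    split_ifs <;> simp
  have h1 : g y ∈ D.U m := by
    rw [D.mem_U m (hg _ _ hv), hpr]
    intro h
    apply (D.mem_U m hv).1 hy
    funext k
    have := congrFun h k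
    simpa [hu k] using this
  refine ⟨h1, ?_⟩
  have h2 := D.r_spec hm h1 (hg _ _ hv)
  rw [hpr] at h2
  exact (hg _ _ (D.r_spec hm hy hv)).uniq h2

end Flo

/-! ### Kronecker -/

/-- limits of diagonal maps: the real one parameter groups in the closure -/
theorem pres_kron [CompactSpace M] {Λ : Type*} [AddCommGroup Λ]
    (χ : Fin (P.N + 1) → AddChar Λ Circle)
    (hχ : ∀ γ, Pres P (fun v k => (χ k γ : ℂ) * v k))
    (W : Submodule ℤ (AddChar Λ Circle)) (hfg : W.FG)
    (htf : ∀ w ∈ W, ∀ m : ℤ, m ≠ 0 → m • w = 0 → w = 0)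
    (k0 : Fin (P.N + 1)) (hW : ∀ k, χ k - χ k0 ∈ W) (x : W →+ ℝ) (t : ℝ) :
    Pres P (Ez (fun k => x ⟨χ k - χ k0, hW k⟩) (t * I)) := by
  classical
  have hsm : ∀ γ, Pres P (fun v k => (((χ k - χ k0 : AddChar Λ Circle) γ : Circle) : ℂ) * v k) := by
    intro γ y v hv
    obtain ⟨y', hy'⟩ := hχ γ y v hv
    refine ⟨y', ?_⟩
    have h1 := hy'.smul (c := ((χ k0 γ : Circle) : ℂ)⁻¹) (inv_ne_zero (Circle.coe_ne_zero _))
    have h2 : (((χ k0 γ : Circle) : ℂ)⁻¹ • fun k => (χ k γ : ℂ) * v k) =
        fun k => (((χ k - χ k0 : AddChar Λ Circle) γ : Circle) : ℂ) * v k := by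
      funext k
      rw [Pi.smul_apply, smul_eq_mul, AddChar.sub_apply', Circle.coe_div]
      ring
    rwa [h2] at h1
  set S : Finset W := Finset.univ.image fun k => (⟨χ k - χ k0, hW k⟩ : W) with hS
  have hex : ∀ m : ℕ, ∃ γ : Λ, ∀ w ∈ S, ‖((w : AddChar Λ Circle) γ : ℂ) -
      Complex.exp ((t * x w : ℝ) * Complex.I)‖ < 1 / ((m : ℝ) + 1) := by
    intro m
    exact TorG_522.kron_flow W hfg htf ((AddMonoidHom.mulLeft t).comp x) S (by positivity)
  choose γ hγ using hex
  refine pres_of_lim (l := atTop) (T := fun (m : ℕ) v k =>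
    (((χ k - χ k0 : AddChar Λ Circle) (γ m) : Circle) : ℂ) * v k) ?_ (fun v hv => Ez_ne _ hv)
    (Eventually.of_forall fun m => hsm (γ m))
  intro v
  rw [tendsto_pi_nhds]
  intro k
  have h1 : Tendsto (fun m : ℕ => (((χ k - χ k0 : AddChar Λ Circle) (γ m) : Circle) : ℂ)) atTop
      (𝓝 (Complex.exp ((t * x ⟨χ k - χ k0, hW k⟩ : ℝ) * Complex.I))) := by
    rw [tendsto_iff_norm_sub_tendsto_zero]
    refine squeeze_zero (fun _ => norm_nonneg _) (fun m => ?_)
      tendsto_one_div_add_atTop_nhds_zero_nat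
    exact (hγ m ⟨χ k - χ k0, hW k⟩ (Finset.mem_image_of_mem _ (Finset.mem_univ k))).le
  have h2 := h1.mul_const (v k)
  have h3 : Ez (fun k => x ⟨χ k - χ k0, hW k⟩) (t * I) v k =
      Complex.exp ((t * x ⟨χ k - χ k0, hW k⟩ : ℝ) * Complex.I) * v k := by
    simp only [Ez]
    congr 2
    push_cast
    ring
  rw [h3]
  exact h2

/-- the additive character of a multiplicative one -/
def toAdd {G : Type*} [CommGroup G] (χ : G →* Circle) : AddChar (Additive G) Circle where
  toFun g := χ g.toMul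
  map_zero_eq_one' := χ.map_one
  map_add_eq_mul' _ _ := χ.map_mul _ _

/-- Kronecker for a multiplicative group -/
theorem pres_kron_mul [CompactSpace M] {G : Type*} [CommGroup G]
    (χ : Fin (P.N + 1) → (G →* Circle))
    (hχ : ∀ g, Pres P (fun v k => (χ k g : ℂ) * v k))
    (W : Subgroup (G →* Circle)) (hfg : W.FG)
    (htf : ∀ w ∈ W, ∀ m : ℕ, m ≠ 0 → w ^ m = 1 → w = 1)
    (k0 : Fin (P.N + 1)) (hW : ∀ k, χ k / χ k0 ∈ W) (x : Additive W →+ ℝ) (t : ℝ) :
    Pres P (Ez (fun k => x (Additive.ofMul ⟨χ k / χ k0, hW k⟩)) (t * I)) := by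
  classical
  -- transfer to additive characters
  let e : Additive (G →* Circle) ≃+ AddChar (Additive G) Circle :=
    { toFun := fun χ => toAdd χ.toMul
      invFun := fun ψ => Additive.ofMul
        { toFun := fun g => ψ (Additive.ofMul g)
          map_one' := ψ.map_zero_eq_one
          map_mul' := fun a b => ψ.map_add_eq_mul _ _ }
      left_inv := fun χ => rfl
      right_inv := fun ψ => rfl
      map_add' := fun _ _ => rfl }
  have he : ∀ (w : G →* Circle) (g : G), e (Additive.ofMul w) (Additive.ofMul g) = w g :=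
    fun w g => rfl
  let W1 : AddSubgroup (Additive (G →* Circle)) := Subgroup.toAddSubgroup W
  let W2 : AddSubgroup (AddChar (Additive G) Circle) := W1.map e.toAddMonoidHom
  have hW2 : ∀ {w : G →* Circle}, w ∈ W → e (Additive.ofMul w) ∈ AddSubgroup.toIntSubmodule W2 := by
    intro w hw
    exact ⟨Additive.ofMul w, hw, rfl⟩
  have hinv : ∀ w ∈ AddSubgroup.toIntSubmodule W2, (e.symm w).toMul ∈ W := by
    rintro _ ⟨w, hw, rfl⟩
    have h1 : e.symm (e.toAddMonoidHom w) = w := e.symm_apply_apply w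
    rw [h1]
    exact hw
  have hfg1 : W1.FG := (Subgroup.fg_iff_add_fg W).1 hfg
  have hfg2 : (AddSubgroup.toIntSubmodule W2).FG := by
    have h1 : (AddSubgroup.toIntSubmodule W1).FG := by
      rw [Submodule.fg_iff_addSubgroup_fg, AddSubgroup.toIntSubmodule_toAddSubgroup]
      exact hfg1
    exact h1.map e.toAddMonoidHom.toIntLinearMap
  have htf2 : ∀ w ∈ AddSubgroup.toIntSubmodule W2, ∀ m : ℤ, m ≠ 0 → m • w = 0 → w = 0 := by
    intro w hw m hm h
    have h1 := hinv w hw
    have h2 : (e.symm w).toMul ^ m = 1 := by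
      have h3 : e.symm (m • w) = m • e.symm w := map_zsmul e.symm m w
      rw [h, map_zero] at h3
      have h4 := congrArg Additive.toMul h3
      exact h4.symm
    have h3 : (e.symm w).toMul ^ m.natAbs = 1 := by
      rcases Int.natAbs_eq m with h5 | h5
      · rw [h5, zpow_natCast] at h2
        exact h2
      · rw [h5, zpow_neg, zpow_natCast, inv_eq_one] at h2
        exact h2
    have h4 := htf _ h1 _ (Int.natAbs_ne_zero.2 hm) h3
    have h5 : e.symm w = 0 := h4
    rw [← e.apply_symm_apply w, h5, map_zero]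
  let f : AddSubgroup.toIntSubmodule W2 →+ Additive W :=
    { toFun := fun w => Additive.ofMul ⟨(e.symm w.1).toMul, hinv w.1 w.2⟩
      map_zero' := by
        apply Additive.toMul.injective
        apply Subtype.ext
        show (e.symm 0).toMul = 1
        rw [map_zero]
        rfl
      map_add' := by
        intro a b
        apply Additive.toMul.injective
        apply Subtype.ext
        show (e.symm (a.1 + b.1)).toMul = (e.symm a.1).toMul * (e.symm b.1).toMul
        rw [map_add]
        rfl }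
  have hsub : ∀ k, toAdd (χ k) - toAdd (χ k0) = e (Additive.ofMul (χ k / χ k0)) := by
    intro k
    have h1 : Additive.ofMul (χ k / χ k0) = Additive.ofMul (χ k) - Additive.ofMul (χ k0) := rfl
    rw [h1, map_sub]
    rfl
  have hW3 : ∀ k, toAdd (χ k) - toAdd (χ k0) ∈ AddSubgroup.toIntSubmodule W2 := by
    intro k
    rw [hsub]
    exact hW2 (hW k)
  have := pres_kron (P := P) (fun k => toAdd (χ k)) (fun γ => hχ γ.toMul)
    (AddSubgroup.toIntSubmodule W2) hfg2 htf2 k0 hW3 (x.comp f) t
  convert this using 2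
  funext k
  show x _ = x (f ⟨_, _⟩)
  congr 1
  apply Additive.toMul.injective
  apply Subtype.ext
  show χ k / χ k0 = (e.symm (toAdd (χ k) - toAdd (χ k0))).toMul
  rw [hsub, e.symm_apply_apply]
  rfl

end

end Crest.Agent.R273.PFlow_522
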