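import Crest.Agent.R273.Map_835
import Crest.Agent.R273.HFlow3_376

/-!
# R273 (S0416), torus step BP-T (helper522): projective coordinates, lifting, flows, retraction

`P : ProjD A` homogeneous coordinates of the compact manifold `M`, `E P = Fin (P.N + 1) → ℂ`.

* `R P x v`      : `v` is a homogeneous coordinate vector of `x` (`v ≠ 0`)
* `R.uniq`, `exists_lim` : injectivity, compactness (the image of `M` is closed)
* `loc`          : local holomorphic inverse of the projective embedding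
* `Pres P T`     : the map `T` of `E P` preserves the image of `M`; closed under limits
-/

set_option autoImplicit false
set_option linter.unusedSectionVars false

open Set Filter Topology Complex
open scoped ContDiff Matrix ComplexConjugate

namespace Crest.Agent.R273.PFlow_522

open Crest.Agent.R275.Geo Crest.Agent.R275.Core144 Crest.Agent.R273.Defs_333

noncomputable section

variable {n : ℕ} {M : Type} [TopologicalSpace M] {A : Atl n M}

/-! ### proportional vectors -/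

section prop

variable {ι : Type*}

/-- cross ratios detect proportionality -/
theorem prop_of_cross {u w : ι → ℂ} (hu : u ≠ 0) (hw : w ≠ 0)
    (h : ∀ k l, w k * u l = w l * u k) : ∃ c : ℂ, c ≠ 0 ∧ w = c • u := by
  obtain ⟨l, hl⟩ : ∃ l, u l ≠ 0 := by
    by_contra hc
    push Not at hc
    exact hu (funext hc)
  have h1 : w = (w l / u l) • u := by
    funext k
    rw [Pi.smul_apply, smul_eq_mul, div_mul_eq_mul_div, eq_div_iff hl]
    exact h k l
  refine ⟨w l / u l, fun h0 => hw ?_, h1⟩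
  rw [h1, h0, zero_smul]

theorem cross_of_prop {u w : ι → ℂ} {c : ℂ} (h : w = c • u) (k l : ι) : w k * u l = w l * u k := by
  rw [h]
  simp only [Pi.smul_apply, smul_eq_mul]
  ring

end prop

/-- homogeneous coordinate vectors -/
abbrev E (P : ProjD A) : Type := Fin (P.N + 1) → ℂ

/-- `v` is a homogeneous coordinate vector of `x` -/
def R (P : ProjD A) (x : M) (v : E P) : Prop :=
  ∃ i, x ∈ (A.e i).source ∧ ∃ c : ℂ, c ≠ 0 ∧ v = c • P.F i x

variable {P : ProjD A}

theorem tr_ne {i j : A.ι} {x : M} (hi : x ∈ (A.e i).source) (hj : x ∈ (A.e j).source) :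
    ∃ c : ℂ, c ≠ 0 ∧ P.F i x = c • P.F j x := by
  obtain ⟨c, hc⟩ := P.tr i j x ⟨hi, hj⟩
  refine ⟨c, fun h0 => P.ne i x hi ?_, hc⟩
  rw [hc, h0, zero_smul]

theorem R.chart {x : M} {v : E P} (h : R P x v) {i : A.ι} (hi : x ∈ (A.e i).source) :
    ∃ c : ℂ, c ≠ 0 ∧ v = c • P.F i x := by
  obtain ⟨j, hj, c, hc, hv⟩ := h
  obtain ⟨d, hd, hF⟩ := tr_ne (P := P) hj hi
  exact ⟨c * d, mul_ne_zero hc hd, by rw [hv, hF, smul_smul]⟩

theorem R.ne {x : M} {v : E P} (h : R P x v) : v ≠ 0 := by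
  obtain ⟨j, hj, c, hc, hv⟩ := h
  rw [hv]
  exact smul_ne_zero hc (P.ne j x hj)

theorem R_F {i : A.ι} {x : M} (hi : x ∈ (A.e i).source) : R P x (P.F i x) :=
  ⟨i, hi, 1, one_ne_zero, (one_smul _ _).symm⟩

theorem exists_R (x : M) : ∃ v, R P x v := by
  obtain ⟨i, hi⟩ := A.cover x
  exact ⟨_, R_F hi⟩

theorem R.smul {x : M} {v : E P} (h : R P x v) {c : ℂ} (hc : c ≠ 0) : R P x (c • v) := by
  obtain ⟨j, hj, d, hd, hv⟩ := h
  exact ⟨j, hj, c * d, mul_ne_zero hc hd, by rw [hv, smul_smul]⟩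

theorem R.of_smul {x : M} {v : E P} {c : ℂ} (hc : c ≠ 0) (h : R P x (c • v)) : R P x v := by
  have := h.smul (inv_ne_zero hc)
  rwa [smul_smul, inv_mul_cancel₀ hc, one_smul] at this

theorem R.prop {x : M} {v w : E P} (hv : R P x v) (hw : R P x w) :
    ∃ c : ℂ, c ≠ 0 ∧ w = c • v := by
  obtain ⟨j, hj, d, hd, hv⟩ := hv
  obtain ⟨e, he, hw⟩ := hw.chart hj
  refine ⟨e * d⁻¹, mul_ne_zero he (inv_ne_zero hd), ?_⟩
  rw [hw, hv, smul_smul, mul_assoc, inv_mul_cancel₀ hd, mul_one]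

/-- injectivity -/
theorem R.uniq {x y : M} {v : E P} (hx : R P x v) (hy : R P y v) : x = y := by
  obtain ⟨i, hi, c, hc, hv⟩ := hx
  obtain ⟨j, hj, d, hd, hw⟩ := hy
  refine P.inj i j x hi y hj ⟨c⁻¹ * d, ?_⟩
  rw [mul_smul, ← hw, hv, smul_smul, inv_mul_cancel₀ hc, one_smul]

theorem R.uniq_smul {x y : M} {v w : E P} {c : ℂ} (hx : R P x v) (hy : R P y w) (hc : c ≠ 0)
    (h : w = c • v) : x = y := by
  subst h
  exact hx.uniq (hy.of_smul hc)

/-! ### continuity and compactness -/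

theorem continuousOn_F (i : A.ι) : ContinuousOn (P.F i) (A.e i).source := by
  rw [continuousOn_pi]
  intro k
  have h1 : ContinuousOn (fun z => P.F i ((A.e i).symm z) k) (A.e i).target := by
    have := (P.hol i k).continuousOn
    simpa using this
  have h2 : ContinuousOn (fun x => P.F i ((A.e i).symm (A.e i x)) k) (A.e i).source :=
    ContinuousOn.comp (g := fun z => P.F i ((A.e i).symm z) k) h1 (A.e i).continuousOn
      (A.e i).mapsTo
  exact h2.congr fun x hx => by simp only [(A.e i).left_inv hx]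

theorem continuousAt_F {i : A.ι} {x : M} (hi : x ∈ (A.e i).source) : ContinuousAt (P.F i) x :=
  (continuousOn_F i).continuousAt ((A.e i).open_source.mem_nhds hi)

/-- the incidence relation is closed -/
theorem R.closed {α : Type*} {l : Filter α} [l.NeBot] {x : α → M} {v : α → E P} {x0 : M}
    {v0 : E P} (hx : Tendsto x l (𝓝 x0)) (hv : Tendsto v l (𝓝 v0)) (h0 : v0 ≠ 0)
    (h : ∀ᶠ a in l, R P (x a) (v a)) : R P x0 v0 := by
  obtain ⟨i, hi⟩ := A.cover x0
  have hF : Tendsto (fun a => P.F i (x a)) l (𝓝 (P.F i x0)) := (continuousAt_F hi).tendsto.comp hx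
  have hs : ∀ᶠ a in l, x a ∈ (A.e i).source := hx ((A.e i).open_source.mem_nhds hi)
  have hcross : ∀ k k', v0 k * P.F i x0 k' = v0 k' * P.F i x0 k := by
    intro k k'
    have h1 : Tendsto (fun a => v a k * P.F i (x a) k') l (𝓝 (v0 k * P.F i x0 k')) :=
      ((tendsto_pi_nhds.1 hv) k).mul ((tendsto_pi_nhds.1 hF) k')
    have h2 : Tendsto (fun a => v a k' * P.F i (x a) k) l (𝓝 (v0 k' * P.F i x0 k)) :=
      ((tendsto_pi_nhds.1 hv) k').mul ((tendsto_pi_nhds.1 hF) k)
    refine tendsto_nhds_unique_of_eventuallyEq h1 h2 ?_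
    filter_upwards [h, hs] with a ha hsa
    obtain ⟨c, _, hc⟩ := ha.chart hsa
    exact cross_of_prop hc k k'
  obtain ⟨c, hc, hv0⟩ := prop_of_cross (P.ne i x0 hi) h0 hcross
  exact ⟨i, hi, c, hc, hv0⟩

/-- the image of `M` is closed, and the inverse is continuous -/
theorem exists_lim [CompactSpace M] {α : Type*} {l : Filter α} [l.NeBot] {x : α → M}
    {v : α → E P} {v0 : E P} (hv : Tendsto v l (𝓝 v0)) (h0 : v0 ≠ 0)
    (h : ∀ᶠ a in l, R P (x a) (v a)) : ∃ x0, R P x0 v0 ∧ Tendsto x l (𝓝 x0) := by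
  have key : ∀ U : Ultrafilter α, (U : Filter α) ≤ l →
      ∃ x0, R P x0 v0 ∧ Tendsto x U (𝓝 x0) := by
    intro U hU
    obtain ⟨x0, _, hx0⟩ := isCompact_univ.ultrafilter_le_nhds (U.map x) (by simp)
    have hx0' : Tendsto x U (𝓝 x0) := hx0
    exact ⟨x0, R.closed hx0' (hv.mono_left hU) h0 (h.filter_mono hU), hx0'⟩
  obtain ⟨x0, hR, _⟩ := key (Ultrafilter.of l) (Ultrafilter.of_le l)
  refine ⟨x0, hR, ?_⟩
  rw [tendsto_iff_ultrafilter]
  intro U hU
  obtain ⟨x1, hR1, hx1⟩ := key U hU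
  rwa [hR.uniq hR1]

/-! ### maps preserving the image -/

/-- `T` preserves the image of `M` -/
def Pres (P : ProjD A) (T : E P → E P) : Prop := ∀ y v, R P y v → ∃ y', R P y' (T v)

theorem Pres.comp {T S : E P → E P} (hT : Pres P T) (hS : Pres P S) : Pres P (T ∘ S) := by
  intro y v h
  obtain ⟨y', h'⟩ := hS y v h
  exact hT y' _ h'

theorem pres_of_lim [CompactSpace M] {α : Type*} {l : Filter α} [l.NeBot] {T : α → E P → E P}
    {T0 : E P → E P} (hT : ∀ v, Tendsto (fun a => T a v) l (𝓝 (T0 v)))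
    (h0 : ∀ v, v ≠ 0 → T0 v ≠ 0) (h : ∀ᶠ a in l, Pres P (T a)) : Pres P T0 := by
  intro y v hv
  have : Nonempty M := ⟨y⟩
  choose! f hf using fun (a : α) (ha : Pres P (T a)) => ha y v hv
  obtain ⟨x0, hx0, _⟩ := exists_lim (P := P) (x := f) (hT v) (h0 v hv.ne)
    (h.mono fun a ha => hf a ha)
  exact ⟨x0, hx0⟩

/-! ### local inverse of the projective embedding -/

/-- points with coordinates near those of `x0` are near `x0` -/
theorem near [CompactSpace M] {x0 : M} {v0 : E P} (h0 : R P x0 v0) {U : Set M} (hU : U ∈ 𝓝 x0) :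
    ∀ᶠ v in 𝓝 v0, ∀ x, R P x v → x ∈ U := by
  by_contra hc
  rw [not_eventually] at hc
  have hc' : ∃ᶠ v in 𝓝 v0, ∃ x, R P x v ∧ x ∉ U := by
    refine hc.mono fun v hv => ?_
    push Not at hv
    exact hv
  set S : Set (E P) := {v | ∃ x, R P x v ∧ x ∉ U} with hS
  have hne : (𝓝 v0 ⊓ 𝓟 S).NeBot := by
    rw [← frequently_mem_iff_neBot]
    exact hc'
  have : Nonempty M := ⟨x0⟩
  choose! f hf using fun (v : E P) (hv : v ∈ S) => hv
  have hmem : ∀ᶠ v in 𝓝 v0 ⊓ 𝓟 S, v ∈ S := mem_inf_of_right (mem_principal_self S)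
  obtain ⟨x1, hx1, hlim⟩ := exists_lim (P := P) (l := 𝓝 v0 ⊓ 𝓟 S) (x := f) (v := fun v => v)
    (v0 := v0) (tendsto_id.mono_left inf_le_left) h0.ne (hmem.mono fun v hv => (hf v hv).1)
  rw [hx1.uniq h0] at hlim
  have hlU : ∀ᶠ v in 𝓝 v0 ⊓ 𝓟 S, f v ∈ U := hlim hU
  obtain ⟨v, hv1, hv2⟩ := (hlU.and hmem).exists
  exact (hf v hv2).2 hv1

/-- the immersion part: the affine coordinates have a linear left inverse of the differential -/
theorem loc [CompactSpace M] {x0 : M} {v0 : E P} (h0 : R P x0 v0) {i : A.ι}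
    (hi : x0 ∈ (A.e i).source) :
    ∃ Ψ : E P → Cn n, ContDiffAt ℂ 1 Ψ v0 ∧ Ψ v0 = A.e i x0 ∧
      ∀ᶠ v in 𝓝 v0, ∀ x, R P x v → x ∈ (A.e i).source ∧ A.e i x = Ψ v := by
  obtain ⟨k0, hk0⟩ : ∃ k, v0 k ≠ 0 := by
    by_contra hc
    push Not at hc
    exact h0.ne (funext hc)
  obtain ⟨c, hc, hv0⟩ := h0.chart hi
  have hF0 : P.F i x0 k0 ≠ 0 := by
    intro h
    apply hk0
    rw [hv0, Pi.smul_apply, h, smul_zero]
  set G : Cn n → E P := fun z => P.F i ((A.e i).symm z) with hGdef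
  set z0 : Cn n := A.e i x0 with hz0
  have hz0t : z0 ∈ (A.e i).target := (A.e i).map_source hi
  have hGz0 : G z0 = P.F i x0 := by simp only [hGdef, hz0, (A.e i).left_inv hi]
  have hGd : DifferentiableOn ℂ G (A.e i).target := by
    rw [differentiableOn_pi]
    intro k
    have := P.hol i k
    simpa [HolAt] using this
  have hGa : AnalyticAt ℂ G z0 :=
    Crest.Agent.R266.SCV.analyticOnNhd_of_differentiableOn (A.e i).open_target hGd z0 hz0t
  have hGk : ∀ z ∈ (A.e i).target, True := fun _ _ => trivial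
  have hGc1 : ContDiffAt ℂ 1 G z0 := hGa.contDiffAt
  have hGk1 : ContDiffAt ℂ 1 (fun z => G z k0) z0 := contDiffAt_pi.1 hGc1 k0
  have hne0 : G z0 k0 ≠ 0 := by rw [hGz0]; exact hF0
  set f : Cn n → E P := fun z => (G z k0)⁻¹ • G z with hfdef
  have hf1 : ContDiffAt ℂ 1 f z0 := (hGk1.inv hne0).smul hGc1
  have hfd : HasFDerivAt f (fderiv ℂ f z0) z0 := (hf1.differentiableAt one_ne_zero).hasFDerivAt
  have hinj : LinearMap.ker ((fderiv ℂ f z0 : Cn n →L[ℂ] E P) : Cn n →ₗ[ℂ] E P) = ⊥ := by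
    rw [LinearMap.ker_eq_bot']
    intro v hv
    have hGh : HasFDerivAt G (fderiv ℂ G z0) z0 := (hGc1.differentiableAt one_ne_zero).hasFDerivAt
    -- G = (G k0) • f
    have hGkh : HasFDerivAt (fun z => G z k0)
        ((ContinuousLinearMap.proj (R := ℂ) (φ := fun _ : Fin (P.N + 1) => ℂ) k0).comp
          (fderiv ℂ G z0)) z0 := (hasFDerivAt_pi'.1 hGh) k0
    have hprod := hGkh.smul hfd
    have heq : (fun z => G z k0 • f z) =ᶠ[𝓝 z0] G := by
      have : ∀ᶠ z in 𝓝 z0, G z k0 ≠ 0 :=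
        (hGk1.continuousAt).eventually_ne hne0
      filter_upwards [this] with z hz
      simp only [hfdef]
      rw [smul_smul, mul_inv_cancel₀ hz, one_smul]
    have hG' := (hprod.congr_of_eventuallyEq heq.symm).unique hGh
    have h1 : G z0 k0 • fderiv ℂ f z0 v + (fderiv ℂ G z0 v) k0 • f z0 = fderiv ℂ G z0 v :=
      congrArg (fun T : Cn n →L[ℂ] E P => T v) hG'
    have hv' : fderiv ℂ f z0 v = 0 := hv
    rw [hv', smul_zero, zero_add] at h1
    refine P.imm i z0 hz0t v ⟨(fderiv ℂ G z0 v) k0 * (G z0 k0)⁻¹, ?_⟩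
    change fderiv ℂ G z0 v = _ • G z0
    rw [← h1]
    simp only [hfdef, smul_smul]
    congr 1
    rw [Pi.smul_apply, smul_eq_mul]
    field_simp
  obtain ⟨T0, hT0⟩ := LinearMap.exists_leftInverse_of_injective
    ((fderiv ℂ f z0 : Cn n →L[ℂ] E P) : Cn n →ₗ[ℂ] E P) hinj
  set T : E P →L[ℂ] Cn n := LinearMap.toContinuousLinearMap T0 with hT
  set h : Cn n → Cn n := fun z => T (f z) with hh
  have hh1 : ContDiffAt ℂ 1 h z0 := T.contDiff.contDiffAt.comp z0 hf1
  have hhd : HasFDerivAt h ((ContinuousLinearEquiv.refl ℂ (Cn n) : Cn n ≃L[ℂ] Cn n) :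
      Cn n →L[ℂ] Cn n) z0 := by
    have h1 : HasFDerivAt h (T.comp (fderiv ℂ f z0)) z0 := T.hasFDerivAt.comp z0 hfd
    have h2 : T.comp (fderiv ℂ f z0) = ((ContinuousLinearEquiv.refl ℂ (Cn n) : Cn n ≃L[ℂ] Cn n) :
      Cn n →L[ℂ] Cn n) := by
      ext v
      have := congrArg (fun S : Cn n →ₗ[ℂ] Cn n => S v) hT0
      simpa [hT] using congrArg (fun S : Cn n => S _) this
    rwa [h2] at h1
  set g : Cn n → Cn n := hh1.localInverse hhd one_ne_zero with hg
  have hg1 : ContDiffAt ℂ 1 g (h z0) := hh1.to_localInverse hhd one_ne_zero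
  have hgl : ∀ᶠ z in 𝓝 z0, g (h z) = z :=
    (hh1.hasStrictFDerivAt' hhd one_ne_zero).eventually_left_inverse
  -- the inverse
  have hnorm : ∀ {x : M} {v : E P}, x ∈ (A.e i).source → R P x v → P.F i x k0 ≠ 0 →
      (v k0)⁻¹ • v = f (A.e i x) := by
    intro x v hx hv hk
    obtain ⟨c, hc, hv⟩ := hv.chart hx
    simp only [hfdef, hGdef, (A.e i).left_inv hx]
    rw [hv, smul_smul, Pi.smul_apply, smul_eq_mul]
    congr 1
    field_simp
  have hΨv0 : (v0 k0)⁻¹ • v0 = f z0 := hnorm hi h0 hF0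
  have hcd : ContDiffAt ℂ 1 (fun v : E P => (v k0)⁻¹ • v) v0 :=
    ((contDiff_apply ℂ ℂ k0).contDiffAt.inv hk0).smul contDiffAt_id
  refine ⟨fun v => g (T ((v k0)⁻¹ • v)), ?_, ?_, ?_⟩
  · refine ContDiffAt.comp v0 (g := g) (f := fun v : E P => T ((v k0)⁻¹ • v)) ?_
      (T.contDiff.contDiffAt.comp v0 hcd)
    simp only [hΨv0]
    exact hg1
  · simp only [hΨv0]
    exact hgl.self_of_nhds
  · have hU : {x : M | x ∈ (A.e i).source ∧ P.F i x k0 ≠ 0 ∧ g (h (A.e i x)) = A.e i x} ∈ 𝓝 x0 := by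
      have h1 : ∀ᶠ x in 𝓝 x0, x ∈ (A.e i).source := (A.e i).open_source.mem_nhds hi
      have h2 : ∀ᶠ x in 𝓝 x0, P.F i x k0 ≠ 0 :=
        ((continuousAt_pi.1 (continuousAt_F hi)) k0).eventually_ne hF0
      have h3 : ∀ᶠ x in 𝓝 x0, g (h (A.e i x)) = A.e i x :=
        ((A.e i).continuousAt hi).tendsto.eventually hgl
      filter_upwards [h1, h2, h3] with x h1 h2 h3 using ⟨h1, h2, h3⟩
    filter_upwards [near h0 hU] with v hv x hx
    obtain ⟨h1, h2, h3⟩ := hv x hx
    refine ⟨h1, ?_⟩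
    simp only [hnorm h1 hx h2]
    exact h3.symm

/-! ### lifting of holomorphic maps -/

theorem lift_cont [CompactSpace M] {Z : Type*} [TopologicalSpace Z] {g : Z → M} {G : Z → E P}
    {z0 : Z} (hG : ContinuousAt G z0) (h : ∀ᶠ z in 𝓝 z0, R P (g z) (G z)) :
    ContinuousAt g z0 := by
  intro U hU
  have h1 := near (h.self_of_nhds) hU
  show ∀ᶠ z in 𝓝 z0, g z ∈ U
  filter_upwards [hG.eventually h1, h] with z hz1 hz2
  exact hz1 _ hz2

theorem lift_diff [CompactSpace M] {Z : Type*} [NormedAddCommGroup Z] [NormedSpace ℂ Z]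
    {g : Z → M} {G : Z → E P} {z0 : Z} (hG : DifferentiableAt ℂ G z0)
    (h : ∀ᶠ z in 𝓝 z0, R P (g z) (G z)) {j : A.ι} (hj : g z0 ∈ (A.e j).source) :
    DifferentiableAt ℂ (fun z => A.e j (g z)) z0 := by
  obtain ⟨Ψ, hΨ, _, hloc⟩ := loc h.self_of_nhds hj
  have h1 : DifferentiableAt ℂ (fun z => Ψ (G z)) z0 :=
    DifferentiableAt.comp z0 (hΨ.differentiableAt one_ne_zero) hG
  refine h1.congr_of_eventuallyEq ?_
  filter_upwards [hG.continuousAt.eventually hloc, h] with z hz1 hz2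
  exact (hz1 _ hz2).2

theorem diff_F {i : A.ι} {x : M} (hi : x ∈ (A.e i).source) :
    DifferentiableAt ℂ (fun z => P.F i ((A.e i).symm z)) (A.e i x) := by
  rw [differentiableAt_pi]
  intro k
  have := P.hol i k
  rw [HolAt, preimage_univ, inter_univ] at this
  exact this.differentiableAt ((A.e i).open_target.mem_nhds ((A.e i).map_source hi))

/-! ### diagonal flows -/

/-- the diagonal action of `z : ℂ` with weights `x` on the coordinate vectors -/
def Ez {N : ℕ} (x : Fin (N + 1) → ℝ) (z : ℂ) (v : Fin (N + 1) → ℂ) : Fin (N + 1) → ℂ :=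
  fun k => Complex.exp (z * x k) * v k

section Ez

variable {N : ℕ} (x : Fin (N + 1) → ℝ)

theorem Ez_zero (v : Fin (N + 1) → ℂ) : Ez x 0 v = v := by
  funext k
  simp [Ez]

theorem Ez_add (z w : ℂ) (v : Fin (N + 1) → ℂ) : Ez x (z + w) v = Ez x z (Ez x w v) := by
  funext k
  simp only [Ez]
  rw [← mul_assoc, ← Complex.exp_add, add_mul]

theorem Ez_ne {z : ℂ} {v : Fin (N + 1) → ℂ} (hv : v ≠ 0) : Ez x z v ≠ 0 := by
  intro h
  apply hv
  funext k
  have := congrFun h k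
  simpa [Ez, Complex.exp_ne_zero] using this

theorem Ez_smul (z c : ℂ) (v : Fin (N + 1) → ℂ) : Ez x z (c • v) = c • Ez x z v := by
  funext k
  simp only [Ez, Pi.smul_apply, smul_eq_mul]
  ring

theorem differentiable_Ez : Differentiable ℂ (fun q : ℂ × (Fin (N + 1) → ℂ) => Ez x q.1 q.2) := by
  rw [differentiable_pi]
  intro k
  simp only [Ez]
  have h1 : Differentiable ℂ (fun q : ℂ × (Fin (N + 1) → ℂ) => Complex.exp (q.1 * x k)) :=
    (differentiable_fst.mul_const _).cexp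
  have h2 : Differentiable ℂ (fun q : ℂ × (Fin (N + 1) → ℂ) => q.2 k) :=
    (differentiable_pi.1 differentiable_snd) k
  exact h1.mul h2

theorem continuous_Ez : Continuous (fun q : ℂ × (Fin (N + 1) → ℂ) => Ez x q.1 q.2) :=
  (differentiable_Ez x).continuous

end Ez

/-- a holomorphic function on a disc vanishing on `iℝ` vanishes -/
theorem eq_zero_of_im {δ : ℝ} (hδ : 0 < δ) {f : ℂ → ℂ} (hf : DifferentiableOn ℂ f (Metric.ball 0 δ))
    (h : ∀ t : ℝ, |t| < δ → f (t * I) = 0) {z : ℂ} (hz : ‖z‖ < δ) : f z = 0 := by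
  have ha : AnalyticOnNhd ℂ f (Metric.ball 0 δ) := hf.analyticOnNhd Metric.isOpen_ball
  have hfr : ∃ᶠ z in 𝓝[≠] (0 : ℂ), f z = 0 := by
    have htend : Tendsto (fun t : ℝ => (t : ℂ) * I) (𝓝[≠] 0) (𝓝[≠] 0) := by
      refine tendsto_nhdsWithin_of_tendsto_nhds_of_eventually_within _ ?_ ?_
      · have : Tendsto (fun t : ℝ => (t : ℂ) * I) (𝓝 0) (𝓝 ((0 : ℝ) * I)) :=
          ((Complex.continuous_ofReal.mul continuous_const).tendsto 0)
        simp only [Complex.ofReal_zero, zero_mul] at this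
        exact this.mono_left nhdsWithin_le_nhds
      · filter_upwards [self_mem_nhdsWithin] with t ht
        simpa using ht
    refine htend.frequently ?_
    have : ∀ᶠ t : ℝ in 𝓝[≠] 0, f (t * I) = 0 := by
      have h1 : ∀ᶠ t : ℝ in 𝓝 0, |t| < δ := by
        have := (continuous_abs (G := ℝ)).tendsto 0
        rw [abs_zero] at this
        exact this.eventually (gt_mem_nhds hδ)
      filter_upwards [nhdsWithin_le_nhds h1] with t ht using h t ht
    exact this.frequently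
  have h0 : (0 : ℂ) ∈ Metric.ball (0 : ℂ) δ := Metric.mem_ball_self hδ
  have := ha.eqOn_zero_of_preconnected_of_frequently_eq_zero
    (convex_ball (0 : ℂ) δ).isPreconnected h0 hfr
  exact this (by simpa using hz)

/-- local extension of the flow from imaginary to complex time -/
theorem pres_local [CompactSpace M] {x : Fin (P.N + 1) → ℝ}
    (h : ∀ t : ℝ, Pres P (Ez x (t * I))) (x0 : M) :
    ∃ O ∈ 𝓝 x0, ∃ δ > 0, ∀ y ∈ O, ∀ z : ℂ, ‖z‖ < δ → ∀ v, R P y v → ∃ y', R P y' (Ez x z v) := by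
  obtain ⟨i, hi⟩ := A.cover x0
  obtain ⟨Ψ, hΨ, hΨ0, hloc⟩ := loc (R_F (P := P) hi) hi
  set v0 := P.F i x0 with hv0
  have hQ : ∀ᶠ v in 𝓝 v0, DifferentiableAt ℂ Ψ v ∧ Ψ v ∈ (A.e i).target ∧
      ∀ y, R P y v → y ∈ (A.e i).source ∧ A.e i y = Ψ v := by
    have h1 : ∀ᶠ v in 𝓝 v0, DifferentiableAt ℂ Ψ v :=
      (hΨ.eventually (by simp)).mono fun v hv => hv.differentiableAt one_ne_zero
    have h2 : ∀ᶠ v in 𝓝 v0, Ψ v ∈ (A.e i).target := by
      have := hΨ.continuousAt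
      refine this.eventually_mem ((A.e i).open_target.mem_nhds ?_)
      rw [hΨ0]
      exact (A.e i).map_source hi
    filter_upwards [h1, h2, hloc] with v h1 h2 h3 using ⟨h1, h2, h3⟩
  have hcont : Tendsto (fun q : ℂ × M => Ez x q.1 (P.F i q.2)) (𝓝 (0, x0)) (𝓝 v0) := by
    have h1 : ContinuousAt (fun q : ℂ × M => Ez x q.1 (P.F i q.2)) (0, x0) := by
      refine ContinuousAt.comp (f := fun q : ℂ × M => (q.1, P.F i q.2)) (g := fun q => Ez x q.1 q.2)
        (continuous_Ez x).continuousAt ?_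
      exact continuousAt_fst.prodMk (ContinuousAt.comp (f := fun q : ℂ × M => q.2)
        (continuousAt_F hi) continuousAt_snd)
    have h2 := h1.tendsto
    simp only [Ez_zero] at h2
    exact h2
  have hev := (hcont.eventually hQ).and
    (continuousAt_snd.eventually_mem ((A.e i).open_source.mem_nhds hi))
  rw [nhds_prod_eq, eventually_prod_iff] at hev
  obtain ⟨pa, hpa, pb, hpb, hab⟩ := hev
  obtain ⟨δ, hδ, hball⟩ := Metric.eventually_nhds_iff_ball.1 hpa
  refine ⟨{y | pb y}, hpb, δ, hδ, ?_⟩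
  intro y hy z hz v hv
  -- facts for this `y`
  have hfact : ∀ w : ℂ, ‖w‖ < δ → (DifferentiableAt ℂ Ψ (Ez x w (P.F i y)) ∧
      Ψ (Ez x w (P.F i y)) ∈ (A.e i).target ∧ ∀ y', R P y' (Ez x w (P.F i y)) →
        y' ∈ (A.e i).source ∧ A.e i y' = Ψ (Ez x w (P.F i y))) ∧ y ∈ (A.e i).source := by
    intro w hw
    exact hab (hball w (by simpa using hw)) hy
  have hys : y ∈ (A.e i).source := (hfact 0 (by simpa using hδ)).2
  set u := P.F i y with hu
  set H : ℂ → E P := fun w => P.F i ((A.e i).symm (Ψ (Ez x w u))) with hH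
  have hdE : Differentiable ℂ (fun w : ℂ => Ez x w u) :=
    (differentiable_Ez x).comp (differentiable_id.prodMk (differentiable_const u))
  have hHd : ∀ w : ℂ, ‖w‖ < δ → DifferentiableAt ℂ H w := by
    intro w hw
    obtain ⟨⟨h1, h2, _⟩, _⟩ := hfact w hw
    have h3 : DifferentiableAt ℂ (fun w => Ψ (Ez x w u)) w :=
      DifferentiableAt.comp w (f := fun w => Ez x w u) h1 (hdE w)
    have h4 : DifferentiableAt ℂ (fun z => P.F i ((A.e i).symm z)) (Ψ (Ez x w u)) := by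
      have := diff_F (P := P) ((A.e i).map_target h2)
      rwa [(A.e i).right_inv h2] at this
    exact DifferentiableAt.comp w (f := fun w => Ψ (Ez x w u))
      (g := fun z => P.F i ((A.e i).symm z)) h4 h3
  have hcross : ∀ k l, Ez x z u k * H z l = Ez x z u l * H z k := by
    intro k l
    have hzero : (fun w : ℂ => Ez x w u k * H w l - Ez x w u l * H w k) z = 0 := by
      refine eq_zero_of_im (f := fun w : ℂ => Ez x w u k * H w l - Ez x w u l * H w k) hδ ?_ ?_ hz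
      · intro w hw
        have hw' : ‖w‖ < δ := by simpa using hw
        have h1 := differentiableAt_pi.1 (hdE w)
        have h2 := differentiableAt_pi.1 (hHd w hw')
        exact (((h1 k).mul (h2 l)).sub ((h1 l).mul (h2 k))).differentiableWithinAt
      · intro t ht
        have ht' : ‖(t : ℂ) * I‖ < δ := by simpa using ht
        obtain ⟨⟨h1, h2, h3⟩, _⟩ := hfact _ ht'
        obtain ⟨y', hy'⟩ := h t y u (R_F hys)
        obtain ⟨h4, h5⟩ := h3 y' hy'
        have h6 : (A.e i).symm (Ψ (Ez x (t * I) u)) = y' := by rw [← h5, (A.e i).left_inv h4]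
        obtain ⟨c, hc, hc'⟩ := hy'.chart h4
        have h7 : H (t * I) = P.F i y' := by simp only [hH, h6]
        show Ez x (t * I) u k * H (t * I) l - Ez x (t * I) u l * H (t * I) k = 0
        rw [h7, cross_of_prop hc' k l, sub_self]
    exact sub_eq_zero.1 hzero
  obtain ⟨⟨_, h2, _⟩, _⟩ := hfact z hz
  have hs := (A.e i).map_target h2
  obtain ⟨c, hc, hc'⟩ := prop_of_cross (P.ne i _ hs) (Ez_ne x (z := z) (P.ne i y hys)) hcross
  have hR : R P ((A.e i).symm (Ψ (Ez x z u))) (Ez x z u) := ⟨i, hs, c, hc, hc'⟩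
  obtain ⟨d, hd, hd'⟩ := hv.chart hys
  refine ⟨(A.e i).symm (Ψ (Ez x z u)), ?_⟩
  rw [hd', Ez_smul]
  exact hR.smul hd

/-- extension of the flow from imaginary to complex time -/
theorem pres_all [CompactSpace M] {x : Fin (P.N + 1) → ℝ}
    (h : ∀ t : ℝ, Pres P (Ez x (t * I))) (z : ℂ) : Pres P (Ez x z) := by
  have hu : ∃ δ > 0, ∀ y ∈ (univ : Set M), ∀ z : ℂ, ‖z‖ < δ → ∀ v, R P y v →
      ∃ y', R P y' (Ez x z v) := by
    refine isCompact_univ.induction_on (p := fun S : Set M => ∃ δ > 0, ∀ y ∈ S, ∀ z : ℂ,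
      ‖z‖ < δ → ∀ v, R P y v → ∃ y', R P y' (Ez x z v)) ?_ ?_ ?_ ?_
    · exact ⟨1, one_pos, fun y hy => absurd hy (notMem_empty y)⟩
    · rintro S T hST ⟨δ, hδ, hT⟩
      exact ⟨δ, hδ, fun y hy => hT y (hST hy)⟩
    · rintro S T ⟨δ, hδ, hS⟩ ⟨δ', hδ', hT⟩
      refine ⟨min δ δ', lt_min hδ hδ', ?_⟩
      rintro y (hy | hy) z hz
      · exact hS y hy z (lt_of_lt_of_le hz (min_le_left _ _))
      · exact hT y hy z (lt_of_lt_of_le hz (min_le_right _ _))
    · intro y _
      obtain ⟨O, hO, δ, hδ, hh⟩ := pres_local h y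
      exact ⟨O, nhdsWithin_le_nhds hO, δ, hδ, hh⟩
  obtain ⟨δ, hδ, hu⟩ := hu
  have hsmall : ∀ w : ℂ, ‖w‖ < δ → Pres P (Ez x w) := fun w hw y v hv =>
    hu y (mem_univ y) w hw v hv
  obtain ⟨m, hm⟩ := exists_nat_gt (‖z‖ / δ)
  have hm0 : (0 : ℝ) < m := lt_of_le_of_lt (div_nonneg (norm_nonneg _) hδ.le) hm
  have hw : ‖z / m‖ < δ := by
    rw [norm_div, Complex.norm_natCast, div_lt_iff₀ hm0]
    rw [div_lt_iff₀ hδ] at hm
    linarith [mul_comm (m : ℝ) δ]
  have hk : ∀ k : ℕ, Pres P (Ez x (k * (z / m))) := by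
    intro k
    induction k with
    | zero =>
      intro y v hv
      refine ⟨y, ?_⟩
      simpa [Ez_zero] using hv
    | succ k ih =>
      have := ih.comp (hsmall _ hw)
      intro y v hv
      obtain ⟨y', hy'⟩ := this y v hv
      refine ⟨y', ?_⟩
      rw [Nat.cast_succ, add_mul, one_mul, Ez_add]
      exact hy'
  have := hk m
  rwa [mul_div_cancel₀] at this
  exact_mod_cast hm0.ne'

end

end Crest.Agent.R273.PFlow_522
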