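import Crest.Agent.R273.PW_799
import Crest.Agent.R273.GamR_155

/-!
# R273 (S0416), BP-T leaf PW (helper799): the pointwise estimate with `GamR`
-/

set_option autoImplicit false
set_option linter.unusedSectionVars false

open Finset Matrix Complex
open scoped ComplexConjugate ComplexOrder MatrixOrder

namespace Crest.Agent.R273.PWR_799

open Crest.Agent.R273.Fock_243 Crest.Agent.R273.Pos_243 Crest.Agent.R273.Bkn_243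
  Crest.Agent.R275.Kos798 Crest.Agent.R273.PW_799 Crest.Agent.R273.GamR_155

noncomputable section

variable {n b m : ℕ}

theorem GamR_conjTranspose (A : Matrix (Fin m) (Fin n) ℂ) : (GamR A)ᴴ = GamR Aᴴ := by
  have h1 : (GamR A)ᴴ = ((GamR A)ᵀ).map (starRingEnd ℂ) := rfl
  have h2 : Aᴴ = (Aᵀ).map (starRingEnd ℂ) := rfl
  rw [h1, h2, GamR_transpose, GamR_map]

theorem map_conj_transpose (P : Matrix (Fin b) (Fin n) ℂ) :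
    (P.map (starRingEnd ℂ))ᵀ = Pᴴ := rfl

theorem GamR_sandwich (P : Matrix (Fin b) (Fin n) ℂ) (X : Matrix (Fin n) (Fin n) ℂ) :
    (GamR (P.map (starRingEnd ℂ))ᵀ)ᴴ * Gam X * GamR (P.map (starRingEnd ℂ))ᵀ
      = Gam (P * X * Pᴴ) := by
  rw [map_conj_transpose, GamR_conjTranspose, conjTranspose_conjTranspose, ← GamR_eq_Gam X,
    ← GamR_mul, ← GamR_mul, GamR_eq_Gam]

/-- **PW** (general metric `G`), `ξ = Λ(P̄ᵀ) u` the pull-back of a `(0,q)`-form by a holomorphic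
map with Jacobian `P`. -/
theorem pw {G : Matrix (Fin n) (Fin n) ℂ} {δ C : ℝ} (hδ : 0 < δ) (hC : 0 < C)
    (hG : (G - (δ : ℂ) • (1 : Matrix (Fin n) (Fin n) ℂ)).PosSemidef)
    {P : Matrix (Fin b) (Fin n) ℂ}
    (hP : ((C : ℂ) • G - Pᵀ * P.map (starRingEnd ℂ)).PosSemidef) (u : FI b → ℂ) :
    ∑ S, ‖(GamR (P.map (starRingEnd ℂ))ᵀ *ᵥ u) S‖ ^ 2
      ≤ cPW n b δ C * G.det.re * ∑ T, ‖u T‖ ^ 2 ∧
    ∀ a : Fin n → ℂ, ∑ S, ‖(eW a *ᵥ (GamR (P.map (starRingEnd ℂ))ᵀ *ᵥ u)) S‖ ^ 2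
      ≤ cPW n b δ C * (∑ k, ∑ l, G.adjugate l k * conj (a k) * a l).re * ∑ T, ‖u T‖ ^ 2 :=
  pw_of hδ hC hG hP (GamR_sandwich P) u

/-- **PW** for `G = G₀ + H` with `G₀ ≥ δ`, `H ≥ 0`, `C H ≥ Pᵀ P̄`. -/
theorem pw_add {G₀ H : Matrix (Fin n) (Fin n) ℂ} {δ C : ℝ} (hδ : 0 < δ) (hC : 0 < C)
    (hG : (G₀ - (δ : ℂ) • (1 : Matrix (Fin n) (Fin n) ℂ)).PosSemidef) (hH : H.PosSemidef)
    {P : Matrix (Fin b) (Fin n) ℂ}
    (hP : ((C : ℂ) • H - Pᵀ * P.map (starRingEnd ℂ)).PosSemidef) (u : FI b → ℂ) :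
    ∑ S, ‖(GamR (P.map (starRingEnd ℂ))ᵀ *ᵥ u) S‖ ^ 2
      ≤ cPW n b δ C * (G₀ + H).det.re * ∑ T, ‖u T‖ ^ 2 ∧
    ∀ a : Fin n → ℂ, ∑ S, ‖(eW a *ᵥ (GamR (P.map (starRingEnd ℂ))ᵀ *ᵥ u)) S‖ ^ 2
      ≤ cPW n b δ C * (∑ k, ∑ l, (G₀ + H).adjugate l k * conj (a k) * a l).re
        * ∑ T, ‖u T‖ ^ 2 := by
  refine pw hδ hC ?_ ?_ u
  · have : G₀ + H - (δ : ℂ) • (1 : Matrix (Fin n) (Fin n) ℂ)
        = (G₀ - (δ : ℂ) • (1 : Matrix (Fin n) (Fin n) ℂ)) + H := by abel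
    rw [this]
    exact hG.add hH
  · have h1 : G₀.PosSemidef := by
      have h2 : ((δ : ℂ) • (1 : Matrix (Fin n) (Fin n) ℂ)).PosSemidef :=
        Matrix.PosSemidef.one.smul (by exact_mod_cast hδ.le)
      have h3 := hG.add h2
      rwa [sub_add_cancel] at h3
    have h2 : ((C : ℂ) • G₀).PosSemidef := h1.smul (by exact_mod_cast hC.le)
    have : (C : ℂ) • (G₀ + H) - Pᵀ * P.map (starRingEnd ℂ)
        = (C : ℂ) • G₀ + ((C : ℂ) • H - Pᵀ * P.map (starRingEnd ℂ)) := by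
      rw [smul_add, add_sub_assoc]
    rw [this]
    exact h2.add hP

/-- **PW** for `G = 1 + H`. -/
theorem pw_one {H : Matrix (Fin n) (Fin n) ℂ} {C : ℝ} (hC : 0 < C) (hH : H.PosSemidef)
    {P : Matrix (Fin b) (Fin n) ℂ}
    (hP : ((C : ℂ) • H - Pᵀ * P.map (starRingEnd ℂ)).PosSemidef) (u : FI b → ℂ) :
    ∑ S, ‖(GamR (P.map (starRingEnd ℂ))ᵀ *ᵥ u) S‖ ^ 2
      ≤ cPW n b 1 C * (1 + H).det.re * ∑ T, ‖u T‖ ^ 2 ∧
    ∀ a : Fin n → ℂ, ∑ S, ‖(eW a *ᵥ (GamR (P.map (starRingEnd ℂ))ᵀ *ᵥ u)) S‖ ^ 2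
      ≤ cPW n b 1 C * (∑ k, ∑ l, (1 + H).adjugate l k * conj (a k) * a l).re
        * ∑ T, ‖u T‖ ^ 2 := by
  refine pw_add one_pos hC ?_ hH hP u
  rw [Complex.ofReal_one, one_smul, sub_self]
  exact Matrix.PosSemidef.zero

end

end Crest.Agent.R273.PWR_799
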