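import Crest.Agent.R273.Pos_243
import Mathlib.Analysis.Matrix.Spectrum
import Mathlib.Analysis.Matrix.PosDef

/-!
# R273 (S0416), BP-T leaf PW (helper799): pointwise linear algebra for T8
-/

set_option autoImplicit false
set_option linter.unusedSectionVars false

open Finset Matrix Complex
open scoped ComplexConjugate ComplexOrder MatrixOrder

namespace Crest.Agent.R273.PW_799

open Crest.Agent.R273.Fock_243 Crest.Agent.R273.Pos_243 Crest.Agent.R273.Bkn_243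
  Crest.Agent.R275.Kos798

section alg

variable {R : Type*} [CommRing R] {n : ℕ}

theorem Gam_diagonal (d : Fin n → R) :
    Gam (diagonal d) = diagonal fun S : FI n => ∏ i ∈ S, d i := by
  ext S T
  by_cases hc : S.card = T.card
  · by_cases hST : S = T
    · subst hST
      rw [Gam_eq _ rfl rfl, diagonal_apply_eq,
        submatrix_diagonal d _ (S.orderEmbOfFin rfl).injective, det_diagonal]
      conv_rhs => rw [← Finset.map_orderEmbOfFin_univ S rfl]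
      rw [Finset.prod_map]
      rfl
    · rw [diagonal_apply_ne _ hST, Gam_eq _ rfl hc.symm]
      have h1 : ∃ s ∈ S, s ∉ T := by
        by_contra h
        push Not at h
        exact hST (Finset.eq_of_subset_of_card_le h hc.ge)
      obtain ⟨s, hs, hsT⟩ := h1
      have h2 : ∃ i : Fin S.card, S.orderEmbOfFin rfl i = s := by
        have h3 := hs
        rw [← Finset.map_orderEmbOfFin_univ S rfl, mem_map] at h3
        obtain ⟨i, -, hi⟩ := h3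
        exact ⟨i, hi⟩
      obtain ⟨i, hi⟩ := h2
      apply det_eq_zero_of_row_eq_zero i
      intro j
      rw [submatrix_apply, hi, diagonal_apply_ne]
      rintro rfl
      exact hsT (Finset.orderEmbOfFin_mem _ _ _)
  · rw [Gam_of_ne _ hc, diagonal_apply_ne]
    rintro rfl
    exact hc rfl

end alg

noncomputable section an

variable {n b : ℕ}

/-- square norm -/
def nq {ι : Type*} [Fintype ι] (v : ι → ℂ) : ℝ := ∑ S, ‖v S‖ ^ 2

theorem nq_nonneg {ι : Type*} [Fintype ι] (v : ι → ℂ) : 0 ≤ nq v :=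
  Finset.sum_nonneg fun _ _ => by positivity

theorem star_dot_self {ι : Type*} [Fintype ι] (v : ι → ℂ) :
    star v ⬝ᵥ v = ((nq v : ℝ) : ℂ) := by
  unfold nq dotProduct
  push_cast
  refine Finset.sum_congr rfl fun S _ => ?_
  rw [Pi.star_apply, ← Complex.conj_mul']
  rfl

theorem nq_unitary {ι : Type*} [Fintype ι] [DecidableEq ι] {U : Matrix ι ι ℂ} (h : Uᴴ * U = 1)
    (v : ι → ℂ) : nq (U *ᵥ v) = nq v := by
  have h1 : star (U *ᵥ v) ⬝ᵥ (U *ᵥ v) = star v ⬝ᵥ v := by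
    rw [star_mulVec, ← dotProduct_mulVec, mulVec_mulVec, h, one_mulVec]
  rw [star_dot_self, star_dot_self] at h1
  exact_mod_cast h1

theorem exists_diag {G : Matrix (Fin n) (Fin n) ℂ} (hG : G.IsHermitian) :
    ∃ (U : Matrix (Fin n) (Fin n) ℂ) (l : Fin n → ℝ), Uᴴ * U = 1 ∧ U * Uᴴ = 1 ∧
      G = U * diagonal (fun i => (l i : ℂ)) * Uᴴ := by
  refine ⟨hG.eigenvectorUnitary, hG.eigenvalues, ?_, ?_, ?_⟩
  · exact Unitary.coe_star_mul_self _
  · exact Unitary.coe_mul_star_self _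
  · have h := hG.spectral_theorem
    rw [Unitary.conjStarAlgAut_apply] at h
    exact h

/-- the quadratic form of `Γ(A)` in an eigenbasis of `A` -/
theorem quad_Gam {U : Matrix (Fin n) (Fin n) ℂ} (l : Fin n → ℝ) (v : FI n → ℂ) :
    star v ⬝ᵥ (Gam (U * diagonal (fun i => (l i : ℂ)) * Uᴴ) *ᵥ v)
      = ((∑ S : FI n, (∏ i ∈ S, l i) * ‖((Gam Uᴴ) *ᵥ v) S‖ ^ 2 : ℝ) : ℂ) := by
  rw [Gam_mul, Gam_mul, Gam_diagonal, ← mulVec_mulVec, ← mulVec_mulVec, dotProduct_mulVec]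
  have h1 : star v ᵥ* Gam U = star (Gam Uᴴ *ᵥ v) := by
    rw [star_mulVec, Gam_conjTranspose, conjTranspose_conjTranspose]
  rw [h1]
  unfold dotProduct
  push_cast
  refine Finset.sum_congr rfl fun S _ => ?_
  rw [mulVec_diagonal, Pi.star_apply]
  have h2 := Complex.conj_mul' ((Gam Uᴴ *ᵥ v) S)
  rw [← h2]
  change _ = _ * ((starRingEnd ℂ) _ * _)
  rw [starRingEnd_apply]
  ring

/-- `Γ(A) ≤ max(1,c)^n` when `0 ≤ A ≤ c` -/
theorem quad_Gam_le {A : Matrix (Fin n) (Fin n) ℂ} (hA : A.PosSemidef) {c : ℝ}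
    (hc : ((c : ℂ) • (1 : Matrix (Fin n) (Fin n) ℂ) - A).PosSemidef) (v : FI n → ℂ) :
    (star v ⬝ᵥ (Gam A *ᵥ v)).re ≤ (max 1 c) ^ n * nq v := by
  obtain ⟨U, l, h1, h2, rfl⟩ := exists_diag hA.isHermitian
  have hl0 : ∀ i, 0 ≤ l i := by
    intro i
    have h3 := (hA.conjTranspose_mul_mul_same U).diag_nonneg (i := i)
    rw [show Uᴴ * (U * diagonal (fun i => (l i : ℂ)) * Uᴴ) * U
      = (Uᴴ * U) * diagonal (fun i => (l i : ℂ)) * (Uᴴ * U) by simp only [Matrix.mul_assoc], h1,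
      Matrix.one_mul, Matrix.mul_one, diagonal_apply_eq] at h3
    exact_mod_cast h3
  have hl1 : ∀ i, l i ≤ c := by
    intro i
    have h3 := (hc.conjTranspose_mul_mul_same U).diag_nonneg (i := i)
    rw [show Uᴴ * ((c : ℂ) • (1 : Matrix (Fin n) (Fin n) ℂ)
        - U * diagonal (fun i => (l i : ℂ)) * Uᴴ) * U
      = (c : ℂ) • (Uᴴ * U) - (Uᴴ * U) * diagonal (fun i => (l i : ℂ)) * (Uᴴ * U) by
        simp only [Matrix.mul_sub, Matrix.sub_mul, Matrix.mul_smul, Matrix.smul_mul,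
          Matrix.mul_one, Matrix.mul_assoc], h1, Matrix.one_mul, Matrix.mul_one,
      Matrix.sub_apply, Matrix.smul_apply, one_apply_eq, diagonal_apply_eq, smul_eq_mul,
      mul_one, sub_nonneg] at h3
    exact_mod_cast h3
  rw [quad_Gam, Complex.ofReal_re, ← nq_unitary (U := Gam Uᴴ)
    (by rw [Gam_conjTranspose, conjTranspose_conjTranspose, ← Gam_mul, h2, Gam_one]) v]
  unfold nq
  rw [Finset.mul_sum]
  refine Finset.sum_le_sum fun S _ => mul_le_mul_of_nonneg_right ?_ (by positivity)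
  calc ∏ i ∈ S, l i ≤ ∏ _i ∈ S, max 1 c :=
        Finset.prod_le_prod (fun i _ => hl0 i) fun i _ => (hl1 i).trans (le_max_right _ _)
    _ = (max 1 c) ^ S.card := by rw [Finset.prod_const]
    _ ≤ (max 1 c) ^ n := pow_le_pow_right₀ (le_max_left _ _)
        ((Finset.card_le_univ S).trans_eq (Fintype.card_fin n))

/-- `min(1,δ)^n ≤ det G • Γ(G⁻¹)` when `G ≥ δ > 0` -/
theorem le_quad_Gam_inv {G : Matrix (Fin n) (Fin n) ℂ} {δ : ℝ} (hδ : 0 < δ)
    (hG : (G - (δ : ℂ) • (1 : Matrix (Fin n) (Fin n) ℂ)).PosSemidef) (v : FI n → ℂ) :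
    (min 1 δ) ^ n * nq v ≤ G.det.re * (star v ⬝ᵥ (Gam G⁻¹ *ᵥ v)).re := by
  have hH : G.IsHermitian := by
    have h3 := hG.isHermitian
    have h4 : ((δ : ℂ) • (1 : Matrix (Fin n) (Fin n) ℂ)).IsHermitian := by
      unfold Matrix.IsHermitian
      rw [conjTranspose_smul, conjTranspose_one]
      congr 1
      exact Complex.conj_ofReal δ
    have h5 := h3.add h4
    rwa [sub_add_cancel] at h5
  obtain ⟨U, l, h1, h2, rfl⟩ := exists_diag hH
  have hl1 : ∀ i, δ ≤ l i := by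
    intro i
    have h3 := (hG.conjTranspose_mul_mul_same U).diag_nonneg (i := i)
    rw [show Uᴴ * (U * diagonal (fun i => (l i : ℂ)) * Uᴴ
        - (δ : ℂ) • (1 : Matrix (Fin n) (Fin n) ℂ)) * U
      = (Uᴴ * U) * diagonal (fun i => (l i : ℂ)) * (Uᴴ * U) - (δ : ℂ) • (Uᴴ * U) by
        simp only [Matrix.mul_sub, Matrix.sub_mul, Matrix.mul_smul, Matrix.smul_mul,
          Matrix.mul_one, Matrix.mul_assoc], h1, Matrix.one_mul, Matrix.mul_one,
      Matrix.sub_apply, Matrix.smul_apply, one_apply_eq, diagonal_apply_eq, smul_eq_mul,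
      mul_one, sub_nonneg] at h3
    exact_mod_cast h3
  have hlp : ∀ i, 0 < l i := fun i => hδ.trans_le (hl1 i)
  have hinv : (U * diagonal (fun i => (l i : ℂ)) * Uᴴ)⁻¹
      = U * diagonal (fun i => ((l i)⁻¹ : ℝ) : Fin n → ℂ) * Uᴴ := by
    apply inv_eq_right_inv
    calc U * diagonal (fun i => (l i : ℂ)) * Uᴴ * (U * diagonal (fun i => (((l i)⁻¹ : ℝ) : ℂ)) * Uᴴ)
        = U * (diagonal (fun i => (l i : ℂ)) * (Uᴴ * U)
            * diagonal (fun i => (((l i)⁻¹ : ℝ) : ℂ))) * Uᴴ := by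
          simp only [Matrix.mul_assoc]
      _ = U * Uᴴ := by
          rw [h1, Matrix.mul_one, diagonal_mul_diagonal]
          have h5 : (fun i => (l i : ℂ) * (((l i)⁻¹ : ℝ) : ℂ)) = fun _ : Fin n => (1 : ℂ) := by
            funext i
            rw [← Complex.ofReal_mul, mul_inv_cancel₀ (hlp i).ne', Complex.ofReal_one]
          rw [h5, diagonal_one, Matrix.mul_one]
      _ = 1 := h2
  have hdet : (U * diagonal (fun i => (l i : ℂ)) * Uᴴ).det = ((∏ i, l i : ℝ) : ℂ) := by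
    rw [det_mul, det_mul, det_diagonal, mul_comm U.det, mul_assoc, ← det_mul, h2, det_one,
      mul_one]
    push_cast
    rfl
  rw [hinv, hdet, Complex.ofReal_re]
  have h6 := quad_Gam (U := U) (fun i => (l i)⁻¹) v
  rw [h6, Complex.ofReal_re, ← nq_unitary (U := Gam Uᴴ)
    (by rw [Gam_conjTranspose, conjTranspose_conjTranspose, ← Gam_mul, h2, Gam_one]) v]
  unfold nq
  rw [Finset.mul_sum, Finset.mul_sum]
  refine Finset.sum_le_sum fun S _ => ?_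
  rw [← mul_assoc]
  refine mul_le_mul_of_nonneg_right ?_ (by positivity)
  have h7 : (∏ i, l i) * ∏ i ∈ S, (l i)⁻¹ = ∏ i ∈ Sᶜ, l i := by
    rw [← Finset.prod_mul_prod_compl S, Finset.prod_inv_distrib, mul_right_comm,
      mul_inv_cancel₀ (Finset.prod_ne_zero_iff.2 fun i _ => (hlp i).ne'), one_mul]
  rw [h7]
  have hm0 : 0 ≤ min 1 δ := le_min zero_le_one hδ.le
  calc (min 1 δ) ^ n ≤ (min 1 δ) ^ (Sᶜ).card := pow_le_pow_of_le_one hm0 (min_le_left _ _)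
        ((Finset.card_le_univ _).trans_eq (Fintype.card_fin n))
    _ = ∏ _i ∈ Sᶜ, min 1 δ := by rw [Finset.prod_const]
    _ ≤ ∏ i ∈ Sᶜ, l i := Finset.prod_le_prod (fun _ _ => hm0)
        fun i _ => (min_le_right _ _).trans (hl1 i)

/-- `Pᴴ G⁻¹ P ≤ C` when `P Pᴴ ≤ C G` -/
theorem schur {G : Matrix (Fin n) (Fin n) ℂ} (hG : G.PosDef) {P : Matrix (Fin n) (Fin b) ℂ}
    {C : ℝ} (hC : 0 < C) (h : ((C : ℂ) • G - P * Pᴴ).PosSemidef) :
    ((C : ℂ) • (1 : Matrix (Fin b) (Fin b) ℂ) - Pᴴ * G⁻¹ * P).PosSemidef := by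
  have hCC : (0 : ℂ) < (C : ℂ) := by exact_mod_cast hC
  have hne : (C : ℂ) ≠ 0 := hCC.ne'
  have h1 : ((C : ℂ) • (1 : Matrix (Fin b) (Fin b) ℂ)).PosDef := Matrix.PosDef.one.smul hCC
  have hu : Invertible G := hG.isUnit.invertible
  have h2 : ((C : ℂ) • (1 : Matrix (Fin b) (Fin b) ℂ))⁻¹ = ((C : ℂ)⁻¹) • 1 := by
    apply inv_eq_right_inv
    rw [Matrix.smul_mul, Matrix.one_mul, smul_smul, mul_inv_cancel₀ hne, one_smul]
  have hu1 : Invertible ((C : ℂ) • (1 : Matrix (Fin b) (Fin b) ℂ)) := h1.isUnit.invertible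
  rw [← Matrix.PosDef.fromBlocks₁₁ P ((C : ℂ) • (1 : Matrix (Fin b) (Fin b) ℂ)) hG,
    Matrix.PosDef.fromBlocks₂₂ G P h1, h2]
  have h3 : G - P * ((C : ℂ)⁻¹ • (1 : Matrix (Fin b) (Fin b) ℂ)) * Pᴴ
      = ((C : ℂ)⁻¹) • ((C : ℂ) • G - P * Pᴴ) := by
    rw [smul_sub, smul_smul, inv_mul_cancel₀ hne, one_smul, Matrix.mul_smul, Matrix.mul_one,
      Matrix.smul_mul]
  rw [h3]
  exact h.smul (inv_pos.2 hCC).le

theorem eW_conjTranspose (a : Fin n → ℂ) : (eW a)ᴴ = iW (star a) := by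
  have h1 : (eW a)ᴴ = ((eW a).map (starRingEnd ℂ))ᵀ := by
    ext i j; rfl
  rw [h1]
  unfold eW iW
  rw [K_map_conj, Crest.Agent.R273.Fock_243.K_transpose, star_zero]

/-- exterior multiplication in the metric `Γ(X)` -/
theorem wedge_le {X : Matrix (Fin n) (Fin n) ℂ} (hX : X.PosSemidef) (a : Fin n → ℂ)
    (v : FI n → ℂ) :
    (star (eW a *ᵥ v) ⬝ᵥ (Gam X *ᵥ (eW a *ᵥ v))).re
      ≤ (star a ⬝ᵥ (X *ᵥ a)).re * (star v ⬝ᵥ (Gam X *ᵥ v)).re := by
  set β : Fin n → ℂ := X *ᵥ a with hβ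
  have e1 : (eW a)ᴴ * (Gam X * eW a) = (star a ⬝ᵥ β) • Gam X
      - (iW (star β))ᴴ * Gam X * iW (star β) := by
    have h2 : Xᵀ *ᵥ star a = star β := by
      rw [hβ, star_mulVec, mulVec_transpose, hX.isHermitian.eq]
    have h3 : (iW (star β))ᴴ = eW β := by
      rw [← eW_conjTranspose, conjTranspose_conjTranspose]
    rw [eW_conjTranspose, Gam_eW, ← Matrix.mul_assoc, h3, Matrix.mul_assoc (eW β), ← h2,
      ← iW_Gam, ← hβ]
    have h4 := iW_eW (star a) β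
    have h5 : iW (star a) * eW β = (star a ⬝ᵥ β) • 1 - eW β * iW (star a) := by
      rw [eq_sub_iff_add_eq, h4]
      congr 1
      unfold dotProduct
      exact Finset.sum_congr rfl fun j _ => mul_comm _ _
    rw [h5, Matrix.sub_mul, Matrix.smul_mul, Matrix.one_mul, Matrix.mul_assoc]
  have e2 : star (eW a *ᵥ v) ⬝ᵥ (Gam X *ᵥ (eW a *ᵥ v))
      = (star a ⬝ᵥ β) * (star v ⬝ᵥ (Gam X *ᵥ v))
        - star (iW (star β) *ᵥ v) ⬝ᵥ (Gam X *ᵥ (iW (star β) *ᵥ v)) := by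
    have h6 : ∀ Y : Matrix (FI n) (FI n) ℂ, star (Y *ᵥ v) ⬝ᵥ (Gam X *ᵥ (Y *ᵥ v))
        = star v ⬝ᵥ ((Yᴴ * (Gam X * Y)) *ᵥ v) := by
      intro Y
      rw [star_mulVec, ← dotProduct_mulVec, mulVec_mulVec, mulVec_mulVec, Matrix.mul_assoc]
    rw [h6, h6, e1, sub_mulVec, dotProduct_sub, smul_mulVec, dotProduct_smul, smul_eq_mul,
      Matrix.mul_assoc]
  have e3 : 0 ≤ (star (iW (star β) *ᵥ v) ⬝ᵥ (Gam X *ᵥ (iW (star β) *ᵥ v))).re :=
    (Complex.le_def.1 ((Gam_posSemidef hX).dotProduct_mulVec_nonneg _)).1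
  have e4 := (Complex.le_def.1 ((Gam_posSemidef hX).dotProduct_mulVec_nonneg v)).2
  rw [e2, Complex.sub_re, Complex.mul_re, ← e4]
  simp only [Complex.zero_im, mul_zero, sub_zero]
  linarith

/-- **PW, abstract form.**  `Γ` is the rectangular `Γ(P)`. -/
theorem pw_abs {G : Matrix (Fin n) (Fin n) ℂ} {δ C : ℝ} (hδ : 0 < δ) (hC : 0 < C)
    (hG : (G - (δ : ℂ) • (1 : Matrix (Fin n) (Fin n) ℂ)).PosSemidef)
    {P : Matrix (Fin n) (Fin b) ℂ} (hP : ((C : ℂ) • G - P * Pᴴ).PosSemidef)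
    {Γ : Matrix (FI n) (FI b) ℂ} (hΓ : Γᴴ * Gam G⁻¹ * Γ = Gam (Pᴴ * G⁻¹ * P))
    (u : FI b → ℂ) :
    (min 1 δ) ^ n * nq (Γ *ᵥ u) ≤ (max 1 C) ^ b * G.det.re * nq u ∧
    ∀ a : Fin n → ℂ, (min 1 δ) ^ n * nq (eW a *ᵥ (Γ *ᵥ u))
      ≤ (max 1 C) ^ b * (star a ⬝ᵥ (G.adjugate *ᵥ a)).re * nq u := by
  have hGp : G.PosDef := by
    have h1 : ((δ : ℂ) • (1 : Matrix (Fin n) (Fin n) ℂ)).PosDef :=
      Matrix.PosDef.one.smul (by exact_mod_cast hδ)
    have h2 := Matrix.PosDef.posSemidef_add hG h1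
    rwa [sub_add_cancel] at h2
  have hdet : 0 < G.det.re := (Complex.lt_def.1 hGp.det_pos).1
  have hdetim : G.det.im = 0 := ((Complex.lt_def.1 hGp.det_pos).2).symm
  have hX : (G⁻¹).PosSemidef := hGp.inv.posSemidef
  have hA : (Pᴴ * G⁻¹ * P).PosSemidef := hX.conjTranspose_mul_mul_same P
  have h1 : (star (Γ *ᵥ u) ⬝ᵥ (Gam G⁻¹ *ᵥ (Γ *ᵥ u))).re ≤ (max 1 C) ^ b * nq u := by
    have h2 : star (Γ *ᵥ u) ⬝ᵥ (Gam G⁻¹ *ᵥ (Γ *ᵥ u))
        = star u ⬝ᵥ (Gam (Pᴴ * G⁻¹ * P) *ᵥ u) := by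
      rw [star_mulVec, ← dotProduct_mulVec, mulVec_mulVec, mulVec_mulVec, Matrix.mul_assoc, ← hΓ]
      rw [Matrix.mul_assoc]
    rw [h2]
    exact quad_Gam_le hA (schur hGp hC hP) u
  refine ⟨?_, fun a => ?_⟩
  · calc (min 1 δ) ^ n * nq (Γ *ᵥ u)
        ≤ G.det.re * (star (Γ *ᵥ u) ⬝ᵥ (Gam G⁻¹ *ᵥ (Γ *ᵥ u))).re := le_quad_Gam_inv hδ hG _
      _ ≤ G.det.re * ((max 1 C) ^ b * nq u) := mul_le_mul_of_nonneg_left h1 hdet.le
      _ = _ := by ring
  · have h3 : (star a ⬝ᵥ (G.adjugate *ᵥ a)).re = G.det.re * (star a ⬝ᵥ (G⁻¹ *ᵥ a)).re := by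
      have hu : IsUnit G.det := (Matrix.isUnit_iff_isUnit_det G).1 hGp.isUnit
      have h4 : G.adjugate = G.det • G⁻¹ := by
        rw [Matrix.inv_def, smul_smul, Ring.mul_inverse_cancel _ hu, one_smul]
      rw [h4, smul_mulVec, dotProduct_smul, smul_eq_mul, Complex.mul_re, hdetim, zero_mul,
        sub_zero]
    have h5 : 0 ≤ (star a ⬝ᵥ (G⁻¹ *ᵥ a)).re :=
      (Complex.le_def.1 (hX.dotProduct_mulVec_nonneg a)).1
    calc (min 1 δ) ^ n * nq (eW a *ᵥ (Γ *ᵥ u))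
        ≤ G.det.re * (star (eW a *ᵥ (Γ *ᵥ u)) ⬝ᵥ (Gam G⁻¹ *ᵥ (eW a *ᵥ (Γ *ᵥ u)))).re :=
          le_quad_Gam_inv hδ hG _
      _ ≤ G.det.re * ((star a ⬝ᵥ (G⁻¹ *ᵥ a)).re
            * (star (Γ *ᵥ u) ⬝ᵥ (Gam G⁻¹ *ᵥ (Γ *ᵥ u))).re) :=
          mul_le_mul_of_nonneg_left (wedge_le hX a _) hdet.le
      _ ≤ G.det.re * ((star a ⬝ᵥ (G⁻¹ *ᵥ a)).re * ((max 1 C) ^ b * nq u)) :=
          mul_le_mul_of_nonneg_left (mul_le_mul_of_nonneg_left h1 h5) hdet.le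
      _ = _ := by rw [h3]; ring

/-- the pointwise constant -/
def cPW (n b : ℕ) (δ C : ℝ) : ℝ := (max 1 C) ^ b / (min 1 δ) ^ n

theorem cPW_pos (n b : ℕ) {δ C : ℝ} (hδ : 0 < δ) : 0 < cPW n b δ C := by
  unfold cPW
  have h1 : 0 < min 1 δ := lt_min one_pos hδ
  have h2 : 0 < max 1 C := lt_max_of_lt_left one_pos
  positivity

/-- **PW**, conventions of BP-T v2: `G a b = G_{a b̄}`, `P` the holomorphic Jacobian (`b × n`),
`Γ` the rectangular `Γ(Pᴴ)`. -/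
theorem pw_of {G : Matrix (Fin n) (Fin n) ℂ} {δ C : ℝ} (hδ : 0 < δ) (hC : 0 < C)
    (hG : (G - (δ : ℂ) • (1 : Matrix (Fin n) (Fin n) ℂ)).PosSemidef)
    {P : Matrix (Fin b) (Fin n) ℂ}
    (hP : ((C : ℂ) • G - Pᵀ * P.map (starRingEnd ℂ)).PosSemidef)
    {Γ : Matrix (FI n) (FI b) ℂ}
    (hΓ : ∀ X : Matrix (Fin n) (Fin n) ℂ, Γᴴ * Gam X * Γ = Gam (P * X * Pᴴ))
    (u : FI b → ℂ) :
    nq (Γ *ᵥ u) ≤ cPW n b δ C * G.det.re * nq u ∧
    ∀ a : Fin n → ℂ, nq (eW a *ᵥ (Γ *ᵥ u))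
      ≤ cPW n b δ C * (∑ k, ∑ l, G.adjugate l k * conj (a k) * a l).re * nq u := by
  have h1 : (Gᵀ - (δ : ℂ) • (1 : Matrix (Fin n) (Fin n) ℂ)).PosSemidef := by
    have := hG.transpose
    rwa [transpose_sub, transpose_smul, transpose_one] at this
  have h2 : ((C : ℂ) • Gᵀ - Pᴴ * Pᴴᴴ).PosSemidef := by
    have h3 := hP.transpose
    rw [transpose_sub, transpose_smul, transpose_mul, transpose_transpose] at h3
    rw [conjTranspose_conjTranspose]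
    exact h3
  have h3 := pw_abs hδ hC h1 h2 (Γ := Γ) (by rw [conjTranspose_conjTranspose, hΓ]) u
  have hm : 0 < (min 1 δ) ^ n := pow_pos (lt_min one_pos hδ) n
  refine ⟨?_, fun a => ?_⟩
  · have h4 := h3.1
    rw [det_transpose] at h4
    unfold cPW
    rw [div_mul_eq_mul_div, div_mul_eq_mul_div, le_div_iff₀ hm, mul_comm]
    exact h4
  · have h4 := h3.2 a
    have h5 : star a ⬝ᵥ (Gᵀ.adjugate *ᵥ a) = ∑ k, ∑ l, G.adjugate l k * conj (a k) * a l := by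
      rw [← adjugate_transpose]
      unfold dotProduct mulVec
      refine Finset.sum_congr rfl fun k _ => ?_
      unfold dotProduct
      rw [Finset.mul_sum]
      refine Finset.sum_congr rfl fun l _ => ?_
      change star (a k) * (G.adjugate l k * a l) = _ * star (a k) * _
      ring
    rw [h5] at h4
    unfold cPW
    rw [div_mul_eq_mul_div, div_mul_eq_mul_div, le_div_iff₀ hm, mul_comm]
    exact h4

end an

end Crest.Agent.R273.PW_799
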