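import Crest.Agent.R273.BKNa_37
import Crest.Agent.R273.Pos_243
import Crest.Agent.R273.DelLaw_37
import Crest.Agent.R273.HolF_578

/-!
# R273 (S0416), leaf PSPL (helper880), part A: local Bochner formula

* `boch`      : `∂_a ∂̄_b (s* H s)` for a holomorphic `s` and a Hermitian matrix field `H`
* `dG p`      : the derivation `∑ p_{ab} e_a i_b` of the Fock space
* `dM_Gam`    : `∂ Gam(m) = Gam(m) dG(m⁻¹ ∂m)`
* `curv_Gam`  : `∂_a∂̄_b Gam(m) - ∂̄_b Gam(m) Gam(m)⁻¹ ∂_a Gam(m) = Gam(m) dG(∂̄_b(m⁻¹∂_a m))`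
* `sm_inv`    : smoothness of the inverse matrix
* `ricci_tr`  : `∑ γ_{ba} ∂̄_b((∂_a g) γ) = (∂∂̄ log det g) γ` under the Kaehler symmetry
-/

set_option autoImplicit false
set_option linter.unusedSectionVars false

open Set Filter Topology Complex Matrix
open scoped ContDiff Matrix ComplexConjugate ComplexOrder

namespace Crest.Agent.R273.ParA_880

open Crest.Agent.R275.Geo
open Crest.Agent.R273.Fock_243 Crest.Agent.R273.Calc_243 Crest.Agent.R273.DelLaw_37

noncomputable section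

variable {n : ℕ}

/-! ### Bochner formula for a general Hermitian metric -/

section boch

variable {ι : Type} [Fintype ι] [DecidableEq ι]

theorem dM_star {H : Cn n → Matrix ι ι ℂ} {z : Cn n} (hH : SmM z H)
    (herm : ∀ᶠ y in 𝓝 z, (H y).IsHermitian) (s : ℂ) (a : Fin n) :
    (dM s a H z)ᴴ = dM (conj s) a H z := by
  ext i j
  rw [Matrix.conjTranspose_apply]
  show star (dS s a (fun y => H y j i) z) = dS (conj s) a (fun y => H y i j) z
  have h1 : (fun y => H y i j) =ᶠ[𝓝 z] fun y => conj (H y j i) := by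
    filter_upwards [herm] with y hy
    exact (hy.apply i j).symm
  rw [dS_congr h1, dS_conj (hH j i).diff, Complex.conj_conj]
  rfl

/-- Chern derivative -/
def Dc (H : Cn n → Matrix ι ι ℂ) (Hi : Matrix ι ι ℂ) (s : Cn n → ι → ℂ) (z : Cn n) (a : Fin n) :
    ι → ℂ :=
  dV (-I) a s z + Hi *ᵥ (dM (-I) a H z *ᵥ s z)

/-- curvature form of a Hermitian matrix field -/
def Cf (H : Cn n → Matrix ι ι ℂ) (Hi : Matrix ι ι ℂ) (z : Cn n) (a b : Fin n) : Matrix ι ι ℂ :=
  dM (-I) a (dM I b H) z - dM I b H z * Hi * dM (-I) a H z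

theorem boch {H : Cn n → Matrix ι ι ℂ} {Hi : Matrix ι ι ℂ} {s : Cn n → ι → ℂ} {z : Cn n}
    (hH : SmM z H) (hs : SmV z s) (herm : ∀ᶠ y in 𝓝 z, (H y).IsHermitian) (hi : H z * Hi = 1)
    (hol : ∀ᶠ y in 𝓝 z, ∀ b, dV I b s y = 0) (hsm : ∀ᶠ y in 𝓝 z, SmM y H ∧ SmV y s)
    (a b : Fin n) :
    dS (-I) a (dS I b (fun y => star (s y) ⬝ᵥ (H y *ᵥ s y))) z =
      star (Dc H Hi s z b) ⬝ᵥ (H z *ᵥ Dc H Hi s z a) +
        star (s z) ⬝ᵥ (Cf H Hi z a b *ᵥ s z) := by
  -- first derivative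
  have hI : conj (I : ℂ) = -I := Complex.conj_I
  have hI' : conj (-I : ℂ) = I := by rw [map_neg, hI, neg_neg]
  have h1 : dS I b (fun y => star (s y) ⬝ᵥ (H y *ᵥ s y)) =ᶠ[𝓝 z]
      fun y => star (dV (-I) b s y) ⬝ᵥ (H y *ᵥ s y) + star (s y) ⬝ᵥ (dM I b H y *ᵥ s y) := by
    filter_upwards [hol, hsm] with y hy hsy
    have hHs : SmV y (fun y => H y *ᵥ s y) := hsy.1.mulVec hsy.2
    rw [dS_dot (p := fun y => star (s y)) (q := fun y => H y *ᵥ s y)
      (fun i => (hsy.2.star i).diff) (fun i => (hHs i).diff)]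
    rw [dV_conj (fun i => (hsy.2 i).diff), hI, dV_mulVec (fun i j => (hsy.1 i j).diff)
      (fun i => (hsy.2 i).diff), hy b, Matrix.mulVec_zero, add_zero]
  rw [dS_congr h1]
  have hsb : SmV z (dV (-I) b s) := hs.dV (-I) b
  have hHs : SmV z (fun y => H y *ᵥ s y) := hH.mulVec hs
  have hHb : SmM z (dM I b H) := hH.dM I b
  have hHbs : SmV z (fun y => dM I b H y *ᵥ s y) := hHb.mulVec hs
  have e0 : SmV z (fun y => star (dV (-I) b s y)) := hsb.star
  rw [dS_add (SmV.dot e0 hHs).diff (SmV.dot hs.star hHbs).diff,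
    dS_dot (p := fun y => star (dV (-I) b s y)) (q := fun y => H y *ᵥ s y)
      (fun i => (e0 i).diff) (fun i => (hHs i).diff),
    dS_dot (p := fun y => star (s y)) (q := fun y => dM I b H y *ᵥ s y)
      (fun i => (hs.star i).diff) (fun i => (hHbs i).diff),
    dV_conj (v := dV (-I) b s) (fun i => (hsb i).diff), hI',
    dV_conj (fun i => (hs i).diff), hI',
    dV_mulVec (fun i j => (hH i j).diff) (fun i => (hs i).diff),
    dV_mulVec (m := dM I b H) (fun i j => (hHb i j).diff) (fun i => (hs i).diff)]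
  have h2 : dV I a (dV (-I) b s) z = 0 := by
    funext i
    show dS I a (dS (-I) b (fun y => s y i)) z = 0
    rw [dS_comm (hs i)]
    have h3 : dS I a (fun y => s y i) =ᶠ[𝓝 z] fun _ => 0 := by
      filter_upwards [hol] with y hy
      exact congrFun (hy a) i
    rw [dS_congr h3, dS_const]
  have h4 : dV I a s z = 0 := hol.self_of_nhds a
  rw [h2, h4, star_zero, zero_dotProduct, zero_dotProduct, zero_add, zero_add]
  -- algebra
  have hHz : (H z).IsHermitian := herm.self_of_nhds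
  have hHi : Hi.IsHermitian := by
    have h5 : Hiᴴ * H z = 1 := by
      have := congrArg Matrix.conjTranspose hi
      rw [Matrix.conjTranspose_mul, hHz.eq, Matrix.conjTranspose_one] at this
      exact this
    calc Hiᴴ = Hiᴴ * (H z * Hi) := by rw [hi, Matrix.mul_one]
      _ = Hi := by rw [← Matrix.mul_assoc, h5, Matrix.one_mul]
  have hb : (dM (-I) b H z)ᴴ = dM I b H z := by rw [dM_star hH herm, hI']
  unfold Dc Cf
  set u := s z
  set A := dM (-I) a H z
  set B := dM I b H z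
  set p := dV (-I) a s z
  set q := dV (-I) b s z
  have e1 : star (q + Hi *ᵥ (dM (-I) b H z *ᵥ u)) = star q + star u ᵥ* B ᵥ* Hi := by
    rw [star_add, Matrix.star_mulVec, Matrix.star_mulVec, hHi.eq, hb]
  rw [e1]
  have e2 : H z *ᵥ (p + Hi *ᵥ (A *ᵥ u)) = H z *ᵥ p + A *ᵥ u := by
    rw [Matrix.mulVec_add, Matrix.mulVec_mulVec, hi, Matrix.one_mulVec]
  rw [e2]
  have hi' : Hi * H z = 1 := mul_eq_one_comm.1 hi
  have e3 : (star u ᵥ* B ᵥ* Hi) ⬝ᵥ (H z *ᵥ p) = star u ⬝ᵥ (B *ᵥ p) := by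
    rw [← Matrix.dotProduct_mulVec, ← Matrix.dotProduct_mulVec, Matrix.mulVec_mulVec,
      Matrix.mulVec_mulVec, Matrix.mul_assoc, hi', Matrix.mul_one]
  have e4 : (star u ᵥ* B ᵥ* Hi) ⬝ᵥ (A *ᵥ u) = star u ⬝ᵥ ((B * Hi * A) *ᵥ u) := by
    rw [← Matrix.dotProduct_mulVec, ← Matrix.dotProduct_mulVec, Matrix.mulVec_mulVec,
      Matrix.mulVec_mulVec, Matrix.mul_assoc]
  simp only [add_dotProduct, dotProduct_add, e3, e4, Matrix.sub_mulVec, dotProduct_sub]
  ring

end boch

/-! ### the derivation of the Fock space -/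

/-- `∑ p_{ab} e_a i_b` -/
def dG (p : Matrix (Fin n) (Fin n) ℂ) : Matrix (FI n) (FI n) ℂ :=
  ∑ a, ∑ b, p a b • (eW (ep a) * iW (ep b))

theorem dG_eq (p : Matrix (Fin n) (Fin n) ℂ) :
    dG p = ∑ b, eW (fun a => p a b) * iW (ep b) := by
  unfold dG
  rw [Finset.sum_comm]
  refine Finset.sum_congr rfl fun b _ => ?_
  rw [eW_eq_sum (fun a => p a b), Finset.sum_mul]
  exact Finset.sum_congr rfl fun a _ => (smul_mul_assoc _ _ _).symm

theorem dG_comm (p : Matrix (Fin n) (Fin n) ℂ) (j : Fin n) :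
    dG p * eW (ep j) = eW (fun a => p a j) + eW (ep j) * dG p := by
  rw [dG_eq, Finset.sum_mul, Finset.mul_sum]
  have h1 : ∀ b, eW (fun a => p a b) * iW (ep b) * eW (ep j) =
      (if j = b then eW (fun a => p a b) else 0) +
        eW (ep j) * (eW (fun a => p a b) * iW (ep b)) := by
    intro b
    have h2 := iW_eW (ep b : Fin n → ℂ) (ep j)
    have h3 : (∑ k, (ep j : Fin n → ℂ) k * (ep b : Fin n → ℂ) k) = if j = b then 1 else 0 := by
      rw [Finset.sum_eq_single j]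
      · by_cases h : j = b
        · subst h; simp
        · simp [h]
      · intro k _ hk; simp [hk]
      · intro h; exact absurd (Finset.mem_univ _) h
    rw [h3] at h2
    have h4 : iW (ep b : Fin n → ℂ) * eW (ep j) =
        (if j = b then (1 : ℂ) else 0) • 1 - eW (ep j) * iW (ep b) := eq_sub_of_add_eq h2
    have h5 := eW_anti (fun a => p a b) (ep j)
    have h6 : eW (fun a => p a b) * eW (ep j) = - (eW (ep j) * eW (fun a => p a b)) :=
      eq_neg_of_add_eq_zero_left h5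
    rw [mul_assoc, h4, mul_sub, ← mul_assoc, h6, neg_mul, sub_neg_eq_add, mul_assoc]
    congr 1
    split_ifs <;> simp
  rw [Finset.sum_congr rfl fun b _ => h1 b, Finset.sum_add_distrib]
  congr 1
  simp

theorem dG_vac (p : Matrix (Fin n) (Fin n) ℂ) (S : FI n) : dG p S ∅ = 0 := by
  have h1 : ∀ b : Fin n, ∀ T : FI n, (iW (ep b) : Matrix (FI n) (FI n) ℂ) T ∅ = 0 := by
    intro b T
    by_contra h3
    have := LamN127.iW_deg h3
    simp at this
  rw [dG_eq, Matrix.sum_apply]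
  refine Finset.sum_eq_zero fun b _ => ?_
  rw [Matrix.mul_apply]
  exact Finset.sum_eq_zero fun T _ => by rw [h1 b T, mul_zero]

/-- derivative of the functor `Gam` -/
theorem dM_Gam {s : ℂ} {a : Fin n} {m : Cn n → Matrix (Fin n) (Fin n) ℂ} {z : Cn n}
    {mi : Matrix (Fin n) (Fin n) ℂ} (hm : SmM z m) (hi : m z * mi = 1) :
    dM s a (fun y => Gam (m y)) z = Gam (m z) * dG (mi * dM s a m z) := by
  rw [← sub_eq_zero]
  refine ext_of_eW (fun j => eW (fun b => m z b j)) (fun j => ?_) (fun j => by simp) fun S => ?_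
  · rw [sub_mul, dM_Gam_eW hm j, mul_sub, mul_assoc, dG_comm, mul_add, ← mul_assoc (Gam (m z)),
      Gam_eW_ep, Gam_eW]
    have h1 : (m z *ᵥ fun a' => (mi * dM s a m z) a' j) = fun b => dM s a m z b j := by
      have h2 : (fun a' => (mi * dM s a m z) a' j) = mi *ᵥ (fun b => dM s a m z b j) := by
        funext a'
        rfl
      rw [h2, Matrix.mulVec_mulVec, hi, Matrix.one_mulVec]
    rw [h1, mul_assoc]
    abel
  · rw [Matrix.sub_apply, dM_Gam_vac, Matrix.mul_apply, Matrix.zero_apply, zero_sub, neg_eq_zero]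
    exact Finset.sum_eq_zero fun T _ => by rw [dG_vac, mul_zero]

theorem SmM_dG {m : Cn n → Matrix (Fin n) (Fin n) ℂ} {z : Cn n} (hm : SmM z m) :
    SmM z (fun y => dG (m y)) := by
  intro S T
  have h1 : (fun y => dG (m y) S T) = fun y => ∑ a, ∑ b, m y a b *
      (eW (ep a) * iW (ep b) : Matrix (FI n) (FI n) ℂ) S T := by
    funext y
    unfold dG
    rw [Matrix.sum_apply]
    refine Finset.sum_congr rfl fun a _ => ?_
    rw [Matrix.sum_apply]
    rfl
  rw [h1]
  exact ContDiffAt.sum fun a _ => ContDiffAt.sum fun b _ => (hm a b).mul contDiffAt_const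

theorem dM_dG {s : ℂ} {a : Fin n} {m : Cn n → Matrix (Fin n) (Fin n) ℂ} {z : Cn n}
    (hm : SmM z m) : dM s a (fun y => dG (m y)) z = dG (dM s a m z) := by
  ext S T
  show dS s a (fun y => dG (m y) S T) z = _
  have h1 : (fun y => dG (m y) S T) = fun y => ∑ a, ∑ b, m y a b *
      (eW (ep a) * iW (ep b) : Matrix (FI n) (FI n) ℂ) S T := by
    funext y
    unfold dG
    rw [Matrix.sum_apply]
    refine Finset.sum_congr rfl fun a _ => ?_
    rw [Matrix.sum_apply]
    rfl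
  have h2 : ∀ a b : Fin n, DifferentiableAt ℝ (fun y => m y a b *
      (eW (ep a) * iW (ep b) : Matrix (FI n) (FI n) ℂ) S T) z := fun a b =>
    (hm a b).diff.mul_const _
  rw [h1, dS_sum _ fun a _ => DifferentiableAt.fun_sum fun b _ => h2 a b]
  unfold dG
  rw [Matrix.sum_apply]
  refine Finset.sum_congr rfl fun a' _ => ?_
  rw [dS_sum _ fun b _ => h2 a' b, Matrix.sum_apply]
  refine Finset.sum_congr rfl fun b _ => ?_
  rw [dS_mul (hm a' b).diff (differentiableAt_const _), dS_const, mul_zero, add_zero]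
  rfl

/-- curvature of the functor `Gam` -/
theorem curv_Gam {m : Cn n → Matrix (Fin n) (Fin n) ℂ} {mi : Cn n → Matrix (Fin n) (Fin n) ℂ}
    {z : Cn n} (hm : ∀ᶠ y in 𝓝 z, SmM y m) (hmi : SmM z mi) (hi : ∀ᶠ y in 𝓝 z, m y * mi y = 1)
    (a b : Fin n) :
    Cf (fun y => Gam (m y)) (Gam (mi z)) z a b =
      Gam (m z) * dG (dM I b (fun y => mi y * dM (-I) a m y) z) := by
  have hmz := hm.self_of_nhds
  have hiz := hi.self_of_nhds
  have hG : SmM z (fun y => Gam (m y)) := SmM.Gam hmz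
  have h1 : dM (-I) a (dM I b (fun y => Gam (m y))) z =
      dM I b (dM (-I) a (fun y => Gam (m y))) z := by
    ext S T
    exact dS_comm (hG S T)
  have h2 : (fun y => dM (-I) a (fun y => Gam (m y)) y) =ᶠ[𝓝 z]
      fun y => Gam (m y) * dG (mi y * dM (-I) a m y) := by
    filter_upwards [hm, hi] with y h3 h4
    exact dM_Gam h3 h4
  have h3 : dM I b (dM (-I) a (fun y => Gam (m y))) z =
      dM I b (fun y => Gam (m y) * dG (mi y * dM (-I) a m y)) z := by
    ext S T
    refine dS_congr ?_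
    filter_upwards [h2] with y hy
    show dM (-I) a (fun y => Gam (m y)) y S T = _
    rw [hy]
  have h4 : SmM z (fun y => mi y * dM (-I) a m y) := hmi.mul (hmz.dM (-I) a)
  unfold Cf
  rw [h1, h3, dM_mul (fun i j => (hG i j).diff) (fun i j => (SmM_dG h4 i j).diff), dM_dG h4,
    dM_Gam (s := -I) (a := a) hmz hiz]
  have h5 : Gam (mi z) * Gam (m z) = 1 := by
    rw [← Gam_mul, mul_eq_one_comm.1 hiz, Gam_one]
  rw [mul_assoc (dM I b (fun y => Gam (m y)) z) (Gam (mi z)), ← mul_assoc (Gam (mi z)), h5,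
    one_mul]
  abel

/-! ### the inverse matrix -/

theorem sm_inv {m : Cn n → Matrix (Fin n) (Fin n) ℂ} {z : Cn n} (hm : SmM z m)
    (h0 : (m z).det ≠ 0) : SmM z (fun y => (m y)⁻¹) := by
  intro i j
  have h1 : (fun y => (m y)⁻¹ i j) = fun y => ((m y).det)⁻¹ * (m y).adjugate i j := by
    funext y
    rw [Matrix.inv_def, Matrix.smul_apply, Ring.inverse_eq_inv', smul_eq_mul]
  rw [h1]
  have h2 : Sm z (fun y => (m y).adjugate i j) := by
    have h3 : (fun y => (m y).adjugate i j) =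
        fun y => ((m y).updateRow j (Pi.single i 1)).det := by
      funext y
      rw [Matrix.adjugate_apply]
    rw [h3]
    refine SmM.det fun k l => ?_
    by_cases hk : k = j
    · subst hk
      simp only [Matrix.updateRow_self]
      exact contDiffAt_const
    · simp only [Matrix.updateRow_ne hk]
      exact hm k l
  exact ((SmM.det hm).inv h0).mul h2

theorem dM_inv {s : ℂ} {a : Fin n} {m : Cn n → Matrix (Fin n) (Fin n) ℂ} {z : Cn n}
    (hm : SmM z m) (h0 : (m z).det ≠ 0) :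
    dM s a (fun y => (m y)⁻¹) z = - ((m z)⁻¹ * dM s a m z * (m z)⁻¹) := by
  have hi := sm_inv hm h0
  have h1 : ∀ᶠ y in 𝓝 z, (m y).det ≠ 0 :=
    (SmM.det hm).continuousAt.eventually_ne h0
  have h2 : dM s a (fun y => m y * (m y)⁻¹) z = 0 := by
    ext i j
    have h3 : (fun y => (m y * (m y)⁻¹) i j) =ᶠ[𝓝 z] fun _ => (1 : Matrix (Fin n) (Fin n) ℂ) i j := by
      filter_upwards [h1] with y hy
      rw [Matrix.mul_nonsing_inv _ (isUnit_iff_ne_zero.2 hy)]
    show dS s a (fun y => (m y * (m y)⁻¹) i j) z = 0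
    rw [dS_congr h3, dS_const]
  rw [dM_mul (fun i j => (hm i j).diff) (fun i j => (hi i j).diff)] at h2
  have h3 : (m z)⁻¹ * m z = 1 := Matrix.nonsing_inv_mul _ (isUnit_iff_ne_zero.2 h0)
  have h4 : m z * dM s a (fun y => (m y)⁻¹) z = - (dM s a m z * (m z)⁻¹) :=
    eq_neg_of_add_eq_zero_right h2
  calc dM s a (fun y => (m y)⁻¹) z = (m z)⁻¹ * (m z * dM s a (fun y => (m y)⁻¹) z) := by
        rw [← mul_assoc, h3, one_mul]
    _ = _ := by rw [h4, mul_neg, mul_assoc]

/-! ### the Ricci trace -/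

/-- `∂̄_e log det g = tr (g⁻¹ ∂̄_e g)` -/
theorem dS_logdet {s : ℂ} {e : Fin n} {g : Cn n → Matrix (Fin n) (Fin n) ℂ} {u : Cn n → ℂ}
    {z : Cn n} (hg : SmM z g) (h0 : (g z).det ≠ 0) (hu : Sm z u)
    (hdet : ∀ᶠ y in 𝓝 z, Complex.exp (u y) = (g y).det) :
    dS s e u z = ∑ i, ∑ j, (g z)⁻¹ i j * dM s e g z j i := by
  have h1 := dS_exp (s := s) (a := e) hu.diff
  have h2 : dS s e (fun y => Complex.exp (u y)) z = dS s e (fun y => (g y).det) z :=
    dS_congr hdet
  rw [h2, dS_det hg, hdet.self_of_nhds] at h1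
  have h3 : dS s e u z = ((g z).det)⁻¹ * ∑ i, ∑ j, (g z).adjugate i j * dM s e g z j i := by
    rw [h1, ← mul_assoc, inv_mul_cancel₀ h0, one_mul]
  rw [h3, Finset.mul_sum]
  refine Finset.sum_congr rfl fun i _ => ?_
  rw [Finset.mul_sum]
  refine Finset.sum_congr rfl fun j _ => ?_
  rw [Matrix.inv_def, Matrix.smul_apply, Ring.inverse_eq_inv', smul_eq_mul, mul_assoc]

theorem ricci_tr {g : Cn n → Matrix (Fin n) (Fin n) ℂ} {u : Cn n → ℂ} {z : Cn n}
    (hg : ∀ᶠ y in 𝓝 z, SmM y g) (h0 : (g z).det ≠ 0)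
    (hc : ∀ᶠ y in 𝓝 z, ∀ a b c, dM (-I) c g y a b = dM (-I) a g y c b)
    (hc' : ∀ᶠ y in 𝓝 z, ∀ a b c, dM I c g y a b = dM I b g y a c)
    (hu : ∀ᶠ y in 𝓝 z, Sm y u) (hdet : ∀ᶠ y in 𝓝 z, Complex.exp (u y) = (g y).det) :
    ∑ a, ∑ b, (g z)⁻¹ b a • dM I b (fun y => dM (-I) a g y * (g y)⁻¹) z =
      (Matrix.of fun c e => dS (-I) c (dS I e u) z) * (g z)⁻¹ := by
  have hgz := hg.self_of_nhds
  have hiz := sm_inv hgz h0
  set γ := (g z)⁻¹ with hγ
  have hd0 : ∀ᶠ y in 𝓝 z, (g y).det ≠ 0 := (SmM.det hgz).continuousAt.eventually_ne h0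
  -- the left hand side
  have h1 : ∀ a b, dM I b (fun y => dM (-I) a g y * (g y)⁻¹) z =
      (dM I b (dM (-I) a g) z - dM (-I) a g z * γ * dM I b g z) * γ := by
    intro a b
    rw [dM_mul (fun i j => ((hgz.dM (-I) a) i j).diff) (fun i j => (hiz i j).diff),
      dM_inv hgz h0, sub_mul, mul_neg, ← sub_eq_add_neg]
    congr 1
    simp only [mul_assoc, ← hγ]
  have h2 : ∑ a, ∑ b, γ b a • dM I b (fun y => dM (-I) a g y * (g y)⁻¹) z =
      (∑ a, ∑ b, γ b a • (dM I b (dM (-I) a g) z - dM (-I) a g z * γ * dM I b g z)) * γ := by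
    rw [Finset.sum_mul]
    refine Finset.sum_congr rfl fun a _ => ?_
    rw [Finset.sum_mul]
    refine Finset.sum_congr rfl fun b _ => ?_
    rw [h1, smul_mul_assoc]
  rw [h2]
  congr 1
  ext c e
  rw [Matrix.of_apply]
  -- the right hand side
  have h3 : dS I e u =ᶠ[𝓝 z] fun y => ∑ i, ∑ j, (g y)⁻¹ i j * dM I e g y j i := by
    filter_upwards [hg, hd0, hu, hdet.eventually_nhds] with y k1 k2 k3 k4
    exact dS_logdet k1 k2 k3 k4
  have hsm : ∀ i j, DifferentiableAt ℝ (fun y => (g y)⁻¹ i j * dM I e g y j i) z := fun i j =>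
    (hiz i j).diff.mul ((hgz.dM I e) j i).diff
  rw [dS_congr h3, dS_sum _ fun i _ => DifferentiableAt.fun_sum fun j _ => hsm i j]
  have h4 : ∀ i, dS (-I) c (fun y => ∑ j, (g y)⁻¹ i j * dM I e g y j i) z =
      ∑ j, (-(γ * dM (-I) c g z * γ) i j * dM I e g z j i +
        γ i j * dS (-I) c (fun y => dM I e g y j i) z) := by
    intro i
    rw [dS_sum _ fun j _ => hsm i j]
    refine Finset.sum_congr rfl fun j _ => ?_
    rw [dS_mul (hiz i j).diff ((hgz.dM I e) j i).diff]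
    have h5 : dS (-I) c (fun y => (g y)⁻¹ i j) z = -(γ * dM (-I) c g z * γ) i j := by
      have := congrFun (congrFun (dM_inv (s := -I) (a := c) hgz h0) i) j
      exact this
    rw [h5]
  rw [Finset.sum_congr rfl fun i _ => h4 i]
  -- second derivatives
  have h6 : ∀ a b, dM I b (dM (-I) a g) z c e = dS (-I) c (fun y => dM I e g y a b) z := by
    intro a b
    show dS I b (fun y => dM (-I) a g y c e) z = _
    have k1 : (fun y => dM (-I) a g y c e) =ᶠ[𝓝 z] fun y => dM (-I) c g y a e := by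
      filter_upwards [hc] with y hy
      exact hy c e a
    rw [dS_congr k1]
    show dS I b (dS (-I) c (fun y => g y a e)) z = _
    rw [dS_comm (hgz a e)]
    refine dS_congr ?_
    filter_upwards [hc'] with y hy
    exact hy a e b
  have h7 : ∀ a b, (dM (-I) a g z * γ * dM I b g z) c e =
      ∑ h, (∑ f, dM (-I) c g z a f * γ f h) * dM I e g z h b := by
    intro a b
    rw [Matrix.mul_apply]
    refine Finset.sum_congr rfl fun h _ => ?_
    rw [Matrix.mul_apply, hc'.self_of_nhds h e b]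
    congr 1
    refine Finset.sum_congr rfl fun f _ => ?_
    rw [hc.self_of_nhds c f a]
  rw [Matrix.sum_apply]
  have h8 : ∀ a, (∑ b, γ b a • (dM I b (dM (-I) a g) z - dM (-I) a g z * γ * dM I b g z)) c e =
      ∑ b, (γ b a * dS (-I) c (fun y => dM I e g y a b) z -
        γ b a * ∑ h, (∑ f, dM (-I) c g z a f * γ f h) * dM I e g z h b) := by
    intro a
    rw [Matrix.sum_apply]
    refine Finset.sum_congr rfl fun b _ => ?_
    rw [Matrix.smul_apply, Matrix.sub_apply, smul_eq_mul, mul_sub, h6, h7]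
  rw [Finset.sum_congr rfl fun a _ => h8 a, Finset.sum_comm]
  refine Finset.sum_congr rfl fun b _ => ?_
  rw [Finset.sum_sub_distrib, Finset.sum_add_distrib, sub_eq_add_neg, add_comm]
  congr 1
  rw [← Finset.sum_neg_distrib]
  have h9 : ∀ j, -(γ * dM (-I) c g z * γ) b j * dM I e g z j b =
      -∑ a, γ b a * ((∑ f, dM (-I) c g z a f * γ f j) * dM I e g z j b) := by
    intro j
    rw [mul_assoc γ, Matrix.mul_apply, neg_mul, Finset.sum_mul]
    congr 1
    refine Finset.sum_congr rfl fun a _ => ?_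
    rw [Matrix.mul_apply, mul_assoc]
  rw [Finset.sum_congr rfl fun j _ => h9 j, Finset.sum_neg_distrib, Finset.sum_neg_distrib]
  congr 1
  rw [Finset.sum_comm]
  refine Finset.sum_congr rfl fun a _ => ?_
  rw [Finset.mul_sum]

end

end Crest.Agent.R273.ParA_880
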