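import Crest.Agent.R273.ParA_880

/-!
# R273 (S0416), leaf PSPL (helper880), part B: the traced Bochner formulas

* `dG_T1`    : `β* Gam(m) dG(p) β = T1 (Gam m) (m p) (i.β) (i.β)`
* `lap_form` : `∑ γ_{ba} ∂_a∂̄_b |β|² = |Dβ|² + (γ ρ γ)(i.β, i.β)` for holomorphic `β`, `ρ` = Ricci
* `lap_vec`  : `∑ γ_{ba} ∂_a∂̄_b |v|² = |Dv|² - ρ(i.v, i.v)` for holomorphic `v`
-/

set_option autoImplicit false
set_option linter.unusedSectionVars false

open Set Filter Topology Complex Matrix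
open scoped ContDiff Matrix ComplexConjugate ComplexOrder

namespace Crest.Agent.R273.ParB_880

open Crest.Agent.R275.Geo
open Crest.Agent.R273.Fock_243 Crest.Agent.R273.Calc_243 Crest.Agent.R273.Bkn_243
open Crest.Agent.R273.Pos_243 Crest.Agent.R273.ParA_880

noncomputable section

variable {n : ℕ}

theorem dG_T1 {m p r : Matrix (Fin n) (Fin n) ℂ} (h : m * p = r) (β : FI n → ℂ) :
    star β ⬝ᵥ ((Gam m * dG p) *ᵥ β) =
      T1 (Gam m) r (fun k => iW (ep k) *ᵥ β) (fun k => iW (ep k) *ᵥ β) := by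
  have h1 : Gam m * dG p = ∑ b, ∑ c, r c b • (eW (ep c) * (Gam m * iW (ep b))) := by
    rw [dG_eq, Finset.mul_sum]
    refine Finset.sum_congr rfl fun b _ => ?_
    rw [← mul_assoc, Gam_eW]
    have h2 : (m *ᵥ fun a => p a b) = fun c => r c b := by
      funext c
      rw [← h]
      rfl
    rw [h2, eW_eq_sum (fun c => r c b), Finset.sum_mul, Finset.sum_mul]
    refine Finset.sum_congr rfl fun c _ => ?_
    rw [smul_mul_assoc, smul_mul_assoc, mul_assoc]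
  rw [h1]
  unfold T1
  rw [Matrix.sum_mulVec, dotProduct_sum]
  refine Finset.sum_congr rfl fun b _ => ?_
  rw [Matrix.sum_mulVec, dotProduct_sum]
  refine Finset.sum_congr rfl fun c _ => ?_
  rw [Matrix.smul_mulVec, dotProduct_smul, smul_eq_mul, star_iW, dot_iW, ← Matrix.mulVec_mulVec,
    ← Matrix.mulVec_mulVec]

/-- the traced formula for a general Hermitian metric -/
theorem lap_gen {ι : Type} [Fintype ι] [DecidableEq ι] {H : Cn n → Matrix ι ι ℂ}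
    {Hi : Matrix ι ι ℂ} {s : Cn n → ι → ℂ} {z : Cn n} {γ : Matrix (Fin n) (Fin n) ℂ}
    (hH : ∀ᶠ y in 𝓝 z, SmM y H) (herm : ∀ᶠ y in 𝓝 z, (H y).IsHermitian) (hi : H z * Hi = 1)
    (hs : ∀ᶠ y in 𝓝 z, SmV y s) (hol : ∀ᶠ y in 𝓝 z, ∀ b, dV I b s y = 0) :
    ∑ a, ∑ b, γ b a * dS (-I) a (dS I b (fun y => star (s y) ⬝ᵥ (H y *ᵥ s y))) z =
      ∑ a, ∑ b, γ b a * (star (Dc H Hi s z b) ⬝ᵥ (H z *ᵥ Dc H Hi s z a)) +
        star (s z) ⬝ᵥ ((∑ a, ∑ b, γ b a • Cf H Hi z a b) *ᵥ s z) := by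
  have h1 : ∀ a b, dS (-I) a (dS I b (fun y => star (s y) ⬝ᵥ (H y *ᵥ s y))) z =
      star (Dc H Hi s z b) ⬝ᵥ (H z *ᵥ Dc H Hi s z a) +
        star (s z) ⬝ᵥ (Cf H Hi z a b *ᵥ s z) := fun a b =>
    boch hH.self_of_nhds hs.self_of_nhds herm hi hol (hH.and hs) a b
  simp only [h1, mul_add, Finset.sum_add_distrib]
  congr 1
  rw [Matrix.sum_mulVec, dotProduct_sum]
  refine Finset.sum_congr rfl fun a _ => ?_
  rw [Matrix.sum_mulVec, dotProduct_sum]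
  refine Finset.sum_congr rfl fun b _ => ?_
  rw [Matrix.smul_mulVec, dotProduct_smul, smul_eq_mul]

/-- the trace of the curvature of the functor `Gam` -/
theorem tr_curv {m mi : Cn n → Matrix (Fin n) (Fin n) ℂ} {z : Cn n}
    {γ : Matrix (Fin n) (Fin n) ℂ}
    (hm : ∀ᶠ y in 𝓝 z, SmM y m) (hmi : SmM z mi) (hi : ∀ᶠ y in 𝓝 z, m y * mi y = 1)
    {p : Matrix (Fin n) (Fin n) ℂ}
    (hp : ∑ a, ∑ b, γ b a • dM I b (fun y => mi y * dM (-I) a m y) z = p) :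
    ∑ a, ∑ b, γ b a • Cf (fun y => Gam (m y)) (Gam (mi z)) z a b = Gam (m z) * dG p := by
  have h1 : ∀ a b, Cf (fun y => Gam (m y)) (Gam (mi z)) z a b =
      Gam (m z) * dG (dM I b (fun y => mi y * dM (-I) a m y) z) := fun a b =>
    curv_Gam hm hmi hi a b
  have h2 : ∀ (c : ℂ) (p q : Matrix (Fin n) (Fin n) ℂ), dG (c • p + q) = c • dG p + dG q := by
    intro c p q
    unfold dG
    rw [Finset.smul_sum, ← Finset.sum_add_distrib]
    refine Finset.sum_congr rfl fun a _ => ?_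
    rw [Finset.smul_sum, ← Finset.sum_add_distrib]
    refine Finset.sum_congr rfl fun b _ => ?_
    rw [Matrix.add_apply, Matrix.smul_apply, smul_eq_mul, add_smul, mul_smul]
  have h0 : dG (0 : Matrix (Fin n) (Fin n) ℂ) = 0 := by
    unfold dG
    simp
  have h3 : ∀ (c : ℂ) (p : Matrix (Fin n) (Fin n) ℂ), dG (c • p) = c • dG p := by
    intro c p
    have := h2 c p 0
    rwa [add_zero, h0, add_zero] at this
  have h4 : ∀ (s : Finset (Fin n)) (f : Fin n → Matrix (Fin n) (Fin n) ℂ),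
      dG (∑ a ∈ s, f a) = ∑ a ∈ s, dG (f a) := by
    intro s f
    classical
    induction s using Finset.induction_on with
    | empty => simp [h0]
    | insert k s hk ih =>
      rw [Finset.sum_insert hk, Finset.sum_insert hk, ← ih]
      have := h2 1 (f k) (∑ a ∈ s, f a)
      rwa [one_smul, one_smul] at this
  rw [← hp, h4, Finset.mul_sum]
  refine Finset.sum_congr rfl fun a _ => ?_
  rw [h4, Finset.mul_sum]
  refine Finset.sum_congr rfl fun b _ => ?_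
  rw [h3, h1, mul_smul_comm]

section formulas

variable {g : Cn n → Matrix (Fin n) (Fin n) ℂ} {u : Cn n → ℂ} {z : Cn n}

theorem sm_inv_ev (hg : ∀ᶠ y in 𝓝 z, SmM y g) (h0 : (g z).det ≠ 0) :
    ∀ᶠ y in 𝓝 z, SmM y (fun y => (g y)⁻¹) := by
  have hd0 : ∀ᶠ y in 𝓝 z, (g y).det ≠ 0 := (SmM.det hg.self_of_nhds).continuousAt.eventually_ne h0
  filter_upwards [hg, hd0] with y h1 h2
  exact sm_inv h1 h2

/-- traced Bochner formula for holomorphic forms -/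
theorem lap_form (hg : ∀ᶠ y in 𝓝 z, SmM y g) (hpos : ∀ᶠ y in 𝓝 z, (g y).PosDef)
    (hc : ∀ᶠ y in 𝓝 z, ∀ a b c, dM (-I) c g y a b = dM (-I) a g y c b)
    (hc' : ∀ᶠ y in 𝓝 z, ∀ a b c, dM I c g y a b = dM I b g y a c)
    (hu : ∀ᶠ y in 𝓝 z, Sm y u) (hdet : ∀ᶠ y in 𝓝 z, Complex.exp (u y) = (g y).det)
    {s : Cn n → FI n → ℂ} (hs : ∀ᶠ y in 𝓝 z, SmV y s)
    (hol : ∀ᶠ y in 𝓝 z, ∀ b, dV I b s y = 0) :
    ∑ a, ∑ b, (g z)⁻¹ b a *
        dS (-I) a (dS I b (fun y => star (s y) ⬝ᵥ (Gam (g y)⁻¹ *ᵥ s y))) z =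
      T1 (Gam (g z)⁻¹) (g z)⁻¹
        (fun a => Dc (fun y => Gam (g y)⁻¹) (Gam (g z)) s z a)
        (fun a => Dc (fun y => Gam (g y)⁻¹) (Gam (g z)) s z a) +
      T1 (Gam (g z)⁻¹) ((g z)⁻¹ * (-(Matrix.of fun c e => dS (-I) c (dS I e u) z)) * (g z)⁻¹)
        (fun k => iW (ep k) *ᵥ s z) (fun k => iW (ep k) *ᵥ s z) := by
  have hdz : (g z).det ≠ 0 := hpos.self_of_nhds.det_pos.ne'
  have hi := sm_inv_ev hg hdz
  have h1 : ∀ᶠ y in 𝓝 z, (g y)⁻¹ * g y = 1 := by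
    filter_upwards [hpos] with y hy
    exact Matrix.nonsing_inv_mul _ hy.det_pos.ne'.isUnit
  have hH : ∀ᶠ y in 𝓝 z, SmM y (fun y => Gam (g y)⁻¹) := by
    filter_upwards [hi] with y hy
    exact SmM.Gam hy
  have herm : ∀ᶠ y in 𝓝 z, ((fun y => Gam (g y)⁻¹) y).IsHermitian := by
    filter_upwards [hpos] with y hy
    exact (Gam_posDef hy.inv).isHermitian
  have e1 := lap_gen (H := fun y => Gam (g y)⁻¹) (Hi := Gam (g z)) (s := s) (z := z)
    (γ := (g z)⁻¹) hH herm (Gam_mul_inv h1.self_of_nhds) hs hol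
  rw [e1]
  congr 1
  -- the curvature term
  have e2 : ∑ a, ∑ b, (g z)⁻¹ b a • dM I b (fun y => g y * dM (-I) a (fun y => (g y)⁻¹) y) z =
      (-(Matrix.of fun c e => dS (-I) c (dS I e u) z)) * (g z)⁻¹ := by
    rw [neg_mul, ← ricci_tr hg hdz hc hc' hu hdet, ← Finset.sum_neg_distrib]
    refine Finset.sum_congr rfl fun a _ => ?_
    rw [← Finset.sum_neg_distrib]
    refine Finset.sum_congr rfl fun b _ => ?_
    rw [← smul_neg]
    congr 1
    ext i j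
    show dS I b (fun y => (g y * dM (-I) a (fun y => (g y)⁻¹) y) i j) z = _
    have e3 : (fun y => (g y * dM (-I) a (fun y => (g y)⁻¹) y) i j) =ᶠ[𝓝 z]
        fun y => -((dM (-I) a g y * (g y)⁻¹) i j) := by
      filter_upwards [hg, hpos] with y k1 k2
      have k3 : (g y).det ≠ 0 := k2.det_pos.ne'
      rw [dM_inv k1 k3, mul_neg, ← mul_assoc, ← mul_assoc,
        Matrix.mul_nonsing_inv _ k3.isUnit, one_mul, Matrix.neg_apply]
    rw [dS_congr e3, dS_neg]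
    rfl
  have e3 := tr_curv (m := fun y => (g y)⁻¹) (mi := g) (z := z) (γ := (g z)⁻¹) hi
    hg.self_of_nhds h1 e2
  rw [e3, dG_T1 (r := (g z)⁻¹ * (-(Matrix.of fun c e => dS (-I) c (dS I e u) z)) * (g z)⁻¹)]
  rw [mul_assoc]

/-- traced Bochner formula for holomorphic polyvectors -/
theorem lap_vec (hg : ∀ᶠ y in 𝓝 z, SmM y g) (hpos : ∀ᶠ y in 𝓝 z, (g y).PosDef)
    (hc : ∀ᶠ y in 𝓝 z, ∀ a b c, dM (-I) c g y a b = dM (-I) a g y c b)
    (hc' : ∀ᶠ y in 𝓝 z, ∀ a b c, dM I c g y a b = dM I b g y a c)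
    (hu : ∀ᶠ y in 𝓝 z, Sm y u) (hdet : ∀ᶠ y in 𝓝 z, Complex.exp (u y) = (g y).det)
    {s : Cn n → FI n → ℂ} (hs : ∀ᶠ y in 𝓝 z, SmV y s)
    (hol : ∀ᶠ y in 𝓝 z, ∀ b, dV I b s y = 0) :
    ∑ a, ∑ b, (g z)⁻¹ b a *
        dS (-I) a (dS I b (fun y => star (s y) ⬝ᵥ (Gam (g y)ᵀ *ᵥ s y))) z =
      T1 (Gam (g z)ᵀ) (g z)⁻¹
        (fun a => Dc (fun y => Gam (g y)ᵀ) (Gam ((g z)⁻¹)ᵀ) s z a)
        (fun a => Dc (fun y => Gam (g y)ᵀ) (Gam ((g z)⁻¹)ᵀ) s z a) -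
      Cv (Gam (g z)ᵀ) (-(Matrix.of fun c e => dS (-I) c (dS I e u) z)) (s z) (s z) := by
  have hdz : (g z).det ≠ 0 := hpos.self_of_nhds.det_pos.ne'
  have hi := sm_inv_ev hg hdz
  have hgT : ∀ᶠ y in 𝓝 z, SmM y (fun y => (g y)ᵀ) := by
    filter_upwards [hg] with y hy
    exact fun i j => hy j i
  have hiT : SmM z (fun y => ((g y)⁻¹)ᵀ) := fun i j => hi.self_of_nhds j i
  have h1 : ∀ᶠ y in 𝓝 z, (g y)ᵀ * ((g y)⁻¹)ᵀ = 1 := by
    filter_upwards [hpos] with y hy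
    rw [← Matrix.transpose_mul, Matrix.nonsing_inv_mul _ hy.det_pos.ne'.isUnit,
      Matrix.transpose_one]
  have hH : ∀ᶠ y in 𝓝 z, SmM y (fun y => Gam (g y)ᵀ) := by
    filter_upwards [hgT] with y hy
    exact SmM.Gam hy
  have herm : ∀ᶠ y in 𝓝 z, ((fun y => Gam (g y)ᵀ) y).IsHermitian := by
    filter_upwards [hpos] with y hy
    exact (Gam_posDef hy.transpose).isHermitian
  have e1 := lap_gen (H := fun y => Gam (g y)ᵀ) (Hi := Gam ((g z)⁻¹)ᵀ) (s := s) (z := z)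
    (γ := (g z)⁻¹) hH herm (Gam_mul_inv h1.self_of_nhds) hs hol
  rw [e1, sub_eq_add_neg]
  congr 1
  set R := (Matrix.of fun c e => dS (-I) c (dS I e u) z : Matrix (Fin n) (Fin n) ℂ) with hR
  have e2 : ∑ a, ∑ b, (g z)⁻¹ b a • dM I b (fun y => ((g y)⁻¹)ᵀ *
      dM (-I) a (fun y => (g y)ᵀ) y) z = (R * (g z)⁻¹)ᵀ := by
    rw [hR, ← ricci_tr hg hdz hc hc' hu hdet, Matrix.transpose_sum]
    refine Finset.sum_congr rfl fun a _ => ?_
    rw [Matrix.transpose_sum]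
    refine Finset.sum_congr rfl fun b _ => ?_
    rw [Matrix.transpose_smul]
    congr 1
    ext i j
    show dS I b (fun y => (((g y)⁻¹)ᵀ * dM (-I) a (fun y => (g y)ᵀ) y) i j) z =
      dS I b (fun y => (dM (-I) a g y * (g y)⁻¹) j i) z
    congr 1
    funext y
    rw [Matrix.mul_apply, Matrix.mul_apply]
    refine Finset.sum_congr rfl fun k _ => ?_
    rw [Matrix.transpose_apply, mul_comm]
    rfl
  have e3 := tr_curv (m := fun y => (g y)ᵀ) (mi := fun y => ((g y)⁻¹)ᵀ) (z := z)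
    (γ := (g z)⁻¹) hgT hiT h1 e2
  rw [e3, dG_T1 (r := Rᵀ) (by
    rw [Matrix.transpose_mul, ← mul_assoc, h1.self_of_nhds, one_mul]), Cv_eq_T1]
  unfold T1
  rw [← Finset.sum_neg_distrib]
  refine Finset.sum_congr rfl fun a _ => ?_
  rw [← Finset.sum_neg_distrib]
  refine Finset.sum_congr rfl fun b _ => ?_
  rw [Matrix.transpose_apply, Matrix.transpose_apply, Matrix.neg_apply]
  ring

end formulas

end

end Crest.Agent.R273.ParB_880
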