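import Crest.Agent.R273.ParB_880
import Crest.Agent.R273.Green_5
import Crest.Agent.R273.StokesV_332

/-!
# R273 (S0416), leaf PSPL (helper880), part C: subharmonic functions on compact Kaehler manifolds

* `gl f`       : the function on `M` glued from a family which agrees on overlaps
* `lapK K u`   : `∑ γ_{ba} ∂_a ∂̄_b u` in the chart `i`
* `sub_zero`   : `lapK K u ≥ 0` on a compact manifold implies `lapK K u = 0`
-/

set_option autoImplicit false
set_option linter.unusedSectionVars false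

open Set Filter Topology Complex Matrix
open scoped ContDiff Matrix ComplexConjugate ComplexOrder

namespace Crest.Agent.R273.ParC_880

open Crest.Agent.R275 Crest.Agent.R275.Geo Crest.Agent.R275.Core144 Crest.Agent.R275.EDR890
open Crest.Agent.R275.Pai323 Crest.Agent.R275.C1d194
open Crest.Agent.R275.SerG398 (lint dens)
open Crest.Agent.R275.OmT75 (dl)
open Crest.Agent.R273.Defs_333 Crest.Agent.R273.HM_333 Crest.Agent.R273.Kah_333
open Crest.Agent.R273.Vol_333 Crest.Agent.R273.StV_37 Crest.Agent.R273.Green_5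
open Crest.Agent.R273.Fock_243 Crest.Agent.R273.Calc_243 Crest.Agent.R273.Bkn_243
open Crest.Agent.R273.Pos_243 Crest.Agent.R273.BKNa_37

noncomputable section

variable {n : ℕ} {M : Type} [TopologicalSpace M] {A : Atl n M}

/-! ### gluing -/

open Classical in
/-- the function glued from a family which agrees on overlaps -/
def gl {W : Type*} (f : A.ι → M → W) (x : M) : W := f (A.cover x).choose x

theorem gl_eq {W : Type*} {f : A.ι → M → W}
    (h : ∀ i j, ∀ x ∈ (A.e i).source ∩ (A.e j).source, f i x = f j x) {i : A.ι} {x : M}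
    (hx : x ∈ (A.e i).source) : gl f x = f i x :=
  h _ _ x ⟨(A.cover x).choose_spec, hx⟩

/-! ### the Laplacian -/

/-- `∑ γ_{ba} ∂_a ∂̄_b u` in the chart `i` -/
def lapK (K : Kah A) (u : M → ℝ) (i : A.ι) (x : M) : ℂ :=
  ∑ a, ∑ b, (K.g i x)⁻¹ b a * hsf A u i x a b

theorem tr_adj (K : Kah A) (u : M → ℝ) (i : A.ι) {x : M} (hx : x ∈ (A.e i).source) :
    ((K.g i x).adjugate * hsf A u i x).trace = (K.g i x).det * lapK K u i x := by
  unfold lapK
  rw [Finset.sum_comm, Matrix.trace, Finset.mul_sum]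
  refine Finset.sum_congr rfl fun b _ => ?_
  rw [Matrix.diag_apply, Matrix.mul_apply, Finset.mul_sum]
  refine Finset.sum_congr rfl fun a _ => ?_
  have h0 : (K.g i x).det ≠ 0 := (K.pos i x hx).det_pos.ne'
  rw [Matrix.inv_def, Matrix.smul_apply, Ring.inverse_eq_inv', smul_eq_mul, ← mul_assoc,
    ← mul_assoc, mul_inv_cancel₀ h0, one_mul]

theorem tr_law {g g' h h' J : Matrix (Fin n) (Fin n) ℂ} (hg : g = Jᵀ * g' * J.map conj)
    (hh : h = Jᵀ * h' * J.map conj) :
    (g.adjugate * h).trace = (J.det * conj J.det) * (g'.adjugate * h').trace := by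
  have e1 : (J.map conj).det = conj J.det := by
    rw [← RingHom.mapMatrix_apply, ← RingHom.map_det]
  rw [hg, hh, Matrix.adjugate_mul_distrib, Matrix.adjugate_mul_distrib]
  calc ((J.map conj).adjugate * (g'.adjugate * Jᵀ.adjugate) * (Jᵀ * h' * J.map conj)).trace
      = ((J.map conj).adjugate * (g'.adjugate * (Jᵀ.adjugate * Jᵀ) * h' * J.map conj)).trace := by
        simp only [Matrix.mul_assoc]
    _ = (g'.adjugate * (Jᵀ.adjugate * Jᵀ) * h' * (J.map conj * (J.map conj).adjugate)).trace := by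
        rw [Matrix.trace_mul_comm]
        simp only [Matrix.mul_assoc]
    _ = _ := by
        rw [Matrix.adjugate_mul, Matrix.mul_adjugate, e1, Matrix.det_transpose]
        simp only [Matrix.mul_smul, Matrix.smul_mul, Matrix.mul_one, Matrix.trace_smul,
          smul_eq_mul]
        ring

/-- **positivity**: `lapK K u ≥ 0` on compact `M` implies `lapK K u = 0` -/
theorem sub_zero [T2Space M] [CompactSpace M] (P : Part A) (K : Kah A) {u : M → ℝ}
    (hu : A.Sm u) (hp : ∀ i, ∀ x ∈ (A.e i).source, 0 ≤ lapK K u i x) :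
    ∀ i, ∀ x ∈ (A.e i).source, lapK K u i x = 0 := by
  set f : A.ι → M → ℂ := fun i x => ((K.g i x).adjugate * hm A (fun y => (u y : ℂ)) i x).trace
    with hf
  have hfe : ∀ i, ∀ x ∈ (A.e i).source, f i x = (K.g i x).det * lapK K u i x := by
    intro i x hx
    rw [← tr_adj K u i hx, hf]
    simp only
    rw [hm_ofReal u i hx]
  have huc : ∀ i, A.SmAt i (fun y => (u y : ℂ)) := fun i => smAt_ofReal (hu i)
  have hD : StokesV_332.Den A f := by
    refine ⟨fun i => smAt_tr (kah_cf K) (huc i), fun i j x hx => ?_⟩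
    have h1 : f i x = ((K.g i x).adjugate * hsf A u i x).trace := by
      rw [hf]; simp only; rw [hm_ofReal u i hx.1]
    have h2 : f j x = ((K.g j x).adjugate * hsf A u j x).trace := by
      rw [hf]; simp only; rw [hm_ofReal u j hx.2]
    rw [h1, h2, tr_law (K.tr i j x hx) (hsf_tr hu hx), SerG398.dens_eq]
    rfl
  have hdet : ∀ i, ∀ x ∈ (A.e i).source, 0 < (K.g i x).det := fun i x hx => (K.pos i x hx).det_pos
  have hn : StokesV_332.NonnegD A f := by
    intro i x hx
    have h1 : 0 ≤ f i x := by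
      rw [hfe i x hx]
      exact mul_nonneg (hdet i x hx).le (hp i x hx)
    have h2 := Complex.le_def.1 h1
    exact ⟨h2.1, h2.2.symm⟩
  have h0 : StokesV_332.OffK A f univ := StokesV_332.offK_univ f
  have hz : StokesV_332.intD P f = 0 := by
    rw [StokesV_332.intD_eq_sum P isCompact_univ (Finset.Subset.refl _) h0]
    exact green1c P (kah_cf K) huc
  have h3 := StokesV_332.eq_zero_of_intD P hD hn isCompact_univ h0 (by rw [hz]; rfl)
  intro i x hx
  have h4 := h3 i x hx
  rw [hfe i x hx] at h4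
  exact (mul_eq_zero.1 h4).resolve_left (hdet i x hx).ne'

/-! ### chart readings of a Kaehler metric -/

/-- the metric read in a chart -/
def gr (K : Kah A) (i : A.ι) : Cn n → Matrix (Fin n) (Fin n) ℂ := fun z => K.g i ((A.e i).symm z)

section gr

variable (K : Kah A) (i : A.ι) {z : Cn n}

theorem gr_x {x : M} (hx : x ∈ (A.e i).source) : gr K i (A.e i x) = K.g i x := by
  unfold gr; rw [(A.e i).left_inv hx]

theorem ev_tg (hz : z ∈ (A.e i).target) : ∀ᶠ y in 𝓝 z, y ∈ (A.e i).target :=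
  (A.e i).open_target.mem_nhds hz

theorem gr_sm (hz : z ∈ (A.e i).target) : ∀ᶠ y in 𝓝 z, SmM y (gr K i) := by
  filter_upwards [ev_tg i hz] with y hy
  exact fun a b => sm_rd (K.sm i a b) hy

theorem gr_pos (hz : z ∈ (A.e i).target) : ∀ᶠ y in 𝓝 z, (gr K i y).PosDef := by
  filter_upwards [ev_tg i hz] with y hy
  exact K.pos i _ ((A.e i).map_target hy)

theorem gr_c (hz : z ∈ (A.e i).target) :
    ∀ᶠ y in 𝓝 z, ∀ a b c, dM (-I) c (gr K i) y a b = dM (-I) a (gr K i) y c b := by
  filter_upwards [ev_tg i hz] with y hy a b c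
  have h := K.closed i y hy a b c
  rw [wd_eq_dS, wd_eq_dS] at h
  exact h

theorem gr_c' (hz : z ∈ (A.e i).target) :
    ∀ᶠ y in 𝓝 z, ∀ a b c, dM I c (gr K i) y a b = dM I b (gr K i) y a c := by
  filter_upwards [ev_tg i hz] with y hy a b c
  have h := K.closed' i y hy a b c
  rw [wd_eq_dS', wd_eq_dS'] at h
  exact h

theorem gr_u (hz : z ∈ (A.e i).target) : ∀ᶠ y in 𝓝 z, Sm y (lamr (volK K) i) := by
  filter_upwards [ev_tg i hz] with y hy
  exact sm_lamr (volK K) i hy

theorem gr_det (hz : z ∈ (A.e i).target) :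
    ∀ᶠ y in 𝓝 z, Complex.exp (lamr (volK K) i y) = (gr K i y).det := by
  filter_upwards [ev_tg i hz] with y hy
  rw [exp_lamr (volK K) i hy, volK_w K i ((A.e i).map_target hy)]
  rfl

theorem gr_cur {x : M} (hx : x ∈ (A.e i).source) :
    -(Matrix.of fun c e => dS (-I) c (dS I e (lamr (volK K) i)) (A.e i x)) = cur (volK K) i x := by
  rw [← cur_eq_dS (volK K) i hx]
  ext c e
  rw [Matrix.neg_apply, Matrix.of_apply, Matrix.of_apply,
    dS_comm (sm_lamr (volK K) i ((A.e i).map_source hx))]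

end gr

/-! ### holomorphic families -/

theorem hol_sm {s : A.ι → M → FI n → ℂ} (h : ∀ i T, HolAt A i univ (fun x => s i x T)) (i : A.ι)
    (T : FI n) : A.SmAt i (fun x => s i x T) := by
  have := (h i T).contDiffOn isOpen_univ
  rwa [preimage_univ, inter_univ] at this

theorem hol_dV {s : A.ι → M → FI n → ℂ} (h : ∀ i T, HolAt A i univ (fun x => s i x T)) (i : A.ι)
    {z : Cn n} (hz : z ∈ (A.e i).target) (b : Fin n) : dV I b (rV s i) z = 0 := by
  funext T
  have h1 := (h i T).diffAt isOpen_univ ((A.e i).map_target hz) (mem_univ _)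
  rw [(A.e i).right_inv hz] at h1
  exact dS_hol h1 b

/-! ### quadratic functions of a family -/

/-- `s* H s`, real part, glued -/
def nrm (H : A.ι → M → Matrix (FI n) (FI n) ℂ) (s : A.ι → M → FI n → ℂ) : M → ℝ :=
  gl fun i x => (star (s i x) ⬝ᵥ (H i x *ᵥ s i x)).re

section nrm

variable {H : A.ι → M → Matrix (FI n) (FI n) ℂ} {s : A.ι → M → FI n → ℂ}

theorem nrm_eq (hl : ∀ i j, ∀ x ∈ (A.e i).source ∩ (A.e j).source,
      star (s i x) ⬝ᵥ (H i x *ᵥ s i x) = star (s j x) ⬝ᵥ (H j x *ᵥ s j x))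
    (hp : ∀ i, ∀ x ∈ (A.e i).source, (H i x).PosDef) {i : A.ι} {x : M}
    (hx : x ∈ (A.e i).source) :
    ((nrm H s x : ℝ) : ℂ) = star (s i x) ⬝ᵥ (H i x *ᵥ s i x) := by
  unfold nrm
  rw [gl_eq (fun i j x hx => by rw [hl i j x hx]) hx]
  have h1 := (hp i x hx).posSemidef.dotProduct_mulVec_nonneg (s i x)
  have h2 := (Complex.le_def.1 h1).2
  apply Complex.ext
  · simp
  · simpa using h2

theorem nrm_sm (hl : ∀ i j, ∀ x ∈ (A.e i).source ∩ (A.e j).source,
      star (s i x) ⬝ᵥ (H i x *ᵥ s i x) = star (s j x) ⬝ᵥ (H j x *ᵥ s j x))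
    (hH : ∀ i, ∀ z ∈ (A.e i).target, SmM z (fun y => H i ((A.e i).symm y)))
    (hs : ∀ i T, A.SmAt i (fun x => s i x T)) : A.Sm (nrm H s) := by
  intro i z hz
  have h1 : Sm z (fun y => star (rV s i y) ⬝ᵥ (H i ((A.e i).symm y) *ᵥ rV s i y)) :=
    SmV.dot (smV_rV hs i hz).star (SmM.mulVec (hH i z hz) (smV_rV hs i hz))
  have h2 : ContDiffAt ℝ ∞ (fun y => (star (rV s i y) ⬝ᵥ
      (H i ((A.e i).symm y) *ᵥ rV s i y)).re) z := Complex.reCLM.contDiff.contDiffAt.comp z h1
  refine (h2.congr_of_eventuallyEq ?_).contDiffWithinAt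
  filter_upwards [ev_tg i hz] with y hy
  unfold nrm
  rw [gl_eq (fun i j x hx => by rw [hl i j x hx]) ((A.e i).map_target hy)]
  rfl

/-- the Laplacian of `s* H s` in a chart -/
theorem lapK_nrm (K : Kah A) (hl : ∀ i j, ∀ x ∈ (A.e i).source ∩ (A.e j).source,
      star (s i x) ⬝ᵥ (H i x *ᵥ s i x) = star (s j x) ⬝ᵥ (H j x *ᵥ s j x))
    (hp : ∀ i, ∀ x ∈ (A.e i).source, (H i x).PosDef) {i : A.ι} {x : M}
    (hx : x ∈ (A.e i).source) :
    lapK K (nrm H s) i x = ∑ a, ∑ b, (K.g i x)⁻¹ b a *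
      dS (-I) a (dS I b (fun y => star (rV s i y) ⬝ᵥ (H i ((A.e i).symm y) *ᵥ rV s i y)))
        (A.e i x) := by
  unfold lapK
  refine Finset.sum_congr rfl fun a _ => Finset.sum_congr rfl fun b _ => ?_
  congr 1
  rw [← hm_ofReal _ i hx, hm_apply, dl_eq_dS]
  refine dS_congr ?_
  filter_upwards [ev_tg i ((A.e i).map_source hx)] with y hy
  rw [db_eq_dS, (A.e i).right_inv hy]
  refine dS_congr ?_
  filter_upwards [ev_tg i hy] with w hw
  exact nrm_eq hl hp ((A.e i).map_target hw)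

end nrm

end

end Crest.Agent.R273.ParC_880
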