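import Crest.Agent.R273.ParC_880
import Crest.Agent.R273.BKNb_37

/-!
# R273 (S0416), leaf PSPL (helper880), part D: BOCH

`M` compact, `K : Kah A` with semipositive Ricci form `cur (volK K)`.

* `boch_form` : a holomorphic form `β` is parallel, and `∑_b (ρ γ)_{cb} i_b β = 0`
* `boch_vec`  : a holomorphic polyvector which is null for the Ricci form is parallel
                (no semipositivity needed)
-/

set_option autoImplicit false
set_option linter.unusedSectionVars false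

open Set Filter Topology Complex Matrix
open scoped ContDiff Matrix ComplexConjugate ComplexOrder

namespace Crest.Agent.R273.ParD_880

open Crest.Agent.R275 Crest.Agent.R275.Geo Crest.Agent.R275.Core144 Crest.Agent.R275.EDR890
open Crest.Agent.R273.Defs_333 Crest.Agent.R273.HM_333 Crest.Agent.R273.Kah_333
open Crest.Agent.R273.Vol_333
open Crest.Agent.R273.Fock_243 Crest.Agent.R273.Calc_243 Crest.Agent.R273.Bkn_243
open Crest.Agent.R273.Pos_243 Crest.Agent.R273.BKNa_37 Crest.Agent.R273.BKNb_37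
open Crest.Agent.R273.ParA_880 Crest.Agent.R273.ParB_880 Crest.Agent.R273.ParC_880

noncomputable section

variable {n : ℕ} {M : Type} [TopologicalSpace M] {A : Atl n M}

/-- law of the inverse metric -/
theorem inv_law (K : Kah A) {i j : A.ι} {x : M} (hx : x ∈ (A.e i).source ∩ (A.e j).source) :
    (K.g j x)⁻¹ = (Jm A i j x)ᵀᴴ * (K.g i x)⁻¹ * (Jm A i j x)ᵀ := by
  symm
  have h1 := K.tr i j x hx
  have h2 : K.g i x * (K.g i x)⁻¹ = 1 :=
    Matrix.mul_nonsing_inv _ (K.pos i x hx.1).det_pos.ne'.isUnit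
  have h3 : (Jm A i j x)ᵀᴴ = (Jm A i j x).map conj := by
    ext a b; rfl
  rw [h1] at h2
  have h4 : (K.g j x * ((Jm A i j x).map conj * (K.g i x)⁻¹)) * (Jm A i j x)ᵀ = 1 := by
    apply mul_eq_one_comm.1
    rw [← h2, h1]
    simp only [Matrix.mul_assoc]
  rw [h3]
  symm
  apply Matrix.inv_eq_right_inv
  rw [← h4]
  simp only [Matrix.mul_assoc]

theorem form_law (K : Kah A) {β : A.ι → M → FI n → ℂ}
    (tr : ∀ i j, ∀ x ∈ (A.e i).source ∩ (A.e j).source, β i x = Gam (Jm A i j x)ᵀ *ᵥ β j x)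
    (i j : A.ι) (x : M) (hx : x ∈ (A.e i).source ∩ (A.e j).source) :
    star (β i x) ⬝ᵥ (Gam (K.g i x)⁻¹ *ᵥ β i x) = star (β j x) ⬝ᵥ (Gam (K.g j x)⁻¹ *ᵥ β j x) := by
  rw [tr i j x hx]
  exact ip_Gam (inv_law K hx) (β j x) (β j x)

theorem vec_law (K : Kah A) {v : A.ι → M → FI n → ℂ}
    (tr : ∀ i j, ∀ x ∈ (A.e i).source ∩ (A.e j).source, v i x = Gam (Jm A j i x) *ᵥ v j x)
    (i j : A.ι) (x : M) (hx : x ∈ (A.e i).source ∩ (A.e j).source) :
    star (v i x) ⬝ᵥ (Gam (K.g i x)ᵀ *ᵥ v i x) = star (v j x) ⬝ᵥ (Gam (K.g j x)ᵀ *ᵥ v j x) := by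
  rw [tr j i x ⟨hx.2, hx.1⟩]
  exact (ip_Gam (K_law K hx) (v i x) (v i x)).symm

/-- sums of nonnegative numbers -/
theorem zero_of_add {a b : ℂ} (ha : 0 ≤ a) (hb : 0 ≤ b) (h : a + b = 0) : a = 0 ∧ b = 0 := by
  have h1 : a ≤ 0 := by
    rw [← h]; exact le_add_of_nonneg_right hb
  have h2 : a = 0 := le_antisymm h1 ha
  rw [h2, zero_add] at h
  exact ⟨h2, h⟩

/-- **BOCH for holomorphic forms** -/
theorem boch_form [T2Space M] [CompactSpace M] (P : Part A) (K : Kah A)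
    (ric : ∀ i, ∀ x ∈ (A.e i).source, (cur (volK K) i x).PosSemidef)
    {β : A.ι → M → FI n → ℂ} (hol : ∀ i T, HolAt A i univ (fun x => β i x T))
    (tr : ∀ i j, ∀ x ∈ (A.e i).source ∩ (A.e j).source, β i x = Gam (Jm A i j x)ᵀ *ᵥ β j x)
    (i : A.ι) {x : M} (hx : x ∈ (A.e i).source) :
    (∀ a, Dc (fun y => Gam (gr K i y)⁻¹) (Gam (K.g i x)) (rV β i) (A.e i x) a = 0) ∧
      ∀ c, ∑ b, (cur (volK K) i x * (K.g i x)⁻¹) c b • (iW (ep b) *ᵥ β i x) = 0 := by
  set H : A.ι → M → Matrix (FI n) (FI n) ℂ := fun i x => Gam (K.g i x)⁻¹ with hH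
  have hHp : ∀ i, ∀ x ∈ (A.e i).source, (H i x).PosDef := fun i x hx =>
    Gam_posDef (K.pos i x hx).inv
  have hl := form_law K tr
  have hHs : ∀ i, ∀ z ∈ (A.e i).target, SmM z (fun y => H i ((A.e i).symm y)) := by
    intro i z hz
    have h1 := (gr_sm K i hz).self_of_nhds
    have h2 := (gr_pos K i hz).self_of_nhds.det_pos.ne'
    exact SmM.Gam (sm_inv h1 h2)
  have hsm := hol_sm hol
  have hu : A.Sm (nrm H β) := nrm_sm hl hHs hsm
  -- the formula
  have key : ∀ i, ∀ x ∈ (A.e i).source, lapK K (nrm H β) i x =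
      T1 (Gam (K.g i x)⁻¹) (K.g i x)⁻¹
        (fun a => Dc (fun y => Gam (gr K i y)⁻¹) (Gam (K.g i x)) (rV β i) (A.e i x) a)
        (fun a => Dc (fun y => Gam (gr K i y)⁻¹) (Gam (K.g i x)) (rV β i) (A.e i x) a) +
      T1 (Gam (K.g i x)⁻¹) ((K.g i x)⁻¹ * cur (volK K) i x * (K.g i x)⁻¹)
        (fun k => iW (ep k) *ᵥ β i x) (fun k => iW (ep k) *ᵥ β i x) := by
    intro i x hx
    have hz := (A.e i).map_source hx
    rw [lapK_nrm K hl hHp hx]
    have h1 := lap_form (g := gr K i) (u := lamr (volK K) i) (z := A.e i x) (s := rV β i)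
      (gr_sm K i hz) (gr_pos K i hz) (gr_c K i hz) (gr_c' K i hz) (gr_u K i hz) (gr_det K i hz)
      (by filter_upwards [ev_tg i hz] with y hy using smV_rV hsm i hy)
      (by filter_upwards [ev_tg i hz] with y hy using fun b => hol_dV hol i hy b)
    rw [gr_cur K i hx, gr_x K i hx] at h1
    have h2 : rV β i (A.e i x) = β i x := by unfold rV; rw [(A.e i).left_inv hx]
    rw [h2] at h1
    exact h1
  have hp1 : ∀ i, ∀ x ∈ (A.e i).source, 0 ≤ T1 (Gam (K.g i x)⁻¹) (K.g i x)⁻¹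
        (fun a => Dc (fun y => Gam (gr K i y)⁻¹) (Gam (K.g i x)) (rV β i) (A.e i x) a)
        (fun a => Dc (fun y => Gam (gr K i y)⁻¹) (Gam (K.g i x)) (rV β i) (A.e i x) a) :=
    fun i x hx => T1_nonneg (hHp i x hx).posSemidef (K.pos i x hx).inv.posSemidef _
  have hps : ∀ i, ∀ x ∈ (A.e i).source,
      ((K.g i x)⁻¹ * cur (volK K) i x * (K.g i x)⁻¹).PosSemidef := by
    intro i x hx
    have h1 := (ric i x hx).mul_mul_conjTranspose_same (K.g i x)⁻¹
    rwa [(K.pos i x hx).inv.isHermitian.eq] at h1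
  have hp2 : ∀ i, ∀ x ∈ (A.e i).source, 0 ≤ T1 (Gam (K.g i x)⁻¹)
      ((K.g i x)⁻¹ * cur (volK K) i x * (K.g i x)⁻¹)
        (fun k => iW (ep k) *ᵥ β i x) (fun k => iW (ep k) *ᵥ β i x) :=
    fun i x hx => T1_nonneg (hHp i x hx).posSemidef (hps i x hx) _
  have hz := sub_zero P K hu (fun i x hx => by
    rw [key i x hx]; exact add_nonneg (hp1 i x hx) (hp2 i x hx)) i x hx
  rw [key i x hx] at hz
  obtain ⟨h1, h2⟩ := zero_of_add (hp1 i x hx) (hp2 i x hx) hz
  refine ⟨(T1_eq_zero_iff_posDef (hHp i x hx) (K.pos i x hx).inv _).1 h1, fun c => ?_⟩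
  have h3 := (T1_eq_zero_iff (hHp i x hx) (hps i x hx) _).1 h2
  have h4 : cur (volK K) i x * (K.g i x)⁻¹ =
      K.g i x * ((K.g i x)⁻¹ * cur (volK K) i x * (K.g i x)⁻¹) := by
    rw [← mul_assoc, ← mul_assoc, Matrix.mul_nonsing_inv _ (K.pos i x hx).det_pos.ne'.isUnit,
      one_mul]
  rw [h4]
  simp only [Matrix.mul_apply (M := K.g i x), Finset.sum_smul, mul_smul]
  rw [Finset.sum_comm]
  refine Finset.sum_eq_zero fun l _ => ?_
  rw [← Finset.smul_sum, h3 l, smul_zero]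

/-- **BOCH for null holomorphic polyvectors** -/
theorem boch_vec [T2Space M] [CompactSpace M] (P : Part A) (K : Kah A)
    {v : A.ι → M → FI n → ℂ} (hol : ∀ i T, HolAt A i univ (fun x => v i x T))
    (tr : ∀ i j, ∀ x ∈ (A.e i).source ∩ (A.e j).source, v i x = Gam (Jm A j i x) *ᵥ v j x)
    (nul : ∀ i, ∀ x ∈ (A.e i).source, ∀ c, ∑ d, cur (volK K) i x d c • (iW (ep d) *ᵥ v i x) = 0)
    (i : A.ι) {x : M} (hx : x ∈ (A.e i).source) (a : Fin n) :
    Dc (fun y => Gam (gr K i y)ᵀ) (Gam ((K.g i x)⁻¹)ᵀ) (rV v i) (A.e i x) a = 0 := by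
  set H : A.ι → M → Matrix (FI n) (FI n) ℂ := fun i x => Gam (K.g i x)ᵀ with hH
  have hHp : ∀ i, ∀ x ∈ (A.e i).source, (H i x).PosDef := fun i x hx =>
    Gam_posDef (K.pos i x hx).transpose
  have hl := vec_law K tr
  have hHs : ∀ i, ∀ z ∈ (A.e i).target, SmM z (fun y => H i ((A.e i).symm y)) := by
    intro i z hz
    exact SmM.Gam fun a b => (gr_sm K i hz).self_of_nhds b a
  have hsm := hol_sm hol
  have hu : A.Sm (nrm H v) := nrm_sm hl hHs hsm
  have key : ∀ i, ∀ x ∈ (A.e i).source, lapK K (nrm H v) i x =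
      T1 (Gam (K.g i x)ᵀ) (K.g i x)⁻¹
        (fun a => Dc (fun y => Gam (gr K i y)ᵀ) (Gam ((K.g i x)⁻¹)ᵀ) (rV v i) (A.e i x) a)
        (fun a => Dc (fun y => Gam (gr K i y)ᵀ) (Gam ((K.g i x)⁻¹)ᵀ) (rV v i) (A.e i x) a) := by
    intro i x hx
    have hz := (A.e i).map_source hx
    rw [lapK_nrm K hl hHp hx]
    have h1 := lap_vec (g := gr K i) (u := lamr (volK K) i) (z := A.e i x) (s := rV v i)
      (gr_sm K i hz) (gr_pos K i hz) (gr_c K i hz) (gr_c' K i hz) (gr_u K i hz) (gr_det K i hz)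
      (by filter_upwards [ev_tg i hz] with y hy using smV_rV hsm i hy)
      (by filter_upwards [ev_tg i hz] with y hy using fun b => hol_dV hol i hy b)
    rw [gr_cur K i hx, gr_x K i hx] at h1
    have h2 : rV v i (A.e i x) = v i x := by unfold rV; rw [(A.e i).left_inv hx]
    rw [h2] at h1
    have h3 : Cv (Gam (K.g i x)ᵀ) (cur (volK K) i x) (v i x) (v i x) = 0 := by
      unfold Cv
      refine Finset.sum_eq_zero fun k _ => ?_
      have h4 := nul i x hx k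
      have h5 : ∑ l, cur (volK K) i x l k * ((iW (ep k) *ᵥ star (v i x)) ⬝ᵥ
          (Gam (K.g i x)ᵀ *ᵥ (iW (ep l) *ᵥ v i x))) = (iW (ep k) *ᵥ star (v i x)) ⬝ᵥ
          (Gam (K.g i x)ᵀ *ᵥ ∑ l, cur (volK K) i x l k • (iW (ep l) *ᵥ v i x)) := by
        rw [Matrix.mulVec_sum, dotProduct_sum]
        refine Finset.sum_congr rfl fun l _ => ?_
        rw [Matrix.mulVec_smul, dotProduct_smul, smul_eq_mul]
      rw [h5, h4, Matrix.mulVec_zero, dotProduct_zero]
    rw [h3, _root_.sub_zero] at h1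
    exact h1
  have hp1 : ∀ i, ∀ x ∈ (A.e i).source, 0 ≤ T1 (Gam (K.g i x)ᵀ) (K.g i x)⁻¹
        (fun a => Dc (fun y => Gam (gr K i y)ᵀ) (Gam ((K.g i x)⁻¹)ᵀ) (rV v i) (A.e i x) a)
        (fun a => Dc (fun y => Gam (gr K i y)ᵀ) (Gam ((K.g i x)⁻¹)ᵀ) (rV v i) (A.e i x) a) :=
    fun i x hx => T1_nonneg (hHp i x hx).posSemidef (K.pos i x hx).inv.posSemidef _
  have hz := ParC_880.sub_zero P K hu (fun i x hx => by
    rw [key i x hx]; exact hp1 i x hx) i x hx
  rw [key i x hx] at hz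
  exact (T1_eq_zero_iff_posDef (hHp i x hx) (K.pos i x hx).inv _).1 hz a

end

end Crest.Agent.R273.ParD_880
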