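import Crest.Agent.R273.Fam_835
import Crest.Agent.R273.Kah_333
import Crest.Agent.R266.Frob
import Crest.Agent.R266.GlueCharts
import Crest.Agent.R266.ClosedPull
import Crest.Agent.R266.Chart3

/-!
# R273 (S0416), Part B/E, SPLITPROD (helper836), part A

`Spl A` : a holomorphic splitting of the tangent bundle of `(M, A)` (field of projections, both
distributions integrable).
* rank constancy;
* `exists_chart`: product charts adapted to the splitting (local Frobenius);
* `exists_pfol`: finite product-foliated atlas of a compact connected `M`.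
-/

set_option autoImplicit false
set_option linter.unusedSectionVars false

open Set Filter Topology Complex Metric
open scoped ContDiff Matrix ComplexConjugate Manifold

namespace Crest.Agent.R273.SplA_836

open Crest.Agent.R275.Geo Crest.Agent.R275.Core144
open Crest.Agent.R273.Defs_333 Crest.Agent.R273.Map_835 Crest.Agent.R273.Fam_835
open Crest.Agent.R266 (EV PFol KMet locally_product T1 T2)

noncomputable section

variable {n : ℕ} {M : Type} [TopologicalSpace M] {A : Atl n M}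

/-! ### matrices as linear maps -/

/-- elementary linear maps -/
def Ec (b a : Fin n) : Cn n →L[ℂ] Cn n :=
  (EuclideanSpace.proj a : Cn n →L[ℂ] ℂ).smulRight (EuclideanSpace.single b (1 : ℂ))

/-- the linear map of a matrix -/
def toC (P : Matrix (Fin n) (Fin n) ℂ) : Cn n →L[ℂ] Cn n := ∑ b, ∑ a, P b a • Ec b a

theorem toC_apply (P : Matrix (Fin n) (Fin n) ℂ) (v : Cn n) (b : Fin n) :
    toC P v b = ∑ a, P b a * v a := by
  have h : toC P v = ∑ b, ∑ a, (P b a * v a) • (EuclideanSpace.single b (1 : ℂ) : Cn n) := by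
    simp only [toC, sum_apply, smul_apply]
    refine Finset.sum_congr rfl fun b _ => Finset.sum_congr rfl fun a _ => ?_
    simp only [Ec, ContinuousLinearMap.smulRight_apply, smul_smul]
    rfl
  rw [h]
  simp [Finset.sum_apply, Pi.single_apply]

theorem toC_mul (P Q : Matrix (Fin n) (Fin n) ℂ) (v : Cn n) : toC (P * Q) v = toC P (toC Q v) := by
  ext b
  simp only [toC_apply, Matrix.mul_apply, Finset.sum_mul, Finset.mul_sum]
  rw [Finset.sum_comm]
  simp only [mul_assoc]

theorem toC_mt (T : Cn n →L[ℂ] Cn n) (v : Cn n) : toC (mt T) v = T v := by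
  ext b
  rw [toC_apply, mt_apply]

theorem toC_linear (P : Matrix (Fin n) (Fin n) ℂ) :
    (toC P : Cn n →ₗ[ℂ] Cn n) = Matrix.toEuclideanLin P := by
  ext v b
  simp [toC_apply, Matrix.toEuclideanLin, Matrix.mulVec, dotProduct]

/-! ### splittings -/

/-- the projection field read in the chart `i` -/
def rdP (A : Atl n M) (P : A.ι → M → Matrix (Fin n) (Fin n) ℂ) (i : A.ι) (z : Cn n) :
    Cn n →L[ℂ] Cn n := toC (P i ((A.e i).symm z))

/-- a holomorphic splitting of the tangent bundle into two integrable subbundles (image and kernel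
of a projection field) -/
structure Spl (A : Atl n M) where
  P : A.ι → M → Matrix (Fin n) (Fin n) ℂ
  hol : ∀ i a b, HolAt A i univ (fun x => P i x a b)
  idem : ∀ i, ∀ x ∈ (A.e i).source, P i x * P i x = P i x
  tr : ∀ i j, ∀ x ∈ (A.e i).source ∩ (A.e j).source, P j x * Jm A i j x = Jm A i j x * P i x
  int1 : ∀ i, ∀ z ∈ (A.e i).target, ∀ u v, rdP A P i z u = u → rdP A P i z v = v →
    fderiv ℂ (rdP A P i) z u v = fderiv ℂ (rdP A P i) z v u
  int2 : ∀ i, ∀ z ∈ (A.e i).target, ∀ u v, rdP A P i z u = 0 → rdP A P i z v = 0 →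
    fderiv ℂ (rdP A P i) z u v = fderiv ℂ (rdP A P i) z v u

variable (S : Spl A)

/-- the projection read in the chart `i` -/
abbrev Spl.Q (i : A.ι) : Cn n → Cn n →L[ℂ] Cn n := rdP A S.P i

theorem Q_analytic (i : A.ι) : AnalyticOnNhd ℂ (S.Q i) (A.e i).target := by
  have h1 : ∀ a b, AnalyticOnNhd ℂ (fun z => S.P i ((A.e i).symm z) a b) (A.e i).target := by
    intro a b
    refine Crest.Agent.R266.SCV.analyticOnNhd_of_differentiableOn (A.e i).open_target ?_
    refine DifferentiableOn.mono (S.hol i a b) ?_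
    intro z hz
    exact ⟨hz, mem_univ _⟩
  intro z hz
  have h2 : S.Q i = fun w => ∑ b, ∑ a, S.P i ((A.e i).symm w) b a • Ec b a := rfl
  rw [h2]
  refine Finset.analyticAt_fun_sum _ fun b _ => Finset.analyticAt_fun_sum _ fun a _ => ?_
  exact (h1 b a z hz).smul analyticAt_const

theorem Q_idem {i : A.ι} {z : Cn n} (hz : z ∈ (A.e i).target) (v : Cn n) :
    S.Q i z (S.Q i z v) = S.Q i z v := by
  show toC _ (toC _ v) = toC _ v
  rw [← toC_mul, S.idem i _ ((A.e i).map_target hz)]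

/-- compatibility with the change of charts -/
theorem Q_tr {i j : A.ι} {z : Cn n} (hz : z ∈ A.ov i j) (v : Cn n) :
    S.Q j (A.e j ((A.e i).symm z)) (fderiv ℂ (fun w => A.e j ((A.e i).symm w)) z v) =
      fderiv ℂ (fun w => A.e j ((A.e i).symm w)) z (S.Q i z v) := by
  have hx : (A.e i).symm z ∈ (A.e i).source ∩ (A.e j).source := ⟨(A.e i).map_target hz.1, hz.2⟩
  have h1 := S.tr i j _ hx
  have h2 : Jm A i j ((A.e i).symm z) = mt (fderiv ℂ (fun w => A.e j ((A.e i).symm w)) z) := by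
    rw [Jm_eq, (A.e i).right_inv hz.1]
  rw [h2] at h1
  have h3 : ∀ w : Cn n, toC (mt (fderiv ℂ (fun w => A.e j ((A.e i).symm w)) z)) w =
    fderiv ℂ (fun w => A.e j ((A.e i).symm w)) z w := toC_mt _
  have h4 := congrArg (fun Q => toC Q v) h1
  simp only [toC_mul, h3] at h4
  show toC (S.P j ((A.e j).symm (A.e j ((A.e i).symm z)))) _ = _
  rw [(A.e j).left_inv hz.2]
  exact h4

/-! ### the rank -/

/-- the rank of the projection, computed in the chart `i` -/
def rkA (i : A.ι) (x : M) : ℕ := Module.finrank ℂ (LinearMap.range (toC (S.P i x)).toLinearMap)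

theorem trace_toC {i : A.ι} {x : M} (hx : x ∈ (A.e i).source) :
    LinearMap.trace ℂ (Cn n) (toC (S.P i x)).toLinearMap = (rkA S i x : ℂ) := by
  refine Crest.Agent.R266.trace_idem fun v => ?_
  rw [← toC_mul, S.idem i x hx]

theorem toC_one (v : Cn n) : toC (1 : Matrix (Fin n) (Fin n) ℂ) v = v := by
  ext b
  simp [toC_apply, Matrix.one_apply]

theorem rkA_eq {i j : A.ι} {x : M} (hx : x ∈ (A.e i).source ∩ (A.e j).source) :
    rkA S j x = rkA S i x := by
  have h1 : Jm A i j x * Jm A j i x = 1 := by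
    rw [J_mul j i j ⟨⟨hx.2, hx.1⟩, hx.2⟩, J_self j hx.2]
  have h2 : Jm A j i x * Jm A i j x = 1 := by
    rw [J_mul i j i ⟨⟨hx.1, hx.2⟩, hx.1⟩, J_self i hx.1]
  have h3 : S.P j x = Jm A i j x * (S.P i x * Jm A j i x) := by
    rw [← mul_assoc, ← S.tr i j x hx, mul_assoc, h1, mul_one]
  have h4 : (toC (S.P j x)).toLinearMap = (toC (Jm A i j x)).toLinearMap ∘ₗ
      (toC (S.P i x)).toLinearMap ∘ₗ (toC (Jm A j i x)).toLinearMap := by
    ext1 v
    rw [h3]
    show toC _ v = toC _ (toC _ (toC _ v))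
    rw [toC_mul, toC_mul]
  have h5 : LinearMap.trace ℂ (Cn n) (toC (S.P j x)).toLinearMap =
      LinearMap.trace ℂ (Cn n) (toC (S.P i x)).toLinearMap := by
    rw [h4, LinearMap.trace_comp_comm', LinearMap.comp_assoc]
    congr 1
    ext1 v
    show toC _ (toC _ (toC _ v)) = toC _ v
    rw [← toC_mul (Jm A j i x), h2, toC_one]
  rw [trace_toC S hx.2, trace_toC S hx.1] at h5
  exact_mod_cast h5

/-- the chart chosen at a point -/
def chx (A : Atl n M) (x : M) : A.ι := (A.cover x).choose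

theorem chx_mem (x : M) : x ∈ (A.e (chx A x)).source := (A.cover x).choose_spec

/-- the rank of the splitting at a point -/
def rkM (x : M) : ℕ := rkA S (chx A x) x

theorem rkA_eq_rkM {i : A.ι} {x : M} (hx : x ∈ (A.e i).source) : rkA S i x = rkM S x :=
  rkA_eq S ⟨chx_mem x, hx⟩

theorem rkM_locallyConstant : IsLocallyConstant (rkM S) := by
  rw [IsLocallyConstant.iff_eventually_eq]
  intro x₀
  set i := chx A x₀ with hi
  have hx : x₀ ∈ (A.e i).source := chx_mem x₀
  have hc : ContinuousOn (fun x => LinearMap.trace ℂ (Cn n) (S.Q i (A.e i x)).toLinearMap)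
      (A.e i).source := by
    have h1 : ContinuousOn (fun x => S.Q i (A.e i x)) (A.e i).source :=
      (Q_analytic S i).continuousOn.comp (A.e i).continuousOn
        (fun z hz => (A.e i).map_source hz)
    have h2 : Continuous (fun P : Cn n →L[ℂ] Cn n =>
        LinearMap.trace ℂ (Cn n) P.toLinearMap) := by
      exact LinearMap.continuous_of_finiteDimensional
        ((LinearMap.trace ℂ (Cn n)) ∘ₗ (ContinuousLinearMap.coeLM ℂ))
    exact h2.comp_continuousOn h1
  have hQ : ∀ x ∈ (A.e i).source, S.Q i (A.e i x) = toC (S.P i x) := by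
    intro x hx
    show toC (S.P i ((A.e i).symm (A.e i x))) = _
    rw [(A.e i).left_inv hx]
  have hca := hc.continuousAt ((A.e i).open_source.mem_nhds hx)
  have h3 := hca (Metric.ball_mem_nhds _ (by norm_num : (0:ℝ) < 1/2))
  filter_upwards [h3, (A.e i).open_source.mem_nhds hx] with z hz hzs
  have hz' : dist (LinearMap.trace ℂ (Cn n) (S.Q i (A.e i z)).toLinearMap)
    (LinearMap.trace ℂ (Cn n) (S.Q i (A.e i x₀)).toLinearMap) < 1/2 := hz
  rw [hQ z hzs, hQ x₀ hx, trace_toC S hzs, trace_toC S hx, dist_eq_norm] at hz'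
  rw [← rkA_eq_rkM S hzs, ← rkA_eq_rkM S hx]
  have h5 : ((rkA S i z : ℤ) - (rkA S i x₀ : ℤ) : ℤ) = 0 := by
    have h6 : ‖(((rkA S i z : ℤ) - (rkA S i x₀ : ℤ) : ℤ) : ℂ)‖ < 1/2 := by
      push_cast
      exact hz'
    rw [Complex.norm_intCast] at h6
    by_contra hne
    have h7 : (1:ℤ) ≤ |(rkA S i z : ℤ) - (rkA S i x₀ : ℤ)| := Int.one_le_abs hne
    have h8 : (1:ℝ) ≤ |(((rkA S i z : ℤ) - (rkA S i x₀ : ℤ) : ℤ) : ℝ)| := by exact_mod_cast h7
    linarith
  omega

theorem rkM_const [PreconnectedSpace M] (x y : M) : rkM S x = rkM S y :=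
  (rkM_locallyConstant S).apply_eq_of_isPreconnected isPreconnected_univ trivial trivial

/-- constant rank `r` -/
def Spl.IsRk (r : ℕ) : Prop := ∀ i, ∀ x ∈ (A.e i).source, rkA S i x = r

theorem isRk_of_point [PreconnectedSpace M] {i : A.ι} {x : M} (hx : x ∈ (A.e i).source) :
    S.IsRk (rkA S i x) := by
  intro j y hy
  rw [rkA_eq_rkM S hx, rkA_eq_rkM S hy]
  exact rkM_const S y x

theorem IsRk.le {r : ℕ} (h : S.IsRk r) (x : M) : r ≤ n := by
  rw [← h _ x (chx_mem x)]
  have := LinearMap.finrank_range_add_finrank_ker (toC (S.P (chx A x) x)).toLinearMap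
  rw [finrank_euclideanSpace_fin] at this
  unfold rkA
  omega

theorem finrank_ker {r : ℕ} (h : S.IsRk r) {i : A.ι} {x : M} (hx : x ∈ (A.e i).source) :
    Module.finrank ℂ (LinearMap.ker (toC (S.P i x)).toLinearMap) = n - r := by
  have := LinearMap.finrank_range_add_finrank_ker (toC (S.P i x)).toLinearMap
  rw [finrank_euclideanSpace_fin] at this
  rw [← h i x hx]
  unfold rkA
  omega

/-! ### product charts -/

/-- a product chart adapted to the splitting, defined in a chart of the atlas -/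
structure PC (S : Spl A) (r s : ℕ) where
  i : A.ι
  χ : OpenPartialHomeomorph (Cn n) (EV r × EV s)
  sub : χ.source ⊆ (A.e i).target
  an : AnalyticOnNhd ℂ χ χ.source
  an' : AnalyticOnNhd ℂ χ.symm χ.target
  tgt : χ.target = ball (0 : EV r) 1 ×ˢ ball (0 : EV s) 1
  tan : ∀ z ∈ χ.source, ∀ v, ((fderiv ℂ χ z v).2 = 0 ↔ S.Q i z v = v) ∧
    ((fderiv ℂ χ z v).1 = 0 ↔ S.Q i z v = 0)

variable {S} {r s : ℕ}

/-- the chart of `M` -/
def PC.ch (c : PC S r s) : OpenPartialHomeomorph M (EV r × EV s) := (A.e c.i).trans c.χ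

theorem PC.ch_apply (c : PC S r s) (x : M) : c.ch x = c.χ (A.e c.i x) := rfl

theorem PC.ch_symm (c : PC S r s) (p : EV r × EV s) :
    c.ch.symm p = (A.e c.i).symm (c.χ.symm p) := rfl

theorem PC.mem_source (c : PC S r s) {x : M} :
    x ∈ c.ch.source ↔ x ∈ (A.e c.i).source ∧ A.e c.i x ∈ c.χ.source := Iff.rfl

theorem PC.target_eq (c : PC S r s) : c.ch.target = c.χ.target := by
  have h : c.ch.target = c.χ.target ∩ c.χ.symm ⁻¹' (A.e c.i).target := rfl
  rw [h]
  exact inter_eq_left.2 fun p hp => c.sub (c.χ.map_target hp)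

theorem exists_PC (hr : S.IsRk r) (x : M) :
    ∃ c : PC S r (n - r), x ∈ c.ch.source ∧ c.ch x = 0 := by
  set i := chx A x with hi
  have hx : x ∈ (A.e i).source := chx_mem x
  have hQ : S.Q i (A.e i x) = toC (S.P i x) := by
    show toC (S.P i ((A.e i).symm (A.e i x))) = _
    rw [(A.e i).left_inv hx]
  obtain ⟨χ, h1, h2, h3, h4, h5, h6, h7⟩ := Crest.Agent.R266.frob_product (P := S.Q i)
    (n₁ := r) (n₂ := n - r) (A.e i).open_target
    (Q_analytic S i) (fun z hz v => Q_idem S hz v) (S.int1 i) (S.int2 i) ((A.e i).map_source hx)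
    (by rw [hQ]; exact hr i x hx) (by rw [hQ]; exact finrank_ker S hr hx)
  exact ⟨⟨i, χ, h2, h5, h6, h4, h7⟩, ⟨hx, h1⟩, h3⟩

section trans

variable (c c' : PC S r s)

/-- the change from the product chart to a chart of the atlas -/
theorem PC.hasFDerivAt_rd (j : A.ι) {p : EV r × EV s} (hp : p ∈ c.ch.target)
    (hj : c.ch.symm p ∈ (A.e j).source) :
    AnalyticAt ℂ (fun q => A.e j (c.ch.symm q)) p ∧
    HasFDerivAt (fun q => A.e j (c.ch.symm q))
      ((fderiv ℂ (fun w => A.e j ((A.e c.i).symm w)) (c.χ.symm p)).comp (fderiv ℂ c.χ.symm p)) p := by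
  rw [c.target_eq] at hp
  have hz : c.χ.symm p ∈ A.ov c.i j := ⟨c.sub (c.χ.map_target hp), hj⟩
  have ho : IsOpen (A.ov c.i j) := isOpen_ov c.i j
  have h1 : AnalyticAt ℂ (fun w => A.e j ((A.e c.i).symm w)) (c.χ.symm p) :=
    Crest.Agent.R266.SCV.analyticOnNhd_of_differentiableOn ho (A.holo c.i j) _ hz
  exact ⟨h1.comp (c.an' p hp), HasFDerivAt.comp p (g := fun w => A.e j ((A.e c.i).symm w))
    (f := c.χ.symm) h1.differentiableAt.hasFDerivAt (c.an' p hp).differentiableAt.hasFDerivAt⟩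

theorem PC.inv1 {z : Cn n} (hz : z ∈ c.χ.source) (v : Cn n) :
    fderiv ℂ c.χ.symm (c.χ z) (fderiv ℂ c.χ z v) = v := by
  have h1 : HasFDerivAt c.χ (fderiv ℂ c.χ z) z := (c.an z hz).differentiableAt.hasFDerivAt
  have h2 : HasFDerivAt c.χ.symm (fderiv ℂ c.χ.symm (c.χ z)) (c.χ z) :=
    (c.an' _ (c.χ.map_source hz)).differentiableAt.hasFDerivAt
  have h3 := h2.comp z h1
  have h4 : HasFDerivAt (c.χ.symm ∘ c.χ) (ContinuousLinearMap.id ℂ (Cn n)) z :=
    (hasFDerivAt_id z).congr_of_eventuallyEq (by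
      filter_upwards [c.χ.open_source.mem_nhds hz] with y hy using c.χ.left_inv hy)
  exact congrArg (fun L : Cn n →L[ℂ] Cn n => L v) (h3.unique h4)

theorem PC.inv2 {p : EV r × EV s} (hp : p ∈ c.χ.target) (w : EV r × EV s) :
    fderiv ℂ c.χ (c.χ.symm p) (fderiv ℂ c.χ.symm p w) = w := by
  have h1 : HasFDerivAt c.χ.symm (fderiv ℂ c.χ.symm p) p :=
    (c.an' p hp).differentiableAt.hasFDerivAt
  have h2 : HasFDerivAt c.χ (fderiv ℂ c.χ (c.χ.symm p)) (c.χ.symm p) :=
    (c.an _ (c.χ.map_target hp)).differentiableAt.hasFDerivAt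
  have h3 := h2.comp p h1
  have h4 : HasFDerivAt (c.χ ∘ c.χ.symm) (ContinuousLinearMap.id ℂ (EV r × EV s)) p :=
    (hasFDerivAt_id p).congr_of_eventuallyEq (by
      filter_upwards [c.χ.open_target.mem_nhds hp] with y hy using c.χ.right_inv hy)
  exact congrArg (fun L : (EV r × EV s) →L[ℂ] (EV r × EV s) => L w) (h3.unique h4)

/-- the transition map is analytic, with the expected derivative -/
theorem PC.trans_aux {p : EV r × EV s} (hp : p ∈ c.ch.target) (hp' : c.ch.symm p ∈ c'.ch.source) :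
    AnalyticAt ℂ (fun q => c'.ch (c.ch.symm q)) p ∧
    ∀ w, fderiv ℂ (fun q => c'.ch (c.ch.symm q)) p w =
      fderiv ℂ c'.χ (A.e c'.i (c.ch.symm p))
        (fderiv ℂ (fun w => A.e c'.i ((A.e c.i).symm w)) (c.χ.symm p) (fderiv ℂ c.χ.symm p w)) := by
  obtain ⟨h1, h2⟩ := c.hasFDerivAt_rd c'.i hp hp'.1
  have h3 : AnalyticAt ℂ c'.χ (A.e c'.i (c.ch.symm p)) := c'.an _ hp'.2
  refine ⟨AnalyticAt.comp (g := c'.χ) (f := fun q => A.e c'.i (c.ch.symm q)) h3 h1, fun w => ?_⟩
  have h4 : HasFDerivAt (fun q => c'.ch (c.ch.symm q)) _ p :=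
    HasFDerivAt.comp p (g := c'.χ) (f := fun q => A.e c'.i (c.ch.symm q))
      h3.differentiableAt.hasFDerivAt h2
  rw [h4.fderiv]
  rfl

theorem PC.ov {p : EV r × EV s} (hp : p ∈ c.ch.target) (hp' : c.ch.symm p ∈ c'.ch.source) :
    c.χ.symm p ∈ A.ov c.i c'.i := by
  rw [c.target_eq] at hp
  exact ⟨c.sub (c.χ.map_target hp), hp'.1⟩

theorem PC.d1 {p : EV r × EV s} (hp : p ∈ c.ch.target) (hp' : c.ch.symm p ∈ c'.ch.source)
    (v : EV s) : (fderiv ℂ (fun q => c'.ch (c.ch.symm q)) p (0, v)).1 = 0 := by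
  rw [(c.trans_aux c' hp hp').2]
  have hp2 : p ∈ c.χ.target := by rwa [c.target_eq] at hp
  refine ((c'.tan _ hp'.2 _).2).2 ?_
  have h1 := Q_tr S (c.ov c' hp hp') (fderiv ℂ c.χ.symm p (0, v))
  refine h1.trans ?_
  have h2 : S.Q c.i (c.χ.symm p) (fderiv ℂ c.χ.symm p (0, v)) = 0 := by
    refine ((c.tan _ (c.χ.map_target hp2) _).2).1 ?_
    rw [c.inv2 hp2]
  rw [h2, map_zero]

theorem PC.d2 {p : EV r × EV s} (hp : p ∈ c.ch.target) (hp' : c.ch.symm p ∈ c'.ch.source)
    (u : EV r) : (fderiv ℂ (fun q => c'.ch (c.ch.symm q)) p (u, 0)).2 = 0 := by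
  rw [(c.trans_aux c' hp hp').2]
  have hp2 : p ∈ c.χ.target := by rwa [c.target_eq] at hp
  refine ((c'.tan _ hp'.2 _).1).2 ?_
  have h1 := Q_tr S (c.ov c' hp hp') (fderiv ℂ c.χ.symm p (u, 0))
  refine h1.trans ?_
  have h2 : S.Q c.i (c.χ.symm p) (fderiv ℂ c.χ.symm p (u, 0)) = fderiv ℂ c.χ.symm p (u, 0) := by
    refine ((c.tan _ (c.χ.map_target hp2) _).1).1 ?_
    rw [c.inv2 hp2]
  rw [h2]

theorem PC.compat {x : M} (hx : x ∈ c.ch.source ∩ c'.ch.source) :
    ∃ (φ : EV r → EV r) (ψ : EV s → EV s), AnalyticAt ℂ φ (c.ch x).1 ∧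
      AnalyticAt ℂ ψ (c.ch x).2 ∧ ∀ᶠ p in 𝓝 (c.ch x), c'.ch (c.ch.symm p) = (φ p.1, ψ p.2) := by
  have ho : IsOpen (c.ch.target ∩ c.ch.symm ⁻¹' c'.ch.source) :=
    c.ch.isOpen_inter_preimage_symm c'.ch.open_source
  have hm : c.ch x ∈ c.ch.target ∩ c.ch.symm ⁻¹' c'.ch.source :=
    ⟨c.ch.map_source hx.1, by rw [mem_preimage, c.ch.left_inv hx.1]; exact hx.2⟩
  refine locally_product (T := fun p => c'.ch (c.ch.symm p)) ?_ ?_ ?_
  · filter_upwards [ho.mem_nhds hm] with p hp using (c.trans_aux c' hp.1 hp.2).1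
  · filter_upwards [ho.mem_nhds hm] with p hp v using c.d1 c' hp.1 hp.2 v
  · filter_upwards [ho.mem_nhds hm] with p hp u using c.d2 c' hp.1 hp.2 u

end trans

/-- a family of product charts -/
def pfol {J : Type} (c : J → PC S r s) (hcov : ∀ x, ∃ j, x ∈ (c j).ch.source ∧
      (c j).ch x ∈ ball (0 : EV r) (1 / 2) ×ˢ ball (0 : EV s) (1 / 2)) : PFol r s M where
  ι := J
  ch j := (c j).ch
  target_eq j := by rw [(c j).target_eq, (c j).tgt]
  cover := hcov
  compat i j x hx := (c i).compat (c j) hx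

/-- finite families of product charts on a compact manifold -/
theorem exists_family [CompactSpace M] (hr : S.IsRk r) :
    ∃ (J : Type) (_ : Finite J) (c : J → PC S r (n - r)), ∀ x, ∃ j, x ∈ (c j).ch.source ∧
      (c j).ch x ∈ ball (0 : EV r) (1 / 2) ×ˢ ball (0 : EV (n - r)) (1 / 2) := by
  choose c hc using exists_PC hr
  have hopen : ∀ x, IsOpen ((c x).ch.source ∩ (c x).ch ⁻¹'
      (ball (0 : EV r) (1 / 2) ×ˢ ball (0 : EV (n - r)) (1 / 2))) :=
    fun x => (c x).ch.isOpen_inter_preimage (isOpen_ball.prod isOpen_ball)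
  obtain ⟨t, ht⟩ := isCompact_univ.elim_finite_subcover _ hopen (by
      intro x _
      refine mem_iUnion.2 ⟨x, (hc x).1, ?_⟩
      rw [mem_preimage, (hc x).2]
      exact ⟨mem_ball_self (by norm_num), mem_ball_self (by norm_num)⟩)
  refine ⟨t, inferInstance, fun j => c j, fun x => ?_⟩
  have := ht (mem_univ x)
  simp only [mem_iUnion] at this
  obtain ⟨y, hy, hxy⟩ := this
  exact ⟨⟨y, hy⟩, hxy.1, hxy.2⟩

end

end Crest.Agent.R273.SplA_836
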