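import Crest.Agent.R273.ParE_880
import Crest.Agent.R273.SplA_836

/-!
# R273 (S0416), leaf PSPL (helper880), part F: self-adjoint holomorphic endomorphisms are parallel

* `Chr K i z c`   : the Christoffel matrix `Γ_c = κ⁻¹ ∂_c κ`, `κ = gᵀ`; `Chr_symm`
* `par_of_sa`     : `∂_c Q = Q Γ_c - Γ_c Q` for a holomorphic `Q` with `gᵀ Q` hermitian
* `splOf`         : a self-adjoint idempotent `HEnd` gives helper836's `Spl`
-/

set_option autoImplicit false
set_option linter.unusedSectionVars false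

open Set Filter Topology Complex Matrix
open scoped ContDiff Matrix ComplexConjugate ComplexOrder

namespace Crest.Agent.R273.ParF_880

open Crest.Agent.R275 Crest.Agent.R275.Geo Crest.Agent.R275.Core144
open Crest.Agent.R273.Defs_333 Crest.Agent.R273.HM_333 Crest.Agent.R273.Kah_333
open Crest.Agent.R273.Fock_243 Crest.Agent.R273.Calc_243
open Crest.Agent.R273.BKNa_37 Crest.Agent.R273.Spl1_404 Crest.Agent.R273.SplA_836
open Crest.Agent.R273.ParA_880 Crest.Agent.R273.ParC_880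

noncomputable section

variable {n : ℕ} {M : Type} [TopologicalSpace M] {A : Atl n M}

/-- the Christoffel matrix -/
def Chr (K : Kah A) (i : A.ι) (z : Cn n) (c : Fin n) : Matrix (Fin n) (Fin n) ℂ :=
  ((gr K i z)ᵀ)⁻¹ * dM (-I) c (fun y => (gr K i y)ᵀ) z

theorem Chr_symm (K : Kah A) (i : A.ι) {z : Cn n} (hz : z ∈ (A.e i).target) (a b c : Fin n) :
    Chr K i z c a b = Chr K i z b a c := by
  unfold Chr
  rw [Matrix.mul_apply, Matrix.mul_apply]
  refine Finset.sum_congr rfl fun d _ => ?_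
  congr 1
  exact (gr_c K i hz).self_of_nhds b d c

/-- the Christoffel form -/
def ChrV (K : Kah A) (i : A.ι) (z : Cn n) (u : Fin n → ℂ) : Matrix (Fin n) (Fin n) ℂ :=
  ∑ c, u c • Chr K i z c

theorem ChrV_symm (K : Kah A) (i : A.ι) {z : Cn n} (hz : z ∈ (A.e i).target) (u v : Fin n → ℂ) :
    ChrV K i z u *ᵥ v = ChrV K i z v *ᵥ u := by
  funext a
  have h : ∀ u v : Fin n → ℂ, (ChrV K i z u *ᵥ v) a = ∑ c, ∑ b, u c * (Chr K i z c a b * v b) := by
    intro u v
    unfold ChrV
    rw [Matrix.sum_mulVec, Finset.sum_apply]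
    refine Finset.sum_congr rfl fun c _ => ?_
    rw [Matrix.smul_mulVec, Pi.smul_apply, smul_eq_mul, Matrix.mulVec, dotProduct,
      Finset.mul_sum]
  rw [h, h, Finset.sum_comm]
  refine Finset.sum_congr rfl fun b _ => Finset.sum_congr rfl fun c _ => ?_
  rw [Chr_symm K i hz a b c]
  ring

/-- **a holomorphic self-adjoint endomorphism is parallel** -/
theorem par_of_sa (K : Kah A) {Q : A.ι → M → Matrix (Fin n) (Fin n) ℂ}
    (hol : ∀ i a b, HolAt A i univ (fun x => Q i x a b))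
    (sa : ∀ i, ∀ x ∈ (A.e i).source, ((K.g i x)ᵀ * Q i x).IsHermitian)
    (i : A.ι) {z : Cn n} (hz : z ∈ (A.e i).target) (c : Fin n) :
    dM (-I) c (fun y => Q i ((A.e i).symm y)) z =
      Q i ((A.e i).symm z) * Chr K i z c - Chr K i z c * Q i ((A.e i).symm z) := by
  set κ : Cn n → Matrix (Fin n) (Fin n) ℂ := fun y => (gr K i y)ᵀ with hκ
  set q : Cn n → Matrix (Fin n) (Fin n) ℂ := fun y => Q i ((A.e i).symm y) with hq
  have hκs : SmM z κ := fun a b => (gr_sm K i hz).self_of_nhds b a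
  have hqs : SmM z q := by
    intro a b
    have h1 : A.SmAt i (fun x => Q i x a b) := by
      have := (hol i a b).contDiffOn isOpen_univ
      rwa [preimage_univ, inter_univ] at this
    exact sm_rd h1 hz
  have hqh : SmM z (fun y => (q y)ᴴ) := fun a b => (hqs b a).conj
  have hpos : ∀ᶠ y in 𝓝 z, (κ y).PosDef := by
    filter_upwards [gr_pos K i hz] with y hy
    exact hy.transpose
  have h1 : ∀ᶠ y in 𝓝 z, κ y * q y = (q y)ᴴ * κ y := by
    filter_upwards [ev_tg i hz, hpos] with y hy hy'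
    have h2 := sa i _ ((A.e i).map_target hy)
    have h3 : (κ y * q y)ᴴ = κ y * q y := h2
    rw [Matrix.conjTranspose_mul, hy'.isHermitian.eq] at h3
    exact h3.symm
  have h2 : dM (-I) c (fun y => κ y * q y) z = dM (-I) c (fun y => (q y)ᴴ * κ y) z := by
    ext a b
    exact dS_congr (h1.mono fun y hy => congrFun (congrFun hy a) b)
  rw [dM_mul (fun a b => (hκs a b).diff) (fun a b => (hqs a b).diff),
    dM_mul (fun a b => (hqh a b).diff) (fun a b => (hκs a b).diff)] at h2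
  have h3 : dM (-I) c (fun y => (q y)ᴴ) z = 0 := by
    ext a b
    show dS (-I) c (fun y => conj (q y b a)) z = 0
    rw [dS_conj (hqs b a).diff]
    have h4 : dS (conj (-I)) c (fun y => q y b a) z = 0 := by
      have h5 : conj (-I : ℂ) = I := by simp
      rw [h5]
      have h6 := (hol i b a).diffAt isOpen_univ ((A.e i).map_target hz) (mem_univ _)
      rw [(A.e i).right_inv hz] at h6
      exact dS_hol h6 c
    rw [h4, map_zero]
  rw [h3, zero_mul, zero_add] at h2
  have hz1 := h1.self_of_nhds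
  have hd : (κ z).det ≠ 0 := hpos.self_of_nhds.det_pos.ne'
  have h4 : (κ z)⁻¹ * κ z = 1 := Matrix.nonsing_inv_mul _ hd.isUnit
  have h5 : κ z * (κ z)⁻¹ = 1 := Matrix.mul_nonsing_inv _ hd.isUnit
  have h6 : (κ z)⁻¹ * (q z)ᴴ = q z * (κ z)⁻¹ := by
    calc (κ z)⁻¹ * (q z)ᴴ = (κ z)⁻¹ * ((q z)ᴴ * κ z) * (κ z)⁻¹ := by
          rw [mul_assoc, mul_assoc, h5, mul_one]
      _ = (κ z)⁻¹ * (κ z * q z) * (κ z)⁻¹ := by rw [hz1]
      _ = q z * (κ z)⁻¹ := by rw [← mul_assoc, h4, one_mul]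
  have h7 : κ z * dM (-I) c q z = (q z)ᴴ * dM (-I) c κ z - dM (-I) c κ z * q z :=
    eq_sub_of_add_eq' h2
  calc dM (-I) c q z = (κ z)⁻¹ * (κ z * dM (-I) c q z) := by rw [← mul_assoc, h4, one_mul]
    _ = (κ z)⁻¹ * (q z)ᴴ * dM (-I) c κ z - (κ z)⁻¹ * dM (-I) c κ z * q z := by
        rw [h7, mul_sub, mul_assoc, mul_assoc]
    _ = _ := by rw [h6, mul_assoc]; rfl

/-! ### the derivative of the projection field -/

theorem dS_of_hol {f : Cn n → ℂ} {z : Cn n} (hf : DifferentiableAt ℂ f z) (c : Fin n) :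
    dS (-I) c f z = fderiv ℂ f z (EuclideanSpace.single c 1) := by
  have h1 : fderiv ℝ f z = (fderiv ℂ f z).restrictScalars ℝ :=
    (hf.hasFDerivAt.restrictScalars ℝ).fderiv
  unfold dS
  rw [h1, GeoHol912.single_I]
  simp only [ContinuousLinearMap.coe_restrictScalars', map_smul, smul_eq_mul]
  have : -I * (I * (fderiv ℂ f z) (EuclideanSpace.single c 1)) =
      (fderiv ℂ f z) (EuclideanSpace.single c 1) := by
    rw [← mul_assoc, neg_mul, I_mul_I, neg_neg, one_mul]
  rw [this]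
  ring

theorem fderiv_sum_single {f : Cn n → ℂ} {z : Cn n} (hf : DifferentiableAt ℂ f z) (u : Cn n) :
    fderiv ℂ f z u = ∑ c, u c * dS (-I) c f z := by
  conv_lhs => rw [← GeoHol912.sum_single u]
  rw [map_sum]
  refine Finset.sum_congr rfl fun c _ => ?_
  rw [map_smul, smul_eq_mul, dS_of_hol hf]

theorem rdP_fderiv {P : A.ι → M → Matrix (Fin n) (Fin n) ℂ}
    (hol : ∀ i a b, HolAt A i univ (fun x => P i x a b)) (i : A.ι) {z : Cn n}
    (hz : z ∈ (A.e i).target) (u v : Cn n) (b : Fin n) :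
    (fderiv ℂ (rdP A P i) z u v) b =
      ∑ c, u c * (dM (-I) c (fun y => P i ((A.e i).symm y)) z *ᵥ fun a => v a) b := by
  have hd : ∀ a b, DifferentiableAt ℂ (fun y => P i ((A.e i).symm y) a b) z := by
    intro a b
    have h6 := (hol i a b).diffAt isOpen_univ ((A.e i).map_target hz) (mem_univ _)
    rwa [(A.e i).right_inv hz] at h6
  have hD : DifferentiableAt ℂ (rdP A P i) z := by
    have h1 : rdP A P i = fun w => ∑ b, ∑ a, P i ((A.e i).symm w) b a • Ec b a := rfl
    rw [h1]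
    exact DifferentiableAt.fun_sum fun b _ => DifferentiableAt.fun_sum fun a _ =>
      (hd b a).smul_const _
  have h2 : HasFDerivAt (fun w => (rdP A P i w v) b)
      (((EuclideanSpace.proj b : Cn n →L[ℂ] ℂ).comp
        (ContinuousLinearMap.apply ℂ (Cn n) v)).comp (fderiv ℂ (rdP A P i) z)) z := by
    have := ((EuclideanSpace.proj b : Cn n →L[ℂ] ℂ).comp
        (ContinuousLinearMap.apply ℂ (Cn n) v)).hasFDerivAt.comp z hD.hasFDerivAt
    exact this
  have h3 : (fun w => (rdP A P i w v) b) = fun w => ∑ a, P i ((A.e i).symm w) b a * v a := by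
    funext w
    exact toC_apply _ _ _
  have h4 : (fderiv ℂ (rdP A P i) z u v) b =
      fderiv ℂ (fun w => ∑ a, P i ((A.e i).symm w) b a * v a) z u := by
    rw [← h3, h2.fderiv]
    rfl
  have h5 : fderiv ℂ (fun w => ∑ a, P i ((A.e i).symm w) b a * v a) z u =
      ∑ a, fderiv ℂ (fun w => P i ((A.e i).symm w) b a) z u * v a := by
    rw [fderiv_fun_sum fun a _ => (hd b a).mul_const _, _root_.sum_apply]
    refine Finset.sum_congr rfl fun a _ => ?_
    rw [fderiv_mul_const (hd b a), _root_.smul_apply, smul_eq_mul, mul_comm]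
  rw [h4, h5]
  simp only [fderiv_sum_single (hd b _), Matrix.mulVec, dotProduct, Finset.sum_mul,
    Finset.mul_sum]
  rw [Finset.sum_comm]
  refine Finset.sum_congr rfl fun c _ => Finset.sum_congr rfl fun a _ => ?_
  rw [mul_assoc]
  rfl

/-- the derivative of a parallel field -/
theorem rdP_par (K : Kah A) {Q : A.ι → M → Matrix (Fin n) (Fin n) ℂ}
    (hol : ∀ i a b, HolAt A i univ (fun x => Q i x a b))
    (sa : ∀ i, ∀ x ∈ (A.e i).source, ((K.g i x)ᵀ * Q i x).IsHermitian)
    (i : A.ι) {z : Cn n} (hz : z ∈ (A.e i).target) (u v : Cn n) :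
    (fun b => (fderiv ℂ (rdP A Q i) z u v) b) =
      Q i ((A.e i).symm z) *ᵥ (ChrV K i z (fun a => u a) *ᵥ fun a => v a) -
        ChrV K i z (fun a => u a) *ᵥ (Q i ((A.e i).symm z) *ᵥ fun a => v a) := by
  funext b
  rw [rdP_fderiv hol i hz u v b]
  have h1 : ∀ c, u c * (dM (-I) c (fun y => Q i ((A.e i).symm y)) z *ᵥ fun a => v a) b =
      (Q i ((A.e i).symm z) *ᵥ ((u c • Chr K i z c) *ᵥ fun a => v a)) b -
      ((u c • Chr K i z c) *ᵥ (Q i ((A.e i).symm z) *ᵥ fun a => v a)) b := by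
    intro c
    rw [par_of_sa K hol sa i hz c, Matrix.sub_mulVec, Pi.sub_apply, mul_sub,
      ← Matrix.mulVec_mulVec, ← Matrix.mulVec_mulVec, Matrix.smul_mulVec, Matrix.smul_mulVec,
      Matrix.mulVec_smul, Pi.smul_apply, Pi.smul_apply, smul_eq_mul, smul_eq_mul]
  rw [Finset.sum_congr rfl fun c _ => h1 c, Finset.sum_sub_distrib]
  unfold ChrV
  rw [Pi.sub_apply, Matrix.sum_mulVec, Matrix.mulVec_sum, Finset.sum_apply, Matrix.sum_mulVec,
    Finset.sum_apply]

theorem rdP_mulVec {P : A.ι → M → Matrix (Fin n) (Fin n) ℂ} {i : A.ι} {z : Cn n} {v w : Cn n}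
    (h : rdP A P i z v = w) : (P i ((A.e i).symm z) *ᵥ fun a => v a) = fun a => w a := by
  funext b
  rw [← h]
  exact (toC_apply _ _ _).symm

/-- **a self-adjoint holomorphic projection field is a splitting** -/
def splOf (K : Kah A) (E : HEnd A) (idem : ∀ i, ∀ x ∈ (A.e i).source, E.E i x * E.E i x = E.E i x)
    (sa : ∀ i, ∀ x ∈ (A.e i).source, ((K.g i x)ᵀ * E.E i x).IsHermitian) : Spl A where
  P := E.E
  hol := E.hol
  idem := idem
  tr i j x hx := by
    rw [E.tr i j x hx, ← mul_assoc, ← mul_assoc, HolF_578.Jm_inv ⟨hx.2, hx.1⟩, one_mul]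
  int1 i z hz u v hu hv := by
    ext b
    have h1 := congrFun (rdP_par K E.hol sa i hz u v) b
    have h2 := congrFun (rdP_par K E.hol sa i hz v u) b
    rw [rdP_mulVec hv] at h1
    rw [rdP_mulVec hu] at h2
    rw [h1, h2, ChrV_symm K i hz (fun a => u a) (fun a => v a)]
  int2 i z hz u v hu hv := by
    ext b
    have h1 := congrFun (rdP_par K E.hol sa i hz u v) b
    have h2 := congrFun (rdP_par K E.hol sa i hz v u) b
    have h0 : (fun a => (0 : Cn n) a) = (0 : Fin n → ℂ) := rfl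
    rw [rdP_mulVec hv, h0, Matrix.mulVec_zero, _root_.sub_zero] at h1
    rw [rdP_mulVec hu, h0, Matrix.mulVec_zero, _root_.sub_zero] at h2
    rw [h1, h2, ChrV_symm K i hz (fun a => u a) (fun a => v a)]

@[simp] theorem splOf_P (K : Kah A) (E : HEnd A)
    (idem : ∀ i, ∀ x ∈ (A.e i).source, E.E i x * E.E i x = E.E i x)
    (sa : ∀ i, ∀ x ∈ (A.e i).source, ((K.g i x)ᵀ * E.E i x).IsHermitian) :
    (splOf K E idem sa).P = E.E := rfl

end

end Crest.Agent.R273.ParF_880
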