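import Crest.Agent.R273.ParE_880
import Crest.Agent.R273.BOne_484

/-!
# R273 (S0416), leaf PSPL (helper880), part G: all holomorphic forms at once

`M` compact connected, `K : Kah A` with semipositive Ricci form.

* `ctr_dv`   : `ctr β (dv K β) = |β|²`
* `pair`     : a nonzero `β ∈ Om A q` has `v ∈ NV 1 (volK K) q` with `ctr β v = 1` on all charts
* `noZ`      : helper484's `NoZ A q`; `om_fin` : `Om A q` is finite dimensional
* `allF A`   : the finite family of all holomorphic forms of positive degree (bases)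
* `ann_iff`  : common kernel of `allF A`
-/

set_option autoImplicit false
set_option linter.unusedSectionVars false

open Set Filter Topology Complex Matrix
open scoped ContDiff Matrix ComplexConjugate ComplexOrder

namespace Crest.Agent.R273.ParG_880

open Crest.Agent.R275 Crest.Agent.R275.Geo Crest.Agent.R275.Core144
open Crest.Agent.R273.Defs_333 Crest.Agent.R273.HM_333 Crest.Agent.R273.Kah_333
open Crest.Agent.R273.Vol_333 Crest.Agent.R273.NV_578 Crest.Agent.R273.HolF_578
open Crest.Agent.R273.Fock_243 Crest.Agent.R273.Calc_243 Crest.Agent.R273.Bkn_243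
open Crest.Agent.R273.Pos_243 Crest.Agent.R273.BKNa_37 Crest.Agent.R273.BOne_484
open Crest.Agent.R273.ParE_880

noncomputable section

variable {n : ℕ} {M : Type} [TopologicalSpace M] {A : Atl n M}

theorem ctr_dv (K : Kah A) (β : A.ι → M → FI n → ℂ) {i : A.ι} {x : M} (hx : x ∈ (A.e i).source) :
    ctr β (dv K β) i x = star (β i x) ⬝ᵥ (Gam (K.g i x)⁻¹ *ᵥ β i x) := by
  rw [ctr_eq, dotProduct_comm]
  exact star_Gam_dot (map_eq_transpose_of_isHermitian (K.pos i x hx).inv.isHermitian) _ _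

theorem ctr_dv_zero (K : Kah A) (β : A.ι → M → FI n → ℂ) {i : A.ι} {x : M}
    (hx : x ∈ (A.e i).source) (h : ctr β (dv K β) i x = 0) : β i x = 0 := by
  rw [ctr_dv K β hx] at h
  by_contra h1
  exact ((Gam_posDef (K.pos i x hx).inv).dotProduct_mulVec_pos h1).ne' h

section main

variable [T2Space M] [CompactSpace M] [ConnectedSpace M] (P : Part A) (K : Kah A)
    (ric : ∀ i, ∀ x ∈ (A.e i).source, (cur (volK K) i x).PosSemidef)
include P ric

/-- a nonzero holomorphic form has a null holomorphic polyvector with contraction one -/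
theorem pair {q : ℕ} {β : A.ι → M → FI n → ℂ} (hβ : β ∈ Om A q) (h0 : β ≠ 0) :
    ∃ v ∈ NV (1 : LB A) (volK K) q, ∀ i, ∀ x ∈ (A.e i).source, ctr β v i x = 1 := by
  have hv := dv_mem P K ric hβ
  obtain ⟨c, hc⟩ := ctr_const hβ hv.1
  have hc0 : c ≠ 0 := by
    intro h
    apply h0
    funext i x
    by_cases hx : x ∈ (A.e i).source
    · exact ctr_dv_zero K β hx (by rw [hc i x hx, h])
    · exact hβ.2.1 i x hx
  refine ⟨c⁻¹ • dv K β, Submodule.smul_mem _ _ hv, fun i x hx => ?_⟩
  rw [ctr_smul_right]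
  show c⁻¹ * ctr β (dv K β) i x = 1
  rw [hc i x hx, inv_mul_cancel₀ hc0]

theorem noZ (q : ℕ) : NoZ A q := by
  intro β hβ h0
  obtain ⟨v, _, hv⟩ := pair P K ric hβ h0
  exact ⟨v, hv⟩

theorem om_fin (q : ℕ) : FiniteDimensional ℂ (Om A q) := (noZ P K ric q).finite

end main

/-! ### the family of all forms -/

/-- bases of the spaces of holomorphic forms of degrees `1, …, n` -/
def allF (A : Atl n M) (hfin : ∀ q, FiniteDimensional ℂ (Om A q)) : Fam A :=
  haveI := hfin
  { κ := Σ q : Fin n, Fin (Module.finrank ℂ (Om A (q.1 + 1)))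
    fin := inferInstance
    deg := fun k => k.1.1 + 1
    β := fun k => (Module.finBasis ℂ (Om A (k.1.1 + 1)) k.2 : A.ι → M → FI n → ℂ)
    mem := fun k => (Module.finBasis ℂ (Om A (k.1.1 + 1)) k.2).2
    pos := fun _ => Nat.succ_ne_zero _ }

/-- holomorphic forms of degree `> n` vanish -/
theorem om_gt {q : ℕ} (hq : n < q) {β : A.ι → M → FI n → ℂ} (hβ : β ∈ Om A q) : β = 0 := by
  funext i x T
  refine hβ.2.2.1 i x T ?_
  have := Finset.card_le_univ T
  rw [Fintype.card_fin] at this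
  omega

/-- the tangent vector `u` (in the chart `i` at `x`) is annihilated by all holomorphic forms of
positive degree -/
def Ann (A : Atl n M) (i : A.ι) (x : M) (u : Fin n → ℂ) : Prop :=
  ∀ q, q ≠ 0 → ∀ β ∈ Om A q, iW u *ᵥ (β i x) = 0

theorem ann_iff (hfin : ∀ q, FiniteDimensional ℂ (Om A q)) (i : A.ι) (x : M) (u : Fin n → ℂ) :
    (∀ k, iW u *ᵥ (allF A hfin).β k i x = 0) ↔ Ann A i x u := by
  haveI := hfin
  constructor
  · intro h q hq β hβ
    by_cases hqn : n < q
    · rw [om_gt hqn hβ]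
      exact Matrix.mulVec_zero _
    obtain ⟨p, rfl⟩ : ∃ p, q = p + 1 := ⟨q - 1, by omega⟩
    have hp : p < n := by omega
    have h1 := (Module.finBasis ℂ (Om A (p + 1))).sum_repr ⟨β, hβ⟩
    have h2 : β = ∑ j, (Module.finBasis ℂ (Om A (p + 1))).repr ⟨β, hβ⟩ j •
        (Module.finBasis ℂ (Om A (p + 1)) j : A.ι → M → FI n → ℂ) := by
      have h3 := congrArg (Submodule.subtype (Om A (p + 1))) h1
      rw [map_sum] at h3
      simpa using h3.symm
    rw [h2, Finset.sum_apply, Finset.sum_apply, Matrix.mulVec_sum]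
    refine Finset.sum_eq_zero fun j _ => ?_
    have h4 := h ⟨⟨p, hp⟩, j⟩
    rw [Pi.smul_apply, Pi.smul_apply, Matrix.mulVec_smul]
    have h5 : iW u *ᵥ (Module.finBasis ℂ (Om A (p + 1)) j : A.ι → M → FI n → ℂ) i x = 0 := h4
    rw [h5, smul_zero]
  · intro h k
    exact h _ ((allF A hfin).pos k) _ ((allF A hfin).mem k)

/-- if all vectors are annihilated, there is no form -/
theorem om_zero_of_ann {i : A.ι} {x : M} (hx : x ∈ (A.e i).source) (h : ∀ u, Ann A i x u)
    (hN : ∀ q, NoZ A q) {q : ℕ} (hq : q ≠ 0) {β : A.ι → M → FI n → ℂ} (hβ : β ∈ Om A q) :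
    β = 0 := by
  by_contra h0
  refine (hN q).ne_zero hβ h0 hx ?_
  have h1 := Spl1_404.num_mulVec (β i x) (fun T hT => hβ.2.2.1 i x T hT)
  have h2 : ∑ j, (eW (ep j) *ᵥ (iW (ep j) *ᵥ β i x)) = 0 :=
    Finset.sum_eq_zero fun j _ => by rw [h (ep j) q hq β hβ, Matrix.mulVec_zero]
  rw [h2] at h1
  rcases smul_eq_zero.1 h1.symm with h3 | h3
  · exact absurd (Nat.cast_eq_zero.1 h3) hq
  · exact h3

end

end Crest.Agent.R273.ParG_880
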