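import Crest.Agent.R273.ParG_880
import Crest.Agent.R273.ParF_880
import Crest.Agent.R273.PB_835

/-!
# R273 (S0416), leaf PSPL (helper880), part H: pull-back of forms and invariance of the projection

* `pbO A B f β`, `pbO_mem` : pull-back of holomorphic forms along a `HolMap` (equal dimensions)
* `ann_push`    : `u` annihilated by all forms of `A` ⇒ `T u` annihilated by all forms of `B`
* `sa_unique`   : a self-adjoint idempotent matrix is determined by its kernel
* `inv_of_isom` : the self-adjoint projections with kernel `Ann` are intertwined by isometries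
-/

set_option autoImplicit false
set_option linter.unusedSectionVars false

open Set Filter Topology Complex Matrix
open scoped ContDiff Matrix ComplexConjugate ComplexOrder

namespace Crest.Agent.R273.ParH_880

open Crest.Agent.R275 Crest.Agent.R275.Geo Crest.Agent.R275.Core144
open Crest.Agent.R273.Defs_333 Crest.Agent.R273.HM_333 Crest.Agent.R273.Kah_333
open Crest.Agent.R273.HolF_578 Crest.Agent.R273.Map_835 Crest.Agent.R273.PB_835
open Crest.Agent.R273.Fock_243 Crest.Agent.R273.ParG_880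

noncomputable section

variable {n : ℕ} {M N : Type} [TopologicalSpace M] [TopologicalSpace N]
  {A : Atl n M} {B : Atl n N} {f : M → N}

/-! ### pull-back of forms -/

open Classical in
/-- pull-back of a form -/
def pbO (A : Atl n M) (B : Atl n N) (f : M → N) (β : B.ι → N → FI n → ℂ) :
    A.ι → M → FI n → ℂ := fun i x =>
  if x ∈ (A.e i).source then Gam (Jp A B f i (PB.ch B (f x)) x)ᵀ *ᵥ β (PB.ch B (f x)) (f x) else 0

theorem pbO_eq (h : HolMap A B f) {q : ℕ} {β : B.ι → N → FI n → ℂ} (hβ : β ∈ Om B q)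
    {i : A.ι} {j : B.ι} {x : M} (hx : x ∈ (A.e i).source) (hj : f x ∈ (B.e j).source) :
    pbO A B f β i x = Gam (Jp A B f i j x)ᵀ *ᵥ β j (f x) := by
  unfold pbO
  rw [if_pos hx]
  have hc := PB.ch_mem B (f x)
  have h1 : β (PB.ch B (f x)) (f x) = Gam (Jm B (PB.ch B (f x)) j (f x))ᵀ *ᵥ β j (f x) :=
    hβ.2.2.2 _ _ _ ⟨hc, hj⟩
  rw [h1, Matrix.mulVec_mulVec, ← Gam_mul, ← Matrix.transpose_mul, h.Jp_right hx ⟨hc, hj⟩]

theorem pbO_mem (h : HolMap A B f) {q : ℕ} {β : B.ι → N → FI n → ℂ} (hβ : β ∈ Om B q) :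
    pbO A B f β ∈ Om A q := by
  refine ⟨fun i T => ?_, fun i x hx => ?_, fun i x T hT => ?_, fun i j x hx => ?_⟩
  · refine holAt_of_local fun x hx _ => ?_
    obtain ⟨j, hj⟩ := B.cover (f x)
    refine ⟨f ⁻¹' (B.e j).source, (B.e j).open_source.preimage h.cont, hj, ?_⟩
    have h1 : HolAt A i (f ⁻¹' (B.e j).source)
        (fun x => ∑ S, Gam (Jp A B f i j x)ᵀ T S * β j (f x) S) := by
      refine HolAt.sum _ fun S _ => HolAt.mul ?_ ?_
      · by_cases hST : T.card = S.card
        · have h2 : (fun x => Gam (Jp A B f i j x)ᵀ T S) = fun x =>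
              ((Jp A B f i j x)ᵀ.submatrix (T.orderEmbOfFin rfl)
                (S.orderEmbOfFin hST.symm)).det := by
            funext x
            exact Gam_eq _ rfl hST.symm
          rw [h2]
          exact holAt_det fun a b => h.holAt_Jp i j _ _
        · have h2 : (fun x => Gam (Jp A B f i j x)ᵀ T S) = fun _ => 0 := by
            funext x
            exact Gam_of_ne _ hST
          rw [h2]
          exact holAt_const 0
      · have h2 := h.comp_holAt (i := i) (hβ.1 j S)
        rwa [univ_inter] at h2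
    refine h1.congr fun y hy hyj => ?_
    rw [pbO_eq h hβ hy hyj]
    rfl
  · unfold pbO
    rw [if_neg hx]
  · by_cases hx : x ∈ (A.e i).source
    · obtain ⟨j, hj⟩ := B.cover (f x)
      rw [pbO_eq h hβ hx hj, Matrix.mulVec, dotProduct]
      refine Finset.sum_eq_zero fun S _ => ?_
      by_cases hS : S.card = q
      · rw [Gam_of_ne _ (by rw [hS]; exact hT), zero_mul]
      · rw [hβ.2.2.1 j (f x) S hS, mul_zero]
    · unfold pbO
      rw [if_neg hx]
      rfl
  · obtain ⟨k, hk⟩ := B.cover (f x)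
    rw [pbO_eq h hβ hx.1 hk, pbO_eq h hβ hx.2 hk, Matrix.mulVec_mulVec, ← Gam_mul,
      ← Matrix.transpose_mul, h.Jp_left hx hk]

/-- push-forward of annihilated vectors -/
theorem ann_push (h : HolMap A B f) {i : A.ι} {j : B.ι} {x : M} (hx : x ∈ (A.e i).source)
    (hj : f x ∈ (B.e j).source) {Ti : Matrix (Fin n) (Fin n) ℂ}
    (hT : Jp A B f i j x * Ti = 1) {u : Fin n → ℂ} (hu : Ann A i x u) :
    Ann B j (f x) (Jp A B f i j x *ᵥ u) := by
  intro q hq β hβ
  have h1 := hu q hq _ (pbO_mem h hβ)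
  rw [pbO_eq h hβ hx hj, Matrix.mulVec_mulVec, iW_Gam, Matrix.transpose_transpose,
    ← Matrix.mulVec_mulVec] at h1
  have h2 : Gam Tiᵀ * Gam (Jp A B f i j x)ᵀ = 1 := by
    rw [← Gam_mul, ← Matrix.transpose_mul, hT, Matrix.transpose_one, Gam_one]
  have h3 := congrArg (fun w => Gam Tiᵀ *ᵥ w) h1
  simp only [Matrix.mulVec_zero] at h3
  rwa [Matrix.mulVec_mulVec, h2, Matrix.one_mulVec] at h3

/-! ### uniqueness of the self-adjoint projection -/

theorem sa_unique {κ R R' : Matrix (Fin n) (Fin n) ℂ} (hκ : κ.PosDef)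
    (hR : (κ * R).IsHermitian) (hR' : (κ * R').IsHermitian) (i1 : R * R = R) (i2 : R' * R' = R')
    (h : ∀ u, R *ᵥ u = 0 ↔ R' *ᵥ u = 0) : R = R' := by
  have k1 : R * R' = R := by
    have h1 : R * (1 - R') = 0 := by
      have h2 : ∀ u, (R * (1 - R')) *ᵥ u = 0 := by
        intro u
        rw [← Matrix.mulVec_mulVec]
        refine (h _).2 ?_
        rw [Matrix.mulVec_mulVec, mul_sub, mul_one, i2, sub_self, Matrix.zero_mulVec]
      ext a b
      have := congrFun (h2 (Pi.single b 1)) a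
      simpa using this
    rw [mul_sub, mul_one, sub_eq_zero] at h1
    exact h1.symm
  have k2 : R' * R = R' := by
    have h1 : R' * (1 - R) = 0 := by
      have h2 : ∀ u, (R' * (1 - R)) *ᵥ u = 0 := by
        intro u
        rw [← Matrix.mulVec_mulVec]
        refine (h _).1 ?_
        rw [Matrix.mulVec_mulVec, mul_sub, mul_one, i1, sub_self, Matrix.zero_mulVec]
      ext a b
      have := congrFun (h2 (Pi.single b 1)) a
      simpa using this
    rw [mul_sub, mul_one, sub_eq_zero] at h1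
    exact h1.symm
  -- adjoint
  have a1 : Rᴴ * κ = κ * R := by
    have := hR.eq
    rwa [Matrix.conjTranspose_mul, hκ.isHermitian.eq] at this
  have a2 : R'ᴴ * κ = κ * R' := by
    have := hR'.eq
    rwa [Matrix.conjTranspose_mul, hκ.isHermitian.eq] at this
  have k3 : κ * R = κ * R' := by
    calc κ * R = Rᴴ * κ := a1.symm
      _ = (R * R')ᴴ * κ := by rw [k1]
      _ = R'ᴴ * (Rᴴ * κ) := by rw [Matrix.conjTranspose_mul, mul_assoc]
      _ = R'ᴴ * κ * R := by rw [a1, mul_assoc]
      _ = κ * (R' * R) := by rw [a2, mul_assoc]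
      _ = κ * R' := by rw [k2]
  have hi : κ⁻¹ * κ = 1 := Matrix.nonsing_inv_mul _ hκ.det_pos.ne'.isUnit
  calc R = κ⁻¹ * (κ * R) := by rw [← mul_assoc, hi, one_mul]
    _ = R' := by rw [k3, ← mul_assoc, hi, one_mul]

/-- **invariance under isometries** -/
theorem inv_of_isom {g : N → M} (hf : HolMap A B f) (hg : HolMap B A g) (hgf : ∀ x, g (f x) = x)
    {K : Kah A} {K' : Kah B} {i : A.ι} {j : B.ι} {x : M}
    (hx : x ∈ (A.e i).source) (hj : f x ∈ (B.e j).source)
    (hK : K.g i x = (Jp A B f i j x)ᵀ * K'.g j (f x) * (Jp A B f i j x).map conj)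
    {Q Q' : Matrix (Fin n) (Fin n) ℂ} (hQ : ((K.g i x)ᵀ * Q).IsHermitian)
    (hQ' : ((K'.g j (f x))ᵀ * Q').IsHermitian) (i1 : Q * Q = Q) (i2 : Q' * Q' = Q')
    (k1 : ∀ u, Q *ᵥ u = 0 ↔ Ann A i x u) (k2 : ∀ u, Q' *ᵥ u = 0 ↔ Ann B j (f x) u) :
    Jp A B f i j x * Q = Q' * Jp A B f i j x := by
  have hgx : g (f x) ∈ (A.e i).source := by rw [hgf]; exact hx
  set T := Jp A B f i j x with hT
  set S := Jp B A g j i (f x) with hS
  have e1 : S * T = 1 := by
    have h1 := Jp_comp hg hf hx hj hgx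
    rw [h1]
    have h2 : (fun x => g (f x)) = id := funext hgf
    rw [h2]
    have h3 : Jp A A id i i x = Jm A i i x := rfl
    rw [h3, J_self i hx]
  have e2 : T * S = 1 := mul_eq_one_comm.1 e1
  have p1 : (K'.g j (f x))ᵀ.PosDef := (K'.pos j _ hj).transpose
  have hκ : (K.g i x)ᵀ = Tᴴ * (K'.g j (f x))ᵀ * T := by
    rw [hK, Matrix.transpose_mul, Matrix.transpose_mul, Matrix.transpose_transpose,
      Matrix.mul_assoc]
    rfl
  have hR : ((K'.g j (f x))ᵀ * (T * Q * S)).IsHermitian := by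
    have h1 : (K'.g j (f x))ᵀ * (T * Q * S) = Sᴴ * ((K.g i x)ᵀ * Q) * S := by
      have h2 : Sᴴ * Tᴴ = 1 := by
        rw [← Matrix.conjTranspose_mul, e2, Matrix.conjTranspose_one]
      rw [hκ]
      calc (K'.g j (f x))ᵀ * (T * Q * S) = (Sᴴ * Tᴴ) * (K'.g j (f x))ᵀ * (T * Q * S) := by
            rw [h2, one_mul]
        _ = _ := by simp only [mul_assoc]
    rw [h1]
    exact Matrix.isHermitian_conjTranspose_mul_mul S hQ
  have i3 : (T * Q * S) * (T * Q * S) = T * Q * S := by
    calc (T * Q * S) * (T * Q * S) = T * Q * (S * T) * (Q * S) := by simp only [mul_assoc]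
      _ = T * (Q * Q) * S := by rw [e1, mul_one]; simp only [mul_assoc]
      _ = T * Q * S := by rw [i1]
  have hker : ∀ u, (T * Q * S) *ᵥ u = 0 ↔ Q' *ᵥ u = 0 := by
    intro u
    have h1 : (T * Q * S) *ᵥ u = 0 ↔ Q *ᵥ (S *ᵥ u) = 0 := by
      constructor
      · intro h
        have h2 := congrArg (fun w => S *ᵥ w) h
        simp only [Matrix.mulVec_zero] at h2
        rwa [Matrix.mulVec_mulVec, ← mul_assoc, ← mul_assoc, e1, one_mul,
          ← Matrix.mulVec_mulVec] at h2
      · intro h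
        rw [← Matrix.mulVec_mulVec, ← Matrix.mulVec_mulVec, h, Matrix.mulVec_zero]
    rw [h1, k1, k2]
    constructor
    · intro h
      have h2 := ann_push hf hx hj e2 h
      rwa [← hT, Matrix.mulVec_mulVec, e2, Matrix.one_mulVec] at h2
    · intro h
      have h2 := ann_push hg hj hgx e1 h
      rwa [← hS, hgf] at h2
  have h1 := sa_unique p1 hR hQ' i3 i2 hker
  rw [← h1, mul_assoc, mul_assoc, e1, mul_one]

end

end Crest.Agent.R273.ParH_880
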