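import Crest.Agent.R273.NV_578

/-!
# R273 (S0416), helper61: the frozen black box of Part A

`PartA` : for a compact connected projective manifold with a semipositive metric on `K⁻¹` and a flat
unitary twist `T`, if `(K⁻¹ T)^k` carries nonzero null holomorphic `q`-vectors for infinitely many
`k`, then some positive power of `K⁻¹ T` has a nonzero holomorphic section.
-/

set_option autoImplicit false
set_option linter.unusedSectionVars false

open Set Filter Topology Complex
open scoped ContDiff Matrix ComplexConjugate Manifold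

namespace Crest.Agent.R273.PartA_61

open Crest.Agent.R275.Geo Crest.Agent.R275.Core144 Crest.Agent.R275.GC293
open Crest.Agent.R273.Defs_333 Crest.Agent.R273.Kah_333 Crest.Agent.R273.NV_578

noncomputable section

/-- the conclusion of Part A for one manifold, all flat twists and all degrees -/
def PartAt {n : ℕ} {M : Type} [TopologicalSpace M] (A : Atl n M) (h : HM (KB A)⁻¹) : Prop :=
  ∀ (T : LB A) (t : HM T), (∀ i, ∀ x ∈ (A.e i).source, cur t i x = 0) →
    ∀ q : ℕ, {k : ℕ | NV (((KB A)⁻¹ * T) ^ k) h q ≠ ⊥}.Infinite →
      ∃ m : ℕ, 0 < m ∧ HasSec (((KB A)⁻¹ * T) ^ m)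

/-- **Part A**, frozen -/
def PartA : Prop :=
  ∀ (n : ℕ) (M : Type) [TopologicalSpace M] [T2Space M] [CompactSpace M] [ConnectedSpace M]
    (A : Atl n M) [Finite A.ι], GoodA A → Nonempty (Part A) → ProjD A →
    ∀ h : HM (KB A)⁻¹, h.Semipos → PartAt A h

end

end Crest.Agent.R273.PartA_61
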