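import Crest.Agent.R271.W_792
import Crest.Agent.R271.T7a_297
import Crest.Agent.R266.Osgood

/-!
# R273, the pencil lemma (helper93)

On a Riemann domain `M` (formalism of R271), `c_0, c_1, ...` holomorphic, `B_r = ∑_{j ≤ r} |c_j|²`,
`P_r = log B_r`.  For a measure `ν = e^{-V} μ` the sequence

`0 → A(ν/B_r) → A(ν/(B_r B_{r+1})) × A(ν/B_{r+1}) → A(ν/B_{r+1}²) → 0`

is exact as soon as `∂̄` is solvable in `L²(ν/B_r)` for forms bounded by `Levi P_{r+1}`.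
-/

set_option autoImplicit false
set_option linter.unusedSectionVars false

noncomputable section

open Set Filter Topology MeasureTheory ComplexConjugate
open scoped ENNReal

namespace Crest.Agent.R273.Pen_93

open Crest.Agent.R271.Ho51
open Crest.Agent.R271.W792 (lev lev_lg nS nS_nonneg sm_nS nT nT_nonneg nA nA_le lg sm_lg Levi_eq_lev
  D_wirtinger D_nS)

variable {n : ℕ} {M : Type*} [TopologicalSpace M] [RDom n M]

/-! ### holomorphic functions -/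

theorem w_hol {F : M → ℂ} (hF : Hol F) : Crest.Agent.R271.W792.Hol F := by
  refine ⟨fun x => ?_, fun x w => ?_⟩
  · exact (((Crest.Agent.R266.SCV.contDiffOn_omega_of_differentiableOn (ch x).open_target
      (hF (ch x) (isCh_ch x))).restrict_scalars ℝ).of_le le_top).contDiffAt
        ((ch x).open_target.mem_nhds ((isCh_ch x).cp_mem (mem_ch x)))
  · have h1 : DifferentiableAt ℂ (F ∘ (ch x).symm) (cp x) :=
      (hF (ch x) (isCh_ch x)).differentiableAt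
        ((ch x).open_target.mem_nhds ((isCh_ch x).cp_mem (mem_ch x)))
    rw [D, h1.fderiv_restrictScalars ℝ]
    simp

theorem hol_add {F G : M → ℂ} (hF : Hol F) (hG : Hol G) : Hol (fun x => F x + G x) :=
  fun e he => (hF e he).add (hG e he)

theorem hol_sub {F G : M → ℂ} (hF : Hol F) (hG : Hol G) : Hol (fun x => F x - G x) :=
  fun e he => (hF e he).sub (hG e he)

theorem hol_mul {F G : M → ℂ} (hF : Hol F) (hG : Hol G) : Hol (fun x => F x * G x) :=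
  fun e he => (hF e he).mul (hG e he)

theorem hol_neg {F : M → ℂ} (hF : Hol F) : Hol (fun x => -F x) :=
  fun e he => (hF e he).neg

theorem hol_const (c : ℂ) : Hol (fun _ : M => c) := fun _ _ => differentiableOn_const c

theorem hol_inv {F : M → ℂ} (hF : Hol F) (h0 : ∀ x, F x ≠ 0) : Hol (fun x => (F x)⁻¹) :=
  fun e he => (hF e he).inv fun _ _ => h0 _

theorem hol_cont {F : M → ℂ} (hF : Hol F) : Continuous F :=
  Crest.Agent.R271.T7a297.Hol.continuous hF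

theorem cont_nsq {F : M → ℂ} (hF : Continuous F) : Continuous fun x => ‖F x‖ ^ 2 :=
  (hF.norm).pow 2

/-! ### `∂̄` as a function of the direction -/

/-- `∂̄ g (w)` -/
def dbw (g : M → ℂ) (x : M) (w : Fin n → ℂ) : ℂ :=
  (1 / 2 : ℂ) * (D g x w + Complex.I * D g x (Complex.I • w))

theorem dbw_eq {g : M → ℂ} (x : M) (w : Fin n → ℂ) :
    ∑ j, db j g x * conj (w j) = dbw g x w := by
  unfold dbw
  rw [D_wirtinger g x w, D_wirtinger g x (Complex.I • w)]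
  simp only [Pi.smul_apply, smul_eq_mul, map_mul, Complex.conj_I]
  rw [Finset.mul_sum, ← Finset.sum_add_distrib, Finset.mul_sum]
  refine Finset.sum_congr rfl fun j _ => ?_
  ring_nf
  simp only [Complex.I_sq]
  ring

theorem dbw_hol {f : M → ℂ} (hf : Hol f) (x : M) (w : Fin n → ℂ) : dbw f x w = 0 := by
  unfold dbw
  rw [(w_hol hf).cl x w, ← mul_assoc, Complex.I_mul_I]
  ring

theorem dbw_mul {f g : M → ℂ} (hf : Sm f) (hg : Sm g) (x : M) (w : Fin n → ℂ) :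
    dbw (fun x => f x * g x) x w = dbw f x w * g x + f x * dbw g x w := by
  unfold dbw
  rw [D_mul hf hg, D_mul hf hg]
  ring

theorem dbw_conj {f : M → ℂ} (hf : Hol f) (x : M) (w : Fin n → ℂ) :
    dbw (fun x => conj (f x)) x w = conj (D f x w) := by
  unfold dbw
  rw [Crest.Agent.R271.Ho51.D_conj (w_hol hf).sm, Crest.Agent.R271.Ho51.D_conj (w_hol hf).sm,
    (w_hol hf).cl x w, map_mul, Complex.conj_I]
  linear_combination (-(1 / 2 : ℂ) * conj (D f x w)) * Complex.I_mul_I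

/-! ### the families -/

/-- `c_0, ..., c_r` -/
def fam (c : ℕ → M → ℂ) (r : ℕ) (j : Fin (r + 1)) : M → ℂ := c j.val

theorem hfam {c : ℕ → M → ℂ} (hc : ∀ j, Hol (c j)) (r : ℕ) (j : Fin (r + 1)) :
    Crest.Agent.R271.W792.Hol (fam c r j) := w_hol (hc j.val)

/-- `B_r = ∑_{j ≤ r} |c_j|²` -/
def Bf (c : ℕ → M → ℂ) (r : ℕ) (x : M) : ℝ := nS (fam c r) x

/-- `P_r = log B_r` -/
def Pf (c : ℕ → M → ℂ) (r : ℕ) (x : M) : ℝ := Real.log (Bf c r x)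

theorem Bf_succ (c : ℕ → M → ℂ) (r : ℕ) (x : M) :
    Bf c (r + 1) x = Bf c r x + ‖c (r + 1) x‖ ^ 2 := by
  unfold Bf nS
  rw [Fin.sum_univ_castSucc]
  rfl

theorem Bf_zero (c : ℕ → M → ℂ) (x : M) : Bf c 0 x = ‖c 0 x‖ ^ 2 := by
  unfold Bf nS
  simp [fam]

theorem Bf_pos {c : ℕ → M → ℂ} (h0 : ∀ x, c 0 x ≠ 0) (r : ℕ) (x : M) : 0 < Bf c r x := by
  induction r with
  | zero => rw [Bf_zero]; have := norm_pos_iff.2 (h0 x); positivity
  | succ r ih => rw [Bf_succ]; positivity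

theorem Bf_sm {c : ℕ → M → ℂ} (hc : ∀ j, Hol (c j)) (r : ℕ) : Sm (Bf c r) :=
  sm_nS fun j => (hfam hc r j).sm

theorem Bf_cont {c : ℕ → M → ℂ} (hc : ∀ j, Hol (c j)) (r : ℕ) : Continuous (Bf c r) :=
  (Bf_sm hc r).continuous

theorem Pf_eq_lg (c : ℕ → M → ℂ) (r : ℕ) : Pf c r = lg (fam c r) 0 := by
  funext x
  simp [Pf, Bf, lg]

theorem Pf_sm {c : ℕ → M → ℂ} (hc : ∀ j, Hol (c j)) (h0 : ∀ x, c 0 x ≠ 0) (r : ℕ) :
    Sm (Pf c r) := by
  rw [Pf_eq_lg]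
  refine sm_lg (fun j => (hfam hc r j).sm) fun x => ?_
  rw [add_zero]
  exact Bf_pos h0 r x

theorem Levi_Pf_nonneg {c : ℕ → M → ℂ} (hc : ∀ j, Hol (c j)) (h0 : ∀ x, c 0 x ≠ 0) (r : ℕ)
    (x : M) (w : Fin n → ℂ) : 0 ≤ Levi (Pf c r) x w := by
  rw [Levi_eq_lev (Pf_sm hc h0 r), Pf_eq_lg]
  refine Crest.Agent.R271.W792.lev_lg_nonneg (hfam hc r) le_rfl (fun x => ?_) x w
  rw [add_zero]
  exact Bf_pos h0 r x

/-- `A ∂c(w) - c ∂A(w)`, `A = B_r`, `c = c_{r+1}` -/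
def wr (c : ℕ → M → ℂ) (r : ℕ) (x : M) (w : Fin n → ℂ) : ℂ :=
  (Bf c r x : ℂ) * D (c (r + 1)) x w - c (r + 1) x * nA (fam c r) x w

theorem alg_id (A T s : ℝ) (c c' N : ℂ) (hs : s = ‖c‖ ^ 2) (hN : ‖N‖ ^ 2 ≤ A * T) (hA : 0 < A) :
    ‖(A : ℂ) * c' - c * N‖ ^ 2 ≤ A * ((T + ‖c'‖ ^ 2) * (A + s) - ‖N + c' * conj c‖ ^ 2) := by
  have key : A * ((T + ‖c'‖ ^ 2) * (A + s) - ‖N + c' * conj c‖ ^ 2) - ‖(A : ℂ) * c' - c * N‖ ^ 2 =
      (A * T - ‖N‖ ^ 2) * (A + ‖c‖ ^ 2) := by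
    subst hs
    simp only [Complex.sq_norm, Complex.normSq_apply, Complex.add_re, Complex.add_im,
      Complex.sub_re, Complex.sub_im, Complex.mul_re, Complex.mul_im, Complex.conj_re,
      Complex.conj_im, Complex.ofReal_re, Complex.ofReal_im]
    ring
  have h1 : 0 ≤ (A * T - ‖N‖ ^ 2) * (A + ‖c‖ ^ 2) := mul_nonneg (by linarith) (by positivity)
  linarith

/-- **key inequality** -/
theorem lev_pen {c : ℕ → M → ℂ} (hc : ∀ j, Hol (c j)) (h0 : ∀ x, c 0 x ≠ 0) (r : ℕ) (x : M)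
    (w : Fin n → ℂ) :
    ‖wr c r x w‖ ^ 2 ≤ Bf c r x * Bf c (r + 1) x ^ 2 * Levi (Pf c (r + 1)) x w := by
  have hp : ∀ x, 0 < nS (fam c (r + 1)) x + 0 := fun x => by
    rw [add_zero]; exact Bf_pos h0 (r + 1) x
  have hB : 0 < Bf c (r + 1) x := Bf_pos h0 (r + 1) x
  have hA : 0 < Bf c r x := Bf_pos h0 r x
  rw [Levi_eq_lev (Pf_sm hc h0 (r + 1)), Pf_eq_lg, lev_lg (hfam hc (r + 1)) hp x w, add_zero]
  have hT : nT (fam c (r + 1)) x w =
      nT (fam c r) x w + ‖D (c (r + 1)) x w‖ ^ 2 := by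
    unfold nT
    rw [Fin.sum_univ_castSucc]
    rfl
  have hN : nA (fam c (r + 1)) x w =
      nA (fam c r) x w + D (c (r + 1)) x w * conj (c (r + 1) x) := by
    unfold nA
    rw [Fin.sum_univ_castSucc]
    rfl
  have hBB : nS (fam c (r + 1)) x = Bf c (r + 1) x := rfl
  rw [hBB, hT, hN]
  have e1 : Bf c r x * Bf c (r + 1) x ^ 2 *
      ((nT (fam c r) x w + ‖D (c (r + 1)) x w‖ ^ 2) / Bf c (r + 1) x -
        ‖nA (fam c r) x w + D (c (r + 1)) x w * conj (c (r + 1) x)‖ ^ 2 /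
          Bf c (r + 1) x ^ 2) =
      Bf c r x * ((nT (fam c r) x w + ‖D (c (r + 1)) x w‖ ^ 2) *
        (Bf c r x + ‖c (r + 1) x‖ ^ 2) -
        ‖nA (fam c r) x w + D (c (r + 1)) x w * conj (c (r + 1) x)‖ ^ 2) := by
    rw [← Bf_succ]
    field_simp
  rw [e1]
  exact alg_id _ _ _ _ _ _ rfl (nA_le _ x w) hA

/-- the correction `g = f conj(c) / B` -/
def gf (c : ℕ → M → ℂ) (r : ℕ) (f : M → ℂ) (x : M) : ℂ :=
  f x * (conj (c (r + 1) x) * (((Bf c (r + 1) x)⁻¹ : ℝ) : ℂ))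

theorem Binv_sm {c : ℕ → M → ℂ} (hc : ∀ j, Hol (c j)) (h0 : ∀ x, c 0 x ≠ 0) (r : ℕ) :
    Sm (fun x => (Bf c r x)⁻¹) :=
  Sm.comp_at (g := fun t : ℝ => t⁻¹) (Bf_sm hc r) fun x =>
    contDiffAt_inv ℝ (Bf_pos h0 r x).ne'

theorem gf_sm {c : ℕ → M → ℂ} (hc : ∀ j, Hol (c j)) (h0 : ∀ x, c 0 x ≠ 0) (r : ℕ) {f : M → ℂ}
    (hf : Hol f) : Sm (gf c r f) :=
  (w_hol hf).sm.mul ((w_hol (hc (r + 1))).sm.conj.mul (Binv_sm hc h0 (r + 1)).ofReal)

theorem dbw_Binv {c : ℕ → M → ℂ} (hc : ∀ j, Hol (c j)) (h0 : ∀ x, c 0 x ≠ 0) (r : ℕ) (x : M)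
    (w : Fin n → ℂ) :
    dbw (fun x => (((Bf c r x)⁻¹ : ℝ) : ℂ)) x w =
      -(((Bf c r x) ^ 2)⁻¹ : ℝ) * conj (nA (fam c r) x w) := by
  have hd : HasDerivAt (fun t : ℝ => t⁻¹) (-((Bf c r x) ^ 2)⁻¹) (Bf c r x) :=
    hasDerivAt_inv (Bf_pos h0 r x).ne'
  have h1 : ∀ v, D (fun x => (((Bf c r x)⁻¹ : ℝ) : ℂ)) x v =
      ((-((Bf c r x) ^ 2)⁻¹ * (2 * (nA (fam c r) x v).re) : ℝ) : ℂ) := by
    intro v
    have h2 := D_ofReal (Binv_sm hc h0 r) x v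
    have h3 := D_comp_real (Bf_sm hc r) x hd v
    have h4 : D (Bf c r) x v = 2 * (nA (fam c r) x v).re :=
      D_nS (fun j => (hfam hc r j).sm) x v
    rw [h2, h3, h4]
  have hI : nA (fam c r) x (Complex.I • w) =
      Complex.I * nA (fam c r) x w := by
    unfold nA
    rw [Finset.mul_sum]
    refine Finset.sum_congr rfl fun j _ => ?_
    rw [(hfam hc r j).cl]; ring
  unfold dbw
  rw [h1, h1, hI]
  set N := nA (fam c r) x w with hN
  have h5 : (Complex.I * N).re = -N.im := by simp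
  rw [h5]
  apply Complex.ext
  · simp only [Complex.mul_re, Complex.add_re, Complex.add_im, Complex.ofReal_re, Complex.ofReal_im,
      Complex.I_re, Complex.I_im, Complex.neg_re, Complex.neg_im, Complex.conj_re,
      Complex.conj_im, Complex.mul_im, Complex.one_re, Complex.one_im, Complex.div_re,
      Complex.div_im]
    norm_num
    ring
  · simp only [Complex.mul_re, Complex.add_re, Complex.add_im, Complex.ofReal_re, Complex.ofReal_im,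
      Complex.I_re, Complex.I_im, Complex.neg_re, Complex.neg_im, Complex.conj_re,
      Complex.conj_im, Complex.mul_im, Complex.one_re, Complex.one_im, Complex.div_re,
      Complex.div_im]
    norm_num
    ring

theorem dbw_gf {c : ℕ → M → ℂ} (hc : ∀ j, Hol (c j)) (h0 : ∀ x, c 0 x ≠ 0) (r : ℕ) {f : M → ℂ}
    (hf : Hol f) (x : M) (w : Fin n → ℂ) :
    dbw (gf c r f) x w = f x * (((Bf c (r + 1) x ^ 2)⁻¹ : ℝ) : ℂ) * conj (wr c r x w) := by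
  have hcs := (w_hol (hc (r + 1))).sm
  have h1 : dbw (gf c r f) x w = _ :=
    dbw_mul (w_hol hf).sm (hcs.conj.mul (Binv_sm hc h0 (r + 1)).ofReal) x w
  rw [h1, dbw_hol hf, dbw_mul hcs.conj (Binv_sm hc h0 (r + 1)).ofReal, dbw_conj (hc (r + 1)),
    dbw_Binv hc h0]
  have hN : nA (fam c (r + 1)) x w =
      nA (fam c r) x w + D (c (r + 1)) x w * conj (c (r + 1) x) := by
    unfold nA
    rw [Fin.sum_univ_castSucc]
    rfl
  have hB : (Bf c (r + 1) x : ℂ) ≠ 0 := by exact_mod_cast (Bf_pos h0 (r + 1) x).ne'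
  have hBs : (Bf c (r + 1) x : ℂ) = (Bf c r x : ℂ) + c (r + 1) x * conj (c (r + 1) x) := by
    rw [Bf_succ, Complex.mul_conj, Complex.normSq_eq_norm_sq]
    push_cast
    rfl
  rw [hN]
  unfold wr
  simp only [map_sub, map_mul, map_add, Complex.conj_conj, Complex.conj_ofReal]
  push_cast
  field_simp
  rw [hBs]
  ring

/-- the bound of `∂̄ g` -/
theorem gf_bound {c : ℕ → M → ℂ} (hc : ∀ j, Hol (c j)) (h0 : ∀ x, c 0 x ≠ 0) (r : ℕ) {f : M → ℂ}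
    (hf : Hol f) (x : M) (w : Fin n → ℂ) :
    ‖∑ j, db j (gf c r f) x * conj (w j)‖ ^ 2 ≤
      (‖f x‖ ^ 2 * Bf c r x * (Bf c (r + 1) x ^ 2)⁻¹) * Levi (Pf c (r + 1)) x w := by
  rw [dbw_eq, dbw_gf hc h0 r hf, norm_mul, norm_mul, Complex.norm_conj, Complex.norm_real,
    Real.norm_eq_abs, mul_pow, mul_pow, sq_abs]
  have h1 := lev_pen hc h0 r x w
  have hB : 0 < Bf c (r + 1) x := Bf_pos h0 (r + 1) x
  calc ‖f x‖ ^ 2 * (Bf c (r + 1) x ^ 2)⁻¹ ^ 2 * ‖wr c r x w‖ ^ 2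
      ≤ ‖f x‖ ^ 2 * (Bf c (r + 1) x ^ 2)⁻¹ ^ 2 *
        (Bf c r x * Bf c (r + 1) x ^ 2 * Levi (Pf c (r + 1)) x w) := by gcongr
    _ = _ := by field_simp

/-! ### the spaces -/

variable [MeasurableSpace M] [BorelSpace M]

/-- square integrable holomorphic functions -/
def A2 (ν : Measure M) : Submodule ℂ (M → ℂ) where
  carrier := {f | Hol f ∧ ∫⁻ x, ENNReal.ofReal (‖f x‖ ^ 2) ∂ν < ⊤}
  add_mem' := by
    rintro f g ⟨hf, hf2⟩ ⟨hg, hg2⟩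
    refine ⟨hol_add hf hg, ?_⟩
    have hm : Measurable fun x => 2 * ENNReal.ofReal (‖f x‖ ^ 2) :=
      (((hol_cont hf).norm.pow 2).measurable.ennreal_ofReal).const_mul _
    have h1 : ∀ x, ENNReal.ofReal (‖(f + g) x‖ ^ 2) ≤
        2 * ENNReal.ofReal (‖f x‖ ^ 2) + 2 * ENNReal.ofReal (‖g x‖ ^ 2) := by
      intro x
      have h2 : (2 : ℝ≥0∞) = ENNReal.ofReal 2 := by simp
      rw [h2, ← ENNReal.ofReal_mul (by norm_num), ← ENNReal.ofReal_mul (by norm_num),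
        ← ENNReal.ofReal_add (by positivity) (by positivity)]
      apply ENNReal.ofReal_le_ofReal
      have h3 : ‖(f + g) x‖ ≤ ‖f x‖ + ‖g x‖ := norm_add_le _ _
      nlinarith [norm_nonneg (f x), norm_nonneg (g x), norm_nonneg ((f + g) x),
        sq_nonneg (‖f x‖ - ‖g x‖)]
    refine lt_of_le_of_lt (lintegral_mono h1) ?_
    rw [lintegral_add_left hm, lintegral_const_mul' _ _ (by simp), lintegral_const_mul' _ _ (by simp)]
    exact ENNReal.add_lt_top.2 ⟨ENNReal.mul_lt_top (by simp) hf2, ENNReal.mul_lt_top (by simp) hg2⟩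
  zero_mem' := by
    refine ⟨hol_const 0, ?_⟩
    simp
  smul_mem' := by
    rintro a f ⟨hf, hf2⟩
    refine ⟨hol_mul (hol_const a) hf, ?_⟩
    have h1 : ∀ x, ENNReal.ofReal (‖(a • f) x‖ ^ 2) =
        ENNReal.ofReal (‖a‖ ^ 2) * ENNReal.ofReal (‖f x‖ ^ 2) := by
      intro x
      rw [← ENNReal.ofReal_mul (by positivity)]
      simp [mul_pow]
    simp only [h1]
    rw [lintegral_const_mul' _ _ ENNReal.ofReal_ne_top]
    exact ENNReal.mul_lt_top ENNReal.ofReal_lt_top hf2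

theorem mem_A2 {ν : Measure M} {f : M → ℂ} :
    f ∈ A2 ν ↔ Hol f ∧ ∫⁻ x, ENNReal.ofReal (‖f x‖ ^ 2) ∂ν < ⊤ := Iff.rfl

/-- the measure `W ν` -/
def wm (ν : Measure M) (W : M → ℝ) : Measure M := ν.withDensity fun x => ENNReal.ofReal (W x)

theorem lintegral_wm {ν : Measure M} {W : M → ℝ} (hW : Measurable W) {g : M → ℝ}
    (hg : Measurable g) (hg0 : ∀ x, 0 ≤ g x) :
    ∫⁻ x, ENNReal.ofReal (g x) ∂(wm ν W) = ∫⁻ x, ENNReal.ofReal (g x * W x) ∂ν := by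
  unfold wm
  rw [lintegral_withDensity_eq_lintegral_mul _ hW.ennreal_ofReal hg.ennreal_ofReal]
  refine lintegral_congr fun x => ?_
  rw [Pi.mul_apply, mul_comm, ← ENNReal.ofReal_mul (hg0 x)]

theorem mem_A2_wm {ν : Measure M} {W : M → ℝ} (hW : Measurable W) {f : M → ℂ} :
    f ∈ A2 (wm ν W) ↔ Hol f ∧ ∫⁻ x, ENNReal.ofReal (‖f x‖ ^ 2 * W x) ∂ν < ⊤ := by
  rw [mem_A2]
  constructor
  · rintro ⟨h1, h2⟩
    exact ⟨h1, by rwa [lintegral_wm hW (cont_nsq (hol_cont h1)).measurable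
      (fun x => by positivity)] at h2⟩
  · rintro ⟨h1, h2⟩
    exact ⟨h1, by rwa [lintegral_wm hW (cont_nsq (hol_cont h1)).measurable
      (fun x => by positivity)]⟩

theorem wm_wm {ν : Measure M} {W W' : M → ℝ} (hW : Measurable W) (hW' : Measurable W')
    (hW0 : ∀ x, 0 ≤ W x) : wm (wm ν W) W' = wm ν (fun x => W x * W' x) := by
  unfold wm
  rw [← withDensity_mul _ hW.ennreal_ofReal hW'.ennreal_ofReal]
  congr 1
  funext x
  rw [Pi.mul_apply, ENNReal.ofReal_mul (hW0 x)]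

/-- comparison of weights -/
theorem A2_le {ν : Measure M} {W W' : M → ℝ} (hW : Measurable W) (hW' : Measurable W') {C : ℝ}
    (hC : ∀ x, W' x ≤ C * W x) (hC0 : 0 ≤ C) : A2 (wm ν W) ≤ A2 (wm ν W') := by
  intro f hf
  rw [mem_A2_wm hW] at hf
  rw [mem_A2_wm hW']
  refine ⟨hf.1, lt_of_le_of_lt (lintegral_mono (g := fun x => ENNReal.ofReal C *
    ENNReal.ofReal (‖f x‖ ^ 2 * W x)) fun x => ?_) ?_⟩
  · show _ ≤ ENNReal.ofReal C * ENNReal.ofReal (‖f x‖ ^ 2 * W x)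
    rw [← ENNReal.ofReal_mul hC0]
    apply ENNReal.ofReal_le_ofReal
    have := mul_le_mul_of_nonneg_left (hC x) (sq_nonneg ‖f x‖)
    linarith
  · rw [lintegral_const_mul' _ _ ENNReal.ofReal_ne_top]
    exact ENNReal.mul_lt_top ENNReal.ofReal_lt_top hf.2

/-- solvability of `∂̄` in `L²(ν)` for forms bounded by `Levi P` -/
def Solv (ν : Measure M) (P : M → ℝ) : Prop :=
  ∀ g : M → ℂ, Sm g → ∀ kap : M → ℝ, Continuous kap → (∀ x, 0 ≤ kap x) →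
    (∀ x w, ‖∑ j, db j g x * conj (w j)‖ ^ 2 ≤ kap x * Levi P x w) →
    ∫⁻ x, ENNReal.ofReal (kap x) ∂ν < ⊤ →
    ∃ F : M → ℂ, Hol F ∧ ∫⁻ x, ENNReal.ofReal (‖F x - g x‖ ^ 2) ∂ν < ⊤

theorem lint_add_lt {ν : Measure M} {u a b : M → ℝ} (ha : Measurable a)
    (ha0 : ∀ x, 0 ≤ a x) (hb0 : ∀ x, 0 ≤ b x) (h : ∀ x, u x ≤ a x + b x)
    (h1 : ∫⁻ x, ENNReal.ofReal (a x) ∂ν < ⊤) (h2 : ∫⁻ x, ENNReal.ofReal (b x) ∂ν < ⊤) :
    ∫⁻ x, ENNReal.ofReal (u x) ∂ν < ⊤ := by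
  refine lt_of_le_of_lt (lintegral_mono (g := fun x => ENNReal.ofReal (a x) +
    ENNReal.ofReal (b x)) fun x => ?_) ?_
  · show _ ≤ ENNReal.ofReal (a x) + ENNReal.ofReal (b x)
    rw [← ENNReal.ofReal_add (ha0 x) (hb0 x)]
    exact ENNReal.ofReal_le_ofReal (h x)
  · rw [lintegral_add_left ha.ennreal_ofReal]
    exact ENNReal.add_lt_top.2 ⟨h1, h2⟩

theorem lint_le_lt {ν : Measure M} {u a : M → ℝ} {C : ℝ} (hC : 0 ≤ C) (h : ∀ x, u x ≤ C * a x)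
    (h1 : ∫⁻ x, ENNReal.ofReal (a x) ∂ν < ⊤) : ∫⁻ x, ENNReal.ofReal (u x) ∂ν < ⊤ := by
  refine lt_of_le_of_lt (lintegral_mono (g := fun x => ENNReal.ofReal C *
    ENNReal.ofReal (a x)) fun x => ?_) ?_
  · show _ ≤ ENNReal.ofReal C * ENNReal.ofReal (a x)
    rw [← ENNReal.ofReal_mul hC]
    exact ENNReal.ofReal_le_ofReal (h x)
  · rw [lintegral_const_mul' _ _ ENNReal.ofReal_ne_top]
    exact ENNReal.mul_lt_top ENNReal.ofReal_lt_top h1

theorem split_bound {A B : ℝ} {f c F g : ℂ} (hA : 0 < A) (hB : B = A + ‖c‖ ^ 2)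
    (hg : g = f * (conj c * ((B⁻¹ : ℝ) : ℂ))) :
    ‖f - c * F‖ ^ 2 * (A⁻¹ * B⁻¹) ≤ 2 * (‖f‖ ^ 2 * (B⁻¹ * B⁻¹)) + 2 * (‖F - g‖ ^ 2 * A⁻¹) ∧
      ‖F‖ ^ 2 * B⁻¹ ≤ 2 * (‖f‖ ^ 2 * (B⁻¹ * B⁻¹)) + 2 * (‖F - g‖ ^ 2 * A⁻¹) := by
  have hs : 0 ≤ ‖c‖ ^ 2 := by positivity
  have hB0 : 0 < B := by linarith
  have hAB : A ≤ B := by linarith
  have hcB : ‖c‖ ^ 2 ≤ B := by linarith
  have hBc : (B : ℂ) ≠ 0 := by exact_mod_cast hB0.ne'
  have hBs : (B : ℂ) = (A : ℂ) + c * conj c := by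
    rw [hB, Complex.mul_conj, Complex.normSq_eq_norm_sq]
    push_cast
    rfl
  set q := ‖F - g‖ with hq
  have hq0 : 0 ≤ q := norm_nonneg _
  constructor
  · have e1 : f - c * F = f * ((A * B⁻¹ : ℝ) : ℂ) - c * (F - g) := by
      rw [hg]
      push_cast
      field_simp
      rw [hBs]
      ring
    have h1 : ‖f - c * F‖ ≤ ‖f‖ * (A * B⁻¹) + ‖c‖ * q := by
      rw [e1]
      refine (norm_sub_le _ _).trans ?_
      rw [norm_mul, norm_mul, Complex.norm_real, Real.norm_eq_abs, abs_of_pos (by positivity)]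
    have h2 : ‖f - c * F‖ ^ 2 ≤ 2 * (‖f‖ * (A * B⁻¹)) ^ 2 + 2 * (‖c‖ * q) ^ 2 := by
      have h3 : ‖f - c * F‖ ^ 2 ≤ (‖f‖ * (A * B⁻¹) + ‖c‖ * q) ^ 2 := by gcongr
      nlinarith [sq_nonneg (‖f‖ * (A * B⁻¹) - ‖c‖ * q)]
    have h4 : A * B⁻¹ ≤ 1 := by rw [← div_eq_mul_inv, div_le_one hB0]; exact hAB
    have h5 : ‖c‖ ^ 2 * B⁻¹ ≤ 1 := by rw [← div_eq_mul_inv, div_le_one hB0]; exact hcB
    calc ‖f - c * F‖ ^ 2 * (A⁻¹ * B⁻¹)
        ≤ (2 * (‖f‖ * (A * B⁻¹)) ^ 2 + 2 * (‖c‖ * q) ^ 2) * (A⁻¹ * B⁻¹) := by gcongr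
      _ = 2 * (‖f‖ ^ 2 * (B⁻¹ * B⁻¹)) * (A * B⁻¹) + 2 * (q ^ 2 * A⁻¹) * (‖c‖ ^ 2 * B⁻¹) := by
          field_simp
      _ ≤ 2 * (‖f‖ ^ 2 * (B⁻¹ * B⁻¹)) * 1 + 2 * (q ^ 2 * A⁻¹) * 1 := by gcongr
      _ = _ := by ring
  · have h1 : ‖F‖ ≤ ‖g‖ + q := by
      have := norm_add_le g (F - g)
      rwa [add_sub_cancel] at this
    have h2 : ‖F‖ ^ 2 ≤ 2 * ‖g‖ ^ 2 + 2 * q ^ 2 := by
      have h3 : ‖F‖ ^ 2 ≤ (‖g‖ + q) ^ 2 := by gcongr
      nlinarith [sq_nonneg (‖g‖ - q)]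
    have h3 : ‖g‖ ^ 2 = ‖f‖ ^ 2 * ‖c‖ ^ 2 * (B⁻¹ * B⁻¹) := by
      rw [hg, norm_mul, norm_mul, Complex.norm_conj, Complex.norm_real, Real.norm_eq_abs, mul_pow,
        mul_pow, sq_abs]
      ring
    have h5 : ‖c‖ ^ 2 * B⁻¹ ≤ 1 := by rw [← div_eq_mul_inv, div_le_one hB0]; exact hcB
    have h6 : B⁻¹ ≤ A⁻¹ := inv_anti₀ hA hAB
    calc ‖F‖ ^ 2 * B⁻¹ ≤ (2 * ‖g‖ ^ 2 + 2 * q ^ 2) * B⁻¹ := by gcongr
      _ = 2 * (‖f‖ ^ 2 * (B⁻¹ * B⁻¹)) * (‖c‖ ^ 2 * B⁻¹) + 2 * (q ^ 2 * B⁻¹) := by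
          rw [h3]; ring
      _ ≤ 2 * (‖f‖ ^ 2 * (B⁻¹ * B⁻¹)) * 1 + 2 * (q ^ 2 * A⁻¹) := by gcongr
      _ = _ := by ring

section pencil

variable {ν : Measure M} {c : ℕ → M → ℂ} (hc : ∀ j, Hol (c j)) (h0 : ∀ x, c 0 x ≠ 0) (r : ℕ)

/-- the four weights -/
def wA (c : ℕ → M → ℂ) (r : ℕ) (x : M) : ℝ := (Bf c r x)⁻¹

def wAB (c : ℕ → M → ℂ) (r : ℕ) (x : M) : ℝ := (Bf c r x)⁻¹ * (Bf c (r + 1) x)⁻¹

def wBB (c : ℕ → M → ℂ) (r : ℕ) (x : M) : ℝ := (Bf c (r + 1) x)⁻¹ * (Bf c (r + 1) x)⁻¹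

include hc h0

theorem wA_cont : Continuous (wA c r) := (Bf_cont hc r).inv₀ fun x => (Bf_pos h0 r x).ne'

theorem wAB_cont : Continuous (wAB c r) := (wA_cont hc h0 r).mul (wA_cont hc h0 (r + 1))

theorem wBB_cont : Continuous (wBB c r) := (wA_cont hc h0 (r + 1)).mul (wA_cont hc h0 (r + 1))

theorem pen_in1 {w : M → ℂ} (hw : w ∈ A2 (wm ν (wA c r))) :
    (fun x => c (r + 1) x * w x) ∈ A2 (wm ν (wAB c r)) := by
  rw [mem_A2_wm (wA_cont hc h0 r).measurable] at hw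
  rw [mem_A2_wm (wAB_cont hc h0 r).measurable]
  refine ⟨hol_mul (hc _) hw.1, lint_le_lt (C := 1) zero_le_one (fun x => ?_) hw.2⟩
  have hA := Bf_pos h0 r x
  have hB := Bf_pos h0 (r + 1) x
  rw [norm_mul, mul_pow, one_mul]
  unfold wAB wA
  have h1 : ‖c (r + 1) x‖ ^ 2 * (Bf c (r + 1) x)⁻¹ ≤ 1 := by
    rw [← div_eq_mul_inv, div_le_one hB, Bf_succ]
    linarith
  calc ‖c (r + 1) x‖ ^ 2 * ‖w x‖ ^ 2 * ((Bf c r x)⁻¹ * (Bf c (r + 1) x)⁻¹)
      = (‖w x‖ ^ 2 * (Bf c r x)⁻¹) * (‖c (r + 1) x‖ ^ 2 * (Bf c (r + 1) x)⁻¹) := by ring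
    _ ≤ (‖w x‖ ^ 2 * (Bf c r x)⁻¹) * 1 := by gcongr
    _ = _ := by ring

theorem pen_in2 {w : M → ℂ} (hw : w ∈ A2 (wm ν (wA c r))) :
    w ∈ A2 (wm ν (wA c (r + 1))) := by
  refine A2_le (wA_cont hc h0 r).measurable (wA_cont hc h0 (r + 1)).measurable (C := 1)
    (fun x => ?_) zero_le_one hw
  rw [one_mul]
  unfold wA
  refine inv_anti₀ (Bf_pos h0 r x) ?_
  rw [Bf_succ]
  have : 0 ≤ ‖c (r + 1) x‖ ^ 2 := by positivity
  linarith

theorem pen_out1 {u : M → ℂ} (hu : u ∈ A2 (wm ν (wAB c r))) : u ∈ A2 (wm ν (wBB c r)) := by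
  refine A2_le (wAB_cont hc h0 r).measurable (wBB_cont hc h0 r).measurable (C := 1)
    (fun x => ?_) zero_le_one hu
  rw [one_mul]
  unfold wAB wBB
  have hB := Bf_pos h0 (r + 1) x
  refine mul_le_mul_of_nonneg_right (inv_anti₀ (Bf_pos h0 r x) ?_) (by positivity)
  rw [Bf_succ]
  have : 0 ≤ ‖c (r + 1) x‖ ^ 2 := by positivity
  linarith

theorem pen_out2 {v : M → ℂ} (hv : v ∈ A2 (wm ν (wA c (r + 1)))) :
    (fun x => c (r + 1) x * v x) ∈ A2 (wm ν (wBB c r)) := by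
  rw [mem_A2_wm (wA_cont hc h0 (r + 1)).measurable] at hv
  rw [mem_A2_wm (wBB_cont hc h0 r).measurable]
  refine ⟨hol_mul (hc _) hv.1, lint_le_lt (C := 1) zero_le_one (fun x => ?_) hv.2⟩
  have hB := Bf_pos h0 (r + 1) x
  have hA := Bf_pos h0 r x
  rw [norm_mul, mul_pow, one_mul]
  unfold wBB wA
  have h1 : ‖c (r + 1) x‖ ^ 2 * (Bf c (r + 1) x)⁻¹ ≤ 1 := by
    rw [← div_eq_mul_inv, div_le_one hB, Bf_succ]
    linarith
  calc ‖c (r + 1) x‖ ^ 2 * ‖v x‖ ^ 2 * ((Bf c (r + 1) x)⁻¹ * (Bf c (r + 1) x)⁻¹)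
      = (‖v x‖ ^ 2 * (Bf c (r + 1) x)⁻¹) * (‖c (r + 1) x‖ ^ 2 * (Bf c (r + 1) x)⁻¹) := by ring
    _ ≤ (‖v x‖ ^ 2 * (Bf c (r + 1) x)⁻¹) * 1 := by gcongr
    _ = _ := by ring

/-- exactness in the middle -/
theorem pen_mid {u v : M → ℂ} (hu : u ∈ A2 (wm ν (wAB c r)))
    (hv : v ∈ A2 (wm ν (wA c (r + 1)))) (huv : ∀ x, u x + c (r + 1) x * v x = 0) :
    (fun x => -v x) ∈ A2 (wm ν (wA c r)) := by
  rw [mem_A2_wm (wAB_cont hc h0 r).measurable] at hu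
  rw [mem_A2_wm (wA_cont hc h0 (r + 1)).measurable] at hv
  rw [mem_A2_wm (wA_cont hc h0 r).measurable]
  refine ⟨hol_neg hv.1, lint_add_lt (a := fun x => ‖u x‖ ^ 2 * wAB c r x)
    (b := fun x => ‖v x‖ ^ 2 * wA c (r + 1) x)
    (((hol_cont hu.1).norm.pow 2).mul (wAB_cont hc h0 r)).measurable (fun x => ?_) (fun x => ?_)
    (fun x => ?_) hu.2 hv.2⟩
  · have hB := Bf_pos h0 (r + 1) x
    have hA := Bf_pos h0 r x
    unfold wAB
    positivity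
  · have hB := Bf_pos h0 (r + 1) x
    unfold wA
    positivity
  · have hB := Bf_pos h0 (r + 1) x
    have hA := Bf_pos h0 r x
    have h1 : u x = -(c (r + 1) x * v x) := eq_neg_of_add_eq_zero_left (huv x)
    rw [h1, norm_neg, norm_neg, norm_mul, mul_pow]
    unfold wAB wA
    have h2 : (Bf c r x)⁻¹ = ‖c (r + 1) x‖ ^ 2 * ((Bf c r x)⁻¹ * (Bf c (r + 1) x)⁻¹) +
        (Bf c (r + 1) x)⁻¹ := by
      have h3 := Bf_succ c r x
      field_simp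
      linarith
    apply le_of_eq
    calc ‖v x‖ ^ 2 * (Bf c r x)⁻¹ = ‖v x‖ ^ 2 * (‖c (r + 1) x‖ ^ 2 * ((Bf c r x)⁻¹ *
          (Bf c (r + 1) x)⁻¹) + (Bf c (r + 1) x)⁻¹) := by rw [← h2]
      _ = _ := by ring

/-- surjectivity -/
theorem pen_surj (hS : Solv (wm ν (wA c r)) (Pf c (r + 1))) {f : M → ℂ}
    (hf : f ∈ A2 (wm ν (wBB c r))) :
    ∃ u ∈ A2 (wm ν (wAB c r)), ∃ v ∈ A2 (wm ν (wA c (r + 1))),
      ∀ x, f x = u x + c (r + 1) x * v x := by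
  rw [mem_A2_wm (wBB_cont hc h0 r).measurable] at hf
  obtain ⟨hfh, hfi⟩ := hf
  have hfc := hol_cont hfh
  have hcc := hol_cont (hc (r + 1))
  have hAc := Bf_cont hc r
  have hBc := Bf_cont hc (r + 1)
  have hkc : Continuous fun x => ‖f x‖ ^ 2 * Bf c r x * (Bf c (r + 1) x ^ 2)⁻¹ :=
    ((hfc.norm.pow 2).mul hAc).mul ((hBc.pow 2).inv₀ fun x => (pow_pos (Bf_pos h0 (r + 1) x) 2).ne')
  have hgs := gf_sm hc h0 r hfh
  obtain ⟨F, hF, hFi⟩ := hS (gf c r f) hgs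
    (fun x => ‖f x‖ ^ 2 * Bf c r x * (Bf c (r + 1) x ^ 2)⁻¹) hkc
    (fun x => by
      have hB := Bf_pos h0 (r + 1) x
      have hA := Bf_pos h0 r x
      positivity)
    (fun x w => gf_bound hc h0 r hfh x w)
    (by
      rw [lintegral_wm (wA_cont hc h0 r).measurable hkc.measurable (fun x => by
        have hB := Bf_pos h0 (r + 1) x
        have hA := Bf_pos h0 r x
        positivity)]
      refine lint_le_lt (C := 1) zero_le_one (fun x => ?_) hfi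
      have hB := Bf_pos h0 (r + 1) x
      have hA := Bf_pos h0 r x
      unfold wA wBB
      apply le_of_eq
      field_simp)
  have hgc : Continuous fun x => ‖F x - gf c r f x‖ ^ 2 :=
    (((hol_cont hF).sub hgs.continuous).norm).pow 2
  rw [lintegral_wm (wA_cont hc h0 r).measurable hgc.measurable (fun x => by positivity)] at hFi
  have hpt := fun x => split_bound (f := f x) (c := c (r + 1) x) (F := F x) (g := gf c r f x)
    (Bf_pos h0 r x) (Bf_succ c r x) (by unfold gf; ring)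
  have i1 : ∫⁻ x, ENNReal.ofReal (2 * (‖f x‖ ^ 2 * wBB c r x)) ∂ν < ⊤ :=
    lint_le_lt (C := 2) (by norm_num) (fun x => le_rfl) hfi
  have i2 : ∫⁻ x, ENNReal.ofReal (2 * (‖F x - gf c r f x‖ ^ 2 * wA c r x)) ∂ν < ⊤ :=
    lint_le_lt (C := 2) (by norm_num) (fun x => le_rfl) hFi
  have hm : Measurable fun x => 2 * (‖f x‖ ^ 2 * wBB c r x) :=
    (continuous_const.mul ((cont_nsq hfc).mul (wBB_cont hc h0 r))).measurable
  have p1 : ∀ x, 0 ≤ 2 * (‖f x‖ ^ 2 * wBB c r x) := fun x => by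
    have hB := Bf_pos h0 (r + 1) x
    unfold wBB
    positivity
  have p2 : ∀ x, 0 ≤ 2 * (‖F x - gf c r f x‖ ^ 2 * wA c r x) := fun x => by
    have hA := Bf_pos h0 r x
    unfold wA
    positivity
  refine ⟨fun x => f x - c (r + 1) x * F x, ?_, F, ?_, fun x => by ring⟩
  · rw [mem_A2_wm (wAB_cont hc h0 r).measurable]
    exact ⟨hol_sub hfh (hol_mul (hc _) hF), lint_add_lt hm p1 p2 (fun x => (hpt x).1) i1 i2⟩
  · rw [mem_A2_wm (wA_cont hc h0 (r + 1)).measurable]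
    exact ⟨hF, lint_add_lt hm p1 p2 (fun x => (hpt x).2) i1 i2⟩

/-- `w ↦ (c w, -w)` -/
def penI : A2 (wm ν (wA c r)) →ₗ[ℂ] (A2 (wm ν (wAB c r)) × A2 (wm ν (wA c (r + 1)))) where
  toFun w := (⟨fun x => c (r + 1) x * w.1 x, pen_in1 hc h0 r w.2⟩,
    ⟨-w.1, (A2 (wm ν (wA c (r + 1)))).neg_mem (pen_in2 hc h0 r w.2)⟩)
  map_add' v w := by
    refine Prod.ext (Subtype.ext ?_) (Subtype.ext ?_)
    · funext x
      show c (r + 1) x * (v.1 x + w.1 x) = c (r + 1) x * v.1 x + c (r + 1) x * w.1 x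
      ring
    · funext x
      show -(v.1 x + w.1 x) = -v.1 x + -w.1 x
      ring
  map_smul' a w := by
    refine Prod.ext (Subtype.ext ?_) (Subtype.ext ?_)
    · funext x
      show c (r + 1) x * (a * w.1 x) = a * (c (r + 1) x * w.1 x)
      ring
    · funext x
      show -(a * w.1 x) = a * -w.1 x
      ring

/-- `(u, v) ↦ u + c v` -/
def penP : (A2 (wm ν (wAB c r)) × A2 (wm ν (wA c (r + 1)))) →ₗ[ℂ] A2 (wm ν (wBB c r)) where
  toFun p := ⟨p.1.1 + fun x => c (r + 1) x * p.2.1 x,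
    (A2 (wm ν (wBB c r))).add_mem (pen_out1 hc h0 r p.1.2) (pen_out2 hc h0 r p.2.2)⟩
  map_add' p q := by
    refine Subtype.ext ?_
    funext x
    show (p.1.1 x + q.1.1 x) + c (r + 1) x * (p.2.1 x + q.2.1 x) =
      (p.1.1 x + c (r + 1) x * p.2.1 x) + (q.1.1 x + c (r + 1) x * q.2.1 x)
    ring
  map_smul' a p := by
    refine Subtype.ext ?_
    funext x
    show a * p.1.1 x + c (r + 1) x * (a * p.2.1 x) = a * (p.1.1 x + c (r + 1) x * p.2.1 x)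
    ring

theorem penI_inj : Function.Injective (penI hc h0 r (ν := ν)) := by
  intro v w h
  have h1 := congrArg Prod.snd h
  have h2 := congrArg Subtype.val h1
  refine Subtype.ext ?_
  exact neg_injective h2

theorem penP_surj (hS : Solv (wm ν (wA c r)) (Pf c (r + 1))) :
    Function.Surjective (penP hc h0 r (ν := ν)) := by
  rintro ⟨f, hf⟩
  obtain ⟨u, hu, v, hv, h⟩ := pen_surj hc h0 r hS hf
  refine ⟨(⟨u, hu⟩, ⟨v, hv⟩), Subtype.ext ?_⟩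
  funext x
  exact (h x).symm

theorem pen_exact : LinearMap.ker (penP hc h0 r (ν := ν)) = LinearMap.range (penI hc h0 r) := by
  ext ⟨⟨u, hu⟩, ⟨v, hv⟩⟩
  rw [LinearMap.mem_ker, LinearMap.mem_range]
  constructor
  · intro h
    have h1 : ∀ x, u x + c (r + 1) x * v x = 0 := fun x => congrFun (congrArg Subtype.val h) x
    refine ⟨⟨fun x => -v x, pen_mid hc h0 r hu hv h1⟩, ?_⟩
    refine Prod.ext (Subtype.ext ?_) (Subtype.ext ?_)
    · funext x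
      show c (r + 1) x * -v x = u x
      linear_combination (-1 : ℂ) * h1 x
    · funext x
      show - -v x = v x
      ring
  · rintro ⟨w, hw⟩
    have h1 := congrArg Subtype.val (congrArg Prod.fst hw)
    have h2 := congrArg Subtype.val (congrArg Prod.snd hw)
    refine Subtype.ext ?_
    funext x
    have h3 : c (r + 1) x * w.1 x = u x := congrFun h1 x
    have h4 : -w.1 x = v x := congrFun h2 x
    show u x + c (r + 1) x * v x = 0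
    rw [← h3, ← h4]
    ring

/-- **the dimension relation** -/
theorem pen_dim (hS : Solv (wm ν (wA c r)) (Pf c (r + 1)))
    (f1 : FiniteDimensional ℂ (A2 (wm ν (wAB c r))))
    (f2 : FiniteDimensional ℂ (A2 (wm ν (wA c (r + 1))))) :
    Module.finrank ℂ (A2 (wm ν (wA c r))) + Module.finrank ℂ (A2 (wm ν (wBB c r))) =
      Module.finrank ℂ (A2 (wm ν (wAB c r))) + Module.finrank ℂ (A2 (wm ν (wA c (r + 1)))) := by
  have h1 := LinearMap.finrank_range_add_finrank_ker (penP hc h0 r (ν := ν))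
  rw [Module.finrank_prod, LinearMap.range_eq_top.2 (penP_surj hc h0 r hS), finrank_top,
    pen_exact hc h0 r, LinearMap.finrank_range_of_inj (penI_inj hc h0 r)] at h1
  omega

end pencil

end Crest.Agent.R273.Pen_93
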