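import Crest.Agent.R273.UCovA_914

/-!
# R273, leaf UCOV (helper914), part B: the fundamental cocycle and the universal covering

`uD hA x0 : MonD A (FundamentalGroup M x0)` for an atlas with convex overlaps; the covering with
fibre the group itself is simply connected; lifts of paths.
-/

set_option autoImplicit false
set_option linter.unusedSectionVars false

open Set Filter Topology unitInterval

namespace Crest.Agent.R273.UCov_914

open Crest.Agent.R275.Geo Crest.Agent.R275.ZC352 Crest.Agent.R275.GC293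

noncomputable section

variable {n : ℕ} {M : Type} [TopologicalSpace M] {A : Atl n M}

/-- homotopy classes of paths -/
abbrev Q (x y : M) : Type := Path.Homotopic.Quotient x y

open Path.Homotopic.Quotient (mk)

theorem Q.trans_symm' {x y z : M} (p : Q x y) (q : Q y z) :
    (p.trans q).symm = q.symm.trans p.symm := by
  obtain ⟨p, rfl⟩ := Path.Homotopic.Quotient.mk_surjective p
  obtain ⟨q, rfl⟩ := Path.Homotopic.Quotient.mk_surjective q
  change mk (p.trans q).symm = mk (q.symm.trans p.symm)
  rw [Path.trans_symm]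

/-! ### paths in the charts -/

theorem joined (hA : GoodA A) {i j : A.ι} {x y : M} (hx : x ∈ (A.e i).source ∩ (A.e j).source)
    (hy : y ∈ (A.e i).source ∩ (A.e j).source) :
    ∃ p : Path x y, ∀ t, p t ∈ (A.e i).source ∩ (A.e j).source := by
  have hc : Convex ℝ (A.ov i j) := hA i j
  have hx' : A.e i x ∈ A.ov i j :=
    ⟨(A.e i).map_source hx.1, by rw [(A.e i).left_inv hx.1]; exact hx.2⟩
  have hy' : A.e i y ∈ A.ov i j :=
    ⟨(A.e i).map_source hy.1, by rw [(A.e i).left_inv hy.1]; exact hy.2⟩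
  have hmem : ∀ t : I, (1 - (t : ℝ)) • A.e i x + (t : ℝ) • A.e i y ∈ A.ov i j := fun t =>
    hc hx' hy' (by linarith [t.2.2]) t.2.1 (by ring)
  have hcont : Continuous fun t : I => (A.e i).symm ((1 - (t : ℝ)) • A.e i x + (t : ℝ) • A.e i y) :=
    (A.e i).continuousOn_symm.comp_continuous (by fun_prop) fun t => (hmem t).1
  refine ⟨⟨⟨fun t => (A.e i).symm ((1 - (t : ℝ)) • A.e i x + (t : ℝ) • A.e i y), hcont⟩,
    ?_, ?_⟩, fun t => ⟨(A.e i).map_target (hmem t).1, (hmem t).2⟩⟩
  · simp [(A.e i).left_inv hx.1]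
  · simp [(A.e i).left_inv hy.1]

theorem uniq (hA : GoodA A) {i : A.ι} {x y : M} (p q : Path x y)
    (hp : ∀ t, p t ∈ (A.e i).source) (hq : ∀ t, q t ∈ (A.e i).source) : p.Homotopic q := by
  have hc : Convex ℝ (A.e i).target := by
    have h := hA i i
    have h2 : A.ov i i = (A.e i).target := by
      ext z
      exact ⟨fun h => h.1, fun h => ⟨h, (A.e i).map_target h⟩⟩
    rwa [h2] at h
  have hmem : ∀ u : I × I, (1 - (u.1 : ℝ)) • A.e i (p u.2) + (u.1 : ℝ) • A.e i (q u.2) ∈
      (A.e i).target := fun u =>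
    hc ((A.e i).map_source (hp _)) ((A.e i).map_source (hq _)) (by linarith [u.1.2.2]) u.1.2.1
      (by ring)
  have h1 : Continuous fun t => A.e i (p t) :=
    (A.e i).continuousOn.comp_continuous p.continuous hp
  have h2 : Continuous fun t => A.e i (q t) :=
    (A.e i).continuousOn.comp_continuous q.continuous hq
  have hcont : Continuous fun u : I × I =>
      (A.e i).symm ((1 - (u.1 : ℝ)) • A.e i (p u.2) + (u.1 : ℝ) • A.e i (q u.2)) := by
    refine (A.e i).continuousOn_symm.comp_continuous ?_ hmem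
    have h3 := h1.comp (continuous_snd : Continuous (Prod.snd : I × I → I))
    have h4 := h2.comp (continuous_snd : Continuous (Prod.snd : I × I → I))
    exact ((continuous_const.sub (continuous_subtype_val.comp continuous_fst)).smul h3).add
      ((continuous_subtype_val.comp continuous_fst).smul h4)
  refine ⟨⟨⟨⟨_, hcont⟩, fun t => ?_, fun t => ?_⟩, fun s t ht => ?_⟩⟩
  · simp [(A.e i).left_inv (hp t)]
  · simp [(A.e i).left_inv (hq t)]
  · have hpq : p t = q t := by
      rcases ht with rfl | ht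
      · simp
      · rw [mem_singleton_iff] at ht
        subst ht
        simp
    change (A.e i).symm ((1 - (s : ℝ)) • A.e i (p t) + (s : ℝ) • A.e i (q t)) = p t
    rw [← hpq, ← add_smul, sub_add_cancel, one_smul, (A.e i).left_inv (hp t)]

variable (A) in
open Classical in
/-- homotopy class of the paths from `x` to `y` in the chart `i` -/
def seg [PathConnectedSpace M] (i : A.ι) (x y : M) : Q x y :=
  if h : ∃ p : Path x y, ∀ t, p t ∈ (A.e i).source then mk h.choose
  else mk (PathConnectedSpace.somePath x y)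

variable [PathConnectedSpace M]

theorem seg_eq (hA : GoodA A) {i : A.ι} {x y : M} (p : Path x y)
    (hp : ∀ t, p t ∈ (A.e i).source) : mk p = seg A i x y := by
  have h : ∃ p : Path x y, ∀ t, p t ∈ (A.e i).source := ⟨p, hp⟩
  rw [seg, dif_pos h]
  exact Path.Homotopic.Quotient.eq.2 (uniq hA p h.choose hp h.choose_spec)

theorem exists_seg (hA : GoodA A) {i : A.ι} {x y : M} (hx : x ∈ (A.e i).source)
    (hy : y ∈ (A.e i).source) : ∃ p : Path x y, (∀ t, p t ∈ (A.e i).source) ∧ mk p = seg A i x y := by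
  obtain ⟨p, hp⟩ := joined hA (i := i) (j := i) ⟨hx, hx⟩ ⟨hy, hy⟩
  exact ⟨p, fun t => (hp t).1, seg_eq hA p fun t => (hp t).1⟩

theorem seg_trans (hA : GoodA A) {i : A.ι} {x y z : M} (hx : x ∈ (A.e i).source)
    (hy : y ∈ (A.e i).source) (hz : z ∈ (A.e i).source) :
    (seg A i x y).trans (seg A i y z) = seg A i x z := by
  obtain ⟨p, hp, hp'⟩ := exists_seg hA hx hy
  obtain ⟨q, hq, hq'⟩ := exists_seg hA hy hz
  rw [← hp', ← hq']
  change mk (p.trans q) = _
  refine seg_eq hA _ fun t => ?_
  have := mem_range_self (f := p.trans q) t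
  rw [Path.trans_range] at this
  rcases this with ⟨s, hs⟩ | ⟨s, hs⟩
  · rw [← hs]; exact hp s
  · rw [← hs]; exact hq s

variable (A) in
open Classical in
/-- base point in the chart `i` -/
def bp (x0 : M) (i : A.ι) : M := if h : ((A.e i).source).Nonempty then h.some else x0

theorem bp_mem (x0 : M) {i : A.ι} {x : M} (hx : x ∈ (A.e i).source) :
    bp A x0 i ∈ (A.e i).source := by
  have h : ((A.e i).source).Nonempty := ⟨x, hx⟩
  rw [bp, dif_pos h]
  exact h.some_mem

variable (A) in
/-- reference class from the base point to the points of the chart `i` -/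
def al (x0 : M) (i : A.ι) (x : M) : Q x0 x :=
  (mk (PathConnectedSpace.somePath x0 (bp A x0 i))).trans (seg A i (bp A x0 i) x)

theorem al_seg (hA : GoodA A) (x0 : M) {i : A.ι} {x y : M} (hx : x ∈ (A.e i).source)
    (hy : y ∈ (A.e i).source) : (al A x0 i x).trans (seg A i x y) = al A x0 i y := by
  rw [al, Path.Homotopic.Quotient.trans_assoc, seg_trans hA (bp_mem x0 hx) hx hy, al]

variable (A) in
/-- class relative to the reference class, as an element of the fundamental group -/
def be (x0 : M) (i : A.ι) {x : M} (q : Q x0 x) : FundamentalGroup M x0 :=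
  FundamentalGroup.fromPath (q.trans (al A x0 i x).symm)

theorem be_seg (hA : GoodA A) (x0 : M) {i : A.ι} {x y : M} (q : Q x0 x)
    (hx : x ∈ (A.e i).source) (hy : y ∈ (A.e i).source) :
    be A x0 i (q.trans (seg A i x y)) = be A x0 i q := by
  unfold be
  rw [← al_seg hA x0 hx hy, Q.trans_symm', Path.Homotopic.Quotient.trans_assoc,
    ← Path.Homotopic.Quotient.trans_assoc (seg A i x y), Path.Homotopic.Quotient.trans_symm,
    Path.Homotopic.Quotient.refl_trans]

theorem be_inj (x0 : M) (i : A.ι) {x : M} {q q' : Q x0 x} (h : be A x0 i q = be A x0 i q') :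
    q = q' := by
  have h' : q.trans (al A x0 i x).symm = q'.trans (al A x0 i x).symm := h
  have h2 := congrArg (fun r => Path.Homotopic.Quotient.trans r (al A x0 i x)) h'
  simpa [Path.Homotopic.Quotient.trans_assoc] using h2

theorem be_surj (x0 : M) (i : A.ι) (x : M) (g : FundamentalGroup M x0) :
    ∃ q : Q x0 x, be A x0 i q = g := by
  refine ⟨(FundamentalGroup.toPath g).trans (al A x0 i x), ?_⟩
  unfold be
  rw [Path.Homotopic.Quotient.trans_assoc, Path.Homotopic.Quotient.trans_symm,
    Path.Homotopic.Quotient.trans_refl]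

/-- the fundamental cocycle of an atlas with convex overlaps -/
def uD (hA : GoodA A) (x0 : M) : MonD A (FundamentalGroup M x0) where
  c i j x := be A x0 j (al A x0 i x)
  c_self i x _ := by
    unfold be
    rw [Path.Homotopic.Quotient.trans_symm]
    rfl
  c_mul i j k x _ := by
    rw [FundamentalGroup.mul_def]
    unfold be
    change ((al A x0 i x).trans (al A x0 j x).symm).trans
      ((al A x0 j x).trans (al A x0 k x).symm) = (al A x0 i x).trans (al A x0 k x).symm
    rw [Path.Homotopic.Quotient.trans_assoc, ← Path.Homotopic.Quotient.trans_assoc _ (al A x0 j x),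
      Path.Homotopic.Quotient.symm_trans, Path.Homotopic.Quotient.refl_trans]
  c_loc i j x hx y hy := by
    obtain ⟨p, hp⟩ := joined hA hx hy
    have h1 := seg_eq hA (i := i) p fun t => (hp t).1
    have h2 := seg_eq hA (i := j) p fun t => (hp t).2
    rw [← al_seg hA x0 hx.1 hy.1, ← h1, h2, be_seg hA x0 _ hx.2 hy.2]

theorem uD_c (hA : GoodA A) (x0 : M) (i j : A.ι) (x : M) :
    (uD hA x0).c i j x = be A x0 j (al A x0 i x) := rfl

theorem be_change (hA : GoodA A) (x0 : M) (i j : A.ι) {x : M} (q : Q x0 x) :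
    be A x0 j q = (uD hA x0).c i j x * be A x0 i q := by
  rw [FundamentalGroup.mul_def, uD_c]
  unfold be
  change q.trans (al A x0 j x).symm = (q.trans (al A x0 i x).symm).trans
      ((al A x0 i x).trans (al A x0 j x).symm)
  rw [Path.Homotopic.Quotient.trans_assoc, ← Path.Homotopic.Quotient.trans_assoc _ (al A x0 i x),
      Path.Homotopic.Quotient.symm_trans, Path.Homotopic.Quotient.refl_trans]

/-! ### points of the coverings and lifts of paths -/

variable (hA : GoodA A) (x0 : M) {F : Type} [MulAction (FundamentalGroup M x0) F]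

/-- the point with transported coordinate `v` along the class `q` -/
def ptq {x : M} (q : Q x0 x) (v : F) : (uD hA x0).cov F :=
  (uD hA x0).pt ((A.cover x).choose) (be A x0 ((A.cover x).choose) q • v) x

@[simp] theorem pr_ptq {x : M} (q : Q x0 x) (v : F) : (uD hA x0).pr (ptq hA x0 q v) = x := rfl

theorem ptq_eq {i : A.ι} {x : M} (hx : x ∈ (A.e i).source) (q : Q x0 x) (v : F) :
    ptq hA x0 q v = (uD hA x0).pt i (be A x0 i q • v) x := by
  unfold ptq
  rw [(uD hA x0).pt_eq (i := (A.cover x).choose) (j := i) _ (A.cover x).choose_spec hx, smul_smul,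
    ← be_change]

theorem co_ptq {i : A.ι} {x : M} (hx : x ∈ (A.e i).source) (q : Q x0 x) (v : F) :
    (uD hA x0).co i (ptq hA x0 q v) = be A x0 i q • v := by
  rw [ptq_eq hA x0 hx, (uD hA x0).co_pt _ hx]

theorem exists_ptq (e : (uD hA x0).cov F) (q : Q x0 ((uD hA x0).pr e)) :
    ∃ v : F, ptq hA x0 q v = e := by
  obtain ⟨i, hi⟩ := A.cover ((uD hA x0).pr e)
  refine ⟨(be A x0 i q)⁻¹ • (uD hA x0).co i e, ?_⟩
  rw [ptq_eq hA x0 hi, smul_inv_smul, (uD hA x0).pt_co hi]

theorem ptq_cast {x x' : M} (h : x' = x) (q : Q x0 x) (v : F) :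
    ptq hA x0 (q.cast rfl h) v = ptq hA x0 q v := by
  subst h
  simp

theorem trans_cast' {a b a' b' : M} (ha : a' = a) (hb : b' = b) (q : Q x0 a) (r : Q a b) :
    (q.cast rfl ha).trans (r.cast ha hb) = (q.trans r).cast rfl hb := by
  subst ha
  subst hb
  simp

/-- the lift of the path `γ` -/
def lf {a b : M} (γ : Path a b) (q : Q x0 a) (v : F) (t : I) : (uD hA x0).cov F :=
  ptq hA x0 ((q.cast rfl γ.source).trans (mk (γ.subpath 0 t))) v

theorem continuous_lf {a b : M} (γ : Path a b) (q : Q x0 a) (v : F) :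
    Continuous (lf hA x0 γ q v) := by
  rw [continuous_iff_continuousAt]
  intro t0
  obtain ⟨i, hi⟩ := A.cover (γ t0)
  have hev : ∀ᶠ t in 𝓝 t0, ∀ s ∈ (univ : Set I), γ.subpath t0 t s ∈ (A.e i).source := by
    refine isCompact_univ.eventually_forall_of_forall_eventually fun s _ => ?_
    have hc : Continuous fun z : I × I => γ.subpath t0 z.1 z.2 :=
      γ.subpath_continuous_family.comp (f := fun z : I × I => (t0, z.1, z.2)) (by fun_prop)
    refine hc.continuousAt.eventually ((A.e i).open_source.mem_nhds ?_)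
    change γ.subpath t0 t0 s ∈ _
    rw [Path.subpath_self]
    exact hi
  have hev2 : ∀ᶠ t in 𝓝 t0, γ t ∈ (A.e i).source :=
    γ.continuous.continuousAt.eventually ((A.e i).open_source.mem_nhds hi)
  have h1 : ContinuousAt ((uD hA x0).pt i
      (be A x0 i ((q.cast rfl γ.source).trans (mk (γ.subpath 0 t0))) • v)) (γ t0) :=
    ((uD hA x0).continuousOn_pt i _).continuousAt ((A.e i).open_source.mem_nhds hi)
  have h2 := ContinuousAt.comp (f := γ) h1 γ.continuous.continuousAt
  refine h2.congr ?_
  filter_upwards [hev, hev2] with t ht ht2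
  rw [lf, ptq_eq hA x0 ht2, Function.comp_apply]
  congr 2
  have h3 : mk (γ.subpath 0 t) = (mk (γ.subpath 0 t0)).trans (seg A i (γ t0) (γ t)) := by
    rw [← seg_eq hA (γ.subpath t0 t) fun s => ht s (mem_univ s)]
    exact (Path.Homotopic.Quotient.eq.2 ⟨Path.Homotopy.subpathTransSubpath γ 0 t0 t⟩).symm
  rw [h3, ← Path.Homotopic.Quotient.trans_assoc, be_seg hA x0 _ hi ht2]

theorem lf_zero {a b : M} (γ : Path a b) (q : Q x0 a) (v : F) :
    lf hA x0 γ q v 0 = ptq hA x0 q v := by
  rw [lf, Path.subpath_self]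
  change ptq hA x0 ((q.cast rfl γ.source).trans (Path.Homotopic.Quotient.refl _)) v = _
  rw [Path.Homotopic.Quotient.trans_refl, ptq_cast]

theorem lf_one {a b : M} (γ : Path a b) (q : Q x0 a) (v : F) :
    lf hA x0 γ q v 1 = ptq hA x0 (q.trans (mk γ)) v := by
  rw [lf, Path.subpath_zero_one, Path.Homotopic.Quotient.mk_cast, trans_cast', ptq_cast]

/-- the lifted path -/
def lp {a b : M} (γ : Path a b) (q : Q x0 a) (v : F) :
    Path (ptq hA x0 q v) (ptq hA x0 (q.trans (mk γ)) v) where
  toFun := lf hA x0 γ q v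
  continuous_toFun := continuous_lf hA x0 γ q v
  source' := lf_zero hA x0 γ q v
  target' := lf_one hA x0 γ q v

theorem pr_lp {a b : M} (γ : Path a b) (q : Q x0 a) (v : F) (t : I) :
    (uD hA x0).pr (lp hA x0 γ q v t) = γ t := rfl

/-- transitive fibre: the covering is path connected -/
theorem pathConnected [MulAction.IsPretransitive (FundamentalGroup M x0) F] [Nonempty F] :
    PathConnectedSpace ((uD hA x0).cov F) := by
  obtain ⟨w⟩ := ‹Nonempty F›
  refine ⟨⟨ptq hA x0 (Path.Homotopic.Quotient.refl x0) w⟩, fun e e' => ?_⟩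
  obtain ⟨v, hv⟩ := exists_ptq hA x0 e (mk (PathConnectedSpace.somePath _ _))
  obtain ⟨i, hi⟩ := A.cover ((uD hA x0).pr e')
  obtain ⟨g, hg⟩ := MulAction.exists_smul_eq (FundamentalGroup M x0) v ((uD hA x0).co i e')
  obtain ⟨q, hq⟩ := be_surj (A := A) x0 i ((uD hA x0).pr e') g
  set q0 : Q x0 ((uD hA x0).pr e) := mk (PathConnectedSpace.somePath _ _) with hq0
  obtain ⟨γ, hγ⟩ := Path.Homotopic.Quotient.mk_surjective (q0.symm.trans q)
  have h1 : ptq hA x0 (q0.trans (mk γ)) v = e' := by
    rw [hγ, ← Path.Homotopic.Quotient.trans_assoc, Path.Homotopic.Quotient.trans_symm,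
      Path.Homotopic.Quotient.refl_trans, ptq_eq hA x0 hi, hq, hg, (uD hA x0).pt_co hi]
  rw [← hv, ← h1]
  exact ⟨lp hA x0 γ q0 v⟩

/-- **the universal covering is simply connected** -/
theorem simplyConnected : SimplyConnectedSpace ((uD hA x0).cov (FundamentalGroup M x0)) := by
  rw [simply_connected_iff_loops_nullhomotopic]
  refine ⟨pathConnected hA x0, fun e ℓ => ?_⟩
  have hcov := (uD hA x0).isCoveringMap (F := FundamentalGroup M x0)
  obtain ⟨q0, -⟩ : ∃ q0 : Q x0 ((uD hA x0).pr e), True :=
    ⟨mk (PathConnectedSpace.somePath _ _), trivial⟩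
  obtain ⟨v, hv⟩ := exists_ptq hA x0 e q0
  obtain ⟨γ, hγ⟩ : ∃ γ : Path ((uD hA x0).pr e) ((uD hA x0).pr e),
      γ = ℓ.map (uD hA x0).continuous_pr := ⟨_, rfl⟩
  have h1 : (fun t => ℓ t) = lf hA x0 γ q0 v := by
    refine hcov.eq_of_comp_eq ℓ.continuous (continuous_lf hA x0 γ q0 v) ?_ 0 ?_
    · funext t
      rw [hγ]
      rfl
    · rw [lf_zero, hv]
      exact ℓ.source
  have h2 : ptq hA x0 (q0.trans (mk γ)) v = ptq hA x0 q0 v := by
    rw [← lf_one, ← h1, hv]
    exact ℓ.target
  obtain ⟨i, hi⟩ := A.cover ((uD hA x0).pr e)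
  have h3 := congrArg ((uD hA x0).co i) h2
  rw [co_ptq hA x0 hi, co_ptq hA x0 hi] at h3
  have h4 : q0.trans (mk γ) = q0 := be_inj x0 i (mul_right_cancel h3)
  have h5 : mk γ = Path.Homotopic.Quotient.refl _ := by
    have := congrArg (fun r => q0.symm.trans r) h4
    simpa [← Path.Homotopic.Quotient.trans_assoc] using this
  refine Path.Homotopic.Quotient.eq.1 (hcov.injective_path_homotopic_map e e ?_)
  rw [hγ] at h5
  exact h5

end

end Crest.Agent.R273.UCov_914
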