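import Crest.Agent.R273.PiEnd_836
import Crest.Agent.R273.UCovB_914

/-!
# R273 (S0416), Part C, PI-END (E2) (helper836)

`D : MonD A G` (914), `H ≤ G`, `τ : H →* Multiplicative ℤ` nontrivial, `D.cov G` connected.
Then `hcoc D H τ : ZCoc (D.atl (G ⧸ H))` is not a coboundary.
-/

set_option autoImplicit false
set_option linter.unusedSectionVars false

open Set Filter Topology Complex
open scoped ContDiff Matrix ComplexConjugate

namespace Crest.Agent.R273.PiEndG_836

open Crest.Agent.R275.Geo Crest.Agent.R275.OmT75 Crest.Agent.R275.Core144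
open Crest.Agent.R273.PiEnd_836 Crest.Agent.R273.UCov_914 Crest.Agent.R275.ZC352

noncomputable section

variable {n : ℕ} {M : Type} [TopologicalSpace M] {A : Atl n M} {G : Type} [Group G]

section grp

variable (H : Subgroup G) (τ : H →* Multiplicative ℤ)

open Classical in
/-- `τ` as a real valued function on `G` (zero off `H`) -/
def tr (g : G) : ℝ := if h : g ∈ H then ((Multiplicative.toAdd (τ ⟨g, h⟩) : ℤ) : ℝ) else 0

theorem tr_mul {a b : G} (ha : a ∈ H) (hb : b ∈ H) : tr H τ (a * b) = tr H τ a + tr H τ b := by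
  unfold tr
  rw [dif_pos ha, dif_pos hb, dif_pos (H.mul_mem ha hb)]
  have : τ ⟨a * b, H.mul_mem ha hb⟩ = τ ⟨a, ha⟩ * τ ⟨b, hb⟩ := by
    rw [← map_mul]; rfl
  rw [this, toAdd_mul]
  push_cast
  ring

/-- representative of a coset -/
def rep (f : G ⧸ H) : G := Quotient.out f

theorem rep_mk (f : G ⧸ H) : ((rep H f : G) : G ⧸ H) = f := Quotient.out_eq f

theorem rep_smul_mem (g : G) (f f' : G ⧸ H) (h : g • f = f') :
    (rep H f')⁻¹ * g * rep H f ∈ H := by
  rw [mul_assoc, ← QuotientGroup.eq, rep_mk]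
  have : ((g * rep H f : G) : G ⧸ H) = g • ((rep H f : G) : G ⧸ H) := rfl
  rw [this, rep_mk, h]

theorem rep_mk_mem (g : G) : (rep H (g : G ⧸ H))⁻¹ * g ∈ H := by
  rw [← QuotientGroup.eq, rep_mk]

end grp

variable (D : MonD A G) (H : Subgroup G) (τ : H →* Multiplicative ℤ)

/-- the cocycle on the covering `D.cov (G ⧸ H)` given by `τ : H → ℤ` -/
def hcoc : ZCoc (D.atl (G ⧸ H)) where
  c p q e := tr H τ ((rep H p.2)⁻¹ * D.c q.1 p.1 (D.pr e) * rep H q.2)
  lc p q := by
    intro e he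
    have h1 : D.pr e ∈ (A.e q.1).source ∩ (A.e p.1).source := ⟨he.2.1, he.1.1⟩
    have h2 : ∀ᶠ e' in 𝓝 e, D.pr e' ∈ (A.e q.1).source ∩ (A.e p.1).source :=
      D.continuous_pr.continuousAt.eventually
        (((A.e q.1).open_source.inter (A.e p.1).open_source).mem_nhds h1)
    filter_upwards [h2] with e' he'
    rw [D.c_loc q.1 p.1 _ he' _ h1]
  mul p q r := by
    intro e he
    obtain ⟨⟨hp, hq⟩, hr⟩ := he
    have hpx := hp.1
    have hqx := hq.1
    have hrx := hr.1
    have e1 : D.c q.1 p.1 (D.pr e) • q.2 = p.2 := by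
      have := D.co_eq (i := q.1) (j := p.1) (e := e) hqx hpx
      rw [hp.2, hq.2] at this
      exact this.symm
    have e2 : D.c r.1 q.1 (D.pr e) • r.2 = q.2 := by
      have := D.co_eq (i := r.1) (j := q.1) (e := e) hrx hqx
      rw [hq.2, hr.2] at this
      exact this.symm
    rw [← tr_mul H τ (rep_smul_mem H _ _ _ e1) (rep_smul_mem H _ _ _ e2)]
    congr 1
    have e3 : D.c q.1 p.1 (D.pr e) * D.c r.1 q.1 (D.pr e) = D.c r.1 p.1 (D.pr e) :=
      D.c_mul r.1 q.1 p.1 _ ⟨⟨hrx, hqx⟩, hpx⟩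
    rw [← e3]
    group

/-- the equivariant map `G → G ⧸ H` -/
def mkE : G →[G] (G ⧸ H) where
  toFun g := (g : G ⧸ H)
  map_smul' g g' := rfl

/-- **PI-END (E2)** -/
theorem not_cob [ConnectedSpace (D.cov G)] (hτ : τ ≠ 1) : ¬ (hcoc D H τ).Cob := by
  rintro ⟨b, hb, hbc⟩
  apply hτ
  ext h
  -- the function `B` on the covering with fibre `G`
  set B0 : A.ι → D.cov G → ℝ := fun i e =>
    tr H τ ((rep H ((D.co i e : G) : G ⧸ H))⁻¹ * D.co i e)
      - b (i, ((D.co i e : G) : G ⧸ H)) (D.map (mkE H) e) with hB0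
  have hco : ∀ i e, D.co i (D.map (mkE H) e) = ((D.co i e : G) : G ⧸ H) := fun i e =>
    D.co_map (mkE H) i e
  have hsrc : ∀ i e, D.pr e ∈ (A.e i).source →
      D.map (mkE H) e ∈ ((D.atl (G ⧸ H)).e (i, ((D.co i e : G) : G ⧸ H))).source :=
    fun i e he => ⟨he, hco i e⟩
  have hB : ∀ i j e, D.pr e ∈ (A.e i).source → D.pr e ∈ (A.e j).source → B0 i e = B0 j e := by
    intro i j e hi hj
    set g := D.co i e with hg
    have hg' : D.co j e = D.c i j (D.pr e) * g := by
      have := D.co_eq (i := i) (j := j) (e := e) hi hj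
      rw [this]; rfl
    set c := D.c i j (D.pr e) with hc
    have h1 := hbc (j, ((D.co j e : G) : G ⧸ H)) (i, ((D.co i e : G) : G ⧸ H))
      (D.map (mkE H) e) ⟨hsrc j e hj, hsrc i e hi⟩
    simp only [hcoc, D.pr_map] at h1
    simp only [hB0]
    rw [← hg, hg'] at h1 ⊢
    rw [← hc] at h1
    have e1 : c • ((g : G) : G ⧸ H) = ((c * g : G) : G ⧸ H) := rfl
    have h2 : tr H τ ((rep H ((c * g : G) : G ⧸ H))⁻¹ * (c * g))
        = tr H τ ((rep H ((c * g : G) : G ⧸ H))⁻¹ * c * rep H ((g : G) : G ⧸ H))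
          + tr H τ ((rep H ((g : G) : G ⧸ H))⁻¹ * g) := by
      rw [← tr_mul H τ (rep_smul_mem H _ _ _ e1) (rep_mk_mem H g)]
      congr 1
      group
    rw [h2, h1]
    ring
  -- `B` is locally constant
  have hBl : ∀ i e, D.pr e ∈ (A.e i).source → ∀ᶠ e' in 𝓝 e, D.pr e' ∈ (A.e i).source ∧
      B0 i e' = B0 i e := by
    intro i e hi
    have h1 := D.co_eventually hi
    have h2 := (D.continuous_map (mkE H)).continuousAt (x := e) |>.eventually
      (hb (i, ((D.co i e : G) : G ⧸ H)) _ (hsrc i e hi))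
    filter_upwards [h1, h2] with e' h1' h2'
    refine ⟨h1'.1, ?_⟩
    simp only [hB0]
    rw [h1'.2, h2']
  -- a globally defined version
  set B : D.cov G → ℝ := fun e => B0 ((A.cover (D.pr e)).choose) e with hBdef
  have hBi : ∀ i e, D.pr e ∈ (A.e i).source → B e = B0 i e := fun i e hi =>
    hB _ i e (A.cover (D.pr e)).choose_spec hi
  have hBlc : IsLocallyConstant B := by
    rw [IsLocallyConstant.iff_eventually_eq]
    intro e
    obtain ⟨i, hi⟩ := A.cover (D.pr e)
    filter_upwards [hBl i e hi] with e' he'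
    rw [hBi i e' he'.1, hBi i e hi, he'.2]
  obtain ⟨e0⟩ := (inferInstance : Nonempty (D.cov G))
  obtain ⟨i, hi⟩ := A.cover (D.pr e0)
  set g := D.co i e0 with hg
  set e1 : D.cov G := D.pt i (g * h) (D.pr e0) with he1
  have hi1 : D.pr e1 ∈ (A.e i).source := hi
  have hco1 : D.co i e1 = g * h := D.co_pt _ hi
  have hBe : B e1 = B e0 := hBlc.apply_eq_of_preconnectedSpace _ _
  rw [hBi i e1 hi1, hBi i e0 hi] at hBe
  have hmk : ((g * h : G) : G ⧸ H) = ((g : G) : G ⧸ H) := by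
    rw [QuotientGroup.eq]
    have : (g * (h : G))⁻¹ * g = (h : G)⁻¹ := by group
    rw [this]
    exact H.inv_mem h.2
  have hmap : D.map (mkE H) e1 = D.map (mkE H) e0 := by
    refine D.ext_co (i := i) (e := D.map (mkE H) e1) hi rfl ?_
    rw [hco, hco, hco1, ← hg, hmk]
  simp only [hB0] at hBe
  rw [hco1, hmap, hmk, ← hg] at hBe
  have h3 : tr H τ ((rep H ((g : G) : G ⧸ H))⁻¹ * (g * h))
      = tr H τ ((rep H ((g : G) : G ⧸ H))⁻¹ * g) + tr H τ h := by
    rw [← tr_mul H τ (rep_mk_mem H g) h.2]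
    congr 1
    group
  rw [h3] at hBe
  have h4 : tr H τ h = 0 := by linarith
  unfold tr at h4
  rw [dif_pos h.2] at h4
  have h5 : Multiplicative.toAdd (τ h) = 0 := by exact_mod_cast h4
  simpa using h5

end

end Crest.Agent.R273.PiEndG_836
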