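import Mathlib

/-!
Row 273 (S0416), leaf POINC (helper152), part A: local Poincaré inequality on compact convex sets
(segments + Tonelli), any finite dimensional normed space with a Haar measure.
-/

set_option autoImplicit false
set_option linter.unusedSectionVars false

open Set Metric Filter MeasureTheory
open scoped ContDiff Topology ENNReal

namespace Crest.Agent.R273.PoiA_152

/-- `(∫ g)² ≤ ∫ g²` on `[0,1]` -/
theorem sq_integral_le {g : ℝ → ℝ} (hg : Continuous g) :
    (∫ t in (0 : ℝ)..1, g t) ^ 2 ≤ ∫ t in (0 : ℝ)..1, g t ^ 2 := by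
  set I := ∫ t in (0 : ℝ)..1, g t with hI
  have h0 : 0 ≤ ∫ t in (0 : ℝ)..1, (g t - I) ^ 2 :=
    intervalIntegral.integral_nonneg zero_le_one fun t _ => sq_nonneg _
  have h1 : (∫ t in (0 : ℝ)..1, (g t - I) ^ 2) =
      (∫ t in (0 : ℝ)..1, g t ^ 2) - 2 * I * I + I ^ 2 := by
    have h2 : (fun t => (g t - I) ^ 2) = fun t => g t ^ 2 - 2 * I * g t + I ^ 2 := by
      funext t; ring
    rw [h2, intervalIntegral.integral_add, intervalIntegral.integral_sub,
      intervalIntegral.integral_const_mul, intervalIntegral.integral_const]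
    · simp [hI]
    · exact (by fun_prop : Continuous _).intervalIntegrable _ _
    · exact (by fun_prop : Continuous _).intervalIntegrable _ _
    · exact (by fun_prop : Continuous _).intervalIntegrable _ _
    · exact (by fun_prop : Continuous _).intervalIntegrable _ _
  rw [h1] at h0
  nlinarith

variable {E : Type*} [NormedAddCommGroup E] [NormedSpace ℝ E] [FiniteDimensional ℝ E]
  [MeasurableSpace E] [BorelSpace E]

/-- affine change of variables -/
theorem lintegral_affine (μ : Measure E) [μ.IsAddHaarMeasure] {g : E → ℝ≥0∞} (hg : Measurable g)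
    {t : ℝ} (ht : t ≠ 0) (b : E) :
    ∫⁻ y, g (b + t • y) ∂μ =
      ENNReal.ofReal |(t ^ Module.finrank ℝ E)⁻¹| * ∫⁻ y, g y ∂μ := by
  have h1 : Measurable fun y => g (b + y) := hg.comp (measurable_const_add b)
  have h2 : ∫⁻ y, g (b + t • y) ∂μ = ∫⁻ y, g (b + y) ∂(Measure.map (fun y => t • y) μ) := by
    rw [lintegral_map h1 (measurable_const_smul t)]
  rw [h2, Measure.map_addHaar_smul μ ht, lintegral_smul_measure, lintegral_add_left_eq_self,
    smul_eq_mul]

/-- pointwise estimate along a segment -/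
theorem sub_sq_le {u : E → ℝ} (hu : ContDiff ℝ 1 u) {K : Set E} (hK : Convex ℝ K) {d : ℝ}
    (hd : ∀ x ∈ K, ∀ y ∈ K, ‖x - y‖ ≤ d) {x y : E} (hx : x ∈ K) (hy : y ∈ K) :
    ENNReal.ofReal ((u x - u y) ^ 2) ≤ ENNReal.ofReal (d ^ 2) *
      ∫⁻ t in Icc (0 : ℝ) 1, K.indicator (fun z => ENNReal.ofReal (‖fderiv ℝ u z‖ ^ 2))
        ((1 - t) • x + t • y) := by
  have hdf : Continuous (fderiv ℝ u) := hu.continuous_fderiv (by norm_num)
  have hd0 : 0 ≤ d := (norm_nonneg _).trans (hd x hx y hy)
  set c : ℝ → E := fun t => (1 - t) • x + t • y with hc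
  have hcc : Continuous c := by fun_prop
  have hcK : ∀ t ∈ Icc (0 : ℝ) 1, c t ∈ K := fun t ht =>
    hK hx hy (by linarith [ht.2]) ht.1 (by ring)
  set g : ℝ → ℝ := fun t => fderiv ℝ u (c t) (y - x) with hg
  have hgc : Continuous g := (hdf.comp hcc).clm_apply continuous_const
  have hder : ∀ t : ℝ, HasDerivAt (fun t => u (c t)) (g t) t := by
    intro t
    have h1 : HasDerivAt c (y - x) t := by
      have h2 : HasDerivAt (fun t : ℝ => (1 - t) • x) ((-1 : ℝ) • x) t := by
        simpa using ((hasDerivAt_id t).const_sub 1).smul_const x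
      have h3 : HasDerivAt (fun t : ℝ => t • y) ((1 : ℝ) • y) t := by
        simpa using (hasDerivAt_id t).smul_const y
      have h4 := h2.add h3
      have e : (-1 : ℝ) • x + (1 : ℝ) • y = y - x := by rw [neg_smul, one_smul, one_smul]; abel
      rw [e] at h4
      exact h4
    exact (hu.differentiable (by norm_num) (c t)).hasFDerivAt.comp_hasDerivAt t h1
  have h1 : ∫ t in (0 : ℝ)..1, g t = u y - u x := by
    rw [intervalIntegral.integral_eq_sub_of_hasDerivAt (fun t _ => hder t)
      (hgc.intervalIntegrable _ _)]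
    simp [hc]
  have h2 : (u x - u y) ^ 2 ≤ ∫ t in (0 : ℝ)..1, g t ^ 2 := by
    have := sq_integral_le hgc
    rw [h1] at this
    calc (u x - u y) ^ 2 = (u y - u x) ^ 2 := by ring
      _ ≤ _ := this
  have h3 : ENNReal.ofReal (∫ t in (0 : ℝ)..1, g t ^ 2) =
      ∫⁻ t in Icc (0 : ℝ) 1, ENNReal.ofReal (g t ^ 2) := by
    rw [intervalIntegral.integral_of_le zero_le_one, ← integral_Icc_eq_integral_Ioc,
      ofReal_integral_eq_lintegral_ofReal]
    · exact (hgc.pow 2).continuousOn.integrableOn_compact isCompact_Icc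
    · exact Eventually.of_forall fun t => sq_nonneg _
  refine (ENNReal.ofReal_le_ofReal h2).trans ?_
  rw [h3, ← lintegral_const_mul']
  · refine setLIntegral_mono' measurableSet_Icc fun t ht => ?_
    rw [indicator_of_mem (hcK t ht), ← ENNReal.ofReal_mul (by positivity)]
    refine ENNReal.ofReal_le_ofReal ?_
    have h4 : |g t| ≤ ‖fderiv ℝ u (c t)‖ * d := by
      rw [← Real.norm_eq_abs]
      refine (ContinuousLinearMap.le_opNorm _ _).trans ?_
      exact mul_le_mul_of_nonneg_left (hd y hy x hx) (norm_nonneg _)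
    rw [← sq_abs]
    calc |g t| ^ 2 ≤ (‖fderiv ℝ u (c t)‖ * d) ^ 2 := by gcongr
      _ = d ^ 2 * ‖fderiv ℝ u (c t)‖ ^ 2 := by ring
  · exact ENNReal.ofReal_ne_top

/-- **local Poincaré inequality**, `lintegral` form -/
theorem lpoinc (μ : Measure E) [μ.IsAddHaarMeasure] {K : Set E} (hK : IsCompact K)
    (hc : Convex ℝ K) (hpos : μ K ≠ 0) :
    ∃ C : ℝ, 0 ≤ C ∧ ∀ u : E → ℝ, ContDiff ℝ 1 u → ∃ c : ℝ,
      ∫⁻ x in K, ENNReal.ofReal ((u x - c) ^ 2) ∂μ ≤
        ENNReal.ofReal C * ∫⁻ x in K, ENNReal.ofReal (‖fderiv ℝ u x‖ ^ 2) ∂μ := by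
  obtain ⟨d, hd⟩ : ∃ d : ℝ, ∀ x ∈ K, ∀ y ∈ K, ‖x - y‖ ≤ d := by
    refine ⟨Metric.diam K, fun x hx y hy => ?_⟩
    rw [← dist_eq_norm]
    exact dist_le_diam_of_mem hK.isBounded hx hy
  set m := Module.finrank ℝ E with hm
  have hKm : MeasurableSet K := hK.measurableSet
  have hKtop : μ K ≠ ⊤ := hK.measure_lt_top.ne
  refine ⟨d ^ 2 * 2 ^ m, by positivity, fun u hu => ?_⟩
  have hdf : Continuous (fderiv ℝ u) := hu.continuous_fderiv (by norm_num)
  have huc : Continuous u := hu.continuous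
  set g : E → ℝ≥0∞ := K.indicator fun z => ENNReal.ofReal (‖fderiv ℝ u z‖ ^ 2) with hg
  have hgm : Measurable g :=
    ((hdf.norm.pow 2).measurable.ennreal_ofReal).indicator hKm
  have hG : ∫⁻ z, g z ∂μ = ∫⁻ x in K, ENNReal.ofReal (‖fderiv ℝ u x‖ ^ 2) ∂μ := by
    rw [hg, lintegral_indicator hKm]
  set G := ∫⁻ z, g z ∂μ with hGd
  -- one time slice
  have hslice : ∀ t ∈ Icc (0 : ℝ) 1,
      ∫⁻ x in K, ∫⁻ y in K, g ((1 - t) • x + t • y) ∂μ ∂μ ≤ ENNReal.ofReal (2 ^ m) * G * μ K := by
    have hhalf : ∀ t : ℝ, 1 / 2 ≤ t → ∀ b : E,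
        ∫⁻ y in K, g (b + t • y) ∂μ ≤ ENNReal.ofReal (2 ^ m) * G := by
      intro t ht b
      refine (setLIntegral_le_lintegral _ _).trans ?_
      rw [lintegral_affine μ hgm (by positivity) b]
      refine mul_le_mul_left (ENNReal.ofReal_le_ofReal ?_) _
      rw [abs_of_nonneg (by positivity), ← inv_pow]
      refine pow_le_pow_left₀ (by positivity) ?_ _
      rw [inv_le_comm₀ (by linarith) (by norm_num)]
      linarith
    intro t ht
    rcases le_total (1 / 2) t with h | h
    · calc ∫⁻ x in K, ∫⁻ y in K, g ((1 - t) • x + t • y) ∂μ ∂μ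
          ≤ ∫⁻ x in K, ENNReal.ofReal (2 ^ m) * G ∂μ := lintegral_mono fun x => hhalf t h _
        _ = _ := by rw [setLIntegral_const]
    · have hmeas : Measurable fun p : E × E => g ((1 - t) • p.1 + t • p.2) :=
        hgm.comp (by fun_prop)
      rw [lintegral_lintegral_swap hmeas.aemeasurable]
      calc ∫⁻ y in K, ∫⁻ x in K, g ((1 - t) • x + t • y) ∂μ ∂μ
          ≤ ∫⁻ y in K, ENNReal.ofReal (2 ^ m) * G ∂μ := lintegral_mono fun y => by
            have := hhalf (1 - t) (by linarith) (t • y)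
            simpa only [add_comm (t • y)] using this
        _ = _ := by rw [setLIntegral_const]
  -- the double integral
  have hdouble : ∫⁻ y in K, ∫⁻ x in K, ENNReal.ofReal ((u x - u y) ^ 2) ∂μ ∂μ ≤
      ENNReal.ofReal (d ^ 2 * 2 ^ m) * G * μ K := by
    have hmt : Measurable fun q : (E × E) × ℝ => g ((1 - q.2) • q.1.1 + q.2 • q.1.2) :=
      hgm.comp (by fun_prop)
    calc ∫⁻ y in K, ∫⁻ x in K, ENNReal.ofReal ((u x - u y) ^ 2) ∂μ ∂μ
        ≤ ∫⁻ y in K, ∫⁻ x in K, (ENNReal.ofReal (d ^ 2) *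
            ∫⁻ t in Icc (0 : ℝ) 1, g ((1 - t) • x + t • y)) ∂μ ∂μ := by
          refine setLIntegral_mono' hKm fun y hy => setLIntegral_mono' hKm fun x hx => ?_
          exact sub_sq_le hu hc hd hx hy
      _ = ENNReal.ofReal (d ^ 2) * ∫⁻ y in K, ∫⁻ x in K,
            (∫⁻ t in Icc (0 : ℝ) 1, g ((1 - t) • x + t • y)) ∂μ ∂μ := by
          rw [← lintegral_const_mul' _ _ ENNReal.ofReal_ne_top]
          refine lintegral_congr fun y => ?_
          rw [lintegral_const_mul' _ _ ENNReal.ofReal_ne_top]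
      _ = ENNReal.ofReal (d ^ 2) * ∫⁻ t in Icc (0 : ℝ) 1, (∫⁻ x in K, ∫⁻ y in K,
            g ((1 - t) • x + t • y) ∂μ ∂μ) := by
          congr 1
          rw [lintegral_lintegral_swap (f := fun y x =>
            ∫⁻ t in Icc (0 : ℝ) 1, g ((1 - t) • x + t • y))]
          · rw [← lintegral_prod (f := fun p : E × E =>
              ∫⁻ t in Icc (0 : ℝ) 1, g ((1 - t) • p.1 + t • p.2))]
            · rw [lintegral_lintegral_swap (f := fun (p : E × E) (t : ℝ) =>
                g ((1 - t) • p.1 + t • p.2)) hmt.aemeasurable]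
              refine lintegral_congr fun t => ?_
              have hmeas : Measurable fun p : E × E => g ((1 - t) • p.1 + t • p.2) :=
                hgm.comp (by fun_prop)
              exact lintegral_prod _ hmeas.aemeasurable
            · exact (hmt.lintegral_prod_right').aemeasurable
          · refine Measurable.aemeasurable ?_
            have := hmt.lintegral_prod_right' (ν := volume.restrict (Icc (0 : ℝ) 1))
            exact this.comp measurable_swap
      _ ≤ ENNReal.ofReal (d ^ 2) * ∫⁻ t in Icc (0 : ℝ) 1, ENNReal.ofReal (2 ^ m) * G * μ K := by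
          refine mul_le_mul_right ?_ _
          exact setLIntegral_mono' measurableSet_Icc fun t ht => hslice t ht
      _ = ENNReal.ofReal (d ^ 2 * 2 ^ m) * G * μ K := by
          rw [setLIntegral_const, Real.volume_Icc, sub_zero, ENNReal.ofReal_one, mul_one,
            ENNReal.ofReal_mul (by positivity)]
          ring
  -- choice of the constant
  have hmy : Measurable fun y => ∫⁻ x in K, ENNReal.ofReal ((u x - u y) ^ 2) ∂μ := by
    have : Measurable fun p : E × E => ENNReal.ofReal ((u p.2 - u p.1) ^ 2) :=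
      (((huc.comp continuous_snd).sub (huc.comp continuous_fst)).pow 2).measurable.ennreal_ofReal
    exact this.lintegral_prod_right'
  obtain ⟨y0, hy0, hle⟩ := exists_le_setLAverage hpos hKtop (hmy.aemeasurable (μ := μ.restrict K))
  refine ⟨u y0, hle.trans ?_⟩
  rw [setLAverage_eq, ← hG]
  refine (ENNReal.div_le_of_le_mul ?_)
  exact hdouble

end Crest.Agent.R273.PoiA_152
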