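import Crest.Agent.R273.SchI_152

/-!
Row 273 (S0416), leaf L1 (helper152): GLOBAL Schauder estimate without zero order term, main
theorems:
* `osc_bound` : `|v x - v y| ≤ C |Lap v|_{C^a}`
* `schauder0` : `|v|_{C^{2,a}} ≤ C |Lap v|_{C^a}` for smooth `v` vanishing at one point
* `abs_const_le` : the constant `m` in `Lap v = f - m` is at most `sup |f|`
-/

set_option autoImplicit false
set_option linter.unusedSectionVars false

open Set Metric Filter MeasureTheory
open scoped ContDiff Topology Matrix ComplexConjugate ComplexOrder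

namespace Crest.Agent.R273.SchJ_152

open Crest.Agent.R275 Crest.Agent.R275.Geo Crest.Agent.R275.Core144 Crest.Agent.R275.EDR890
open Crest.Agent.R273.Defs_333 Crest.Agent.R273.Hess_333 Crest.Agent.R273.HessB_333
open Crest.Agent.R273.HM_333 Crest.Agent.R273.Kah_333 Crest.Agent.R273.Vol_333
open Crest.Agent.R273.Vm_333
open Crest.Agent.R273.SchA_152 Crest.Agent.R273.SchD_152 Crest.Agent.R273.SchE_152
  Crest.Agent.R273.SchF_152 Crest.Agent.R273.SchG_152 Crest.Agent.R273.SchH_152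
  Crest.Agent.R273.SchI_152
open Crest.Agent.R273.YauDefs_635 (cH inC)

noncomputable section

variable {n : ℕ} {M : Type} [TopologicalSpace M] {A : Atl n M}

theorem isLap_sub_const {G : A.ι → Cn n → Matrix (Fin n) (Fin n) ℂ} {v f : M → ℝ}
    (h : IsLap G v f) (c : ℝ) : IsLap G (fun x => v x - c) f := by
  intro i z hz
  rw [← h i z hz]
  have e : fderiv ℝ (inC A i fun x => v x - c) = fderiv ℝ (inC A i v) := by
    funext w
    exact fderiv_sub_const c
  simp only [cH, YauDefs_635.D2, e]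

theorem sm_sub_const {v : M → ℝ} (hv : A.Sm v) (c : ℝ) : A.Sm (fun x => v x - c) :=
  fun i => (hv i).sub contDiffOn_const

/-- lower bound of the measure of small chart balls -/
theorem meas_lb [T2Space M] [CompactSpace M] [Finite A.ι] [MeasurableSpace M] [BorelSpace M]
    (B : Cb A) (h : HM (KB A)⁻¹) {ρ : ℝ} (hρ : 0 < ρ) (k : B.κ) :
    ∃ m : ℝ, 0 < m ∧ ∀ z ∈ closedBall (B.z k) (B.r k / 2), ∃ E : Set M, MeasurableSet E ∧
      (∀ x ∈ E, x ∈ (A.e (B.i k)).source ∧ A.e (B.i k) x ∈ ball z ρ ∧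
        A.e (B.i k) x ∈ closedBall (B.z k) (B.r k / 2)) ∧ m ≤ (vm h).real E := by
  have := isFinite_vm h
  have := isOpenPos_vm h
  have hr := B.r0 k
  refine (isCompact_closedBall (B.z k) (B.r k / 2)).induction_on
    (p := fun s => ∃ m : ℝ, 0 < m ∧ ∀ z ∈ s, ∃ E : Set M, MeasurableSet E ∧
      (∀ x ∈ E, x ∈ (A.e (B.i k)).source ∧ A.e (B.i k) x ∈ ball z ρ ∧
        A.e (B.i k) x ∈ closedBall (B.z k) (B.r k / 2)) ∧ m ≤ (vm h).real E)
    ⟨1, one_pos, fun z hz => hz.elim⟩ ?_ ?_ ?_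
  · rintro s t hst ⟨m, hm, H⟩
    exact ⟨m, hm, fun z hz => H z (hst hz)⟩
  · rintro s t ⟨m, hm, H⟩ ⟨m', hm', H'⟩
    refine ⟨min m m', lt_min hm hm', fun z hz => ?_⟩
    rcases hz with hz | hz
    · obtain ⟨E, h1, h2, h3⟩ := H z hz
      exact ⟨E, h1, h2, (min_le_left _ _).trans h3⟩
    · obtain ⟨E, h1, h2, h3⟩ := H' z hz
      exact ⟨E, h1, h2, (min_le_right _ _).trans h3⟩
  · intro y hy
    set E : Set M := (A.e (B.i k)).source ∩
      (A.e (B.i k)) ⁻¹' (ball y (ρ / 2) ∩ ball (B.z k) (B.r k / 2)) with hE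
    have hEo : IsOpen E := (A.e (B.i k)).isOpen_inter_preimage (isOpen_ball.inter isOpen_ball)
    have hEne : E.Nonempty := by
      have hcl : y ∈ closure (ball (B.z k) (B.r k / 2)) := by
        rw [closure_ball _ (by positivity)]
        exact hy
      obtain ⟨w, hw1, hw2⟩ := mem_closure_iff.1 hcl (ball y (ρ / 2)) isOpen_ball
        (mem_ball_self (by positivity))
      have hwt : w ∈ (A.e (B.i k)).target := B.sub' k (ball_subset_closedBall hw2)
      refine ⟨(A.e (B.i k)).symm w, (A.e (B.i k)).map_target hwt, ?_⟩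
      rw [mem_preimage, (A.e (B.i k)).right_inv hwt]
      exact ⟨hw1, hw2⟩
    refine ⟨ball y (ρ / 2), mem_nhdsWithin_of_mem_nhds (ball_mem_nhds y (by positivity)),
      (vm h).real E, ?_, fun z hz => ⟨E, hEo.measurableSet, fun x hx => ⟨hx.1, ?_, ?_⟩, le_rfl⟩⟩
    · rw [measureReal_def]
      exact ENNReal.toReal_pos (hEo.measure_pos _ hEne).ne' (measure_ne_top _ _)
    · have h1 : A.e (B.i k) x ∈ ball y (ρ / 2) := hx.2.1
      rw [mem_ball] at h1 hz ⊢
      have := dist_triangle (A.e (B.i k) x) y z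
      rw [dist_comm y z] at this
      linarith
    · exact ball_subset_closedBall hx.2.2

variable [T2Space M] [CompactSpace M] [ConnectedSpace M] [Finite A.ι]

/-- the gradient is bounded by the Hölder norm of the Laplacian -/
theorem grad_bound (P : Part A) (K : Kah A) (B : Cb A) {a : ℝ} (ha : 0 < a) (ha1 : a < 1) :
    ∃ C : ℝ, 0 < C ∧ ∀ (x0 : M) (v f : M → ℝ) (N : ℝ), A.Sm v → IsLap (gi K) v f →
      B.NH a N f → v x0 = 0 →
      ∀ k, ∀ z ∈ closedBall (B.z k) (B.r k / 2), ‖fderiv ℝ (inC A (B.i k) v) z‖ ≤ C * N := by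
  let _ : MeasurableSpace M := borel M
  have : BorelSpace M := ⟨rfl⟩
  have hfin := B.fin
  set μ := vm (volK K) with hμ
  have hμfin : IsFiniteMeasure μ := isFinite_vm (volK K)
  obtain ⟨C1, hC1, hosc⟩ := osc B
  obtain ⟨Ks, hKs, hsch⟩ := schauder B ha ha1 (pg K)
  have hκ : Nonempty B.κ := by
    obtain ⟨x⟩ : Nonempty M := inferInstance
    exact ⟨(B.cover x).choose⟩
  -- ellipticity
  have hell : ∃ lo : ℝ, 0 < lo ∧ ∀ k, ∀ z ∈ closedBall (B.z k) (B.r k / 2), ∃ hi,
      EllC lo hi (gi K (B.i k) z) := by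
    have h1 : ∀ k, ∃ lo : ℝ, 0 < lo ∧ ∀ z ∈ closedBall (B.z k) (B.r k / 2), ∃ hi,
        EllC lo hi (gi K (B.i k) z) := by
      intro k
      obtain ⟨lo, hi, hlo, -, hell⟩ := exists_ell (G := gi K (B.i k))
        (isCompact_closedBall (B.z k) (B.r k / 2))
        (fun i j => ((pg K).sm _ i j).continuousOn.mono (B.sub' k))
        (fun z hz => (pg K).pos _ z (B.sub' k hz))
      exact ⟨lo, hlo, fun z hz => ⟨hi, hell z hz⟩⟩
    choose lo hlo hell using h1
    obtain ⟨k0, hk0⟩ := Finite.exists_min lo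
    refine ⟨lo k0, hlo k0, fun k z hz => ?_⟩
    obtain ⟨hi, h⟩ := hell k z hz
    exact ⟨hi, EllC.mono h (hk0 k) le_rfl⟩
  obtain ⟨lo, hlo, hell⟩ := hell
  -- radius
  obtain ⟨ρ, hρ, -, hρa⟩ := Crest.Agent.R238.Sch.exists_rpow_le (a := a)
    (κ := 1 / (2 * (Ks * (1 + C1)))) ha (by positivity)
  -- measure
  have hmeas : ∃ m : ℝ, 0 < m ∧ ∀ k, ∀ z ∈ closedBall (B.z k) (B.r k / 2), ∃ E : Set M,
      MeasurableSet E ∧ (∀ x ∈ E, x ∈ (A.e (B.i k)).source ∧ A.e (B.i k) x ∈ ball z ρ ∧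
        A.e (B.i k) x ∈ closedBall (B.z k) (B.r k / 2)) ∧ m ≤ μ.real E := by
    choose m hm H using fun k => meas_lb B (volK K) hρ k
    obtain ⟨k0, hk0⟩ := Finite.exists_min m
    refine ⟨m k0, hm k0, fun k z hz => ?_⟩
    obtain ⟨E, h1, h2, h3⟩ := H k z hz
    exact ⟨E, h1, h2, (hk0 k).trans h3⟩
  obtain ⟨m, hm, hmeas⟩ := hmeas
  have hμM : 0 ≤ μ.real univ := measureReal_nonneg
  refine ⟨1 + 16 * C1 * μ.real univ / (lo * m), by positivity, ?_⟩
  intro x0 v f N hv hlap hN hx0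
  have hN0 : 0 ≤ N := hN.nonneg
  -- the maximum of the gradient
  have hmax : ∃ (k : B.κ) (z : Cn n), z ∈ closedBall (B.z k) (B.r k / 2) ∧
      ∀ k', ∀ z' ∈ closedBall (B.z k') (B.r k' / 2),
        ‖fderiv ℝ (inC A (B.i k') v) z'‖ ≤ ‖fderiv ℝ (inC A (B.i k) v) z‖ := by
    have h1 : ∀ k : B.κ, ∃ z ∈ closedBall (B.z k) (B.r k / 2),
        ∀ z' ∈ closedBall (B.z k) (B.r k / 2),
        ‖fderiv ℝ (inC A (B.i k) v) z'‖ ≤ ‖fderiv ℝ (inC A (B.i k) v) z‖ := by
      intro k
      have hc : ContinuousOn (fun z => ‖fderiv ℝ (inC A (B.i k) v) z‖)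
          (closedBall (B.z k) (B.r k / 2)) := by
        have h2 : ContDiffOn ℝ 2 (inC A (B.i k) v) (A.e (B.i k)).target :=
          (hv (B.i k)).of_le YauCh_635.two_le_inf
        exact ((h2.continuousOn_fderiv_of_isOpen (A.e (B.i k)).open_target
          (by norm_num)).mono (B.sub' k)).norm
      obtain ⟨z, hz, hzm⟩ := (isCompact_closedBall (B.z k) (B.r k / 2)).exists_isMaxOn
        ⟨B.z k, mem_closedBall_self (by linarith [B.r0 k])⟩ hc
      exact ⟨z, hz, fun z' hz' => hzm hz'⟩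
    choose zz hzz hzm using h1
    obtain ⟨k0, hk0⟩ := Finite.exists_max fun k => ‖fderiv ℝ (inC A (B.i k) v) (zz k)‖
    exact ⟨k0, zz k0, hzz k0, fun k' z' hz' => (hzm k' z' hz').trans (hk0 k')⟩
  obtain ⟨k0, z0, hz0, hzmax⟩ := hmax
  set G := ‖fderiv ℝ (inC A (B.i k0) v) z0‖ with hG
  have hG0 : 0 ≤ G := norm_nonneg _
  suffices hfinal : G ≤ (1 + 16 * C1 * μ.real univ / (lo * m)) * N from
    fun k z hz => (hzmax k z hz).trans hfinal
  have hq : 0 ≤ 16 * C1 * μ.real univ / (lo * m) * N := by positivity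
  rcases le_or_gt G N with hGN | hGN
  · linarith
  have hGpos : 0 < G := lt_of_le_of_lt hN0 hGN
  -- bounds of `v`
  have hvb : ∀ x, |v x| ≤ C1 * G := fun x => by
    have := hosc v G hv hG0 hzmax x x0
    rwa [hx0, sub_zero] at this
  have h2 := hsch v f N (C1 * G) (Sm2.of_sm ha ha1.le hv) hlap hN hvb
  -- the gradient is large near `z0`
  have hgrad : ∀ z ∈ closedBall (B.z k0) (B.r k0 / 2), z ∈ ball z0 ρ →
      G / 2 ≤ ‖fderiv ℝ (inC A (B.i k0) v) z‖ := by
    intro z hz hzρ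
    have h3 := (h2 k0).h1.hol z0 hz0 z hz
    have h4 : ‖z0 - z‖ ^ a ≤ 1 / (2 * (Ks * (1 + C1))) := by
      refine le_trans (Real.rpow_le_rpow (norm_nonneg _) ?_ ha.le) hρa
      rw [← dist_eq_norm, dist_comm]
      exact (mem_ball.1 hzρ).le
    have h5 : Ks * (N + C1 * G) * ‖z0 - z‖ ^ a ≤ G / 2 := by
      have e1 : Ks * (N + C1 * G) ≤ Ks * (1 + C1) * G := by nlinarith
      have e2 : 0 ≤ ‖z0 - z‖ ^ a := Real.rpow_nonneg (norm_nonneg _) _
      calc Ks * (N + C1 * G) * ‖z0 - z‖ ^ a ≤ Ks * (1 + C1) * G * ‖z0 - z‖ ^ a :=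
            mul_le_mul_of_nonneg_right e1 e2
        _ ≤ Ks * (1 + C1) * G * (1 / (2 * (Ks * (1 + C1)))) :=
            mul_le_mul_of_nonneg_left h4 (by positivity)
        _ = G / 2 := by field_simp
    have h6 := norm_sub_norm_le (fderiv ℝ (inC A (B.i k0) v) z0) (fderiv ℝ (inC A (B.i k0) v) z)
    linarith
  -- energy
  obtain ⟨E, hEm, hEx, hEμ⟩ := hmeas k0 z0 hz0
  have hDgi : Integrable (Dg K v) μ := by
    obtain ⟨C, hC⟩ := isCompact_univ.exists_bound_of_continuousOn
      (continuous_Dg K hv).continuousOn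
    exact Integrable.of_bound (continuous_Dg K hv).measurable.aestronglyMeasurable C
      (Eventually.of_forall fun x => hC x (mem_univ x))
  have hDgE : ∀ x ∈ E, lo / 4 * (G / 2) ^ 2 ≤ Dg K v x := by
    intro x hx
    obtain ⟨h3, h4, h5⟩ := hEx x hx
    obtain ⟨hi, hell'⟩ := hell k0 _ h5
    have h6 := Dg_lb K hv ((A.e (B.i k0)).map_source h3) hlo.le hell'
    rw [(A.e (B.i k0)).left_inv h3] at h6
    refine le_trans ?_ h6
    have h7 := hgrad _ h5 h4
    gcongr
  have hlow : lo / 4 * (G / 2) ^ 2 * m ≤ ∫ x, Dg K v x ∂μ := by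
    calc lo / 4 * (G / 2) ^ 2 * m ≤ lo / 4 * (G / 2) ^ 2 * μ.real E :=
          mul_le_mul_of_nonneg_left hEμ (by positivity)
      _ ≤ ∫ x in E, Dg K v x ∂μ :=
          setIntegral_ge_of_const_le_real hEm (measure_ne_top _ _) hDgE hDgi.integrableOn
      _ ≤ ∫ x, Dg K v x ∂μ :=
          setIntegral_le_integral hDgi (Eventually.of_forall fun x => Dg_nonneg K hv x)
  have hfeq : Lap K v = f := lap_of_isLap K hv hlap
  have hcf : Continuous f := by
    rw [← hfeq]
    exact YauMax_635.continuous_of_sm (sm_Lap K hv)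
  have hcv : Continuous v := YauMax_635.continuous_of_sm hv
  have hup : ∫ x, Dg K v x ∂μ ≤ C1 * G * N * μ.real univ := by
    have h3 : ∫ x, Dg K v x ∂μ = - ∫ x, v x * f x ∂μ := by
      have hint : ∀ g : M → ℝ, Continuous g → Integrable g μ := fun g hg => by
        obtain ⟨C, hC⟩ := isCompact_univ.exists_bound_of_continuousOn hg.continuousOn
        exact Integrable.of_bound hg.measurable.aestronglyMeasurable C
          (Eventually.of_forall fun x => hC x (mem_univ x))
      have i1 : Integrable (fun x => (1 / 2) * Lap K (fun y => v y ^ 2) x) μ :=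
        hint _ (continuous_const.mul (YauMax_635.continuous_of_sm (sm_Lap K (sm_sq hv))))
      have i2 : Integrable (fun x => v x * Lap K v x) μ :=
        hint _ (hcv.mul (YauMax_635.continuous_of_sm (sm_Lap K hv)))
      have e1 : ∫ x, Dg K v x ∂μ =
          ∫ x, (1 / 2) * Lap K (fun y => v y ^ 2) x ∂μ - ∫ x, v x * Lap K v x ∂μ :=
        integral_sub i1 i2
      rw [e1, integral_const_mul, int_Lap P K (sm_sq hv), mul_zero, zero_sub, hfeq]
    rw [h3]
    have h4 : ‖∫ x, v x * f x ∂μ‖ ≤ C1 * G * N * μ.real univ := by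
      refine norm_integral_le_of_norm_le_const (Eventually.of_forall fun x => ?_)
      rw [norm_mul, Real.norm_eq_abs, Real.norm_eq_abs]
      exact mul_le_mul (hvb x) (hN.bdd x) (abs_nonneg _) (by positivity)
    have h5 := neg_le_abs (∫ x, v x * f x ∂μ)
    rw [← Real.norm_eq_abs] at h5
    exact h5.trans h4
  have hlm : 0 < lo * m := by positivity
  have hkey : G * (lo * m) ≤ 16 * C1 * μ.real univ * N := by
    have h3 := hlow.trans hup
    have h4 : lo / 4 * (G / 2) ^ 2 * m = G * (G * (lo * m) / 16) := by ring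
    have h5 : C1 * G * N * μ.real univ = G * (16 * C1 * μ.real univ * N / 16) := by ring
    rw [h4, h5] at h3
    have h6 := le_of_mul_le_mul_left h3 hGpos
    linarith
  have : G ≤ 16 * C1 * μ.real univ / (lo * m) * N := by
    rw [div_mul_eq_mul_div, le_div_iff₀ hlm]
    exact hkey
  linarith

/-- **Schauder estimate without zero order term** -/
theorem schauder0 (P : Part A) (K : Kah A) (B : Cb A) {a : ℝ} (ha : 0 < a) (ha1 : a < 1) :
    ∃ C : ℝ, 0 < C ∧ ∀ (x0 : M) (v f : M → ℝ) (N : ℝ), A.Sm v → IsLap (gi K) v f →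
      B.NH a N f → v x0 = 0 → B.N2 a (C * N) v := by
  obtain ⟨C1, hC1, hosc⟩ := osc B
  obtain ⟨Ks, hKs, hsch⟩ := schauder B ha ha1 (pg K)
  obtain ⟨C2, hC2, hgr⟩ := grad_bound P K B ha ha1
  refine ⟨Ks * (1 + C1 * C2), by positivity, fun x0 v f N hv hlap hN hx0 => ?_⟩
  have hN0 : 0 ≤ N := hN.nonneg
  have h1 := hgr x0 v f N hv hlap hN hx0
  have hvb : ∀ x, |v x| ≤ C1 * (C2 * N) := fun x => by
    have := hosc v (C2 * N) hv (by positivity) h1 x x0
    rwa [hx0, sub_zero] at this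
  have h2 := hsch v f N (C1 * (C2 * N)) (Sm2.of_sm ha ha1.le hv) hlap hN hvb
  refine h2.mono (le_of_eq ?_)
  ring

/-- the mean value is bounded by the sup norm -/
theorem abs_const_le (P : Part A) (K : Kah A) {v f : M → ℝ} {m N : ℝ} (hv : A.Sm v)
    (hlap : IsLap (gi K) v fun x => f x - m) (hf : ∀ x, |f x| ≤ N) : |m| ≤ N := by
  let _ : MeasurableSpace M := borel M
  have : BorelSpace M := ⟨rfl⟩
  set μ := vm (volK K) with hμ
  have hμfin : IsFiniteMeasure μ := isFinite_vm (volK K)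
  have hμop : μ.IsOpenPosMeasure := isOpenPos_vm (volK K)
  have hpos : 0 < μ.real univ := by
    rw [measureReal_def]
    exact ENNReal.toReal_pos (isOpen_univ.measure_pos _ univ_nonempty).ne' (measure_ne_top _ _)
  have hfeq : Lap K v = fun x => f x - m := lap_of_isLap K hv hlap
  have h1 := int_Lap P K hv
  have hcf : Continuous fun x => f x - m := by
    rw [← hfeq]
    exact YauMax_635.continuous_of_sm (sm_Lap K hv)
  have hcf' : Continuous f := by
    have h2 := hcf.add (continuous_const (y := m))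
    have e : ((fun x => f x - m) + fun _ => m) = f := by
      funext x
      simp
    rwa [e] at h2
  have hint : Integrable f μ := by
    obtain ⟨C, hC⟩ := isCompact_univ.exists_bound_of_continuousOn hcf'.continuousOn
    exact Integrable.of_bound hcf'.measurable.aestronglyMeasurable C
      (Eventually.of_forall fun x => hC x (mem_univ x))
  rw [hfeq, integral_sub hint (integrable_const _), integral_const, smul_eq_mul, sub_eq_zero] at h1
  have h2 : ‖∫ x, f x ∂μ‖ ≤ N * μ.real univ :=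
    norm_integral_le_of_norm_le_const (Eventually.of_forall fun x => by
      rw [Real.norm_eq_abs]; exact hf x)
  rw [h1, Real.norm_eq_abs, abs_mul, abs_of_pos hpos, mul_comm] at h2
  exact le_of_mul_le_mul_right h2 hpos

end

end Crest.Agent.R273.SchJ_152
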