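import Crest.Agent.R273.PoiA_152
import Crest.Agent.R273.SchJ_152

/-!
Row 273 (S0416), leaf POINC (helper152), part B: Poincaré inequality on a compact connected Kaehler
manifold, `∫ (w - mean)² ≤ C ∫ |∂w|²`, and `∫ (w - mean)² ≤ C ∫ (Lap w)²`.
-/

set_option autoImplicit false
set_option linter.unusedSectionVars false

open Set Metric Filter MeasureTheory
open scoped ContDiff Topology Matrix ComplexConjugate ComplexOrder

namespace Crest.Agent.R273.PoiB_152

open Crest.Agent.R275 Crest.Agent.R275.Geo Crest.Agent.R275.Core144 Crest.Agent.R275.EDR890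
open Crest.Agent.R275.C1d194
open Crest.Agent.R273.Defs_333 Crest.Agent.R273.Hess_333 Crest.Agent.R273.HessB_333
open Crest.Agent.R273.HM_333 Crest.Agent.R273.Kah_333 Crest.Agent.R273.Vol_333
open Crest.Agent.R273.Vm_333
open Crest.Agent.R273.SchA_152 Crest.Agent.R273.SchD_152 Crest.Agent.R273.SchE_152
  Crest.Agent.R273.SchF_152 Crest.Agent.R273.SchG_152 Crest.Agent.R273.SchH_152
  Crest.Agent.R273.SchI_152 Crest.Agent.R273.SchJ_152
open Crest.Agent.R273.YauDefs_635 (cH inC)

noncomputable section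

section loc

variable {n : ℕ}

/-- Lebesgue measure of the real coordinates, on `Cn n` -/
def lm (n : ℕ) : Measure (Cn n) := Measure.map cc (volume : Measure (RI n → ℝ))

theorem emb_cc : MeasurableEmbedding (cc : (RI n → ℝ) → Cn n) := by
  rw [cc_eq]
  exact (rcE n).symm.toContinuousLinearEquiv.toHomeomorph.measurableEmbedding

instance : (lm n).IsAddHaarMeasure := by
  unfold lm
  rw [cc_eq]
  exact (rcE n).symm.toContinuousLinearEquiv.isAddHaarMeasure_map volume

theorem setLIntegral_lm (K : Set (Cn n)) (G : Cn n → ENNReal) :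
    ∫⁻ z in K, G z ∂(lm n) = ∫⁻ y in cc ⁻¹' K, G (cc y) := by
  unfold lm
  rw [emb_cc.restrict_map, emb_cc.lintegral_map]

/-- extension of a `C¹` function from a neighbourhood of a closed ball -/
theorem exists_ext1 {x0 : Cn n} {R : ℝ} (hR : 0 < R) {U : Set (Cn n)} (hU : IsOpen U)
    (hRU : closedBall x0 R ⊆ U) {u : Cn n → ℝ} (hu : ContDiffOn ℝ 1 u U) :
    ∃ (W : Set (Cn n)) (u' : Cn n → ℝ), IsOpen W ∧ closedBall x0 R ⊆ W ∧ ContDiff ℝ 1 u' ∧
      ∀ x ∈ W, u' x = u x := by
  obtain ⟨δ, hδ, hδU⟩ := (isCompact_closedBall x0 R).exists_cthickening_subset_open hU hRU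
  have hsub : closedBall x0 (R + δ) ⊆ U := by
    intro x hx
    refine hδU ?_
    rw [cthickening_closedBall hδ.le hR.le]
    exact closedBall_subset_closedBall (by linarith) hx
  let f : ContDiffBump x0 := ⟨R + δ / 3, R + 2 * δ / 3, by positivity, by linarith⟩
  refine ⟨ball x0 (R + δ / 3), fun x => f x * u x, isOpen_ball,
    closedBall_subset_ball (by linarith), ?_, ?_⟩
  · rw [contDiff_iff_contDiffAt]
    intro x
    by_cases hx : x ∈ U
    · exact (f.contDiff.contDiffAt).mul (hu.contDiffAt (hU.mem_nhds hx))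
    · have h1 : x ∉ closedBall x0 (R + 2 * δ / 3) := fun h =>
        hx (hsub (closedBall_subset_closedBall (by linarith) h))
      have h2 : (closedBall x0 (R + 2 * δ / 3))ᶜ ∈ 𝓝 x :=
        isClosed_closedBall.isOpen_compl.mem_nhds h1
      refine (contDiffAt_const (c := (0 : ℝ))).congr_of_eventuallyEq ?_
      filter_upwards [h2] with y hy
      rw [mem_compl_iff, mem_closedBall, not_le] at hy
      have : f y = 0 := f.zero_of_le_dist hy.le
      rw [this, zero_mul]
  · intro x hx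
    have : f x = 1 := f.one_of_mem_closedBall (ball_subset_closedBall hx)
    show f x * u x = u x
    rw [this, one_mul]

/-- local Poincaré inequality on closed balls -/
theorem lpoinc_ball {z : Cn n} {R : ℝ} (hR : 0 < R) :
    ∃ C : ℝ, 0 ≤ C ∧ ∀ (U : Set (Cn n)) (u : Cn n → ℝ), IsOpen U → closedBall z R ⊆ U →
      ContDiffOn ℝ 1 u U → ∃ c : ℝ,
      ∫⁻ x in closedBall z R, ENNReal.ofReal ((u x - c) ^ 2) ∂(lm n) ≤
        ENNReal.ofReal C *
          ∫⁻ x in closedBall z R, ENNReal.ofReal (‖fderiv ℝ u x‖ ^ 2) ∂(lm n) := by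
  obtain ⟨C, hC, H⟩ := PoiA_152.lpoinc (lm n) (isCompact_closedBall z R)
    (convex_closedBall z R) (measure_closedBall_pos _ _ hR).ne'
  refine ⟨C, hC, fun U u hU hz hu => ?_⟩
  obtain ⟨W, u', hW, hzW, hu', he⟩ := exists_ext1 hR hU hz hu
  obtain ⟨c, hc⟩ := H u' hu'
  refine ⟨c, ?_⟩
  have e1 : ∫⁻ x in closedBall z R, ENNReal.ofReal ((u x - c) ^ 2) ∂(lm n) =
      ∫⁻ x in closedBall z R, ENNReal.ofReal ((u' x - c) ^ 2) ∂(lm n) :=
    setLIntegral_congr_fun measurableSet_closedBall fun x hx => by rw [he x (hzW hx)]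
  have e2 : ∫⁻ x in closedBall z R, ENNReal.ofReal (‖fderiv ℝ u x‖ ^ 2) ∂(lm n) =
      ∫⁻ x in closedBall z R, ENNReal.ofReal (‖fderiv ℝ u' x‖ ^ 2) ∂(lm n) :=
    setLIntegral_congr_fun measurableSet_closedBall fun x hx => by
      have h1 : u' =ᶠ[𝓝 x] u := Filter.eventually_of_mem (hW.mem_nhds (hzW hx)) he
      simp only [h1.fderiv_eq]
  rw [e1, e2]
  exact hc

end loc

variable {n : ℕ} {M : Type} [TopologicalSpace M] {A : Atl n M}

section chart

variable [T2Space M] [MeasurableSpace M] [BorelSpace M]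

theorem isCompact_cp {i : A.ι} {K : Set (Cn n)} (hK : IsCompact K) (hKi : K ⊆ (A.e i).target) :
    IsCompact ((A.e i).source ∩ (A.e i) ⁻¹' K) := by
  rw [← (A.e i).symm_image_eq_source_inter_preimage hKi]
  exact hK.image_of_continuousOn ((A.e i).continuousOn_symm.mono hKi)

/-- the measure read in a chart -/
theorem setLIntegral_chart [Countable A.ι] (h : HM (KB A)⁻¹) (i : A.ι) {K : Set (Cn n)}
    (hK : IsCompact K)
    (hKi : K ⊆ (A.e i).target) {F : M → ENNReal} (hF : Measurable F) :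
    ∫⁻ x in (A.e i).source ∩ (A.e i) ⁻¹' K, F x ∂(vm h) =
      ∫⁻ z in K, ENNReal.ofReal (h.w i ((A.e i).symm z)) * F ((A.e i).symm z) ∂(lm n) := by
  set V := (A.e i).source ∩ (A.e i) ⁻¹' K with hVd
  have hV : MeasurableSet V := (isCompact_cp hK hKi).measurableSet
  have h1 : ∫⁻ x in V, F x ∂(vm h) = ∫⁻ x in (A.e i).source, V.indicator F x ∂(vm h) := by
    rw [setLIntegral_indicator hV]
    congr 2
    exact (inter_eq_left.2 fun x hx => hx.1).symm
  rw [h1, setLIntegral_vm h i (hF.indicator hV), setLIntegral_lm]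
  have hKm : MeasurableSet (cc ⁻¹' K : Set (RI n → ℝ)) := hK.measurableSet.preimage
    emb_cc.measurable
  have hsub : (cc ⁻¹' K : Set (RI n → ℝ)) ⊆ Ui A i := fun y hy => hKi hy
  have e : ∀ y ∈ Ui A i, dn h i y * V.indicator F (sg A i y) =
      (cc ⁻¹' K : Set (RI n → ℝ)).indicator
        (fun y => ENNReal.ofReal (h.w i ((A.e i).symm (cc y))) * F ((A.e i).symm (cc y))) y := by
    intro y hy
    by_cases hyK : cc y ∈ K
    · have : sg A i y ∈ V := by
        refine ⟨sg_mem hy, ?_⟩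
        show A.e i ((A.e i).symm (cc y)) ∈ K
        rw [(A.e i).right_inv hy]
        exact hyK
      rw [indicator_of_mem this, indicator_of_mem (show y ∈ cc ⁻¹' K from hyK)]
      rfl
    · have : sg A i y ∉ V := by
        intro h2
        have h3 : A.e i ((A.e i).symm (cc y)) ∈ K := h2.2
        rw [(A.e i).right_inv hy] at h3
        exact hyK h3
      rw [indicator_of_notMem this, indicator_of_notMem (show y ∉ cc ⁻¹' K from hyK), mul_zero]
  rw [setLIntegral_congr_fun (Vm_333.isOpen_Ui i).measurableSet e, setLIntegral_indicator hKm]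
  congr 2
  exact inter_eq_left.2 hsub

end chart

variable [T2Space M] [CompactSpace M] [ConnectedSpace M] [Finite A.ι] [MeasurableSpace M]
  [BorelSpace M]

/-- the Poincaré property of a set -/
def Q (K : Kah A) (S : Set M) : Prop :=
  ∃ C : ℝ, 0 ≤ C ∧ ∀ w : M → ℝ, A.Sm w → ∃ c : ℝ,
    ∫ x in S, (w x - c) ^ 2 ∂(vm (volK K)) ≤ C * ∫ x, Dg K w x ∂(vm (volK K))

theorem integrable_of_cont (K : Kah A) {g : M → ℝ} (hg : Continuous g) :
    Integrable g (vm (volK K)) := by
  have := isFinite_vm (volK K)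
  obtain ⟨C, hC⟩ := isCompact_univ.exists_bound_of_continuousOn hg.continuousOn
  exact Integrable.of_bound hg.measurable.aestronglyMeasurable C
    (Eventually.of_forall fun x => hC x (mem_univ x))

theorem int_Dg_nonneg (K : Kah A) {w : M → ℝ} (hw : A.Sm w) :
    0 ≤ ∫ x, Dg K w x ∂(vm (volK K)) :=
  integral_nonneg fun x => Dg_nonneg K hw x

/-- the Poincaré property of chart balls -/
theorem q_ball (K : Kah A) (i : A.ι) {z : Cn n} {R : ℝ} (hR : 0 < R)
    (hz : closedBall z R ⊆ (A.e i).target) :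
    Q K ((A.e i).source ∩ (A.e i) ⁻¹' closedBall z R) := by
  set μ := vm (volK K) with hμ
  have hμfin := isFinite_vm (volK K)
  have hKc := isCompact_closedBall z R
  obtain ⟨C0, hC0, H⟩ := lpoinc_ball (z := z) hR
  obtain ⟨lo, hi, hlo, -, hell⟩ := exists_ell (G := gi K i) hKc
    (fun a b => ((pg K).sm _ a b).continuousOn.mono hz)
    (fun w hw => (pg K).pos _ w (hz hw))
  -- bounds of the density
  have hwc : ContinuousOn (fun z => (volK K).w i ((A.e i).symm z)) (closedBall z R) :=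
    ((volK K).sm i).continuousOn.mono hz
  have hwpos : ∀ w ∈ closedBall z R, 0 < (volK K).w i ((A.e i).symm w) := fun w hw =>
    (volK K).pos i _ ((A.e i).map_target (hz hw))
  obtain ⟨W1, hW1⟩ := hKc.exists_bound_of_continuousOn hwc
  obtain ⟨w0, hw0, hw1⟩ := hKc.exists_forall_le' hwc (a := 0) hwpos
  have hW1' : 0 ≤ W1 := (norm_nonneg _).trans (hW1 z (mem_closedBall_self hR.le))
  refine ⟨W1 * C0 * (4 / lo) * w0⁻¹, by positivity, fun v hv => ?_⟩
  obtain ⟨c, hc⟩ := H (A.e i).target (inC A i v) (A.e i).open_target hz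
    ((hv i).of_le (WithTop.coe_le_coe.2 (le_top : (1 : ℕ∞) ≤ ⊤)))
  refine ⟨c, ?_⟩
  have hvc : Continuous v := YauMax_635.continuous_of_sm hv
  have hDc := continuous_Dg K hv
  have hF : Continuous fun x => (v x - c) ^ 2 := (hvc.sub continuous_const).pow 2
  -- the left hand side
  have hL : ∫⁻ x in (A.e i).source ∩ (A.e i) ⁻¹' closedBall z R,
      ENNReal.ofReal ((v x - c) ^ 2) ∂μ ≤
      ENNReal.ofReal W1 * ∫⁻ x in closedBall z R, ENNReal.ofReal ((inC A i v x - c) ^ 2)
        ∂(lm n) := by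
    rw [setLIntegral_chart (volK K) i hKc hz hF.measurable.ennreal_ofReal,
      ← lintegral_const_mul' _ _ ENNReal.ofReal_ne_top]
    refine setLIntegral_mono' measurableSet_closedBall fun w hw => ?_
    refine mul_le_mul_left (ENNReal.ofReal_le_ofReal ?_) _
    exact (le_abs_self _).trans (hW1 w hw)
  -- the right hand side
  have hRR : ∫⁻ x in closedBall z R, ENNReal.ofReal (‖fderiv ℝ (inC A i v) x‖ ^ 2) ∂(lm n) ≤
      ENNReal.ofReal ((4 / lo) * w0⁻¹) * ∫⁻ x in (A.e i).source ∩ (A.e i) ⁻¹' closedBall z R,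
        ENNReal.ofReal (Dg K v x) ∂μ := by
    rw [setLIntegral_chart (volK K) i hKc hz hDc.measurable.ennreal_ofReal,
      ← lintegral_const_mul' _ _ ENNReal.ofReal_ne_top]
    refine setLIntegral_mono' measurableSet_closedBall fun w hw => ?_
    rw [← ENNReal.ofReal_mul (hwpos w hw).le, ← ENNReal.ofReal_mul (by positivity)]
    refine ENNReal.ofReal_le_ofReal ?_
    have h1 := Dg_lb K hv (hz hw) hlo.le (hell w hw)
    have h2 := hw1 w hw
    have h3 : 0 ≤ Dg K v ((A.e i).symm w) := Dg_nonneg K hv _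
    calc ‖fderiv ℝ (inC A i v) w‖ ^ 2 = (4 / lo) * (lo / 4 * ‖fderiv ℝ (inC A i v) w‖ ^ 2) := by
          field_simp
      _ ≤ (4 / lo) * Dg K v ((A.e i).symm w) := mul_le_mul_of_nonneg_left h1 (by positivity)
      _ = (4 / lo) * w0⁻¹ * (w0 * Dg K v ((A.e i).symm w)) := by field_simp
      _ ≤ (4 / lo) * w0⁻¹ * ((volK K).w i ((A.e i).symm w) * Dg K v ((A.e i).symm w)) := by
          refine mul_le_mul_of_nonneg_left ?_ (by positivity)
          exact mul_le_mul_of_nonneg_right h2 h3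
  have hfinal : ∫⁻ x in (A.e i).source ∩ (A.e i) ⁻¹' closedBall z R,
      ENNReal.ofReal ((v x - c) ^ 2) ∂μ ≤
      ENNReal.ofReal (W1 * C0 * (4 / lo) * w0⁻¹ * ∫ x, Dg K v x ∂μ) := by
    have hI : ∫⁻ x in (A.e i).source ∩ (A.e i) ⁻¹' closedBall z R,
        ENNReal.ofReal (Dg K v x) ∂μ ≤ ENNReal.ofReal (∫ x, Dg K v x ∂μ) := by
      rw [ofReal_integral_eq_lintegral_ofReal (integrable_of_cont K hDc)
        (Eventually.of_forall fun x => Dg_nonneg K hv x)]
      exact setLIntegral_le_lintegral _ _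
    calc _ ≤ _ := hL
      _ ≤ ENNReal.ofReal W1 * (ENNReal.ofReal C0 *
          ∫⁻ x in closedBall z R, ENNReal.ofReal (‖fderiv ℝ (inC A i v) x‖ ^ 2) ∂(lm n)) := by
          gcongr
      _ ≤ ENNReal.ofReal W1 * (ENNReal.ofReal C0 * (ENNReal.ofReal ((4 / lo) * w0⁻¹) *
          ENNReal.ofReal (∫ x, Dg K v x ∂μ))) := by
          gcongr
          exact hRR.trans (by gcongr)
      _ = _ := by
          rw [← ENNReal.ofReal_mul (by positivity), ← ENNReal.ofReal_mul hC0,
            ← ENNReal.ofReal_mul hW1']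
          congr 1
          ring
  have hint : Integrable (fun x => (v x - c) ^ 2) μ := integrable_of_cont K hF
  rw [← ofReal_integral_eq_lintegral_ofReal hint.integrableOn
    (Eventually.of_forall fun x => sq_nonneg _)] at hfinal
  refine (ENNReal.ofReal_le_ofReal_iff ?_).1 hfinal
  have := int_Dg_nonneg K hv
  positivity

/-- overlapping sets -/
theorem Q.union {K : Kah A} {S T : Set M} (hS : Q K S) (hT : Q K T) (hSm : MeasurableSet S)
    (hTm : MeasurableSet T) (hpos : 0 < (vm (volK K)).real (S ∩ T)) : Q K (S ∪ T) := by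
  set μ := vm (volK K) with hμ
  have hμfin := isFinite_vm (volK K)
  obtain ⟨C, hC, H⟩ := hS
  obtain ⟨C', hC', H'⟩ := hT
  set m := μ.real (S ∩ T) with hm
  have hμT : 0 ≤ μ.real T := measureReal_nonneg
  refine ⟨C + 2 * C' + 2 * μ.real T * ((2 * C + 2 * C') / m), by positivity, fun v hv => ?_⟩
  obtain ⟨c, hc⟩ := H v hv
  obtain ⟨c', hc'⟩ := H' v hv
  have hvc : Continuous v := YauMax_635.continuous_of_sm hv
  have hint : ∀ b : ℝ, Integrable (fun x => (v x - b) ^ 2) μ := fun b =>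
    integrable_of_cont K ((hvc.sub continuous_const).pow 2)
  set D := ∫ x, Dg K v x ∂μ with hD
  have hD0 : 0 ≤ D := int_Dg_nonneg K hv
  -- the difference of the constants
  have h1 : m * (c - c') ^ 2 ≤ (2 * C + 2 * C') * D := by
    have e1 : m * (c - c') ^ 2 = ∫ _x in S ∩ T, (c - c') ^ 2 ∂μ := by
      rw [setIntegral_const, smul_eq_mul]
    have e2 : ∫ _x in S ∩ T, (c - c') ^ 2 ∂μ ≤
        ∫ x in S ∩ T, (2 * (v x - c) ^ 2 + 2 * (v x - c') ^ 2) ∂μ := by
      refine integral_mono (integrable_const _)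
        (((hint c).integrableOn.const_mul 2).add ((hint c').integrableOn.const_mul 2)) fun x => ?_
      nlinarith [sq_nonneg (v x - c + (v x - c'))]
    have e3 : ∫ x in S ∩ T, (2 * (v x - c) ^ 2 + 2 * (v x - c') ^ 2) ∂μ =
        2 * ∫ x in S ∩ T, (v x - c) ^ 2 ∂μ + 2 * ∫ x in S ∩ T, (v x - c') ^ 2 ∂μ := by
      rw [integral_add ((hint c).integrableOn.const_mul 2) ((hint c').integrableOn.const_mul 2),
        integral_const_mul, integral_const_mul]
    have e4 : ∫ x in S ∩ T, (v x - c) ^ 2 ∂μ ≤ ∫ x in S, (v x - c) ^ 2 ∂μ :=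
      setIntegral_mono_set (hint c).integrableOn
        (Eventually.of_forall fun x => sq_nonneg _)
        (Eventually.of_forall fun x hx => hx.1)
    have e5 : ∫ x in S ∩ T, (v x - c') ^ 2 ∂μ ≤ ∫ x in T, (v x - c') ^ 2 ∂μ :=
      setIntegral_mono_set (hint c').integrableOn
        (Eventually.of_forall fun x => sq_nonneg _)
        (Eventually.of_forall fun x hx => hx.2)
    rw [e1]
    linarith
  have h2 : (c - c') ^ 2 ≤ (2 * C + 2 * C') / m * D := by
    rw [div_mul_eq_mul_div, le_div_iff₀ hpos]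
    linarith
  refine ⟨c, ?_⟩
  have h3 : ∫ x in S ∪ T, (v x - c) ^ 2 ∂μ ≤
      ∫ x in S, (v x - c) ^ 2 ∂μ + ∫ x in T, (v x - c) ^ 2 ∂μ := by
    have e1 : S ∪ T = S ∪ (T \ S) := by simp
    have e2 : ∫ x in T \ S, (v x - c) ^ 2 ∂μ ≤ ∫ x in T, (v x - c) ^ 2 ∂μ :=
      setIntegral_mono_set (hint c).integrableOn
        (Eventually.of_forall fun x => sq_nonneg _)
        (Eventually.of_forall fun x hx => hx.1)
    rw [e1, setIntegral_union disjoint_sdiff_right (hTm.diff hSm) (hint c).integrableOn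
      (hint c).integrableOn]
    linarith
  have h4 : ∫ x in T, (v x - c) ^ 2 ∂μ ≤
      2 * ∫ x in T, (v x - c') ^ 2 ∂μ + 2 * μ.real T * (c - c') ^ 2 := by
    have e1 : ∫ x in T, (v x - c) ^ 2 ∂μ ≤
        ∫ x in T, (2 * (v x - c') ^ 2 + 2 * (c - c') ^ 2) ∂μ := by
      refine integral_mono (hint c).integrableOn
        (((hint c').integrableOn.const_mul 2).add (integrable_const _)) fun x => ?_
      nlinarith [sq_nonneg (v x - c' + (c - c'))]
    have e2 : ∫ x in T, (2 * (v x - c') ^ 2 + 2 * (c - c') ^ 2) ∂μ =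
        2 * ∫ x in T, (v x - c') ^ 2 ∂μ + 2 * μ.real T * (c - c') ^ 2 := by
      rw [integral_add ((hint c').integrableOn.const_mul 2) (integrable_const _),
        integral_const_mul, setIntegral_const, smul_eq_mul]
      ring
    linarith
  have h5 := mul_le_mul_of_nonneg_left h2 (by positivity : 0 ≤ 2 * μ.real T)
  calc _ ≤ _ := h3
    _ ≤ C * D + (2 * (C' * D) + 2 * μ.real T * ((2 * C + 2 * C') / m * D)) := by linarith
    _ = _ := by ring

theorem Q.mono {K : Kah A} {S T : Set M} (hT : Q K T) (hST : S ⊆ T) : Q K S := by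
  obtain ⟨C, hC, H⟩ := hT
  refine ⟨C, hC, fun v hv => ?_⟩
  obtain ⟨c, hc⟩ := H v hv
  have hvc : Continuous v := YauMax_635.continuous_of_sm hv
  have hint : Integrable (fun x => (v x - c) ^ 2) (vm (volK K)) :=
    integrable_of_cont K ((hvc.sub continuous_const).pow 2)
  exact ⟨c, (setIntegral_mono_set hint.integrableOn (Eventually.of_forall fun x => sq_nonneg _)
      (Eventually.of_forall fun x hx => hST hx)).trans hc⟩

/-- the Poincaré property of `M` -/
theorem q_univ (K : Kah A) : Q K (univ : Set M) := by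
  classical
  set μ := vm (volK K) with hμ
  have hμfin := isFinite_vm (volK K)
  have hμop : μ.IsOpenPosMeasure := isOpenPos_vm (volK K)
  have hposn : ∀ (S : Set M) (x : M), S ∈ 𝓝 x → 0 < μ.real S := fun S x hS => by
    rw [measureReal_def]
    exact ENNReal.toReal_pos (Measure.measure_pos_of_mem_nhds μ hS).ne' (measure_ne_top _ _)
  -- the relation
  set P : M → M → Prop := fun x y => ∃ S : Set M, MeasurableSet S ∧ S ∈ 𝓝 x ∧ S ∈ 𝓝 y ∧ Q K S
    with hP
  have hsymm : Std.Symm P := ⟨by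
    rintro x y ⟨S, h1, h2, h3, h4⟩
    exact ⟨S, h1, h3, h2, h4⟩⟩
  have htrans : IsTrans M P := ⟨by
    rintro x y z ⟨S, h1, h2, h3, h4⟩ ⟨T, g1, g2, g3, g4⟩
    refine ⟨S ∪ T, h1.union g1, mem_of_superset h2 subset_union_left,
      mem_of_superset g3 subset_union_right, h4.union g4 h1 g1 ?_⟩
    exact hposn _ y (inter_mem h3 g2)⟩
  have hloc : ∀ x : M, ∃ S : Set M, MeasurableSet S ∧ S ∈ 𝓝 x ∧ Q K S := by
    intro x
    obtain ⟨i, hi⟩ := A.cover x
    obtain ⟨R, hR, hRt⟩ := Metric.nhds_basis_closedBall.mem_iff.1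
      ((A.e i).open_target.mem_nhds ((A.e i).map_source hi))
    refine ⟨(A.e i).source ∩ (A.e i) ⁻¹' closedBall (A.e i x) R,
      (isCompact_cp (isCompact_closedBall _ _) hRt).measurableSet, ?_, q_ball K i hR hRt⟩
    have ho : IsOpen ((A.e i).source ∩ (A.e i) ⁻¹' ball (A.e i x) R) :=
      (A.e i).isOpen_inter_preimage isOpen_ball
    refine mem_of_superset (ho.mem_nhds ⟨hi, mem_ball_self hR⟩) ?_
    exact inter_subset_inter_right _ (preimage_mono ball_subset_closedBall)
  have hall : ∀ x y, P x y := by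
    refine PreconnectedSpace.induction₂ P ?_ htrans
    intro x
    obtain ⟨S, h1, h2, h3⟩ := hloc x
    filter_upwards [eventually_mem_nhds_iff.2 h2] with y hy
    exact ⟨S, h1, h2, hy, h3⟩
  obtain ⟨x0⟩ : Nonempty M := inferInstance
  -- compactness
  have hcov : ∃ S : Set M, univ ⊆ S ∧ MeasurableSet S ∧ S ∈ 𝓝 x0 ∧ Q K S := by
    refine isCompact_univ.induction_on
      (p := fun s => ∃ S : Set M, s ⊆ S ∧ MeasurableSet S ∧ S ∈ 𝓝 x0 ∧ Q K S) ?_ ?_ ?_ ?_
    · obtain ⟨S, h1, h2, h3⟩ := hloc x0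
      exact ⟨S, empty_subset _, h1, h2, h3⟩
    · rintro s t hst ⟨S, h0, h1, h2, h3⟩
      exact ⟨S, hst.trans h0, h1, h2, h3⟩
    · rintro s t ⟨S, h0, h1, h2, h3⟩ ⟨T, g0, g1, g2, g3⟩
      exact ⟨S ∪ T, union_subset_union h0 g0, h1.union g1, mem_of_superset h2 subset_union_left,
        h3.union g3 h1 g1 (hposn _ x0 (inter_mem h2 g2))⟩
    · intro x _
      obtain ⟨S, h1, h2, h3, h4⟩ := hall x x0
      exact ⟨S, mem_nhdsWithin_of_mem_nhds h2, S, Subset.rfl, h1, h3, h4⟩
  obtain ⟨S, h0, -, -, h3⟩ := hcov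
  exact h3.mono h0

/-- **Poincaré inequality** -/
theorem poinc (K : Kah A) :
    ∃ C : ℝ, 0 < C ∧ ∀ w : M → ℝ, A.Sm w →
      ∫ x, (w x - (∫ y, w y ∂(vm (volK K))) / (vm (volK K)).real univ) ^ 2 ∂(vm (volK K)) ≤
        C * ∫ x, Dg K w x ∂(vm (volK K)) := by
  obtain ⟨C, hC, H⟩ := q_univ K
  set μ := vm (volK K) with hμ
  have hμfin := isFinite_vm (volK K)
  have hμop : μ.IsOpenPosMeasure := isOpenPos_vm (volK K)
  have hpos : 0 < μ.real univ := by
    rw [measureReal_def]
    exact ENNReal.toReal_pos (isOpen_univ.measure_pos _ univ_nonempty).ne' (measure_ne_top _ _)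
  refine ⟨C + 1, by positivity, fun w hw => ?_⟩
  obtain ⟨c, hc⟩ := H w hw
  rw [setIntegral_univ] at hc
  have hwc : Continuous w := YauMax_635.continuous_of_sm hw
  have hint : ∀ b : ℝ, Integrable (fun x => (w x - b) ^ 2) μ := fun b =>
    integrable_of_cont K ((hwc.sub continuous_const).pow 2)
  have hiw : Integrable w μ := integrable_of_cont K hwc
  set m := (∫ y, w y ∂μ) / μ.real univ with hm
  have hmI : ∫ y, w y ∂μ = m * μ.real univ := by
    rw [hm, div_mul_cancel₀ _ hpos.ne']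
  have e1 : ∫ x, (w x - c) ^ 2 ∂μ = ∫ x, (w x - m) ^ 2 ∂μ + (m - c) ^ 2 * μ.real univ := by
    have e2 : (fun x => (w x - c) ^ 2) = fun x => (w x - m) ^ 2 +
        (2 * (m - c) * w x + (-(2 * (m - c) * m) + (m - c) ^ 2)) := by
      funext x; ring
    have i1 : Integrable (fun x => 2 * (m - c) * w x + (-(2 * (m - c) * m) + (m - c) ^ 2)) μ :=
      (hiw.const_mul _).add (integrable_const _)
    rw [e2, integral_add (hint m) i1,
      integral_add (hiw.const_mul _) (integrable_const _), integral_const_mul, hmI,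
      integral_const, smul_eq_mul]
    ring
  have h1 := int_Dg_nonneg K hw
  have h2 : 0 ≤ (m - c) ^ 2 * μ.real univ := by positivity
  calc ∫ x, (w x - m) ^ 2 ∂μ ≤ ∫ x, (w x - c) ^ 2 ∂μ := by linarith
    _ ≤ C * ∫ x, Dg K w x ∂μ := hc
    _ ≤ (C + 1) * ∫ x, Dg K w x ∂μ := by linarith

/-- the energy identity -/
theorem int_Dg (P : Part A) (K : Kah A) {w : M → ℝ} (hw : A.Sm w) (c : ℝ) :
    ∫ x, Dg K w x ∂(vm (volK K)) = - ∫ x, (w x - c) * Lap K w x ∂(vm (volK K)) := by
  have hwc : Continuous w := YauMax_635.continuous_of_sm hw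
  have hLc : Continuous (Lap K w) := YauMax_635.continuous_of_sm (sm_Lap K hw)
  have hL2 : Continuous (Lap K fun y => w y ^ 2) :=
    YauMax_635.continuous_of_sm (sm_Lap K (sm_sq hw))
  have e1 : ∫ x, Dg K w x ∂(vm (volK K)) =
      ∫ x, (1 / 2) * Lap K (fun y => w y ^ 2) x ∂(vm (volK K)) -
        ∫ x, w x * Lap K w x ∂(vm (volK K)) :=
    integral_sub (integrable_of_cont K (continuous_const.mul hL2))
      (integrable_of_cont K (hwc.mul hLc))
  have e2 : ∫ x, (w x - c) * Lap K w x ∂(vm (volK K)) =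
      ∫ x, w x * Lap K w x ∂(vm (volK K)) := by
    have e3 : (fun x => (w x - c) * Lap K w x) = fun x => w x * Lap K w x - c * Lap K w x := by
      funext x; ring
    have i1 : Integrable (fun x => w x * Lap K w x) (vm (volK K)) :=
      integrable_of_cont K (hwc.mul hLc)
    have i2 : Integrable (fun x => c * Lap K w x) (vm (volK K)) :=
      integrable_of_cont K (continuous_const.mul hLc)
    rw [e3, integral_sub i1 i2, integral_const_mul, int_Lap P K hw, mul_zero, sub_zero]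
  rw [e1, integral_const_mul, int_Lap P K (sm_sq hw), mul_zero, zero_sub, e2]

/-- `‖w - mean‖₂² ≤ C ‖Lap w‖₂²` -/
theorem l2_bound (P : Part A) (K : Kah A) :
    ∃ C : ℝ, 0 < C ∧ ∀ w : M → ℝ, A.Sm w →
      ∫ x, (w x - (∫ y, w y ∂(vm (volK K))) / (vm (volK K)).real univ) ^ 2 ∂(vm (volK K)) ≤
        C * ∫ x, (Lap K w x) ^ 2 ∂(vm (volK K)) := by
  obtain ⟨C, hC, H⟩ := poinc K
  refine ⟨C ^ 2, by positivity, fun w hw => ?_⟩
  set μ := vm (volK K) with hμ
  set m := (∫ y, w y ∂μ) / μ.real univ with hm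
  have hwc : Continuous w := YauMax_635.continuous_of_sm hw
  have hLc : Continuous (Lap K w) := YauMax_635.continuous_of_sm (sm_Lap K hw)
  have h1 := H w hw
  rw [int_Dg P K hw m] at h1
  -- `- a b ≤ a²/(2C) + C b²/2`
  have h2 : - ∫ x, (w x - m) * Lap K w x ∂μ ≤
      ∫ x, ((w x - m) ^ 2 / (2 * C) + C / 2 * (Lap K w x) ^ 2) ∂μ := by
    rw [← integral_neg]
    refine integral_mono (integrable_of_cont K (((hwc.sub continuous_const).mul hLc).neg))
      (integrable_of_cont K ((((hwc.sub continuous_const).pow 2).div_const _).add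
        (continuous_const.mul (hLc.pow 2)))) fun x => ?_
    have h3 : 0 ≤ ((w x - m) + C * Lap K w x) ^ 2 / (2 * C) := by positivity
    have h4 : ((w x - m) + C * Lap K w x) ^ 2 / (2 * C) =
        (w x - m) ^ 2 / (2 * C) + (w x - m) * Lap K w x + C / 2 * (Lap K w x) ^ 2 := by
      field_simp
      ring
    show -((w x - m) * Lap K w x) ≤ (w x - m) ^ 2 / (2 * C) + C / 2 * (Lap K w x) ^ 2
    linarith
  have h5 : ∫ x, ((w x - m) ^ 2 / (2 * C) + C / 2 * (Lap K w x) ^ 2) ∂μ =
      (∫ x, (w x - m) ^ 2 ∂μ) / (2 * C) + C / 2 * ∫ x, (Lap K w x) ^ 2 ∂μ := by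
    have i1 : Integrable (fun x => (w x - m) ^ 2 / (2 * C)) μ :=
      integrable_of_cont K (((hwc.sub continuous_const).pow 2).div_const _)
    have i2 : Integrable (fun x => C / 2 * (Lap K w x) ^ 2) μ :=
      integrable_of_cont K (continuous_const.mul (hLc.pow 2))
    rw [integral_add i1 i2, integral_div, integral_const_mul]
  rw [h5] at h2
  have h6 := mul_le_mul_of_nonneg_left h2 hC.le
  have h7 : C * ((∫ x, (w x - m) ^ 2 ∂μ) / (2 * C) + C / 2 * ∫ x, (Lap K w x) ^ 2 ∂μ) =
      (∫ x, (w x - m) ^ 2 ∂μ) / 2 + C ^ 2 / 2 * ∫ x, (Lap K w x) ^ 2 ∂μ := by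
    field_simp
  rw [h7] at h6
  linarith

end

end Crest.Agent.R273.PoiB_152
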