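import Crest.Agent.R273.RegC_844

/-!
# Row 273, leaf A-PSI (helper283), part A: upper regularised `limsup` of families of psh functions

`limsup_psh`: families `𝒢 m` of psh functions on a Riemann domain, locally uniformly bounded above
for large `m`; the regularised `limsup` is psh, is bounded below by every continuous pointwise lower
bound and bounded above by every continuous pointwise upper bound (Hartogs).
-/

set_option autoImplicit false
set_option linter.unusedSectionVars false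

open MeasureTheory Set Metric Filter Topology
open scoped ENNReal ContDiff

noncomputable section

namespace Crest.Agent.R273.Psi_283

open Crest.Agent.R275.FL606 Crest.Agent.R271.Ho51 Crest.Agent.R273.Reg_844
open Crest.Agent.R271.W792 (lev)

/-! ### reverse Fatou -/

lemma fatou_neg {α : Type*} [MeasurableSpace α] {μ : Measure α} {f : ℕ → α → ℝ} {F : α → ℝ}
    {c : ℝ} (hf : ∀ j, Integrable (f j) μ) (hF : Integrable F μ) (h0 : ∀ j x, f j x ≤ 0)
    (hlim : ∀ x, ∀ c' > F x, ∀ᶠ j in atTop, f j x ≤ c') (hc : ∀ j, c ≤ ∫ x, f j x ∂μ) :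
    c ≤ ∫ x, F x ∂μ := by
  have hc0 : c ≤ 0 := (hc 0).trans (integral_nonpos (h0 0))
  have h1 : ∫⁻ x, ENNReal.ofReal (-F x) ∂μ ≤
      liminf (fun j => ∫⁻ x, ENNReal.ofReal (-f j x) ∂μ) atTop := by
    refine le_trans (lintegral_mono fun x => ?_)
      (lintegral_liminf_le' (f := fun j x => ENNReal.ofReal (-f j x)) fun j =>
        (hf j).1.aemeasurable.neg.ennreal_ofReal)
    refine le_of_forall_lt fun a ha => ?_
    obtain ⟨a', ha1, ha2⟩ := exists_between ha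
    refine lt_of_lt_of_le ha1 (le_liminf_of_le (a := a') (by isBoundedDefault) ?_)
    have ha' : a' ≠ ⊤ := ha2.ne_top
    have ha3 : a'.toReal < -F x := by
      rw [← ENNReal.ofReal_toReal ha'] at ha2
      exact (ENNReal.ofReal_lt_ofReal_iff'.1 ha2).1
    filter_upwards [hlim x (-a'.toReal) (by linarith)] with j hj
    rw [← ENNReal.ofReal_toReal ha']
    exact ENNReal.ofReal_le_ofReal (by linarith)
  have h2 : liminf (fun j => ∫⁻ x, ENNReal.ofReal (-f j x) ∂μ) atTop ≤ ENNReal.ofReal (-c) := by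
    refine liminf_le_of_le (by isBoundedDefault) fun b hb => ?_
    obtain ⟨j, hj⟩ := hb.exists
    refine hj.trans ?_
    have e1 := ofReal_integral_eq_lintegral_ofReal (μ := μ) (f := fun x => -f j x) (hf j).neg
      (Eventually.of_forall fun x => by have := h0 j x; simpa using this)
    rw [← e1, integral_neg]
    have := hc j
    exact ENNReal.ofReal_le_ofReal (by linarith)
  have h3 : -∫ x, F x ∂μ ≤ (∫⁻ x, ENNReal.ofReal (-F x) ∂μ).toReal := by
    have e1 := integral_eq_lintegral_pos_part_sub_lintegral_neg_part (μ := μ)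
      (f := fun x => -F x) hF.neg
    rw [integral_neg] at e1
    have := ENNReal.toReal_nonneg (a := ∫⁻ x, ENNReal.ofReal (-(-F x)) ∂μ)
    linarith
  have h4 : (∫⁻ x, ENNReal.ofReal (-F x) ∂μ).toReal ≤ -c := by
    have := ENNReal.toReal_mono ENNReal.ofReal_ne_top (h1.trans h2)
    rwa [ENNReal.toReal_ofReal (by linarith)] at this
  linarith

/-! ### the regularised limsup -/

variable {n : ℕ} {M : Type*} [TopologicalSpace M] [RDom n M]

/-- `c` is an upper bound of the functions of `𝒢 m`, `m` large, near `x` -/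
def UB (𝒢 : ℕ → Set (M → ℝ)) (x : M) (c : ℝ) : Prop :=
  ∃ N : ℕ, ∀ᶠ z in 𝓝 x, ∀ m, N ≤ m → ∀ g ∈ 𝒢 m, g z ≤ c

/-- regularised limsup -/
def WW (𝒢 : ℕ → Set (M → ℝ)) (x : M) : ℝ := sInf {c | UB 𝒢 x c}

lemma UB.mono {𝒢 : ℕ → Set (M → ℝ)} {x : M} {c c' : ℝ} (h : UB 𝒢 x c) (hc : c ≤ c') :
    UB 𝒢 x c' := by
  obtain ⟨N, hN⟩ := h
  exact ⟨N, hN.mono fun z hz m hm g hg => (hz m hm g hg).trans hc⟩

/-- sequences from the negation of `UB` -/
lemma exists_seq {𝒢 : ℕ → Set (M → ℝ)} {e : OpenPartialHomeomorph M (Fin n → ℂ)}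
    {z : Fin n → ℂ} (hz : z ∈ e.target) {c : ℝ} (hc : ¬ UB 𝒢 (e.symm z) c) {δ : ℝ} (hδ : 0 < δ)
    (N : ℕ) : ∃ (m : ℕ → ℕ) (ζ : ℕ → (Fin n → ℂ)) (g : ℕ → M → ℝ), (∀ j, N ≤ m j) ∧
      Tendsto m atTop atTop ∧ (∀ j, ζ j ∈ ball z δ) ∧ Tendsto ζ atTop (𝓝 z) ∧
      (∀ j, g j ∈ 𝒢 (m j)) ∧ ∀ j, c < g j (e.symm (ζ j)) := by
  have key : ∀ j : ℕ, ∃ (m : ℕ) (ζ : Fin n → ℂ) (g : M → ℝ), max N j ≤ m ∧
      ζ ∈ ball z (min δ (1 / ((j : ℝ) + 1))) ∧ g ∈ 𝒢 m ∧ c < g (e.symm ζ) := by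
    intro j
    by_contra hcon
    push Not at hcon
    apply hc
    refine ⟨max N j, ?_⟩
    have hr : 0 < min δ (1 / ((j : ℝ) + 1)) := lt_min hδ (by positivity)
    have h1 : ∀ᶠ ζ in 𝓝 z, ζ ∈ ball z (min δ (1 / ((j : ℝ) + 1))) := ball_mem_nhds z hr
    have h2 : map e.symm (𝓝 z) = 𝓝 (e.symm z) := e.symm.map_nhds_eq hz
    rw [← h2, eventually_map]
    filter_upwards [h1] with ζ hζ m hm g hg
    exact hcon m ζ g hm hζ hg
  choose m ζ g h1 h2 h3 h4 using key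
  refine ⟨m, ζ, g, fun j => (le_max_left _ _).trans (h1 j),
    tendsto_atTop_mono (fun j => (le_max_right _ _).trans (h1 j)) tendsto_id,
    fun j => ball_subset_ball (min_le_left _ _) (h2 j), ?_, h3, h4⟩
  rw [tendsto_iff_dist_tendsto_zero]
  refine squeeze_zero (fun _ => dist_nonneg) (fun j => ?_) tendsto_one_div_add_atTop_nhds_zero_nat
  exact (lt_of_lt_of_le (mem_ball.1 (h2 j)) (min_le_right _ _)).le

section main

variable {𝒢 : ℕ → Set (M → ℝ)} (hpsh : ∀ m, ∀ g ∈ 𝒢 m, PSH g) (hub : ∀ x, ∃ B, UB 𝒢 x B)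
  {h1 : M → ℝ} (h1c : Continuous h1)
  (hlow : ∀ x, ∀ c < h1 x, ∀ N : ℕ, ∃ m, N ≤ m ∧ ∃ g ∈ 𝒢 m, c < g x)

include hlow in
lemma le_of_UB {x : M} {c : ℝ} (h : UB 𝒢 x c) : h1 x ≤ c := by
  by_contra hcon
  obtain ⟨N, hN⟩ := h
  obtain ⟨m, hm, g, hg, hc⟩ := hlow x c (not_le.1 hcon) N
  exact absurd (hN.self_of_nhds m hm g hg) (not_le.2 hc)

include hlow in
lemma bddBelow_UB (x : M) : BddBelow {c | UB 𝒢 x c} := ⟨h1 x, fun _ hc => le_of_UB hlow hc⟩

include hlow hub in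
lemma low_le_WW (x : M) : h1 x ≤ WW 𝒢 x := by
  obtain ⟨B, hB⟩ := hub x
  exact le_csInf ⟨B, hB⟩ fun c hc => le_of_UB hlow hc

include hlow in
lemma WW_le {x : M} {c : ℝ} (h : UB 𝒢 x c) : WW 𝒢 x ≤ c := csInf_le (bddBelow_UB hlow x) h

include hub in
lemma UB_of_lt {x : M} {c : ℝ} (h : WW 𝒢 x < c) : UB 𝒢 x c := by
  obtain ⟨B, hB⟩ := hub x
  obtain ⟨c', hc', hlt⟩ := exists_lt_of_csInf_lt ⟨B, hB⟩ h
  exact UB.mono hc' hlt.le

include hlow in
lemma not_UB_of_lt {x : M} {c : ℝ} (h : c < WW 𝒢 x) : ¬ UB 𝒢 x c := fun hc =>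
  absurd (WW_le hlow hc) (not_le.2 h)

include hlow hub in
lemma usc_WW : UpperSemicontinuous (WW 𝒢) := by
  intro x c hc
  obtain ⟨c', h1', h2'⟩ := exists_between hc
  obtain ⟨N, hN⟩ := UB_of_lt hub h1'
  filter_upwards [eventually_eventually_nhds.2 hN] with z hz
  exact (WW_le hlow ⟨N, hz⟩).trans_lt h2'

/-- uniform upper bound near a compact set of a chart -/
lemma exists_bd {𝒢 : ℕ → Set (M → ℝ)} (hub : ∀ x, ∃ B, UB 𝒢 x B) {K : Set M} (hK : IsCompact K) :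
    ∃ (B : ℝ) (N : ℕ) (U : Set M), IsOpen U ∧ K ⊆ U ∧ ∀ z ∈ U, ∀ m, N ≤ m → ∀ g ∈ 𝒢 m, g z ≤ B := by
  refine hK.induction_on (p := fun K => ∃ (B : ℝ) (N : ℕ) (U : Set M), IsOpen U ∧ K ⊆ U ∧
    ∀ z ∈ U, ∀ m, N ≤ m → ∀ g ∈ 𝒢 m, g z ≤ B) ?_ ?_ ?_ ?_
  · exact ⟨0, 0, ∅, isOpen_empty, le_rfl, by simp⟩
  · rintro s t hst ⟨B, N, U, hU, hs, h⟩
    exact ⟨B, N, U, hU, hst.trans hs, h⟩
  · rintro s t ⟨B, N, U, hU, hs, h⟩ ⟨B', N', U', hU', hs', h'⟩
    refine ⟨max B B', max N N', U ∪ U', hU.union hU', union_subset_union hs hs', ?_⟩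
    rintro z (hz | hz) m hm g hg
    · exact (h z hz m ((le_max_left _ _).trans hm) g hg).trans (le_max_left _ _)
    · exact (h' z hz m ((le_max_right _ _).trans hm) g hg).trans (le_max_right _ _)
  · intro x _
    obtain ⟨B, N, hN⟩ := hub x
    obtain ⟨U, hU, hUo, hxU⟩ := eventually_nhds_iff.1 hN
    exact ⟨U, mem_nhdsWithin_of_mem_nhds (hUo.mem_nhds hxU), B, N, U, hUo, le_rfl, hU⟩

include hpsh hub hlow in
lemma WW_le_av {e : OpenPartialHomeomorph M (Fin n → ℂ)} (he : IsCh e) {z v : Fin n → ℂ}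
    (hd : ∀ w : ℂ, ‖w‖ ≤ 1 → z + w • v ∈ e.target)
    (hint : Integrable (fun θ : ℝ => (WW 𝒢 ∘ e.symm) (z + ang θ • v)) circ) :
    WW 𝒢 (e.symm z) ≤ av (WW 𝒢 ∘ e.symm) z v := by
  have hz : z ∈ e.target := by simpa using hd 0 (by simp)
  -- uniform bounds near the disc
  obtain ⟨B, N, U, hU, hKU, hB⟩ := exists_bd hub (isCompact_disc_chart hd)
  have hV : IsOpen (e.target ∩ e.symm ⁻¹' U) :=
    e.symm.continuousOn.isOpen_inter_preimage e.open_target hU
  have hK : IsCompact ((fun w : ℂ => z + w • v) '' closedBall 0 1) :=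
    (isCompact_closedBall (0 : ℂ) 1).image (by fun_prop)
  obtain ⟨δ, hδ, hsub⟩ := hK.exists_thickening_subset_open hV (by
    rintro _ ⟨w, hw, rfl⟩
    have hw' : ‖w‖ ≤ 1 := by simpa using hw
    exact ⟨hd w hw', hKU ⟨w, hw, rfl⟩⟩)
  have hnear : ∀ ζ ∈ ball z δ, ∀ w : ℂ, ‖w‖ ≤ 1 → ζ + w • v ∈ e.target ∩ e.symm ⁻¹' U := by
    intro ζ hζ w hw
    apply hsub
    rw [mem_thickening_iff]
    refine ⟨z + w • v, ⟨w, by simpa using hw, rfl⟩, ?_⟩
    rw [dist_add_right]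
    exact hζ
  refine le_of_forall_lt fun c hc => ?_
  obtain ⟨c₁, hcc₁, hc₁⟩ := exists_between hc
  obtain ⟨m, ζ, g, hm, hmt, hζ, hζt, hg, hgc⟩ :=
    exists_seq hz (not_UB_of_lt hlow hc₁) hδ N
  refine lt_of_lt_of_le hcc₁ ?_
  have hgi : ∀ j, Integrable (fun θ : ℝ => (g j ∘ e.symm) (ζ j + ang θ • v)) circ := fun j =>
    (hpsh _ _ (hg j)).integrable_circ fun w hw => (hnear _ (hζ j) w hw).1
  have key := fatou_neg (μ := circ) (f := fun j θ => (g j ∘ e.symm) (ζ j + ang θ • v) - B)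
    (F := fun θ => (WW 𝒢 ∘ e.symm) (z + ang θ • v) - B) (c := c₁ - B)
    (fun j => (hgi j).sub (integrable_const B)) (hint.sub (integrable_const B))
    (fun j θ => by
      have := hB _ (hnear _ (hζ j) _ (norm_ang θ).le).2 (m j) (hm j) _ (hg j)
      simp only [Function.comp_apply]
      linarith)
    (fun θ c' hc' => by
      have h2 : WW 𝒢 (e.symm (z + ang θ • v)) < c' + B := by
        simp only [Function.comp_apply] at hc'
        linarith
      obtain ⟨N', hN'⟩ := UB_of_lt hub h2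
      have h3 : Tendsto (fun j => e.symm (ζ j + ang θ • v)) atTop (𝓝 (e.symm (z + ang θ • v))) := by
        have h4 : ContinuousAt e.symm (z + ang θ • v) :=
          e.symm.continuousAt (by simpa using hd _ (norm_ang θ).le)
        exact h4.tendsto.comp (hζt.add_const _)
      filter_upwards [h3.eventually hN', hmt.eventually (eventually_ge_atTop N')] with j hj1 hj2
      have := hj1 (m j) hj2 _ (hg j)
      simp only [Function.comp_apply]
      linarith)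
    (fun j => by
      rw [integral_sub (hgi j) (integrable_const B)]
      have h2 := (hpsh _ _ (hg j)).le_av he (z := ζ j) (v := v)
        fun w hw => (hnear _ (hζ j) w hw).1
      have h3 := hgc j
      unfold av at h2
      simp only [integral_const, probReal_univ, smul_eq_mul, one_mul]
      linarith)
  rw [integral_sub hint (integrable_const B)] at key
  simp only [integral_const, probReal_univ, smul_eq_mul, one_mul] at key
  unfold av
  linarith

include hpsh hub h1c hlow in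
/-- (P1) -/
theorem psh_WW : PSH (WW 𝒢) := by
  have hbd : ∀ x, ∃ c : ℝ, ∀ᶠ y in 𝓝 x, c ≤ WW 𝒢 y := by
    intro x
    refine ⟨h1 x - 1, ?_⟩
    filter_upwards [h1c.continuousAt.eventually (lt_mem_nhds (by linarith : h1 x - 1 < h1 x))]
      with y hy
    exact hy.le.trans (low_le_WW hub hlow y)
  have husc := usc_WW hub hlow
  refine PSH.mk' husc hbd fun e he z v hd => ?_
  refine WW_le_av hpsh hub hlow he hd ?_
  -- bound of `WW` on the disc
  obtain ⟨B, N, U, hU, hKU, hB⟩ := exists_bd hub (isCompact_disc_chart hd)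
  have hC := isCompact_disc_chart hd
  have hlb : ∃ L : ℝ, ∀ x ∈ (fun w : ℂ => e.symm (z + w • v)) '' closedBall 0 1, L ≤ WW 𝒢 x := by
    obtain ⟨L, hL⟩ := (hC.image h1c).bddBelow
    exact ⟨L, fun x hx => (hL ⟨x, hx, rfl⟩).trans (low_le_WW hub hlow x)⟩
  obtain ⟨L, hL⟩ := hlb
  refine integrable_circ_usc husc hd (K := max |L| |B|) fun x hx => ?_
  have hxB : WW 𝒢 x ≤ B := WW_le hlow ⟨N, by
    filter_upwards [hU.mem_nhds (hKU hx)] with y hy using hB y hy⟩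
  rw [abs_le]
  constructor
  · have h2 := hL x hx
    have h3 := neg_abs_le L
    have h4 := le_max_left |L| |B|
    linarith
  · exact hxB.trans ((le_abs_self B).trans (le_max_right _ _))

/-! ### Hartogs -/

lemma integrable_shift {κ : (Fin n → ℂ) → ℝ} (hκ : Ker volume κ) {u : (Fin n → ℂ) → ℝ}
    (hu : Measurable u) {a : Fin n → ℂ} {K : ℝ} (hK : ∀ x, κ (x - a) ≠ 0 → |u x| ≤ K) :
    Integrable (fun x => κ (x - a) * u x) := by
  have hm : Measurable (fun x => κ (x - a) * u x) :=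
    (hκ.cont.measurable.comp (measurable_id.sub_const a)).mul hu
  refine Integrable.mono' ((((hκ.integrable volume).comp_sub_right a)).mul_const K)
    hm.aestronglyMeasurable ?_
  refine Eventually.of_forall fun x => ?_
  rw [Real.norm_eq_abs, abs_mul, abs_of_nonneg (hκ.nonneg _)]
  by_cases h : κ (x - a) = 0
  · simp [h]
  · exact mul_le_mul_of_nonneg_left (hK x h) (hκ.nonneg _)

lemma integral_shift {κ : (Fin n → ℂ) → ℝ} (hκ : Ker volume κ) (a : Fin n → ℂ) :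
    ∫ x, κ (x - a) = 1 := by
  rw [integral_sub_right_eq_self κ a, hκ.int]

lemma shift_mem {κ : (Fin n → ℂ) → ℝ} (hκ : Ker volume κ) {ε : ℝ} (hε : 0 < ε)
    {x ζ : Fin n → ℂ} (h : κ (x - (ε : ℂ)⁻¹ • ζ) ≠ 0) : (ε : ℂ) • x ∈ ball ζ ε := by
  have h1 := Ker.supp_lt hκ h
  have h0 : (ε : ℂ) ≠ 0 := by exact_mod_cast hε.ne'
  rw [mem_ball, dist_eq_norm]
  have h2 : (ε : ℂ) • x - ζ = (ε : ℂ) • (x - (ε : ℂ)⁻¹ • ζ) := by
    rw [smul_sub, smul_smul, mul_inv_cancel₀ h0, one_smul]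
  rw [h2, norm_smul, Complex.norm_real, Real.norm_eq_abs, abs_of_pos hε]
  nlinarith

include hpsh hub hlow in
/-- (P2) -/
theorem WW_le_up {h2 : M → ℝ} (h2c : Continuous h2)
    (hup : ∀ x, ∀ c > h2 x, ∃ N : ℕ, ∀ m, N ≤ m → ∀ g ∈ 𝒢 m, g x ≤ c) (x0 : M) :
    WW 𝒢 x0 ≤ h2 x0 := by
  by_contra hcon
  obtain ⟨c₁, hc₁, hcon'⟩ := exists_between (not_le.1 hcon)
  obtain ⟨c₂, hc₂, hc₂W⟩ := exists_between hcon'
  obtain ⟨κ, hκ, -⟩ := exists_ker_pi n
  obtain ⟨B, N, U, hU, hKU, hB⟩ := exists_bd hub (isCompact_singleton (x := x0))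
  set e := ch x0 with he_def
  have he : IsCh e := isCh_ch x0
  set z0 : Fin n → ℂ := cp x0 with hz0
  have hez : e.symm z0 = x0 := symm_cp x0
  have hV : IsOpen (e.target ∩ e.symm ⁻¹' (U ∩ {x | h2 x < c₁})) :=
    e.symm.continuousOn.isOpen_inter_preimage e.open_target
      (hU.inter (isOpen_lt h2c continuous_const))
  have hz0V : z0 ∈ e.target ∩ e.symm ⁻¹' (U ∩ {x | h2 x < c₁}) := by
    refine ⟨he.cp_mem (mem_ch x0), ?_⟩
    rw [mem_preimage, hez]
    exact ⟨hKU rfl, hc₁⟩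
  obtain ⟨r, hr, hrV⟩ := Metric.isOpen_iff.1 hV z0 hz0V
  set ε : ℝ := r / 3 with hε_def
  have hε : 0 < ε := by positivity
  obtain ⟨m, ζ, g, hm, hmt, hζ, hζt, hg, hgc⟩ := exists_seq (𝒢 := 𝒢) hz0V.1
    (not_UB_of_lt hlow (c := c₂) (by rw [hez]; exact hc₂W)) hε N
  have hloc : ∀ j, ∃ (f : (Fin n → ℂ) → ℝ) (K : ℝ), Measurable f ∧
      EqOn f (g j ∘ e.symm) (ball z0 (2 * ε)) ∧
      (∀ y ∈ ball z0 (2 * ε), |f y| ≤ K) ∧ SM 0 f (ball z0 (2 * ε)) := fun j =>
    (hpsh _ _ (hg j)).loc he (r := r) (hrV.trans inter_subset_left) (by rw [hε_def]; linarith)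
  choose f K hf hfe hfK hfS using hloc
  have hsubr : ball z0 (2 * ε) ⊆ ball z0 r := ball_subset_ball (by rw [hε_def]; linarith)
  have hsub : ∀ j, ball (ζ j) ε ⊆ ball z0 (2 * ε) := by
    intro j
    apply ball_subset_ball'
    have := mem_ball.1 (hζ j)
    linarith
  have hfB : ∀ j, ∀ y ∈ ball z0 (2 * ε), f j y ≤ B := by
    intro j y hy
    rw [hfe j hy]
    exact hB _ (hrV (hsubr hy)).2.1 (m j) (hm j) _ (hg j)
  have hint : ∀ j, Integrable (fun x => κ (x - (ε : ℂ)⁻¹ • ζ j) * f j ((ε : ℂ) • x)) := fun j =>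
    integrable_shift hκ ((hf j).comp (measurable_const_smul (ε : ℂ)))
      (K := K j) fun x hx => hfK j _ (hsub j (shift_mem hκ hε hx))
  have hint1 : ∀ a : Fin n → ℂ, Integrable (fun x => κ (x - a)) := fun a =>
    (hκ.integrable volume).comp_sub_right a
  have key := fatou_neg (μ := (volume : Measure (Fin n → ℂ)))
    (f := fun j x => κ (x - (ε : ℂ)⁻¹ • ζ j) * f j ((ε : ℂ) • x) - κ (x - (ε : ℂ)⁻¹ • ζ j) * B)
    (F := fun x => κ (x - (ε : ℂ)⁻¹ • z0) * (c₁ - B)) (c := c₂ - B)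
    (fun j => (hint j).sub ((hint1 _).mul_const B)) ((hint1 _).mul_const _)
    (fun j x => by
      by_cases h : κ (x - (ε : ℂ)⁻¹ • ζ j) = 0
      · simp [h]
      · have h3 := hfB j _ (hsub j (shift_mem hκ hε h))
        have h4 := hκ.nonneg (x - (ε : ℂ)⁻¹ • ζ j)
        nlinarith)
    (fun x c' hc' => by
      by_cases hx : (ε : ℂ) • x ∈ ball z0 (2 * ε)
      · obtain ⟨N', hN'⟩ := hup (e.symm ((ε : ℂ) • x)) c₁ (hrV (hsubr hx)).2.2
        have h3 : Tendsto (fun j => κ (x - (ε : ℂ)⁻¹ • ζ j) * (c₁ - B)) atTop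
            (𝓝 (κ (x - (ε : ℂ)⁻¹ • z0) * (c₁ - B))) := by
          refine Tendsto.mul_const _ ?_
          refine (hκ.cont.tendsto _).comp ?_
          exact tendsto_const_nhds.sub (hζt.const_smul _)
        filter_upwards [h3.eventually (gt_mem_nhds hc'),
          hmt.eventually (eventually_ge_atTop N')] with j hj1 hj2
        have h4 : f j ((ε : ℂ) • x) ≤ c₁ := by
          rw [hfe j hx]
          exact hN' (m j) hj2 _ (hg j)
        have h5 := hκ.nonneg (x - (ε : ℂ)⁻¹ • ζ j)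
        nlinarith
      · have h3 : κ (x - (ε : ℂ)⁻¹ • z0) = 0 := by
          by_contra h
          exact hx (ball_subset_ball (by linarith) (shift_mem hκ hε h))
        rw [h3, zero_mul] at hc'
        refine Eventually.of_forall fun j => ?_
        by_cases h : κ (x - (ε : ℂ)⁻¹ • ζ j) = 0
        · rw [h]; linarith
        · exact absurd (hsub j (shift_mem hκ hε h)) hx)
    (fun j => by
      rw [integral_sub (hint j) ((hint1 _).mul_const B), integral_mul_const, integral_shift hκ,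
        one_mul]
      have h3 := le_regF volume hκ (hf j) (hfK j) (hfS j) hε (hsub j)
      rw [regF_eq_conv volume κ hε] at h3
      unfold conv at h3
      have h4 := hgc j
      have h5 : f j (ζ j) = g j (e.symm (ζ j)) := hfe j (hsub j (mem_ball_self hε))
      linarith)
  rw [integral_mul_const, integral_shift hκ, one_mul] at key
  linarith

end main

/-- **Regularised limsup of families of psh functions** -/
theorem limsup_psh {𝒢 : ℕ → Set (M → ℝ)} (hpsh : ∀ m, ∀ g ∈ 𝒢 m, PSH g)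
    (hub : ∀ x, ∃ B, UB 𝒢 x B) {h1 h2 : M → ℝ} (h1c : Continuous h1) (h2c : Continuous h2)
    (hlow : ∀ x, ∀ c < h1 x, ∀ N : ℕ, ∃ m, N ≤ m ∧ ∃ g ∈ 𝒢 m, c < g x)
    (hup : ∀ x, ∀ c > h2 x, ∃ N : ℕ, ∀ m, N ≤ m → ∀ g ∈ 𝒢 m, g x ≤ c) :
    ∃ W : M → ℝ, PSH W ∧ (∀ x, h1 x ≤ W x) ∧ ∀ x, W x ≤ h2 x :=
  ⟨WW 𝒢, psh_WW hpsh hub h1c hlow, low_le_WW hub hlow, WW_le_up hpsh hub hlow h2c hup⟩

end Crest.Agent.R273.Psi_283
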