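import Crest.Agent.R273.PsiA_283
import Crest.Agent.R273.Pen_93

/-!
# Row 273, leaf A-PSI (helper283), part B: sub-mean value inequality over balls; upper bounds
-/

set_option autoImplicit false
set_option linter.unusedSectionVars false

open MeasureTheory Set Metric Filter Topology
open scoped ENNReal ContDiff

noncomputable section

namespace Crest.Agent.R273.Psi_283

open Crest.Agent.R275.FL606 Crest.Agent.R271.Ho51 Crest.Agent.R273.Reg_844
open Crest.Agent.R271.W792 (lev lev_normSq Levi_eq_lev)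
open Crest.Agent.R273.Pen_93 (w_hol)

variable {n : ℕ} {M : Type*} [TopologicalSpace M] [RDom n M]

/-- sub-mean value inequality over a ball of a chart, with a constant independent of the function -/
theorem submean {e : OpenPartialHomeomorph M (Fin n → ℂ)} (he : IsCh e) {z0 : Fin n → ℂ} {r : ℝ}
    (hr : 0 < r) (hb : ball z0 r ⊆ e.target) :
    ∃ C : ℝ≥0∞, C ≠ ⊤ ∧ ∀ P : M → ℝ, PSH P → (∀ x, 0 ≤ P x) → ∀ z ∈ ball z0 (r / 2),
      ENNReal.ofReal (P (e.symm z)) ≤ C * ∫⁻ y in ball z0 r, ENNReal.ofReal (P (e.symm y)) := by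
  obtain ⟨κ, hκ, -⟩ := exists_ker_pi n
  obtain ⟨K, hK0, hK⟩ := hκ.exists_bound volume
  set ε : ℝ := r / 4 with hε_def
  have hε : 0 < ε := by positivity
  have hε0 : (ε : ℂ) ≠ 0 := by exact_mod_cast hε.ne'
  set c : ℝ≥0∞ := ENNReal.ofReal |(ε ^ Module.finrank ℝ (Fin n → ℂ))⁻¹| with hc
  refine ⟨ENNReal.ofReal K * c, ENNReal.mul_ne_top ENNReal.ofReal_ne_top ENNReal.ofReal_ne_top,
    fun P hP hP0 z hz => ?_⟩
  obtain ⟨f, L, hf, hfe, hfL, hfS⟩ := hP.loc he (s := 3 * ε) hb (by rw [hε_def]; linarith)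
  have hsub : ball z ε ⊆ ball z0 (3 * ε) := by
    apply ball_subset_ball'
    have := mem_ball.1 hz
    rw [hε_def]; rw [hε_def] at *; linarith
  have h1 := le_regF volume hκ hf hfL hfS hε hsub
  rw [hfe (hsub (mem_ball_self hε)), regF_eq_conv volume κ hε] at h1
  have hf0 : ∀ y ∈ ball z0 (3 * ε), 0 ≤ f y := fun y hy => by rw [hfe hy]; exact hP0 _
  have hint : Integrable (fun x => κ (x - (ε : ℂ)⁻¹ • z) * f ((ε : ℂ) • x)) :=
    integrable_shift hκ (hf.comp (measurable_const_smul (ε : ℂ)))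
      (K := L) fun x hx => hfL _ (hsub (shift_mem hκ hε hx))
  have hnn : ∀ x, 0 ≤ κ (x - (ε : ℂ)⁻¹ • z) * f ((ε : ℂ) • x) := by
    intro x
    by_cases h : κ (x - (ε : ℂ)⁻¹ • z) = 0
    · simp [h]
    · exact mul_nonneg (hκ.nonneg _) (hf0 _ (hsub (shift_mem hκ hε h)))
  have h2 : ENNReal.ofReal (P (e.symm z)) ≤
      ∫⁻ x, ENNReal.ofReal (κ (x - (ε : ℂ)⁻¹ • z) * f ((ε : ℂ) • x)) := by
    rw [← ofReal_integral_eq_lintegral_ofReal hint (Eventually.of_forall hnn)]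
    exact ENNReal.ofReal_le_ofReal h1
  refine h2.trans ?_
  have h3 : ∀ x, ENNReal.ofReal (κ (x - (ε : ℂ)⁻¹ • z) * f ((ε : ℂ) • x)) ≤
      ENNReal.ofReal K * (ball z0 (3 * ε)).indicator (fun y => ENNReal.ofReal (f y)) (ε • x) := by
    intro x
    have e1 : (ε : ℂ) • x = ε • x := Complex.coe_smul ε x
    rw [e1]
    by_cases h : κ (x - (ε : ℂ)⁻¹ • z) = 0
    · simp [h]
    · have h4 := hsub (shift_mem hκ hε h)
      rw [e1] at h4
      rw [indicator_of_mem h4, ← ENNReal.ofReal_mul hK0]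
      exact ENNReal.ofReal_le_ofReal (mul_le_mul_of_nonneg_right (hK _) (hf0 _ h4))
  refine (lintegral_mono h3).trans ?_
  have hFm : Measurable ((ball z0 (3 * ε)).indicator (fun y => ENNReal.ofReal (f y))) :=
    (hf.ennreal_ofReal).indicator measurableSet_ball
  rw [lintegral_const_mul' _ _ ENNReal.ofReal_ne_top, mul_assoc]
  gcongr
  have h5 := lintegral_map (μ := (volume : Measure (Fin n → ℂ))) hFm (measurable_const_smul ε)
  rw [← h5, Measure.map_addHaar_smul volume hε.ne', lintegral_smul_measure,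
    lintegral_indicator measurableSet_ball]
  simp only [smul_eq_mul]
  rw [← hc]
  have h3r : 3 * ε ≤ r := by rw [hε_def]; linarith
  refine mul_le_mul' le_rfl ?_
  refine le_trans (le_of_eq ?_) (lintegral_mono_set (ball_subset_ball h3r))
  refine setLIntegral_congr_fun measurableSet_ball fun y hy => ?_
  rw [hfe hy]
  rfl

/-- `‖u‖²` is psh -/
lemma psh_normSq {u : M → ℂ} (hu : Hol u) : PSH (fun x => ‖u x‖ ^ 2) := by
  have h := w_hol hu
  refine PSH.of_smooth (Crest.Agent.R271.W792.Hol.sm_normSq h.sm) fun x w => ?_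
  rw [lev_normSq h]
  positivity

/-- local upper bound of holomorphic functions by weighted norms, the bound only depends on the
weights through lower bounds -/
theorem ub_loc [MeasurableSpace M] [BorelSpace M] {μ : Measure M} (hμ : IsLeb μ) {ψ θ : M → ℝ}
    (hψ : Continuous ψ) (hθ : Continuous θ) (hθ0 : ∀ x, 0 < θ x) {x0 : M} {c : ℝ} (hc : ψ x0 < c) :
    ∃ A : ℝ, 0 ≤ A ∧ ∀ᶠ x in 𝓝 x0, ∀ (k : ℝ), 0 ≤ k → ∀ u : M → ℂ, Hol u →
      ∫⁻ x, ENNReal.ofReal (‖u x‖ ^ 2 * (Real.exp (-k * ψ x) * θ x)) ∂μ ≤ 1 →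
        ‖u x‖ ^ 2 ≤ A * Real.exp (k * c) := by
  set e := ch x0 with he_def
  have he : IsCh e := isCh_ch x0
  set z0 : Fin n → ℂ := cp x0 with hz0
  have hez : e.symm z0 = x0 := symm_cp x0
  have hV : IsOpen (e.target ∩ e.symm ⁻¹' ({x | ψ x < c} ∩ {x | θ x0 / 2 < θ x})) :=
    e.symm.continuousOn.isOpen_inter_preimage e.open_target
      ((isOpen_lt hψ continuous_const).inter (isOpen_lt continuous_const hθ))
  have hz0V : z0 ∈ e.target ∩ e.symm ⁻¹' ({x | ψ x < c} ∩ {x | θ x0 / 2 < θ x}) := by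
    refine ⟨he.cp_mem (mem_ch x0), ?_⟩
    rw [mem_preimage, hez]
    exact ⟨hc, by have := hθ0 x0; simp only [mem_ofPred_eq]; linarith⟩
  obtain ⟨r, hr, hrV⟩ := Metric.isOpen_iff.1 hV z0 hz0V
  obtain ⟨C, hC, hsm⟩ := submean he hr (hrV.trans inter_subset_left)
  have hθx := hθ0 x0
  refine ⟨C.toReal * (θ x0 / 2)⁻¹, by positivity, ?_⟩
  have hx : ∀ᶠ x in 𝓝 x0, x ∈ e.source ∧ cp x ∈ ball z0 (r / 2) :=
    Filter.inter_mem (e.open_source.mem_nhds (mem_ch x0))
      (cp_cont.continuousAt.preimage_mem_nhds (ball_mem_nhds _ (by positivity)))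
  filter_upwards [hx] with x hx k hk u hu hint
  have h1 := hsm _ (psh_normSq hu) (fun x => by positivity) (cp x) hx.2
  rw [he.symm_cp hx.1] at h1
  have huc : Continuous u := Crest.Agent.R273.Pen_93.hol_cont hu
  have h2 : ∫⁻ y in ball z0 r, ENNReal.ofReal (‖u (e.symm y)‖ ^ 2) ≤
      ENNReal.ofReal (Real.exp (k * c) * (θ x0 / 2)⁻¹) := by
    have h3 : ∀ y ∈ ball z0 r, ENNReal.ofReal (‖u (e.symm y)‖ ^ 2) ≤
        ENNReal.ofReal (Real.exp (k * c) * (θ x0 / 2)⁻¹) *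
          ENNReal.ofReal (‖u (e.symm y)‖ ^ 2 * (Real.exp (-k * ψ (e.symm y)) * θ (e.symm y))) := by
      intro y hy
      rw [← ENNReal.ofReal_mul (by positivity)]
      apply ENNReal.ofReal_le_ofReal
      obtain ⟨-, hy1, hy2⟩ := hrV hy
      have hy1' : ψ (e.symm y) < c := hy1
      have hy2' : θ x0 / 2 < θ (e.symm y) := hy2
      have h4 : 1 ≤ Real.exp (k * c) * Real.exp (-k * ψ (e.symm y)) := by
        rw [← Real.exp_add, Real.one_le_exp_iff]
        nlinarith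
      have h5 : 1 ≤ (θ x0 / 2)⁻¹ * θ (e.symm y) := by
        rw [inv_mul_eq_div, one_le_div (by positivity)]
        exact hy2'.le
      have h6 : 0 ≤ ‖u (e.symm y)‖ ^ 2 := by positivity
      calc ‖u (e.symm y)‖ ^ 2 = ‖u (e.symm y)‖ ^ 2 * (1 * 1) := by ring
        _ ≤ ‖u (e.symm y)‖ ^ 2 * ((Real.exp (k * c) * Real.exp (-k * ψ (e.symm y))) *
            ((θ x0 / 2)⁻¹ * θ (e.symm y))) := by gcongr
        _ = _ := by ring
    calc ∫⁻ y in ball z0 r, ENNReal.ofReal (‖u (e.symm y)‖ ^ 2)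
        ≤ ∫⁻ y in ball z0 r, ENNReal.ofReal (Real.exp (k * c) * (θ x0 / 2)⁻¹) *
          ENNReal.ofReal (‖u (e.symm y)‖ ^ 2 * (Real.exp (-k * ψ (e.symm y)) * θ (e.symm y))) :=
          setLIntegral_mono' measurableSet_ball h3
      _ ≤ ∫⁻ y in e.target, ENNReal.ofReal (Real.exp (k * c) * (θ x0 / 2)⁻¹) *
          ENNReal.ofReal (‖u (e.symm y)‖ ^ 2 * (Real.exp (-k * ψ (e.symm y)) * θ (e.symm y))) :=
          lintegral_mono_set (hrV.trans inter_subset_left)
      _ = ENNReal.ofReal (Real.exp (k * c) * (θ x0 / 2)⁻¹) * ∫⁻ y in e.target,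
          ENNReal.ofReal (‖u (e.symm y)‖ ^ 2 * (Real.exp (-k * ψ (e.symm y)) * θ (e.symm y))) :=
          lintegral_const_mul' _ _ ENNReal.ofReal_ne_top
      _ = ENNReal.ofReal (Real.exp (k * c) * (θ x0 / 2)⁻¹) * ∫⁻ x in e.source,
          ENNReal.ofReal (‖u x‖ ^ 2 * (Real.exp (-k * ψ x) * θ x)) ∂μ := by
          rw [lintegral_chart hμ he]
          have : Continuous fun x => ‖u x‖ ^ 2 * (Real.exp (-k * ψ x) * θ x) := by fun_prop
          exact this.measurable.ennreal_ofReal.aemeasurable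
      _ ≤ ENNReal.ofReal (Real.exp (k * c) * (θ x0 / 2)⁻¹) * 1 := by
          gcongr
          exact (setLIntegral_le_lintegral _ _).trans hint
      _ = _ := mul_one _
  have h7 : ENNReal.ofReal (‖u x‖ ^ 2) ≤
      ENNReal.ofReal (C.toReal * (Real.exp (k * c) * (θ x0 / 2)⁻¹)) := by
    rw [ENNReal.ofReal_mul ENNReal.toReal_nonneg, ENNReal.ofReal_toReal hC]
    exact h1.trans (by gcongr)
  have h8 := (ENNReal.ofReal_le_ofReal_iff (by positivity)).1 h7
  linarith

end Crest.Agent.R273.Psi_283
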