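import Crest.Agent.R273.Pen_93
import Crest.Agent.R271.Engine_51

/-!
# Row 273, leaf A-PSI (helper283), part C: peak functions from the engine
-/

set_option autoImplicit false
set_option linter.unusedSectionVars false

open MeasureTheory Set Metric Filter Topology
open scoped ENNReal ContDiff ComplexConjugate

noncomputable section

namespace Crest.Agent.R273.Psi_283

open Crest.Agent.R271.Ho51
open Crest.Agent.R271.W792 (lev lev_normSq Levi_eq_lev nS nS_nonneg sm_nS nT nT_nonneg nA nA_le lg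
  sm_lg lev_lg lev_lg_ge lev_lg_nonneg lev_add lev_const_mul lev_const D_nS)
open Crest.Agent.R273.Pen_93 (w_hol dbw dbw_eq hol_sub hol_const hol_cont)

/-! ### non-integrability of the pole -/

section flat

variable {n : ℕ}

/-- the pole -/
def pol (z : Fin n → ℂ) : ℝ≥0∞ := ENNReal.ofReal (((‖z‖ ^ 2)⁻¹) ^ n)

lemma measurable_pol : Measurable (pol : (Fin n → ℂ) → ℝ≥0∞) := by
  unfold pol
  exact (((measurable_norm.pow_const 2).inv).pow_const n).ennreal_ofReal

lemma pol_half (z : Fin n → ℂ) : pol ((1 / 2 : ℝ) • z) = ENNReal.ofReal (4 ^ n) * pol z := by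
  unfold pol
  rw [← ENNReal.ofReal_mul (by positivity), norm_smul]
  congr 1
  rw [← mul_pow]
  congr 1
  rw [mul_pow, mul_inv]
  norm_num

lemma lintegral_pol_half {r : ℝ} :
    ∫⁻ z in ball (0 : Fin n → ℂ) (r / 2), pol z = ∫⁻ z in ball (0 : Fin n → ℂ) r, pol z := by
  have h1 := lintegral_map (μ := (volume : Measure (Fin n → ℂ)))
    (f := (ball (0 : Fin n → ℂ) (r / 2)).indicator pol) (g := fun z => (1 / 2 : ℝ) • z)
    (measurable_pol.indicator measurableSet_ball) (measurable_const_smul _)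
  rw [Measure.map_addHaar_smul volume (by norm_num), lintegral_smul_measure,
    lintegral_indicator measurableSet_ball] at h1
  have h2 : ∀ z : Fin n → ℂ, (ball (0 : Fin n → ℂ) (r / 2)).indicator pol ((1 / 2 : ℝ) • z) =
      ENNReal.ofReal (4 ^ n) * (ball (0 : Fin n → ℂ) r).indicator pol z := by
    intro z
    by_cases hz : z ∈ ball (0 : Fin n → ℂ) r
    · rw [indicator_of_mem hz, indicator_of_mem, pol_half]
      rw [mem_ball_zero_iff] at hz ⊢
      rw [norm_smul]
      norm_num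
      linarith
    · rw [indicator_of_notMem hz, indicator_of_notMem, mul_zero]
      rw [mem_ball_zero_iff] at hz ⊢
      rw [norm_smul]
      norm_num
      linarith
  simp only [h2] at h1
  rw [lintegral_const_mul' _ _ ENNReal.ofReal_ne_top, lintegral_indicator measurableSet_ball] at h1
  have h3 : ENNReal.ofReal |(((1 / 2 : ℝ)) ^ Module.finrank ℝ (Fin n → ℂ))⁻¹| =
      ENNReal.ofReal (4 ^ n) := by
    congr 1
    rw [Module.finrank_pi_fintype]
    simp only [Complex.finrank_real_complex, Finset.sum_const, Finset.card_univ, Fintype.card_fin,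
      smul_eq_mul]
    rw [mul_comm n 2, pow_mul, ← inv_pow]
    norm_num
  rw [h3, smul_eq_mul] at h1
  exact (ENNReal.mul_right_inj (by simp) ENNReal.ofReal_ne_top).1 h1

lemma lintegral_pol (hn : 0 < n) {r : ℝ} (hr : 0 < r) :
    ∫⁻ z in ball (0 : Fin n → ℂ) r, pol z = ⊤ := by
  by_contra hfin
  have hsub : ball (0 : Fin n → ℂ) (r / 2) ⊆ ball 0 r := ball_subset_ball (by linarith)
  have h1 := lintegral_inter_add_sdiff (μ := (volume : Measure (Fin n → ℂ))) pol
    (ball (0 : Fin n → ℂ) r) (measurableSet_ball (x := 0) (ε := r / 2))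
  rw [inter_eq_right.2 hsub, lintegral_pol_half] at h1
  have h2 : ∫⁻ z in ball (0 : Fin n → ℂ) r \ ball 0 (r / 2), pol z = 0 := by
    have := ENNReal.add_right_inj hfin |>.1 (h1.trans (add_zero _).symm)
    exact this
  have h3 : ENNReal.ofReal (((r ^ 2)⁻¹) ^ n) * volume (ball (0 : Fin n → ℂ) r \ ball 0 (r / 2)) ≤
      ∫⁻ z in ball (0 : Fin n → ℂ) r \ ball 0 (r / 2), pol z := by
    rw [← setLIntegral_const]
    refine setLIntegral_mono' (measurableSet_ball.diff measurableSet_ball) fun z hz => ?_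
    unfold pol
    apply ENNReal.ofReal_le_ofReal
    have hz1 : ‖z‖ < r := by simpa using hz.1
    have hz2 : r / 2 ≤ ‖z‖ := by simpa using hz.2
    gcongr
    nlinarith
  rw [h2, nonpos_iff_eq_zero, mul_eq_zero] at h3
  rcases h3 with h3 | h3
  · rw [ENNReal.ofReal_eq_zero] at h3
    have : 0 < ((r ^ 2)⁻¹) ^ n := by positivity
    linarith
  · -- the shell contains a ball
    have hne : Nonempty (Fin n) := ⟨⟨0, hn⟩⟩
    set p : Fin n → ℂ := fun _ => ((3 * r / 4 : ℝ) : ℂ) with hp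
    have hpn : ‖p‖ = 3 * r / 4 := by
      rw [hp, pi_norm_const, Complex.norm_real, Real.norm_eq_abs, abs_of_pos (by positivity)]
    have hb : ball p (r / 4) ⊆ ball (0 : Fin n → ℂ) r \ ball 0 (r / 2) := by
      intro z hz
      rw [mem_ball, dist_eq_norm] at hz
      constructor
      · rw [mem_ball_zero_iff]
        have : ‖z‖ ≤ ‖z - p‖ + ‖p‖ := by simpa using norm_add_le (z - p) p
        linarith
      · rw [mem_ball_zero_iff, not_lt]
        have : ‖p‖ ≤ ‖z - p‖ + ‖z‖ := by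
          rw [norm_sub_rev]
          simpa using norm_add_le (p - z) z
        linarith
    have h4 := measure_mono_null hb h3
    exact absurd h4 (measure_ball_pos _ _ (by positivity)).ne'

end flat

variable {n : ℕ} {M : Type*} [TopologicalSpace M] [RDom n M]

/-- a continuous function whose square is integrable against a weight with a pole vanishes -/
theorem value_of_fin [MeasurableSpace M] [BorelSpace M] {μ : Measure M} (hμ : IsLeb μ)
    (hn : 0 < n) {E : M → ℂ} (hE : Continuous E) {Q : M → ℝ≥0∞} (hQm : Measurable Q) {x0 : M}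
    {c : ℝ} (hc : 0 < c)
    (hQ : ∀ᶠ x in 𝓝 x0, ENNReal.ofReal c * pol (cp x - cp x0) ≤ Q x)
    (hfin : ∫⁻ x, ENNReal.ofReal (‖E x‖ ^ 2) * Q x ∂μ ≠ ⊤) : E x0 = 0 := by
  by_contra hne
  apply hfin
  set e := ch x0 with he_def
  have he : IsCh e := isCh_ch x0
  set z0 : Fin n → ℂ := cp x0 with hz0
  have hez : e.symm z0 = x0 := symm_cp x0
  have hpos : 0 < ‖E x0‖ ^ 2 := by
    have := norm_pos_iff.2 hne
    positivity
  have hEc : Continuous fun x => ‖E x‖ ^ 2 := by fun_prop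
  have h1 : ∀ᶠ x in 𝓝 x0, ENNReal.ofReal (‖E x0‖ ^ 2 / 2 * c) * pol (cp x - cp x0) ≤
      ENNReal.ofReal (‖E x‖ ^ 2) * Q x := by
    filter_upwards [hQ, hEc.continuousAt.eventually (lt_mem_nhds (by linarith :
      ‖E x0‖ ^ 2 / 2 < ‖E x0‖ ^ 2))] with x hx1 hx2
    rw [ENNReal.ofReal_mul (by positivity), mul_assoc]
    exact mul_le_mul' (ENNReal.ofReal_le_ofReal hx2.le) hx1
  have h2 : ∀ᶠ z in 𝓝 z0, z ∈ e.target ∧
      ENNReal.ofReal (‖E x0‖ ^ 2 / 2 * c) * pol (z - z0) ≤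
      ENNReal.ofReal (‖E (e.symm z)‖ ^ 2) * Q (e.symm z) := by
    have h3 : Tendsto e.symm (𝓝 z0) (𝓝 x0) := by
      have := e.symm.continuousAt (x := z0) (by simpa using he.cp_mem (mem_ch x0))
      rwa [ContinuousAt, hez] at this
    filter_upwards [h3.eventually h1, e.open_target.mem_nhds (he.cp_mem (mem_ch x0))] with z hz hzt
    rw [he.cp_symm hzt] at hz
    exact ⟨hzt, hz⟩
  obtain ⟨r, hr, hrb⟩ := Metric.eventually_nhds_iff_ball.1 h2
  have hm : Measurable fun x => ENNReal.ofReal (‖E x‖ ^ 2) * Q x :=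
    (hEc.measurable.ennreal_ofReal).mul hQm
  rw [← top_le_iff]
  calc (⊤ : ℝ≥0∞) = ENNReal.ofReal (‖E x0‖ ^ 2 / 2 * c) * ∫⁻ z in ball (0 : Fin n → ℂ) r, pol z := by
        rw [lintegral_pol hn hr, ENNReal.mul_top]
        exact (ENNReal.ofReal_pos.2 (by positivity)).ne'
    _ = ENNReal.ofReal (‖E x0‖ ^ 2 / 2 * c) * ∫⁻ z in ball z0 r, pol (z - z0) := by
        congr 1
        rw [← lintegral_indicator measurableSet_ball, ← lintegral_indicator measurableSet_ball,
          ← lintegral_sub_right_eq_self _ z0]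
        refine lintegral_congr fun z => ?_
        by_cases hz : z ∈ ball z0 r
        · rw [indicator_of_mem hz, indicator_of_mem]
          rw [mem_ball_zero_iff, ← dist_eq_norm]; exact hz
        · rw [indicator_of_notMem hz, indicator_of_notMem]
          rw [mem_ball_zero_iff, ← dist_eq_norm]; exact hz
    _ = ∫⁻ z in ball z0 r, ENNReal.ofReal (‖E x0‖ ^ 2 / 2 * c) * pol (z - z0) :=
        (lintegral_const_mul' _ _ ENNReal.ofReal_ne_top).symm
    _ ≤ ∫⁻ z in ball z0 r, ENNReal.ofReal (‖E (e.symm z)‖ ^ 2) * Q (e.symm z) :=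
        setLIntegral_mono' measurableSet_ball fun z hz => (hrb z hz).2
    _ ≤ ∫⁻ z in e.target, ENNReal.ofReal (‖E (e.symm z)‖ ^ 2) * Q (e.symm z) :=
        lintegral_mono_set fun z hz => (hrb z hz).1
    _ = ∫⁻ x in e.source, ENNReal.ofReal (‖E x‖ ^ 2) * Q x ∂μ :=
        (lintegral_chart hμ he hm.aemeasurable).symm
    _ ≤ _ := setLIntegral_le_lintegral _ _

/-! ### the cut-off -/

/-- `1` on `s ≤ d`, `0` on `s ≥ 2 d` -/
def cut (d s : ℝ) : ℝ := Real.smoothTransition (2 - s / d)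

lemma cut_contDiff (d : ℝ) : ContDiff ℝ (⊤ : ℕ∞) (cut d) := by
  unfold cut
  exact Real.smoothTransition.contDiff.comp (by fun_prop)

lemma cut_nonneg (d s : ℝ) : 0 ≤ cut d s := Real.smoothTransition.nonneg _

lemma cut_le_one (d s : ℝ) : cut d s ≤ 1 := Real.smoothTransition.le_one _

lemma cut_one {d s : ℝ} (hd : 0 < d) (h : s ≤ d) : cut d s = 1 := by
  unfold cut
  apply Real.smoothTransition.one_of_one_le
  have : s / d ≤ 1 := (div_le_one hd).2 h
  linarith

lemma cut_zero {d s : ℝ} (hd : 0 < d) (h : 2 * d ≤ s) : cut d s = 0 := by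
  unfold cut
  apply Real.smoothTransition.zero_of_nonpos
  have : 2 ≤ s / d := (le_div_iff₀ hd).2 h
  linarith

lemma cut_hasDeriv (d s : ℝ) : HasDerivAt (cut d) (deriv (cut d) s) s :=
  ((cut_contDiff d).differentiable (by simp) s).hasDerivAt

lemma deriv_cut_eq_zero {d s : ℝ} (hd : 0 < d) (h : s ∉ Icc d (2 * d)) : deriv (cut d) s = 0 := by
  rw [mem_Icc, not_and_or, not_le, not_le] at h
  rcases h with h | h
  · have : cut d =ᶠ[𝓝 s] fun _ => 1 := by
      filter_upwards [gt_mem_nhds h] with t ht using cut_one hd (le_of_lt ht)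
    rw [this.deriv_eq, deriv_const]
  · have : cut d =ᶠ[𝓝 s] fun _ => 0 := by
      filter_upwards [lt_mem_nhds h] with t ht using cut_zero hd (le_of_lt ht)
    rw [this.deriv_eq, deriv_const]

lemma exists_deriv_cut (d : ℝ) : ∃ L : ℝ, 0 ≤ L ∧ ∀ s ∈ Icc d (2 * d), (deriv (cut d) s) ^ 2 ≤ L := by
  have hc : Continuous (deriv (cut d)) := (cut_contDiff d).continuous_deriv (by simp)
  obtain ⟨L, hL⟩ := (isCompact_Icc (a := d) (b := 2 * d)).exists_bound_of_continuousOn
    (f := fun s => (deriv (cut d) s) ^ 2) (hc.pow 2).continuousOn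
  refine ⟨max L 0, le_max_right _ _, fun s hs => ?_⟩
  have := hL s hs
  rw [Real.norm_eq_abs] at this
  exact (le_abs_self _).trans (this.trans (le_max_left _ _))

/-! ### the functions `y - y(x0)` -/

variable {ι : Type*} [Fintype ι]

/-- `y - y(x0)` -/
def sh (y : ι → M → ℂ) (x0 : M) (l : ι) (x : M) : ℂ := y l x - y l x0

lemma sh_hol {y : ι → M → ℂ} (hy : ∀ l, Hol (y l)) (x0 : M) (l : ι) : Hol (sh y x0 l) :=
  hol_sub (hy l) (hol_const _)

lemma sh_self (y : ι → M → ℂ) (x0 : M) : nS (sh y x0) x0 = 0 := by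
  unfold nS sh; simp

lemma nT_sh {y : ι → M → ℂ} (hy : ∀ l, Hol (y l)) (x0 x : M) (w : Fin n → ℂ) :
    nT (sh y x0) x w = nT y x w := by
  unfold nT
  refine Finset.sum_congr rfl fun l _ => ?_
  have h : D (sh y x0 l) x = D (y l) x := by
    have := D_sub (w_hol (hy l)).sm (Sm.const (y l x0)) x
    rw [D_const, sub_zero] at this
    exact this
  rw [h]

lemma nS_sh_le (y : ι → M → ℂ) (x0 x : M) : nS (sh y x0) x ≤ 2 * nS y x + 2 * nS y x0 := by
  unfold nS sh
  rw [Finset.mul_sum, Finset.mul_sum, ← Finset.sum_add_distrib]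
  refine Finset.sum_le_sum fun l _ => ?_
  have h1 := norm_sub_le (y l x) (y l x0)
  nlinarith [norm_nonneg (y l x - y l x0), norm_nonneg (y l x), norm_nonneg (y l x0),
    sq_nonneg (‖y l x‖ - ‖y l x0‖)]

lemma nS_le_sh (y : ι → M → ℂ) (x0 x : M) : nS y x ≤ 2 * nS (sh y x0) x + 2 * nS y x0 := by
  unfold nS sh
  rw [Finset.mul_sum, Finset.mul_sum, ← Finset.sum_add_distrib]
  refine Finset.sum_le_sum fun l _ => ?_
  have h1 : ‖y l x‖ ≤ ‖y l x - y l x0‖ + ‖y l x0‖ := by
    simpa using norm_add_le (y l x - y l x0) (y l x0)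
  nlinarith [norm_nonneg (y l x - y l x0), norm_nonneg (y l x), norm_nonneg (y l x0),
    sq_nonneg (‖y l x - y l x0‖ - ‖y l x0‖)]

/-- Lipschitz bound near `x0` -/
lemma nS_sh_lip {y : ι → M → ℂ} (hy : ∀ l, Hol (y l)) (x0 : M) :
    ∃ L : ℝ, 0 < L ∧ ∀ᶠ x in 𝓝 x0, nS (sh y x0) x ≤ L * ‖cp x - cp x0‖ ^ 2 := by
  have h1 : ∀ l, ∃ L : ℝ, ∀ᶠ x in 𝓝 x0, ‖y l x - y l x0‖ ≤ L * ‖cp x - cp x0‖ := by
    intro l
    have h2 : DifferentiableAt ℂ (y l ∘ (ch x0).symm) (cp x0) :=
      (hy l (ch x0) (isCh_ch x0)).differentiableAt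
        ((ch x0).open_target.mem_nhds ((isCh_ch x0).cp_mem (mem_ch x0)))
    obtain ⟨L, hL⟩ := h2.isBigO_sub.bound
    refine ⟨L, ?_⟩
    filter_upwards [cp_cont.continuousAt.eventually hL,
      (ch x0).open_source.mem_nhds (mem_ch x0)] with x hx hxs
    simpa [(isCh_ch x0).symm_cp hxs, symm_cp] using hx
  choose L hL using h1
  refine ⟨∑ l, L l ^ 2 + 1, by positivity, ?_⟩
  filter_upwards [eventually_all.2 hL] with x hx
  unfold nS sh
  calc ∑ l, ‖y l x - y l x0‖ ^ 2 ≤ ∑ l, L l ^ 2 * ‖cp x - cp x0‖ ^ 2 := by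
        refine Finset.sum_le_sum fun l _ => ?_
        rw [← mul_pow]
        exact pow_le_pow_left₀ (norm_nonneg _) (hx l) 2
    _ = (∑ l, L l ^ 2) * ‖cp x - cp x0‖ ^ 2 := by rw [Finset.sum_mul]
    _ ≤ (∑ l, L l ^ 2 + 1) * ‖cp x - cp x0‖ ^ 2 := by gcongr; linarith

/-! ### `∂̄` of the cut-off -/

/-- the cut-off function -/
def Gc (y : ι → M → ℂ) (x0 : M) (d : ℝ) (x : M) : ℂ := ((cut d (nS (sh y x0) x) : ℝ) : ℂ)

lemma Gc_sm {y : ι → M → ℂ} (hy : ∀ l, Hol (y l)) (x0 : M) (d : ℝ) : Sm (Gc y x0 d) := by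
  unfold Gc
  exact (Sm.comp (cut_contDiff d) (sm_nS fun l => (w_hol (sh_hol hy x0 l)).sm)).ofReal

lemma nA_I {f : ι → M → ℂ} (hf : ∀ l, Hol (f l)) (x : M) (w : Fin n → ℂ) :
    nA f x (Complex.I • w) = Complex.I * nA f x w := by
  unfold nA
  rw [Finset.mul_sum]
  refine Finset.sum_congr rfl fun j _ => ?_
  rw [(w_hol (hf j)).cl]; ring

lemma dbw_Gc {y : ι → M → ℂ} (hy : ∀ l, Hol (y l)) (x0 : M) (d : ℝ) (x : M) (w : Fin n → ℂ) :
    dbw (Gc y x0 d) x w =
      ((deriv (cut d) (nS (sh y x0) x) : ℝ) : ℂ) * conj (nA (sh y x0) x w) := by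
  have hs : ∀ l, Sm (sh y x0 l) := fun l => (w_hol (sh_hol hy x0 l)).sm
  have h1 : ∀ v : Fin n → ℂ, D (Gc y x0 d) x v =
      ((deriv (cut d) (nS (sh y x0) x) * (2 * (nA (sh y x0) x v).re) : ℝ) : ℂ) := by
    intro v
    unfold Gc
    rw [D_ofReal (Sm.comp (cut_contDiff d) (sm_nS hs)),
      D_comp_real (sm_nS hs) x (cut_hasDeriv d _), D_nS hs]
  unfold dbw
  rw [h1, h1, nA_I fun l => sh_hol hy x0 l]
  set a := nA (sh y x0) x w with ha
  apply Complex.ext
  · simp; ring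
  · simp; ring

end Crest.Agent.R273.Psi_283
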