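import Crest.Agent.R273.PsiC_283

/-!
# Row 273, leaf A-PSI (helper283), part D: peak functions from the engine
-/

set_option autoImplicit false
set_option linter.unusedSectionVars false

open MeasureTheory Set Metric Filter Topology
open scoped ENNReal ContDiff ComplexConjugate

noncomputable section

namespace Crest.Agent.R273.Psi_283

open Crest.Agent.R271.Ho51
open Crest.Agent.R271.W792 (lev lev_normSq Levi_eq_lev nS nS_nonneg sm_nS nT nT_nonneg nA nA_le lg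
  sm_lg lev_lg lev_lg_ge lev_lg_nonneg lev_add lev_const_mul lev_const D_nS)
open Crest.Agent.R273.Pen_93 (w_hol dbw dbw_eq hol_sub hol_const hol_cont)

variable {n : ℕ} {M : Type*} [TopologicalSpace M] [RDom n M] {ι : Type*} [Fintype ι]

/-- the weight -/
def Wg (n : ℕ) [RDom n M] (y : ι → M → ℂ) (x0 : M) (Ψ : M → ℝ) (k : ℕ) (x : M) : ℝ :=
  Ψ x + (lg y 1 x + (n : ℝ) * lg (sh y x0) (1 / ((k : ℝ) + 1)) x)

omit [TopologicalSpace M] in
lemma pos1 (y : ι → M → ℂ) (x : M) : 0 < nS y x + 1 := by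
  have := nS_nonneg y x
  linarith

omit [TopologicalSpace M] in
lemma posk (y : ι → M → ℂ) (k : ℕ) (x : M) : 0 < nS y x + 1 / ((k : ℝ) + 1) := by
  have := nS_nonneg y x
  positivity

section

variable {y : ι → M → ℂ} (hy : ∀ l, Hol (y l)) (x0 : M) {Ψ : M → ℝ} (hΨ : Sm Ψ)

include hy hΨ in
lemma Wg_sm (k : ℕ) : Sm (Wg n y x0 Ψ k) := by
  unfold Wg
  have h1 : Sm (lg y 1) := sm_lg (fun l => (w_hol (hy l)).sm) (pos1 y)
  have h2 : Sm (lg (sh y x0) (1 / ((k : ℝ) + 1))) :=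
    sm_lg (fun l => (w_hol (sh_hol hy x0 l)).sm) (posk _ k)
  exact hΨ.add (h1.add ((Sm.const (n : ℝ)).mulR h2))

include hy hΨ in
lemma Wg_lev (hL : ∀ x w, 0 ≤ Levi Ψ x w) (k : ℕ) (x : M) (w : Fin n → ℂ) :
    nT y x w / (nS y x + 1) ^ 2 ≤ Levi (Wg n y x0 Ψ k) x w := by
  have h1 : Sm (lg y 1) := sm_lg (fun l => (w_hol (hy l)).sm) (pos1 y)
  have h2 : Sm (lg (sh y x0) (1 / ((k : ℝ) + 1))) :=
    sm_lg (fun l => (w_hol (sh_hol hy x0 l)).sm) (posk _ k)
  rw [Levi_eq_lev (Wg_sm hy x0 hΨ k)]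
  unfold Wg
  rw [lev_add hΨ (h1.add ((Sm.const (n : ℝ)).mulR h2)), lev_add h1 ((Sm.const (n : ℝ)).mulR h2),
    lev_const_mul h2]
  have h3 := hL x w
  rw [Levi_eq_lev hΨ] at h3
  have h4 := lev_lg_ge (fun l => w_hol (hy l)) (pos1 y) x w
  have h5 := lev_lg_nonneg (fun l => w_hol (sh_hol hy x0 l)) (δ := 1 / ((k : ℝ) + 1))
    (by positivity) (posk _ k) x w
  have h6 : 0 ≤ (n : ℝ) * lev (lg (sh y x0) (1 / ((k : ℝ) + 1))) x w := by positivity
  rw [one_mul] at h4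
  linarith

lemma exp_Wg (y : ι → M → ℂ) (Ψ : M → ℝ) (k : ℕ) (x : M) :
    Real.exp (-Wg n y x0 Ψ k x) =
      Real.exp (-Ψ x) * ((nS y x + 1)⁻¹ * ((nS (sh y x0) x + 1 / ((k : ℝ) + 1))⁻¹) ^ n) := by
  unfold Wg lg
  rw [neg_add, neg_add, Real.exp_add, Real.exp_add]
  congr 2
  · rw [Real.exp_neg, Real.exp_log (pos1 y x)]
  · rw [Real.exp_neg, inv_pow]
    congr 1
    rw [mul_comm, Real.exp_mul, Real.exp_log (posk _ k x), Real.rpow_natCast]

end

theorem peak {G : Type} [TopologicalSpace G] [T2Space G] [SecondCountableTopology G]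
    [RDom n G] [MeasurableSpace G] [BorelSpace G] {μ : Measure G} (hμ : IsLeb μ) {ρ : G → ℝ}
    (hρ : Sm ρ) (hρc : ∀ c, IsCompact {x | ρ x ≤ c}) (hρL : ∀ x w, nsq w ≤ Levi ρ x w)
    (hn : 0 < n) {y : ι → G → ℂ} (hy : ∀ l, Hol (y l)) (x0 : G) {d : ℝ} (hd : 0 < d) :
    ∃ A : ℝ≥0∞, A ≠ ⊤ ∧ ∀ Ψ : G → ℝ, Sm Ψ → (∀ x w, 0 ≤ Levi Ψ x w) → ∀ J : ℝ≥0∞, J ≠ ⊤ →
      ∫⁻ x in {x | nS (sh y x0) x ≤ 2 * d}, ENNReal.ofReal (Real.exp (-Ψ x)) ∂μ ≤ J →
      ∃ u : G → ℂ, Hol u ∧ u x0 = 1 ∧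
        ∫⁻ x, ENNReal.ofReal (‖u x‖ ^ 2 * (Real.exp (-Ψ x) * ((1 + nS y x) ^ (n + 1))⁻¹)) ∂μ
          ≤ A * J := by
  classical
  obtain ⟨L, hL0, hL⟩ := exists_deriv_cut d
  set Y0 : ℝ := nS y x0 with hY0
  have hY00 : 0 ≤ Y0 := nS_nonneg _ _
  set S : G → ℝ := nS (sh y x0) with hS
  have hS0 : ∀ x, 0 ≤ S x := nS_nonneg _
  have hYn : ∀ x, 0 ≤ nS y x := nS_nonneg _
  set A1 : ℝ := L * (2 * d) * (2 * (2 * d) + 2 * Y0 + 1) ^ 2 * (d⁻¹) ^ n with hA1
  have hA10 : 0 ≤ A1 := by positivity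
  set c2 : ℝ := (2 + 2 * Y0) ^ n with hc2
  have hc20 : 0 ≤ c2 := by positivity
  refine ⟨2 * ENNReal.ofReal c2 * (2 * ENNReal.ofReal A1) + 2, ?_, fun Ψ hΨ hΨL J hJ hJint => ?_⟩
  · exact ENNReal.add_ne_top.2 ⟨ENNReal.mul_ne_top (ENNReal.mul_ne_top (by simp)
      ENNReal.ofReal_ne_top) (ENNReal.mul_ne_top (by simp) ENNReal.ofReal_ne_top), by simp⟩
  have hΨc := hΨ.continuous
  have hyc : ∀ l, Continuous (y l) := fun l => hol_cont (hy l)
  have hYc : Continuous (nS y) := (sm_nS fun l => (w_hol (hy l)).sm).continuous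
  have hSs : Sm S := sm_nS fun l => (w_hol (sh_hol hy x0 l)).sm
  have hSc : Continuous S := hSs.continuous
  have hcutc : Continuous (cut d) := (cut_contDiff d).continuous
  have hcut'c : Continuous (deriv (cut d)) := (cut_contDiff d).continuous_deriv (by simp)
  set T : Set G := {x | S x ≤ 2 * d} with hT
  have hTm : MeasurableSet T := (isClosed_le hSc continuous_const).measurableSet
  -- the data of the engine
  set kap : ℕ → G → ℝ := fun _ x => (deriv (cut d) (S x)) ^ 2 * (S x * (nS y x + 1) ^ 2) with hkap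
  have hE := engineP n G μ hμ ρ hρ hρc hρL (Wg n y x0 Ψ) (fun k => Wg_sm hy x0 hΨ k)
    (fun x => by
      intro k k' hkk
      unfold Wg
      have h1 : (1 : ℝ) / ((k' : ℝ) + 1) ≤ 1 / ((k : ℝ) + 1) := by
        have : (k : ℝ) ≤ k' := by exact_mod_cast hkk
        gcongr
      have h2 := Crest.Agent.R271.W792.lg_antitone (sh y x0) h1 x (posk _ k' x)
      have h3 : (0 : ℝ) ≤ n := Nat.cast_nonneg n
      have h4 := mul_le_mul_of_nonneg_left h2 h3
      show Ψ x + (lg y 1 x + (n : ℝ) * lg (sh y x0) (1 / ((k' : ℝ) + 1)) x) ≤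
        Ψ x + (lg y 1 x + (n : ℝ) * lg (sh y x0) (1 / ((k : ℝ) + 1)) x)
      linarith)
    (fun k x w => by
      refine le_trans ?_ (Wg_lev hy x0 hΨ hΨL k x w)
      have := nT_nonneg y x w
      positivity)
    (Gc y x0 d) (Gc_sm hy x0 d) kap
    (fun k x w => by
      rw [dbw_eq, dbw_Gc hy, norm_mul, mul_pow, Complex.norm_real, Real.norm_eq_abs, sq_abs,
        RCLike.norm_conj]
      have h1 := nA_le (sh y x0) x w
      rw [nT_sh hy] at h1
      have h2 := Wg_lev hy x0 hΨ hΨL k x w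
      have h3 := nT_nonneg y x w
      have h4 : 0 ≤ (deriv (cut d) (S x)) ^ 2 := sq_nonneg _
      calc (deriv (cut d) (nS (sh y x0) x)) ^ 2 * ‖nA (sh y x0) x w‖ ^ 2
          ≤ (deriv (cut d) (S x)) ^ 2 * (S x * nT y x w) := by gcongr
        _ = (deriv (cut d) (S x)) ^ 2 * (S x * (nS y x + 1) ^ 2) *
            (nT y x w / (nS y x + 1) ^ 2) := by
            have := pos1 y x
            field_simp
        _ ≤ (deriv (cut d) (S x)) ^ 2 * (S x * (nS y x + 1) ^ 2) *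
            Levi (Wg n y x0 Ψ k) x w := by
            refine mul_le_mul_of_nonneg_left h2 ?_
            have := hS0 x
            positivity)
    (ENNReal.ofReal A1 * J)
    (fun k => by
      calc ∫⁻ x, ENNReal.ofReal (kap k x * Real.exp (-Wg n y x0 Ψ k x)) ∂μ
          ≤ ∫⁻ x, T.indicator (fun x => ENNReal.ofReal A1 *
              ENNReal.ofReal (Real.exp (-Ψ x))) x ∂μ := by
            refine lintegral_mono fun x => ?_
            by_cases hx : S x ∈ Icc d (2 * d)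
            · have hxT : x ∈ T := hx.2
              rw [indicator_of_mem hxT, ← ENNReal.ofReal_mul hA10]
              apply ENNReal.ofReal_le_ofReal
              rw [exp_Wg, hkap]
              show (deriv (cut d) (S x)) ^ 2 * (S x * (nS y x + 1) ^ 2) * (Real.exp (-Ψ x) *
                ((nS y x + 1)⁻¹ * ((S x + 1 / ((k : ℝ) + 1))⁻¹) ^ n)) ≤ A1 * Real.exp (-Ψ x)
              have h1 := hL _ hx
              have h2 : nS y x + 1 ≤ 2 * (2 * d) + 2 * Y0 + 1 := by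
                have := nS_le_sh y x0 x
                have := hx.2
                linarith
              have h3 : (nS y x + 1)⁻¹ ≤ 1 := inv_le_one_of_one_le₀ (by linarith [hYn x])
              have h4 : ((S x + 1 / ((k : ℝ) + 1))⁻¹) ^ n ≤ (d⁻¹) ^ n := by
                have : d ≤ S x + 1 / ((k : ℝ) + 1) := by
                  have : (0 : ℝ) ≤ 1 / ((k : ℝ) + 1) := by positivity
                  linarith [hx.1]
                have h7' : (0 : ℝ) ≤ (S x + 1 / ((k : ℝ) + 1))⁻¹ :=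
                  inv_nonneg.2 (hd.le.trans this)
                exact pow_le_pow_left₀ h7' (inv_anti₀ hd this) n
              have h5 := hS0 x
              have h6 := pos1 y x
              have h7 := posk (sh y x0) k x
              calc (deriv (cut d) (S x)) ^ 2 * (S x * (nS y x + 1) ^ 2) * (Real.exp (-Ψ x) *
                    ((nS y x + 1)⁻¹ * ((S x + 1 / ((k : ℝ) + 1))⁻¹) ^ n))
                  ≤ L * ((2 * d) * (2 * (2 * d) + 2 * Y0 + 1) ^ 2) * (Real.exp (-Ψ x) *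
                    (1 * (d⁻¹) ^ n)) := by
                    have h8 := hx.2
                    gcongr
                _ = A1 * Real.exp (-Ψ x) := by rw [hA1]; ring
            · have h0 : kap k x = 0 := by
                simp only [hkap, deriv_cut_eq_zero hd hx]
                ring
              rw [h0, zero_mul, ENNReal.ofReal_zero]
              exact zero_le
        _ = ENNReal.ofReal A1 * ∫⁻ x in T, ENNReal.ofReal (Real.exp (-Ψ x)) ∂μ := by
            rw [lintegral_indicator hTm, lintegral_const_mul' _ _ ENNReal.ofReal_ne_top]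
        _ ≤ ENNReal.ofReal A1 * J := by gcongr)
  obtain ⟨u, hu, hint⟩ := hE
  have huc : Continuous u := hol_cont hu
  have hGc : Continuous (Gc y x0 d) := (Gc_sm hy x0 d).continuous
  set Q : G → ℝ≥0∞ := fun x => ⨆ k, ENNReal.ofReal (Real.exp (-Wg n y x0 Ψ k x)) with hQ
  have hQm : Measurable Q := by
    refine Measurable.iSup fun k => ?_
    have := (Wg_sm hy x0 hΨ k).continuous
    have : Continuous fun x => Real.exp (-Wg n y x0 Ψ k x) := by fun_prop
    exact this.measurable.ennreal_ofReal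
  have hfinK : 2 * (ENNReal.ofReal A1 * J) ≠ ⊤ :=
    ENNReal.mul_ne_top (by simp) (ENNReal.mul_ne_top ENNReal.ofReal_ne_top hJ)
  -- the value at `x0`
  have hval : u x0 - Gc y x0 d x0 = 0 := by
    obtain ⟨Lc, hLc, hLip⟩ := nS_sh_lip hy x0
    set c1 : ℝ := Real.exp (-Ψ x0) * (nS y x0 + 1)⁻¹ / 2 with hc1
    have hc1p : 0 < c1 := by
      have := pos1 y x0
      positivity
    refine value_of_fin hμ hn (E := fun x => u x - Gc y x0 d x) (huc.sub hGc) hQm
      (x0 := x0) (c := c1 * ((2 * Lc)⁻¹) ^ n) (by positivity) ?_ (ne_top_of_le_ne_top hfinK hint)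
    have hcc : Continuous fun x => Real.exp (-Ψ x) * (nS y x + 1)⁻¹ := by
      refine Continuous.mul (by fun_prop) (Continuous.inv₀ (by fun_prop) fun x => (pos1 y x).ne')
    have h1 : ∀ᶠ x in 𝓝 x0, c1 < Real.exp (-Ψ x) * (nS y x + 1)⁻¹ := by
      refine hcc.continuousAt.eventually (lt_mem_nhds ?_)
      rw [hc1]
      have := pos1 y x0
      have : 0 < Real.exp (-Ψ x0) * (nS y x0 + 1)⁻¹ := by positivity
      linarith
    filter_upwards [h1, hLip] with x hx1 hx2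
    set t : ℝ := ‖cp x - cp x0‖ ^ 2 with ht
    unfold pol
    rw [← ht]
    have ht0 : 0 ≤ t := by positivity
    rcases ht0.eq_or_lt with ht1 | ht1
    · rw [← ht1, inv_zero, zero_pow hn.ne', ENNReal.ofReal_zero, mul_zero]
      exact zero_le
    · obtain ⟨k, hk⟩ := exists_nat_one_div_lt (mul_pos hLc ht1)
      refine le_trans ?_ (le_iSup _ k)
      rw [← ENNReal.ofReal_mul (by positivity)]
      apply ENNReal.ofReal_le_ofReal
      rw [exp_Wg]
      have h3 : S x + 1 / ((k : ℝ) + 1) ≤ 2 * Lc * t := by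
        have : S x ≤ Lc * t := hx2
        linarith
      have h4 := posk (sh y x0) k x
      have h5 : (2 * Lc * t)⁻¹ ≤ (S x + 1 / ((k : ℝ) + 1))⁻¹ := by gcongr
      have h6 : ((2 * Lc)⁻¹) ^ n * (t⁻¹) ^ n = ((2 * Lc * t)⁻¹) ^ n := by
        rw [← mul_pow, ← mul_inv]
      have h7 : 0 ≤ Real.exp (-Ψ x) * (nS y x + 1)⁻¹ := by
        have := pos1 y x
        positivity
      have h8 : (0 : ℝ) ≤ ((2 * Lc * t)⁻¹) ^ n := by positivity
      have h9 : ((2 * Lc * t)⁻¹) ^ n ≤ ((S x + 1 / ((k : ℝ) + 1))⁻¹) ^ n :=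
        pow_le_pow_left₀ (by positivity) h5 n
      calc c1 * ((2 * Lc)⁻¹) ^ n * (t⁻¹) ^ n = c1 * ((2 * Lc * t)⁻¹) ^ n := by
            rw [mul_assoc, h6]
        _ ≤ (Real.exp (-Ψ x) * (nS y x + 1)⁻¹) * ((S x + 1 / ((k : ℝ) + 1))⁻¹) ^ n :=
            mul_le_mul hx1.le h9 h8 h7
        _ = _ := by rw [mul_assoc]
  have hG1 : Gc y x0 d x0 = 1 := by
    unfold Gc
    rw [sh_self, cut_one hd hd.le]
    simp
  refine ⟨u, hu, by rw [hG1] at hval; exact sub_eq_zero.1 hval, ?_⟩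
  -- the norm
  have hpt : ∀ x, ENNReal.ofReal (‖u x‖ ^ 2 * (Real.exp (-Ψ x) * ((1 + nS y x) ^ (n + 1))⁻¹)) ≤
      2 * ENNReal.ofReal c2 * (ENNReal.ofReal (‖u x - Gc y x0 d x‖ ^ 2) * Q x) +
        2 * T.indicator (fun x => ENNReal.ofReal (Real.exp (-Ψ x))) x := by
    intro x
    have hYp := pos1 y x
    have hwt0 : 0 ≤ Real.exp (-Ψ x) * ((1 + nS y x) ^ (n + 1))⁻¹ := by
      have : 0 < 1 + nS y x := by linarith
      positivity
    have h1 : ‖u x‖ ^ 2 ≤ 2 * ‖u x - Gc y x0 d x‖ ^ 2 + 2 * ‖Gc y x0 d x‖ ^ 2 := by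
      have h2 : ‖u x‖ ≤ ‖u x - Gc y x0 d x‖ + ‖Gc y x0 d x‖ := by
        simpa using norm_add_le (u x - Gc y x0 d x) (Gc y x0 d x)
      nlinarith [norm_nonneg (u x - Gc y x0 d x), norm_nonneg (u x), norm_nonneg (Gc y x0 d x),
        sq_nonneg (‖u x - Gc y x0 d x‖ - ‖Gc y x0 d x‖)]
    -- comparison of the weights
    have h2 : Real.exp (-Ψ x) * ((1 + nS y x) ^ (n + 1))⁻¹ ≤
        c2 * Real.exp (-Wg n y x0 Ψ 0 x) := by
      rw [exp_Wg]
      have h3 : S x + 1 ≤ (2 + 2 * Y0) * (nS y x + 1) := by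
        have h4 := nS_sh_le y x0 x
        have h5 := hYn x
        have h6 : S x ≤ 2 * nS y x + 2 * Y0 := h4
        nlinarith [mul_nonneg hY00 h5]
      have h7 : 0 < S x + 1 := by linarith [hS0 x]
      have h8 : (nS y x + 1)⁻¹ ≤ (2 + 2 * Y0) * (S x + 1)⁻¹ := by
        rw [← div_eq_mul_inv, le_div_iff₀ h7, inv_mul_le_iff₀ hYp]
        linarith
      have h9 : (0 : ℝ) ≤ (nS y x + 1)⁻¹ := by positivity
      have h10 : ((nS y x + 1)⁻¹) ^ n ≤ ((2 + 2 * Y0) * (S x + 1)⁻¹) ^ n :=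
        pow_le_pow_left₀ h9 h8 n
      have h11 : ((0 : ℕ) : ℝ) + 1 = 1 := by norm_num
      rw [h11, div_one]
      calc Real.exp (-Ψ x) * ((1 + nS y x) ^ (n + 1))⁻¹
          = Real.exp (-Ψ x) * ((nS y x + 1)⁻¹ * ((nS y x + 1)⁻¹) ^ n) := by
            rw [add_comm 1 (nS y x), ← inv_pow, pow_succ']
        _ ≤ Real.exp (-Ψ x) * ((nS y x + 1)⁻¹ * ((2 + 2 * Y0) * (S x + 1)⁻¹) ^ n) := by
            gcongr
        _ = c2 * (Real.exp (-Ψ x) * ((nS y x + 1)⁻¹ * ((S x + 1)⁻¹) ^ n)) := by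
            rw [mul_pow, hc2]; ring
    have hQ0 : ENNReal.ofReal (Real.exp (-Wg n y x0 Ψ 0 x)) ≤ Q x :=
      le_iSup (fun k => ENNReal.ofReal (Real.exp (-Wg n y x0 Ψ k x))) 0
    have h12 : ENNReal.ofReal (‖Gc y x0 d x‖ ^ 2 *
        (Real.exp (-Ψ x) * ((1 + nS y x) ^ (n + 1))⁻¹)) ≤
        T.indicator (fun x => ENNReal.ofReal (Real.exp (-Ψ x))) x := by
      by_cases hx : x ∈ T
      · rw [indicator_of_mem hx]
        apply ENNReal.ofReal_le_ofReal
        have h13 : ‖Gc y x0 d x‖ ≤ 1 := by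
          unfold Gc
          rw [Complex.norm_real, Real.norm_eq_abs, abs_of_nonneg (cut_nonneg _ _)]
          exact cut_le_one _ _
        have h14 : ((1 + nS y x) ^ (n + 1))⁻¹ ≤ 1 :=
          inv_le_one_of_one_le₀ (one_le_pow₀ (by linarith [hYn x]))
        have h15 : ‖Gc y x0 d x‖ ^ 2 ≤ 1 := pow_le_one₀ (norm_nonneg _) h13
        have h16 : Real.exp (-Ψ x) * ((1 + nS y x) ^ (n + 1))⁻¹ ≤ Real.exp (-Ψ x) * 1 := by
          gcongr
        calc ‖Gc y x0 d x‖ ^ 2 * (Real.exp (-Ψ x) * ((1 + nS y x) ^ (n + 1))⁻¹)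
            ≤ 1 * (Real.exp (-Ψ x) * 1) := mul_le_mul h15 h16 hwt0 zero_le_one
          _ = Real.exp (-Ψ x) := by ring
      · have h13 : Gc y x0 d x = 0 := by
          unfold Gc
          rw [cut_zero hd (le_of_lt (not_le.1 hx))]
          simp
        rw [h13]
        simp
    have h17 : ENNReal.ofReal (‖u x - Gc y x0 d x‖ ^ 2 *
        (Real.exp (-Ψ x) * ((1 + nS y x) ^ (n + 1))⁻¹)) ≤
        ENNReal.ofReal c2 * (ENNReal.ofReal (‖u x - Gc y x0 d x‖ ^ 2) * Q x) := by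
      calc ENNReal.ofReal (‖u x - Gc y x0 d x‖ ^ 2 *
            (Real.exp (-Ψ x) * ((1 + nS y x) ^ (n + 1))⁻¹))
          ≤ ENNReal.ofReal (‖u x - Gc y x0 d x‖ ^ 2 * (c2 * Real.exp (-Wg n y x0 Ψ 0 x))) :=
            ENNReal.ofReal_le_ofReal (mul_le_mul_of_nonneg_left h2 (by positivity))
        _ = ENNReal.ofReal c2 * (ENNReal.ofReal (‖u x - Gc y x0 d x‖ ^ 2) *
              ENNReal.ofReal (Real.exp (-Wg n y x0 Ψ 0 x))) := by
            rw [← ENNReal.ofReal_mul (by positivity), ← ENNReal.ofReal_mul hc20]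
            congr 1; ring
        _ ≤ _ := mul_le_mul' le_rfl (mul_le_mul' le_rfl hQ0)
    calc ENNReal.ofReal (‖u x‖ ^ 2 * (Real.exp (-Ψ x) * ((1 + nS y x) ^ (n + 1))⁻¹))
        ≤ ENNReal.ofReal ((2 * ‖u x - Gc y x0 d x‖ ^ 2 + 2 * ‖Gc y x0 d x‖ ^ 2) *
            (Real.exp (-Ψ x) * ((1 + nS y x) ^ (n + 1))⁻¹)) :=
          ENNReal.ofReal_le_ofReal (mul_le_mul_of_nonneg_right h1 hwt0)
      _ = 2 * ENNReal.ofReal (‖u x - Gc y x0 d x‖ ^ 2 *
            (Real.exp (-Ψ x) * ((1 + nS y x) ^ (n + 1))⁻¹)) +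
          2 * ENNReal.ofReal (‖Gc y x0 d x‖ ^ 2 *
            (Real.exp (-Ψ x) * ((1 + nS y x) ^ (n + 1))⁻¹)) := by
          rw [add_mul, ENNReal.ofReal_add (by positivity) (by positivity), mul_assoc, mul_assoc,
            ENNReal.ofReal_mul (by norm_num : (0 : ℝ) ≤ 2),
            ENNReal.ofReal_mul (p := 2) (q := ‖Gc y x0 d x‖ ^ 2 *
            (Real.exp (-Ψ x) * ((1 + nS y x) ^ (n + 1))⁻¹)) (by norm_num : (0 : ℝ) ≤ 2)]
          norm_num
      _ ≤ _ := by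
          rw [mul_assoc 2 (ENNReal.ofReal c2)]
          exact add_le_add (mul_le_mul' le_rfl h17) (mul_le_mul' le_rfl h12)
  have hm1 : Measurable fun x => 2 * ENNReal.ofReal c2 *
      (ENNReal.ofReal (‖u x - Gc y x0 d x‖ ^ 2) * Q x) := by
    have : Continuous fun x => ‖u x - Gc y x0 d x‖ ^ 2 := by fun_prop
    exact measurable_const.mul (this.measurable.ennreal_ofReal.mul hQm)
  calc ∫⁻ x, ENNReal.ofReal (‖u x‖ ^ 2 * (Real.exp (-Ψ x) * ((1 + nS y x) ^ (n + 1))⁻¹)) ∂μ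
      ≤ ∫⁻ x, (2 * ENNReal.ofReal c2 * (ENNReal.ofReal (‖u x - Gc y x0 d x‖ ^ 2) * Q x) +
        2 * T.indicator (fun x => ENNReal.ofReal (Real.exp (-Ψ x))) x) ∂μ := lintegral_mono hpt
    _ = 2 * ENNReal.ofReal c2 * ∫⁻ x, ENNReal.ofReal (‖u x - Gc y x0 d x‖ ^ 2) * Q x ∂μ +
        2 * ∫⁻ x in T, ENNReal.ofReal (Real.exp (-Ψ x)) ∂μ := by
        rw [lintegral_add_left hm1, lintegral_const_mul' _ _ (ENNReal.mul_ne_top (by simp)
          ENNReal.ofReal_ne_top), lintegral_const_mul' _ _ (by simp), lintegral_indicator hTm]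
    _ ≤ 2 * ENNReal.ofReal c2 * (2 * (ENNReal.ofReal A1 * J)) + 2 * J :=
        add_le_add (mul_le_mul' le_rfl hint) (mul_le_mul' le_rfl hJint)
    _ = _ := by ring

end Crest.Agent.R273.Psi_283
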