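import Crest.Agent.R271.Engine_51
import Crest.Agent.R271.NonInt_821
import Crest.Agent.R273.Pen_93

/-!
# R273, A-PSI: the engine step (helper145)

On a Riemann domain `M` with a strictly plurisubharmonic exhaustion: `u`, `p1` smooth
plurisubharmonic, `∫ e^{-p1} < ∞`, `y_1, ..., y_N` holomorphic, `b` a function on `ℂ^N`, continuous
at the points `y(x)`, with `b(y) ≤ u + C`.  Then for every `x0` and `m` there is a holomorphic `F`
with `F(x0) = 1` and
`∫ |F|² e^{-(m u + p1 + (n+1) log(1+|y|²))} ≤ C(x0) e^{m (C + 1 - b(y(x0)))}`.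
-/

set_option autoImplicit false
set_option linter.unusedSectionVars false

noncomputable section

open Set Filter Topology MeasureTheory ComplexConjugate Metric
open scoped ENNReal

namespace Crest.Agent.R273.PsiE_145

open Crest.Agent.R271 Crest.Agent.R271.Ho51
open Crest.Agent.R271.W792 (lev lev_lg lev_lg_ge lev_lg_nonneg nS nS_nonneg sm_nS nT nT_nonneg nA
  nA_le lg sm_lg Levi_eq_lev D_nS lev_add lev_const_mul lg_antitone)
open Crest.Agent.R273.Pen_93 (w_hol dbw dbw_eq hol_cont hol_sub hol_const)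

variable {n N : ℕ} {M : Type} [TopologicalSpace M] [RDom n M]

/-! ### the cut-off function -/

/-- `1` on `(-∞, ε/2]`, `0` on `[ε, ∞)` -/
def cut (ε s : ℝ) : ℝ := Real.smoothTransition ((ε - s) / (ε / 2))

theorem contDiff_cut (ε : ℝ) : ContDiff ℝ (⊤ : ℕ∞) (cut ε) := by
  unfold cut
  exact Real.smoothTransition.contDiff.comp (by fun_prop)

theorem cut_one {ε s : ℝ} (hε : 0 < ε) (h : s ≤ ε / 2) : cut ε s = 1 := by
  unfold cut
  refine Real.smoothTransition.one_of_one_le ?_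
  rw [le_div_iff₀ (by positivity)]
  linarith

theorem cut_zero {ε s : ℝ} (hε : 0 < ε) (h : ε ≤ s) : cut ε s = 0 := by
  unfold cut
  refine Real.smoothTransition.zero_of_nonpos ?_
  exact div_nonpos_of_nonpos_of_nonneg (by linarith) (by positivity)

theorem cut_nonneg (ε s : ℝ) : 0 ≤ cut ε s := Real.smoothTransition.nonneg _

theorem cut_le_one (ε s : ℝ) : cut ε s ≤ 1 := Real.smoothTransition.le_one _

theorem deriv_cut {ε s : ℝ} (hε : 0 < ε) (h : deriv (cut ε) s ≠ 0) : ε / 2 ≤ s ∧ s ≤ ε := by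
  constructor
  · by_contra hcon
    push Not at hcon
    refine h ?_
    have h1 : cut ε =ᶠ[𝓝 s] fun _ => (1 : ℝ) := by
      filter_upwards [eventually_lt_nhds hcon] with t ht
      exact cut_one hε ht.le
    rw [h1.deriv_eq, deriv_const]
  · by_contra hcon
    push Not at hcon
    refine h ?_
    have h1 : cut ε =ᶠ[𝓝 s] fun _ => (0 : ℝ) := by
      filter_upwards [eventually_gt_nhds hcon] with t ht
      exact cut_zero hε ht.le
    rw [h1.deriv_eq, deriv_const]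

theorem exists_deriv_bound {ε : ℝ} (hε : 0 < ε) :
    ∃ A : ℝ, 0 ≤ A ∧ ∀ s, |deriv (cut ε) s| ≤ A := by
  have hc : Continuous (deriv (cut ε)) := (contDiff_cut ε).continuous_deriv (by simp)
  obtain ⟨A, hA⟩ := (isCompact_Icc (a := ε / 2) (b := ε)).bddAbove_image hc.abs.continuousOn
  refine ⟨max A 0, le_max_right _ _, fun s => ?_⟩
  by_cases h : deriv (cut ε) s = 0
  · rw [h, abs_zero]; exact le_max_right _ _
  · exact le_max_of_le_left (hA ⟨s, deriv_cut hε h, rfl⟩)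

/-! ### functions of `∑ |f_j|²` -/

theorem dbw_nS {ι : Type*} [Fintype ι] {f : ι → M → ℂ} (hf : ∀ j, W792.Hol (f j)) {g : ℝ → ℝ}
    (hg : ContDiff ℝ (⊤ : ℕ∞) g) (x : M) (w : Fin n → ℂ) :
    dbw (fun x => ((g (nS f x) : ℝ) : ℂ)) x w =
      ((deriv g (nS f x) : ℝ) : ℂ) * conj (nA f x w) := by
  have hd : HasDerivAt g (deriv g (nS f x)) (nS f x) :=
    (hg.differentiable (by simp)).differentiableAt.hasDerivAt
  have hsm : Sm (fun x => g (nS f x)) := (sm_nS fun j => (hf j).sm).comp hg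
  have h1 : ∀ v, D (fun x => ((g (nS f x) : ℝ) : ℂ)) x v =
      ((deriv g (nS f x) * (2 * (nA f x v).re) : ℝ) : ℂ) := by
    intro v
    have h2 := D_ofReal hsm x v
    have h3 := D_comp_real (sm_nS fun j => (hf j).sm) x hd v
    have h4 : D (nS f) x v = 2 * (nA f x v).re := D_nS (fun j => (hf j).sm) x v
    rw [h2, h3, h4]
  have hI : nA f x (Complex.I • w) = Complex.I * nA f x w := by
    unfold nA
    rw [Finset.mul_sum]
    refine Finset.sum_congr rfl fun j _ => ?_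
    rw [(hf j).cl]; ring
  unfold dbw
  rw [h1, h1, hI]
  set A := nA f x w with hA
  have h5 : (Complex.I * A).re = -A.im := by simp
  rw [h5]
  apply Complex.ext
  · simp only [Complex.mul_re, Complex.add_re, Complex.add_im, Complex.ofReal_re, Complex.ofReal_im,
      Complex.I_re, Complex.I_im, Complex.conj_re,
      Complex.conj_im, Complex.mul_im, Complex.one_re, Complex.one_im, Complex.div_re,
      Complex.div_im]
    norm_num
    ring
  · simp only [Complex.mul_re, Complex.add_re, Complex.add_im, Complex.ofReal_re, Complex.ofReal_im,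
      Complex.I_re, Complex.I_im, Complex.conj_re,
      Complex.conj_im, Complex.mul_im, Complex.one_re, Complex.one_im, Complex.div_re,
      Complex.div_im]
    norm_num
    ring

/-- the functions `y_j - y_j(x0)` -/
def sh (y : Fin N → M → ℂ) (x0 : M) (j : Fin N) (x : M) : ℂ := y j x - y j x0

theorem sh_hol {y : Fin N → M → ℂ} (hy : ∀ j, Hol (y j)) (x0 : M) (j : Fin N) :
    Hol (sh y x0 j) := hol_sub (hy j) (hol_const _)

theorem nT_sh {y : Fin N → M → ℂ} (hy : ∀ j, Hol (y j)) (x0 x : M) (w : Fin n → ℂ) :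
    nT (sh y x0) x w = nT y x w := by
  unfold nT
  refine Finset.sum_congr rfl fun j _ => ?_
  have h1 : D (sh y x0 j) x = D (y j) x := by
    have := D_sub (w_hol (hy j)).sm (Sm.const (M := M) (y j x0)) x
    rw [D_const, sub_zero] at this
    exact this
  rw [h1]

theorem nS_sh_self (y : Fin N → M → ℂ) (x0 : M) : nS (sh y x0) x0 = 0 := by
  simp [nS, sh]

omit [TopologicalSpace M] [RDom n M] in
theorem nS_le_sh (y : Fin N → M → ℂ) (x0 x : M) : nS y x ≤ 2 * (nS y x0 + nS (sh y x0) x) := by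
  unfold nS sh
  rw [← Finset.sum_add_distrib, Finset.mul_sum]
  refine Finset.sum_le_sum fun j _ => ?_
  have h1 : ‖y j x‖ ≤ ‖y j x0‖ + ‖y j x - y j x0‖ := by
    have := norm_add_le (y j x0) (y j x - y j x0)
    rwa [add_sub_cancel] at this
  nlinarith [norm_nonneg (y j x), norm_nonneg (y j x0), norm_nonneg (y j x - y j x0),
    sq_nonneg (‖y j x0‖ - ‖y j x - y j x0‖)]

omit [TopologicalSpace M] [RDom n M] in
theorem sh_le_nS (y : Fin N → M → ℂ) (x0 x : M) : nS (sh y x0) x ≤ 2 * (nS y x0 + nS y x) := by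
  unfold nS sh
  rw [← Finset.sum_add_distrib, Finset.mul_sum]
  refine Finset.sum_le_sum fun j _ => ?_
  have h1 : ‖y j x - y j x0‖ ≤ ‖y j x‖ + ‖y j x0‖ := norm_sub_le _ _
  nlinarith [norm_nonneg (y j x), norm_nonneg (y j x0), norm_nonneg (y j x - y j x0),
    sq_nonneg (‖y j x0‖ - ‖y j x‖)]

/-! ### the weights -/

/-- `m u + p1 + log(1 + |y|²)` -/
def W0 (u p1 : M → ℝ) (y : Fin N → M → ℂ) (m : ℕ) (x : M) : ℝ :=
  m * u x + p1 x + lg y 1 x

/-- the regularised weights -/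
def Wk (u p1 : M → ℝ) (y : Fin N → M → ℂ) (m : ℕ) (x0 : M) (k : ℕ) (x : M) : ℝ :=
  W0 u p1 y m x + n * lg (sh y x0) (1 / ((k : ℝ) + 1)) x

section weights

variable {u p1 : M → ℝ} {y : Fin N → M → ℂ}

theorem del_pos (k : ℕ) : (0 : ℝ) < 1 / ((k : ℝ) + 1) := by positivity

theorem pos1 (y : Fin N → M → ℂ) (x : M) : 0 < nS y x + 1 := by
  have := nS_nonneg y x
  positivity

theorem posk (y : Fin N → M → ℂ) (k : ℕ) (x : M) : 0 < nS y x + 1 / ((k : ℝ) + 1) := by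
  have := nS_nonneg y x
  have := del_pos k
  positivity

theorem sm_lg1 (hy : ∀ j, Hol (y j)) : Sm (lg y 1) :=
  sm_lg (fun j => (w_hol (hy j)).sm) (pos1 y)

theorem sm_lgk (hy : ∀ j, Hol (y j)) (x0 : M) (k : ℕ) : Sm (lg (sh y x0) (1 / ((k : ℝ) + 1))) :=
  sm_lg (fun j => (w_hol (sh_hol hy x0 j)).sm) (posk _ k)

theorem sm_mu (hu : Sm u) (m : ℕ) : Sm (fun x => (m : ℝ) * u x) := (Sm.const _).mulR hu

theorem sm_W0 (hu : Sm u) (hp : Sm p1) (hy : ∀ j, Hol (y j)) (m : ℕ) : Sm (W0 u p1 y m) :=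
  ((sm_mu hu m).add hp).add (sm_lg1 hy)

theorem sm_Wk (hu : Sm u) (hp : Sm p1) (hy : ∀ j, Hol (y j)) (m : ℕ) (x0 : M) (k : ℕ) :
    Sm (Wk (n := n) u p1 y m x0 k) :=
  (sm_W0 hu hp hy m).add ((Sm.const _).mulR (sm_lgk hy x0 k))

theorem Wk_anti (u p1 : M → ℝ) (y : Fin N → M → ℂ) (m : ℕ) (x0 x : M) :
    Antitone fun k => Wk (n := n) u p1 y m x0 k x := by
  intro k l hkl
  unfold Wk
  have h1 : lg (sh y x0) (1 / ((l : ℝ) + 1)) x ≤ lg (sh y x0) (1 / ((k : ℝ) + 1)) x := by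
    refine lg_antitone _ ?_ x (posk _ l x)
    apply one_div_le_one_div_of_le (by positivity)
    have : (k : ℝ) ≤ l := by exact_mod_cast hkl
    linarith
  have h2 := mul_le_mul_of_nonneg_left h1 (Nat.cast_nonneg (α := ℝ) n)
  simp only
  linarith

theorem Levi_Wk (hu : Sm u) (hu0 : ∀ x w, 0 ≤ Levi u x w) (hp : Sm p1)
    (hp0 : ∀ x w, 0 ≤ Levi p1 x w) (hy : ∀ j, Hol (y j)) (m : ℕ) (x0 : M) (k : ℕ) (x : M)
    (w : Fin n → ℂ) :
    nT y x w / (nS y x + 1) ^ 2 ≤ Levi (Wk (n := n) u p1 y m x0 k) x w := by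
  rw [Levi_eq_lev (sm_Wk hu hp hy m x0 k)]
  have h1 : lev (Wk (n := n) u p1 y m x0 k) x w =
      m * lev u x w + lev p1 x w + lev (lg y 1) x w +
        n * lev (lg (sh y x0) (1 / ((k : ℝ) + 1))) x w := by
    unfold Wk W0
    rw [lev_add (((sm_mu hu m).add hp).add (sm_lg1 hy)) ((Sm.const _).mulR (sm_lgk hy x0 k)),
      lev_add ((sm_mu hu m).add hp) (sm_lg1 hy), lev_add (sm_mu hu m) hp,
      lev_const_mul hu, lev_const_mul (sm_lgk hy x0 k)]
  rw [h1]
  have h2 := lev_lg_ge (fun j => w_hol (hy j)) (pos1 y) x w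
  have h3 := lev_lg_nonneg (fun j => w_hol (sh_hol hy x0 j)) (del_pos k).le (posk (sh y x0) k) x w
  have h4 : 0 ≤ (n : ℝ) * lev (lg (sh y x0) (1 / ((k : ℝ) + 1))) x w := by positivity
  have h5 := hu0 x w
  rw [Levi_eq_lev hu] at h5
  have h6 := hp0 x w
  rw [Levi_eq_lev hp] at h6
  have h7 : 0 ≤ (m : ℝ) * lev u x w := by positivity
  rw [one_mul] at h2
  linarith

theorem Levi_Wk_nonneg (hu : Sm u) (hu0 : ∀ x w, 0 ≤ Levi u x w) (hp : Sm p1)
    (hp0 : ∀ x w, 0 ≤ Levi p1 x w) (hy : ∀ j, Hol (y j)) (m : ℕ) (x0 : M) (k : ℕ) (x : M)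
    (w : Fin n → ℂ) : 0 ≤ Levi (Wk (n := n) u p1 y m x0 k) x w := by
  refine le_trans ?_ (Levi_Wk hu hu0 hp hp0 hy m x0 k x w)
  have := nT_nonneg y x w
  positivity

/-- the cut-off function on `M` -/
def G (ε : ℝ) (y : Fin N → M → ℂ) (x0 : M) (x : M) : ℂ := ((cut ε (nS (sh y x0) x) : ℝ) : ℂ)

theorem sm_G (ε : ℝ) (hy : ∀ j, Hol (y j)) (x0 : M) : Sm (G ε y x0) :=
  ((sm_nS fun j => (w_hol (sh_hol hy x0 j)).sm).comp (contDiff_cut ε)).ofReal

/-- the bound of `∂̄ G` -/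
def kap (ε : ℝ) (y : Fin N → M → ℂ) (x0 : M) (x : M) : ℝ :=
  (deriv (cut ε) (nS (sh y x0) x)) ^ 2 * nS (sh y x0) x * (nS y x + 1) ^ 2

theorem db_G (ε : ℝ) (hu : Sm u) (hu0 : ∀ x w, 0 ≤ Levi u x w) (hp : Sm p1)
    (hp0 : ∀ x w, 0 ≤ Levi p1 x w) (hy : ∀ j, Hol (y j)) (m : ℕ) (x0 : M) (k : ℕ) (x : M)
    (w : Fin n → ℂ) :
    ‖∑ j, db j (G ε y x0) x * conj (w j)‖ ^ 2 ≤
      kap ε y x0 x * Levi (Wk (n := n) u p1 y m x0 k) x w := by
  rw [dbw_eq]
  unfold G
  rw [dbw_nS (fun j => w_hol (sh_hol hy x0 j)) (contDiff_cut ε), norm_mul, Complex.norm_conj,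
    Complex.norm_real, Real.norm_eq_abs, mul_pow, sq_abs]
  have h1 := nA_le (sh y x0) x w
  rw [nT_sh hy] at h1
  have h2 := Levi_Wk hu hu0 hp hp0 hy m x0 k x w
  have h3 : 0 < (nS y x + 1) ^ 2 := pow_pos (pos1 y x) 2
  rw [div_le_iff₀ h3] at h2
  have h4 := nS_nonneg (sh y x0) x
  unfold kap
  calc (deriv (cut ε) (nS (sh y x0) x)) ^ 2 * ‖nA (sh y x0) x w‖ ^ 2
      ≤ (deriv (cut ε) (nS (sh y x0) x)) ^ 2 * (nS (sh y x0) x *
        (Levi (Wk (n := n) u p1 y m x0 k) x w * (nS y x + 1) ^ 2)) := by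
        gcongr
        exact h1.trans (mul_le_mul_of_nonneg_left h2 h4)
    _ = _ := by ring

theorem exp_lg {ι : Type*} [Fintype ι] (f : ι → M → ℂ) (δ : ℝ) (x : M) (h : 0 < nS f x + δ)
    (a : ℕ) : Real.exp (-((a : ℝ) * lg f δ x)) = ((nS f x + δ) ^ a)⁻¹ := by
  unfold lg
  rw [Real.exp_neg, Real.exp_nat_mul, Real.exp_log h]

theorem exp_Wk (u p1 : M → ℝ) (y : Fin N → M → ℂ) (m : ℕ) (x0 : M) (k : ℕ) (x : M) :
    Real.exp (-Wk (n := n) u p1 y m x0 k x) = Real.exp (-(m * u x)) * Real.exp (-p1 x) *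
      (nS y x + 1)⁻¹ * ((nS (sh y x0) x + 1 / ((k : ℝ) + 1)) ^ n)⁻¹ := by
  have h1 := exp_lg y 1 x (pos1 y x) 1
  have h2 := exp_lg (sh y x0) (1 / ((k : ℝ) + 1)) x (posk _ k x) n
  rw [Nat.cast_one, one_mul, pow_one] at h1
  unfold Wk W0
  rw [neg_add, neg_add, neg_add, Real.exp_add, Real.exp_add, Real.exp_add, h1, h2]

/-- the final weight `m u + p1 + (n+1) log(1+|y|²)` -/
def V (u p1 : M → ℝ) (y : Fin N → M → ℂ) (m : ℕ) (x : M) : ℝ :=
  m * u x + p1 x + ((n + 1 : ℕ) : ℝ) * lg y 1 x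

theorem exp_V (u p1 : M → ℝ) (y : Fin N → M → ℂ) (m : ℕ) (x : M) :
    Real.exp (-V (n := n) u p1 y m x) = Real.exp (-(m * u x)) * Real.exp (-p1 x) *
      ((nS y x + 1) ^ (n + 1))⁻¹ := by
  have h1 := exp_lg y 1 x (pos1 y x) (n + 1)
  unfold V
  rw [neg_add, neg_add, Real.exp_add, Real.exp_add, h1]

theorem cont_V (hu : Sm u) (hp : Sm p1) (hy : ∀ j, Hol (y j)) (m : ℕ) :
    Continuous (V (n := n) u p1 y m) := by
  unfold V
  exact (((sm_mu hu m).add hp).continuous).add (continuous_const.mul (sm_lg1 hy).continuous)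

/-- comparison of the final weight with `W_0` -/
theorem exp_V_le (u p1 : M → ℝ) (y : Fin N → M → ℂ) (m : ℕ) (x0 x : M) :
    Real.exp (-V (n := n) u p1 y m x) ≤
      (2 * (1 + nS y x0)) ^ n * Real.exp (-Wk (n := n) u p1 y m x0 0 x) := by
  rw [exp_V, exp_Wk]
  have h1 := pos1 y x
  have h2 := nS_nonneg y x
  have h3 := nS_nonneg y x0
  have h4 := nS_nonneg (sh y x0) x
  have h5 := sh_le_nS y x0 x
  have h6 : nS (sh y x0) x + 1 / (((0 : ℕ) : ℝ) + 1) ≤ 2 * (1 + nS y x0) * (nS y x + 1) := by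
    norm_num
    nlinarith
  have h7 : 0 < nS (sh y x0) x + 1 / (((0 : ℕ) : ℝ) + 1) := posk _ 0 x
  have h8 : ((nS y x + 1) ^ n)⁻¹ ≤ (2 * (1 + nS y x0)) ^ n *
      ((nS (sh y x0) x + 1 / (((0 : ℕ) : ℝ) + 1)) ^ n)⁻¹ := by
    rw [← div_eq_mul_inv, le_div_iff₀ (by positivity), inv_mul_le_iff₀ (by positivity), ← mul_pow]
    refine pow_le_pow_left₀ h7.le ?_ n
    linarith
  calc Real.exp (-(m * u x)) * Real.exp (-p1 x) * ((nS y x + 1) ^ (n + 1))⁻¹
      = Real.exp (-(m * u x)) * Real.exp (-p1 x) * (nS y x + 1)⁻¹ * ((nS y x + 1) ^ n)⁻¹ := by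
        rw [pow_succ, mul_inv]; ring
    _ ≤ Real.exp (-(m * u x)) * Real.exp (-p1 x) * (nS y x + 1)⁻¹ *
        ((2 * (1 + nS y x0)) ^ n * ((nS (sh y x0) x + 1 / (((0 : ℕ) : ℝ) + 1)) ^ n)⁻¹) := by
        gcongr
    _ = _ := by ring

end weights

/-! ### the engine -/

section engine

variable [T2Space M] [SecondCountableTopology M] [MeasurableSpace M] [BorelSpace M] {μ : Measure M}
  {u p1 : M → ℝ} {y : Fin N → M → ℂ}

theorem sh_bound (hy : ∀ j, Hol (y j)) (x0 : M) : ∃ K1 : ℝ, 0 < K1 ∧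
    ∀ᶠ z in 𝓝 (cp x0), nS (sh y x0) ((ch x0).symm z) ≤ K1 * ‖z - cp x0‖ ^ 2 := by
  set e := ch x0
  set Φ : (Fin n → ℂ) → (Fin N → ℂ) := fun z j => y j (e.symm z) with hΦ
  have hd : DifferentiableAt ℂ Φ (cp x0) := by
    refine differentiableAt_pi.2 fun j => ?_
    exact (hy j e (isCh_ch x0)).differentiableAt
      (e.open_target.mem_nhds ((isCh_ch x0).cp_mem (mem_ch x0)))
  obtain ⟨K, hK, hb⟩ := hd.isBigO_sub.exists_pos
  refine ⟨(N + 1) * K ^ 2, by positivity, ?_⟩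
  filter_upwards [hb.bound] with z hz
  have h0 : Φ (cp x0) = fun j => y j x0 := by
    funext j
    simp only [hΦ]
    rw [(isCh_ch x0).symm_cp (mem_ch x0)]
  have h1 : nS (sh y x0) (e.symm z) ≤ N * ‖Φ z - Φ (cp x0)‖ ^ 2 := by
    unfold nS
    calc ∑ j, ‖sh y x0 j (e.symm z)‖ ^ 2 ≤ ∑ _j : Fin N, ‖Φ z - Φ (cp x0)‖ ^ 2 := by
          refine Finset.sum_le_sum fun j _ => ?_
          have h2 : sh y x0 j (e.symm z) = (Φ z - Φ (cp x0)) j := by
            rw [h0]; rfl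
          rw [h2]
          exact pow_le_pow_left₀ (norm_nonneg _) (norm_le_pi_norm _ j) 2
      _ = _ := by simp
  have h3 : ‖Φ z - Φ (cp x0)‖ ^ 2 ≤ K ^ 2 * ‖z - cp x0‖ ^ 2 := by
    rw [← mul_pow]
    exact pow_le_pow_left₀ (norm_nonneg _) hz 2
  calc nS (sh y x0) (e.symm z) ≤ N * ‖Φ z - Φ (cp x0)‖ ^ 2 := h1
    _ ≤ N * (K ^ 2 * ‖z - cp x0‖ ^ 2) := by gcongr
    _ ≤ (N + 1) * (K ^ 2 * ‖z - cp x0‖ ^ 2) := by
        have : 0 ≤ K ^ 2 * ‖z - cp x0‖ ^ 2 := by positivity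
        nlinarith
    _ = _ := by ring

theorem symm_tendsto (x0 : M) : Tendsto (ch x0).symm (𝓝 (cp x0)) (𝓝 x0) := by
  have := (ch x0).symm.continuousAt (x := cp x0)
    (by simpa using (isCh_ch x0).cp_mem (mem_ch x0))
  rwa [ContinuousAt, (isCh_ch x0).symm_cp (mem_ch x0)] at this

theorem G_eq_one {ε : ℝ} (hε : 0 < ε) (y : Fin N → M → ℂ) (x0 x : M)
    (h : nS (sh y x0) x ≤ ε / 2) : G ε y x0 x = 1 := by
  unfold G
  rw [cut_one hε h, Complex.ofReal_one]

/-- the value at `x0` is prescribed by the singularity of the weight -/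
theorem eval_one (hμ : IsLeb μ) (hn : 1 ≤ n) (hu : Sm u) (hp : Sm p1) (hy : ∀ j, Hol (y j))
    {ε : ℝ} (hε : 0 < ε) (m : ℕ) (x0 : M) {F : M → ℂ} (hF : Hol F) {K : ℝ≥0∞} (hK : K ≠ ⊤)
    (h : ∫⁻ x, ENNReal.ofReal (‖F x - G ε y x0 x‖ ^ 2) *
      (⨆ k, ENNReal.ofReal (Real.exp (-Wk (n := n) u p1 y m x0 k x))) ∂μ ≤ K) : F x0 = 1 := by
  by_contra hne
  set e := ch x0 with he
  set z0 : Fin n → ℂ := cp x0 with hz0
  have he' : IsCh e := isCh_ch x0
  have ht := symm_tendsto x0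
  obtain ⟨K1, hK1, hb1⟩ := sh_bound hy x0
  have hc0 : 0 < ‖F x0 - 1‖ ^ 2 := by
    have : 0 < ‖F x0 - 1‖ := norm_pos_iff.2 (sub_ne_zero.2 hne)
    positivity
  set c0 := ‖F x0 - 1‖ ^ 2 / 2 with hc0d
  have hc0' : 0 < c0 := by positivity
  have hcF : Continuous fun x => ‖F x - 1‖ ^ 2 := ((hol_cont hF).sub continuous_const).norm.pow 2
  have e1 : ∀ᶠ z in 𝓝 z0, c0 < ‖F (e.symm z) - 1‖ ^ 2 :=
    ht.eventually ((hcF.tendsto x0).eventually (lt_mem_nhds (by rw [hc0d]; linarith)))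
  have hcS : Continuous (nS (sh y x0)) := (sm_nS fun j => (w_hol (sh_hol hy x0 j)).sm).continuous
  have e2 : ∀ᶠ z in 𝓝 z0, nS (sh y x0) (e.symm z) < ε / 2 := by
    refine ht.eventually ((hcS.tendsto x0).eventually (gt_mem_nhds ?_))
    rw [nS_sh_self]; positivity
  have hcW : Continuous (W0 u p1 y m) := (sm_W0 hu hp hy m).continuous
  have e3 : ∀ᶠ z in 𝓝 z0, W0 u p1 y m (e.symm z) < W0 u p1 y m x0 + 1 :=
    ht.eventually ((hcW.tendsto x0).eventually (gt_mem_nhds (by linarith)))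
  have e4 : ∀ᶠ z in 𝓝 z0, z ∈ e.target := e.open_target.mem_nhds (he'.cp_mem (mem_ch x0))
  obtain ⟨r, hr, hB⟩ := Metric.nhds_basis_closedBall.mem_iff.1
    (((e1.and e2).and (e3.and hb1)).and e4 : ∀ᶠ z in 𝓝 z0, _)
  have hBt : closedBall z0 r ⊆ e.target := fun z hz => (hB hz).2
  set f : M → ℝ≥0∞ := fun x => ENNReal.ofReal (‖F x - G ε y x0 x‖ ^ 2) *
      (⨆ k, ENNReal.ofReal (Real.exp (-Wk (n := n) u p1 y m x0 k x))) with hf
  have hfm : Measurable f := by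
    refine Measurable.mul ?_ (Measurable.iSup fun k => ?_)
    · exact ((((hol_cont hF).sub (sm_G ε hy x0).continuous).norm.pow 2)).measurable.ennreal_ofReal
    · exact (Real.continuous_exp.comp (sm_Wk hu hp hy m x0 k).continuous.neg).measurable.ennreal_ofReal
  set c1 : ℝ := c0 * (Real.exp (-(W0 u p1 y m x0 + 1)) * ((2 * K1) ^ n)⁻¹) with hc1
  have hc1p : 0 < c1 := by positivity
  have hlow : ∀ z ∈ closedBall z0 r, z ≠ z0 →
      ENNReal.ofReal c1 * (ENNReal.ofReal ‖z - z0‖) ^ (-((2 * n : ℕ) : ℝ)) ≤ f (e.symm z) := by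
    intro z hz hzne
    obtain ⟨⟨⟨g1, g2⟩, g3, g4⟩, -⟩ := hB hz
    have hpos : 0 < ‖z - z0‖ := norm_pos_iff.2 (sub_ne_zero.2 hzne)
    set t := K1 * ‖z - z0‖ ^ 2 with htd
    have htpos : 0 < t := by positivity
    obtain ⟨k, hk⟩ := exists_nat_one_div_lt htpos
    have hs : nS (sh y x0) (e.symm z) + 1 / ((k : ℝ) + 1) ≤ 2 * t := by linarith
    have hspos := posk (sh y x0) k (e.symm z)
    have hexp : Real.exp (-(W0 u p1 y m x0 + 1)) * ((2 * t) ^ n)⁻¹ ≤
        Real.exp (-Wk (n := n) u p1 y m x0 k (e.symm z)) := by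
      have h5 : Real.exp (-Wk (n := n) u p1 y m x0 k (e.symm z)) =
          Real.exp (-W0 u p1 y m (e.symm z)) *
            ((nS (sh y x0) (e.symm z) + 1 / ((k : ℝ) + 1)) ^ n)⁻¹ := by
        unfold Wk
        rw [neg_add, Real.exp_add, exp_lg _ _ _ hspos]
      rw [h5]
      refine mul_le_mul (Real.exp_le_exp.2 (by linarith)) ?_ (by positivity) (Real.exp_pos _).le
      exact inv_anti₀ (pow_pos hspos n) (pow_le_pow_left₀ hspos.le hs n)
    have h6 : ENNReal.ofReal c1 * (ENNReal.ofReal ‖z - z0‖) ^ (-((2 * n : ℕ) : ℝ)) =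
        ENNReal.ofReal c0 * ENNReal.ofReal
          (Real.exp (-(W0 u p1 y m x0 + 1)) * ((2 * t) ^ n)⁻¹) := by
      rw [ENNReal.ofReal_rpow_of_pos hpos, ← ENNReal.ofReal_mul hc1p.le,
        ← ENNReal.ofReal_mul hc0'.le]
      congr 1
      rw [Real.rpow_neg (norm_nonneg _), Real.rpow_natCast, hc1, htd]
      have : (2 * (K1 * ‖z - z0‖ ^ 2)) ^ n = (2 * K1) ^ n * ‖z - z0‖ ^ (2 * n) := by
        rw [← mul_assoc, mul_pow, ← pow_mul]
      rw [this, mul_inv]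
      ring
    rw [h6, hf]
    refine mul_le_mul' (ENNReal.ofReal_le_ofReal ?_)
      ((ENNReal.ofReal_le_ofReal hexp).trans (le_iSup (fun k => ENNReal.ofReal
        (Real.exp (-Wk (n := n) u p1 y m x0 k (e.symm z)))) k))
    rw [G_eq_one hε y x0 _ g2.le]
    exact g1.le
  have h1 : ∫⁻ z in closedBall z0 r, f (e.symm z) ≤ K :=
    (T7a297.lintegral_ball_le hμ he' (isCompact_closedBall z0 r) hBt hfm).trans
      ((setLIntegral_le_lintegral _ _).trans h)
  have : Nonempty (Fin n) := ⟨⟨0, hn⟩⟩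
  have hae : ∀ᵐ z ∂(volume : Measure (Fin n → ℂ)), z ≠ z0 := by
    have : volume ({z0} : Set (Fin n → ℂ)) = 0 := measure_singleton z0
    exact measure_eq_zero_iff_ae_notMem.1 this
  have h2 : ∫⁻ z in ball z0 r, ENNReal.ofReal c1 *
      (ENNReal.ofReal ‖z - z0‖) ^ (-((2 * n : ℕ) : ℝ)) ≤ K := by
    calc _ ≤ ∫⁻ z in closedBall z0 r, ENNReal.ofReal c1 *
          (ENNReal.ofReal ‖z - z0‖) ^ (-((2 * n : ℕ) : ℝ)) :=
          lintegral_mono_set ball_subset_closedBall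
      _ ≤ ∫⁻ z in closedBall z0 r, f (e.symm z) := by
          refine setLIntegral_mono_ae' isClosed_closedBall.measurableSet ?_
          filter_upwards [hae] with z hz hzB
          exact hlow z hzB hz
      _ ≤ K := h1
  have h3 : ∫⁻ z in ball z0 r, ENNReal.ofReal c1 *
      (ENNReal.ofReal ‖z - z0‖) ^ (-((2 * n : ℕ) : ℝ)) = ⊤ := by
    have hfr : Module.finrank ℝ (Fin n → ℂ) = 2 * n := by
      rw [Module.finrank_pi_fintype]
      simp [Complex.finrank_real_complex, mul_comm]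
    have h4 := L934.lintegral_ball_norm_eq_top (V := Fin n → ℂ) (volume : Measure (Fin n → ℂ))
      (by rw [hfr]; omega) hr
    rw [hfr] at h4
    have h5 : ∫⁻ z in ball z0 r, (ENNReal.ofReal ‖z - z0‖) ^ (-((2 * n : ℕ) : ℝ)) =
        ∫⁻ z in ball (0 : Fin n → ℂ) r, (ENNReal.ofReal ‖z‖) ^ (-((2 * n : ℕ) : ℝ)) := by
      have h6 := (measurePreserving_sub_right (volume : Measure (Fin n → ℂ)) z0)
      have h7 : ball z0 r = (fun z => z - z0) ⁻¹' ball 0 r := by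
        ext z; simp [dist_eq_norm]
      rw [h7]
      exact h6.setLIntegral_comp_preimage measurableSet_ball
        (((ENNReal.measurable_ofReal.comp measurable_norm)).pow_const _)
    rw [lintegral_const_mul _ ?_, h5, h4, ENNReal.mul_top]
    · exact (ENNReal.ofReal_pos.2 hc1p).ne'
    · exact ((ENNReal.measurable_ofReal.comp
        (measurable_norm.comp (measurable_id.sub_const z0)))).pow_const _
  rw [h3] at h2
  exact hK (top_le_iff.1 h2)

theorem norm_sq_split (a b : ℂ) : ‖a‖ ^ 2 ≤ 2 * ‖a - b‖ ^ 2 + 2 * ‖b‖ ^ 2 := by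
  have h3 : ‖a‖ ≤ ‖a - b‖ + ‖b‖ := by
    have := norm_add_le (a - b) b
    rwa [sub_add_cancel] at this
  nlinarith [norm_nonneg a, norm_nonneg (a - b), norm_nonneg b, sq_nonneg (‖a - b‖ - ‖b‖)]

/-- **the lower bound** -/
theorem lower (hμ : IsLeb μ) (hn : 1 ≤ n) {ρ : M → ℝ} (hρ : Sm ρ)
    (hρc : ∀ c, IsCompact {x | ρ x ≤ c}) (hρL : ∀ x w, nsq w ≤ Levi ρ x w)
    (hu : Sm u) (hu0 : ∀ x w, 0 ≤ Levi u x w) (hp : Sm p1) (hp0 : ∀ x w, 0 ≤ Levi p1 x w)
    (hpI : ∫⁻ x, ENNReal.ofReal (Real.exp (-p1 x)) ∂μ ≠ ⊤) (hy : ∀ j, Hol (y j))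
    {b : (Fin N → ℂ) → ℝ} {x0 : M} (hb : ContinuousAt b (fun j => y j x0)) {C : ℝ}
    (hC : ∀ x, b (fun j => y j x) ≤ u x + C) :
    ∃ A : ℝ, 0 < A ∧ ∀ m : ℕ, ∃ F : M → ℂ, Hol F ∧ F x0 = 1 ∧
      ∫⁻ x, ENNReal.ofReal (‖F x‖ ^ 2 * Real.exp (-V (n := n) u p1 y m x)) ∂μ ≤
        ENNReal.ofReal (A * Real.exp (m * (C + 1 - b (fun j => y j x0)))) := by
  set b0 := b (fun j => y j x0) with hb0
  obtain ⟨δ, hδ, hbδ⟩ := Metric.mem_nhds_iff.1
    (hb.eventually (lt_mem_nhds (show b0 - 1 < b (fun j => y j x0) by rw [← hb0]; linarith)))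
  set ε : ℝ := (δ / 2) ^ 2 with hεd
  have hε : 0 < ε := by positivity
  -- lower bound for `u` on the support of the cut-off function
  have hul : ∀ x, nS (sh y x0) x ≤ ε → b0 - 1 - C ≤ u x := by
    intro x hx
    have h1 : (fun j => y j x) ∈ ball (fun j => y j x0) δ := by
      rw [mem_ball, dist_pi_lt_iff hδ]
      intro j
      rw [dist_eq_norm]
      have h2 : ‖y j x - y j x0‖ ^ 2 ≤ ε := by
        refine le_trans ?_ hx
        exact Finset.single_le_sum (f := fun j => ‖sh y x0 j x‖ ^ 2) (fun _ _ => by positivity)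
          (Finset.mem_univ j)
      have h3 : ‖y j x - y j x0‖ ≤ δ / 2 := by
        rw [hεd] at h2
        exact (pow_le_pow_iff_left₀ (norm_nonneg _) (by positivity) two_ne_zero).1 h2
      linarith
    have h4 : b0 - 1 < b (fun j => y j x) := hbδ h1
    have h5 := hC x
    linarith
  obtain ⟨D0, hD0, hD⟩ := exists_deriv_bound hε
  set Y0 : ℝ := 2 * (nS y x0 + ε) with hY0
  have hY0p : 0 ≤ Y0 := by have := nS_nonneg y x0; positivity
  set A1 : ℝ := D0 ^ 2 * ε * (Y0 + 1) ^ 2 * ((ε / 2) ^ n)⁻¹ with hA1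
  have hA1p : 0 ≤ A1 := by positivity
  set I := ∫⁻ x, ENNReal.ofReal (Real.exp (-p1 x)) ∂μ with hI
  set c2 : ℝ := (2 * (1 + nS y x0)) ^ n with hc2
  have hc2p : 0 ≤ c2 := by have := nS_nonneg y x0; positivity
  refine ⟨4 * c2 * A1 * I.toReal + 2 * I.toReal + 1, by positivity, fun m => ?_⟩
  set T : ℝ := Real.exp (m * (C + 1 - b0)) with hT
  have hTp : 0 < T := Real.exp_pos _
  have hexpu : ∀ x, nS (sh y x0) x ≤ ε → Real.exp (-(m * u x)) ≤ T := by
    intro x hx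
    refine Real.exp_le_exp.2 ?_
    have h1 := hul x hx
    have h2 : (0 : ℝ) ≤ m := Nat.cast_nonneg m
    nlinarith
  -- the bound for the right-hand side
  have hkap : ∀ k x, kap ε y x0 x * Real.exp (-Wk (n := n) u p1 y m x0 k x) ≤
      A1 * T * Real.exp (-p1 x) := by
    intro k x
    by_cases hd : deriv (cut ε) (nS (sh y x0) x) = 0
    · unfold kap
      rw [hd]
      simp only [ne_eq, OfNat.ofNat_ne_zero, not_false_eq_true, zero_pow, zero_mul]
      positivity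
    · obtain ⟨h1, h2⟩ := deriv_cut hε hd
      rw [exp_Wk]
      unfold kap
      have h3 := nS_nonneg y x
      have h4 : nS y x ≤ Y0 := (nS_le_sh y x0 x).trans (by rw [hY0]; linarith)
      have h5 : (deriv (cut ε) (nS (sh y x0) x)) ^ 2 ≤ D0 ^ 2 := by
        rw [← sq_abs]
        exact pow_le_pow_left₀ (abs_nonneg _) (hD _) 2
      have h6 := nS_nonneg (sh y x0) x
      have h7 : ((nS (sh y x0) x + 1 / ((k : ℝ) + 1)) ^ n)⁻¹ ≤ ((ε / 2) ^ n)⁻¹ := by
        refine inv_anti₀ (by positivity) (pow_le_pow_left₀ (by positivity) ?_ n)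
        have := del_pos k
        linarith
      have h8 : (nS y x + 1)⁻¹ ≤ 1 := inv_le_one_of_one_le₀ (by linarith)
      have h9 := hexpu x h2
      calc (deriv (cut ε) (nS (sh y x0) x)) ^ 2 * nS (sh y x0) x * (nS y x + 1) ^ 2 *
            (Real.exp (-(m * u x)) * Real.exp (-p1 x) * (nS y x + 1)⁻¹ *
              ((nS (sh y x0) x + 1 / ((k : ℝ) + 1)) ^ n)⁻¹)
          ≤ D0 ^ 2 * ε * (Y0 + 1) ^ 2 * (T * Real.exp (-p1 x) * 1 * ((ε / 2) ^ n)⁻¹) := by
            gcongr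
        _ = _ := by rw [hA1]; ring
  set K : ℝ≥0∞ := ENNReal.ofReal (A1 * T) * I with hK
  have hKtop : K ≠ ⊤ := ENNReal.mul_ne_top ENNReal.ofReal_ne_top hpI
  have hpm : Measurable fun x => ENNReal.ofReal (Real.exp (-p1 x)) :=
    (Real.continuous_exp.comp hp.continuous.neg).measurable.ennreal_ofReal
  obtain ⟨F, hF, hFK⟩ := engineP n M μ hμ ρ hρ hρc hρL (Wk (n := n) u p1 y m x0)
    (sm_Wk hu hp hy m x0) (Wk_anti u p1 y m x0) (Levi_Wk_nonneg hu hu0 hp hp0 hy m x0)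
    (G ε y x0) (sm_G ε hy x0) (fun _ => kap ε y x0) (db_G ε hu hu0 hp hp0 hy m x0) K
    (fun k => by
      rw [hK, ← lintegral_const_mul _ hpm]
      refine lintegral_mono fun x => ?_
      rw [← ENNReal.ofReal_mul (by positivity)]
      exact ENNReal.ofReal_le_ofReal (hkap k x))
  refine ⟨F, hF, eval_one hμ hn hu hp hy hε m x0 hF
    (ENNReal.mul_ne_top (by simp) hKtop) hFK, ?_⟩
  -- the norm
  have hFc := hol_cont hF
  have hGc := (sm_G ε hy x0).continuous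
  have hVc := cont_V (n := n) hu hp hy m
  have hpt : ∀ x, ENNReal.ofReal (‖F x‖ ^ 2 * Real.exp (-V (n := n) u p1 y m x)) ≤
      ENNReal.ofReal (2 * c2) * (ENNReal.ofReal (‖F x - G ε y x0 x‖ ^ 2) *
        ⨆ k, ENNReal.ofReal (Real.exp (-Wk (n := n) u p1 y m x0 k x))) +
      ENNReal.ofReal (2 * T) * ENNReal.ofReal (Real.exp (-p1 x)) := by
    intro x
    have h1 : ‖F x‖ ^ 2 * Real.exp (-V (n := n) u p1 y m x) ≤
        2 * c2 * (‖F x - G ε y x0 x‖ ^ 2 * Real.exp (-Wk (n := n) u p1 y m x0 0 x)) +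
          2 * T * Real.exp (-p1 x) := by
      have h2 := norm_sq_split (F x) (G ε y x0 x)
      have h3 := exp_V_le (n := n) u p1 y m x0 x
      have h4 : ‖G ε y x0 x‖ ^ 2 * Real.exp (-V (n := n) u p1 y m x) ≤ T * Real.exp (-p1 x) := by
        by_cases hx : nS (sh y x0) x ≤ ε
        · rw [exp_V]
          have h5 : ‖G ε y x0 x‖ ^ 2 ≤ 1 := by
            unfold G
            rw [Complex.norm_real, Real.norm_eq_abs, abs_of_nonneg (cut_nonneg _ _)]
            exact pow_le_one₀ (cut_nonneg _ _) (cut_le_one _ _)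
          have h6 := nS_nonneg y x
          have h7 : ((nS y x + 1) ^ (n + 1))⁻¹ ≤ 1 :=
            inv_le_one_of_one_le₀ (one_le_pow₀ (by linarith))
          have h8 := hexpu x hx
          calc ‖G ε y x0 x‖ ^ 2 * (Real.exp (-(m * u x)) * Real.exp (-p1 x) *
                ((nS y x + 1) ^ (n + 1))⁻¹) ≤ 1 * (T * Real.exp (-p1 x) * 1) := by
                gcongr
            _ = _ := by ring
        · push Not at hx
          unfold G
          rw [cut_zero hε hx.le]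
          simp only [Complex.ofReal_zero, norm_zero, ne_eq, OfNat.ofNat_ne_zero,
            not_false_eq_true, zero_pow, zero_mul]
          positivity
      calc ‖F x‖ ^ 2 * Real.exp (-V (n := n) u p1 y m x)
          ≤ (2 * ‖F x - G ε y x0 x‖ ^ 2 + 2 * ‖G ε y x0 x‖ ^ 2) *
            Real.exp (-V (n := n) u p1 y m x) := by gcongr
        _ = 2 * (‖F x - G ε y x0 x‖ ^ 2 * Real.exp (-V (n := n) u p1 y m x)) +
            2 * (‖G ε y x0 x‖ ^ 2 * Real.exp (-V (n := n) u p1 y m x)) := by ring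
        _ ≤ 2 * (‖F x - G ε y x0 x‖ ^ 2 * (c2 * Real.exp (-Wk (n := n) u p1 y m x0 0 x))) +
            2 * (T * Real.exp (-p1 x)) := by gcongr
        _ = _ := by ring
    refine (ENNReal.ofReal_le_ofReal h1).trans ?_
    rw [ENNReal.ofReal_add (by positivity) (by positivity), ENNReal.ofReal_mul (by positivity),
      ENNReal.ofReal_mul (by positivity), ENNReal.ofReal_mul (by positivity)]
    refine add_le_add ?_ (le_of_eq (ENNReal.ofReal_mul (by positivity)))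
    gcongr
    exact le_iSup (fun k => ENNReal.ofReal (Real.exp (-Wk (n := n) u p1 y m x0 k x))) 0
  have hfin : ∫⁻ x, ENNReal.ofReal (‖F x‖ ^ 2 * Real.exp (-V (n := n) u p1 y m x)) ∂μ ≤
      ENNReal.ofReal (2 * c2) * (2 * K) + ENNReal.ofReal (2 * T) * I := by
    refine (lintegral_mono hpt).trans ?_
    rw [lintegral_add_right _ (hpm.const_mul _), lintegral_const_mul _ hpm,
      lintegral_const_mul' _ _ ENNReal.ofReal_ne_top]
    gcongr
  refine hfin.trans ?_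
  have hIr : I = ENNReal.ofReal I.toReal := (ENNReal.ofReal_toReal hpI).symm
  have h2 : (2 : ℝ≥0∞) = ENNReal.ofReal 2 := by simp
  have hIp : 0 ≤ I.toReal := ENNReal.toReal_nonneg
  rw [hK, hIr, h2, ← ENNReal.ofReal_mul (by positivity), ← ENNReal.ofReal_mul (by positivity),
    ← ENNReal.ofReal_mul (by positivity), ← ENNReal.ofReal_mul (by positivity),
    ← ENNReal.ofReal_add (by positivity) (by positivity), ENNReal.toReal_ofReal hIp]
  apply ENNReal.ofReal_le_ofReal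
  nlinarith

end engine

end Crest.Agent.R273.PsiE_145
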