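import Crest.Agent.R273.PsiB_283
import Crest.Agent.R273.PsiD_283

/-!
# Row 273, leaf A-PSI (helper283), part E: the theorem `psi_psh`
-/

set_option autoImplicit false
set_option linter.unusedSectionVars false

open MeasureTheory Set Metric Filter Topology
open scoped ENNReal ContDiff ComplexConjugate

noncomputable section

namespace Crest.Agent.R273.Psi_283

open Crest.Agent.R271.Ho51 Crest.Agent.R273.Reg_844
open Crest.Agent.R275.FL606 (ang circ av)
open Crest.Agent.R271.W792 (lev lev_normSq Levi_eq_lev nS nS_nonneg sm_nS nT nT_nonneg nA nA_le lg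
  sm_lg lev_lg lev_lg_ge lev_lg_nonneg lev_add lev_const_mul lev_const D_nS)
open Crest.Agent.R273.Pen_93 (w_hol dbw dbw_eq hol_sub hol_const hol_mul hol_cont)

/-! ### numbers -/

lemma num_ub {j0 : ℕ} (hj0 : 0 < j0) {A : ℝ} (hA : 0 ≤ A) (c : ℝ) {ε : ℝ} (hε : 0 < ε) :
    ∃ N : ℕ, ∀ m : ℕ, N ≤ m → ∀ s : ℝ, 0 ≤ s → s ≤ A * Real.exp ((j0 * m : ℝ) * c) →
      (1 / (j0 * m : ℝ)) * Real.log (s + Real.exp (-(m : ℝ) ^ 2)) ≤ c + ε := by
  obtain ⟨N1, hN1⟩ := exists_nat_ge |(j0 : ℝ) * c|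
  obtain ⟨N2, hN2⟩ := exists_nat_ge (Real.log (A + 1) / ε)
  refine ⟨max 1 (max N1 N2), fun m hm s hs hsA => ?_⟩
  have hm1 : 1 ≤ m := (le_max_left _ _).trans hm
  have hm2 : (N1 : ℝ) ≤ m := by exact_mod_cast (le_max_left N1 N2).trans ((le_max_right _ _).trans hm)
  have hm3 : (N2 : ℝ) ≤ m := by exact_mod_cast (le_max_right N1 N2).trans ((le_max_right _ _).trans hm)
  have hmr : (1 : ℝ) ≤ m := by exact_mod_cast hm1
  have hjr : (1 : ℝ) ≤ j0 := by exact_mod_cast hj0
  have hk : (0 : ℝ) < j0 * m := by positivity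
  have h1 : Real.exp (-(m : ℝ) ^ 2) ≤ Real.exp ((j0 * m : ℝ) * c) := by
    rw [Real.exp_le_exp]
    have h2 := neg_abs_le ((j0 : ℝ) * c)
    nlinarith
  have h2 : s + Real.exp (-(m : ℝ) ^ 2) ≤ (A + 1) * Real.exp ((j0 * m : ℝ) * c) := by
    rw [add_mul, one_mul]
    exact add_le_add hsA h1
  have h3 : Real.log (s + Real.exp (-(m : ℝ) ^ 2)) ≤ Real.log (A + 1) + (j0 * m : ℝ) * c := by
    have h4 := Real.log_le_log (by positivity) h2
    rwa [Real.log_mul (by positivity) (Real.exp_pos _).ne', Real.log_exp] at h4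
  have h4 : Real.log (A + 1) ≤ (j0 * m : ℝ) * ε := by
    have h5 : Real.log (A + 1) ≤ m * ε := by
      rw [← div_le_iff₀ hε]
      exact hN2.trans hm3
    have h6 : (m : ℝ) * ε ≤ (j0 * m : ℝ) * ε := by
      have : (m : ℝ) ≤ j0 * m := by nlinarith
      gcongr
    linarith
  rw [one_div, inv_mul_le_iff₀ hk]
  linarith

lemma num_lb {j0 : ℕ} (hj0 : 0 < j0) (B : ℝ) {ε : ℝ} (hε : 0 < ε) (N0 : ℕ) :
    ∃ m : ℕ, N0 ≤ m ∧ 1 ≤ m ∧ (1 / (j0 * m : ℝ)) * B ≤ ε := by
  obtain ⟨N1, hN1⟩ := exists_nat_ge (B / ε)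
  refine ⟨max N0 (max 1 N1), le_max_left _ _, (le_max_left _ _).trans (le_max_right _ _), ?_⟩
  set m := max N0 (max 1 N1) with hm
  have hm1 : 1 ≤ m := (le_max_left _ _).trans (le_max_right _ _)
  have hm2 : (N1 : ℝ) ≤ m := by exact_mod_cast (le_max_right 1 N1).trans (le_max_right _ _)
  have hmr : (1 : ℝ) ≤ m := by exact_mod_cast hm1
  have hjr : (1 : ℝ) ≤ j0 := by exact_mod_cast hj0
  have hk : (0 : ℝ) < j0 * m := by positivity
  rw [one_div, inv_mul_le_iff₀ hk]
  have h5 : B ≤ m * ε := by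
    rw [← div_le_iff₀ hε]
    exact hN1.trans hm2
  have h6 : (m : ℝ) * ε ≤ (j0 * m : ℝ) * ε := by
    have : (m : ℝ) ≤ j0 * m := by nlinarith
    gcongr
  linarith

/-! ### `log |lam|²` -/

variable {n : ℕ} {M : Type*} [TopologicalSpace M] [RDom n M]

/-- `log |lam|²` -/
def ll (lam : M → ℂ) (x : M) : ℝ := Real.log (‖lam x‖ ^ 2)

lemma ll_eq (lam : M → ℂ) : ll lam = lg (fun _ : Unit => lam) 0 := by
  funext x
  simp [ll, lg, nS]

lemma ll_pos {lam : M → ℂ} (h0 : ∀ x, lam x ≠ 0) (x : M) :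
    0 < nS (fun _ : Unit => lam) x + 0 := by
  have := norm_pos_iff.2 (h0 x)
  simp only [nS, Finset.univ_unique, Finset.sum_const, Finset.card_singleton, one_smul, add_zero]
  positivity

lemma ll_sm {lam : M → ℂ} (hlam : Hol lam) (h0 : ∀ x, lam x ≠ 0) : Sm (ll lam) := by
  rw [ll_eq]
  exact sm_lg (fun _ => (w_hol hlam).sm) (ll_pos h0)

lemma ll_lev {lam : M → ℂ} (hlam : Hol lam) (h0 : ∀ x, lam x ≠ 0) (x : M) (w : Fin n → ℂ) :
    lev (ll lam) x w = 0 := by
  rw [ll_eq, lev_lg (fun _ => w_hol hlam) (ll_pos h0)]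
  have h1 : nS (fun _ : Unit => lam) x = ‖lam x‖ ^ 2 := by simp [nS]
  have h2 : nT (fun _ : Unit => lam) x w = ‖D lam x w‖ ^ 2 := by simp [nT]
  have h3 : nA (fun _ : Unit => lam) x w = D lam x w * conj (lam x) := by simp [nA]
  have h4 := norm_pos_iff.2 (h0 x)
  rw [h1, h2, h3, norm_mul, RCLike.norm_conj, add_zero]
  field_simp
  ring

/-! ### one point -/

/-- in dimension `0` continuous functions are psh -/
lemma psh_zero (hn : n = 0) {h : M → ℝ} (hc : Continuous h) : PSH h := by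
  subst hn
  refine PSH.mk' hc.upperSemicontinuous (fun x => ⟨h x - 1, ?_⟩) (fun e he z v hd => ?_)
  · filter_upwards [hc.continuousAt.eventually (lt_mem_nhds (by linarith : h x - 1 < h x))]
      with y hy using hy.le
  · have : ∀ θ : ℝ, z + ang θ • v = z := fun θ => Subsingleton.elim _ _
    unfold av
    simp only [this]
    simp

/-! ### the family -/

section family

variable (lam : M → ℂ) (j0 : ℕ) (ψ θ : M → ℝ)

/-- the functions `g_{m,u}` -/
def gm (m : ℕ) (u : M → ℂ) (x : M) : ℝ :=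
  (1 / (j0 : ℝ)) * ll lam x + (1 / (j0 * m : ℝ)) * Real.log (‖u x‖ ^ 2 + Real.exp (-(m : ℝ) ^ 2))

/-- the family -/
def Fm [MeasurableSpace M] (μ : Measure M) (m : ℕ) : Set (M → ℝ) :=
  {g | ∃ u : M → ℂ, Hol u ∧
    ∫⁻ x, ENNReal.ofReal (‖u x‖ ^ 2 * (Real.exp (-(j0 * m : ℝ) * ψ x) * θ x)) ∂μ ≤ 1 ∧
    g = gm lam j0 m u}

variable {lam j0 ψ θ}

lemma gm_psh (hlam : Hol lam) (h0 : ∀ x, lam x ≠ 0) (m : ℕ) {u : M → ℂ} (hu : Hol u) :
    PSH (gm lam j0 m u) := by
  have hpos : ∀ x, 0 < nS (fun _ : Unit => u) x + Real.exp (-(m : ℝ) ^ 2) := fun x => by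
    have := nS_nonneg (fun _ : Unit => u) x
    positivity
  have e : gm lam j0 m u = fun x => (1 / (j0 : ℝ)) * ll lam x +
      (1 / (j0 * m : ℝ)) * lg (fun _ : Unit => u) (Real.exp (-(m : ℝ) ^ 2)) x := by
    funext x
    simp [gm, lg, nS]
  have h1 : Sm (ll lam) := ll_sm hlam h0
  have h2 : Sm (lg (fun _ : Unit => u) (Real.exp (-(m : ℝ) ^ 2))) :=
    sm_lg (fun _ => (w_hol hu).sm) hpos
  have h3 : Sm (fun x => (1 / (j0 : ℝ)) * ll lam x) := (Sm.const _).mulR h1
  have h4 : Sm (fun x => (1 / (j0 * m : ℝ)) * lg (fun _ : Unit => u) (Real.exp (-(m : ℝ) ^ 2)) x) :=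
    (Sm.const _).mulR h2
  rw [e]
  refine PSH.of_smooth (h3.add h4) fun x w => ?_
  rw [lev_add h3 h4, lev_const_mul h1, lev_const_mul h2, ll_lev hlam h0]
  have h5 := lev_lg_nonneg (fun _ => w_hol hu) (Real.exp_pos _).le hpos x w
  positivity

end family

/-! ### the theorem -/

/-- **A-PSI**, general form: `ψ` is the given psh function modulo `log |lam|²`; `a` is the
infimum of `ψ` over the fibres of `y`, up to the constant `C`. -/
theorem psi_psh' {G : Type} [TopologicalSpace G] [T2Space G] [SecondCountableTopology G]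
    [RDom n G] [MeasurableSpace G] [BorelSpace G] {μ : Measure G} (hμ : IsLeb μ) {ρ : G → ℝ}
    (hρ : Sm ρ) (hρc : ∀ c, IsCompact {x | ρ x ≤ c}) (hρL : ∀ x w, nsq w ≤ Levi ρ x w)
    {φ : G → ℝ} (hφ : Sm φ) (hφL : ∀ x w, 0 ≤ Levi φ x w)
    (hfin : ∫⁻ x, ENNReal.ofReal (Real.exp (-φ x)) ∂μ ≠ ⊤)
    {lam : G → ℂ} (hlam : Hol lam) (hlam0 : ∀ x, lam x ≠ 0) {j0 : ℕ} (hj0 : 0 < j0)
    {ι : Type*} [Fintype ι] {y : ι → G → ℂ} (hy : ∀ i, Hol (y i))
    {a : (ι → ℂ) → ℝ} (ha : ∀ x, ContinuousAt a (fun i => y i x)) {C : ℝ}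
    (Ua : ∀ x, (1 / (j0 : ℝ)) * ll lam x + a (fun i => y i x) ≤ φ x + C)
    (Ub : ∀ x c, (∀ x', (∀ i, y i x' = y i x) → c ≤ φ x' - (1 / (j0 : ℝ)) * ll lam x') →
      c ≤ a (fun i => y i x) + C)
    (RK : ∀ (m : ℕ) (u : G → ℂ), Hol u →
      ∫⁻ x, ENNReal.ofReal (‖u x‖ ^ 2 * (Real.exp (-(j0 * m : ℝ) *
        (φ x - (1 / (j0 : ℝ)) * ll lam x)) *
        (Real.exp (-φ x) * ((1 + nS y x) ^ (n + 1))⁻¹))) ∂μ ≤ 1 →
      ∀ x x', (∀ i, y i x = y i x') → u x = u x') :
    ∃ W : G → ℝ, PSH W ∧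
      ∀ x, |W x - ((1 / (j0 : ℝ)) * ll lam x + a (fun i => y i x))| ≤ C := by
  have hyc : ∀ l, Continuous (y l) := fun l => hol_cont (hy l)
  have hllc : Continuous (ll lam) := (ll_sm hlam hlam0).continuous
  have hac : Continuous fun x => a (fun i => y i x) := by
    rw [continuous_iff_continuousAt]
    intro x
    exact ContinuousAt.comp (g := a) (f := fun x i => y i x) (ha x)
      (continuous_pi hyc).continuousAt
  have hhc : Continuous fun x => (1 / (j0 : ℝ)) * ll lam x + a (fun i => y i x) :=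
    (continuous_const.mul hllc).add hac
  -- `C ≥ 0` or the space is empty
  rcases Nat.eq_zero_or_pos n with hn | hn
  · refine ⟨fun x => (1 / (j0 : ℝ)) * ll lam x + a (fun i => y i x),
      psh_zero hn hhc, fun x => ?_⟩
    rw [sub_self, abs_zero]
    have h1 : a (fun i => y i x) - C ≤ a (fun i => y i x) + C := by
      refine Ub x _ fun x' hx' => ?_
      have h2 := Ua x'
      have h3 : (fun i => y i x') = fun i => y i x := funext hx'
      rw [h3] at h2
      linarith
    linarith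
  set ψ : G → ℝ := fun x => φ x - (1 / (j0 : ℝ)) * ll lam x with hψ
  set θ : G → ℝ := fun x => Real.exp (-φ x) * ((1 + nS y x) ^ (n + 1))⁻¹ with hθ
  have hφc := hφ.continuous
  have hYc : Continuous (nS y) := (sm_nS fun l => (w_hol (hy l)).sm).continuous
  have hψc : Continuous ψ := by rw [hψ]; fun_prop
  have hY1 : ∀ x, 0 < 1 + nS y x := fun x => by
    have := nS_nonneg y x
    linarith
  have hθ0 : ∀ x, 0 < θ x := fun x => by
    have := hY1 x
    simp only [hθ]
    positivity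
  have hθc : Continuous θ := by
    rw [hθ]
    refine Continuous.mul (by fun_prop) (Continuous.inv₀ (by fun_prop) fun x => ?_)
    have := hY1 x
    positivity
  have hk0 : ∀ m : ℕ, (0 : ℝ) ≤ j0 * m := fun m => by positivity
  set h1 : G → ℝ := fun x => (1 / (j0 : ℝ)) * ll lam x + a (fun i => y i x) - C with hh1
  set h2 : G → ℝ := fun x => (1 / (j0 : ℝ)) * ll lam x + a (fun i => y i x) + C with hh2
  have hh1c : Continuous h1 := hhc.sub continuous_const
  have hh2c : Continuous h2 := hhc.add continuous_const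
  obtain ⟨W, hW, hW1, hW2⟩ := limsup_psh (𝒢 := Fm lam j0 ψ θ μ) (h1 := h1) (h2 := h2)
    (by
      rintro m g ⟨u, hu, -, rfl⟩
      exact gm_psh hlam hlam0 m hu)
    (by
      intro x0
      obtain ⟨A, hA, hev⟩ := ub_loc hμ hψc hθc hθ0 (x0 := x0) (c := ψ x0 + 1) (by linarith)
      obtain ⟨N, hN⟩ := num_ub hj0 hA (ψ x0 + 1) one_pos
      refine ⟨(1 / (j0 : ℝ)) * ll lam x0 + 1 + (ψ x0 + 1 + 1), N, ?_⟩
      have hc1 : Continuous fun x => (1 / (j0 : ℝ)) * ll lam x := by fun_prop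
      filter_upwards [hev, hc1.continuousAt.eventually (gt_mem_nhds (by linarith :
        (1 / (j0 : ℝ)) * ll lam x0 < (1 / (j0 : ℝ)) * ll lam x0 + 1))] with x hx1 hx2 m hm g hg
      obtain ⟨u, hu, hint, rfl⟩ := hg
      have h3 := hN m hm _ (by positivity) (hx1 _ (hk0 m) u hu hint)
      unfold gm
      linarith)
    hh1c hh2c
    (by
      intro x0 c hc N
      set ε : ℝ := (h1 x0 - c) / 3 with hε_def
      have hε : 0 < ε := by rw [hε_def]; linarith
      -- `d`
      obtain ⟨d, hd, hda⟩ : ∃ d : ℝ, 0 < d ∧ ∀ x, nS (sh y x0) x ≤ 2 * d →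
          a (fun i => y i x0) - ε ≤ a (fun i => y i x) := by
        have h3 : ∀ᶠ t in 𝓝 (fun i => y i x0), a (fun i => y i x0) - ε < a t :=
          (ha x0).eventually (lt_mem_nhds (by linarith))
        obtain ⟨r, hr, hrb⟩ := Metric.eventually_nhds_iff_ball.1 h3
        refine ⟨(r / 2) ^ 2 / 2, by positivity, fun x hx => (hrb _ ?_).le⟩
        rw [mem_ball, dist_pi_lt_iff hr]
        intro i
        rw [dist_eq_norm]
        have h4 : ‖y i x - y i x0‖ ^ 2 ≤ nS (sh y x0) x := by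
          unfold nS sh
          exact Finset.single_le_sum (f := fun i => ‖y i x - y i x0‖ ^ 2)
            (fun i _ => by positivity) (Finset.mem_univ i)
        have h5 : ‖y i x - y i x0‖ ^ 2 ≤ (r / 2) ^ 2 := by linarith
        have h6 := (pow_le_pow_iff_left₀ (norm_nonneg _) (by positivity) two_ne_zero).1 h5
        linarith
      set b : ℝ := a (fun i => y i x0) - ε - C with hb
      have hψb : ∀ x, nS (sh y x0) x ≤ 2 * d → b ≤ ψ x := by
        intro x hx
        have h3 := hda x hx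
        have h4 := Ua x
        simp only [hψ, hb]
        linarith
      obtain ⟨A, hA, hpk⟩ := peak hμ hρ hρc hρL hn hy x0 hd
      set I : ℝ≥0∞ := ∫⁻ x, ENNReal.ofReal (Real.exp (-φ x)) ∂μ with hI
      have hAI : A * I ≠ ⊤ := ENNReal.mul_ne_top hA hfin
      set B : ℝ := (A * I).toReal + 1 with hB
      have hB1 : 1 ≤ B := by
        have := ENNReal.toReal_nonneg (a := A * I)
        linarith
      obtain ⟨m, hmN, hm1, hmB⟩ := num_lb hj0 (Real.log B) hε N
      have hmr : (1 : ℝ) ≤ m := by exact_mod_cast hm1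
      have hk : (0 : ℝ) < j0 * m := by positivity
      set k : ℝ := j0 * m with hkdef
      have hΨs : Sm (fun x => k * ψ x + φ x) := by
        have : Sm ψ := hφ.sub ((Sm.const (1 / (j0 : ℝ))).mulR (ll_sm hlam hlam0))
        exact ((Sm.const k).mulR this).add hφ
      obtain ⟨u, hu, hux, huint⟩ := hpk (fun x => k * ψ x + φ x) hΨs
        (fun x w => by
          have hl := ll_sm hlam hlam0
          have e1 : (fun x => k * ψ x + φ x) =
              fun x => (k + 1) * φ x + (-(k * (1 / (j0 : ℝ)))) * ll lam x := by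
            funext x
            simp only [hψ]
            ring
          have h3 : Sm (fun x => (k + 1) * φ x) := (Sm.const _).mulR hφ
          have h4 : Sm (fun x => (-(k * (1 / (j0 : ℝ)))) * ll lam x) := (Sm.const _).mulR hl
          rw [Levi_eq_lev hΨs, e1, lev_add h3 h4, lev_const_mul hφ, lev_const_mul hl,
            ll_lev hlam hlam0, ← Levi_eq_lev hφ]
          have := hφL x w
          have : 0 ≤ (k + 1) * Levi φ x w := by positivity
          linarith)
        (ENNReal.ofReal (Real.exp (-k * b)) * I)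
        (ENNReal.mul_ne_top ENNReal.ofReal_ne_top hfin)
        (by
          calc ∫⁻ x in {x | nS (sh y x0) x ≤ 2 * d}, ENNReal.ofReal (Real.exp (-(k * ψ x + φ x))) ∂μ
              ≤ ∫⁻ x in {x | nS (sh y x0) x ≤ 2 * d}, ENNReal.ofReal (Real.exp (-k * b)) *
                  ENNReal.ofReal (Real.exp (-φ x)) ∂μ := by
                refine setLIntegral_mono' ?_ fun x hx => ?_
                · exact (isClosed_le ((sm_nS fun l => (w_hol (sh_hol hy x0 l)).sm).continuous)
                    continuous_const).measurableSet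
                · rw [← ENNReal.ofReal_mul (Real.exp_pos _).le, ← Real.exp_add]
                  apply ENNReal.ofReal_le_ofReal
                  rw [Real.exp_le_exp]
                  have h3 := hψb x hx
                  nlinarith
            _ ≤ ∫⁻ x, ENNReal.ofReal (Real.exp (-k * b)) *
                  ENNReal.ofReal (Real.exp (-φ x)) ∂μ := setLIntegral_le_lintegral _ _
            _ = _ := lintegral_const_mul' _ _ ENNReal.ofReal_ne_top)
      -- normalisation
      set T : ℝ := B * Real.exp (-k * b) with hT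
      have hT0 : 0 < T := by positivity
      have hTs : 0 < Real.sqrt T := Real.sqrt_pos.2 hT0
      set v : G → ℂ := fun x => (((Real.sqrt T)⁻¹ : ℝ) : ℂ) * u x with hv
      have hvol : Hol v := hol_mul (hol_const _) hu
      have hvn : ∀ x, ‖v x‖ ^ 2 = T⁻¹ * ‖u x‖ ^ 2 := by
        intro x
        simp only [hv]
        rw [norm_mul, mul_pow, Complex.norm_real, Real.norm_eq_abs, sq_abs, inv_pow,
          Real.sq_sqrt hT0.le]
      refine ⟨m, hmN, gm lam j0 m v, ⟨v, hvol, ?_, rfl⟩, ?_⟩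
      · have e1 : ∀ x, ENNReal.ofReal (‖v x‖ ^ 2 * (Real.exp (-(j0 * m : ℝ) * ψ x) * θ x)) =
            ENNReal.ofReal T⁻¹ * ENNReal.ofReal (‖u x‖ ^ 2 * (Real.exp (-(k * ψ x + φ x)) *
              ((1 + nS y x) ^ (n + 1))⁻¹)) := by
          intro x
          rw [hvn, ← ENNReal.ofReal_mul (by positivity)]
          congr 1
          rw [← hkdef]
          simp only [hθ]
          rw [neg_add, Real.exp_add, neg_mul]
          ring
        simp only [e1]
        rw [lintegral_const_mul' _ _ ENNReal.ofReal_ne_top]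
        calc ENNReal.ofReal T⁻¹ * ∫⁻ x, ENNReal.ofReal (‖u x‖ ^ 2 * (Real.exp (-(k * ψ x + φ x)) *
              ((1 + nS y x) ^ (n + 1))⁻¹)) ∂μ
            ≤ ENNReal.ofReal T⁻¹ * (A * (ENNReal.ofReal (Real.exp (-k * b)) * I)) := by
              gcongr
          _ = ENNReal.ofReal T⁻¹ * ENNReal.ofReal ((A * I).toReal * Real.exp (-k * b)) := by
              rw [ENNReal.ofReal_mul ENNReal.toReal_nonneg, ENNReal.ofReal_toReal hAI]
              ring
          _ ≤ ENNReal.ofReal T⁻¹ * ENNReal.ofReal T := by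
              gcongr
              rw [hT]
              have : (A * I).toReal ≤ B := by rw [hB]; linarith
              gcongr
          _ = 1 := by
              rw [← ENNReal.ofReal_mul (by positivity), inv_mul_cancel₀ hT0.ne',
                ENNReal.ofReal_one]
      · unfold gm
        rw [hvn, hux, norm_one, one_pow, mul_one, ← hkdef]
        have h3 : -Real.log T ≤ Real.log (T⁻¹ + Real.exp (-(m : ℝ) ^ 2)) := by
          rw [← Real.log_inv]
          exact Real.log_le_log (by positivity) (by linarith [Real.exp_pos (-(m : ℝ) ^ 2)])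
        have h4 : Real.log T = Real.log B + -k * b := by
          rw [hT, Real.log_mul (by linarith) (Real.exp_pos _).ne', Real.log_exp]
        have h5 : (1 / k) * (-Real.log T) ≤
            (1 / k) * Real.log (T⁻¹ + Real.exp (-(m : ℝ) ^ 2)) := by gcongr
        have h6 : (1 / k) * (-Real.log T) = b - (1 / k) * Real.log B := by
          rw [h4]
          field_simp
          ring
        have h7 : c < h1 x0 - 2 * ε := by rw [hε_def]; linarith
        simp only [hh1] at h7
        simp only [hb] at h6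
        linarith)
    (by
      intro x c hc
      set ε : ℝ := (c - h2 x) / 2 with hε_def
      have hε : 0 < ε := by rw [hε_def]; linarith
      obtain ⟨x', hx', hlt⟩ : ∃ x', (∀ i, y i x' = y i x) ∧
          ψ x' < a (fun i => y i x) + C + ε := by
        by_contra hcon
        push Not at hcon
        have := Ub x (a (fun i => y i x) + C + ε) hcon
        linarith
      obtain ⟨A, hA, hev⟩ := ub_loc hμ hψc hθc hθ0 (x0 := x') hlt
      obtain ⟨N, hN⟩ := num_ub hj0 hA (a (fun i => y i x) + C + ε) hε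
      refine ⟨N, fun m hm g hg => ?_⟩
      obtain ⟨u, hu, hint, rfl⟩ := hg
      have h3 := hev.self_of_nhds _ (hk0 m) u hu hint
      have h4 : u x = u x' := RK m u hu hint x x' fun i => (hx' i).symm
      rw [← h4] at h3
      have h5 := hN m hm _ (by positivity) h3
      have h6 : h2 x + 2 * ε = c := by rw [hε_def]; ring
      unfold gm
      simp only [hh2] at h6
      linarith)
  refine ⟨W, hW, fun x => ?_⟩
  have h3 := hW1 x
  have h4 := hW2 x
  simp only [hh1] at h3
  simp only [hh2] at h4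
  rw [abs_le]
  constructor <;> linarith

/-- **A-PSI** (task 218): the descent metric is psh up to a bounded function. -/
theorem psi_psh {G : Type} [TopologicalSpace G] [T2Space G] [SecondCountableTopology G]
    [RDom n G] [MeasurableSpace G] [BorelSpace G] {μ : Measure G} (hμ : IsLeb μ) {ρ : G → ℝ}
    (hρ : Sm ρ) (hρc : ∀ c, IsCompact {x | ρ x ≤ c}) (hρL : ∀ x w, nsq w ≤ Levi ρ x w)
    {φ : G → ℝ} (hφ : Sm φ) (hφL : ∀ x w, 0 ≤ Levi φ x w)
    (hfin : ∫⁻ x, ENNReal.ofReal (Real.exp (-φ x)) ∂μ < ⊤)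
    {lam : G → ℂ} (hlam : Hol lam) (hlam0 : ∀ x, lam x ≠ 0) {j0 : ℕ} (hj0 : 0 < j0)
    {ι : Type*} [Fintype ι] {y : ι → G → ℂ} (hy : ∀ i, Hol (y i))
    {a : (ι → ℂ) → ℝ} (ha : ∀ x, ContinuousAt a (fun i => y i x)) {C : ℝ}
    (Ua : ∀ x, (1 / (j0 : ℝ)) * Real.log (‖lam x‖ ^ 2) + a (fun i => y i x) ≤ φ x + C)
    (Ub : ∀ x c, (∀ x', (∀ i, y i x' = y i x) →
      c ≤ φ x' - (1 / (j0 : ℝ)) * Real.log (‖lam x'‖ ^ 2)) → c ≤ a (fun i => y i x) + C)
    (RK : ∀ (m i : ℕ) (u : G → ℂ), Hol u →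
      ∫⁻ x, ENNReal.ofReal (‖u x‖ ^ 2 * ‖lam x‖ ^ (2 * m) * Real.exp (-(j0 * m + 1 : ℝ) * φ x) /
        (1 + ∑ l, ‖y l x‖ ^ 2) ^ i) ∂μ < ⊤ →
      ∀ x x', (∀ l, y l x = y l x') → u x = u x') :
    ∃ W : G → ℝ, PSH W ∧ ∃ C' : ℝ,
      ∀ x, |W x - ((1 / (j0 : ℝ)) * Real.log (‖lam x‖ ^ 2) + a (fun i => y i x))| ≤ C' := by
  obtain ⟨W, hW, hWC⟩ := psi_psh' hμ hρ hρc hρL hφ hφL hfin.ne hlam hlam0 hj0 hy ha (C := C) Ua Ub
    (by
      intro m u hu hint x x' hxx
      refine RK m (n + 1) u hu (lt_of_le_of_lt (le_of_eq ?_) (hint.trans_lt ENNReal.one_lt_top))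
        x x' hxx
      refine lintegral_congr fun x => ?_
      congr 1
      have hj : (j0 : ℝ) ≠ 0 := by exact_mod_cast hj0.ne'
      have h0 := norm_pos_iff.2 (hlam0 x)
      have h1 : ‖lam x‖ ^ (2 * m) = Real.exp (m * ll lam x) := by
        unfold ll
        rw [mul_comm (m : ℝ), Real.exp_mul, Real.exp_log (by positivity), Real.rpow_natCast,
          pow_mul]
      have h2 : Real.exp (-(j0 * m : ℝ) * (φ x - 1 / (j0 : ℝ) * ll lam x)) * Real.exp (-φ x) =
          Real.exp (m * ll lam x) * Real.exp (-(j0 * m + 1 : ℝ) * φ x) := by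
        rw [← Real.exp_add, ← Real.exp_add]
        congr 1
        field_simp
        ring
      rw [h1, ← mul_assoc (Real.exp (-(j0 * m : ℝ) * (φ x - 1 / (j0 : ℝ) * ll lam x))), h2]
      unfold nS
      rw [div_eq_mul_inv]
      ring)
  exact ⟨W, hW, C, hWC⟩

end Crest.Agent.R273.Psi_283
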