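import Crest.Agent.R273.L2K_774

/-!
# R273 (S0416), Part D, leaf D.12b (helper774), torus part: pseudolocality

`SupK K F` : the periodic function `F` is supported in the translates of `K`;
`G_off`, `Kop_off` : for `F` supported in `K` (compact in the open unit cube) and `g` vanishing on a
neighbourhood `V` of `K`, the operators `f ↦ F * G (g * f)` and `f ↦ F * Kop a (g * f)` map `L²` to
`H^s` for every `s`;
`nv_KT_off`, `nv_GT_off` : vector versions.
-/

set_option autoImplicit false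
set_option linter.unusedSectionVars false
set_option linter.unusedSimpArgs false
set_option linter.unusedVariables false

open Set Filter Topology Complex
open scoped ContDiff Matrix ComplexConjugate

namespace Crest.Agent.R273.PslT_774

open Crest.Agent.R275 Crest.Agent.R275.Geo Crest.Agent.R275.Tor812 Crest.Agent.R275.TorS666
  Crest.Agent.R275.C1d194 Crest.Agent.R275.C2812 Crest.Agent.R275.RetC666
  Crest.Agent.R273.L2K_774

noncomputable section

section support

variable {d : Type} [Fintype d]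

/-- the set of points with fractional part in a compact subset of the cube is closed -/
theorem isClosed_fr {K : Set (d → ℝ)} (hK : IsCompact K) (hKQ : K ⊆ Qo d) :
    IsClosed {x : d → ℝ | fr x ∈ K} := by
  have h1 : {x : d → ℝ | fr x ∈ K} = pr ⁻¹' (pr '' K) := by
    ext x
    constructor
    · intro hx
      refine ⟨fr x, hx, ?_⟩
      rw [pr_eq_iff]
      refine ⟨fun i => ⌊x i⌋, ?_⟩
      funext i
      simp [fr]
    · rintro ⟨y, hy, hxy⟩
      obtain ⟨k, hk⟩ := pr_eq_iff.1 hxy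
      show fr x ∈ K
      rw [hk, fr_add_int, fr_eq_self (hKQ hy)]
      exact hy
  rw [h1]
  exact (hK.image continuous_pr).isClosed.preimage continuous_pr

/-- `F` is supported in the translates of `K` -/
def SupK (K : Set (d → ℝ)) (F : SPer d) : Prop := ∀ x, fr x ∉ K → F x = 0

theorem SupK.zero (K : Set (d → ℝ)) : SupK K (0 : SPer d) := fun _ _ => rfl

theorem SupK.add {K : Set (d → ℝ)} {F G : SPer d} (hF : SupK K F) (hG : SupK K G) :
    SupK K (F + G) := fun x hx => by rw [SPer.add_apply, hF x hx, hG x hx, add_zero]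

theorem SupK.neg {K : Set (d → ℝ)} {F : SPer d} (hF : SupK K F) : SupK K (-F) := fun x hx => by
  rw [SPer.neg_apply, hF x hx, neg_zero]

theorem SupK.smul {K : Set (d → ℝ)} {F : SPer d} (hF : SupK K F) (c : ℂ) : SupK K (c • F) :=
  fun x hx => by rw [SPer.smul_apply, hF x hx, mul_zero]

theorem SupK.sum {K : Set (d → ℝ)} {ι : Type*} (s : Finset ι) {F : ι → SPer d}
    (hF : ∀ i, SupK K (F i)) : SupK K (∑ i ∈ s, F i) := by
  classical
  induction s using Finset.induction_on with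
  | empty => simpa using SupK.zero K
  | insert a s ha ih => rw [Finset.sum_insert ha]; exact (hF a).add ih

theorem SupK.pd {K : Set (d → ℝ)} (hK : IsCompact K) (hKQ : K ⊆ Qo d) {F : SPer d}
    (hF : SupK K F) (j : d) : SupK K (pd j F) := by
  intro x hx
  rw [pd_apply]
  have h1 : (F : (d → ℝ) → ℂ) =ᶠ[𝓝 x] fun _ => 0 := by
    filter_upwards [(isClosed_fr hK hKQ).isOpen_compl.mem_nhds hx] with y hy
    exact hF y hy
  rw [h1.fderiv_eq]
  simp

/-- a periodic cut-off which is `1` on the translates of `K`, with vanishing derivatives there,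
supported near `K` -/
theorem exists_cut {K V : Set (d → ℝ)} (hK : IsCompact K) (hKQ : K ⊆ Qo d) (hV : IsOpen V)
    (hKV : K ⊆ V) : ∃ (K' : Set (d → ℝ)) (p : SPer d), IsCompact K' ∧ K' ⊆ Qo d ∧ K' ⊆ V ∧
      SupK K' p ∧ (∀ x, fr x ∈ K → p x = 1) ∧ (∀ x, fr x ∈ K → ∀ j, pd j p x = 0) := by
  obtain ⟨K1, hK1, hKK1, hK1V⟩ := exists_compact_between hK (hV.inter isOpen_Qo)
    (fun x hx => ⟨hKV hx, hKQ hx⟩)
  obtain ⟨K2, hK2, hK12, hK2V⟩ := exists_compact_between hK1 (hV.inter isOpen_Qo) hK1V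
  obtain ⟨g, hg1, hg2, hg3, hg4⟩ := exists_contMDiff_support_eq_eq_one_iff
    (modelWithCornersSelf ℝ (d → ℝ)) (n := ⊤) isOpen_interior hK1.isClosed hK12
  have hgs : ContDiff ℝ ∞ g := contMDiff_iff_contDiff.1 hg1
  have hcc : IsCC (Qo d) (fun x => (g x : ℂ)) := by
    refine ⟨ofRealCLM.contDiff.comp hgs, K2, hK2, fun x hx => (hK2V hx).2, fun x hx => ?_⟩
    have h1 : x ∉ Function.support g := by
      rw [hg3]
      exact fun h => hx (interior_subset h)
    rw [Function.notMem_support.1 h1]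
    rfl
  have hone : ∀ y ∈ K1, (g y : ℂ) = 1 := by
    intro y hy
    rw [(hg4 y).1 hy, ofReal_one]
  refine ⟨K2, perz _ hcc, hK2, fun x hx => (hK2V hx).2, fun x hx => (hK2V hx).1, fun x hx => ?_,
    fun x hx => ?_, fun x hx j => ?_⟩
  · rw [perz_apply]
    have h1 : fr x ∉ Function.support g := by
      rw [hg3]
      exact fun h => hx (interior_subset h)
    show (g (fr x) : ℂ) = 0
    rw [Function.notMem_support.1 h1, ofReal_zero]
  · rw [perz_apply]
    exact hone _ (interior_subset (hKK1 hx))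
  · rw [pd_perz, perz_apply]
    have h1 : (fun y => (g y : ℂ)) =ᶠ[𝓝 (fr x)] fun _ => 1 := by
      filter_upwards [isOpen_interior.mem_nhds (hKK1 hx)] with y hy
      exact hone y (interior_subset hy)
    rw [h1.fderiv_eq]
    simp

end support

/-! ### the operators `G` and `Kop` -/

section ops

variable {n : ℕ}

theorem SupK.dbar {K : Set (RI n → ℝ)} (hK : IsCompact K) (hKQ : K ⊆ Qo (RI n))
    {F : SPer (RI n)} (hF : SupK K F) (j : Fin n) : SupK K (dbar j F) := by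
  rw [dbar_apply]
  exact ((hF.pd hK hKQ _).add ((hF.pd hK hKQ _).smul _)).smul _

theorem SupK.ddp {K : Set (RI n → ℝ)} (hK : IsCompact K) (hKQ : K ⊆ Qo (RI n))
    {F : SPer (RI n)} (hF : SupK K F) (j : Fin n) : SupK K (ddp j F) := by
  rw [ddp_apply, sub_eq_add_neg]
  exact ((hF.pd hK hKQ _).add ((hF.pd hK hKQ _).smul _).neg).smul _

theorem SupK.box' {K : Set (RI n → ℝ)} (hK : IsCompact K) (hKQ : K ⊆ Qo (RI n))
    {F : SPer (RI n)} (hF : SupK K F) : SupK K (box' F) := by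
  rw [box'_apply]
  exact (SupK.sum _ fun j => (hF.dbar hK hKQ j).ddp hK hKQ j).neg

theorem SupK.mul_one {K : Set (RI n → ℝ)} {F p : SPer (RI n)} (hF : SupK K F)
    (hp : ∀ x, fr x ∈ K → p x = 1) : F * p = F := by
  refine SPer.ext fun x => ?_
  rw [SPer.mul_apply]
  by_cases hx : fr x ∈ K
  · rw [hp x hx, _root_.mul_one]
  · rw [hF x hx, zero_mul]

theorem SupK.mul_zero {K : Set (RI n → ℝ)} {F p : SPer (RI n)} (hF : SupK K F)
    (hp : ∀ x, fr x ∈ K → p x = 0) : F * p = 0 := by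
  refine SPer.ext fun x => ?_
  rw [SPer.mul_apply, SPer.zero_apply]
  by_cases hx : fr x ∈ K
  · rw [hp x hx, MulZeroClass.mul_zero]
  · rw [hF x hx, zero_mul]

theorem dbar_zero_of {p : SPer (RI n)} {x : RI n → ℝ} (h : ∀ j, pd j p x = 0) (j : Fin n) :
    dbar j p x = 0 := by
  rw [dbar_apply, SPer.smul_apply, SPer.add_apply, SPer.smul_apply, h, h]
  simp

theorem ddp_zero_of {p : SPer (RI n)} {x : RI n → ℝ} (h : ∀ j, pd j p x = 0) (j : Fin n) :
    ddp j p x = 0 := by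
  rw [ddp_apply, SPer.smul_apply, SPer.sub_apply, SPer.smul_apply, h, h]
  simp

/-- insertion of the cut-off -/
theorem mul_dbar_cut {K : Set (RI n → ℝ)} {F p : SPer (RI n)} (hF : SupK K F)
    (hp : ∀ x, fr x ∈ K → p x = 1) (hp' : ∀ x, fr x ∈ K → ∀ j, pd j p x = 0) (j : Fin n)
    (h : SPer (RI n)) : F * dbar j h = F * dbar j (p * h) := by
  rw [dbar_mul, mul_add, ← mul_assoc, ← mul_assoc, hF.mul_one hp,
    hF.mul_zero fun x hx => dbar_zero_of (hp' x hx) j, zero_mul, zero_add]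

theorem mul_ddp_cut {K : Set (RI n → ℝ)} {F p : SPer (RI n)} (hF : SupK K F)
    (hp : ∀ x, fr x ∈ K → p x = 1) (hp' : ∀ x, fr x ∈ K → ∀ j, pd j p x = 0) (j : Fin n)
    (h : SPer (RI n)) : F * ddp j h = F * ddp j (p * h) := by
  rw [ddp_mul, mul_add, ← mul_assoc, ← mul_assoc, hF.mul_one hp,
    hF.mul_zero fun x hx => ddp_zero_of (hp' x hx) j, zero_mul, zero_add]

theorem mul_cut {K : Set (RI n → ℝ)} {F p : SPer (RI n)} (hF : SupK K F)
    (hp : ∀ x, fr x ∈ K → p x = 1) (h : SPer (RI n)) : F * h = F * (p * h) := by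
  rw [← mul_assoc, hF.mul_one hp]

/-- **pseudolocality of `G`** -/
theorem G_off (s : ℕ) : ∀ {K V : Set (RI n → ℝ)}, IsCompact K → K ⊆ Qo (RI n) → IsOpen V → K ⊆ V →
    ∀ {F g : SPer (RI n)}, SupK K F → (∀ x, fr x ∈ V → g x = 0) →
    ∃ C, 0 ≤ C ∧ ∀ f : SPer (RI n), nrm (s + 1) (F * G (g * f)) ≤ C * nrm 0 f := by
  induction s with
  | zero =>
    intro K V hK hKQ hV hKV F g hF hg
    obtain ⟨C1, hC1, h1⟩ := nrm_mul_le 1 F
    obtain ⟨C2, hC2, h2⟩ := nrm_mul_le 0 g
    refine ⟨C1 * C2, mul_nonneg hC1 hC2, fun f => (h1 _).trans ?_⟩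
    rw [mul_assoc]
    refine mul_le_mul_of_nonneg_left ?_ hC1
    exact (nrm_mono (by omega) _).trans ((nrm_G_le 0 _).trans (h2 f))
  | succ s ih =>
    intro K V hK hKQ hV hKV F g hF hg
    obtain ⟨K', p, hK', hK'Q, hK'V, hp0, hp1, hp2⟩ := exists_cut hK hKQ hV hKV
    obtain ⟨D, hD, hDb⟩ := ih hK' hK'Q hV hK'V hp0 hg
    choose C1 hC1 h1 using fun j : Fin n => nrm_mul_le s (ddp j F)
    choose C2 hC2 h2 using fun j : Fin n => nrm_mul_le s (dbar j F)
    obtain ⟨C3, hC3, h3⟩ := nrm_mul_le s (box' F)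
    refine ⟨(∑ j, (C1 j * (2 * Real.pi) + C2 j * (2 * Real.pi)) + C3) * D, mul_nonneg
      (add_nonneg (Finset.sum_nonneg fun j _ => add_nonneg (mul_nonneg (hC1 j) (by positivity))
        (mul_nonneg (hC2 j) (by positivity))) hC3) hD, fun f => ?_⟩
    set h := G (g * f) with hh
    have e0 : F * (g * f) = 0 := by
      rw [← mul_assoc, hF.mul_zero fun x hx => hg x (hKV hx), zero_mul]
    have e1 : F * h = -(G (∑ j : Fin n, (ddp j F * dbar j (p * h) + dbar j F * ddp j (p * h)) -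
        box' F * (p * h))) := by
      have h4 := comm_G F (g * f)
      rw [e0, map_zero, zero_sub, ← hh] at h4
      rw [eq_neg_iff_add_eq_zero, ← neg_eq_iff_add_eq_zero, h4]
      congr 2
      · refine Finset.sum_congr rfl fun j _ => ?_
        rw [mul_dbar_cut (hF.ddp hK hKQ j) hp1 hp2 j h,
          mul_ddp_cut (hF.dbar hK hKQ j) hp1 hp2 j h]
      · exact mul_cut (hF.box' hK hKQ) hp1 h
    have hph : nrm (s + 1) (p * h) ≤ D * nrm 0 f := hDb f
    rw [e1, nrm_neg]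
    refine (nrm_G_le s _).trans ((nrm_sub_le _ _ _).trans ?_)
    rw [mul_assoc]
    refine le_trans ?_ (mul_le_mul_of_nonneg_left hph (add_nonneg (Finset.sum_nonneg fun j _ =>
      add_nonneg (mul_nonneg (hC1 j) (by positivity)) (mul_nonneg (hC2 j) (by positivity))) hC3))
    rw [add_mul, Finset.sum_mul]
    refine add_le_add ((nrm_sum_le _ _ _).trans (Finset.sum_le_sum fun j _ => ?_)) ?_
    · refine (nrm_add_le _ _ _).trans ?_
      rw [add_mul]
      refine add_le_add ((h1 j _).trans ?_) ((h2 j _).trans ?_)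
      · rw [mul_assoc]
        exact mul_le_mul_of_nonneg_left (nrm_dbar_le _ _ _) (hC1 j)
      · rw [mul_assoc]
        exact mul_le_mul_of_nonneg_left (nrm_ddp_le _ _ _) (hC2 j)
    · exact (h3 _).trans (mul_le_mul_of_nonneg_left (nrm_mono (by omega) _) hC3)

/-- **pseudolocality of `Kop`** -/
theorem Kop_off (s : ℕ) {K V : Set (RI n → ℝ)} (hK : IsCompact K) (hKQ : K ⊆ Qo (RI n))
    (hV : IsOpen V) (hKV : K ⊆ V) {F g : SPer (RI n)} (hF : SupK K F)
    (hg : ∀ x, fr x ∈ V → g x = 0) (a : Fin n) :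
    ∃ C, 0 ≤ C ∧ ∀ f : SPer (RI n), nrm s (F * Kop a (g * f)) ≤ C * nrm 0 f := by
  obtain ⟨K', p, hK', hK'Q, hK'V, hp0, hp1, hp2⟩ := exists_cut hK hKQ hV hKV
  obtain ⟨D, hD, hDb⟩ := G_off s hK' hK'Q hV hK'V hp0 hg
  obtain ⟨C1, hC1, h1⟩ := nrm_mul_le s F
  refine ⟨C1 * (2 * Real.pi) * D, by positivity, fun f => ?_⟩
  rw [Kop_apply, mul_neg, nrm_neg, mul_ddp_cut hF hp1 hp2]
  refine (h1 _).trans ?_
  rw [mul_assoc, mul_assoc]
  refine mul_le_mul_of_nonneg_left ((nrm_ddp_le _ _ _).trans ?_) hC1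
  exact mul_le_mul_of_nonneg_left (hDb f) (by positivity)

variable {κ : Type} [Fintype κ]

theorem nv_GT_off (s : ℕ) {K V : Set (RI n → ℝ)} (hK : IsCompact K) (hKQ : K ⊆ Qo (RI n))
    (hV : IsOpen V) (hKV : K ⊆ V) {F g : SPer (RI n)} (hF : SupK K F)
    (hg : ∀ x, fr x ∈ V → g x = 0) :
    ∃ C, 0 ≤ C ∧ ∀ v : κ → SPer (RI n), nv s (sT F (GT (sT g v))) ≤ C * nv 0 v := by
  obtain ⟨C, hC, h⟩ := G_off s hK hKQ hV hKV hF hg
  refine ⟨C, hC, fun v => ?_⟩
  unfold nv
  rw [Finset.mul_sum]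
  exact Finset.sum_le_sum fun k _ => (nrm_mono (by omega) _).trans (h (v k))

theorem sT_sum {ι : Type*} (s : Finset ι) (F : SPer (RI n)) (f : ι → κ → SPer (RI n)) :
    sT F (∑ i ∈ s, f i) = ∑ i ∈ s, sT F (f i) := by
  funext k
  simp only [sT, Finset.sum_apply, Finset.mul_sum]

theorem nv_KT_off (io : Fin n → Matrix κ κ ℂ) (s : ℕ) {K V : Set (RI n → ℝ)} (hK : IsCompact K)
    (hKQ : K ⊆ Qo (RI n)) (hV : IsOpen V) (hKV : K ⊆ V) {F g : SPer (RI n)} (hF : SupK K F)
    (hg : ∀ x, fr x ∈ V → g x = 0) :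
    ∃ C, 0 ≤ C ∧ ∀ v : κ → SPer (RI n), nv s (sT F (Geo.KT io (sT g v))) ≤ C * nv 0 v := by
  choose C hC h using fun a : Fin n => Kop_off s hK hKQ hV hKV hF hg a
  refine ⟨∑ a, (∑ k, ∑ l, ‖io a k l‖) * C a, Finset.sum_nonneg fun a _ =>
    mul_nonneg (Finset.sum_nonneg fun k _ => Finset.sum_nonneg fun l _ => norm_nonneg _)
      (hC a), fun v => ?_⟩
  unfold Geo.KT
  rw [sT_sum, Finset.sum_mul]
  refine (nv_sum_le _ _ _).trans (Finset.sum_le_sum fun a _ => ?_)
  rw [← mT_sT]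
  refine (nv_mT_le _ _ _).trans ?_
  rw [mul_assoc]
  refine mul_le_mul_of_nonneg_left ?_
    (Finset.sum_nonneg fun k _ => Finset.sum_nonneg fun l _ => norm_nonneg _)
  unfold nv
  rw [Finset.mul_sum]
  exact Finset.sum_le_sum fun k _ => h a (v k)

end ops

end

end Crest.Agent.R273.PslT_774
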