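import Crest.Agent.R273.PslT_774
import Crest.Agent.R275.QN2b_734
import Crest.Agent.R275.CutY_89

/-!
# R273 (S0416), Part D, leaf D.12b (helper774): pseudolocality on `M`

* `nrm_loc_le`, `sup_le_nS` : comparison with an arbitrary localisation, Sobolev embedding;
* `nS_fmulL_le` : multiplication by a smooth function is bounded in every norm;
* `Psl P B T` : `f T g : L² → H^s` for all `s` and all smooth `f`, `g` with disjoint supports;
  `psl_KML`, `psl_RML`, `Psl.add`, `Psl.comp`;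
* `improve` : if `c N - w - ∇ (y N) → 0` in `L²`, `∇ (c N) → 0` in `L²` and `∇ (c N) = 0` on the open
  set `U`, `∇ w = 0`, then after changing `y N` the convergence holds in `H^s` on the compact
  subsets of `U`;
* `functional_limit` : functionals living over `U` and killing exact sections.
-/

set_option autoImplicit false
set_option linter.unusedSectionVars false
set_option linter.unusedSimpArgs false
set_option linter.unusedVariables false

open Set Filter Topology Complex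
open scoped ContDiff Matrix ComplexConjugate

namespace Crest.Agent.R273.Psl_774

open Crest.Agent.R275 Crest.Agent.R275.Geo Crest.Agent.R275.Tor812 Crest.Agent.R275.TorS666
  Crest.Agent.R275.C1d194 Crest.Agent.R275.C2812 Crest.Agent.R275.RetC666
  Crest.Agent.R273.L2K_774 Crest.Agent.R273.PslT_774
open Crest.Agent.R275.CutY89 (fmulL fmulL_coe fmulL_apply)

noncomputable section

variable {n : ℕ} {M : Type} [TopologicalSpace M] {A : Atl n M}

/-! ### periodic functions representing two functions with disjoint supports -/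

theorem exists_sep {j : A.ι} {T : Set M} (hT : IsCompact T) (hTs : T ⊆ (A.e j).source)
    {f g : M → ℂ} (hf : A.SmAt j f) (hg : A.SmAt j g) (hd : Disjoint (tsupport f) (tsupport g)) :
    ∃ F G : SPer (RI n), (∀ x ∈ T, F (rc (A.e j x)) = f x) ∧ (∀ x ∈ T, G (rc (A.e j x)) = g x) ∧
      ∃ K V : Set (RI n → ℝ), IsCompact K ∧ K ⊆ Qo (RI n) ∧ IsOpen V ∧ K ⊆ V ∧ SupK K F ∧
        ∀ x, fr x ∈ V → G x = 0 := by
  set T' : Set (RI n → ℝ) := rc '' (A.e j '' T) with hT'
  have hT'c : IsCompact T' :=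
    (hT.image_of_continuousOn ((A.e j).continuousOn.mono hTs)).image Geo.continuous_rc
  have hT's : T' ⊆ A.cu j := by
    rintro _ ⟨_, ⟨x, hx, rfl⟩, rfl⟩
    show cc (rc (A.e j x)) ∈ (A.e j).target
    rw [cc_rc]
    exact (A.e j).map_source (hTs hx)
  obtain ⟨K, hK, hTK, hKs⟩ := exists_compact_between hT'c (A.isOpen_cu j) hT's
  obtain ⟨φ, h0, h1, -⟩ := exists_contMDiffMap_zero_one_of_isClosed (n := ⊤)
    (modelWithCornersSelf ℝ (RI n → ℝ)) (s := (interior K)ᶜ) (t := T')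
    isOpen_interior.isClosed_compl hT'c.isClosed (by
      rw [Set.disjoint_left]
      intro x hx hx'
      exact hx (hTK hx'))
  have hφ : ContDiff ℝ ∞ (fun x => ((φ x : ℝ) : ℂ)) :=
    ofRealCLM.contDiff.comp (contMDiff_iff_contDiff.1 φ.contMDiff)
  have hφ0 : ∀ x ∉ K, ((φ x : ℝ) : ℂ) = 0 := by
    intro x hx
    have := h0 (show x ∈ (interior K)ᶜ from fun h => hx (interior_subset h))
    simp only [Pi.zero_apply] at this
    rw [this, ofReal_zero]
  have hφc : IsCC (A.cu j) (fun x => ((φ x : ℝ) : ℂ)) := ⟨hφ, K, hK, hKs, hφ0⟩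
  have hfc : ContDiffOn ℝ ∞ (fun y => f ((A.e j).symm (cc y))) (A.cu j) :=
    hf.comp (ccL n).contDiff.contDiffOn (fun y hy => hy)
  have hgc : ContDiffOn ℝ ∞ (fun y => g ((A.e j).symm (cc y))) (A.cu j) :=
    hg.comp (ccL n).contDiff.contDiffOn (fun y hy => hy)
  have hF := hφc.mul_contDiffOn (A.isOpen_cu j) hfc
  have hG := hφc.mul_contDiffOn (A.isOpen_cu j) hgc
  have hone : ∀ x ∈ T, φ (rc (A.e j x)) = 1 := fun x hx => h1 ⟨A.e j x, ⟨x, hx, rfl⟩, rfl⟩
  have hsy : ContinuousOn (fun x : RI n → ℝ => (A.e j).symm (cc x)) (A.cu j) :=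
    (A.e j).continuousOn_symm.comp Geo.continuous_cc.continuousOn fun x hx => hx
  refine ⟨perz _ (hF.mono (A.cu_sub j)), perz _ (hG.mono (A.cu_sub j)), fun x hx => ?_,
    fun x hx => ?_, K ∩ (fun x => (A.e j).symm (cc x)) ⁻¹' tsupport f,
    A.cu j ∩ (fun x => (A.e j).symm (cc x)) ⁻¹' (tsupport g)ᶜ, ?_, ?_, ?_, ?_, ?_, ?_⟩
  · rw [perz_of_mem _ (rc_mem_Qo' (hTs hx)), cc_rc, (A.e j).left_inv (hTs hx), hone x hx,
      ofReal_one, one_mul]
  · rw [perz_of_mem _ (rc_mem_Qo' (hTs hx)), cc_rc, (A.e j).left_inv (hTs hx), hone x hx,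
      ofReal_one, one_mul]
  · exact hK.of_isClosed_subset ((hsy.mono hKs).preimage_isClosed_of_isClosed hK.isClosed
      (isClosed_tsupport f)) inter_subset_left
  · exact inter_subset_left.trans (hKs.trans (A.cu_sub j))
  · exact hsy.isOpen_inter_preimage (A.isOpen_cu j) (isClosed_tsupport g).isOpen_compl
  · rintro x ⟨hxK, hxf⟩
    exact ⟨hKs hxK, fun hxg => Set.disjoint_left.1 hd hxf hxg⟩
  · intro x hx
    rw [perz_apply]
    by_cases hxK : fr x ∈ K
    · have h2 : (A.e j).symm (cc (fr x)) ∉ tsupport f := fun h => hx ⟨hxK, h⟩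
      rw [image_eq_zero_of_notMem_tsupport h2, MulZeroClass.mul_zero]
    · rw [hφ0 _ hxK, zero_mul]
  · intro x hx
    rw [perz_apply, image_eq_zero_of_notMem_tsupport hx.2, MulZeroClass.mul_zero]

section

variable [Finite A.ι] (P : Part A) (B : FBun A)

/-! ### comparison with an arbitrary localisation, Sobolev embedding -/

theorem nrm_loc_le {i : A.ι} {κ₁ : Type} [Fintype κ₁] {a : M → Matrix κ₁ B.κ ℂ} (ha : IsAmp A i a) (s : ℕ)
    (k : κ₁) : ∃ C, 0 ≤ C ∧ ∀ u : Sec B, nrm s (loc A i a (u.1 i) k) ≤ C * nS P B s u := by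
  classical
  have := Fintype.ofFinite A.ι
  choose C hC0 hC using fun (j : A.ι) (l : B.κ) =>
    nrm_Tkl_le B s ha ((P.amp_chi B.κ).amp j) k l
  refine ⟨∑ j, ∑ l, C j l, Finset.sum_nonneg fun j _ => Finset.sum_nonneg fun l _ => hC0 j l,
    fun u => ?_⟩
  have h1 := ExtF_LocF B P u.2
  have h2 := loc_ExtF_fin P B ha (P.amp_chi B.κ) (LocF B (P.psi B.κ) u.1) k
  rw [h1] at h2
  rw [h2, Finset.sum_mul]
  refine (nrm_sum_le _ _ _).trans (Finset.sum_le_sum fun j _ => ?_)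
  rw [Finset.sum_mul]
  refine (nrm_sum_le _ _ _).trans (Finset.sum_le_sum fun l _ => (hC j l _).trans ?_)
  exact mul_le_mul_of_nonneg_left (nrm_le_nF s _ j l) (hC0 j l)

/-- **Sobolev embedding on compact parts of the charts** -/
theorem sup_le_nS [T2Space M] {s : ℕ} (hs : Fintype.card (RI n) < 2 * s) {i : A.ι} {K : Set M}
    (hK : IsCompact K) (hKs : K ⊆ (A.e i).source) :
    ∃ C, 0 ≤ C ∧ ∀ u : Sec B, ∀ x ∈ K, ∀ k, ‖u.1 i x k‖ ≤ C * nS P B s u := by
  classical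
  obtain ⟨φ, h1, -, h2, h3, h4⟩ := QN2b734.exists_bump A hK (A.e i).open_source hKs
  have hφ : A.Sm φ := QN2b734.sm_iff.2 h1
  have ha : IsAmp A i (fun x => ((φ x : ℝ) : ℂ) • (1 : Matrix B.κ B.κ ℂ)) :=
    isAmp_bump_const (hφ i) h3 h4 1
  obtain ⟨D, hD, hDb⟩ := sup_le (d := RI n) hs
  choose C hC0 hC using fun k : B.κ => nrm_loc_le P B ha s k
  refine ⟨D * ∑ k, C k, mul_nonneg hD (Finset.sum_nonneg fun k _ => hC0 k), fun u x hx k => ?_⟩
  have e : loc A i (fun x => ((φ x : ℝ) : ℂ) • (1 : Matrix B.κ B.κ ℂ)) (u.1 i) k (rc (A.e i x)) =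
      u.1 i x k := by
    rw [loc_rc ha (u.2.1 i) k (hKs hx)]
    have : φ x = 1 := (eventually_nhdsSet_iff_forall.1 h2 x hx).self_of_nhds
    rw [this, ofReal_one, one_smul, Matrix.one_mulVec]
  rw [← e, mul_assoc]
  refine (hDb _ _).trans (mul_le_mul_of_nonneg_left ((hC k u).trans ?_) hD)
  exact mul_le_mul_of_nonneg_right (Finset.single_le_sum (f := C) (fun k _ => hC0 k)
    (Finset.mem_univ k)) (nS_nonneg _ _ _ _)

/-! ### multiplication by functions -/

theorem nv_sT_le {κ : Type} [Fintype κ] (s : ℕ) (F : SPer (RI n)) :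
    ∃ C, 0 ≤ C ∧ ∀ v : κ → SPer (RI n), nv s (sT F v) ≤ C * nv s v := by
  obtain ⟨C, hC, h⟩ := nrm_mul_le s F
  refine ⟨C, hC, fun v => ?_⟩
  unfold nv
  rw [Finset.mul_sum]
  exact Finset.sum_le_sum fun k _ => h (v k)

/-- **multiplication by a smooth function is bounded in every norm** -/
theorem nS_fmulL_le {f : M → ℂ} (hf : A.Sm f) (s : ℕ) :
    ∃ C, 0 ≤ C ∧ ∀ u : Sec B, nS P B s (fmulL B hf u) ≤ C * nS P B s u := by
  obtain ⟨F, hF⟩ := exists_perF P hf
  obtain ⟨C, hC0, hC⟩ := nF_le_of (A := A) (κ := B.κ) (κ' := B.κ) (s := s) (t := s)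
    (T := fun i v => sT (F i) v) fun i => nv_sT_le s (F i)
  refine ⟨C, hC0, fun u => ?_⟩
  have h1 : LocF B (P.psi B.κ) (fmulL B hf u).1 =
      fun j => sT (F j) (LocF B (P.psi B.κ) u.1 j) := by
    funext j
    exact loc_fmul B ((P.amp_psi B.κ).amp j) (hf j)
      (fun x hx => hF j x ((P.amp_psi B.κ).sub j hx)) (u.2.1 j)
  show nF s (LocF B (P.psi B.κ) (fmulL B hf u).1) ≤ _
  rw [h1]
  exact hC _

/-! ### pseudolocality -/

/-- off-diagonal smoothing for a torus operator on vectors -/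
def TOff (T : (B.κ → SPer (RI n)) → (B.κ → SPer (RI n))) : Prop :=
  ∀ (s : ℕ) {K V : Set (RI n → ℝ)}, IsCompact K → K ⊆ Qo (RI n) → IsOpen V → K ⊆ V →
    ∀ {F g : SPer (RI n)}, SupK K F → (∀ x, fr x ∈ V → g x = 0) →
    ∃ C, 0 ≤ C ∧ ∀ v : B.κ → SPer (RI n), nv s (sT F (T (sT g v))) ≤ C * nv 0 v

theorem tOff_KT : TOff B (Geo.KT B.io) := fun s _ _ hK hKQ hV hKV _ _ hF hg =>
  nv_KT_off B.io s hK hKQ hV hKV hF hg

theorem tOff_GT : TOff B GT := fun s _ _ hK hKQ hV hKV _ _ hF hg =>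
  nv_GT_off s hK hKQ hV hKV hF hg

variable {B}

theorem ext_off {b a : A.ι → M → Matrix B.κ B.κ ℂ} (hb : AmpF P b) (ha : AmpF P a)
    {T : (B.κ → SPer (RI n)) → (B.κ → SPer (RI n))} (hT : TOff B T) {f g : M → ℂ} (hf : A.Sm f)
    (hg : A.Sm g) (hd : Disjoint (tsupport f) (tsupport g)) (s : ℕ) :
    ∃ C, 0 ≤ C ∧ ∀ u : Sec B, nS P B s (fmulL B hf (ExtFL B hb
      (fun j => T (LocF B a (fmulL B hg u).1 j)))) ≤ C * nS P B 0 u := by
  choose F G hF hG K V hK hKQ hV hKV hFK hGV using fun j : A.ι =>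
    exists_sep (P.χ_cpt j) (P.χ_sub j) (hf j) (hg j) hd
  choose C hC0 hC using fun j : A.ι => hT s (hK j) (hKQ j) (hV j) (hKV j) (hFK j) (hGV j)
  obtain ⟨C1, h10, h1⟩ := nS_ExtFL_le P hb s
  obtain ⟨C2, h20, h2⟩ := nF_le_of (A := A) (κ := B.κ) (κ' := B.κ) (s := 0) (t := s)
    (T := fun i v => sT (F i) (T (sT (G i) v))) fun i => ⟨C i, hC0 i, hC i⟩
  obtain ⟨C3, h30, h3⟩ := nF_LocF_le P ha 0
  refine ⟨C1 * (C2 * C3), by positivity, fun u => ?_⟩
  have e1 : LocF B a (fmulL B hg u).1 = fun j => sT (G j) (LocF B a u.1 j) := by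
    funext j
    exact loc_fmul B (ha.amp j) (hg j) (fun x hx => hG j x (ha.sub j hx)) (u.2.1 j)
  have e2 : fmulL B hf (ExtFL B hb (fun j => T (LocF B a (fmulL B hg u).1 j))) =
      ExtFL B hb (fun j => sT (F j) (T (sT (G j) (LocF B a u.1 j)))) := by
    refine Subtype.ext ?_
    rw [e1]
    exact (ExtF_sT B hb hF _).symm
  rw [e2]
  refine (h1 _).trans ?_
  rw [mul_assoc, mul_assoc]
  refine mul_le_mul_of_nonneg_left ((h2 _).trans ?_) h10
  exact mul_le_mul_of_nonneg_left (h3 u) h20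

variable (B)

/-- pseudolocality -/
def Psl (T : Sec B →ₗ[ℂ] Sec B) : Prop :=
  ∀ (f g : M → ℂ) (hf : A.Sm f) (hg : A.Sm g), Disjoint (tsupport f) (tsupport g) → ∀ s : ℕ,
    ∃ C, 0 ≤ C ∧ ∀ u : Sec B, nS P B s (fmulL B hf (T (fmulL B hg u))) ≤ C * nS P B 0 u

/-- bounded in every norm -/
def Bd0 (T : Sec B →ₗ[ℂ] Sec B) : Prop :=
  ∀ s : ℕ, ∃ C, 0 ≤ C ∧ ∀ u : Sec B, nS P B s (T u) ≤ C * nS P B s u

variable {P B}

theorem Bd0.comp {T T' : Sec B →ₗ[ℂ] Sec B} (h : Bd0 P B T) (h' : Bd0 P B T') :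
    Bd0 P B (T ∘ₗ T') := fun s => by
  obtain ⟨C, hC0, hC⟩ := h s
  obtain ⟨D, hD0, hD⟩ := h' s
  refine ⟨C * D, mul_nonneg hC0 hD0, fun u => (hC _).trans ?_⟩
  rw [mul_assoc]
  exact mul_le_mul_of_nonneg_left (hD u) hC0

theorem bd0_KML : Bd0 P B (KML B P) := fun s => by
  obtain ⟨C, hC0, hC⟩ := nS_KML_le P B s
  exact ⟨C, hC0, fun u => (nS_mono P B (by omega) _).trans (hC u)⟩

theorem bd0_RML : Bd0 P B (RML B P) := fun s => by
  obtain ⟨C, hC0, hC⟩ := nS_RML_le P B s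
  exact ⟨C, hC0, fun u => (nS_mono P B (by omega) _).trans (hC u)⟩

theorem bd0_fmulL {f : M → ℂ} (hf : A.Sm f) : Bd0 P B (fmulL B hf) := nS_fmulL_le P B hf

theorem Psl.add {T T' : Sec B →ₗ[ℂ] Sec B} (h : Psl P B T) (h' : Psl P B T') :
    Psl P B (T + T') := fun f g hf hg hd s => by
  obtain ⟨C, hC0, hC⟩ := h f g hf hg hd s
  obtain ⟨D, hD0, hD⟩ := h' f g hf hg hd s
  refine ⟨C + D, add_nonneg hC0 hD0, fun u => ?_⟩
  rw [LinearMap.add_apply, map_add, add_mul]
  exact (nS_add_le P B _ _ _).trans (add_le_add (hC u) (hD u))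

theorem Psl.sub {T T' : Sec B →ₗ[ℂ] Sec B} (h : Psl P B T) (h' : Psl P B T') :
    Psl P B (T - T') := fun f g hf hg hd s => by
  obtain ⟨C, hC0, hC⟩ := h f g hf hg hd s
  obtain ⟨D, hD0, hD⟩ := h' f g hf hg hd s
  refine ⟨C + D, add_nonneg hC0 hD0, fun u => ?_⟩
  rw [LinearMap.sub_apply, map_sub, add_mul]
  exact (nS_sub_le P B _ _ _).trans (add_le_add (hC u) (hD u))

/-- **pseudolocality of the parametrix** -/
theorem psl_KML : Psl P B (KML B P) := fun f g hf hg hd s =>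
  ext_off P (P.amp_chi B.κ) (P.amp_psi B.κ) (tOff_KT B) hf hg hd s

/-- **pseudolocality of the remainder** -/
theorem psl_RML : Psl P B (RML B P) := by
  have h1 : Psl P B (ExtFL B (P.amp_chi B.κ) ∘ₗ GTL ∘ₗ LocFL B (P.amp_psi B.κ)) :=
    fun f g hf hg hd s => ext_off P (P.amp_chi B.κ) (P.amp_psi B.κ) (tOff_GT B) hf hg hd s
  have h2 : Psl P B (ExtFL B (P.amp_chi B.κ).dE ∘ₗ KTL B.io ∘ₗ LocFL B (P.amp_psi B.κ)) :=
    fun f g hf hg hd s => ext_off P (P.amp_chi B.κ).dE (P.amp_psi B.κ) (tOff_KT B) hf hg hd s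
  have h3 : Psl P B (ExtFL B (P.amp_chi B.κ) ∘ₗ KTL B.io ∘ₗ LocFL B (P.amp_psi B.κ).dL) :=
    fun f g hf hg hd s => ext_off P (P.amp_chi B.κ) (P.amp_psi B.κ).dL (tOff_KT B) hf hg hd s
  exact Psl.add (Psl.sub h1 h2) h3

/-! ### cut-offs on `M` -/

theorem exists_cutM [T2Space M] [CompactSpace M] (A : Atl n M) {f : M → ℂ} {U : Set M}
    (hU : IsOpen U) (hfU : tsupport f ⊆ U) : ∃ h : M → ℂ, A.Sm h ∧ tsupport h ⊆ U ∧
      (∀ᶠ y in 𝓝ˢ (tsupport f), h y = 1) ∧ Disjoint (tsupport f) (tsupport fun x => 1 - h x) := by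
  obtain ⟨φ, h1, -, h2, h3, h4⟩ := QN2b734.exists_bump A (isClosed_tsupport f).isCompact hU hfU
  have e2 : ∀ᶠ y in 𝓝ˢ (tsupport f), ((φ y : ℝ) : ℂ) = 1 := by
    filter_upwards [h2] with y hy
    rw [hy, ofReal_one]
  refine ⟨fun x => ((φ x : ℝ) : ℂ), fun i => smAt_ofReal (QN2b734.sm_iff.2 h1 i), ?_, e2, ?_⟩
  · rw [tsupport_ofReal]; exact h4
  · rw [Set.disjoint_left]
    intro x hx hx'
    refine (notMem_tsupport_iff_eventuallyEq.2 ?_) hx'
    filter_upwards [eventually_nhdsSet_iff_forall.1 e2 x hx] with y hy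
    rw [hy, sub_self]
    rfl

theorem sm_sub {f g : M → ℂ} (hf : A.Sm f) (hg : A.Sm g) : A.Sm fun x => f x - g x := fun i =>
  (hf i).sub (hg i)

theorem sm_one : A.Sm fun _ : M => (1 : ℂ) := fun _ => contDiffOn_const

/-- splitting with a cut-off -/
theorem split {h : M → ℂ} (hh : A.Sm h) (u : Sec B) :
    u = fmulL B hh u + fmulL B (sm_sub sm_one hh) u := by
  refine Subtype.ext (funext fun i => funext fun x => ?_)
  show u.1 i x = h x • u.1 i x + (1 - h x) • u.1 i x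
  rw [← add_smul, add_sub_cancel, one_smul]

/-- **composition of pseudolocal operators** -/
theorem Psl.comp [T2Space M] [CompactSpace M] {T T' : Sec B →ₗ[ℂ] Sec B} (h : Psl P B T)
    (h' : Psl P B T') (hb : Bd0 P B T) (hb' : Bd0 P B T') : Psl P B (T ∘ₗ T') := by
  intro f g hf hg hd s
  obtain ⟨c, hc, hcU, hc1, hcd⟩ := exists_cutM A (isClosed_tsupport g).isOpen_compl
    (show tsupport f ⊆ (tsupport g)ᶜ from fun x hx hx' => Set.disjoint_left.1 hd hx hx')
  have hcg : Disjoint (tsupport c) (tsupport g) :=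
    Set.disjoint_left.2 fun x hx hx' => hcU hx hx'
  obtain ⟨C1, h10, h1⟩ := h' c g hc hg hcg s
  obtain ⟨C2, h20, h2⟩ := h f _ hf (sm_sub sm_one hc) hcd s
  obtain ⟨C3, h30, h3⟩ := bd0_fmulL (P := P) (B := B) hf s
  obtain ⟨C4, h40, h4⟩ := hb s
  obtain ⟨C5, h50, h5⟩ := hb' 0
  obtain ⟨C6, h60, h6⟩ := bd0_fmulL (P := P) (B := B) hg 0
  refine ⟨C3 * (C4 * C1) + C2 * (C5 * C6), by positivity, fun u => ?_⟩
  have e : fmulL B hf ((T ∘ₗ T') (fmulL B hg u)) =
      fmulL B hf (T (fmulL B hc (T' (fmulL B hg u)))) +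
      fmulL B hf (T (fmulL B (sm_sub sm_one hc) (T' (fmulL B hg u)))) := by
    rw [← map_add, ← map_add, ← split hc]
    rfl
  rw [e, add_mul]
  refine (nS_add_le P B _ _ _).trans (add_le_add ?_ ?_)
  · refine (h3 _).trans ?_
    rw [mul_assoc, mul_assoc]
    refine mul_le_mul_of_nonneg_left ((h4 _).trans ?_) h30
    exact mul_le_mul_of_nonneg_left (h1 u) h40
  · refine (h2 _).trans ?_
    rw [mul_assoc, mul_assoc]
    refine mul_le_mul_of_nonneg_left ((h5 _).trans ?_) h20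
    exact mul_le_mul_of_nonneg_left (h6 u) h50

/-! ### improvement of the convergence -/

variable (P B)

/-- the correction step `e ↦ e - ∇ K e` -/
def stp (e : Sec B) : Sec B := e - nabL B (KML B P e)

theorem stp_eq (e : Sec B) : stp P B e = KML B P (nabL B e) + RML B P e := by
  have h := LinearMap.congr_fun (nabL_KML B P) e
  simp only [LinearMap.add_apply, LinearMap.comp_apply, LinearMap.sub_apply,
    LinearMap.id_apply] at h
  unfold stp
  rw [sub_eq_iff_eq_add, add_assoc, add_comm (RML B P e), ← add_assoc,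
    add_comm (KML B P (nabL B e)), h]
  abel

theorem stp_iter (e : Sec B) (m : ℕ) : ∃ y : Sec B, (stp P B)^[m] e = e - nabL B y := by
  induction m with
  | zero => exact ⟨0, by simp⟩
  | succ m ih =>
    obtain ⟨y, hy⟩ := ih
    refine ⟨y + KML B P (e - nabL B y), ?_⟩
    rw [Function.iterate_succ_apply', hy]
    unfold stp
    rw [map_add, sub_sub]

variable {P B}

theorem nabL_stp_iter (h2 : ∀ u : Sec B, nabL B (nabL B u) = 0) (e : Sec B) (m : ℕ) :
    nabL B ((stp P B)^[m] e) = nabL B e := by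
  obtain ⟨y, hy⟩ := stp_iter P B e m
  rw [hy, map_sub, h2, sub_zero]

variable (P B)

/-- **improvement**: the corrected errors tend to zero in every norm over `U` -/
theorem improve_core [T2Space M] [CompactSpace M] (h2 : ∀ u : Sec B, nabL B (nabL B u) = 0)
    {U : Set M} (hU : IsOpen U) {e : ℕ → Sec B}
    (he : Tendsto (fun N => nS P B 0 (e N)) atTop (𝓝 0))
    (hn : Tendsto (fun N => nS P B 0 (nabL B (e N))) atTop (𝓝 0))
    (hnU : ∀ N i, ∀ x ∈ U, (nabL B (e N)).1 i x = 0) (m : ℕ) :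
    Tendsto (fun N => nS P B 0 ((stp P B)^[m] (e N))) atTop (𝓝 0) ∧
    ∀ {f : M → ℂ} (hf : A.Sm f), tsupport f ⊆ U →
      Tendsto (fun N => nS P B m (fmulL B hf ((stp P B)^[m] (e N)))) atTop (𝓝 0) := by
  induction m with
  | zero =>
    refine ⟨he, fun {f} hf hfU => ?_⟩
    obtain ⟨C, hC0, hC⟩ := nS_fmulL_le P B hf 0
    have h1 := he.const_mul C
    rw [mul_zero] at h1
    exact squeeze_zero (fun _ => nS_nonneg _ _ _ _) (fun N => hC _) h1
  | succ m ih =>
    obtain ⟨ih1, ih2⟩ := ih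
    have hstep : ∀ N, (stp P B)^[m + 1] (e N) =
        KML B P (nabL B (e N)) + RML B P ((stp P B)^[m] (e N)) := fun N => by
      rw [Function.iterate_succ_apply', stp_eq, nabL_stp_iter h2]
    constructor
    · obtain ⟨C, hC0, hC⟩ := nS_KML_le0 P B
      obtain ⟨D, hD0, hD⟩ := nS_RML_le0 P B
      have h1 := (hn.const_mul C).add (ih1.const_mul D)
      rw [mul_zero, mul_zero, add_zero] at h1
      refine squeeze_zero (fun _ => nS_nonneg _ _ _ _) (fun N => ?_) h1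
      rw [hstep]
      exact (nS_add_le P B _ _ _).trans (add_le_add (hC _) (hD _))
    · intro f hf hfU
      obtain ⟨c, hc, hcU, hc1, hcd⟩ := exists_cutM A hU hfU
      obtain ⟨C1, h10, h1⟩ := psl_KML (P := P) (B := B) f _ hf (sm_sub sm_one hc) hcd (m + 1)
      obtain ⟨C2, h20, h2'⟩ := psl_RML (P := P) (B := B) f _ hf (sm_sub sm_one hc) hcd (m + 1)
      obtain ⟨C3, h30, h3⟩ := nS_fmulL_le P B hf (m + 1)
      obtain ⟨C4, h40, h4⟩ := nS_RML_le P B m
      have h5 := ((hn.const_mul C1).add ((ih2 hc hcU).const_mul (C3 * C4))).add (ih1.const_mul C2)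
      rw [mul_zero, mul_zero, mul_zero, add_zero, add_zero] at h5
      refine squeeze_zero (fun _ => nS_nonneg _ _ _ _) (fun N => ?_) h5
      have e1 : fmulL B (sm_sub sm_one hc) (nabL B (e N)) = nabL B (e N) := by
        refine Subtype.ext (funext fun i => funext fun x => ?_)
        show (1 - c x) • (nabL B (e N)).1 i x = (nabL B (e N)).1 i x
        by_cases hx : x ∈ tsupport c
        · rw [hnU N i x (hcU hx), smul_zero]
        · rw [image_eq_zero_of_notMem_tsupport hx, sub_zero, one_smul]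
      have e2 : fmulL B hf ((stp P B)^[m + 1] (e N)) =
          fmulL B hf (KML B P (fmulL B (sm_sub sm_one hc) (nabL B (e N)))) +
          fmulL B hf (RML B P (fmulL B hc ((stp P B)^[m] (e N)))) +
          fmulL B hf (RML B P (fmulL B (sm_sub sm_one hc) ((stp P B)^[m] (e N)))) := by
        rw [e1, hstep, map_add, add_assoc, ← map_add (fmulL B hf) (RML B P _) _,
          ← map_add (RML B P), ← split hc]
      rw [e2]
      refine (nS_add_le P B _ _ _).trans (add_le_add ((nS_add_le P B _ _ _).trans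
        (add_le_add (h1 _) ?_)) (h2' _))
      refine (h3 _).trans ?_
      rw [mul_assoc]
      exact mul_le_mul_of_nonneg_left (h4 _) h30

/-- **IMPROVE** -/
theorem improve [T2Space M] [CompactSpace M] (h2 : ∀ u : Sec B, nabL B (nabL B u) = 0)
    {U : Set M} (hU : IsOpen U) {c y : ℕ → Sec B} {w : Sec B} (hw : nabL B w = 0)
    (he : Tendsto (fun N => nS P B 0 (c N - w - nabL B (y N))) atTop (𝓝 0))
    (hn : Tendsto (fun N => nS P B 0 (nabL B (c N))) atTop (𝓝 0))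
    (hnU : ∀ N i, ∀ x ∈ U, (nabL B (c N)).1 i x = 0) (s : ℕ) :
    ∃ y' : ℕ → Sec B, ∀ {f : M → ℂ} (hf : A.Sm f), tsupport f ⊆ U →
      Tendsto (fun N => nS P B s (fmulL B hf (c N - w - nabL B (y' N)))) atTop (𝓝 0) := by
  have hne : ∀ N, nabL B (c N - w - nabL B (y N)) = nabL B (c N) := fun N => by
    rw [map_sub, map_sub, hw, h2, sub_zero, sub_zero]
  have h1 := improve_core P B h2 hU (e := fun N => c N - w - nabL B (y N)) he
    (by simpa only [hne] using hn) (fun N i x hx => by rw [hne]; exact hnU N i x hx) s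
  choose z hz using fun N => stp_iter P B (c N - w - nabL B (y N)) s
  refine ⟨fun N => y N + z N, fun {f} hf hfU => ?_⟩
  refine (h1.2 hf hfU).congr fun N => ?_
  rw [hz, map_add, sub_sub]

/-- **functionals living over `U` and killing exact sections** -/
theorem functional_limit [T2Space M] [CompactSpace M] (h2 : ∀ u : Sec B, nabL B (nabL B u) = 0)
    {U : Set M} (hU : IsOpen U) {c y : ℕ → Sec B} {w : Sec B} (hw : nabL B w = 0)
    (he : Tendsto (fun N => nS P B 0 (c N - w - nabL B (y N))) atTop (𝓝 0))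
    (hn : Tendsto (fun N => nS P B 0 (nabL B (c N))) atTop (𝓝 0))
    (hnU : ∀ N i, ∀ x ∈ U, (nabL B (c N)).1 i x = 0) {s : ℕ} (T : Sec B →ₗ[ℂ] ℂ)
    {f : M → ℂ} (hf : A.Sm f) (hfU : tsupport f ⊆ U) {C : ℝ}
    (hT : ∀ u, ‖T u‖ ≤ C * nS P B s (fmulL B hf u)) (hT0 : ∀ u, T (nabL B u) = 0) :
    Tendsto (fun N => T (c N)) atTop (𝓝 (T w)) := by
  obtain ⟨y', hy'⟩ := improve P B h2 hU hw he hn hnU s
  rw [tendsto_iff_norm_sub_tendsto_zero]
  have h1 := (hy' hf hfU).const_mul C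
  rw [mul_zero] at h1
  refine squeeze_zero (fun _ => norm_nonneg _) (fun N => ?_) h1
  have e : T (c N) - T w = T (c N - w - nabL B (y' N)) := by
    rw [map_sub, map_sub, hT0, sub_zero]
  rw [e]
  exact hT _

end

end

end Crest.Agent.R273.Psl_774
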