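import Crest.Agent.R273.FPB_155
import Crest.Agent.R273.GamR_155
import Crest.Agent.R273.LamN_127

/-!
# R273 (S0416), (helper155): pull-back of `(0,q)`-forms with values in line bundles

`Jpb A B p i j x` : the matrix `(conj Jp)ᵀ`;
`lamPB hp`        : `FPB U p (lamN A) (lamN B)`, `T i j x = GamR (Jpb i j x)`;
`PBU U p L' L`    : isomorphism `L'|_U ≅ p^* L`; `PBU.of_PB`, `one`, `mul`, `inv`, `pow`;
`bnPB hp T`       : `FPB U p (BN L') (BN L)`.
-/

set_option autoImplicit false
set_option linter.unusedSectionVars false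

open Set Filter Topology Complex
open scoped ContDiff Matrix ComplexConjugate Kronecker

namespace Crest.Agent.R273.PullF_155

open Crest.Agent.R275 Crest.Agent.R275.Geo Crest.Agent.R275.Core144 Crest.Agent.R275.Lam2130
open Crest.Agent.R273.Map_835 Crest.Agent.R273.PB_835 Crest.Agent.R273.FPB_155
open Crest.Agent.R273.GamR_155 Crest.Agent.R273.Fock_243 Crest.Agent.R273.Calc_243
open Crest.Agent.R273.LamN127

noncomputable section

variable {n m k : ℕ} {M N P : Type} [TopologicalSpace M] [TopologicalSpace N] [TopologicalSpace P]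
  {A : Atl n M} {B : Atl m N} {C : Atl k P} {p : M → N} {q : N → P} {U : Set M} {V : Set N}

/-! ### calculus with rectangular `GamR` -/

theorem SmM.GamR {z : Cn n} {r s : ℕ} {w : Cn n → Matrix (Fin r) (Fin s) ℂ} (hm : SmM z w) :
    SmM z (fun y => GamR (w y)) := by
  intro S T
  by_cases h : S.card = T.card
  · have h1 : (fun y => GamR_155.GamR (w y) S T) = fun y =>
        ((w y).submatrix (S.orderEmbOfFin rfl) (T.orderEmbOfFin h.symm)).det := by
      funext y; exact GamR_eq _ _ _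
    rw [h1]
    exact SmM.det fun i j => hm _ _
  · have h1 : (fun y => GamR_155.GamR (w y) S T) = fun _ => 0 := by
      funext y; exact GamR_of_ne _ h
    rw [h1]
    exact contDiffAt_const

theorem contDiffOn_GamR {r s : ℕ} {w : Cn n → Matrix (Fin r) (Fin s) ℂ} {O : Set (Cn n)}
    (hm : ∀ a b, ContDiffOn ℝ ∞ (fun y => w y a b) O) (S : FI r) (T : FI s) :
    ContDiffOn ℝ ∞ (fun y => GamR (w y) S T) O := by
  by_cases h : S.card = T.card
  · have h1 : (fun y => GamR (w y) S T) = fun y =>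
        ((w y).submatrix (S.orderEmbOfFin rfl) (T.orderEmbOfFin h.symm)).det := by
      funext y; exact GamR_eq _ _ _
    rw [h1]
    simp only [Matrix.det_apply']
    exact ContDiffOn.sum fun σ _ => contDiffOn_const.mul (contDiffOn_prod fun i _ => hm _ _)
  · have h1 : (fun y => GamR (w y) S T) = fun _ => 0 := by
      funext y; exact GamR_of_ne _ h
    rw [h1]
    exact contDiffOn_const

/-- derivative of the functor `GamR` -/
theorem dM_GamR_eW {r t : ℕ} {s : ℂ} {a : Fin n} {w : Cn n → Matrix (Fin r) (Fin t) ℂ} {z : Cn n}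
    (hm : SmM z w) (j : Fin t) :
    dM s a (fun y => GamR (w y)) z * (eW (ep j) : Matrix (FI t) (FI t) ℂ)
      = (eW (fun b => dM s a w z b j) : Matrix (FI r) (FI r) ℂ) * GamR (w z)
        + (eW (fun b => w z b j) : Matrix (FI r) (FI r) ℂ) * dM s a (fun y => GamR (w y)) z := by
  rw [← dM_mul_const _ (fun S T => (SmM.GamR hm S T).diff)]
  have h1 : (fun y => GamR (w y) * (eW (ep j) : Matrix (FI t) (FI t) ℂ)) =
      fun y => (eW (fun b => w y b j) : Matrix (FI r) (FI r) ℂ) * GamR (w y) := by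
    funext y; exact GamR_eW_ep _ _
  have h2 : SmM z (fun y => (eW (fun b => w y b j) : Matrix (FI r) (FI r) ℂ)) := by
    intro S T
    have h3 : (fun y => (eW (fun b => w y b j) : Matrix (FI r) (FI r) ℂ) S T)
        = fun y => ∑ b, w y b j * (eW (ep b) : Matrix (FI r) (FI r) ℂ) S T := by
      funext y
      rw [eW_eq_sum, Matrix.sum_apply]
      rfl
    rw [h3]
    exact ContDiffAt.sum fun b _ => (hm b j).mul contDiffAt_const
  have h4 : dM s a (fun y => (eW (fun b => w y b j) : Matrix (FI r) (FI r) ℂ)) z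
      = eW (fun b => dM s a w z b j) := by
    have h5 : (fun y => (eW (fun b => w y b j) : Matrix (FI r) (FI r) ℂ))
        = fun y => ∑ b, w y b j • eW (ep b) := by
      funext y; exact eW_eq_sum _
    rw [h5, eW_eq_sum (fun b => dM s a w z b j)]
    ext S T
    have h6 : (fun y => (∑ b, w y b j • eW (ep b) : Matrix (FI r) (FI r) ℂ) S T)
        = fun y => ∑ b, w y b j * (eW (ep b) : Matrix (FI r) (FI r) ℂ) S T := by
      funext y
      rw [Matrix.sum_apply]
      rfl
    show dS s a (fun y => (∑ b, w y b j • eW (ep b) : Matrix (FI r) (FI r) ℂ) S T) z = _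
    rw [h6, dS_sum _ fun b _ => ((hm b j).diff).mul_const _, Matrix.sum_apply]
    refine Finset.sum_congr rfl fun b _ => ?_
    rw [dS_mul (hm b j).diff (differentiableAt_const _), dS_const, mul_zero, add_zero]
    rfl
  rw [h1, dM_mul (fun S T => (h2 S T).diff) (fun S T => (SmM.GamR hm S T).diff), h4]

theorem dM_GamR_vac {r t : ℕ} {s : ℂ} {a : Fin n} {w : Cn n → Matrix (Fin r) (Fin t) ℂ}
    {z : Cn n} (S : FI r) : dM s a (fun y => GamR (w y)) z S ∅ = 0 := by
  show dS s a (fun y => GamR (w y) S ∅) z = 0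
  simp only [GamR_vac]
  exact dS_const

/-! ### the Jacobian acting on `(0,1)`-forms -/

/-- `(conj Jp)ᵀ` -/
def Jpb (A : Atl n M) (B : Atl m N) (p : M → N) (i : A.ι) (j : B.ι) (x : M) :
    Matrix (Fin n) (Fin m) ℂ := ((Jp A B p i j x).map conj)ᵀ

@[simp] theorem Jpb_apply (i : A.ι) (j : B.ι) (x : M) (a : Fin n) (b : Fin m) :
    Jpb A B p i j x a b = conj (Jp A B p i j x b a) := rfl

/-- the entries of the Jacobian are holomorphic -/
theorem _root_.Crest.Agent.R273.FPB_155.HolOn.hol_Jp (h : HolOn A B U p) (i : A.ι) (j : B.ι) (b : Fin m) (a : Fin n) :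
    DifferentiableOn ℂ (fun z => Jp A B p i j ((A.e i).symm z) b a) (dmU A B U p i j) := by
  have ho := h.isOpen_dm i j
  have h1 : DifferentiableOn ℂ (fderiv ℂ (Map_835.rd A B p i j)) (dmU A B U p i j) :=
    ((Crest.Agent.R266.SCV.analyticOnNhd_of_differentiableOn ho (h.hol i j)).fderiv).differentiableOn
  have h3 : DifferentiableOn ℂ (fun z => (fderiv ℂ (Map_835.rd A B p i j) z
      (EuclideanSpace.single a 1))) (dmU A B U p i j) := h1.clm_apply (differentiableOn_const _)
  have h2 := ((EuclideanSpace.proj b : Cn m →L[ℂ] ℂ).differentiable).comp_differentiableOn h3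
  refine DifferentiableOn.congr h2 fun z hz => ?_
  simp only [Jp, Matrix.of_apply, (A.e i).right_inv hz.1]
  rfl

theorem _root_.Crest.Agent.R273.FPB_155.HolOn.smooth_Jpb (h : HolOn A B U p) (i : A.ι) (j : B.ι) (a : Fin n) (b : Fin m) :
    ContDiffOn ℝ ∞ (fun z => Jpb A B p i j ((A.e i).symm z) a b) (dmU A B U p i j) :=
  conjCLE.contDiff.comp_contDiffOn (smooth_of_holo (h.isOpen_dm i j) (h.hol_Jp i j b a))

/-- second derivatives of `p` are symmetric -/
theorem _root_.Crest.Agent.R273.FPB_155.HolOn.db_Jpb_symm (h : HolOn A B U p) {i : A.ι} {j : B.ι} {x : M}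
    (hx : x ∈ (A.e i).source) (hU : x ∈ U) (hj : p x ∈ (B.e j).source) (c a : Fin n)
    (b : Fin m) : A.db i c (fun y => Jpb A B p i j y a b) x =
      A.db i a (fun y => Jpb A B p i j y c b) x := by
  have hz := mem_dmU (A := A) (B := B) (p := p) hx hU hj
  have ho := h.isOpen_dm i j
  have hz' := ho.mem_nhds hz
  have hd : ∀ a, DifferentiableAt ℂ (fun z => Jp A B p i j ((A.e i).symm z) b a) (A.e i x) :=
    fun a => (h.hol_Jp i j b a).differentiableAt hz'
  have h1 : ∀ c a, A.db i c (fun y => Jpb A B p i j y a b) x =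
      conj ((fderiv ℂ (fun z => Jp A B p i j ((A.e i).symm z) b a) (A.e i x))
        (EuclideanSpace.single c 1)) := fun c a => dbj_conj_holo (hd a) c
  rw [h1, h1]
  congr 1
  have han := Crest.Agent.R266.SCV.analyticOnNhd_of_differentiableOn ho (h.hol i j)
  have key : ∀ a c : Fin n, (fderiv ℂ (fun z => Jp A B p i j ((A.e i).symm z) b a) (A.e i x))
        (EuclideanSpace.single c 1) =
      (fderiv ℂ (fderiv ℂ (Map_835.rd A B p i j)) (A.e i x)
        (EuclideanSpace.single c 1) (EuclideanSpace.single a 1)) b := by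
    intro a c
    have hev : (fun z => Jp A B p i j ((A.e i).symm z) b a) =ᶠ[𝓝 (A.e i x)]
        fun z => (EuclideanSpace.proj (𝕜 := ℂ) b)
          (fderiv ℂ (Map_835.rd A B p i j) z (EuclideanSpace.single a 1)) := by
      filter_upwards [hz'] with z hz
      simp only [Jp, Matrix.of_apply, (A.e i).right_inv hz.1]
      rfl
    have h1 : HasFDerivAt (fderiv ℂ (Map_835.rd A B p i j))
        (fderiv ℂ (fderiv ℂ (Map_835.rd A B p i j)) (A.e i x)) (A.e i x) :=
      ((han _ hz).fderiv.differentiableAt).hasFDerivAt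
    have h2 := (EuclideanSpace.proj (𝕜 := ℂ) b).hasFDerivAt.comp (A.e i x)
      (h1.clm_apply (hasFDerivAt_const (EuclideanSpace.single a (1 : ℂ)) (A.e i x)))
    rw [hev.fderiv_eq]
    have h3 := h2.fderiv
    simp only [Function.comp_def] at h3
    rw [h3]
    simp
  rw [key, key]
  have hs : IsSymmSndFDerivAt ℂ (Map_835.rd A B p i j) (A.e i x) := by
    refine (han _ hz).contDiffAt (n := ω) |>.isSymmSndFDerivAt ?_
    simp
  rw [hs.eq]

theorem _root_.Crest.Agent.R273.FPB_155.HolOn.Jb_Jpb (h : HolOn A B U p) {i i' : A.ι} {j : B.ι} {x : M}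
    (hx : x ∈ (A.e i).source ∩ (A.e i').source) (hU : x ∈ U) (hj : p x ∈ (B.e j).source) :
    Jb A i i' x * Jpb A B p i' j x = Jpb A B p i j x := by
  have h1 : Jp A B p i' j x * Core144.Jm A i i' x = Jp A B p i j x := by
    rw [Jp_eq, Jm_eq, ← mt_comp, Jp_eq]
    congr 1
    have h1 : DifferentiableAt ℂ (fun z => A.e i' ((A.e i).symm z)) (A.e i x) :=
      (A.holo i i').differentiableAt ((isOpen_ov (A := A) i i').mem_nhds (mem_ov hx))
    have hval : A.e i' ((A.e i).symm (A.e i x)) = A.e i' x := by rw [(A.e i).left_inv hx.1]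
    have h2 : DifferentiableAt ℂ (Map_835.rd A B p i' j) (A.e i' ((A.e i).symm (A.e i x))) := by
      rw [hval]
      exact h.diffAt (mem_dmU hx.2 hU hj)
    have he : Map_835.rd A B p i j =ᶠ[𝓝 (A.e i x)] (Map_835.rd A B p i' j) ∘ (fun z => A.e i' ((A.e i).symm z)) := by
      filter_upwards [(isOpen_ov (A := A) i i').mem_nhds (mem_ov hx)] with z hz
      simp only [Map_835.rd, Function.comp]
      rw [(A.e i').left_inv hz.2]
    have h3 := fderiv_comp (A.e i x) (g := Map_835.rd A B p i' j)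
      (f := fun z => A.e i' ((A.e i).symm z)) h2 h1
    rw [he.fderiv_eq, h3, hval]
  unfold Jb Jpb
  rw [← Matrix.transpose_mul, ← Matrix.map_mul, ← h1]
  rfl

theorem _root_.Crest.Agent.R273.FPB_155.HolOn.Jpb_Jb (h : HolOn A B U p) {i : A.ι} {j j' : B.ι} {x : M}
    (hx : x ∈ (A.e i).source) (hU : x ∈ U) (hj : p x ∈ (B.e j).source ∩ (B.e j').source) :
    Jpb A B p i j x * Jb B j j' (p x) = Jpb A B p i j' x := by
  have h1 : Core144.Jm B j j' (p x) * Jp A B p i j x = Jp A B p i j' x := by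
    rw [Jp_eq, Jm_eq, ← mt_comp, Jp_eq]
    congr 1
    have hval : Map_835.rd A B p i j (A.e i x) = B.e j (p x) := by
      simp only [Map_835.rd]
      rw [(A.e i).left_inv hx]
    have h1 : DifferentiableAt ℂ (fun z => B.e j' ((B.e j).symm z)) (Map_835.rd A B p i j (A.e i x)) := by
      rw [hval]
      exact (B.holo j j').differentiableAt ((isOpen_ov (A := B) j j').mem_nhds (mem_ov hj))
    have h2 : DifferentiableAt ℂ (Map_835.rd A B p i j) (A.e i x) := h.diffAt (mem_dmU hx hU hj.1)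
    have he : Map_835.rd A B p i j' =ᶠ[𝓝 (A.e i x)] (fun z => B.e j' ((B.e j).symm z)) ∘ (Map_835.rd A B p i j) := by
      filter_upwards [(h.isOpen_dm i j).mem_nhds (mem_dmU hx hU hj.1)] with z hz
      simp only [Map_835.rd, Function.comp]
      rw [(B.e j).left_inv hz.2.2]
    rw [he.fderiv_eq, fderiv_comp _ h1 h2, hval]
  unfold Jb Jpb
  rw [← Matrix.transpose_mul, ← Matrix.map_mul, ← h1]
  rfl

/-- `Jpb` of a composition -/
theorem _root_.Crest.Agent.R273.FPB_155.HolOn.Jpb_comp (hq : HolOn B C V q) (hp : HolOn A B U p) (hm : MapsTo p U V)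
    {i : A.ι} {j : B.ι} {l : C.ι} {x : M} (hx : x ∈ (A.e i).source) (hU : x ∈ U)
    (hj : p x ∈ (B.e j).source) (hl : q (p x) ∈ (C.e l).source) :
    Jpb A B p i j x * Jpb B C q j l (p x) = Jpb A C (fun x => q (p x)) i l x := by
  unfold Jpb
  rw [← Matrix.transpose_mul, ← Matrix.map_mul, hq.Jp_comp hp hm hx hU hj hl]

theorem GamR_deg {r s : ℕ} {w : Matrix (Fin r) (Fin s) ℂ} {S : FI r} {T : FI s}
    (h : GamR w S T ≠ 0) : S.card = T.card := by
  by_contra h1
  exact h (GamR_of_ne _ h1)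

theorem lam_symb (i : A.ι) (j : B.ι) (x : M) (b : Fin m) :
    ∑ a, conj (Jp A B p i j x b a) • ((eW (ep a) : Matrix (FI n) (FI n) ℂ) *
      GamR (Jpb A B p i j x)) = GamR (Jpb A B p i j x) * (eW (ep b) : Matrix (FI m) (FI m) ℂ) := by
  rw [GamR_eW_ep, eW_eq_sum, Matrix.sum_mul]
  refine Finset.sum_congr rfl fun a _ => ?_
  rw [Matrix.smul_mul]
  rfl

theorem _root_.Crest.Agent.R273.FPB_155.HolOn.lam_conn (hp : HolOn A B U p) {i : A.ι} {j : B.ι} {x : M}
    (hx : x ∈ (A.e i).source) (hU : x ∈ U) (hj : p x ∈ (B.e j).source) :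
    ∑ a, (eW (ep a) : Matrix (FI n) (FI n) ℂ) *
      Matrix.of (fun k l => A.db i a (fun y => GamR (Jpb A B p i j y) k l) x) = 0 := by
  have hz' := (hp.isOpen_dm i j).mem_nhds (mem_dmU (A := A) (B := B) (p := p) hx hU hj)
  have hsm : SmM (A.e i x) (fun w => Jpb A B p i j ((A.e i).symm w)) := fun a b =>
    (hp.smooth_Jpb i j a b).contDiffAt hz'
  exact kahler_eR (A := Jpb A B p i j x)
    (fun c => dM I c (fun w => Jpb A B p i j ((A.e i).symm w)) (A.e i x))
    (fun c => dM I c (fun w => GamR (Jpb A B p i j ((A.e i).symm w))) (A.e i x))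
    (fun c b => by
      have h := dM_GamR_eW (s := I) (a := c) hsm b
      rw [(A.e i).left_inv hx] at h
      exact h) (fun c S => dM_GamR_vac S)
    (fun c a b => hp.db_Jpb_symm hx hU hj c a b)

/-- pull-back of `(0,*)`-forms -/
def lamPB (hp : HolOn A B U p) : FPB U p (lamN A) (lamN B) where
  T i j x := GamR (Jpb A B p i j x)
  sm i j k l := contDiffOn_GamR (fun a b => hp.smooth_Jpb i j a b) k l
  left i i' j x hx hU hj := by
    show Gam (Jb A i i' x) * GamR (Jpb A B p i' j x) = GamR (Jpb A B p i j x)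
    rw [← GamR_eq_Gam, ← GamR_mul, hp.Jb_Jpb hx hU hj]
  right i j j' x hx hU hj := by
    show GamR (Jpb A B p i j x) * Gam (Jb B j j' (p x)) = GamR (Jpb A B p i j' x)
    rw [← GamR_eq_Gam, ← GamR_mul, hp.Jpb_Jb hx hU hj]
  symb i j x _ _ _ b := lam_symb i j x b
  conn i j x hx hU hj := by
    show (∑ a, (eW (ep a) : Matrix (FI n) (FI n) ℂ) *
      Matrix.of (fun k l => A.db i a (fun y => GamR (Jpb A B p i j y) k l) x)) +
      (0 : Matrix (FI n) (FI n) ℂ) * GamR (Jpb A B p i j x) =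
        GamR (Jpb A B p i j x) * (0 : Matrix (FI m) (FI m) ℂ)
    rw [hp.lam_conn hx hU hj, Matrix.zero_mul, Matrix.mul_zero, add_zero]
  deg i j x k l h := GamR_deg h

/-! ### line bundles over an open set -/

/-- isomorphism `L'|_U ≅ p^* L` -/
structure PBU (U : Set M) (p : M → N) (L' : LB A) (L : LB B) where
  c : A.ι → B.ι → M → ℂ
  hol : ∀ i j, HolAt A i (U ∩ p ⁻¹' (B.e j).source) (c i j)
  ne : ∀ i j, ∀ x ∈ (A.e i).source, x ∈ U → p x ∈ (B.e j).source → c i j x ≠ 0
  left : ∀ i i' j, ∀ x ∈ (A.e i).source ∩ (A.e i').source, x ∈ U → p x ∈ (B.e j).source →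
    L'.g i i' x * c i' j x = c i j x
  right : ∀ i j j', ∀ x ∈ (A.e i).source, x ∈ U → p x ∈ (B.e j).source ∩ (B.e j').source →
    c i j x * L.g j j' (p x) = c i j' x

namespace PBU

variable {L' K' : LB A} {L K : LB B}

/-- a global isomorphism restricts -/
def of_PB (T : PB p L' L) (U : Set M) : PBU U p L' L where
  c := T.c
  hol i j := (T.hol i j).mono fun _ hy => hy.2
  ne i j x hx _ hj := T.ne i j x hx hj
  left i i' j x hx _ hj := T.left i i' j x hx hj
  right i j j' x hx _ hj := T.right i j j' x hx hj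

/-- trivial bundles -/
def one (U : Set M) (p : M → N) : PBU U p (1 : LB A) (1 : LB B) := of_PB (PB.one p) U

def mul (T : PBU U p L' L) (S : PBU U p K' K) : PBU U p (L' * K') (L * K) where
  c i j x := T.c i j x * S.c i j x
  hol i j := (T.hol i j).mul (S.hol i j)
  ne i j x hx hU hj := mul_ne_zero (T.ne i j x hx hU hj) (S.ne i j x hx hU hj)
  left i i' j x hx hU hj := by
    rw [← T.left i i' j x hx hU hj, ← S.left i i' j x hx hU hj, LB.mul_g]; ring
  right i j j' x hx hU hj := by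
    rw [← T.right i j j' x hx hU hj, ← S.right i j j' x hx hU hj, LB.mul_g]; ring

def inv (T : PBU U p L' L) : PBU U p L'⁻¹ L⁻¹ where
  c i j x := (T.c i j x)⁻¹
  hol i j := (T.hol i j).inv fun x hx hU => T.ne i j x hx hU.1 hU.2
  ne i j x hx hU hj := inv_ne_zero (T.ne i j x hx hU hj)
  left i i' j x hx hU hj := by
    rw [← T.left i i' j x hx hU hj, LB.inv_g, mul_inv]
  right i j j' x hx hU hj := by
    rw [← T.right i j j' x hx hU hj, LB.inv_g, mul_inv]

def pow (T : PBU U p L' L) (r : ℕ) : PBU U p (L' ^ r) (L ^ r) where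
  c i j x := T.c i j x ^ r
  hol i j := (T.hol i j).pow r
  ne i j x hx hU hj := pow_ne_zero r (T.ne i j x hx hU hj)
  left i i' j x hx hU hj := by
    rw [← T.left i i' j x hx hU hj, Crest.Agent.R273.HM_333.LB_pow_g, mul_pow]
  right i j j' x hx hU hj := by
    rw [← T.right i j j' x hx hU hj, Crest.Agent.R273.HM_333.LB_pow_g, mul_pow]

end PBU

/-- the `1 × 1` matrix -/
def cU (c : ℂ) : Matrix Unit Unit ℂ := Matrix.of fun _ _ => c

theorem cU_mul (a b : ℂ) : cU a * cU b = cU (a * b) := by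
  ext k l
  rw [Matrix.mul_apply]
  simp [cU]

theorem kU_mul {r s t : Type} [Fintype r] [Fintype s] [Fintype t] (X : Matrix r s ℂ)
    (Y : Matrix s t ℂ) (a b : ℂ) :
    (X ⊗ₖ cU a : Matrix (r × Unit) (s × Unit) ℂ) * (Y ⊗ₖ cU b : Matrix (s × Unit) (t × Unit) ℂ)
      = ((X * Y) ⊗ₖ cU (a * b) : Matrix (r × Unit) (t × Unit) ℂ) := by
  rw [← Matrix.mul_kronecker_mul, cU_mul]

theorem cU_one : cU 1 = 1 := by
  ext k l
  simp [cU]

/-- pull-back of `(0,*)`-forms with values in line bundles -/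
def bnPB (hp : HolOn A B U p) {L' : LB A} {L : LB B} (T : PBU U p L' L) :
    FPB U p (BN L') (BN L) where
  T i j x := (GamR (Jpb A B p i j x) ⊗ₖ cU (T.c i j x) : Matrix (FI n × Unit) (FI m × Unit) ℂ)
  sm := by
    rintro i j ⟨k, r⟩ ⟨l, s⟩
    exact ((lamPB hp).sm i j k l).mul ((T.hol i j).contDiffOn (hp.isOpen_pre (B.e j).open_source))
  left i i' j x hx hU hj := by
    show (Gam (Jb A i i' x) ⊗ₖ cU (L'.g i i' x) : Matrix (FI n × Unit) (FI n × Unit) ℂ) *
      (GamR (Jpb A B p i' j x) ⊗ₖ cU (T.c i' j x) : Matrix (FI n × Unit) (FI m × Unit) ℂ) =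
      (GamR (Jpb A B p i j x) ⊗ₖ cU (T.c i j x) : Matrix (FI n × Unit) (FI m × Unit) ℂ)
    rw [kU_mul, T.left i i' j x hx hU hj, ← GamR_eq_Gam, ← GamR_mul, hp.Jb_Jpb hx hU hj]
  right i j j' x hx hU hj := by
    show (GamR (Jpb A B p i j x) ⊗ₖ cU (T.c i j x) : Matrix (FI n × Unit) (FI m × Unit) ℂ) *
      (Gam (Jb B j j' (p x)) ⊗ₖ cU (L.g j j' (p x)) : Matrix (FI m × Unit) (FI m × Unit) ℂ) =
      (GamR (Jpb A B p i j' x) ⊗ₖ cU (T.c i j' x) : Matrix (FI n × Unit) (FI m × Unit) ℂ)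
    rw [kU_mul, T.right i j j' x hx hU hj, ← GamR_eq_Gam, ← GamR_mul, hp.Jpb_Jb hx hU hj]
  symb i j x hx hU hj b := by
    have h1 := lam_symb (A := A) (B := B) (p := p) i j x b
    show ∑ a, conj (Jp A B p i j x b a) •
      ((eW (ep a) ⊗ₖ (1 : Matrix Unit Unit ℂ) : Matrix (FI n × Unit) (FI n × Unit) ℂ) *
      (GamR (Jpb A B p i j x) ⊗ₖ cU (T.c i j x) : Matrix (FI n × Unit) (FI m × Unit) ℂ)) =
      (GamR (Jpb A B p i j x) ⊗ₖ cU (T.c i j x) : Matrix (FI n × Unit) (FI m × Unit) ℂ) *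
        (eW (ep b) ⊗ₖ (1 : Matrix Unit Unit ℂ) : Matrix (FI m × Unit) (FI m × Unit) ℂ)
    rw [← cU_one, kU_mul, ← h1, mul_one]
    have h2 : ∀ X : Fin n → Matrix (FI n) (FI m) ℂ,
        ((∑ a, X a) ⊗ₖ cU (T.c i j x) : Matrix (FI n × Unit) (FI m × Unit) ℂ) =
          ∑ a, (X a ⊗ₖ cU (T.c i j x) : Matrix (FI n × Unit) (FI m × Unit) ℂ) := by
      intro X
      ext ⟨a, r⟩ ⟨b, s⟩
      simp only [Matrix.kroneckerMap_apply, Matrix.sum_apply, Finset.sum_mul]
    rw [h2]
    refine Finset.sum_congr rfl fun a _ => ?_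
    rw [kU_mul, one_mul, Matrix.smul_kronecker]
  conn i j x hx hU hj := by
    rw [BN_α L' i x hx, BN_α L j _ hj]
    show (∑ a, (eW (ep a) ⊗ₖ (1 : Matrix Unit Unit ℂ) : Matrix (FI n × Unit) (FI n × Unit) ℂ) *
      (Matrix.of (fun k l => A.db i a (fun y =>
        (GamR (Jpb A B p i j y) ⊗ₖ cU (T.c i j y) : Matrix (FI n × Unit) (FI m × Unit) ℂ) k l) x)
        : Matrix (FI n × Unit) (FI m × Unit) ℂ)) +
      (0 : Matrix (FI n × Unit) (FI n × Unit) ℂ) *
        (GamR (Jpb A B p i j x) ⊗ₖ cU (T.c i j x) : Matrix (FI n × Unit) (FI m × Unit) ℂ)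
      = (GamR (Jpb A B p i j x) ⊗ₖ cU (T.c i j x) : Matrix (FI n × Unit) (FI m × Unit) ℂ) *
        (0 : Matrix (FI m × Unit) (FI m × Unit) ℂ)
    rw [Matrix.zero_mul, Matrix.mul_zero, add_zero]
    have hz' := (hp.isOpen_dm i j).mem_nhds (mem_dmU (A := A) (B := B) (p := p) hx hU hj)
    have key : ∀ a, (Matrix.of (fun k l => A.db i a (fun y =>
        (GamR (Jpb A B p i j y) ⊗ₖ cU (T.c i j y) : Matrix (FI n × Unit) (FI m × Unit) ℂ) k l) x)
        : Matrix (FI n × Unit) (FI m × Unit) ℂ)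
        = (Matrix.of (fun k l => A.db i a (fun y => GamR (Jpb A B p i j y) k l) x) ⊗ₖ
          cU (T.c i j x) : Matrix (FI n × Unit) (FI m × Unit) ℂ) := by
      intro a
      ext ⟨k, r⟩ ⟨l, s⟩
      simp only [Matrix.of_apply, Matrix.kroneckerMap_apply]
      have h0 : A.db i a (fun y => T.c i j y) x = 0 :=
        (T.hol i j).db_zero (hp.isOpen_pre (B.e j).open_source) hx ⟨hU, hj⟩ a
      have h1 := db_mul (A := A) (a := a) (f := fun y => GamR (Jpb A B p i j y) k l)
        (g := fun y => T.c i j y)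
        ((((lamPB hp).sm i j k l).contDiffAt hz').differentiableAt (by simp))
        ((((T.hol i j).contDiffOn (hp.isOpen_pre (B.e j).open_source)).contDiffAt
          hz').differentiableAt (by simp)) hx
      rw [h0, mul_zero, add_zero] at h1
      exact h1
    simp only [key]
    have h2 : ∀ X : Fin n → Matrix (FI n) (FI m) ℂ,
        ∑ a, (X a ⊗ₖ cU (T.c i j x) : Matrix (FI n × Unit) (FI m × Unit) ℂ) =
        ((∑ a, X a) ⊗ₖ cU (T.c i j x) : Matrix (FI n × Unit) (FI m × Unit) ℂ) := by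
      intro X
      ext ⟨a, r⟩ ⟨b, s⟩
      simp only [Matrix.kroneckerMap_apply, Matrix.sum_apply, Finset.sum_mul]
    rw [← cU_one]
    simp only [kU_mul, one_mul]
    rw [h2, hp.lam_conn hx hU hj, Matrix.zero_kronecker]
  deg := by
    rintro i j x ⟨k, r⟩ ⟨l, s⟩ h
    exact GamR_deg (left_ne_zero_of_mul h)

end

end Crest.Agent.R273.PullF_155
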