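import Mathlib

/-!
# R273 (S0416), Part B, leaf MAXQ (helper127): QUASI

`Δ` acts on a nonempty topological space `N`, the normal subgroup `P` acts cocompactly and properly
discontinuously, `φ : P →* Multiplicative ℝ` is invariant under conjugation by `Δ`.  Then `φ`
vanishes on every commutator `[g, h]`, `g h ∈ Δ`, which lies in `P`.

Part 2: the group `Γ` acts on `X` properly discontinuously and cocompactly and commutes with an
action `Φ` of the vector space `V`; `a : X → V` with `a (γ x) = a x + lam γ`, `a (Φ v x) = a x + v`,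
and `lam` has discrete image.  The theorem is applied to `N = a⁻¹(0)` with the action
`γ ↦ Φ (-lam γ) ∘ γ`.
-/

set_option autoImplicit false

open Set Filter Topology Multiplicative
open scoped Pointwise

namespace Crest.Agent.R273.Quasi127

/-! ### algebra: powers of a commutator -/

section Alg

variable {Q : Type*} [Group Q]

/-- `g h = c h g` with `c` central implies `g^k h^l = c^(k l) h^l g^k` -/
theorem pow_mul_pow_of_central {g h c : Q} (hc : ∀ x : Q, c * x = x * c) (hgh : g * h = c * (h * g))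
    (k l : ℕ) : g ^ k * h ^ l = c ^ (k * l) * (h ^ l * g ^ k) := by
  have hcn : ∀ (n : ℕ) (x : Q), c ^ n * x = x * c ^ n := by
    intro n x
    exact ((show Commute c x from hc x).pow_left n).eq
  have h1 : ∀ l : ℕ, g * h ^ l = c ^ l * (h ^ l * g) := by
    intro l
    induction l with
    | zero => simp
    | succ l ih =>
      calc g * h ^ (l + 1) = (g * h ^ l) * h := by rw [pow_succ, mul_assoc]
        _ = c ^ l * (h ^ l * (g * h)) := by rw [ih]; simp only [mul_assoc]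
        _ = c ^ l * (h ^ l * c * (h * g)) := by rw [hgh]; simp only [mul_assoc]
        _ = c ^ l * (c * h ^ l * (h * g)) := by rw [hc (h ^ l)]
        _ = c ^ (l + 1) * (h ^ (l + 1) * g) := by
          rw [pow_succ c, pow_succ h]; simp only [mul_assoc]
  induction k with
  | zero => simp
  | succ k ih =>
    calc g ^ (k + 1) * h ^ l = g ^ k * (g * h ^ l) := by rw [pow_succ, mul_assoc]
      _ = g ^ k * c ^ l * (h ^ l * g) := by rw [h1]; simp only [mul_assoc]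
      _ = c ^ l * (g ^ k * h ^ l * g) := by rw [← hcn l (g ^ k)]; simp only [mul_assoc]
      _ = c ^ l * (c ^ (k * l) * (h ^ l * g ^ k) * g) := by rw [ih]
      _ = c ^ ((k + 1) * l) * (h ^ l * g ^ (k + 1)) := by
        rw [add_mul, one_mul, add_comm (k * l) l, pow_add, pow_succ g]
        simp only [mul_assoc]

end Alg

section Main

variable {Δ : Type*} [Group Δ] (P : Subgroup Δ) [hP : P.Normal] (φ : P →* Multiplicative ℝ)

/-- invariance of a homomorphism of a normal subgroup under conjugation -/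
def Inv : Prop := ∀ (g : Δ) (p : P), φ ⟨g * p * g⁻¹, hP.conj_mem p p.2 g⟩ = φ p

variable {P φ}

/-- the kernel, as a subgroup of the large group -/
theorem normal_ker (hinv : Inv P φ) : (φ.ker.map P.subtype).Normal := by
  refine ⟨?_⟩
  rintro _ ⟨p, hp, rfl⟩ g
  refine ⟨⟨g * p * g⁻¹, hP.conj_mem p p.2 g⟩, ?_, rfl⟩
  rw [SetLike.mem_coe, MonoidHom.mem_ker] at hp ⊢
  rw [hinv g p, hp]

theorem pow_comm_mem (hinv : Inv P φ) {g h : Δ} (hc : g * h * g⁻¹ * h⁻¹ ∈ P) (k : ℕ) :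
    ∃ hk : g ^ k * h ^ k * (g ^ k)⁻¹ * (h ^ k)⁻¹ ∈ P,
      φ ⟨_, hk⟩ = φ ⟨_, hc⟩ ^ (k * k) := by
  have := normal_ker hinv
  set K := φ.ker.map P.subtype with hK
  let π : Δ →* Δ ⧸ K := QuotientGroup.mk' K
  set c : Δ := g * h * g⁻¹ * h⁻¹ with hcdef
  have hcen : ∀ x : Δ ⧸ K, π c * x = x * π c := by
    intro x
    obtain ⟨y, rfl⟩ := QuotientGroup.mk'_surjective K x
    have h1 : y * c * y⁻¹ * c⁻¹ ∈ K := by
      refine ⟨⟨y * c * y⁻¹, hP.conj_mem c hc y⟩ * (⟨c, hc⟩ : P)⁻¹, ?_, rfl⟩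
      rw [SetLike.mem_coe, MonoidHom.mem_ker, map_mul, map_inv, hinv y ⟨c, hc⟩, mul_inv_cancel]
    have h2 : π (y * c * y⁻¹ * c⁻¹) = 1 := (QuotientGroup.eq_one_iff _).2 h1
    rw [map_mul, map_mul, map_mul, map_inv, map_inv, mul_inv_eq_one, mul_inv_eq_iff_eq_mul] at h2
    exact h2.symm
  have hgh : π g * π h = π c * (π h * π g) := by
    rw [← map_mul, ← map_mul, ← map_mul]
    congr 1
    rw [hcdef]; group
  have h3 := pow_mul_pow_of_central hcen hgh k k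
  set w : Δ := g ^ k * h ^ k * (g ^ k)⁻¹ * (h ^ k)⁻¹ with hw
  have h4 : π w = π (c ^ (k * k)) := by
    rw [hw, map_mul, map_mul, map_mul, map_inv, map_inv, map_pow, map_pow, map_pow, h3]
    group
  have h5 : w * (c ^ (k * k))⁻¹ ∈ K := by
    have h6 : π (w * (c ^ (k * k))⁻¹) = 1 := by rw [map_mul, map_inv, h4, mul_inv_cancel]
    exact (QuotientGroup.eq_one_iff _).1 h6
  obtain ⟨p, hp, hpw⟩ := h5
  have hp' : (p : Δ) = w * (c ^ (k * k))⁻¹ := hpw
  have hwp : w = p * c ^ (k * k) := by rw [hp']; group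
  refine ⟨?_, ?_⟩
  · rw [hwp]; exact P.mul_mem p.2 (P.pow_mem hc _)
  · have h7 : (⟨w, by rw [hwp]; exact P.mul_mem p.2 (P.pow_mem hc _)⟩ : P) =
        p * (⟨c, hc⟩ : P) ^ (k * k) := Subtype.ext hwp
    rw [h7, map_mul, map_pow, (MonoidHom.mem_ker).1 hp, one_mul]

/-! ### the quasi-invariant function -/

variable {N : Type*} [TopologicalSpace N] [MulAction Δ N] [ContinuousConstSMul Δ N]

/-- **QUASI** -/
theorem quasi [Nonempty N] (hinv : Inv P φ) {K : Set N} (hK : IsCompact K)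
    (hcov : ∀ x : N, ∃ p ∈ P, p • x ∈ K)
    (hprop : ∀ L L' : Set N, IsCompact L → IsCompact L' → {p : Δ | p ∈ P ∧ ∃ x ∈ L, p • x ∈ L'}.Finite)
    {g h : Δ} (hc : g * h * g⁻¹ * h⁻¹ ∈ P) : φ ⟨_, hc⟩ = 1 := by
  classical
  choose c hcP hcK using hcov
  let F : N → ℝ := fun x => - toAdd (φ ⟨c x, hcP x⟩)
  -- bounded displacement
  have hB : ∀ γ : Δ, ∃ C : ℝ, ∀ x : N, |F (γ • x) - F x| ≤ C := by
    intro γ
    have hfin := hprop (γ • K) K (hK.smul γ) hK
    let val : Δ → ℝ := fun q => if hq : q ∈ P then |toAdd (φ ⟨q, hq⟩)| else 0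
    obtain ⟨C, hC⟩ := (hfin.image val).bddAbove
    refine ⟨C, fun x => ?_⟩
    set q : Δ := c (γ • x) * (γ * (c x)⁻¹ * γ⁻¹) with hq
    have hconj : γ * (c x)⁻¹ * γ⁻¹ ∈ P := hP.conj_mem _ (P.inv_mem (hcP x)) γ
    have hqP : q ∈ P := P.mul_mem (hcP _) hconj
    have hqm : q ∈ {p : Δ | p ∈ P ∧ ∃ x ∈ γ • K, p • x ∈ K} := by
      refine ⟨hqP, γ • (c x • x), smul_mem_smul_set (hcK x), ?_⟩
      have : q • γ • c x • x = c (γ • x) • γ • x := by
        rw [hq, ← mul_smul, ← mul_smul, ← mul_smul]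
        congr 1
        group
      rw [this]
      exact hcK _
    have h1 := hC (mem_image_of_mem val hqm)
    have h2 : val q = |toAdd (φ ⟨q, hqP⟩)| := dif_pos hqP
    rw [h2] at h1
    refine le_trans (le_of_eq ?_) h1
    have h3 : (⟨q, hqP⟩ : P) = ⟨c (γ • x), hcP _⟩ * ⟨γ * ((⟨c x, hcP x⟩⁻¹ : P) : Δ) * γ⁻¹,
        hP.conj_mem _ (⟨c x, hcP x⟩⁻¹ : P).2 γ⟩ := Subtype.ext hq
    rw [h3, φ.map_mul, hinv γ (⟨c x, hcP x⟩⁻¹ : P), φ.map_inv, toAdd_mul, toAdd_inv]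
    change |-toAdd (φ ⟨c (γ • x), hcP (γ • x)⟩) - -toAdd (φ ⟨c x, hcP x⟩)| = _
    rw [abs_sub_comm]
    congr 1
    ring
  -- displacement of elements of `P`
  have hPd : ∃ C : ℝ, ∀ (p : P) (x : N), |F ((p : Δ) • x) - F x - toAdd (φ p)| ≤ C := by
    have hfin := hprop K K hK hK
    let val : Δ → ℝ := fun q => if hq : q ∈ P then |toAdd (φ ⟨q, hq⟩)| else 0
    obtain ⟨C, hC⟩ := (hfin.image val).bddAbove
    refine ⟨C, fun p x => ?_⟩
    set q : Δ := c ((p : Δ) • x) * p * (c x)⁻¹ with hq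
    have hqP : q ∈ P := P.mul_mem (P.mul_mem (hcP _) p.2) (P.inv_mem (hcP x))
    have hqm : q ∈ {p : Δ | p ∈ P ∧ ∃ x ∈ K, p • x ∈ K} := by
      refine ⟨hqP, c x • x, hcK x, ?_⟩
      have : q • c x • x = c ((p : Δ) • x) • (p : Δ) • x := by
        rw [hq, ← mul_smul, ← mul_smul]
        congr 1
        group
      rw [this]
      exact hcK _
    have h1 := hC (mem_image_of_mem val hqm)
    have h2 : val q = |toAdd (φ ⟨q, hqP⟩)| := dif_pos hqP
    rw [h2] at h1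
    refine le_trans (le_of_eq ?_) h1
    have h3 : (⟨q, hqP⟩ : P) = ⟨c ((p : Δ) • x), hcP _⟩ * p * (⟨c x, hcP x⟩ : P)⁻¹ :=
      Subtype.ext hq
    rw [h3, φ.map_mul, φ.map_mul, φ.map_inv, toAdd_mul, toAdd_mul, toAdd_inv]
    change |-toAdd (φ ⟨c ((p : Δ) • x), hcP _⟩) - -toAdd (φ ⟨c x, hcP x⟩) - toAdd (φ p)| = _
    rw [← abs_neg]
    congr 1
    ring
  -- powers
  have hpow : ∀ γ : Δ, ∃ C : ℝ, ∀ (k : ℕ) (x : N), |F (γ ^ k • x) - F x| ≤ k * C := by
    intro γ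
    obtain ⟨C, hC⟩ := hB γ
    refine ⟨C, fun k => ?_⟩
    induction k with
    | zero => intro x; simp
    | succ k ih =>
      intro x
      have h1 := hC (γ ^ k • x)
      rw [← mul_smul, ← pow_succ'] at h1
      have h2 := ih x
      have h3 := abs_sub_le (F (γ ^ (k + 1) • x)) (F (γ ^ k • x)) (F x)
      push_cast
      linarith
  have hpow' : ∀ γ : Δ, ∃ C : ℝ, ∀ (k : ℕ) (x : N), |F ((γ ^ k)⁻¹ • x) - F x| ≤ k * C := by
    intro γ
    obtain ⟨C, hC⟩ := hpow γ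
    refine ⟨C, fun k x => ?_⟩
    have h1 := hC k ((γ ^ k)⁻¹ • x)
    rw [smul_inv_smul, abs_sub_comm] at h1
    exact h1
  obtain ⟨x0⟩ := ‹Nonempty N›
  obtain ⟨Cg, hCg⟩ := hpow g
  obtain ⟨Cg', hCg'⟩ := hpow' g
  obtain ⟨Ch, hCh⟩ := hpow h
  obtain ⟨Ch', hCh'⟩ := hpow' h
  obtain ⟨C1, hC1⟩ := hPd
  set t : ℝ := toAdd (φ ⟨_, hc⟩) with ht
  have hbound : ∀ k : ℕ, (k : ℝ) * k * |t| ≤ k * (Cg + Cg' + Ch + Ch') + C1 := by
    intro k
    obtain ⟨hk, hφ⟩ := pow_comm_mem hinv hc k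
    have h1 := hC1 ⟨_, hk⟩ x0
    rw [hφ, toAdd_pow] at h1
    change |F ((g ^ k * h ^ k * (g ^ k)⁻¹ * (h ^ k)⁻¹) • x0) - F x0 - (k * k) • t| ≤ C1 at h1
    rw [mul_smul, mul_smul, mul_smul] at h1
    have e1 := hCh' k x0
    have e2 := hCg' k ((h ^ k)⁻¹ • x0)
    have e3 := hCh k ((g ^ k)⁻¹ • (h ^ k)⁻¹ • x0)
    have e4 := hCg k (h ^ k • (g ^ k)⁻¹ • (h ^ k)⁻¹ • x0)
    set A4 := F (g ^ k • h ^ k • (g ^ k)⁻¹ • (h ^ k)⁻¹ • x0)
    set A3 := F (h ^ k • (g ^ k)⁻¹ • (h ^ k)⁻¹ • x0)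
    set A2 := F ((g ^ k)⁻¹ • (h ^ k)⁻¹ • x0)
    set A1 := F ((h ^ k)⁻¹ • x0)
    have h5 : ((k * k : ℕ) • t : ℝ) = (k : ℝ) * k * t := by rw [nsmul_eq_mul]; push_cast; ring
    rw [h5] at h1
    have h6 : (k : ℝ) * k * |t| = |(k : ℝ) * k * t| := by
      rw [abs_mul, abs_of_nonneg (by positivity : (0 : ℝ) ≤ (k : ℝ) * k)]
    rw [h6]
    rw [abs_le] at e1 e2 e3 e4 h1 ⊢
    constructor <;> nlinarith
  have ht0 : |t| = 0 := by
    by_contra hne
    have hpos : 0 < |t| := lt_of_le_of_ne (abs_nonneg _) (Ne.symm hne)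
    set S := |Cg + Cg' + Ch + Ch'| + |C1| with hS
    have hS0 : 0 ≤ S := by positivity
    obtain ⟨k, hk⟩ := exists_nat_gt ((S + 1) / |t|)
    have hk1 : S + 1 < k * |t| := by rwa [div_lt_iff₀ hpos] at hk
    have hk0 : 0 < (k : ℝ) := by
      by_contra h0
      push Not at h0
      have : (k : ℝ) * |t| ≤ 0 := mul_nonpos_of_nonpos_of_nonneg h0 (abs_nonneg _)
      linarith
    have hk2 : (1 : ℝ) ≤ k := by
      have : 0 < k := by exact_mod_cast hk0
      exact_mod_cast this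
    have h1 := hbound k
    have h2 : (k : ℝ) * (Cg + Cg' + Ch + Ch') + C1 ≤ k * S := by
      have a1 : (k : ℝ) * (Cg + Cg' + Ch + Ch') ≤ k * |Cg + Cg' + Ch + Ch'| :=
        mul_le_mul_of_nonneg_left (le_abs_self _) hk0.le
      have a2 : C1 ≤ k * |C1| := by
        have := le_abs_self C1
        nlinarith [abs_nonneg C1]
      rw [hS, mul_add]
      linarith
    have h3 : (k : ℝ) * (S + 1) < k * (k * |t|) := mul_lt_mul_of_pos_left hk1 hk0
    nlinarith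
  have ht' : t = 0 := abs_eq_zero.1 ht0
  rw [← toAdd_eq_zero]
  exact ht'

end Main

end Crest.Agent.R273.Quasi127
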