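import Mathlib

/-!
# R273, leaf A-R4ALG (helper769)

`r4alg` : `S` a finitely generated algebra over a field of characteristic zero, contained in a
field `K`, `s ≠ 0`, `s μ ^ N` integral over `S` for infinitely many `N`; then `μ` is integral
over `S`.
-/

set_option autoImplicit false
set_option linter.style.haveILetI false

open Polynomial

namespace Crest.Agent.R273.R4Alg769

theorem normal_case {P K : Type*} [CommRing P] [IsDomain P] [IsIntegrallyClosed P]
    [IsNoetherianRing P] [CharZero P] [Field K] [Algebra P K]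
    (hinj : Function.Injective (algebraMap P K)) {s μ : K} (hs : s ≠ 0)
    (hinf : {N : ℕ | IsIntegral P (s * μ ^ N)}.Infinite) : IsIntegral P μ := by
  by_cases hμ : μ = 0
  · rw [hμ]; exact isIntegral_zero
  haveI : FaithfulSMul P K := (faithfulSMul_iff_algebraMap_injective P K).2 hinj
  let Q := FractionRing P
  letI : Algebra Q K := FractionRing.liftAlgebra P K
  haveI : IsScalarTower P Q K := inferInstance
  haveI : CharZero Q := charZero_of_injective_algebraMap (IsFractionRing.injective P Q)
  -- algebraicity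
  obtain ⟨N1, h1⟩ := hinf.nonempty
  obtain ⟨N2, h2, h12⟩ := hinf.exists_gt N1
  have a1 : IsIntegral Q (s * μ ^ N1) := IsIntegral.tower_top (A := Q) h1
  have a2 : IsIntegral Q (s * μ ^ N2) := IsIntegral.tower_top (A := Q) h2
  have a3 : IsIntegral Q (μ ^ (N2 - N1)) := by
    have : μ ^ (N2 - N1) = (s * μ ^ N2) * (s * μ ^ N1)⁻¹ := by
      have h3 : μ ^ N2 = μ ^ (N2 - N1) * μ ^ N1 := by
        rw [← pow_add, Nat.sub_add_cancel h12.le]
      rw [h3]
      field_simp
    rw [this]
    exact a2.mul a1.inv
  have a4 : IsIntegral Q μ := IsIntegral.of_pow (Nat.sub_pos_of_lt h12) a3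
  have a5 : IsIntegral Q s := by
    have : s = (s * μ ^ N1) * (μ ^ N1)⁻¹ := by field_simp
    rw [this]
    exact a1.mul (a4.pow N1).inv
  -- the finite extension
  let E := IntermediateField.adjoin Q ({s, μ} : Set K)
  haveI : FiniteDimensional Q E := by
    refine IntermediateField.finiteDimensional_adjoin ?_
    rintro x (rfl | rfl)
    · exact a5
    · exact a4
  have hsE : s ∈ E := IntermediateField.subset_adjoin _ _ (by simp)
  have hμE : μ ∈ E := IntermediateField.subset_adjoin _ _ (by simp)
  obtain ⟨s', hs1⟩ : ∃ s' : E, (s' : K) = s := ⟨⟨s, hsE⟩, rfl⟩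
  obtain ⟨μ', hμ1⟩ : ∃ μ' : E, (μ' : K) = μ := ⟨⟨μ, hμE⟩, rfl⟩
  have hs' : s' ≠ 0 := fun h => hs (by rw [← hs1, h]; rfl)
  haveI : IsScalarTower P E K := IsScalarTower.of_algebraMap_eq fun x => by
    rw [IsScalarTower.algebraMap_apply P Q E, ← IsScalarTower.algebraMap_apply Q E K,
      ← IsScalarTower.algebraMap_apply P Q K]
  have hEinj : Function.Injective (algebraMap E K) := (algebraMap E K).injective
  have hint : ∀ x : E, IsIntegral P (x : K) ↔ IsIntegral P x := fun x =>
    isIntegral_algebraMap_iff (A := E) (B := K) hEinj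
  haveI : IsNoetherian P (integralClosure P E) :=
    IsIntegralClosure.isNoetherian P Q E (integralClosure P E)
  -- scaling
  have b1 : IsAlgebraic P s' := by
    have : IsAlgebraic Q s' := Algebra.IsAlgebraic.isAlgebraic s'
    exact (IsFractionRing.isAlgebraic_iff P Q E).2 this
  obtain ⟨d, hd, hds⟩ := b1.exists_integral_multiple
  set r : E := d • s' with hr
  have hr0 : r ≠ 0 := by
    rw [hr, Algebra.smul_def]
    refine mul_ne_zero ?_ hs'
    intro h
    apply hd
    have : algebraMap P K d = 0 := by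
      rw [IsScalarTower.algebraMap_apply P E K, h, map_zero]
    exact (map_eq_zero_iff _ hinj).1 this
  have b2 : ∀ N ∈ {N : ℕ | IsIntegral P (s * μ ^ N)}, IsIntegral P (r * μ' ^ N) := by
    intro N hN
    have h3 : IsIntegral P (s' * μ' ^ N) := by
      rw [← hint]
      show IsIntegral P ((s' : K) * (μ' : K) ^ N)
      rw [hs1, hμ1]
      exact hN
    rw [hr, smul_mul_assoc]
    exact h3.smul d
  have b3 : ∀ i : ℕ, IsIntegral P (r * μ' ^ i) := by
    intro i
    obtain ⟨N, hN, hiN⟩ := hinf.exists_gt i
    have h3 := b2 N hN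
    refine IsIntegral.of_pow (n := N) (by omega) ?_
    have h4 : (r * μ' ^ i) ^ N = (r * μ' ^ N) ^ i * r ^ (N - i) := by
      rw [mul_pow, mul_pow, ← pow_mul, ← pow_mul, mul_comm i N, mul_right_comm, ← pow_add,
        Nat.add_sub_cancel' hiN.le]
    rw [h4]
    exact (h3.pow i).mul (hds.pow _)
  have b4 : ∀ x ∈ Algebra.adjoin P ({μ'} : Set E), IsIntegral P (r * x) := by
    intro x hx
    rw [Algebra.adjoin_singleton_eq_range_aeval] at hx
    obtain ⟨p, rfl⟩ := hx
    show IsIntegral P (r * aeval μ' p)
    rw [aeval_eq_sum_range, Finset.mul_sum]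
    refine IsIntegral.sum _ fun i _ => ?_
    rw [mul_smul_comm]
    exact (b3 i).smul _
  let f : (Algebra.adjoin P ({μ'} : Set E)) →ₗ[P] (integralClosure P E) :=
    { toFun := fun x => ⟨r * x.1, b4 x.1 x.2⟩
      map_add' := fun x y => Subtype.ext (by simp [mul_add])
      map_smul' := fun c x => Subtype.ext (by simp) }
  have hf : Function.Injective f := by
    intro x y hxy
    have h3 : r * x.1 = r * y.1 := congrArg Subtype.val hxy
    exact Subtype.ext (mul_left_cancel₀ hr0 h3)
  haveI : IsNoetherian P (Algebra.adjoin P ({μ'} : Set E)) :=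
    isNoetherian_of_injective f hf
  rw [← hμ1, hint]
  refine IsIntegral.of_mem_of_fg (Algebra.adjoin P ({μ'} : Set E)) ?_ μ'
    (Algebra.self_mem_adjoin_singleton P μ')
  have := (Submodule.fg_top (Subalgebra.toSubmodule (Algebra.adjoin P ({μ'} : Set E)))).1
    (IsNoetherian.noetherian (⊤ : Submodule P (Subalgebra.toSubmodule (Algebra.adjoin P ({μ'} : Set E)))))
  exact this

/-- **A-R4ALG** -/
theorem r4alg {F K : Type*} [Field F] [CharZero F] [Field K] [Algebra F K] (S : Subalgebra F K)
    (hS : S.FG) {s μ : K} (hs : s ≠ 0) (hinf : {N : ℕ | IsIntegral S (s * μ ^ N)}.Infinite) :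
    IsIntegral S μ := by
  haveI : Algebra.FiniteType F S := (Subalgebra.fg_iff_finiteType S).1 hS
  obtain ⟨e, g, hg, hgi⟩ := exists_integral_inj_algHom_of_fg F S
  letI : Algebra (MvPolynomial (Fin e) F) S := g.toRingHom.toAlgebra
  letI : Algebra (MvPolynomial (Fin e) F) K := ((algebraMap S K).comp g.toRingHom).toAlgebra
  haveI : IsScalarTower (MvPolynomial (Fin e) F) S K := IsScalarTower.of_algebraMap_eq fun x => rfl
  haveI : Algebra.IsIntegral (MvPolynomial (Fin e) F) S := ⟨fun x => hgi x⟩
  haveI : CharZero (MvPolynomial (Fin e) F) := charZero_of_injective_algebraMap (MvPolynomial.C_injective (Fin e) F)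
  have h1 : IsIntegral (MvPolynomial (Fin e) F) μ := by
    refine normal_case (P := MvPolynomial (Fin e) F) ?_ hs (hinf.mono fun N hN => ?_)
    · exact (Subtype.val_injective : Function.Injective (algebraMap S K)).comp hg
    · exact isIntegral_trans (R := MvPolynomial (Fin e) F) (A := S) _ hN
  exact IsIntegral.tower_top h1

end Crest.Agent.R273.R4Alg769
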