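import Crest.Agent.R273.FFb_769

/-!
# R273, leaf A-TR0 (helper769): the case `FF = ℂ`

`num_mem`, `hor`  : the functions `f = w_a^{c-b} w_c^{b-a} / w_b^{c-a}` are in `FF`
`hasSec_of_bot`   : if `FF = ℂ` then some `L^m`, `m > 0`, has a nonzero section
-/

set_option autoImplicit false
set_option linter.unusedSectionVars false

open Set Filter Topology Complex
open scoped ContDiff Matrix ComplexConjugate

namespace Crest.Agent.R273.FF769

open Crest.Agent.R275.Geo Crest.Agent.R275.Core144 Crest.Agent.R275.GC293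
open Crest.Agent.R273.Defs_333
open Crest.Agent.R273.Rigid769 Crest.Agent.R273.Mer769
open Crest.Agent.R273.Cram_747 (TS KP tns tns_TS mnr tns_ne_zero exists_nz nz num den num_TS den_TS
  num_ne_zero den_ne_zero num_apply den_apply)
open Crest.Agent.R273.Fock_243 (FI Gam)

noncomputable section

variable {n : ℕ} {M : Type} [TopologicalSpace M] {A : Atl n M}
variable {ρ : Type} [Fintype ρ] [DecidableEq ρ] {L : LB A} {w : ℕ → A.ι → M → (ρ → FI n) → ℂ}

theorem ww_num {k0 a b c : ℕ} (hab : a < b) (hbc : b < c) (ha : TS ρ (L ^ a) (w a))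
    (hc : TS ρ (L ^ c) (w c)) (pa : Cram_747.Prp (w a) (w k0)) (pc : Cram_747.Prp (w c) (w k0)) :
    WW L (w k0) (Fin (c - a)) (b * (c - a)) (num w a b c) := by
  refine ⟨num_TS hab hbc ha hc, Cram_747.Prp.tns fun t => ?_⟩
  by_cases ht : t.1 < c - b
  · simpa [ht] using pa
  · simpa [ht] using pc

theorem ww_den {k0 a b c : ℕ} (hab : a < b) (hbc : b < c) (hb : TS ρ (L ^ b) (w b))
    (pb : Cram_747.Prp (w b) (w k0)) :
    WW L (w k0) (Fin (c - a)) (b * (c - a)) (den w a b c) :=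
  ⟨den_TS hab hbc hb, Cram_747.Prp.tns fun _ => pb⟩

/-- the function `f = w_a^{c-b} w_c^{b-a} / w_b^{c-a}` is a nonzero element of `FF` -/
theorem exists_f [ConnectedSpace M] {k0 a b c d : ℕ} (hw0 : TS ρ (L ^ d) (w k0)) (h00 : w k0 ≠ 0)
    (hab : a < b) (hbc : b < c) (ha : TS ρ (L ^ a) (w a)) (hb : TS ρ (L ^ b) (w b))
    (hc : TS ρ (L ^ c) (w c)) (ha0 : w a ≠ 0) (hb0 : w b ≠ 0) (hc0 : w c ≠ 0)
    (pa : Cram_747.Prp (w a) (w k0)) (pb : Cram_747.Prp (w b) (w k0))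
    (pc : Cram_747.Prp (w c) (w k0)) :
    ∃ g ∈ FF hw0 h00, g ≠ 0 ∧ Rel g (num w a b c) (den w a b c) := by
  have : Nonempty (Fin (c - a)) := ⟨⟨0, by omega⟩⟩
  have h1 := ww_num (k0 := k0) hab hbc ha hc pa pc
  have h2 := ww_den (k0 := k0) hab hbc hb pb
  have hn : num w a b c ≠ 0 := num_ne_zero ha hc ha0 hc0
  have hd : den w a b c ≠ 0 := den_ne_zero (a := a) (c := c) hb hb0
  obtain ⟨g, hg, hr⟩ := h1.exists_mem hw0 h00 h2 hd
  refine ⟨g, hg, ?_, hr⟩
  rintro rfl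
  apply hn
  obtain ⟨i, x, hi, hx⟩ := ts_nz h1.ts hn
  exfalso
  have h3 := (reg_algebraMap (A := A) 0 x)
  rw [map_zero] at h3
  apply hx
  funext F
  rw [hr i x hi h3.1 F, h3.2, zero_mul]
  rfl

theorem preconn_target (hG : GoodA A) (i : A.ι) : IsPreconnected (A.e i).target := by
  have h1 : A.ov i i = (A.e i).target := by
    ext z
    exact ⟨fun h => h.1, fun h => ⟨h, (A.e i).map_target h⟩⟩
  rw [← h1]
  exact (hG i i).isPreconnected

/-- the case `FF = ℂ` -/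
theorem hasSec_of_bot [ConnectedSpace M] (hcon : ∀ i, IsPreconnected (A.e i).target)
    {K : Set ℕ} (hK : K.Infinite) (hw : ∀ k ∈ K, TS ρ (L ^ k) (w k)) (h0 : ∀ k ∈ K, w k ≠ 0)
    (hp : ∀ k ∈ K, ∀ l ∈ K, Cram_747.Prp (w k) (w l)) {k0 : ℕ} (hk0 : k0 ∈ K)
    (hFF : FF (hw k0 hk0) (h0 k0 hk0) = ⊥) : ∃ m, 0 < m ∧ HasSec (L ^ m) := by
  refine rigid hcon (G := fun i j x => KP ρ (Gam (Jm A j i x))) K hK w
    (fun k hk => ts_isWS (hw k hk)) (fun k hk => ts_nz (hw k hk) (h0 k hk))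
    (fun k hk l hl => prp_of (hp k hk l hl)) ?_
  intro a ha b hb c hc hab hbc
  obtain ⟨g, hg, hg0, hr⟩ := exists_f (hw k0 hk0) (h0 k0 hk0) hab hbc (hw a ha) (hw b hb)
    (hw c hc) (h0 a ha) (h0 b hb) (h0 c hc) (hp a ha k0 hk0) (hp b hb k0 hk0) (hp c hc k0 hk0)
  rw [hFF, IntermediateField.mem_bot] at hg
  obtain ⟨C, hC⟩ := hg
  refine ⟨C, ?_, fun i x hi F => ?_⟩
  · rintro rfl
    rw [map_zero] at hC
    exact hg0 hC.symm
  · have h3 := reg_algebraMap (A := A) C x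
    rw [hC] at h3
    have h4 := hr i x hi h3.1 (fun p => F p.2)
    rw [num_apply hab hbc, den_apply, h3.2] at h4
    exact h4

end

end Crest.Agent.R273.FF769
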