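import Crest.Agent.R273.Beta_769
import Crest.Agent.R273.TR0_769
import Crest.Agent.R273.R4Alg_769
import Crest.Agent.R273.ChowM_313

/-!
# R273, leaf A-R4 (helper769), part 1: integrality of `λ`

* `ev_alg`, `ev_pol` : evaluation of polynomial expressions of meromorphic functions;
* `int_of_sec`       : `t / L^d`, `t ∈ H⁰(O^d)`, is integral over `ℂ[F / L]` in `Mer A`;
* `exists_beta'`     : `exists_beta` with a pointwise linear `β`;
* `int_lam`          : `λ τ / L^{m'}` is integral over `FF[F / L]`.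
-/

set_option autoImplicit false
set_option linter.unusedSectionVars false

open Set Filter Topology Complex
open scoped ContDiff Matrix ComplexConjugate Polynomial

namespace Crest.Agent.R273.FF769

open Crest.Agent.R275.Geo Crest.Agent.R275.Core144 Crest.Agent.R275.GC293
open Crest.Agent.R273.Defs_333 Crest.Agent.R273.FS_333
open Crest.Agent.R273.Rigid769 Crest.Agent.R273.Mer769
open Crest.Agent.R273.Cram_747 (TS KP KP_mul KP_one tns tns_TS mnr tns_ne_zero exists_nz num den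
  num_TS den_TS num_ne_zero den_ne_zero num_apply den_apply)
open Crest.Agent.R273.Fock_243 (FI Gam Gam_mul Gam_one Gam_of_ne Gam_eq)
open Crest.Agent.R273.SteinC_794 Crest.Agent.R273.SteinD_794 Crest.Agent.R273.SteinE_794
open Crest.Agent.R273.Chow_313 (lf lf_apply isHS_lf Lp isHS_Lp Lp_apply rh vt exists_monic pw isHS_pw
  pw_apply)
open Crest.Agent.R273.SerB_945 (Solv)

noncomputable section

variable {n : ℕ} {M : Type} [TopologicalSpace M] {A : Atl n M}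

/-! ### evaluation of polynomial expressions -/

section Eval

variable {κ : Type*} {y : κ → Mer A} {x : M}

theorem ev_alg (h : ∀ k, x ∈ reg (y k)) (p : MvPolynomial κ ℂ) :
    x ∈ reg (MvPolynomial.aeval y p) ∧
      ev (MvPolynomial.aeval y p) x = MvPolynomial.eval (fun k => ev (y k) x) p := by
  let y' : κ → loc A x := fun k => ⟨y k, h k⟩
  have h1 : MvPolynomial.aeval y p = ((MvPolynomial.aeval y' p : loc A x) : Mer A) := by
    have h2 := MvPolynomial.comp_aeval_apply (B := Mer A) (f := y') (loc A x).val p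
    exact h2.symm
  rw [h1]
  refine ⟨(MvPolynomial.aeval y' p : loc A x).2, ?_⟩
  have h3 := MvPolynomial.comp_aeval_apply (f := y') (evH A x) p
  rw [← evH_apply, h3]
  rw [← MvPolynomial.coe_aeval_eq_eval]
  rfl

theorem ev_pol (h : ∀ k, x ∈ reg (y k)) {v : Mer A} (hv : x ∈ reg v)
    (G : (MvPolynomial κ ℂ)[X]) :
    x ∈ reg (G.eval₂ (MvPolynomial.aeval y : MvPolynomial κ ℂ →ₐ[ℂ] Mer A).toRingHom v) ∧
      ev (G.eval₂ (MvPolynomial.aeval y : MvPolynomial κ ℂ →ₐ[ℂ] Mer A).toRingHom v) x =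
        (G.map (MvPolynomial.eval fun k => ev (y k) x)).eval (ev v x) := by
  let y' : κ → loc A x := fun k => ⟨y k, h k⟩
  let v' : loc A x := ⟨v, hv⟩
  let φ : MvPolynomial κ ℂ →+* loc A x := (MvPolynomial.aeval y' : _ →ₐ[ℂ] loc A x).toRingHom
  have h1 : (loc A x).val.toRingHom.comp φ =
      (MvPolynomial.aeval y : MvPolynomial κ ℂ →ₐ[ℂ] Mer A).toRingHom := by
    ext p
    · simp [φ]
    · simp [φ, y']
  have h2 : G.eval₂ (MvPolynomial.aeval y : MvPolynomial κ ℂ →ₐ[ℂ] Mer A).toRingHom v =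
      ((G.eval₂ φ v' : loc A x) : Mer A) := by
    rw [← h1]
    exact (Polynomial.hom_eval₂ G φ (loc A x).val.toRingHom v').symm
  rw [h2]
  refine ⟨(G.eval₂ φ v' : loc A x).2, ?_⟩
  rw [← evH_apply]
  have h3 : (evH A x).toRingHom.comp φ = MvPolynomial.eval fun k => ev (y k) x := by
    ext p
    · simp [φ]
    · simp [φ, y']
  have h4 := Polynomial.hom_eval₂ G φ (evH A x).toRingHom v'
  rw [h3] at h4
  rw [Polynomial.eval_map]
  exact h4

end Eval

theorem eq_zero_of_dn [ConnectedSpace M] {g : Mer A} {S : Set M} (hS : S ∈ dn M)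
    (h : ∀ x ∈ S, x ∈ reg g → ev g x = 0) : g = 0 := by
  by_contra hne
  obtain ⟨x, hx, hx'⟩ := exists_mem_of_dn (inter_mem hS (dn_ne hne)) isOpen_univ
    (univ_nonempty (α := M))
  have hx2 := mem_of_mem_nhds hx'
  exact hx2.2.2 (h x hx2.1 hx2.2.1)

theorem eq_of_dn [ConnectedSpace M] {g g' : Mer A} {S : Set M} (hS : S ∈ dn M)
    (h : ∀ x ∈ S, x ∈ reg g → x ∈ reg g' → ev g x = ev g' x) : g = g' := by
  rw [eq_iff_dn]
  filter_upwards [hS, dn_reg g, dn_reg g'] with x h1 h2 h3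
  exact h x h1 h2 h3

theorem dn_nz [ConnectedSpace M] {N : LB A} {t : A.ι → M → ℂ} (ht : IsHS N univ t) (h0 : t ≠ 0) :
    SteinC_794.nz t ∈ dn M := by
  rw [mem_dn]
  intro x
  obtain ⟨i, hi⟩ := A.cover x
  have h1 := nlz (hs_isWS ht) (hs_nz ht h0) i hi
  refine (h1.and_eventually ((A.e i).open_source.mem_nhds hi)).mono ?_
  rintro y ⟨hy, hyi⟩
  refine (isOpen_nz ht).mem_nhds ((mem_nz ht hyi).2 fun h => hy ?_)
  funext u
  exact h

section Int

variable [T2Space M] [ConnectedSpace M] {r : ℕ} {O : LB A}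

/-- **`t / L^d` is integral over `ℂ[F / L]`** -/
theorem int_of_sec {F : Fin r → A.ι → M → ℂ} (hF : ∀ k, IsHS O univ (F k))
    (hne : ∀ i, ∀ x ∈ (A.e i).source, ∃ k, F k i x ≠ 0)
    (hfd : ∀ k : ℕ, FiniteDimensional ℂ (HS (O ^ k) univ)) {m0 : ℕ}
    (hV : ∀ m, m0 ≤ m → ∀ q, 1 ≤ q → Solv (O ^ m) q) (l : Fin r → ℂ) (hl : lf F l ≠ 0)
    {ρ : Fin r → Mer A} (hρ : ∀ k, RelS (ρ k) (F k) (lf F l)) {d : ℕ} {t : A.ι → M → ℂ}
    (ht : IsHS (O ^ d) univ t) {v : Mer A} (hv : RelS v t (Lp F l d)) :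
    IsIntegral (Algebra.adjoin ℂ (Set.range ρ)) v := by
  obtain ⟨G, hG, hG0⟩ := exists_monic hF hne hfd hV l ht
  let φ : MvPolynomial (Fin r) ℂ →ₐ[ℂ] Algebra.adjoin ℂ (Set.range ρ) :=
    MvPolynomial.aeval fun k => ⟨ρ k, Algebra.subset_adjoin ⟨k, rfl⟩⟩
  refine ⟨G.map φ.toRingHom, hG.map _, ?_⟩
  have h1 : (algebraMap (Algebra.adjoin ℂ (Set.range ρ)) (Mer A)).comp φ.toRingHom =
      (MvPolynomial.aeval ρ : MvPolynomial (Fin r) ℂ →ₐ[ℂ] Mer A).toRingHom := by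
    ext p
    · simp [φ]
    · simp [φ]
  rw [Polynomial.eval₂_map, h1]
  refine eq_zero_of_dn (dn_nz (isHS_lf hF l) hl) fun x hx _ => ?_
  have hρx : ∀ k, x ∈ reg (ρ k) ∧ ev (ρ k) x = qt (F k) (lf F l) x := fun k =>
    (hρ k).ev_qt (hF k) (isHS_lf hF l) hx
  obtain ⟨i, hi⟩ := A.cover x
  have hx0 : lf F l i x ≠ 0 := (mem_nz (isHS_lf hF l) hi).1 hx
  have hxL : x ∈ SteinC_794.nz (Lp F l d) := by
    rw [mem_nz (isHS_Lp hF l d) hi, Lp_apply F l d hi]
    exact pow_ne_zero _ hx0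
  have hvx := hv.ev_qt ht (isHS_Lp hF l d) hxL
  rw [(ev_pol (fun k => (hρx k).1) hvx.1 G).2, hvx.2]
  have h2 : (fun k => ev (ρ k) x) = rh F l x := by
    funext k
    exact (hρx k).2
  rw [h2]
  exact hG0 x hx

end Int

/-! ### a pointwise linear `β` -/

theorem exists_beta' [ConnectedSpace M] (P : ProjD A) {ρ : Type} [Fintype ρ] [DecidableEq ρ]
    {τ' : A.ι → M → (ρ → FI n) → ℂ} {N' : LB A} (hτ' : TS ρ N' τ') (h0 : τ' ≠ 0) :
    ∃ (m : ℕ) (β : (A.ι → M → (ρ → FI n) → ℂ) →ₗ[ℂ] (A.ι → M → ℂ)),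
      (∀ (N : LB A) (τ : A.ι → M → (ρ → FI n) → ℂ), TS ρ N τ → IsHS (N * (lb P) ^ m) univ (β τ)) ∧
      (∀ (g : Mer A) (τ u : A.ι → M → (ρ → FI n) → ℂ), Rel g τ u → RelS g (β τ) (β u)) ∧
      β τ' ≠ 0 ∧
      (∀ (i : A.ι) (x : M) (c : ℂ) (τ u : A.ι → M → (ρ → FI n) → ℂ), τ i x = c • u i x →
        β τ i x = c * β u i x) ∧
      (∀ τ u : A.ι → M → (ρ → FI n) → ℂ, Cram_747.Prp τ u → ∀ i x F,
        β τ i x * u i x F = β u i x * τ i x F) := by
  obtain ⟨i, x, hi, hx⟩ := ts_nz hτ' h0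
  obtain ⟨s, t, hs, ht, hdet⟩ := exists_frame P hi
  obtain ⟨S, hS⟩ := bp_ne hdet hx
  refine ⟨2 * ∑ a, (S a).card, bpL s t S, fun N τ hτ => isHS_bp hs ht S hτ,
    fun g τ u h => relS_bp S h, fun h => hS ?_, fun i x c τ u h => ?_, fun τ u h i x F => ?_⟩
  · exact congrFun (congrFun h i) x
  · show bp s t S τ i x = c * bp s t S u i x
    unfold bp
    rw [h, Matrix.mulVec_smul]
    rfl
  · show bp s t S τ i x * u i x F = bp s t S u i x * τ i x F
    unfold bp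
    simp only [Matrix.mulVec, dotProduct]
    rw [Finset.sum_mul, Finset.sum_mul]
    refine Finset.sum_congr rfl fun G _ => ?_
    rw [mul_assoc, mul_assoc, h i x G F]
    ring

/-! ### integrality of `λ` -/

theorem ev_pow {g : Mer A} {x : M} (h : x ∈ reg g) (N : ℕ) :
    x ∈ reg (g ^ N) ∧ ev (g ^ N) x = ev g x ^ N := by
  let g' : loc A x := ⟨g, h⟩
  refine ⟨(g' ^ N).2, ?_⟩
  have := map_pow (evH A x) g' N
  exact this

theorem cg3 {G : Type*} [CommGroup G] (U Y a b c : G) :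
    (U * Y) * a * (U⁻¹ * b) * (Y⁻¹ * c) = a * b * c := by
  rw [show (U * Y) * a * (U⁻¹ * b) * (Y⁻¹ * c) = (U * U⁻¹) * (Y * Y⁻¹) * (a * b * c) by ac_rfl]
  simp

theorem cg2 {G : Type*} [CommGroup G] (Y a c : G) : Y * a * (Y⁻¹ * c) = a * c := by
  rw [show Y * a * (Y⁻¹ * c) = (Y * Y⁻¹) * (a * c) by ac_rfl]
  simp

theorem int_subring {Ω : Type*} [CommRing Ω] (A B : Subring Ω) (h : A ≤ B) {v : Ω}
    (hv : IsIntegral A v) : IsIntegral B v :=
  IsIntegral.map_of_comp_eq (Subring.inclusion h) (RingHom.id Ω) (RingHom.ext fun _ => rfl) hv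

theorem int_toSubring {k Ω : Type*} [CommRing k] [CommRing Ω] [Algebra k Ω] (A : Subalgebra k Ω)
    (v : Ω) : IsIntegral A v ↔ IsIntegral A.toSubring v := Iff.rfl

theorem adjoin_le {k Ω : Type*} [Field k] [Field Ω] [Algebra k Ω] (E : IntermediateField k Ω)
    (S : Set Ω) : ∀ x ∈ Algebra.adjoin k S, x ∈ Algebra.adjoin E S := by
  intro x hx
  induction hx using Algebra.adjoin_induction with
  | mem x hx => exact Algebra.subset_adjoin hx
  | algebraMap r =>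
    have : algebraMap k Ω r = algebraMap E Ω (algebraMap k E r) :=
      IsScalarTower.algebraMap_apply k E Ω r
    rw [this]
    exact Subalgebra.algebraMap_mem _ _
  | add x y _ _ hx hy => exact add_mem hx hy
  | mul x y _ _ hx hy => exact mul_mem hx hy

theorem int_of_mem {k Ω : Type*} [Field k] [Field Ω] [Algebra k Ω] (E : IntermediateField k Ω)
    (S : Set Ω) {g : Ω} (hg : g ∈ E) : IsIntegral (Algebra.adjoin E S) g := by
  have h8 : g ∈ Algebra.adjoin E S := Subalgebra.algebraMap_mem _ (⟨g, hg⟩ : E)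
  exact isIntegral_algebraMap (A := Ω) (x := (⟨g, h8⟩ : Algebra.adjoin E S))

theorem int_up {k Ω : Type*} [Field k] [Field Ω] [Algebra k Ω] (E : IntermediateField k Ω)
    (S : Set Ω) {g v s0 μ : Ω} {N : ℕ} (hg : g ∈ E) (hg0 : g ≠ 0)
    (hv : IsIntegral (Algebra.adjoin k S) v) (key : v = g * μ ^ N * s0) :
    IsIntegral (Algebra.adjoin E S) (s0 * μ ^ N) := by
  have hint : IsIntegral (Algebra.adjoin E S) v := by
    rw [int_toSubring] at hv ⊢
    exact int_subring _ _ (fun x hx => adjoin_le E S x hx) hv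
  have hg' : s0 * μ ^ N = g⁻¹ * v := by
    rw [key]
    field_simp
  rw [hg']
  exact IsIntegral.mul (int_of_mem E S (E.inv_mem hg)) hint

theorem key_alg {wa wb wc t t0 m g lam kap v s B Lx : ℂ} {a j0 N m' D E : ℕ} (hj : a + j0 < a + N)
    (hwa : wa ≠ 0) (hL : Lx ≠ 0) (e2 : wb = lam * wa) (e3 : wc = kap * wa)
    (r2 : wb * t = m * (wa * Lx ^ m'))
    (r3 : wa ^ (a + N - (a + j0)) * wc ^ (a + j0 - a) = g * wb ^ (a + N - a))
    (r4 : (kap * B) ^ j0 * t ^ N * t0 = v * Lx ^ D) (r5 : B ^ j0 * t0 = s * Lx ^ E)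
    (hDE : D = m' * N + E) : v = g * m ^ N * s := by
  subst hDE
  have r2' : lam * t = m * Lx ^ m' := by
    have : wa * (lam * t) = wa * (m * Lx ^ m') := by
      rw [e2] at r2
      linear_combination r2
    exact mul_left_cancel₀ hwa this
  have r3' : kap ^ j0 = g * lam ^ N := by
    have h1 : a + N - (a + j0) + (a + j0 - a) = N := by omega
    have h2 : a + N - a = N := by omega
    have h3 : a + j0 - a = j0 := by omega
    rw [h2, h3, e2, e3] at r3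
    have h4 : wa ^ N * kap ^ j0 = wa ^ N * (g * lam ^ N) := by
      have h5 : wa ^ N = wa ^ (a + N - (a + j0)) * wa ^ j0 := by
        rw [← pow_add]
        congr 1
        omega
      rw [h5]
      rw [mul_pow, mul_pow, h5] at r3
      linear_combination r3
    exact mul_left_cancel₀ (pow_ne_zero _ hwa) h4
  refine mul_right_cancel₀ (pow_ne_zero (m' * N + E) hL) ?_
  have h7 : (lam * t) ^ N = m ^ N * (Lx ^ m') ^ N := by rw [r2', mul_pow]
  rw [← r4, mul_pow, r3']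
  calc g * lam ^ N * B ^ j0 * t ^ N * t0
      = g * (lam * t) ^ N * (B ^ j0 * t0) := by rw [mul_pow]; ring
    _ = g * (m ^ N * (Lx ^ m') ^ N) * (s * Lx ^ E) := by rw [h7, r5]
    _ = _ := by rw [pow_add, pow_mul]; ring

section Lam

variable [T2Space M] [ConnectedSpace M]

/-- **`λ τ / L^{m'}` is integral over `FF[F / L]`**, relation on a dense open set -/
theorem int_lam' (P : ProjD A)
    (hfd : ∀ k : ℕ, FiniteDimensional ℂ (HS (lb P ^ k) univ)) {m0 : ℕ}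
    (hV : ∀ m, m0 ≤ m → ∀ q, 1 ≤ q → Solv (lb P ^ m) q)
    {σ : Type} [Fintype σ] [DecidableEq σ] {L : LB A} {K : Set ℕ} (hK : K.Infinite)
    {w : ℕ → A.ι → M → (σ → FI n) → ℂ} (hw : ∀ k ∈ K, TS σ (L ^ k) (w k))
    (h0 : ∀ k ∈ K, w k ≠ 0) (hp : ∀ k ∈ K, ∀ l ∈ K, Cram_747.Prp (w k) (w l))
    {a j0 : ℕ} (ha : a ∈ K) (hb : a + j0 ∈ K) (hj : 0 < j0)
    {m' : ℕ} {τ : A.ι → M → ℂ} (hτ : IsHS ((L ^ j0)⁻¹ * lb P ^ m') univ τ)
    {m'' : ℕ} {τ0 : A.ι → M → ℂ} (hτ0 : IsHS ((L ^ (a * j0))⁻¹ * lb P ^ m'') univ τ0)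
    (hτ00 : τ0 ≠ 0) (l : Fin (P.N + 1) → ℂ) (hl : lf (fun k => sec P k) l ≠ 0)
    {ρ : Fin (P.N + 1) → Mer A} (hρ : ∀ k, RelS (ρ k) (sec P k) (lf (fun k => sec P k) l))
    {μ : Mer A} {S0 : Set M} (hS0 : S0 ∈ dn M)
    (hμ : ∀ i, ∀ x ∈ (A.e i).source, x ∈ S0 → x ∈ reg μ → ∀ F,
      w (a + j0) i x F * τ i x = ev μ x * (w a i x F * lf (fun k => sec P k) l i x ^ m')) :
    IsIntegral (Algebra.adjoin (FF (hw a ha) (h0 a ha)) (Set.range ρ)) μ := by
  obtain ⟨m, β, hβ, -, hβ0, hβl, -⟩ := exists_beta' P (hw a ha) (h0 a ha)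
  set b := a + j0 with hbdef
  set FS : Fin (P.N + 1) → A.ι → M → ℂ := fun k => sec P k with hFS
  have hF : ∀ k, IsHS (lb P) univ (FS k) := isHS_sec P
  have hLs : IsHS (lb P) univ (lf FS l) := isHS_lf hF l
  have hsa := hβ _ _ (hw a ha)
  -- the fixed factor
  have hs0 : IsHS (lb P ^ (m * j0 + m'')) univ (pw (β (w a)) j0 * τ0) := by
    have h1 := (isHS_pw hsa j0).mul hτ0
    have e : (L ^ a * lb P ^ m) ^ j0 * ((L ^ (a * j0))⁻¹ * lb P ^ m'') =
        lb P ^ (m * j0 + m'') := by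
      rw [mul_pow, ← pow_mul, ← pow_mul, cg2, ← pow_add]
    rwa [e] at h1
  have hLp0 : ∀ d, Lp FS l d ≠ 0 := by
    intro d h
    obtain ⟨x, -, hx⟩ := exists_mem_of_dn (dn_nz hLs hl) isOpen_univ (univ_nonempty (α := M))
    have hx := mem_of_mem_nhds hx
    obtain ⟨i, hi⟩ := A.cover x
    have h1 := (mem_nz hLs hi).1 hx
    have h2 := Lp_apply FS l d hi
    rw [h] at h2
    exact pow_ne_zero d h1 h2.symm
  obtain ⟨s0, hs0r⟩ := exists_relS hs0 (isHS_Lp hF l (m * j0 + m'')) (hLp0 _)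
  have hs00 : s0 ≠ 0 := by
    refine relS_ne_zero hs0 hs0r ?_
    refine mul_ne0 (isHS_pw hsa j0) hτ0 ?_ hτ00
    intro h
    obtain ⟨x, -, hx⟩ := exists_mem_of_dn (dn_nz hsa hβ0) isOpen_univ (univ_nonempty (α := M))
    have hx := mem_of_mem_nhds hx
    obtain ⟨i, hi⟩ := A.cover x
    have h1 := (mem_nz hsa hi).1 hx
    have h2 := pw_apply (β (w a)) j0 hi
    rw [h] at h2
    exact pow_ne_zero j0 h1 h2.symm
  refine R4Alg769.r4alg (F := FF (hw a ha) (h0 a ha)) _ ?_ hs00 ?_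
  · exact ⟨(Set.finite_range ρ).toFinset, by rw [Set.Finite.coe_toFinset]⟩
  refine Set.infinite_of_forall_exists_gt fun B => ?_
  obtain ⟨c, hc, hcB⟩ := hK.exists_gt (b + B)
  have hbc : b < c := by omega
  have hab : a < b := by omega
  obtain ⟨N, rfl⟩ : ∃ N, c = a + N := ⟨c - a, by omega⟩
  refine ⟨N, ?_, by omega⟩
  obtain ⟨g, hg, hg0, hgr⟩ := exists_f (k0 := a) (hw a ha) (h0 a ha) hab hbc (hw a ha) (hw b hb)
    (hw _ hc) (h0 a ha) (h0 b hb) (h0 _ hc) (hp a ha a ha) (hp b hb a ha) (hp _ hc a ha)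
  have ht : IsHS (lb P ^ (m * j0 + m' * N + m'')) univ
      (pw (β (w (a + N))) j0 * pw τ N * τ0) := by
    have h1 := ((isHS_pw (hβ _ _ (hw _ hc)) j0).mul (isHS_pw hτ N)).mul hτ0
    have e : (L ^ (a + N) * lb P ^ m) ^ j0 * ((L ^ j0)⁻¹ * lb P ^ m') ^ N *
        ((L ^ (a * j0))⁻¹ * lb P ^ m'') = lb P ^ (m * j0 + m' * N + m'') := by
      have e1 : (L ^ (a + N)) ^ j0 = (L ^ j0) ^ N * L ^ (a * j0) := by
        rw [← pow_mul, ← pow_mul, ← pow_add]
        congr 1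
        ring
      rw [mul_pow, mul_pow, e1, inv_pow, cg3, ← pow_mul, ← pow_mul, ← pow_add, ← pow_add]
    rwa [e] at h1
  obtain ⟨v, hv⟩ := exists_relS ht (isHS_Lp hF l _) (hLp0 _)
  have hvi := int_of_sec hF (fun i x hx => SerC_945.exists_sec_ne' P i x hx) hfd hV l hl hρ ht hv
  -- the identity
  have key : v = g * μ ^ N * s0 := by
    refine eq_of_dn (inter_mem (inter_mem (dn_nz hsa hβ0) (dn_nz hLs hl))
      (inter_mem (inter_mem (inter_mem (dn_reg μ) hS0) (dn_reg g)) (dn_reg s0))) ?_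
    rintro x ⟨⟨hxa, hxL⟩, ⟨⟨hxμ, hxS⟩, hxg⟩, hxs⟩ hxv -
    obtain ⟨i, hi⟩ := A.cover x
    have q1 : β (w a) i x ≠ 0 := (mem_nz hsa hi).1 hxa
    have q2 : lf FS l i x ≠ 0 := (mem_nz hLs hi).1 hxL
    -- a nonzero component of `w a`
    have hwa : w a i x ≠ 0 := by
      intro h
      apply q1
      have := hβl i x 0 (w a) (w a) (by rw [h, smul_zero])
      rw [this, zero_mul]
    obtain ⟨F, hFne⟩ := Function.ne_iff.1 hwa
    have hFne : w a i x F ≠ 0 := hFne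
    have hbx : w b i x = (w b i x F / w a i x F) • w a i x := by
      funext G
      rw [Pi.smul_apply, smul_eq_mul, div_mul_eq_mul_div, eq_div_iff hFne]
      exact hp b hb a ha i x G F
    have hcx : w (a + N) i x = (w (a + N) i x F / w a i x F) • w a i x := by
      funext G
      rw [Pi.smul_apply, smul_eq_mul, div_mul_eq_mul_div, eq_div_iff hFne]
      exact hp _ hc a ha i x G F
    have r1 := hβl i x _ _ _ hcx
    have r2 := hμ i x hi hxS hxμ F
    have r3 := hgr i x hi hxg (fun p => F p.2)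
    rw [num_apply hab hbc, den_apply] at r3
    have r4 := hv i x hi hxv
    have r5 := hs0r i x hi hxs
    rw [Lp_apply FS l _ hi] at r4 r5
    simp only [Pi.mul_apply] at r4 r5
    rw [pw_apply _ _ hi] at r4 r5
    rw [pw_apply _ _ hi, r1] at r4
    rw [(reg_mul (reg_mul hxg (ev_pow hxμ N).1).1 hxs).2, (reg_mul hxg (ev_pow hxμ N).1).2,
      (ev_pow hxμ N).2]
    exact key_alg (a := a) (j0 := j0) hbc hFne q2 (div_mul_cancel₀ _ hFne).symm
      (div_mul_cancel₀ _ hFne).symm r2 r3 r4 r5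
      (by ring)
  exact int_up _ _ hg hg0 hvi key

/-- **`λ τ / L^{m'}` is integral over `FF[F / L]`** -/
theorem int_lam (P : ProjD A)
    (hfd : ∀ k : ℕ, FiniteDimensional ℂ (HS (lb P ^ k) univ)) {m0 : ℕ}
    (hV : ∀ m, m0 ≤ m → ∀ q, 1 ≤ q → Solv (lb P ^ m) q)
    {σ : Type} [Fintype σ] [DecidableEq σ] {L : LB A} {K : Set ℕ} (hK : K.Infinite)
    {w : ℕ → A.ι → M → (σ → FI n) → ℂ} (hw : ∀ k ∈ K, TS σ (L ^ k) (w k))
    (h0 : ∀ k ∈ K, w k ≠ 0) (hp : ∀ k ∈ K, ∀ l ∈ K, Cram_747.Prp (w k) (w l))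
    {a j0 : ℕ} (ha : a ∈ K) (hb : a + j0 ∈ K) (hj : 0 < j0)
    {m' : ℕ} {τ : A.ι → M → ℂ} (hτ : IsHS ((L ^ j0)⁻¹ * lb P ^ m') univ τ)
    {m'' : ℕ} {τ0 : A.ι → M → ℂ} (hτ0 : IsHS ((L ^ (a * j0))⁻¹ * lb P ^ m'') univ τ0)
    (hτ00 : τ0 ≠ 0) (l : Fin (P.N + 1) → ℂ) (hl : lf (fun k => sec P k) l ≠ 0)
    {ρ : Fin (P.N + 1) → Mer A} (hρ : ∀ k, RelS (ρ k) (sec P k) (lf (fun k => sec P k) l))
    {μ : Mer A} (hμ : ∀ i, ∀ x ∈ (A.e i).source, x ∈ reg μ → ∀ F,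
      w (a + j0) i x F * τ i x = ev μ x * (w a i x F * lf (fun k => sec P k) l i x ^ m')) :
    IsIntegral (Algebra.adjoin (FF (hw a ha) (h0 a ha)) (Set.range ρ)) μ :=
  int_lam' P hfd hV hK hw h0 hp ha hb hj hτ hτ0 hτ00 l hl hρ univ_mem
    fun i x hi _ hx => hμ i x hi hx

end Lam

end

end Crest.Agent.R273.FF769
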