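import Mathlib

/-!
# R273, leaf A-R4 (helper769), part 2: relations with polynomial coefficients

* `rel_of_int` : an element integral over `ℂ(y)[ρ]` satisfies `q(y) μ^D + ∑ R_i(y, ρ) μ^i = 0`
* `bound`      : the roots are bounded for `y` fixed, `|ρ| ≤ 1`
-/

set_option autoImplicit false

open MvPolynomial

namespace Crest.Agent.R273.R4B769

theorem coef {Ω : Type*} [Field Ω] [Algebra ℂ Ω] {N r : ℕ} (y : Fin N → Ω) (ρ : Fin r → Ω) :
    ∀ c ∈ Algebra.adjoin (IntermediateField.adjoin ℂ (Set.range y)) (Set.range ρ),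
      ∃ (q : MvPolynomial (Fin N) ℂ) (R : MvPolynomial (Fin N ⊕ Fin r) ℂ), aeval y q ≠ 0 ∧
        aeval y q * c = aeval (Sum.elim y ρ) R := by
  have hin : ∀ q : MvPolynomial (Fin N) ℂ, aeval (Sum.elim y ρ) (rename Sum.inl q) = aeval y q := by
    intro q
    rw [aeval_rename]
    rfl
  intro c hc
  induction hc using Algebra.adjoin_induction with
  | mem x hx =>
    obtain ⟨k, rfl⟩ := hx
    refine ⟨1, X (Sum.inr k), by simp, by simp⟩
  | algebraMap e =>
    obtain ⟨e, he⟩ := e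
    obtain ⟨a, b, hab⟩ := (IntermediateField.mem_adjoin_range_iff ℂ y e).1 he
    by_cases hb : aeval y b = 0
    · refine ⟨1, 0, by simp, ?_⟩
      have : e = 0 := by rw [hab, hb, div_zero]
      simp only [map_one, one_mul, map_zero]
      show e = 0
      exact this
    · refine ⟨b, rename Sum.inl a, hb, ?_⟩
      rw [hin]
      show aeval y b * e = _
      rw [hab, mul_div_cancel₀ _ hb]
  | add c c' _ _ h h' =>
    obtain ⟨q, R, h0, h1⟩ := h
    obtain ⟨q', R', h0', h1'⟩ := h'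
    refine ⟨q * q', rename Sum.inl q' * R + rename Sum.inl q * R', ?_, ?_⟩
    · rw [map_mul]; exact mul_ne_zero h0 h0'
    · rw [map_mul, map_add, map_mul, map_mul, hin, hin, ← h1, ← h1']
      ring
  | mul c c' _ _ h h' =>
    obtain ⟨q, R, h0, h1⟩ := h
    obtain ⟨q', R', h0', h1'⟩ := h'
    refine ⟨q * q', R * R', ?_, ?_⟩
    · rw [map_mul]; exact mul_ne_zero h0 h0'
    · rw [map_mul, map_mul, ← h1, ← h1']
      ring

theorem rel_of_int {Ω : Type*} [Field Ω] [Algebra ℂ Ω] {N r : ℕ} (y : Fin N → Ω) (ρ : Fin r → Ω)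
    {μ : Ω}
    (h : IsIntegral (Algebra.adjoin (IntermediateField.adjoin ℂ (Set.range y)) (Set.range ρ)) μ) :
    ∃ (D : ℕ) (q : MvPolynomial (Fin N) ℂ) (R : Fin D → MvPolynomial (Fin N ⊕ Fin r) ℂ),
      aeval y q ≠ 0 ∧
        aeval y q * μ ^ D + ∑ i, aeval (Sum.elim y ρ) (R i) * μ ^ (i : ℕ) = 0 := by
  have hin : ∀ q : MvPolynomial (Fin N) ℂ, aeval (Sum.elim y ρ) (rename Sum.inl q) = aeval y q := by
    intro q
    rw [aeval_rename]
    rfl
  obtain ⟨p, hp, hp0⟩ := h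
  have hc : ∀ i : Fin p.natDegree, ∃ (q : MvPolynomial (Fin N) ℂ)
      (R : MvPolynomial (Fin N ⊕ Fin r) ℂ), aeval y q ≠ 0 ∧
        aeval y q * ((p.coeff i : Algebra.adjoin (IntermediateField.adjoin ℂ (Set.range y))
          (Set.range ρ)) : Ω) = aeval (Sum.elim y ρ) R := fun i => coef y ρ _ (p.coeff i).2
  choose q R hq hR using hc
  refine ⟨p.natDegree, ∏ i, q i, fun i => rename Sum.inl (∏ j ∈ Finset.univ.erase i, q j) * R i,
    ?_, ?_⟩
  · rw [map_prod]
    exact Finset.prod_ne_zero_iff.2 fun i _ => hq i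
  · rw [Polynomial.eval₂_eq_sum_range, Finset.sum_range_succ] at hp0
    have h1 : p.coeff p.natDegree = 1 := hp
    rw [h1, map_one, one_mul, Finset.sum_range] at hp0
    have h2 : ∀ i : Fin p.natDegree, aeval (Sum.elim y ρ)
        (rename Sum.inl (∏ j ∈ Finset.univ.erase i, q j) * R i) * μ ^ (i : ℕ) =
        aeval y (∏ i, q i) * (((p.coeff i : Algebra.adjoin (IntermediateField.adjoin ℂ
          (Set.range y)) (Set.range ρ)) : Ω) * μ ^ (i : ℕ)) := by
      intro i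
      rw [map_mul, hin, ← hR i, ← Finset.mul_prod_erase Finset.univ q (Finset.mem_univ i), map_mul]
      ring
    rw [Finset.sum_congr rfl fun i _ => h2 i, ← Finset.mul_sum, ← mul_add]
    have h3 : μ ^ p.natDegree + ∑ i : Fin p.natDegree,
        ((p.coeff i : Algebra.adjoin (IntermediateField.adjoin ℂ (Set.range y))
          (Set.range ρ)) : Ω) * μ ^ (i : ℕ) = 0 := by
      rw [add_comm]
      exact hp0
    rw [h3, mul_zero]

/-- a bound for a polynomial on a bounded set -/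
theorem eval_bdd {κ : Type*} [Finite κ] (R : MvPolynomial κ ℂ) (B : ℝ) :
    ∃ C : ℝ, 0 ≤ C ∧ ∀ v : κ → ℂ, (∀ k, ‖v k‖ ≤ B) → ‖eval v R‖ ≤ C := by
  induction R using MvPolynomial.induction_on with
  | C a => exact ⟨‖a‖, norm_nonneg _, fun v _ => by rw [eval_C]⟩
  | add p q hp hq =>
    obtain ⟨C, hC, h⟩ := hp
    obtain ⟨C', hC', h'⟩ := hq
    refine ⟨C + C', by positivity, fun v hv => ?_⟩
    rw [map_add]
    exact (norm_add_le _ _).trans (add_le_add (h v hv) (h' v hv))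
  | mul_X p k hp =>
    obtain ⟨C, hC, h⟩ := hp
    refine ⟨C * max B 0, by positivity, fun v hv => ?_⟩
    rw [map_mul, eval_X, norm_mul]
    exact mul_le_mul (h v hv) ((hv k).trans (le_max_left _ _)) (norm_nonneg _) hC

theorem bound {N r D : ℕ} (q : MvPolynomial (Fin N) ℂ) (R : Fin D → MvPolynomial (Fin N ⊕ Fin r) ℂ)
    (η : Fin N → ℂ) (hq : eval η q ≠ 0) :
    ∃ b : ℝ, 0 ≤ b ∧ ∀ ρ : Fin r → ℂ, (∀ k, ‖ρ k‖ ≤ 1) → ∀ μ : ℂ,
      eval η q * μ ^ D + ∑ i, eval (Sum.elim η ρ) (R i) * μ ^ (i : ℕ) = 0 → ‖μ‖ ≤ b := by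
  set B : ℝ := (∑ k, ‖η k‖) + 1 with hB
  have hB0 : 0 ≤ ∑ k, ‖η k‖ := Finset.sum_nonneg fun _ _ => norm_nonneg _
  choose C hC0 hC using fun i => eval_bdd (R i) B
  have hq0 : 0 < ‖eval η q‖ := norm_pos_iff.2 hq
  have hS0 : 0 ≤ ∑ i, C i := Finset.sum_nonneg fun i _ => hC0 i
  refine ⟨1 + (∑ i, C i) / ‖eval η q‖, by positivity, fun ρ hρ μ hμ => ?_⟩
  by_contra hcon
  push Not at hcon
  have h1 : 1 ≤ ‖μ‖ := by
    have : 0 ≤ (∑ i, C i) / ‖eval η q‖ := by positivity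
    linarith
  have h2 : ‖eval η q‖ * ‖μ‖ ^ D ≤ (∑ i, C i) * ‖μ‖ ^ (D - 1) := by
    have h3 : eval η q * μ ^ D = -∑ i, eval (Sum.elim η ρ) (R i) * μ ^ (i : ℕ) :=
      eq_neg_of_add_eq_zero_left hμ
    rw [← norm_pow, ← norm_mul, h3, norm_neg, Finset.sum_mul]
    refine (norm_sum_le _ _).trans (Finset.sum_le_sum fun i _ => ?_)
    rw [norm_mul, norm_pow]
    refine mul_le_mul (hC i _ ?_) (pow_le_pow_right₀ h1 (by omega)) (by positivity) (hC0 i)
    rintro (k | k)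
    · show ‖η k‖ ≤ B
      have := Finset.single_le_sum (f := fun k => ‖η k‖) (fun _ _ => norm_nonneg _)
        (Finset.mem_univ k)
      linarith
    · show ‖ρ k‖ ≤ B
      exact (hρ k).trans (by linarith)
  rcases Nat.eq_zero_or_pos D with rfl | hD
  · simp at hμ
    exact hq hμ
  · have h4 : ‖μ‖ ^ D = ‖μ‖ ^ (D - 1) * ‖μ‖ := by
      rw [← pow_succ, Nat.sub_add_cancel hD]
    rw [h4] at h2
    have h5 : 0 < ‖μ‖ ^ (D - 1) := by positivity
    have h6 : ‖eval η q‖ * ‖μ‖ ≤ ∑ i, C i := by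
      by_contra h7
      push Not at h7
      have := mul_lt_mul_of_pos_right h7 h5
      linarith
    have h7 : ‖μ‖ ≤ (∑ i, C i) / ‖eval η q‖ := by
      rw [le_div_iff₀ hq0, mul_comm]
      exact h6
    linarith

end Crest.Agent.R273.R4B769
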