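import Mathlib

/-!
# R273 (S0416), A-SIEGEL part 3 (helper101): the growth condition, pure algebra

* `SG n K`     : the number of linearly independent monomials with exponents `≤ e` in elements
                 `y i` of `K` is at most `N (∑ e i * c (y i) + 2) ^ n`
* `not_algInd` : no `n + 1` algebraically independent elements
* `trdeg_le`   : `Algebra.trdeg ℂ K ≤ n`
* `fd`         : `y : Fin n → K` algebraically independent ⇒ `K` is finite over `ℂ(y)`
* `essFin`     : ... and then `K` is a finitely generated field extension of `ℂ`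
-/

set_option autoImplicit false
set_option linter.unusedSectionVars false

open Set Cardinal

namespace Crest.Agent.R273.Sg3_101

noncomputable section

/-- the growth condition -/
def SG (n : ℕ) (K : Type) [Field K] [Algebra ℂ K] : Prop :=
  ∃ (N : ℕ) (c : K → ℕ), ∀ (κ J : Type) [Fintype κ] [Fintype J] (y : κ → K) (e : κ → ℕ)
    (a : J → κ → ℕ), (∀ j i, a j i ≤ e i) → LinearIndependent ℂ (fun j => ∏ i, y i ^ a j i) →
    Fintype.card J ≤ N * (∑ i, e i * c (y i) + 2) ^ n

variable {n : ℕ} {K : Type} [Field K] [Algebra ℂ K]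

/-- monomials in algebraically independent elements are linearly independent -/
theorem li_mono {m : ℕ} {y : Fin m → K} (hy : AlgebraicIndependent ℂ y) {J : Type}
    (a : J → Fin m → ℕ) (ha : Function.Injective a) :
    LinearIndependent ℂ (fun j => ∏ i, y i ^ a j i) := by
  have h1 : LinearIndependent ℂ (fun s : Fin m →₀ ℕ => MvPolynomial.monomial s (1 : ℂ)) := by
    have := (MvPolynomial.basisMonomials (Fin m) ℂ).linearIndependent
    rwa [MvPolynomial.coe_basisMonomials] at this
  have h2 : LinearIndependent ℂ (fun s : Fin m →₀ ℕ =>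
      (MvPolynomial.aeval y).toLinearMap (MvPolynomial.monomial s (1 : ℂ))) :=
    h1.map' _ (LinearMap.ker_eq_bot.2 hy)
  have h3 := h2.comp (fun j => Finsupp.equivFunOnFinite.symm (a j))
    (Finsupp.equivFunOnFinite.symm.injective.comp ha)
  convert h3 using 1
  funext j
  simp [MvPolynomial.aeval_monomial, Finsupp.prod_fintype]

theorem not_algInd (h : SG n K) (y : Fin (n + 1) → K) : ¬ AlgebraicIndependent ℂ y := by
  intro hy
  obtain ⟨N, c, h⟩ := h
  set C := ∑ i, c (y i) with hC
  set d := N * (C + 2) ^ n with hd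
  have h1 := h (Fin (n + 1)) (Fin (n + 1) → Fin (d + 1)) y (fun _ => d)
    (fun α i => (α i : ℕ)) (fun α i => Nat.lt_succ_iff.1 (α i).2)
    (li_mono hy _ (fun α β hab => funext fun i => Fin.ext (congrFun hab i)))
  rw [Fintype.card_fun, Fintype.card_fin, Fintype.card_fin, ← Finset.mul_sum, ← hC] at h1
  have h2 : d * C + 2 ≤ (C + 2) * (d + 1) := by nlinarith
  have h3 : (d + 1) ^ (n + 1) ≤ d * (d + 1) ^ n := by
    calc (d + 1) ^ (n + 1) ≤ N * (d * C + 2) ^ n := h1
      _ ≤ N * ((C + 2) * (d + 1)) ^ n := by gcongr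
      _ = d * (d + 1) ^ n := by rw [mul_pow, ← mul_assoc, ← hd]
  rw [pow_succ, mul_comm] at h3
  have h4 : 0 < (d + 1) ^ n := by positivity
  have h5 := Nat.le_of_mul_le_mul_right h3 h4
  omega

theorem trdeg_le (h : SG n K) : Algebra.trdeg ℂ K ≤ n := by
  unfold Algebra.trdeg
  refine ciSup_le' fun s => ?_
  by_contra hcon
  push Not at hcon
  have h1 : ((n + 1 : ℕ) : Cardinal) ≤ #s.1 := by
    have := Order.succ_le_of_lt hcon
    rwa [← Cardinal.nat_succ] at this
  have h2 : #(Fin (n + 1)) ≤ #s.1 := by simpa using h1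
  obtain ⟨f⟩ := Cardinal.le_def _ _ |>.1 h2
  exact not_algInd h (fun k => (f k).1) (s.2.comp f f.injective)

theorem rank_bound (h : SG n K) {y : Fin n → K} (hy : AlgebraicIndependent ℂ y) :
    ∃ B : ℕ, ∀ (J : Type) [Fintype J] (w : J → K),
      LinearIndependent (IntermediateField.adjoin ℂ (range y)) w → Fintype.card J ≤ B := by
  classical
  obtain ⟨N, c, h⟩ := h
  set C := ∑ i, c (y i) with hC
  refine ⟨N * (C + 1) ^ n, fun J _ w hw => ?_⟩
  set C' := ∑ j, c (w j) with hC'
  set d := C' + 2 with hd
  set F := IntermediateField.adjoin ℂ (range y) with hF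
  set yF : Fin n → F := fun i => ⟨y i, IntermediateField.subset_adjoin ℂ _ (mem_range_self i)⟩
    with hyF
  have h1 : LinearIndependent ℂ (fun α : Fin n → Fin (d + 1) => ∏ i, yF i ^ (α i : ℕ)) := by
    have h2 := li_mono hy (fun (α : Fin n → Fin (d + 1)) i => (α i : ℕ))
      (fun α β hab => funext fun i => Fin.ext (congrFun hab i))
    refine LinearIndependent.of_comp F.val.toLinearMap ?_
    convert h2 using 1
    funext α
    simp [hyF]
  have h3 := linearIndependent_smul h1 hw
  have h4 := h (Fin n ⊕ J) ((Fin n → Fin (d + 1)) × J) (Sum.elim y w)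
    (Sum.elim (fun _ => d) (fun _ => 1))
    (fun p => Sum.elim (fun i => (p.1 i : ℕ)) (fun j => if j = p.2 then 1 else 0)) ?_ ?_
  · rw [Fintype.card_prod, Fintype.card_fun, Fintype.card_fin, Fintype.card_fin,
      Fintype.sum_sum_type] at h4
    simp only [Sum.elim_inl, Sum.elim_inr, one_mul] at h4
    rw [← Finset.mul_sum, ← hC, ← hC'] at h4
    have h5 : d * C + C' + 2 ≤ (C + 1) * (d + 1) := by
      rw [hd]; nlinarith
    have h6 : (d + 1) ^ n * Fintype.card J ≤ (d + 1) ^ n * (N * (C + 1) ^ n) := by
      calc (d + 1) ^ n * Fintype.card J ≤ N * (d * C + C' + 2) ^ n := h4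
        _ ≤ N * ((C + 1) * (d + 1)) ^ n := by gcongr
        _ = (d + 1) ^ n * (N * (C + 1) ^ n) := by rw [mul_pow]; ring
    exact Nat.le_of_mul_le_mul_left h6 (by positivity)
  · rintro ⟨α, j⟩ (i | j')
    · exact Nat.lt_succ_iff.1 (α i).2
    · show (if j' = j then 1 else 0) ≤ 1
      split_ifs <;> omega
  · convert h3 using 1
    funext p
    rw [Fintype.prod_sum_type]
    simp only [Sum.elim_inl, Sum.elim_inr]
    have h7 : ∏ j, w j ^ (if j = p.2 then 1 else 0) = w p.2 := by
      rw [Finset.prod_eq_single p.2]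
      · simp
      · intro j _ hj
        rw [if_neg hj, pow_zero]
      · intro hj
        exact absurd (Finset.mem_univ _) hj
    rw [h7, Algebra.smul_def]
    congr 1
    simp [hyF]

theorem fd (h : SG n K) {y : Fin n → K} (hy : AlgebraicIndependent ℂ y) :
    Module.Finite (IntermediateField.adjoin ℂ (range y)) K := by
  obtain ⟨B, hB⟩ := rank_bound h hy
  have h1 : Module.rank (IntermediateField.adjoin ℂ (range y)) K ≤ B := by
    refine rank_le fun s hs => ?_
    have := hB s _ hs
    rwa [Fintype.card_coe] at this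
  exact Module.rank_lt_aleph0_iff.1 (h1.trans_lt (Cardinal.natCast_lt_aleph0))

theorem essFin (h : SG n K) {y : Fin n → K} (hy : AlgebraicIndependent ℂ y) :
    Algebra.EssFiniteType ℂ K := by
  have := fd h hy
  have : Algebra.EssFiniteType ℂ (IntermediateField.adjoin ℂ (range y)) := by
    rw [IntermediateField.essFiniteType_iff]
    exact ⟨(finite_range y).toFinset, by rw [Set.Finite.coe_toFinset]⟩
  exact Algebra.EssFiniteType.comp ℂ (IntermediateField.adjoin ℂ (range y)) K

end

end Crest.Agent.R273.Sg3_101
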