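import Crest.Agent.R273.Sg2_101
import Crest.Agent.R273.Sg3_101
import Crest.Agent.R273.Beta_769

/-!
# R273 (S0416), A-SIEGEL part 4 (helper101): transcendence degree of the field `KK A`

* `sg_KK`      : the growth condition for helper769's field `KK A` (quotients of sections)
* `trdeg_le`   : `Algebra.trdeg ℂ (KK A) ≤ n`
* `not_algInd` : `n + 1` elements of `KK A` are algebraically dependent
* `fd_KK`, `essFin_KK` : if `y : Fin n → KK A` is algebraically independent, `KK A` is finite over
  `ℂ(y)` and finitely generated over `ℂ`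
-/

set_option autoImplicit false
set_option linter.unusedSectionVars false

open Set Filter Topology Complex

namespace Crest.Agent.R273.Sg4_101

open Crest.Agent.R275.Geo Crest.Agent.R275.Core144
open Crest.Agent.R273.Sg2_101 Crest.Agent.R273.Sg3_101
open Crest.Agent.R273.Mer769 Crest.Agent.R273.FF769

noncomputable section

variable {n : ℕ} {M : Type} [TopologicalSpace M] {A : Atl n M}

theorem ev_aeval [ConnectedSpace M] {κ : Type} (y : κ → Mer A) {x : M} (hx : ∀ k, x ∈ reg (y k))
    (p : MvPolynomial κ ℂ) : x ∈ reg (MvPolynomial.aeval y p) ∧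
      ev (MvPolynomial.aeval y p) x = MvPolynomial.eval (fun k => ev (y k) x) p := by
  set yl : κ → loc A x := fun k => ⟨y k, hx k⟩ with hyl
  have h1 : MvPolynomial.aeval y p = ((MvPolynomial.aeval yl p : loc A x) : Mer A) := by
    have h2 := MvPolynomial.comp_aeval_apply yl (loc A x).val p
    exact h2.symm
  rw [h1]
  refine ⟨(MvPolynomial.aeval yl p).2, ?_⟩
  rw [← evH_apply, MvPolynomial.comp_aeval_apply, MvPolynomial.aeval_eq_eval]
  rfl

theorem exists_all_ne [ConnectedSpace M] {κ : Type} [Fintype κ] {L : κ → LB A}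
    {t : κ → A.ι → M → ℂ} (ht : ∀ k, IsHS (L k) univ (t k)) (h0 : ∀ k, t k ≠ 0) :
    ∃ i, ∃ x ∈ (A.e i).source, ∀ k, t k i x ≠ 0 := by
  classical
  have h1 : ∀ s : Finset κ, IsHS (∏ k ∈ s, L k) univ (oneS A * ∏ k ∈ s, t k) ∧
      (oneS A * ∏ k ∈ s, t k) ≠ 0 := by
    intro s
    induction s using Finset.induction_on with
    | empty =>
      rw [Finset.prod_empty, Finset.prod_empty, mul_one]
      refine ⟨isHS_oneS univ, fun h => ?_⟩
      obtain ⟨x⟩ := (inferInstance : Nonempty M)
      obtain ⟨i, hi⟩ := A.cover x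
      have h1 := congrFun (congrFun h i) x
      simp [oneS, hi] at h1
    | insert k s hk ih =>
      rw [Finset.prod_insert hk, Finset.prod_insert hk]
      have h2 : oneS A * (t k * ∏ k ∈ s, t k) = t k * (oneS A * ∏ k ∈ s, t k) := by ring
      rw [h2]
      exact ⟨(ht k).mul ih.1, mul_ne0 (ht k) ih.1 (h0 k) ih.2⟩
  obtain ⟨h2, h3⟩ := h1 Finset.univ
  obtain ⟨i, x, hi, hx⟩ := hs_nz h2 h3
  have h4 : (oneS A * ∏ k, t k) i x ≠ 0 := fun h => hx (funext fun _ => h)
  refine ⟨i, x, hi, fun k hk => h4 ?_⟩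
  simp only [Pi.mul_apply, Finset.prod_apply]
  rw [Finset.prod_eq_zero (Finset.mem_univ k) hk, mul_zero]

open Classical in
/-- the product `∏ s_k ^ a_k t_k ^ (e_k - a_k)` -/
def mon {κ : Type} [Fintype κ] (s t : κ → A.ι → M → ℂ) (e a : κ → ℕ) : A.ι → M → ℂ := fun i x =>
  if x ∈ (A.e i).source then ∏ k, (s k i x ^ a k * t k i x ^ (e k - a k)) else 0

theorem isHS_mon {κ : Type} [Fintype κ] {L : κ → LB A} {s t : κ → A.ι → M → ℂ}
    (hs : ∀ k, IsHS (L k) univ (s k)) (ht : ∀ k, IsHS (L k) univ (t k)) {e a : κ → ℕ}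
    (ha : ∀ k, a k ≤ e k) : IsHS (∏ k, L k ^ e k) univ (mon s t e a) := by
  refine ⟨fun i => ?_, fun i x hx => if_neg hx, fun i j x hx _ => ?_⟩
  · have h1 : HolAt A i univ (fun x => ∏ k, (s k i x ^ a k * t k i x ^ (e k - a k))) :=
      HolAt.prod _ fun k _ => (((hs k).hol i).pow _).mul (((ht k).hol i).pow _)
    exact h1.congr fun x hx _ => (if_pos hx).symm
  · have h1 : (∏ k, L k ^ e k).g i j x = ∏ k, (L k).g i j x ^ e k := by
      rw [Cram_747.prod_g]
      exact Finset.prod_congr rfl fun k _ => HM_333.LB_pow_g _ _ _ _ _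
    show mon s t e a i x = (∏ k, L k ^ e k).g i j x * mon s t e a j x
    rw [h1]
    unfold mon
    rw [if_pos hx.1, if_pos hx.2, ← Finset.prod_mul_distrib]
    refine Finset.prod_congr rfl fun k _ => ?_
    rw [(hs k).tr i j x hx (mem_univ _), (ht k).tr i j x hx (mem_univ _), mul_pow, mul_pow]
    have h2 : (L k).g i j x ^ e k = (L k).g i j x ^ a k * (L k).g i j x ^ (e k - a k) := by
      rw [← pow_add]
      congr 1
      have := ha k
      omega
    rw [h2]
    ring

/-- **the growth condition for `KK A`** -/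
theorem sg_KK [ConnectedSpace M] [CompactSpace M] [T2Space M] (A : Atl n M) : SG n (KK A) := by
  classical
  obtain ⟨N, c, h⟩ := siegel A
  have hex : ∀ g : KK A, ∃ (L : LB A) (s t : A.ι → M → ℂ), IsHS L univ s ∧ IsHS L univ t ∧ t ≠ 0 ∧
    RelS g.1 s t := fun g => mem_KK.1 g.2
  choose L s t hs ht h0 hr using hex
  refine ⟨N, fun g => c (L g), fun κ J _ _ y e a ha hli => ?_⟩
  obtain ⟨hfin, hle⟩ := h κ Finset.univ (fun k => L (y k)) e
  set P : LB A := ∏ k, L (y k) ^ e k with hP
  have hS : ∀ j, IsHS P univ (mon (fun k => s (y k)) (fun k => t (y k)) e (a j)) := fun j =>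
    isHS_mon (fun k => hs (y k)) (fun k => ht (y k)) (ha j)
  have hT : IsHS P univ (mon (fun k => s (y k)) (fun k => t (y k)) e 0) :=
    isHS_mon (fun k => hs (y k)) (fun k => ht (y k)) (fun k => Nat.zero_le _)
  have hT0 : mon (fun k => s (y k)) (fun k => t (y k)) e 0 ≠ 0 := by
    obtain ⟨i, x, hi, hx⟩ := exists_all_ne (fun k => ht (y k)) (fun k => h0 (y k))
    intro hcon
    have h1 := congrFun (congrFun hcon i) x
    unfold mon at h1
    rw [if_pos hi] at h1
    have h2 : ∏ k, (s (y k) i x ^ (0 : κ → ℕ) k * t (y k) i x ^ (e k - (0 : κ → ℕ) k)) ≠ 0 := by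
      refine Finset.prod_ne_zero_iff.2 fun k _ => ?_
      simp only [Pi.zero_apply, pow_zero, one_mul]
      exact pow_ne_zero _ (hx k)
    exact h2 h1
  have hLI : LinearIndependent ℂ (fun j => (⟨_, hS j⟩ : HS P univ)) := by
    rw [Fintype.linearIndependent_iff]
    intro g hg
    have hg' : ∑ j, g j • mon (fun k => s (y k)) (fun k => t (y k)) e (a j) = 0 := by
      have h1 := congrArg Subtype.val hg
      simpa using h1
    set p : MvPolynomial κ ℂ := ∑ j, g j • ∏ k, MvPolynomial.X k ^ a j k with hp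
    have hrel : RelS (MvPolynomial.aeval (fun k => (y k).1) p)
        (∑ j, g j • mon (fun k => s (y k)) (fun k => t (y k)) e (a j))
        (mon (fun k => s (y k)) (fun k => t (y k)) e 0) := by
      refine relS_of_dn (N := P) ?_ hT ?_
      · rw [hg']
        exact IsHS.zero
      · have h1 : (⋂ k, reg (y k).1) ∈ dn M := by
          rw [Filter.iInter_mem]
          exact fun k => dn_reg _
        filter_upwards [h1] with x hx i hi _
        have hx' : ∀ k, x ∈ reg (y k).1 := mem_iInter.1 hx
        rw [(ev_aeval (fun k => (y k).1) hx' p).2, hp]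
        simp only [Finset.sum_apply, Pi.smul_apply, smul_eq_mul, map_sum, MvPolynomial.smul_eval,
          map_prod, map_pow, MvPolynomial.eval_X, Finset.sum_mul]
        refine Finset.sum_congr rfl fun j _ => ?_
        unfold mon
        rw [if_pos hi, if_pos hi, mul_assoc, ← Finset.prod_mul_distrib]
        congr 1
        refine Finset.prod_congr rfl fun k _ => ?_
        simp only [Pi.zero_apply, pow_zero, one_mul, Nat.sub_zero]
        rw [hr (y k) i x hi (hx' k), mul_pow]
        have h2 : t (y k) i x ^ e k = t (y k) i x ^ a j k * t (y k) i x ^ (e k - a j k) := by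
          rw [← pow_add]
          congr 1
          have := ha j k
          omega
        rw [h2]
        ring
    rw [hg'] at hrel
    have hz := relS_zero hT hT0 hrel
    have h3 : ∑ j, g j • ∏ k, y k ^ a j k = 0 := by
      refine Subtype.ext ?_
      rw [hp] at hz
      simpa using hz
    exact Fintype.linearIndependent_iff.1 hli g h3
  exact hLI.fintype_card_le_finrank.trans hle

theorem trdeg_le [ConnectedSpace M] [CompactSpace M] [T2Space M] (A : Atl n M) :
    Algebra.trdeg ℂ (KK A) ≤ n := Sg3_101.trdeg_le (sg_KK A)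

theorem not_algInd [ConnectedSpace M] [CompactSpace M] [T2Space M] (y : Fin (n + 1) → KK A) :
    ¬ AlgebraicIndependent ℂ y := Sg3_101.not_algInd (sg_KK A) y

theorem fd_KK [ConnectedSpace M] [CompactSpace M] [T2Space M] {y : Fin n → KK A}
    (hy : AlgebraicIndependent ℂ y) :
    Module.Finite (IntermediateField.adjoin ℂ (range y)) (KK A) := Sg3_101.fd (sg_KK A) hy

theorem essFin_KK [ConnectedSpace M] [CompactSpace M] [T2Space M] {y : Fin n → KK A}
    (hy : AlgebraicIndependent ℂ y) : Algebra.EssFiniteType ℂ (KK A) :=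
  Sg3_101.essFin (sg_KK A) hy

end

end Crest.Agent.R273.Sg4_101
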