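import Crest.Agent.R273.Beta_769

/-!
# R273 (S0416), Part A, HALF 2 (helper945): common denominators for elements of `FF`
-/

set_option autoImplicit false
set_option linter.unusedSectionVars false

open Set Filter Topology Complex
open scoped ContDiff Matrix ComplexConjugate

namespace Crest.Agent.R273.YDx3_945

open Crest.Agent.R275.Geo Crest.Agent.R275.Core144 Crest.Agent.R275.GC293
open Crest.Agent.R273.Rigid769 Crest.Agent.R273.Mer769 Crest.Agent.R273.FF769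
open Crest.Agent.R273.Cram_747 (TS KP tns tns_TS mnr tns_ne_zero)
open Crest.Agent.R273.Fock_243 (FI Gam)
open Crest.Agent.R273.Defs_333 (ProjD)
open Crest.Agent.R273.FS_333 (lb sec isHS_sec exists_sec_ne sec_eq)

noncomputable section

variable {n : ℕ} {M : Type} [TopologicalSpace M] {A : Atl n M}
variable {ρ : Type} [Fintype ρ] [DecidableEq ρ]

theorem bp_lin {s t : Fin n → A.ι → M → ℂ} (S : ρ → FI n) {τ u : A.ι → M → (ρ → FI n) → ℂ}
    {i : A.ι} {x : M} {c : ℂ} (h : τ i x = c • u i x) : bp s t S τ i x = c * bp s t S u i x := by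
  unfold bp
  rw [h, Matrix.mulVec_smul]
  rfl

/-- **A-BETA**, pointwise version -/
theorem exists_beta' [ConnectedSpace M] (P : ProjD A) {τ' : A.ι → M → (ρ → FI n) → ℂ} {N' : LB A}
    (hτ' : TS ρ N' τ') (h0 : τ' ≠ 0) :
    ∃ (m : ℕ) (β : (A.ι → M → (ρ → FI n) → ℂ) →ₗ[ℂ] (A.ι → M → ℂ)),
      (∀ (N : LB A) (τ : A.ι → M → (ρ → FI n) → ℂ), TS ρ N τ → IsHS (N * (lb P) ^ m) univ (β τ)) ∧
      (∀ (g : Mer A) (τ u : A.ι → M → (ρ → FI n) → ℂ), Rel g τ u → RelS g (β τ) (β u)) ∧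
      (∀ (τ u : A.ι → M → (ρ → FI n) → ℂ) (i : A.ι) (x : M) (c : ℂ), τ i x = c • u i x →
        β τ i x = c * β u i x) ∧
      β τ' ≠ 0 := by
  obtain ⟨i, x, hi, hx⟩ := ts_nz hτ' h0
  obtain ⟨s, t, hs, ht, hdet⟩ := exists_frame P hi
  obtain ⟨S, hS⟩ := bp_ne hdet hx
  refine ⟨2 * ∑ a, (S a).card, bpL s t S, fun N τ hτ => isHS_bp hs ht S hτ,
    fun g τ u h => relS_bp S h, fun τ u i x c h => bp_lin S h, fun h => hS ?_⟩
  exact congrFun (congrFun h i) x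

/-- a nonzero section of a line bundle is nonzero somewhere -/
theorem exists_ne {N : LB A} {t : A.ι → M → ℂ} (ht : IsHS N univ t) (h0 : t ≠ 0) :
    ∃ i, ∃ x ∈ (A.e i).source, t i x ≠ 0 := by
  by_contra hcon
  push Not at hcon
  refine h0 ?_
  funext i x
  by_cases hx : x ∈ (A.e i).source
  · exact hcon i x hx
  · exact ht.off i x hx

/-- **common denominators**: finitely many elements of `FF` are quotients of sections of one line
bundle `L ^ b * O ^ m` -/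
theorem exists_frac [ConnectedSpace M] (P : ProjD A) {L : LB A} {w0 : A.ι → M → (ρ → FI n) → ℂ}
    {a : ℕ} (hw : TS ρ (L ^ a) w0) (h0 : w0 ≠ 0) {N : ℕ} (y : Fin N → Mer A)
    (hy : ∀ l, y l ∈ FF hw h0) :
    ∃ (σ : Type) (_ : Fintype σ) (_ : DecidableEq σ) (_ : Nonempty σ) (b m : ℕ)
      (t0 : A.ι → M → (σ × ρ → FI n) → ℂ) (τ : Fin N → A.ι → M → (σ × ρ → FI n) → ℂ)
      (t : A.ι → M → ℂ) (s : Fin N → A.ι → M → ℂ),
      WW L w0 σ b t0 ∧ (∀ l, WW L w0 σ b (τ l)) ∧ (∀ l, Rel (y l) (τ l) t0) ∧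
      IsHS (L ^ b * lb P ^ m) univ t ∧ t ≠ 0 ∧ (∀ l, IsHS (L ^ b * lb P ^ m) univ (s l)) ∧
      (∀ l, RelS (y l) (s l) t) ∧ ∀ i x, t0 i x = 0 → t i x = 0 := by
  obtain ⟨σ, i1, i2, i3, b, t0, τ, ht0, hne, hτ, hr⟩ :=
    exists_common hw h0 Finset.univ y fun l _ => hy l
  obtain ⟨m, β, h1, h2, h3, h4⟩ := exists_beta' P ht0.ts hne
  refine ⟨σ, i1, i2, i3, b, m, t0, τ, β t0, fun l => β (τ l), ht0,
    fun l => hτ l (Finset.mem_univ l), fun l => hr l (Finset.mem_univ l), h1 _ _ ht0.ts, h4,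
    fun l => h1 _ _ (hτ l (Finset.mem_univ l)).ts, fun l => h2 _ _ _ (hr l (Finset.mem_univ l)),
    fun i x hx => ?_⟩
  have h5 := h3 t0 t0 i x 0 (by rw [hx, smul_zero])
  rw [h5, zero_mul]

end

end Crest.Agent.R273.YDx3_945
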