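import Crest.Agent.R273.YDx1_945
import Crest.Agent.R273.YDx3_945
import Crest.Agent.R273.AsmA_73

/-!
# R273 (S0416), Part A, HALF 2 (helper945): the structure of all choices before Lemma U

`HD P L` : Cramer families, the field `FF` with generators `g_0 … g_b` (`g_0 … g_{b-1}` a
transcendence basis, `g_b` a primitive element), common denominators, sections `sa, sb` with
`λ = sb / sa`, the Stein complement `D` with first coordinates `g_0 … g_{b-1}`, a frame `σ` of `L`.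
-/

set_option autoImplicit false
set_option linter.unusedSectionVars false

open Set Filter Topology Complex MeasureTheory
open scoped ContDiff Matrix ENNReal

namespace Crest.Agent.R273.YDx5_945

open Crest.Agent.R275.Geo Crest.Agent.R275.Core144 Crest.Agent.R275.GC293
open Crest.Agent.R273.SteinA_794
open Crest.Agent.R273.SteinB_794 Crest.Agent.R273.SteinC_794 Crest.Agent.R273.SteinD_794
open Crest.Agent.R273.SteinE_794 Crest.Agent.R273.SteinF_794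
open Crest.Agent.R273.Defs_333 (ProjD HM HM.wt HM.Semipos HasSec)
open Crest.Agent.R273.FS_333 (lb sec isHS_sec)
open Crest.Agent.R273.Mer769 Crest.Agent.R273.FF769
open Crest.Agent.R273.Cram_747 (TS)
open Crest.Agent.R273.Fock_243 (FI)
open Crest.Agent.R273.YDx1_945 Crest.Agent.R273.YDx3_945
open Crest.Agent.R271.Ho51 (Hol)

noncomputable section

variable {n : ℕ} {M : Type} [TopologicalSpace M] {A : Atl n M}

/-- all the choices of HALF 2 before Lemma U -/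
structure HD [ConnectedSpace M] (P : ProjD A) (L : LB A) where
  /-- the Cramer families -/
  r : ℕ
  K : Set ℕ
  Kinf : K.Infinite
  w : ℕ → A.ι → M → (Fin r → FI n) → ℂ
  ts : ∀ k ∈ K, TS (Fin r) (L ^ k) (w k)
  ne : ∀ k ∈ K, w k ≠ 0
  prp : ∀ k ∈ K, ∀ l ∈ K, Cram_747.Prp (w k) (w l)
  /-- `λ = w_{a+j0} / w_a` -/
  a : ℕ
  j0 : ℕ
  j0_pos : 0 < j0
  ha : a ∈ K
  hb : a + j0 ∈ K
  /-- the field `FF` -/
  b : ℕ
  b_pos : 1 ≤ b
  g : Fin (b + 1) → Mer A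
  R : MvPolynomial (Fin (b + 1)) ℂ
  indep : AlgebraicIndependent ℂ fun k : Fin b => g k.castSucc
  gen : IntermediateField.adjoin ℂ (Set.range g) = FF (ts a ha) (ne a ha)
  R0 : MvPolynomial.aeval g R = 0
  R1 : MvPolynomial.aeval g (MvPolynomial.pderiv (Fin.last b) R) ≠ 0
  /-- common denominators -/
  κ : Type
  [fκ : Fintype κ]
  [dκ : DecidableEq κ]
  [nκ : Nonempty κ]
  bb : ℕ
  mm : ℕ
  t0 : A.ι → M → (κ × Fin r → FI n) → ℂ
  τ : Fin (b + 1) → A.ι → M → (κ × Fin r → FI n) → ℂ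
  t : A.ι → M → ℂ
  s : Fin (b + 1) → A.ι → M → ℂ
  ht0 : WW L (w a) κ bb t0
  hτ : ∀ l, WW L (w a) κ bb (τ l)
  relτ : ∀ l, Rel (g l) (τ l) t0
  ht : IsHS (L ^ bb * lb P ^ mm) univ t
  hs : ∀ l, IsHS (L ^ bb * lb P ^ mm) univ (s l)
  rels : ∀ l, RelS (g l) (s l) t
  t0t : ∀ i x, t0 i x = 0 → t i x = 0
  /-- the sections `⟨β, w_a⟩`, `⟨β, w_{a+j0}⟩` -/
  m : ℕ
  sa : A.ι → M → ℂ
  sb : A.ι → M → ℂ
  hsa : IsHS (L ^ a * lb P ^ m) univ sa
  hsb : IsHS (L ^ (a + j0) * lb P ^ m) univ sb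
  hab : ∀ i x F, sb i x * w a i x F = sa i x * w (a + j0) i x F
  sa0 : ∀ i x, w a i x = 0 → sa i x = 0
  sb0 : ∀ i x, w (a + j0) i x = 0 → sb i x = 0
  /-- the Stein complement -/
  D : StD A P
  hm : 1 ≤ D.m
  hU : D.S.U = nz D.t
  hn : b ≤ n
  hq : ∀ k : Fin b, D.q (Fin.castLE hn k) =
    ⟨L ^ bb * lb P ^ mm, s k.castSucc, t, hs k.castSucc, ht⟩
  Une : D.S.U.Nonempty
  Ut : D.S.U ⊆ nz t
  Usa : D.S.U ⊆ nz sa
  Usb : D.S.U ⊆ nz sb
  /-- frame of `L` -/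
  σ : A.ι → M → ℂ
  hσ : IsHS L D.S.U σ
  σ0 : ∀ i, ∀ x ∈ (A.e i).source, x ∈ D.S.U → σ i x ≠ 0

attribute [instance] HD.fκ HD.dκ HD.nκ

namespace HD

variable [ConnectedSpace M] {P : ProjD A} {L : LB A} (X : HD P L)

/-- the generators of `FF` as functions -/
def y (l : Fin (X.b + 1)) : M → ℂ := qt (X.s l) X.t

/-- `λ` in the frame `σ ^ j0` -/
def lam (x : M) : ℂ :=
  X.sb (A.cover x).choose x / (X.σ (A.cover x).choose x ^ X.j0 * X.sa (A.cover x).choose x)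

theorem y_hol (l : Fin (X.b + 1)) (i : A.ι) : HolAt A i X.D.S.U (X.y l) :=
  (qt_hol (X.hs l) X.ht i).mono X.Ut

/-- `s_l = y_l t` -/
theorem y_rel (l : Fin (X.b + 1)) {i : A.ι} {x : M} (hx : x ∈ (A.e i).source)
    (hxU : x ∈ X.D.S.U) : X.s l i x = X.y l x * X.t i x := by
  have h0 : X.t i x ≠ 0 := (mem_nz X.ht hx).1 (X.Ut hxU)
  show _ = qt (X.s l) X.t x * _
  rw [qt_eq (X.hs l) X.ht hx, div_mul_cancel₀ _ h0]

theorem y_ev (l : Fin (X.b + 1)) {x : M} (hxU : x ∈ X.D.S.U) :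
    x ∈ reg (X.g l) ∧ ev (X.g l) x = X.y l x :=
  (X.rels l).ev_qt (X.hs l) X.ht (X.Ut hxU)

/-- `τ_l = y_l t_0` -/
theorem τ_rel (l : Fin (X.b + 1)) {i : A.ι} {x : M} (hx : x ∈ (A.e i).source)
    (hxU : x ∈ X.D.S.U) (F : X.κ × Fin X.r → FI n) :
    X.τ l i x F = X.y l x * X.t0 i x F := by
  obtain ⟨h1, h2⟩ := X.y_ev l hxU
  rw [← h2]
  exact X.relτ l i x hx h1 F

theorem t0_ne {i : A.ι} {x : M} (hx : x ∈ (A.e i).source) (hxU : x ∈ X.D.S.U) :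
    X.t0 i x ≠ 0 := fun h => (mem_nz X.ht hx).1 (X.Ut hxU) (X.t0t i x h)

theorem wa_ne {i : A.ι} {x : M} (hx : x ∈ (A.e i).source) (hxU : x ∈ X.D.S.U) :
    X.w X.a i x ≠ 0 := fun h => (mem_nz X.hsa hx).1 (X.Usa hxU) (X.sa0 i x h)

theorem wb_ne {i : A.ι} {x : M} (hx : x ∈ (A.e i).source) (hxU : x ∈ X.D.S.U) :
    X.w (X.a + X.j0) i x ≠ 0 := fun h => (mem_nz X.hsb hx).1 (X.Usb hxU) (X.sb0 i x h)

theorem sa_ne {i : A.ι} {x : M} (hx : x ∈ (A.e i).source) (hxU : x ∈ X.D.S.U) :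
    X.sa i x ≠ 0 := (mem_nz X.hsa hx).1 (X.Usa hxU)

theorem sb_ne {i : A.ι} {x : M} (hx : x ∈ (A.e i).source) (hxU : x ∈ X.D.S.U) :
    X.sb i x ≠ 0 := (mem_nz X.hsb hx).1 (X.Usb hxU)

/-- **the section relation of `λ`** -/
theorem rel {i : A.ι} {x : M} (hx : x ∈ (A.e i).source) (hxU : x ∈ X.D.S.U) :
    X.sb i x = X.lam x * X.σ i x ^ X.j0 * X.sa i x := by
  set j := (A.cover x).choose with hj
  have hjx : x ∈ (A.e j).source := (A.cover x).choose_spec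
  have hd : X.σ j x ^ X.j0 * X.sa j x ≠ 0 :=
    mul_ne_zero (pow_ne_zero _ (X.σ0 j x hjx hxU)) (X.sa_ne hjx hxU)
  have h1 : X.lam x * (X.σ j x ^ X.j0 * X.sa j x) = X.sb j x := div_mul_cancel₀ _ hd
  have h2 := X.hsb.tr i j x ⟨hx, hjx⟩ (mem_univ x)
  have h3 := X.hsa.tr i j x ⟨hx, hjx⟩ (mem_univ x)
  have h4 := X.hσ.tr i j x ⟨hx, hjx⟩ hxU
  rw [h2, h3, h4, ← h1]
  simp only [LB.mul_g, Crest.Agent.R273.HM_333.LB_pow_g]
  rw [pow_add]
  ring

/-- the tensor relation of `λ` -/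
theorem relw {i : A.ι} {x : M} (hx : x ∈ (A.e i).source) (hxU : x ∈ X.D.S.U)
    (F : Fin X.r → FI n) :
    X.w (X.a + X.j0) i x F = X.lam x * X.σ i x ^ X.j0 * X.w X.a i x F := by
  have h1 := X.hab i x F
  rw [X.rel hx hxU] at h1
  refine mul_left_cancel₀ (X.sa_ne hx hxU) ?_
  rw [← h1]
  ring

theorem lam_ne {x : M} (hxU : x ∈ X.D.S.U) : X.lam x ≠ 0 := by
  obtain ⟨i, hi⟩ := A.cover x
  intro h
  have h1 := X.rel hi hxU
  rw [h, zero_mul, zero_mul] at h1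
  exact X.sb_ne hi hxU h1

theorem lam_hol (i : A.ι) : HolAt A i X.D.S.U X.lam := by
  have h1 : HolAt A i X.D.S.U fun x => X.sb i x * (X.σ i x ^ X.j0 * X.sa i x)⁻¹ :=
    ((X.hsb.hol i).mono (subset_univ _)).mul
      ((((X.hσ.hol i).pow _).mul ((X.hsa.hol i).mono (subset_univ _))).inv
        fun x hx hxU => mul_ne_zero (pow_ne_zero _ (X.σ0 i x hx hxU)) (X.sa_ne hx hxU))
  refine h1.congr fun x hx hxU => ?_
  have hd : X.σ i x ^ X.j0 * X.sa i x ≠ 0 :=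
    mul_ne_zero (pow_ne_zero _ (X.σ0 i x hx hxU)) (X.sa_ne hx hxU)
  show X.sb i x * _ = X.lam x
  rw [X.rel hx hxU, mul_assoc (X.lam x), mul_assoc (X.lam x), mul_inv_cancel₀ hd, mul_one]

/-- **the last shrink** -/
def shr {j : ℕ} {H : A.ι → M → ℂ} (hH : IsHS (lb P ^ j) univ H)
    (hne : (X.D.S.U ∩ nz H).Nonempty) : HD P L :=
  have hsub : (YDx1_945.shr X.D hH).S.U ⊆ X.D.S.U := by
    rw [shr_U]; exact inter_subset_left
  { X with
    D := YDx1_945.shr X.D hH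
    hm := le_trans X.hm (Nat.le_add_right _ _)
    hU := shr_hU X.D hH X.hU
    hn := X.hn
    hq := X.hq
    Une := by rw [shr_U]; exact hne
    Ut := hsub.trans X.Ut
    Usa := hsub.trans X.Usa
    Usb := hsub.trans X.Usb
    hσ := ⟨fun i => (X.hσ.hol i).mono hsub, fun i x hx => X.hσ.off i x hx,
      fun i j x hx hxU => X.hσ.tr i j x hx (hsub hxU)⟩
    σ0 := fun i x hx hxU => X.σ0 i x hx (hsub hxU) }

section

variable {j : ℕ} {H : A.ι → M → ℂ} (hH : IsHS (lb P ^ j) univ H)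
  (hne : (X.D.S.U ∩ nz H).Nonempty)

@[simp] theorem shr_D : (X.shr hH hne).D = YDx1_945.shr X.D hH := rfl
@[simp] theorem shr_y (l : Fin (X.b + 1)) : (X.shr hH hne).y l = X.y l := rfl
@[simp] theorem shr_lam : (X.shr hH hne).lam = X.lam := rfl
@[simp] theorem shr_σ : (X.shr hH hne).σ = X.σ := rfl
@[simp] theorem shr_j0 : (X.shr hH hne).j0 = X.j0 := rfl
@[simp] theorem shr_b : (X.shr hH hne).b = X.b := rfl

theorem shr_DU : (X.shr hH hne).D.S.U = X.D.S.U ∩ nz H := shr_U X.D hH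

end

end HD

end

end Crest.Agent.R273.YDx5_945
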