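import Crest.Agent.R273.UaUb_619
import Crest.Agent.R273.ChowQ_313
import Crest.Agent.R273.Cmp2_145
import Crest.Agent.R273.Sg4_101
import Crest.Agent.R273.YDx5_945

/-!
R273 (S0416), Part A, HALF 2 (helper619): LEMMA U for the data `X : HD P L` (helper945).
-/

set_option autoImplicit false
set_option linter.unusedSectionVars false

open Set Filter Topology Complex MeasureTheory
open scoped ContDiff Matrix ENNReal NNReal

namespace Crest.Agent.R273.UaUbX_619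

open Crest.Agent.R275.Geo Crest.Agent.R275.Core144 Crest.Agent.R275.GC293
open Crest.Agent.R273.SteinA_794 Crest.Agent.R273.SteinB_794 Crest.Agent.R273.SteinC_794
open Crest.Agent.R273.SteinE_794
open Crest.Agent.R273.Defs_333 (ProjD HM)
open Crest.Agent.R273.SerA_945 (Fn)
open Crest.Agent.R273.TD3_733 (D2)
open Crest.Agent.R273.FS_333 (lb)
open Crest.Agent.R273.Chow_313 Crest.Agent.R273.LemU_619
open Crest.Agent.R273.Pen_93 (Bf)
open Crest.Agent.R273.AsmA_73 (evp)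
open Crest.Agent.R273.Mer769 Crest.Agent.R273.FF769
open Crest.Agent.R273.YDx5_945

noncomputable section

variable {n : ℕ} {M : Type} [TopologicalSpace M] {A : Atl n M}
variable [T2Space M] [ConnectedSpace M] [CompactSpace M] [Finite A.ι]

section

variable {P : ProjD A} {L : LB A} (X : HD P L)

/-- polynomials in the generators, pointwise -/
theorem ev_poly {x : M} (hx : x ∈ X.D.S.U) (Q : MvPolynomial (Fin (X.b + 1)) ℂ) :
    x ∈ reg (MvPolynomial.aeval X.g Q) ∧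
      ev (MvPolynomial.aeval X.g Q) x = MvPolynomial.eval (fun l => X.y l x) Q := by
  obtain ⟨h1, h2⟩ := Sg4_101.ev_aeval X.g (fun l => (X.y_ev l hx).1) Q
  refine ⟨h1, h2.trans ?_⟩
  have h3 : (fun l => ev (X.g l) x) = fun l => X.y l x := funext fun l => (X.y_ev l hx).2
  rw [h3]

/-- `R(y) = 0` on the domain -/
theorem R0_eval {x : M} (hx : x ∈ X.D.S.U) :
    MvPolynomial.eval (fun l => X.y l x) X.R = 0 := by
  obtain ⟨h1, h2⟩ := ev_poly X hx X.R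
  rw [← h2, X.R0]
  have h3 := ev_poly X hx (0 : MvPolynomial (Fin (X.b + 1)) ℂ)
  rw [map_zero, map_zero] at h3
  exact h3.2

/-- `Q(g) ≠ 0` gives a point -/
theorem exists_eval_ne {Q : MvPolynomial (Fin (X.b + 1)) ℂ} (hQ : MvPolynomial.aeval X.g Q ≠ 0) :
    ∃ x ∈ X.D.S.U, MvPolynomial.eval (fun l => X.y l x) Q ≠ 0 := by
  by_contra hcon
  push Not at hcon
  refine hQ (eq_zero_of_open X.D.S.isOpen X.Une fun x hx _ => ?_)
  rw [(ev_poly X hx Q).2]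
  exact hcon x hx

/-- the regular functions `y_l` -/
def yR (PA : Part A) (hD : D2 A) (l : Fin (X.b + 1)) :
    Reg (lb P ^ X.D.m) X.D.t X.D.ht :=
  ⟨fun x : nz X.D.t => qt (X.s l) X.t x.1,
    quot_mem PA hD P X.hm X.D.ht (X.hs l) X.ht (by rw [← X.hU]; exact X.Ut)⟩

theorem yR_apply (PA : Part A) (hD : D2 A) (l : Fin (X.b + 1)) (x : nz X.D.t) :
    (yR X PA hD l).1 x = X.y l x.1 := rfl

/-- **LEMMA U for the data `X`**: the last shrink and the fields of `YD`. -/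
theorem exists_UaUb (PA : Part A) (hD : D2 A) (hL : HM L)
    (hR4 : ∃ g1 : Reg (lb P ^ X.D.m) X.D.t X.D.ht, g1 ≠ 0 ∧ ∀ x : nz X.D.t, g1.1 x ≠ 0 →
      ∃ b : ℝ, ∀ x' : nz X.D.t, (∀ l, X.y l x'.1 = X.y l x.1) → g1.1 x' ≠ 0 →
        ‖X.lam x'.1‖ ^ 2 * Real.exp (-(X.j0 * wtS hL X.σ x'.1)) ≤ b) :
    ∃ (j : ℕ) (H : A.ι → M → ℂ) (hH : IsHS (lb P ^ j) univ H)
      (hne : (X.D.S.U ∩ nz H).Nonempty) (e : ℕ) (p p' : ℕ → MvPolynomial (Fin (X.b + 1)) ℂ)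
      (m m' : ℕ), 0 < e ∧
      (∀ x, evp (fun l (x : Mo (X.shr hH hne).D.S) => X.y l x.val) p 0 x ≠ 0) ∧
      (∀ x, evp (fun l (x : Mo (X.shr hH hne).D.S) => X.y l x.val) p' 0 x ≠ 0) ∧
      (∃ C : ℝ, 0 < C ∧ ∀ x : Mo (X.shr hH hne).D.S,
        (‖X.lam x.val‖ ^ 2 * Real.exp (-(X.j0 * wtS hL X.σ x.val))) ^ e *
          Bf (evp (fun l (x : Mo (X.shr hH hne).D.S) => X.y l x.val) p') m' x ≤
          C * Bf (evp (fun l (x : Mo (X.shr hH hne).D.S) => X.y l x.val) p) m x) ∧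
      (∃ C : ℝ, 0 < C ∧ ∀ (x : Mo (X.shr hH hne).D.S) (b : ℝ), 0 ≤ b →
        (∀ x' : Mo (X.shr hH hne).D.S, (∀ l, X.y l x'.val = X.y l x.val) →
          ‖X.lam x'.val‖ ^ 2 * Real.exp (-(X.j0 * wtS hL X.σ x'.val)) ≤ b) →
        Bf (evp (fun l (x : Mo (X.shr hH hne).D.S) => X.y l x.val) p) m x ≤
          C * b ^ e * Bf (evp (fun l (x : Mo (X.shr hH hne).D.S) => X.y l x.val) p') m' x) ∧
      ∀ x : M, x ∈ (X.shr hH hne).D.S.U →
        MvPolynomial.eval (fun l => X.y l x) (MvPolynomial.pderiv (Fin.last X.b) X.R) ≠ 0 := by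
  have hUnz : X.D.S.U = nz X.D.t := X.hU
  have hd0ne : ∃ i x, X.D.t i x ≠ 0 := by
    obtain ⟨x, hx⟩ := X.Une
    rw [hUnz] at hx
    obtain ⟨i, hi⟩ := A.cover x
    exact ⟨i, x, (mem_nz X.D.ht hi).1 hx⟩
  have hdom : IsDomain (Reg (lb P ^ X.D.m) X.D.t X.D.ht) := reg_domain X.D.ht hd0ne
  obtain ⟨α, β, hα, hβ, C, hC, hαβ⟩ := Cmp2_145.cmp_reg PA hD (P := P) X.hm X.D.ht X.hU X.Une hL
    X.hσ X.σ0 (a := X.a) (j0 := X.j0) (m := X.m) X.hsa X.hsb (fun i x hx hxU => X.sa_ne hx hxU)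
    (fun i x hx hxU => X.sb_ne hx hxU) (lam := X.lam) (fun i x hx hxU => X.rel hx hxU)
  set g : Reg (lb P ^ X.D.m) X.D.t X.D.ht :=
    MvPolynomial.aeval (yR X PA hD) (MvPolynomial.pderiv (Fin.last X.b) X.R) with hg
  have hgx : ∀ x : nz X.D.t, g.1 x =
      MvPolynomial.eval (fun l => X.y l x.1) (MvPolynomial.pderiv (Fin.last X.b) X.R) := by
    intro x
    have h1 : evR X.D.ht x g = MvPolynomial.eval (fun l => evR X.D.ht x (yR X PA hD l))
        (MvPolynomial.pderiv (Fin.last X.b) X.R) := by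
      rw [hg, MvPolynomial.comp_aeval_apply, MvPolynomial.aeval_eq_eval]
    exact h1
  have hg0 : g ≠ 0 := by
    intro h0
    obtain ⟨x, hx, hx0⟩ := exists_eval_ne X X.R1
    rw [hUnz] at hx
    have h1 := hgx ⟨x, hx⟩
    rw [h0] at h1
    exact hx0 h1.symm
  set Λ : nz X.D.t → ℝ := fun x => ‖X.lam x.1‖ * Real.exp (-(X.j0 * wtS hL X.σ x.1) / 2) with hΛd
  have hΛ0 : ∀ x, 0 ≤ Λ x := fun x => mul_nonneg (norm_nonneg _) (Real.exp_pos _).le
  have hΛ2 : ∀ x, Λ x ^ 2 = ‖X.lam x.1‖ ^ 2 * Real.exp (-(X.j0 * wtS hL X.σ x.1)) := by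
    intro x
    have h1 : Real.exp (-(X.j0 * wtS hL X.σ x.1) / 2) ^ 2 =
        Real.exp (-(X.j0 * wtS hL X.σ x.1)) := by
      rw [← Real.exp_nat_mul]
      congr 1
      push_cast
      ring
    rw [hΛd]
    simp only
    rw [mul_pow, h1]
  obtain ⟨e, p, p', m, m', j, r, he, hr, _, hne, hgr, hf⟩ :=
    UaUb_619.exists_fields PA hD P X.hm X.D.ht hd0ne (yR X PA hD) α β hα hβ hg0 Λ hΛ0 hC
      (fun x => (hαβ x).2.1) (fun x => (hαβ x).2.2)
      (by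
        obtain ⟨g1, hg1, h1⟩ := hR4
        refine ⟨g1, hg1, fun x hx => ?_⟩
        obtain ⟨b, hb⟩ := h1 x hx
        refine ⟨Real.sqrt (max b 0), fun x' hx'1 hx' => ?_⟩
        refine Real.le_sqrt_of_sq_le ?_
        rw [hΛ2]
        exact (hb x' hx' hx'1).trans (le_max_left _ _))
  have hne' : (X.D.S.U ∩ nz r).Nonempty := by rw [hUnz]; exact hne
  have hS' : (X.shr hr hne').D.S.U = nz X.D.t ∩ nz r := by
    rw [HD.shr_DU, hUnz]
  obtain ⟨f1, f2, f3, f4⟩ := hf (X.shr hr hne').D.S hS' L hL X.σ X.j0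
    (fun x => X.lam x.val) (fun l x => X.y l x.val) (fun l x hx => rfl)
    (fun x hx => hΛ2 ⟨x.val, hx⟩)
  refine ⟨_, r, hr, hne', e, p, p', m, m', he, f1, f2, f3, f4, fun x hx => ?_⟩
  rw [hS'] at hx
  have h1 := hgr ⟨x, hx.1⟩ hx.2
  rwa [hgx] at h1

end

end

end Crest.Agent.R273.UaUbX_619
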