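import Crest.Agent.R273.R4A_769
import Crest.Agent.R273.R4B_769
import Crest.Agent.R273.UaUbX_619

/-!
# R273, leaf A-R4 (helper769), part 3: `λ` is bounded on the fibres of `y`
-/

set_option autoImplicit false
set_option linter.unusedSectionVars false

open Set Filter Topology Complex
open scoped ContDiff Matrix ComplexConjugate Polynomial

namespace Crest.Agent.R273.R4D769

open Crest.Agent.R275.Geo Crest.Agent.R275.Core144 Crest.Agent.R275.GC293
open Crest.Agent.R273.Defs_333 Crest.Agent.R273.FS_333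
open Crest.Agent.R273.Rigid769 Crest.Agent.R273.Mer769 Crest.Agent.R273.FF769
open Crest.Agent.R273.Fock_243 (FI)
open Crest.Agent.R273.SteinA_794 Crest.Agent.R273.SteinB_794
open Crest.Agent.R273.SteinC_794 Crest.Agent.R273.SteinD_794 Crest.Agent.R273.SteinE_794
open Crest.Agent.R273.Chow_313 (lf lf_apply isHS_lf Lp isHS_Lp Lp_apply pw isHS_pw pw_apply Reg evR
  evR_apply reg_domain)
open Crest.Agent.R273.SerB_945 (Solv)
open Crest.Agent.R273.SerC_945 Crest.Agent.R273.SerE_945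
open Crest.Agent.R273.TD3_733 (D2)
open Crest.Agent.R273.YDx5_945
open Crest.Agent.R273.Cmp_145 (cmp0)

noncomputable section

variable {n : ℕ} {M : Type} [TopologicalSpace M] {A : Atl n M}
variable [T2Space M] [ConnectedSpace M] [CompactSpace M] [Finite A.ι]
variable {P : ProjD A} {L : LB A} (X : HD P L)

theorem lf_single (F : Fin (P.N + 1) → A.ι → M → ℂ) (k : Fin (P.N + 1)) :
    lf F (Pi.single k 1) = F k := by
  unfold lf
  rw [Finset.sum_eq_single k]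
  · simp
  · intro j _ hj
    simp [hj]
  · intro h
    exact absurd (Finset.mem_univ k) h

/-- **the bound of one component** -/
theorem kp (PA : Part A) (hD : D2 A) {m' : ℕ} {τ : A.ι → M → ℂ}
    (hτ : IsHS ((L ^ X.j0)⁻¹ * lb P ^ m') univ τ) (k : Fin (P.N + 1)) :
    ∃ q : MvPolynomial (Fin (X.b + 1)) ℂ, MvPolynomial.aeval X.g q ≠ 0 ∧
      ∀ η : Fin (X.b + 1) → ℂ, MvPolynomial.eval η q ≠ 0 → ∃ b : ℝ, 0 ≤ b ∧
        ∀ i, ∀ x ∈ (A.e i).source, x ∈ X.D.S.U → (fun l => X.y l x) = η →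
          sec P k i x ≠ 0 → (∀ j, ‖sec P j i x‖ ≤ ‖sec P k i x‖) →
          ‖X.lam x * X.σ i x ^ X.j0 * τ i x‖ ≤ b * ‖sec P k i x‖ ^ m' := by
  by_cases hk : sec P k = 0
  · refine ⟨1, by simp, fun η _ => ⟨0, le_rfl, fun i x hx _ _ hne => ?_⟩⟩
    exact absurd (by rw [hk]; rfl) hne
  have hF : ∀ k, IsHS (lb P) univ (sec P k) := isHS_sec P
  have hfd : ∀ k : ℕ, FiniteDimensional ℂ (HS (lb P ^ k) univ) := fun k => fd_HS PA _
  obtain ⟨m0, hV⟩ : ∃ m0 : ℕ, ∀ m, m0 ≤ m → ∀ q, 1 ≤ q → Solv (lb P ^ m) q := by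
    obtain ⟨m0, h⟩ := solv_large PA hD (fs_pos P) (1 : LB A)
    exact ⟨m0, fun m hm q hq => by have := h m hm q hq; rwa [one_mul] at this⟩
  -- an auxiliary section
  obtain ⟨m'', hm''⟩ := gg_proj PA hD P (L ^ (X.a * X.j0))⁻¹
  obtain ⟨x0, hx0⟩ := X.Une
  obtain ⟨τ0, hτ0, hτ00⟩ := hm'' m'' le_rfl x0
  have hτ0ne : τ0 ≠ 0 := by
    rintro rfl
    obtain ⟨i, hi⟩ := A.cover x0
    exact hτ00 i hi rfl
  have hlk : lf (fun k => sec P k) (Pi.single k 1) = sec P k := lf_single _ k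
  have hl : lf (fun k => sec P k) (Pi.single k 1) ≠ 0 := by rw [hlk]; exact hk
  have hρe : ∀ j, ∃ ρ : Mer A, RelS ρ (sec P j) (sec P k) := fun j => exists_relS (hF j) (hF k) hk
  choose ρ hρ using hρe
  -- the meromorphic function `μ`
  have hsb : IsHS (L ^ X.a * lb P ^ (X.m + m')) univ (X.sb * τ) := by
    have h1 := X.hsb.mul hτ
    have e : L ^ (X.a + X.j0) * lb P ^ X.m * ((L ^ X.j0)⁻¹ * lb P ^ m') =
        L ^ X.a * lb P ^ (X.m + m') := by
      rw [pow_add L, pow_add (lb P)]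
      rw [show L ^ X.a * L ^ X.j0 * lb P ^ X.m * ((L ^ X.j0)⁻¹ * lb P ^ m') =
        (L ^ X.j0 * (L ^ X.j0)⁻¹) * (L ^ X.a * (lb P ^ X.m * lb P ^ m')) by ac_rfl]
      simp
    rwa [e] at h1
  have hsa : IsHS (L ^ X.a * lb P ^ (X.m + m')) univ (X.sa * pw (sec P k) m') := by
    have h1 := X.hsa.mul (isHS_pw (hF k) m')
    rwa [mul_assoc, ← pow_add] at h1
  have hsane : X.sa ≠ 0 := by
    intro h
    obtain ⟨i, hi⟩ := A.cover x0
    apply X.sa_ne hi hx0
    rw [h]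
    rfl
  have hpw0 : pw (sec P k) m' ≠ 0 := by
    intro h
    obtain ⟨x, -, hx⟩ := exists_mem_of_dn (dn_nz (hF k) hk) isOpen_univ (univ_nonempty (α := M))
    have hx := mem_of_mem_nhds hx
    obtain ⟨i, hi⟩ := A.cover x
    have h1 := (mem_nz (hF k) hi).1 hx
    have h2 := pw_apply (sec P k) m' hi
    rw [h] at h2
    exact pow_ne_zero m' h1 h2.symm
  have hden := mul_ne0 X.hsa (isHS_pw (hF k) m') hsane hpw0
  obtain ⟨μ, hμ⟩ := exists_relS hsb hsa hden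
  have hint := int_lam' P hfd hV X.Kinf X.ts X.ne X.prp X.ha X.hb X.j0_pos hτ hτ0 hτ0ne
    (Pi.single k 1) hl (ρ := ρ) (fun j => by rw [hlk]; exact hρ j) (μ := μ)
    (dn_nz X.hsa hsane) (fun i x hi hxS hxμ F => by
      rw [hlk]
      have h0 : X.sa i x ≠ 0 := (mem_nz X.hsa hi).1 hxS
      have h1 := hμ i x hi hxμ
      simp only [Pi.mul_apply] at h1
      rw [pw_apply _ _ hi] at h1
      have h2 := X.hab i x F
      refine mul_left_cancel₀ h0 ?_
      linear_combination (-(τ i x)) * h2 + (X.w X.a i x F) * h1)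
  rw [← X.gen] at hint
  obtain ⟨D, q, R, hq, hrel⟩ := R4B769.rel_of_int X.g ρ hint
  refine ⟨q, hq, fun η hη => ?_⟩
  obtain ⟨b, hb0, hb⟩ := R4B769.bound q R η hη
  refine ⟨b, hb0, fun i x hi hxU hy hne hmax => ?_⟩
  have hg : ∀ l, x ∈ reg (X.g l) := fun l => (X.y_ev l hxU).1
  have hgv : (fun l => ev (X.g l) x) = η := by
    rw [← hy]
    exact funext fun l => (X.y_ev l hxU).2
  have hρv : ∀ j, x ∈ reg (ρ j) ∧ ev (ρ j) x = sec P j i x / sec P k i x := fun j =>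
    (hρ j).reg_ev (hF j) (hF k) hi hne
  have hsax : (X.sa * pw (sec P k) m') i x ≠ 0 := by
    show X.sa i x * pw (sec P k) m' i x ≠ 0
    rw [pw_apply _ _ hi]
    exact mul_ne_zero (X.sa_ne hi hxU) (pow_ne_zero _ hne)
  obtain ⟨hμr, hμv⟩ := hμ.reg_ev hsb hsa hi hsax
  -- evaluate the relation
  have hev : MvPolynomial.eval η q * ev μ x ^ D +
      ∑ t, MvPolynomial.eval (Sum.elim η fun j => ev (ρ j) x) (R t) * ev μ x ^ (t : ℕ) = 0 := by
    let κ' := Fin (X.b + 1) ⊕ Fin (P.N + 1)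
    have hz : ∀ κ : κ', x ∈ reg (Sum.elim X.g ρ κ) := by
      rintro (l | j)
      · exact hg l
      · exact (hρv j).1
    have h1 := ev_alg hg q
    have h2 := fun t => ev_alg hz (R t)
    have h3 := fun t : ℕ => ev_pow hμr t
    have h4 : (fun κ : κ' => ev (Sum.elim X.g ρ κ) x) = Sum.elim η fun j => ev (ρ j) x := by
      funext κ
      rcases κ with l | j
      · exact congrFun hgv l
      · rfl
    have h5 : ∀ s : Finset (Fin D), x ∈ reg (∑ t ∈ s,
        MvPolynomial.aeval (Sum.elim X.g ρ) (R t) * μ ^ (t : ℕ)) ∧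
        ev (∑ t ∈ s, MvPolynomial.aeval (Sum.elim X.g ρ) (R t) * μ ^ (t : ℕ)) x =
        ∑ t ∈ s, MvPolynomial.eval (Sum.elim η fun j => ev (ρ j) x) (R t) * ev μ x ^ (t : ℕ) := by
      intro s
      induction s using Finset.induction_on with
      | empty =>
        have := reg_algebraMap (A := A) 0 x
        rw [map_zero] at this
        simpa using this
      | insert a s ha ih =>
        rw [Finset.sum_insert ha, Finset.sum_insert ha]
        have h6 := reg_mul (h2 a).1 (h3 a).1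
        have h7 := reg_add h6.1 ih.1
        refine ⟨h7.1, ?_⟩
        rw [h7.2, h6.2, ih.2, (h2 a).2, (h3 a).2, h4]
    have h6 := reg_mul h1.1 (h3 D).1
    have h7 := reg_add h6.1 (h5 Finset.univ).1
    have h8 := h7.2
    rw [hrel, h6.2, h1.2, (h3 D).2, (h5 Finset.univ).2, hgv] at h8
    rw [← h8]
    have := (reg_algebraMap (A := A) 0 x).2
    rwa [map_zero] at this
  have hfin := hb _ (fun j => by
    rw [(hρv j).2, norm_div, div_le_one (norm_pos_iff.2 hne)]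
    exact hmax j) _ hev
  rw [hμv] at hfin
  have hval : (X.sb * τ) i x / (X.sa * pw (sec P k) m') i x =
      X.lam x * X.σ i x ^ X.j0 * τ i x / sec P k i x ^ m' := by
    show X.sb i x * τ i x / (X.sa i x * pw (sec P k) m' i x) = _
    rw [pw_apply _ _ hi, X.rel hi hxU]
    have := X.sa_ne hi hxU
    have := pow_ne_zero m' hne
    field_simp
  rw [hval, norm_div, norm_pow, div_le_iff₀ (by have := norm_pos_iff.2 hne; positivity)] at hfin
  exact hfin

/-- **R4** -/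
theorem r4 (PA : Part A) (hD : D2 A) (hL : HM L) :
    ∃ g1 : Reg (lb P ^ X.D.m) X.D.t X.D.ht, g1 ≠ 0 ∧ ∀ x : nz X.D.t, g1.1 x ≠ 0 →
      ∃ b : ℝ, ∀ x' : nz X.D.t, (∀ l, X.y l x'.1 = X.y l x.1) → g1.1 x' ≠ 0 →
        ‖X.lam x'.1‖ ^ 2 * Real.exp (-(X.j0 * wtS hL X.σ x'.1)) ≤ b := by
  classical
  obtain ⟨m', hm'⟩ := ggen_proj PA hD P (L ^ X.j0)⁻¹
  obtain ⟨r, τ, hτ, hτ0⟩ := hm' m' le_rfl
  have hF : ∀ k, IsHS (lb P) univ (sec P k) := isHS_sec P
  obtain ⟨C, hC, hcmp⟩ := cmp0 (HM_333.pow hL X.j0) hτ hτ0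
    (b := fun k => pw (sec P k) m') (fun k => isHS_pw (hF k) m')
    (fun i x hx => by
      obtain ⟨k, hk⟩ := exists_sec_ne' P i x hx
      refine ⟨k, ?_⟩
      rw [pw_apply _ _ hx]
      exact pow_ne_zero _ hk)
  choose q hq hqb using fun (z : Fin (P.N + 1) × Fin r) => kp X PA hD (hτ z.2) z.1
  have hd0ne : ∃ i x, X.D.t i x ≠ 0 := by
    obtain ⟨x, hx⟩ := X.Une
    rw [X.hU] at hx
    obtain ⟨i, hi⟩ := A.cover x
    exact ⟨i, x, (mem_nz X.D.ht hi).1 hx⟩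
  have hdom : IsDomain (Reg (lb P ^ X.D.m) X.D.t X.D.ht) := reg_domain X.D.ht hd0ne
  set g : Fin (P.N + 1) × Fin r → Reg (lb P ^ X.D.m) X.D.t X.D.ht := fun z =>
    MvPolynomial.aeval (UaUbX_619.yR X PA hD) (q z) with hg
  have hgx : ∀ z (x : nz X.D.t), (g z).1 x =
      MvPolynomial.eval (fun l => X.y l x.1) (q z) := by
    intro z x
    have h1 : evR X.D.ht x (g z) = MvPolynomial.eval
        (fun l => evR X.D.ht x (UaUbX_619.yR X PA hD l)) (q z) := by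
      rw [hg, MvPolynomial.comp_aeval_apply, MvPolynomial.aeval_eq_eval]
    exact h1
  have hg0 : ∀ z, g z ≠ 0 := by
    intro z h0
    obtain ⟨x, hx, hx0⟩ := UaUbX_619.exists_eval_ne X (hq z)
    rw [X.hU] at hx
    have h1 := hgx z ⟨x, hx⟩
    rw [h0] at h1
    exact hx0 h1.symm
  have hprod : ∀ x : nz X.D.t, (∏ z, g z).1 x = ∏ z, (g z).1 x := by
    intro x
    have := map_prod (evR X.D.ht x) g Finset.univ
    exact this
  refine ⟨∏ z, g z, Finset.prod_ne_zero_iff.2 fun z _ => hg0 z, fun x hx => ?_⟩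
  set η : Fin (X.b + 1) → ℂ := fun l => X.y l x.1 with hη
  have hqη : ∀ z, MvPolynomial.eval η (q z) ≠ 0 := by
    intro z
    rw [hprod] at hx
    have := Finset.prod_ne_zero_iff.1 hx z (Finset.mem_univ z)
    rwa [hgx] at this
  choose b hb0 hb using fun z => hqb z η (hqη z)
  refine ⟨C * ∑ z, b z ^ 2, fun x' hy _ => ?_⟩
  obtain ⟨i, hi⟩ := A.cover x'.1
  have hxU : x'.1 ∈ X.D.S.U := by rw [X.hU]; exact x'.2
  rw [Cmp2_145.lam_chart' hL X.hσ X.σ0 X.j0 _ hxU hi]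
  -- the largest coordinate
  obtain ⟨k, -, hk⟩ := Finset.exists_max_image Finset.univ (fun k => ‖sec P k i x'.1‖)
    ⟨0, Finset.mem_univ _⟩
  have hkne : sec P k i x'.1 ≠ 0 := by
    obtain ⟨j, hj⟩ := exists_sec_ne' P i x'.1 hi
    intro h
    have h1 := hk j (Finset.mem_univ j)
    rw [h, norm_zero] at h1
    exact hj (norm_le_zero_iff.1 h1)
  have hpos : 0 < ‖sec P k i x'.1‖ := norm_pos_iff.2 hkne
  have h1 := (hcmp i x'.1 hi).1
  rw [HM_333.pow_w] at h1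
  have h2 : (‖sec P k i x'.1‖ ^ m') ^ 2 ≤ Cmp_145.sq (fun k => pw (sec P k) m') i x'.1 := by
    unfold Cmp_145.sq
    refine le_trans ?_ (Finset.single_le_sum
      (f := fun k => ‖pw (sec P k) m' i x'.1‖ ^ 2) (fun _ _ => by positivity) (Finset.mem_univ k))
    show _ ≤ ‖pw (sec P k) m' i x'.1‖ ^ 2
    rw [pw_apply _ _ hi, norm_pow]
  have hw : 0 ≤ hL.w i x'.1 ^ X.j0 := (pow_pos (hL.pos i _ hi) _).le
  set v : ℝ := ‖X.lam x'.1 * X.σ i x'.1 ^ X.j0‖ with hv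
  have h3 : ∀ p, (v * ‖τ p i x'.1‖) ^ 2 ≤ b (k, p) ^ 2 * (‖sec P k i x'.1‖ ^ m') ^ 2 := by
    intro p
    have h4 := hb (k, p) i x'.1 hi hxU (funext fun l => hy l) hkne
      (fun j => hk j (Finset.mem_univ j))
    rw [norm_mul, ← hv] at h4
    rw [← mul_pow]
    exact pow_le_pow_left₀ (by positivity) h4 2
  have h5 : v ^ 2 * Cmp_145.sq τ i x'.1 ≤ (∑ z, b z ^ 2) * (‖sec P k i x'.1‖ ^ m') ^ 2 := by
    unfold Cmp_145.sq
    rw [Finset.mul_sum]
    calc ∑ p, v ^ 2 * ‖τ p i x'.1‖ ^ 2 ≤ ∑ p, b (k, p) ^ 2 * (‖sec P k i x'.1‖ ^ m') ^ 2 :=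
          Finset.sum_le_sum fun p _ => by rw [← mul_pow]; exact h3 p
      _ = (∑ p, b (k, p) ^ 2) * (‖sec P k i x'.1‖ ^ m') ^ 2 := by rw [Finset.sum_mul]
      _ ≤ _ := by
          refine mul_le_mul_of_nonneg_right ?_ (by positivity)
          rw [Fintype.sum_prod_type]
          exact Finset.single_le_sum (f := fun k => ∑ p, b (k, p) ^ 2)
            (fun _ _ => Finset.sum_nonneg fun _ _ => by positivity) (Finset.mem_univ k)
  have h6 : v ^ 2 * (hL.w i x'.1 ^ X.j0 * (‖sec P k i x'.1‖ ^ m') ^ 2) ≤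
      C * ((∑ z, b z ^ 2) * (‖sec P k i x'.1‖ ^ m') ^ 2) := by
    calc v ^ 2 * (hL.w i x'.1 ^ X.j0 * (‖sec P k i x'.1‖ ^ m') ^ 2)
        ≤ v ^ 2 * (C * Cmp_145.sq τ i x'.1) := by
          refine mul_le_mul_of_nonneg_left ?_ (by positivity)
          exact (mul_le_mul_of_nonneg_left h2 hw).trans h1
      _ = C * (v ^ 2 * Cmp_145.sq τ i x'.1) := by ring
      _ ≤ _ := mul_le_mul_of_nonneg_left h5 hC.le
  have h7 : 0 < (‖sec P k i x'.1‖ ^ m') ^ 2 := by positivity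
  refine le_of_mul_le_mul_right ?_ h7
  calc v ^ 2 * hL.w i x'.1 ^ X.j0 * (‖sec P k i x'.1‖ ^ m') ^ 2
      = v ^ 2 * (hL.w i x'.1 ^ X.j0 * (‖sec P k i x'.1‖ ^ m') ^ 2) := by ring
    _ ≤ _ := h6
    _ = _ := by ring

end

end Crest.Agent.R273.R4D769
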