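import Crest.Agent.R273.AsmY_73
import Crest.Agent.R273.TR0_769
import Crest.Agent.R273.R4Alg_769

/-!
# R273 (S0416), Part A, HALF 2, (R4), part 1 (helper73)

* `rh P k x`  : `|F_k|² / ∑ |F_j|²`
* `Gd X k v`  : growth of `v : Mer A` on the fibres of `y`, near the zeros of `F_k`, outside of a
                divisor of the affine model
* `Gd.of_int` : the bound for integral elements
-/

set_option autoImplicit false
set_option linter.unusedSectionVars false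

open Set Filter Topology Complex MeasureTheory
open scoped ContDiff Matrix ENNReal NNReal

namespace Crest.Agent.R273.R4x_73

open Crest.Agent.R275.Geo Crest.Agent.R275.Core144 Crest.Agent.R275.GC293
open Crest.Agent.R273.SteinA_794
open Crest.Agent.R273.SteinB_794 Crest.Agent.R273.SteinC_794 Crest.Agent.R273.SteinD_794
open Crest.Agent.R273.SteinE_794 Crest.Agent.R273.SteinF_794 Crest.Agent.R273.SteinG_794
open Crest.Agent.R273.Defs_333 (ProjD HM HM.wt HM.Semipos HM.Pos HasSec)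
open Crest.Agent.R273.FS_333 (lb sec isHS_sec exists_sec_ne fs)
open Crest.Agent.R273.Mer769 Crest.Agent.R273.FF769
open Crest.Agent.R273.Cram_747 (TS)
open Crest.Agent.R273.Fock_243 (FI)
open Crest.Agent.R273.TD3_733 (D2)
open Crest.Agent.R273.Chow_313
open Crest.Agent.R273.YDx1_945 Crest.Agent.R273.YDx3_945 Crest.Agent.R273.YDx5_945
open Crest.Agent.R273.AsmY_73

noncomputable section

variable {n : ℕ} {M : Type} [TopologicalSpace M] {A : Atl n M} {P : ProjD A} {L : LB A}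

theorem isHS1 (P : ProjD A) (k : Fin (P.N + 1)) : IsHS (lb P ^ 1) univ (sec P k) := by
  rw [pow_one]; exact isHS_sec P k

/-- `|F_k|² / ∑ |F_j|²` -/
def rh (P : ProjD A) (k : Fin (P.N + 1)) (x : M) : ℝ :=
  HM_333.nsq (fs P) (sec P k) (A.cover x).choose x

theorem rh_eq (k : Fin (P.N + 1)) {i : A.ι} {x : M} (hx : x ∈ (A.e i).source) :
    rh P k x = ‖sec P k i x‖ ^ 2 * (fs P).w i x :=
  HM_333.nsq_indep (fs P) (isHS_sec P k) ⟨(A.cover x).choose_spec, hx⟩ (mem_univ x)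

theorem rh_sum (x : M) : ∑ k, rh P k x = 1 := by
  obtain ⟨i, hi⟩ := A.cover x
  have h1 : ∑ k, rh P k x = (∑ k, ‖P.F i x k‖ ^ 2) * (∑ k, ‖P.F i x k‖ ^ 2)⁻¹ := by
    rw [Finset.sum_mul]
    refine Finset.sum_congr rfl fun k _ => ?_
    rw [rh_eq k hi, FS_333.sec_eq P hi]
    rfl
  rw [h1]
  have h2 := (fs P).pos i x hi
  exact mul_inv_cancel₀ (inv_pos.1 h2).ne'

theorem rh_nonneg (k : Fin (P.N + 1)) (x : M) : 0 ≤ rh P k x := by
  obtain ⟨i, hi⟩ := A.cover x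
  rw [rh_eq k hi]
  exact mul_nonneg (sq_nonneg _) ((fs P).pos i x hi).le

theorem rh_le (k : Fin (P.N + 1)) (x : M) : rh P k x ≤ 1 := by
  rw [← rh_sum (P := P) x]
  exact Finset.single_le_sum (f := fun k => rh P k x) (fun k _ => rh_nonneg k x) (Finset.mem_univ k)

/-- the largest coordinate -/
theorem exists_rh (x : M) : ∃ k : Fin (P.N + 1), (1 / (P.N + 1 : ℝ)) ≤ rh P k x ∧
    x ∈ nz (sec P k) := by
  have h1 : ∃ k : Fin (P.N + 1), (1 / (P.N + 1 : ℝ)) ≤ rh P k x := by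
    by_contra hcon
    push Not at hcon
    have h2 : ∑ k : Fin (P.N + 1), rh P k x < ∑ _k : Fin (P.N + 1), (1 / (P.N + 1 : ℝ)) :=
      Finset.sum_lt_sum_of_nonempty Finset.univ_nonempty fun k _ => hcon k
    rw [rh_sum, Finset.sum_const, Finset.card_univ, Fintype.card_fin, nsmul_eq_mul] at h2
    push_cast at h2
    have h3 : (P.N + 1 : ℝ) ≠ 0 := by positivity
    rw [mul_one_div_cancel h3] at h2
    exact lt_irrefl _ h2
  obtain ⟨k, hk⟩ := h1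
  refine ⟨k, hk, ?_⟩
  obtain ⟨i, hi⟩ := A.cover x
  rw [mem_nz (isHS_sec P k) hi]
  intro h0
  rw [rh_eq k hi, h0, norm_zero] at hk
  have : (0 : ℝ) < 1 / (P.N + 1 : ℝ) := by positivity
  simp at hk
  linarith

section

variable [ConnectedSpace M] (X : HD P L)

/-- growth of `v` on the fibres of `y`, near the zeros of `F_k` -/
def Gd (k : Fin (P.N + 1)) (v : Mer A) : Prop :=
  ∃ g1 : Reg (lb P ^ X.D.m) X.D.t X.D.ht, g1 ≠ 0 ∧ ∃ D : ℕ, ∀ x0 : nz X.D.t, g1.1 x0 ≠ 0 →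
    ∃ C : ℝ, ∀ x' : nz X.D.t, x'.1 ∈ nz (sec P k) → g1.1 x' ≠ 0 →
      (∀ l, X.y l x'.1 = X.y l x0.1) → x'.1 ∈ reg v ∧ ‖ev v x'.1‖ * rh P k x'.1 ^ D ≤ C

variable {X} {k : Fin (P.N + 1)}

theorem pow_rh_le {x : M} {D D' : ℕ} (h : D ≤ D') : rh P k x ^ D' ≤ rh P k x ^ D :=
  pow_le_pow_of_le_one (rh_nonneg k x) (rh_le k x) h

variable [T2Space M]

theorem Xne : ∃ i x, X.D.t i x ≠ 0 := by
  obtain ⟨x0, hx0⟩ := X.Une
  obtain ⟨i0, hi0⟩ := A.cover x0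
  exact ⟨i0, x0, (mem_nz X.D.ht hi0).1 (X.hU ▸ hx0)⟩

theorem mul_ne {g g' : Reg (lb P ^ X.D.m) X.D.t X.D.ht} (h : g ≠ 0) (h' : g' ≠ 0) :
    g * g' ≠ 0 := by
  have := reg_domain X.D.ht (Xne (X := X))
  exact mul_ne_zero h h'

theorem Gd.add {v v' : Mer A} (h : Gd X k v) (h' : Gd X k v') : Gd X k (v + v') := by
  obtain ⟨g, hg, D, hC⟩ := h
  obtain ⟨g', hg', D', hC'⟩ := h'
  refine ⟨g * g', mul_ne hg hg', max D D', fun x0 hx0 => ?_⟩
  have e : ∀ x, (g * g').1 x = g.1 x * g'.1 x := fun x => rfl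
  rw [e] at hx0
  obtain ⟨C, h1⟩ := hC x0 (left_ne_zero_of_mul hx0)
  obtain ⟨C', h2⟩ := hC' x0 (right_ne_zero_of_mul hx0)
  refine ⟨C + C', fun x' hk hx' hy => ?_⟩
  rw [e] at hx'
  obtain ⟨a1, a2⟩ := h1 x' hk (left_ne_zero_of_mul hx') hy
  obtain ⟨b1, b2⟩ := h2 x' hk (right_ne_zero_of_mul hx') hy
  obtain ⟨c1, c2⟩ := reg_add a1 b1
  refine ⟨c1, ?_⟩
  rw [c2]
  calc ‖ev v x'.1 + ev v' x'.1‖ * rh P k x'.1 ^ max D D'
      ≤ (‖ev v x'.1‖ + ‖ev v' x'.1‖) * rh P k x'.1 ^ max D D' :=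
        mul_le_mul_of_nonneg_right (norm_add_le _ _) (pow_nonneg (rh_nonneg k _) _)
    _ = ‖ev v x'.1‖ * rh P k x'.1 ^ max D D' + ‖ev v' x'.1‖ * rh P k x'.1 ^ max D D' := by ring
    _ ≤ ‖ev v x'.1‖ * rh P k x'.1 ^ D + ‖ev v' x'.1‖ * rh P k x'.1 ^ D' :=
        add_le_add (mul_le_mul_of_nonneg_left (pow_rh_le (le_max_left _ _)) (norm_nonneg _))
          (mul_le_mul_of_nonneg_left (pow_rh_le (le_max_right _ _)) (norm_nonneg _))
    _ ≤ C + C' := add_le_add a2 b2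

theorem Gd.mul {v v' : Mer A} (h : Gd X k v) (h' : Gd X k v') : Gd X k (v * v') := by
  obtain ⟨g, hg, D, hC⟩ := h
  obtain ⟨g', hg', D', hC'⟩ := h'
  refine ⟨g * g', mul_ne hg hg', D + D', fun x0 hx0 => ?_⟩
  have e : ∀ x, (g * g').1 x = g.1 x * g'.1 x := fun x => rfl
  rw [e] at hx0
  obtain ⟨C, h1⟩ := hC x0 (left_ne_zero_of_mul hx0)
  obtain ⟨C', h2⟩ := hC' x0 (right_ne_zero_of_mul hx0)
  refine ⟨C * C', fun x' hk hx' hy => ?_⟩
  rw [e] at hx'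
  obtain ⟨a1, a2⟩ := h1 x' hk (left_ne_zero_of_mul hx') hy
  obtain ⟨b1, b2⟩ := h2 x' hk (right_ne_zero_of_mul hx') hy
  obtain ⟨c1, c2⟩ := reg_mul a1 b1
  refine ⟨c1, ?_⟩
  rw [c2, norm_mul, pow_add]
  have p1 : 0 ≤ ‖ev v x'.1‖ * rh P k x'.1 ^ D :=
    mul_nonneg (norm_nonneg _) (pow_nonneg (rh_nonneg k _) _)
  have p2 : 0 ≤ ‖ev v' x'.1‖ * rh P k x'.1 ^ D' :=
    mul_nonneg (norm_nonneg _) (pow_nonneg (rh_nonneg k _) _)
  calc ‖ev v x'.1‖ * ‖ev v' x'.1‖ * (rh P k x'.1 ^ D * rh P k x'.1 ^ D')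
      = (‖ev v x'.1‖ * rh P k x'.1 ^ D) * (‖ev v' x'.1‖ * rh P k x'.1 ^ D') := by ring
    _ ≤ C * C' := mul_le_mul a2 b2 p2 (p1.trans a2)

variable (X) in
/-- the class of `Q(y)` in the affine model -/
theorem exists_den (PA : Part A) (hD : D2 A) [CompactSpace M] [Finite A.ι]
    {Q : MvPolynomial (Fin (X.b + 1)) ℂ} (hQ : MvPolynomial.aeval X.g Q ≠ 0) :
    ∃ g1 : Reg (lb P ^ X.D.m) X.D.t X.D.ht, g1 ≠ 0 ∧ ∀ x : nz X.D.t,
      g1.1 x = MvPolynomial.eval (fun l => X.y l x.1) Q := by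
  let yR : Fin (X.b + 1) → Reg (lb P ^ X.D.m) X.D.t X.D.ht := fun l =>
    ⟨fun x => X.y l x.1, quot_mem PA hD P X.hm X.D.ht (X.hs l) X.ht (X.hU ▸ X.Ut)⟩
  have hgval : ∀ x : nz X.D.t, (MvPolynomial.aeval yR Q).1 x =
      MvPolynomial.eval (fun l => X.y l x.1) Q := by
    intro x
    have h1 : evR X.D.ht x (MvPolynomial.aeval yR Q) =
        MvPolynomial.aeval (fun l => evR X.D.ht x (yR l)) Q := by
      rw [MvPolynomial.comp_aeval_apply]
    exact h1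
  refine ⟨MvPolynomial.aeval yR Q, fun h0 => ?_, hgval⟩
  obtain ⟨x0, hx0⟩ := X.Une
  have hdn := Crest.Agent.R273.RKd_635.dense_ev (yS_ev X) hQ
  obtain ⟨x, hx⟩ := (hdn.nonempty_iff.2 ⟨⟨x0, hx0⟩⟩)
  refine hx ?_
  have h2 := hgval ⟨x.val, X.hU ▸ x.prop⟩
  rw [h0] at h2
  exact h2.symm

/-- the elements of `FF` -/
theorem Gd.of_FF (PA : Part A) (hD : D2 A) [CompactSpace M] [Finite A.ι] {v : Mer A}
    (hv : v ∈ FF (X.ts X.a X.ha) (X.ne X.a X.ha)) : Gd X k v := by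
  rw [← X.gen] at hv
  obtain ⟨R, Q, hRQ⟩ := (IntermediateField.mem_adjoin_range_iff ℂ X.g v).1 hv
  by_cases hQ : MvPolynomial.aeval X.g Q = 0
  · rw [hQ, div_zero] at hRQ
    have := reg_domain X.D.ht (Xne (X := X))
    refine ⟨1, one_ne_zero, 0, fun x0 _ => ⟨0, fun x' _ _ _ => ?_⟩⟩
    rw [hRQ]
    have h1 := reg_algebraMap (A := A) 0 x'.1
    rw [map_zero] at h1
    refine ⟨h1.1, ?_⟩
    rw [h1.2]
    simp
  · obtain ⟨g1, hg1, hv1⟩ := exists_den X PA hD hQ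
    refine ⟨g1, hg1, 0, fun x0 hx0 => ⟨‖MvPolynomial.eval (fun l => X.y l x0.1) R *
      (MvPolynomial.eval (fun l => X.y l x0.1) Q)⁻¹‖, fun x' _ hx' hy => ?_⟩⟩
    have hxU : x'.1 ∈ X.D.S.U := by
      rw [X.hU]; exact x'.2
    have hall : ∀ R, x'.1 ∈ reg (MvPolynomial.aeval X.g R) ∧ ev (MvPolynomial.aeval X.g R) x'.1 =
        MvPolynomial.eval (fun l => X.y l x'.1) R := fun R => eval_yS X R ⟨x'.1, hxU⟩
    obtain ⟨a1, a2⟩ := hall R
    obtain ⟨b1, b2⟩ := hall Q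
    have hy' : (fun l => X.y l x'.1) = fun l => X.y l x0.1 := funext hy
    have e2 : ev (MvPolynomial.aeval X.g Q) x'.1 =
        MvPolynomial.eval (fun l => X.y l x0.1) Q := by
      rw [← hy']; exact b2
    have e1 : ev (MvPolynomial.aeval X.g R) x'.1 =
        MvPolynomial.eval (fun l => X.y l x0.1) R := by
      rw [← hy']; exact a2
    have hQ0 : ev (MvPolynomial.aeval X.g Q) x'.1 ≠ 0 := by
      rw [e2, ← hv1]
      exact hx0
    obtain ⟨c1, c2⟩ := reg_inv b1 hQ0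
    obtain ⟨d1, d2⟩ := reg_mul a1 c1
    rw [hRQ, div_eq_mul_inv]
    refine ⟨d1, ?_⟩
    rw [d2, c2, e1, e2, pow_zero, mul_one]

/-- regular functions on the affine open set `F_k ≠ 0` -/
theorem Gd.of_reg [CompactSpace M] {f : Reg (lb P ^ 1) (sec P k) (isHS1 P k)} {v : Mer A}
    (hv : IsExt v f.1) : Gd X k v := by
  have := reg_domain X.D.ht (Xne (X := X))
  obtain ⟨j, t, ht, hf⟩ := f.2
  obtain ⟨C, hC, hb⟩ := bdd_sec (HM_333.pow (HM_333.pow (fs P) 1) j) ht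
  refine ⟨1, one_ne_zero, j, fun x0 _ => ⟨Real.sqrt C, fun x' hk _ _ => ?_⟩⟩
  obtain ⟨h1, h2⟩ := hv ⟨x'.1, hk⟩
  refine ⟨h1, Real.le_sqrt_of_sq_le ?_⟩
  obtain ⟨i, hi⟩ := A.cover x'.1
  have h3 := hf ⟨x'.1, hk⟩ i hi
  have h4 := hb i x'.1 hi
  have hs0 : sec P k i x'.1 ≠ 0 := (mem_nz (isHS_sec P k) hi).1 hk
  have h5 : ‖ev v x'.1‖ ^ 2 * rh P k x'.1 ^ j =
      ‖t i x'.1‖ ^ 2 * (HM_333.pow (HM_333.pow (fs P) 1) j).w i x'.1 := by
    rw [h2, h3, rh_eq k hi, mul_pow, norm_div, norm_pow, div_pow]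
    rw [HM_333.pow_w, HM_333.pow_w, pow_one]
    have h6 : ‖sec P k i x'.1‖ ≠ 0 := norm_ne_zero_iff.2 hs0
    field_simp
    ring
  calc (‖ev v x'.1‖ * rh P k x'.1 ^ j) ^ 2
      = (‖ev v x'.1‖ ^ 2 * rh P k x'.1 ^ j) * rh P k x'.1 ^ j := by ring
    _ ≤ (‖ev v x'.1‖ ^ 2 * rh P k x'.1 ^ j) * 1 := by
        refine mul_le_mul_of_nonneg_left (pow_le_one₀ (rh_nonneg k _) (rh_le k _)) ?_
        exact mul_nonneg (sq_nonneg _) (pow_nonneg (rh_nonneg k _) _)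
    _ = _ := mul_one _
    _ ≤ C := by rw [h5]; exact h4

/-- the algebra over `FF` generated by regular functions on `F_k ≠ 0` -/
theorem Gd.of_adjoin (PA : Part A) (hD : D2 A) [CompactSpace M] [Finite A.ι] {T : Set (Mer A)}
    (hT : ∀ v ∈ T, ∃ f : Reg (lb P ^ 1) (sec P k) (isHS1 P k), IsExt v f.1) {v : Mer A}
    (hv : v ∈ Algebra.adjoin (FF (X.ts X.a X.ha) (X.ne X.a X.ha)) T) : Gd X k v := by
  induction hv using Algebra.adjoin_induction with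
  | mem v hv =>
    obtain ⟨f, hf⟩ := hT v hv
    exact Gd.of_reg hf
  | algebraMap c => exact Gd.of_FF PA hD c.2
  | add _ _ _ _ h h' => exact h.add h'
  | mul _ _ _ _ h h' => exact h.mul h'

/-- finitely many functions of moderate growth -/
theorem Gd.fin {v : ℕ → Mer A} {d : ℕ} (h : ∀ i < d, Gd X k (v i)) :
    ∃ g1 : Reg (lb P ^ X.D.m) X.D.t X.D.ht, g1 ≠ 0 ∧ ∃ D : ℕ, ∀ x0 : nz X.D.t, g1.1 x0 ≠ 0 →
    ∃ C : ℝ, ∀ x' : nz X.D.t, x'.1 ∈ nz (sec P k) → g1.1 x' ≠ 0 →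
      (∀ l, X.y l x'.1 = X.y l x0.1) → (∀ i < d, x'.1 ∈ reg (v i)) ∧
        ∑ i ∈ Finset.range d, ‖ev (v i) x'.1‖ * rh P k x'.1 ^ D ≤ C := by
  induction d with
  | zero =>
    have := reg_domain X.D.ht (Xne (X := X))
    refine ⟨1, one_ne_zero, 0, fun x0 _ => ⟨0, fun x' _ _ _ => ⟨fun i hi => by omega, ?_⟩⟩⟩
    simp
  | succ d ih =>
    obtain ⟨g, hg, D, hC⟩ := ih fun i hi => h i (by omega)
    obtain ⟨g', hg', D', hC'⟩ := h d (by omega)
    refine ⟨g * g', mul_ne hg hg', max D D', fun x0 hx0 => ?_⟩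
    have e : ∀ x, (g * g').1 x = g.1 x * g'.1 x := fun x => rfl
    rw [e] at hx0
    obtain ⟨C, h1⟩ := hC x0 (left_ne_zero_of_mul hx0)
    obtain ⟨C', h2⟩ := hC' x0 (right_ne_zero_of_mul hx0)
    refine ⟨C + C', fun x' hk hx' hy => ?_⟩
    rw [e] at hx'
    obtain ⟨a1, a2⟩ := h1 x' hk (left_ne_zero_of_mul hx') hy
    obtain ⟨b1, b2⟩ := h2 x' hk (right_ne_zero_of_mul hx') hy
    refine ⟨fun i hi => ?_, ?_⟩
    · rcases Nat.lt_succ_iff_lt_or_eq.1 hi with h3 | h3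
      · exact a1 i h3
      · rw [h3]; exact b1
    · rw [Finset.sum_range_succ]
      refine add_le_add (le_trans ?_ a2) (le_trans ?_ b2)
      · exact Finset.sum_le_sum fun i _ =>
          mul_le_mul_of_nonneg_left (pow_rh_le (le_max_left _ _)) (norm_nonneg _)
      · exact mul_le_mul_of_nonneg_left (pow_rh_le (le_max_right _ _)) (norm_nonneg _)

theorem reg_pow {v : Mer A} {x : M} (h : x ∈ reg v) (d : ℕ) :
    x ∈ reg (v ^ d) ∧ ev (v ^ d) x = ev v x ^ d := by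
  induction d with
  | zero =>
    have h1 := reg_algebraMap (A := A) 1 x
    rw [map_one] at h1
    rw [pow_zero, pow_zero]
    exact h1
  | succ d ih =>
    have h1 := reg_mul ih.1 h
    rw [pow_succ, pow_succ, ← ih.2]
    exact h1

theorem reg_sum {v : ℕ → Mer A} {x : M} {d : ℕ} (h : ∀ i < d, x ∈ reg (v i)) :
    x ∈ reg (∑ i ∈ Finset.range d, v i) ∧
      ev (∑ i ∈ Finset.range d, v i) x = ∑ i ∈ Finset.range d, ev (v i) x := by
  induction d with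
  | zero =>
    have h1 := reg_algebraMap (A := A) 0 x
    rw [map_zero] at h1
    simpa using h1
  | succ d ih =>
    have h1 := ih fun i hi => h i (by omega)
    have h2 := reg_add h1.1 (h d (by omega))
    rw [Finset.sum_range_succ, Finset.sum_range_succ, ← h1.2]
    exact h2

theorem root_bound {z : ℂ} {c : ℕ → ℂ} {d : ℕ}
    (h : ∑ i ∈ Finset.range d, c i * z ^ i + z ^ d = 0) :
    ‖z‖ ≤ 1 + ∑ i ∈ Finset.range d, ‖c i‖ := by
  have hs : 0 ≤ ∑ i ∈ Finset.range d, ‖c i‖ := Finset.sum_nonneg fun _ _ => norm_nonneg _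
  rcases le_or_gt ‖z‖ 1 with h1 | h1
  · linarith
  cases d with
  | zero => simp at h
  | succ d =>
    have h2 : z ^ (d + 1) = -∑ i ∈ Finset.range (d + 1), c i * z ^ i := by
      rw [eq_neg_iff_add_eq_zero, add_comm]; exact h
    have h3 : ‖z‖ ^ (d + 1) ≤ (∑ i ∈ Finset.range (d + 1), ‖c i‖) * ‖z‖ ^ d := by
      rw [← norm_pow, h2, norm_neg, Finset.sum_mul]
      refine (norm_sum_le _ _).trans (Finset.sum_le_sum fun i hi => ?_)
      rw [norm_mul, norm_pow]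
      have h4 : i ≤ d := Nat.lt_succ_iff.1 (Finset.mem_range.1 hi)
      exact mul_le_mul_of_nonneg_left (pow_le_pow_right₀ h1.le h4) (norm_nonneg _)
    have h5 : 0 < ‖z‖ ^ d := by positivity
    rw [pow_succ, mul_comm] at h3
    have h6 := le_of_mul_le_mul_right h3 h5
    linarith

/-- integral elements have moderate growth -/
theorem Gd.of_int (PA : Part A) (hD : D2 A) [CompactSpace M] [Finite A.ι] {T : Set (Mer A)}
    (hT : ∀ v ∈ T, ∃ f : Reg (lb P ^ 1) (sec P k) (isHS1 P k), IsExt v f.1) {μ : Mer A}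
    (hμ : IsIntegral (Algebra.adjoin (FF (X.ts X.a X.ha) (X.ne X.a X.ha)) T) μ)
    (hr : ∀ x : nz X.D.t, x.1 ∈ nz (sec P k) → x.1 ∈ reg μ) : Gd X k μ := by
  obtain ⟨p, hp, h0⟩ := hμ
  let v : ℕ → Mer A := fun i => algebraMap
    (Algebra.adjoin (FF (X.ts X.a X.ha) (X.ne X.a X.ha)) T) (Mer A) (p.coeff i)
  obtain ⟨g, hg, D, hC⟩ := Gd.fin (X := X) (k := k) (v := v) (d := p.natDegree)
    fun i _ => Gd.of_adjoin PA hD hT (p.coeff i).2
  have heq : ∑ i ∈ Finset.range p.natDegree, v i * μ ^ i + μ ^ p.natDegree = 0 := by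
    rw [Polynomial.eval₂_eq_sum_range, Finset.sum_range_succ] at h0
    rw [hp.coeff_natDegree, map_one, one_mul] at h0
    exact h0
  refine ⟨g, hg, D, fun x0 hx0 => ?_⟩
  obtain ⟨C, h1⟩ := hC x0 hx0
  refine ⟨1 + C, fun x' hk hx' hy => ?_⟩
  obtain ⟨a1, a2⟩ := h1 x' hk hx' hy
  have hμr := hr x' hk
  refine ⟨hμr, ?_⟩
  have h2 : ∑ i ∈ Finset.range p.natDegree, ev (v i) x'.1 * ev μ x'.1 ^ i +
      ev μ x'.1 ^ p.natDegree = 0 := by
    have b1 : ∀ i < p.natDegree, x'.1 ∈ reg (v i * μ ^ i) := fun i hi =>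
      (reg_mul (a1 i hi) (reg_pow hμr i).1).1
    have b2 := reg_sum b1
    have b3 := reg_pow hμr p.natDegree
    have b4 := reg_add b2.1 b3.1
    rw [heq, b2.2, b3.2] at b4
    have b5 := (reg_algebraMap (A := A) 0 x'.1).2
    rw [map_zero] at b5
    rw [← b5, b4.2]
    congr 1
    refine Finset.sum_congr rfl fun i hi => ?_
    rw [(reg_mul (a1 i (Finset.mem_range.1 hi)) (reg_pow hμr i).1).2, (reg_pow hμr i).2]
  have h3 := root_bound h2
  have h4 : 0 ≤ rh P k x'.1 ^ D := pow_nonneg (rh_nonneg k _) _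
  calc ‖ev μ x'.1‖ * rh P k x'.1 ^ D
      ≤ (1 + ∑ i ∈ Finset.range p.natDegree, ‖ev (v i) x'.1‖) * rh P k x'.1 ^ D :=
        mul_le_mul_of_nonneg_right h3 h4
    _ = rh P k x'.1 ^ D + ∑ i ∈ Finset.range p.natDegree, ‖ev (v i) x'.1‖ * rh P k x'.1 ^ D := by
        rw [add_mul, one_mul, Finset.sum_mul]
    _ ≤ 1 + C := add_le_add (pow_le_one₀ (rh_nonneg k _) (rh_le k _)) a2

end

end

end Crest.Agent.R273.R4x_73
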