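import Crest.Agent.R273.R4x_73

/-!
# R273 (S0416), Part A, HALF 2, (R4), part 2 (helper73)

* `extH`    : the regular functions on an affine open set as elements of `Mer A`
* `f_rel`   : `w_a^(c-b) w_c^(b-a) = f w_b^(c-a)`, `f ∈ FF`
* `mu_int`  : `μ = λ τ / F_k ^ N` is integral over `FF [Reg]`
* `mu_gd`   : `μ` has moderate growth on the fibres of `y`
-/

set_option autoImplicit false
set_option linter.unusedSectionVars false

open Set Filter Topology Complex MeasureTheory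
open scoped ContDiff Matrix ENNReal NNReal

namespace Crest.Agent.R273.R4x_73

open Crest.Agent.R275.Geo Crest.Agent.R275.Core144 Crest.Agent.R275.GC293
open Crest.Agent.R273.SteinA_794
open Crest.Agent.R273.SteinB_794 Crest.Agent.R273.SteinC_794 Crest.Agent.R273.SteinD_794
open Crest.Agent.R273.SteinE_794 Crest.Agent.R273.SteinF_794 Crest.Agent.R273.SteinG_794
open Crest.Agent.R273.Defs_333 (ProjD HM HM.wt HM.Semipos HM.Pos HasSec)
open Crest.Agent.R273.FS_333 (lb sec isHS_sec exists_sec_ne fs)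
open Crest.Agent.R273.Mer769 Crest.Agent.R273.FF769
open Crest.Agent.R273.Cram_747 (TS num den num_apply den_apply)
open Crest.Agent.R273.Fock_243 (FI)
open Crest.Agent.R273.TD3_733 (D2)
open Crest.Agent.R273.SerE_945 (ggen_proj)
open Crest.Agent.R273.Chow_313
open Crest.Agent.R273.YDx1_945 Crest.Agent.R273.YDx3_945 Crest.Agent.R273.YDx5_945
open Crest.Agent.R273.AsmY_73

noncomputable section

variable {n : ℕ} {M : Type} [TopologicalSpace M] {A : Atl n M} {P : ProjD A} {L : LB A}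

section ext

variable [T2Space M] [ConnectedSpace M] {Q : LB A} {d0 : A.ι → M → ℂ}

/-- regular functions as elements of `Mer A` -/
def extH (hd0 : IsHS Q univ d0) (hne : ∃ i x, d0 i x ≠ 0) : Reg Q d0 hd0 →ₐ[ℂ] Mer A :=
  AlgHom.ofLinearMap
    { toFun := fun f => (exists_ext_gen hd0 hne f).choose
      map_add' := fun f g => ext_unique hd0 hne (exists_ext_gen hd0 hne (f + g)).choose_spec.2
        fun x => by
          have h1 := (exists_ext_gen hd0 hne f).choose_spec.2 x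
          have h2 := (exists_ext_gen hd0 hne g).choose_spec.2 x
          have h3 := reg_add h1.1 h2.1
          exact ⟨h3.1, by rw [h3.2, h1.2, h2.2]; rfl⟩
      map_smul' := fun c f => ext_unique hd0 hne (exists_ext_gen hd0 hne (c • f)).choose_spec.2
        fun x => by
          have h1 := (exists_ext_gen hd0 hne f).choose_spec.2 x
          have h2 := reg_algebraMap (A := A) c x.1
          have h3 := reg_mul h2.1 h1.1
          rw [RingHom.id_apply, Algebra.smul_def]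
          exact ⟨h3.1, by rw [h3.2, h1.2, h2.2]; rfl⟩ }
    (ext_unique hd0 hne (exists_ext_gen hd0 hne 1).choose_spec.2 fun x => by
      have h2 := reg_algebraMap (A := A) 1 x.1
      rw [map_one] at h2
      exact ⟨h2.1, h2.2⟩)
    fun f g => ext_unique hd0 hne (exists_ext_gen hd0 hne (f * g)).choose_spec.2 fun x => by
      have h1 := (exists_ext_gen hd0 hne f).choose_spec.2 x
      have h2 := (exists_ext_gen hd0 hne g).choose_spec.2 x
      have h3 := reg_mul h1.1 h2.1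
      exact ⟨h3.1, h3.2.trans (by rw [h1.2, h2.2]; rfl)⟩

theorem extH_isExt (hd0 : IsHS Q univ d0) (hne : ∃ i x, d0 i x ≠ 0) (f : Reg Q d0 hd0) :
    IsExt (extH hd0 hne f) f.1 := (exists_ext_gen hd0 hne f).choose_spec.2

/-- the class of `t / d0 ^ j` -/
theorem mem_range_extH (hd0 : IsHS Q univ d0) (hne : ∃ i x, d0 i x ≠ 0) {j : ℕ}
    {t : A.ι → M → ℂ} (ht : IsHS (Q ^ j) univ t) {v : Mer A} (hv : RelS v t (pw d0 j)) :
    v ∈ (extH hd0 hne).range := by
  refine ⟨toReg hd0 j t ht, ext_unique hd0 hne (extH_isExt hd0 hne _) fun x => ?_⟩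
  obtain ⟨i, hi⟩ := A.cover x.1
  have h3 : pw d0 j i x ≠ 0 := by
    rw [pw_apply d0 j hi]
    exact pow_ne_zero j ((mem_nz hd0 hi).1 x.2)
  obtain ⟨h4, h5⟩ := hv.reg_ev ht (isHS_pw hd0 j) hi h3
  refine ⟨h4, ?_⟩
  rw [h5, toReg_apply hd0 j t ht x hi, pw_apply d0 j hi]

end ext

theorem dn_nz [ConnectedSpace M] {N : LB A} {s : A.ι → M → ℂ} (hs : IsHS N univ s)
    (h0 : ∃ i, ∃ x ∈ (A.e i).source, s i x ≠ 0) : nz s ∈ dn M :=
  dn_of_dense (isOpen_nz hs) (dense_nz hs h0)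

section

variable [ConnectedSpace M] (X : HD P L)

/-- `w_a^(c-b) w_c^(b-a) = f w_b^(c-a)` -/
theorem f_rel {c : ℕ} (hc : c ∈ X.K) (hlt : X.a + X.j0 < c) :
    ∃ f ∈ FF (X.ts X.a X.ha) (X.ne X.a X.ha), f ≠ 0 ∧ ∀ i, ∀ x ∈ (A.e i).source, x ∈ reg f → ∀ F,
      X.w X.a i x F ^ (c - (X.a + X.j0)) * X.w c i x F ^ X.j0 =
        ev f x * X.w (X.a + X.j0) i x F ^ (c - X.a) := by
  have hab : X.a < X.a + X.j0 := Nat.lt_add_of_pos_right X.j0_pos
  obtain ⟨f, hf, hf0, hr⟩ := exists_f (k0 := X.a) (X.ts X.a X.ha) (X.ne X.a X.ha) hab hlt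
    (X.ts X.a X.ha) (X.ts _ X.hb) (X.ts c hc) (X.ne X.a X.ha) (X.ne _ X.hb) (X.ne c hc)
    (X.prp _ X.ha _ X.ha) (X.prp _ X.hb _ X.ha) (X.prp c hc _ X.ha)
  refine ⟨f, hf, hf0, fun i x hx hxr F => ?_⟩
  have h1 := hr i x hx hxr (fun p => F p.2)
  rw [num_apply hab hlt, den_apply, Nat.add_sub_cancel_left] at h1
  exact h1

theorem alg_id {l sa sb wa wb wc Sa Sb Sc τ κ f μ s v : ℂ} {N E e j0 : ℕ} (hl : l ≠ 0)
    (hsa : sa ≠ 0) (hwa : wa ≠ 0) (h1 : sb * wa = sa * wb) (h2 : Sb * wa = Sa * wb)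
    (h3 : Sc * wa = Sa * wc) (h4 : wa ^ e * wc ^ j0 = f * wb ^ (e + j0))
    (hμ : μ = sb * τ / (sa * l ^ N)) (hs : s = Sb ^ j0 * κ / l ^ E)
    (hv : v = Sc ^ j0 * κ * τ ^ e / l ^ (E + N * e)) : s * μ ^ e * f = v := by
  have e1 : sb = sa * wb / wa := by rw [eq_div_iff hwa, h1]
  have e2 : Sb = Sa * wb / wa := by rw [eq_div_iff hwa, h2]
  have e3 : Sc = Sa * wc / wa := by rw [eq_div_iff hwa, h3]
  have e4 : μ = (wb / wa) * τ / l ^ N := by
    rw [hμ, e1]
    field_simp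
  rw [hs, hv, e4, e2, e3]
  have e5 : f * wb ^ (e + j0) / wa ^ (e + j0) = (wc / wa) ^ j0 := by
    rw [← h4, pow_add, div_pow]
    field_simp
  have e6 : (Sa * wb / wa) ^ j0 * κ / l ^ E * (wb / wa * τ / l ^ N) ^ e * f =
      Sa ^ j0 * κ * τ ^ e / l ^ (E + N * e) * (f * wb ^ (e + j0) / wa ^ (e + j0)) := by
    rw [pow_add wb, pow_add wa, pow_add l, pow_mul]
    simp only [div_pow, mul_pow]
    field_simp
  rw [e6, e5, mul_div_assoc Sa, mul_pow]
  ring

theorem pw_ne0 {s : A.ι → M → ℂ} (j : ℕ)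
    (h0 : ∃ i, ∃ x ∈ (A.e i).source, s i x ≠ 0) : pw s j ≠ 0 := by
  obtain ⟨i, x, hx, h⟩ := h0
  intro h1
  have h2 := pw_apply s j hx
  rw [h1] at h2
  exact pow_ne_zero j h h2.symm

/-- **`μ` has moderate growth on the fibres** -/
theorem mu_gd [T2Space M] [CompactSpace M] [Finite A.ι] (PA : Part A) (hD : D2 A)
    {k : Fin (P.N + 1)} (hk : ∃ i, ∃ x ∈ (A.e i).source, sec P k i x ≠ 0) {N : ℕ}
    {τ0 : A.ι → M → ℂ} (hτ : IsHS ((L ^ X.j0)⁻¹ * lb P ^ N) univ τ0) {μ : Mer A}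
    (hμ : RelS μ (X.sb * τ0) (X.sa * pw (sec P k) N)) : Gd X k μ := by
  classical
  have hl := isHS1 P k
  have hk' : ∃ i x, sec P k i x ≠ 0 := by
    obtain ⟨i, x, -, h⟩ := hk
    exact ⟨i, x, h⟩
  -- the bundles
  have hμ1 : IsHS (L ^ X.a * lb P ^ X.m * lb P ^ N) univ (X.sb * τ0) := by
    have h := X.hsb.mul hτ
    have e : L ^ (X.a + X.j0) * lb P ^ X.m * ((L ^ X.j0)⁻¹ * lb P ^ N) =
        L ^ X.a * lb P ^ X.m * lb P ^ N := by
      calc L ^ (X.a + X.j0) * lb P ^ X.m * ((L ^ X.j0)⁻¹ * lb P ^ N)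
          = (L ^ X.j0 * (L ^ X.j0)⁻¹) * (L ^ X.a * lb P ^ X.m * lb P ^ N) := by
            rw [pow_add]; ac_rfl
        _ = _ := by rw [mul_inv_cancel, one_mul]
    rwa [e] at h
  have hμ2 : IsHS (L ^ X.a * lb P ^ X.m * lb P ^ N) univ (X.sa * pw (sec P k) N) :=
    X.hsa.mul (isHS_pw (isHS_sec P k) N)
  -- the pairing
  obtain ⟨m', β, b1, b2, b3, b4⟩ := exists_beta' P (X.ts X.a X.ha) (X.ne X.a X.ha)
  have hS : ∀ c (hc : c ∈ X.K), IsHS (L ^ c * lb P ^ m') univ (β (X.w c)) := fun c hc =>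
    b1 _ _ (X.ts c hc)
  have hSr : ∀ c (hc : c ∈ X.K) i x F, β (X.w c) i x * X.w X.a i x F =
      β (X.w X.a) i x * X.w c i x F := by
    intro c hc i x F
    have h1 := b3 (X.w X.a i x F • X.w c) (X.w X.a) i x (X.w c i x F) (by
      funext G
      have h := X.prp X.a X.ha c hc i x F G
      show X.w X.a i x F * X.w c i x G = X.w c i x F * X.w X.a i x G
      rw [h, mul_comm])
    have h2 := b3 (X.w X.a i x F • X.w c) (X.w c) i x (X.w X.a i x F) rfl
    rw [h2] at h1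
    rw [mul_comm, h1, mul_comm]
  have hSa := exists_ne (hS _ X.ha) b4
  have hSne : ∀ c (hc : c ∈ X.K), ∃ i, ∃ x ∈ (A.e i).source, β (X.w c) i x ≠ 0 := by
    intro c hc
    obtain ⟨i0, x0, hi0, hx0⟩ := hSa
    obtain ⟨x, hx, hx'⟩ := ((X.ts _ hc).dense_nz (X.ne _ hc)).inter_open_nonempty
      (nz (β (X.w X.a))) (isOpen_nz (hS _ X.ha)) ⟨x0, (mem_nz (hS _ X.ha) hi0).2 hx0⟩
    obtain ⟨i, hi⟩ := A.cover x
    refine ⟨i, x, hi, fun h0 => ?_⟩
    obtain ⟨F, hF⟩ := Function.ne_iff.1 ((X.ts _ hc).ne_of_nz hx' hi)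
    have h2 := hSr c hc i x F
    rw [h0, zero_mul] at h2
    rcases mul_eq_zero.1 h2.symm with h3 | h3
    · exact (mem_nz (hS _ X.ha) hi).1 hx h3
    · exact hF h3
  -- a nonzero section of a negative bundle twisted
  obtain ⟨N'', hN''⟩ := ggen_proj PA hD P (L ^ ((X.a + X.j0) * X.j0))⁻¹
  obtain ⟨r, κs, hκs, hκ0⟩ := hN'' N'' le_rfl
  obtain ⟨x1⟩ := (inferInstance : Nonempty M)
  obtain ⟨i1, hi1⟩ := A.cover x1
  obtain ⟨o, ho⟩ := hκ0 i1 x1 hi1
  set κ0 := κs o with hκ0_def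
  have hκ : IsHS ((L ^ ((X.a + X.j0) * X.j0))⁻¹ * lb P ^ N'') univ κ0 := hκs o
  set E := m' * X.j0 + N'' with hE
  have hs1 : IsHS ((lb P ^ 1) ^ E) univ (pw (β (X.w (X.a + X.j0))) X.j0 * κ0) := by
    have h := (isHS_pw (hS _ X.hb) X.j0).mul hκ
    have e : (L ^ (X.a + X.j0) * lb P ^ m') ^ X.j0 * ((L ^ ((X.a + X.j0) * X.j0))⁻¹ * lb P ^ N'') =
        (lb P ^ 1) ^ E := by
      calc _ = (L ^ ((X.a + X.j0) * X.j0) * (L ^ ((X.a + X.j0) * X.j0))⁻¹) *
            (lb P ^ (m' * X.j0) * lb P ^ N'') := by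
            rw [mul_pow, ← pow_mul, ← pow_mul]; ac_rfl
        _ = _ := by rw [mul_inv_cancel, one_mul, ← pow_add, pow_one]
    rwa [e] at h
  have hκne : κ0 ≠ 0 := by
    intro h
    exact ho (congrFun (congrFun h i1) x1)
  have hs1ne : pw (β (X.w (X.a + X.j0))) X.j0 * κ0 ≠ 0 :=
    mul_ne0 (isHS_pw (hS _ X.hb) X.j0) hκ (pw_ne0 X.j0 (hSne _ X.hb)) hκne
  obtain ⟨s, hs⟩ := exists_relS hs1 (isHS_pw hl E) (pw_ne0 E hk)
  have hs0 : s ≠ 0 := relS_ne_zero hs1 hs hs1ne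
  -- generators
  have hfg := reg_fg PA hD P le_rfl hl
  obtain ⟨G, hG⟩ := (Algebra.FiniteType.out (R := ℂ) (A := Reg (lb P ^ 1) (sec P k) hl))
  set T : Set (Mer A) := extH hl hk' '' (G : Set _) with hT
  have hTfin : T.Finite := G.finite_toSet.image _
  set FFX := FF (X.ts X.a X.ha) (X.ne X.a X.ha) with hFFX
  have hrange : ∀ v ∈ (extH hl hk').range, v ∈ Algebra.adjoin FFX T := by
    intro v hv
    have h1 : (extH hl hk').range = Algebra.adjoin ℂ T := by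
      rw [hT, ← AlgHom.map_adjoin, hG, Algebra.map_top]
    rw [h1] at hv
    have h2 : Algebra.adjoin ℂ T ≤ (Algebra.adjoin FFX T).restrictScalars ℂ :=
      Algebra.adjoin_le Algebra.subset_adjoin
    exact h2 hv
  have hTr : ∀ v ∈ T, ∃ f : Reg (lb P ^ 1) (sec P k) (isHS1 P k), IsExt v f.1 := by
    rintro v ⟨f, -, rfl⟩
    exact ⟨f, extH_isExt _ _ f⟩
  have hSFG : (Algebra.adjoin FFX T).FG := by
    refine ⟨hTfin.toFinset, ?_⟩
    rw [Set.Finite.coe_toFinset]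
  -- integrality
  have hint : ∀ c ∈ X.K, X.a + X.j0 < c →
      IsIntegral (Algebra.adjoin FFX T) (s * μ ^ (c - (X.a + X.j0))) := by
    intro c hc hlt
    set e := c - (X.a + X.j0) with he
    have hce : c - X.a = e + X.j0 := by omega
    obtain ⟨f, hf, hf0, hfr⟩ := f_rel X hc hlt
    have hv1 : IsHS ((lb P ^ 1) ^ (E + N * e)) univ (pw (β (X.w c)) X.j0 * κ0 * pw τ0 e) := by
      have h := ((isHS_pw (hS c hc) X.j0).mul hκ).mul (isHS_pw hτ e)
      have e1 : (L ^ c * lb P ^ m') ^ X.j0 * ((L ^ ((X.a + X.j0) * X.j0))⁻¹ * lb P ^ N'') *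
          ((L ^ X.j0)⁻¹ * lb P ^ N) ^ e = (lb P ^ 1) ^ (E + N * e) := by
        have e2 : L ^ (c * X.j0) = L ^ ((X.a + X.j0) * X.j0) * L ^ (X.j0 * e) := by
          rw [← pow_add]
          congr 1
          have : c = X.a + X.j0 + e := by omega
          rw [this]
          ring
        calc _ = (L ^ ((X.a + X.j0) * X.j0) * (L ^ ((X.a + X.j0) * X.j0))⁻¹) *
              (L ^ (X.j0 * e) * (L ^ (X.j0 * e))⁻¹) *
              (lb P ^ (m' * X.j0) * lb P ^ N'' * lb P ^ (N * e)) := by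
              rw [mul_pow, mul_pow, inv_pow, ← pow_mul, ← pow_mul, ← pow_mul, ← pow_mul, e2]
              ac_rfl
          _ = _ := by rw [mul_inv_cancel, mul_inv_cancel, one_mul, one_mul, ← pow_add, ← pow_add,
            pow_one]
      rwa [e1] at h
    obtain ⟨v, hv⟩ := exists_relS hv1 (isHS_pw hl (E + N * e)) (pw_ne0 _ hk)
    have hvm := hrange v (mem_range_extH hl hk' hv1 hv)
    have key : s * μ ^ e * f = v := by
      rw [eq_iff_dn]
      have hμe : reg (μ ^ e) ∈ dn M := dn_reg _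
      filter_upwards [dn_reg s, dn_reg μ, dn_reg f, dn_reg v, dn_nz hl hk, dn_nz X.hsa
        (by
          obtain ⟨x0, hx0⟩ := X.Une
          obtain ⟨i0, hi0⟩ := A.cover x0
          exact ⟨i0, x0, hi0, X.sa_ne hi0 hx0⟩)] with x r1 r2 r3 r4 r5 r6
      obtain ⟨i, hi⟩ := A.cover x
      have hl0 : sec P k i x ≠ 0 := (mem_nz hl hi).1 r5
      have hsa0 : X.sa i x ≠ 0 := (mem_nz X.hsa hi).1 r6
      obtain ⟨F, hF⟩ : ∃ F, X.w X.a i x F ≠ 0 := by
        by_contra hcon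
        push Not at hcon
        exact hsa0 (X.sa0 i x (funext hcon))
      have q1 := (hμ.reg_ev hμ1 hμ2 hi (by
        show X.sa i x * pw (sec P k) N i x ≠ 0
        rw [pw_apply _ _ hi]
        exact mul_ne_zero hsa0 (pow_ne_zero _ hl0))).2
      have q2 := (hs.reg_ev hs1 (isHS_pw hl E) hi (by
        rw [pw_apply _ _ hi]; exact pow_ne_zero _ hl0)).2
      have q3 := (hv.reg_ev hv1 (isHS_pw hl (E + N * e)) hi (by
        rw [pw_apply _ _ hi]; exact pow_ne_zero _ hl0)).2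
      have q4 := hfr i x hi r3 F
      rw [hce] at q4
      have t1 := reg_pow r2 e
      have t2 := reg_mul r1 t1.1
      have t3 := reg_mul t2.1 r3
      show ev (s * μ ^ e * f) x = ev v x
      rw [t3.2, t2.2, t1.2]
      refine alg_id (N := N) (E := E) (l := sec P k i x) (sa := X.sa i x) (sb := X.sb i x) (wa := X.w X.a i x F)
        (wb := X.w (X.a + X.j0) i x F) (wc := X.w c i x F) (Sa := β (X.w X.a) i x)
        (Sb := β (X.w (X.a + X.j0)) i x) (Sc := β (X.w c) i x) (τ := τ0 i x) (κ := κ0 i x)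
        hl0 hsa0 hF (X.hab i x F) (hSr _ X.hb i x F) (hSr c hc i x F) q4 ?_ ?_ ?_
      · rw [q1]
        show X.sb i x * τ0 i x / (X.sa i x * pw (sec P k) N i x) = _
        rw [pw_apply _ _ hi]
      · rw [q2]
        show pw (β (X.w (X.a + X.j0))) X.j0 i x * κ0 i x / _ = _
        rw [pw_apply _ _ hi, pw_apply _ _ hi]
      · rw [q3]
        show pw (β (X.w c)) X.j0 i x * κ0 i x * pw τ0 e i x / _ = _
        rw [pw_apply _ _ hi, pw_apply _ _ hi, pw_apply _ _ hi]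
    have h1 : s * μ ^ e = f⁻¹ * v := by
      rw [← key, mul_comm _ f, inv_mul_cancel_left₀ hf0]
    rw [h1]
    have h2 : f⁻¹ * v ∈ Algebra.adjoin FFX T :=
      mul_mem ((Algebra.adjoin FFX T).algebraMap_mem (⟨f⁻¹, FFX.inv_mem hf⟩ : FFX)) hvm
    exact isIntegral_algebraMap (R := Algebra.adjoin FFX T) (A := Mer A) (x := ⟨_, h2⟩)
  have hinf : {N : ℕ | IsIntegral (Algebra.adjoin FFX T) (s * μ ^ N)}.Infinite := by
    have h1 : (X.K \ Set.Iic (X.a + X.j0)).Infinite := X.Kinf.sdiff (Set.finite_Iic _)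
    refine Set.infinite_of_injOn_mapsTo (f := fun c => c - (X.a + X.j0)) ?_ ?_ h1
    · rintro c ⟨-, hc⟩ c' ⟨-, hc'⟩ h
      simp only [Set.mem_Iic, not_le] at hc hc' h
      omega
    · rintro c ⟨hcK, hc⟩
      exact hint c hcK (by simpa using hc)
  have hmu := Crest.Agent.R273.R4Alg769.r4alg (F := FFX) (Algebra.adjoin FFX T) hSFG hs0 hinf
  refine Gd.of_int PA hD hTr hmu fun x hxk => ?_
  obtain ⟨i, hi⟩ := A.cover x.1
  have hxU : x.1 ∈ X.D.S.U := by
    rw [X.hU]; exact x.2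
  refine (hμ.reg_ev hμ1 hμ2 hi ?_).1
  show X.sa i x.1 * pw (sec P k) N i x.1 ≠ 0
  rw [pw_apply _ _ hi]
  exact mul_ne_zero (X.sa_ne hi hxU) (pow_ne_zero _ ((mem_nz hl hi).1 hxk))

end

end

end Crest.Agent.R273.R4x_73
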