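import Crest.Agent.R273.SteinL_794
import Crest.Agent.R273.FFb_769

/-!
# R273, RK (helper635), part a: `L²` extension of tensor sections

* `ext_loc`  : local `L²` extension of a holomorphic function on `S.U ∩ source i` across `{d = 0}`;
* `glue_TS`  : a family of local extensions is a tensor section.
-/

set_option autoImplicit false
set_option linter.unusedSectionVars false

open Set Filter Topology Complex MeasureTheory
open scoped ContDiff Matrix ENNReal

namespace Crest.Agent.R273.RKa_635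

open Crest.Agent.R275.Geo Crest.Agent.R275.Core144 Crest.Agent.R273.SteinA_794
open Crest.Agent.R273.SteinB_794 Crest.Agent.R273.SteinC_794 Crest.Agent.R273.SteinD_794
open Crest.Agent.R273.SteinM_794 Crest.Agent.R273.SteinN_794 Crest.Agent.R273.SteinL_794
open Crest.Agent.R273.Defs_333 (ProjD HM HM.wt)
open Crest.Agent.R275.Pai323 Crest.Agent.R275.C1d194
open Crest.Agent.R273.Vm_333 (sg isOpen_Ui sg_mem sg_rc mem_Ui vm chm chm_apply vm_apply_chart
  meas_inter)
open Crest.Agent.R271.Ho51 (RDom cp ch IsCh IsLeb Hol Sm mem_ch isCh_ch)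
open Crest.Agent.R273.Cram_747 (TS KP tns tns_TS)
open Crest.Agent.R273.Fock_243 (FI Gam)

noncomputable section

variable {n : ℕ} {M : Type} [TopologicalSpace M] {A : Atl n M} {S : SD A}

section ext

variable [MeasurableSpace M] [BorelSpace M] [Countable A.ι] [SecondCountableTopology M]
  {μ : Measure (Mo S)}

/-- local `L²` extension in the chart `i` -/
theorem ext_loc [ConnectedSpace M] (h : HM (KB A)⁻¹) (hμ : IsLeb μ)
    {LD : LB A} {d : A.ι → M → ℂ} (hd : IsHS LD univ d)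
    (hd0 : ∃ i, ∃ x ∈ (A.e i).source, d i x ≠ 0) (hU : S.U = nz d) (i : A.ι) {u : M → ℂ}
    (hu : HolAt A i S.U u) {Φ : Mo S → ℝ≥0∞} (hΦ : Measurable Φ) (hfin : ∫⁻ x, Φ x ∂μ < ⊤)
    (hb : ∀ a ∈ (A.e i).source, ∃ c : ℝ≥0∞, c ≠ 0 ∧ ∀ᶠ x in 𝓝 a, ∀ x' : Mo S, x'.val = x →
      x ∈ (A.e i).source → c * ‖u x‖ₑ ^ 2 ≤ ENNReal.ofReal (‖zf S i x‖ ^ 2) * Φ x') :
    ∃ g : M → ℂ, HolAt A i univ g ∧ ∀ x ∈ (A.e i).source, x ∈ S.U → g x = u x := by
  classical
  -- in the coordinates `Fin n → ℂ`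
  let T : (Fin n → ℂ) → Cn n := fun w => WithLp.toLp 2 w
  have hTc : Continuous T := PiLp.continuous_toLp 2 _
  have hTd : Differentiable ℂ T :=
    (((EuclideanSpace.equiv (Fin n) ℂ).symm : (Fin n → ℂ) →L[ℂ] Cn n)).differentiable
  set O : Set (Fin n → ℂ) := T ⁻¹' (A.e i).target with hO
  have hOo : IsOpen O := (A.e i).open_target.preimage hTc
  set Dd : (Fin n → ℂ) → ℂ := fun w => d i ((A.e i).symm (T w)) with hDd
  set f : (Fin n → ℂ) → ℂ := fun w => u ((A.e i).symm (T w)) with hf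
  have hDdiff : DifferentiableOn ℂ Dd O := by
    have h1 : DifferentiableOn ℂ (fun w => d i ((A.e i).symm w)) (A.e i).target :=
      DifferentiableOn.mono (hd.hol i) fun w hw => ⟨hw, mem_univ _⟩
    exact h1.comp hTd.differentiableOn fun w hw => hw
  have hDan := Crest.Agent.R266.SCV.analyticOnNhd_of_differentiableOn hOo hDdiff
  have hmemU : ∀ w ∈ O, (Dd w ≠ 0 ↔ (A.e i).symm (T w) ∈ S.U) := by
    intro w hw
    rw [hU, mem_nz hd ((A.e i).map_target hw)]
  have hfdiff : DifferentiableOn ℂ f (O ∩ {w | Dd w ≠ 0}) := by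
    have h1 : DifferentiableOn ℂ (fun w => u ((A.e i).symm w)) (S.dom i) := hu
    refine h1.comp hTd.differentiableOn fun w hw => ⟨hw.1, ?_⟩
    exact (hmemU w hw.1).1 hw.2
  have hTe : ∀ a ∈ O, T a ∈ (A.e i).target := fun a ha => ha
  have hne : ∀ a ∈ O, ¬ ∀ᶠ z in 𝓝 a, Dd z = 0 := by
    intro a ha hev
    have h1 := id_thm hd hd0 i ((A.e i).map_target (hTe a ha))
    apply h1
    rw [ev_zero_chart ((A.e i).map_target (hTe a ha)), (A.e i).right_inv (hTe a ha)]
    have h2 : Tendsto (fun v : Cn n => WithLp.ofLp v) (𝓝 (T a)) (𝓝 a) :=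
      (PiLp.continuous_ofLp 2 _).tendsto (T a)
    exact (h2.eventually hev).mono fun v hv => hv
  have hLi : ∀ a ∈ O, ∃ W ∈ 𝓝 a, ∫⁻ z in W ∩ {z | Dd z ≠ 0}, ‖f z‖ₑ ^ 2 < ⊤ := by
    intro a ha
    obtain ⟨c, hc0, hcev⟩ := hb _ ((A.e i).map_target (hTe a ha))
    have hct : ContinuousAt (fun w => (A.e i).symm (T w)) a :=
      ContinuousAt.comp (f := T) ((A.e i).continuousAt_symm (hTe a ha)) hTc.continuousAt
    have hev := hct.eventually hcev
    obtain ⟨W, hWsub, hWo, haW⟩ := _root_.mem_nhds_iff.1 (hev.and (hOo.mem_nhds ha))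
    refine ⟨W, hWo.mem_nhds haW, ?_⟩
    -- the function on `M`
    set φ : M → ℝ≥0∞ := fun x => if hx : x ∈ S.U then Φ ⟨x, hx⟩ else 0 with hφ
    have hφe : ∀ x : Mo S, φ x.val = Φ x := by
      intro x
      have : x.val ∈ S.U := x.prop
      simp only [hφ, this, dif_pos]
      rfl
    have hφm : Measurable fun x : Mo S => φ x.val := by
      simp only [hφe]
      exact hΦ
    have hfin' := lt_of_le_of_lt (lintegral_chart_le h hμ i φ hφm)
      (by simpa only [hφe] using hfin)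
    -- compare
    have hOm : MeasurableSet (W ∩ {z | Dd z ≠ 0}) := by
      have h1 : IsOpen (O ∩ {z | Dd z ≠ 0}) := by
        have := hDan.continuousOn.isOpen_inter_preimage hOo isOpen_ne (t := {w : ℂ | w ≠ 0})
        exact this
      have h2 : W ∩ {z | Dd z ≠ 0} = W ∩ (O ∩ {z | Dd z ≠ 0}) := by
        ext w
        constructor
        · rintro ⟨hw, hw'⟩
          exact ⟨hw, (hWsub hw).2, hw'⟩
        · rintro ⟨hw, _, hw'⟩
          exact ⟨hw, hw'⟩
      rw [h2]
      exact (hWo.inter h1).measurableSet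
    -- a finite constant
    set c' : ℝ≥0∞ := min c 1 with hc'
    have hc'0 : c' ≠ 0 := (lt_min (pos_iff_ne_zero.2 hc0) one_pos).ne'
    have hc't : c' ≠ ⊤ := ((min_le_right c 1).trans_lt ENNReal.one_lt_top).ne
    have hcmp : ∫⁻ z in W ∩ {z | Dd z ≠ 0}, c' * ‖f z‖ₑ ^ 2 ≤
        ∫⁻ y in {y : RI n → ℝ | y ∈ Ui A i ∧ sg A i y ∈ S.U},
          ENNReal.ofReal (‖zf S i (sg A i y)‖ ^ 2) * φ (sg A i y) := by
      rw [← (mp_kap n).setLIntegral_comp_preimage_emb (me_kap n)]
      have hsub : kap ⁻¹' (W ∩ {z | Dd z ≠ 0}) ⊆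
          {y : RI n → ℝ | y ∈ Ui A i ∧ sg A i y ∈ S.U} := by
        rintro y ⟨hyW, hyD⟩
        have h1 : kap y ∈ O := (hWsub hyW).2
        exact ⟨h1, (hmemU _ h1).1 hyD⟩
      refine le_trans ?_ (lintegral_mono_set hsub)
      refine setLIntegral_mono' ((me_kap n).measurable hOm) fun y hy => ?_
      obtain ⟨hyW, hyD⟩ := hy
      have h1 : kap y ∈ O := (hWsub hyW).2
      have hyU : sg A i y ∈ S.U := (hmemU _ h1).1 hyD
      have hys : sg A i y ∈ (A.e i).source := sg_mem h1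
      have h2 := (hWsub hyW).1 ⟨sg A i y, hyU⟩ rfl hys
      have h3 : φ (sg A i y) = Φ ⟨sg A i y, hyU⟩ := hφe ⟨sg A i y, hyU⟩
      rw [h3]
      refine le_trans ?_ h2
      exact mul_le_mul_left (min_le_left c 1) _
    have hfin2 : c' * ∫⁻ z in W ∩ {z | Dd z ≠ 0}, ‖f z‖ₑ ^ 2 < ⊤ := by
      rw [← lintegral_const_mul' _ _ hc't]
      exact lt_of_le_of_lt hcmp hfin'
    exact (ENNReal.mul_lt_top_iff.1 hfin2).elim (fun h => h.2) fun h => by
      rcases h with h | h
      · exact absurd h hc'0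
      · rw [h]; exact ENNReal.zero_lt_top
  obtain ⟨g, hg, hgf⟩ := Crest.Agent.R271.RExt747.riemann_ext hOo hDan hne hfdiff hLi
  refine ⟨fun x => g (WithLp.ofLp (A.e i x)), ?_, ?_⟩
  · have h1 : DifferentiableOn ℂ (fun v : Cn n => g (WithLp.ofLp v)) (A.e i).target := by
      refine hg.comp (f := fun v : Cn n => (WithLp.ofLp v : Fin n → ℂ)) ?_ fun v hv => hv
      exact (((EuclideanSpace.equiv (Fin n) ℂ) : Cn n →L[ℂ] (Fin n → ℂ))).differentiable.differentiableOn
    refine (h1.mono inter_subset_left).congr fun v hv => ?_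
    simp only [(A.e i).right_inv hv.1]
  · intro x hx hxd
    have h1 : WithLp.ofLp (A.e i x) ∈ O := (A.e i).map_source hx
    have h2 : (A.e i).symm (T (WithLp.ofLp (A.e i x))) = x := (A.e i).left_inv hx
    have h3 := hgf _ h1 (by
      rw [hmemU _ h1, h2]
      exact hxd)
    show g (WithLp.ofLp (A.e i x)) = u x
    rw [h3]
    simp only [hf, h2]

end ext

/-! ### gluing -/

/-- two functions continuous at the points of an open set, equal on a dense open set, are equal -/
theorem eq_of_dense {d : A.ι → M → ℂ} (hdn : Dense (nz d)) {O : Set M} (hO : IsOpen O)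
    {f g : M → ℂ} (hf : ∀ x ∈ O, ContinuousAt f x) (hg : ∀ x ∈ O, ContinuousAt g x)
    (he : ∀ x ∈ O, x ∈ nz d → f x = g x) {x : M} (hx : x ∈ O) : f x = g x := by
  have hxcl : x ∈ closure (O ∩ nz d) := hdn.open_subset_closure_inter hO hx
  have hne : (𝓝[O ∩ nz d] x).NeBot := mem_closure_iff_nhdsWithin_neBot.1 hxcl
  have t1 : Tendsto f (𝓝[O ∩ nz d] x) (𝓝 (f x)) := (hf x hx).tendsto.mono_left nhdsWithin_le_nhds
  have t2 : Tendsto f (𝓝[O ∩ nz d] x) (𝓝 (g x)) := by
    refine ((hg x hx).tendsto.mono_left nhdsWithin_le_nhds).congr' ?_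
    filter_upwards [self_mem_nhdsWithin] with y hy
    exact (he y hy.1 hy.2).symm
  exact tendsto_nhds_unique t1 t2

theorem cont_Gam (F H : FI n) : Continuous fun B : Matrix (Fin n) (Fin n) ℂ => Gam B F H := by
  unfold Gam
  split_ifs with h
  · exact (continuous_id.matrix_submatrix _ _).matrix_det
  · exact continuous_const

theorem cont_KP {ρ : Type} [Fintype ρ] [DecidableEq ρ] (F H : ρ → FI n) :
    Continuous fun B : Matrix (Fin n) (Fin n) ℂ => KP ρ (Gam B) F H := by
  unfold KP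
  simp only [Matrix.of_apply]
  exact continuous_finsetProd _ fun a _ => cont_Gam (F a) (H a)

theorem cont_Jm {i j : A.ι} {x : M} (hi : x ∈ (A.e i).source) (hj : x ∈ (A.e j).source) :
    ContinuousAt (fun x => Jm A j i x) x := by
  refine continuousAt_pi.2 fun b => continuousAt_pi.2 fun a => ?_
  exact continuousAt_of_holAt (A.e i).open_source (holAt_J j i b a) hj hi

/-- gluing of local extensions of tensor sections -/
theorem glue_TS [ConnectedSpace M] {LD N : LB A} {d : A.ι → M → ℂ} (hd : IsHS LD univ d)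
    (hd0 : ∃ i, ∃ x ∈ (A.e i).source, d i x ≠ 0) {ρ : Type} [Fintype ρ] [DecidableEq ρ]
    {u : A.ι → M → (ρ → FI n) → ℂ}
    (hu : ∀ i j, ∀ x ∈ (A.e i).source ∩ (A.e j).source, x ∈ nz d →
      u i x = N.g i j x • (KP ρ (Gam (Jm A j i x)) *ᵥ u j x))
    {g : A.ι → (ρ → FI n) → M → ℂ} (hg : ∀ i F, HolAt A i univ (g i F))
    (hgu : ∀ i F, ∀ x ∈ (A.e i).source, x ∈ nz d → g i F x = u i x F) :
    ∃ s, TS ρ N s ∧ ∀ i, ∀ x ∈ (A.e i).source, ∀ F, s i x F = g i F x := by
  classical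
  refine ⟨fun i x F => if x ∈ (A.e i).source then g i F x else 0,
    ⟨fun i F => (hg i F).congr fun x hx _ => by simp [hx], fun i x hx => by funext F; simp [hx],
      fun i j x hx => ?_⟩, fun i x hx F => by simp [hx]⟩
  funext F
  have hO : IsOpen ((A.e i).source ∩ (A.e j).source) :=
    (A.e i).open_source.inter (A.e j).open_source
  have key : g i F x = N.g i j x * ∑ H, KP ρ (Gam (Jm A j i x)) F H * g j H x := by
    refine eq_of_dense (f := g i F)
      (g := fun x => N.g i j x * ∑ H, KP ρ (Gam (Jm A j i x)) F H * g j H x) (dense_nz hd hd0) hO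
      (fun y hy => continuousAt_of_holAt isOpen_univ (hg i F) hy.1 (mem_univ y)) (fun y hy => ?_)
      (fun y hy hyd => ?_) hx
    · refine (continuousAt_of_holAt (A.e j).open_source (N.hol i j) hy.1 hy.2).mul ?_
      refine tendsto_finsetSum _ fun H _ => ?_
      exact ((cont_KP F H).continuousAt.comp (cont_Jm hy.1 hy.2)).mul
        (continuousAt_of_holAt isOpen_univ (hg j H) hy.2 (mem_univ y))
    · rw [hgu i F y hy.1 hyd, hu i j y hy hyd]
      rw [Pi.smul_apply, smul_eq_mul, Matrix.mulVec, dotProduct]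
      congr 1
      exact Finset.sum_congr rfl fun H _ => by rw [hgu j H y hy.2 hyd]
  simp only [hx.1, hx.2, if_true]
  simp only [Pi.smul_apply, smul_eq_mul, Matrix.mulVec, dotProduct]
  exact key

end

end Crest.Agent.R273.RKa_635
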