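import Crest.Agent.R273.RKa_635

/-!
# R273, RK (helper635), part b: `u λ^k T` is a tensor section; `u` is an element of `FF`

* `rk_sec` : the tensor section `u (λ σ^{j0})^k T`;
* `rk_mem` : `u` is (the restriction of) an element of `FF`.
-/

set_option autoImplicit false
set_option linter.unusedSectionVars false

open Set Filter Topology Complex MeasureTheory
open scoped ContDiff Matrix ENNReal

namespace Crest.Agent.R273.RKb_635

open Crest.Agent.R275.Geo Crest.Agent.R275.Core144 Crest.Agent.R273.SteinA_794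
open Crest.Agent.R273.SteinB_794 Crest.Agent.R273.SteinC_794 Crest.Agent.R273.SteinD_794
open Crest.Agent.R273.SteinM_794 Crest.Agent.R273.SteinN_794 Crest.Agent.R273.SteinL_794
open Crest.Agent.R273.Defs_333 (ProjD HM HM.wt)
open Crest.Agent.R271.Ho51 (RDom cp ch IsCh IsLeb Hol Sm mem_ch isCh_ch)
open Crest.Agent.R273.Cram_747 (TS KP tns tns_TS)
open Crest.Agent.R273.Fock_243 (FI Gam)
open Crest.Agent.R273.Mer769 Crest.Agent.R273.FF769
open Crest.Agent.R273.RKa_635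

noncomputable section

variable {n : ℕ} {M : Type} [TopologicalSpace M] {A : Atl n M} {S : SD A}

theorem hm_cont {L : LB A} (h : HM L) {i : A.ι} {x : M} (hx : x ∈ (A.e i).source) :
    ContinuousAt (h.w i) x := by
  have h1 : ContinuousAt (fun z => h.w i ((A.e i).symm z)) (A.e i x) :=
    (h.sm i).continuousOn.continuousAt ((A.e i).open_target.mem_nhds ((A.e i).map_source hx))
  have h2 : ContinuousAt (fun y => h.w i ((A.e i).symm (A.e i y))) x :=
    ContinuousAt.comp (f := A.e i) h1 ((A.e i).continuousAt hx)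
  refine h2.congr ?_
  filter_upwards [(A.e i).open_source.mem_nhds hx] with y hy
  rw [(A.e i).left_inv hy]

section core

variable [MeasurableSpace M] [BorelSpace M] [Countable A.ι] [SecondCountableTopology M]
  {μ : Measure (Mo S)} {L : LB A} {σ : A.ι → M → ℂ}

/-- the tensor section `u (λ σ^{j0})^k T` -/
theorem rk_sec [ConnectedSpace M] (hL : HM L) (h : HM (KB A)⁻¹) (hμ : IsLeb μ)
    {LD : LB A} {d : A.ι → M → ℂ} (hd : IsHS LD univ d)
    (hd0 : ∃ i, ∃ x ∈ (A.e i).source, d i x ≠ 0) (hU : S.U = nz d)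
    (hσ : IsHS L S.U σ) (hσ0 : ∀ i, ∀ x ∈ (A.e i).source, x ∈ S.U → σ i x ≠ 0)
    (j0 : ℕ) {lam : Mo S → ℂ} (hlam : Hol lam)
    {ρ κ : Type} [Fintype ρ] [DecidableEq ρ] [Fintype κ] [DecidableEq κ] [Nonempty κ] {a0 : ℕ}
    {w0 : A.ι → M → (ρ → FI n) → ℂ} (hw0 : TS ρ (L ^ a0) w0) {b : ℕ}
    {T : A.ι → M → (κ × ρ → FI n) → ℂ} (hT : WW L w0 κ b T)
    {W : Mo S → ℝ} (hW : ∀ x, 0 < W x) (hWc : Continuous W)
    (hTW : ∀ i, ∀ a ∈ (A.e i).source, ∃ C : ℝ, ∀ᶠ x in 𝓝 a, ∀ x' : Mo S, x'.val = x →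
      ∀ F, ‖T i x F‖ ^ 2 * W x' ≤ C)
    (k : ℕ) {u : Mo S → ℂ} (hu : Hol u)
    (hint : ∫⁻ x, ENNReal.ofReal (‖u x‖ ^ 2 * ‖lam x‖ ^ (2 * k) *
      Real.exp (-(k * (j0 * wtS hL σ x.val) + wtS h (kf S) x.val)) / W x) ∂μ < ⊤) :
    ∃ s, WW L w0 κ (b + j0 * k) s ∧ ∀ i, ∀ x : Mo S, x.val ∈ (A.e i).source → ∀ F,
      s i x.val F = u x * (lam x * σ i x.val ^ j0) ^ k * T i x.val F := by
  classical
  set v : A.ι → M → (κ × ρ → FI n) → ℂ := fun i x F =>
    ext0 u x * (ext0 lam x * σ i x ^ j0) ^ k * T i x F with hv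
  have hvh : ∀ i F, HolAt A i S.U fun x => v i x F := fun i F =>
    ((holAt_ext0 hu i).mul (((holAt_ext0 hlam i).mul ((hσ.hol i).pow j0)).pow k)).mul
      ((hT.ts.hol i F).mono (subset_univ _))
  have huc : Continuous u := (w_hol hu).sm.continuous
  have hlc : Continuous lam := (w_hol hlam).sm.continuous
  -- transformation law
  have htr : ∀ i j, ∀ x ∈ (A.e i).source ∩ (A.e j).source, x ∈ nz d →
      v i x = (L ^ (b + j0 * k)).g i j x • (KP (κ × ρ) (Gam (Jm A j i x)) *ᵥ v j x) := by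
    intro i j x hx hxd
    rw [← hU] at hxd
    have e1 : ∀ m : A.ι, v m x = (ext0 u x * (ext0 lam x * σ m x ^ j0) ^ k) • T m x := by
      intro m
      funext F
      rfl
    rw [e1 i, e1 j, hT.ts.tr i j x hx, Matrix.mulVec_smul, smul_smul, smul_smul,
      HM_333.LB_pow_g, HM_333.LB_pow_g, hσ.tr i j x hx hxd]
    congr 1
    rw [pow_add, pow_mul (L.g i j x) j0 k, mul_pow (L.g i j x), mul_pow (ext0 lam x),
      mul_pow (ext0 lam x), mul_pow (L.g i j x ^ j0)]
    ring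
  -- the integrand
  set Φ : Mo S → ℝ≥0∞ := fun x => ENNReal.ofReal (‖u x‖ ^ 2 * ‖lam x‖ ^ (2 * k) *
      Real.exp (-(k * (j0 * wtS hL σ x.val) + wtS h (kf S) x.val)) / W x) with hΦ
  have hΦm : Measurable Φ := by
    have c1 : Continuous fun x : Mo S => wtS hL σ x.val := (wtS_sm hL hσ hσ0).continuous
    have c2 : Continuous fun x : Mo S => wtS h (kf S) x.val :=
      (wtS_sm h (isHS_kf S) kf_ne).continuous
    have c3 : Continuous fun x : Mo S => ‖u x‖ ^ 2 * ‖lam x‖ ^ (2 * k) *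
        Real.exp (-(k * (j0 * wtS hL σ x.val) + wtS h (kf S) x.val)) / W x :=
      (((huc.norm.pow 2).mul (hlc.norm.pow (2 * k))).mul (Real.continuous_exp.comp
        ((continuous_const.mul (continuous_const.mul c1)).add c2).neg)).div hWc
          fun x => (hW x).ne'
    exact (ENNReal.continuous_ofReal.comp c3).measurable
  have hbd : ∀ i F, ∀ a ∈ (A.e i).source, ∃ c : ℝ≥0∞, c ≠ 0 ∧ ∀ᶠ x in 𝓝 a, ∀ x' : Mo S,
      x'.val = x → x ∈ (A.e i).source →
        c * ‖v i x F‖ₑ ^ 2 ≤ ENNReal.ofReal (‖zf S i x‖ ^ 2) * Φ x' := by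
    intro i F a ha
    obtain ⟨C, hC⟩ := hTW i a ha
    have p1 : 0 < hL.w i a := hL.pos i a ha
    have p2 : 0 < h.w i a := h.pos i a ha
    set c1 := hL.w i a / 2 with hc1
    set c2 := h.w i a / 2 with hc2
    have q1 : 0 < c1 := by positivity
    have q2 : 0 < c2 := by positivity
    have ev1 : ∀ᶠ x in 𝓝 a, c1 < hL.w i x :=
      (hm_cont hL ha).eventually (lt_mem_nhds (half_lt_self p1))
    have ev2 : ∀ᶠ x in 𝓝 a, c2 < h.w i x :=
      (hm_cont h ha).eventually (lt_mem_nhds (half_lt_self p2))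
    set c : ℝ := c1 ^ (k * j0) * c2 / (|C| + 1) with hc
    have hcpos : 0 < c := by positivity
    refine ⟨ENNReal.ofReal c, (ENNReal.ofReal_pos.2 hcpos).ne', ?_⟩
    filter_upwards [hC, ev1, ev2] with x hx1 hx2 hx3 x' hx' hxs
    subst hx'
    have hxU := x'.prop
    have e1 : ‖v i x'.val F‖ₑ ^ 2 = ENNReal.ofReal (‖v i x'.val F‖ ^ 2) := by
      rw [← ofReal_norm, ENNReal.ofReal_pow (norm_nonneg _)]
    rw [e1, ← ENNReal.ofReal_mul hcpos.le, hΦ, ← ENNReal.ofReal_mul (by positivity)]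
    refine ENNReal.ofReal_le_ofReal ?_
    have e2 : Real.exp (-(k * (j0 * wtS hL σ x'.val) + wtS h (kf S) x'.val)) =
        (‖σ i x'.val‖ ^ 2 * hL.w i x'.val) ^ (k * j0) *
          (‖kf S i x'.val‖ ^ 2 * h.w i x'.val) := by
      rw [← exp_wtS hL hσ hσ0 hxs hxU, ← exp_wtS h (isHS_kf S) kf_ne hxs hxU, ← Real.exp_nat_mul,
        ← Real.exp_add]
      congr 1
      push_cast
      ring
    have e3 : kf S i x'.val = (zf S i x'.val)⁻¹ := rfl
    have hz : 0 < ‖zf S i x'.val‖ := norm_pos_iff.2 (zf_ne hxs hxU)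
    have e4 : ‖v i x'.val F‖ ^ 2 = ‖u x'‖ ^ 2 * ‖lam x'‖ ^ (2 * k) *
        (‖σ i x'.val‖ ^ 2) ^ (k * j0) * ‖T i x'.val F‖ ^ 2 := by
      simp only [hv, ext0_val, norm_mul, norm_pow]
      ring
    rw [e2, e3, e4, norm_inv]
    set B := ‖u x'‖ ^ 2 * ‖lam x'‖ ^ (2 * k) * (‖σ i x'.val‖ ^ 2) ^ (k * j0) with hB
    have hB0 : 0 ≤ B := by positivity
    have hWx := hW x'
    have hT1 : ‖T i x'.val F‖ ^ 2 ≤ (|C| + 1) / W x' := by
      rw [le_div_iff₀ hWx]
      exact (hx1 x' rfl F).trans (by linarith [le_abs_self C])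
    have hcc : c * (|C| + 1) ≤ hL.w i x'.val ^ (k * j0) * h.w i x'.val := by
      rw [hc, div_mul_cancel₀ _ (by positivity)]
      exact mul_le_mul (pow_le_pow_left₀ q1.le hx2.le _) hx3.le q2.le
        (pow_nonneg (hL.pos i _ hxs).le _)
    calc c * (B * ‖T i x'.val F‖ ^ 2) ≤ c * (B * ((|C| + 1) / W x')) := by gcongr
      _ = B / W x' * (c * (|C| + 1)) := by ring
      _ ≤ B / W x' * (hL.w i x'.val ^ (k * j0) * h.w i x'.val) := by gcongr
      _ = _ := by
        rw [hB, mul_pow (‖σ i x'.val‖ ^ 2)]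
        field_simp
  -- local extensions
  have hloc : ∀ i F, ∃ g : M → ℂ, HolAt A i univ g ∧
      ∀ x ∈ (A.e i).source, x ∈ S.U → g x = v i x F := fun i F =>
    ext_loc h hμ hd hd0 hU i (hvh i F) hΦm hint (hbd i F)
  choose g hg hgv using hloc
  obtain ⟨s, hs, hsg⟩ := glue_TS hd hd0 htr hg (fun i F x hx hxd => hgv i F x hx (hU ▸ hxd))
  have hsv : ∀ i, ∀ x ∈ (A.e i).source, x ∈ S.U → ∀ F, s i x F = v i x F := fun i x hx hxU F => by
    rw [hsg i x hx F, hgv i F x hx hxU]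
  refine ⟨s, ⟨hs, ?_⟩, fun i x hx F => ?_⟩
  · intro i x F H
    by_cases hx : x ∈ (A.e i).source
    · have hw := (WW.tns (σ := κ) hw0).ts
      refine eq_of_dense (d := d)
        (f := fun y => s i y F * tns (fun _ : κ => w0) i y H)
        (g := fun y => s i y H * tns (fun _ : κ => w0) i y F) (dense_nz hd hd0)
        (A.e i).open_source
        (fun y hy => (ts_cont hs i F hy).mul (ts_cont hw i H hy))
        (fun y hy => (ts_cont hs i H hy).mul (ts_cont hw i F hy)) (fun y hy hyd => ?_) hx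
      have hyU : y ∈ S.U := hU ▸ hyd
      show s i y F * tns (fun _ : κ => w0) i y H = s i y H * tns (fun _ : κ => w0) i y F
      rw [hsv i y hy hyU F, hsv i y hy hyU H]
      simp only [hv]
      linear_combination (ext0 u y * (ext0 lam y * σ i y ^ j0) ^ k) * hT.prp i y F H
    · simp [hs.off i x hx]
  · rw [hsv i _ hx x.prop F]
    simp only [hv, ext0_val]

end core

end

end Crest.Agent.R273.RKb_635
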