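import Crest.Agent.R273.RKb_635

/-!
# R273, RK (helper635), part c: elements of the weighted spaces are in `FF`

* `exists_T` : tensor sections `T` with `‖T‖² (1 + ‖y‖²)^i` locally bounded;
* `rk_mem`   : `u ∈ FF`.
-/

set_option autoImplicit false
set_option linter.unusedSectionVars false

open Set Filter Topology Complex MeasureTheory
open scoped ContDiff Matrix ENNReal

namespace Crest.Agent.R273.RKc_635

open Crest.Agent.R275.Geo Crest.Agent.R275.Core144 Crest.Agent.R273.SteinA_794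
open Crest.Agent.R273.SteinB_794 Crest.Agent.R273.SteinC_794 Crest.Agent.R273.SteinD_794
open Crest.Agent.R273.SteinM_794 Crest.Agent.R273.SteinN_794 Crest.Agent.R273.SteinL_794
open Crest.Agent.R273.Defs_333 (ProjD HM HM.wt)
open Crest.Agent.R271.Ho51 (RDom cp ch IsCh IsLeb Hol Sm mem_ch isCh_ch)
open Crest.Agent.R273.Cram_747 (TS KP tns tns_TS)
open Crest.Agent.R273.Fock_243 (FI Gam)
open Crest.Agent.R273.Mer769 Crest.Agent.R273.FF769
open Crest.Agent.R273.RKa_635 Crest.Agent.R273.RKb_635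

noncomputable section

variable {n : ℕ} {M : Type} [TopologicalSpace M] {A : Atl n M} {S : SD A}

/-! ### nonvanishing of tensor products -/

section nz

variable {ρ σ σ' : Type} [Fintype ρ] [DecidableEq ρ] [Fintype σ] [DecidableEq σ] [Fintype σ']
  [DecidableEq σ'] {N N' : LB A}

theorem nz_tp {τ : A.ι → M → (σ × ρ → FI n) → ℂ} {τ' : A.ι → M → (σ' × ρ → FI n) → ℂ}
    (h : TS (σ × ρ) N τ) (h' : TS (σ' × ρ) N' τ') {x : M} (hx : x ∈ Cram_747.nz τ)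
    (hx' : x ∈ Cram_747.nz τ') : x ∈ Cram_747.nz (tp τ τ') := by
  obtain ⟨i, hi⟩ := A.cover x
  obtain ⟨F, hF⟩ := Function.ne_iff.1 (h.ne_of_nz hx hi)
  obtain ⟨H, hH⟩ := Function.ne_iff.1 (h'.ne_of_nz hx' hi)
  refine ⟨i, hi, fun h1 => ?_⟩
  have h2 : tp τ τ' i x ((eqv (FI n) σ σ' ρ).symm (F, H)) = 0 := by rw [h1]; rfl
  rw [tp_eqv] at h2
  exact mul_ne_zero hF hH h2

theorem nz_tns {N : σ → LB A} {τ : σ → A.ι → M → (ρ → FI n) → ℂ} (h : ∀ t, TS ρ (N t) (τ t))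
    {x : M} (hx : ∀ t, x ∈ Cram_747.nz (τ t)) : x ∈ Cram_747.nz (tns τ) := by
  obtain ⟨i, hi⟩ := A.cover x
  have h1 : ∀ t, ∃ F, τ t i x F ≠ 0 := fun t => Function.ne_iff.1 ((h t).ne_of_nz (hx t) hi)
  choose F hF using h1
  refine ⟨i, hi, fun h2 => ?_⟩
  have h3 : tns τ i x (fun p => F p.1 p.2) = 0 := by rw [h2]; rfl
  simp only [tns] at h3
  exact (Finset.prod_ne_zero_iff.2 fun t _ => hF t) h3

end nz

/-! ### the sections `T` -/

section T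

variable {L : LB A} {ρ : Type} [Fintype ρ] [DecidableEq ρ] {w0 : A.ι → M → (ρ → FI n) → ℂ}

/-- local boundedness of `‖T‖² W` -/
def LB2 (S : SD A) {κ : Type} (T : A.ι → M → (κ → FI n) → ℂ) (W : Mo S → ℝ) : Prop :=
  ∀ i, ∀ a ∈ (A.e i).source, ∃ C : ℝ, ∀ᶠ x in 𝓝 a, ∀ x' : Mo S, x'.val = x →
      ∀ F, ‖T i x F‖ ^ 2 * W x' ≤ C

/-- the basic bound -/
theorem lb2_base {κ : Type} [Fintype κ] [DecidableEq κ] {N : ℕ} {y : Fin N → Mo S → ℂ} {b : ℕ}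
    {t : A.ι → M → (κ × ρ → FI n) → ℂ} (ht : WW L w0 κ b t)
    {s : Fin N → A.ι → M → (κ × ρ → FI n) → ℂ} (hs : ∀ l, WW L w0 κ b (s l))
    (hst : ∀ l i, ∀ x : Mo S, x.val ∈ (A.e i).source → ∀ F,
      s l i x.val F = y l x * t i x.val F) :
    LB2 S t fun x => 1 + ∑ l, ‖y l x‖ ^ 2 := by
  intro i a ha
  have hc : ContinuousAt (fun x => ∑ F, (‖t i x F‖ ^ 2 + ∑ l, ‖s l i x F‖ ^ 2)) a := by
    refine tendsto_finsetSum _ fun F _ => ?_
    refine ((ts_cont ht.ts i F ha).norm.pow 2).add ?_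
    exact tendsto_finsetSum _ fun l _ => (ts_cont (hs l).ts i F ha).norm.pow 2
  refine ⟨(∑ F, (‖t i a F‖ ^ 2 + ∑ l, ‖s l i a F‖ ^ 2)) + 1, ?_⟩
  filter_upwards [hc.eventually (gt_mem_nhds (lt_add_one _)), (A.e i).open_source.mem_nhds ha]
    with x hx hxs x' hx' F
  subst hx'
  have h1 : ‖t i x'.val F‖ ^ 2 * (1 + ∑ l, ‖y l x'‖ ^ 2) =
      ‖t i x'.val F‖ ^ 2 + ∑ l, ‖s l i x'.val F‖ ^ 2 := by
    rw [mul_add, mul_one, Finset.mul_sum]
    congr 1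
    refine Finset.sum_congr rfl fun l _ => ?_
    rw [hst l i x' hxs F, norm_mul, mul_pow]
    ring
  rw [h1]
  refine le_trans ?_ hx.le
  exact Finset.single_le_sum (f := fun F => ‖t i x'.val F‖ ^ 2 + ∑ l, ‖s l i x'.val F‖ ^ 2)
    (fun F _ => by positivity) (Finset.mem_univ F)

theorem exists_T {κ : Type} [Fintype κ] [DecidableEq κ] [Nonempty κ] {N : ℕ}
    {y : Fin N → Mo S → ℂ} {b : ℕ}
    {t : A.ι → M → (κ × ρ → FI n) → ℂ} (ht : WW L w0 κ b t)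
    (ht0 : ∀ x ∈ S.U, x ∈ Cram_747.nz t)
    {s : Fin N → A.ι → M → (κ × ρ → FI n) → ℂ} (hs : ∀ l, WW L w0 κ b (s l))
    (hst : ∀ l i, ∀ x : Mo S, x.val ∈ (A.e i).source → ∀ F,
      s l i x.val F = y l x * t i x.val F) (m : ℕ) :
    ∃ (κ' : Type) (_ : Fintype κ') (_ : DecidableEq κ') (_ : Nonempty κ') (b' : ℕ)
      (T : A.ι → M → (κ' × ρ → FI n) → ℂ), WW L w0 κ' b' T ∧ (∀ x ∈ S.U, x ∈ Cram_747.nz T) ∧
        LB2 S T fun x => (1 + ∑ l, ‖y l x‖ ^ 2) ^ m := by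
  have hb := lb2_base ht hs hst
  induction m with
  | zero =>
    refine ⟨κ, inferInstance, inferInstance, inferInstance, b, t, ht, ht0, fun i a ha => ?_⟩
    obtain ⟨C, hC⟩ := hb i a ha
    refine ⟨C, hC.mono fun x hx x' hx' F => ?_⟩
    refine le_trans ?_ (hx x' hx' F)
    beta_reduce
    rw [pow_zero]
    have : (0 : ℝ) ≤ ∑ l, ‖y l x'‖ ^ 2 := by positivity
    gcongr
    linarith
  | succ m ih =>
    obtain ⟨κ', _, _, _, b', T, hT, hT0, hTb⟩ := ih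
    refine ⟨κ' ⊕ κ, inferInstance, inferInstance, inferInstance, b' + b, tp T t, hT.tp ht,
      fun x hx => nz_tp hT.ts ht.ts (hT0 x hx) (ht0 x hx), fun i a ha => ?_⟩
    obtain ⟨C, hC⟩ := hb i a ha
    obtain ⟨C', hC'⟩ := hTb i a ha
    refine ⟨C' * C, ?_⟩
    filter_upwards [hC, hC'] with x hx hx' x' he F
    have h1 := hx x' he (fun p => F (Sum.inr p.1, p.2))
    have h2 := hx' x' he (fun p => F (Sum.inl p.1, p.2))
    have h3 : (0 : ℝ) ≤ 1 + ∑ l, ‖y l x'‖ ^ 2 := by positivity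
    beta_reduce at h1 h2 ⊢
    have h4 : ‖tp T t i x F‖ ^ 2 * (1 + ∑ l, ‖y l x'‖ ^ 2) ^ (m + 1) =
        (‖T i x (fun p => F (Sum.inl p.1, p.2))‖ ^ 2 * (1 + ∑ l, ‖y l x'‖ ^ 2) ^ m) *
          (‖t i x (fun p => F (Sum.inr p.1, p.2))‖ ^ 2 * (1 + ∑ l, ‖y l x'‖ ^ 2)) := by
      simp only [tp, norm_mul]
      ring
    rw [h4]
    exact mul_le_mul h2 h1 (by positivity) (le_trans (by positivity) h2)

end T

/-! ### membership -/

section mem

variable {L : LB A} {ρ : Type} [Fintype ρ] [DecidableEq ρ] {w0 wa wb : A.ι → M → (ρ → FI n) → ℂ}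

/-- the family `w_a, w_b, …, w_b` -/
def wk (wa wb : A.ι → M → (ρ → FI n) → ℂ) (k : ℕ) : Fin (k + 1) → A.ι → M → (ρ → FI n) → ℂ :=
  Fin.cons wa fun _ => wb

theorem tns_wk (wa wb : A.ι → M → (ρ → FI n) → ℂ) (k : ℕ) (i : A.ι) (x : M)
    (F : Fin (k + 1) × ρ → FI n) : tns (wk wa wb k) i x F =
      wa i x (fun r => F (0, r)) * ∏ j : Fin k, wb i x (fun r => F (j.succ, r)) := by
  simp only [tns, wk, Fin.prod_univ_succ, Fin.cons_zero, Fin.cons_succ]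

variable {a j0 : ℕ} (ha : TS ρ (L ^ a) wa) (hb : TS ρ (L ^ (a + j0)) wb)
  (pa : Cram_747.Prp wa w0) (pb : Cram_747.Prp wb w0)

include ha hb in
theorem ts_wk (k : ℕ) (t : Fin (k + 1)) :
    TS ρ ((Fin.cons (L ^ a) fun _ => L ^ (a + j0) : Fin (k + 1) → LB A) t) (wk wa wb k t) := by
  refine Fin.cases ?_ (fun j => ?_) t
  · exact ha
  · exact hb

include ha hb pa pb in
theorem ww_wk (k : ℕ) : WW L w0 (Fin (k + 1)) (a + (a + j0) * k) (tns (wk wa wb k)) := by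
  refine ⟨(tns_TS (ts_wk ha hb k)).congr_N ?_, ?_⟩
  · rw [Fin.prod_univ_succ]
    simp only [Fin.cons_zero, Fin.cons_succ, Finset.prod_const, Finset.card_univ, Fintype.card_fin]
    rw [← pow_mul, ← pow_add]
  · refine Cram_747.Prp.tns fun t => ?_
    refine Fin.cases ?_ (fun j => ?_) t
    · exact pa
    · exact pb

variable [MeasurableSpace M] [BorelSpace M] [Countable A.ι] [SecondCountableTopology M]
  {μ : Measure (Mo S)} {σ : A.ι → M → ℂ}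

include ha hb pa pb in
/-- **elements of the weighted spaces are in `FF`** -/
theorem rk_mem [ConnectedSpace M] (hL : HM L) (h : HM (KB A)⁻¹) (hμ : IsLeb μ)
    {LD : LB A} {d : A.ι → M → ℂ} (hd : IsHS LD univ d)
    (hd0 : ∃ i, ∃ x ∈ (A.e i).source, d i x ≠ 0) (hU : S.U = nz d)
    (hσ : IsHS L S.U σ) (hσ0 : ∀ i, ∀ x ∈ (A.e i).source, x ∈ S.U → σ i x ≠ 0)
    {lam : Mo S → ℂ} (hlam : Hol lam) {a0 : ℕ} (hw0 : TS ρ (L ^ a0) w0) (h0 : w0 ≠ 0)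
    (ha0 : ∀ x ∈ S.U, x ∈ Cram_747.nz wa) (hb0 : ∀ x ∈ S.U, x ∈ Cram_747.nz wb)
    (hab : ∀ i, ∀ x : Mo S, x.val ∈ (A.e i).source → ∀ F,
      wb i x.val F = lam x * σ i x.val ^ j0 * wa i x.val F)
    {κ : Type} [Fintype κ] [DecidableEq κ] [Nonempty κ] {N : ℕ}
    {y : Fin N → Mo S → ℂ} (hy : ∀ l, Hol (y l)) {b : ℕ}
    {t : A.ι → M → (κ × ρ → FI n) → ℂ} (ht : WW L w0 κ b t)
    (ht0 : ∀ x ∈ S.U, x ∈ Cram_747.nz t)
    {s : Fin N → A.ι → M → (κ × ρ → FI n) → ℂ} (hs : ∀ l, WW L w0 κ b (s l))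
    (hst : ∀ l i, ∀ x : Mo S, x.val ∈ (A.e i).source → ∀ F,
      s l i x.val F = y l x * t i x.val F)
    (k m : ℕ) {u : Mo S → ℂ} (hu : Hol u)
    (hint : ∫⁻ x, ENNReal.ofReal (‖u x‖ ^ 2 * ‖lam x‖ ^ (2 * k) *
      Real.exp (-(k * (j0 * wtS hL σ x.val) + wtS h (kf S) x.val)) /
        (1 + ∑ l, ‖y l x‖ ^ 2) ^ m) ∂μ < ⊤) :
    ∃ g ∈ FF hw0 h0, ∀ x : Mo S, x.val ∈ reg g ∧ ev g x.val = u x := by
  obtain ⟨κ', _, _, _, b', T, hT, hT0, hTb⟩ := exists_T ht ht0 hs hst m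
  have hyc : ∀ l, Continuous (y l) := fun l => (w_hol (hy l)).sm.continuous
  have hWc : Continuous fun x : Mo S => (1 + ∑ l, ‖y l x‖ ^ 2) ^ m :=
    (continuous_const.add (continuous_finsetSum _ fun l _ => (hyc l).norm.pow 2)).pow m
  obtain ⟨v, hv, hvr⟩ := rk_sec hL h hμ hd hd0 hU hσ hσ0 j0 hlam hw0 hT
    (W := fun x => (1 + ∑ l, ‖y l x‖ ^ 2) ^ m) (fun x => by positivity) hWc hTb k hu hint
  -- numerator and denominator
  have hnum : WW L w0 (κ' ⊕ Fin (k + 1)) (b' + (a + (a + j0) * k))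
      (tp v (tns fun _ : Fin (k + 1) => wa)) := by
    have h1 : WW L w0 (Fin (k + 1)) (a * (k + 1)) (tns fun _ : Fin (k + 1) => wa) := by
      refine ⟨(tns_TS (fun _ : Fin (k + 1) => ha)).congr_N ?_, Cram_747.Prp.tns fun _ => pa⟩
      rw [Finset.prod_const, Finset.card_univ, Fintype.card_fin, ← pow_mul]
    have h2 := hv.tp h1
    have h3 : b' + j0 * k + a * (k + 1) = b' + (a + (a + j0) * k) := by ring
    rwa [h3] at h2
  have hden : WW L w0 (κ' ⊕ Fin (k + 1)) (b' + (a + (a + j0) * k))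
      (tp T (tns (wk wa wb k))) := hT.tp (ww_wk ha hb pa pb k)
  have hdn : ∀ x ∈ S.U, x ∈ Cram_747.nz (tp T (tns (wk wa wb k))) := by
    intro x hx
    refine nz_tp hT.ts (ww_wk ha hb pa pb k).ts (hT0 x hx) (nz_tns (ts_wk ha hb k) fun j => ?_)
    refine Fin.cases ?_ (fun j => ?_) j
    · exact ha0 x hx
    · exact hb0 x hx
  have hne : tp T (tns (wk wa wb k)) ≠ 0 := by
    obtain ⟨i, x, hx, hdx⟩ := hd0
    have hxU : x ∈ S.U := by rw [hU, mem_nz hd hx]; exact hdx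
    intro h1
    obtain ⟨j, _, hj0⟩ := hdn x hxU
    exact hj0 (by rw [h1]; rfl)
  obtain ⟨g, hg, hgr⟩ := WW.exists_mem hw0 h0 hnum hden hne
  refine ⟨g, hg, fun x => ?_⟩
  obtain ⟨i, hi⟩ := A.cover x.val
  obtain ⟨F, hF⟩ := Function.ne_iff.1 (hden.ts.ne_of_nz (hdn _ x.prop) hi)
  have h1 := Rel.reg_ev (ts_isWS hnum.ts) (ts_isWS hden.ts) hgr hi hF
  refine ⟨h1.1, ?_⟩
  rw [h1.2, div_eq_iff hF]
  simp only [tp]
  rw [hvr i x hi, tns_wk]
  simp only [tns]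
  rw [Fin.prod_univ_succ]
  have h2 : ∏ j : Fin k, wb i x.val (fun r => F (Sum.inr j.succ, r)) =
      (lam x * σ i x.val ^ j0) ^ k * ∏ j : Fin k, wa i x.val (fun r => F (Sum.inr j.succ, r)) := by
    rw [Finset.prod_congr rfl fun j _ => hab i x hi _, Finset.prod_mul_distrib,
      Finset.prod_const, Finset.card_univ, Fintype.card_fin]
  rw [h2]
  ring

end mem

end

end Crest.Agent.R273.RKc_635
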