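import Crest.Agent.R273.RKd_635
import Crest.Agent.R273.Fib_794
import Crest.Agent.R273.YDx5_945

/-!
# R273, RK (helper635), part e: rank one for the data `HD`
-/

set_option autoImplicit false
set_option linter.unusedSectionVars false

open Set Filter Topology Complex MeasureTheory
open scoped ContDiff Matrix ENNReal

namespace Crest.Agent.R273.RKe_635

open Crest.Agent.R275.Geo Crest.Agent.R275.Core144 Crest.Agent.R275.GC293
open Crest.Agent.R273.SteinA_794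
open Crest.Agent.R273.SteinB_794 Crest.Agent.R273.SteinC_794 Crest.Agent.R273.SteinD_794
open Crest.Agent.R273.SteinM_794 Crest.Agent.R273.SteinE_794
open Crest.Agent.R273.Defs_333 (ProjD HM HM.wt HM.Semipos HasSec)
open Crest.Agent.R273.Mer769 Crest.Agent.R273.FF769
open Crest.Agent.R273.Cram_747 (TS)
open Crest.Agent.R273.Fock_243 (FI)
open Crest.Agent.R273.YDx5_945 Crest.Agent.R273.RKd_635
open Crest.Agent.R271.Ho51 (RDom cp ch IsCh IsLeb Hol Sm mem_ch isCh_ch)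

noncomputable section

variable {n : ℕ} {M : Type} [TopologicalSpace M] {A : Atl n M} [ConnectedSpace M] {P : ProjD A}
  {L : LB A} (X : HD P L)

theorem y_Hol (l : Fin (X.b + 1)) : Hol fun x : Mo X.D.S => X.y l x.val :=
  hol_of (X.y_hol l)

theorem lam_Hol : Hol fun x : Mo X.D.S => X.lam x.val := hol_of X.lam_hol

/-- the first coordinates -/
theorem y_cp (k : Fin X.b) (x : Mo X.D.S) :
    X.y k.castSucc x.val = cp x (Fin.castLE X.hn k) := by
  have h1 : cp x (Fin.castLE X.hn k) = (X.D.q (Fin.castLE X.hn k)).fn x.val := rfl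
  rw [h1, X.hq k]
  rfl

/-- the equation of the primitive element -/
theorem eval_R (x : Mo X.D.S) : MvPolynomial.eval (fun l => X.y l x.val) X.R = 0 := by
  have h1 := ev_aeval (Y := X.g) (x := x.val) (fun l => (X.y_ev l x.prop).1) X.R
  have h2 : (fun l => X.y l x.val) = fun l => ev (X.g l) x.val := by
    funext l
    exact ((X.y_ev l x.prop).2).symm
  rw [h2, ← h1.2, X.R0]
  have := (reg_algebraMap (A := A) 0 x.val).2
  rwa [map_zero] at this

theorem fib_HD (hR1 : ∀ x : Mo X.D.S, MvPolynomial.eval (fun l => X.y l x.val)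
    (MvPolynomial.pderiv (Fin.last X.b) X.R) ≠ 0) : FIB fun l (x : Mo X.D.S) => X.y l x.val := by
  intro x x' hxx U hU U' hU' Q hQ
  obtain ⟨ξ, hξ, ξ', hξ', h1, h2⟩ := Fib_794.fib X.hn
    (y := fun l (x : Mo X.D.S) => X.y l x.val) (fun l => (w_hol (y_Hol X l)).sm.continuous)
    (y_cp X) (eval_R X) hR1 hxx hU hU' hQ
  exact ⟨ξ, hξ, ξ', hξ', h1, h2⟩

/-- **the field `RK` of `YD`** for the data `HD` -/
theorem rk_HD [Finite A.ι] (hL : HM L) (h : HM (KB A)⁻¹)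
    (hR1 : ∀ x : Mo X.D.S, MvPolynomial.eval (fun l => X.y l x.val)
      (MvPolynomial.pderiv (Fin.last X.b) X.R) ≠ 0) :
    ∀ (μ : Measure (Mo X.D.S)), IsLeb μ → ∀ (k i : ℕ) (u : Mo X.D.S → ℂ), Hol u →
    ∫⁻ x, ENNReal.ofReal (‖u x‖ ^ 2 * ‖X.lam x.val‖ ^ (2 * k) *
      Real.exp (-(k * (X.j0 * wtS hL X.σ x.val) + wtS h (kf X.D.S) x.val)) /
        (1 + ∑ l, ‖X.y l x.val‖ ^ 2) ^ i) ∂μ < ⊤ →
    ∀ x x' : Mo X.D.S, (∀ l, X.y l x.val = X.y l x'.val) → u x = u x' := by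
  have hd0 : ∃ i, ∃ x ∈ (A.e i).source, X.D.d i x ≠ 0 := by
    obtain ⟨x, hx⟩ := X.Une
    obtain ⟨i, hi⟩ := A.cover x
    exact ⟨i, x, hi, (X.D.mem_U hi).1 hx⟩
  exact rk (L := L) (w0 := X.w X.a) (wa := X.w X.a) (wb := X.w (X.a + X.j0)) (a := X.a)
    (j0 := X.j0) (σ := X.σ) (S := X.D.S) hL h X.D.isHS_d hd0 X.D.U_eq X.hσ X.σ0
    (lam := fun x => X.lam x.val) (lam_Hol X) (X.ts X.a X.ha) (X.ne X.a X.ha) (X.ts X.a X.ha)
    (X.ts _ X.hb) (Cram_747.Prp.refl _) (X.prp _ X.hb _ X.ha)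
    (fun x hx => by
      obtain ⟨i, hi⟩ := A.cover x
      exact ⟨i, hi, X.wa_ne hi hx⟩)
    (fun x hx => by
      obtain ⟨i, hi⟩ := A.cover x
      exact ⟨i, hi, X.wb_ne hi hx⟩)
    (fun i x hx F => X.relw hx x.prop F) (y := fun l x => X.y l x.val) (y_Hol X) X.ht0
    (fun x hx => by
      obtain ⟨i, hi⟩ := A.cover x
      exact ⟨i, hi, X.t0_ne hi hx⟩)
    (s := X.τ) X.hτ (fun l i x hx F => X.τ_rel l hx x.prop F) (Y := X.g)
    (le_of_eq X.gen.symm) (fun l x => X.y_ev l x.prop) (fib_HD X hR1)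

end

end Crest.Agent.R273.RKe_635
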