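import Mathlib
import Crest.Prelude.Def_PointedLimit

/-!
# R273 (S0416), leaf BGT-2 (helper798), part 1: a Riemannian manifold from chart data

`RAtl d N` : a family of charts of `N` into `ℝᵈ` with smooth transition maps and compatible smooth
positive definite Gram matrices `G i`.
`R.M` : the type synonym of `N` carrying the smooth structure, the bundle metric and the Riemannian
distance.
-/

set_option autoImplicit false
set_option linter.unusedSectionVars false

open Set Filter Topology Metric Manifold Bundle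
open scoped ContDiff Manifold Bundle

noncomputable section

namespace Crest.Agent.R273.RMan_798

/-- model space -/
abbrev EE (d : ℕ) : Type := EuclideanSpace ℝ (Fin d)

/-- Riemannian chart data -/
structure RAtl (d : ℕ) (N : Type) [TopologicalSpace N] where
  ι : Type
  c : ι → OpenPartialHomeomorph N (EE d)
  cover : ∀ x, ∃ i, x ∈ (c i).source
  smt : ∀ i j, ContDiffOn ℝ ∞ (fun y => c j ((c i).symm y))
    {y | y ∈ (c i).target ∧ (c i).symm y ∈ (c j).source}
  G : ι → EE d → Matrix (Fin d) (Fin d) ℝ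
  Gsm : ∀ i a b, ContDiffOn ℝ ∞ (fun y => G i y a b) (c i).target
  Gpd : ∀ i, ∀ y ∈ (c i).target, (G i y).PosDef
  Gtr : ∀ i j, ∀ x ∈ (c i).source ∩ (c j).source, ∀ v w : EE d,
    ∑ a, ∑ b, G i (c i x) a b * v a * w b =
      ∑ a, ∑ b, G j (c j x) a b * (fderiv ℝ (fun y => c j ((c i).symm y)) (c i x) v) a *
        (fderiv ℝ (fun y => c j ((c i).symm y)) (c i x) w) b

namespace RAtl

variable {d : ℕ} {N : Type} [TopologicalSpace N] (R : RAtl d N)

/-- the underlying type -/
def M (_R : RAtl d N) : Type := N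

instance topM : TopologicalSpace R.M := inferInstanceAs (TopologicalSpace N)

/-- the charts on `R.M` -/
def ch (i : R.ι) : OpenPartialHomeomorph R.M (EE d) := R.c i

/-- the preferred chart index -/
def idx (x : R.M) : R.ι := Classical.choose (R.cover x)

theorem idx_mem (x : R.M) : x ∈ (R.ch (R.idx x)).source := Classical.choose_spec (R.cover x)

instance chsM : ChartedSpace (EE d) R.M where
  atlas := range R.ch
  chartAt x := R.ch (R.idx x)
  mem_chart_source x := R.idx_mem x
  chart_mem_atlas _ := ⟨_, rfl⟩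

theorem chartAt_eq (x : R.M) : chartAt (EE d) x = R.ch (R.idx x) := rfl

instance mfdM : IsManifold (𝓡 d) ∞ R.M := by
  refine isManifold_of_contDiffOn (𝓡 d) ∞ R.M ?_
  rintro e e' ⟨i, rfl⟩ ⟨j, rfl⟩
  have h := R.smt i j
  refine (h.congr fun y hy => rfl).mono ?_
  rintro y ⟨hy, -⟩
  have h1 : y ∈ (R.ch i).target ∧ (R.ch i).symm y ∈ (R.ch j).source := by
    simpa [OpenPartialHomeomorph.trans_source] using hy
  exact h1

/-! ### the bundle metric -/

/-- the bilinear form of the Gram matrix -/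
def bil (i : R.ι) (y : EE d) : EE d →L[ℝ] EE d →L[ℝ] ℝ :=
  ∑ a, ∑ b, R.G i y a b • ((EuclideanSpace.proj a : EE d →L[ℝ] ℝ).smulRight
    (EuclideanSpace.proj b : EE d →L[ℝ] ℝ))

theorem bil_apply (i : R.ι) (y v w : EE d) :
    R.bil i y v w = ∑ a, ∑ b, R.G i y a b * v a * w b := by
  simp [bil, mul_assoc]

set_option synthInstance.maxHeartbeats 200000 in
theorem contDiffOn_bil (i : R.ι) : ContDiffOn ℝ ∞ (R.bil i) (R.c i).target := by
  rw [contDiffOn_clm_apply]
  intro v
  rw [contDiffOn_clm_apply]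
  intro w
  simp only [bil_apply]
  exact ContDiffOn.sum fun a _ => ContDiffOn.sum fun b _ =>
    ((R.Gsm i a b).mul contDiffOn_const).mul contDiffOn_const

theorem bil_symm (i : R.ι) {y : EE d} (hy : y ∈ (R.c i).target) (v w : EE d) :
    R.bil i y v w = R.bil i y w v := by
  rw [bil_apply, bil_apply, Finset.sum_comm]
  refine Finset.sum_congr rfl fun a _ => Finset.sum_congr rfl fun b _ => ?_
  have h : R.G i y b a = R.G i y a b := by
    have := (R.Gpd i y hy).isHermitian.apply a b
    simpa using this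
  rw [h]
  ring

theorem bil_pos (i : R.ι) {y : EE d} (hy : y ∈ (R.c i).target) (v : EE d) (hv : v ≠ 0) :
    0 < R.bil i y v v := by
  have hv' : (WithLp.ofLp v : Fin d → ℝ) ≠ 0 := by
    intro h
    apply hv
    ext i
    simpa using congrFun h i
  have h := (R.Gpd i y hy).dotProduct_mulVec_pos hv'
  rw [bil_apply]
  have h2 : (∑ a, ∑ b, R.G i y a b * v a * v b) =
      star (WithLp.ofLp v) ⬝ᵥ (R.G i y).mulVec (WithLp.ofLp v) := by
    simp only [dotProduct, Matrix.mulVec, Pi.star_apply, star_trivial, Finset.mul_sum]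
    refine Finset.sum_congr rfl fun i _ => Finset.sum_congr rfl fun j _ => ?_
    ring
  rw [h2]
  exact h

/-- ellipticity of a positive bilinear form -/
theorem exists_lower (B : EE d →L[ℝ] EE d →L[ℝ] ℝ) (hB : ∀ v, v ≠ 0 → 0 < B v v) :
    ∃ c > 0, ∀ v : EE d, c * ‖v‖ ^ 2 ≤ B v v := by
  rcases (sphere (0 : EE d) 1).eq_empty_or_nonempty with he | hne
  · refine ⟨1, one_pos, fun v => ?_⟩
    have : v = 0 := by
      by_contra hv
      have : (‖v‖⁻¹ • v) ∈ sphere (0 : EE d) 1 := by
        simp [norm_smul, hv]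
      rw [he] at this
      exact this
    subst this
    simp
  · have hc : ContinuousOn (fun v : EE d => B v v) (sphere (0 : EE d) 1) := by
      apply Continuous.continuousOn
      exact B.continuous.clm_apply continuous_id
    obtain ⟨v0, hv0, hmin⟩ := (isCompact_sphere (0 : EE d) 1).exists_isMinOn hne hc
    have hv0' : v0 ≠ 0 := by
      intro h
      rw [h] at hv0
      simp at hv0
    refine ⟨B v0 v0, hB v0 hv0', fun v => ?_⟩
    by_cases hv : v = 0
    · subst hv; simp
    have hn : ‖v‖ ≠ 0 := norm_ne_zero_iff.2 hv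
    have h1 : (‖v‖⁻¹ • v) ∈ sphere (0 : EE d) 1 := by simp [norm_smul, hv]
    have h2 := hmin h1
    simp only [mem_ofPred_eq, map_smul, _root_.smul_apply, smul_eq_mul] at h2
    calc B v0 v0 * ‖v‖ ^ 2 ≤ (‖v‖⁻¹ * (‖v‖⁻¹ * B v v)) * ‖v‖ ^ 2 := by
          gcongr
      _ = B v v := by field_simp

/-- the transition derivative -/
def T (i j : R.ι) (x : R.M) : EE d →L[ℝ] EE d :=
  fderiv ℝ (fun y => R.c j ((R.c i).symm y)) (R.c i x)

theorem bil_tr (i j : R.ι) {x : R.M} (hi : x ∈ (R.ch i).source) (hj : x ∈ (R.ch j).source)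
    (v w : EE d) : R.bil i (R.c i x) v w = R.bil j (R.c j x) (R.T i j x v) (R.T i j x w) := by
  rw [bil_apply, bil_apply]
  exact R.Gtr i j x ⟨hi, hj⟩ v w

theorem coordChange_eq (p q z : R.M) :
    (tangentBundleCore (𝓡 d) R.M).coordChange (achart (EE d) p) (achart (EE d) q) z =
      R.T (R.idx p) (R.idx q) z := by
  rw [tangentBundleCore_coordChange_achart]
  simp only [modelWithCornersSelf_coe, range_id, fderivWithin_univ]
  rfl

set_option backward.isDefEq.respectTransparency false in
theorem symmL_eq {p q : R.M} (hq : q ∈ (chartAt (EE d) p).source) :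
    (trivializationAt (EE d) (TangentSpace (𝓡 d)) p).symmL ℝ q =
      (R.T (R.idx p) (R.idx q) q : EE d →L[ℝ] EE d) := by
  rw [TangentBundle.symmL_trivializationAt_eq_core hq]
  exact R.coordChange_eq p q q

/-- the inner product at a point -/
def inn (p : R.M) : EE d →L[ℝ] EE d →L[ℝ] ℝ := R.bil (R.idx p) (R.c (R.idx p) p)

theorem mem_target (p : R.M) : R.c (R.idx p) p ∈ (R.c (R.idx p)).target :=
  (R.c (R.idx p)).map_source (R.idx_mem p)

set_option backward.isDefEq.respectTransparency false in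
/-- The bundle metric. -/
def metric : ContMDiffRiemannianMetric (𝓡 d) ∞ (EE d) (fun p : R.M => TangentSpace (𝓡 d) p) where
  inner p := (R.inn p : EE d →L[ℝ] EE d →L[ℝ] ℝ)
  symm p v w := R.bil_symm _ (R.mem_target p) v w
  pos p v hv := R.bil_pos _ (R.mem_target p) v hv
  isVonNBounded p := by
    change Bornology.IsVonNBounded ℝ {v : EE d | R.inn p v v < 1}
    obtain ⟨c, hc, h⟩ := exists_lower (R.inn p) fun v hv => R.bil_pos _ (R.mem_target p) v hv
    refine (NormedSpace.isVonNBounded_ball ℝ (EE d) (Real.sqrt (1 / c) + 1)).subset ?_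
    intro v hv
    have h1 : c * ‖v‖ ^ 2 < 1 := lt_of_le_of_lt (h v) hv
    have h2 : ‖v‖ ^ 2 < 1 / c := by
      rw [lt_div_iff₀ hc]; linarith [mul_comm c (‖v‖ ^ 2)]
    have h3 : ‖v‖ < Real.sqrt (1 / c) := Real.lt_sqrt_of_sq_lt h2
    rw [mem_ball_zero_iff]
    linarith
  contMDiff := by
    intro p
    rw [contMDiffAt_section]
    have h1 : ContMDiffAt (𝓡 d) 𝓘(ℝ, EE d →L[ℝ] EE d →L[ℝ] ℝ) ∞
        (fun q : R.M => R.bil (R.idx p) (R.c (R.idx p) q)) p := by
      have h2 : ContMDiffAt (𝓡 d) (𝓡 d) ∞ (extChartAt (𝓡 d) p) p := contMDiffAt_extChartAt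
      have h3 : ContDiffAt ℝ ∞ (R.bil (R.idx p)) (R.c (R.idx p) p) :=
        (R.contDiffOn_bil (R.idx p)).contDiffAt
          ((R.c (R.idx p)).open_target.mem_nhds (R.mem_target p))
      exact (h3.contMDiffAt).comp p h2
    refine h1.congr_of_eventuallyEq ?_
    filter_upwards [(chartAt (EE d) p).open_source.mem_nhds (mem_chart_source (EE d) p)] with q hq
    ext v w
    rw [hom_trivializationAt_apply]
    simp only [ContinuousLinearMap.inCoordinates, ContinuousLinearMap.comp_apply]
    have hq' : q ∈ (trivializationAt (EE d →L[ℝ] ℝ)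
        (fun x : R.M => (TangentSpace (𝓡 d) x →L[ℝ] ℝ)) p).baseSet := by
      simp only [hom_trivializationAt_baseSet]
      exact ⟨hq, by simp⟩
    rw [Trivialization.continuousLinearMapAt_apply, Trivialization.coe_linearMapAt_of_mem _ hq']
    change ((trivializationAt (EE d →L[ℝ] ℝ) (fun x : R.M => (TangentSpace (𝓡 d) x →L[ℝ] ℝ)) p)
      ⟨q, (R.inn q) ((Trivialization.symmL ℝ
        (trivializationAt (EE d) (TangentSpace (𝓡 d)) p) q) v)⟩).2 w = _
    rw [hom_trivializationAt_apply]
    simp only [ContinuousLinearMap.inCoordinates, ContinuousLinearMap.comp_apply]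
    rw [R.symmL_eq hq]
    have h3 := Bundle.Trivial.continuousLinearMapAt_trivialization ℝ R.M ℝ q
    have h4 := congrArg (fun L : ℝ →L[ℝ] ℝ => L ((R.inn q) (R.T (R.idx p) (R.idx q) q v)
      (R.T (R.idx p) (R.idx q) q w))) h3
    refine Eq.trans h4 ?_
    exact (R.bil_tr (R.idx p) (R.idx q) hq (R.idx_mem q) v w).symm

end RAtl

end Crest.Agent.R273.RMan_798
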