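import Crest.Agent.R273.RMan1_798
import Crest.Agent.R202.GeoCongr

/-!
# R273 (S0416), leaf BGT-2 (helper798), part 2: the Riemannian manifold `R.M`: instances,
distance, curvature in the given charts
-/

set_option autoImplicit false
set_option linter.unusedSectionVars false

open Set Filter Topology Metric Manifold Bundle
open scoped ContDiff Manifold Bundle
open Crest.GeometryTopology.CoordMetric Crest.GeometryTopology.ChartCurvature
  Crest.GeometryTopology.PointedLimit

noncomputable section

namespace Crest.Agent.R273.RMan_798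

namespace RAtl

variable {d : ℕ} {N : Type} [TopologicalSpace N] (R : RAtl d N)

instance rbM : RiemannianBundle (fun p : R.M => TangentSpace (𝓡 d) p) :=
  ⟨R.metric.toRiemannianMetric⟩

instance crbM : IsContMDiffRiemannianBundle (𝓡 d) ∞ (EE d)
    (fun p : R.M => TangentSpace (𝓡 d) p) :=
  ⟨R.metric.inner, R.metric.contMDiff, fun _ _ _ => rfl⟩

instance cobM : IsContinuousRiemannianBundle (EE d) (fun p : R.M => TangentSpace (𝓡 d) p) :=
  ⟨R.metric.inner, R.metric.contMDiff.continuous, fun _ _ _ => rfl⟩

theorem inner_M (p : R.M) (v w : TangentSpace (𝓡 d) p) :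
    inner ℝ v w = R.inn p (v : EE d) (w : EE d) := rfl

instance t2M [T2Space N] : T2Space R.M := inferInstanceAs (T2Space N)

instance lcM : LocallyCompactSpace R.M := ChartedSpace.locallyCompactSpace (EE d) R.M

instance t3M [T2Space N] : T3Space R.M := inferInstance

instance connM [ConnectedSpace N] : ConnectedSpace R.M := inferInstanceAs (ConnectedSpace N)

/-- the Riemannian distance, extended version, with the given topology -/
@[reducible] def emsM [T2Space N] : EMetricSpace R.M := EMetricSpace.ofRiemannianMetric (𝓡 d) R.M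

theorem edist_ne_top [T2Space N] [ConnectedSpace N] (x y : R.M) : R.emsM.edist x y ≠ ⊤ := by
  letI := R.emsM
  have h1 : IsClopen (Metric.eball x (⊤ : ENNReal)) :=
    ⟨Metric.isClosed_eball_top, Metric.isOpen_eball⟩
  have h2 : Metric.eball x (⊤ : ENNReal) = univ :=
    h1.eq_univ ⟨x, Metric.mem_eball_self (by simp)⟩
  have h3 : y ∈ Metric.eball x (⊤ : ENNReal) := by rw [h2]; trivial
  rw [Metric.mem_eball'] at h3
  exact h3.ne

/-- the Riemannian distance -/
instance msM [T2Space N] [ConnectedSpace N] : MetricSpace R.M :=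
  letI := R.emsM
  EMetricSpace.toMetricSpace (R.edist_ne_top)

instance rmM [T2Space N] [ConnectedSpace N] : IsRiemannianManifold (𝓡 d) R.M :=
  ⟨fun _ _ => rfl⟩

example [T2Space N] [ConnectedSpace N] :
    (R.msM.toPseudoMetricSpace.toUniformSpace.toTopologicalSpace) = R.topM := rfl

instance msblM : MeasurableSpace R.M := borel R.M
instance borelM : BorelSpace R.M := ⟨rfl⟩

/-! ### chart metric -/

theorem mfderiv_symm (x : R.M) {y : EE d} (hy : y ∈ (R.c (R.idx x)).target) :
    mfderiv (𝓡 d) (𝓡 d) (chartAt (EE d) x).symm y =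
      R.T (R.idx x) (R.idx ((R.ch (R.idx x)).symm y)) ((R.ch (R.idx x)).symm y) := by
  set q : R.M := (R.ch (R.idx x)).symm y with hq
  have h1 : MDifferentiableAt (𝓡 d) (𝓡 d) (chartAt (EE d) x).symm y :=
    (mdifferentiableAt_atlas_symm (I := 𝓡 d) (chart_mem_atlas (EE d) x) hy)
  rw [h1.mfderiv]
  simp only [writtenInExtChartAt, extChartAt_model_space_eq_id, modelWithCornersSelf_coe, range_id,
    fderivWithin_univ]
  have h2 : R.c (R.idx x) q = y := (R.ch (R.idx x)).right_inv hy
  unfold T
  rw [h2]
  rfl

theorem chartMetric_eq (x : R.M) {y : EE d} (hy : y ∈ (R.c (R.idx x)).target) :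
    chartMetric d R.M x y = R.G (R.idx x) y := by
  set q : R.M := (R.ch (R.idx x)).symm y with hq
  have h2 : R.c (R.idx x) q = y := (R.ch (R.idx x)).right_inv hy
  have hqs : q ∈ (R.ch (R.idx x)).source := (R.ch (R.idx x)).map_target hy
  ext a b
  simp only [chartMetric, Matrix.of_apply]
  rw [R.mfderiv_symm x hy]
  have h3 := R.bil_tr (R.idx x) (R.idx q) hqs (R.idx_mem q) (EuclideanSpace.single a 1)
    (EuclideanSpace.single b 1)
  rw [h2] at h3
  refine Eq.trans ?_ (h3.symm.trans ?_)
  · rfl
  · rw [bil_apply]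
    simp

/-- **lower Ricci bound from the charts** -/
theorem hasRicciLowerBound {κ : ℝ}
    (h : ∀ i, ∀ y ∈ (R.c i).target, ∀ v : EE d,
      κ * quadForm (R.G i) y v ≤ ∑ a, ∑ b, ricci (R.G i) y a b * v a * v b) :
    HasRicciLowerBound d R.M κ := by
  intro x v
  have hc : chartCentre d R.M x = R.c (R.idx x) x := rfl
  have ht : R.c (R.idx x) x ∈ (R.c (R.idx x)).target := R.mem_target x
  have hev : chartMetric d R.M x =ᶠ[𝓝 (chartCentre d R.M x)] R.G (R.idx x) := by
    rw [hc]
    filter_upwards [(R.c (R.idx x)).open_target.mem_nhds ht] with y hy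
    exact R.chartMetric_eq x hy
  have h1 := h (R.idx x) _ ht v
  have h2 : quadForm (chartMetric d R.M x) (chartCentre d R.M x) v =
      quadForm (R.G (R.idx x)) (R.c (R.idx x) x) v := by
    unfold quadForm
    rw [hc, R.chartMetric_eq x ht]
  have h3 : ∀ a b, ricci (chartMetric d R.M x) (chartCentre d R.M x) a b =
      ricci (R.G (R.idx x)) (R.c (R.idx x) x) a b := by
    intro a b
    exact Crest.Agent.R202.Tens.ricci_congr hev a b
  rw [h2]
  simp only [h3]
  exact h1

/-! ### local isometries given in charts -/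

end RAtl

end Crest.Agent.R273.RMan_798
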