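import Crest.Agent.R273.RMan2_798

/-!
# R273 (S0416), leaf BGT-2 (helper798), part 3: maps which are isometries in the charts
-/

set_option autoImplicit false
set_option linter.unusedSectionVars false

open Set Filter Topology Metric Manifold Bundle
open scoped ContDiff Manifold Bundle ENNReal

noncomputable section

namespace Crest.Agent.R273.RMan_798

namespace RAtl

variable {d : ℕ} {N : Type} [TopologicalSpace N] {R : RAtl d N}
  {N' : Type} [TopologicalSpace N'] {R' : RAtl d N'}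

theorem edist_map_le {f : R.M → R'.M} (hf : ContMDiff (𝓡 d) (𝓡 d) 1 f)
    (hn : ∀ x (v : TangentSpace (𝓡 d) x), ‖mfderiv (𝓡 d) (𝓡 d) f x v‖ₑ ≤ ‖v‖ₑ) (x y : R.M) :
    riemannianEDist (𝓡 d) (f x) (f y) ≤ riemannianEDist (𝓡 d) x y := by
  refine le_of_forall_gt fun r hr => ?_
  obtain ⟨γ, h0, h1, hs, hl⟩ := exists_lt_of_riemannianEDist_lt hr
  refine lt_of_le_of_lt ?_ hl
  have hs' : ContMDiffOn 𝓘(ℝ, ℝ) (𝓡 d) 1 (f ∘ γ) (Icc 0 1) :=
    hf.comp_contMDiffOn hs
  refine (riemannianEDist_le_pathELength hs' (by simp [h0]) (by simp [h1]) zero_le_one).trans ?_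
  rw [pathELength_eq_lintegral_mfderivWithin_Icc, pathELength_eq_lintegral_mfderivWithin_Icc]
  refine MeasureTheory.setLIntegral_mono' measurableSet_Icc fun t ht => ?_
  have h2 : mfderivWithin 𝓘(ℝ, ℝ) (𝓡 d) (f ∘ γ) (Icc 0 1) t =
      (mfderiv (𝓡 d) (𝓡 d) f (γ t)).comp (mfderivWithin 𝓘(ℝ, ℝ) (𝓡 d) γ (Icc 0 1) t) := by
    apply mfderiv_comp_mfderivWithin
    · exact (hf (γ t)).mdifferentiableAt (by simp)
    · exact hs.mdifferentiableOn (by simp) t ht
    · rw [uniqueMDiffWithinAt_iff_uniqueDiffWithinAt]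
      exact uniqueDiffOn_Icc zero_lt_one t ht
  rw [h2]
  exact hn _ _

/-- `f` is an isometry in suitable charts -/
def ChIso (R : RAtl d N) (R' : RAtl d N') (f : R.M → R'.M) : Prop :=
  ∀ x, ∃ k l, x ∈ (R.ch k).source ∧ (∀ᶠ y in 𝓝 x, f y ∈ (R'.ch l).source ∧
    R'.c l (f y) = R.c k y) ∧ R'.G l (R.c k x) = R.G k (R.c k x)

theorem ChIso.hasMFDerivAt {f : R.M → R'.M} (h : ChIso R R' f) (hc : Continuous f) {x : R.M}
    {k : R.ι} {l : R'.ι} (hx : x ∈ (R.ch k).source)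
    (he : ∀ᶠ y in 𝓝 x, f y ∈ (R'.ch l).source ∧ R'.c l (f y) = R.c k y) :
    ContDiffAt ℝ ∞ (writtenInExtChartAt (𝓡 d) (𝓡 d) x f) (extChartAt (𝓡 d) x x) ∧
    HasMFDerivAt (𝓡 d) (𝓡 d) f x
      ((R'.T l (R'.idx (f x)) (f x)).comp (R.T (R.idx x) k x)) := by
  set i := R.idx x with hi
  set j := R'.idx (f x) with hj
  have hxi : x ∈ (R.ch i).source := R.idx_mem x
  have hfj : f x ∈ (R'.ch j).source := R'.idx_mem (f x)
  have hfl : f x ∈ (R'.ch l).source := he.self_of_nhds.1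
  have hcf : R'.c l (f x) = R.c k x := he.self_of_nhds.2
  -- the transition maps
  have hod1 : IsOpen {y | y ∈ (R.ch i).target ∧ (R.ch i).symm y ∈ (R.ch k).source} :=
    (R.ch i).isOpen_inter_preimage_symm (R.ch k).open_source
  have hod2 : IsOpen {y | y ∈ (R'.ch l).target ∧ (R'.ch l).symm y ∈ (R'.ch j).source} :=
    (R'.ch l).isOpen_inter_preimage_symm (R'.ch j).open_source
  have hs1 : ContDiffAt ℝ ∞ (fun y => R.c k ((R.c i).symm y)) (R.c i x) := by
    refine (R.smt i k).contDiffAt (hod1.mem_nhds ⟨(R.ch i).map_source hxi, ?_⟩)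
    have : (R.ch i).symm (R.ch i x) = x := (R.ch i).left_inv hxi
    exact this.symm ▸ hx
  have hs2 : ContDiffAt ℝ ∞ (fun y => R'.c j ((R'.c l).symm y)) (R'.c l (f x)) := by
    refine (R'.smt l j).contDiffAt (hod2.mem_nhds ⟨(R'.ch l).map_source hfl, ?_⟩)
    have : (R'.ch l).symm (R'.ch l (f x)) = f x := (R'.ch l).left_inv hfl
    exact this.symm ▸ hfj
  have hs2' : ContDiffAt ℝ ∞ (fun y => R'.c j ((R'.c l).symm y)) (R.c k ((R.c i).symm (R.c i x))) := by
    have : (R.c i).symm (R.c i x) = x := (R.ch i).left_inv hxi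
    rw [this, ← hcf]
    exact hs2
  have hcomp := ContDiffAt.comp (R.c i x) hs2' hs1
  have hsymm : Tendsto (R.c i).symm (𝓝 (R.c i x)) (𝓝 x) := by
    have h1 := (R.ch i).continuousAt_symm ((R.ch i).map_source hxi)
    have h2 : (R.ch i).symm (R.ch i x) = x := (R.ch i).left_inv hxi
    have h3 : Tendsto (R.ch i).symm (𝓝 (R.ch i x)) (𝓝 ((R.ch i).symm (R.ch i x))) := h1
    rw [h2] at h3
    exact h3
  have hw : writtenInExtChartAt (𝓡 d) (𝓡 d) x f =ᶠ[𝓝 (R.c i x)]
      (fun y => R'.c j ((R'.c l).symm y)) ∘ (fun y => R.c k ((R.c i).symm y)) := by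
    filter_upwards [hsymm.eventually he] with y hy
    have h1 : (R'.ch l).symm (R'.ch l (f ((R.c i).symm y))) = f ((R.c i).symm y) :=
      (R'.ch l).left_inv hy.1
    have h2 : R'.ch l (f ((R.c i).symm y)) = R.c k ((R.c i).symm y) := hy.2
    rw [h2] at h1
    simp only [Function.comp_apply]
    have h3 : (R'.c l).symm (R.c k ((R.c i).symm y)) = f ((R.c i).symm y) := h1
    rw [h3]
    rfl
  refine ⟨hcomp.congr_of_eventuallyEq hw, hc.continuousAt, ?_⟩
  have hd2 := hs2'.differentiableAt (by simp)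
  have hd1 := hs1.differentiableAt (by simp)
  have h5 := (hd2.hasFDerivAt.comp (R.c i x) hd1.hasFDerivAt).congr_of_eventuallyEq hw
  have h6 : (R.c i).symm (R.c i x) = x := (R.ch i).left_inv hxi
  have h7 : R.c k ((R.c i).symm (R.c i x)) = R'.c l (f x) := by rw [h6, hcf]
  rw [h7] at h5
  exact h5.hasFDerivWithinAt

theorem ChIso.contMDiff {f : R.M → R'.M} (h : ChIso R R' f) (hc : Continuous f) :
    ContMDiff (𝓡 d) (𝓡 d) ∞ f := by
  intro x
  obtain ⟨k, l, hx, he, hG⟩ := h x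
  rw [contMDiffAt_iff]
  refine ⟨hc.continuousAt, ?_⟩
  simp only [modelWithCornersSelf_coe, range_id, contDiffWithinAt_univ]
  exact (h.hasMFDerivAt hc hx he).1

theorem ChIso.norm_mfderiv {f : R.M → R'.M} (h : ChIso R R' f) (hc : Continuous f) (x : R.M)
    (v : TangentSpace (𝓡 d) x) : ‖mfderiv (𝓡 d) (𝓡 d) f x v‖ = ‖v‖ := by
  obtain ⟨k, l, hx, he, hG⟩ := h x
  have hfl : f x ∈ (R'.ch l).source := he.self_of_nhds.1
  have hcf : R'.c l (f x) = R.c k x := he.self_of_nhds.2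
  rw [(h.hasMFDerivAt hc hx he).2.mfderiv]
  rw [← sq_eq_sq₀ (norm_nonneg _) (norm_nonneg _), ← real_inner_self_eq_norm_sq,
    ← real_inner_self_eq_norm_sq]
  have h1 := R'.bil_tr l (R'.idx (f x)) hfl (R'.idx_mem (f x)) (R.T (R.idx x) k x v)
    (R.T (R.idx x) k x v)
  have h2 := R.bil_tr (R.idx x) k (R.idx_mem x) hx v v
  have h3 : R'.bil l (R'.c l (f x)) = R.bil k (R.c k x) := by
    unfold bil
    rw [hcf, hG]
  rw [h3, ← h2] at h1
  exact h1.symm

theorem ChIso.edist_le {f : R.M → R'.M} (h : ChIso R R' f) (hc : Continuous f) (x y : R.M) :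
    riemannianEDist (𝓡 d) (f x) (f y) ≤ riemannianEDist (𝓡 d) x y := by
  refine edist_map_le ((h.contMDiff hc).of_le (by simp)) (fun x v => ?_) x y
  rw [← ofReal_norm, ← ofReal_norm, h.norm_mfderiv hc]

theorem ChIso.dist_le [T2Space N] [ConnectedSpace N] [T2Space N'] [ConnectedSpace N']
    {f : R.M → R'.M} (h : ChIso R R' f) (hc : Continuous f) (x y : R.M) :
    dist (f x) (f y) ≤ dist x y := by
  have h1 := h.edist_le hc x y
  rw [← IsRiemannianManifold.out (I := 𝓡 d) (f x) (f y), ← IsRiemannianManifold.out (I := 𝓡 d) x y,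
    edist_dist, edist_dist] at h1
  exact (ENNReal.ofReal_le_ofReal_iff dist_nonneg).1 h1

end RAtl

end Crest.Agent.R273.RMan_798
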