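import Crest.Agent.R273.Defs_333
import Crest.Prelude.Def_AnticanonicalChart

/-!
# R273 (S0416), Part E (helper333): descent to `Type`, transfer of charts

`exists_model` : a compact Hausdorff space charted over `Fin n → ℂ` is homeomorphic to a space in
`Type`.
`tc g e`  : the chart `e` of `X` as a chart of `M` (`g : M ≃ₜ X`) with values in Euclidean space.
-/

set_option autoImplicit false
set_option linter.unusedSectionVars false

open Set Filter Topology Complex
open scoped ContDiff Manifold

namespace Crest.Agent.R273.RedA_333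

open Crest.Agent.R275.Geo Crest.Agent.R275.Core144 Crest.Agent.R275.GC293
open Crest.Agent.R273.Defs_333

noncomputable section

universe u

/-- the model space of `Def_AnticanonicalChart` -/
abbrev Cs (n : ℕ) : Type := Crest.AlgGeometry.Anticanonical.Cn n

theorem exists_model (n : ℕ) (X : Type u) [TopologicalSpace X] [T2Space X] [CompactSpace X]
    [ChartedSpace (Cs n) X] :
    ∃ (M : Type) (_ : TopologicalSpace M), Nonempty (M ≃ₜ X) := by
  have : SecondCountableTopology X := ChartedSpace.secondCountable_of_sigmaCompact (Cs n) X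
  obtain ⟨f, hf⟩ := TopologicalSpace.exists_embedding_l_infty X
  exact ⟨range f, inferInstance, ⟨hf.toHomeomorph.symm⟩⟩

/-- `ℂⁿ` with the sup norm versus Euclidean norm -/
def lpE (n : ℕ) : EuclideanSpace ℂ (Fin n) ≃L[ℂ] Cs n := EuclideanSpace.equiv (Fin n) ℂ

variable {n : ℕ} {X : Type u} [TopologicalSpace X] [ChartedSpace (Cs n) X]
  {M : Type} [TopologicalSpace M]

/-- the chart `e` of `X` as a chart of `M` -/
def tc (g : M ≃ₜ X) (e : OpenPartialHomeomorph X (Cs n)) :
    OpenPartialHomeomorph M (EuclideanSpace ℂ (Fin n)) :=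
  (g.toOpenPartialHomeomorph ≫ₕ e).transHomeomorph (lpE n).symm.toHomeomorph

theorem tc_apply (g : M ≃ₜ X) (e : OpenPartialHomeomorph X (Cs n)) (x : M) :
    tc g e x = (lpE n).symm (e (g x)) := rfl

theorem tc_symm_apply (g : M ≃ₜ X) (e : OpenPartialHomeomorph X (Cs n))
    (z : EuclideanSpace ℂ (Fin n)) :
    (tc g e).symm z = g.symm (e.symm (lpE n z)) := rfl

theorem tc_source (g : M ≃ₜ X) (e : OpenPartialHomeomorph X (Cs n)) :
    (tc g e).source = g ⁻¹' e.source := by
  ext x
  simp [tc]

theorem tc_target (g : M ≃ₜ X) (e : OpenPartialHomeomorph X (Cs n)) :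
    (tc g e).target = (lpE n) ⁻¹' e.target := by
  ext x
  simp [tc]

/-- the charted space structure of `M` -/
@[reducible] def chartedM (g : M ≃ₜ X) : ChartedSpace (EuclideanSpace ℂ (Fin n)) M where
  atlas := tc g '' atlas (Cs n) X
  chartAt x := tc g (chartAt (Cs n) (g x))
  mem_chart_source x := by
    rw [tc_source]
    exact mem_chart_source (Cs n) (g x)
  chart_mem_atlas x := ⟨_, chart_mem_atlas (Cs n) (g x), rfl⟩

theorem isManifold_chartedM (g : M ≃ₜ X) [IsManifold 𝓘(ℂ, Cs n) ω X] :
    let _ := chartedM (n := n) g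
    IsManifold 𝓘(ℂ, EuclideanSpace ℂ (Fin n)) 1 M := by
  letI := chartedM (n := n) g
  apply isManifold_of_contDiffOn
  rintro _ _ ⟨e, he, rfl⟩ ⟨e', he', rfl⟩
  have h0 : ContDiffOn ℂ ω (e.symm ≫ₕ e') (e.symm ≫ₕ e').source := by
    have := contMDiffOn_of_mem_contDiffGroupoid (n := ω) (I := 𝓘(ℂ, Cs n))
      (HasGroupoid.compatible (G := contDiffGroupoid ω 𝓘(ℂ, Cs n)) he he')
    exact contMDiffOn_iff_contDiffOn.1 this
  have h1 : ContDiffOn ℂ 1 (fun z : EuclideanSpace ℂ (Fin n) =>
      (lpE n).symm ((e.symm ≫ₕ e') (lpE n z))) ((lpE n) ⁻¹' (e.symm ≫ₕ e').source) := by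
    refine (lpE n).symm.contDiff.comp_contDiffOn ?_
    exact ((h0.of_le le_top).comp (lpE n).contDiff.contDiffOn (fun z hz => hz))
  refine h1.congr_mono ?_ ?_
  · intro z _
    simp [tc_apply, tc_symm_apply]
  · intro z hz
    have h2 := hz.1
    simp only [mem_preimage, modelWithCornersSelf_coe_symm, id_eq, OpenPartialHomeomorph.trans_source,
      OpenPartialHomeomorph.symm_source, tc_target, tc_source, mem_inter_iff] at h2 ⊢
    refine ⟨h2.1, ?_⟩
    have h3 := h2.2
    rw [tc_symm_apply] at h3
    simpa using h3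

end

end Crest.Agent.R273.RedA_333
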