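import Crest.Agent.R273.RedA_333

/-!
# R273 (S0416), Part E (helper333): comparison of an `Atl` on `M` with the atlas of `X`

`Lk A X` : homeomorphism `g : M ≃ₜ X`, every chart of `A` is (up to `lpE`) an affine image of a chart
of the atlas of `X`, with a common scaling factor `ρ`.
-/

set_option autoImplicit false
set_option linter.unusedSectionVars false

open Set Filter Topology Complex
open scoped ContDiff Manifold

namespace Crest.Agent.R273.RedB_333

open Crest.Agent.R275.Geo Crest.Agent.R275.Core144 Crest.Agent.R275.GC293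
open Crest.Agent.R273.Defs_333 Crest.Agent.R273.RedA_333
open Crest.AlgGeometry.Anticanonical

noncomputable section

universe u

variable {n : ℕ} {M : Type} [TopologicalSpace M]

/-- comparison data -/
structure Lk (A : Atl n M) (X : Type u) [TopologicalSpace X] [ChartedSpace (Cs n) X] where
  g : M ≃ₜ X
  c : A.ι → OpenPartialHomeomorph X (Cs n)
  mem : ∀ i, c i ∈ atlas (Cs n) X
  ρ : ℝ
  ρ_pos : 0 < ρ
  b : A.ι → Cs n
  src : ∀ i, ∀ x ∈ (A.e i).source, g x ∈ (c i).source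
  ap : ∀ i, ∀ x ∈ (A.e i).source, c i (g x) = (ρ : ℂ) • lpE n (A.e i x) + b i

variable {A : Atl n M} {X : Type u} [TopologicalSpace X] [ChartedSpace (Cs n) X]

namespace Lk

variable (K : Lk A X)

/-- the affine map -/
def ps (i : A.ι) (z : EuclideanSpace ℂ (Fin n)) : Cs n := (K.ρ : ℂ) • lpE n z + K.b i

theorem ps_e {i : A.ι} {x : M} (hx : x ∈ (A.e i).source) : K.ps i (A.e i x) = K.c i (K.g x) :=
  (K.ap i x hx).symm

theorem ps_mem {i : A.ι} {z : EuclideanSpace ℂ (Fin n)} (hz : z ∈ (A.e i).target) :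
    K.ps i z ∈ (K.c i).target := by
  have h1 := (A.e i).map_target hz
  have h2 := K.ps_e h1
  rw [(A.e i).right_inv hz] at h2
  rw [h2]
  exact (K.c i).map_source (K.src i _ h1)

theorem g_symm {i : A.ι} {z : EuclideanSpace ℂ (Fin n)} (hz : z ∈ (A.e i).target) :
    K.g ((A.e i).symm z) = (K.c i).symm (K.ps i z) := by
  have h1 := (A.e i).map_target hz
  have h2 := K.ps_e h1
  rw [(A.e i).right_inv hz] at h2
  rw [h2, (K.c i).left_inv (K.src i _ h1)]

theorem c_symm {i : A.ι} {z : EuclideanSpace ℂ (Fin n)} (hz : z ∈ (A.e i).target) :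
    K.c i (K.g ((A.e i).symm z)) = K.ps i z := by
  rw [K.g_symm hz, (K.c i).right_inv (K.ps_mem hz)]

theorem ρ_ne : (K.ρ : ℂ) ≠ 0 := by exact_mod_cast K.ρ_pos.ne'

/-- the linear part of `ps` -/
def lin : EuclideanSpace ℂ (Fin n) →L[ℂ] Cs n :=
  (K.ρ : ℂ) • (lpE n : EuclideanSpace ℂ (Fin n) →L[ℂ] Cs n)

theorem lin_apply (v : EuclideanSpace ℂ (Fin n)) : K.lin v = (K.ρ : ℂ) • lpE n v := rfl

theorem hasFDerivAt_ps (i : A.ι) (z : EuclideanSpace ℂ (Fin n)) :
    HasFDerivAt (K.ps i) K.lin z :=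
  (K.lin.hasFDerivAt).add_const (K.b i)

theorem hasFDerivAt_ps_real (i : A.ι) (z : EuclideanSpace ℂ (Fin n)) :
    HasFDerivAt (K.ps i) (K.lin.restrictScalars ℝ) z :=
  (K.hasFDerivAt_ps i z).restrictScalars ℝ

theorem differentiable_ps (i : A.ι) : Differentiable ℂ (K.ps i) := fun z =>
  (K.hasFDerivAt_ps i z).differentiableAt

theorem contDiff_ps (i : A.ι) : ContDiff ℝ ∞ (K.ps i) := by
  have h : ContDiff ℂ ω (K.ps i) := (K.lin.contDiff).add contDiff_const
  exact (h.restrict_scalars ℝ).of_le le_top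

theorem continuous_ps (i : A.ι) : Continuous (K.ps i) := (K.differentiable_ps i).continuous

/-- overlap of charts -/
theorem diff_trans [IsManifold 𝓘(ℂ, Cs n) ω X] {e e' : OpenPartialHomeomorph X (Cs n)}
    (he : e ∈ atlas (Cs n) X) (he' : e' ∈ atlas (Cs n) X) :
    DifferentiableOn ℂ (e' ∘ e.symm) (e.symm ≫ₕ e').source := by
  have := contMDiffOn_of_mem_contDiffGroupoid (n := ω) (I := 𝓘(ℂ, Cs n))
      (HasGroupoid.compatible (G := contDiffGroupoid ω 𝓘(ℂ, Cs n)) he he')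
  exact (contMDiffOn_iff_contDiffOn.1 this).differentiableOn (by simp)

theorem diffAt_trans [IsManifold 𝓘(ℂ, Cs n) ω X] {e e' : OpenPartialHomeomorph X (Cs n)}
    (he : e ∈ atlas (Cs n) X) (he' : e' ∈ atlas (Cs n) X) {x : X} (hx : x ∈ e.source)
    (hx' : x ∈ e'.source) : DifferentiableAt ℂ (e' ∘ e.symm) (e x) := by
  refine (diff_trans he he').differentiableAt ((e.symm ≫ₕ e').open_source.mem_nhds ?_)
  simp [e.map_source hx, e.left_inv hx, hx']

theorem hasFDerivAt_tr [IsManifold 𝓘(ℂ, Cs n) ω X] {i j : A.ι} {x : M}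
    (hi : x ∈ (A.e i).source) (hj : x ∈ (A.e j).source) :
    HasFDerivAt (fun z => A.e j ((A.e i).symm z))
      (((lpE n).symm : Cs n →L[ℂ] EuclideanSpace ℂ (Fin n)).comp
        ((fderiv ℂ (K.c j ∘ (K.c i).symm) (K.c i (K.g x))).comp
          (lpE n : EuclideanSpace ℂ (Fin n) →L[ℂ] Cs n))) (A.e i x) := by
  have h1 : (fun z => A.e j ((A.e i).symm z)) =ᶠ[𝓝 (A.e i x)]
      fun z => (lpE n).symm ((K.ρ : ℂ)⁻¹ • ((K.c j ∘ (K.c i).symm) (K.ps i z) - K.b j)) := by
    have ho : IsOpen {z | z ∈ (A.e i).target ∧ (A.e i).symm z ∈ (A.e j).source} :=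
      (A.e i).isOpen_inter_preimage_symm (A.e j).open_source
    filter_upwards [ho.mem_nhds (show A.e i x ∈ _ from
      ⟨(A.e i).map_source hi, by rw [(A.e i).left_inv hi]; exact hj⟩)] with z hz
    have h2 := K.ap j _ hz.2
    rw [K.g_symm hz.1] at h2
    rw [Function.comp_apply, h2, add_sub_cancel_right, smul_smul, inv_mul_cancel₀ K.ρ_ne, one_smul,
      ContinuousLinearEquiv.symm_apply_apply]
  have h3 : HasFDerivAt (K.c j ∘ (K.c i).symm)
      (fderiv ℂ (K.c j ∘ (K.c i).symm) (K.c i (K.g x))) (K.ps i (A.e i x)) := by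
    rw [K.ps_e hi]
    exact (diffAt_trans (K.mem i) (K.mem j) (K.src i x hi) (K.src j x hj)).hasFDerivAt
  have h4 := h3.comp (A.e i x) (K.hasFDerivAt_ps i (A.e i x))
  have h5 := (((lpE n).symm : Cs n →L[ℂ] EuclideanSpace ℂ (Fin n)).hasFDerivAt).comp (A.e i x)
    (((h4.sub_const (K.b j)).const_smul (K.ρ : ℂ)⁻¹))
  have h6 := h5.congr_of_eventuallyEq h1
  refine h6.congr_fderiv ?_
  ext v
  simp [lin_apply, K.ρ_ne]

theorem det_Jm [IsManifold 𝓘(ℂ, Cs n) ω X] {i j : A.ι} {x : M}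
    (hi : x ∈ (A.e i).source) (hj : x ∈ (A.e j).source) :
    (Jm A i j x).det = transitionDet n X (K.c i) (K.c j) (K.g x) := by
  rw [transitionDet, ← LinearMap.det_toMatrix']
  congr 1
  ext b a
  rw [Jm_apply, Atl.J, (K.hasFDerivAt_tr hi hj).fderiv, LinearMap.toMatrix'_apply]
  simp only [lpE, ContinuousLinearMap.coe_comp, ContinuousLinearEquiv.coe_coe, Function.comp_apply,
    ContinuousLinearMap.coe_coe]
  have h1 : (EuclideanSpace.equiv (Fin n) ℂ) (EuclideanSpace.single a 1) = Pi.single a 1 := rfl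
  rw [h1]
  rfl

theorem transitionDet_mul [IsManifold 𝓘(ℂ, Cs n) ω X] {e e' e'' : OpenPartialHomeomorph X (Cs n)}
    (he : e ∈ atlas (Cs n) X) (he' : e' ∈ atlas (Cs n) X) (he'' : e'' ∈ atlas (Cs n) X) {x : X}
    (hx : x ∈ e.source) (hx' : x ∈ e'.source) (hx'' : x ∈ e''.source) :
    transitionDet n X e' e'' x * transitionDet n X e e' x = transitionDet n X e e'' x := by
  unfold transitionDet
  rw [← LinearMap.det_comp]
  have h1 : (e'' ∘ e.symm) =ᶠ[𝓝 (e x)] (e'' ∘ e'.symm) ∘ (e' ∘ e.symm) := by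
    filter_upwards [(e.symm ≫ₕ e').open_source.mem_nhds (show e x ∈ (e.symm ≫ₕ e').source by
      simp [e.map_source hx, e.left_inv hx, hx'])] with z hz
    have hz2 : e.symm z ∈ e'.source := by simpa using hz.2
    simp [e'.left_inv hz2]
  have h2 : (e' ∘ e.symm) (e x) = e' x := by simp [e.left_inv hx]
  rw [h1.fderiv_eq, fderiv_comp _ (by rw [h2]; exact diffAt_trans he' he'' hx' hx'')
    (diffAt_trans he he' hx hx'), h2]
  rfl

theorem transitionDet_self {e : OpenPartialHomeomorph X (Cs n)} {x : X} (hx : x ∈ e.source) :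
    transitionDet n X e e x = 1 := by
  unfold transitionDet
  have h1 : (e ∘ e.symm) =ᶠ[𝓝 (e x)] id := by
    filter_upwards [e.open_target.mem_nhds (e.map_source hx)] with z hz
    simp [e.right_inv hz]
  rw [h1.fderiv_eq, fderiv_id]
  simp

theorem transitionDet_ne_zero [IsManifold 𝓘(ℂ, Cs n) ω X] {e e' : OpenPartialHomeomorph X (Cs n)}
    (he : e ∈ atlas (Cs n) X) (he' : e' ∈ atlas (Cs n) X) {x : X}
    (hx : x ∈ e.source) (hx' : x ∈ e'.source) : transitionDet n X e e' x ≠ 0 := by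
  intro h0
  have := transitionDet_mul he he' he hx hx' hx
  rw [h0, mul_zero, transitionDet_self hx] at this
  exact zero_ne_one this

/-- second derivative of a composition with the affine map -/
theorem iteratedFDeriv_ps {u : Cs n → ℝ} {i : A.ι} {z : EuclideanSpace ℂ (Fin n)}
    (hu : ContDiffAt ℝ 2 u (K.ps i z)) (v w : EuclideanSpace ℂ (Fin n)) :
    iteratedFDeriv ℝ 2 (fun z => u (K.ps i z)) z ![v, w] =
      iteratedFDeriv ℝ 2 u (K.ps i z) ![K.lin v, K.lin w] := by
  rw [iteratedFDeriv_two_apply, iteratedFDeriv_two_apply]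
  have h1 : fderiv ℝ (fun z => u (K.ps i z)) =ᶠ[𝓝 z]
      fun z => (fderiv ℝ u (K.ps i z)).comp (K.lin.restrictScalars ℝ) := by
    have h2 : ∀ᶠ y in 𝓝 (K.ps i z), DifferentiableAt ℝ u y := by
      filter_upwards [hu.eventually (by simp)] with y hy
      exact hy.differentiableAt (by norm_num)
    filter_upwards [((K.continuous_ps i).tendsto z).eventually h2] with y hy
    exact (hy.hasFDerivAt.comp y (K.hasFDerivAt_ps_real i y)).fderiv
  have h3 : HasFDerivAt (fderiv ℝ u) (fderiv ℝ (fderiv ℝ u) (K.ps i z)) (K.ps i z) := by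
    have h4 : ContDiffAt ℝ 1 (fderiv ℝ u) (K.ps i z) := hu.fderiv_right (by norm_num)
    exact (h4.differentiableAt (by norm_num)).hasFDerivAt
  have h5 := h3.comp z (K.hasFDerivAt_ps_real i z)
  have h6 := h5.clm_comp (hasFDerivAt_const (K.lin.restrictScalars ℝ) z)
  rw [h1.fderiv_eq]
  have h7 : fderiv ℝ (fun z => (fderiv ℝ u (K.ps i z)).comp (K.lin.restrictScalars ℝ)) z = _ :=
    h6.fderiv
  rw [h7]
  simp

theorem lev_ps {u : Cs n → ℝ} {i : A.ι} {z : EuclideanSpace ℂ (Fin n)}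
    (hu : ContDiffAt ℝ 2 u (K.ps i z)) (v : EuclideanSpace ℂ (Fin n)) :
    lev (fun z => u (K.ps i z)) z v = leviForm n u (K.ps i z) (K.lin v) := by
  unfold lev leviForm
  rw [K.iteratedFDeriv_ps hu, K.iteratedFDeriv_ps hu, map_smul]

end Lk

end

end Crest.Agent.R273.RedB_333
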