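import Crest.Agent.R273.RedB_333

/-!
# R273 (S0416), Part E (helper333): transfer of metrics, projective data and sections
-/

set_option autoImplicit false
set_option linter.unusedSectionVars false

open Set Filter Topology Complex
open scoped ContDiff Manifold

namespace Crest.Agent.R273.RedC_333

open Crest.Agent.R275.Geo Crest.Agent.R275.Core144 Crest.Agent.R275.GC293
open Crest.Agent.R273.Defs_333 Crest.Agent.R273.RedA_333 Crest.Agent.R273.RedB_333
open Crest.AlgGeometry.Anticanonical

noncomputable section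

universe u

variable {n : ℕ} {M : Type} [TopologicalSpace M]
  {A : Atl n M} {X : Type u} [TopologicalSpace X] [ChartedSpace (Cs n) X]

theorem diffAt_prod {E ι : Type*} [NormedAddCommGroup E] [NormedSpace ℂ E] (s : Finset ι)
    {f : ι → E → ℂ} {x : E} (h : ∀ i ∈ s, DifferentiableAt ℂ (f i) x) :
    DifferentiableAt ℂ (fun y => ∏ i ∈ s, f i y) x := by
  classical
  induction s using Finset.induction_on with
  | empty => simp
  | insert k s hk ih =>
    simp only [Finset.prod_insert hk]
    exact (h k (by simp)).fun_mul (ih fun l hl => h l (by simp [hl]))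

/-! ### the metric -/

/-- the metric on `K⁻¹` -/
def met [IsManifold 𝓘(ℂ, Cs n) ω X] (K : Lk A X) (h : AnticanonicalMetric n X) :
    HM (KB A)⁻¹ where
  w i x := h.dens (K.c i) (K.c i (K.g x))
  pos i x hx := h.pos _ (K.mem i) _ ((K.c i).map_source (K.src i x hx))
  sm i := by
    have h1 : ContDiffOn ℝ ∞ (fun z => h.dens (K.c i) (K.ps i z)) (A.e i).target :=
      (h.smooth _ (K.mem i)).comp (K.contDiff_ps i).contDiffOn fun z hz => K.ps_mem hz
    refine h1.congr fun z hz => ?_
    simp only [K.c_symm hz]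
  tr i j x hx := by
    have h1 := h.transform _ (K.mem j) _ (K.mem i) (K.g x) ⟨K.src j x hx.2, K.src i x hx.1⟩
    rw [h1, LB.inv_g, KB_g hx, K.det_Jm hx.1 hx.2]
    have h2 := Lk.transitionDet_mul (K.mem i) (K.mem j) (K.mem i) (K.src i x hx.1)
      (K.src j x hx.2) (K.src i x hx.1)
    rw [Lk.transitionDet_self (K.src i x hx.1)] at h2
    rw [eq_inv_of_mul_eq_one_left h2]

theorem met_wt [IsManifold 𝓘(ℂ, Cs n) ω X] (K : Lk A X) (h : AnticanonicalMetric n X) (i : A.ι)
    {z : EuclideanSpace ℂ (Fin n)} (hz : z ∈ (A.e i).target) :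
    (met K h).wt i z = (fun w => - Real.log (h.dens (K.c i) w)) (K.ps i z) := by
  simp only [HM.wt, met, K.c_symm hz]

theorem met_semipos [IsManifold 𝓘(ℂ, Cs n) ω X] (K : Lk A X) (h : AnticanonicalMetric n X)
    (hpos : h.IsSemipositive) : (met K h).Semipos := by
  intro i z hz v
  have h1 : (met K h).wt i =ᶠ[𝓝 z] fun z => (fun w => - Real.log (h.dens (K.c i) w)) (K.ps i z) := by
    filter_upwards [(A.e i).open_target.mem_nhds hz] with y hy
    exact met_wt K h i hy
  have h2 : lev ((met K h).wt i) z v =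
      lev (fun z => (fun w => - Real.log (h.dens (K.c i) w)) (K.ps i z)) z v := by
    unfold lev
    rw [(Filter.EventuallyEq.iteratedFDeriv ℝ h1 2).eq_of_nhds]
  have h3 : ContDiffAt ℝ 2 (fun w => - Real.log (h.dens (K.c i) w)) (K.ps i z) := by
    have h4 : ContDiffAt ℝ ∞ (h.dens (K.c i)) (K.ps i z) :=
      (h.smooth _ (K.mem i)).contDiffAt ((K.c i).open_target.mem_nhds (K.ps_mem hz))
    have h5 := (h4.log (h.pos _ (K.mem i) _ (K.ps_mem hz)).ne').neg
    exact h5.of_le (WithTop.coe_le_coe.2 le_top)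
  rw [h2, K.lev_ps h3]
  exact hpos _ (K.mem i) _ (K.ps_mem hz) _

/-! ### projective data -/

theorem exists_proj [IsManifold 𝓘(ℂ, Cs n) ω X] (K : Lk A X) (hp : IsProjective n X) :
    Nonempty (ProjD A) := by
  obtain ⟨N, F, h1, h2, h3, h4⟩ := hp
  refine ⟨⟨N, fun i x => F (K.c i) (K.c i (K.g x)), ?_, ?_, ?_, ?_, ?_⟩⟩
  · intro i k
    have h5 : DifferentiableOn ℂ (fun z => F (K.c i) (K.ps i z) k) (A.e i).target := by
      have h6 : DifferentiableOn ℂ (fun z => F (K.c i) (K.ps i z)) (A.e i).target :=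
        (h1 _ (K.mem i)).1.comp (K.differentiable_ps i).differentiableOn fun z hz => K.ps_mem hz
      exact differentiableOn_pi.1 h6 k
    refine (h5.mono inter_subset_left).congr fun z hz => ?_
    simp only [K.c_symm hz.1]
  · intro i x hx
    exact (h1 _ (K.mem i)).2 _ ((K.c i).map_source (K.src i x hx))
  · intro i j x hx
    exact h2 _ (K.mem i) _ (K.mem j) _ ⟨K.src i x hx.1, K.src j x hx.2⟩
  · intro i j x hx y hy hxy
    exact K.g.injective (h3 _ (K.mem i) _ (K.mem j) _ (K.src i x hx) _ (K.src j y hy) hxy)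
  · intro i z hz v ⟨c, hc⟩
    have h6 : (fun w => F (K.c i) (K.c i (K.g ((A.e i).symm w)))) =ᶠ[𝓝 z]
        fun w => F (K.c i) (K.ps i w) := by
      filter_upwards [(A.e i).open_target.mem_nhds hz] with w hw
      rw [K.c_symm hw]
    have h7 : HasFDerivAt (F (K.c i)) (fderiv ℂ (F (K.c i)) (K.ps i z)) (K.ps i z) :=
      ((h1 _ (K.mem i)).1.differentiableAt
        ((K.c i).open_target.mem_nhds (K.ps_mem hz))).hasFDerivAt
    have h8 := (h7.comp z (K.hasFDerivAt_ps i z)).fderiv
    have h9 : fderiv ℂ (fun w => F (K.c i) (K.ps i w)) z =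
      (fderiv ℂ (F (K.c i)) (K.ps i z)).comp K.lin := h8
    have h10 := h4 _ (K.mem i) _ (K.ps_mem hz) (K.lin v) ⟨c, by
      rw [h6.fderiv_eq, h9, K.c_symm hz] at hc
      exact hc⟩
    rw [Lk.lin_apply] at h10
    have h11 := (smul_eq_zero.1 h10).resolve_left K.ρ_ne
    exact (lpE n).map_eq_zero_iff.1 h11

/-! ### sections -/

section Sections

variable [IsManifold 𝓘(ℂ, Cs n) ω X] (K : Lk A X)

/-- a chart of `A` around a point of `X` -/
def ki (y : X) : A.ι := (A.cover (K.g.symm y)).choose

theorem ki_mem (y : X) : K.g.symm y ∈ (A.e (ki K y)).source :=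
  (A.cover (K.g.symm y)).choose_spec

variable {m : ℕ} {s : A.ι → M → ℂ}

theorem KBinv_pow_g {i j : A.ι} {x : M} (hx : x ∈ (A.e i).source ∩ (A.e j).source) :
    ((KB A)⁻¹ ^ m : LB A).g i j x = (transitionDet n X (K.c j) (K.c i) (K.g x)) ^ m := by
  have h0 : ∀ k : ℕ, ((KB A)⁻¹ ^ k : LB A).g i j x = ((KB A)⁻¹ : LB A).g i j x ^ k := by
    intro k
    induction k with
    | zero => simp
    | succ k ih => rw [pow_succ, pow_succ, LB.mul_g, ih]
  rw [h0, LB.inv_g, LB.inv_eq, KB_g ⟨hx.2, hx.1⟩, K.det_Jm hx.2 hx.1]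

/-- the value of the coefficient in a chart `e` computed with the chart `i` -/
def val (m : ℕ) (s : A.ι → M → ℂ) (e : OpenPartialHomeomorph X (Cs n)) (i : A.ι) (y : X) : ℂ :=
  transitionDet n X (K.c i) e y ^ m * s i (K.g.symm y)

theorem val_indep (hs : IsHS ((KB A)⁻¹ ^ m) univ s) {e : OpenPartialHomeomorph X (Cs n)}
    (he : e ∈ atlas (Cs n) X) {i j : A.ι} {y : X} (hy : y ∈ e.source)
    (hi : K.g.symm y ∈ (A.e i).source) (hj : K.g.symm y ∈ (A.e j).source) :
    val K m s e i y = val K m s e j y := by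
  unfold val
  have h1 := K.src i _ hi
  have h2 := K.src j _ hj
  rw [K.g.apply_symm_apply] at h1 h2
  rw [hs.tr i j _ ⟨hi, hj⟩ (mem_univ _), KBinv_pow_g K ⟨hi, hj⟩, K.g.apply_symm_apply, ← mul_assoc,
    ← mul_pow, Lk.transitionDet_mul (K.mem j) (K.mem i) he h2 h1 hy]

/-- the section -/
def back (hs : IsHS ((KB A)⁻¹ ^ m) univ s) : PluriAnticanonicalForm n X m where
  coeff e z := val K m s e (ki K (e.symm z)) (e.symm z)
  holomorphic e he := by
    intro z0 hz0
    apply DifferentiableAt.differentiableWithinAt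
    set y0 : X := e.symm z0 with hy0
    have hy0e : y0 ∈ e.source := e.map_target hz0
    set i := ki K y0 with hi
    have hi0 : K.g.symm y0 ∈ (A.e i).source := ki_mem K y0
    have hc0 : y0 ∈ (K.c i).source := by
      have := K.src i _ hi0
      rwa [K.g.apply_symm_apply] at this
    -- the coefficient near `z0`
    have h1 : (fun z => val K m s e (ki K (e.symm z)) (e.symm z)) =ᶠ[𝓝 z0]
        fun z => val K m s e i (e.symm z) := by
      have h2 : ∀ᶠ z in 𝓝 z0, K.g.symm (e.symm z) ∈ (A.e i).source := by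
        have hc : ContinuousAt (fun z => K.g.symm (e.symm z)) z0 :=
          K.g.symm.continuous.continuousAt.comp (e.continuousAt_symm hz0)
        exact hc.eventually ((A.e i).open_source.mem_nhds hi0)
      filter_upwards [h2, e.open_target.mem_nhds hz0] with z hz hzt
      exact val_indep K hs he (e.map_target hzt) (ki_mem K _) hz
    refine DifferentiableAt.congr_of_eventuallyEq ?_ h1
    unfold val
    -- first factor
    have h3 : DifferentiableAt ℂ (fun z => transitionDet n X (K.c i) e (e.symm z)) z0 := by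
      have h4 : AnalyticOnNhd ℂ (e ∘ (K.c i).symm) ((K.c i).symm ≫ₕ e).source :=
        Crest.Agent.R266.SCV.analyticOnNhd_of_differentiableOn ((K.c i).symm ≫ₕ e).open_source
          (Lk.diff_trans (K.mem i) he)
      have h5 : DifferentiableOn ℂ (fderiv ℂ (e ∘ (K.c i).symm)) ((K.c i).symm ≫ₕ e).source :=
        h4.fderiv.differentiableOn
      have h6 : K.c i y0 ∈ ((K.c i).symm ≫ₕ e).source := by
        simp [(K.c i).map_source hc0, (K.c i).left_inv hc0, hy0e]
      have h7 := h5.differentiableAt (((K.c i).symm ≫ₕ e).open_source.mem_nhds h6)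
      have h8 : DifferentiableAt ℂ (K.c i ∘ e.symm) z0 := by
        have := Lk.diffAt_trans he (K.mem i) hy0e hc0
        rwa [hy0, e.right_inv hz0] at this
      have h9 : DifferentiableAt ℂ (fun z => fderiv ℂ (e ∘ (K.c i).symm) ((K.c i ∘ e.symm) z)) z0 :=
        DifferentiableAt.comp z0 (by simpa [hy0] using h7) h8
      have h10 : (fun z => transitionDet n X (K.c i) e (e.symm z)) =
          fun z => ((LinearMap.toMatrix' (fderiv ℂ (e ∘ (K.c i).symm)
            ((K.c i ∘ e.symm) z)).toLinearMap)).det := by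
        funext z
        rw [LinearMap.det_toMatrix']
        rfl
      rw [h10]
      simp only [Matrix.det_apply]
      refine DifferentiableAt.fun_sum fun σ _ => ?_
      refine DifferentiableAt.fun_const_smul ?_ _
      refine diffAt_prod _ fun b _ => ?_
      simp only [LinearMap.toMatrix'_apply]
      have h11 : DifferentiableAt ℂ (fun z => fderiv ℂ (e ∘ (K.c i).symm) ((K.c i ∘ e.symm) z)
        (Pi.single b 1)) z0 := h9.clm_apply (differentiableAt_const _)
      exact differentiableAt_pi.1 h11 (σ b)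
    -- second factor
    have h12 : DifferentiableAt ℂ (fun z => s i (K.g.symm (e.symm z))) z0 := by
      have h13 : DifferentiableOn ℂ (fun z => s i ((A.e i).symm z)) (A.e i).target := by
        have := hs.hol i
        unfold HolAt at this
        simpa using this
      have h14 : (fun z => s i (K.g.symm (e.symm z))) =ᶠ[𝓝 z0] fun z =>
          (fun z => s i ((A.e i).symm z)) ((lpE n).symm ((K.ρ : ℂ)⁻¹ • ((K.c i ∘ e.symm) z - K.b i))) := by
        have hc : ContinuousAt (fun z => K.g.symm (e.symm z)) z0 :=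
          K.g.symm.continuous.continuousAt.comp (e.continuousAt_symm hz0)
        filter_upwards [hc.eventually ((A.e i).open_source.mem_nhds hi0)] with z hz
        have h15 := K.ap i _ hz
        rw [K.g.apply_symm_apply] at h15
        simp only [Function.comp_apply, h15, add_sub_cancel_right, smul_smul,
          inv_mul_cancel₀ K.ρ_ne, one_smul, ContinuousLinearEquiv.symm_apply_apply,
          (A.e i).left_inv hz]
      refine DifferentiableAt.congr_of_eventuallyEq ?_ h14
      have h16 : (lpE n).symm ((K.ρ : ℂ)⁻¹ • ((K.c i ∘ e.symm) z0 - K.b i)) =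
          A.e i (K.g.symm y0) := by
        have h15 := K.ap i _ hi0
        rw [K.g.apply_symm_apply] at h15
        simp only [Function.comp_apply, ← hy0, h15, add_sub_cancel_right, smul_smul,
          inv_mul_cancel₀ K.ρ_ne, one_smul, ContinuousLinearEquiv.symm_apply_apply]
      have h8 : DifferentiableAt ℂ (K.c i ∘ e.symm) z0 := by
        have := Lk.diffAt_trans he (K.mem i) hy0e hc0
        rwa [hy0, e.right_inv hz0] at this
      have h17 : DifferentiableAt ℂ (fun z => (lpE n).symm
          ((K.ρ : ℂ)⁻¹ • ((K.c i ∘ e.symm) z - K.b i))) z0 :=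
        (lpE n).symm.differentiableAt.comp z0 (DifferentiableAt.fun_const_smul (h8.sub_const _) _)
      have h18 : DifferentiableAt ℂ (fun z => s i ((A.e i).symm z))
          ((lpE n).symm ((K.ρ : ℂ)⁻¹ • ((K.c i ∘ e.symm) z0 - K.b i))) := by
        rw [h16]
        exact h13.differentiableAt ((A.e i).open_target.mem_nhds ((A.e i).map_source hi0))
      exact DifferentiableAt.comp (g := fun z => s i ((A.e i).symm z)) z0 h18 h17
    exact (h3.pow m).mul h12
  transform e he e' he' y hy := by
    have h1 := ki_mem K y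
    have h2 := K.src _ _ h1
    rw [K.g.apply_symm_apply] at h2
    rw [e.left_inv hy.1, e'.left_inv hy.2]
    unfold val
    rw [← mul_assoc, ← mul_pow, Lk.transitionDet_mul (K.mem _) he he' h2 hy.1 hy.2]

theorem back_ne (hs : IsHS ((KB A)⁻¹ ^ m) univ s) {i : A.ι} {x : M} (hx : x ∈ (A.e i).source)
    (hne : s i x ≠ 0) :
    ∃ e ∈ atlas (Cs n) X, ∃ y ∈ e.source, (back K hs).coeff e (e y) ≠ 0 := by
  refine ⟨K.c i, K.mem i, K.g x, K.src i x hx, ?_⟩
  have hx' : K.g.symm (K.g x) ∈ (A.e i).source := by rwa [K.g.symm_apply_apply]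
  have h1 : (back K hs).coeff (K.c i) (K.c i (K.g x)) =
      val K m s (K.c i) (ki K (K.g x)) (K.g x) := by
    change val K m s (K.c i) (ki K ((K.c i).symm (K.c i (K.g x)))) _ = _
    rw [(K.c i).left_inv (K.src i x hx)]
  rw [h1, val_indep K hs (K.mem i) (K.src i x hx) (ki_mem K _) hx']
  unfold val
  rw [K.g.symm_apply_apply, Lk.transitionDet_self (K.src i x hx), one_pow, one_mul]
  exact hne

end Sections

end

end Crest.Agent.R273.RedC_333
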