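import Mathlib.MeasureTheory.Measure.Typeclasses.Finite
import Mathlib.MeasureTheory.Constructions.BorelSpace.Complex
import Mathlib.MeasureTheory.Constructions.BorelSpace.Metrizable
import Mathlib.Topology.Order.Compact
import Crest.Agent.R273.PolyN_619

/-!
R273 (S0416), Part A, Lemma U, leaves NS, REM, SAMPLE (helper619): finite dimensional spaces of
functions.

`F f c x = ∑ k, c k * f k x`.
-/

set_option autoImplicit false

open Finset MeasureTheory

namespace Crest.Agent.R273.Remez_619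

open Crest.Agent.R273.PolyN_619

variable {Ω : Type*} {K : ℕ}

/-- linear combinations -/
def F (f : Fin K → Ω → ℂ) (c : Fin K → ℂ) (x : Ω) : ℂ := ∑ k, c k * f k x

theorem F_smul (f : Fin K → Ω → ℂ) (t : ℂ) (c : Fin K → ℂ) (x : Ω) : F f (t • c) x = t * F f c x := by
  unfold F
  rw [Finset.mul_sum]
  refine Finset.sum_congr rfl fun k _ => ?_
  simp [mul_assoc]

theorem F_sub (f : Fin K → Ω → ℂ) (c c' : Fin K → ℂ) (x : Ω) : F f (c - c') x = F f c x - F f c' x := by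
  unfold F
  rw [← Finset.sum_sub_distrib]
  refine Finset.sum_congr rfl fun k _ => ?_
  simp [sub_mul]

theorem continuous_F (f : Fin K → Ω → ℂ) (x : Ω) : Continuous fun c => F f c x := by
  unfold F
  exact continuous_finsetSum _ fun k _ => (continuous_apply k).mul continuous_const

theorem norm_F_le {f : Fin K → Ω → ℂ} {Bd : ℝ} (hf : ∀ k x, ‖f k x‖ ≤ Bd) (c : Fin K → ℂ) (x : Ω) :
    ‖F f c x‖ ≤ K * Bd * ‖c‖ := by
  unfold F
  refine (norm_sum_le _ _).trans ?_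
  have h1 : ∀ k ∈ (univ : Finset (Fin K)), ‖c k * f k x‖ ≤ ‖c‖ * Bd := by
    intro k _
    rw [norm_mul]
    exact mul_le_mul (norm_le_pi_norm c k) (hf k x) (norm_nonneg _) (norm_nonneg _)
  refine (Finset.sum_le_sum h1).trans (le_of_eq ?_)
  rw [Finset.sum_const, card_univ, Fintype.card_fin, nsmul_eq_mul]; ring

/-- normalisation of the coefficient vector -/
theorem F_normalise {f : Fin K → Ω → ℂ} {c : Fin K → ℂ} (hc : c ≠ 0) (x : Ω) :
    ‖F f (((‖c‖⁻¹ : ℝ) : ℂ) • c) x‖ * ‖c‖ = ‖F f c x‖ := by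
  have h1 : ‖c‖ ≠ 0 := norm_ne_zero_iff.2 hc
  rw [F_smul, norm_mul, Complex.norm_real, norm_inv, norm_norm]
  field_simp

theorem normalise_mem {c : Fin K → ℂ} (hc : c ≠ 0) :
    (((‖c‖⁻¹ : ℝ) : ℂ) • c) ∈ Metric.sphere (0 : Fin K → ℂ) 1 := by
  have h1 : ‖c‖ ≠ 0 := norm_ne_zero_iff.2 hc
  simp [norm_smul, h1]

/-- NS : finite norming sets. -/
theorem norming [Nonempty Ω] (f : Fin K → Ω → ℂ) (hinj : ∀ c, c ≠ 0 → ∃ x, F f c x ≠ 0) :
    ∃ (S : Finset Ω) (δ : ℝ), 0 < δ ∧ S.Nonempty ∧ ∀ c, ∃ x ∈ S, δ * ‖c‖ ≤ ‖F f c x‖ := by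
  classical
  obtain ⟨x0⟩ := ‹Nonempty Ω›
  have hS1 : ∀ c ∈ Metric.sphere (0 : Fin K → ℂ) 1, c ≠ 0 := by
    rintro c hc rfl
    simp at hc
  choose! g hg using hinj
  obtain ⟨t, ht, hcov⟩ := (isCompact_sphere (0 : Fin K → ℂ) 1).elim_nhds_subcover
    (fun c => {c' | F f c' (g c) ≠ 0})
    (fun c hc => (isOpen_ne_fun (continuous_F f (g c)) continuous_const).mem_nhds (hg c (hS1 c hc)))
  set S : Finset Ω := insert x0 (t.image g) with hS
  have hSne : S.Nonempty := insert_nonempty _ _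
  set G : (Fin K → ℂ) → ℝ := fun c => ∑ x ∈ S, ‖F f c x‖ with hG
  have hGc : Continuous G := continuous_finsetSum _ fun x _ => (continuous_F f x).norm
  have hGpos : ∀ c ∈ Metric.sphere (0 : Fin K → ℂ) 1, 0 < G c := by
    intro c hc
    obtain ⟨c', hc', hcc'⟩ := Set.mem_iUnion₂.1 (hcov hc)
    refine lt_of_lt_of_le (norm_pos_iff.2 hcc') ?_
    exact Finset.single_le_sum (f := fun x => ‖F f c x‖) (fun x _ => norm_nonneg _)
      (mem_insert_of_mem (mem_image_of_mem _ hc'))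
  obtain ⟨d0, hd0, hd0K⟩ : ∃ d0 : ℝ, 0 < d0 ∧ ∀ c ∈ Metric.sphere (0 : Fin K → ℂ) 1, d0 ≤ G c := by
    rcases (Metric.sphere (0 : Fin K → ℂ) 1).eq_empty_or_nonempty with he | hne
    · exact ⟨1, one_pos, fun l hl => by rw [he] at hl; exact absurd hl (Set.notMem_empty _)⟩
    · obtain ⟨l0, hl0, hmin⟩ := (isCompact_sphere (0 : Fin K → ℂ) 1).exists_isMinOn hne hGc.continuousOn
      exact ⟨G l0, hGpos l0 hl0, fun l hl => hmin hl⟩
  have hcard : (0 : ℝ) < S.card := by exact_mod_cast hSne.card_pos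
  refine ⟨S, d0 / S.card, by positivity, hSne, fun c => ?_⟩
  by_cases hc : c = 0
  · subst hc
    exact ⟨x0, mem_insert_self _ _, by rw [norm_zero, mul_zero]; exact norm_nonneg _⟩
  · by_contra hcon
    push Not at hcon
    have hcpos : 0 < ‖c‖ := norm_pos_iff.2 hc
    have h3 : G (((‖c‖⁻¹ : ℝ) : ℂ) • c) < d0 := by
      have h4 : ∀ x ∈ S, ‖F f (((‖c‖⁻¹ : ℝ) : ℂ) • c) x‖ < d0 / S.card := by
        intro x hx
        have h5 := hcon x hx
        rw [← F_normalise hc x] at h5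
        exact lt_of_mul_lt_mul_right h5 hcpos.le
      calc G (((‖c‖⁻¹ : ℝ) : ℂ) • c) < ∑ x ∈ S, d0 / S.card := Finset.sum_lt_sum_of_nonempty hSne h4
        _ = d0 := by rw [Finset.sum_const, nsmul_eq_mul]; field_simp
    exact absurd (hd0K _ (normalise_mem hc)) (not_le.2 h3)

/-- for a measurable function with null zero set the sublevel sets are small. -/
theorem exists_small [MeasurableSpace Ω] (μ : Measure Ω) [IsFiniteMeasure μ] {g : Ω → ℂ}
    (hg : Measurable g) (h0 : μ {x | g x = 0} = 0) {ε : ENNReal} (hε : ε ≠ 0) :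
    ∃ t : ℝ, 0 < t ∧ μ {x | ‖g x‖ ≤ 2 * t} < ε := by
  set s : ℕ → Set Ω := fun n => {x | ‖g x‖ ≤ 2 * (1 / ((n : ℝ) + 1))} with hs
  have hmono : Antitone s := by
    intro a b hab x hx
    have hx' : ‖g x‖ ≤ 2 * (1 / ((b : ℝ) + 1)) := hx
    change ‖g x‖ ≤ 2 * (1 / ((a : ℝ) + 1))
    have : (1 : ℝ) / ((b : ℝ) + 1) ≤ 1 / ((a : ℝ) + 1) := by
      refine one_div_le_one_div_of_le (by positivity) ?_
      have : (a : ℝ) ≤ b := by exact_mod_cast hab
      linarith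
    linarith
  have hms : ∀ n, MeasurableSet (s n) := fun n => measurableSet_le hg.norm measurable_const
  have hlim := tendsto_measure_iInter_atTop (μ := μ) (fun n => (hms n).nullMeasurableSet) hmono
    ⟨0, measure_ne_top μ _⟩
  have hinter : ⋂ n, s n = {x | g x = 0} := by
    ext x
    constructor
    · intro hx
      have h1 : ∀ n : ℕ, ‖g x‖ ≤ 2 * (1 / ((n : ℝ) + 1)) := fun n => Set.mem_iInter.1 hx n
      have h2 : ‖g x‖ ≤ 0 := by
        refine ge_of_tendsto' (x := Filter.atTop) ?_ h1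
        have := (tendsto_one_div_add_atTop_nhds_zero_nat (𝕜 := ℝ)).const_mul 2
        simpa using this
      exact norm_le_zero_iff.1 h2
    · intro hx
      refine Set.mem_iInter.2 fun n => ?_
      change ‖g x‖ ≤ _
      rw [(hx : g x = 0), norm_zero]
      positivity
  rw [hinter, h0] at hlim
  have h3 := (hlim.eventually (gt_mem_nhds (pos_iff_ne_zero.2 hε))).exists
  obtain ⟨n, hn⟩ := h3
  exact ⟨1 / ((n : ℝ) + 1), by positivity, hn⟩

/-- REM : a Remez type inequality. -/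
theorem remez [MeasurableSpace Ω] (μ : Measure Ω) [IsFiniteMeasure μ] (f : Fin K → Ω → ℂ)
    {Bd : ℝ} (hBd0 : 0 ≤ Bd) (hf : ∀ k x, ‖f k x‖ ≤ Bd) (hmeas : ∀ k, Measurable (f k))
    (hnull : ∀ c, c ≠ 0 → μ {x | F f c x = 0} = 0) {ε : ENNReal} (hε : ε ≠ 0) :
    ∃ δ : ℝ, 0 < δ ∧ ∀ c, ∀ B : Set Ω, ε ≤ μ B → ∃ x ∈ B, δ * ‖c‖ ≤ ‖F f c x‖ := by
  classical
  have hBne : ∀ B : Set Ω, ε ≤ μ B → B.Nonempty := by
    intro B hB
    by_contra h
    rw [Set.not_nonempty_iff_eq_empty] at h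
    rw [h, measure_empty] at hB
    exact hε (le_antisymm hB bot_le)
  have hFm : ∀ c, Measurable (F f c) := by
    intro c
    unfold F
    exact Finset.measurable_sum _ fun k _ => (hmeas k).const_mul _
  have hS1 : ∀ c ∈ Metric.sphere (0 : Fin K → ℂ) 1, c ≠ 0 := by
    rintro c hc rfl
    simp at hc
  have hex : ∀ c : Fin K → ℂ, ∃ t : ℝ, 0 < t ∧ (c ≠ 0 → μ {x | ‖F f c x‖ ≤ 2 * t} < ε) := by
    intro c
    by_cases hc : c = 0
    · exact ⟨1, one_pos, fun h => absurd hc h⟩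
    · obtain ⟨t, ht, h⟩ := exists_small μ (hFm c) (hnull c hc) hε
      exact ⟨t, ht, fun _ => h⟩
  choose τ hτ hτ2 using hex
  set L : ℝ := K * Bd + 1 with hL
  have hLpos : 0 < L := by positivity
  obtain ⟨t, ht, hcov⟩ := (isCompact_sphere (0 : Fin K → ℂ) 1).elim_nhds_subcover
    (fun c => Metric.ball c (τ c / L)) (fun c _ => Metric.ball_mem_nhds c (div_pos (hτ c) hLpos))
  obtain ⟨δ, hδ, hδt⟩ : ∃ δ : ℝ, 0 < δ ∧ ∀ c ∈ t, δ ≤ τ c := by
    rcases t.eq_empty_or_nonempty with he | hne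
    · exact ⟨1, one_pos, fun c hc => by rw [he] at hc; exact absurd hc (notMem_empty _)⟩
    · obtain ⟨c0, hc0, hmin⟩ := t.exists_min_image τ hne
      exact ⟨τ c0, hτ c0, hmin⟩
  refine ⟨δ, hδ, fun c B hB => ?_⟩
  by_cases hc : c = 0
  · obtain ⟨x, hx⟩ := hBne B hB
    exact ⟨x, hx, by rw [hc, norm_zero, mul_zero]; exact norm_nonneg _⟩
  by_contra hcon
  push Not at hcon
  have hcpos : 0 < ‖c‖ := norm_pos_iff.2 hc
  obtain ⟨c', hc', hcc'⟩ := Set.mem_iUnion₂.1 (hcov (normalise_mem hc))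
  have hc'0 : c' ≠ 0 := hS1 c' (ht c' hc')
  have hsub : B ⊆ {x | ‖F f c' x‖ ≤ 2 * τ c'} := by
    intro x hx
    have h1 := hcon x hx
    rw [← F_normalise hc x] at h1
    have h2 : ‖F f (((‖c‖⁻¹ : ℝ) : ℂ) • c) x‖ < δ := lt_of_mul_lt_mul_right h1 hcpos.le
    have h3 : ‖F f c' x - F f (((‖c‖⁻¹ : ℝ) : ℂ) • c) x‖ ≤ τ c' := by
      rw [← F_sub]
      refine (norm_F_le hf _ x).trans ?_
      have h4 : ‖c' - ((‖c‖⁻¹ : ℝ) : ℂ) • c‖ < τ c' / L := by
        rw [← dist_eq_norm, dist_comm]; exact hcc'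
      have h5 : (K : ℝ) * Bd ≤ L := by rw [hL]; linarith
      calc (K : ℝ) * Bd * ‖c' - ((‖c‖⁻¹ : ℝ) : ℂ) • c‖ ≤ L * (τ c' / L) :=
            mul_le_mul h5 h4.le (norm_nonneg _) hLpos.le
        _ = τ c' := by field_simp
    have h6 : ‖F f c' x‖ ≤ ‖F f (((‖c‖⁻¹ : ℝ) : ℂ) • c) x‖ +
        ‖F f c' x - F f (((‖c‖⁻¹ : ℝ) : ℂ) • c) x‖ := by
      have := norm_add_le (F f (((‖c‖⁻¹ : ℝ) : ℂ) • c) x) (F f c' x - F f (((‖c‖⁻¹ : ℝ) : ℂ) • c) x)
      rwa [add_sub_cancel] at this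
    change ‖F f c' x‖ ≤ 2 * τ c'
    have := hδt c' hc'
    linarith
  exact absurd (hB.trans (measure_mono hsub)) (not_le.2 (hτ2 c' hc'0))

/-- pigeonhole for outer measures -/
theorem exists_big {J : Type*} [Fintype J] [MeasurableSpace Ω] (μ : Measure Ω) {ε : ENNReal}
    (hε : ε ≠ 0) {B : Set Ω} (hB : ε ≤ μ B) (T : J → Set Ω) (hT : B ⊆ ⋃ j, T j) :
    ∃ j, ε / (Fintype.card J + 1) ≤ μ (T j) := by
  by_contra hcon
  push Not at hcon
  by_cases hJ : Nonempty J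
  · have h1 : μ B ≤ ∑ j, μ (T j) := (measure_mono hT).trans (measure_iUnion_fintype_le μ T)
    have hcard : (Fintype.card J : ENNReal) + 1 ≠ 0 := by simp
    have hcard' : (Fintype.card J : ENNReal) + 1 ≠ ⊤ := by simp
    by_cases htop : ε = ⊤
    · have h2 : ∑ j, μ (T j) < ⊤ := by
        refine ENNReal.sum_lt_top.2 fun j _ => ?_
        have := hcon j
        exact lt_of_lt_of_le this le_top
      exact absurd (hB.trans h1) (not_le.2 (htop ▸ h2))
    · have h2 : ∑ j, μ (T j) ≤ ∑ _j : J, ε / (Fintype.card J + 1) :=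
        Finset.sum_le_sum fun j _ => (hcon j).le
      rw [Finset.sum_const, card_univ, nsmul_eq_mul] at h2
      have h3 : (Fintype.card J : ENNReal) * (ε / (Fintype.card J + 1)) < ε := by
        have h4 : ((Fintype.card J : ENNReal) + 1) * (ε / (Fintype.card J + 1)) = ε :=
          ENNReal.mul_div_cancel hcard hcard'
        have h5 : ε / (Fintype.card J + 1) ≠ 0 := by
          rw [Ne, ENNReal.div_eq_zero_iff]; push Not; exact ⟨hε, hcard'⟩
        have h6 : ε / (Fintype.card J + 1) ≠ ⊤ := by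
          rw [Ne, ENNReal.div_eq_top]; push Not
          exact ⟨fun _ => hcard, fun h => absurd h htop⟩
        have h7 : (Fintype.card J : ENNReal) * (ε / (Fintype.card J + 1)) +
            ε / (Fintype.card J + 1) = ε := by
          calc _ = ((Fintype.card J : ENNReal) + 1) * (ε / (Fintype.card J + 1)) := by ring
            _ = ε := h4
        have h8 : (Fintype.card J : ENNReal) * (ε / (Fintype.card J + 1)) ≠ ⊤ :=
          ENNReal.mul_ne_top (ENNReal.natCast_ne_top _) h6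
        calc (Fintype.card J : ENNReal) * (ε / (Fintype.card J + 1))
            < (Fintype.card J : ENNReal) * (ε / (Fintype.card J + 1)) + ε / (Fintype.card J + 1) :=
              ENNReal.lt_add_right h8 h5
          _ = ε := h7
      exact absurd ((hB.trans h1).trans h2) (not_le.2 h3)
  · rw [not_nonempty_iff] at hJ
    have h1 : B = ∅ := by
      have := hT
      rw [Set.iUnion_of_empty] at this
      exact Set.subset_empty_iff.1 this
    rw [h1, measure_empty] at hB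
    exact hε (le_antisymm hB bot_le)

/-- SAMPLE : a fixed finite set of sample points suffices. -/
theorem sample [Nonempty Ω] [MeasurableSpace Ω] (μ : Measure Ω) [IsFiniteMeasure μ]
    (f : Fin K → Ω → ℂ) {Bd : ℝ} (hBd0 : 0 ≤ Bd) (hf : ∀ k x, ‖f k x‖ ≤ Bd)
    (hmeas : ∀ k, Measurable (f k)) (hμ : μ Set.univ ≠ 0)
    (hnull : ∀ c, c ≠ 0 → μ {x | F f c x = 0} = 0) {ε : ENNReal} (hε : ε ≠ 0)
    {J J0 : Type*} [Fintype J] [Fintype J0] [Nonempty J0] {c C : ℝ} (hc : 0 < c) (hC : 0 < C) :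
    ∃ (S : Finset Ω) (c' C' : ℝ), 0 < c' ∧ 0 < C' ∧ S.Nonempty ∧
      ∀ (deg : J → ℕ) (e : J → Fin K → ℂ) (e0 : J0 → Fin K → ℂ) (N : Ω → ℝ) (M : ℝ) (B : Set Ω),
        0 ≤ M → (∀ x, 0 ≤ N x) → (∀ x, ∃ w, c * N x ≤ ‖F f (e0 w) x‖) →
        (∀ x w, ‖F f (e0 w) x‖ ≤ C * N x) →
        (∀ x j, ‖F f (e j) x‖ ≤ C * M ^ deg j * N x) → ε ≤ μ B →
        (∀ x ∈ B, ∃ j, c * M ^ deg j * N x ≤ ‖F f (e j) x‖) →
        (∀ x ∈ S, ∀ j, ∃ w, ‖F f (e j) x‖ ≤ C' * M ^ deg j * ‖F f (e0 w) x‖) ∧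
        (∃ x ∈ S, ∃ j, ∀ x' ∈ S, ∀ w, c' * M ^ deg j * ‖F f (e0 w) x'‖ ≤ ‖F f (e j) x‖) := by
  classical
  have hinj : ∀ c, c ≠ 0 → ∃ x, F f c x ≠ 0 := by
    intro c hc
    by_contra hcon
    push Not at hcon
    have h1 : {x | F f c x = 0} = Set.univ := Set.eq_univ_of_forall hcon
    have h2 := hnull c hc
    rw [h1] at h2
    exact hμ h2
  obtain ⟨S, δ1, hδ1, hS, hS1⟩ := norming f hinj
  have hε' : ε / (Fintype.card J + 1) ≠ 0 := by
    rw [Ne, ENNReal.div_eq_zero_iff]; push Not; exact ⟨hε, by simp⟩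
  obtain ⟨δ, hδ, hδ2⟩ := remez μ f hBd0 hf hmeas hnull hε'
  set L : ℝ := K * Bd + 1 with hL
  have hLpos : 0 < L := by positivity
  have hFL : ∀ c x, ‖F f c x‖ ≤ L * ‖c‖ := by
    intro c x
    refine (norm_F_le hf c x).trans (mul_le_mul_of_nonneg_right ?_ (norm_nonneg _))
    rw [hL]; linarith
  refine ⟨S, δ1 / L * (c * δ / C) / L, C / c, by positivity, by positivity, hS, ?_⟩
  intro deg e e0 N M B hM hN hlow0 hup0 hup hB hlow
  constructor
  · intro x hx j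
    obtain ⟨w, hw⟩ := hlow0 x
    refine ⟨w, (hup x j).trans ?_⟩
    have hMd : 0 ≤ M ^ deg j := pow_nonneg hM _
    calc C * M ^ deg j * N x = C / c * M ^ deg j * (c * N x) := by field_simp
      _ ≤ C / c * M ^ deg j * ‖F f (e0 w) x‖ := mul_le_mul_of_nonneg_left hw (by positivity)
  · obtain ⟨w0, -, hw0⟩ := (univ : Finset J0).exists_max_image (fun w => ‖e0 w‖) univ_nonempty
    obtain ⟨j, hj⟩ := exists_big μ hε hB (fun j => {x ∈ B | c * M ^ deg j * N x ≤ ‖F f (e j) x‖})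
      (fun x hx => by
        obtain ⟨j, hj⟩ := hlow x hx
        exact Set.mem_iUnion.2 ⟨j, hx, hj⟩)
    obtain ⟨x, ⟨hxB, hxj⟩, hxδ⟩ := hδ2 (e0 w0) _ hj
    obtain ⟨x1, hx1, hx1δ⟩ := hS1 (e j)
    refine ⟨x1, hx1, j, fun x' hx' w => ?_⟩
    have hMd : 0 ≤ M ^ deg j := pow_nonneg hM _
    have h1 : ‖F f (e0 w) x'‖ ≤ L * ‖e0 w0‖ :=
      (hFL _ _).trans (mul_le_mul_of_nonneg_left (hw0 w (mem_univ _)) hLpos.le)
    have h2 : δ * ‖e0 w0‖ ≤ C * N x := hxδ.trans (hup0 x w0)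
    have h3 : ‖F f (e j) x‖ ≤ L * ‖e j‖ := hFL _ _
    have h4 : c * δ / C * M ^ deg j * ‖e0 w0‖ ≤ L * ‖e j‖ := by
      calc c * δ / C * M ^ deg j * ‖e0 w0‖ = c / C * M ^ deg j * (δ * ‖e0 w0‖) := by ring
        _ ≤ c / C * M ^ deg j * (C * N x) := mul_le_mul_of_nonneg_left h2 (by positivity)
        _ = c * M ^ deg j * N x := by field_simp
        _ ≤ ‖F f (e j) x‖ := hxj
        _ ≤ L * ‖e j‖ := h3
    calc δ1 / L * (c * δ / C) / L * M ^ deg j * ‖F f (e0 w) x'‖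
        ≤ δ1 / L * (c * δ / C) / L * M ^ deg j * (L * ‖e0 w0‖) :=
          mul_le_mul_of_nonneg_left h1 (by positivity)
      _ = δ1 / L * (c * δ / C * M ^ deg j * ‖e0 w0‖) := by field_simp
      _ ≤ δ1 / L * (L * ‖e j‖) := mul_le_mul_of_nonneg_left h4 (by positivity)
      _ = δ1 * ‖e j‖ := by field_simp
      _ ≤ ‖F f (e j) x1‖ := hx1δ

end Crest.Agent.R273.Remez_619
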