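import Crest.Agent.R273.Map_835
import Crest.Agent.R266.SCV

/-!
# R273 (S0416), torus step (helper155): straightening of a holomorphic retraction

`straight` : a holomorphic germ `R` with `R ∘ R = R` at a fixed point is linear in suitable
holomorphic coordinates.
-/

set_option autoImplicit false
set_option linter.unusedSectionVars false

open Set Filter Topology
open scoped ContDiff

namespace Crest.Agent.R273.Ret_155

section Straight

variable {E : Type*} [NormedAddCommGroup E] [NormedSpace ℂ E] [CompleteSpace E]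

/-- straightening of a holomorphic idempotent germ -/
theorem straight {R : E → E} {z0 : E} {W : Set E} (hW : IsOpen W) (hz0 : z0 ∈ W)
    (hR : AnalyticOnNhd ℂ R W) (hfix : R z0 = z0)
    (hid : ∀ z ∈ W, R (R z) = R z) :
    ∃ (e : OpenPartialHomeomorph E E) (P : E →L[ℂ] E), P.comp P = P ∧ z0 ∈ e.source ∧
      e.source ⊆ W ∧ e z0 = 0 ∧ AnalyticOnNhd ℂ e e.source ∧ AnalyticOnNhd ℂ e.symm e.target ∧
      MapsTo R e.source e.source ∧ (∀ z ∈ e.source, e (R z) = P (e z)) ∧
      P = fderiv ℂ R z0 := by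
  set P : E →L[ℂ] E := fderiv ℂ R z0 with hP
  have hRd : HasFDerivAt R P z0 := (hR z0 hz0).differentiableAt.hasFDerivAt
  have hPP : P.comp P = P := by
    have h1 : HasFDerivAt (fun z => R (R z)) (P.comp P) z0 := by
      have h2 : HasFDerivAt R P (R z0) := by rw [hfix]; exact hRd
      exact h2.comp z0 hRd
    have h3 : (fun z => R (R z)) =ᶠ[𝓝 z0] R := by
      filter_upwards [hW.mem_nhds hz0] with z hz
      exact hid z hz
    have h4 : HasFDerivAt R (P.comp P) z0 := h1.congr_of_eventuallyEq h3.symm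
    exact h4.unique hRd
  set ψ : E → E := fun z => P (R z - z0) + ((z - R z) - P (z - R z)) with hψ
  have hψa : AnalyticOnNhd ℂ ψ W := by
    intro z hz
    have h1 := hR z hz
    have h2 : AnalyticAt ℂ (fun z => P (R z - z0)) z :=
      (P.analyticAt _).comp (h1.sub analyticAt_const)
    have h3 : AnalyticAt ℂ (fun z => z - R z) z := analyticAt_id.sub h1
    have h4 : AnalyticAt ℂ (fun z => P (z - R z)) z := (P.analyticAt _).comp h3
    exact h2.add (h3.sub h4)
  have hψd : HasFDerivAt ψ ((ContinuousLinearEquiv.refl ℂ E : E ≃L[ℂ] E) : E →L[ℂ] E) z0 := by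
    have h1 : HasFDerivAt (fun z => P (R z - z0)) (P.comp P) z0 :=
      P.hasFDerivAt.comp z0 (hRd.sub_const z0)
    have h3 : HasFDerivAt (fun z => z - R z) (ContinuousLinearMap.id ℂ E - P) z0 :=
      (hasFDerivAt_id z0).sub hRd
    have h4 : HasFDerivAt (fun z => P (z - R z)) (P.comp (ContinuousLinearMap.id ℂ E - P)) z0 :=
      P.hasFDerivAt.comp z0 h3
    have h5 := h1.add (h3.sub h4)
    have h6 : P.comp P + (ContinuousLinearMap.id ℂ E - P -
        P.comp (ContinuousLinearMap.id ℂ E - P)) =
        ((ContinuousLinearEquiv.refl ℂ E : E ≃L[ℂ] E) : E →L[ℂ] E) := by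
      rw [ContinuousLinearMap.comp_sub, hPP]
      ext v
      simp
    rw [← h6]
    exact h5
  obtain ⟨e, he0, heW, hef, hea, hes⟩ :=
    Crest.Agent.R266.SCV.exists_analytic_openPartialHomeomorph (hψa z0 hz0)
      (ContinuousLinearEquiv.refl ℂ E) hψd (hW.mem_nhds hz0)
  have hPψ : ∀ z, R (R z) = R z → ψ (R z) = P (ψ z) := by
    intro z hz
    have h7 : ∀ v, P (P v) = P v := fun v => by
      have := congrArg (fun T : E →L[ℂ] E => T v) hPP
      simpa using this
    simp only [hψ, hz, sub_self, add_zero, map_add, map_sub, h7]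
  -- shrink so that `R` maps the source to itself
  have hopen : IsOpen (e.source ∩ R ⁻¹' e.source) := by
    have hc : ContinuousOn R e.source := fun z hz =>
      ((hR z (heW hz)).continuousAt).continuousWithinAt
    exact hc.isOpen_inter_preimage e.open_source e.open_source
  let e' := e.restrOpen (e.source ∩ R ⁻¹' e.source) hopen
  have hsrc : e'.source = e.source ∩ R ⁻¹' e.source := by
    show (e.restrOpen _ hopen).source = _
    rw [OpenPartialHomeomorph.restrOpen_source]
    ext z
    simp only [mem_inter_iff, mem_preimage]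
    tauto
  refine ⟨e', P, hPP, ?_, ?_, ?_, ?_, ?_, ?_, ?_, rfl⟩
  · rw [hsrc]
    exact ⟨he0, by rw [mem_preimage, hfix]; exact he0⟩
  · rw [hsrc]
    exact fun z hz => heW hz.1
  · show e z0 = 0
    rw [hef]
    simp [hψ, hfix]
  · intro z hz
    rw [hsrc] at hz
    exact hea z hz.1
  · intro z hz
    have h8 : z ∈ e.target := by
      have : e'.target ⊆ e.target := by
        intro w hw
        have h9 := e'.map_target hw
        rw [hsrc] at h9
        have h10 : e (e'.symm w) = w := e'.right_inv hw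
        rw [← h10]
        exact e.map_source h9.1
      exact this hz
    exact hes z h8
  · intro z hz
    rw [hsrc] at hz ⊢
    refine ⟨hz.2, ?_⟩
    rw [mem_preimage, hid z (heW hz.1)]
    exact hz.2
  · intro z hz
    rw [hsrc] at hz
    show e (R z) = P (e z)
    rw [hef, hef]
    exact hPψ z (hid z (heW hz.1))

end Straight

/-- linear coordinates on the range of a projection -/
theorem exists_coord {n : ℕ} (P : EuclideanSpace ℂ (Fin n) →L[ℂ] EuclideanSpace ℂ (Fin n))
    (hP : P.comp P = P) :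
    ∃ (d : ℕ) (L : EuclideanSpace ℂ (Fin n) →L[ℂ] EuclideanSpace ℂ (Fin d))
      (K : EuclideanSpace ℂ (Fin d) →L[ℂ] EuclideanSpace ℂ (Fin n)),
      L.comp K = ContinuousLinearMap.id ℂ _ ∧ K.comp L = P := by
  have h7 : ∀ v, P (P v) = P v := fun v => by
    have := congrArg (fun T : EuclideanSpace ℂ (Fin n) →L[ℂ] EuclideanSpace ℂ (Fin n) => T v) hP
    simpa using this
  let V : Submodule ℂ (EuclideanSpace ℂ (Fin n)) := LinearMap.range (P : EuclideanSpace ℂ (Fin n) →ₗ[ℂ] EuclideanSpace ℂ (Fin n))
  let d := Module.finrank ℂ V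
  have hd : Module.finrank ℂ V = Module.finrank ℂ (EuclideanSpace ℂ (Fin d)) := by
    rw [finrank_euclideanSpace_fin]
  let T : V ≃L[ℂ] EuclideanSpace ℂ (Fin d) := ContinuousLinearEquiv.ofFinrankEq hd
  have hmem : ∀ v, P v ∈ V := fun v => ⟨v, rfl⟩
  let Q : EuclideanSpace ℂ (Fin n) →L[ℂ] V := P.codRestrict V hmem
  refine ⟨d, (T : V →L[ℂ] EuclideanSpace ℂ (Fin d)).comp Q,
    V.subtypeL.comp (T.symm : EuclideanSpace ℂ (Fin d) →L[ℂ] V), ?_, ?_⟩
  · ext1 w
    show T (Q (T.symm w : EuclideanSpace ℂ (Fin n))) = w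
    have h8 : Q (T.symm w : EuclideanSpace ℂ (Fin n)) = T.symm w := by
      apply Subtype.ext
      show P (T.symm w : EuclideanSpace ℂ (Fin n)) = _
      obtain ⟨v, hv⟩ := (T.symm w).2
      rw [← hv]
      exact h7 v
    rw [h8, T.apply_symm_apply]
  · ext1 v
    show ((T.symm (T (Q v)) : V) : EuclideanSpace ℂ (Fin n)) = P v
    rw [T.symm_apply_apply]
    rfl

end Crest.Agent.R273.Ret_155
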