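import Crest.Agent.R273.RetA_155

/-!
# R273 (S0416), torus step (helper155): adapted charts of a subset of a complex manifold

`Adp A F d`  : an adapted chart of `F ⊆ M` : a chart `φ` of `M` (holomorphically compatible with
               `A`) and linear maps `L : Cn n → Cn d`, `K : Cn d → Cn n`, `L ∘ K = 1`, with
               `x ∈ F ↔ K (L (φ x)) = φ x` on the domain of `φ`;
`Adp.ch`     : the induced chart of the subtype `F`;
`Adp.holo`   : the changes of charts are holomorphic;
`Adp.dim_eq` : the dimension is well defined;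
`csp`, `isManifold_csp` : the complex manifold `F`.
-/

set_option autoImplicit false
set_option linter.unusedSectionVars false

open Set Filter Topology
open scoped ContDiff Manifold

namespace Crest.Agent.R273.Ret_155

open Crest.Agent.R275.Geo Crest.Agent.R275.Core144 Crest.Agent.R273.Map_835

noncomputable section

variable {n : ℕ} {M : Type} [TopologicalSpace M] {A : Atl n M} {F : Set M} {d d' : ℕ}

/-- an adapted chart of the subset `F` of `M` -/
structure Adp (A : Atl n M) (F : Set M) (d : ℕ) where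
  φ : OpenPartialHomeomorph M (Cn n)
  hol : ∀ i, DifferentiableOn ℂ (fun z => φ ((A.e i).symm z))
    ((A.e i).target ∩ (A.e i).symm ⁻¹' φ.source)
  hol' : ∀ i, DifferentiableOn ℂ (fun w => A.e i (φ.symm w))
    (φ.target ∩ φ.symm ⁻¹' (A.e i).source)
  L : Cn n →L[ℂ] Cn d
  K : Cn d →L[ℂ] Cn n
  LK : ∀ w, L (K w) = w
  mem_iff : ∀ x ∈ φ.source, x ∈ F ↔ K (L (φ x)) = φ x

namespace Adp

/-- change between two adapted charts of `M` -/
theorem hol_trans (a : Adp A F d) (b : Adp A F d') :
    DifferentiableOn ℂ (fun w => b.φ (a.φ.symm w)) (a.φ.target ∩ a.φ.symm ⁻¹' b.φ.source) := by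
  intro w hw
  obtain ⟨i, hi⟩ := A.cover (a.φ.symm w)
  have h1 : DifferentiableAt ℂ (fun w => A.e i (a.φ.symm w)) w := by
    refine (a.hol' i).differentiableAt ?_
    exact (a.φ.isOpen_inter_preimage_symm (A.e i).open_source).mem_nhds ⟨hw.1, hi⟩
  have h2 : DifferentiableAt ℂ (fun z => b.φ ((A.e i).symm z)) (A.e i (a.φ.symm w)) := by
    refine (b.hol i).differentiableAt ?_
    refine ((A.e i).isOpen_inter_preimage_symm b.φ.open_source).mem_nhds ?_
    refine ⟨(A.e i).map_source hi, ?_⟩
    rw [mem_preimage, (A.e i).left_inv hi]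
    exact hw.2
  have h3 : DifferentiableAt ℂ ((fun z => b.φ ((A.e i).symm z)) ∘
      (fun w => A.e i (a.φ.symm w))) w := h2.comp w h1
  refine (h3.congr_of_eventuallyEq ?_).differentiableWithinAt
  filter_upwards [(a.φ.isOpen_inter_preimage_symm (A.e i).open_source).mem_nhds ⟨hw.1, hi⟩]
    with v hv
  simp only [Function.comp]
  rw [(A.e i).left_inv hv.2]

open Classical in
/-- the inverse of the induced chart -/
def inv (a : Adp A F d) (p : F) (w : Cn d) : F :=
  if h : a.φ.symm (a.K w) ∈ F then ⟨_, h⟩ else p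

theorem inv_mem (a : Adp A F d) {w : Cn d} (hw : a.K w ∈ a.φ.target) :
    a.φ.symm (a.K w) ∈ F := by
  rw [a.mem_iff _ (a.φ.map_target hw), a.φ.right_inv hw, a.LK]

theorem inv_val (a : Adp A F d) (p : F) {w : Cn d} (hw : a.K w ∈ a.φ.target) :
    ((a.inv p w : F) : M) = a.φ.symm (a.K w) := by
  unfold inv
  rw [dif_pos (a.inv_mem hw)]

/-- the induced chart of `F` -/
def ch (a : Adp A F d) (p : F) : OpenPartialHomeomorph F (Cn d) where
  toFun x := a.L (a.φ x)
  invFun := a.inv p
  source := {x | (x : M) ∈ a.φ.source}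
  target := {w | a.K w ∈ a.φ.target}
  map_source' := by
    intro x hx
    show a.K (a.L (a.φ x)) ∈ a.φ.target
    rw [(a.mem_iff x hx).1 x.2]
    exact a.φ.map_source hx
  map_target' := by
    intro w hw
    show ((a.inv p w : F) : M) ∈ a.φ.source
    rw [a.inv_val p hw]
    exact a.φ.map_target hw
  left_inv' := by
    intro x hx
    apply Subtype.ext
    have h1 : a.K (a.L (a.φ x)) = a.φ x := (a.mem_iff x hx).1 x.2
    rw [a.inv_val p (by rw [h1]; exact a.φ.map_source hx), h1]
    exact a.φ.left_inv hx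
  right_inv' := by
    intro w hw
    show a.L (a.φ ((a.inv p w : F) : M)) = w
    rw [a.inv_val p hw, a.φ.right_inv hw, a.LK]
  open_source := a.φ.open_source.preimage continuous_subtype_val
  open_target := a.φ.open_target.preimage a.K.continuous
  continuousOn_toFun := by
    refine a.L.continuous.comp_continuousOn ?_
    exact a.φ.continuousOn.comp continuous_subtype_val.continuousOn (fun x hx => hx)
  continuousOn_invFun := by
    rw [Topology.IsInducing.subtypeVal.continuousOn_iff]
    have h1 : ContinuousOn (fun w => a.φ.symm (a.K w)) {w | a.K w ∈ a.φ.target} :=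
      a.φ.symm.continuousOn.comp a.K.continuous.continuousOn (fun w hw => hw)
    refine h1.congr fun w hw => ?_
    exact a.inv_val p hw

@[simp] theorem ch_apply (a : Adp A F d) (p : F) (x : F) : a.ch p x = a.L (a.φ x) := rfl

theorem mem_ch_source (a : Adp A F d) (p : F) {x : F} :
    x ∈ (a.ch p).source ↔ (x : M) ∈ a.φ.source := Iff.rfl

theorem mem_ch_target (a : Adp A F d) (p : F) {w : Cn d} :
    w ∈ (a.ch p).target ↔ a.K w ∈ a.φ.target := Iff.rfl

theorem ch_symm_val (a : Adp A F d) (p : F) {w : Cn d} (hw : w ∈ (a.ch p).target) :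
    (((a.ch p).symm w : F) : M) = a.φ.symm (a.K w) := a.inv_val p hw

/-- the changes of charts are holomorphic -/
theorem holo (a : Adp A F d) (b : Adp A F d') (p q : F) :
    DifferentiableOn ℂ (fun w => b.ch q ((a.ch p).symm w))
      ((a.ch p).target ∩ (a.ch p).symm ⁻¹' (b.ch q).source) := by
  have h1 : DifferentiableOn ℂ (fun w => b.L (b.φ (a.φ.symm (a.K w))))
      ((a.ch p).target ∩ (a.ch p).symm ⁻¹' (b.ch q).source) := by
    refine b.L.differentiable.comp_differentiableOn ?_
    refine DifferentiableOn.comp (g := fun v => b.φ (a.φ.symm v)) (f := fun w => a.K w)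
      (a.hol_trans b) a.K.differentiable.differentiableOn ?_
    rintro w ⟨hw, hw'⟩
    refine ⟨hw, ?_⟩
    have h2 := a.ch_symm_val p hw
    rw [mem_preimage, mem_ch_source] at hw'
    rw [h2] at hw'
    exact hw'
  refine h1.congr ?_
  rintro w ⟨hw, hw'⟩
  show b.L (b.φ (((a.ch p).symm w : F) : M)) = _
  rw [a.ch_symm_val p hw]

/-- the dimension is well defined -/
theorem dim_eq (a : Adp A F d) (b : Adp A F d') {x : M} (hx : x ∈ F) (ha : x ∈ a.φ.source)
    (hb : x ∈ b.φ.source) : d = d' := by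
  set p : F := ⟨x, hx⟩ with hp
  -- the two changes of charts
  set T : Cn d → Cn d' := fun w => b.ch p ((a.ch p).symm w) with hT
  set S : Cn d' → Cn d := fun w => a.ch p ((b.ch p).symm w) with hS
  set w0 : Cn d := a.ch p p with hw0
  have ha' : p ∈ (a.ch p).source := ha
  have hb' : p ∈ (b.ch p).source := hb
  have hsym : (a.ch p).symm w0 = p := (a.ch p).left_inv ha'
  have hTw : T w0 = b.ch p p := by
    simp only [hT, hsym]
  have hsym' : (b.ch p).symm (b.ch p p) = p := (b.ch p).left_inv hb'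
  have o1 : (a.ch p).target ∩ (a.ch p).symm ⁻¹' (b.ch p).source ∈ 𝓝 w0 := by
    refine ((a.ch p).isOpen_inter_preimage_symm (b.ch p).open_source).mem_nhds ?_
    exact ⟨(a.ch p).map_source ha', by rw [mem_preimage, hsym]; exact hb'⟩
  have o2 : (b.ch p).target ∩ (b.ch p).symm ⁻¹' (a.ch p).source ∈ 𝓝 (T w0) := by
    refine ((b.ch p).isOpen_inter_preimage_symm (a.ch p).open_source).mem_nhds ?_
    rw [hTw]
    exact ⟨(b.ch p).map_source hb', by rw [mem_preimage, hsym']; exact ha'⟩
  have dT : HasFDerivAt T (fderiv ℂ T w0) w0 :=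
    ((a.holo b p p).differentiableAt o1).hasFDerivAt
  have dS : HasFDerivAt S (fderiv ℂ S (T w0)) (T w0) :=
    ((b.holo a p p).differentiableAt o2).hasFDerivAt
  have hST : (S ∘ T) =ᶠ[𝓝 w0] id := by
    filter_upwards [o1] with w hw
    simp only [Function.comp, hS, hT, id]
    rw [(b.ch p).left_inv hw.2, (a.ch p).right_inv hw.1]
  have hST0 : S (T w0) = w0 := hST.self_of_nhds
  have hTS : (T ∘ S) =ᶠ[𝓝 (T w0)] id := by
    filter_upwards [o2] with w hw
    simp only [Function.comp, hS, hT, id]
    rw [(a.ch p).left_inv hw.2, (b.ch p).right_inv hw.1]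
  have e1 : (fderiv ℂ S (T w0)).comp (fderiv ℂ T w0) = ContinuousLinearMap.id ℂ _ := by
    have h1 : HasFDerivAt (S ∘ T) ((fderiv ℂ S (T w0)).comp (fderiv ℂ T w0)) w0 := dS.comp w0 dT
    have h2 : HasFDerivAt (S ∘ T) (ContinuousLinearMap.id ℂ _) w0 :=
      (hasFDerivAt_id w0).congr_of_eventuallyEq hST
    exact h1.unique h2
  have e2 : (fderiv ℂ T w0).comp (fderiv ℂ S (T w0)) = ContinuousLinearMap.id ℂ _ := by
    have h0 : HasFDerivAt T (fderiv ℂ T w0) (S (T w0)) := by rw [hST0]; exact dT
    have h1 : HasFDerivAt (T ∘ S) ((fderiv ℂ T w0).comp (fderiv ℂ S (T w0))) (T w0) :=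
      h0.comp (T w0) dS
    have h2 : HasFDerivAt (T ∘ S) (ContinuousLinearMap.id ℂ _) (T w0) :=
      (hasFDerivAt_id (T w0)).congr_of_eventuallyEq hTS
    exact h1.unique h2
  let eq : Cn d ≃ₗ[ℂ] Cn d' :=
    LinearEquiv.ofLinearMap (fderiv ℂ T w0 : Cn d →ₗ[ℂ] Cn d')
      (fderiv ℂ S (T w0) : Cn d' →ₗ[ℂ] Cn d)
      (by
        ext1 v
        exact congrArg (fun R : Cn d' →L[ℂ] Cn d' => R v) e2)
      (by
        ext1 v
        exact congrArg (fun R : Cn d →L[ℂ] Cn d => R v) e1)
  have h := eq.finrank_eq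
  rwa [finrank_euclideanSpace_fin, finrank_euclideanSpace_fin] at h

end Adp

/-- a family of adapted charts, one around each point of `F` -/
structure Fam (A : Atl n M) (F : Set M) (d : ℕ) where
  a : F → Adp A F d
  mem : ∀ x : F, (x : M) ∈ (a x).φ.source

/-- the charted space `F` -/
@[reducible] def Fam.csp (G : Fam A F d) : ChartedSpace (Cn d) F where
  atlas := range fun x => (G.a x).ch x
  chartAt x := (G.a x).ch x
  mem_chart_source x := G.mem x
  chart_mem_atlas x := ⟨x, rfl⟩

theorem Fam.isManifold (G : Fam A F d) :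
    @IsManifold ℂ _ (Cn d) _ _ (Cn d) _ 𝓘(ℂ, Cn d) 1 F _ G.csp := by
  let _ := G.csp
  apply isManifold_of_contDiffOn
  rintro e e' ⟨x, rfl⟩ ⟨y, rfl⟩
  simp only [modelWithCornersSelf_coe, modelWithCornersSelf_coe_symm, Function.id_comp,
    Function.comp_id, range_id, inter_univ, preimage_id_eq, id]
  have ho : IsOpen (((G.a x).ch x).symm ≫ₕ ((G.a y).ch y)).source :=
    (((G.a x).ch x).symm ≫ₕ ((G.a y).ch y)).open_source
  have h1 : DifferentiableOn ℂ (((G.a x).ch x).symm ≫ₕ ((G.a y).ch y))
      (((G.a x).ch x).symm ≫ₕ ((G.a y).ch y)).source := by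
    refine DifferentiableOn.mono ((G.a x).holo (G.a y) x y) ?_
    intro w hw
    rw [OpenPartialHomeomorph.trans_source] at hw
    exact hw
  exact (Crest.Agent.R266.SCV.analyticOnNhd_of_differentiableOn ho h1).contDiffOn
    (ho.uniqueDiffOn)

end

end Crest.Agent.R273.Ret_155
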