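import Crest.Agent.R273.RetD_155
import Crest.Agent.R273.PullF_155
import Crest.Agent.R273.Kah_333

/-!
# R273 (S0416), torus step (helper155): restriction to the fixed locus, pull-back by the retraction

For `S : FAtl R` (`F = R.F`, inclusion `Subtype.val : F → M`, retraction `rho R p : U → F`):
`FAtl.refV`, `res L`, `resPB L`, `resHM`, `projD`: restriction of line bundles, metrics, `ProjD`;
`FAtl.holOn_rho` : the retraction is `HolOn A S.B R.U`;
`Eps R L`        : an isomorphism of `L|_U` with `r^* L`, the identity on `F`;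
`Eps.pbu`, `Eps.pow`;
`FAtl.rs k`      : restriction of forms `BN (L^k) → BN ((res L)^k)`;
`FAtl.up k`      : pull-back of forms `BN ((res L)^k) → BN (L^k)` over `U`;
`FAtl.rs_up`     : `rs (χ • up u) = u` if `χ = 1` on `F`.
-/

set_option autoImplicit false
set_option linter.unusedSectionVars false

open Set Filter Topology
open scoped ContDiff Manifold Matrix ComplexConjugate Kronecker

namespace Crest.Agent.R273.Ret_155

open Crest.Agent.R275.Geo Crest.Agent.R275.Core144 Crest.Agent.R273.Map_835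
open Crest.Agent.R273.PB_835 Crest.Agent.R273.FPB_155 Crest.Agent.R273.PullF_155
open Crest.Agent.R273.GamR_155 Crest.Agent.R273.Fock_243 Crest.Agent.R273.LamN127
open Crest.Agent.R273.Defs_333

noncomputable section

variable {n : ℕ} {M : Type} [TopologicalSpace M] {A : Atl n M}

namespace FAtl

variable {R : HRet A} (S : FAtl R)

/-! ### restriction of bundles -/

/-- every chart of `F` lies in a chart of `M` -/
def refV : Ref S.B A (Subtype.val : R.F → M) where
  r i := (S.cmp i).dom.choose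
  sub i x hx := (S.cmp i).dom.choose_spec (S.sub i x hx)

/-- restriction of a line bundle to `F` -/
def res (L : LB A) : LB S.B := pullLB S.holMap_val S.refV L

theorem res_g (L : LB A) {i j : S.B.ι} {x : R.F} (hx : x ∈ (S.B.e i).source ∩ (S.B.e j).source) :
    (S.res L).g i j x = L.g (S.refV.r i) (S.refV.r j) x := pullLB_g S.holMap_val S.refV L hx

theorem res_one : S.res 1 = 1 := by
  ext i j x
  by_cases hx : x ∈ (S.B.e i).source ∩ (S.B.e j).source
  · rw [S.res_g 1 hx]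
    rfl
  · rw [(S.res 1).off i j x hx, (1 : LB S.B).off i j x hx]

theorem res_mul (L L' : LB A) : S.res (L * L') = S.res L * S.res L' := by
  ext i j x
  by_cases hx : x ∈ (S.B.e i).source ∩ (S.B.e j).source
  · rw [S.res_g _ hx, LB.mul_g, LB.mul_g, S.res_g _ hx, S.res_g _ hx]
  · rw [(S.res _).off i j x hx, (_ * _ : LB S.B).off i j x hx]

/-- restriction of line bundles as a homomorphism -/
def resH : LB A →* LB S.B where
  toFun := S.res
  map_one' := S.res_one
  map_mul' := S.res_mul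

theorem res_pow (L : LB A) (k : ℕ) : S.res (L ^ k) = S.res L ^ k := map_pow S.resH L k

theorem res_inv (L : LB A) : S.res L⁻¹ = (S.res L)⁻¹ := map_inv S.resH L

/-- the restriction is the pull-back by the inclusion -/
def resPB (L : LB A) : PB (Subtype.val : R.F → M) (S.res L) L := PB.ref S.holMap_val S.refV L

@[simp] theorem resPB_c (L : LB A) (i : S.B.ι) (j : A.ι) (x : R.F) :
    (S.resPB L).c i j x = L.g (S.refV.r i) j x := rfl

theorem imm' (i : S.B.ι) (j : A.ι) (z : Cn S.d) (hz : z ∈ dm S.B A Subtype.val i j) :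
    Function.Injective (fderiv ℂ (rd S.B A (Subtype.val : R.F → M) i j) z) := by
  have h := S.imm ((S.B.e i).map_target hz.1) hz.2
  rwa [(S.B.e i).right_inv hz.1] at h

/-- restriction of the homogeneous coordinates -/
def projD (P : ProjD A) : ProjD S.B :=
  pullProjD S.holMap_val S.refV Subtype.val_injective S.imm' P

theorem projD_N (P : ProjD A) : (S.projD P).N = P.N := rfl

theorem projD_F (P : ProjD A) (i : S.B.ι) (x : R.F) (k : Fin (P.N + 1)) :
    (S.projD P).F i x k = P.F (S.refV.r i) x k := rfl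

/-- restriction of metrics -/
def resHM {L : LB A} (h : HM L) : HM (S.res L) := (S.resPB L).pullHM S.holMap_val h

theorem resHM_w {L : LB A} (h : HM L) {i : S.B.ι} {j : A.ι} {x : R.F}
    (hi : x ∈ (S.B.e i).source) (hj : (x : M) ∈ (A.e j).source) :
    (S.resHM h).w i x = h.w j x / ‖L.g (S.refV.r i) j x‖ ^ 2 :=
  (S.resPB L).pullHM_w S.holMap_val h hi hj

theorem resHM_w' {L : LB A} (h : HM L) {i : S.B.ι} {x : R.F}
    (hi : x ∈ (S.B.e i).source) : (S.resHM h).w i x = h.w (S.refV.r i) x := by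
  rw [S.resHM_w h hi (S.refV.sub i x hi), L.self]
  simp

theorem resHM_pos {L : LB A} {h : HM L} (hs : h.Pos) : (S.resHM h).Pos :=
  (S.resPB L).pullHM_pos S.holMap_val hs S.imm'

theorem resHM_semipos {L : LB A} {h : HM L} (hs : h.Semipos) : (S.resHM h).Semipos :=
  (S.resPB L).pullHM_semipos S.holMap_val hs

/-! ### the retraction -/

/-- the retraction is holomorphic -/
theorem holOn_rho (p : R.F) : HolOn A S.B R.U (rho R p) where
  op := R.isOpen_U
  cont := continuousOn_rho p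
  hol i j := S.hol_rho p i j

/-- the Jacobian of the retraction composed with the Jacobian of the inclusion -/
theorem Jpb_comp_self (p : R.F) {i i' : S.B.ι} {j : A.ι} {x : R.F} (hi : x ∈ (S.B.e i).source)
    (hi' : x ∈ (S.B.e i').source) (hj : (x : M) ∈ (A.e j).source) :
    Jpb S.B A (Subtype.val : R.F → M) i j x * Jpb A S.B (rho R p) j i' (x : M) =
      Jb S.B i i' x := by
  have h1 : HolOn S.B A univ (Subtype.val : R.F → M) := HolOn.of_holMap S.holMap_val isOpen_univ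
  have h1' : HolOn S.B A (Subtype.val ⁻¹' R.U) (Subtype.val : R.F → M) :=
    h1.mono (R.isOpen_U.preimage continuous_subtype_val) (subset_univ _)
  rw [(S.holOn_rho p).Jpb_comp h1' (fun _ h => h) hi x.2.1 hj
    (by rw [rho_of_mem]; exact hi')]
  have h2 : (fun y : R.F => rho R p (y : M)) = id := by
    funext y
    exact rho_of_mem p y
  rw [h2]
  rfl

end FAtl

/-! ### comparison of `L|_U` and `r^* L` -/

/-- an isomorphism of `L|_U` with `r^* L`, equal to the identity on `F`;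
`e i j x`: chart `i` at `x`, chart `j` at `r x` -/
structure Eps (R : HRet A) (L : LB A) where
  e : A.ι → A.ι → M → ℂ
  hol : ∀ i j, HolAt A i (R.U ∩ R.r ⁻¹' (A.e j).source) (e i j)
  ne : ∀ i j, ∀ x ∈ (A.e i).source, x ∈ R.U → R.r x ∈ (A.e j).source → e i j x ≠ 0
  left : ∀ i i' j, ∀ x ∈ (A.e i).source ∩ (A.e i').source, x ∈ R.U → R.r x ∈ (A.e j).source →
    L.g i i' x * e i' j x = e i j x
  right : ∀ i j j', ∀ x ∈ (A.e i).source, x ∈ R.U → R.r x ∈ (A.e j).source ∩ (A.e j').source →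
    e i j x * L.g j j' (R.r x) = e i j' x
  onF : ∀ i j, ∀ x ∈ (A.e i).source ∩ (A.e j).source, x ∈ R.F → e i j x = L.g i j x

namespace Eps

variable {R : HRet A} {L L' : LB A}

/-- trivial bundle -/
def one (R : HRet A) : Eps R (1 : LB A) where
  e _ _ _ := 1
  hol _ _ := holAt_const 1
  ne _ _ _ _ _ _ := one_ne_zero
  left _ _ _ _ _ _ _ := one_mul 1
  right _ _ _ _ _ _ _ := one_mul 1
  onF _ _ _ _ _ := rfl

def mul (E : Eps R L) (E' : Eps R L') : Eps R (L * L') where
  e i j x := E.e i j x * E'.e i j x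
  hol i j := (E.hol i j).mul (E'.hol i j)
  ne i j x hx hU hj := mul_ne_zero (E.ne i j x hx hU hj) (E'.ne i j x hx hU hj)
  left i i' j x hx hU hj := by
    rw [← E.left i i' j x hx hU hj, ← E'.left i i' j x hx hU hj, LB.mul_g]; ring
  right i j j' x hx hU hj := by
    rw [← E.right i j j' x hx hU hj, ← E'.right i j j' x hx hU hj, LB.mul_g]; ring
  onF i j x hx hF := by rw [E.onF i j x hx hF, E'.onF i j x hx hF, LB.mul_g]

def pow (E : Eps R L) (k : ℕ) : Eps R (L ^ k) where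
  e i j x := E.e i j x ^ k
  hol i j := (E.hol i j).pow k
  ne i j x hx hU hj := pow_ne_zero k (E.ne i j x hx hU hj)
  left i i' j x hx hU hj := by
    rw [← E.left i i' j x hx hU hj, Crest.Agent.R273.HM_333.LB_pow_g, mul_pow]
  right i j j' x hx hU hj := by
    rw [← E.right i j j' x hx hU hj, Crest.Agent.R273.HM_333.LB_pow_g, mul_pow]
  onF i j x hx hF := by rw [E.onF i j x hx hF, Crest.Agent.R273.HM_333.LB_pow_g]

@[simp] theorem pow_e (E : Eps R L) (k : ℕ) (i j : A.ι) (x : M) :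
    (E.pow k).e i j x = E.e i j x ^ k := rfl

def inv (E : Eps R L) : Eps R L⁻¹ where
  e i j x := (E.e i j x)⁻¹
  hol i j := (E.hol i j).inv fun x hx hU => E.ne i j x hx hU.1 hU.2
  ne i j x hx hU hj := inv_ne_zero (E.ne i j x hx hU hj)
  left i i' j x hx hU hj := by
    rw [← E.left i i' j x hx hU hj, LB.inv_g, mul_inv]
  right i j j' x hx hU hj := by
    rw [← E.right i j j' x hx hU hj, LB.inv_g, mul_inv]
  onF i j x hx hF := by rw [E.onF i j x hx hF, LB.inv_g]

/-- the comparison as a `PBU` -/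
def pbu (E : Eps R L) (S : FAtl R) (p : R.F) : PBU R.U (FAtl.rho R p) L (S.res L) where
  c i j x := E.e i (S.refV.r j) x
  hol i j := by
    refine (E.hol i (S.refV.r j)).mono fun x hx => ⟨hx.1, ?_⟩
    have h := S.refV.sub j _ hx.2
    rwa [FAtl.rho_val p hx.1] at h
  ne i j x hx hU hj := by
    have h := S.refV.sub j _ hj
    rw [FAtl.rho_val p hU] at h
    exact E.ne i _ x hx hU h
  left i i' j x hx hU hj := by
    have h := S.refV.sub j _ hj
    rw [FAtl.rho_val p hU] at h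
    exact E.left i i' _ x hx hU h
  right i j j' x hx hU hj := by
    have h1 := S.refV.sub j _ hj.1
    have h2 := S.refV.sub j' _ hj.2
    rw [FAtl.rho_val p hU] at h1 h2
    rw [S.res_g L hj, FAtl.rho_val p hU]
    exact E.right i _ _ x hx hU ⟨h1, h2⟩

@[simp] theorem pbu_c (E : Eps R L) (S : FAtl R) (p : R.F) (i : A.ι) (j : S.B.ι) (x : M) :
    (E.pbu S p).c i j x = E.e i (S.refV.r j) x := rfl

end Eps

/-! ### forms -/

namespace FAtl

variable {R : HRet A} (S : FAtl R) {L : LB A}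

/-- restriction of forms (comparison data) -/
def rsT (L : LB A) (k : ℕ) :
    FPB univ (Subtype.val : R.F → M) (BN (S.res L ^ k)) (BN (L ^ k)) :=
  bnPB (HolOn.of_holMap S.holMap_val isOpen_univ) ((PBU.of_PB (S.resPB L) univ).pow k)

/-- restriction of forms to `F` -/
def rs (L : LB A) (k : ℕ) : Sec (BN (L ^ k)) →ₗ[ℂ] Sec (BN (S.res L ^ k)) :=
  (S.rsT L k).pullL S.holMap_val

theorem rs_nab (k : ℕ) (u : Sec (BN (L ^ k))) :
    nabL (BN (S.res L ^ k)) (S.rs L k u) = S.rs L k (nabL (BN (L ^ k)) u) :=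
  (S.rsT L k).nabL_pullL S.holMap_val u

theorem rs_isDeg (k : ℕ) {d : ℕ} {u : Sec (BN (L ^ k))} (hu : IsDeg (BN (L ^ k)) d u.1) :
    IsDeg (BN (S.res L ^ k)) d (S.rs L k u).1 :=
  (S.rsT L k).pull_isDeg hu

theorem rs_eq (k : ℕ) (u : Sec (BN (L ^ k))) {i : S.B.ι} {j : A.ι} {x : R.F}
    (hi : x ∈ (S.B.e i).source) (hj : (x : M) ∈ (A.e j).source) :
    (S.rs L k u).1 i x = (S.rsT L k).T i j x *ᵥ u.1 j (x : M) :=
  (S.rsT L k).pull_eqG u.2 hi hj

/-- pull-back of forms by the retraction (comparison data) -/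
def upT (E : Eps R L) (p : R.F) (k : ℕ) :
    FPB R.U (rho R p) (BN (L ^ k)) (BN (S.res L ^ k)) :=
  bnPB (S.holOn_rho p) ((E.pbu S p).pow k)

/-- pull-back of forms by the retraction -/
def up (E : Eps R L) (p : R.F) (k : ℕ) (u : Sec (BN (S.res L ^ k))) :
    A.ι → M → (BN (L ^ k)).κ → ℂ := (S.upT E p k).pull u.1

theorem up_mem (E : Eps R L) (p : R.F) (k : ℕ) (u : Sec (BN (S.res L ^ k))) :
    S.up E p k u ∈ SecOn (BN (L ^ k)) R.U := by
  refine (S.upT E p k).pull_mem (V := univ) (S.holOn_rho p) (fun _ _ => mem_univ _) ?_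
  rw [SecOn_univ]
  exact u.2

theorem up_eq (E : Eps R L) (p : R.F) (k : ℕ) (u : Sec (BN (S.res L ^ k))) {i : A.ι}
    {j : S.B.ι} {x : M} (hx : x ∈ (A.e i).source) (hU : x ∈ R.U)
    (hj : rho R p x ∈ (S.B.e j).source) :
    S.up E p k u i x = (S.upT E p k).T i j x *ᵥ u.1 j (rho R p x) := by
  refine (S.upT E p k).pull_eq (V := univ) (fun _ _ => mem_univ _) ?_ hx hU hj
  rw [SecOn_univ]
  exact u.2

theorem up_isDeg (E : Eps R L) (p : R.F) (k : ℕ) {d : ℕ} {u : Sec (BN (S.res L ^ k))}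
    (hu : IsDeg (BN (S.res L ^ k)) d u.1) : IsDeg (BN (L ^ k)) d (S.up E p k u) :=
  (S.upT E p k).pull_isDeg hu

/-- `∇ (r^* u) = r^* (∇ u)` -/
theorem nab_up (E : Eps R L) (p : R.F) (k : ℕ) (u : Sec (BN (S.res L ^ k))) {i : A.ι}
    {x : M} (hU : x ∈ R.U) :
    nab (BN (L ^ k)) (S.up E p k u) i x = S.up E p k (nabL _ u) i x := by
  by_cases hx : x ∈ (A.e i).source
  · obtain ⟨j, hj⟩ := S.B.cover (rho R p x)
    rw [S.up_eq E p k _ hx hU hj]
    refine (S.upT E p k).nab_pull' (V := univ) (S.holOn_rho p) isOpen_univ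
      (fun _ _ => mem_univ _) ?_ hx hU hj
    rw [SecOn_univ]
    exact u.2
  · rw [nab_off _ hx]
    exact ((S.up_mem E p k (nabL _ u)).2.1 i x fun h => hx h.1).symm

/-- the cut-off pull-back is a global form -/
def cutUp (E : Eps R L) (p : R.F) (k : ℕ) (u : Sec (BN (S.res L ^ k))) (χ : M → ℂ)
    (hχ : A.Sm χ) (hs : tsupport χ ⊆ R.U) : Sec (BN (L ^ k)) :=
  ⟨mulC χ (S.up E p k u), mulC_mem R.isOpen_U hχ hs (S.up_mem E p k u)⟩

theorem cutUp_val (E : Eps R L) (p : R.F) (k : ℕ) (u : Sec (BN (S.res L ^ k))) {χ : M → ℂ}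
    (hχ : A.Sm χ) (hs : tsupport χ ⊆ R.U) (i : A.ι) (x : M) :
    (S.cutUp E p k u χ hχ hs).1 i x = χ x • S.up E p k u i x := rfl

theorem cutUp_isDeg (E : Eps R L) (p : R.F) (k : ℕ) {d : ℕ} {u : Sec (BN (S.res L ^ k))}
    (hu : IsDeg (BN (S.res L ^ k)) d u.1) {χ : M → ℂ} (hχ : A.Sm χ) (hs : tsupport χ ⊆ R.U) :
    IsDeg (BN (L ^ k)) d (S.cutUp E p k u χ hχ hs).1 := by
  intro i x l hl
  exact S.up_isDeg E p k hu i x l (right_ne_zero_of_mul hl)

/-- `∇ (χ r^* u) = χ r^* ∇ u + ∂̄χ ∧ r^* u` -/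
theorem nab_cutUp (E : Eps R L) (p : R.F) (k : ℕ) (u : Sec (BN (S.res L ^ k))) {χ : M → ℂ}
    (hχ : A.Sm χ) (hs : tsupport χ ⊆ R.U) {i : A.ι} {x : M} (hx : x ∈ (A.e i).source) :
    (nabL (BN (L ^ k)) (S.cutUp E p k u χ hχ hs)).1 i x =
      χ x • S.up E p k (nabL _ u) i x +
        ∑ a, A.db i a χ x • ((BN (L ^ k)).e a *ᵥ S.up E p k u i x) := by
  have h1 := nab_mulC (B1 := BN (L ^ k)) R.isOpen_U hχ hs (S.up_mem E p k u) hx
  refine h1.trans ?_
  congr 1
  by_cases hU : x ∈ R.U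
  · rw [nabU_eq hU, S.nab_up E p k u hU]
  · have h0 : χ x = 0 := by
      by_contra h
      exact hU (hs (subset_tsupport χ h))
    rw [h0, zero_smul, zero_smul]

/-- the two comparisons are inverse to each other on `F` -/
theorem rsT_upT (E : Eps R L) (p : R.F) (k : ℕ) {i i' : S.B.ι} {j : A.ι} {x : R.F}
    (hi : x ∈ (S.B.e i).source) (hi' : x ∈ (S.B.e i').source) (hj : (x : M) ∈ (A.e j).source) :
    (S.rsT L k).T i j x * (S.upT E p k).T j i' (x : M) = (BN (S.res L ^ k)).τ i i' x := by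
  show (GamR (Jpb S.B A (Subtype.val : R.F → M) i j x) ⊗ₖ cU (L.g (S.refV.r i) j x ^ k) :
      Matrix (FI S.d × Unit) (FI n × Unit) ℂ) *
    (GamR (Jpb A S.B (rho R p) j i' (x : M)) ⊗ₖ cU (E.e j (S.refV.r i') x ^ k) :
      Matrix (FI n × Unit) (FI S.d × Unit) ℂ) =
    (Gam (Jb S.B i i' x) ⊗ₖ cU ((S.res L ^ k).g i i' x) :
      Matrix (FI S.d × Unit) (FI S.d × Unit) ℂ)
  rw [kU_mul, ← GamR_mul, S.Jpb_comp_self p hi hi' hj, GamR_eq_Gam, ← mul_pow]
  congr 2
  rw [Crest.Agent.R273.HM_333.LB_pow_g, S.res_g L ⟨hi, hi'⟩,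
    E.onF j _ x ⟨hj, S.refV.sub i' x hi'⟩ x.2, L.mul]
  exact ⟨⟨S.refV.sub i x hi, hj⟩, S.refV.sub i' x hi'⟩

/-- **`(χ r^* u)|_F = u`** if `χ = 1` on `F` -/
theorem rs_cutUp (E : Eps R L) (p : R.F) (k : ℕ) (u : Sec (BN (S.res L ^ k))) {χ : M → ℂ}
    (hχ : A.Sm χ) (hs : tsupport χ ⊆ R.U) (h1 : ∀ x ∈ R.F, χ x = 1) :
    S.rs L k (S.cutUp E p k u χ hχ hs) = u := by
  apply Subtype.ext
  funext i x
  by_cases hi : x ∈ (S.B.e i).source
  · obtain ⟨j, hj⟩ := A.cover (x : M)
    have hr : rho R p (x : M) = x := rho_of_mem p x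
    rw [S.rs_eq k _ hi hj, S.cutUp_val, h1 _ x.2, one_smul,
      S.up_eq E p k u (j := i) hj x.2.1 (by rw [hr]; exact hi), Matrix.mulVec_mulVec,
      S.rsT_upT E p k hi hi hj, hr]
    exact (u.2.2.2 i i x ⟨hi, hi⟩).symm
  · rw [(S.rs L k _).2.2.1 i x hi, u.2.2.1 i x hi]

end FAtl

end

end Crest.Agent.R273.Ret_155
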