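import Crest.Agent.R273.TorMin_422
import Crest.Agent.R273.PFlow_522
import Crest.Agent.R273.RetD_155

/-!
# R273 (S0416), torus step (helper422): the canonical frame comparison along the retraction

`RF P`    : flow `D z = diag(e^{z x_k})` and limit retraction `r`;
`bb`      : `F_i(y)|_{x = m} = bb i j y • F_j(r y)`;
`eps`     : `eps i j y = (bb i j y)^{n+1} G_S(r y) / G_S(y)`, independent of `S`
* `eps_ne`, `eps_left`, `eps_right`, `eps_fix`, `eps_hol`
-/

set_option autoImplicit false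
set_option linter.unusedSectionVars false

open Set Filter Topology Complex
open scoped ContDiff Matrix ComplexConjugate Manifold

namespace Crest.Agent.R273.TorFr_422

open Crest.Agent.R275.Geo Crest.Agent.R275.Core144
open Crest.Agent.R273.Defs_333 Crest.Agent.R273.Map_835
open Crest.Agent.R273.TorMin_422 Crest.Agent.R273.PFlow_522 Crest.Agent.R273.Ret_155

noncomputable section

variable {n : ℕ} {M : Type} [TopologicalSpace M] {A : Atl n M}

/-- keep only the coordinates of weight `m` -/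
def prm {N : ℕ} (x : Fin (N + 1) → ℝ) (m : ℝ) (v : Fin (N + 1) → ℂ) : Fin (N + 1) → ℂ :=
  fun k => if x k = m then v k else 0

theorem prm_smul {N : ℕ} (x : Fin (N + 1) → ℝ) (m : ℝ) (c : ℂ) (v : Fin (N + 1) → ℂ) :
    prm x m (c • v) = c • prm x m v := by
  funext k
  simp only [prm, Pi.smul_apply, smul_eq_mul]
  split_ifs <;> simp

/-- flow and limit retraction -/
structure RF (P : ProjD A) where
  x : Fin (P.N + 1) → ℝ
  m : ℝ
  D : ℂ → M → M
  hol : ∀ z, HolMap A A (D z)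
  spec : ∀ z y v, R P y v → R P (D z y) (Ez x z v)
  T : HRet A
  rspec : ∀ y ∈ T.U, ∀ v, R P y v → R P (T.r y) (prm x m v)
  lim : ∀ y ∈ T.U, Tendsto (fun t : ℝ => D (-(t : ℂ)) y) atTop (𝓝 (T.r y))

variable {P : ProjD A} (Q : RF P)

/-- the weight of a family of columns -/
def RF.wt (Q : RF P) (S : Unit ⊕ Fin n → Fin (P.N + 1)) : ℝ := ∑ r, Q.x (S r)

/-! ### change of charts -/

/-- the minors in two charts -/
theorem GS_tr {i i' : A.ι} {y : M} (hy : y ∈ (A.e i).source ∩ (A.e i').source) {c : ℂ}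
    (hc : P.F i' y = c • P.F i y) (S : Unit ⊕ Fin n → Fin (P.N + 1)) :
    (Jm A i i' y).det * GS P S i' y = c ^ (n + 1) * GS P S i y := by
  have h := GS_map P (φ := id) (i := i) (j := i') (x := y) hy.1 hy.2
    (by
      have := (holMap_id A).diffAt (i := i) (j := i') (z := A.e i y)
        (mem_dm (p := id) hy.1 hy.2)
      exact this) (fun _ => 1) (fun _ => one_ne_zero) (c := c)
    (fun k => by rw [one_mul]; exact congrFun hc k)
    (by
      have h1 : A.ov i i' ∈ 𝓝 (A.e i y) := (isOpen_ov i i').mem_nhds (mem_ov hy)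
      filter_upwards [h1] with z hz
      refine ⟨hz.2, ?_⟩
      obtain ⟨c', hc'⟩ := P.tr i' i ((A.e i).symm z) ⟨hz.2, (A.e i).map_target hz.1⟩
      exact ⟨c', fun k => by rw [one_mul]; exact congrFun hc' k⟩) S
  have hJ : Jp A A id i i' y = Jm A i i' y := rfl
  rw [hJ, Finset.prod_const_one, mul_one] at h
  exact h

theorem GS_zero_iff {i i' : A.ι} {y : M} (hi : y ∈ (A.e i).source) (hi' : y ∈ (A.e i').source)
    (S : Unit ⊕ Fin n → Fin (P.N + 1)) : GS P S i y = 0 ↔ GS P S i' y = 0 := by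
  obtain ⟨c, hc0, hc⟩ := tr_ne (P := P) hi' hi
  have h := GS_tr ⟨hi, hi'⟩ hc S
  have hJ : (Jm A i i' y).det ≠ 0 := by
    rw [← KB_g ⟨hi, hi'⟩]
    exact LB.ne_zero _ _ _ _
  constructor
  · intro h0
    rw [h0, mul_zero] at h
    exact (mul_eq_zero.1 h).resolve_left hJ
  · intro h0
    rw [h0, mul_zero] at h
    exact (mul_eq_zero.1 h.symm).resolve_left (pow_ne_zero _ hc0)

/-! ### the flow -/

/-- the factor `c` with `F_j(D z y) = c e^{z x} F_i(y)` and the transformation of the minors -/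
theorem GS_D (z : ℂ) {i j : A.ι} {y : M} (hi : y ∈ (A.e i).source)
    (hj : Q.D z y ∈ (A.e j).source) :
    ∃ c : ℂ, c ≠ 0 ∧ (P.F j (Q.D z y) = c • Ez Q.x z (P.F i y)) ∧
      ∀ S, (Jp A A (Q.D z) i j y).det * GS P S j (Q.D z y) =
        c ^ (n + 1) * Complex.exp (z * Q.wt S) * GS P S i y := by
  have key : ∀ {y' : M}, y' ∈ (A.e i).source → Q.D z y' ∈ (A.e j).source →
      ∃ c : ℂ, c ≠ 0 ∧ P.F j (Q.D z y') = c • Ez Q.x z (P.F i y') := by
    intro y' h1 h2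
    exact (Q.spec z y' _ (R_F h1)).prop (R_F h2)
  obtain ⟨c, hc0, hc⟩ := key hi hj
  refine ⟨c, hc0, hc, fun S => ?_⟩
  have h := GS_map P (φ := Q.D z) hi hj ((Q.hol z).diffAt (mem_dm hi hj))
    (fun k => Complex.exp (z * Q.x k)) (fun k => Complex.exp_ne_zero _) (c := c)
    (fun k => by have := congrFun hc k; simpa [Ez] using this)
    (by
      have h1 : dm A A (Q.D z) i j ∈ 𝓝 (A.e i y) :=
        ((Q.hol z).isOpen_dm i j).mem_nhds (mem_dm hi hj)
      filter_upwards [h1] with w hw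
      refine ⟨hw.2, ?_⟩
      obtain ⟨c', -, hc'⟩ := key ((A.e i).map_target hw.1) hw.2
      exact ⟨c', fun k => by have := congrFun hc' k; simpa [Ez] using this⟩) S
  rw [h, ← Complex.exp_sum]
  congr 3
  rw [RF.wt, Complex.ofReal_sum, Finset.mul_sum]

theorem D_zero_iff (z : ℂ) {i j : A.ι} {y : M} (hi : y ∈ (A.e i).source)
    (hj : Q.D z y ∈ (A.e j).source) (S : Unit ⊕ Fin n → Fin (P.N + 1))
    (h0 : GS P S j (Q.D z y) ≠ 0) : GS P S i y ≠ 0 := by
  obtain ⟨c, hc0, -, h⟩ := GS_D Q z hi hj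
  intro h1
  have h2 := h S
  rw [h1, mul_zero] at h2
  rcases mul_eq_zero.1 h2 with h3 | h3
  · -- the Jacobian of `D z` is not zero: some minor does not vanish at `y`
    obtain ⟨S', hS'⟩ := exists_GS_ne P hi
    have h4 := h S'
    rw [h3, zero_mul] at h4
    exact (mul_ne_zero (mul_ne_zero (pow_ne_zero _ hc0) (Complex.exp_ne_zero _)) hS') h4.symm
  · exact h0 h3

theorem cont_GS (S : Unit ⊕ Fin n → Fin (P.N + 1)) {i : A.ι} {y : M}
    (hi : y ∈ (A.e i).source) : ContinuousAt (GS P S i) y := by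
  have h1 := (hol_GS P S i).diffAt isOpen_univ hi (mem_univ y)
  have h2 : ContinuousAt (fun x => GS P S i ((A.e i).symm (A.e i x))) y :=
    ContinuousAt.comp (f := fun x => A.e i x) (g := fun z => GS P S i ((A.e i).symm z))
      h1.continuousAt ((A.e i).continuousAt hi)
  refine h2.congr ?_
  filter_upwards [(A.e i).open_source.mem_nhds hi] with x hx
  rw [(A.e i).left_inv hx]

/-- points of `U` whose limit has a nonvanishing minor -/
theorem GS_ne_of_r {i j : A.ι} {y : M} (hU : y ∈ Q.T.U) (hi : y ∈ (A.e i).source)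
    (hj : Q.T.r y ∈ (A.e j).source) {S : Unit ⊕ Fin n → Fin (P.N + 1)}
    (h0 : GS P S j (Q.T.r y) ≠ 0) : GS P S i y ≠ 0 := by
  have h1 : ∀ᶠ t : ℝ in atTop, Q.D (-(t : ℂ)) y ∈ (A.e j).source :=
    (Q.lim y hU) ((A.e j).open_source.mem_nhds hj)
  have h2 : ∀ᶠ t : ℝ in atTop, GS P S j (Q.D (-(t : ℂ)) y) ≠ 0 :=
    ((cont_GS S hj).tendsto.comp (Q.lim y hU)).eventually_ne h0
  obtain ⟨t, ht1, ht2⟩ := (h1.and h2).exists
  exact D_zero_iff Q _ hi ht1 S ht2

/-- the ratios of minors of the same weight are constant on the fibres of `r` -/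
theorem ratio {i j : A.ι} {y : M} (hU : y ∈ Q.T.U) (hi : y ∈ (A.e i).source)
    (hj : Q.T.r y ∈ (A.e j).source) {S S' : Unit ⊕ Fin n → Fin (P.N + 1)}
    (hw : Q.wt S = Q.wt S') :
    GS P S i y * GS P S' j (Q.T.r y) = GS P S' i y * GS P S j (Q.T.r y) := by
  have h1 : ∀ᶠ t : ℝ in atTop, Q.D (-(t : ℂ)) y ∈ (A.e j).source :=
    (Q.lim y hU) ((A.e j).open_source.mem_nhds hj)
  have h2 : ∀ᶠ t : ℝ in atTop, GS P S i y * GS P S' j (Q.D (-(t : ℂ)) y) =
      GS P S' i y * GS P S j (Q.D (-(t : ℂ)) y) := by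
    filter_upwards [h1] with t ht
    obtain ⟨c, hc0, -, h⟩ := GS_D Q _ hi ht
    have hJ : (Jp A A (Q.D (-(t : ℂ))) i j y).det ≠ 0 := by
      intro h3
      obtain ⟨S0, hS0⟩ := exists_GS_ne P hi
      have h4 := h S0
      rw [h3, zero_mul] at h4
      exact (mul_ne_zero (mul_ne_zero (pow_ne_zero _ hc0) (Complex.exp_ne_zero _)) hS0) h4.symm
    apply mul_left_cancel₀ hJ
    have e1 := h S
    have e2 := h S'
    rw [← hw] at e2
    linear_combination GS P S i y * e2 - GS P S' i y * e1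
  have h3 : Tendsto (fun t : ℝ => GS P S i y * GS P S' j (Q.D (-(t : ℂ)) y)) atTop
      (𝓝 (GS P S i y * GS P S' j (Q.T.r y))) :=
    (((cont_GS S' hj).tendsto.comp (Q.lim y hU))).const_mul _
  have h4 : Tendsto (fun t : ℝ => GS P S' i y * GS P S j (Q.D (-(t : ℂ)) y)) atTop
      (𝓝 (GS P S' i y * GS P S j (Q.T.r y))) :=
    (((cont_GS S hj).tendsto.comp (Q.lim y hU))).const_mul _
  exact tendsto_nhds_unique (h3.congr' h2) h4

/-! ### the fixed points -/

/-- at a fixed point all nonvanishing minors have the same weight -/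
theorem wt_fix {i j : A.ι} {p : M} (hD : ∀ z, Q.D z p = p) (hi : p ∈ (A.e i).source)
    (hj : p ∈ (A.e j).source) {S S' : Unit ⊕ Fin n → Fin (P.N + 1)} (hS : GS P S i p ≠ 0)
    (hS' : GS P S' j p ≠ 0) : Q.wt S = Q.wt S' := by
  have hS'i : GS P S' i p ≠ 0 := fun h => hS' ((GS_zero_iff hi hj S').1 h)
  have key : ∀ z : ℂ, Complex.exp (z * Q.wt S) = Complex.exp (z * Q.wt S') := by
    intro z
    obtain ⟨c, hc0, -, h⟩ := GS_D Q z (j := i) hi (by rw [hD z]; exact hi)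
    rw [hD z] at h
    have e1 : (Jp A A (Q.D z) i i p).det = c ^ (n + 1) * Complex.exp (z * Q.wt S) :=
      mul_right_cancel₀ hS (h S)
    have e2 : (Jp A A (Q.D z) i i p).det = c ^ (n + 1) * Complex.exp (z * Q.wt S') :=
      mul_right_cancel₀ hS'i (h S')
    exact mul_left_cancel₀ (pow_ne_zero (n + 1) hc0) (e1.symm.trans e2)
  have h1 := key 1
  rw [one_mul, one_mul, ← Complex.ofReal_exp, ← Complex.ofReal_exp, Complex.ofReal_inj] at h1
  exact Real.exp_injective h1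

/-- the fixed points of the retraction are fixed by the flow -/
theorem D_fix {p : M} (hp : p ∈ Q.T.F) (z : ℂ) : Q.D z p = p := by
  obtain ⟨v, hv⟩ := exists_R (P := P) p
  have h1 := Q.rspec p hp.1 v hv
  rw [hp.2] at h1
  obtain ⟨c, hc0, hc⟩ := hv.prop h1
  have h2 := Q.spec z p _ h1
  have h3 : Ez Q.x z (prm Q.x Q.m v) = Complex.exp (z * Q.m) • prm Q.x Q.m v := by
    funext k
    simp only [Ez, prm, Pi.smul_apply, smul_eq_mul]
    split_ifs with hk
    · rw [hk]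
    · simp
  rw [h3] at h2
  exact (h2.of_smul (Complex.exp_ne_zero _)).uniq h1

/-- on the connected fixed locus the weight is constant -/
theorem wt_const (hconn : IsPreconnected Q.T.F) {i j : A.ι} {p q : M} (hp : p ∈ Q.T.F)
    (hq : q ∈ Q.T.F) (hi : p ∈ (A.e i).source) (hj : q ∈ (A.e j).source)
    {S S' : Unit ⊕ Fin n → Fin (P.N + 1)} (hS : GS P S i p ≠ 0) (hS' : GS P S' j q ≠ 0) :
    Q.wt S = Q.wt S' := by
  classical
  -- the set of points where some minor of weight `w` does not vanish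
  set W : ℝ → Set M := fun w => {y | ∃ l, y ∈ (A.e l).source ∧ ∃ S0, Q.wt S0 = w ∧
    GS P S0 l y ≠ 0} with hW
  have hopen : ∀ w, IsOpen (W w) := by
    intro w
    rw [isOpen_iff_mem_nhds]
    rintro y ⟨l, hl, S0, hw, h0⟩
    filter_upwards [(A.e l).open_source.mem_nhds hl, (cont_GS S0 hl).eventually_ne h0] with y' h1 h2
    exact ⟨l, h1, S0, hw, h2⟩
  set V : Set M := ⋃ w ∈ {w : ℝ | w ≠ Q.wt S}, W w with hV
  have hVo : IsOpen V := isOpen_biUnion fun w _ => hopen w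
  have hcov : Q.T.F ⊆ W (Q.wt S) ∪ V := by
    intro y hy
    obtain ⟨l, hl⟩ := A.cover y
    obtain ⟨S0, hS0⟩ := exists_GS_ne P hl
    by_cases hw : Q.wt S0 = Q.wt S
    · exact Or.inl ⟨l, hl, S0, hw, hS0⟩
    · refine Or.inr (mem_biUnion (x := Q.wt S0) hw ⟨l, hl, S0, rfl, hS0⟩)
  have hp1 : (Q.T.F ∩ W (Q.wt S)).Nonempty := ⟨p, hp, i, hi, S, rfl, hS⟩
  by_contra hne
  have hq1 : (Q.T.F ∩ V).Nonempty :=
    ⟨q, hq, mem_biUnion (x := Q.wt S') (fun h => hne h.symm) ⟨j, hj, S', rfl, hS'⟩⟩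
  obtain ⟨y, hyF, ⟨l, hl, S0, hw0, h0⟩, hyV⟩ := hconn _ _ (hopen _) hVo hcov hp1 hq1
  obtain ⟨w, hw, l', hl', S1, hw1, h1⟩ := mem_iUnion₂.1 hyV
  have h2 := wt_fix Q (D_fix Q hyF) hl hl' h0 h1
  exact hw (by rw [← hw1, ← h2, hw0])

/-! ### the frame comparison -/

open Classical in
/-- `prm (F_i y) = bb i j y • F_j (r y)` -/
def bb (i j : A.ι) (y : M) : ℂ :=
  if h : ∃ c : ℂ, prm Q.x Q.m (P.F i y) = c • P.F j (Q.T.r y) then h.choose else 0

theorem bb_spec {i j : A.ι} {y : M} (hU : y ∈ Q.T.U) (hi : y ∈ (A.e i).source)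
    (hj : Q.T.r y ∈ (A.e j).source) :
    bb Q i j y ≠ 0 ∧ prm Q.x Q.m (P.F i y) = bb Q i j y • P.F j (Q.T.r y) := by
  obtain ⟨c, hc0, hc⟩ := (Q.rspec y hU _ (R_F hi)).chart hj
  have h : ∃ c : ℂ, prm Q.x Q.m (P.F i y) = c • P.F j (Q.T.r y) := ⟨c, hc⟩
  have h1 : bb Q i j y = h.choose := dif_pos h
  have h2 := h.choose_spec
  rw [← h1] at h2
  refine ⟨fun h0 => ?_, h2⟩
  rw [h0, zero_smul] at h2
  exact (Q.rspec y hU _ (R_F hi)).ne h2

theorem bb_unique {i j : A.ι} {y : M} (hU : y ∈ Q.T.U) (hi : y ∈ (A.e i).source)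
    (hj : Q.T.r y ∈ (A.e j).source) {c : ℂ}
    (hc : prm Q.x Q.m (P.F i y) = c • P.F j (Q.T.r y)) : bb Q i j y = c := by
  have h := (bb_spec Q hU hi hj).2
  rw [h] at hc
  exact smul_left_injective ℂ (P.ne j _ hj) hc

open Classical in
/-- the comparison of the frame of `K⁻¹` at `y` (chart `i`) with the frame at `r y` (chart `j`) -/
def eps (i j : A.ι) (y : M) : ℂ :=
  if h : ∃ S, GS P S j (Q.T.r y) ≠ 0 then
    bb Q i j y ^ (n + 1) * (GS P h.choose j (Q.T.r y) / GS P h.choose i y) else 0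

theorem eps_eq {i j : A.ι} {y : M} (hU : y ∈ Q.T.U) (hi : y ∈ (A.e i).source)
    (hj : Q.T.r y ∈ (A.e j).source) {S : Unit ⊕ Fin n → Fin (P.N + 1)}
    (hS : GS P S j (Q.T.r y) ≠ 0) :
    eps Q i j y = bb Q i j y ^ (n + 1) * (GS P S j (Q.T.r y) / GS P S i y) := by
  have h : ∃ S, GS P S j (Q.T.r y) ≠ 0 := ⟨S, hS⟩
  rw [eps, dif_pos h]
  congr 1
  have h1 := h.choose_spec
  set S' := h.choose
  have hf := Q.T.r_mem hU
  have hw : Q.wt S = Q.wt S' := wt_fix Q (D_fix Q hf) hj hj hS h1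
  have h2 := ratio Q hU hi hj hw
  have h3 := GS_ne_of_r Q hU hi hj hS
  have h4 := GS_ne_of_r Q hU hi hj h1
  rw [div_eq_div_iff h4 h3]
  linear_combination h2

theorem eps_ne {i j : A.ι} {y : M} (hU : y ∈ Q.T.U) (hi : y ∈ (A.e i).source)
    (hj : Q.T.r y ∈ (A.e j).source) : eps Q i j y ≠ 0 := by
  obtain ⟨S, hS⟩ := exists_GS_ne P hj
  rw [eps_eq Q hU hi hj hS]
  exact mul_ne_zero (pow_ne_zero _ (bb_spec Q hU hi hj).1)
    (div_ne_zero hS (GS_ne_of_r Q hU hi hj hS))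

theorem aK_g {i i' : A.ι} {y : M} (hy : y ∈ (A.e i).source ∩ (A.e i').source) :
    ((KB A)⁻¹).g i i' y = ((Jm A i i' y).det)⁻¹ := by
  rw [LB.inv_g, KB_g hy]

theorem eps_left {i i' j : A.ι} {y : M} (hU : y ∈ Q.T.U)
    (hy : y ∈ (A.e i).source ∩ (A.e i').source) (hj : Q.T.r y ∈ (A.e j).source) :
    ((KB A)⁻¹).g i i' y * eps Q i' j y = eps Q i j y := by
  obtain ⟨S, hS⟩ := exists_GS_ne P hj
  obtain ⟨c, hc0, hc⟩ := tr_ne (P := P) hy.2 hy.1
  have hb : bb Q i' j y = c * bb Q i j y := by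
    refine bb_unique Q hU hy.2 hj ?_
    rw [hc, prm_smul, (bb_spec Q hU hy.1 hj).2, smul_smul]
  have hJ : (Jm A i i' y).det ≠ 0 := by
    rw [← KB_g hy]; exact LB.ne_zero _ _ _ _
  have hG := GS_tr hy hc S
  have h1 := GS_ne_of_r Q hU hy.1 hj hS
  have h2 := GS_ne_of_r Q hU hy.2 hj hS
  rw [aK_g hy, eps_eq Q hU hy.1 hj hS, eps_eq Q hU hy.2 hj hS, hb]
  field_simp
  linear_combination (-(bb Q i j y ^ (n + 1))) * hG

theorem eps_right {i j j' : A.ι} {y : M} (hU : y ∈ Q.T.U) (hi : y ∈ (A.e i).source)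
    (hj : Q.T.r y ∈ (A.e j).source ∩ (A.e j').source) :
    eps Q i j y * ((KB A)⁻¹).g j j' (Q.T.r y) = eps Q i j' y := by
  obtain ⟨S, hS⟩ := exists_GS_ne P hj.1
  have hS' : GS P S j' (Q.T.r y) ≠ 0 := fun h => hS ((GS_zero_iff hj.1 hj.2 S).2 h)
  obtain ⟨c, hc0, hc⟩ := tr_ne (P := P) hj.2 hj.1
  have hb : bb Q i j y = c * bb Q i j' y := by
    refine bb_unique Q hU hi hj.1 ?_
    rw [(bb_spec Q hU hi hj.2).2, hc, smul_smul, mul_comm]
  have hJ : (Jm A j j' (Q.T.r y)).det ≠ 0 := by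
    rw [← KB_g hj]; exact LB.ne_zero _ _ _ _
  have hG := GS_tr hj hc S
  have h1 := GS_ne_of_r Q hU hi hj.1 hS
  rw [aK_g hj, eps_eq Q hU hi hj.1 hS, eps_eq Q hU hi hj.2 hS', hb]
  field_simp
  linear_combination (-(bb Q i j' y ^ (n + 1))) * hG

/-- on the fixed locus `eps` is the transition function -/
theorem eps_fix {i j : A.ι} {p : M} (hp : p ∈ Q.T.F) (hi : p ∈ (A.e i).source)
    (hj : p ∈ (A.e j).source) : eps Q i j p = ((KB A)⁻¹).g i j p := by
  have hr : Q.T.r p = p := hp.2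
  have hj' : Q.T.r p ∈ (A.e j).source := by rw [hr]; exact hj
  obtain ⟨S, hS⟩ := exists_GS_ne P hj'
  have hS' : GS P S j p ≠ 0 := by rw [hr] at hS; exact hS
  -- `prm (F_i p) = F_i p` because `F_j (r p)` is proportional to `prm`
  have hprm : prm Q.x Q.m (P.F i p) = P.F i p := by
    obtain ⟨c, hc0, hc⟩ := (Q.rspec p hp.1 _ (R_F hi)).prop (by rw [hr]; exact R_F hi)
    have h1 : prm Q.x Q.m (prm Q.x Q.m (P.F i p)) = prm Q.x Q.m (P.F i p) := by
      funext k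
      simp only [prm]
      split_ifs <;> rfl
    have h2 : prm Q.x Q.m (P.F i p) = prm Q.x Q.m (c • prm Q.x Q.m (P.F i p)) := by rw [← hc]
    rw [prm_smul, h1, ← hc] at h2
    exact h2
  obtain ⟨c, hc0, hc⟩ := tr_ne (P := P) hj hi
  have hb : bb Q i j p = c⁻¹ := by
    refine bb_unique Q hp.1 hi hj' ?_
    rw [hprm, hr, hc, smul_smul, inv_mul_cancel₀ hc0, one_smul]
  have hG := GS_tr ⟨hi, hj⟩ hc S
  have hJ : (Jm A i j p).det ≠ 0 := by
    rw [← KB_g ⟨hi, hj⟩]; exact LB.ne_zero _ _ _ _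
  have h1 : GS P S i p ≠ 0 := fun h => hS' ((GS_zero_iff hi hj S).1 h)
  have h2 : GS P S j p / GS P S i p = c ^ (n + 1) / (Jm A i j p).det := by
    rw [div_eq_div_iff h1 hJ]
    linear_combination hG
  rw [aK_g ⟨hi, hj⟩, eps_eq Q hp.1 hi hj' hS, hb, hr, h2, inv_pow, ← mul_div_assoc,
    inv_mul_cancel₀ (pow_ne_zero _ hc0), one_div]

/-- local holomorphy of the comparison -/
theorem eps_hol (i j : A.ι) :
    HolAt A i (Q.T.U ∩ Q.T.r ⁻¹' (A.e j).source) (eps Q i j) := by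
  refine holAt_of_local fun y hy hyU => ?_
  obtain ⟨S, hS⟩ := exists_GS_ne P hyU.2
  obtain ⟨k, hk⟩ : ∃ k, P.F j (Q.T.r y) k ≠ 0 := Function.ne_iff.1 (P.ne j _ hyU.2)
  -- the open set where the two numbers do not vanish
  set V0 : Set M := {q | q ∈ (A.e j).source ∧ GS P S j q ≠ 0 ∧ P.F j q k ≠ 0} with hV0
  have hV0o : IsOpen V0 := by
    rw [isOpen_iff_mem_nhds]
    rintro q ⟨h1, h2, h3⟩
    have hc : ContinuousAt (fun q => P.F j q k) q :=
      (continuous_apply k).continuousAt.comp (continuousAt_F h1)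
    filter_upwards [(A.e j).open_source.mem_nhds h1, (cont_GS S h1).eventually_ne h2,
      hc.eventually_ne h3] with q' a1 a2 a3
    exact ⟨a1, a2, a3⟩
  set V : Set M := Q.T.U ∩ Q.T.r ⁻¹' V0 with hV
  have hVo : IsOpen V := Q.T.isOpen_pre hV0o
  refine ⟨V, hVo, ⟨hyU.1, hyU.2, hS, hk⟩, ?_⟩
  -- pull back of functions by `r`
  have hpull : ∀ f : M → ℂ, HolAt A j univ f → HolAt A i V (fun y => f (Q.T.r y)) := by
    intro f hf
    have h1 : DifferentiableOn ℂ (fun z => f ((A.e j).symm (A.e j (Q.T.r ((A.e i).symm z)))))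
        ((A.e i).target ∩ (A.e i).symm ⁻¹' V) := by
      refine DifferentiableOn.comp (t := (A.e j).target ∩ (A.e j).symm ⁻¹' univ)
        (g := fun z => f ((A.e j).symm z)) hf ((Q.T.hol i j).mono ?_) ?_
      · rintro z ⟨h1, h2⟩
        exact ⟨h1, h2.1, h2.2.1⟩
      · rintro z ⟨_, h2⟩
        exact ⟨(A.e j).map_source h2.2.1, mem_univ _⟩
    refine DifferentiableOn.congr h1 fun z hz => ?_
    show f (Q.T.r ((A.e i).symm z)) = _
    rw [(A.e j).left_inv hz.2.2.1]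
  have hkx : Q.x k = Q.m := by
    by_contra hne
    have := congrFun (bb_spec Q hyU.1 hy hyU.2).2 k
    simp only [prm, if_neg hne, Pi.smul_apply, smul_eq_mul] at this
    exact (mul_ne_zero (bb_spec Q hyU.1 hy hyU.2).1 hk) this.symm
  have h1 : HolAt A i V (fun y => (P.F i y k * (P.F j (Q.T.r y) k)⁻¹) ^ (n + 1) *
      (GS P S j (Q.T.r y) * (GS P S i y)⁻¹)) := by
    refine HolAt.mul (HolAt.pow (HolAt.mul ((P.hol i k).mono (subset_univ _)) ?_) _) ?_
    · exact (hpull _ (P.hol j k)).inv fun x _ hx => hx.2.2.2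
    · refine (hpull _ (hol_GS P S j)).mul (((hol_GS P S i).mono (subset_univ _)).inv ?_)
      intro x hx hxV
      exact GS_ne_of_r Q hxV.1 hx hxV.2.1 hxV.2.2.1
  refine h1.congr fun x hx hxV => ?_
  rw [eps_eq Q hxV.1 hx hxV.2.1 hxV.2.2.1]
  have h2 := congrFun (bb_spec Q hxV.1 hx hxV.2.1).2 k
  simp only [prm, if_pos hkx, Pi.smul_apply, smul_eq_mul] at h2
  rw [h2, mul_assoc, mul_inv_cancel₀ hxV.2.2.2, mul_one]
  rfl

end

end Crest.Agent.R273.TorFr_422
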