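import Crest.Agent.R273.TorDefs_422
import Crest.Agent.R273.TorFr_422
import Crest.Agent.R273.Conc_5

/-!
# R273 (S0416), torus step (helper422): T5 and the characters on the fixed locus

* `GS_act`      : the minors under the group
* `nrm_le`      : `‖eps i j y‖² h.w i y ≤ h.w j (r y)` on `U`
* `char_fix`    : at a fixed point `p` of the retraction, `det (J γ)(p) = χ_S(γ) / χ_k(γ)^{n+1}`
-/

set_option autoImplicit false
set_option linter.unusedSectionVars false

open Set Filter Topology Complex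
open scoped ContDiff Matrix ComplexConjugate Manifold

namespace Crest.Agent.R273.TorBd_422

open Crest.Agent.R275.Geo Crest.Agent.R275.Core144
open Crest.Agent.R273.Defs_333 Crest.Agent.R273.Map_835
open Crest.Agent.R273.TorMin_422 Crest.Agent.R273.PFlow_522 Crest.Agent.R273.Ret_155
open Crest.Agent.R273.TorFr_422 Crest.Agent.R273.TorDefs_422

noncomputable section

variable {n : ℕ} {M : Type} [TopologicalSpace M] {A : Atl n M}

section flow

variable {P : ProjD A} (Q : RF P)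

theorem D_add (z w : ℂ) (y : M) : Q.D (z + w) y = Q.D z (Q.D w y) := by
  obtain ⟨v, hv⟩ := exists_R (P := P) y
  have h1 := Q.spec z _ _ (Q.spec w y v hv)
  rw [← Ez_add] at h1
  exact (Q.spec (z + w) y v hv).uniq h1

theorem D_zero (y : M) : Q.D 0 y = y := by
  obtain ⟨v, hv⟩ := exists_R (P := P) y
  have h1 := Q.spec 0 y v hv
  rw [Ez_zero] at h1
  exact h1.uniq hv

theorem D_neg (z : ℂ) (y : M) : Q.D (-z) (Q.D z y) = y := by
  rw [← D_add, neg_add_cancel, D_zero]

/-- nonvanishing of a minor propagates along the orbits -/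
theorem GS_D_ne (z : ℂ) {i j : A.ι} {y : M} (hi : y ∈ (A.e i).source)
    (hj : Q.D z y ∈ (A.e j).source) {S : Unit ⊕ Fin n → Fin (P.N + 1)}
    (h0 : GS P S i y ≠ 0) : GS P S j (Q.D z y) ≠ 0 := by
  refine D_zero_iff Q (-z) (i := j) (j := i) hj ?_ S ?_
  · rw [D_neg]; exact hi
  · rw [D_neg]; exact h0

theorem F_D_ne (z : ℂ) {i j : A.ι} {y : M} (hi : y ∈ (A.e i).source)
    (hj : Q.D z y ∈ (A.e j).source) {k : Fin (P.N + 1)}
    (h0 : P.F i y k ≠ 0) : P.F j (Q.D z y) k ≠ 0 := by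
  obtain ⟨c, hc0, hc, -⟩ := GS_D Q z hi hj
  rw [hc]
  simp only [Pi.smul_apply, smul_eq_mul, Ez]
  exact mul_ne_zero hc0 (mul_ne_zero (Complex.exp_ne_zero _) h0)

end flow

section group

variable {Γ : Type} [CommGroup Γ] [MulAction Γ M] (T : TorD A Γ)

/-- the value of the character of a family of columns -/
def chS (S : Unit ⊕ Fin n → Fin (T.P.N + 1)) : Γ →* Circle := ∏ r, T.χ (S r)

theorem diag_ne (γ : Γ) {i j : A.ι} {x : M} (hi : x ∈ (A.e i).source)
    (hj : γ • x ∈ (A.e j).source) :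
    ∃ c : ℂ, c ≠ 0 ∧ ∀ k, T.P.F j (γ • x) k = c * ((T.χ k γ : ℂ) * T.P.F i x k) := by
  obtain ⟨c, hc⟩ := T.diag γ i j x hi hj
  refine ⟨c, fun h0 => T.P.ne j _ hj ?_, hc⟩
  funext k
  rw [hc k, h0, zero_mul]
  rfl

theorem GS_act (γ : Γ) {i j : A.ι} {x : M} (hi : x ∈ (A.e i).source)
    (hj : γ • x ∈ (A.e j).source) {c : ℂ}
    (hc : ∀ k, T.P.F j (γ • x) k = c * ((T.χ k γ : ℂ) * T.P.F i x k))
    (S : Unit ⊕ Fin n → Fin (T.P.N + 1)) :
    (Ja A γ i j x).det * GS T.P S j (γ • x) = c ^ (n + 1) * (chS T S γ : ℂ) * GS T.P S i x := by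
  have h := GS_map T.P (φ := fun y => γ • y) hi hj ((T.hol γ).diffAt (mem_dm hi hj))
    (fun k => (T.χ k γ : ℂ)) (fun k => Circle.coe_ne_zero _) hc
    (by
      have h1 : dm A A (fun y => γ • y) i j ∈ 𝓝 (A.e i x) :=
        ((T.hol γ).isOpen_dm i j).mem_nhds (mem_dm hi hj)
      filter_upwards [h1] with w hw
      exact ⟨hw.2, T.diag γ i j _ ((A.e i).map_target hw.1) hw.2⟩) S
  have h2 : (chS T S γ : ℂ) = ∏ r, (T.χ (S r) γ : ℂ) := by
    unfold chS
    rw [MonoidHom.finsetProd_apply]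
    exact map_prod Circle.coeHom (fun r => T.χ (S r) γ) Finset.univ
  rw [h2]
  exact h

include T in
theorem Ja_det_ne (γ : Γ) {i j : A.ι} {x : M} (hi : x ∈ (A.e i).source)
    (hj : γ • x ∈ (A.e j).source) : (Ja A γ i j x).det ≠ 0 := by
  obtain ⟨c, hc0, hc⟩ := diag_ne T γ hi hj
  obtain ⟨S, hS⟩ := exists_GS_ne T.P hi
  intro h0
  have h := GS_act T γ hi hj hc S
  rw [h0, zero_mul] at h
  exact mul_ne_zero (mul_ne_zero (pow_ne_zero _ hc0) (Circle.coe_ne_zero _)) hS h.symm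

/-- the norm of the frame `F_k^{n+1} / G_S` of `K⁻¹` -/
def nf (k : Fin (T.P.N + 1)) (S : Unit ⊕ Fin n → Fin (T.P.N + 1)) (i : A.ι) (y : M) : ℝ :=
  ‖T.P.F i y k ^ (n + 1) / GS T.P S i y‖ ^ 2 * T.h.w i y

theorem nf_chart (k : Fin (T.P.N + 1)) (S : Unit ⊕ Fin n → Fin (T.P.N + 1)) {i i' : A.ι} {y : M}
    (hy : y ∈ (A.e i).source ∩ (A.e i').source) : nf T k S i y = nf T k S i' y := by
  obtain ⟨c, hc0, hc⟩ := tr_ne (P := T.P) hy.2 hy.1
  have hG := GS_tr hy hc S
  have hJ : (Jm A i i' y).det ≠ 0 := by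
    rw [← KB_g hy]; exact LB.ne_zero _ _ _ _
  by_cases h0 : GS T.P S i y = 0
  · have h1 := (GS_zero_iff hy.1 hy.2 S).1 h0
    simp [nf, h0, h1]
  have h1 : GS T.P S i' y ≠ 0 := fun h => h0 ((GS_zero_iff hy.1 hy.2 S).2 h)
  have hw := T.h.tr i i' y hy
  rw [aK_g hy] at hw
  have e : T.P.F i' y k ^ (n + 1) / GS T.P S i' y =
      (Jm A i i' y).det * (T.P.F i y k ^ (n + 1) / GS T.P S i y) := by
    rw [hc]
    simp only [Pi.smul_apply, smul_eq_mul, mul_pow]
    field_simp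
    linear_combination (-(T.P.F i y k ^ (n + 1))) * hG
  unfold nf
  rw [e, hw, norm_mul, norm_inv]
  have h2 : ‖(Jm A i i' y).det‖ ≠ 0 := norm_ne_zero_iff.2 hJ
  field_simp

theorem nf_act (k : Fin (T.P.N + 1)) (S : Unit ⊕ Fin n → Fin (T.P.N + 1)) (γ : Γ) {i j : A.ι}
    {y : M} (hi : y ∈ (A.e i).source) (hj : γ • y ∈ (A.e j).source) :
    nf T k S j (γ • y) = nf T k S i y := by
  obtain ⟨c, hc0, hc⟩ := diag_ne T γ hi hj
  have hG := GS_act T γ hi hj hc S
  have hJ := Ja_det_ne T γ hi hj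
  have hw := T.h_inv γ i j y hi hj
  have hn1 : ‖(T.χ k γ : ℂ)‖ = 1 := Circle.norm_coe _
  have hn2 : ‖(chS T S γ : ℂ)‖ = 1 := Circle.norm_coe _
  have e : ‖T.P.F j (γ • y) k ^ (n + 1) / GS T.P S j (γ • y)‖ =
      ‖(Ja A γ i j y).det‖ * ‖T.P.F i y k ^ (n + 1) / GS T.P S i y‖ := by
    have hG' : ‖(Ja A γ i j y).det‖ * ‖GS T.P S j (γ • y)‖ =
        ‖c‖ ^ (n + 1) * ‖GS T.P S i y‖ := by
      rw [← norm_mul, hG, norm_mul, norm_mul, hn2, mul_one, norm_pow]
    have hc' : ‖T.P.F j (γ • y) k‖ = ‖c‖ * ‖T.P.F i y k‖ := by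
      rw [hc k, norm_mul, norm_mul, hn1, one_mul]
    rw [norm_div, norm_div, norm_pow, norm_pow, hc', mul_pow]
    by_cases h0 : GS T.P S i y = 0
    · rw [h0, norm_zero, mul_zero] at hG'
      have : ‖GS T.P S j (γ • y)‖ = 0 :=
        (mul_eq_zero.1 hG').resolve_left (norm_ne_zero_iff.2 hJ)
      rw [this, h0, norm_zero, div_zero, div_zero, mul_zero]
    · have h1 : ‖GS T.P S i y‖ ≠ 0 := norm_ne_zero_iff.2 h0
      have h2 : ‖c‖ ^ (n + 1) ≠ 0 := pow_ne_zero _ (norm_ne_zero_iff.2 hc0)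
      have h3 : ‖GS T.P S j (γ • y)‖ ≠ 0 := by
        intro h
        rw [h, mul_zero] at hG'
        exact mul_ne_zero h2 h1 hG'.symm
      field_simp
      linear_combination (-(‖T.P.F i y k‖ ^ (n + 1))) * hG'
  unfold nf
  rw [e, hw]
  ring

theorem cont_nf (k : Fin (T.P.N + 1)) {S : Unit ⊕ Fin n → Fin (T.P.N + 1)} {i : A.ι} {y : M}
    (hi : y ∈ (A.e i).source) (h0 : GS T.P S i y ≠ 0) : ContinuousAt (nf T k S i) y := by
  have h1 : ContinuousAt (fun y => T.P.F i y k) y :=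
    (continuous_apply k).continuousAt.comp (continuousAt_F hi)
  have h2 := cont_GS (P := T.P) S hi
  have h3 : ContinuousAt (T.h.w i) y := by
    have h4 : ContinuousAt (fun z => T.h.w i ((A.e i).symm z)) (A.e i y) :=
      ((T.h.sm i).continuousOn).continuousAt ((A.e i).open_target.mem_nhds ((A.e i).map_source hi))
    have h5 : ContinuousAt (fun x => T.h.w i ((A.e i).symm (A.e i x))) y :=
      ContinuousAt.comp (f := fun x => A.e i x) (g := fun z => T.h.w i ((A.e i).symm z))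
        h4 ((A.e i).continuousAt hi)
    refine h5.congr ?_
    filter_upwards [(A.e i).open_source.mem_nhds hi] with x hx
    rw [(A.e i).left_inv hx]
  exact (((h1.pow _).div h2 h0).norm.pow 2).mul h3

variable (Q : RF T.P)

/-- the flow with imaginary time is approximated by the group -/
def Appr : Prop := ∀ (t : ℝ) (y : M), ∃ γ : ℕ → Γ,
  Tendsto (fun k => γ k • y) atTop (𝓝 (Q.D ((t : ℂ) * I) y))

variable {T Q}

theorem nf_imag (hA : Appr T Q) (k : Fin (T.P.N + 1)) {S : Unit ⊕ Fin n → Fin (T.P.N + 1)}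
    (t : ℝ) {i j : A.ι} {y : M} (hi : y ∈ (A.e i).source)
    (hj : Q.D ((t : ℂ) * I) y ∈ (A.e j).source) (h0 : GS T.P S i y ≠ 0) :
    nf T k S j (Q.D ((t : ℂ) * I) y) = nf T k S i y := by
  obtain ⟨γ, hγ⟩ := hA t y
  have h1 := (cont_nf T k hj (GS_D_ne Q _ hi hj h0)).tendsto.comp hγ
  have h2 : ∀ᶠ l in atTop, (nf T k S j ∘ fun l => γ l • y) l = nf T k S i y := by
    filter_upwards [hγ ((A.e j).open_source.mem_nhds hj)] with l hl
    exact nf_act T k S (γ l) hi hl
  exact tendsto_nhds_unique (h1.congr' h2) tendsto_const_nhds |>.symm ▸ rfl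

theorem continuous_orbit [CompactSpace M] (y : M) : Continuous fun z => Q.D z y := by
  obtain ⟨v, hv⟩ := exists_R (P := T.P) y
  rw [continuous_iff_continuousAt]
  intro z
  refine lift_cont (P := T.P) (G := fun z => Ez Q.x z v) ?_ (Eventually.of_forall fun z => Q.spec z y v hv)
  exact ((continuous_Ez Q.x).comp (continuous_id.prodMk continuous_const)).continuousAt

theorem diff_orbit [CompactSpace M] (y : M) (z : ℂ) {j : A.ι} (hj : Q.D z y ∈ (A.e j).source) :
    DifferentiableAt ℂ (fun z => A.e j (Q.D z y)) z := by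
  obtain ⟨v, hv⟩ := exists_R (P := T.P) y
  refine lift_diff (P := T.P) (G := fun z => Ez Q.x z v) ?_
    (Eventually.of_forall fun z => Q.spec z y v hv) hj
  exact ((differentiable_Ez Q.x).comp (differentiable_id.prodMk (differentiable_const v))) z

/-- **T5** -/
theorem nf_le [CompactSpace M] (hA : Appr T Q) {y : M} (hU : y ∈ Q.T.U) {i j : A.ι}
    (hi : y ∈ (A.e i).source) (hj : Q.T.r y ∈ (A.e j).source) {k : Fin (T.P.N + 1)}
    {S : Unit ⊕ Fin n → Fin (T.P.N + 1)} (hk : T.P.F j (Q.T.r y) k ≠ 0)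
    (hS : GS T.P S j (Q.T.r y) ≠ 0) : nf T k S i y ≤ nf T k S j (Q.T.r y) := by
  have hSi := GS_ne_of_r Q hU hi hj hS
  have hki : T.P.F i y k ≠ 0 := by
    have h1 := bb_spec Q hU hi hj
    have h2 := congrFun h1.2 k
    have h3 : (bb Q i j y • T.P.F j (Q.T.r y)) k ≠ 0 := mul_ne_zero h1.1 hk
    rw [← h2] at h3
    simp only [prm] at h3
    split_ifs at h3 with h4
    · exact h3
    · exact absurd rfl h3
  choose ci hci using A.cover
  set f : ℝ → ℝ := fun a => Real.log (nf T k S (ci (Q.D a y)) (Q.D a y)) with hf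
  have hpos : ∀ (z : ℂ) (l : A.ι), Q.D z y ∈ (A.e l).source → 0 < nf T k S l (Q.D z y) := by
    intro z l hl
    refine mul_pos (pow_pos (norm_pos_iff.2 (div_ne_zero (pow_ne_zero _ ?_) ?_)) 2)
      (T.h.pos l _ hl)
    · exact F_D_ne Q z hi hl hki
    · exact GS_D_ne Q z hi hl hSi
  have hanti : Antitone f := by
    refine Conc_5.orbit_antitone (h := T.h) T.semi (γ := fun z => Q.D z y) (continuous_orbit y)
      (s := fun l z => T.P.F l (Q.D z y) k ^ (n + 1) / GS T.P S l (Q.D z y)) ?_ ?_ ?_ ?_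
    · intro z l hl
      have hc := (continuous_orbit (Q := Q) y).continuousAt (x := z)
        ((A.e l).open_source.mem_nhds hl)
      filter_upwards [hc] with w hw using diff_orbit y w hw
    · intro z l hl
      have hc := (continuous_orbit (Q := Q) y).continuousAt (x := z)
        ((A.e l).open_source.mem_nhds hl)
      refine ⟨?_, div_ne_zero (pow_ne_zero _ (F_D_ne Q z hi hl hki)) (GS_D_ne Q z hi hl hSi)⟩
      filter_upwards [hc] with w hw
      have hd := diff_orbit (Q := Q) y w hw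
      have hw' : Q.D w y ∈ (A.e l).source := hw
      have e1 : DifferentiableAt ℂ (fun w => T.P.F l (Q.D w y) k) w := by
        have h1 : DifferentiableAt ℂ (fun z => T.P.F l ((A.e l).symm z) k) (A.e l (Q.D w y)) :=
          (T.P.hol l k).diffAt isOpen_univ hw' (mem_univ _)
        have h2 := DifferentiableAt.comp w (f := fun w => A.e l (Q.D w y)) h1 hd
        refine h2.congr_of_eventuallyEq ?_
        have hc' := (continuous_orbit (Q := Q) y).continuousAt (x := w)
          ((A.e l).open_source.mem_nhds hw')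
        filter_upwards [hc'] with w' hw''
        have hw3 : Q.D w' y ∈ (A.e l).source := hw''
        simp only [Function.comp, (A.e l).left_inv hw3]
      have e2 : DifferentiableAt ℂ (fun w => GS T.P S l (Q.D w y)) w := by
        have h1 : DifferentiableAt ℂ (fun z => GS T.P S l ((A.e l).symm z)) (A.e l (Q.D w y)) :=
          (hol_GS T.P S l).diffAt isOpen_univ hw' (mem_univ _)
        have h2 := DifferentiableAt.comp w (f := fun w => A.e l (Q.D w y)) h1 hd
        refine h2.congr_of_eventuallyEq ?_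
        have hc' := (continuous_orbit (Q := Q) y).continuousAt (x := w)
          ((A.e l).open_source.mem_nhds hw')
        filter_upwards [hc'] with w' hw''
        have hw3 : Q.D w' y ∈ (A.e l).source := hw''
        simp only [Function.comp, (A.e l).left_inv hw3]
      exact (e1.pow _).mul (e2.inv (GS_D_ne Q w hi hw' hSi))
    · intro z l hl
      have h1 : Q.D z y = Q.D ((z.im : ℂ) * I) (Q.D (z.re : ℂ) y) := by
        rw [← D_add]
        congr 1
        conv_lhs => rw [← Complex.re_add_im z]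
        ring
      have h2 := hci (Q.D (z.re : ℂ) y)
      have h3 : nf T k S l (Q.D z y) = nf T k S (ci (Q.D (z.re : ℂ) y)) (Q.D (z.re : ℂ) y) := by
        have hl' : Q.D ((z.im : ℂ) * I) (Q.D (z.re : ℂ) y) ∈ (A.e l).source := by rw [← h1]; exact hl
        rw [h1]
        exact nf_imag hA k z.im h2 hl' (GS_D_ne Q _ hi h2 hSi)
      show Real.log (nf T k S (ci (Q.D ((z.re : ℝ) : ℂ) y)) (Q.D ((z.re : ℝ) : ℂ) y)) = _
      rw [← h3]
      rfl
    · -- bounded below near `-∞`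
      have hlim : Tendsto (fun a : ℝ => nf T k S j (Q.D (a : ℂ) y)) atBot
          (𝓝 (nf T k S j (Q.T.r y))) := by
        have h1 : Tendsto (fun a : ℝ => Q.D (a : ℂ) y) atBot (𝓝 (Q.T.r y)) := by
          have := (Q.lim y hU).comp tendsto_neg_atBot_atTop
          refine this.congr fun a => ?_
          simp [Function.comp]
        exact (cont_nf T k hj hS).tendsto.comp h1
      have hp : 0 < nf T k S j (Q.T.r y) :=
        mul_pos (pow_pos (norm_pos_iff.2 (div_ne_zero (pow_ne_zero _ hk) hS)) 2)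
          (T.h.pos j _ hj)
      refine ⟨Real.log (nf T k S j (Q.T.r y) / 2), ?_⟩
      have h1 : Tendsto (fun a : ℝ => Q.D (a : ℂ) y) atBot (𝓝 (Q.T.r y)) := by
        have := (Q.lim y hU).comp tendsto_neg_atBot_atTop
        refine this.congr fun a => ?_
        simp [Function.comp]
      filter_upwards [hlim.eventually (lt_mem_nhds (half_lt_self hp)),
        h1 ((A.e j).open_source.mem_nhds hj)] with a h2 h3
      refine Real.log_le_log (half_pos hp) ?_
      rw [nf_chart T k S ⟨hci (Q.D (a : ℂ) y), h3⟩]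
      exact h2.le
  -- pass to the limit
  have hlim : Tendsto (fun a : ℝ => nf T k S j (Q.D (a : ℂ) y)) atBot
      (𝓝 (nf T k S j (Q.T.r y))) := by
    have h1 : Tendsto (fun a : ℝ => Q.D (a : ℂ) y) atBot (𝓝 (Q.T.r y)) := by
      have := (Q.lim y hU).comp tendsto_neg_atBot_atTop
      refine this.congr fun a => ?_
      simp [Function.comp]
    exact (cont_nf T k hj hS).tendsto.comp h1
  have h1 : Tendsto (fun a : ℝ => Q.D (a : ℂ) y) atBot (𝓝 (Q.T.r y)) := by
    have := (Q.lim y hU).comp tendsto_neg_atBot_atTop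
    refine this.congr fun a => ?_
    simp [Function.comp]
  have hev : ∀ᶠ a : ℝ in atBot, nf T k S i y ≤ nf T k S j (Q.D (a : ℂ) y) := by
    filter_upwards [h1 ((A.e j).open_source.mem_nhds hj), eventually_le_atBot (0 : ℝ)] with a h2 h3
    have h4 := hanti h3
    have e0 : nf T k S (ci (Q.D ((0 : ℝ) : ℂ) y)) (Q.D ((0 : ℝ) : ℂ) y) = nf T k S i y := by
      have h5 : Q.D ((0 : ℝ) : ℂ) y = y := by rw [Complex.ofReal_zero]; exact D_zero Q y
      rw [h5]
      exact nf_chart T k S ⟨hci y, hi⟩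
    have e1 : nf T k S (ci (Q.D (a : ℂ) y)) (Q.D (a : ℂ) y) = nf T k S j (Q.D (a : ℂ) y) :=
      nf_chart T k S ⟨hci _, h2⟩
    simp only [hf] at h4
    rw [e0, e1] at h4
    have hp0 : 0 < nf T k S i y := by
      have := hpos 0 i (by rw [D_zero]; exact hi)
      rwa [D_zero] at this
    exact (Real.log_le_log_iff hp0 (hpos _ _ h2)).1 h4
  exact ge_of_tendsto hlim hev

/-- **T5**, the bound for the frame comparison -/
theorem eps_le [CompactSpace M] (hA : Appr T Q) {y : M} (hU : y ∈ Q.T.U) {i j : A.ι}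
    (hi : y ∈ (A.e i).source) (hj : Q.T.r y ∈ (A.e j).source) :
    ‖eps Q i j y‖ ^ 2 * T.h.w i y ≤ T.h.w j (Q.T.r y) := by
  obtain ⟨S, hS⟩ := exists_GS_ne T.P hj
  obtain ⟨k, hk⟩ : ∃ k, T.P.F j (Q.T.r y) k ≠ 0 := Function.ne_iff.1 (T.P.ne j _ hj)
  have h := nf_le hA hU hi hj hk hS
  have h2 := bb_spec Q hU hi hj
  have h3 := congrFun h2.2 k
  have hkx : Q.x k = Q.m := by
    by_contra hne
    simp only [prm, if_neg hne, Pi.smul_apply, smul_eq_mul] at h3
    exact (mul_ne_zero h2.1 hk) h3.symm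
  simp only [prm, if_pos hkx, Pi.smul_apply, smul_eq_mul] at h3
  have hSi := GS_ne_of_r Q hU hi hj hS
  have e : T.P.F i y k ^ (n + 1) / GS T.P S i y =
      eps Q i j y * (T.P.F j (Q.T.r y) k ^ (n + 1) / GS T.P S j (Q.T.r y)) := by
    rw [eps_eq Q hU hi hj hS, h3, mul_pow]
    field_simp
  unfold nf at h
  rw [e, norm_mul, mul_pow] at h
  have hp : 0 < ‖T.P.F j (Q.T.r y) k ^ (n + 1) / GS T.P S j (Q.T.r y)‖ ^ 2 :=
    pow_pos (norm_pos_iff.2 (div_ne_zero (pow_ne_zero _ hk) hS)) 2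
  nlinarith [hp, h]

/-! ### characters at the fixed points -/

/-- the group fixes the points of the fixed locus if the coordinates of weight `m` have one
character -/
theorem act_fix (hχ : ∀ k l, Q.x k = Q.m → Q.x l = Q.m → T.χ k = T.χ l) {p : M}
    (hp : p ∈ Q.T.F) (γ : Γ) : γ • p = p := by
  obtain ⟨i, hi⟩ := A.cover p
  obtain ⟨j, hj⟩ := A.cover (γ • p)
  obtain ⟨c, hc0, hc⟩ := diag_ne T γ hi hj
  -- `F_i p` is supported in the weight `m`
  have hr : Q.T.r p = p := hp.2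
  have h0 : ∀ k, Q.x k ≠ Q.m → T.P.F i p k = 0 := by
    intro k hk
    obtain ⟨d, hd0, hd⟩ := (Q.rspec p hp.1 _ (R_F hi)).prop (by rw [hr]; exact R_F hi)
    rw [hd]
    simp [prm, hk]
  obtain ⟨k0, hk0⟩ : ∃ k, T.P.F i p k ≠ 0 := Function.ne_iff.1 (T.P.ne i _ hi)
  have hk0m : Q.x k0 = Q.m := by
    by_contra h
    exact hk0 (h0 k0 h)
  refine T.P.inj j i _ hj p hi ⟨c * (T.χ k0 γ : ℂ), ?_⟩
  funext k
  rw [hc k]
  simp only [Pi.smul_apply, smul_eq_mul]
  by_cases hk : Q.x k = Q.m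
  · rw [hχ k k0 hk hk0m]; ring
  · rw [h0 k hk]; ring

/-- **the character on the fibres over the fixed locus** -/
theorem char_fix (hχ : ∀ k l, Q.x k = Q.m → Q.x l = Q.m → T.χ k = T.χ l) {p : M}
    (hp : p ∈ Q.T.F) (γ : Γ) {i j : A.ι} (hi : p ∈ (A.e i).source) (hj : p ∈ (A.e j).source)
    {k : Fin (T.P.N + 1)} (hk : Q.x k = Q.m)
    {S : Unit ⊕ Fin n → Fin (T.P.N + 1)} (hS : GS T.P S i p ≠ 0) :
    (Ja A γ i j p).det * (((T.χ k) ^ (n + 1) / chS T S : Γ →* Circle) γ : ℂ) =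
      (Jm A i j p).det := by
  have hfix := act_fix (T := T) (Q := Q) hχ hp γ
  have hj' : γ • p ∈ (A.e j).source := by rw [hfix]; exact hj
  obtain ⟨c, hc0, hc⟩ := diag_ne T γ hi hj'
  obtain ⟨d, hd0, hd⟩ := tr_ne (P := T.P) hj hi
  -- compare `c χ_k = d`
  have hr : Q.T.r p = p := hp.2
  have h0 : ∀ k, Q.x k ≠ Q.m → T.P.F i p k = 0 := by
    intro k hk
    obtain ⟨e, he0, he⟩ := (Q.rspec p hp.1 _ (R_F hi)).prop (by rw [hr]; exact R_F hi)
    rw [he]
    simp [prm, hk]
  obtain ⟨k0, hk0⟩ : ∃ k, T.P.F i p k ≠ 0 := Function.ne_iff.1 (T.P.ne i _ hi)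
  have hk0m : Q.x k0 = Q.m := by
    by_contra h
    exact hk0 (h0 k0 h)
  have hcd : c * (T.χ k γ : ℂ) = d := by
    have h1 := hc k0
    rw [hfix] at h1
    have h2 := congrFun hd k0
    rw [h1] at h2
    simp only [Pi.smul_apply, smul_eq_mul] at h2
    rw [hχ k0 k hk0m hk, ← mul_assoc] at h2
    exact mul_right_cancel₀ hk0 h2
  have hG := GS_act T γ hi hj' hc S
  rw [hfix] at hG
  have hG' := GS_tr ⟨hi, hj⟩ hd S
  have hSj : GS T.P S j p ≠ 0 := fun h => hS ((GS_zero_iff hi hj S).2 h)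
  have hχS : (chS T S γ : ℂ) ≠ 0 := Circle.coe_ne_zero _
  have hval : (((T.χ k) ^ (n + 1) / chS T S : Γ →* Circle) γ : ℂ) =
      (T.χ k γ : ℂ) ^ (n + 1) / (chS T S γ : ℂ) := by
    rw [MonoidHom.div_apply, MonoidHom.pow_apply, Circle.coe_div, Circle.coe_pow]
  rw [hval]
  apply mul_right_cancel₀ hSj
  rw [hG', ← hcd]
  field_simp
  linear_combination ((T.χ k γ : ℂ) ^ (n + 1)) * hG

end group

end

end Crest.Agent.R273.TorBd_422
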