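import Crest.Agent.R273.RetE_155
import Crest.Agent.R273.PW_799
import Crest.Agent.R273.TorBd_422

/-!
# R273 (S0416), torus step (helper155): pointwise norms of `r^* u`

`GamR_quad`      : hypothesis `hΓ` of `PW_799.pw_of` for `Γ = GamR (Jpb ..)`;
`FAtl.nq_up`, `FAtl.nq_wedge_up` : norm identities;
`FAtl.up_bound`  : pointwise bounds for `r^* u` and `∂̄χ ∧ r^* u`;
`epsRF`          : helper422's comparison as a term of `Eps`.
-/

set_option autoImplicit false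
set_option linter.unusedSectionVars false

open Set Filter Topology
open scoped ContDiff Manifold Matrix ComplexConjugate Kronecker ComplexOrder

namespace Crest.Agent.R273.Ret_155

open Crest.Agent.R275.Geo Crest.Agent.R275.Core144 Crest.Agent.R273.Map_835
open Crest.Agent.R273.PB_835 Crest.Agent.R273.FPB_155 Crest.Agent.R273.PullF_155
open Crest.Agent.R273.GamR_155 Crest.Agent.R273.Fock_243 Crest.Agent.R273.LamN127
open Crest.Agent.R273.Defs_333 Crest.Agent.R273.PW_799 Crest.Agent.R275.Kos798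

noncomputable section

variable {n : ℕ} {M : Type} [TopologicalSpace M] {A : Atl n M}

/-- hypothesis `hΓ` of `pw_of` -/
theorem GamR_quad {b n : ℕ} (P : Matrix (Fin b) (Fin n) ℂ) (X : Matrix (Fin n) (Fin n) ℂ) :
    ((GamR ((P.map conj)ᵀ))ᴴ : Matrix (FI b) (FI n) ℂ) * (Gam X : Matrix (FI n) (FI n) ℂ) *
      (GamR ((P.map conj)ᵀ) : Matrix (FI n) (FI b) ℂ) = Gam (P * X * Pᴴ) := by
  have h1 : (GamR ((P.map conj)ᵀ))ᴴ = GamR P := by
    rw [Matrix.conjTranspose, GamR_transpose, Matrix.transpose_transpose]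
    have h := GamR_map (starRingEnd ℂ) (P.map conj)
    have h2 : (P.map conj).map (starRingEnd ℂ) = P := by
      ext i j
      simp
    rw [h2] at h
    exact h
  have h3 : (P.map conj)ᵀ = Pᴴ := rfl
  rw [h1, h3, ← GamR_eq_Gam, ← GamR_mul, ← GamR_mul, GamR_eq_Gam]

/-- rank one Kronecker factor -/
theorem kU_mulVec {r s : Type} [Fintype r] [Fintype s] (X : Matrix r s ℂ) (c : ℂ)
    (v : s × Unit → ℂ) (a : r) (z : Unit) :
    ((X ⊗ₖ cU c : Matrix (r × Unit) (s × Unit) ℂ) *ᵥ v) (a, z) =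
      c * (X *ᵥ fun b => v (b, ())) a := by
  simp only [Matrix.mulVec, dotProduct, Fintype.sum_prod_type, Matrix.kroneckerMap_apply,
    Finset.univ_unique, Finset.sum_singleton, Finset.mul_sum]
  refine Finset.sum_congr rfl fun b _ => ?_
  show X a b * c * v (b, ()) = c * (X a b * v (b, ()))
  ring

theorem nq_unit {r : Type} [Fintype r] (v : r × Unit → ℂ) : nq v = nq fun a => v (a, ()) := by
  simp only [nq, Fintype.sum_prod_type, Finset.univ_unique, Finset.sum_singleton]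

theorem nq_BN (N : LB A) (v : (BN N).κ → ℂ) :
    nq v = nq (fun a : FI n => v ((a, ()) : FI n × Unit)) := nq_unit (r := FI n) v

theorem nq_smul {r : Type} [Fintype r] (c : ℂ) (v : r → ℂ) :
    nq (fun a => c * v a) = ‖c‖ ^ 2 * nq v := by
  simp only [nq, norm_mul, mul_pow, Finset.mul_sum]

namespace FAtl

variable {R : HRet A} (S : FAtl R) {L : LB A}

/-- coordinates of `r^* u` -/
theorem up_apply (E : Eps R L) (p : R.F) (k : ℕ) (u : Sec (BN (S.res L ^ k))) {i : A.ι}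
    {j : S.B.ι} {x : M} (hx : x ∈ (A.e i).source) (hU : x ∈ R.U)
    (hj : rho R p x ∈ (S.B.e j).source) (I : FI n) (z : Unit) :
    S.up E p k u i x (I, z) = E.e i (S.refV.r j) x ^ k *
      ((GamR (Jpb A S.B (rho R p) i j x) : Matrix (FI n) (FI S.d) ℂ) *ᵥ
        fun J => u.1 j (rho R p x) (J, ())) I := by
  rw [S.up_eq E p k u hx hU hj]
  exact kU_mulVec _ _ _ I z

/-- coordinates of `η ∧ r^* u` -/
theorem wedge_up_apply (E : Eps R L) (p : R.F) (k : ℕ) (u : Sec (BN (S.res L ^ k))) {i : A.ι}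
    {j : S.B.ι} {x : M} (hx : x ∈ (A.e i).source) (hU : x ∈ R.U)
    (hj : rho R p x ∈ (S.B.e j).source) (η : Fin n → ℂ) (I : FI n) (z : Unit) :
    (∑ a, η a • ((BN (L ^ k)).e a *ᵥ S.up E p k u i x)) (I, z) = E.e i (S.refV.r j) x ^ k *
      ((eW η : Matrix (FI n) (FI n) ℂ) *ᵥ
        ((GamR (Jpb A S.B (rho R p) i j x) : Matrix (FI n) (FI S.d) ℂ) *ᵥ
        fun J => u.1 j (rho R p x) (J, ()))) I := by
  have h1 : ∀ a, ((BN (L ^ k)).e a *ᵥ S.up E p k u i x) (I, z) = E.e i (S.refV.r j) x ^ k *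
      ((eW (ep a) : Matrix (FI n) (FI n) ℂ) *ᵥ
        ((GamR (Jpb A S.B (rho R p) i j x) : Matrix (FI n) (FI S.d) ℂ) *ᵥ
        fun J => u.1 j (rho R p x) (J, ()))) I := by
    intro a
    have h2 : ((BN (L ^ k)).e a *ᵥ S.up E p k u i x) (I, z) =
        ((eW (ep a) ⊗ₖ cU 1 : Matrix (FI n × Unit) (FI n × Unit) ℂ) *ᵥ
          S.up E p k u i x) (I, z) := by
      rw [cU_one]
      rfl
    rw [h2, kU_mulVec, one_mul]
    have h3 : (fun b : FI n => S.up E p k u i x ((b, ()) : FI n × Unit)) =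
        E.e i (S.refV.r j) x ^ k •
        ((GamR (Jpb A S.B (rho R p) i j x) : Matrix (FI n) (FI S.d) ℂ) *ᵥ
        fun J => u.1 j (rho R p x) (J, ())) := by
      funext b
      exact S.up_apply E p k u hx hU hj b ()
    refine (congrArg (fun w : FI n → ℂ => ((eW (ep a) : Matrix (FI n) (FI n) ℂ) *ᵥ w) I) h3).trans ?_
    show ((eW (ep a) : Matrix (FI n) (FI n) ℂ) *ᵥ (E.e i (S.refV.r j) x ^ k •
        ((GamR (Jpb A S.B (rho R p) i j x) : Matrix (FI n) (FI S.d) ℂ) *ᵥ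
        fun J => u.1 j (rho R p x) (J, ())))) I = _
    rw [Matrix.mulVec_smul]
    rfl
  rw [Finset.sum_apply]
  simp only [Pi.smul_apply, h1, smul_eq_mul]
  rw [eW_eq_sum, Matrix.sum_mulVec, Finset.sum_apply, Finset.mul_sum]
  refine Finset.sum_congr rfl fun a _ => ?_
  rw [Matrix.smul_mulVec, Pi.smul_apply, smul_eq_mul]
  ring

/-- norm of `r^* u` -/
theorem nq_up (E : Eps R L) (p : R.F) (k : ℕ) (u : Sec (BN (S.res L ^ k))) {i : A.ι}
    {j : S.B.ι} {x : M} (hx : x ∈ (A.e i).source) (hU : x ∈ R.U)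
    (hj : rho R p x ∈ (S.B.e j).source) :
    nq (S.up E p k u i x) = (‖E.e i (S.refV.r j) x‖ ^ k) ^ 2 *
      nq ((GamR (Jpb A S.B (rho R p) i j x) : Matrix (FI n) (FI S.d) ℂ) *ᵥ
        fun J => u.1 j (rho R p x) (J, ())) := by
  rw [nq_BN, ← norm_pow, ← nq_smul]
  congr 1
  funext I
  exact S.up_apply E p k u hx hU hj I ()

/-- norm of `η ∧ r^* u` -/
theorem nq_wedge_up (E : Eps R L) (p : R.F) (k : ℕ) (u : Sec (BN (S.res L ^ k))) {i : A.ι}
    {j : S.B.ι} {x : M} (hx : x ∈ (A.e i).source) (hU : x ∈ R.U)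
    (hj : rho R p x ∈ (S.B.e j).source) (η : Fin n → ℂ) :
    nq (∑ a, η a • ((BN (L ^ k)).e a *ᵥ S.up E p k u i x)) =
      (‖E.e i (S.refV.r j) x‖ ^ k) ^ 2 * nq ((eW η : Matrix (FI n) (FI n) ℂ) *ᵥ
        ((GamR (Jpb A S.B (rho R p) i j x) : Matrix (FI n) (FI S.d) ℂ) *ᵥ
        fun J => u.1 j (rho R p x) (J, ()))) := by
  rw [nq_BN, ← norm_pow, ← nq_smul]
  congr 1
  funext I
  exact S.wedge_up_apply E p k u hx hU hj η I ()

/-- **pointwise bounds** for `r^* u` and `η ∧ r^* u` (PW_799) -/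
theorem up_bound (E : Eps R L) (p : R.F) (k : ℕ) (u : Sec (BN (S.res L ^ k))) {i : A.ι}
    {j : S.B.ι} {x : M} (hx : x ∈ (A.e i).source) (hU : x ∈ R.U)
    (hj : rho R p x ∈ (S.B.e j).source) {G : Matrix (Fin n) (Fin n) ℂ} {δ C : ℝ} (hδ : 0 < δ)
    (hC : 0 < C) (hG : (G - (δ : ℂ) • (1 : Matrix (Fin n) (Fin n) ℂ)).PosSemidef)
    (hP : ((C : ℂ) • G - (Jp A S.B (rho R p) i j x)ᵀ *
      (Jp A S.B (rho R p) i j x).map (starRingEnd ℂ)).PosSemidef) :
    nq (S.up E p k u i x) ≤ cPW n S.d δ C * G.det.re *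
      ((‖E.e i (S.refV.r j) x‖ ^ k) ^ 2 * nq (u.1 j (rho R p x))) ∧
    ∀ η : Fin n → ℂ,
      nq (∑ a, η a • ((BN (L ^ k)).e a *ᵥ S.up E p k u i x)) ≤
      cPW n S.d δ C * (∑ k, ∑ l, G.adjugate l k * conj (η k) * η l).re *
      ((‖E.e i (S.refV.r j) x‖ ^ k) ^ 2 * nq (u.1 j (rho R p x))) := by
  have h := pw_of hδ hC hG hP (Γ := GamR (Jpb A S.B (rho R p) i j x))
    (fun X => GamR_quad (Jp A S.B (rho R p) i j x) X)
    (fun J => u.1 j (rho R p x) (J, ()))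
  have h0 : (0 : ℝ) ≤ (‖E.e i (S.refV.r j) x‖ ^ k) ^ 2 := by positivity
  have hq : nq (fun J : FI S.d => u.1 j (rho R p x) ((J, ()) : FI S.d × Unit)) =
      nq (u.1 j (rho R p x)) := (nq_BN _ _).symm
  refine ⟨?_, fun η => ?_⟩
  · rw [S.nq_up E p k u hx hU hj]
    have h1 := h.1.trans (le_of_eq (congrArg (fun t => cPW n S.d δ C * G.det.re * t) hq))
    calc _ ≤ (‖E.e i (S.refV.r j) x‖ ^ k) ^ 2 * _ := mul_le_mul_of_nonneg_left h1 h0
      _ = _ := by ring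
  · rw [S.nq_wedge_up E p k u hx hU hj]
    have h1 := (h.2 η).trans (le_of_eq (congrArg (fun t => cPW n S.d δ C *
      (∑ k, ∑ l, G.adjugate l k * conj (η k) * η l).re * t) hq))
    calc _ ≤ (‖E.e i (S.refV.r j) x‖ ^ k) ^ 2 * _ := mul_le_mul_of_nonneg_left h1 h0
      _ = _ := by ring

end FAtl

/-! ### the comparison of helper422 -/

open Crest.Agent.R273.TorFr_422 in
/-- `K⁻¹|_U ≅ r^* K⁻¹` (T4') -/
def epsRF {P : ProjD A} (Q : RF P) : Eps Q.T ((KB A)⁻¹) where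
  e := eps Q
  hol i j := eps_hol Q i j
  ne _ _ _ hx hU hj := eps_ne Q hU hx hj
  left _ _ _ _ hx hU hj := eps_left Q hU hx hj
  right _ _ _ _ hx hU hj := eps_right Q hU hx hj
  onF _ _ _ hx hF := eps_fix Q hF hx.1 hx.2

end

end Crest.Agent.R273.Ret_155
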