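import Crest.Agent.R273.RetD_155
import Crest.Agent.R273.Prd_835

/-!
# R273 (S0416), leaf B4c, part R (helper534)

`ret_prod` : `p : M → Z` and `σ : Z × M → M` holomorphic with `p (σ (z, x)) = z`, `σ (p x, x) = x`,
`σ (z, σ (z', x)) = σ (z, x)`: then `M ≅ X × Z` for the compact complex manifold `X = p⁻¹(z₀)`;
`main_ret` : hence the induction hypothesis gives the conclusion for `M`.
-/

set_option autoImplicit false
set_option linter.unusedSectionVars false

open Set Metric Filter Topology Complex Function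

namespace Crest.Agent.R273.RetP_534

open Crest.Agent.R275.Geo Crest.Agent.R275.Core144 Crest.Agent.R275.GC293
open Crest.Agent.R275.Prod363
open Crest.Agent.R273.Defs_333 Crest.Agent.R273.Map_835 Crest.Agent.R273.PB_835
open Crest.Agent.R273.Prd_835 Crest.Agent.R273.Ret_155

noncomputable section

variable {n r : ℕ} {M Z : Type} [TopologicalSpace M] [TopologicalSpace Z]

/-- equality of dimensions for biholomorphic manifolds -/
theorem dim_eq_of_inv {m : ℕ} {N : Type} [TopologicalSpace N] {A : Atl n M} {B : Atl m N}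
    {f : M → N} {g : N → M} (hf : HolMap A B f) (hg : HolMap B A g) (h1 : ∀ x, g (f x) = x)
    (h2 : ∀ y, f (g y) = y) (x : M) : n = m := by
  obtain ⟨i, hi⟩ := A.cover x
  obtain ⟨j, hj⟩ := B.cover (f x)
  have e1 := imm_of_leftInv hf hg h1 i j _ (mem_dm (p := f) hi hj)
  have hi' : g (f x) ∈ (A.e i).source := by rw [h1]; exact hi
  have e2 := imm_of_leftInv hg hf h2 j i _ (mem_dm (p := g) hj hi')
  have l1 := LinearMap.finrank_le_finrank_of_injective
    (f := (fderiv ℂ (rd A B f i j) (A.e i x)).toLinearMap) e1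
  have l2 := LinearMap.finrank_le_finrank_of_injective
    (f := (fderiv ℂ (rd B A g j i) (B.e j (f x))).toLinearMap) e2
  rw [finrank_euclideanSpace_fin, finrank_euclideanSpace_fin] at l1 l2
  omega

/-- a family of retractions gives a product decomposition -/
theorem ret_prod [T2Space M] [CompactSpace M] [ConnectedSpace M] [Nonempty Z] {A : Atl n M}
    {C : Atl r Z} {p : M → Z} {σ : Z × M → M} (hp : HolMap A C p)
    (hσ : HolMap (C.prod A) A σ) (e1 : ∀ z x, p (σ (z, x)) = z) (e2 : ∀ x, σ (p x, x) = x)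
    (e3 : ∀ z z' x, σ (z, σ (z', x)) = σ (z, x)) :
    ∃ (d : ℕ) (X : Type) (_ : TopologicalSpace X) (_ : T2Space X) (_ : CompactSpace X)
      (_ : ConnectedSpace X) (B : Atl d X) (Φ : X × Z → M) (Ψ : M → X × Z),
      HolMap (B.prod C) A Φ ∧ HolMap A (B.prod C) Ψ ∧ (∀ x, Φ (Ψ x) = x) ∧ (∀ y, Ψ (Φ y) = y) ∧
      d + r = n := by
  obtain ⟨z0⟩ := (inferInstance : Nonempty Z)
  have hr : HolMap A A (fun x => σ (z0, x)) := hσ.comp (holMap_inr z0)
  set R : HRet A :=
    { U := univ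
      isOpen_U := isOpen_univ
      r := fun x => σ (z0, x)
      maps := fun _ _ => mem_univ _
      idem := fun x _ => e3 z0 z0 x
      cont := hr.cont.continuousOn
      hol := fun i j => (hr.hol i j).mono fun z hz => ⟨hz.1, hz.2.2⟩ } with hR
  have hF1 : IsCompact R.F := by
    rw [R.F_eq]
    exact isCompact_univ.image hr.cont
  have hF2 : IsConnected R.F := by
    rw [R.F_eq]
    exact isConnected_univ.image _ hr.cont.continuousOn
  obtain ⟨S⟩ := R.exists_fAtl hF1 hF2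
  have := isCompact_iff_compactSpace.1 hF1
  have := isConnected_iff_connectedSpace.1 hF2
  obtain ⟨⟨x0, hx0⟩⟩ := (inferInstance : Nonempty R.F)
  have hrho : HolMap A S.B (FAtl.rho R ⟨x0, hx0⟩) := by
    refine ⟨?_, fun i j => ?_⟩
    · rw [← continuousOn_univ]
      exact FAtl.continuousOn_rho (R := R) ⟨x0, hx0⟩
    · exact (S.hol_rho ⟨x0, hx0⟩ i j).mono fun z hz => ⟨hz.1, mem_univ _, hz.2⟩
  have hpF : ∀ x : R.F, p x = z0 := by
    intro x
    have h1 : σ (z0, (x : M)) = x := x.2.2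
    rw [← h1]
    exact e1 z0 x
  have hΦ : HolMap (S.B.prod C) A (fun q : R.F × Z => σ (q.2, (q.1 : M))) :=
    hσ.comp (holMap_pair holMap_snd (S.holMap_val.comp holMap_fst))
  have hΨ : HolMap A (S.B.prod C) (fun x => (FAtl.rho R ⟨x0, hx0⟩ x, p x)) :=
    holMap_pair hrho hp
  have k1 : ∀ x, σ (p x, (FAtl.rho R ⟨x0, hx0⟩ x : M)) = x := by
    intro x
    rw [FAtl.rho_val (R := R) ⟨x0, hx0⟩ (mem_univ x)]
    change σ (p x, σ (z0, x)) = x
    rw [e3, e2]
  have k2 : ∀ q : R.F × Z, (FAtl.rho R ⟨x0, hx0⟩ (σ (q.2, (q.1 : M))), p (σ (q.2, (q.1 : M)))) =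
      q := by
    rintro ⟨x, z⟩
    refine Prod.ext ?_ (e1 z x)
    apply Subtype.ext
    rw [FAtl.rho_val (R := R) ⟨x0, hx0⟩ (mem_univ _)]
    change σ (z0, σ (z, (x : M))) = x
    rw [e3]
    exact x.2.2
  exact ⟨S.d, R.F, inferInstance, inferInstance, inferInstance, inferInstance, S.B, _, _, hΦ, hΨ,
    k1, k2, (dim_eq_of_inv hΨ hΦ k1 k2 x0).symm⟩

/-- **B4c, part R** -/
theorem main_ret [T2Space M] [CompactSpace M] [ConnectedSpace M] [T2Space Z] [CompactSpace Z]
    [ConnectedSpace Z] (IH : ∀ m < n, MainN m) (h0 : 0 < r) (h1 : r < n) {A : Atl n M}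
    {C : Atl r Z} {p : M → Z} {σ : Z × M → M} (hp : HolMap A C p)
    (hσ : HolMap (C.prod A) A σ) (e1 : ∀ z x, p (σ (z, x)) = z) (e2 : ∀ x, σ (p x, x) = x)
    (e3 : ∀ z z' x, σ (z, σ (z', x)) = σ (z, x)) (D : ProjD A) {h : HM (KB A)⁻¹}
    (hs : h.Semipos) : ∃ m : ℕ, 0 < m ∧ HasSec ((KB A)⁻¹ ^ m) := by
  obtain ⟨d, X, _, _, _, _, B, Φ, Ψ, hΦ, hΨ, k1, k2, hd⟩ := ret_prod hp hσ e1 e2 e3
  subst hd
  exact main_prod (IH d (by omega)) (IH r h1) hΦ hΨ k1 k2 D hs

end

end Crest.Agent.R273.RetP_534
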