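import Crest.Agent.R273.Ric1_798

/-!
# R273 (S0416), leaf BGT-1 (helper798), part 2: the real metric of a Kaehler matrix and its
Christoffel symbols

`G K z u v = Re (v̄ · K(z) u)`; `hm e K` the real coordinate metric (`e : V n ≃L[ℝ] ℝᵐ`);
`S K z u = K⁻¹ ∂_u K` (Chern connection), `B K z u v = S K z u *ᵥ v`;
`chr_eq : christoffel (hm e K) y k i j = e (B K (e⁻¹ y) bᵢ bⱼ) k`.
-/

set_option autoImplicit false
set_option linter.unusedSectionVars false

open Set Filter Topology Complex Matrix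
open scoped ContDiff ComplexConjugate ComplexOrder
open Crest.GeometryTopology.CoordMetric

namespace Crest.Agent.R273.Ric_798

noncomputable section

variable {n m : ℕ}

/-- Kaehler matrix data on an open set -/
structure KD (K : V n → Matrix (Fin n) (Fin n) ℂ) (U : Set (V n)) : Prop where
  op : IsOpen U
  sm : ∀ a b, ContDiffOn ℝ ∞ (fun w => K w a b) U
  pd : ∀ z ∈ U, (K z).PosDef
  ka : ∀ z ∈ U, ∀ u v : V n, D1 K z u *ᵥ v.ofLp = D1 K z v *ᵥ u.ofLp

/-- the real inner product -/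
def G (K : V n → Matrix (Fin n) (Fin n) ℂ) (z u v : V n) : ℝ :=
  (star v.ofLp ⬝ᵥ (K z *ᵥ u.ofLp)).re

theorem G_add_left (K : V n → Matrix (Fin n) (Fin n) ℂ) (z u u' v : V n) :
    G K z (u + u') v = G K z u v + G K z u' v := by
  simp [G, Matrix.mulVec_add, dotProduct_add]

theorem G_smul_left (K : V n → Matrix (Fin n) (Fin n) ℂ) (z : V n) (c : ℝ) (u v : V n) :
    G K z (c • u) v = c * G K z u v := by
  have h : (c • u).ofLp = (c : ℂ) • u.ofLp := by
    ext a
    simp
  simp only [G, h, Matrix.mulVec_smul, dotProduct_smul, smul_eq_mul, re_ofReal_mul]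

theorem G_sum_left (K : V n → Matrix (Fin n) (Fin n) ℂ) (z v : V n) {ι : Type*} (s : Finset ι)
    (c : ι → ℝ) (u : ι → V n) :
    G K z (∑ i ∈ s, c i • u i) v = ∑ i ∈ s, c i * G K z (u i) v := by
  classical
  induction s using Finset.induction_on with
  | empty => simp [G]
  | insert a s ha ih => rw [Finset.sum_insert ha, Finset.sum_insert ha, G_add_left, G_smul_left, ih]

theorem sd_conj (A : Matrix (Fin n) (Fin n) ℂ) (x y : Fin n → ℂ) :
    star (star x ⬝ᵥ (A *ᵥ y)) = star y ⬝ᵥ (Aᴴ *ᵥ x) := by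
  rw [Matrix.star_dotProduct, star_star, Matrix.star_mulVec, ← Matrix.dotProduct_mulVec]

theorem G_symm {K : V n → Matrix (Fin n) (Fin n) ℂ} {z : V n} (hK : (K z).IsHermitian)
    (u v : V n) : G K z u v = G K z v u := by
  unfold G
  rw [← hK.eq, ← sd_conj, hK.eq]
  simp

theorem G_self_pos {K : V n → Matrix (Fin n) (Fin n) ℂ} {z : V n} (hK : (K z).PosDef)
    {u : V n} (hu : u ≠ 0) : 0 < G K z u u := by
  unfold G
  have h0 : u.ofLp ≠ 0 := fun h => hu (by ext a; simpa using congrFun h a)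
  have := hK.dotProduct_mulVec_pos h0
  exact (Complex.pos_iff.1 this).1

theorem differentiableAt_entry {K : V n → Matrix (Fin n) (Fin n) ℂ} {U : Set (V n)}
    (hU : IsOpen U) (hK : ∀ a b, ContDiffOn ℝ ∞ (fun w => K w a b) U) {z : V n} (hz : z ∈ U)
    (a b : Fin n) : DifferentiableAt ℝ (fun w => K w a b) z :=
  ((hK a b).contDiffAt (hU.mem_nhds hz)).differentiableAt (by simp)

/-- derivative of a matrix coefficient -/
theorem hasFDerivAt_sd {K : V n → Matrix (Fin n) (Fin n) ℂ} {z : V n}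
    (hK : ∀ a b, DifferentiableAt ℝ (fun w => K w a b) z) (x y : Fin n → ℂ) (w : V n) :
    DifferentiableAt ℝ (fun z => x ⬝ᵥ (K z *ᵥ y)) z ∧
    fderiv ℝ (fun z => x ⬝ᵥ (K z *ᵥ y)) z w = x ⬝ᵥ (DM K z w *ᵥ y) := by
  have h1 : (fun z => x ⬝ᵥ (K z *ᵥ y)) = fun z => ∑ a, x a * ∑ b, K z a b * y b := by
    funext z
    simp [dotProduct, Matrix.mulVec]
  have h2 : HasFDerivAt (fun z => ∑ a, x a * ∑ b, K z a b * y b)
      (∑ a, x a • ∑ b, y b • fderiv ℝ (fun w => K w a b) z) z := by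
    apply HasFDerivAt.fun_sum
    intro a _
    apply HasFDerivAt.const_mul
    apply HasFDerivAt.fun_sum
    intro b _
    exact (hK a b).hasFDerivAt.mul_const (y b)
  rw [h1]
  refine ⟨h2.differentiableAt, ?_⟩
  rw [h2.fderiv]
  simp only [FunLike.coe_sum, Finset.sum_apply, FunLike.coe_smul, Pi.smul_apply, smul_eq_mul,
    dotProduct, Matrix.mulVec, DM_apply]
  refine Finset.sum_congr rfl fun a _ => ?_
  congr 1
  refine Finset.sum_congr rfl fun b _ => ?_
  ring

theorem fderiv_G {K : V n → Matrix (Fin n) (Fin n) ℂ} {z : V n}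
    (hK : ∀ a b, DifferentiableAt ℝ (fun w => K w a b) z) (u v w : V n) :
    fderiv ℝ (fun z => G K z u v) z w = (star v.ofLp ⬝ᵥ (DM K z w *ᵥ u.ofLp)).re := by
  obtain ⟨h1, h2⟩ := hasFDerivAt_sd hK (star v.ofLp) u.ofLp w
  have h3 : HasFDerivAt (fun z => G K z u v)
      (Complex.reCLM.comp (fderiv ℝ (fun z => star v.ofLp ⬝ᵥ (K z *ᵥ u.ofLp)) z)) z :=
    Complex.reCLM.hasFDerivAt.comp z h1.hasFDerivAt
  rw [h3.fderiv, ContinuousLinearMap.comp_apply, h2]
  rfl

theorem differentiableAt_G {K : V n → Matrix (Fin n) (Fin n) ℂ} {z : V n}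
    (hK : ∀ a b, DifferentiableAt ℝ (fun w => K w a b) z) (u v : V n) :
    DifferentiableAt ℝ (fun z => G K z u v) z := by
  obtain ⟨h1, -⟩ := hasFDerivAt_sd hK (star v.ofLp) u.ofLp 0
  exact (Complex.reCLM.hasFDerivAt.comp z h1.hasFDerivAt).differentiableAt

theorem DM_herm {K : V n → Matrix (Fin n) (Fin n) ℂ} {U : Set (V n)} (h : KD K U) {z : V n}
    (hz : z ∈ U) (u : V n) : (DM K z u)ᴴ = DM K z u := by
  ext a b
  rw [Matrix.conjTranspose_apply, DM_apply, DM_apply]
  have h1 : (fun w => K w a b) =ᶠ[𝓝 z] fun w => conj (K w b a) := by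
    filter_upwards [h.op.mem_nhds hz] with w hw
    exact ((h.pd w hw).1.apply a b).symm
  have h2 : HasFDerivAt (fun w => conj (K w b a))
      ((Complex.conjCLE : ℂ →L[ℝ] ℂ).comp (fderiv ℝ (fun w => K w b a) z)) z :=
    (Complex.conjCLE : ℂ →L[ℝ] ℂ).hasFDerivAt.comp z
      (differentiableAt_entry h.op h.sm hz b a).hasFDerivAt
  rw [h1.fderiv_eq, h2.fderiv]
  simp

theorem D1_herm {K : V n → Matrix (Fin n) (Fin n) ℂ} {U : Set (V n)} (h : KD K U) {z : V n}
    (hz : z ∈ U) (u : V n) : (D1 K z u)ᴴ = D2 K z u := by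
  unfold D1 D2
  rw [Matrix.conjTranspose_smul, Matrix.conjTranspose_sub, Matrix.conjTranspose_smul,
    DM_herm h hz, DM_herm h hz]
  simp

/-- the Kaehler form of the Koszul formula -/
theorem koszul {K : V n → Matrix (Fin n) (Fin n) ℂ} {U : Set (V n)} (h : KD K U) {z : V n}
    (hz : z ∈ U) (u v w : V n) :
    fderiv ℝ (fun z => G K z v w) z u + fderiv ℝ (fun z => G K z u w) z v
      - fderiv ℝ (fun z => G K z u v) z w = 2 * (star w.ofLp ⬝ᵥ (D1 K z u *ᵥ v.ofLp)).re := by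
  have hd := differentiableAt_entry h.op h.sm hz
  rw [fderiv_G hd, fderiv_G hd, fderiv_G hd, ← D1_add_D2, ← D1_add_D2 K z v, ← D1_add_D2 K z w]
  have e1 : ∀ u v w : V n, (star w.ofLp ⬝ᵥ (D2 K z u *ᵥ v.ofLp)).re
      = (star v.ofLp ⬝ᵥ (D1 K z u *ᵥ w.ofLp)).re := by
    intro u v w
    rw [← D1_herm h hz, ← sd_conj]
    simp
  have e2 : ∀ u v w : V n, (star w.ofLp ⬝ᵥ (D1 K z u *ᵥ v.ofLp)).re
      = (star w.ofLp ⬝ᵥ (D1 K z v *ᵥ u.ofLp)).re := by
    intro u v w
    rw [h.ka z hz]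
  simp only [Matrix.add_mulVec, dotProduct_add, add_re, e1]
  rw [e2 v u w, e2 w u v, e2 v w u, e2 w v u]
  rw [e2 u w v]
  ring

/-- the real coordinate metric -/
def hm (e : V n ≃L[ℝ] EuclideanSpace ℝ (Fin m)) (K : V n → Matrix (Fin n) (Fin n) ℂ) :
    MetricField m := fun y =>
  Matrix.of fun i j => G K (e.symm y) (e.symm (EuclideanSpace.single i 1))
    (e.symm (EuclideanSpace.single j 1))

/-- Chern connection matrix -/
def S (K : V n → Matrix (Fin n) (Fin n) ℂ) (z u : V n) : Matrix (Fin n) (Fin n) ℂ :=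
  (K z)⁻¹ * D1 K z u

/-- Chern connection -/
def B (K : V n → Matrix (Fin n) (Fin n) ℂ) (z u v : V n) : V n :=
  WithLp.toLp 2 (S K z u *ᵥ v.ofLp)

theorem B_symm {K : V n → Matrix (Fin n) (Fin n) ℂ} {U : Set (V n)} (h : KD K U) {z : V n}
    (hz : z ∈ U) (u v : V n) : B K z u v = B K z v u := by
  unfold B S
  rw [← Matrix.mulVec_mulVec, ← Matrix.mulVec_mulVec, h.ka z hz]

variable (e : V n ≃L[ℝ] EuclideanSpace ℝ (Fin m))

/-- the real basis -/
def bb (i : Fin m) : V n := e.symm (EuclideanSpace.single i 1)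

theorem sum_bb (v : V n) : ∑ i, (e v i) • bb e i = v := by
  have h1 : (∑ i, (e v i) • EuclideanSpace.single i (1 : ℝ)) = e v := by
    ext j
    simp [Finset.sum_apply, Pi.single_apply]
  calc ∑ i, (e v i) • bb e i = e.symm (∑ i, (e v i) • EuclideanSpace.single i (1 : ℝ)) := by
        simp [map_sum, bb]
    _ = v := by rw [h1]; simp

theorem sum_hm {K : V n → Matrix (Fin n) (Fin n) ℂ} {y : EuclideanSpace ℝ (Fin m)}
    (hK : (K (e.symm y)).IsHermitian) (u v : EuclideanSpace ℝ (Fin m)) :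
    ∑ i, ∑ j, hm e K y i j * u i * v j = G K (e.symm y) (e.symm u) (e.symm v) := by
  have hsym : ∀ u v, G K (e.symm y) u v = G K (e.symm y) v u := G_symm hK
  have hu : e.symm u = ∑ i, (u i) • bb e i := by
    conv_lhs => rw [← sum_bb e (e.symm u)]
    simp
  have hv : e.symm v = ∑ i, (v i) • bb e i := by
    conv_lhs => rw [← sum_bb e (e.symm v)]
    simp
  rw [hu, G_sum_left]
  refine Finset.sum_congr rfl fun i _ => ?_
  rw [hsym, hv, G_sum_left, Finset.mul_sum]
  refine Finset.sum_congr rfl fun j _ => ?_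
  rw [hsym]
  simp only [hm, Matrix.of_apply, bb]
  ring

theorem quadForm_hm {K : V n → Matrix (Fin n) (Fin n) ℂ} {y : EuclideanSpace ℝ (Fin m)}
    (hK : (K (e.symm y)).IsHermitian) (v : EuclideanSpace ℝ (Fin m)) :
    quadForm (hm e K) y v = G K (e.symm y) (e.symm v) (e.symm v) :=
  sum_hm e hK v v

theorem hm_posDef {K : V n → Matrix (Fin n) (Fin n) ℂ} {U : Set (V n)} (h : KD K U)
    {y : EuclideanSpace ℝ (Fin m)} (hy : e.symm y ∈ U) : (hm e K y).PosDef := by
  have hH := (h.pd _ hy).1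
  refine Matrix.PosDef.of_dotProduct_mulVec_pos ?_ ?_
  · ext i j
    rw [Matrix.conjTranspose_apply]
    simp only [hm, Matrix.of_apply, star_trivial]
    exact G_symm hH _ _
  · intro x hx
    have h1 := sum_hm e hH (WithLp.toLp 2 x) (WithLp.toLp 2 x)
    have h2 : e.symm (WithLp.toLp 2 x) ≠ 0 := by
      intro h0
      apply hx
      have : (WithLp.toLp 2 x : EuclideanSpace ℝ (Fin m)) = 0 := by
        simpa using h0
      ext i
      simpa using congrFun (congrArg WithLp.ofLp this) i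
    have h3 := G_self_pos (h.pd _ hy) h2
    rw [← h1] at h3
    have h4 : star x ⬝ᵥ (hm e K y *ᵥ x) = ∑ i, ∑ j, hm e K y i j * x i * x j := by
      simp only [dotProduct, Matrix.mulVec, Finset.mul_sum, star_trivial, Pi.star_apply]
      refine Finset.sum_congr rfl fun i _ => ?_
      refine Finset.sum_congr rfl fun j _ => ?_
      ring
    rw [h4]
    exact h3

theorem pderiv_hm {K : V n → Matrix (Fin n) (Fin n) ℂ} {U : Set (V n)} (h : KD K U)
    {y : EuclideanSpace ℝ (Fin m)} (hy : e.symm y ∈ U) (l i j : Fin m) :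
    pderiv l (fun y => hm e K y i j) y =
      fderiv ℝ (fun z => G K z (bb e i) (bb e j)) (e.symm y) (bb e l) := by
  unfold pderiv
  have h1 : (fun y => hm e K y i j) = (fun z => G K z (bb e i) (bb e j)) ∘ e.symm := rfl
  have hd := differentiableAt_G (differentiableAt_entry h.op h.sm hy) (bb e i) (bb e j)
  rw [h1, fderiv_comp y hd e.symm.differentiableAt, e.symm.fderiv]
  rfl

theorem chr_eq {K : V n → Matrix (Fin n) (Fin n) ℂ} {U : Set (V n)} (h : KD K U)
    {y : EuclideanSpace ℝ (Fin m)} (hy : e.symm y ∈ U) (k i j : Fin m) :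
    christoffel (hm e K) y k i j = e (B K (e.symm y) (bb e i) (bb e j)) k := by
  set z := e.symm y with hz
  set c : Fin m → ℝ := fun k => e (B K z (bb e i) (bb e j)) k with hc
  have hsym : ∀ u v, G K z u v = G K z v u := G_symm (h.pd z hy).1
  have h1 : ∀ l, pderiv i (fun y => hm e K y j l) y + pderiv j (fun y => hm e K y i l) y
      - pderiv l (fun y => hm e K y i j) y = 2 * (hm e K y *ᵥ c) l := by
    intro l
    rw [pderiv_hm e h hy, pderiv_hm e h hy, pderiv_hm e h hy, koszul h hy]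
    congr 1
    have h2 : (hm e K y *ᵥ c) l = G K z (B K z (bb e i) (bb e j)) (bb e l) := by
      conv_rhs => rw [← sum_bb e (B K z (bb e i) (bb e j)), G_sum_left]
      simp only [Matrix.mulVec, dotProduct]
      refine Finset.sum_congr rfl fun k _ => ?_
      rw [mul_comm, hsym]
      rfl
    rw [h2]
    unfold G B S
    rw [Matrix.mulVec_mulVec, ← mul_assoc,
      Matrix.mul_nonsing_inv _ (isUnit_iff_ne_zero.2 (h.pd z hy).det_pos.ne'), one_mul]
  unfold christoffel
  simp only [h1]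
  have h3 : ∑ l, inverseField (hm e K) y k l * (2 * (hm e K y *ᵥ c) l)
      = 2 * ((hm e K y)⁻¹ *ᵥ (hm e K y *ᵥ c)) k := by
    simp only [inverseField, Matrix.mulVec, dotProduct, Finset.mul_sum]
    refine Finset.sum_congr rfl fun l _ => ?_
    refine Finset.sum_congr rfl fun k _ => ?_
    ring
  rw [h3, Matrix.mulVec_mulVec,
    Matrix.nonsing_inv_mul _ (isUnit_iff_ne_zero.2 (hm_posDef e h hy).det_pos.ne'),
    Matrix.one_mulVec]
  simp [hc]

end

end Crest.Agent.R273.Ric_798
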