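import Crest.Agent.R273.Ric2_798

/-!
# R273 (S0416), leaf BGT-1 (helper798), part 3: real traces
-/

set_option autoImplicit false
set_option linter.unusedSectionVars false

open Set Filter Topology Complex Matrix
open scoped ContDiff ComplexConjugate ComplexOrder
open Crest.GeometryTopology.CoordMetric

namespace Crest.Agent.R273.Ric_798

noncomputable section

variable {n m : ℕ}

/-! ### real traces -/

/-- the real trace of a map `V n → V n` in the basis given by `e` -/
def trE (e : V n ≃L[ℝ] EuclideanSpace ℝ (Fin m)) (F : V n → V n) : ℝ :=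
  ∑ k, e (F (bb e k)) k

theorem trE_add (e : V n ≃L[ℝ] EuclideanSpace ℝ (Fin m)) (F F' : V n → V n) :
    trE e (fun w => F w + F' w) = trE e F + trE e F' := by
  simp [trE, Finset.sum_add_distrib]

theorem trE_sub (e : V n ≃L[ℝ] EuclideanSpace ℝ (Fin m)) (F F' : V n → V n) :
    trE e (fun w => F w - F' w) = trE e F - trE e F' := by
  simp [trE, Finset.sum_sub_distrib]

/-- the real basis `1, i` times the unit vectors -/
def rb (n : ℕ) : Module.Basis (Fin 2 × Fin n) ℝ (V n) :=
  Complex.basisOneI.smulTower (EuclideanSpace.basisFun (Fin n) ℂ).toBasis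

theorem rb_zero (a : Fin n) : rb n (0, a) = EuclideanSpace.single a (1 : ℂ) := by
  simp [rb]

theorem rb_one (a : Fin n) : rb n (1, a) = I • EuclideanSpace.single a (1 : ℂ) := by
  simp [rb]

theorem rb_repr_zero (v : V n) (a : Fin n) : (rb n).repr v (0, a) = (v a).re := by
  simp [rb, Module.Basis.smulTower_repr]

theorem rb_repr_one (v : V n) (a : Fin n) : (rb n).repr v (1, a) = (v a).im := by
  simp [rb, Module.Basis.smulTower_repr]

theorem trE_eq (e : V n ≃L[ℝ] EuclideanSpace ℝ (Fin m)) (F : V n →ₗ[ℝ] V n) :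
    trE e F = ∑ a, ((F (EuclideanSpace.single a 1) a).re +
      (F (I • EuclideanSpace.single a 1) a).im) := by
  have h1 : LinearMap.trace ℝ (V n) F = trE e F := by
    rw [LinearMap.trace_eq_matrix_trace ℝ
      ((EuclideanSpace.basisFun (Fin m) ℝ).toBasis.map e.symm.toLinearEquiv)]
    simp [Matrix.trace, LinearMap.toMatrix_apply, trE, bb]
  have h2 : LinearMap.trace ℝ (V n) F = ∑ a, ((F (EuclideanSpace.single a 1) a).re +
      (F (I • EuclideanSpace.single a 1) a).im) := by
    rw [LinearMap.trace_eq_matrix_trace ℝ (rb n)]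
    simp only [Matrix.trace, Matrix.diag_apply, LinearMap.toMatrix_apply]
    rw [Fintype.sum_prod_type, Fin.sum_univ_two, ← Finset.sum_add_distrib]
    refine Finset.sum_congr rfl fun a _ => ?_
    rw [rb_zero, rb_one, rb_repr_zero, rb_repr_one]
  rw [← h1, h2]

/-- the real trace of an antilinear map vanishes -/
theorem trE_anti (e : V n ≃L[ℝ] EuclideanSpace ℝ (Fin m)) (F : V n → V n)
    (ha : ∀ u v, F (u + v) = F u + F v) (hs : ∀ (c : ℝ) u, F (c • u) = c • F u)
    (hI : ∀ u, F (I • u) = -(I • F u)) : trE e F = 0 := by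
  have := trE_eq e (LinearMap.mk ⟨F, ha⟩ hs)
  refine Eq.trans this ?_
  refine Finset.sum_eq_zero fun a _ => ?_
  have h1 : (LinearMap.mk ⟨F, ha⟩ hs : V n →ₗ[ℝ] V n) (I • EuclideanSpace.single a 1) =
    -(I • F (EuclideanSpace.single a 1)) := hI _
  rw [h1]
  simp

/-- the real trace of a complex matrix -/
theorem trE_mat (e : V n ≃L[ℝ] EuclideanSpace ℝ (Fin m)) (A : Matrix (Fin n) (Fin n) ℂ) :
    trE e (fun w => WithLp.toLp 2 (A *ᵥ w.ofLp)) = 2 * A.trace.re := by
  set F : V n →ₗ[ℝ] V n := (Matrix.toLpLin 2 2 A).restrictScalars ℝ with hF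
  have h0 : (fun w : V n => (WithLp.toLp 2 (A *ᵥ w.ofLp) : V n)) = F := by
    funext w
    rw [hF, LinearMap.coe_restrictScalars, Matrix.toLpLin_apply]
  rw [h0, trE_eq]
  simp only [hF, LinearMap.coe_restrictScalars, map_smul]
  rw [Matrix.trace, Complex.re_sum, Finset.mul_sum]
  refine Finset.sum_congr rfl fun a _ => ?_
  simp [Matrix.toLpLin_apply, Matrix.mulVec_single]
  ring

/-! ### derivatives of the Chern connection -/

variable {K : V n → Matrix (Fin n) (Fin n) ℂ} {U : Set (V n)}

theorem contDiffOn_DM (hU : IsOpen U) (hK : ∀ a b, ContDiffOn ℝ ∞ (fun w => K w a b) U) (u : V n)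
    (a b : Fin n) : ContDiffOn ℝ ∞ (fun w => DM K w u a b) U := by
  simp only [DM_apply]
  exact ((hK a b).fderiv_of_isOpen hU (by simp)).clm_apply contDiffOn_const

theorem contDiffOn_D1 (hU : IsOpen U) (hK : ∀ a b, ContDiffOn ℝ ∞ (fun w => K w a b) U) (u : V n)
    (a b : Fin n) : ContDiffOn ℝ ∞ (fun w => D1 K w u a b) U := by
  simp only [D1, Matrix.smul_apply, Matrix.sub_apply, smul_eq_mul]
  exact contDiffOn_const.mul ((contDiffOn_DM hU hK u a b).sub
    (contDiffOn_const.mul (contDiffOn_DM hU hK (I • u) a b)))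

theorem contDiffOn_mul {P Q : V n → Matrix (Fin n) (Fin n) ℂ}
    (hP : ∀ a b, ContDiffOn ℝ ∞ (fun w => P w a b) U)
    (hQ : ∀ a b, ContDiffOn ℝ ∞ (fun w => Q w a b) U) (a b : Fin n) :
    ContDiffOn ℝ ∞ (fun w => (P w * Q w) a b) U := by
  simp only [Matrix.mul_apply]
  exact ContDiffOn.sum fun c _ => (hP a c).mul (hQ c b)

theorem KD.det_ne (h : KD K U) : ∀ z ∈ U, (K z).det ≠ 0 := fun z hz => (h.pd z hz).det_pos.ne'

theorem contDiffOn_S (h : KD K U) (u : V n) (a b : Fin n) :
    ContDiffOn ℝ ∞ (fun w => S K w u a b) U :=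
  contDiffOn_mul (contDiffOn_inv h.sm h.det_ne) (contDiffOn_D1 h.op h.sm u) a b

/-- iterated `(1,0)` derivative: symmetric in the directions -/
theorem D1_D1_symm (h : KD K U) {z : V n} (hz : z ∈ U) (u v : V n) :
    D1 (fun w => D1 K w u) z v = D1 (fun w => D1 K w v) z u := by
  have hsd : ∀ (a b : Fin n) (u v : V n), fderiv ℝ (fun w => fderiv ℝ (fun w => K w a b) w u) z v
      = fderiv ℝ (fun w => fderiv ℝ (fun w => K w a b) w v) z u := by
    intro a b u v
    have h1 : ContDiffAt ℝ 2 (fun w => K w a b) z :=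
      ((h.sm a b).contDiffAt (h.op.mem_nhds hz)).of_le (WithTop.coe_le_coe.2 le_top)
    have h2 : DifferentiableAt ℝ (fderiv ℝ (fun w => K w a b)) z :=
      (h1.fderiv_right (m := 1) (by norm_num)).differentiableAt (by simp)
    have h3 := h1.isSymmSndFDerivAt (by simp)
    have h4 : ∀ x : V n, fderiv ℝ (fun w => fderiv ℝ (fun w => K w a b) w x) z =
        (fderiv ℝ (fderiv ℝ (fun w => K w a b)) z).flip x := by
      intro x
      ext y
      rw [fderiv_clm_apply h2 (differentiableAt_const x)]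
      simp
    rw [h4, h4]
    exact h3 v u
  have hDM : ∀ u v : V n, DM (fun w => DM K w u) z v = DM (fun w => DM K w v) z u := by
    intro u v
    ext a b
    simp only [DM_apply]
    exact hsd a b u v
  have hd : ∀ (x : V n) (a b : Fin n), DifferentiableAt ℝ (fun w => DM K w x a b) z :=
    fun x => differentiableAt_entry h.op (contDiffOn_DM h.op h.sm x) hz
  have hlin : ∀ u v : V n, DM (fun w => D1 K w u) z v =
      (1 / 2 : ℂ) • (DM (fun w => DM K w u) z v - I • DM (fun w => DM K w (I • u)) z v) := by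
    intro u v
    ext a b
    rw [DM_apply]
    have e1 : (fun w => D1 K w u a b) = fun w => (1 / 2 : ℂ) * (DM K w u a b - I * DM K w (I • u) a b) := by
      funext w
      simp [D1]
    have e2 : HasFDerivAt (fun w => (1 / 2 : ℂ) * (DM K w u a b - I * DM K w (I • u) a b))
        ((1 / 2 : ℂ) • (fderiv ℝ (fun w => DM K w u a b) z -
          I • fderiv ℝ (fun w => DM K w (I • u) a b) z)) z :=
      ((hd u a b).hasFDerivAt.sub ((hd (I • u) a b).hasFDerivAt.const_mul I)).const_mul _
    rw [e1, e2.fderiv]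
    simp [DM_apply]
  unfold D1 at hlin ⊢
  rw [hlin, hlin, hlin, hlin, hDM u v, hDM (I • u) v, hDM u (I • v), hDM (I • u) (I • v)]
  module

theorem fderiv_B (h : KD K U) {z : V n} (hz : z ∈ U) (u v w : V n) :
    DifferentiableAt ℝ (fun z => B K z u v) z ∧
    fderiv ℝ (fun z => B K z u v) z w =
      WithLp.toLp 2 (DM (fun z => S K z u) z w *ᵥ v.ofLp) := by
  have hS := differentiableAt_entry h.op (contDiffOn_S h u) hz
  have h1 : HasFDerivAt (fun z => S K z u *ᵥ v.ofLp)
      (ContinuousLinearMap.pi fun a => ∑ b, v b • fderiv ℝ (fun w => S K w u a b) z) z := by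
    rw [hasFDerivAt_pi]
    intro a
    simp only [Matrix.mulVec, dotProduct]
    apply HasFDerivAt.fun_sum
    intro b _
    exact (hS a b).hasFDerivAt.mul_const (v b)
  have h2 : HasFDerivAt (fun z => B K z u v)
      ((PiLp.continuousLinearEquiv 2 ℝ (fun _ : Fin n => ℂ)).symm.toContinuousLinearMap.comp
        (ContinuousLinearMap.pi fun a => ∑ b, v b • fderiv ℝ (fun w => S K w u a b) z)) z :=
    (PiLp.continuousLinearEquiv 2 ℝ (fun _ : Fin n => ℂ)).symm.hasFDerivAt.comp z h1
  refine ⟨h2.differentiableAt, ?_⟩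
  rw [h2.fderiv]
  ext a
  simp [Matrix.mulVec, dotProduct, DM_apply, mul_comm]

end

end Crest.Agent.R273.Ric_798
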