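import Crest.Agent.R273.Ric3_798

/-!
# R273 (S0416), leaf BGT-1 (helper798), part 4: the Ricci tensor of a Kaehler metric

`ricci_hm` : `Ric(v,v) = - 1/2 (D²ψ(v,v) + D²ψ(iv,iv))`, `ψ = log det K`.
-/

set_option autoImplicit false
set_option linter.unusedSectionVars false

open Set Filter Topology Complex Matrix
open scoped ContDiff ComplexConjugate ComplexOrder
open Crest.GeometryTopology.CoordMetric

namespace Crest.Agent.R273.Ric_798

noncomputable section

variable {n m : ℕ} {K : V n → Matrix (Fin n) (Fin n) ℂ} {U : Set (V n)}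

theorem DM_mulVec {P : V n → Matrix (Fin n) (Fin n) ℂ} {z : V n}
    (hP : ∀ a b, DifferentiableAt ℝ (fun w => P w a b) z) (x : Fin n → ℂ) (u : V n) (a : Fin n) :
    (DM P z u *ᵥ x) a = fderiv ℝ (fun w => (P w *ᵥ x) a) z u := by
  have h2 : HasFDerivAt (fun w => ∑ b, P w a b * x b)
      (∑ b, x b • fderiv ℝ (fun w => P w a b) z) z := by
    apply HasFDerivAt.fun_sum
    intro b _
    exact (hP a b).hasFDerivAt.mul_const (x b)
  simp only [Matrix.mulVec, dotProduct]
  rw [h2.fderiv]
  simp [DM_apply, mul_comm]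

theorem DM_mulVec_congr {P Q : V n → Matrix (Fin n) (Fin n) ℂ} {z : V n}
    (hP : ∀ a b, DifferentiableAt ℝ (fun w => P w a b) z)
    (hQ : ∀ a b, DifferentiableAt ℝ (fun w => Q w a b) z) {x y : Fin n → ℂ}
    (h : (fun w => P w *ᵥ x) =ᶠ[𝓝 z] fun w => Q w *ᵥ y) (u : V n) :
    DM P z u *ᵥ x = DM Q z u *ᵥ y := by
  ext a
  rw [DM_mulVec hP, DM_mulVec hQ]
  have : (fun w => (P w *ᵥ x) a) =ᶠ[𝓝 z] fun w => (Q w *ᵥ y) a := by
    filter_upwards [h] with w hw
    rw [hw]
  rw [this.fderiv_eq]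

theorem D1_mulVec_congr {P Q : V n → Matrix (Fin n) (Fin n) ℂ} {z : V n}
    (hP : ∀ a b, DifferentiableAt ℝ (fun w => P w a b) z)
    (hQ : ∀ a b, DifferentiableAt ℝ (fun w => Q w a b) z) {x y : Fin n → ℂ}
    (h : (fun w => P w *ᵥ x) =ᶠ[𝓝 z] fun w => Q w *ᵥ y) (u : V n) :
    D1 P z u *ᵥ x = D1 Q z u *ᵥ y := by
  unfold D1
  rw [Matrix.smul_mulVec, Matrix.smul_mulVec, Matrix.sub_mulVec, Matrix.sub_mulVec,
    Matrix.smul_mulVec, Matrix.smul_mulVec, DM_mulVec_congr hP hQ h, DM_mulVec_congr hP hQ h]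

/-- Kaehler symmetry of the second `(1,0)` derivatives -/
theorem D1_D1_kae (h : KD K U) {z : V n} (hz : z ∈ U) (u v w : V n) :
    D1 (fun y => D1 K y u) z w *ᵥ v.ofLp = D1 (fun y => D1 K y u) z v *ᵥ w.ofLp := by
  rw [D1_D1_symm h hz u w, D1_D1_symm h hz u v]
  refine D1_mulVec_congr (differentiableAt_entry h.op (contDiffOn_D1 h.op h.sm w) hz)
    (differentiableAt_entry h.op (contDiffOn_D1 h.op h.sm v) hz) ?_ u
  filter_upwards [h.op.mem_nhds hz] with y hy
  exact h.ka y hy w v

theorem D1_S (h : KD K U) {z : V n} (hz : z ∈ U) (u w : V n) :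
    D1 (fun y => S K y u) z w = (K z)⁻¹ * D1 (fun y => D1 K y u) z w - S K z w * S K z u := by
  have h1 := D1_mul (differentiableAt_entry h.op (contDiffOn_inv h.sm h.det_ne) hz)
    (differentiableAt_entry h.op (contDiffOn_D1 h.op h.sm u) hz) w
  rw [D1_inv h.op h.sm h.det_ne hz] at h1
  have h2 : (fun y => S K y u) = fun y => (K y)⁻¹ * D1 K y u := rfl
  rw [h2, h1]
  unfold S
  rw [neg_mul, ← sub_eq_neg_add]
  simp only [mul_assoc]

/-- the essential identity -/
theorem stuff (h : KD K U) {z : V n} (hz : z ∈ U) (u v w : V n) :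
    fderiv ℝ (fun y => B K y u v) z w - fderiv ℝ (fun y => B K y w u) z v
      + B K z w (B K z u v) - B K z v (B K z w u)
    = WithLp.toLp 2 (D2 (fun y => S K y u) z w *ᵥ v.ofLp)
      - WithLp.toLp 2 (D2 (fun y => S K y u) z v *ᵥ w.ofLp) := by
  have e1 : (fun y => B K y w u) =ᶠ[𝓝 z] fun y => B K y u w := by
    filter_upwards [h.op.mem_nhds hz] with y hy
    exact B_symm h hy w u
  rw [e1.fderiv_eq, (fderiv_B h hz u v w).2, (fderiv_B h hz u w v).2, B_symm h hz w u,
    ← D1_add_D2, ← D1_add_D2 (fun y => S K y u) z v, D1_S h hz, D1_S h hz]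
  simp only [B]
  rw [← WithLp.toLp_sub, ← WithLp.toLp_add, ← WithLp.toLp_sub, ← WithLp.toLp_sub]
  congr 1
  simp only [Matrix.add_mulVec, Matrix.sub_mulVec, Matrix.mulVec_mulVec]
  rw [← Matrix.mulVec_mulVec, ← Matrix.mulVec_mulVec v.ofLp, D1_D1_kae h hz u v w]
  rw [← Matrix.mulVec_mulVec w.ofLp]
  abel

/-! ### the Ricci tensor -/

variable (e : V n ≃L[ℝ] EuclideanSpace ℝ (Fin m))

/-- derivative of a component of a vector valued function pulled back by `e` -/
theorem pderiv_comp {F : V n → V n} {y : EuclideanSpace ℝ (Fin m)}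
    (hF : DifferentiableAt ℝ F (e.symm y)) (l k : Fin m) :
    pderiv l (fun y => e (F (e.symm y)) k) y = e (fderiv ℝ F (e.symm y) (bb e l)) k := by
  unfold pderiv
  have h1 : HasFDerivAt (fun y => e (F (e.symm y)) k)
      ((EuclideanSpace.proj k : EuclideanSpace ℝ (Fin m) →L[ℝ] ℝ).comp
        ((e : V n →L[ℝ] EuclideanSpace ℝ (Fin m)).comp ((fderiv ℝ F (e.symm y)).comp
          (e.symm : EuclideanSpace ℝ (Fin m) →L[ℝ] V n)))) y :=
    (EuclideanSpace.proj k : EuclideanSpace ℝ (Fin m) →L[ℝ] ℝ).hasFDerivAt.comp y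
      ((e : V n →L[ℝ] EuclideanSpace ℝ (Fin m)).hasFDerivAt.comp y
        (hF.hasFDerivAt.comp y (e.symm : EuclideanSpace ℝ (Fin m) →L[ℝ] V n).hasFDerivAt))
  rw [h1.fderiv]
  rfl

theorem B_sum_left {z : V n} {ι : Type*} (s : Finset ι) (c : ι → ℝ) (u : ι → V n) (v : V n) :
    B K z (∑ i ∈ s, c i • u i) v = ∑ i ∈ s, c i • B K z (u i) v := by
  classical
  have h0 : ∀ (c : ℝ) (u v : V n), B K z (c • u) v = c • B K z u v := by
    intro c u v
    unfold B S
    rw [D1_rsmul_dir, Matrix.mul_smul, Matrix.smul_mulVec]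
    ext a
    simp
  have h1 : ∀ (u u' v : V n), B K z (u + u') v = B K z u v + B K z u' v := by
    intro u u' v
    unfold B S
    rw [D1_add_dir, mul_add, Matrix.add_mulVec, WithLp.toLp_add]
  have h2 : B K z 0 v = 0 := by
    have := h0 0 0 v
    simpa using this
  induction s using Finset.induction_on with
  | empty => simpa using h2
  | insert a s ha ih => rw [Finset.sum_insert ha, Finset.sum_insert ha, h1, h0, ih]

/-- first form of the Ricci tensor -/
theorem ricci_trace (h : KD K U) {y : EuclideanSpace ℝ (Fin m)} (hy : e.symm y ∈ U)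
    (i j : Fin m) :
    ricci (hm e K) y i j =
      trE e (fun w => fderiv ℝ (fun z => B K z (bb e i) (bb e j)) (e.symm y) w
        - fderiv ℝ (fun z => B K z w (bb e i)) (e.symm y) (bb e j)
        + B K (e.symm y) w (B K (e.symm y) (bb e i) (bb e j))
        - B K (e.symm y) (bb e j) (B K (e.symm y) w (bb e i))) := by
  set z := e.symm y with hz
  have hev : ∀ᶠ y' in 𝓝 y, e.symm y' ∈ U :=
    e.symm.continuous.continuousAt.preimage_mem_nhds (h.op.mem_nhds hy)
  have e1 : ∀ k i j : Fin m, (fun y => christoffel (hm e K) y k i j) =ᶠ[𝓝 y]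
      fun y => e (B K (e.symm y) (bb e i) (bb e j)) k := by
    intro k i j
    filter_upwards [hev] with y' hy'
    exact chr_eq e h hy' k i j
  have e2 : ∀ l k i j : Fin m, pderiv l (fun y => christoffel (hm e K) y k i j) y =
      e (fderiv ℝ (fun z => B K z (bb e i) (bb e j)) z (bb e l)) k := by
    intro l k i j
    have : pderiv l (fun y => christoffel (hm e K) y k i j) y =
        pderiv l (fun y => e (B K (e.symm y) (bb e i) (bb e j)) k) y := by
      unfold pderiv
      rw [(e1 k i j).fderiv_eq]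
    rw [this]
    exact pderiv_comp e (F := fun z => B K z (bb e i) (bb e j)) (fderiv_B h hy _ _ 0).1 l k
  have e3 : pderiv j (fun y => ∑ k, christoffel (hm e K) y k k i) y =
      ∑ k, pderiv j (fun y => christoffel (hm e K) y k k i) y := by
    unfold pderiv
    have hd : ∀ k : Fin m, DifferentiableAt ℝ (fun y => christoffel (hm e K) y k k i) y := by
      intro k
      refine DifferentiableAt.congr_of_eventuallyEq ?_ (e1 k k i)
      have hF : DifferentiableAt ℝ (fun z => B K z (bb e k) (bb e i)) (e.symm y) :=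
        (fderiv_B h hy _ _ 0).1
      have h1 : HasFDerivAt (fun y => e (B K (e.symm y) (bb e k) (bb e i)) k)
        ((EuclideanSpace.proj k : EuclideanSpace ℝ (Fin m) →L[ℝ] ℝ).comp
          ((e : V n →L[ℝ] EuclideanSpace ℝ (Fin m)).comp
            ((fderiv ℝ (fun z => B K z (bb e k) (bb e i)) (e.symm y)).comp
            (e.symm : EuclideanSpace ℝ (Fin m) →L[ℝ] V n)))) y :=
        (EuclideanSpace.proj k : EuclideanSpace ℝ (Fin m) →L[ℝ] ℝ).hasFDerivAt.comp y
        ((e : V n →L[ℝ] EuclideanSpace ℝ (Fin m)).hasFDerivAt.comp y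
          (hF.hasFDerivAt.comp y (e.symm : EuclideanSpace ℝ (Fin m) →L[ℝ] V n).hasFDerivAt))
      exact h1.differentiableAt
    rw [fderiv_fun_sum fun k _ => hd k]
    simp
  have e4 : ∀ u : V n, ∑ l, (e u l) • bb e l = u := sum_bb e
  have e5 : ∀ k : Fin m, ∑ l, christoffel (hm e K) y k k l * christoffel (hm e K) y l i j =
      e (B K z (bb e k) (B K z (bb e i) (bb e j))) k := by
    intro k
    have hs : B K z (bb e k) (B K z (bb e i) (bb e j)) =
        ∑ l, (e (B K z (bb e i) (bb e j)) l) • B K z (bb e k) (bb e l) := by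
      rw [B_symm h hy]
      conv_lhs => rw [← e4 (B K z (bb e i) (bb e j)), B_sum_left]
      refine Finset.sum_congr rfl fun l _ => ?_
      rw [B_symm h hy (bb e l) (bb e k)]
    rw [hs]
    simp only [chr_eq e h hy, map_sum, map_smul]
    simp [Finset.sum_apply, mul_comm, hz]
  have e6 : ∀ k : Fin m, ∑ l, christoffel (hm e K) y k j l * christoffel (hm e K) y l k i =
      e (B K z (bb e j) (B K z (bb e k) (bb e i))) k := by
    intro k
    have hs : B K z (bb e j) (B K z (bb e k) (bb e i)) =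
        ∑ l, (e (B K z (bb e k) (bb e i)) l) • B K z (bb e j) (bb e l) := by
      rw [B_symm h hy]
      conv_lhs => rw [← e4 (B K z (bb e k) (bb e i)), B_sum_left]
      refine Finset.sum_congr rfl fun l _ => ?_
      rw [B_symm h hy (bb e l) (bb e j)]
    rw [hs]
    simp only [chr_eq e h hy, map_sum, map_smul]
    simp [Finset.sum_apply, mul_comm, hz]
  unfold ricci
  simp only [e2, e3, e5, e6]
  unfold trE
  rw [← Finset.sum_sub_distrib, ← Finset.sum_add_distrib, ← Finset.sum_sub_distrib]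
  refine Finset.sum_congr rfl fun k _ => ?_
  simp [map_add, map_sub]

/-- second form of the Ricci tensor -/
theorem ricci_D2 (h : KD K U) {y : EuclideanSpace ℝ (Fin m)} (hy : e.symm y ∈ U)
    (i j : Fin m) :
    ricci (hm e K) y i j =
      - (2 * (D2 (fun z => S K z (bb e i)) (e.symm y) (bb e j)).trace.re) := by
  rw [ricci_trace e h hy]
  simp only [stuff h hy]
  rw [trE_sub, trE_mat, trE_anti, zero_sub]
  · intro u v
    rw [D2_add_dir, Matrix.add_mulVec, WithLp.toLp_add]
  · intro c u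
    rw [D2_rsmul_dir, Matrix.smul_mulVec]
    ext a
    simp
  · intro u
    rw [D2_I_dir, Matrix.neg_mulVec, Matrix.smul_mulVec]
    ext a
    simp

end

end Crest.Agent.R273.Ric_798
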