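import Crest.Agent.R273.Cic_769
import Crest.Agent.R273.Defs_333

/-!
# R273, leaf A-RIG (helper769): vector valued sections, quotients of proportional sections,
the rigid case

* `IsWS L G s`   : `s : A.ι → M → ρ → ℂ` is a holomorphic section of `W ⊗ L`, `W` with cocycle `G`
                   (no condition on `G` is needed);
* `nlz`          : identity theorem: a section which is not identically zero is not locally zero;
* `quot_sec`     : `w` section of `W ⊗ L₁`, `w'` section of `W ⊗ L₂`, proportional, `|w'| ≤ C |w|`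
                   locally ⇒ `w' = lam w` with `lam` a holomorphic section of `L₂ L₁⁻¹`;
* `quot_cic`     : the same if `w ^ N q_N = w' ^ N s` for infinitely many `N`;
* `rigid`        : `w_k` (`k ∈ K` infinite) proportional sections of `W ⊗ L^k` such that all
                   `w_k^(m-l) w_m^(l-k) / w_l^(m-k)` are constant ⇒ `HasSec (L ^ (l - k))`.
-/

set_option autoImplicit false
set_option linter.unusedSectionVars false

open Set Filter Topology Complex
open scoped ContDiff Matrix ComplexConjugate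

namespace Crest.Agent.R273.Rigid769

open Crest.Agent.R275.Geo Crest.Agent.R275.Core144 Crest.Agent.R275.GC293
open Crest.Agent.R273.Defs_333 Crest.Agent.R273.Cic769

noncomputable section

variable {n : ℕ} {M : Type} [TopologicalSpace M] {A : Atl n M}

/-- holomorphic section of `W ⊗ L`, where `W` has the cocycle `G` -/
structure IsWS (L : LB A) {ρ : Type} [Fintype ρ] (G : A.ι → A.ι → M → Matrix ρ ρ ℂ)
    (s : A.ι → M → ρ → ℂ) : Prop where
  hol : ∀ i r, HolAt A i univ (fun x => s i x r)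
  tr : ∀ i j, ∀ x ∈ (A.e i).source ∩ (A.e j).source,
    s i x = L.g i j x • (G i j x *ᵥ s j x)

variable {L L₁ L₂ : LB A} {ρ : Type} [Fintype ρ] {G : A.ι → A.ι → M → Matrix ρ ρ ℂ}
  {s w w' : A.ι → M → ρ → ℂ}

/-- not identically zero -/
def NZ (s : A.ι → M → ρ → ℂ) : Prop := ∃ i, ∃ x ∈ (A.e i).source, s i x ≠ 0

/-- proportional families -/
def Prp (w w' : A.ι → M → ρ → ℂ) : Prop :=
  ∀ i, ∀ x ∈ (A.e i).source, ∀ a b, w i x a * w' i x b = w i x b * w' i x a

theorem HolAt.univ_iff {i : A.ι} {f : M → ℂ} : HolAt A i univ f ↔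
    DifferentiableOn ℂ (fun z => f ((A.e i).symm z)) (A.e i).target := by
  unfold HolAt
  rw [preimage_univ, inter_univ]

namespace IsWS

theorem zero_of (h : IsWS L G s) {i j : A.ι} {x : M}
    (hx : x ∈ (A.e i).source ∩ (A.e j).source) (h0 : s j x = 0) : s i x = 0 := by
  rw [h.tr i j x hx, h0, Matrix.mulVec_zero, smul_zero]

/-- the reading in a chart -/
theorem diff (h : IsWS L G s) (i : A.ι) :
    DifferentiableOn ℂ (fun z => s i ((A.e i).symm z)) (A.e i).target :=
  differentiableOn_pi.2 fun r => HolAt.univ_iff.1 (h.hol i r)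

theorem diffc (h : IsWS L G s) (i : A.ι) (r : ρ) :
    DifferentiableOn ℂ (fun z => s i ((A.e i).symm z) r) (A.e i).target :=
  HolAt.univ_iff.1 (h.hol i r)

theorem contAt (h : IsWS L G s) {i : A.ι} {x : M} (hx : x ∈ (A.e i).source) :
    ContinuousAt (s i) x := by
  have h1 : ContinuousAt (fun z => s i ((A.e i).symm z)) (A.e i x) :=
    ((h.diff i).differentiableAt
      ((A.e i).open_target.mem_nhds ((A.e i).map_source hx))).continuousAt
  have h2 : ContinuousAt (A.e i) x := (A.e i).continuousAt hx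
  have h3 : ContinuousAt ((fun z => s i ((A.e i).symm z)) ∘ (A.e i)) x :=
    ContinuousAt.comp (g := fun z => s i ((A.e i).symm z)) h1 h2
  refine h3.congr ?_
  filter_upwards [(A.e i).open_source.mem_nhds hx] with y hy
  simp [(A.e i).left_inv hy]

end IsWS

/-- frequently near a point, transported to the chart -/
theorem freq_chart {i : A.ι} {x : M} (hx : x ∈ (A.e i).source) {p : M → Prop}
    (h : ∃ᶠ y in 𝓝 x, p y) : ∃ᶠ z in 𝓝 (A.e i x), p ((A.e i).symm z) := by
  intro hcon
  apply h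
  have h2 : Tendsto (A.e i) (𝓝 x) (𝓝 (A.e i x)) := (A.e i).continuousAt hx
  filter_upwards [h2.eventually hcon, (A.e i).open_source.mem_nhds hx] with y hy hys
  rwa [(A.e i).left_inv hys] at hy

theorem freq_of_chart {i : A.ι} {z : Cn n} (hz : z ∈ (A.e i).target) {p : M → Prop}
    (h : ∃ᶠ w in 𝓝 z, p ((A.e i).symm w)) : ∃ᶠ y in 𝓝 ((A.e i).symm z), p y := by
  intro hcon
  apply h
  have h2 : Tendsto (A.e i).symm (𝓝 z) (𝓝 ((A.e i).symm z)) := (A.e i).symm.continuousAt hz
  exact h2.eventually hcon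

/-- **identity theorem** for sections -/
theorem nlz [PreconnectedSpace M] (h : IsWS L G s) (hne : NZ s) (i : A.ι) {x : M}
    (hx : x ∈ (A.e i).source) : ∃ᶠ y in 𝓝 x, s i y ≠ 0 := by
  classical
  set Z : Set M := {x | ∃ i, x ∈ (A.e i).source ∧ ∀ᶠ y in 𝓝 x, s i y = 0} with hZ
  have hop : IsOpen Z := by
    rw [isOpen_iff_mem_nhds]
    rintro x ⟨i, hxi, he⟩
    filter_upwards [(A.e i).open_source.mem_nhds hxi, eventually_eventually_nhds.2 he] with y hy hye
    exact ⟨i, hy, hye⟩
  have hany : ∀ x ∈ Z, ∀ j, x ∈ (A.e j).source → ∀ᶠ y in 𝓝 x, s j y = 0 := by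
    rintro x ⟨i, hxi, he⟩ j hxj
    filter_upwards [(A.e i).open_source.mem_nhds hxi, (A.e j).open_source.mem_nhds hxj, he]
      with y h1 h2 h3
    exact h.zero_of ⟨h2, h1⟩ h3
  have hcl : IsClosed Z := by
    rw [← closure_subset_iff_isClosed]
    intro x hxc
    obtain ⟨i, hxi⟩ := A.cover x
    obtain ⟨ρ', hρ, hball⟩ := Metric.isOpen_iff.1 (A.e i).open_target (A.e i x)
      ((A.e i).map_source hxi)
    have hV : (A.e i).source ∩ (A.e i) ⁻¹' (Metric.ball (A.e i x) ρ') ∈ 𝓝 x :=
      ((A.e i).isOpen_inter_preimage Metric.isOpen_ball).mem_nhds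
        ⟨hxi, Metric.mem_ball_self hρ⟩
    obtain ⟨y, ⟨hyi, hyb⟩, hyZ⟩ := mem_closure_iff_nhds.1 hxc _ hV
    have h1 : ∀ᶠ z in 𝓝 (A.e i y), s i ((A.e i).symm z) = 0 := by
      have h2 : Tendsto (A.e i).symm (𝓝 (A.e i y)) (𝓝 y) := by
        have := (A.e i).symm.continuousAt (x := A.e i y) ((A.e i).map_source hyi)
        rwa [ContinuousAt, (A.e i).left_inv hyi] at this
      exact h2.eventually (hany y hyZ i hyi)
    have hA : AnalyticOnNhd ℂ (fun z => s i ((A.e i).symm z)) (Metric.ball (A.e i x) ρ') :=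
      (Crest.Agent.R266.SCV.analyticOnNhd_of_differentiableOn (A.e i).open_target
        (h.diff i)).mono hball
    have h3 := hA.eqOn_zero_of_preconnected_of_eventuallyEq_zero
      (convex_ball _ _).isPreconnected hyb h1
    refine ⟨i, hxi, ?_⟩
    filter_upwards [hV] with u hu
    have := h3 hu.2
    simpa [(A.e i).left_inv hu.1] using this
  rcases isClopen_iff.1 ⟨hcl, hop⟩ with h1 | h1
  · intro hcon
    have : x ∈ Z := ⟨i, hx, by simpa using hcon⟩
    rw [h1] at this
    exact this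
  · exfalso
    obtain ⟨j, y, hy, hy0⟩ := hne
    have : y ∈ Z := by rw [h1]; trivial
    exact hy0 (hany y this j hy).self_of_nhds

/-- a component which is not locally zero on the whole chart -/
theorem exists_comp [PreconnectedSpace M] (h : IsWS L G s) (hne : NZ s) (i : A.ι)
    (hc : IsPreconnected (A.e i).target) (hn : (A.e i).target.Nonempty) :
    ∃ a : ρ, ∀ z ∈ (A.e i).target, ∃ᶠ y in 𝓝 z, s i ((A.e i).symm y) a ≠ 0 := by
  obtain ⟨z₀, hz₀⟩ := hn
  have h1 : ∃ᶠ y in 𝓝 ((A.e i).symm z₀), s i y ≠ 0 := nlz h hne i ((A.e i).map_target hz₀)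
  have h2 := freq_chart ((A.e i).map_target hz₀) h1
  rw [(A.e i).right_inv hz₀] at h2
  obtain ⟨z₁, hz₁, hz₁t⟩ := (h2.and_eventually ((A.e i).open_target.mem_nhds hz₀)).exists
  obtain ⟨a, ha⟩ := Function.ne_iff.1 hz₁
  refine ⟨a, fun z hz => ?_⟩
  exact (Crest.Agent.R266.SCV.dense_ne_zero (A.e i).open_target hc
    (Crest.Agent.R266.SCV.analyticOnNhd_of_differentiableOn (A.e i).open_target (h.diffc i a))
    ⟨z₁, hz₁t, ha⟩ z hz).mono fun y hy => hy.2

/-- the quotient of two proportional sections, the second one locally dominated by the first -/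
theorem quot_sec [PreconnectedSpace M] (hc : ∀ i, IsPreconnected (A.e i).target)
    (h1 : IsWS L₁ G w) (h2 : IsWS L₂ G w') (hne : NZ w) (hp : Prp w w')
    (hb : ∀ i, ∀ x ∈ (A.e i).source, ∃ C : ℝ, ∀ᶠ y in 𝓝 x, ‖w' i y‖ ≤ C * ‖w i y‖) :
    ∃ lam, IsHS (L₂ * L₁⁻¹) univ lam ∧
      ∀ i, ∀ x ∈ (A.e i).source, w' i x = lam i x • w i x := by
  classical
  have key : ∀ i, ∃ lam : Cn n → ℂ, DifferentiableOn ℂ lam (A.e i).target ∧
      ∀ z ∈ (A.e i).target, w' i ((A.e i).symm z) = lam z • w i ((A.e i).symm z) := by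
    intro i
    by_cases hn : (A.e i).target.Nonempty
    swap
    · rw [not_nonempty_iff_eq_empty] at hn
      exact ⟨fun _ => 0, by rw [hn]; exact differentiableOn_empty, fun z hz => by
        rw [hn] at hz; exact absurd hz (notMem_empty z)⟩
    obtain ⟨a, ha⟩ := exists_comp h1 hne i (hc i) hn
    have hb' : ∀ z ∈ (A.e i).target, ∃ C : ℝ, ∀ᶠ y in 𝓝 z,
        ‖w' i ((A.e i).symm y) a‖ ≤ C * ‖w i ((A.e i).symm y) a‖ := by
      intro z hz
      obtain ⟨C, hC⟩ := hb i _ ((A.e i).map_target hz)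
      have ht : Tendsto (A.e i).symm (𝓝 z) (𝓝 ((A.e i).symm z)) := (A.e i).symm.continuousAt hz
      refine ⟨C, ?_⟩
      filter_upwards [ht.eventually hC, (A.e i).open_target.mem_nhds hz] with y hy hyt
      set x := (A.e i).symm y
      have hx : x ∈ (A.e i).source := (A.e i).map_target hyt
      by_cases h0 : w i x a = 0
      · by_cases h00 : w i x = 0
        · rw [h00, norm_zero, mul_zero] at hy
          have := norm_le_zero_iff.1 hy
          rw [this, h0]; simp
        · obtain ⟨b, hb0⟩ := Function.ne_iff.1 h00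
          have h3 := hp i x hx a b
          rw [h0, zero_mul] at h3
          have h4 : w' i x a = 0 := by
            rcases mul_eq_zero.1 h3.symm with h5 | h5
            · exact absurd h5 hb0
            · exact h5
          rw [h0, h4]; simp
      · set μ := w' i x a / w i x a with hμ
        have h3 : w' i x = μ • w i x := by
          funext b
          have h4 := hp i x hx a b
          rw [Pi.smul_apply, smul_eq_mul, hμ, div_mul_eq_mul_div, eq_div_iff h0, mul_comm]
          rw [h4]; ring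
        have h5 : 0 < ‖w i x‖ := norm_pos_iff.2 fun h => h0 (by rw [h]; rfl)
        have h6 : ‖μ‖ ≤ C := by
          rw [h3, norm_smul] at hy
          exact le_of_mul_le_mul_right hy h5
        rw [h3, Pi.smul_apply, smul_eq_mul, norm_mul]
        exact mul_le_mul_of_nonneg_right h6 (norm_nonneg _)
    obtain ⟨lam, hlam, hle⟩ := exists_quot (A.e i).open_target (h2.diffc i a) (h1.diffc i a)
      ha hb'
    refine ⟨lam, hlam, fun z hz => ?_⟩
    funext b
    -- continuity and density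
    have hcont : ContinuousAt (fun y => w' i ((A.e i).symm y) b -
        lam y * w i ((A.e i).symm y) b) z := by
      have e1 := ((h2.diffc i b).differentiableAt ((A.e i).open_target.mem_nhds hz)).continuousAt
      have e2 := ((h1.diffc i b).differentiableAt ((A.e i).open_target.mem_nhds hz)).continuousAt
      have e3 := (hlam.differentiableAt ((A.e i).open_target.mem_nhds hz)).continuousAt
      exact e1.sub (e3.mul e2)
    have hfr : ∃ᶠ y in 𝓝 z, w' i ((A.e i).symm y) b - lam y * w i ((A.e i).symm y) b = 0 := by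
      refine ((ha z hz).and_eventually ((A.e i).open_target.mem_nhds hz)).mono ?_
      rintro y ⟨hy0, hyt⟩
      have h3 := hp i _ ((A.e i).map_target hyt) a b
      have h4 := hle y hyt
      rw [h4] at h3
      have h5 : w i ((A.e i).symm y) a * (w' i ((A.e i).symm y) b -
          lam y * w i ((A.e i).symm y) b) = 0 := by
        rw [mul_sub, h3]; ring
      exact (mul_eq_zero.1 h5).resolve_left hy0
    have h6 : w' i ((A.e i).symm z) b - lam z * w i ((A.e i).symm z) b = 0 := by
      by_contra hcon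
      exact hfr ((hcont.eventually_ne hcon).mono fun y hy h => hy h)
    exact sub_eq_zero.1 h6
  choose lam hlam hle using key
  have hle' : ∀ i, ∀ x ∈ (A.e i).source, w' i x = lam i (A.e i x) • w i x := by
    intro i x hx
    have := hle i (A.e i x) ((A.e i).map_source hx)
    rwa [(A.e i).left_inv hx] at this
  refine ⟨fun i x => if x ∈ (A.e i).source then lam i (A.e i x) else 0, ⟨?_, ?_, ?_⟩, ?_⟩
  · intro i
    rw [HolAt.univ_iff]
    refine (hlam i).congr fun z hz => ?_
    simp only [(A.e i).map_target hz, if_true, (A.e i).right_inv hz]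
  · intro i x hx
    simp [hx]
  · intro i j x hx _
    simp only [hx.1, hx.2, if_true]
    have hfr : ∃ᶠ y in 𝓝 x, lam i (A.e i y) - (L₂ * L₁⁻¹).g i j y * lam j (A.e j y) = 0 := by
      refine ((nlz h1 hne i hx.1).and_eventually
        (((A.e i).open_source.inter (A.e j).open_source).mem_nhds hx)).mono ?_
      rintro y ⟨hy0, hy⟩
      have e1 := hle' i y hy.1
      have e2 := hle' j y hy.2
      have e3 := h2.tr i j y hy
      have e4 := h1.tr i j y hy
      have hL1 : L₁.g i j y ≠ 0 := L₁.ne_zero i j y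
      have hL2 : L₂.g i j y ≠ 0 := L₂.ne_zero i j y
      rw [e2, Matrix.mulVec_smul] at e3
      have e5 : G i j y *ᵥ w j y = (L₁.g i j y)⁻¹ • w i y := by
        rw [e4, inv_smul_smul₀ hL1]
      rw [e5, e1] at e3
      obtain ⟨b, hb0⟩ := Function.ne_iff.1 hy0
      have e6 := congrFun e3 b
      simp only [Pi.smul_apply, smul_eq_mul] at e6
      rw [LB.mul_g, LB.inv_g]
      have hb0' : w i y b ≠ 0 := hb0
      have e7 : (lam i (A.e i y) - L₂.g i j y * (L₁.g i j y)⁻¹ * lam j (A.e j y)) * w i y b = 0 := by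
        rw [sub_mul, e6]; ring
      exact (mul_eq_zero.1 e7).resolve_right hb0'
    have hcx : ∀ k, x ∈ (A.e k).source → ContinuousAt (fun y => lam k (A.e k y)) x := fun k hk =>
      ContinuousAt.comp (g := lam k) (((hlam k).differentiableAt
        ((A.e k).open_target.mem_nhds ((A.e k).map_source hk))).continuousAt)
        ((A.e k).continuousAt hk)
    have hg : ContinuousAt ((L₂ * L₁⁻¹).g i j) x := by
      have e1 := ((L₂ * L₁⁻¹).hol i j).diffAt (A.e j).open_source hx.1 hx.2
      have e2 : ContinuousAt ((fun z => (L₂ * L₁⁻¹).g i j ((A.e i).symm z)) ∘ (A.e i)) x :=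
        ContinuousAt.comp (g := fun z => (L₂ * L₁⁻¹).g i j ((A.e i).symm z)) e1.continuousAt
          ((A.e i).continuousAt hx.1)
      refine e2.congr ?_
      filter_upwards [(A.e i).open_source.mem_nhds hx.1] with y hy
      simp only [Function.comp, (A.e i).left_inv hy]
    have hcont : ContinuousAt (fun y => lam i (A.e i y) -
        (L₂ * L₁⁻¹).g i j y * lam j (A.e j y)) x :=
      (hcx i hx.1).sub (hg.mul (hcx j hx.2))
    have h6 : lam i (A.e i x) - (L₂ * L₁⁻¹).g i j x * lam j (A.e j x) = 0 := by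
      by_contra hcon
      exact hfr ((hcont.eventually_ne hcon).mono fun y hy h => hy h)
    exact sub_eq_zero.1 h6
  · intro i x hx
    simp only [hx, if_true]
    exact hle' i x hx

/-- two dense conditions, the first one open -/
theorem freq_and {X : Type*} [TopologicalSpace X] {x : X} {p q : X → Prop}
    (h : ∃ᶠ y in 𝓝 x, (∀ᶠ u in 𝓝 y, p u) ∧ ∃ᶠ u in 𝓝 y, q u) : ∃ᶠ y in 𝓝 x, p y ∧ q y := by
  refine frequently_frequently_nhds.1 (h.mono fun y hy => ?_)
  exact (hy.2.and_eventually hy.1).mono fun u hu => ⟨hu.2, hu.1⟩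

/-- the quotient of two proportional sections, by complete integral closedness -/
theorem quot_cic [PreconnectedSpace M] (hc : ∀ i, IsPreconnected (A.e i).target)
    (h1 : IsWS L₁ G w) (h2 : IsWS L₂ G w') (hne : NZ w) (hp : Prp w w')
    {S : A.ι → M → ρ → ℂ} (hS : ∀ i a, HolAt A i univ (fun x => S i x a))
    (hS0 : ∀ i a, (∀ z ∈ (A.e i).target, ∃ᶠ y in 𝓝 z, w i ((A.e i).symm y) a ≠ 0) →
      ∀ z ∈ (A.e i).target, ∃ᶠ y in 𝓝 z,
        w i ((A.e i).symm y) a * S i ((A.e i).symm y) a ≠ 0)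
    (hN : ∀ N₀ : ℕ, ∃ N, N₀ ≤ N ∧ ∃ q : A.ι → M → ρ → ℂ,
      (∀ i a, HolAt A i univ (fun x => q i x a)) ∧
      ∀ i, ∀ x ∈ (A.e i).source, ∀ a, w i x a ^ N * q i x a = w' i x a ^ N * S i x a) :
    ∃ lam, IsHS (L₂ * L₁⁻¹) univ lam ∧
      ∀ i, ∀ x ∈ (A.e i).source, w' i x = lam i x • w i x := by
  refine quot_sec hc h1 h2 hne hp fun i x hx => ?_
  have hn : (A.e i).target.Nonempty := ⟨_, (A.e i).map_source hx⟩
  obtain ⟨a, ha⟩ := exists_comp h1 hne i (hc i) hn
  have hz := (A.e i).map_source hx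
  obtain ⟨C, hC⟩ := bound_of_pow (A.e i).open_target
    (Crest.Agent.R266.SCV.analyticOnNhd_of_differentiableOn (A.e i).open_target (h2.diffc i a))
    (Crest.Agent.R266.SCV.analyticOnNhd_of_differentiableOn (A.e i).open_target (h1.diffc i a))
    (Crest.Agent.R266.SCV.analyticOnNhd_of_differentiableOn (A.e i).open_target
      (HolAt.univ_iff.1 (hS i a)))
    hz (hS0 i a ha _ hz) (fun N₀ => by
      obtain ⟨N, hNN, q, hq, he⟩ := hN N₀
      exact ⟨N, hNN, _, HolAt.univ_iff.1 (hq i a), fun z hz => he i _ ((A.e i).map_target hz) a⟩)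
  refine ⟨C, ?_⟩
  -- transport to `M`
  have hC' : ∀ᶠ y in 𝓝 x, y ∈ (A.e i).source ∧ ‖w' i y a‖ ≤ C * ‖w i y a‖ := by
    filter_upwards [((A.e i).continuousAt hx).tendsto.eventually hC,
      (A.e i).open_source.mem_nhds hx] with y hy hys
    rw [(A.e i).left_inv hys] at hy
    exact ⟨hys, hy⟩
  filter_upwards [eventually_eventually_nhds.2 hC'] with y hy
  have hys := hy.self_of_nhds.1
  have hfr : ∃ᶠ u in 𝓝 y, w i u a ≠ 0 := by
    have := freq_of_chart ((A.e i).map_source hys)
      (p := fun u => w i u a ≠ 0) (ha _ ((A.e i).map_source hys))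
    rwa [(A.e i).left_inv hys] at this
  have hcont : ContinuousAt (fun u => C * ‖w i u‖ - ‖w' i u‖) y :=
    (continuousAt_const.mul (h1.contAt hys).norm).sub (h2.contAt hys).norm
  have hfr2 : ∃ᶠ u in 𝓝 y, 0 ≤ C * ‖w i u‖ - ‖w' i u‖ := by
    refine (hfr.and_eventually hy).mono ?_
    rintro u ⟨h0, hus, hle⟩
    set μ := w' i u a / w i u a with hμ
    have h3 : w' i u = μ • w i u := by
      funext b
      have h4 := hp i u hus a b
      rw [Pi.smul_apply, smul_eq_mul, hμ, div_mul_eq_mul_div, eq_div_iff h0, mul_comm]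
      rw [h4]; ring
    have h6 : ‖μ‖ ≤ C := by
      rw [hμ, norm_div, div_le_iff₀ (norm_pos_iff.2 h0)]
      exact hle
    rw [h3, norm_smul]
    have := mul_le_mul_of_nonneg_right h6 (norm_nonneg (w i u))
    linarith
  have := ge_of_tendsto_of_frequently hcont.tendsto hfr2
  linarith

/-- if `w`, `w'` are proportional nonzero sections, a component of `w` which is not locally zero
gives a component of `w'` which is not locally zero -/
theorem comp_of_prp [PreconnectedSpace M] (h1 : IsWS L₁ G w) (h2 : IsWS L₂ G w')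
    (hne' : NZ w') (hp : Prp w w') {i : A.ι} {a : ρ}
    (ha : ∀ z ∈ (A.e i).target, ∃ᶠ y in 𝓝 z, w i ((A.e i).symm y) a ≠ 0) {z : Cn n}
    (hz : z ∈ (A.e i).target) :
    ∃ᶠ y in 𝓝 z, w i ((A.e i).symm y) a ≠ 0 ∧ w' i ((A.e i).symm y) a ≠ 0 := by
  have h3 : ∃ᶠ y in 𝓝 z, w i ((A.e i).symm y) a ≠ 0 ∧
      (w' i ((A.e i).symm y) ≠ 0 ∧ y ∈ (A.e i).target) := by
    apply freq_and
    refine ((ha z hz).and_eventually ((A.e i).open_target.mem_nhds hz)).mono ?_
    rintro y ⟨hy, hyt⟩
    constructor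
    · exact (((h1.diffc i a).differentiableAt
        ((A.e i).open_target.mem_nhds hyt)).continuousAt).eventually_ne hy
    · have h4 := freq_chart ((A.e i).map_target hyt) (nlz h2 hne' i ((A.e i).map_target hyt))
      rw [(A.e i).right_inv hyt] at h4
      exact h4.and_eventually ((A.e i).open_target.mem_nhds hyt)
  refine h3.mono ?_
  rintro y ⟨hy, hy', hyt⟩
  refine ⟨hy, fun h0 => ?_⟩
  obtain ⟨b, hb⟩ := Function.ne_iff.1 hy'
  have h4 := hp i _ ((A.e i).map_target hyt) a b
  rw [h0, mul_zero] at h4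
  rcases mul_eq_zero.1 h4 with h5 | h5
  · exact hy h5
  · exact hb h5

/-- **rigid case**, with the quotient section -/
theorem rigid' [PreconnectedSpace M] (hc : ∀ i, IsPreconnected (A.e i).target)
    (K : Set ℕ) (hK : K.Infinite) (W : ℕ → A.ι → M → ρ → ℂ)
    (hW : ∀ k ∈ K, IsWS (L ^ k) G (W k)) (hne : ∀ k ∈ K, NZ (W k))
    (hp : ∀ k ∈ K, ∀ l ∈ K, Prp (W k) (W l))
    (hconst : ∀ k ∈ K, ∀ l ∈ K, ∀ m ∈ K, k < l → l < m → ∃ C : ℂ, C ≠ 0 ∧
      ∀ i, ∀ x ∈ (A.e i).source, ∀ a,
        W k i x a ^ (m - l) * W m i x a ^ (l - k) = C * W l i x a ^ (m - k))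
    {k l : ℕ} (hk : k ∈ K) (hl : l ∈ K) (hkl : k < l) :
    ∃ lam, IsHS (L ^ (l - k)) univ lam ∧
      ∀ i, ∀ x ∈ (A.e i).source, W l i x = lam i x • W k i x := by
  rw [pow_sub L hkl.le]
  refine quot_cic hc (hW k hk) (hW l hl) (hne k hk) (hp k hk l hl)
    (S := fun i x a => W l i x a ^ (l - k)) (fun i a => ((hW l hl).hol i a).pow _) ?_ ?_
  · intro i a ha z hz
    refine (comp_of_prp (hW k hk) (hW l hl) (hne l hl) (hp k hk l hl) ha hz).mono ?_
    rintro y ⟨h1, h2⟩
    exact mul_ne_zero h1 (pow_ne_zero _ h2)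
  · intro N₀
    obtain ⟨m, hm, hmN⟩ := hK.exists_gt (l + N₀)
    obtain ⟨C, hC, he⟩ := hconst k hk l hl m hm hkl (by omega)
    refine ⟨m - l, by omega, fun i x a => C⁻¹ * W m i x a ^ (l - k),
      fun i a => (((hW m hm).hol i a).pow _).const_mul _, fun i x hx a => ?_⟩
    have h1 := he i x hx a
    have h2 : m - k = (m - l) + (l - k) := by omega
    calc W k i x a ^ (m - l) * (C⁻¹ * W m i x a ^ (l - k))
        = C⁻¹ * (W k i x a ^ (m - l) * W m i x a ^ (l - k)) := by ring
      _ = C⁻¹ * (C * W l i x a ^ (m - k)) := by rw [h1]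
      _ = W l i x a ^ (m - k) := by rw [inv_mul_cancel_left₀ hC]
      _ = W l i x a ^ (m - l) * W l i x a ^ (l - k) := by rw [h2, pow_add]

/-- **rigid case** -/
theorem rigid [PreconnectedSpace M] (hc : ∀ i, IsPreconnected (A.e i).target)
    (K : Set ℕ) (hK : K.Infinite) (W : ℕ → A.ι → M → ρ → ℂ)
    (hW : ∀ k ∈ K, IsWS (L ^ k) G (W k)) (hne : ∀ k ∈ K, NZ (W k))
    (hp : ∀ k ∈ K, ∀ l ∈ K, Prp (W k) (W l))
    (hconst : ∀ k ∈ K, ∀ l ∈ K, ∀ m ∈ K, k < l → l < m → ∃ C : ℂ, C ≠ 0 ∧
      ∀ i, ∀ x ∈ (A.e i).source, ∀ a,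
        W k i x a ^ (m - l) * W m i x a ^ (l - k) = C * W l i x a ^ (m - k)) :
    ∃ m, 0 < m ∧ HasSec (L ^ m) := by
  obtain ⟨k, hk⟩ := hK.nonempty
  obtain ⟨l, hl, hkl⟩ := hK.exists_gt k
  obtain ⟨lam, h1, h2⟩ := rigid' hc K hK W hW hne hp hconst hk hl hkl
  refine ⟨l - k, by omega, lam, h1, ?_⟩
  obtain ⟨i, x, hx, h0⟩ := hne l hl
  refine ⟨i, x, hx, fun h3 => h0 ?_⟩
  rw [h2 i x hx, h3, zero_smul]

end

end Crest.Agent.R273.Rigid769
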