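import Crest.Agent.R238.SchAll
import Crest.Agent.R238.Sch3

/-!
Row 273 (S0416), leaf L1 (helper152): LOCAL interior Schauder estimate, part A.
* `HO a M s r`   : `r` bounded by `M` and `a`-Hölder with constant `M` on the set `s`;
* `lb_loc`       : interpolation on balls.
-/

set_option autoImplicit false

open Set Metric
open scoped ContDiff Topology

namespace Crest.Agent.R273.SchA_152

open Crest.Agent.R238 Crest.Agent.R238.Sch

/-- bounded by `M` and `a`-Hölder with constant `M` on `s` -/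
structure HO {X F : Type*} [NormedAddCommGroup X] [NormedAddCommGroup F]
    (a M : ℝ) (s : Set X) (r : X → F) : Prop where
  bdd : ∀ x ∈ s, ‖r x‖ ≤ M
  hol : ∀ x ∈ s, ∀ y ∈ s, ‖r x - r y‖ ≤ M * ‖x - y‖ ^ a

section basics

variable {X F : Type*} [NormedAddCommGroup X] [NormedAddCommGroup F] {a M N : ℝ} {s t : Set X}
  {r r' : X → F}

theorem HO.mono (h : HO a M s r) (hMN : M ≤ N) : HO a N s r where
  bdd x hx := (h.bdd x hx).trans hMN
  hol x hx y hy := (h.hol x hx y hy).trans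
    (mul_le_mul_of_nonneg_right hMN (Real.rpow_nonneg (norm_nonneg _) a))

theorem HO.subset (h : HO a M s r) (hts : t ⊆ s) : HO a M t r where
  bdd x hx := h.bdd x (hts hx)
  hol x hx y hy := h.hol x (hts hx) y (hts hy)

theorem HO.congr (h : HO a M s r) (hr : ∀ x ∈ s, r' x = r x) : HO a M s r' where
  bdd x hx := by rw [hr x hx]; exact h.bdd x hx
  hol x hx y hy := by rw [hr x hx, hr y hy]; exact h.hol x hx y hy

theorem HO.nonneg (h : HO a M s r) {x : X} (hx : x ∈ s) : 0 ≤ M :=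
  (norm_nonneg _).trans (h.bdd x hx)

theorem HO.of_hb (h : Sch.HB a M r) : HO a M s r where
  bdd x _ := h.bdd x
  hol x _ y _ := h.hol x y

theorem HO.add (h : HO a M s r) (h' : HO a N s r') : HO a (M + N) s (fun x => r x + r' x) where
  bdd x hx := (norm_add_le _ _).trans (add_le_add (h.bdd x hx) (h'.bdd x hx))
  hol x hx y hy := by
    have e : r x + r' x - (r y + r' y) = (r x - r y) + (r' x - r' y) := by abel
    rw [e, add_mul]
    exact (norm_add_le _ _).trans (add_le_add (h.hol x hx y hy) (h'.hol x hx y hy))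

theorem HO.neg (h : HO a M s r) : HO a M s (fun x => - r x) where
  bdd x hx := by rw [norm_neg]; exact h.bdd x hx
  hol x hx y hy := by
    have e : -r x - -r y = -(r x - r y) := by abel
    rw [e, norm_neg]
    exact h.hol x hx y hy

end basics

variable {n : ℕ}

local notation "E" => EuclideanSpace ℝ (Fin n)

/-- Interpolation of first order quantities on the unit ball. -/
theorem lb_loc {a ε : ℝ} (ha : 0 < a) (ha1 : a < 1) (hε : 0 < ε) :
    ∃ C : ℝ, 0 ≤ C ∧ ∀ (h : E → ℝ) (V H : ℝ), ContDiff ℝ 2 h → 0 ≤ V →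
      (∀ z ∈ closedBall (0 : E) 1, ‖D2 h z‖ ≤ V) → (∀ z ∈ closedBall (0 : E) 1, |h z| ≤ H) →
      LB a (ε * V + C * H) (closedBall 0 (3 / 4)) h := by
  -- choose `t`
  obtain ⟨t, ht0, ht1, ht2⟩ : ∃ t : ℝ, 0 < t ∧ t ≤ 1 / 4 ∧ 12 * t ^ (1 - a) ≤ ε := by
    obtain ⟨d, hd0, hd1, hd⟩ := exists_rpow_le (a := 1 - a) (κ := ε / 12) (by linarith)
      (by positivity)
    refine ⟨d / 4, by positivity, by linarith, ?_⟩
    have h1 : (d / 4) ^ (1 - a) ≤ d ^ (1 - a) :=
      Real.rpow_le_rpow (by positivity) (by linarith) (by linarith)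
    linarith
  have hta : 0 < t ^ (-a) := Real.rpow_pos_of_pos ht0 _
  have ht1a : 0 < t ^ (1 - a) := Real.rpow_pos_of_pos ht0 _
  have htt : t * t ^ (-a) = t ^ (1 - a) := by
    rw [sub_eq_add_neg, Real.rpow_add ht0, Real.rpow_one]
  have htle : t ≤ t ^ (1 - a) := by
    calc t = t ^ (1 : ℝ) := (Real.rpow_one t).symm
      _ ≤ t ^ (1 - a) := Real.rpow_le_rpow_of_exponent_ge ht0 (by linarith) (by linarith)
  have hta1 : 1 ≤ t ^ (-a) := by
    rw [Real.rpow_neg ht0.le]
    refine (one_le_inv₀ (Real.rpow_pos_of_pos ht0 _)).2 ?_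
    exact Real.rpow_le_one ht0.le (by linarith) ha.le
  refine ⟨4 + 12 / t ^ 2 * t ^ (-a), by positivity, fun h V H hh hV0 hV hH => ?_⟩
  have hd : Differentiable ℝ h := hh.differentiable (by norm_num)
  have hd1 : Differentiable ℝ (fderiv ℝ h) :=
    (hh.fderiv_right (m := 1) (by norm_num)).differentiable (by norm_num)
  have hH0 : 0 ≤ H := (abs_nonneg _).trans (hH 0 (mem_closedBall_self zero_le_one))
  have ht2' : t ^ 2 ≤ 1 / 4 := by nlinarith
  -- gradient bound
  set P := 2 * H / t ^ 2 + V * t ^ 2 with hP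
  have hP0 : 0 ≤ P := by positivity
  have hsub : ∀ x ∈ closedBall (0 : E) (3 / 4), closedBall x (t ^ 2) ⊆ closedBall (0 : E) 1 := by
    intro x hx
    refine closedBall_subset_closedBall' ?_
    rw [mem_closedBall] at hx
    linarith
  have h34 : closedBall (0 : E) (3 / 4) ⊆ closedBall (0 : E) 1 :=
    closedBall_subset_closedBall (by norm_num)
  have hG : ∀ x ∈ closedBall (0 : E) (3 / 4), ‖fderiv ℝ h x‖ ≤ P := fun x hx =>
    norm_fderiv_le hh (by positivity) (fun z hz => hH z (hsub x hx hz))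
      (fun z hz => hV z (hsub x hx hz))
  have hdist : ∀ x ∈ closedBall (0 : E) (3 / 4), ∀ y ∈ closedBall (0 : E) (3 / 4),
      ‖x - y‖ ≤ 2 * 1 := by
    intro x hx y hy
    rw [mem_closedBall, dist_zero_right] at hx hy
    have := norm_sub_le x y
    linarith
  have hLip0 : ∀ x ∈ closedBall (0 : E) (3 / 4), ∀ y ∈ closedBall (0 : E) (3 / 4),
      ‖h x - h y‖ ≤ P * ‖x - y‖ := fun x hx y hy =>
    (convex_closedBall (0 : E) (3 / 4)).norm_image_sub_le_of_norm_fderiv_le
      (fun w _ => hd w) (fun w hw => hG w hw) hy hx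
  have hLip1 : ∀ x ∈ closedBall (0 : E) (3 / 4), ∀ y ∈ closedBall (0 : E) (3 / 4),
      ‖fderiv ℝ h x - fderiv ℝ h y‖ ≤ V * ‖x - y‖ := fun x hx y hy =>
    (convex_closedBall (0 : E) (3 / 4)).norm_image_sub_le_of_norm_fderiv_le
      (f := fderiv ℝ h) (fun w _ => hd1 w) (fun w hw => hV w (h34 hw)) hy hx
  -- the constant
  set Q := ε * V + (4 + 12 / t ^ 2 * t ^ (-a)) * H with hQ
  have hVt : V * t ^ 2 * t ^ (-a) ≤ V * t ^ (1 - a) := by
    have : V * t ^ 2 * t ^ (-a) = V * (t * t ^ (1 - a)) := by rw [← htt]; ring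
    rw [this]
    exact mul_le_mul_of_nonneg_left (by nlinarith) hV0
  have e1 : V * t ^ (1 - a) * 12 ≤ ε * V := by
    have := mul_le_mul_of_nonneg_left ht2 hV0
    linarith
  have hHt : 0 ≤ H / t ^ 2 * t ^ (-a) := by positivity
  have e2 : H / t ^ 2 ≤ H / t ^ 2 * t ^ (-a) := le_mul_of_one_le_right (by positivity) hta1
  have e3 : (4 + 12 / t ^ 2 * t ^ (-a)) * H = 4 * H + 12 * (H / t ^ 2 * t ^ (-a)) := by ring
  have hVt1 : V * t ^ 2 ≤ V * t ^ (1 - a) := by
    refine mul_le_mul_of_nonneg_left ?_ hV0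
    nlinarith
  have hVn : 0 ≤ V * t ^ (1 - a) := by positivity
  have hPQ : 3 * P ≤ Q := by
    have : P = 2 * (H / t ^ 2) + V * t ^ 2 := by rw [hP]; ring
    rw [this, hQ, e3]
    nlinarith
  refine ⟨fun x hx => ?_, fun x hx y hy => ?_, fun x hx => ?_, fun x hx y hy => ?_⟩
  · refine (hH x (h34 hx)).trans ?_
    rw [hQ, e3]
    nlinarith
  · have h1 := hLip0 x hx y hy
    have h2 := le_rpow_of_le (norm_nonneg _) (hdist x hx y hy) ha ha1.le
    have hp : 0 ≤ ‖x - y‖ ^ a := Real.rpow_nonneg (norm_nonneg _) _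
    rw [← Real.norm_eq_abs]
    calc ‖h x - h y‖ ≤ P * ‖x - y‖ := h1
      _ ≤ P * ((1 + 2 * 1) * ‖x - y‖ ^ a) := mul_le_mul_of_nonneg_left h2 hP0
      _ = (3 * P) * ‖x - y‖ ^ a := by ring
      _ ≤ Q * ‖x - y‖ ^ a := mul_le_mul_of_nonneg_right hPQ hp
  · exact (hG x hx).trans (by linarith)
  · have hp : 0 ≤ ‖x - y‖ ^ a := Real.rpow_nonneg (norm_nonneg _) _
    rcases le_or_gt ‖x - y‖ t with hle | hgt
    · rcases (norm_nonneg (x - y)).eq_or_lt with h0 | h0
      · have h1 := hLip1 x hx y hy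
        rw [← h0, mul_zero] at h1
        refine h1.trans (mul_nonneg ?_ hp)
        linarith
      have h1 : ‖x - y‖ = ‖x - y‖ ^ (1 - a) * ‖x - y‖ ^ a := by
        rw [← Real.rpow_add h0]; simp
      have h2 : ‖x - y‖ ^ (1 - a) ≤ t ^ (1 - a) :=
        Real.rpow_le_rpow h0.le hle (by linarith)
      calc ‖fderiv ℝ h x - fderiv ℝ h y‖ ≤ V * ‖x - y‖ := hLip1 x hx y hy
        _ = V * (‖x - y‖ ^ (1 - a) * ‖x - y‖ ^ a) := by rw [← h1]
        _ ≤ V * (t ^ (1 - a) * ‖x - y‖ ^ a) :=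
            mul_le_mul_of_nonneg_left (mul_le_mul_of_nonneg_right h2 hp) hV0
        _ = V * t ^ (1 - a) * ‖x - y‖ ^ a := by ring
        _ ≤ Q * ‖x - y‖ ^ a := by
            refine mul_le_mul_of_nonneg_right ?_ hp
            rw [hQ, e3]
            nlinarith
    · have h1 : ‖fderiv ℝ h x - fderiv ℝ h y‖ ≤ 2 * P := by
        have := norm_sub_le (fderiv ℝ h x) (fderiv ℝ h y)
        linarith [hG x hx, hG y hy]
      have h4 : 1 ≤ t ^ (-a) * ‖x - y‖ ^ a := by
        rw [Real.rpow_neg ht0.le, inv_mul_eq_div, le_div_iff₀ (Real.rpow_pos_of_pos ht0 a),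
          one_mul]
        exact Real.rpow_le_rpow ht0.le hgt.le ha.le
      calc ‖fderiv ℝ h x - fderiv ℝ h y‖ ≤ 2 * P * 1 := by linarith
        _ ≤ 2 * P * (t ^ (-a) * ‖x - y‖ ^ a) := mul_le_mul_of_nonneg_left h4 (by positivity)
        _ = (2 * P * t ^ (-a)) * ‖x - y‖ ^ a := by ring
        _ ≤ Q * ‖x - y‖ ^ a := by
            refine mul_le_mul_of_nonneg_right ?_ hp
            have : 2 * P * t ^ (-a)
                = 4 * (H / t ^ 2 * t ^ (-a)) + 2 * (V * t ^ 2 * t ^ (-a)) := by rw [hP]; ring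
            rw [this, hQ, e3]
            nlinarith

end Crest.Agent.R273.SchA_152
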