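import Crest.Agent.R273.SchA_152
import Crest.Agent.R238.SchFrozen

/-!
Row 273 (S0416), leaf L1 (helper152): LOCAL interior Schauder estimate, part B: the unit ball step
(fixed cut-offs, arbitrary small factor `θ` in front of the top order norm on the larger ball).
-/

set_option autoImplicit false

open Set Metric
open scoped ContDiff Topology

namespace Crest.Agent.R273.SchB_152

open Crest.Agent.R238.Sch Crest.Agent.R273.SchA_152
open Crest.Agent.R238 (Ell Hs)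

variable {n : ℕ}

local notation "E" => EuclideanSpace ℝ (Fin n)

/-- radial cutoffs, with values in `[0,1]` -/
theorem bump {a ρ ρ' : ℝ} (ha : 0 < a) (ha1 : a ≤ 1) (hρ : 0 < ρ) (hρ' : ρ < ρ') :
    ∃ (ψ : E → ℝ) (X : ℝ), Cut a X ψ ∧ (∀ x, ‖x‖ ≤ ρ → ψ x = 1) ∧ (∀ x, ρ' ≤ ‖x‖ → ψ x = 0) ∧
      (∀ x, 0 ≤ ψ x) ∧ ∀ x, ψ x ≤ 1 := by
  let f : ContDiffBump (0 : E) := ⟨ρ, ρ', hρ, hρ'⟩
  obtain ⟨X, hX⟩ := Cut.of_compactSupport (ψ := f) ha ha1 f.contDiff f.hasCompactSupport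
  exact ⟨f, X, hX, fun x hx => f.one_of_mem_closedBall (by simpa using hx), fun x hx =>
    f.zero_of_le_dist (by simpa using hx), fun x => f.nonneg, fun x => f.le_one⟩

/-- the operator without drift -/
noncomputable def P2 (τ : E → Matrix (Fin n) (Fin n) ℝ) (h : E → ℝ) (x : E) : ℝ :=
  ∑ i, ∑ j, τ x i j * D2 h x (ee i) (ee j)

theorem ell_conv {lo hi t : ℝ} {A B : Matrix (Fin n) (Fin n) ℝ} (hA : Ell lo hi A)
    (hB : Ell lo hi B) (h0 : 0 ≤ t) (h1 : t ≤ 1) : Ell lo hi (t • A + (1 - t) • B) := by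
  refine ⟨fun i j => ?_, fun z => ?_⟩
  · simp [hA.1 i j, hB.1 i j]
  have e : ∑ i, ∑ j, (t • A + (1 - t) • B) i j * z i * z j
      = t * (∑ i, ∑ j, A i j * z i * z j) + (1 - t) * ∑ i, ∑ j, B i j * z i * z j := by
    rw [Finset.mul_sum, Finset.mul_sum, ← Finset.sum_add_distrib]
    refine Finset.sum_congr rfl fun i _ => ?_
    rw [Finset.mul_sum, Finset.mul_sum, ← Finset.sum_add_distrib]
    refine Finset.sum_congr rfl fun j _ => ?_
    simp only [Matrix.add_apply, Matrix.smul_apply, smul_eq_mul]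
    ring
  rw [e]
  have a1 := (hA.2 z).1
  have a2 := (hA.2 z).2
  have b1 := (hB.2 z).1
  have b2 := (hB.2 z).2
  have ht : 0 ≤ 1 - t := by linarith
  constructor
  · have := mul_le_mul_of_nonneg_left a1 h0
    have := mul_le_mul_of_nonneg_left b1 ht
    nlinarith
  · have := mul_le_mul_of_nonneg_left a2 h0
    have := mul_le_mul_of_nonneg_left b2 ht
    nlinarith

/-- `χ · v` with `χ` a cutoff and `v` controlled on `s` -/
theorem cut_mul {a X N : ℝ} {s : Set E} {χ v : E → ℝ} (hχ : HB a X χ)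
    (h0 : ∀ x, x ∉ s → χ x = 0) (hN : 0 ≤ N) (hv : HO a N s v) :
    HB a (2 * (X * N)) (fun x => χ x * v x) :=
  double hχ h0 hN hv.bdd hv.hol

/-- entries of the second derivative, on a set -/
theorem HO.entry {a M : ℝ} {s : Set E} {B : E → E →L[ℝ] E →L[ℝ] ℝ}
    (h : HO a M s B) (i j : Fin n) : HO a M s (fun x => B x (ee i) (ee j)) where
  bdd x hx := (norm_entry_le _ i j).trans (h.bdd x hx)
  hol x hx y hy := by
    have := norm_entry_le (B x - B y) i j
    simp only [_root_.sub_apply] at this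
    exact this.trans (h.hol x hx y hy)

set_option maxHeartbeats 1000000 in
/-- the unit ball step -/
theorem unit_step (n : ℕ) {a lo hi : ℝ} (ha : 0 < a) (ha1 : a < 1) (hlo : 0 < lo)
    (hlohi : lo ≤ hi) (M : ℝ) {θ : ℝ} (hθ : 0 < θ) :
    ∃ C : ℝ, 0 < C ∧ ∀ (τ : EuclideanSpace ℝ (Fin n) → Matrix (Fin n) (Fin n) ℝ),
      (∀ x ∈ closedBall (0 : EuclideanSpace ℝ (Fin n)) 1, Ell lo hi (τ x)) →
      (∀ i j, HO a M (closedBall 0 1) (fun x => τ x i j)) →
      ∀ (u : EuclideanSpace ℝ (Fin n) → ℝ) (V N S : ℝ), ContDiff ℝ 2 u →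
        HO a V (closedBall 0 1) (D2 u) → HO a N (closedBall 0 1) (P2 τ u) →
        (∀ x ∈ closedBall (0 : EuclideanSpace ℝ (Fin n)) 1, |u x| ≤ S) →
        HO a (θ * V + C * (N + S)) (closedBall 0 (1 / 2)) (D2 u) := by
  -- cutoffs
  obtain ⟨χ, X, hχ, hχ1, hχ0, hχnn, hχle⟩ :=
    bump (n := n) (ρ := 5 / 8) (ρ' := 3 / 4) ha ha1.le (by norm_num) (by norm_num)
  obtain ⟨η, Y, hη, hη1, hη0, hηnn, hηle⟩ :=
    bump (n := n) (ρ := 3 / 4) (ρ' := 1) ha ha1.le (by norm_num) (by norm_num)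
  have hX0 := hχ.c0.nonneg
  have hY0 := hη.c0.nonneg
  set s : Set (EuclideanSpace ℝ (Fin n)) := closedBall 0 (3 / 4) with hs
  set b1 : Set (EuclideanSpace ℝ (Fin n)) := closedBall 0 1 with hb1
  have hsb : s ⊆ b1 := closedBall_subset_closedBall (by norm_num)
  have hsc : ∀ x, x ∉ s → x ∈ (closedBall (0 : EuclideanSpace ℝ (Fin n)) (3 / 4))ᶜ := fun x hx => hx
  have hso : IsOpen (closedBall (0 : EuclideanSpace ℝ (Fin n)) (3 / 4))ᶜ :=
    isClosed_closedBall.isOpen_compl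
  have hχs : ∀ x ∈ (closedBall (0 : EuclideanSpace ℝ (Fin n)) (3 / 4))ᶜ, χ x = 0 := by
    intro x hx
    refine hχ0 x ?_
    simp only [mem_compl_iff, mem_closedBall, dist_zero_right, not_le] at hx
    exact hx.le
  have hs0 : ∀ x, x ∉ s → χ x = 0 := fun x hx => hχs x (hsc x hx)
  have hs1 : ∀ x, x ∉ s → fderiv ℝ χ x = 0 := fun x hx => fderiv_const_open hso hχs (hsc x hx)
  have hs2 : ∀ x, x ∉ s → D2 χ x = 0 := fun x hx => D2_const_open hso hχs (hsc x hx)
  -- the Schauder constant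
  set M' : ℝ := 2 * (Y * (|M| + 1)) + 1 with hM'
  have hM'0 : 0 ≤ M' := by positivity
  obtain ⟨ε₀, hε₀, H⟩ := schStmt n a (min lo 1) (max hi 1) ha ha1 (by positivity)
    ((min_le_left _ _).trans (hlohi.trans (le_max_left _ _)))
  obtain ⟨C0, R', hC0, H1⟩ := H M' 1
  set KQ : ℝ := 8 * X + (n : ℝ) ^ 2 * (9 * (X * M')) + 2 * X with hKQ
  have hKQ0 : 0 ≤ KQ := by positivity
  obtain ⟨Cε, hCε, hlb⟩ := lb_loc (n := n) (ε := θ / ((n : ℝ) ^ 2 * C0 * KQ + 1)) ha ha1
    (by positivity)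
  refine ⟨(n : ℝ) ^ 2 * C0 * (2 * X + 1 + KQ * Cε) + 1, by positivity, ?_⟩
  intro τ hell hτ u V N S hu hV hN hS
  have h01 : (0 : EuclideanSpace ℝ (Fin n)) ∈ b1 := mem_closedBall_self zero_le_one
  have hV0 : 0 ≤ V := hV.nonneg h01
  have hN0 : 0 ≤ N := hN.nonneg h01
  have hS0 : 0 ≤ S := (abs_nonneg _).trans (hS 0 h01)
  set ε := θ / ((n : ℝ) ^ 2 * C0 * KQ + 1) with hε
  set Q := ε * V + Cε * S with hQ
  have hε0 : 0 < ε := by positivity
  have hQ0 : 0 ≤ Q := by positivity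
  have hL : LB a Q s u := hlb u V S hu hV0 hV.bdd hS
  -- modified coefficients
  set τ' : EuclideanSpace ℝ (Fin n) → Matrix (Fin n) (Fin n) ℝ :=
    fun x => η x • τ x + (1 - η x) • (1 : Matrix (Fin n) (Fin n) ℝ) with hτ'
  have hηs : ∀ x, x ∉ b1 → η x = 0 := by
    intro x hx
    refine hη0 x ?_
    simp only [hb1, mem_closedBall, dist_zero_right, not_le] at hx
    exact hx.le
  have hτs : ∀ x ∈ s, τ' x = τ x := by
    intro x hx
    have : η x = 1 := hη1 x (by simpa [hs] using hx)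
    simp [hτ', this]
  have hτ'far : ∀ x : EuclideanSpace ℝ (Fin n), 1 ≤ ‖x‖ → τ' x = 1 := by
    intro x hx
    simp [hτ', hη0 x hx]
  have hell1 : Ell (min lo 1) (max hi 1) (1 : Matrix (Fin n) (Fin n) ℝ) :=
    ell_one' (min_le_right _ _) (le_max_right _ _)
  have hell' : ∀ x, Ell (min lo 1) (max hi 1) (τ' x) := by
    intro x
    by_cases hx : x ∈ b1
    · exact ell_conv (ell_mono (min_le_left _ _) (le_max_left _ _) (hell x hx)) hell1
        (hηnn x) (hηle x)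
    · have : τ' x = 1 := by simp [hτ', hηs x hx]
      rw [this]; exact hell1
  have hτ'H : ∀ i j, HB a M' (fun x => τ' x i j) := by
    intro i j
    have hMnn : M ≤ |M| := le_abs_self M
    have e : (fun x => τ' x i j) = fun x => η x * (τ x i j - (1 : Matrix (Fin n) (Fin n) ℝ) i j)
        + (1 : Matrix (Fin n) (Fin n) ℝ) i j := by
      funext x
      simp only [hτ', Matrix.add_apply, Matrix.smul_apply, smul_eq_mul]
      ring
    have h1 : |(1 : Matrix (Fin n) (Fin n) ℝ) i j| ≤ 1 := by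
      rw [Matrix.one_apply]; split_ifs <;> simp
    have h2 : HO a (|M| + 1) b1 (fun x => τ x i j - (1 : Matrix (Fin n) (Fin n) ℝ) i j) := by
      refine ⟨fun x hx => (norm_sub_le _ _).trans (add_le_add ?_ (by simpa using h1)),
        fun x hx y hy => ?_⟩
      · exact ((hτ i j).bdd x hx).trans hMnn
      · have e2 : τ x i j - (1 : Matrix (Fin n) (Fin n) ℝ) i j
            - (τ y i j - (1 : Matrix (Fin n) (Fin n) ℝ) i j) = τ x i j - τ y i j := by ring
        rw [e2]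
        refine ((hτ i j).hol x hx y hy).trans (mul_le_mul_of_nonneg_right ?_
          (Real.rpow_nonneg (norm_nonneg _) _))
        linarith
    rw [e, hM']
    refine (cut_mul hη.c0 hηs (by positivity) h2).add ((HB.const _).mono ?_)
    simpa using h1
  have hfar : R238.Apr.Far a ε₀ 1 τ' := by
    intro x y hx hy i j
    rw [hτ'far x hx, hτ'far y hy]
    have : 0 ≤ ε₀ * ‖x - y‖ ^ a := mul_nonneg hε₀.le (Real.rpow_nonneg (norm_nonneg _) _)
    simpa using ⟨hε₀.le, this⟩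
  -- the function
  set h : EuclideanSpace ℝ (Fin n) → ℝ := fun x => χ x * u x with hh
  have hh2 : ContDiff ℝ 2 h := hχ.sm.mul hu
  -- drift
  have hdr : HO a (4 * Q) s (fun x => fderiv ℝ u x x) := by
    refine ⟨fun x hx => ?_, fun x hx y hy => ?_⟩
    · have hx1 : ‖x‖ ≤ 1 := by
        have : ‖x‖ ≤ 3 / 4 := by simpa [hs] using hx
        linarith
      refine ((fderiv ℝ u x).le_opNorm x).trans ?_
      have := mul_le_mul (hL.d0 x hx) hx1 (norm_nonneg _) hQ0
      linarith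
    · have hx1 : ‖x‖ ≤ 1 := by
        have : ‖x‖ ≤ 3 / 4 := by simpa [hs] using hx
        linarith
      have hy1 : ‖y‖ ≤ 1 := by
        have : ‖y‖ ≤ 3 / 4 := by simpa [hs] using hy
        linarith
      have hxy : ‖x - y‖ ≤ 2 * 1 := (norm_sub_le _ _).trans (by linarith)
      have h3 := le_rpow_of_le (norm_nonneg _) hxy ha ha1.le
      have hp : 0 ≤ ‖x - y‖ ^ a := Real.rpow_nonneg (norm_nonneg _) _
      have e : fderiv ℝ u x x - fderiv ℝ u y y
          = (fderiv ℝ u x - fderiv ℝ u y) x + fderiv ℝ u y (x - y) := by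
        simp only [_root_.sub_apply, map_sub]; ring
      rw [e]
      refine (norm_add_le _ _).trans ?_
      have h4 : ‖(fderiv ℝ u x - fderiv ℝ u y) x‖ ≤ Q * ‖x - y‖ ^ a * 1 :=
        ((fderiv ℝ u x - fderiv ℝ u y).le_opNorm x).trans
          (mul_le_mul (hL.d1 x hx y hy) hx1 (norm_nonneg _) (by positivity))
      have h5 : ‖fderiv ℝ u y (x - y)‖ ≤ Q * ‖x - y‖ :=
        ((fderiv ℝ u y).le_opNorm _).trans
          (mul_le_mul_of_nonneg_right (hL.d0 y hy) (norm_nonneg _))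
      have h6 : Q * ‖x - y‖ ≤ Q * ((1 + 2 * 1) * ‖x - y‖ ^ a) :=
        mul_le_mul_of_nonneg_left h3 hQ0
      nlinarith
  have hf : HO a (N + 4 * Q) s (fun x => Lop τ' 0 u x) := by
    refine ((hN.subset hsb).add hdr.neg).congr fun x hx => ?_
    simp only [Lop, hτs x hx, P2]
    ring
  -- the equation for `h`
  have heq : Lop τ' 0 h = fun x => χ x * Lop τ' 0 u x
          + (∑ i, ∑ j, (fderiv ℝ χ x (ee i) * (τ' x i j * fderiv ℝ u x (ee j))
              + fderiv ℝ χ x (ee j) * (τ' x i j * fderiv ℝ u x (ee i))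
              + D2 χ x (ee i) (ee j) * (τ' x i j * u x)))
          - fderiv ℝ χ x x * u x := by
    funext x
    have h1 := Lop_cut (τ := τ') (lam := 0) hχ.sm hu (τ' x) x
    have h2 : Lop τ' 0 h x = Lop (fun _ => τ' x) 0 (fun x => χ x * u x) x := rfl
    rw [h2, h1]
    simp
  have hrhs : HB a (2 * (X * (N + 4 * Q)) + (n : ℝ) ^ 2 * (9 * (X * (M' * Q))) + 2 * (X * Q))
      (Lop τ' 0 h) := by
    rw [heq]
    refine HB.sub (HB.add (cut_mul hχ.c0 hs0 (by positivity) hf) (HB.sum_sq fun i j => ?_)) ?_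
    · have e : 9 * (X * (M' * Q)) = 3 * (X * (M' * Q)) + 3 * (X * (M' * Q)) + 3 * (X * (M' * Q)) := by
        ring
      rw [e]
      refine ((triple (s := s) (hχ.c1.vec i) ?_ (hτ'H i j) hQ0 (lb_vec hL j).1 (lb_vec hL j).2).add
        (triple (s := s) (hχ.c1.vec j) ?_ (hτ'H i j) hQ0 (lb_vec hL i).1 (lb_vec hL i).2)).add
        (triple (s := s) (hχ.c2.entry i j) ?_ (hτ'H i j) hQ0 (fun x hx => hL.h0 x hx)
          (fun x hx y hy => hL.h1 x hx y hy))
      · intro x hx; rw [hs1 x hx]; rfl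
      · intro x hx; rw [hs1 x hx]; rfl
      · intro x hx; rw [hs2 x hx]; rfl
    · refine double (s := s) hχ.cx ?_ hQ0 (fun x hx => hL.h0 x hx)
          (fun x hx y hy => hL.h1 x hx y hy)
      intro x hx; rw [hs1 x hx]; rfl
  -- qualitative bound
  have hqual : ∃ B, ∀ i j, R238.HB a B (fun x => Hs h x i j) := by
    refine ⟨2 * (X * V) + 2 * (X * Q) + 2 * (X * Q) + 2 * (X * Q), fun i j => ?_⟩
    have e : (fun x => Hs h x i j)
        = fun x => χ x * D2 u x (ee i) (ee j) + fderiv ℝ χ x (ee i) * fderiv ℝ u x (ee j)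
        + fderiv ℝ χ x (ee j) * fderiv ℝ u x (ee i) + D2 χ x (ee i) (ee j) * u x := by
      funext x
      rw [Hs_eq, D2_prod hχ.sm hu]
      ring
    rw [e, ← hb_iff]
    refine (((cut_mul hχ.c0 hs0 hV0 ((HO.entry hV i j).subset hsb)).add
      (double (s := s) (hχ.c1.vec i) ?_ hQ0 (lb_vec hL j).1 (lb_vec hL j).2)).add
      (double (s := s) (hχ.c1.vec j) ?_ hQ0 (lb_vec hL i).1 (lb_vec hL i).2)).add
      (double (s := s) (hχ.c2.entry i j) ?_ hQ0 (fun x hx => hL.h0 x hx)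
          (fun x hx y hy => hL.h1 x hx y hy))
    · intro x hx; rw [hs1 x hx]; rfl
    · intro x hx; rw [hs1 x hx]; rfl
    · intro x hx; rw [hs2 x hx]; rfl
  have hsup : ∀ x : EuclideanSpace ℝ (Fin n), ‖x‖ ≤ R' → |h x| ≤ S := by
    intro x _
    by_cases hx : x ∈ b1
    · rw [hh]
      simp only [abs_mul, abs_of_nonneg (hχnn x)]
      have := hS x hx
      calc χ x * |u x| ≤ 1 * |u x| := mul_le_mul_of_nonneg_right (hχle x) (abs_nonneg _)
        _ ≤ S := by linarith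
    · have : h x = 0 := by
        rw [hh]; simp [hs0 x fun hx' => hx (hsb hx')]
      rw [this]; simpa using hS0
  have hmain := H1 τ' hell' (fun i j => hb_iff.1 (hτ'H i j)) hfar 0 (Or.inl rfl) h _ S hh2 hqual
    (by
      have h3 := hb_iff.1 hrhs
      rw [Lop_eq] at h3
      exact h3) hsup
  have hD : HB a _ (D2 h) := HB.of_entry fun i j => hb_iff.2 (hmain i j)
  have hD' := (HO.of_hb (s := closedBall (0 : EuclideanSpace ℝ (Fin n)) (1 / 2)) hD).congr
    (r' := D2 u) (fun x hx => (D2_congr_open (f := h) (g := u)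
      (U := ball (0 : EuclideanSpace ℝ (Fin n)) (5 / 8)) isOpen_ball (fun y hy => by
        rw [hh]
        have : ‖y‖ ≤ 5 / 8 := by
          rw [mem_ball, dist_zero_right] at hy; exact hy.le
        simp [hχ1 y this]) (closedBall_subset_ball (by norm_num) hx)).symm)
  refine hD'.mono ?_
  have hn : 0 ≤ (n : ℝ) ^ 2 * C0 := by positivity
  have e1 : (n : ℝ) ^ 2 * (C0 * (2 * (X * (N + 4 * Q)) + (n : ℝ) ^ 2 * (9 * (X * (M' * Q)))
      + 2 * (X * Q) + S)) = (n : ℝ) ^ 2 * C0 * (2 * X * N + S) + (n : ℝ) ^ 2 * C0 * KQ * Q := by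
    rw [hKQ]; ring
  rw [e1]
  have e2 : (n : ℝ) ^ 2 * C0 * KQ * ε ≤ θ := by
    rw [hε, mul_div_assoc']
    rw [div_le_iff₀ (by positivity)]
    nlinarith
  have e3 : (n : ℝ) ^ 2 * C0 * KQ * Q
      = ((n : ℝ) ^ 2 * C0 * KQ * ε) * V + (n : ℝ) ^ 2 * C0 * (KQ * Cε) * S := by
    rw [hQ]; ring
  rw [e3]
  have e4 := mul_le_mul_of_nonneg_right e2 hV0
  have p1 : 0 ≤ (n : ℝ) ^ 2 * C0 * (KQ * Cε) * N := by positivity
  have p2 : 0 ≤ (n : ℝ) ^ 2 * C0 * (2 * X) * S := by positivity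
  have p3 : 0 ≤ (n : ℝ) ^ 2 * C0 * N := by positivity
  nlinarith

end Crest.Agent.R273.SchB_152
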