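import Crest.Agent.R273.SchB_152

/-!
Row 273 (S0416), leaf L1 (helper152): LOCAL interior Schauder estimate, part C: scaling, weighted
norms, absorption.  Main results `int_schauder` (globally `C²` function) and `int_schauder_on`
(function `C²` on a neighbourhood of the ball).
-/

set_option autoImplicit false

open Set Metric Filter
open scoped ContDiff Topology

namespace Crest.Agent.R273.SchC_152

open Crest.Agent.R238.Sch Crest.Agent.R273.SchA_152 Crest.Agent.R273.SchB_152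
open Crest.Agent.R238 (Ell Hs)

variable {n : ℕ}

local notation "E" => EuclideanSpace ℝ (Fin n)

theorem nsm (c : ℝ) (B : E →L[ℝ] E →L[ℝ] ℝ) : ‖c • B‖ = |c| * ‖B‖ := by
  have := @norm_smul ℝ (E →L[ℝ] E →L[ℝ] ℝ) _ _ _ NormedSpace.toNormSMulClass c B
  exact this

theorem ssb (c : ℝ) (B B' : E →L[ℝ] E →L[ℝ] ℝ) : c • B - c • B' = c • (B - B') :=
  (smul_sub c B B').symm

section scaling

theorem fderiv_scale {F : Type*} [NormedAddCommGroup F] [NormedSpace ℝ F] {g : E → F}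
    (hg : Differentiable ℝ g) (c : E) (ρ : ℝ) (y : E) :
    fderiv ℝ (fun y => g (c + ρ • y)) y = ρ • fderiv ℝ g (c + ρ • y) := by
  have h1 : HasFDerivAt (fun y : E => c + ρ • y) (ρ • ContinuousLinearMap.id ℝ E) y :=
    ((hasFDerivAt_id y).const_smul ρ).const_add c
  have h2 : HasFDerivAt (fun y => g (c + ρ • y))
      ((fderiv ℝ g (c + ρ • y)).comp (ρ • ContinuousLinearMap.id ℝ E)) y :=
    (hg (c + ρ • y)).hasFDerivAt.comp y h1
  rw [h2.fderiv]
  ext v
  simp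

theorem D2_scale {u : E → ℝ} (hu : ContDiff ℝ 2 u) (c : E) (ρ : ℝ) (y : E) :
    D2 (fun y => u (c + ρ • y)) y = ρ ^ 2 • D2 u (c + ρ • y) := by
  have hd : Differentiable ℝ u := hu.differentiable (by norm_num)
  have hd1 : Differentiable ℝ (fderiv ℝ u) :=
    (hu.fderiv_right (m := 1) (by norm_num)).differentiable (by norm_num)
  have e1 : fderiv ℝ (fun y => u (c + ρ • y)) = fun y => ρ • fderiv ℝ u (c + ρ • y) := by
    funext y; exact fderiv_scale hd c ρ y
  unfold D2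
  rw [e1]
  have h3 : DifferentiableAt ℝ (fun y => fderiv ℝ u (c + ρ • y)) y := by
    have h1 : DifferentiableAt ℝ (fun y : E => c + ρ • y) y :=
      (differentiableAt_id.const_smul ρ).const_add c
    exact (hd1 _).comp y h1
  rw [fderiv_fun_const_smul h3, fderiv_scale hd1, smul_smul, pow_two]

end scaling

/-- weighted bound -/
structure WB (a V R : ℝ) (x0 : E) (u : E → ℝ) : Prop where
  w0 : ∀ x ∈ ball x0 R, (R - ‖x - x0‖) ^ 2 * ‖D2 u x‖ ≤ V
  w1 : ∀ x ∈ ball x0 R, ∀ y, ‖y - x‖ ≤ (R - ‖x - x0‖) / 4 →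
    (R - ‖x - x0‖) ^ (2 + a) * ‖D2 u x - D2 u y‖ ≤ V * ‖x - y‖ ^ a

theorem wb_start {a V R : ℝ} {x0 : E} {u : E → ℝ} (ha : 0 < a) (hR0 : 0 < R) (hR1 : R ≤ 1)
    (h : HO a V (closedBall x0 R) (D2 u)) : WB a V R x0 u := by
  have hV0 : 0 ≤ V := h.nonneg (mem_closedBall_self hR0.le)
  refine ⟨fun x hx => ?_, fun x hx y hy => ?_⟩
  · rw [mem_ball, dist_eq_norm] at hx
    have h1 := h.bdd x (by rw [mem_closedBall, dist_eq_norm]; exact hx.le)
    have h2 : (R - ‖x - x0‖) ^ 2 ≤ 1 := by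
      have := norm_nonneg (x - x0)
      nlinarith
    calc (R - ‖x - x0‖) ^ 2 * ‖D2 u x‖ ≤ 1 * V :=
        mul_le_mul h2 h1 (norm_nonneg (D2 u x)) zero_le_one
      _ = V := one_mul V
  · rw [mem_ball, dist_eq_norm] at hx
    have hd0 : 0 < R - ‖x - x0‖ := by linarith
    have hd1 : R - ‖x - x0‖ ≤ 1 := by
      have := norm_nonneg (x - x0)
      linarith
    have hy1 : y ∈ closedBall x0 R := by
      rw [mem_closedBall, dist_eq_norm]
      have h3 : y - x0 = (y - x) + (x - x0) := by abel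
      rw [h3]
      have := norm_add_le (y - x) (x - x0)
      linarith
    have h1 := h.hol x (by rw [mem_closedBall, dist_eq_norm]; exact hx.le) y hy1
    have h2 : (R - ‖x - x0‖) ^ (2 + a) ≤ 1 :=
      Real.rpow_le_one hd0.le hd1 (by linarith)
    have hp : 0 ≤ V * ‖x - y‖ ^ a := mul_nonneg hV0 (Real.rpow_nonneg (norm_nonneg _) _)
    calc (R - ‖x - x0‖) ^ (2 + a) * ‖D2 u x - D2 u y‖ ≤ 1 * (V * ‖x - y‖ ^ a) :=
        mul_le_mul h2 h1 (norm_nonneg (D2 u x - D2 u y)) zero_le_one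
      _ = _ := one_mul _

theorem wb_step (n : ℕ) {a lo hi : ℝ} (ha : 0 < a) (ha1 : a < 1) (hlo : 0 < lo)
    (hlohi : lo ≤ hi) (M : ℝ) :
    ∃ C : ℝ, 0 < C ∧ ∀ (R : ℝ) (x0 : EuclideanSpace ℝ (Fin n))
      (τ : EuclideanSpace ℝ (Fin n) → Matrix (Fin n) (Fin n) ℝ), 0 < R → R ≤ 1 →
      (∀ x ∈ closedBall x0 R, Ell lo hi (τ x)) →
      (∀ i j, HO a M (closedBall x0 R) (fun x => τ x i j)) →
      ∀ (u : EuclideanSpace ℝ (Fin n) → ℝ) (V N S : ℝ), ContDiff ℝ 2 u → 0 ≤ V →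
        WB a V R x0 u → HO a N (closedBall x0 R) (P2 τ u) →
        (∀ x ∈ closedBall x0 R, |u x| ≤ S) → WB a (C * (N + S) + V / 2) R x0 u := by
  obtain ⟨C, hC, H⟩ := unit_step n ha ha1 hlo hlohi M (θ := 1 / 128) (by norm_num)
  refine ⟨8 * C, by positivity, ?_⟩
  intro R x0 τ hR0 hR1 hell hτ u V N S hu hV0 hW hN hS
  have hN0 : 0 ≤ N := hN.nonneg (mem_closedBall_self hR0.le)
  have hS0 : 0 ≤ S := (abs_nonneg _).trans (hS x0 (mem_closedBall_self hR0.le))
  -- the scaled estimate at `x`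
  have key : ∀ x ∈ ball x0 R, HO a (1 / 128 * (8 * V) + C * (N + S)) (closedBall 0 (1 / 2))
      (D2 (fun y => u (x + ((R - ‖x - x0‖) / 2) • y))) := by
    intro x hx
    rw [mem_ball, dist_eq_norm] at hx
    set ρ := (R - ‖x - x0‖) / 2 with hρ
    have hρ0 : 0 < ρ := by rw [hρ]; linarith
    have hnn := norm_nonneg (x - x0)
    have hρ1 : ρ ≤ 1 := by rw [hρ]; linarith
    have hz : ∀ y ∈ closedBall (0 : EuclideanSpace ℝ (Fin n)) 1, ‖x + ρ • y - x0‖ ≤ R - ρ := by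
      intro y hy
      rw [mem_closedBall, dist_zero_right] at hy
      have e : x + ρ • y - x0 = (x - x0) + ρ • y := by abel
      rw [e]
      refine (norm_add_le _ _).trans ?_
      rw [norm_smul, Real.norm_of_nonneg hρ0.le]
      have : ρ * ‖y‖ ≤ ρ := by nlinarith
      rw [hρ] at this ⊢
      linarith
    have hzc : ∀ y ∈ closedBall (0 : EuclideanSpace ℝ (Fin n)) 1, x + ρ • y ∈ closedBall x0 R := by
      intro y hy
      rw [mem_closedBall, dist_eq_norm]
      linarith [hz y hy]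
    have hzb : ∀ y ∈ closedBall (0 : EuclideanSpace ℝ (Fin n)) 1, x + ρ • y ∈ ball x0 R := by
      intro y hy
      rw [mem_ball, dist_eq_norm]
      linarith [hz y hy]
    have hdiff : ∀ y y' : EuclideanSpace ℝ (Fin n), ‖(x + ρ • y) - (x + ρ • y')‖ = ρ * ‖y - y'‖ := by
      intro y y'
      have e : (x + ρ • y) - (x + ρ • y') = ρ • (y - y') := by rw [smul_sub]; abel
      rw [e, norm_smul, Real.norm_of_nonneg hρ0.le]
    have hpow : ∀ y y' : EuclideanSpace ℝ (Fin n),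
        ‖(x + ρ • y) - (x + ρ • y')‖ ^ a = ρ ^ a * ‖y - y'‖ ^ a := by
      intro y y'
      rw [hdiff, Real.mul_rpow hρ0.le (norm_nonneg _)]
    have hρa : ρ ^ a ≤ 1 := Real.rpow_le_one hρ0.le hρ1 ha.le
    have hρa0 : 0 < ρ ^ a := Real.rpow_pos_of_pos hρ0 _
    refine H (fun y => τ (x + ρ • y)) (fun y hy => hell _ (hzc y hy)) (fun i j => ?_)
      (fun y => u (x + ρ • y)) (8 * V) N S ?_ ?_ ?_ (fun y hy => hS _ (hzc y hy))
    · -- coefficients
      have hM0 := (hτ i j).nonneg (mem_closedBall_self hR0.le)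
      refine ⟨fun y hy => (hτ i j).bdd _ (hzc y hy), fun y hy y' hy' => ?_⟩
      refine ((hτ i j).hol _ (hzc y hy) _ (hzc y' hy')).trans ?_
      rw [hpow]
      have hp : 0 ≤ ‖y - y'‖ ^ a := Real.rpow_nonneg (norm_nonneg _) _
      have : ρ ^ a * ‖y - y'‖ ^ a ≤ 1 * ‖y - y'‖ ^ a := mul_le_mul_of_nonneg_right hρa hp
      rw [one_mul] at this
      exact mul_le_mul_of_nonneg_left this hM0
    · exact hu.comp (contDiff_const.add (contDiff_id.const_smul ρ))
    · -- second derivatives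
      have e2 : D2 (fun y => u (x + ρ • y)) = fun y => ρ ^ 2 • D2 u (x + ρ • y) := by
        funext y; exact D2_scale hu x ρ y
      rw [e2]
      have hsup : ∀ y ∈ closedBall (0 : EuclideanSpace ℝ (Fin n)) 1,
          ‖ρ ^ 2 • D2 u (x + ρ • y)‖ ≤ V := by
        intro y hy
        rw [nsm, abs_of_nonneg (by positivity)]
        have h1 := hW.w0 _ (hzb y hy)
        have h2 : ρ ≤ R - ‖x + ρ • y - x0‖ := by linarith [hz y hy]
        have h3 : ρ ^ 2 ≤ (R - ‖x + ρ • y - x0‖) ^ 2 := by gcongr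
        exact (mul_le_mul_of_nonneg_right h3 (norm_nonneg (D2 u (x + ρ • y)))).trans h1
      refine ⟨fun y hy => (hsup y hy).trans (by linarith), fun y hy y' hy' => ?_⟩
      have hp : 0 ≤ ‖y - y'‖ ^ a := Real.rpow_nonneg (norm_nonneg _) _
      have hVp : 0 ≤ V * ‖y - y'‖ ^ a := mul_nonneg hV0 hp
      rcases le_or_gt ‖(x + ρ • y') - (x + ρ • y)‖ ((R - ‖x + ρ • y - x0‖) / 4) with hle | hgt
      · have h1 := hW.w1 _ (hzb y hy) _ hle
        have h2 : ρ ≤ R - ‖x + ρ • y - x0‖ := by linarith [hz y hy]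
        have h3 : ρ ^ (2 + a) ≤ (R - ‖x + ρ • y - x0‖) ^ (2 + a) :=
          Real.rpow_le_rpow hρ0.le h2 (by linarith)
        have h4 : ρ ^ (2 + a) = ρ ^ 2 * ρ ^ a := by
          rw [Real.rpow_add hρ0]
          norm_num
        rw [ssb, nsm, abs_of_nonneg (by positivity)]
        rw [hpow] at h1
        have h5 : ρ ^ 2 * ρ ^ a * ‖D2 u (x + ρ • y) - D2 u (x + ρ • y')‖
            ≤ V * (ρ ^ a * ‖y - y'‖ ^ a) := by
          rw [← h4]
          exact (mul_le_mul_of_nonneg_right h3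
            (norm_nonneg (D2 u (x + ρ • y) - D2 u (x + ρ • y')))).trans h1
        have h6 : ρ ^ a * (ρ ^ 2 * ‖D2 u (x + ρ • y) - D2 u (x + ρ • y')‖)
            ≤ ρ ^ a * (V * ‖y - y'‖ ^ a) := by linarith
        have h7 := le_of_mul_le_mul_left h6 hρa0
        linarith
      · have h2 : ρ ≤ R - ‖x + ρ • y - x0‖ := by linarith [hz y hy]
        rw [hdiff] at hgt
        have h3 : 1 / 4 < ‖y' - y‖ := by
          by_contra hcon
          push Not at hcon
          have : ρ * ‖y' - y‖ ≤ ρ * (1 / 4) := mul_le_mul_of_nonneg_left hcon hρ0.le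
          linarith
        rw [norm_sub_rev] at h3
        have h4 : (1 / 4 : ℝ) ≤ ‖y - y'‖ ^ a := by
          have h5 : (1 / 4 : ℝ) ^ a ≤ ‖y - y'‖ ^ a :=
            Real.rpow_le_rpow (by norm_num) h3.le ha.le
          have h6 : (1 / 4 : ℝ) ^ (1 : ℝ) ≤ (1 / 4 : ℝ) ^ a :=
            Real.rpow_le_rpow_of_exponent_ge (by norm_num) (by norm_num) ha1.le
          rw [Real.rpow_one] at h6
          exact h6.trans h5
        have h5 := norm_sub_le (ρ ^ 2 • D2 u (x + ρ • y)) (ρ ^ 2 • D2 u (x + ρ • y'))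
        have h6 := hsup y hy
        have h7 := hsup y' hy'
        nlinarith
    · -- right-hand side
      have e2 : P2 (fun y => τ (x + ρ • y)) (fun y => u (x + ρ • y))
          = fun y => ρ ^ 2 * P2 τ u (x + ρ • y) := by
        funext y
        simp only [P2]
        rw [Finset.mul_sum]
        refine Finset.sum_congr rfl fun i _ => ?_
        rw [Finset.mul_sum]
        refine Finset.sum_congr rfl fun j _ => ?_
        rw [D2_scale hu]
        simp only [_root_.smul_apply, smul_eq_mul]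
        ring
      rw [e2]
      have hρ2 : ρ ^ 2 ≤ 1 := by nlinarith
      refine ⟨fun y hy => ?_, fun y hy y' hy' => ?_⟩
      · rw [norm_mul, Real.norm_of_nonneg (by positivity : 0 ≤ ρ ^ 2)]
        have := mul_le_mul hρ2 (hN.bdd _ (hzc y hy)) (norm_nonneg _) zero_le_one
        linarith
      · rw [← mul_sub, norm_mul, Real.norm_of_nonneg (by positivity : 0 ≤ ρ ^ 2)]
        have h1 := hN.hol _ (hzc y hy) _ (hzc y' hy')
        rw [hpow] at h1
        have hp : 0 ≤ ‖y - y'‖ ^ a := Real.rpow_nonneg (norm_nonneg _) _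
        have h2 : N * (ρ ^ a * ‖y - y'‖ ^ a) ≤ N * (1 * ‖y - y'‖ ^ a) := by gcongr
        have h3 := mul_le_mul hρ2 (h1.trans h2) (norm_nonneg _) zero_le_one
        linarith
  set B := 1 / 128 * (8 * V) + C * (N + S) with hB
  have hB0 : 0 ≤ B := by positivity
  have h8B : 8 * B = 8 * C * (N + S) + V / 2 := by rw [hB]; ring
  rw [← h8B]
  refine ⟨fun x hx => ?_, fun x hx y hy => ?_⟩
  · have h1 := (key x hx).bdd 0 (mem_closedBall_self (by norm_num))
    rw [D2_scale hu, nsm, abs_of_nonneg (by positivity), smul_zero, add_zero] at h1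
    have : (R - ‖x - x0‖) ^ 2 * ‖D2 u x‖ = 4 * (((R - ‖x - x0‖) / 2) ^ 2 * ‖D2 u x‖) := by ring
    rw [this]
    linarith
  · have hx' := hx
    rw [mem_ball, dist_eq_norm] at hx'
    have hk := key x hx
    set ρ := (R - ‖x - x0‖) / 2 with hρ
    have hρ0 : 0 < ρ := by rw [hρ]; linarith
    have h2ρ : R - ‖x - x0‖ = 2 * ρ := by rw [hρ]; ring
    set η : EuclideanSpace ℝ (Fin n) := ρ⁻¹ • (y - x) with hη
    have hyη : x + ρ • η = y := by
      rw [hη, smul_smul, mul_inv_cancel₀ hρ0.ne', one_smul]; abel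
    have hηn : ‖η‖ = ρ⁻¹ * ‖y - x‖ := by
      rw [hη, norm_smul, Real.norm_of_nonneg (by positivity)]
    have hη1 : ‖η‖ ≤ 1 / 2 := by
      rw [hηn, inv_mul_le_iff₀ hρ0]
      rw [h2ρ] at hy
      linarith
    have h1 := hk.hol 0 (mem_closedBall_self (by norm_num)) η (by simpa using hη1)
    rw [D2_scale hu, D2_scale hu, smul_zero, add_zero, hyη, ssb, nsm,
      abs_of_nonneg (by positivity : 0 ≤ ρ ^ 2), zero_sub, norm_neg, hηn,
      Real.mul_rpow (by positivity) (norm_nonneg _)] at h1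
    have hρa0 : 0 < ρ ^ a := Real.rpow_pos_of_pos hρ0 _
    have hinv : (ρ⁻¹) ^ a = (ρ ^ a)⁻¹ := Real.inv_rpow hρ0.le a
    rw [hinv] at h1
    have h2 : (2 * ρ) ^ (2 + a) = (2 : ℝ) ^ (2 + a) * (ρ ^ 2 * ρ ^ a) := by
      rw [Real.mul_rpow (by norm_num) hρ0.le, Real.rpow_add hρ0]
      norm_num
    have h3 : (2 : ℝ) ^ (2 + a) ≤ 8 := by
      calc (2 : ℝ) ^ (2 + a) ≤ (2 : ℝ) ^ (3 : ℝ) :=
            Real.rpow_le_rpow_of_exponent_le (by norm_num) (by linarith)
        _ = 8 := by norm_num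
    have h20 : 0 < (2 : ℝ) ^ (2 + a) := Real.rpow_pos_of_pos (by norm_num) _
    rw [h2ρ, h2, norm_sub_rev x y]
    have hp : 0 ≤ ‖y - x‖ ^ a := Real.rpow_nonneg (norm_nonneg _) _
    calc (2 : ℝ) ^ (2 + a) * (ρ ^ 2 * ρ ^ a) * ‖D2 u x - D2 u y‖
        = (2 : ℝ) ^ (2 + a) * (ρ ^ a * (ρ ^ 2 * ‖D2 u x - D2 u y‖)) := by ring
      _ ≤ (2 : ℝ) ^ (2 + a) * (ρ ^ a * (B * ((ρ ^ a)⁻¹ * ‖y - x‖ ^ a))) := by gcongr
      _ = (2 : ℝ) ^ (2 + a) * (B * ‖y - x‖ ^ a) := by field_simp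
      _ ≤ 8 * (B * ‖y - x‖ ^ a) := mul_le_mul_of_nonneg_right h3 (by positivity)
      _ = 8 * B * ‖y - x‖ ^ a := by ring

theorem wb_absorb {a B V R : ℝ} {x0 : E} {u : E → ℝ} (hV : 0 ≤ V) (hB : 0 ≤ B)
    (h0 : WB a V R x0 u)
    (h : ∀ W, 0 ≤ W → WB a W R x0 u → WB a (B + W / 2) R x0 u) : WB a (2 * B) R x0 u := by
  have hit : ∀ k : ℕ, WB a (2 * B * (1 - (1 / 2) ^ k) + V * (1 / 2) ^ k) R x0 u := by
    intro k
    induction k with
    | zero => simpa using h0
    | succ k ih =>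
      have hk1 : (0 : ℝ) ≤ (1 / 2) ^ k := by positivity
      have hk2 : (1 / 2 : ℝ) ^ k ≤ 1 := pow_le_one₀ (by norm_num) (by norm_num)
      have := h _ (by nlinarith [mul_nonneg hB (sub_nonneg.2 hk2), mul_nonneg hV hk1]) ih
      have e : B + (2 * B * (1 - (1 / 2) ^ k) + V * (1 / 2) ^ k) / 2
          = 2 * B * (1 - (1 / 2) ^ (k + 1)) + V * (1 / 2) ^ (k + 1) := by
        rw [pow_succ]; ring
      rwa [e] at this
  have hpow : Tendsto (fun k : ℕ => 2 * B * (1 - (1 / 2 : ℝ) ^ k) + V * (1 / 2) ^ k)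
      atTop (nhds (2 * B)) := by
    have h := tendsto_pow_atTop_nhds_zero_of_lt_one (r := (1 / 2 : ℝ)) (by norm_num) (by norm_num)
    have h1 := ((tendsto_const_nhds (x := (1 : ℝ))).sub h).const_mul (2 * B)
    have h2 := h1.add (h.const_mul V)
    simpa using h2
  refine ⟨fun x hx => ge_of_tendsto' hpow fun k => (hit k).w0 x hx, fun x hx y hy => ?_⟩
  exact ge_of_tendsto' (hpow.mul_const _) fun k => (hit k).w1 x hx y hy

/-- from the weighted bound to the ball of radius `3R/4` -/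
theorem wb_final {a V R : ℝ} {x0 : E} {u : E → ℝ} (ha : 0 < a) (ha1 : a < 1) (hR0 : 0 < R)
    (hR1 : R ≤ 1) (hV : 0 ≤ V) (h : WB a V R x0 u) :
    HO a (512 / R ^ 3 * V) (closedBall x0 (3 / 4 * R)) (D2 u) := by
  have hR3 : 0 < R ^ 3 := by positivity
  have hsup : ∀ x ∈ closedBall x0 (3 / 4 * R), ‖D2 u x‖ ≤ 16 / R ^ 3 * V := by
    intro x hx
    rw [mem_closedBall, dist_eq_norm] at hx
    have h1 := h.w0 x (by rw [mem_ball, dist_eq_norm]; nlinarith)
    have h2 : (R / 4) ^ 2 ≤ (R - ‖x - x0‖) ^ 2 := by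
      have : R / 4 ≤ R - ‖x - x0‖ := by linarith
      gcongr
    have h3 : (R / 4) ^ 2 * ‖D2 u x‖ ≤ V :=
      (mul_le_mul_of_nonneg_right h2 (norm_nonneg (D2 u x))).trans h1
    have h4 : R ^ 3 * ‖D2 u x‖ ≤ 16 * V := by
      have h5 : R ^ 3 ≤ R ^ 2 := by nlinarith [sq_nonneg R]
      have h6 := mul_le_mul_of_nonneg_right h5 (norm_nonneg (D2 u x))
      nlinarith
    rw [div_mul_eq_mul_div, le_div_iff₀ hR3]
    linarith
  have hle : 16 / R ^ 3 * V ≤ 512 / R ^ 3 * V := by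
    have : 0 ≤ V / R ^ 3 := by positivity
    have e1 : 16 / R ^ 3 * V = 16 * (V / R ^ 3) := by ring
    have e2 : 512 / R ^ 3 * V = 512 * (V / R ^ 3) := by ring
    rw [e1, e2]; linarith
  refine ⟨fun x hx => (hsup x hx).trans hle, fun x hx y hy => ?_⟩
  have hx' := hx
  rw [mem_closedBall, dist_eq_norm] at hx'
  have hp : 0 ≤ ‖x - y‖ ^ a := Real.rpow_nonneg (norm_nonneg _) _
  have hd : R / 4 ≤ R - ‖x - x0‖ := by linarith
  rcases le_or_gt ‖y - x‖ ((R - ‖x - x0‖) / 4) with hc | hc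
  · have h1 := h.w1 x (by rw [mem_ball, dist_eq_norm]; nlinarith) y hc
    have h2 : (R / 4) ^ (3 : ℝ) ≤ (R - ‖x - x0‖) ^ (2 + a) := by
      calc (R / 4) ^ (3 : ℝ) ≤ (R / 4) ^ (2 + a) :=
            Real.rpow_le_rpow_of_exponent_ge (by positivity) (by linarith) (by linarith)
        _ ≤ _ := Real.rpow_le_rpow (by positivity) hd (by linarith)
    have h3 : (R / 4) ^ (3 : ℝ) = R ^ 3 / 64 := by
      rw [show (3 : ℝ) = ((3 : ℕ) : ℝ) by norm_num, Real.rpow_natCast]; ring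
    rw [h3] at h2
    have h4 : R ^ 3 / 64 * ‖D2 u x - D2 u y‖ ≤ V * ‖x - y‖ ^ a :=
      (mul_le_mul_of_nonneg_right h2 (norm_nonneg (D2 u x - D2 u y))).trans h1
    have e : 512 / R ^ 3 * V * ‖x - y‖ ^ a = (512 * (V * ‖x - y‖ ^ a)) / R ^ 3 := by
      ring
    rw [e, le_div_iff₀ hR3]
    have : 0 ≤ V * ‖x - y‖ ^ a := mul_nonneg hV hp
    linarith
  · have h1 : R / 16 ≤ ‖x - y‖ := by
      rw [norm_sub_rev]; linarith
    have h2 : R / 16 ≤ ‖x - y‖ ^ a := by
      calc R / 16 = (R / 16) ^ (1 : ℝ) := (Real.rpow_one _).symm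
        _ ≤ (R / 16) ^ a :=
            Real.rpow_le_rpow_of_exponent_ge (by positivity) (by linarith) ha1.le
        _ ≤ _ := Real.rpow_le_rpow (by positivity) h1 ha.le
    have h3 := norm_sub_le (D2 u x) (D2 u y)
    -- sharper sup bounds
    have hs2 : ∀ z ∈ closedBall x0 (3 / 4 * R), R ^ 2 * ‖D2 u z‖ ≤ 16 * V := by
      intro z hz
      rw [mem_closedBall, dist_eq_norm] at hz
      have h1 := h.w0 z (by rw [mem_ball, dist_eq_norm]; nlinarith)
      have h2 : (R / 4) ^ 2 ≤ (R - ‖z - x0‖) ^ 2 := by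
        have : R / 4 ≤ R - ‖z - x0‖ := by linarith
        gcongr
      have h3 : (R / 4) ^ 2 * ‖D2 u z‖ ≤ V :=
        (mul_le_mul_of_nonneg_right h2 (norm_nonneg (D2 u z))).trans h1
      nlinarith
    have h4 := hs2 x hx
    have h5 := hs2 y hy
    have h6 : R ^ 2 * ‖D2 u x - D2 u y‖ ≤ 32 * V := by
      have := mul_le_mul_of_nonneg_left h3 (sq_nonneg R)
      linarith
    have e : 512 / R ^ 3 * V * ‖x - y‖ ^ a = (512 * (V * ‖x - y‖ ^ a)) / R ^ 3 := by
      ring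
    rw [e, le_div_iff₀ hR3]
    have h7 : ‖D2 u x - D2 u y‖ * R ^ 3 = R * (R ^ 2 * ‖D2 u x - D2 u y‖) := by ring
    rw [h7]
    calc R * (R ^ 2 * ‖D2 u x - D2 u y‖) ≤ R * (32 * V) := mul_le_mul_of_nonneg_left h6 hR0.le
      _ = 512 * (V * (R / 16)) := by ring
      _ ≤ 512 * (V * ‖x - y‖ ^ a) := by gcongr

/-- gradient bounds from second order bounds -/
theorem lb_of_D2 {a K S R : ℝ} {x0 : E} {u : E → ℝ} (ha : 0 < a) (ha1 : a < 1) (hR0 : 0 < R)
    (hR1 : R ≤ 1) (hu : ContDiff ℝ 2 u) (hK : HO a K (closedBall x0 (3 / 4 * R)) (D2 u))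
    (hS : ∀ x ∈ closedBall x0 R, |u x| ≤ S) :
    LB a (K + 8 / R * S) (closedBall x0 (R / 2)) u := by
  have hd : Differentiable ℝ u := hu.differentiable (by norm_num)
  have hd1 : Differentiable ℝ (fderiv ℝ u) :=
    (hu.fderiv_right (m := 1) (by norm_num)).differentiable (by norm_num)
  have hK0 : 0 ≤ K := hK.nonneg (mem_closedBall_self (by positivity))
  have hS0 : 0 ≤ S := (abs_nonneg _).trans (hS x0 (mem_closedBall_self hR0.le))
  have hsub1 : closedBall x0 (R / 2) ⊆ closedBall x0 (3 / 4 * R) :=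
    closedBall_subset_closedBall (by linarith)
  have hG : ∀ x ∈ closedBall x0 (R / 2), ‖fderiv ℝ u x‖ ≤ K + 8 / R * S := by
    intro x hx
    have hs : closedBall x (R / 4) ⊆ closedBall x0 (3 / 4 * R) := by
      refine closedBall_subset_closedBall' ?_
      rw [mem_closedBall] at hx
      linarith
    have h1 := norm_fderiv_le hu (y := x) (δ := R / 4) (H := S) (W := K) (by positivity)
      (fun z hz => hS z (closedBall_subset_closedBall (by linarith) (hs hz)))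
      (fun z hz => hK.bdd z (hs hz))
    refine h1.trans ?_
    have e : 2 * S / (R / 4) = 8 / R * S := by field_simp; ring
    rw [e]
    nlinarith
  have hpos : 0 ≤ K + 8 / R * S := by positivity
  have hrp : ∀ x ∈ closedBall x0 (R / 2), ∀ y ∈ closedBall x0 (R / 2), ‖x - y‖ ≤ ‖x - y‖ ^ a := by
    intro x hx y hy
    rw [mem_closedBall, dist_eq_norm] at hx hy
    have h1 : ‖x - y‖ ≤ 1 := by
      have e : x - y = (x - x0) - (y - x0) := by abel
      rw [e]
      refine (norm_sub_le _ _).trans ?_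
      linarith
    rcases (norm_nonneg (x - y)).eq_or_lt with h0 | h0
    · rw [← h0]; exact Real.rpow_nonneg le_rfl _
    · calc ‖x - y‖ = ‖x - y‖ ^ (1 : ℝ) := (Real.rpow_one _).symm
        _ ≤ ‖x - y‖ ^ a := Real.rpow_le_rpow_of_exponent_ge h0 h1 ha1.le
  refine ⟨fun x hx => ?_, fun x hx y hy => ?_, hG, fun x hx y hy => ?_⟩
  · refine (hS x (closedBall_subset_closedBall (by linarith) hx)).trans ?_
    have : S ≤ 8 / R * S := by
      have h8 : 1 ≤ 8 / R := by rw [le_div_iff₀ hR0]; linarith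
      nlinarith
    linarith
  · have h1 := (convex_closedBall x0 (R / 2)).norm_image_sub_le_of_norm_fderiv_le
      (fun w _ => hd w) (fun w hw => hG w hw) hy hx
    rw [Real.norm_eq_abs] at h1
    exact h1.trans (mul_le_mul_of_nonneg_left (hrp x hx y hy) hpos)
  · have h1 := (convex_closedBall x0 (R / 2)).norm_image_sub_le_of_norm_fderiv_le
      (f := fderiv ℝ u) (fun w _ => hd1 w) (fun w hw => hK.bdd w (hsub1 hw)) hy hx
    refine h1.trans ?_
    have h8 : 0 ≤ 8 / R * S := by positivity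
    exact mul_le_mul (by linarith) (hrp x hx y hy) (norm_nonneg _) hpos

/-- **Interior Schauder estimate**, variable Hölder coefficients, ball of radius `R ≤ 1`. -/
theorem int_schauder (n : ℕ) {a lo hi : ℝ} (ha : 0 < a) (ha1 : a < 1) (hlo : 0 < lo)
    (hlohi : lo ≤ hi) (M : ℝ) {R : ℝ} (hR0 : 0 < R) (hR1 : R ≤ 1) :
    ∃ C : ℝ, 0 < C ∧ ∀ (x0 : EuclideanSpace ℝ (Fin n))
      (τ : EuclideanSpace ℝ (Fin n) → Matrix (Fin n) (Fin n) ℝ),
      (∀ x ∈ closedBall x0 R, Ell lo hi (τ x)) →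
      (∀ i j, HO a M (closedBall x0 R) (fun x => τ x i j)) →
      ∀ (u : EuclideanSpace ℝ (Fin n) → ℝ) (N S : ℝ), ContDiff ℝ 2 u →
        (∃ V, HO a V (closedBall x0 R) (D2 u)) → HO a N (closedBall x0 R) (P2 τ u) →
        (∀ x ∈ closedBall x0 R, |u x| ≤ S) →
        HO a (C * (N + S)) (closedBall x0 (R / 2)) (D2 u) ∧
          LB a (C * (N + S)) (closedBall x0 (R / 2)) u := by
  obtain ⟨C, hC, H⟩ := wb_step n ha ha1 hlo hlohi M
  refine ⟨512 / R ^ 3 * (2 * C) + 8 / R, by positivity, ?_⟩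
  intro x0 τ hell hτ u N S hu hV hN hS
  obtain ⟨V, hV⟩ := hV
  have hx0 : x0 ∈ closedBall x0 R := mem_closedBall_self hR0.le
  have hN0 : 0 ≤ N := hN.nonneg hx0
  have hV0 : 0 ≤ V := hV.nonneg hx0
  have hS0 : 0 ≤ S := (abs_nonneg _).trans (hS x0 hx0)
  have h1 : WB a (2 * (C * (N + S))) R x0 u :=
    wb_absorb hV0 (by positivity) (wb_start ha hR0 hR1 hV)
      fun W hW0 hW => H R x0 τ hR0 hR1 hell hτ u W N S hu hW0 hW hN hS
  have h2 := wb_final ha ha1 hR0 hR1 (by positivity) h1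
  have h3 := lb_of_D2 ha ha1 hR0 hR1 hu h2 hS
  have e1 : 512 / R ^ 3 * (2 * (C * (N + S))) ≤ (512 / R ^ 3 * (2 * C) + 8 / R) * (N + S) := by
    have : 0 ≤ 8 / R * (N + S) := by positivity
    linarith
  have e2 : 512 / R ^ 3 * (2 * (C * (N + S))) + 8 / R * S
      ≤ (512 / R ^ 3 * (2 * C) + 8 / R) * (N + S) := by
    have : 0 ≤ 8 / R * N := by positivity
    linarith
  exact ⟨(h2.subset (closedBall_subset_closedBall (by linarith))).mono e1, h3.mono e2⟩

end Crest.Agent.R273.SchC_152
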