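import Crest.Agent.R273.SchC_152

/-!
Row 273 (S0416), leaf L1 (helper152): LOCAL interior Schauder estimate, part D:
functions which are `C²` only near the closed ball; transport under linear isometries.
-/

set_option autoImplicit false

open Set Metric Filter
open scoped ContDiff Topology

namespace Crest.Agent.R273.SchD_152

open Crest.Agent.R238.Sch Crest.Agent.R273.SchA_152 Crest.Agent.R273.SchB_152
  Crest.Agent.R273.SchC_152
open Crest.Agent.R238 (Ell Hs)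

/-- `C^{2,a}` bound on a set -/
structure C2A {X : Type*} [NormedAddCommGroup X] [NormedSpace ℝ X] (a Q : ℝ) (s : Set X)
    (u : X → ℝ) : Prop where
  h0 : HO a Q s u
  h1 : HO a Q s (fderiv ℝ u)
  h2 : HO a Q s (fderiv ℝ (fderiv ℝ u))

section gen

variable {X : Type*} [NormedAddCommGroup X] [NormedSpace ℝ X] {a Q Q' : ℝ} {s t : Set X}
  {u v : X → ℝ}

theorem C2A.mono (h : C2A a Q s u) (hQ : Q ≤ Q') : C2A a Q' s u :=
  ⟨h.h0.mono hQ, h.h1.mono hQ, h.h2.mono hQ⟩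

theorem C2A.subset (h : C2A a Q s u) (ht : t ⊆ s) : C2A a Q t u :=
  ⟨h.h0.subset ht, h.h1.subset ht, h.h2.subset ht⟩

theorem C2A.congr {U : Set X} (hU : IsOpen U) (hs : s ⊆ U) (h : C2A a Q s u)
    (huv : ∀ x ∈ U, v x = u x) : C2A a Q s v := by
  have e : ∀ x ∈ s, v =ᶠ[𝓝 x] u := fun x hx => Filter.eventually_of_mem (hU.mem_nhds (hs hx)) huv
  refine ⟨h.h0.congr fun x hx => huv x (hs hx), h.h1.congr fun x hx => (e x hx).fderiv_eq,
    h.h2.congr fun x hx => (e x hx).fderiv.fderiv_eq⟩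

end gen

variable {n : ℕ}

local notation "E" => EuclideanSpace ℝ (Fin n)

theorem c2a_of_lb {a Q : ℝ} {s : Set E} {u : E → ℝ} (h : LB a Q s u) (h2 : HO a Q s (D2 u)) :
    C2A a Q s u :=
  ⟨⟨fun x hx => by rw [Real.norm_eq_abs]; exact h.h0 x hx,
    fun x hx y hy => by rw [Real.norm_eq_abs]; exact h.h1 x hx y hy⟩,
    ⟨fun x hx => h.d0 x hx, fun x hx y hy => h.d1 x hx y hy⟩, h2⟩

/-- extension of a `C²` function from a neighbourhood of a closed ball -/
theorem exists_ext {x0 : E} {R : ℝ} (hR : 0 < R) {U : Set E} (hU : IsOpen U)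
    (hRU : closedBall x0 R ⊆ U) {u : E → ℝ} (hu : ContDiffOn ℝ 2 u U) :
    ∃ (W : Set E) (u' : E → ℝ), IsOpen W ∧ closedBall x0 R ⊆ W ∧ W ⊆ U ∧ ContDiff ℝ 2 u' ∧
      ∀ x ∈ W, u' x = u x := by
  obtain ⟨δ, hδ, hδU⟩ := (isCompact_closedBall x0 R).exists_cthickening_subset_open hU hRU
  have hsub : closedBall x0 (R + δ) ⊆ U := by
    intro x hx
    refine hδU ?_
    rw [cthickening_closedBall hδ.le hR.le]
    exact closedBall_subset_closedBall (by linarith) hx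
  let f : ContDiffBump x0 := ⟨R + δ / 3, R + 2 * δ / 3, by positivity, by linarith⟩
  refine ⟨ball x0 (R + δ / 3), fun x => f x * u x, isOpen_ball,
    closedBall_subset_ball (by linarith), ?_, ?_, ?_⟩
  · exact (ball_subset_closedBall.trans (closedBall_subset_closedBall (by linarith))).trans hsub
  · rw [contDiff_iff_contDiffAt]
    intro x
    by_cases hx : x ∈ U
    · exact (f.contDiff.contDiffAt).mul (hu.contDiffAt (hU.mem_nhds hx))
    · have h1 : x ∉ closedBall x0 (R + 2 * δ / 3) := fun h =>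
        hx (hsub (closedBall_subset_closedBall (by linarith) h))
      have h2 : (closedBall x0 (R + 2 * δ / 3))ᶜ ∈ 𝓝 x :=
        isClosed_closedBall.isOpen_compl.mem_nhds h1
      refine (contDiffAt_const (c := (0 : ℝ))).congr_of_eventuallyEq ?_
      filter_upwards [h2] with y hy
      rw [mem_compl_iff, mem_closedBall, not_le] at hy
      have : f y = 0 := f.zero_of_le_dist hy.le
      rw [this, zero_mul]
  · intro x hx
    have : f x = 1 := f.one_of_mem_closedBall (ball_subset_closedBall hx)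
    show f x * u x = u x
    rw [this, one_mul]

/-- **Interior Schauder estimate** for functions defined near the closed ball. -/
theorem int_schauder_on (n : ℕ) {a lo hi : ℝ} (ha : 0 < a) (ha1 : a < 1) (hlo : 0 < lo)
    (hlohi : lo ≤ hi) (M : ℝ) {R : ℝ} (hR0 : 0 < R) (hR1 : R ≤ 1) :
    ∃ C : ℝ, 0 < C ∧ ∀ (x0 : EuclideanSpace ℝ (Fin n))
      (τ : EuclideanSpace ℝ (Fin n) → Matrix (Fin n) (Fin n) ℝ),
      (∀ x ∈ closedBall x0 R, Ell lo hi (τ x)) →
      (∀ i j, HO a M (closedBall x0 R) (fun x => τ x i j)) →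
      ∀ (U : Set (EuclideanSpace ℝ (Fin n))), IsOpen U → closedBall x0 R ⊆ U →
      ∀ (u : EuclideanSpace ℝ (Fin n) → ℝ) (N S : ℝ), ContDiffOn ℝ 2 u U →
        (∃ V, HO a V (closedBall x0 R) (D2 u)) → HO a N (closedBall x0 R) (P2 τ u) →
        (∀ x ∈ closedBall x0 R, |u x| ≤ S) →
        C2A a (C * (N + S)) (closedBall x0 (R / 2)) u := by
  obtain ⟨C, hC, H⟩ := int_schauder n ha ha1 hlo hlohi M hR0 hR1
  refine ⟨C, hC, fun x0 τ hell hτ U hU hRU u N S hu hV hN hS => ?_⟩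
  obtain ⟨W, u', hW, hRW, hWU, hu', he⟩ := exists_ext hR0 hU hRU hu
  obtain ⟨V, hV⟩ := hV
  have hD2 : ∀ x ∈ closedBall x0 R, D2 u' x = D2 u x := fun x hx =>
    D2_congr_open hW he (hRW hx)
  obtain ⟨h1, h2⟩ := H x0 τ hell hτ u' N S hu' ⟨V, hV.congr hD2⟩
    (hN.congr fun x hx => by simp only [P2, hD2 x hx])
    (fun x hx => by rw [he x (hRW hx)]; exact hS x hx)
  have h3 := c2a_of_lb h2 h1
  exact h3.congr hW ((closedBall_subset_closedBall (by linarith)).trans hRW)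
    fun x hx => (he x hx).symm

/-! ### transport under a linear isometry -/

section transport

variable {X Y : Type*} [NormedAddCommGroup X] [NormedSpace ℝ X] [NormedAddCommGroup Y]
  [NormedSpace ℝ Y]

theorem ho_comp_iso {F : Type*} [NormedAddCommGroup F] {a M : ℝ} (T : X ≃ₗᵢ[ℝ] Y) {s : Set Y}
    {r : Y → F} (h : HO a M s r) : HO a M (T ⁻¹' s) (fun x => r (T x)) where
  bdd x hx := h.bdd _ hx
  hol x hx y hy := by
    have := h.hol _ hx _ hy
    rwa [← map_sub, T.norm_map] at this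

/-- pull back of a bilinear form -/
noncomputable def pull (T : X ≃ₗᵢ[ℝ] Y) (B : Y →L[ℝ] Y →L[ℝ] ℝ) : X →L[ℝ] X →L[ℝ] ℝ :=
  ((ContinuousLinearMap.compL ℝ X Y ℝ).flip (T : X →L[ℝ] Y)).comp (B.comp (T : X →L[ℝ] Y))

theorem pull_apply (T : X ≃ₗᵢ[ℝ] Y) (B : Y →L[ℝ] Y →L[ℝ] ℝ) (v w : X) :
    pull T B v w = B (T v) (T w) := rfl

theorem norm_pull_le (T : X ≃ₗᵢ[ℝ] Y) (B : Y →L[ℝ] Y →L[ℝ] ℝ) : ‖pull T B‖ ≤ ‖B‖ := by
  refine ContinuousLinearMap.opNorm_le_bound _ (norm_nonneg B) fun v => ?_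
  refine ContinuousLinearMap.opNorm_le_bound _ (by positivity) fun w => ?_
  rw [pull_apply]
  refine (B.le_opNorm₂ _ _).trans ?_
  rw [T.norm_map, T.norm_map]

theorem pull_sub (T : X ≃ₗᵢ[ℝ] Y) (B B' : Y →L[ℝ] Y →L[ℝ] ℝ) :
    pull T B - pull T B' = pull T (B - B') := by
  ext v w
  simp [pull_apply]

theorem pull_symm (T : X ≃ₗᵢ[ℝ] Y) (B : Y →L[ℝ] Y →L[ℝ] ℝ) : pull T.symm (pull T B) = B := by
  ext v w
  simp [pull_apply]

theorem ho_pull {s : Set Y} {a M : ℝ} (T : X ≃ₗᵢ[ℝ] Y) {B : Y → Y →L[ℝ] Y →L[ℝ] ℝ}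
    (h : HO a M s B) : HO a M (T ⁻¹' s) (fun x => pull T (B (T x))) where
  bdd x hx := (norm_pull_le T _).trans (h.bdd _ hx)
  hol x hx y hy := by
    rw [pull_sub]
    have := h.hol _ hx _ hy
    rw [← map_sub, T.norm_map] at this
    exact (norm_pull_le T _).trans this

theorem fderiv_comp_iso (T : X ≃ₗᵢ[ℝ] Y) (u : Y → ℝ) (x : X) :
    fderiv ℝ (fun y => u (T y)) x = (fderiv ℝ u (T x)).comp (T : X →L[ℝ] Y) :=
  T.toContinuousLinearEquiv.comp_right_fderiv (f := u) (x := x)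

theorem fderiv2_comp_iso (T : X ≃ₗᵢ[ℝ] Y) {u : Y → ℝ} {x : X}
    (hu : DifferentiableAt ℝ (fderiv ℝ u) (T x)) :
    fderiv ℝ (fderiv ℝ (fun y => u (T y))) x = pull T (fderiv ℝ (fderiv ℝ u) (T x)) := by
  have e : fderiv ℝ (fun y => u (T y)) =
      fun y => ((ContinuousLinearMap.compL ℝ X Y ℝ).flip (T : X →L[ℝ] Y)) (fderiv ℝ u (T y)) := by
    funext y
    exact fderiv_comp_iso T u y
  rw [e]
  have h1 : HasFDerivAt (fun y : X => T y) (T : X →L[ℝ] Y) x :=
    (T : X →L[ℝ] Y).hasFDerivAt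
  have h2 := (hu.hasFDerivAt).comp x h1
  have h3 := (((ContinuousLinearMap.compL ℝ X Y ℝ).flip (T : X →L[ℝ] Y)).hasFDerivAt).comp x h2
  exact h3.fderiv

theorem C2A.comp_iso {s : Set Y} {a M : ℝ} (T : X ≃ₗᵢ[ℝ] Y) {u : Y → ℝ} (h : C2A a M s u)
    (hu : ∀ y ∈ s, DifferentiableAt ℝ (fderiv ℝ u) y) :
    C2A a M (T ⁻¹' s) (fun x => u (T x)) := by
  refine ⟨ho_comp_iso T h.h0, ?_, ?_⟩
  · refine HO.congr (r := fun x => (fderiv ℝ u (T x)).comp (T : X →L[ℝ] Y)) ?_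
      fun x _ => fderiv_comp_iso T u x
    have hle : ∀ B : Y →L[ℝ] ℝ, ‖B.comp (T : X →L[ℝ] Y)‖ ≤ ‖B‖ := fun B => by
      refine ContinuousLinearMap.opNorm_le_bound _ (norm_nonneg _) fun v => ?_
      refine (B.le_opNorm _).trans ?_
      show ‖B‖ * ‖T v‖ ≤ _
      rw [T.norm_map]
    refine ⟨fun x hx => (hle _).trans (h.h1.bdd _ hx), fun x hx y hy => ?_⟩
    have := h.h1.hol _ hx _ hy
    rw [← map_sub, T.norm_map] at this
    refine le_trans ?_ this
    rw [← ContinuousLinearMap.sub_comp]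
    exact hle _
  · exact (ho_pull T h.h2).congr fun x hx => fderiv2_comp_iso T (hu _ hx)

end transport

end Crest.Agent.R273.SchD_152
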