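import Crest.Agent.R273.SchE_152
import Crest.Agent.R273.YauCh_635

/-!
Row 273 (S0416), leaf L1 (helper152): GLOBAL Schauder estimate on a compact complex manifold,
part F: finite covers by chart balls, Hölder norms, comparison between charts.
-/

set_option autoImplicit false
set_option linter.unusedSectionVars false

open Set Metric Filter
open scoped ContDiff Topology Matrix ComplexConjugate

namespace Crest.Agent.R273.SchF_152

open Crest.Agent.R275.Geo Crest.Agent.R275.Core144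
open Crest.Agent.R273.SchA_152 Crest.Agent.R273.SchD_152 Crest.Agent.R273.SchE_152
open Crest.Agent.R273.YauDefs_635 (cH inC)
open Crest.Agent.R273.YauCh_635 (Tm)

noncomputable section

/-! ### local-to-global for Hölder bounds -/

/-- Hölder bounds which are locally uniform on a class of functions are uniform on compact
sets. -/
theorem ho_of_local {X F : Type*} [NormedAddCommGroup X] [NormedAddCommGroup F] {K : Set X}
    (hK : IsCompact K) {a : ℝ} {P : (X → F) → ℝ → Prop} (hP : ∀ f N, P f N → 0 ≤ N)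
    (h : ∀ x ∈ K, ∃ C : ℝ, ∃ V ∈ 𝓝 x, ∀ f N, P f N → HO a (C * N) V f) (ha : 0 < a) :
    ∃ C : ℝ, 0 < C ∧ ∀ f N, P f N → HO a (C * N) K f := by
  have key : ∃ C : ℝ, 0 ≤ C ∧ ∃ δ : ℝ, 0 < δ ∧ ∀ f N, P f N → ∀ w ∈ K, ‖f w‖ ≤ C * N ∧
      ∀ w', ‖w - w'‖ < δ → ‖f w - f w'‖ ≤ C * N * ‖w - w'‖ ^ a := by
    refine hK.induction_on (p := fun s => ∃ C : ℝ, 0 ≤ C ∧ ∃ δ : ℝ, 0 < δ ∧ ∀ f N, P f N →
      ∀ w ∈ s, ‖f w‖ ≤ C * N ∧ ∀ w', ‖w - w'‖ < δ → ‖f w - f w'‖ ≤ C * N * ‖w - w'‖ ^ a)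
      ⟨0, le_rfl, 1, one_pos, fun f N _ w hw => hw.elim⟩ ?_ ?_ ?_
    · rintro s t hst ⟨C, hC, δ, hδ, H⟩
      exact ⟨C, hC, δ, hδ, fun f N hf w hw => H f N hf w (hst hw)⟩
    · rintro s t ⟨C, hC, δ, hδ, H⟩ ⟨C', hC', δ', hδ', H'⟩
      refine ⟨max C C', hC.trans (le_max_left _ _), min δ δ', lt_min hδ hδ', ?_⟩
      intro f N hf w hw
      have hN := hP f N hf
      have e1 : C * N ≤ max C C' * N := mul_le_mul_of_nonneg_right (le_max_left _ _) hN
      have e2 : C' * N ≤ max C C' * N := mul_le_mul_of_nonneg_right (le_max_right _ _) hN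
      rcases hw with hw | hw
      · obtain ⟨h1, h2⟩ := H f N hf w hw
        exact ⟨h1.trans e1, fun w' hw' => (h2 w' (hw'.trans_le (min_le_left _ _))).trans
          (mul_le_mul_of_nonneg_right e1 (Real.rpow_nonneg (norm_nonneg _) _))⟩
      · obtain ⟨h1, h2⟩ := H' f N hf w hw
        exact ⟨h1.trans e2, fun w' hw' => (h2 w' (hw'.trans_le (min_le_right _ _))).trans
          (mul_le_mul_of_nonneg_right e2 (Real.rpow_nonneg (norm_nonneg _) _))⟩
    · intro x hx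
      obtain ⟨C, V, hV, H⟩ := h x hx
      obtain ⟨ρ, hρ, hρV⟩ := Metric.mem_nhds_iff.1 hV
      refine ⟨ball x (ρ / 2), mem_nhdsWithin_of_mem_nhds (ball_mem_nhds x (by positivity)),
        max C 0, le_max_right _ _, ρ / 2, by positivity, ?_⟩
      intro f N hf w hw
      have hN := hP f N hf
      have e1 : C * N ≤ max C 0 * N := mul_le_mul_of_nonneg_right (le_max_left _ _) hN
      have hwV : w ∈ V := hρV (ball_subset_ball (by linarith) hw)
      refine ⟨((H f N hf).bdd w hwV).trans e1, fun w' hw' => ?_⟩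
      have hwV' : w' ∈ V := by
        refine hρV ?_
        rw [mem_ball] at hw ⊢
        have h1 : dist w' w < ρ / 2 := by rw [dist_comm, dist_eq_norm]; exact hw'
        linarith [dist_triangle w' w x]
      exact ((H f N hf).hol w hwV w' hwV').trans
        (mul_le_mul_of_nonneg_right e1 (Real.rpow_nonneg (norm_nonneg _) _))
  obtain ⟨C, hC, δ, hδ, H⟩ := key
  have hδa : 0 < δ ^ (-a) := Real.rpow_pos_of_pos hδ _
  refine ⟨C + 2 * C * δ ^ (-a) + 1, by positivity, fun f N hf => ?_⟩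
  have hN := hP f N hf
  have hCN : 0 ≤ C * N := mul_nonneg hC hN
  have e0 : 0 ≤ 2 * C * δ ^ (-a) * N := by positivity
  refine ⟨fun w hw => (H f N hf w hw).1.trans ?_, fun w hw w' hw' => ?_⟩
  · nlinarith
  · have hp : 0 ≤ ‖w - w'‖ ^ a := Real.rpow_nonneg (norm_nonneg _) _
    rcases lt_or_ge ‖w - w'‖ δ with hlt | hge
    · refine ((H f N hf w hw).2 w' hlt).trans (mul_le_mul_of_nonneg_right ?_ hp)
      nlinarith
    · have h1 : ‖f w - f w'‖ ≤ 2 * (C * N) := by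
        refine (norm_sub_le _ _).trans ?_
        linarith [(H f N hf w hw).1, (H f N hf w' hw').1]
      have h2 : 1 ≤ δ ^ (-a) * ‖w - w'‖ ^ a := by
        rw [Real.rpow_neg hδ.le, inv_mul_eq_div, le_div_iff₀ (Real.rpow_pos_of_pos hδ a), one_mul]
        exact Real.rpow_le_rpow hδ.le hge ha.le
      calc ‖f w - f w'‖ ≤ 2 * (C * N) * 1 := by linarith
        _ ≤ 2 * (C * N) * (δ ^ (-a) * ‖w - w'‖ ^ a) :=
            mul_le_mul_of_nonneg_left h2 (by positivity)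
        _ = (2 * C * δ ^ (-a) * N) * ‖w - w'‖ ^ a := by ring
        _ ≤ ((C + 2 * C * δ ^ (-a) + 1) * N) * ‖w - w'‖ ^ a := by
            refine mul_le_mul_of_nonneg_right ?_ hp
            nlinarith

/-- `C¹` functions are Hölder on closed balls -/
theorem ho_of_c1 {X F : Type*} [NormedAddCommGroup X] [NormedSpace ℝ X] [ProperSpace X]
    [NormedAddCommGroup F] [NormedSpace ℝ F] {a : ℝ} (ha : 0 < a) (ha1 : a ≤ 1) {z : X} {r : ℝ}
    (hr : 0 < r) {U : Set X} (hU : IsOpen U) (hzU : closedBall z r ⊆ U) {f : X → F}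
    (hf : ContDiffOn ℝ 1 f U) : ∃ M : ℝ, 0 ≤ M ∧ HO a M (closedBall z r) f := by
  obtain ⟨B0, hB0⟩ := (isCompact_closedBall z r).exists_bound_of_continuousOn
    (hf.continuousOn.mono hzU)
  obtain ⟨B1, hB1⟩ := (isCompact_closedBall z r).exists_bound_of_continuousOn
    ((hf.continuousOn_fderiv_of_isOpen hU le_rfl).mono hzU)
  have hz : z ∈ closedBall z r := mem_closedBall_self hr.le
  have h0 : 0 ≤ B0 := (norm_nonneg _).trans (hB0 z hz)
  have h1 : 0 ≤ B1 := le_trans (norm_nonneg (fderiv ℝ f z)) (hB1 z hz)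
  refine ⟨B0 + B1 * (1 + 2 * r), by positivity, fun x hx => (hB0 x hx).trans ?_,
    fun x hx y hy => ?_⟩
  · have : 0 ≤ B1 * (1 + 2 * r) := by positivity
    linarith
  · have hlip : ‖f x - f y‖ ≤ B1 * ‖x - y‖ :=
      (convex_closedBall z r).norm_image_sub_le_of_norm_fderiv_le (𝕜 := ℝ)
        (fun w hw => (hf.contDiffAt (hU.mem_nhds (hzU hw))).differentiableAt (by norm_num))
        (fun w hw => hB1 w hw) hy hx
    have hd : ‖x - y‖ ≤ 2 * r := by
      rw [mem_closedBall, dist_eq_norm] at hx hy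
      have e : x - y = (x - z) - (y - z) := by abel
      rw [e]
      exact (norm_sub_le _ _).trans (by linarith)
    have h2 := Crest.Agent.R238.Sch.le_rpow_of_le (norm_nonneg _) hd ha ha1
    have hp : 0 ≤ ‖x - y‖ ^ a := Real.rpow_nonneg (norm_nonneg _) _
    calc ‖f x - f y‖ ≤ B1 * ‖x - y‖ := hlip
      _ ≤ B1 * ((1 + 2 * r) * ‖x - y‖ ^ a) := mul_le_mul_of_nonneg_left h2 h1
      _ ≤ (B0 + B1 * (1 + 2 * r)) * ‖x - y‖ ^ a := by nlinarith

/-! ### covers by chart balls -/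

variable {n : ℕ} {M : Type} [TopologicalSpace M] {A : Atl n M}

/-- finite cover of `M` by (half) chart balls -/
structure Cb (A : Atl n M) where
  κ : Type
  fin : Finite κ
  i : κ → A.ι
  z : κ → Cn n
  r : κ → ℝ
  r0 : ∀ k, 0 < r k
  r1 : ∀ k, r k ≤ 1
  sub : ∀ k, closedBall (z k) (r k) ⊆ (A.e (i k)).target
  cover : ∀ x, ∃ k, x ∈ (A.e (i k)).source ∧ A.e (i k) x ∈ ball (z k) (r k / 2)

namespace Cb

/-- bounded by `N` and Hölder with constant `N` in the half balls -/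
def NH (B : Cb A) (a N : ℝ) (f : M → ℝ) : Prop :=
  ∀ k, HO a N (closedBall (B.z k) (B.r k / 2)) (inC A (B.i k) f)

/-- `C^{2,a}` bound in the half balls -/
def N2 (B : Cb A) (a N : ℝ) (v : M → ℝ) : Prop :=
  ∀ k, C2A a N (closedBall (B.z k) (B.r k / 2)) (inC A (B.i k) v)

theorem sub' (B : Cb A) (k : B.κ) : closedBall (B.z k) (B.r k / 2) ⊆ (A.e (B.i k)).target :=
  (closedBall_subset_closedBall (by linarith [B.r0 k])).trans (B.sub k)

theorem NH.bdd {B : Cb A} {a N : ℝ} {f : M → ℝ} (h : B.NH a N f) (x : M) : |f x| ≤ N := by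
  obtain ⟨k, hk, hx⟩ := B.cover x
  have := (h k).bdd _ (ball_subset_closedBall hx)
  simpa only [inC, (A.e (B.i k)).left_inv hk, Real.norm_eq_abs] using this

theorem NH.nonneg {B : Cb A} {a N : ℝ} {f : M → ℝ} [Nonempty M] (h : B.NH a N f) : 0 ≤ N :=
  (abs_nonneg _).trans (h.bdd (Classical.arbitrary M))

theorem NH.mono {B : Cb A} {a N N' : ℝ} {f : M → ℝ} (h : B.NH a N f) (hN : N ≤ N') :
    B.NH a N' f := fun k => (h k).mono hN

theorem N2.mono {B : Cb A} {a N N' : ℝ} {f : M → ℝ} (h : B.N2 a N f) (hN : N ≤ N') :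
    B.N2 a N' f := fun k => (h k).mono hN

theorem N2.nh {B : Cb A} {a N : ℝ} {f : M → ℝ} (h : B.N2 a N f) : B.NH a N f :=
  fun k => (h k).h0

/-- covers adapted to a property which holds locally in some chart -/
theorem exists_of [CompactSpace M] (Q : A.ι → Cn n → Prop)
    (hQ : ∀ x : M, ∃ i, x ∈ (A.e i).source ∧ ∀ᶠ z in 𝓝 (A.e i x), Q i z) :
    ∃ B : Cb A, ∀ k, ∀ z ∈ closedBall (B.z k) (B.r k), Q (B.i k) z := by
  classical
  choose i hi hQi using hQ
  have hr : ∀ x : M, ∃ r : ℝ, 0 < r ∧ r ≤ 1 ∧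
      closedBall (A.e (i x) x) r ⊆ (A.e (i x)).target ∩ {z | Q (i x) z} := by
    intro x
    have h1 := inter_mem ((A.e (i x)).open_target.mem_nhds ((A.e (i x)).map_source (hi x)))
      (hQi x)
    obtain ⟨r, hr, hs⟩ := Metric.nhds_basis_closedBall.mem_iff.1 h1
    exact ⟨min r 1, lt_min hr one_pos, min_le_right _ _,
      (closedBall_subset_closedBall (min_le_left _ _)).trans hs⟩
  choose r hr0 hr1 hrs using hr
  have hV : ∀ x : M, (A.e (i x)).source ∩ (A.e (i x)) ⁻¹' (ball (A.e (i x) x) (r x / 2)) ∈ 𝓝 x :=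
    fun x => ((A.e (i x)).isOpen_inter_preimage isOpen_ball).mem_nhds
      ⟨hi x, mem_ball_self (by linarith [hr0 x])⟩
  obtain ⟨t, -, ht⟩ := isCompact_univ.elim_nhds_subcover
    (fun x : M => (A.e (i x)).source ∩ (A.e (i x)) ⁻¹' (ball (A.e (i x) x) (r x / 2)))
    (fun x _ => hV x)
  refine ⟨⟨t, inferInstance, fun k => i k, fun k => A.e (i k) k, fun k => r k, fun k => hr0 k,
    fun k => hr1 k, fun k => (hrs k).trans inter_subset_left, fun x => ?_⟩,
    fun k z hz => (hrs k hz).2⟩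
  obtain ⟨k, hk, hx⟩ := mem_iUnion₂.1 (ht (mem_univ x))
  exact ⟨⟨k, hk⟩, hx.1, hx.2⟩

theorem nonempty [CompactSpace M] (A : Atl n M) : Nonempty (Cb A) := by
  obtain ⟨B, -⟩ := exists_of (A := A) (fun _ _ => True) fun x => by
    obtain ⟨i, hi⟩ := A.cover x
    exact ⟨i, hi, Eventually.of_forall fun _ => trivial⟩
  exact ⟨B⟩

/-- comparison of Hölder norms: a compact set in any chart -/
theorem NH.compact [Nonempty M] (B : Cb A) {a : ℝ} (ha : 0 < a) (j : A.ι) {K : Set (Cn n)}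
    (hK : IsCompact K) (hKj : K ⊆ (A.e j).target) :
    ∃ C : ℝ, 0 < C ∧ ∀ (f : M → ℝ) (N : ℝ), B.NH a N f → HO a (C * N) K (inC A j f) := by
  suffices hloc : ∀ w0 ∈ K, ∃ C : ℝ, ∃ V ∈ 𝓝 w0, ∀ (g : Cn n → ℝ) (N : ℝ),
      (∃ f : M → ℝ, B.NH a N f ∧ g = inC A j f) → HO a (C * N) V g by
    obtain ⟨C, hC, H⟩ := ho_of_local (F := ℝ) hK (a := a)
      (P := fun g N => ∃ f : M → ℝ, B.NH a N f ∧ g = inC A j f)
      (by rintro g N ⟨f, hf, -⟩; exact hf.nonneg) hloc ha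
    exact ⟨C, hC, fun f N hf => H _ N ⟨f, hf, rfl⟩⟩
  intro w0 hw0
  have hx0 : (A.e j).symm w0 ∈ (A.e j).source := (A.e j).map_target (hKj hw0)
  obtain ⟨k, hk, hkb⟩ := B.cover ((A.e j).symm w0)
  have hov : w0 ∈ A.ov j (B.i k) := ⟨hKj hw0, hk⟩
  have hT : ContDiffAt ℝ 1 (Tm A j (B.i k)) w0 := by
    have := YauCh_635.anal_Tm (A := A) (i := j) (j := B.i k) ⟨hx0, hk⟩
    rw [(A.e j).right_inv (hKj hw0)] at this
    exact (this.contDiffAt.restrict_scalars ℝ)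
  obtain ⟨Kl, t, ht, hL⟩ := hT.exists_lipschitzOnWith
  have hTb : ∀ᶠ w in 𝓝 w0, Tm A j (B.i k) w ∈ ball (B.z k) (B.r k / 2) :=
    hT.continuousAt.eventually_mem (isOpen_ball.mem_nhds hkb)
  refine ⟨1 + (Kl : ℝ) ^ a, t ∩ A.ov j (B.i k) ∩ {w | Tm A j (B.i k) w ∈ ball (B.z k) (B.r k / 2)},
    inter_mem (inter_mem ht ((isOpen_ov j (B.i k)).mem_nhds hov)) hTb, ?_⟩
  rintro g N ⟨f, hf, rfl⟩
  have hN : 0 ≤ N := hf.nonneg
  have hKa : 0 ≤ (Kl : ℝ) ^ a := Real.rpow_nonneg Kl.coe_nonneg _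
  have e : ∀ w ∈ A.ov j (B.i k), inC A j f w = inC A (B.i k) f (Tm A j (B.i k) w) := by
    intro w hw
    simp only [inC, Tm, (A.e (B.i k)).left_inv hw.2]
  refine ⟨fun w hw => ?_, fun w hw w' hw' => ?_⟩
  · rw [e w hw.1.2]
    refine ((hf k).bdd _ (ball_subset_closedBall hw.2)).trans ?_
    nlinarith
  · rw [e w hw.1.2, e w' hw'.1.2]
    refine ((hf k).hol _ (ball_subset_closedBall hw.2) _ (ball_subset_closedBall hw'.2)).trans ?_
    have h1 : ‖Tm A j (B.i k) w - Tm A j (B.i k) w'‖ ≤ Kl * ‖w - w'‖ := by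
      have := hL.dist_le_mul w hw.1.1 w' hw'.1.1
      rwa [dist_eq_norm, dist_eq_norm] at this
    have h2 : ‖Tm A j (B.i k) w - Tm A j (B.i k) w'‖ ^ a ≤ (Kl : ℝ) ^ a * ‖w - w'‖ ^ a := by
      rw [← Real.mul_rpow Kl.coe_nonneg (norm_nonneg _)]
      exact Real.rpow_le_rpow (norm_nonneg _) h1 ha.le
    have hp : 0 ≤ ‖w - w'‖ ^ a := Real.rpow_nonneg (norm_nonneg _) _
    calc N * ‖Tm A j (B.i k) w - Tm A j (B.i k) w'‖ ^ a
        ≤ N * ((Kl : ℝ) ^ a * ‖w - w'‖ ^ a) := mul_le_mul_of_nonneg_left h2 hN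
      _ ≤ (1 + (Kl : ℝ) ^ a) * N * ‖w - w'‖ ^ a := by nlinarith [mul_nonneg hN hp]

end Cb

end

end Crest.Agent.R273.SchF_152
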