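import Crest.Agent.R273.SchF_152

/-!
Row 273 (S0416), leaf L1 (helper152): GLOBAL Schauder estimate on a compact complex manifold,
part G: the estimate with the sup norm on the right hand side.
-/

set_option autoImplicit false
set_option linter.unusedSectionVars false

open Set Metric Filter
open scoped ContDiff Topology Matrix ComplexConjugate ComplexOrder

namespace Crest.Agent.R273.SchG_152

open Crest.Agent.R275.Geo Crest.Agent.R275.Core144
open Crest.Agent.R273.SchA_152 Crest.Agent.R273.SchD_152 Crest.Agent.R273.SchE_152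
  Crest.Agent.R273.SchF_152
open Crest.Agent.R273.YauDefs_635 (cH inC)

noncomputable section

section ell

variable {n : ℕ}

/-- the Hermitian form of `G` at `ζ` -/
def hf (G : Matrix (Fin n) (Fin n) ℂ) (ζ : Cn n) : ℝ := (star (⇑ζ) ⬝ᵥ (G *ᵥ (⇑ζ))).re

theorem hf_smul (G : Matrix (Fin n) (Fin n) ℂ) (c : ℝ) (ζ : Cn n) :
    hf G (c • ζ) = c ^ 2 * hf G ζ := by
  unfold hf
  have e : (⇑(c • ζ) : Fin n → ℂ) = (c : ℂ) • (⇑ζ) := by
    funext a
    simp
  rw [e, Matrix.mulVec_smul, dotProduct_smul, star_smul, smul_dotProduct]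
  simp only [smul_eq_mul, Complex.star_def, Complex.conj_ofReal]
  rw [← mul_assoc, ← Complex.ofReal_mul, Complex.re_ofReal_mul]
  ring

theorem hf_norm (G : Matrix (Fin n) (Fin n) ℂ) {ζ : Cn n} (hζ : ζ ≠ 0) :
    hf G ζ = ‖ζ‖ ^ 2 * hf G ((‖ζ‖⁻¹ : ℝ) • ζ) := by
  have h := norm_ne_zero_iff.2 hζ
  rw [hf_smul, inv_pow, ← mul_assoc, mul_inv_cancel₀ (pow_ne_zero 2 h), one_mul]

theorem continuousOn_hf {G : Cn n → Matrix (Fin n) (Fin n) ℂ} {K : Set (Cn n)}
    (hG : ∀ i j, ContinuousOn (fun z => G z i j) K) :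
    ContinuousOn (fun p : Cn n × Cn n => hf (G p.1) p.2) (K ×ˢ univ) := by
  unfold hf
  refine Complex.continuous_re.comp_continuousOn ?_
  simp only [Matrix.mulVec, dotProduct, Pi.star_apply]
  refine continuousOn_finsetSum _ fun a _ => ?_
  have h1 : ∀ a, ContinuousOn (fun p : Cn n × Cn n => p.2 a) (K ×ˢ univ) := fun a => by
    have : Continuous (fun p : Cn n × Cn n => p.2 a) :=
      (EuclideanSpace.proj (𝕜 := ℂ) a).continuous.comp continuous_snd
    exact this.continuousOn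
  refine ((continuous_star.comp_continuousOn (h1 a))).mul
    (continuousOn_finsetSum _ fun b _ => ?_)
  exact ((hG a b).comp continuousOn_fst fun p hp => hp.1).mul (h1 b)

/-- uniform ellipticity on compact sets -/
theorem exists_ell {G : Cn n → Matrix (Fin n) (Fin n) ℂ} {K : Set (Cn n)} (hK : IsCompact K)
    (hG : ∀ i j, ContinuousOn (fun z => G z i j) K) (hp : ∀ z ∈ K, (G z).PosDef) :
    ∃ lo hi : ℝ, 0 < lo ∧ lo ≤ hi ∧ ∀ z ∈ K, EllC lo hi (G z) := by
  have hc := (continuousOn_hf hG).mono (prod_mono_right (s := K) (subset_univ (sphere (0 : Cn n) 1)))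
  have hKS := hK.prod (isCompact_sphere (0 : Cn n) 1)
  obtain ⟨B, hB⟩ := hKS.exists_bound_of_continuousOn hc
  obtain ⟨c, hc0, hc1⟩ := hKS.exists_forall_le' hc (a := 0) (fun p hq => by
    have h1 : p.2 ≠ 0 := by
      intro h0
      have := hq.2
      rw [mem_sphere_zero_iff_norm, h0, norm_zero] at this
      exact zero_ne_one this
    have h2 : (⇑p.2 : Fin n → ℂ) ≠ 0 := fun h => h1 (by ext a; exact congrFun h a)
    have h3 := (hp p.1 hq.1).dotProduct_mulVec_pos h2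
    exact (Complex.pos_iff.1 h3).1)
  refine ⟨c, max c B, hc0, le_max_left _ _, fun z hz => ⟨(hp z hz).1, fun ζ => ?_⟩⟩
  have hnorm : ∑ a, ‖ζ a‖ ^ 2 = ‖(WithLp.toLp 2 ζ : Cn n)‖ ^ 2 := by
    rw [EuclideanSpace.norm_sq_eq]
  set w : Cn n := WithLp.toLp 2 ζ with hw
  have hform : (star ζ ⬝ᵥ (G z *ᵥ ζ)).re = hf (G z) w := rfl
  rw [hnorm, hform]
  rcases eq_or_ne w 0 with h0 | h0
  · have e : hf (G z) w = 0 := by
      have h1 := hf_smul (G z) 0 w
      simpa [h0] using h1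
    rw [e, h0]
    simp
  · have hs : ((‖w‖⁻¹ : ℝ) • w) ∈ sphere (0 : Cn n) 1 := by
      rw [mem_sphere_zero_iff_norm, norm_smul, norm_inv, norm_norm,
        inv_mul_cancel₀ (norm_ne_zero_iff.2 h0)]
    have h1 := hB (z, (‖w‖⁻¹ : ℝ) • w) ⟨hz, hs⟩
    have h2 := hc1 (z, (‖w‖⁻¹ : ℝ) • w) ⟨hz, hs⟩
    rw [Real.norm_eq_abs] at h1
    have h3 := (le_abs_self _).trans h1
    rw [hf_norm (G z) h0]
    have hn : 0 ≤ ‖w‖ ^ 2 := by positivity
    constructor
    · rw [mul_comm]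
      exact mul_le_mul_of_nonneg_left h2 hn
    · rw [mul_comm _ (‖w‖ ^ 2)]
      exact mul_le_mul_of_nonneg_left (h3.trans (le_max_right _ _)) hn

theorem EllC.mono {lo hi lo' hi' : ℝ} {G : Matrix (Fin n) (Fin n) ℂ} (h : EllC lo hi G)
    (hlo : lo' ≤ lo) (hhi : hi ≤ hi') : EllC lo' hi' G := by
  refine ⟨h.1, fun ζ => ?_⟩
  have h0 : 0 ≤ ∑ a, ‖ζ a‖ ^ 2 := Finset.sum_nonneg fun a _ => by positivity
  exact ⟨(mul_le_mul_of_nonneg_right hlo h0).trans (h.2 ζ).1,
    (h.2 ζ).2.trans (mul_le_mul_of_nonneg_right hhi h0)⟩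

end ell

variable {n : ℕ} {M : Type} [TopologicalSpace M] {A : Atl n M}

/-- `G` is a smooth positive field in the charts -/
structure PG (A : Atl n M) (G : A.ι → Cn n → Matrix (Fin n) (Fin n) ℂ) : Prop where
  sm : ∀ i a b, ContDiffOn ℝ 1 (fun z => G i z a b) (A.e i).target
  pos : ∀ i, ∀ z ∈ (A.e i).target, (G i z).PosDef

/-- `f = tr(G ∂∂̄v)` in all charts -/
def IsLap (G : A.ι → Cn n → Matrix (Fin n) (Fin n) ℂ) (v f : M → ℝ) : Prop :=
  ∀ i, ∀ z ∈ (A.e i).target, ((G i z * cH (inC A i v) z).trace).re = inC A i f z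

/-- `v` is `C²` with locally Hölder second derivatives -/
structure Sm2 (A : Atl n M) (a : ℝ) (v : M → ℝ) : Prop where
  sm : ∀ i, ContDiffOn ℝ 2 (inC A i v) (A.e i).target
  ho : ∀ i z r, 0 < r → closedBall z r ⊆ (A.e i).target →
    ∃ V, HO a V (closedBall z r) (fderiv ℝ (fderiv ℝ (inC A i v)))

theorem Sm2.of_sm {a : ℝ} (ha : 0 < a) (ha1 : a ≤ 1) {v : M → ℝ} (hv : A.Sm v) : Sm2 A a v := by
  refine ⟨fun i => (hv i).of_le YauCh_635.two_le_inf, fun i z r h hr => ?_⟩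
  have h3 : ContDiffOn ℝ 1 (fderiv ℝ (fderiv ℝ (inC A i v))) (A.e i).target := by
    have h1 : ContDiffOn ℝ ∞ (fderiv ℝ (inC A i v)) (A.e i).target :=
      (hv i).fderiv_of_isOpen (A.e i).open_target (by simp)
    have h2 : ContDiffOn ℝ ∞ (fderiv ℝ (fderiv ℝ (inC A i v))) (A.e i).target :=
      h1.fderiv_of_isOpen (A.e i).open_target (by simp)
    exact h2.of_le (WithTop.coe_le_coe.2 (le_top : (1 : ℕ∞) ≤ ⊤))
  obtain ⟨V, -, hV⟩ := ho_of_c1 ha ha1 h (A.e i).open_target hr h3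
  exact ⟨V, hV⟩

/-- **Global Schauder estimate.** -/
theorem schauder [Nonempty M] (B : Cb A) {a : ℝ} (ha : 0 < a) (ha1 : a < 1)
    {G : A.ι → Cn n → Matrix (Fin n) (Fin n) ℂ} (hG : PG A G) :
    ∃ C : ℝ, 0 < C ∧ ∀ (v f : M → ℝ) (N S : ℝ), Sm2 A a v → IsLap G v f → B.NH a N f →
      (∀ x, |v x| ≤ S) → B.N2 a (C * (N + S)) v := by
  have := B.fin
  -- one ball
  have one : ∀ k : B.κ, ∃ C : ℝ, 0 < C ∧ ∀ (v f : M → ℝ) (N S : ℝ), Sm2 A a v → IsLap G v f →
      B.NH a N f → (∀ x, |v x| ≤ S) →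
      C2A a (C * (N + S)) (closedBall (B.z k) (B.r k / 2)) (inC A (B.i k) v) := by
    intro k
    have hcG : ∀ i j, ContinuousOn (fun z => G (B.i k) z i j) (closedBall (B.z k) (B.r k)) :=
      fun i j => (hG.sm _ i j).continuousOn.mono (B.sub k)
    obtain ⟨lo, hi, hlo, hlohi, hell⟩ := exists_ell (isCompact_closedBall _ _) hcG
      (fun z hz => hG.pos _ z (B.sub k hz))
    have hGH : ∀ i j, ∃ M', 0 ≤ M' ∧
        HO a M' (closedBall (B.z k) (B.r k)) (fun z => G (B.i k) z i j) := fun i j =>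
      ho_of_c1 ha ha1.le (B.r0 k) (A.e (B.i k)).open_target (B.sub k) (hG.sm _ i j)
    choose M' hM0 hM' using hGH
    obtain ⟨C1, hC1, H1⟩ := int_schauder_cx n ha ha1 hlo hlohi (∑ i, ∑ j, M' i j) (B.r0 k) (B.r1 k)
    obtain ⟨C2, hC2, H2⟩ := Cb.NH.compact B ha (B.i k) (isCompact_closedBall (B.z k) (B.r k))
      (B.sub k)
    refine ⟨C1 * (C2 + 1), by positivity, fun v f N S hv hf hN hS => ?_⟩
    have hN0 : 0 ≤ N := hN.nonneg
    have hS0 : 0 ≤ S := (abs_nonneg _).trans (hS (Classical.arbitrary M))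
    have h1 := H1 (B.z k) (G (B.i k)) hell
      (fun i j => (hM' i j).mono (by
        refine (Finset.single_le_sum (f := fun j => M' i j) (fun j _ => hM0 i j)
          (Finset.mem_univ j)).trans ?_
        exact Finset.single_le_sum (f := fun i => ∑ j, M' i j)
          (fun i _ => Finset.sum_nonneg fun j _ => hM0 i j) (Finset.mem_univ i)))
      _ (A.e (B.i k)).open_target (B.sub k) (inC A (B.i k) v) (C2 * N) S (hv.sm _)
      (hv.ho _ _ _ (B.r0 k) (B.sub k))
      ((H2 f N hN).congr fun z hz => hf _ z (B.sub k hz))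
      (fun z _ => hS _)
    refine h1.mono ?_
    have : C2 * N + S ≤ (C2 + 1) * (N + S) := by nlinarith [mul_nonneg hC2.le hS0]
    calc C1 * (C2 * N + S) ≤ C1 * ((C2 + 1) * (N + S)) := mul_le_mul_of_nonneg_left this hC1.le
      _ = C1 * (C2 + 1) * (N + S) := by ring
  choose C hC0 hC using one
  cases nonempty_fintype B.κ
  refine ⟨∑ k, C k + 1, by
    have : 0 ≤ ∑ k, C k := Finset.sum_nonneg fun k _ => (hC0 k).le
    linarith, fun v f N S hv hf hN hS k => ?_⟩
  have hN0 : 0 ≤ N := hN.nonneg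
  have hS0 : 0 ≤ S := (abs_nonneg _).trans (hS (Classical.arbitrary M))
  refine (hC k v f N S hv hf hN hS).mono (mul_le_mul_of_nonneg_right ?_ (by positivity))
  have := Finset.single_le_sum (f := C) (fun k _ => (hC0 k).le) (Finset.mem_univ k)
  linarith

end

end Crest.Agent.R273.SchG_152
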