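import Crest.Agent.R273.SchG_152
import Crest.Agent.R273.Vm_333
import Crest.Agent.R273.Green_5
import Crest.Agent.R273.YauMax_635

/-!
Row 273 (S0416), leaf L1 (helper152): the Laplacian `tr(g⁻¹ ∂∂̄u)` of a Kaehler metric as a
function on `M`, and its integral against the volume form.
-/

set_option autoImplicit false
set_option linter.unusedSectionVars false

open Set Metric Filter MeasureTheory
open scoped ContDiff Topology Matrix ComplexConjugate ComplexOrder

namespace Crest.Agent.R273.SchH_152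

open Crest.Agent.R275 Crest.Agent.R275.Geo Crest.Agent.R275.Core144 Crest.Agent.R275.EDR890
open Crest.Agent.R275.Pai323 Crest.Agent.R275.C1d194
open Crest.Agent.R273.Defs_333 Crest.Agent.R273.Hess_333 Crest.Agent.R273.HessB_333
open Crest.Agent.R273.HM_333 Crest.Agent.R273.Kah_333 Crest.Agent.R273.Vol_333
open Crest.Agent.R273.Vm_333
open Crest.Agent.R273.StV_37 Crest.Agent.R273.Green_5
open Crest.Agent.R273.SchA_152 Crest.Agent.R273.SchD_152 Crest.Agent.R273.SchE_152
  Crest.Agent.R273.SchF_152 Crest.Agent.R273.SchG_152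
open Crest.Agent.R273.YauDefs_635 (cH inC)

noncomputable section

variable {n : ℕ} {M : Type} [TopologicalSpace M] {A : Atl n M}

/-- the inverse metric in the chart `i` -/
def gi (K : Kah A) (i : A.ι) (z : Cn n) : Matrix (Fin n) (Fin n) ℂ := (K.g i ((A.e i).symm z))⁻¹

/-- the trace in the chart `i` -/
def tr1 (K : Kah A) (u : M → ℝ) (i : A.ι) (x : M) : ℂ := ((K.g i x)⁻¹ * hsf A u i x).trace

theorem det_Jm {i j : A.ι} {x : M} (hx : x ∈ (A.e i).source ∩ (A.e j).source) :
    (Jm A i j x).det ≠ 0 := by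
  rw [← KB_g hx]
  exact (KB A).ne_zero i j x

theorem tr1_eq (K : Kah A) {u : M → ℝ} (hu : A.Sm u) {i j : A.ι} {x : M}
    (hx : x ∈ (A.e i).source ∩ (A.e j).source) : tr1 K u i x = tr1 K u j x := by
  unfold tr1
  rw [K.tr i j x hx, hsf_tr hu hx]
  set J := Jm A i j x with hJ
  have hJd : J.det ≠ 0 := det_Jm hx
  have h1 : IsUnit (Jᵀ).det := by rw [Matrix.det_transpose]; exact isUnit_iff_ne_zero.2 hJd
  have h2 : IsUnit (J.map conj).det := by
    have : (J.map conj).det = conj J.det := by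
      have := (RingHom.map_det (starRingEnd ℂ) J)
      rw [this]
      rfl
    rw [this, isUnit_iff_ne_zero]
    exact (map_ne_zero _).2 hJd
  rw [Matrix.mul_inv_rev, Matrix.mul_inv_rev, Matrix.mul_assoc, Matrix.mul_assoc,
    ← Matrix.mul_assoc (Jᵀ)⁻¹, ← Matrix.mul_assoc (Jᵀ)⁻¹, Matrix.nonsing_inv_mul _ h1,
    Matrix.one_mul, Matrix.trace_mul_comm, Matrix.mul_assoc, Matrix.mul_assoc,
    Matrix.mul_nonsing_inv _ h2, Matrix.mul_one]

/-- the complex Laplacian as a function on `M` -/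
def LapC (K : Kah A) (u : M → ℝ) (x : M) : ℂ := tr1 K u (A.cover x).choose x

theorem LapC_eq (K : Kah A) {u : M → ℝ} (hu : A.Sm u) {i : A.ι} {x : M}
    (hx : x ∈ (A.e i).source) : LapC K u x = tr1 K u i x :=
  tr1_eq K hu ⟨(A.cover x).choose_spec, hx⟩

/-- the Laplacian `tr(g⁻¹ ∂∂̄u)` -/
def Lap (K : Kah A) (u : M → ℝ) (x : M) : ℝ := (LapC K u x).re

theorem contDiffOn_inv (K : Kah A) (i : A.ι) (a b : Fin n) :
    ContDiffOn ℝ ∞ (fun z => gi K i z a b) (A.e i).target := by
  have h1 : ContDiffOn ℝ ∞ (fun z => (K.g i ((A.e i).symm z)).adjugate a b) (A.e i).target :=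
    smAt_adj (kah_cf K) i b a
  have h2 : ContDiffOn ℝ ∞ (fun z => (K.g i ((A.e i).symm z)).det) (A.e i).target :=
    smAt_det (K.sm i)
  have h3 : ∀ z ∈ (A.e i).target, (K.g i ((A.e i).symm z)).det ≠ 0 := fun z hz =>
    (K.pos i _ ((A.e i).map_target hz)).det_pos.ne'
  refine ((h2.inv h3).mul h1).congr fun z hz => ?_
  simp only [gi, Matrix.inv_def, Matrix.smul_apply, smul_eq_mul, Ring.inverse_eq_inv', Pi.inv_apply]

theorem contDiffOn_hsf {u : M → ℝ} (hu : A.Sm u) (i : A.ι) (a b : Fin n) :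
    ContDiffOn ℝ ∞ (fun z => hsf A u i ((A.e i).symm z) a b) (A.e i).target :=
  (hsf_cf hu).sm i a b

theorem sm_LapC (K : Kah A) {u : M → ℝ} (hu : A.Sm u) : A.Sm (LapC K u) := by
  intro i
  have h1 : ContDiffOn ℝ ∞ (fun z => ∑ a, ∑ b, gi K i z a b * hsf A u i ((A.e i).symm z) b a)
      (A.e i).target :=
    ContDiffOn.sum fun a _ => ContDiffOn.sum fun b _ =>
      (contDiffOn_inv K i a b).mul (contDiffOn_hsf hu i b a)
  refine h1.congr fun z hz => ?_
  rw [LapC_eq K hu ((A.e i).map_target hz)]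
  simp only [tr1, Matrix.trace, Matrix.diag_apply, Matrix.mul_apply, gi]

theorem sm_Lap (K : Kah A) {u : M → ℝ} (hu : A.Sm u) : A.Sm (Lap K u) := fun i =>
  Complex.reCLM.contDiff.comp_contDiffOn (sm_LapC K hu i)

theorem isLap (K : Kah A) {u : M → ℝ} (hu : A.Sm u) : IsLap (gi K) u (Lap K u) := by
  intro i z hz
  show _ = Lap K u ((A.e i).symm z)
  rw [Lap, LapC_eq K hu ((A.e i).map_target hz), tr1, hsf_read u i hz,
    YauMax_635.cH_eq_hess (YauMax_635.inC_contDiffAt hu i hz)]
  rfl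

theorem lap_of_isLap (K : Kah A) {u f : M → ℝ} (hu : A.Sm u) (h : IsLap (gi K) u f) :
    Lap K u = f := by
  funext x
  obtain ⟨i, hi⟩ := A.cover x
  have h1 := h i _ ((A.e i).map_source hi)
  have h2 := isLap K hu i _ ((A.e i).map_source hi)
  rw [h2] at h1
  simpa only [inC, (A.e i).left_inv hi] using h1

theorem pg (K : Kah A) : PG A (gi K) where
  sm i a b := (contDiffOn_inv K i a b).of_le (WithTop.coe_le_coe.2 (le_top : (1 : ℕ∞) ≤ ⊤))
  pos i _ hz := (K.pos i _ ((A.e i).map_target hz)).inv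

section integral

variable [T2Space M] [CompactSpace M] [Finite A.ι] [MeasurableSpace M] [BorelSpace M]

theorem integrable_cont (h : HM (KB A)⁻¹) {f : M → ℂ} (hf : Continuous f) :
    Integrable f (vm h) := by
  have := isFinite_vm h
  obtain ⟨C, hC⟩ := isCompact_univ.exists_bound_of_continuousOn hf.continuousOn
  exact Integrable.of_bound hf.measurable.aestronglyMeasurable C
    (Eventually.of_forall fun x => hC x (mem_univ x))

theorem int_LapC (P : Part A) (K : Kah A) {u : M → ℝ} (hu : A.Sm u) :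
    ∫ x, LapC K u x ∂(vm (volK K)) = 0 := by
  cases nonempty_fintype A.ι
  rw [integral_vm_part (volK K) P (integrable_cont _ (sm_continuous (sm_LapC K hu)))]
  have h1 := green1 P (kah_cf K) (u := fun y => (u y : ℂ)) (fun i => smAt_ofReal (hu i))
    (isCompact_univ : IsCompact (univ : Set M)) (F := Finset.univ) (Finset.subset_univ _)
    (fun x hx => absurd (mem_univ x) hx)
  rw [← h1]
  unfold tot
  refine Finset.sum_congr rfl fun i _ => Pai323.lint_congr fun x hx => ?_
  congr 1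
  show _ = ((K.g i x).adjugate * hm A (fun y => (u y : ℂ)) i x).trace
  rw [volK_w K i hx, LapC_eq K hu hx, hm_ofReal u i hx]
  unfold tr1
  have hdet : (K.g i x).det ≠ 0 := (K.pos i x hx).det_pos.ne'
  rw [Matrix.inv_def, Ring.inverse_eq_inv', Matrix.smul_mul, Matrix.trace_smul, smul_eq_mul,
    ← mul_assoc, mul_inv_cancel₀ hdet, one_mul]

/-- the integral of the Laplacian vanishes -/
theorem int_Lap (P : Part A) (K : Kah A) {u : M → ℝ} (hu : A.Sm u) :
    ∫ x, Lap K u x ∂(vm (volK K)) = 0 := by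
  have h1 := int_LapC P K hu
  have h2 := integral_re (μ := vm (volK K)) (𝕜 := ℂ)
    (integrable_cont _ (sm_continuous (sm_LapC K hu)))
  rw [h1] at h2
  exact h2.trans (by simp)

end integral

end

end Crest.Agent.R273.SchH_152
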