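import Crest.Agent.R273.SchH_152

/-!
Row 273 (S0416), leaf L1 (helper152): GLOBAL Schauder estimate without zero order term:
`|v|_{C^{2,a}} ≤ C |Lap v|_{C^a}` for smooth `v` vanishing at one point (energy identity +
Hölder continuity of the gradient; no maximum principle).
-/

set_option autoImplicit false
set_option linter.unusedSectionVars false

open Set Metric Filter MeasureTheory
open scoped ContDiff Topology Matrix ComplexConjugate ComplexOrder

namespace Crest.Agent.R273.SchI_152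

open Crest.Agent.R275 Crest.Agent.R275.Geo Crest.Agent.R275.Core144 Crest.Agent.R275.EDR890
open Crest.Agent.R273.Defs_333 Crest.Agent.R273.Hess_333 Crest.Agent.R273.HessB_333
open Crest.Agent.R273.HM_333 Crest.Agent.R273.Kah_333 Crest.Agent.R273.Vol_333
open Crest.Agent.R273.Vm_333
open Crest.Agent.R273.SchA_152 Crest.Agent.R273.SchD_152 Crest.Agent.R273.SchE_152
  Crest.Agent.R273.SchF_152 Crest.Agent.R273.SchG_152 Crest.Agent.R273.SchH_152
open Crest.Agent.R273.YauDefs_635 (cH inC)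
open Crest.Agent.R238.Sch (ee)

noncomputable section

section loc

variable {n : ℕ}

/-- the trace in real coordinates -/
theorem tr_cH (G : Matrix (Fin n) (Fin n) ℂ) (u : Cn n → ℝ) (z : Cn n) :
    ((G * cH u z).trace).re =
      ∑ p, ∑ p', tau G p p' * fderiv ℝ (fderiv ℝ u) z (Tl n (ee p)) (Tl n (ee p')) := by
  rw [tau_sum]
  simp only [Matrix.trace, Matrix.diag_apply, Matrix.mul_apply]
  congr 1
  refine Finset.sum_congr rfl fun a _ => Finset.sum_congr rfl fun b _ => ?_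
  congr 1
  simp only [cH, Matrix.of_apply, YauDefs_635.D2, Tl_ee, cs]
  norm_num

theorem fd2_sq {X : Type*} [NormedAddCommGroup X] [NormedSpace ℝ X] {h : X → ℝ} {z : X}
    (hh : ContDiffAt ℝ 2 h z) (v w : X) :
    fderiv ℝ (fderiv ℝ (fun x => h x ^ 2)) z v w =
      2 * (fderiv ℝ h z v * fderiv ℝ h z w) + 2 * h z * fderiv ℝ (fderiv ℝ h) z v w := by
  have h1 : ∀ᶠ x in 𝓝 z, ContDiffAt ℝ 2 h x := hh.eventually (by simp)
  have h2 : fderiv ℝ (fun x => h x ^ 2) =ᶠ[𝓝 z] fun x => (2 * h x) • fderiv ℝ h x := by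
    filter_upwards [h1] with x hx
    have hd : HasFDerivAt h (fderiv ℝ h x) x := (hx.differentiableAt (by norm_num)).hasFDerivAt
    have := hd.pow 2
    rw [this.fderiv]
    simp
  have h3 : DifferentiableAt ℝ (fderiv ℝ h) z :=
    (hh.fderiv_right (m := 1) (by norm_num)).differentiableAt (by norm_num)
  have h4 : HasFDerivAt (fun x => 2 * h x) (2 • fderiv ℝ h z) z := by
    have := (hh.differentiableAt (by norm_num)).hasFDerivAt.const_mul (2 : ℝ)
    simpa [two_smul, two_mul] using this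
  have h5 : HasFDerivAt (fun x => (2 * h x) • fderiv ℝ h x) _ z := h4.smul h3.hasFDerivAt
  rw [h2.fderiv_eq, h5.fderiv]
  simp [ContinuousLinearMap.smulRight_apply]
  ring

theorem lap_sq (G : Matrix (Fin n) (Fin n) ℂ) {u : Cn n → ℝ} {z : Cn n}
    (hu : ContDiffAt ℝ 2 u z) :
    ((G * cH (fun x => u x ^ 2) z).trace).re = 2 * u z * ((G * cH u z).trace).re +
      2 * ∑ p, ∑ p', tau G p p' * fderiv ℝ u z (Tl n (ee p)) * fderiv ℝ u z (Tl n (ee p')) := by
  rw [tr_cH, tr_cH, Finset.mul_sum, Finset.mul_sum, ← Finset.sum_add_distrib]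
  refine Finset.sum_congr rfl fun p _ => ?_
  rw [Finset.mul_sum, Finset.mul_sum, ← Finset.sum_add_distrib]
  refine Finset.sum_congr rfl fun p' _ => ?_
  rw [fd2_sq hu]
  ring

theorem norm_sq_le (L : Cn n →L[ℝ] ℝ) : ‖L‖ ^ 2 ≤ ∑ p, (L (Tl n (ee p))) ^ 2 := by
  set S := ∑ p, (L (Tl n (ee p))) ^ 2 with hS
  have hS0 : 0 ≤ S := Finset.sum_nonneg fun p _ => sq_nonneg _
  have h1 : ‖L‖ ≤ Real.sqrt S := by
    refine ContinuousLinearMap.opNorm_le_bound _ (Real.sqrt_nonneg _) fun v => ?_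
    obtain ⟨ξ, rfl⟩ := (Tl n).surjective v
    rw [(Tl n).norm_map]
    have e : L (Tl n ξ) = ∑ p, ξ p * L (Tl n (ee p)) := by
      conv_lhs => rw [Crest.Agent.R238.Sch.sum_ee ξ]
      rw [map_sum, map_sum]
      refine Finset.sum_congr rfl fun p _ => ?_
      rw [map_smul, map_smul, smul_eq_mul]
    rw [e, Real.norm_eq_abs, ← Real.sqrt_sq_eq_abs, EuclideanSpace.norm_eq,
      ← Real.sqrt_mul hS0]
    refine Real.sqrt_le_sqrt ?_
    have := Finset.sum_mul_sq_le_sq_mul_sq Finset.univ (fun p => ξ p) (fun p => L (Tl n (ee p)))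
    refine this.trans (le_of_eq ?_)
    rw [mul_comm]
    congr 1
    refine Finset.sum_congr rfl fun p _ => ?_
    rw [Real.norm_eq_abs, sq_abs]
  calc ‖L‖ ^ 2 ≤ Real.sqrt S ^ 2 := by gcongr
    _ = S := Real.sq_sqrt hS0

/-- lower bound of the gradient term -/
theorem grad_lb {lo hi : ℝ} (hlo : 0 ≤ lo) {G : Matrix (Fin n) (Fin n) ℂ} (hG : EllC lo hi G)
    (L : Cn n →L[ℝ] ℝ) :
    lo / 4 * ‖L‖ ^ 2 ≤ ∑ p, ∑ p', tau G p p' * L (Tl n (ee p)) * L (Tl n (ee p')) := by
  have h1 := ((ell_tau hG).2 fun p => L (Tl n (ee p))).1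
  refine le_trans ?_ h1
  exact mul_le_mul_of_nonneg_left (norm_sq_le L) (by positivity)

end loc

variable {n : ℕ} {M : Type} [TopologicalSpace M] {A : Atl n M}

/-- the square of the gradient -/
def Dg (K : Kah A) (v : M → ℝ) (x : M) : ℝ :=
  (1 / 2) * Lap K (fun y => v y ^ 2) x - v x * Lap K v x

theorem sm_sq {v : M → ℝ} (hv : A.Sm v) : A.Sm (fun y => v y ^ 2) := fun i => (hv i).pow 2

theorem Dg_lb (K : Kah A) {v : M → ℝ} (hv : A.Sm v) {i : A.ι} {z : Cn n}
    (hz : z ∈ (A.e i).target) {lo hi : ℝ} (hlo : 0 ≤ lo) (hG : EllC lo hi (gi K i z)) :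
    lo / 4 * ‖fderiv ℝ (inC A i v) z‖ ^ 2 ≤ Dg K v ((A.e i).symm z) := by
  have h1 := isLap K (sm_sq hv) i z hz
  have h2 := isLap K hv i z hz
  have h3 := lap_sq (gi K i z) (YauCh_635.inC_c2 hv i hz)
  have h4 : inC A i (fun y => v y ^ 2) = fun x => inC A i v x ^ 2 := rfl
  rw [h4, h3, h2] at h1
  unfold Dg
  have h5 : Lap K (fun y => v y ^ 2) ((A.e i).symm z) = inC A i (Lap K fun y => v y ^ 2) z := rfl
  rw [h5, ← h1]
  have h6 := grad_lb hlo hG (fderiv ℝ (inC A i v) z)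
  have h7 : inC A i v z = v ((A.e i).symm z) := rfl
  have h8 : inC A i (Lap K v) z = Lap K v ((A.e i).symm z) := rfl
  rw [h7, h8]
  linarith

theorem Dg_nonneg (K : Kah A) {v : M → ℝ} (hv : A.Sm v) (x : M) : 0 ≤ Dg K v x := by
  obtain ⟨i, hi⟩ := A.cover x
  have hz := (A.e i).map_source hi
  obtain ⟨lo, hi', hlo, -, hell⟩ := exists_ell (K := {A.e i x}) isCompact_singleton
    (G := gi K i) (fun a b => continuousOn_singleton _ _)
    (fun z hz' => by rw [mem_singleton_iff.1 hz']; exact (pg K).pos i _ hz)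
  have := Dg_lb K hv hz hlo.le (hell _ (mem_singleton _))
  rw [(A.e i).left_inv hi] at this
  exact le_trans (by positivity) this

theorem continuous_Dg (K : Kah A) {v : M → ℝ} (hv : A.Sm v) : Continuous (Dg K v) :=
  (continuous_const.mul (YauMax_635.continuous_of_sm (sm_Lap K (sm_sq hv)))).sub
    ((YauMax_635.continuous_of_sm hv).mul (YauMax_635.continuous_of_sm (sm_Lap K hv)))

/-! ### oscillation -/

/-- the oscillation is bounded by the gradient -/
theorem osc [CompactSpace M] [ConnectedSpace M] (B : Cb A) :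
    ∃ C : ℝ, 0 < C ∧ ∀ (v : M → ℝ) (G : ℝ), A.Sm v → 0 ≤ G →
      (∀ k, ∀ z ∈ closedBall (B.z k) (B.r k / 2), ‖fderiv ℝ (inC A (B.i k) v) z‖ ≤ G) →
      ∀ x y, |v x - v y| ≤ C * G := by
  have hfin := B.fin
  cases nonempty_fintype B.κ
  set P : M → M → Prop := fun x y => ∃ C : ℝ, 0 ≤ C ∧ ∀ (v : M → ℝ) (G : ℝ), A.Sm v → 0 ≤ G →
      (∀ k, ∀ z ∈ closedBall (B.z k) (B.r k / 2), ‖fderiv ℝ (inC A (B.i k) v) z‖ ≤ G) →
      |v x - v y| ≤ C * G with hP
  -- inside one half ball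
  have hin : ∀ k, ∀ x y : M, x ∈ (A.e (B.i k)).source → y ∈ (A.e (B.i k)).source →
      A.e (B.i k) x ∈ closedBall (B.z k) (B.r k / 2) →
      A.e (B.i k) y ∈ closedBall (B.z k) (B.r k / 2) →
      ∀ (v : M → ℝ) (G : ℝ), A.Sm v → 0 ≤ G →
      (∀ k, ∀ z ∈ closedBall (B.z k) (B.r k / 2), ‖fderiv ℝ (inC A (B.i k) v) z‖ ≤ G) →
      |v x - v y| ≤ 1 * G := by
    intro k x y hx hy hbx hby v G hv hG0 hG
    have h1 := (convex_closedBall (B.z k) (B.r k / 2)).norm_image_sub_le_of_norm_fderiv_le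
      (𝕜 := ℝ) (f := inC A (B.i k) v) (C := G)
      (fun w hw => (YauCh_635.inC_c2 hv (B.i k) (B.sub' k hw)).differentiableAt (by norm_num))
      (fun w hw => hG k w hw) hby hbx
    simp only [inC, (A.e (B.i k)).left_inv hx, (A.e (B.i k)).left_inv hy] at h1
    rw [Real.norm_eq_abs] at h1
    have h2 : ‖A.e (B.i k) x - A.e (B.i k) y‖ ≤ 1 := by
      rw [mem_closedBall, dist_eq_norm] at hbx hby
      have e : A.e (B.i k) x - A.e (B.i k) y =
          (A.e (B.i k) x - B.z k) - (A.e (B.i k) y - B.z k) := by abel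
      rw [e]
      refine (norm_sub_le _ _).trans ?_
      linarith [B.r1 k]
    nlinarith
  have hsymm : Std.Symm P := ⟨by
    rintro x y ⟨C, hC0, hC⟩
    refine ⟨C, hC0, fun v G hv hG0 hG => ?_⟩
    rw [abs_sub_comm]
    exact hC v G hv hG0 hG⟩
  have htrans : IsTrans M P := ⟨by
    rintro x y z ⟨C, hC0, hC⟩ ⟨C', hC0', hC'⟩
    refine ⟨C + C', by positivity, fun v G hv hG0 hG => ?_⟩
    have h1 := hC v G hv hG0 hG
    have h2 := hC' v G hv hG0 hG
    have h3 := abs_sub_le (v x) (v y) (v z)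
    rw [add_mul]
    linarith⟩
  have hall : ∀ x y, P x y := by
    refine PreconnectedSpace.induction₂ P ?_ htrans
    intro x
    obtain ⟨k, hk, hkb⟩ := B.cover x
    have ho : IsOpen ((A.e (B.i k)).source ∩ (A.e (B.i k)) ⁻¹' ball (B.z k) (B.r k / 2)) :=
      (A.e (B.i k)).isOpen_inter_preimage isOpen_ball
    filter_upwards [ho.mem_nhds ⟨hk, hkb⟩] with y hy
    exact ⟨1, zero_le_one, hin k x y hk hy.1 (ball_subset_closedBall hkb)
      (ball_subset_closedBall hy.2)⟩
  -- centres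
  set c : B.κ → M := fun k => (A.e (B.i k)).symm (B.z k) with hc
  have hct : ∀ k, B.z k ∈ (A.e (B.i k)).target := fun k =>
    B.sub k (mem_closedBall_self (B.r0 k).le)
  obtain ⟨x0⟩ : Nonempty M := inferInstance
  have hx0 : ∀ k, P x0 (c k) := fun k => hall _ _
  choose C hC0 hC using hx0
  have hsum : 0 ≤ ∑ k, C k := Finset.sum_nonneg fun k _ => hC0 k
  refine ⟨2 * (∑ k, C k + 1), by positivity, fun v G hv hG0 hG => ?_⟩
  have key : ∀ y, |v x0 - v y| ≤ (∑ k, C k + 1) * G := by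
    intro y
    obtain ⟨k, hk, hkb⟩ := B.cover y
    have h1 := hC k v G hv hG0 hG
    have h2 := hin k (c k) y ((A.e (B.i k)).map_target (hct k)) hk
      (by
        rw [hc]
        simp only [(A.e (B.i k)).right_inv (hct k)]
        exact mem_closedBall_self (by linarith [B.r0 k]))
      (ball_subset_closedBall hkb) v G hv hG0 hG
    have h3 := abs_sub_le (v x0) (v (c k)) (v y)
    have h4 : C k * G ≤ (∑ k, C k) * G :=
      mul_le_mul_of_nonneg_right (Finset.single_le_sum (f := C) (fun k _ => hC0 k)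
        (Finset.mem_univ k)) hG0
    rw [add_mul]
    linarith
  intro x y
  have h1 := key x
  have h2 := key y
  have h3 := abs_sub_le (v x) (v x0) (v y)
  rw [abs_sub_comm (v x) (v x0)] at h3
  linarith

end

end Crest.Agent.R273.SchI_152
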