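import Crest.Agent.R273.KosAb_619
import Crest.Agent.R273.LamN_127
import Crest.Agent.R275.Dg1_199
import Crest.Agent.R275.GeoHol_912

/-!
# R273 (S0416), leaf SERRE, part A (helper945): the Koszul zig-zag

* `zig`      : the abstract zig-zag (no geometry);
* `Raw A`    : families `A.ι → M → κ → ℂ`, a module over the functions `A.ι → M → ℂ`;
* `FF N q`   : smooth `(0,q)`-forms with values in the line bundle `N : LB A`;
* `SmS L s`  : smooth sections of `L`; `SmS.smul_mem`, `nab_hol_smul`;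
* `embN`     : sections of `N` as elements of `FF N 0`; `embN_closed_iff`.
-/

set_option autoImplicit false
set_option linter.unusedSectionVars false

open Set Filter Topology Complex
open scoped ContDiff Matrix ComplexConjugate Kronecker

namespace Crest.Agent.R273.SerA_945

open Crest.Agent.R275 Crest.Agent.R275.Geo Crest.Agent.R275.Core144 Crest.Agent.R275.Dg199
open Crest.Agent.R275.Kos798
open Crest.Agent.R273.LamN127 Crest.Agent.R273.KosAb_619

noncomputable section

/-! ### the abstract zig-zag -/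

section Abstract

variable {V : Type*} [AddCommGroup V]

/-- the abstract zig-zag: `C p q` (Koszul degree, form degree), `Z` = elements vanishing near the
base point -/
theorem zig (n : ℕ) (C : ℕ → ℕ → AddSubgroup V) (Z : AddSubgroup V) (K h : V →+ V) (D : V → V)
    (cK : ∀ p q, ∀ u ∈ C (p + 1) q, K u ∈ C p q)
    (cD : ∀ p q, ∀ u ∈ C p q, D u ∈ C p (q + 1))
    (zD : ∀ p q, ∀ u ∈ C p q, u ∈ Z → D u ∈ Z)
    (ch : ∀ p q, ∀ u ∈ C p q, u ∈ Z → h u ∈ C (p + 1) q)
    (zh : ∀ p q, ∀ u ∈ C p q, u ∈ Z → h u ∈ Z)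
    (KD : ∀ p q, ∀ u ∈ C (p + 1) q, K (D u) = D (K u))
    (DD : ∀ p q, ∀ u ∈ C p q, D (D u) = 0)
    (Ds : ∀ p q, ∀ u ∈ C p q, ∀ v ∈ C p q, D (u - v) = D u - D v)
    (Kh : ∀ p q, ∀ u ∈ C p q, u ∈ Z → K u = 0 → K (h u) = u)
    (KK : ∀ u, K (K u) = 0)
    (top : ∀ p q, n < q → ∀ u ∈ C p q, u = 0)
    (ex : ∀ q, 1 ≤ q → q ≤ n → ∀ u ∈ C q q, D u = 0 → ∃ w ∈ C q (q - 1), D w = u)
    (η : V) (hη : η ∈ C 0 1) (hZ : η ∈ Z) (hK : K η = 0) (hD : D η = 0) :
    ∃ w ∈ C 1 0, D (K w) = η := by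
  have D0 : ∀ p q, ∀ u ∈ C p q, u = 0 → D u = 0 := by
    intro p q u hu h0
    have := Ds p q u hu u hu
    rw [sub_self, sub_self] at this
    rw [h0, this]
  have ex' : ∀ q, 1 ≤ q → ∀ u ∈ C q q, D u = 0 → ∃ w ∈ C q (q - 1), D w = u := by
    intro q hq u hu hDu
    by_cases hqn : q ≤ n
    · exact ex q hq hqn u hu hDu
    · have h0 := top q q (by omega) u hu
      exact ⟨0, AddSubgroup.zero_mem _, by rw [D0 q (q - 1) 0 (AddSubgroup.zero_mem _) rfl, h0]⟩
  have claim : ∀ d p, p + d = n → ∀ η ∈ C p (p + 1), η ∈ Z → K η = 0 → D η = 0 →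
      ∃ y ∈ C (p + 1) (p + 1), K y = η ∧ D y = 0 := by
    intro d
    induction d with
    | zero =>
      intro p hp η hη _ _ _
      have h0 := top p (p + 1) (by omega) η hη
      exact ⟨0, AddSubgroup.zero_mem _, by rw [map_zero, h0],
        D0 _ _ 0 (AddSubgroup.zero_mem (C (p + 1) (p + 1))) rfl⟩
    | succ d ih =>
      intro p hp η hη hZ hK hD
      have hy0 := ch _ _ η hη hZ
      have hKy0 := Kh _ _ η hη hZ hK
      have hZy0 := zh _ _ η hη hZ
      have hη1 := cD _ _ _ hy0
      have hKη1 : K (D (h η)) = 0 := by rw [KD _ _ _ hy0, hKy0, hD]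
      obtain ⟨y1, hy1, hKy1, hDy1⟩ := ih (p + 1) (by omega) (D (h η)) hη1 (zD _ _ _ hy0 hZy0)
        hKη1 (DD _ _ _ hy0)
      obtain ⟨z, hz, hDz⟩ := ex' (p + 2) (by omega) y1 hy1 hDy1
      have hz' : z ∈ C (p + 2) (p + 1) := hz
      have hKz := cK _ _ _ hz'
      refine ⟨h η - K z, AddSubgroup.sub_mem _ hy0 hKz, ?_, ?_⟩
      · rw [map_sub, KK, sub_zero, hKy0]
      · rw [Ds _ _ _ hy0 _ hKz, ← KD _ _ _ hz', hDz, hKy1, sub_self]
  obtain ⟨y, hy, hKy, hDy⟩ := claim n 0 (by omega) η hη hZ hK hD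
  obtain ⟨w, hw, hDw⟩ := ex' 1 le_rfl y hy hDy
  exact ⟨w, hw, by rw [← KD _ _ _ hw, hDw, hKy]⟩

end Abstract

/-! ### raw families -/

section Raw

variable {n : ℕ} {M : Type} [TopologicalSpace M]

/-- raw families of forms -/
abbrev Raw (A : Atl n M) : Type := A.ι → M → (Finset (Fin n) × Unit) → ℂ

/-- functions on the charts -/
abbrev Fn (A : Atl n M) : Type := A.ι → M → ℂ

variable {A : Atl n M}

/-- smooth `(0,q)`-forms with values in `N` -/
def FF (N : LB A) (q : ℕ) : AddSubgroup (Raw A) where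
  carrier := {u | u ∈ Sec (BN N) ∧ IsDeg (BN N) q u}
  add_mem' := by
    rintro u v ⟨h1, h2⟩ ⟨h3, h4⟩
    refine ⟨(Sec (BN N)).add_mem h1 h3, fun i x k hk => ?_⟩
    by_cases hu : u i x k = 0
    · refine h4 i x k fun hv => hk ?_
      show u i x k + v i x k = 0
      rw [hu, hv, add_zero]
    · exact h2 i x k hu
  zero_mem' := ⟨(Sec (BN N)).zero_mem, fun i x k hk => absurd rfl hk⟩
  neg_mem' := by
    rintro u ⟨h1, h2⟩
    refine ⟨(Sec (BN N)).neg_mem h1, fun i x k hk => h2 i x k fun h => hk ?_⟩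
    show - u i x k = 0
    rw [h, neg_zero]

theorem mem_FF {N : LB A} {q : ℕ} {u : Raw A} :
    u ∈ FF N q ↔ u ∈ Sec (BN N) ∧ IsDeg (BN N) q u := Iff.rfl

/-- the operator `∂̄` on raw families -/
def Db (u : Raw A) : Raw A := nab (BN (1 : LB A)) u

theorem nab_BN (N : LB A) (u : Raw A) : nab (BN N) u = Db u := rfl

theorem FF.off {N : LB A} {q : ℕ} {u : Raw A} (hu : u ∈ FF N q) {i : A.ι} {x : M}
    (hx : x ∉ (A.e i).source) : u i x = 0 := hu.1.2.1 i x hx

theorem smul_apply' (s : Fn A) (u : Raw A) (i : A.ι) (x : M) (k : Finset (Fin n) × Unit) :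
    (s • u) i x k = s i x * u i x k := rfl

theorem tau_apply (N : LB A) (i j : A.ι) (x : M) (k l : Finset (Fin n) × Unit) :
    (BN N).τ i j x k l = (lamN A).τ i j x k.1 l.1 * N.g i j x := rfl

theorem Db_mem {N : LB A} {q : ℕ} {u : Raw A} (hu : u ∈ FF N q) : Db u ∈ FF N (q + 1) :=
  ⟨nab_mem (BN N) hu.1, nab_deg (BN N) hu.1 hu.2⟩

theorem Db_Db {N : LB A} {q : ℕ} {u : Raw A} (hu : u ∈ FF N q) : Db (Db u) = 0 :=
  congrArg Subtype.val (nab_nab_BN N ⟨u, hu.1⟩)

theorem Db_sub {N : LB A} {q : ℕ} {u v : Raw A} (hu : u ∈ FF N q) (hv : v ∈ FF N q) :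
    Db (u - v) = Db u - Db v :=
  congrArg Subtype.val ((nabL (BN N)).map_sub ⟨u, hu.1⟩ ⟨v, hv.1⟩)

theorem Db_add {N : LB A} {q : ℕ} {u v : Raw A} (hu : u ∈ FF N q) (hv : v ∈ FF N q) :
    Db (u + v) = Db u + Db v :=
  congrArg Subtype.val ((nabL (BN N)).map_add ⟨u, hu.1⟩ ⟨v, hv.1⟩)

theorem Db_congr {u v : Raw A} {i : A.ι} {x : M} (h : u i =ᶠ[𝓝 x] v i) : Db u i x = Db v i x :=
  nab_congr (BN (1 : LB A)) h

theorem Db_zero : Db (0 : Raw A) = 0 := by
  have h := (nabL (BN (1 : LB A))).map_zero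
  exact congrArg Subtype.val h

theorem FF_top {N : LB A} {q : ℕ} (hq : n < q) {u : Raw A} (hu : u ∈ FF N q) : u = 0 := by
  funext i x k
  by_contra h
  have h1 := hu.2 i x k h
  have h2 : (BN N).deg k = Finset.card (α := Fin n) k.1 := rfl
  have h3 : Finset.card (α := Fin n) k.1 ≤ n := by
    simpa using Finset.card_le_univ (α := Fin n) k.1
  omega

/-! ### smooth sections -/

/-- smooth sections of a line bundle -/
structure SmS (L : LB A) (s : Fn A) : Prop where
  sm : ∀ i, A.SmAt i (s i)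
  tr : ∀ i j, ∀ x ∈ (A.e i).source ∩ (A.e j).source, s i x = L.g i j x * s j x

theorem IsHS.smS {L : LB A} {s : Fn A} (h : IsHS L univ s) : SmS L s where
  sm i := by
    have := (h.hol i).contDiffOn isOpen_univ
    rwa [preimage_univ, inter_univ] at this
  tr i j x hx := h.tr i j x hx (mem_univ x)

theorem SmS.smul_mem {N L : LB A} {s : Fn A} {q : ℕ} {u : Raw A} (hs : SmS L s)
    (hu : u ∈ FF N q) : s • u ∈ FF (N * L) q := by
  refine ⟨⟨fun i k => ?_, fun i x hx => ?_, fun i j x hx => ?_⟩, fun i x k hk => ?_⟩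
  · exact (hs.sm i).mul (hu.1.1 i k)
  · funext k
    show s i x * u i x k = 0
    rw [hu.1.2.1 i x hx]
    exact mul_zero _
  · funext k
    show s i x * u i x k = ((BN (N * L)).τ i j x *ᵥ (s • u) j x) k
    have h1 : u i x k = ∑ l : Finset (Fin n) × Unit,
        ((lamN A).τ i j x k.1 l.1 * N.g i j x) * u j x l := congrFun (hu.1.2.2 i j x hx) k
    have h2 : ((BN (N * L)).τ i j x *ᵥ (s • u) j x) k = ∑ l : Finset (Fin n) × Unit,
        ((lamN A).τ i j x k.1 l.1 * (N.g i j x * L.g i j x)) * (s j x * u j x l) := rfl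
    rw [h1, h2, hs.tr i j x hx, Finset.mul_sum]
    exact Finset.sum_congr rfl fun l _ => by ring
  · refine hu.2 i x k fun h => hk ?_
    show s i x * u i x k = 0
    rw [h, mul_zero]

/-- `∂̄` commutes with the multiplication by a holomorphic section -/
theorem Db_hol_smul {N L : LB A} {s : Fn A} {q : ℕ} {u : Raw A} (hs : IsHS L univ s)
    (hu : u ∈ FF N q) : Db (s • u) = s • Db u := by
  funext i x
  by_cases hx : x ∈ (A.e i).source
  · have h1 : nab (BN N) (s • u) i x = (∑ a, (BN N).e a *ᵥ A.db i a ((s • u : Raw A) i) x) +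
        (BN N).α i x *ᵥ (s • u : Raw A) i x := nab_apply (BN N) hx
    have h2 : nab (BN N) u i x = (∑ a, (BN N).e a *ᵥ A.db i a (u i) x) +
        (BN N).α i x *ᵥ u i x := nab_apply (BN N) hx
    have h3 : ∀ a, A.db i a ((s • u : Raw A) i) x = s i x • A.db i a (u i) x := by
      intro a
      funext k
      have e1 : A.db i a ((s • u : Raw A) i) x k = A.db i a (fun y => (s • u : Raw A) i y k) x :=
        dbj_pi (GeoHol912.sec_diffAt ((IsHS.smS hs).smul_mem hu).1 i hx) a k
      have e2 : A.db i a (u i) x k = A.db i a (fun y => u i y k) x :=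
        dbj_pi (GeoHol912.sec_diffAt hu.1 i hx) a k
      rw [e1, Pi.smul_apply, e2]
      have e3 : A.db i a (fun y => s i y * u i y k) x =
          A.db i a (s i) x * u i x k + s i x * A.db i a (fun y => u i y k) x :=
        db_mul (((IsHS.smS hs).sm i).contDiffAt ((A.e i).open_target.mem_nhds
          ((A.e i).map_source hx)) |>.differentiableAt (by simp))
          ((hu.1.1 i k).contDiffAt ((A.e i).open_target.mem_nhds
          ((A.e i).map_source hx)) |>.differentiableAt (by simp)) hx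
      have e4 : A.db i a (s i) x = 0 := (hs.hol i).db_zero isOpen_univ hx (mem_univ x) a
      show A.db i a (fun y => s i y * u i y k) x = s i x * A.db i a (fun y => u i y k) x
      rw [e3, e4, zero_mul, zero_add]
    show nab (BN N) (s • u) i x = s i x • nab (BN N) u i x
    rw [h1, h2, smul_add, Finset.smul_sum]
    congr 1
    · refine Finset.sum_congr rfl fun a _ => ?_
      have h4 : (BN N).e a *ᵥ (s i x • A.db i a (u i) x) =
          s i x • ((BN N).e a *ᵥ A.db i a (u i) x) := Matrix.mulVec_smul _ _ _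
      exact (congrArg ((BN N).e a *ᵥ ·) (h3 a)).trans h4
    · have h5 : (BN N).α i x *ᵥ (s i x • u i x) = s i x • ((BN N).α i x *ᵥ u i x) :=
        Matrix.mulVec_smul _ _ _
      exact h5
  · have h1 : nab (BN N) (s • u) i x = 0 := nab_off (BN N) hx
    have h2 : nab (BN N) u i x = 0 := nab_off (BN N) hx
    show nab (BN N) (s • u) i x = s i x • nab (BN N) u i x
    rw [h1, h2, smul_zero]

/-! ### sections as forms of degree zero -/

/-- a section as a form of degree `0` -/
def embN (s : Fn A) : Raw A := fun i x k => if k.1 = ∅ then s i x else 0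

theorem embN_mem {N : LB A} {s : Fn A} (hs : SmS N s)
    (hoff : ∀ i, ∀ x ∉ (A.e i).source, s i x = 0) : embN s ∈ FF N 0 := by
  have key : ∀ (i : A.ι) (k : Finset (Fin n) × Unit), A.SmAt i (fun x => embN s i x k) := by
    intro i k
    by_cases hk : k.1 = ∅
    · have h1 : (fun x => embN s i x k) = s i := by
        funext x
        exact if_pos hk
      rw [h1]
      exact hs.sm i
    · have h1 : (fun x => embN s i x k) = fun _ => (0 : ℂ) := by
        funext x
        exact if_neg hk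
      rw [h1]
      exact contDiffOn_const
  refine ⟨⟨fun i k => key i k, fun i x hx => ?_, fun i j x hx => ?_⟩, fun i x k hk => ?_⟩
  · funext k
    show (if (k : Finset (Fin n) × Unit).1 = ∅ then s i x else 0) = (0 : ℂ)
    rw [hoff i x hx, ite_self]
  · have key2 : ∀ k : Finset (Fin n) × Unit,
        embN s i x k = ((BN N).τ i j x *ᵥ embN s j x) k := by
     intro k
     have h2 : ((BN N).τ i j x *ᵥ embN s j x) k = ∑ l : Finset (Fin n) × Unit,
        (Fock_243.Gam (Jb A i j x) k.1 l.1 * N.g i j x) * (if l.1 = ∅ then s j x else 0) := rfl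
     rw [h2, Fintype.sum_prod_type, Finset.sum_eq_single (∅ : Finset (Fin n))]
     · simp only [Finset.univ_unique, Finset.sum_singleton, if_true]
       rw [Fock_243.Gam_vac]
       show (if k.1 = ∅ then s i x else 0) = _
       by_cases hk : k.1 = ∅
       · rw [if_pos hk, if_pos hk, one_mul, hs.tr i j x hx]
       · rw [if_neg hk, if_neg hk, zero_mul, zero_mul]
     · intro T _ hT
       refine Finset.sum_eq_zero fun l _ => ?_
       rw [if_neg hT, mul_zero]
     · intro h
       exact absurd (Finset.mem_univ _) h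
    exact funext key2
  · have key3 : ∀ k : Finset (Fin n) × Unit, embN s i x k ≠ 0 → Finset.card k.1 = 0 := by
      intro k hk
      have h1 : k.1 = ∅ := by
        by_contra h
        exact hk (if_neg h)
      rw [h1]
      rfl
    exact key3 k hk

theorem eq_embN {N : LB A} {u : Raw A} (hu : u ∈ FF N 0) :
    u = embN (fun i x => u i x (∅, ())) := by
  funext i x k
  obtain ⟨T, c⟩ := k
  show u i x (T, c) = if T = ∅ then u i x (∅, ()) else 0
  by_cases hT : T = ∅
  · rw [if_pos hT, hT]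
  · rw [if_neg hT]
    by_contra h
    have h1 : Finset.card (α := Fin n) T = 0 := hu.2 i x (T, c) h
    exact hT (Finset.card_eq_zero.1 h1)

theorem isHS_of_closed {N : LB A} {u : Raw A} (hu : u ∈ FF N 0) (h0 : Db u = 0) :
    IsHS N univ (fun i x => u i x (∅, ())) := by
  have h1 := (GeoHol912.nab_eq_zero_iff_holo hu.1 hu.2 (BN_α N)).1 h0
  have h1' : ∀ i, DifferentiableOn ℂ (fun z => u i ((A.e i).symm z) ((∅ : Finset (Fin n)), ()))
      (A.e i).target := fun i => h1 i ((∅ : Finset (Fin n)), ())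
  refine ⟨fun i => (h1' i).mono inter_subset_left, fun i x hx => ?_, fun i j x hx _ => ?_⟩
  · rw [FF.off hu hx]
    rfl
  · have h2 : u i x (∅, ()) = ∑ l : Finset (Fin n) × Unit,
        (Fock_243.Gam (Jb A i j x) ∅ l.1 * N.g i j x) * u j x l :=
      congrFun (hu.1.2.2 i j x hx) (∅, ())
    rw [h2, Fintype.sum_prod_type, Finset.sum_eq_single (∅ : Finset (Fin n))]
    · simp only [Finset.univ_unique, Finset.sum_singleton]
      rw [Fock_243.Gam_vac, if_pos rfl, one_mul]
    · intro T _ hT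
      refine Finset.sum_eq_zero fun l _ => ?_
      have h3 : (∅ : Finset (Fin n)).card ≠ T.card := by
        intro h
        exact hT (Finset.card_eq_zero.1 h.symm)
      rw [Fock_243.Gam_of_ne _ h3, zero_mul, zero_mul]
    · intro h
      exact absurd (Finset.mem_univ _) h

theorem Db_embN_hol {N : LB A} {s : Fn A} (hs : IsHS N univ s) : Db (embN s) = 0 := by
  have hm := embN_mem (IsHS.smS hs) hs.off
  have key : ∀ (i : A.ι) (k : Finset (Fin n) × Unit),
      DifferentiableOn ℂ (fun z => embN s i ((A.e i).symm z) k) (A.e i).target := ?_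
  · exact (GeoHol912.nab_eq_zero_iff_holo hm.1 hm.2 (BN_α N)).2 fun i k => key i k
  intro i k
  by_cases hk : k.1 = ∅
  · have h1 : (fun z => embN s i ((A.e i).symm z) k) = fun z => s i ((A.e i).symm z) := by
      funext z
      exact if_pos hk
    rw [h1]
    have := hs.hol i
    unfold HolAt at this
    rwa [preimage_univ, inter_univ] at this
  · have h1 : (fun z => embN s i ((A.e i).symm z) k) = fun _ => (0 : ℂ) := by
      funext z
      exact if_neg hk
    rw [h1]
    exact differentiableOn_const _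

end Raw

/-! ### families -/

section Families

variable {n : ℕ} {M : Type} [TopologicalSpace M] {A : Atl n M} {r : ℕ}

theorem sgn_mul_eq (j : Fin r) (T : Finset (Fin r)) (f : Fn A) :
    (sgn (Fn A) j T * f : Fn A) = (sgn ℂ j T : ℂ) • f := by
  funext i x
  simp [sgn]

theorem isHS_sgn {O : LB A} {f : Fn A} (hf : IsHS O univ f) (j : Fin r) (T : Finset (Fin r)) :
    IsHS O univ (sgn (Fn A) j T * f) := by
  rw [sgn_mul_eq]
  exact hf.smul _

theorem Db_sum {N : LB A} {q : ℕ} {α : Type*} (s : Finset α) {f : α → Raw A}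
    (h : ∀ a ∈ s, f a ∈ FF N q) : Db (∑ a ∈ s, f a) = ∑ a ∈ s, Db (f a) := by
  classical
  induction s using Finset.induction_on with
  | empty => simp [Db_zero]
  | insert a s ha ih =>
    rw [Finset.sum_insert ha, Finset.sum_insert ha,
      Db_add (h a (Finset.mem_insert_self a s))
        ((FF N q).sum_mem fun b hb => h b (Finset.mem_insert_of_mem hb)),
      ih fun b hb => h b (Finset.mem_insert_of_mem hb)]

/-- `∂̄` on families -/
def DF (u : Finset (Fin r) → Raw A) : Finset (Fin r) → Raw A := fun T => Db (u T)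

/-- families vanishing on `W` -/
def ZF (r : ℕ) (A : Atl n M) (W : Set M) : AddSubgroup (Finset (Fin r) → Raw A) where
  carrier := {u | ∀ T i, ∀ x ∈ W, u T i x = 0}
  add_mem' := by
    intro u v hu hv T i x hx
    show u T i x + v T i x = 0
    rw [hu T i x hx, hv T i x hx, add_zero]
  zero_mem' := fun T i x hx => rfl
  neg_mem' := by
    intro u hu T i x hx
    show - u T i x = 0
    rw [hu T i x hx, neg_zero]

theorem DF_mem {N : LB A} {p q : ℕ} {u : Finset (Fin r) → Raw A} (hu : u ∈ Deg (FF N q) p) :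
    DF u ∈ Deg (FF N (q + 1)) p :=
  ⟨fun T hT => Db_mem (hu.1 T hT), fun T hT => by
    show Db (u T) = 0
    rw [hu.2 T hT, Db_zero]⟩

theorem DF_Z {W : Set M} (hW : IsOpen W) {u : Finset (Fin r) → Raw A} (hu : u ∈ ZF r A W) :
    DF u ∈ ZF r A W := by
  intro T i x hx
  have h1 : u T i =ᶠ[𝓝 x] (0 : Raw A) i := by
    filter_upwards [hW.mem_nhds hx] with y hy
    exact hu T i y hy
  show Db (u T) i x = 0
  rw [Db_congr h1, Db_zero]
  rfl

theorem kop_Z {W : Set M} (s p : Fin r → Fn A) {u : Finset (Fin r) → Raw A}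
    (hu : u ∈ ZF r A W) : kop s p u ∈ ZF r A W := by
  intro T i x hx
  funext k
  rw [kop_apply]
  have h1 : (∑ j, (sgn (Fn A) j T * cf s p j T) • u (tog T j)) i x k =
      ∑ j, ((sgn (Fn A) j T * cf s p j T) • u (tog T j)) i x k := by
    rw [Finset.sum_apply, Finset.sum_apply, Finset.sum_apply]
  rw [h1]
  refine Finset.sum_eq_zero fun j _ => ?_
  rw [smul_apply', hu _ i x hx]
  exact mul_zero _

theorem kop_DF {N L : LB A} {p q : ℕ} {ℓ : Fin r → Fn A} (hℓ : ∀ j, IsHS L univ (ℓ j))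
    {u : Finset (Fin r) → Raw A} (hu : u ∈ Deg (FF N q) p) :
    kop 0 ℓ (DF u) = DF (kop 0 ℓ u) := by
  have key : ∀ (T : Finset (Fin r)) (j : Fin r),
      (sgn (Fn A) j T * cf 0 ℓ j T) • u (tog T j) ∈ FF (N * L) q ∧
      Db ((sgn (Fn A) j T * cf 0 ℓ j T) • u (tog T j)) =
        (sgn (Fn A) j T * cf 0 ℓ j T) • Db (u (tog T j)) := by
    intro T j
    have hz : u (tog T j) ∈ FF N q := by
      by_cases hc : (tog T j).card = p
      · exact hu.1 _ hc
      · rw [hu.2 _ hc]
        exact (FF N q).zero_mem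
    by_cases hj : j ∈ T
    · have h1 : cf (0 : Fin r → Fn A) ℓ j T = 0 := by rw [cf, if_pos hj]; rfl
      rw [h1, mul_zero, zero_smul, zero_smul, Db_zero]
      exact ⟨(FF (N * L) q).zero_mem, rfl⟩
    · have h1 : cf (0 : Fin r → Fn A) ℓ j T = ℓ j := by rw [cf, if_neg hj]
      rw [h1]
      exact ⟨(IsHS.smS (isHS_sgn (hℓ j) j T)).smul_mem hz, Db_hol_smul (isHS_sgn (hℓ j) j T) hz⟩
  funext T
  show kop 0 ℓ (DF u) T = Db (kop 0 ℓ u T)
  rw [kop_apply, kop_apply, Db_sum _ fun j _ => (key T j).1]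
  exact Finset.sum_congr rfl fun j _ => (key T j).2.symm

end Families

end

end Crest.Agent.R273.SerA_945
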