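import Crest.Agent.R273.SerA_945
import Crest.Agent.R273.FS_333

/-!
# R273 (S0416), leaf SERRE, part B (helper945): sections not vanishing at a point

* `exists_at`  : `N p = N (p+1) * O`, sections `ℓ j` of `O` with the only common zero `x0`,
  `H^q(N q) = 0` for `1 ≤ q ≤ n` ⟹ a holomorphic section of `N 0` not vanishing at `x0`.
-/

set_option autoImplicit false
set_option linter.unusedSectionVars false

open Set Filter Topology Complex
open scoped ContDiff Matrix ComplexConjugate Kronecker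

namespace Crest.Agent.R273.SerB_945

open Crest.Agent.R275 Crest.Agent.R275.Geo Crest.Agent.R275.Core144 Crest.Agent.R275.Dg199
open Crest.Agent.R275.Kos798
open Crest.Agent.R273.LamN127 Crest.Agent.R273.KosAb_619 Crest.Agent.R273.SerA_945

noncomputable section

variable {n : ℕ} {M : Type} [TopologicalSpace M] {A : Atl n M} {r : ℕ}

/-- solvability of `∂̄ w = u` for `(0,q)`-forms with values in `N` -/
def Solv (N : LB A) (q : ℕ) : Prop := ∀ u ∈ FF N q, Db u = 0 → ∃ w ∈ FF N (q - 1), Db w = u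

/-- the geometric zig-zag -/
theorem zigF (O : LB A) (N : ℕ → LB A) (hN : ∀ p, N (p + 1) * O = N p) (ℓ : Fin r → Fn A)
    (hℓ : ∀ j, IsHS O univ (ℓ j)) (θ : Fin r → Fn A) (hθ : ∀ j, SmS O⁻¹ (θ j)) {W : Set M}
    (hW : IsOpen W)
    (h1 : ∀ i, ∀ x ∈ (A.e i).source, x ∉ W → ∑ j, θ j i x * ℓ j i x = 1)
    (ex : ∀ q, 1 ≤ q → q ≤ n → Solv (N q) q) {η : Raw A} (hη : η ∈ FF (N 0) 1)
    (hηW : ∀ i, ∀ x ∈ W, η i x = 0) (hD : Db η = 0) :
    ∃ w : Fin r → Raw A, (∀ j, w j ∈ FF (N 1) 0) ∧ Db (∑ j, ℓ j • w j) = η := by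
  classical
  have hℓm : ∀ p q j, ∀ v ∈ FF (N (p + 1)) q, ℓ j • v ∈ FF (N p) q := by
    intro p q j v hv
    rw [← hN p]
    exact (IsHS.smS (hℓ j)).smul_mem hv
  have hθm : ∀ p q j, ∀ v ∈ FF (N p) q, θ j • v ∈ FF (N (p + 1)) q := by
    intro p q j v hv
    have h2 : N (p + 1) = N p * O⁻¹ := by rw [← hN p, mul_inv_cancel_right]
    rw [h2]
    exact (hθ j).smul_mem hv
  let C : ℕ → ℕ → AddSubgroup (Finset (Fin r) → Raw A) := fun p q => Deg (FF (N p) q) p
  let η' : Finset (Fin r) → Raw A := fun T => if T = ∅ then η else 0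
  have hη' : η' ∈ C 0 1 := by
    refine ⟨fun T hT => ?_, fun T hT => ?_⟩
    · have h2 : η' T = η := if_pos (Finset.card_eq_zero.1 hT)
      rw [h2]
      exact hη
    · exact if_neg fun h => hT (by rw [h]; rfl)
  have hK' : (kop 0 ℓ : (Finset (Fin r) → Raw A) →ₗ[Fn A] _) η' = 0 := by
    funext T
    rw [kop_apply]
    refine Finset.sum_eq_zero fun j _ => ?_
    by_cases hj : j ∈ T
    · rw [cf, if_pos hj]; simp
    · have h2 : tog T j ≠ ∅ := by
        intro h
        have := (mem_tog_self T j).2 hj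
        rw [h] at this
        exact absurd this (Finset.notMem_empty j)
      have h3 : η' (tog T j) = 0 := if_neg h2
      rw [h3, smul_zero]
  obtain ⟨w, hw, hDw⟩ := zig n C (ZF r A W)
    (kop 0 ℓ : (Finset (Fin r) → Raw A) →ₗ[Fn A] _).toAddMonoidHom
    (kop θ 0 : (Finset (Fin r) → Raw A) →ₗ[Fn A] _).toAddMonoidHom DF
    (fun p q u hu => contr_mem (fun j v hv => hℓm p q j v hv) hu)
    (fun p q u hu => DF_mem hu)
    (fun p q u hu hz => DF_Z hW hz)
    (fun p q u hu hz => wedge_mem (fun j v hv => hθm p q j v hv) hu)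
    (fun p q u hu hz => kop_Z θ 0 hz)
    (fun p q u hu => kop_DF (L := O) (fun j => hℓ j) hu)
    (fun p q u hu => funext fun T => by
      by_cases hT : T.card = p
      · exact Db_Db (hu.1 T hT)
      · show Db (Db (u T)) = 0
        rw [hu.2 T hT, Db_zero, Db_zero])
    (fun p q u hu v hv => funext fun T => by
      by_cases hT : T.card = p
      · exact Db_sub (hu.1 T hT) (hv.1 T hT)
      · show Db (u T - v T) = Db (u T) - Db (v T)
        rw [hu.2 T hT, hv.2 T hT, sub_zero, Db_zero, sub_zero])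
    (fun p q u hu hz hKu => by
      have h2 := anticomm θ ℓ u
      have h3 : kop 0 ℓ u = 0 := hKu
      rw [h3, map_zero, zero_add] at h2
      refine h2.trans ?_
      funext T i x k
      show (∑ j, θ j * ℓ j) i x * u T i x k = u T i x k
      have h4 : (∑ j, θ j * ℓ j) i x = ∑ j, θ j i x * ℓ j i x := by
        rw [Finset.sum_apply, Finset.sum_apply]
        rfl
      by_cases hx : x ∈ (A.e i).source
      · by_cases hxW : x ∈ W
        · rw [hz T i x hxW]
          exact mul_zero _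
        · rw [h4, h1 i x hx hxW, one_mul]
      · have h5 : u T i x = 0 := by
          by_cases hT : T.card = p
          · exact FF.off (hu.1 T hT) hx
          · rw [hu.2 T hT]
            rfl
        rw [h5]
        exact mul_zero _)
    (fun u => contr_contr ℓ u)
    (fun p q hq u hu => funext fun T => by
      by_cases hT : T.card = p
      · exact FF_top hq (hu.1 T hT)
      · exact hu.2 T hT)
    (fun q hq hqn u hu hDu => by
      have h2 : ∀ T : Finset (Fin r), ∃ v : Raw A, (T.card = q → v ∈ FF (N q) (q - 1)) ∧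
          (T.card ≠ q → v = 0) ∧ Db v = u T := by
        intro T
        by_cases hT : T.card = q
        · obtain ⟨v, hv, hDv⟩ := ex q hq hqn (u T) (hu.1 T hT) (congrFun hDu T)
          exact ⟨v, fun _ => hv, fun h => absurd hT h, hDv⟩
        · exact ⟨0, fun h => absurd h hT, fun _ => rfl, by rw [Db_zero, hu.2 T hT]⟩
      choose v hv1 hv2 hv3 using h2
      exact ⟨v, ⟨fun T hT => hv1 T hT, fun T hT => hv2 T hT⟩, funext hv3⟩)
    η' hη'
    (fun T i x hx => by
      by_cases hT : T = ∅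
      · have h2 : η' T = η := if_pos hT
        rw [h2, hηW i x hx]
      · have h2 : η' T = 0 := if_neg hT
        rw [h2]
        rfl)
    hK'
    (funext fun T => by
      by_cases hT : T = ∅
      · have h2 : η' T = η := if_pos hT
        show Db (η' T) = 0
        rw [h2, hD]
      · have h2 : η' T = 0 := if_neg hT
        show Db (η' T) = 0
        rw [h2, Db_zero])
  refine ⟨fun j => w {j}, fun j => hw.1 {j} (Finset.card_singleton j), ?_⟩
  have h2 := congrFun hDw ∅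
  have h3 : η' ∅ = η := if_pos rfl
  rw [h3] at h2
  rw [← h2]
  show Db (∑ j, ℓ j • w {j}) = Db (kop 0 ℓ w ∅)
  congr 1
  rw [kop_apply]
  refine Finset.sum_congr rfl fun j _ => ?_
  have h4 : tog (∅ : Finset (Fin r)) j = {j} := by simp [tog]
  have h5 : cf (0 : Fin r → Fn A) ℓ j ∅ = ℓ j := by simp [cf]
  have h6 : sgn (Fn A) j (∅ : Finset (Fin r)) = 1 := by simp [sgn]
  rw [h4, h5, h6, one_mul]

/-! ### smooth data -/

section Data

variable [T2Space M]

theorem SmS.of_smN {L : LB A} {s : Fn A} (h : ∀ i, ∀ p ∈ (A.e i).source, SmN A (s i) p)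
    (tr : ∀ i j, ∀ x ∈ (A.e i).source ∩ (A.e j).source, s i x = L.g i j x * s j x) : SmS L s :=
  ⟨fun i => smAt_of_smN (h i), tr⟩

theorem smN_g (L : LB A) {i j : A.ι} {p : M} (hp : p ∈ (A.e i).source ∩ (A.e j).source) :
    SmN A (L.g i j) p :=
  (smN_iff hp.1).2 (((L.hol i j).contDiffOn (A.e j).open_source).contDiffAt
    ((isOpen_ov i j).mem_nhds (mem_ov hp)))

open Classical in
/-- the cut off frame of the chart `i0` -/
def cutF (L : LB A) (χ : M → ℝ) (i0 : A.ι) : Fn A := fun i x =>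
  if x ∈ (A.e i).source then (χ x : ℂ) * L.g i i0 x else 0

theorem cutF_eq (L : LB A) (χ : M → ℝ) {i0 i : A.ι} {x : M} (hx : x ∈ (A.e i).source) :
    cutF L χ i0 i x = (χ x : ℂ) * L.g i i0 x := if_pos hx

theorem smS_cutF (L : LB A) {χ : M → ℝ} {i0 : A.ι} (hχ : ∀ q, SmN A χ q)
    (hs : tsupport χ ⊆ (A.e i0).source) : SmS L (cutF L χ i0) := by
  have hz : ∀ x ∉ (A.e i0).source, χ x = 0 := fun x hx =>
    image_eq_zero_of_notMem_tsupport fun h => hx (hs h)
  refine SmS.of_smN (fun i p hp => ?_) (fun i j x hx => ?_)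
  · by_cases hp0 : p ∈ (A.e i0).source
    · refine (((hχ p).ofReal).mul (smN_g L ⟨hp, hp0⟩)).congr ?_
      filter_upwards [(A.e i).open_source.mem_nhds hp] with x hx
      exact cutF_eq L χ hx
    · refine (smN_const (A := A) (0 : ℂ) p).congr ?_
      have hp1 : p ∉ tsupport χ := fun h => hp0 (hs h)
      filter_upwards [(A.e i).open_source.mem_nhds hp,
        (isClosed_tsupport χ).isOpen_compl.mem_nhds hp1] with x hx hx1
      rw [cutF_eq L χ hx, image_eq_zero_of_notMem_tsupport hx1]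
      simp
  · rw [cutF_eq L χ hx.1, cutF_eq L χ hx.2]
    by_cases hx0 : x ∈ (A.e i0).source
    · rw [← L.mul i j i0 x ⟨hx, hx0⟩]
      ring
    · rw [hz x hx0]
      simp

theorem cutF_off (L : LB A) (χ : M → ℝ) (i0 i : A.ι) : ∀ x ∉ (A.e i).source,
    cutF L χ i0 i x = 0 := fun _ hx => if_neg hx

theorem nab_zero_of {B : FBun A} {u : A.ι → M → B.κ → ℂ} (hu : u ∈ Sec B) (h0 : IsDeg B 0 u)
    {i : A.ι} {x : M} (hx : x ∈ (A.e i).source) (hα : B.α i x = 0)
    (h : ∀ a, A.db i a (u i) x = 0) : nab B u i x = 0 := by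
  refine (GeoHol912.nab_eq_zero_iff hu h0 i hx (fun _ => 0) (by simp [hα]) (by simp)).2 fun a => ?_
  rw [h a]
  simp

/-- where the section is holomorphic, `∂̄` vanishes -/
theorem Db_embN_zero {N : LB A} {s : Fn A} (hs : SmS N s)
    (hoff : ∀ i, ∀ x ∉ (A.e i).source, s i x = 0) {W : Set M} (hW : IsOpen W)
    (hh : ∀ i, HolAt A i W (s i)) : ∀ i, ∀ x ∈ W, Db (embN s) i x = 0 := by
  intro i x hxW
  have hm := embN_mem hs hoff
  by_cases hx : x ∈ (A.e i).source
  · refine nab_zero_of (B := BN N) hm.1 hm.2 hx (BN_α N i x hx) fun a => ?_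
    have key : ∀ k : Finset (Fin n) × Unit, A.db i a (embN s i) x k = 0 := by
      intro k
      have e1 : A.db i a (embN s i) x k = A.db i a (fun y => embN s i y k) x :=
        dbj_pi (GeoHol912.sec_diffAt hm.1 i hx) a k
      rw [e1]
      by_cases hk : k.1 = ∅
      · have h1 : (fun y => embN s i y k) = s i := by
          funext y
          exact if_pos hk
        rw [h1]
        exact (hh i).db_zero hW hx hxW a
      · have h1 : (fun y => embN s i y k) = fun _ => (0 : ℂ) := by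
          funext y
          exact if_neg hk
        rw [h1]
        exact dbj_const _ _ _
    exact funext key
  · exact nab_off (BN N) hx

/-- `∑ |ℓ_k|²` as a complex number -/
def sqs (ℓ : Fin r → Fn A) : Fn A := fun i x => ∑ k, ℓ k i x * conj (ℓ k i x)

theorem sqs_ne {ℓ : Fin r → Fn A} {i : A.ι} {x : M} (h : ∃ j, ℓ j i x ≠ 0) : sqs ℓ i x ≠ 0 := by
  have h1 : sqs ℓ i x = ((∑ k, Complex.normSq (ℓ k i x) : ℝ) : ℂ) := by
    rw [sqs, ofReal_sum]
    exact Finset.sum_congr rfl fun k _ => Complex.mul_conj _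
  rw [h1, ofReal_ne_zero]
  obtain ⟨j, hj⟩ := h
  have h2 : 0 < ∑ k, Complex.normSq (ℓ k i x) :=
    Finset.sum_pos' (fun k _ => Complex.normSq_nonneg _)
      ⟨j, Finset.mem_univ j, Complex.normSq_pos.2 hj⟩
  exact h2.ne'

/-- the dual family -/
def dualF (ℓ : Fin r → Fn A) (ρ : M → ℝ) (j : Fin r) : Fn A := fun i x =>
  (1 - (ρ x : ℂ)) * (conj (ℓ j i x) * (sqs ℓ i x)⁻¹)

theorem smS_dualF {O : LB A} {ℓ : Fin r → Fn A} (hℓ : ∀ j, IsHS O univ (ℓ j)) {ρ : M → ℝ}
    (hρ : ∀ q, SmN A ρ q)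
    (hne : ∀ i, ∀ x ∈ (A.e i).source, (∀ᶠ y in 𝓝 x, ρ y = 1) ∨ ∃ j, ℓ j i x ≠ 0) (j : Fin r) :
    SmS O⁻¹ (dualF ℓ ρ j) := by
  have hl : ∀ k i, ∀ p ∈ (A.e i).source, SmN A (ℓ k i) p := fun k i p hp =>
    Dg199.SmAt.smN ((IsHS.smS (hℓ k)).sm i) hp
  refine SmS.of_smN (fun i p hp => ?_) (fun i k x hx => ?_)
  · rcases hne i p hp with h | h
    · refine (smN_const (A := A) (0 : ℂ) p).congr ?_
      filter_upwards [h] with y hy
      rw [dualF, hy]
      simp
    · have h1 : SmN A (sqs ℓ i) p := SmN.sum fun k _ => (hl k i p hp).mul (hl k i p hp).conj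
      exact ((smN_const (A := A) (1 : ℂ) p).sub (hρ p).ofReal).mul
        ((hl j i p hp).conj.mul (h1.inv (sqs_ne h)))
  · have h1 : sqs ℓ i x = (O.g i k x * conj (O.g i k x)) * sqs ℓ k x := by
      rw [sqs, sqs, Finset.mul_sum]
      refine Finset.sum_congr rfl fun l _ => ?_
      rw [(hℓ l).tr i k x hx (mem_univ x), map_mul]
      ring
    have h2 := O.ne_zero i k x
    have h3 : conj (O.g i k x) ≠ 0 := by simpa using h2
    rw [dualF, dualF, h1, (hℓ j).tr i k x hx (mem_univ x), LB.inv_g, map_mul, mul_inv, mul_inv]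
    field_simp

theorem sum_dualF (ℓ : Fin r → Fn A) (ρ : M → ℝ) {i : A.ι} {x : M} (hρ : ρ x = 0)
    (h : ∃ j, ℓ j i x ≠ 0) : ∑ j, dualF ℓ ρ j i x * ℓ j i x = 1 := by
  have h1 := sqs_ne h
  have h2 : ∀ j, dualF ℓ ρ j i x * ℓ j i x = (ℓ j i x * conj (ℓ j i x)) * (sqs ℓ i x)⁻¹ := by
    intro j
    rw [dualF, hρ]
    simp only [ofReal_zero, sub_zero, one_mul]
    ring
  rw [Finset.sum_congr rfl fun j _ => h2 j, ← Finset.sum_mul]
  exact mul_inv_cancel₀ h1

/-- **prescribed values on a finite set** : `ℓ j` have the finite common zero set `F`; there is a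
section which does not vanish at `x0 ∈ F` and vanishes at the other points of `F` -/
theorem exists_at_fin (O : LB A) (N : ℕ → LB A) (hN : ∀ p, N (p + 1) * O = N p)
    (ℓ : Fin r → Fn A) (hℓ : ∀ j, IsHS O univ (ℓ j)) {F : Set M} (hF : F.Finite) {x0 : M}
    (hx0 : x0 ∈ F) (h0 : ∀ j i, ∀ x ∈ F, ℓ j i x = 0)
    (hne : ∀ i, ∀ x ∈ (A.e i).source, x ∉ F → ∃ j, ℓ j i x ≠ 0)
    (ex : ∀ q, 1 ≤ q → q ≤ n → Solv (N q) q) :
    ∃ s, IsHS (N 0) univ s ∧ (∀ i, x0 ∈ (A.e i).source → s i x0 ≠ 0) ∧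
      ∀ i, ∀ x ∈ F, x ≠ x0 → s i x = 0 := by
  obtain ⟨i0, hi0⟩ := A.cover x0
  have hF' : IsClosed (F \ {x0}) := (hF.subset sdiff_subset).isClosed
  have hxF : x0 ∈ (F \ {x0})ᶜ := fun h => h.2 rfl
  obtain ⟨χ, hχ, hχ1, hχs, -, -, -⟩ := exists_bump A (Filter.inter_mem
    ((A.e i0).open_source.mem_nhds hi0) (hF'.isOpen_compl.mem_nhds hxF))
  obtain ⟨W0, hWs, hWo, hxW⟩ := _root_.mem_nhds_iff.1
    (Filter.inter_mem hχ1 ((A.e i0).open_source.mem_nhds hi0))
  have hχs1 : tsupport χ ⊆ (A.e i0).source := fun x hx => (hχs hx).1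
  let W : Set M := W0 ∪ (tsupport χ)ᶜ
  have hW : IsOpen W := hWo.union (isClosed_tsupport χ).isOpen_compl
  have hFW : F ⊆ W := by
    intro x hx
    by_cases h : x = x0
    · left
      rw [h]
      exact hxW
    · right
      exact fun h1 => (hχs h1).2 ⟨hx, h⟩
  obtain ⟨ρ, hρ, hρ1, hρs, -, -, -⟩ := exists_bump_compact A hF.isCompact hW hFW
  have hσ : SmS (N 0) (cutF (N 0) χ i0) := smS_cutF (N 0) hχ hχs1
  have hσo : ∀ i, ∀ x ∉ (A.e i).source, cutF (N 0) χ i0 i x = 0 := cutF_off (N 0) χ i0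
  have hm := embN_mem hσ hσo
  have hz : ∀ i, ∀ x, x ∉ tsupport χ → cutF (N 0) χ i0 i x = 0 := by
    intro i x hx
    by_cases h : x ∈ (A.e i).source
    · rw [cutF_eq (N 0) χ h, image_eq_zero_of_notMem_tsupport hx]
      simp
    · exact hσo i x h
  have hol : ∀ i, HolAt A i W (cutF (N 0) χ i0 i) := by
    intro i z hzz
    have hx := (A.e i).map_target hzz.1
    rcases hzz.2 with h | h
    · have h1 : HolAt A i W0 (cutF (N 0) χ i0 i) := by
        refine (((N 0).hol i i0).mono fun x hx => (hWs hx).2).congr fun x hx hxW => ?_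
        rw [cutF_eq (N 0) χ hx, (hWs hxW).1]
        simp
      have h2 := h1.diffAt hWo hx h
      rw [(A.e i).right_inv hzz.1] at h2
      exact h2.differentiableWithinAt
    · have h1 : HolAt A i (tsupport χ)ᶜ (cutF (N 0) χ i0 i) :=
        (holAt_const 0).congr fun x hx hxW => (hz i x hxW).symm
      have h2 := h1.diffAt (isClosed_tsupport χ).isOpen_compl hx h
      rw [(A.e i).right_inv hzz.1] at h2
      exact h2.differentiableWithinAt
  have hη : Db (embN (cutF (N 0) χ i0)) ∈ FF (N 0) 1 := Db_mem hm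
  obtain ⟨w, hw, hDw⟩ := zigF O N hN ℓ hℓ (dualF ℓ ρ)
    (smS_dualF hℓ hρ fun i x hx => by
      by_cases h : x ∈ F
      · left
        exact hρ1 x h
      · exact Or.inr (hne i x hx h)) hW
    (fun i x hx hxW => sum_dualF ℓ ρ
      (image_eq_zero_of_notMem_tsupport fun h => hxW (hρs h))
      (hne i x hx fun h => hxW (hFW h)))
    ex hη (Db_embN_zero hσ hσo hW hol) (Db_Db hm)
  have hsum : ∑ j, ℓ j • w j ∈ FF (N 0) 0 := (FF (N 0) 0).sum_mem fun j _ => by
    have h1 := (IsHS.smS (hℓ j)).smul_mem (hw j)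
    rwa [hN 0] at h1
  have hu := (FF (N 0) 0).sub_mem hm hsum
  have hDu : Db (embN (cutF (N 0) χ i0) - ∑ j, ℓ j • w j) = 0 := by
    rw [Db_sub hm hsum, hDw, sub_self]
  have h2 : ∀ i, ∀ x ∈ F, (∑ j, ℓ j • w j : Raw A) i x (∅, ()) = 0 := by
    intro i x hx
    rw [Finset.sum_apply, Finset.sum_apply, Finset.sum_apply]
    refine Finset.sum_eq_zero fun j _ => ?_
    rw [smul_apply', h0 j i x hx, zero_mul]
  have h3 : ∀ i x, embN (cutF (N 0) χ i0) i x (∅, ()) = cutF (N 0) χ i0 i x := fun i x => if_pos rfl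
  refine ⟨_, isHS_of_closed hu hDu, fun i hi => ?_, fun i x hx hne => ?_⟩
  · show embN (cutF (N 0) χ i0) i x0 (∅, ()) - (∑ j, ℓ j • w j : Raw A) i x0 (∅, ()) ≠ 0
    rw [h2 i x0 hx0, sub_zero, h3, cutF_eq (N 0) χ hi, hχ1.self_of_nhds]
    simpa using (N 0).ne_zero i i0 x0
  · show embN (cutF (N 0) χ i0) i x (∅, ()) - (∑ j, ℓ j • w j : Raw A) i x (∅, ()) = 0
    rw [h2 i x hx, sub_zero, h3]
    exact hz i x fun h => (hχs h).2 ⟨hx, hne⟩

/-- **a section which does not vanish at a point** -/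
theorem exists_at (O : LB A) (N : ℕ → LB A) (hN : ∀ p, N (p + 1) * O = N p) (ℓ : Fin r → Fn A)
    (hℓ : ∀ j, IsHS O univ (ℓ j)) (x0 : M) (h0 : ∀ j i, ℓ j i x0 = 0)
    (hne : ∀ i, ∀ x ∈ (A.e i).source, x ≠ x0 → ∃ j, ℓ j i x ≠ 0)
    (ex : ∀ q, 1 ≤ q → q ≤ n → Solv (N q) q) :
    ∃ s, IsHS (N 0) univ s ∧ ∀ i, x0 ∈ (A.e i).source → s i x0 ≠ 0 := by
  obtain ⟨s, h1, h2, -⟩ := exists_at_fin O N hN ℓ hℓ (F := {x0}) (finite_singleton x0)
    (mem_singleton x0) (fun j i x hx => by rw [mem_singleton_iff.1 hx]; exact h0 j i)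
    (fun i x hx h => hne i x hx h) ex
  exact ⟨s, h1, h2⟩

end Data

end

end Crest.Agent.R273.SerB_945
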