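import Crest.Agent.R275.Geo_509
import Crest.Agent.R266.Osgood

/-!
# R273 (S0416), A-SIEGEL part 1 (helper101): the Schwarz lemma of order `k` with `≤ k ^ n` conditions

* `schwarz1`  : one variable, power series
* `ja f z α`  : the Taylor functional with multi-index `α` at `z`
* `slice_zero`: `ja f z α = 0` for all `|α| = m` kills the `m`-th slice coefficient
* `schwarzN`  : `f` holomorphic near `closedBall z (2 r)`, bounded by `m` there, all
                `ja f z α = 0` for `|α| < k` imply `‖f w‖ ≤ m * 2 * (1/2) ^ k` on `closedBall z r`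
-/

set_option autoImplicit false
set_option linter.unusedSectionVars false

open Set Filter Topology Complex Metric
open scoped NNReal ENNReal

namespace Crest.Agent.R273.Sg1_101

open Crest.Agent.R275.Geo

noncomputable section

theorem norm_cps_le {φ : ℂ → ℂ} {m : ℝ} (hφ : ContinuousOn φ (closedBall 0 2))
    (hm : ∀ ζ ∈ closedBall (0 : ℂ) 2, ‖φ ζ‖ ≤ m) (j : ℕ) :
    ‖cauchyPowerSeries φ 0 2 j‖ ≤ m * (1 / 2) ^ j := by
  refine (norm_cauchyPowerSeries_le φ 0 2 j).trans ?_
  have h1 : (∫ θ : ℝ in (0)..2 * Real.pi, ‖φ (circleMap 0 2 θ)‖) ≤ ∫ θ : ℝ in (0)..2 * Real.pi, m := by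
    refine intervalIntegral.integral_mono_on (by positivity) ?_ ?_ ?_
    · refine Continuous.intervalIntegrable ?_ _ _
      refine Continuous.norm ?_
      refine hφ.comp_continuous (continuous_circleMap 0 2) fun θ => ?_
      exact circleMap_mem_closedBall 0 (by norm_num) θ
    · exact continuous_const.intervalIntegrable _ _
    · intro θ _
      exact hm _ (circleMap_mem_closedBall 0 (by norm_num) θ)
  have h2 : (∫ θ : ℝ in (0)..2 * Real.pi, m) = 2 * Real.pi * m := by
    simp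
  rw [h2] at h1
  have h3 : (2 * Real.pi)⁻¹ * (∫ θ : ℝ in (0)..2 * Real.pi, ‖φ (circleMap 0 2 θ)‖) ≤ m := by
    calc _ ≤ (2 * Real.pi)⁻¹ * (2 * Real.pi * m) := by gcongr
      _ = m := by field_simp
  have h4 : (|(2 : ℝ)|⁻¹) = 1 / 2 := by norm_num
  rw [h4]
  gcongr

theorem schwarz1 {φ : ℂ → ℂ} {m : ℝ} {k : ℕ}
    (hφ : DifferentiableOn ℂ φ (closedBall 0 2)) (hm : ∀ ζ ∈ closedBall (0 : ℂ) 2, ‖φ ζ‖ ≤ m)
    (hk : ∀ j < k, cauchyPowerSeries φ 0 2 j (fun _ => 1) = 0) :
    ‖φ 1‖ ≤ m * (1 / 2) ^ k * 2 := by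
  have h0 : HasFPowerSeriesOnBall φ (cauchyPowerSeries φ 0 ((2 : ℝ≥0) : ℝ)) 0 ((2 : ℝ≥0) : ℝ≥0∞) :=
    DifferentiableOn.hasFPowerSeriesOnBall (R := 2) (by simpa using hφ) (by norm_num)
  have h1 := h0.hasSum (y := (1 : ℂ)) (by
    rw [Metric.mem_eball, edist_zero_right]
    simp)
  rw [zero_add] at h1
  have h1' : HasSum (fun j => cauchyPowerSeries φ 0 2 j (fun _ => (1 : ℂ))) (φ 1) := h1
  have h2 : HasSum (fun j => if j < k then (0 : ℝ) else m * (1 / 2) ^ j) (m * (1 / 2) ^ k * 2) := by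
    rw [← hasSum_nat_add_iff' k]
    have h3 : ∑ i ∈ Finset.range k, (if i < k then (0 : ℝ) else m * (1 / 2) ^ i) = 0 :=
      Finset.sum_eq_zero fun i hi => if_pos (Finset.mem_range.1 hi)
    rw [h3, sub_zero]
    have h4 : (fun j => if j + k < k then (0 : ℝ) else m * (1 / 2) ^ (j + k)) =
        fun j => m * (1 / 2) ^ k * (1 / 2) ^ j := by
      funext j
      rw [if_neg (by omega), pow_add]
      ring
    rw [h4]
    exact hasSum_geometric_two.mul_left _
  rw [← h1'.tsum_eq]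
  refine tsum_of_norm_bounded h2 fun j => ?_
  split_ifs with hj
  · rw [hk j hj, norm_zero]
  · refine (ContinuousMultilinearMap.le_opNorm _ _).trans ?_
    simp only [norm_one, Finset.prod_const_one, mul_one]
    exact norm_cps_le hφ.continuousOn hm j

variable {n : ℕ}

/-- the content of a tuple -/
def cnt {m : ℕ} (a : Fin m → Fin n) (b : Fin n) : ℕ := (Finset.univ.filter fun i => a i = b).card

theorem sum_cnt {m : ℕ} (a : Fin m → Fin n) : ∑ b, cnt a b = m := by
  unfold cnt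
  rw [← Finset.card_eq_sum_card_fiberwise (f := a) (s := Finset.univ) (t := Finset.univ)
    (fun _ _ => Finset.mem_coe.2 (Finset.mem_univ _))]
  simp

theorem prod_cnt {m : ℕ} (a : Fin m → Fin n) (v : Fin n → ℂ) :
    ∏ i, v (a i) = ∏ b, v b ^ cnt a b := by
  unfold cnt
  rw [← Finset.prod_fiberwise_of_maps_to (g := a) (s := Finset.univ) (t := Finset.univ)
    (fun _ _ => Finset.mem_univ _)]
  refine Finset.prod_congr rfl fun b _ => ?_
  rw [Finset.prod_congr rfl (g := fun _ => v b), Finset.prod_const]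
  intro i hi
  rw [(Finset.mem_filter.1 hi).2]

open Classical in
/-- the Taylor functional of order `m` with multi-index `α` -/
def jm (m : ℕ) (f : Cn n → ℂ) (z : Cn n) (α : Fin n → ℕ) : ℂ :=
  ∑ a : Fin m → Fin n, if cnt a = α then
    iteratedFDeriv ℂ m f z (fun i => EuclideanSpace.single (a i) (1 : ℂ)) else 0

/-- the Taylor functional with multi-index `α` -/
def ja (f : Cn n → ℂ) (z : Cn n) (α : Fin n → ℕ) : ℂ := jm (∑ b, α b) f z α

theorem slice_eq (m : ℕ) (f : Cn n → ℂ) (z v : Cn n) :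
    iteratedFDeriv ℂ m f z (fun _ => v) =
      ∑ a : Fin m → Fin n, (∏ b, v b ^ cnt a b) *
        iteratedFDeriv ℂ m f z (fun i => EuclideanSpace.single (a i) (1 : ℂ)) := by
  have hv : v = ∑ c, v c • (EuclideanSpace.single c (1 : ℂ) : Cn n) := by
    ext d
    simp [Finset.sum_apply, Pi.single_apply]
  have h1 : (fun _ : Fin m => v) = fun _ => ∑ c, v c • (EuclideanSpace.single c (1 : ℂ) : Cn n) :=
    funext fun _ => hv
  rw [h1]
  have h2 := MultilinearMap.map_sum (iteratedFDeriv ℂ m f z).toMultilinearMap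
    (fun (_ : Fin m) (c : Fin n) => v c • (EuclideanSpace.single c (1 : ℂ) : Cn n))
  refine h2.trans (Finset.sum_congr rfl fun a _ => ?_)
  have h3 := MultilinearMap.map_smul_univ (iteratedFDeriv ℂ m f z).toMultilinearMap
    (fun i => v (a i)) (fun i => (EuclideanSpace.single (a i) (1 : ℂ) : Cn n))
  refine h3.trans ?_
  rw [smul_eq_mul, prod_cnt]
  rfl

theorem slice_zero {m : ℕ} {f : Cn n → ℂ} {z : Cn n} (h : ∀ α : Fin n → ℕ, ∑ b, α b = m →
    ja f z α = 0) (v : Cn n) : iteratedFDeriv ℂ m f z (fun _ => v) = 0 := by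
  classical
  rw [slice_eq]
  rw [← Finset.sum_fiberwise_of_maps_to (g := fun a : Fin m → Fin n => cnt a)
    (t := Finset.univ.image fun a : Fin m → Fin n => cnt a)
    (fun a _ => Finset.mem_image_of_mem _ (Finset.mem_univ a))]
  refine Finset.sum_eq_zero fun α hα => ?_
  obtain ⟨a0, -, ha0⟩ := Finset.mem_image.1 hα
  have hs : ∑ b, α b = m := by rw [← ha0]; exact sum_cnt a0
  have h1 : ∑ a ∈ Finset.univ.filter (fun a : Fin m → Fin n => cnt a = α),
      (∏ b, v b ^ cnt a b) * iteratedFDeriv ℂ m f z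
        (fun i => EuclideanSpace.single (a i) (1 : ℂ)) = (∏ b, v b ^ α b) * jm m f z α := by
    unfold jm
    rw [Finset.mul_sum, Finset.sum_filter]
    refine Finset.sum_congr rfl fun a _ => ?_
    by_cases ha : cnt a = α
    · rw [if_pos ha, if_pos ha, ← ha]
    · rw [if_neg ha, if_neg ha, mul_zero]
  rw [h1]
  have h2 := h α hs
  unfold ja at h2
  rw [hs] at h2
  rw [h2, mul_zero]

theorem jm_add {m : ℕ} {f g : Cn n → ℂ} {z : Cn n} (hf : AnalyticAt ℂ f z) (hg : AnalyticAt ℂ g z)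
    (α : Fin n → ℕ) : jm m (fun w => f w + g w) z α = jm m f z α + jm m g z α := by
  unfold jm
  rw [← Finset.sum_add_distrib]
  refine Finset.sum_congr rfl fun a _ => ?_
  split_ifs
  · have h1 : iteratedFDeriv ℂ m (f + g) z = iteratedFDeriv ℂ m f z + iteratedFDeriv ℂ m g z :=
      iteratedFDeriv_add_apply hf.contDiffAt hg.contDiffAt
    have h2 : (fun w => f w + g w) = f + g := rfl
    rw [h2, h1]
    rfl
  · rw [add_zero]

theorem jm_smul {m : ℕ} {f : Cn n → ℂ} {z : Cn n} (hf : AnalyticAt ℂ f z) (c : ℂ)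
    (α : Fin n → ℕ) : jm m (fun w => c * f w) z α = c * jm m f z α := by
  unfold jm
  rw [Finset.mul_sum]
  refine Finset.sum_congr rfl fun a _ => ?_
  split_ifs
  · have h1 : iteratedFDeriv ℂ m (c • f) z = c • iteratedFDeriv ℂ m f z :=
      iteratedFDeriv_const_smul_apply hf.contDiffAt
    have h2 : (fun w => c * f w) = c • f := rfl
    rw [h2, h1]
    rfl
  · rw [mul_zero]

theorem ja_add {f g : Cn n → ℂ} {z : Cn n} (hf : AnalyticAt ℂ f z) (hg : AnalyticAt ℂ g z)
    (α : Fin n → ℕ) : ja (fun w => f w + g w) z α = ja f z α + ja g z α := jm_add hf hg α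

theorem ja_smul {f : Cn n → ℂ} {z : Cn n} (hf : AnalyticAt ℂ f z) (c : ℂ)
    (α : Fin n → ℕ) : ja (fun w => c * f w) z α = c * ja f z α := jm_smul hf c α

/-- the slice of a function analytic at `z`: the coefficients of any power series -/
theorem slice_cps {f : Cn n → ℂ} {z v : Cn n} (hf : AnalyticAt ℂ f z) {j : ℕ}
    {p : FormalMultilinearSeries ℂ ℂ ℂ} (hp : HasFPowerSeriesAt (fun ζ : ℂ => f (z + ζ • v)) p 0)
    (h : iteratedFDeriv ℂ j f z (fun _ => v) = 0) : p j (fun _ => 1) = 0 := by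
  obtain ⟨q, r, hq⟩ := hf
  have h1 : q j (fun _ => v) = 0 := by
    have h2 := hq.factorial_smul v j
    rw [h] at h2
    exact (smul_eq_zero.1 h2).resolve_left (Nat.factorial_ne_zero j)
  set u : ℂ →L[ℂ] Cn n := (ContinuousLinearMap.id ℂ ℂ).smulRight v with hu
  have h3 : HasFPowerSeriesAt (fun w => f (w + z)) q (u 0) := by
    have h4 := hq.hasFPowerSeriesAt.comp_sub (-z)
    rw [add_neg_cancel] at h4
    simp only [sub_neg_eq_add] at h4
    rwa [map_zero]
  have h5 := h3.compContinuousLinearMap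
  have h6 : ((fun w => f (w + z)) ∘ u) = fun ζ : ℂ => f (z + ζ • v) := by
    funext ζ
    simp [hu, add_comm]
  rw [h6] at h5
  rw [hp.eq_formalMultilinearSeries h5]
  show q j (fun _ => u 1) = 0
  have h7 : u 1 = v := by simp [hu]
  rw [h7, h1]

/-- **Schwarz lemma of order `k`** -/
theorem schwarzN {f : Cn n → ℂ} {U : Set (Cn n)} (hU : IsOpen U) (hf : DifferentiableOn ℂ f U)
    {z : Cn n} {r m : ℝ} (hr : 0 < r) (hsub : closedBall z (2 * r) ⊆ U)
    (hm : ∀ w ∈ closedBall z (2 * r), ‖f w‖ ≤ m) {k : ℕ}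
    (hk : ∀ α : Fin n → ℕ, ∑ b, α b < k → ja f z α = 0) {w : Cn n} (hw : w ∈ closedBall z r) :
    ‖f w‖ ≤ m * (1 / 2) ^ k * 2 := by
  have hzU : z ∈ U := hsub (mem_closedBall_self (by positivity))
  have han : AnalyticAt ℂ f z :=
    Crest.Agent.R266.SCV.analyticOnNhd_of_differentiableOn hU hf z hzU
  have hmem : ∀ ζ ∈ closedBall (0 : ℂ) 2, z + ζ • (w - z) ∈ closedBall z (2 * r) := by
    intro ζ hζ
    rw [mem_closedBall, dist_eq_norm, add_sub_cancel_left, norm_smul]
    rw [mem_closedBall, dist_zero_right] at hζ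
    rw [mem_closedBall, dist_eq_norm] at hw
    gcongr
  have hd : DifferentiableOn ℂ (fun ζ : ℂ => f (z + ζ • (w - z))) (closedBall 0 2) := by
    refine hf.comp (f := fun ζ : ℂ => z + ζ • (w - z)) ?_ fun ζ hζ => hsub (hmem ζ hζ)
    fun_prop
  have h1 := schwarz1 (φ := fun ζ : ℂ => f (z + ζ • (w - z))) (k := k) hd
    (fun ζ hζ => hm _ (hmem ζ hζ)) fun j hj => by
      have h2 : HasFPowerSeriesOnBall (fun ζ : ℂ => f (z + ζ • (w - z)))
          (cauchyPowerSeries (fun ζ : ℂ => f (z + ζ • (w - z))) 0 ((2 : ℝ≥0) : ℝ)) 0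
          ((2 : ℝ≥0) : ℝ≥0∞) :=
        DifferentiableOn.hasFPowerSeriesOnBall (R := 2) (by simpa using hd) (by norm_num)
      refine slice_cps han h2.hasFPowerSeriesAt (slice_zero (fun α hα => hk α (by omega)) _)
  simpa using h1

end

end Crest.Agent.R273.Sg1_101
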