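import Crest.Agent.R273.Sg1_101
import Crest.Agent.R275.Core_144

/-!
# R273 (S0416), A-SIEGEL part 2 (helper101): the Siegel bound for sections of line bundles

* `Net A`   : a finite net of balls in the charts, the small balls cover `M`
* `Bd T L c`: the transition functions of `L` between the balls are bounded by `2 ^ c`
* `h0_le`   : `Bd T L c → finrank (HS L univ) ≤ N * (c + 2) ^ n`
* `siegel`  : summary
-/

set_option autoImplicit false
set_option linter.unusedSectionVars false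

open Set Filter Topology Complex Metric

namespace Crest.Agent.R273.Sg2_101

open Crest.Agent.R275.Geo Crest.Agent.R275.Core144
open Crest.Agent.R273.Sg1_101

noncomputable section

variable {n : ℕ} {M : Type} [TopologicalSpace M] {A : Atl n M}

/-- a finite net -/
structure Net (A : Atl n M) where
  N : ℕ
  i : Fin N → A.ι
  z : Fin N → Cn n
  r : Fin N → ℝ
  rpos : ∀ l, 0 < r l
  sub : ∀ l, closedBall (z l) (2 * r l) ⊆ (A.e (i l)).target
  cov : ∀ x, ∃ l, x ∈ (A.e (i l)).source ∧ A.e (i l) x ∈ closedBall (z l) (r l)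

theorem exists_net [CompactSpace M] (A : Atl n M) : Nonempty (Net A) := by
  choose i hi using A.cover
  have h1 : ∀ x, ∃ r > 0, closedBall (A.e (i x) x) (2 * r) ⊆ (A.e (i x)).target := by
    intro x
    obtain ⟨ε, hε, hs⟩ := nhds_basis_closedBall.mem_iff.1
      ((A.e (i x)).open_target.mem_nhds ((A.e (i x)).map_source (hi x)))
    exact ⟨ε / 2, by positivity, by rwa [mul_div_cancel₀ _ (two_ne_zero)]⟩
  choose r hr hs using h1
  set W : M → Set M := fun x => (A.e (i x)).source ∩ (A.e (i x)) ⁻¹' ball (A.e (i x) x) (r x)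
    with hW
  have hWo : ∀ x, IsOpen (W x) := fun x => (A.e (i x)).isOpen_inter_preimage isOpen_ball
  obtain ⟨t, ht⟩ := isCompact_univ.elim_finite_subcover W hWo fun x _ => mem_iUnion.2
    ⟨x, hi x, mem_ball_self (hr x)⟩
  refine ⟨⟨t.card, fun l => i (t.equivFin.symm l), fun l => A.e (i (t.equivFin.symm l))
    (t.equivFin.symm l), fun l => r (t.equivFin.symm l), fun l => hr _, fun l => hs _, fun x => ?_⟩⟩
  obtain ⟨y, hy⟩ := mem_iUnion.1 (ht (mem_univ x))
  obtain ⟨hyt, hxy⟩ := mem_iUnion.1 hy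
  refine ⟨t.equivFin ⟨y, hyt⟩, ?_⟩
  simp only [Equiv.symm_apply_apply]
  exact ⟨hxy.1, ball_subset_closedBall hxy.2⟩

/-- the transition functions of `L` between the balls of the net are bounded by `2 ^ c` -/
def Bd (T : Net A) (L : LB A) (c : ℕ) : Prop :=
  ∀ l l' x, x ∈ (A.e (T.i l)).source → A.e (T.i l) x ∈ closedBall (T.z l) (2 * T.r l) →
    x ∈ (A.e (T.i l')).source → A.e (T.i l') x ∈ closedBall (T.z l') (T.r l') →
    ‖L.g (T.i l) (T.i l') x‖ ≤ 2 ^ c

theorem Bd.mul {T : Net A} {L L' : LB A} {c c' : ℕ} (h : Bd T L c) (h' : Bd T L' c') :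
    Bd T (L * L') (c + c') := by
  intro l l' x h1 h2 h3 h4
  rw [LB.mul_g, norm_mul, pow_add]
  exact mul_le_mul (h l l' x h1 h2 h3 h4) (h' l l' x h1 h2 h3 h4) (norm_nonneg _) (by positivity)

theorem Bd.one (T : Net A) : Bd T (1 : LB A) 0 := by
  intro l l' x _ _ _ _
  simp

theorem Bd.pow {T : Net A} {L : LB A} {c : ℕ} (h : Bd T L c) (d : ℕ) : Bd T (L ^ d) (d * c) := by
  induction d with
  | zero => rw [pow_zero, zero_mul]; exact Bd.one T
  | succ d ih => rw [pow_succ, Nat.succ_mul]; exact ih.mul h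

theorem Bd.mono {T : Net A} {L : LB A} {c c' : ℕ} (h : Bd T L c) (hc : c ≤ c') : Bd T L c' :=
  fun l l' x h1 h2 h3 h4 => (h l l' x h1 h2 h3 h4).trans (pow_le_pow_right₀ (by norm_num) hc)

theorem Bd.prod {T : Net A} {κ : Type*} (s : Finset κ) {L : κ → LB A} {c : κ → ℕ}
    (h : ∀ k ∈ s, Bd T (L k) (c k)) : Bd T (∏ k ∈ s, L k) (∑ k ∈ s, c k) := by
  classical
  induction s using Finset.induction_on with
  | empty => simpa using Bd.one T
  | insert k s hk ih =>
    rw [Finset.prod_insert hk, Finset.sum_insert hk]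
    exact (h k (by simp)).mul (ih fun l hl => h l (by simp [hl]))

theorem exists_Bd [T2Space M] (T : Net A) (L : LB A) : ∃ c, Bd T L c := by
  have h1 : ∀ l l', ∃ C : ℝ, ∀ x, x ∈ (A.e (T.i l)).source →
      A.e (T.i l) x ∈ closedBall (T.z l) (2 * T.r l) →
      x ∈ (A.e (T.i l')).source → A.e (T.i l') x ∈ closedBall (T.z l') (T.r l') →
      ‖L.g (T.i l) (T.i l') x‖ ≤ C := by
    intro l l'
    set K' : Set M := (A.e (T.i l')).symm '' closedBall (T.z l') (T.r l') with hK'
    have hsub' : closedBall (T.z l') (T.r l') ⊆ (A.e (T.i l')).target :=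
      (closedBall_subset_closedBall (by have := T.rpos l'; linarith)).trans (T.sub l')
    have hK'c : IsCompact K' := (isCompact_closedBall _ _).image_of_continuousOn
      ((A.e (T.i l')).continuousOn_symm.mono hsub')
    set C : Set (Cn n) := closedBall (T.z l) (2 * T.r l) ∩ (A.e (T.i l)).symm ⁻¹' K' with hC
    have hCcl : IsClosed C :=
      ((A.e (T.i l)).continuousOn_symm.mono (T.sub l)).preimage_isClosed_of_isClosed
        isClosed_closedBall hK'c.isClosed
    have hCc : IsCompact C := (isCompact_closedBall (T.z l) (2 * T.r l)).of_isClosed_subset hCcl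
      inter_subset_left
    have hcont : ContinuousOn (fun w => L.g (T.i l) (T.i l') ((A.e (T.i l)).symm w)) C := by
      refine (L.hol (T.i l) (T.i l')).continuousOn.mono fun w hw => ⟨T.sub l hw.1, ?_⟩
      obtain ⟨w', hw', he⟩ := hw.2
      rw [mem_preimage, ← he]
      exact (A.e (T.i l')).map_target (hsub' hw')
    obtain ⟨B, hB⟩ := hCc.exists_bound_of_continuousOn hcont
    refine ⟨B, fun x h1 h2 h3 h4 => ?_⟩
    have h5 := hB (A.e (T.i l) x) ⟨h2, by
      rw [mem_preimage, (A.e (T.i l)).left_inv h1]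
      exact ⟨A.e (T.i l') x, h4, (A.e (T.i l')).left_inv h3⟩⟩
    rwa [(A.e (T.i l)).left_inv h1] at h5
  choose C hC using h1
  obtain ⟨c, hc⟩ := pow_unbounded_of_one_lt (∑ l, ∑ l', |C l l'|) (by norm_num : (1 : ℝ) < 2)
  refine ⟨c, fun l l' x h1 h2 h3 h4 => (hC l l' x h1 h2 h3 h4).trans ?_⟩
  refine le_trans ?_ hc.le
  calc C l l' ≤ |C l l'| := le_abs_self _
    _ ≤ ∑ l', |C l l'| := Finset.single_le_sum (f := fun l' => |C l l'|)
        (fun _ _ => abs_nonneg _) (Finset.mem_univ l')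
    _ ≤ ∑ l, ∑ l', |C l l'| := Finset.single_le_sum (f := fun l => ∑ l', |C l l'|)
        (fun _ _ => Finset.sum_nonneg fun _ _ => abs_nonneg _) (Finset.mem_univ l)

/-- the section read in the chart of the ball `l` -/
theorem hs_diff {L : LB A} {s : A.ι → M → ℂ} (hs : IsHS L univ s) (i : A.ι) :
    DifferentiableOn ℂ (fun w => s i ((A.e i).symm w)) (A.e i).target :=
  DifferentiableOn.mono (hs.hol i) fun _ hz => ⟨hz, mem_univ _⟩

theorem hs_an {L : LB A} {s : A.ι → M → ℂ} (hs : IsHS L univ s) (T : Net A) (l : Fin T.N) :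
    AnalyticAt ℂ (fun w => s (T.i l) ((A.e (T.i l)).symm w)) (T.z l) :=
  Crest.Agent.R266.SCV.analyticOnNhd_of_differentiableOn (A.e (T.i l)).open_target
    (hs_diff hs _) _ (T.sub l (mem_closedBall_self (by have := T.rpos l; positivity)))

/-- the Taylor functionals at the centres of the net -/
def jet (T : Net A) (L : LB A) (k : ℕ) : HS L univ →ₗ[ℂ] (Fin T.N × (Fin n → Fin k) → ℂ) where
  toFun s p := ja (fun w => s.1 (T.i p.1) ((A.e (T.i p.1)).symm w)) (T.z p.1) fun b => (p.2 b : ℕ)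
  map_add' s t := by
    funext p
    exact ja_add (hs_an s.2 T p.1) (hs_an t.2 T p.1) _
  map_smul' c s := by
    funext p
    exact ja_smul (hs_an s.2 T p.1) c _

theorem jet_inj {T : Net A} {L : LB A} {c : ℕ} (hc : Bd T L c) :
    Function.Injective (jet T L (c + 2)) := by
  rw [← LinearMap.ker_eq_bot, LinearMap.ker_eq_bot']
  intro s hs0
  have hs : IsHS L univ s.1 := s.2
  have hz : ∀ l (α : Fin n → ℕ), ∑ b, α b < c + 2 →
      ja (fun w => s.1 (T.i l) ((A.e (T.i l)).symm w)) (T.z l) α = 0 := by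
    intro l α hα
    have hb : ∀ b, α b < c + 2 := fun b =>
      (Finset.single_le_sum (f := α) (fun _ _ => Nat.zero_le _) (Finset.mem_univ b)).trans_lt hα
    exact congrFun hs0 (l, fun b => ⟨α b, hb b⟩)
  -- a bound on the small balls
  have h1 : ∀ l, ∃ B : ℝ, ∀ w ∈ closedBall (T.z l) (T.r l),
      ‖s.1 (T.i l) ((A.e (T.i l)).symm w)‖ ≤ B := fun l =>
    (isCompact_closedBall _ _).exists_bound_of_continuousOn ((hs_diff hs _).continuousOn.mono
      ((closedBall_subset_closedBall (by have := T.rpos l; linarith)).trans (T.sub l)))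
  choose B0 hB0 using h1
  set B : ℝ := ∑ l, |B0 l| with hB
  have hBl : ∀ l, B0 l ≤ B := fun l => (le_abs_self _).trans
    (Finset.single_le_sum (f := fun l => |B0 l|) (fun _ _ => abs_nonneg _) (Finset.mem_univ l))
  have h2 : ∀ j : ℕ, ∀ l, ∀ w ∈ closedBall (T.z l) (T.r l),
      ‖s.1 (T.i l) ((A.e (T.i l)).symm w)‖ ≤ B * (1 / 2) ^ j := by
    intro j
    induction j with
    | zero =>
      intro l w hw
      rw [pow_zero, mul_one]
      exact (hB0 l w hw).trans (hBl l)
    | succ j ih =>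
      intro l w hw
      have h3 : ∀ w ∈ closedBall (T.z l) (2 * T.r l),
          ‖s.1 (T.i l) ((A.e (T.i l)).symm w)‖ ≤ 2 ^ c * (B * (1 / 2) ^ j) := by
        intro w hw
        have hx := (A.e (T.i l)).map_target (T.sub l hw)
        obtain ⟨l', hl', hm⟩ := T.cov ((A.e (T.i l)).symm w)
        rw [hs.tr (T.i l) (T.i l') _ ⟨hx, hl'⟩ (mem_univ _), norm_mul]
        have h4 := ih l' _ hm
        rw [(A.e (T.i l')).left_inv hl'] at h4
        have h5 := hc l l' _ hx (by rw [(A.e (T.i l)).right_inv (T.sub l hw)]; exact hw) hl' hm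
        exact mul_le_mul h5 h4 (norm_nonneg _) (by positivity)
      have h6 := schwarzN (A.e (T.i l)).open_target (hs_diff hs _) (T.rpos l) (T.sub l) h3
        (k := c + 2) (hz l) hw
      refine h6.trans (le_of_eq ?_)
      rw [pow_add, pow_succ]
      have h7 : (2 : ℝ) ^ c * (1 / 2) ^ c = 1 := by rw [← mul_pow]; norm_num
      calc 2 ^ c * (B * (1 / 2) ^ j) * ((1 / 2) ^ c * (1 / 2) ^ 2) * 2
          = (2 ^ c * (1 / 2) ^ c) * (B * (1 / 2) ^ j * (1 / 2)) := by ring
        _ = B * ((1 / 2) ^ j * (1 / 2)) := by rw [h7]; ring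
  have h8 : ∀ l, ∀ w ∈ closedBall (T.z l) (T.r l), s.1 (T.i l) ((A.e (T.i l)).symm w) = 0 := by
    intro l w hw
    have h9 : Tendsto (fun j : ℕ => B * (1 / 2 : ℝ) ^ j) atTop (𝓝 (B * 0)) :=
      (tendsto_pow_atTop_nhds_zero_of_lt_one (by norm_num) (by norm_num)).const_mul B
    rw [mul_zero] at h9
    exact norm_le_zero_iff.1 (ge_of_tendsto' h9 fun j => h2 j l w hw)
  refine Subtype.ext ?_
  funext i x
  show s.1 i x = 0
  by_cases hx : x ∈ (A.e i).source
  · obtain ⟨l, hl, hm⟩ := T.cov x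
    have h9 := h8 l _ hm
    rw [(A.e (T.i l)).left_inv hl] at h9
    rw [hs.tr i (T.i l) x ⟨hx, hl⟩ (mem_univ _), h9, mul_zero]
  · exact hs.off i x hx

theorem fin_HS {T : Net A} {L : LB A} {c : ℕ} (hc : Bd T L c) : Module.Finite ℂ (HS L univ) :=
  Module.Finite.of_injective (jet T L (c + 2)) (jet_inj hc)

theorem h0_le {T : Net A} {L : LB A} {c : ℕ} (hc : Bd T L c) :
    Module.finrank ℂ (HS L univ) ≤ T.N * (c + 2) ^ n := by
  have h1 := LinearMap.finrank_le_finrank_of_injective (jet_inj hc)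
  rw [Module.finrank_pi, Fintype.card_prod, Fintype.card_fin, Fintype.card_fun,
    Fintype.card_fin, Fintype.card_fin] at h1
  exact h1

/-- the Siegel bound: summary -/
theorem siegel [CompactSpace M] [T2Space M] (A : Atl n M) : ∃ (N : ℕ) (c : LB A → ℕ),
    ∀ (κ : Type) (s : Finset κ) (L : κ → LB A) (e : κ → ℕ),
      Module.Finite ℂ (HS (∏ k ∈ s, L k ^ e k) univ) ∧
      Module.finrank ℂ (HS (∏ k ∈ s, L k ^ e k) univ) ≤ N * (∑ k ∈ s, e k * c (L k) + 2) ^ n := by
  obtain ⟨T⟩ := exists_net A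
  choose c hc using exists_Bd T
  refine ⟨T.N, c, fun κ s L e => ?_⟩
  have h1 : Bd T (∏ k ∈ s, L k ^ e k) (∑ k ∈ s, e k * c (L k)) :=
    Bd.prod s fun k _ => (hc (L k)).pow (e k)
  exact ⟨fin_HS h1, h0_le h1⟩

end

end Crest.Agent.R273.Sg2_101
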