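import Crest.Agent.R273.Pen_93

/-!
# R273: open subsets of a Riemann domain, sublevel sets of the exhaustion (helper93)
-/

set_option autoImplicit false
set_option linter.unusedSectionVars false

noncomputable section

open Set Filter Topology MeasureTheory ComplexConjugate
open scoped ENNReal
open TopologicalSpace (Opens)

namespace Crest.Agent.R273.SolvA_93

open Crest.Agent.R271.Ho51
open Crest.Agent.R271.W792 (lev dsq dsq_nonneg lev_comp Levi_eq_lev)

variable {n : ℕ} {M : Type*} [TopologicalSpace M] [RDom n M]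

/-- an open subset, as a space -/
def Sb (O : Opens M) : Type _ := {x : M // x ∈ O}

variable {O : Opens M}

instance : TopologicalSpace (Sb O) := instTopologicalSpaceSubtype

instance [T2Space M] : T2Space (Sb O) := inferInstanceAs (T2Space {x : M // x ∈ O})

instance [SecondCountableTopology M] : SecondCountableTopology (Sb O) :=
  inferInstanceAs (SecondCountableTopology {x : M // x ∈ O})

instance : MeasurableSpace (Sb O) := borel _

instance : BorelSpace (Sb O) := ⟨rfl⟩

/-- inclusion -/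
def Sb.val (x : Sb O) : M := Subtype.val x

theorem Sb.prop (x : Sb O) : x.val ∈ O := Subtype.property x

theorem val_inj {x y : Sb O} (h : x.val = y.val) : x = y := Subtype.ext h

theorem oe : IsOpenEmbedding (Sb.val : Sb O → M) := O.isOpen.isOpenEmbedding_subtypeVal

theorem range_val : range (Sb.val : Sb O → M) = O := Subtype.range_val

instance : RDom n (Sb O) where
  p := fun x => cp x.val
  hp := cp_lh.comp oe.isLocalHomeomorph

theorem cp_val (x : Sb O) : cp x = cp x.val := rfl

/-- a chart of the subset, as a chart of `M` -/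
def extCh {e : OpenPartialHomeomorph (Sb O) (Fin n → ℂ)} (he : IsCh e) :
    OpenPartialHomeomorph M (Fin n → ℂ) where
  toFun := cp
  invFun z := (e.symm z).val
  source := Sb.val '' e.source
  target := e.target
  map_source' := by
    rintro _ ⟨y, hy, rfl⟩
    exact he.cp_mem hy
  map_target' z hz := mem_image_of_mem _ (e.map_target hz)
  left_inv' := by
    rintro _ ⟨y, hy, rfl⟩
    have := he.symm_cp hy
    rw [cp_val] at this
    rw [this]
  right_inv' z hz := he.cp_symm hz
  open_source := oe.isOpenMap _ e.open_source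
  open_target := e.open_target
  continuousOn_toFun := cp_cont.continuousOn
  continuousOn_invFun := oe.continuous.comp_continuousOn e.symm.continuousOn

theorem isCh_ext {e : OpenPartialHomeomorph (Sb O) (Fin n → ℂ)} (he : IsCh e) :
    IsCh (extCh he) := rfl

theorem ext_source {e : OpenPartialHomeomorph (Sb O) (Fin n → ℂ)} (he : IsCh e) :
    (extCh he).source = Sb.val '' e.source := rfl

theorem ext_target {e : OpenPartialHomeomorph (Sb O) (Fin n → ℂ)} (he : IsCh e) :
    (extCh he).target = e.target := rfl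

theorem ext_symm {e : OpenPartialHomeomorph (Sb O) (Fin n → ℂ)} (he : IsCh e)
    (z : Fin n → ℂ) : (extCh he).symm z = (e.symm z).val := rfl

theorem mem_ext (x : Sb O) : x.val ∈ (extCh (isCh_ch x)).source := mem_image_of_mem _ (mem_ch x)

variable {G : Type*} [NormedAddCommGroup G] [NormedSpace ℝ G]

theorem D_val (f : M → G) (x : Sb O) : D (fun y : Sb O => f y.val) x = D f x.val := by
  rw [D_eq (isCh_ext (isCh_ch x)) (mem_ext x) f]
  rfl

/-- smooth near every point of `O` -/
def SmO (O : Set M) (f : M → G) : Prop :=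
  ∀ x ∈ O, ContDiffAt ℝ (⊤ : ℕ∞) (f ∘ (ch x).symm) (cp x)

theorem sm_val {f : M → G} (hf : SmO (O : Set M) f) : Sm (fun y : Sb O => f y.val) := by
  intro x
  have h1 := hf x.val x.prop
  have h2 := comp_germ (isCh_ext (isCh_ch x)) (isCh_ch x.val) (mem_ext x) (mem_ch x.val) f
  exact h1.congr_of_eventuallyEq h2

theorem sm_val' {f : M → G} (hf : Sm f) : Sm (fun y : Sb O => f y.val) :=
  sm_val fun x _ => hf x

theorem db_val (f : M → ℂ) (j : Fin n) (x : Sb O) :
    db j (fun y : Sb O => f y.val) x = db j f x.val := by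
  rw [db, db, D_val]

theorem dz_val (f : M → ℂ) (j : Fin n) (x : Sb O) :
    dz j (fun y : Sb O => f y.val) x = dz j f x.val := by
  rw [dz, dz, D_val]

theorem Levi_val (φ : M → ℝ) (x : Sb O) (w : Fin n → ℂ) :
    Levi (fun y : Sb O => φ y.val) x w = Levi φ x.val w := by
  have h1 : ∀ k, db k (fun y : Sb O => ((φ y.val : ℝ) : ℂ)) =
      fun y : Sb O => db k (fun y => (φ y : ℂ)) y.val := by
    intro k
    funext y
    exact db_val (fun y => (φ y : ℂ)) k y
  have h2 : ∀ j k, Lv (fun y : Sb O => φ y.val) x j k = Lv φ x.val j k := by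
    intro j k
    unfold Lv
    rw [h1]
    exact dz_val (db k fun y => (φ y : ℂ)) j x
  unfold Levi
  simp only [h2]

theorem lev_val (φ : M → ℝ) (x : Sb O) (w : Fin n → ℂ) :
    lev (fun y : Sb O => φ y.val) x w = lev φ x.val w := by
  have h : ∀ v : Fin n → ℂ, D (fun y : Sb O => D (fun y : Sb O => φ y.val) y v) x v =
      D (fun y => D φ y v) x.val v := by
    intro v
    have h1 : (fun y : Sb O => D (fun y : Sb O => φ y.val) y v) = fun y : Sb O => D φ y.val v := by
      funext y
      rw [D_val]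
    rw [h1, D_val (fun y => D φ y v)]
  unfold Crest.Agent.R271.W792.lev
  rw [h, h]

theorem hol_val {F : M → ℂ} (hF : Hol F) : Hol (fun y : Sb O => F y.val) :=
  fun _ he => hF _ (isCh_ext he)

section measure

variable [MeasurableSpace M] [BorelSpace M]

theorem me : MeasurableEmbedding (Sb.val : Sb O → M) := oe.measurableEmbedding

theorem isLeb_val {μ : Measure M} (hμ : IsLeb μ) : IsLeb (μ.comap (Sb.val : Sb O → M)) := by
  intro e he
  have h1 := hμ (extCh he) (isCh_ext he)
  rw [ext_source, ext_target] at h1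
  refine Measure.ext fun s hs => ?_
  have hsv : MeasurableSet (Sb.val '' s) := me.measurableSet_image.2 hs
  have h2 : (μ.restrict (Sb.val '' e.source)) (Sb.val '' s) =
      (Measure.map (extCh he).symm (volume.restrict e.target)) (Sb.val '' s) := by rw [h1]
  have haem : AEMeasurable (extCh he).symm ((volume : Measure (Fin n → ℂ)).restrict e.target) :=
    aem_symm (extCh he)
  rw [Measure.restrict_apply hsv, Measure.map_apply_of_aemeasurable haem hsv] at h2
  rw [Measure.restrict_apply hs, me.comap_apply, image_inter oe.injective, h2,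
    Measure.map_apply_of_aemeasurable (aem_symm e) hs]
  congr 1
  ext z
  constructor
  · rintro ⟨y, hy, hyz⟩
    have : y = e.symm z := val_inj hyz
    rwa [mem_preimage, ← this]
  · intro hz
    exact ⟨e.symm z, hz, rfl⟩

theorem lintegral_val {μ : Measure M} (f : M → ℝ≥0∞) :
    ∫⁻ x : Sb O, f x.val ∂(μ.comap (Sb.val : Sb O → M)) = ∫⁻ x in (O : Set M), f x ∂μ := by
  rw [← me.lintegral_map, me.map_comap, range_val]

end measure

/-! ### sublevel sets -/

/-- `{ρ < t}` -/
def Sl {ρ : M → ℝ} (hρ : Continuous ρ) (t : ℝ) : Opens M := ⟨{x | ρ x < t}, isOpen_lt hρ continuous_const⟩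

/-- the exhaustion of `{ρ < t}` -/
def rt (ρ : M → ℝ) (t : ℝ) (x : M) : ℝ := ρ x + (t - ρ x)⁻¹

theorem sm_rt {ρ : M → ℝ} (hρ : Sm ρ) (t : ℝ) :
    Sm (fun y : Sb (Sl hρ.continuous t) => rt ρ t y.val) := by
  have h1 : Sm (fun y : Sb (Sl hρ.continuous t) => ρ y.val) := sm_val' hρ
  refine h1.add (Sm.comp_at (g := fun s : ℝ => (t - s)⁻¹) h1 fun y => ?_)
  have h2 : t - ρ y.val ≠ 0 := sub_ne_zero.2 (ne_of_gt y.prop)
  exact (contDiffAt_const.sub contDiffAt_id).inv h2

theorem levi_rt {ρ : M → ℝ} (hρ : Sm ρ) (hL : ∀ x w, nsq w ≤ Levi ρ x w) (t : ℝ)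
    (x : Sb (Sl hρ.continuous t)) (w : Fin n → ℂ) :
    nsq w ≤ Levi (fun y : Sb (Sl hρ.continuous t) => rt ρ t y.val) x w := by
  have h1 : Sm (fun y : Sb (Sl hρ.continuous t) => ρ y.val) := sm_val' hρ
  have hx : ρ x.val < t := x.prop
  have hpos : ∀ s, s < t → HasDerivAt (fun s : ℝ => s + (t - s)⁻¹) (1 + ((t - s) ^ 2)⁻¹) s := by
    intro s hs
    have h2 : HasDerivAt (fun s : ℝ => t - s) (-1) s := by
      simpa using (hasDerivAt_id s).const_sub t
    have h3 := h2.inv (sub_pos.2 hs).ne'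
    have h4 := (hasDerivAt_id s).add h3
    have h5 : (1 : ℝ) + - -1 / (t - s) ^ 2 = 1 + ((t - s) ^ 2)⁻¹ := by
      rw [neg_neg, one_div]
    rw [h5] at h4
    exact h4
  have hpos2 : HasDerivAt (fun s : ℝ => 1 + ((t - s) ^ 2)⁻¹) (2 / (t - ρ x.val) ^ 3) (ρ x.val) := by
    have h2 : HasDerivAt (fun s : ℝ => t - s) (-1) (ρ x.val) := by
      simpa using (hasDerivAt_id (ρ x.val)).const_sub t
    have hne : t - ρ x.val ≠ 0 := (sub_pos.2 hx).ne'
    have h3 := ((h2.pow 2).inv (pow_ne_zero 2 hne)).const_add 1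
    refine h3.congr_deriv ?_
    simp only [Nat.cast_ofNat, Nat.add_one_sub_one, pow_one, Pi.pow_apply]
    field_simp
  have hev : ∀ᶠ s in 𝓝 ((fun y : Sb (Sl hρ.continuous t) => ρ y.val) x),
      HasDerivAt (fun s : ℝ => s + (t - s)⁻¹) ((fun s : ℝ => 1 + ((t - s) ^ 2)⁻¹) s) s := by
    filter_upwards [Iio_mem_nhds hx] with s hs
    exact hpos s hs
  have hsm : Sm (fun y : Sb (Sl hρ.continuous t) => (fun s : ℝ => 1 + ((t - s) ^ 2)⁻¹) (ρ y.val)) := by
    refine Sm.comp_at (g := fun s : ℝ => 1 + ((t - s) ^ 2)⁻¹) h1 fun y => ?_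
    have h2 : t - ρ y.val ≠ 0 := sub_ne_zero.2 (ne_of_gt y.prop)
    exact contDiffAt_const.add (((contDiffAt_const.sub contDiffAt_id).pow 2).inv
      (pow_ne_zero 2 h2))
  have h6 := lev_comp h1 (g := fun s : ℝ => s + (t - s)⁻¹)
    (g' := fun s : ℝ => 1 + ((t - s) ^ 2)⁻¹) x hev hpos2 w hsm
  rw [Levi_eq_lev (sm_rt hρ t)]
  have h7 : lev (fun y : Sb (Sl hρ.continuous t) => rt ρ t y.val) x w = _ := h6
  rw [h7, lev_val, ← Levi_eq_lev hρ]
  have h8 := hL x.val w
  have h9 : 0 ≤ nsq w := nsq_nonneg w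
  have h10 : 0 < t - ρ x.val := sub_pos.2 hx
  have h11 := dsq_nonneg (fun y : Sb (Sl hρ.continuous t) => ρ y.val) x w
  have h12 : 0 ≤ 2 / (t - ρ x.val) ^ 3 * dsq (fun y : Sb (Sl hρ.continuous t) => ρ y.val) x w := by
    positivity
  have h13 : 0 ≤ ((t - ρ x.val) ^ 2)⁻¹ * Levi ρ x.val w := by
    have : 0 ≤ Levi ρ x.val w := h9.trans h8
    positivity
  nlinarith

theorem compact_rt {ρ : M → ℝ} (hρ : Sm ρ) (hcpt : ∀ t : ℝ, IsCompact {x | ρ x ≤ t}) [T2Space M]
    (t c : ℝ) : IsCompact {x : Sb (Sl hρ.continuous t) | rt ρ t x.val ≤ c} := by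
  rw [oe.isInducing.isCompact_iff]
  obtain ⟨b, hb⟩ := (hcpt t).bddBelow_image hρ.continuous.continuousOn
  set δ : ℝ := (|c - b| + 1)⁻¹ with hδ
  have hδ0 : 0 < δ := by positivity
  have himg : Sb.val '' {x : Sb (Sl hρ.continuous t) | rt ρ t x.val ≤ c} =
      {x | ρ x ≤ t - δ} ∩ {x | (ρ x - c) * (t - ρ x) + 1 ≤ 0} := by
    ext x
    constructor
    · rintro ⟨y, hy, rfl⟩
      have h1 : ρ y.val < t := y.prop
      have h2 : 0 < t - ρ y.val := sub_pos.2 h1
      have h3 : ρ y.val + (t - ρ y.val)⁻¹ ≤ c := hy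
      have h4 : b ≤ ρ y.val := hb (mem_image_of_mem _ h1.le)
      refine ⟨?_, ?_⟩
      · have h5 : (t - ρ y.val)⁻¹ ≤ |c - b| + 1 := by
          have := le_abs_self (c - b)
          linarith
        have h6 : δ ≤ t - ρ y.val := by
          rw [hδ]
          exact inv_le_of_inv_le₀ h2 h5
        show ρ y.val ≤ t - δ
        linarith
      · have h5 : (ρ y.val + (t - ρ y.val)⁻¹) * (t - ρ y.val) ≤ c * (t - ρ y.val) :=
          mul_le_mul_of_nonneg_right h3 h2.le
        rw [add_mul, inv_mul_cancel₀ h2.ne'] at h5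
        show (ρ y.val - c) * (t - ρ y.val) + 1 ≤ 0
        linarith
    · rintro ⟨h1, h2⟩
      have h1' : ρ x ≤ t - δ := h1
      have h2' : (ρ x - c) * (t - ρ x) + 1 ≤ 0 := h2
      have h3 : ρ x < t := by linarith
      refine ⟨⟨x, h3⟩, ?_, rfl⟩
      have h4 : 0 < t - ρ x := sub_pos.2 h3
      show ρ x + (t - ρ x)⁻¹ ≤ c
      have h5 : (ρ x + (t - ρ x)⁻¹) * (t - ρ x) ≤ c * (t - ρ x) := by
        rw [add_mul, inv_mul_cancel₀ h4.ne']
        linarith
      exact le_of_mul_le_mul_right h5 h4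
  rw [himg]
  refine (hcpt (t - δ)).inter_right ?_
  exact isClosed_le (((hρ.continuous.sub continuous_const).mul
    (continuous_const.sub hρ.continuous)).add continuous_const) continuous_const

end Crest.Agent.R273.SolvA_93
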