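import Crest.Agent.R273.SolvA_93

/-!
# R273: limits of functions which are holomorphic on larger and larger sublevel sets (helper93)

Adapted from `R271/T7a_297` and `R273/TwL_34`.
-/

set_option autoImplicit false
set_option linter.unusedSectionVars false

noncomputable section

open Set Filter Topology MeasureTheory Metric
open scoped ENNReal
open TopologicalSpace (Opens)

namespace Crest.Agent.R273.SolvB_93

open Crest.Agent.R271.Ho51 Crest.Agent.R271.T7a297 Crest.Agent.R273.SolvA_93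
open Crest.Agent.R273.Pen_93 (hol_cont)

variable {n : ℕ} {M : Type*} [TopologicalSpace M] [RDom n M]

/-- holomorphic on the set `O` -/
def HolOn (O : Set M) (F : M → ℂ) : Prop := ∀ e : OpenPartialHomeomorph M (Fin n → ℂ), IsCh e →
  DifferentiableOn ℂ (F ∘ e.symm) (e.target ∩ e.symm ⁻¹' O)

open Classical in
/-- extension by zero -/
def ext0 {O : Opens M} (F : Sb O → ℂ) (x : M) : ℂ := if h : x ∈ O then F ⟨x, h⟩ else 0

theorem ext0_val {O : Opens M} (F : Sb O → ℂ) (x : Sb O) : ext0 F x.val = F x := by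
  unfold ext0
  rw [dif_pos x.prop]
  rfl

theorem holOn_ext0 {O : Opens M} {F : Sb O → ℂ} (hF : Hol F) : HolOn (O : Set M) (ext0 F) := by
  intro e he z hz
  obtain ⟨hz1, hz2⟩ := hz
  set x : Sb O := ⟨e.symm z, hz2⟩ with hx
  have hxv : x.val = e.symm z := rfl
  have hcp : cp x = z := by
    rw [cp_val, hxv]; exact he.cp_symm hz1
  have h1 : (e.symm : (Fin n → ℂ) → M) =ᶠ[𝓝 z] (extCh (isCh_ch x)).symm := by
    have := he.germ (isCh_ext (isCh_ch x)) (x := x.val) (by rw [hxv]; exact e.map_target hz1)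
      (mem_ext x)
    rwa [← cp_val, hcp] at this
  have h2 : DifferentiableAt ℂ (F ∘ (ch x).symm) z := by
    have h3 := (hF (ch x) (isCh_ch x)).differentiableAt (x := z)
    refine h3 ((ch x).open_target.mem_nhds ?_)
    rw [← hcp]
    exact (isCh_ch x).cp_mem (mem_ch x)
  refine (h2.congr_of_eventuallyEq ?_).differentiableWithinAt
  filter_upwards [h1] with y hy
  simp only [Function.comp_apply]
  rw [hy, ext_symm, ext0_val]

theorem continuousAt_of_holOn {O : Set M} (hO : IsOpen O) {F : M → ℂ} (hF : HolOn O F) {x : M}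
    (hx : x ∈ O) : ContinuousAt F x := by
  have hmem : cp x ∈ (ch x).target ∩ (ch x).symm ⁻¹' O := by
    refine ⟨(isCh_ch x).cp_mem (mem_ch x), ?_⟩
    rw [mem_preimage, (isCh_ch x).symm_cp (mem_ch x)]
    exact hx
  have hop : IsOpen ((ch x).target ∩ (ch x).symm ⁻¹' O) :=
    (ch x).symm.isOpen_inter_preimage hO
  have h1 : ContinuousAt (F ∘ (ch x).symm) (cp x) :=
    ((hF (ch x) (isCh_ch x)).differentiableAt (hop.mem_nhds hmem)).continuousAt
  have h2 : ContinuousAt (fun y => (F ∘ (ch x).symm) (cp y)) x :=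
    ContinuousAt.comp (g := F ∘ (ch x).symm) h1 cp_cont.continuousAt
  exact h2.congr (eventually_eq_comp (isCh_ch x) (mem_ch x) F).symm

variable [T2Space M] [SecondCountableTopology M] [MeasurableSpace M] [BorelSpace M]

theorem measurable_ext0 {O : Opens M} {F : Sb O → ℂ} (hF : Hol F) : Measurable (ext0 F) := by
  classical
  have h1 : ContinuousOn (ext0 F) (O : Set M) := fun x hx =>
    (continuousAt_of_holOn O.isOpen (holOn_ext0 hF) hx).continuousWithinAt
  have h2 : ext0 F = (O : Set M).piecewise (ext0 F) (fun _ => 0) := by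
    funext x
    by_cases hx : x ∈ (O : Set M)
    · rw [piecewise_eq_of_mem _ _ _ hx]
    · rw [piecewise_eq_of_notMem _ _ _ hx]
      exact dif_neg hx
  rw [h2]
  exact h1.measurable_piecewise continuousOn_const O.isOpen.measurableSet

theorem locU_congr {X : Type*} [TopologicalSpace X] {F F' : ℕ → X → ℂ} {f : X → ℂ}
    {l : Filter ℕ} {s : Set X} (h : ∀ᶠ j in l, F j = F' j) (hF : TendstoLocallyUniformlyOn F f l s) :
    TendstoLocallyUniformlyOn F' f l s := by
  intro u hu x hx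
  obtain ⟨t, ht, hev⟩ := hF u hu x hx
  refine ⟨t, ht, ?_⟩
  filter_upwards [hev, h] with j h1 h2 y hy
  rw [← h2]
  exact h1 y hy

section main

variable {μ ν : Measure M} {ρ : M → ℝ} {G : M → ℂ} {F : ℕ → M → ℂ} {K : ℝ≥0∞}

/-- local comparison of the measures -/
def LocC (μ ν : Measure M) : Prop := ∀ C : Set M, IsCompact C → ∃ c : ℝ≥0∞, c ≠ ⊤ ∧
  ∀ f : M → ℝ≥0∞, Measurable f → ∫⁻ x in C, f x ∂μ ≤ c * ∫⁻ x in C, f x ∂ν

theorem local_montel (hμ : IsLeb μ) (hρ : Continuous ρ) (hc : LocC μ ν) (hG : Continuous G)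
    (hF : ∀ k : ℕ, HolOn {x | ρ x < k} (F k)) (hFm : ∀ k, Measurable (F k))
    (hK : K ≠ ⊤)
    (hb : ∀ k : ℕ, ∫⁻ x in {x | ρ x < k}, ENNReal.ofReal (‖F k x - G x‖ ^ 2) ∂ν ≤ K)
    {e : OpenPartialHomeomorph M (Fin n → ℂ)} (he : IsCh e) {z : Fin n → ℂ} (hz : z ∈ e.target) :
    ∃ r : ℝ, 0 < r ∧ ball z r ⊆ e.target ∧ ∃ f0 : (Fin n → ℂ) → ℂ,
      DifferentiableOn ℂ f0 (ball z r) ∧
      TendstoLocallyUniformlyOn (fun j => F j ∘ e.symm) f0 (hyperfilter ℕ : Filter ℕ)
        (ball z r) := by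
  classical
  have hlf := hμ.locallyFinite
  obtain ⟨r, hr, hB⟩ := Metric.nhds_basis_closedBall.mem_iff.1 (e.open_target.mem_nhds hz)
  set B : Set (Fin n → ℂ) := closedBall z r with hBdef
  have hBc : IsCompact B := isCompact_closedBall z r
  set S : Set M := e.symm '' B with hSdef
  have hSc : IsCompact S := hBc.image_of_continuousOn (e.symm.continuousOn.mono hB)
  have hSm : MeasurableSet S := hSc.isClosed.measurableSet
  obtain ⟨b, hb'⟩ := hSc.bddAbove_image hρ.continuousOn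
  obtain ⟨k0, hk0⟩ := exists_nat_gt b
  have hSk : ∀ x ∈ S, ρ x < k0 := fun x hx => (hb' (mem_image_of_mem _ hx)).trans_lt hk0
  obtain ⟨g, hg'⟩ := hSc.bddAbove_image hG.norm.continuousOn
  have hSg : ∀ x ∈ S, ‖G x‖ ≤ g := fun x hx => hg' (mem_image_of_mem _ hx)
  obtain ⟨c, hc0, hcS⟩ := hc S hSc
  set C : ℝ≥0∞ := 2 * (c * K) + 2 * ENNReal.ofReal (g ^ 2) * μ S with hCdef
  have hC : C ≠ ⊤ := by
    refine ENNReal.add_ne_top.2 ⟨ENNReal.mul_ne_top (by simp) (ENNReal.mul_ne_top hc0 hK),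
      ENNReal.mul_ne_top (ENNReal.mul_ne_top (by simp)
      ENNReal.ofReal_ne_top) hSc.measure_lt_top.ne⟩
  have hbound : ∀ j, k0 ≤ j → ∫⁻ y in ball z r, ‖(F j ∘ e.symm) y‖ₑ ^ 2 ≤ C := by
    intro j hj
    have hfm : Measurable fun x => ‖F j x‖ₑ ^ 2 := (hFm j).enorm.pow_const 2
    have h1 : ∫⁻ y in B, ‖F j (e.symm y)‖ₑ ^ 2 ≤ ∫⁻ x in S, ‖F j x‖ₑ ^ 2 ∂μ :=
      lintegral_ball_le hμ he hBc hB hfm
    have h2 : ∀ x ∈ S, ‖F j x‖ₑ ^ 2 ≤ 2 * ENNReal.ofReal (‖F j x - G x‖ ^ 2) +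
        2 * ENNReal.ofReal (g ^ 2) := by
      intro x hx
      refine (enorm_sq_le_aux (F j x) (G x)).trans (add_le_add le_rfl ?_)
      refine mul_le_mul_right (ENNReal.ofReal_le_ofReal ?_) _
      have := hSg x hx
      exact pow_le_pow_left₀ (norm_nonneg _) this 2
    have hmeas : Measurable fun x => ENNReal.ofReal (‖F j x - G x‖ ^ 2) :=
      ((((hFm j).sub hG.measurable).norm.pow_const 2)).ennreal_ofReal
    have h5 : S ⊆ {x | ρ x < (j : ℝ)} := fun x hx => (hSk x hx).trans_le (by exact_mod_cast hj)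
    calc ∫⁻ y in ball z r, ‖(F j ∘ e.symm) y‖ₑ ^ 2
        ≤ ∫⁻ y in B, ‖F j (e.symm y)‖ₑ ^ 2 := lintegral_mono_set ball_subset_closedBall
      _ ≤ ∫⁻ x in S, ‖F j x‖ₑ ^ 2 ∂μ := h1
      _ ≤ ∫⁻ x in S, (2 * ENNReal.ofReal (‖F j x - G x‖ ^ 2) +
        2 * ENNReal.ofReal (g ^ 2)) ∂μ := setLIntegral_mono' hSm h2
      _ = 2 * ∫⁻ x in S, ENNReal.ofReal (‖F j x - G x‖ ^ 2) ∂μ +
          2 * ENNReal.ofReal (g ^ 2) * μ S := by
        rw [lintegral_add_left (hmeas.const_mul _), lintegral_const_mul _ hmeas,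
          setLIntegral_const]
      _ ≤ 2 * (c * ∫⁻ x in S, ENNReal.ofReal (‖F j x - G x‖ ^ 2) ∂ν) +
          2 * ENNReal.ofReal (g ^ 2) * μ S :=
        add_le_add (mul_le_mul_right (hcS _ hmeas) _) le_rfl
      _ ≤ C := by
        refine add_le_add (mul_le_mul_right (mul_le_mul_right ?_ _) _) le_rfl
        exact (lintegral_mono_set h5).trans (hb j)
  set F' : ℕ → (Fin n → ℂ) → ℂ := fun j => if k0 ≤ j then F j ∘ e.symm else 0 with hF'
  have hev : ∀ᶠ j in (hyperfilter ℕ : Filter ℕ), k0 ≤ j := by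
    have h6 : ∀ᶠ j in (atTop : Filter ℕ), k0 ≤ j := eventually_ge_atTop k0
    rw [← Nat.cofinite_eq_atTop] at h6
    exact hyperfilter_le_cofinite h6
  obtain ⟨f0, hf0, hf0'⟩ := Crest.Agent.R271.Montel297.montel_L2 (ball z r) isOpen_ball F'
    (fun j => by
      by_cases hj : k0 ≤ j
      · simp only [hF', if_pos hj]
        refine (hF j e he).mono fun y hy => ⟨hB (ball_subset_closedBall hy), ?_⟩
        exact (hSk _ (mem_image_of_mem _ (ball_subset_closedBall hy))).trans_le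
          (by exact_mod_cast hj)
      · simp only [hF', if_neg hj]
        exact differentiableOn_const _) C hC (hyperfilter ℕ)
    (by
      filter_upwards [hev] with j hj
      simp only [hF', if_pos hj]
      exact hbound j hj)
  refine ⟨r, hr, ball_subset_closedBall.trans hB, f0, hf0, locU_congr ?_ hf0'⟩
  filter_upwards [hev] with j hj
  simp only [hF', if_pos hj]

/-- **limit lemma** -/
theorem limit_hol (hμ : IsLeb μ) (hρ : Continuous ρ) (hcpt : ∀ t : ℝ, IsCompact {x | ρ x ≤ t})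
    (hc : LocC μ ν) (hG : Continuous G)
    (hF : ∀ k : ℕ, HolOn {x | ρ x < k} (F k)) (hFm : ∀ k, Measurable (F k))
    (hK : K ≠ ⊤)
    (hb : ∀ k : ℕ, ∫⁻ x in {x | ρ x < k}, ENNReal.ofReal (‖F k x - G x‖ ^ 2) ∂ν ≤ K) :
    ∃ F0 : M → ℂ, Hol F0 ∧ ∫⁻ x, ENNReal.ofReal (‖F0 x - G x‖ ^ 2) ∂ν ≤ K := by
  have hloc := fun {e : OpenPartialHomeomorph M (Fin n → ℂ)} (he : IsCh e) {z : Fin n → ℂ}
    (hz : z ∈ e.target) => local_montel hμ hρ hc hG hF hFm hK hb he hz
  set l : Filter ℕ := (hyperfilter ℕ : Filter ℕ) with hl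
  set F0 : M → ℂ := fun x => limUnder l (fun j => F j x) with hF0
  have hlim : ∀ x, Tendsto (fun j => F j x) l (𝓝 (F0 x)) := by
    intro x
    obtain ⟨r, hr, -, f0, -, hf0⟩ := hloc (isCh_ch x) ((isCh_ch x).cp_mem (mem_ch x))
    have h1 := hf0.tendsto_at (mem_ball_self hr)
    have h2 : Tendsto (fun j => F j x) l (𝓝 (f0 (cp x))) := by
      simpa [symm_cp] using h1
    exact tendsto_nhds_limUnder ⟨_, h2⟩
  have hagree : ∀ {e : OpenPartialHomeomorph M (Fin n → ℂ)} {z : Fin n → ℂ} {r : ℝ}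
      {f0 : (Fin n → ℂ) → ℂ}, TendstoLocallyUniformlyOn (fun j => F j ∘ e.symm) f0 l (ball z r) →
      ∀ y ∈ ball z r, f0 y = F0 (e.symm y) := by
    intro e z r f0 hf0 y hy
    exact tendsto_nhds_unique (hf0.tendsto_at hy) (hlim (e.symm y))
  have hHol : Hol F0 := by
    intro e he z hz
    obtain ⟨r, hr, hsub, f0, hd, hf0⟩ := hloc he hz
    have h1 : DifferentiableAt ℂ f0 z := hd.differentiableAt (isOpen_ball.mem_nhds (mem_ball_self hr))
    refine (h1.congr_of_eventuallyEq ?_).differentiableWithinAt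
    filter_upwards [isOpen_ball.mem_nhds (mem_ball_self hr)] with y hy
    exact (hagree hf0 y hy).symm
  have hF0c : Continuous F0 := hol_cont hHol
  have hLU : TendstoLocallyUniformly F F0 l := by
    intro u hu x
    obtain ⟨r, hr, hsub, f0, hd, hf0⟩ := hloc (isCh_ch x) ((isCh_ch x).cp_mem (mem_ch x))
    obtain ⟨t, ht, hev⟩ := hf0 u hu (cp x) (mem_ball_self hr)
    rw [isOpen_ball.nhdsWithin_eq (mem_ball_self hr)] at ht
    refine ⟨(ch x).source ∩ cp ⁻¹' (t ∩ ball (cp x) r), inter_mem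
      ((ch x).open_source.mem_nhds (mem_ch x)) (cp_cont.continuousAt.preimage_mem_nhds
        (inter_mem ht (isOpen_ball.mem_nhds (mem_ball_self hr)))), ?_⟩
    filter_upwards [hev] with j hj y hy
    have h1 := hj (cp y) hy.2.1
    rw [hagree hf0 _ hy.2.2] at h1
    simpa [(isCh_ch x).symm_cp hy.1] using h1
  have hle : l ≤ atTop := by
    rw [← Nat.cofinite_eq_atTop]
    exact hyperfilter_le_cofinite
  have hsub : ∀ m : ℕ, ∃ j : ℕ, m + 1 ≤ j ∧
      ∀ x, ρ x ≤ m → dist (F0 x) (F j x) < 1 / ((m : ℝ) + 1) := by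
    intro m
    have h1 : TendstoUniformlyOn F F0 l {x | ρ x ≤ (m : ℝ)} :=
      (tendstoLocallyUniformlyOn_iff_tendstoUniformlyOn_of_compact (hcpt m)).1
        hLU.tendstoLocallyUniformlyOn
    have h2 := (Metric.tendstoUniformlyOn_iff.1 h1) (1 / ((m : ℝ) + 1)) (by positivity)
    have h3 : ∀ᶠ j in l, m + 1 ≤ j := hle (eventually_ge_atTop (m + 1))
    obtain ⟨j, hj1, hj2⟩ := (h3.and h2).exists
    exact ⟨j, hj1, fun x hx => hj2 x hx⟩
  choose J hJ1 hJ2 using hsub
  have hJlim : ∀ x, Tendsto (fun m => F (J m) x) atTop (𝓝 (F0 x)) := by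
    intro x
    rw [tendsto_iff_dist_tendsto_zero]
    refine squeeze_zero' (Eventually.of_forall fun _ => dist_nonneg) ?_
      tendsto_one_div_add_atTop_nhds_zero_nat
    obtain ⟨m0, hm0⟩ := exists_nat_ge (ρ x)
    filter_upwards [eventually_ge_atTop m0] with m hm
    rw [dist_comm]
    exact (hJ2 m x (hm0.trans (by exact_mod_cast hm))).le
  -- Fatou
  have hfatou : ∀ k : ℕ, ∫⁻ x in {x | ρ x < (k : ℝ)},
      ENNReal.ofReal (‖F0 x - G x‖ ^ 2) ∂ν ≤ K := by
    intro k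
    have h1 : ∀ x, ENNReal.ofReal (‖F0 x - G x‖ ^ 2) =
        liminf (fun m => ENNReal.ofReal (‖F (J m) x - G x‖ ^ 2)) atTop := by
      intro x
      have h2 : Tendsto (fun m => ENNReal.ofReal (‖F (J m) x - G x‖ ^ 2))
          atTop (𝓝 (ENNReal.ofReal (‖F0 x - G x‖ ^ 2))) :=
        (ENNReal.continuous_ofReal.tendsto _).comp
          ((((hJlim x).sub_const (G x)).norm).pow 2)
      rw [h2.liminf_eq]
    simp only [h1]
    refine (lintegral_liminf_le fun m => ?_).trans ?_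
    · exact ((((hFm (J m)).sub hG.measurable).norm.pow_const 2)).ennreal_ofReal
    · refine liminf_le_of_frequently_le' (Eventually.frequently ?_)
      filter_upwards [eventually_ge_atTop k] with m hm
      have hkJ : k ≤ J m := hm.trans ((Nat.le_succ m).trans (hJ1 m))
      refine le_trans (lintegral_mono_set fun x hx => ?_) (hb (J m))
      exact lt_of_lt_of_le (show ρ x < (k : ℝ) from hx) (by exact_mod_cast hkJ)
  refine ⟨F0, hHol, ?_⟩
  have hun : (⋃ k : ℕ, {x | ρ x < (k : ℝ)}) = univ := by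
    refine eq_univ_of_forall fun x => ?_
    obtain ⟨k, hk⟩ := exists_nat_gt (ρ x)
    exact mem_iUnion.2 ⟨k, hk⟩
  have hdir : Directed (· ⊆ ·) fun k : ℕ => {x | ρ x < (k : ℝ)} := by
    refine Monotone.directed_le fun a b hab x hx => ?_
    exact lt_of_lt_of_le (show ρ x < (a : ℝ) from hx) (by exact_mod_cast hab)
  rw [← setLIntegral_univ, ← hun, setLIntegral_iUnion_of_directed _ hdir]
  exact iSup_le hfatou

end main

end Crest.Agent.R273.SolvB_93
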