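import Crest.Agent.R273.SplA_836
import Crest.Agent.R266.KahlerToKMet

/-!
# R273 (S0416), Part B/E, SPLITPROD (helper836), part B: the Kaehler metric on the product charts

`rb G` : the real bilinear form `Re ∑ G_{ab} u_a conj v_b`; `gA K i` : coefficients of the Kaehler
metric in the chart `i`; `kmet K c` : the `KMet` of the product-foliated atlas `pfol c`.
-/

set_option autoImplicit false
set_option linter.unusedSectionVars false

open Set Filter Topology Complex Metric
open scoped ContDiff Matrix ComplexConjugate Manifold ComplexOrder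

namespace Crest.Agent.R273.SplA_836

open Crest.Agent.R275.Geo Crest.Agent.R275.Core144 Crest.Agent.R275.EDR890
open Crest.Agent.R273.Defs_333 Crest.Agent.R273.Map_835 Crest.Agent.R273.Fam_835
open Crest.Agent.R273.Kah_333 Crest.Agent.R273.Hess_333
open Crest.Agent.R266 (EV PFol KMet closed_pull contDiffAt_pull_clm herm_alt)
open Crest.Agent.R266.G6 (pb pb_apply)

noncomputable section

variable {n : ℕ} {M : Type} [TopologicalSpace M] {A : Atl n M}

/-! ### real bilinear forms of Hermitian matrices -/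

/-- `(u, v) ↦ u a * conj (v b)` -/
def cB (a b : Fin n) : Cn n →L[ℝ] Cn n →L[ℝ] ℂ :=
  (ContinuousLinearMap.mul ℝ ℂ).bilinearComp (ze (false, a)) (ze (true, b))

theorem cB_apply (a b : Fin n) (u v : Cn n) : cB a b u v = u a * conj (v b) := rfl

/-- the sesquilinear form of a matrix -/
def hb (G : Matrix (Fin n) (Fin n) ℂ) : Cn n →L[ℝ] Cn n →L[ℝ] ℂ := ∑ a, ∑ b, G a b • cB a b

theorem hb_apply (G : Matrix (Fin n) (Fin n) ℂ) (u v : Cn n) :
    hb G u v = ∑ a, ∑ b, G a b * (u a * conj (v b)) := by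
  simp only [hb, sum_apply, smul_apply, cB_apply, smul_eq_mul]

/-- real part of a bilinear form -/
def reL : (Cn n →L[ℝ] Cn n →L[ℝ] ℂ) →L[ℝ] (Cn n →L[ℝ] Cn n →L[ℝ] ℝ) :=
  ContinuousLinearMap.compL ℝ (Cn n) (Cn n →L[ℝ] ℂ) (Cn n →L[ℝ] ℝ)
    (ContinuousLinearMap.compL ℝ (Cn n) ℂ ℝ reCLM)

theorem reL_apply (B : Cn n →L[ℝ] Cn n →L[ℝ] ℂ) (u v : Cn n) : reL B u v = (B u v).re := rfl

/-- the real bilinear form of a matrix -/
def rb (G : Matrix (Fin n) (Fin n) ℂ) : Cn n →L[ℝ] Cn n →L[ℝ] ℝ := reL (hb G)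

theorem rb_apply (G : Matrix (Fin n) (Fin n) ℂ) (u v : Cn n) : rb G u v = (hb G u v).re := rfl

theorem hb_conj {G : Matrix (Fin n) (Fin n) ℂ} (hG : G.IsHermitian) (u v : Cn n) :
    conj (hb G u v) = hb G v u := by
  have h : ∀ a b, conj (G a b) = G b a := fun a b => hG.apply b a
  simp only [hb_apply, map_sum, map_mul, h, conj_conj]
  rw [Finset.sum_comm]
  refine Finset.sum_congr rfl fun a _ => Finset.sum_congr rfl fun b _ => ?_
  ring

theorem hb_smul_left (G : Matrix (Fin n) (Fin n) ℂ) (c : ℂ) (u v : Cn n) :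
    hb G (c • u) v = c * hb G u v := by
  simp only [hb_apply, Finset.mul_sum]
  refine Finset.sum_congr rfl fun a _ => Finset.sum_congr rfl fun b _ => ?_
  show G a b * ((c * u a) * conj (v b)) = _
  ring

theorem hb_smul_right (G : Matrix (Fin n) (Fin n) ℂ) (c : ℂ) (u v : Cn n) :
    hb G u (c • v) = conj c * hb G u v := by
  simp only [hb_apply, Finset.mul_sum]
  refine Finset.sum_congr rfl fun a _ => Finset.sum_congr rfl fun b _ => ?_
  show G a b * (u a * conj (c * v b)) = _
  rw [map_mul]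
  ring

theorem rb_symm {G : Matrix (Fin n) (Fin n) ℂ} (hG : G.IsHermitian) (u v : Cn n) :
    rb G u v = rb G v u := by
  rw [rb_apply, rb_apply, ← hb_conj hG u v, conj_re]

theorem rb_herm (G : Matrix (Fin n) (Fin n) ℂ) (u v : Cn n) :
    rb G (Complex.I • u) (Complex.I • v) = rb G u v := by
  rw [rb_apply, rb_apply, hb_smul_left, hb_smul_right, ← mul_assoc, conj_I]
  simp

theorem hb_eq_dot (G : Matrix (Fin n) (Fin n) ℂ) (u v : Cn n) :
    hb G u v = star (fun b => v b) ⬝ᵥ (Gᵀ *ᵥ fun a => u a) := by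
  rw [hb_apply, Finset.sum_comm]
  simp only [dotProduct, Matrix.mulVec, Finset.mul_sum, Pi.star_apply, Matrix.transpose_apply]
  refine Finset.sum_congr rfl fun b _ => Finset.sum_congr rfl fun a _ => ?_
  rw [starRingEnd_apply]
  ring

theorem rb_pos {G : Matrix (Fin n) (Fin n) ℂ} (hG : G.PosDef) {u : Cn n} (hu : u ≠ 0) :
    0 < rb G u u := by
  have h1 : Gᵀ.PosDef := hG.transpose
  have h2 : (fun a => u a) ≠ 0 := by
    intro h
    apply hu
    ext a
    exact congrFun h a
  have h3 := h1.dotProduct_mulVec_pos h2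
  rw [rb_apply, hb_eq_dot]
  exact (Complex.pos_iff.1 h3).1

/-- transformation of the forms -/
theorem hb_tr (G J : Matrix (Fin n) (Fin n) ℂ) (u v : Cn n) :
    hb (Jᵀ * G * J.map conj) u v = hb G (toC J u) (toC J v) := by
  rw [hb_eq_dot, hb_eq_dot]
  have h1 : (fun a => toC J u a) = J *ᵥ fun a => u a := by
    funext a
    rw [toC_apply]
    rfl
  have h2 : (fun a => toC J v a) = J *ᵥ fun a => v a := by
    funext a
    rw [toC_apply]
    rfl
  rw [h1, h2]
  have h3 : (Jᵀ * G * J.map conj)ᵀ = Jᴴ * Gᵀ * J := by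
    rw [Matrix.transpose_mul, Matrix.transpose_mul, Matrix.transpose_transpose, mul_assoc]
    rfl
  rw [h3, Matrix.star_mulVec, ← Matrix.dotProduct_mulVec]
  simp only [Matrix.mulVec_mulVec, Matrix.mul_assoc]

/-! ### smoothness and closedness in a chart -/

variable (K : Kah A)

/-- the coefficients of the metric in the chart `i` -/
def gA (i : A.ι) (z : Cn n) : Cn n →L[ℝ] Cn n →L[ℝ] ℝ := rb (K.g i ((A.e i).symm z))

theorem gA_smooth (i : A.ι) : ContDiffOn ℝ ∞ (gA K i) (A.e i).target := by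
  rw [contDiffOn_clm_apply]
  intro u
  rw [contDiffOn_clm_apply]
  intro v
  have h1 : ContDiffOn ℝ ∞ (fun z => ∑ a, ∑ b, K.g i ((A.e i).symm z) a b * (u a * conj (v b)))
      (A.e i).target := by
    refine ContDiffOn.sum fun a _ => ContDiffOn.sum fun b _ => ?_
    exact ContDiffOn.mul (K.sm i a b) contDiffOn_const
  have h2 := reCLM.contDiff.comp_contDiffOn h1
  refine h2.congr fun z _ => ?_
  show (hb (K.g i ((A.e i).symm z)) u v).re = _
  rw [hb_apply]
  rfl

/-- Hermitian symmetry in the chart -/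
theorem K_herm {i : A.ι} {z : Cn n} (hz : z ∈ (A.e i).target) :
    (K.g i ((A.e i).symm z)).IsHermitian := (K.pos i _ ((A.e i).map_target hz)).isHermitian

/-- the (1,0)-part of the derivative -/
def XX (i : A.ι) (z u v w : Cn n) : ℂ :=
  ∑ a, ∑ b, ∑ c, wd (false, c) (fun w => K.g i ((A.e i).symm w) a b) z *
    (u c * (v a * conj (w b)))

/-- the (0,1)-part of the derivative -/
def YY (i : A.ι) (z u v w : Cn n) : ℂ :=
  ∑ a, ∑ b, ∑ c, wd (true, c) (fun w => K.g i ((A.e i).symm w) a b) z *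
    (conj (u c) * (v a * conj (w b)))

theorem XX_symm {i : A.ι} {z : Cn n} (hz : z ∈ (A.e i).target) (u v w : Cn n) :
    XX K i z u v w = XX K i z v u w := by
  unfold XX
  rw [Finset.sum_comm]
  conv_rhs => rw [Finset.sum_comm]
  refine Finset.sum_congr rfl fun b _ => ?_
  rw [Finset.sum_comm]
  refine Finset.sum_congr rfl fun a _ => Finset.sum_congr rfl fun c _ => ?_
  rw [K.closed i z hz c b a]
  ring

theorem YY_symm {i : A.ι} {z : Cn n} (hz : z ∈ (A.e i).target) (u v w : Cn n) :
    YY K i z u v w = YY K i z w v u := by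
  unfold YY
  refine Finset.sum_congr rfl fun a _ => ?_
  rw [Finset.sum_comm]
  refine Finset.sum_congr rfl fun b _ => Finset.sum_congr rfl fun c _ => ?_
  rw [K.closed' i z hz a c b]
  ring

theorem YY_conj {i : A.ι} {z : Cn n} (hz : z ∈ (A.e i).target) (u v w : Cn n) :
    conj (YY K i z u v w) = XX K i z u w v := by
  unfold XX YY
  simp only [map_sum, map_mul, conj_conj]
  rw [Finset.sum_comm]
  refine Finset.sum_congr rfl fun b _ => Finset.sum_congr rfl fun a _ =>
    Finset.sum_congr rfl fun c _ => ?_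
  have hd : DifferentiableAt ℝ (fun w => K.g i ((A.e i).symm w) a b) z :=
    ((K.sm i a b).contDiffAt ((A.e i).open_target.mem_nhds hz)).differentiableAt (by simp)
  have h1 := conj_wd (true, c) hd
  have h2 : (fun w => conj (K.g i ((A.e i).symm w) a b)) =ᶠ[𝓝 z]
      fun w => K.g i ((A.e i).symm w) b a := by
    filter_upwards [(A.e i).open_target.mem_nhds hz] with w hw
    exact (K_herm K hw).apply b a
  rw [h1, wd_congr h2]
  show wd (false, c) _ z * _ = _
  ring

theorem gA_deriv {i : A.ι} {z : Cn n} (hz : z ∈ (A.e i).target) (u v w : Cn n) :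
    fderiv ℝ (fun q => gA K i q v w) z u = (XX K i z u v w + YY K i z u v w).re := by
  have hd : ∀ a b, DifferentiableAt ℝ (fun w => K.g i ((A.e i).symm w) a b) z := fun a b =>
    ((K.sm i a b).contDiffAt ((A.e i).open_target.mem_nhds hz)).differentiableAt (by simp)
  have h1 : HasFDerivAt (fun q => ∑ a, ∑ b, K.g i ((A.e i).symm q) a b * (v a * conj (w b)))
      (∑ a, ∑ b, (v a * conj (w b)) • fderiv ℝ (fun q => K.g i ((A.e i).symm q) a b) z) z := by
    refine HasFDerivAt.fun_sum fun a _ => HasFDerivAt.fun_sum fun b _ => ?_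
    exact (hd a b).hasFDerivAt.mul_const _
  have h2 : (fun q => gA K i q v w) = fun q => reCLM
      (∑ a, ∑ b, K.g i ((A.e i).symm q) a b * (v a * conj (w b))) := by
    funext q
    show (hb (K.g i ((A.e i).symm q)) v w).re = _
    rw [hb_apply]
    rfl
  have h3 : HasFDerivAt (fun q => gA K i q v w) (reCLM.comp
      (∑ a, ∑ b, (v a * conj (w b)) • fderiv ℝ (fun q => K.g i ((A.e i).symm q) a b) z)) z := by
    rw [h2]
    exact reCLM.hasFDerivAt.comp z h1
  rw [h3.fderiv]
  show (((∑ a, ∑ b, (v a * conj (w b)) • fderiv ℝ (fun q => K.g i ((A.e i).symm q) a b) z) :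
    Cn n →L[ℝ] ℂ) u).re = _
  congr 1
  rw [XX, YY, ← Finset.sum_add_distrib]
  simp only [sum_apply, smul_apply]
  refine Finset.sum_congr rfl fun a _ => ?_
  rw [← Finset.sum_add_distrib]
  refine Finset.sum_congr rfl fun b _ => ?_
  rw [← Finset.sum_add_distrib, apply_eq_sum, Fintype.sum_prod_type, Fintype.sum_bool,
    ← Finset.sum_add_distrib, Finset.smul_sum]
  refine Finset.sum_congr rfl fun c _ => ?_
  simp only [ze_apply, cj_true, cj_false, smul_eq_mul, wd]
  ring

theorem XX_I (i : A.ι) (z u v w : Cn n) :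
    XX K i z u (Complex.I • v) w = Complex.I * XX K i z u v w := by
  unfold XX
  simp only [Finset.mul_sum]
  refine Finset.sum_congr rfl fun a _ => Finset.sum_congr rfl fun b _ =>
    Finset.sum_congr rfl fun c _ => ?_
  show _ * (u c * ((Complex.I * v a) * conj (w b))) = _
  ring

theorem YY_I (i : A.ι) (z u v w : Cn n) :
    YY K i z u (Complex.I • v) w = Complex.I * YY K i z u v w := by
  unfold YY
  simp only [Finset.mul_sum]
  refine Finset.sum_congr rfl fun a _ => Finset.sum_congr rfl fun b _ =>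
    Finset.sum_congr rfl fun c _ => ?_
  show _ * (conj (u c) * ((Complex.I * v a) * conj (w b))) = _
  ring

/-- the Kaehler form is closed -/
theorem gA_closed {i : A.ι} {z : Cn n} (hz : z ∈ (A.e i).target) (u v w : Cn n) :
    fderiv ℝ (fun q => gA K i q (Complex.I • v) w) z u
      - fderiv ℝ (fun q => gA K i q (Complex.I • u) w) z v
      + fderiv ℝ (fun q => gA K i q (Complex.I • u) v) z w = 0 := by
  rw [gA_deriv K hz, gA_deriv K hz, gA_deriv K hz, XX_I, YY_I, XX_I, YY_I, XX_I, YY_I]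
  have e1 := XX_symm K hz u v w
  have e2 := YY_symm K hz v u w
  have e3 := YY_conj K hz u v w
  have e4 := XX_symm K hz u w v
  rw [e4] at e3
  have h : (Complex.I * XX K i z u v w + Complex.I * YY K i z u v w)
      - (Complex.I * XX K i z v u w + Complex.I * YY K i z v u w)
      + (Complex.I * XX K i z w u v + Complex.I * YY K i z w u v)
      = Complex.I * (YY K i z u v w + conj (YY K i z u v w)) := by
    rw [e1, e2, e3]
    ring
  have h2 := congrArg Complex.re h
  rw [Complex.add_re, Complex.sub_re] at h2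
  rw [h2, Complex.add_conj]
  simp

theorem gA_symm {i : A.ι} {z : Cn n} (hz : z ∈ (A.e i).target) (u v : Cn n) :
    gA K i z u v = gA K i z v u := rb_symm (K_herm K hz) u v

theorem gA_herm (i : A.ι) (z : Cn n) (u v : Cn n) :
    gA K i z (Complex.I • u) (Complex.I • v) = gA K i z u v := rb_herm _ u v

theorem gA_pos {i : A.ι} {z : Cn n} (hz : z ∈ (A.e i).target) {u : Cn n} (hu : u ≠ 0) :
    0 < gA K i z u u := rb_pos (K.pos i _ ((A.e i).map_target hz)) hu

/-- change of charts -/
theorem gA_tr {i j : A.ι} {z : Cn n} (hz : z ∈ A.ov i j) (u v : Cn n) :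
    gA K j (A.e j ((A.e i).symm z)) (fderiv ℂ (fun w => A.e j ((A.e i).symm w)) z u)
      (fderiv ℂ (fun w => A.e j ((A.e i).symm w)) z v) = gA K i z u v := by
  have hx : (A.e i).symm z ∈ (A.e i).source ∩ (A.e j).source := ⟨(A.e i).map_target hz.1, hz.2⟩
  have h1 := K.tr i j _ hx
  have h2 : Jm A i j ((A.e i).symm z) = mt (fderiv ℂ (fun w => A.e j ((A.e i).symm w)) z) := by
    rw [Jm_eq, (A.e i).right_inv hz.1]
  show (hb (K.g j ((A.e j).symm (A.e j ((A.e i).symm z)))) _ _).re =
    (hb (K.g i ((A.e i).symm z)) u v).re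
  rw [h1, hb_tr, (A.e j).left_inv hz.2, h2, toC_mt, toC_mt]

/-! ### the metric of the product-foliated atlas -/

variable {S : Spl A} {r s : ℕ}

/-- the coefficients in a product chart -/
def gP (c : PC S r s) (p : EV r × EV s) : (EV r × EV s) →L[ℝ] (EV r × EV s) →L[ℝ] ℝ :=
  pb (gA K c.i (c.χ.symm p)) (fderiv ℂ c.χ.symm p)

theorem gP_apply (c : PC S r s) (p u v : EV r × EV s) :
    gP K c p u v = gA K c.i (c.χ.symm p) (fderiv ℂ c.χ.symm p u) (fderiv ℂ c.χ.symm p v) := rfl

theorem gP_smooth (c : PC S r s) {p : EV r × EV s} (hp : p ∈ c.χ.target) :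
    ContDiffAt ℝ ∞ (gP K c) p := by
  have hz : c.χ.symm p ∈ (A.e c.i).target := c.sub (c.χ.map_target hp)
  have h1 : ContDiffAt ℝ ∞ (gA K c.i) (c.χ.symm p) :=
    (gA_smooth K c.i).contDiffAt ((A.e c.i).open_target.mem_nhds hz)
  exact contDiffAt_pull_clm (gA K c.i) c.χ.symm p (c.an' p hp) h1

/-- **the Kaehler metric of the product-foliated atlas** -/
def kmet {J : Type} (c : J → PC S r s) (hcov : ∀ x, ∃ j, x ∈ (c j).ch.source ∧
      (c j).ch x ∈ ball (0 : EV r) (1 / 2) ×ˢ ball (0 : EV s) (1 / 2)) : KMet (pfol c hcov) where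
  g j p := gP K (c j) p
  smooth j := by
    intro p hp
    exact (gP_smooth K (c j) (by rw [(c j).tgt]; exact hp)).contDiffWithinAt
  symm j p hp u v := by
    have hp' : p ∈ (c j).χ.target := by rw [(c j).tgt]; exact hp
    exact gA_symm K ((c j).sub ((c j).χ.map_target hp')) _ _
  pos j p hp u hu := by
    have hp' : p ∈ (c j).χ.target := by rw [(c j).tgt]; exact hp
    refine gA_pos K ((c j).sub ((c j).χ.map_target hp')) fun h0 => hu ?_
    have h1 : fderiv ℂ (c j).χ.symm p u = 0 := h0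
    have h2 := (c j).inv2 hp' u
    rw [h1, map_zero] at h2
    exact h2.symm
  herm j p _ u v := by
    have h1 : ∀ w, fderiv ℂ (c j).χ.symm p (Complex.I • w) =
        Complex.I • fderiv ℂ (c j).χ.symm p w := fun w => map_smul _ _ _
    show gA K (c j).i ((c j).χ.symm p) (fderiv ℂ (c j).χ.symm p (Complex.I • u))
      (fderiv ℂ (c j).χ.symm p (Complex.I • v)) = _
    rw [h1, h1]
    exact gA_herm K _ _ _ _
  closed j p hp u v w := by
    have hp' : p ∈ (c j).χ.target := by rw [(c j).tgt]; exact hp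
    have hz : (c j).χ.symm p ∈ (A.e (c j).i).target := (c j).sub ((c j).χ.map_target hp')
    have h1 : ContDiffAt ℝ ∞ (gA K (c j).i) ((c j).χ.symm p) :=
      (gA_smooth K (c j).i).contDiffAt ((A.e (c j).i).open_target.mem_nhds hz)
    exact closed_pull (gA K (c j).i) (c j).χ.symm p ((c j).an' p hp')
      (h1.differentiableAt (by simp)) (herm_alt (gA_symm K hz) (gA_herm K _ _))
      (gA_closed K hz) u v w
  compat i j x hx u v := by
    have hm : (c i).ch x ∈ (c i).ch.target := (c i).ch.map_source hx.1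
    have hm' : (c i).ch.symm ((c i).ch x) ∈ (c j).ch.source := by
      rw [(c i).ch.left_inv hx.1]; exact hx.2
    have hov := (c i).ov (c j) hm hm'
    have e1 : ∀ w, fderiv ℂ (c j).χ.symm ((c j).ch x)
        (fderiv ℂ (fun p => (c j).ch ((c i).ch.symm p)) ((c i).ch x) w) =
        fderiv ℂ (fun w => A.e (c j).i ((A.e (c i).i).symm w)) ((c i).χ.symm ((c i).ch x))
          (fderiv ℂ (c i).χ.symm ((c i).ch x) w) := by
      intro w
      rw [((c i).trans_aux (c j) hm hm').2, (c i).ch.left_inv hx.1]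
      exact (c j).inv1 hx.2.2 _
    show gP K (c j) ((c j).ch x) (fderiv ℂ (fun p => (c j).ch ((c i).ch.symm p)) ((c i).ch x) u)
      (fderiv ℂ (fun p => (c j).ch ((c i).ch.symm p)) ((c i).ch x) v) = gP K (c i) ((c i).ch x) u v
    rw [gP_apply, gP_apply, e1, e1]
    have e2 : (c j).χ.symm ((c j).ch x) = A.e (c j).i ((A.e (c i).i).symm
        ((c i).χ.symm ((c i).ch x))) := by
      have e3 : (A.e (c i).i).symm ((c i).χ.symm ((c i).ch x)) = x := (c i).ch.left_inv hx.1
      rw [e3]
      exact (c j).χ.left_inv hx.2.2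
    rw [e2]
    exact gA_tr K hov _ _

end

end Crest.Agent.R273.SplA_836
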