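import Crest.Agent.R273.SplB_836
import Crest.Agent.R266.Final405
import Crest.Agent.R275.ProdAtl_363

/-!
# R273 (S0416), Part B/E, SPLITPROD (helper836), part C: the product decomposition
-/

set_option autoImplicit false
set_option linter.unusedSectionVars false

open Set Filter Topology Complex Metric
open scoped ContDiff Matrix ComplexConjugate Manifold

namespace Crest.Agent.R273.SplA_836

open Crest.Agent.R275.Geo Crest.Agent.R275.Core144 Crest.Agent.R275.GC293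
open Crest.Agent.R273.Defs_333 Crest.Agent.R273.Map_835 Crest.Agent.R273.Fam_835
open Crest.Agent.R273.Kah_333
open Crest.Agent.R266 (EV PFol KMet ProdStr)
open Crest.Agent.R275.Prod363

noncomputable section

variable {n : ℕ} {M : Type} [TopologicalSpace M] {A : Atl n M}

/-! ### the family of charts of a complex manifold -/

/-- the family of the preferred charts -/
def famOf (k : ℕ) (Y : Type) [TopologicalSpace Y] [ChartedSpace (EV k) Y]
    [IsManifold 𝓘(ℂ, EV k) ω Y] : Fam k Y where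
  ι := Y
  e y := chartAt (EV k) y
  cover y := ⟨y, mem_chart_source _ y⟩
  holo y y' := by
    have h0 : ContMDiffOn 𝓘(ℂ, EV k) 𝓘(ℂ, EV k) ω (chartAt (EV k) y).symm
        {z | z ∈ (chartAt (EV k) y).target ∧
          (chartAt (EV k) y).symm z ∈ (chartAt (EV k) y').source} := by
      refine ContMDiffOn.mono (contMDiffOn_chart_symm (I := 𝓘(ℂ, EV k)) (n := ω) (x := y)) ?_
      intro z hz
      exact hz.1
    have h1 : ContMDiffOn 𝓘(ℂ, EV k) 𝓘(ℂ, EV k) ω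
        (fun z => chartAt (EV k) y' ((chartAt (EV k) y).symm z))
        {z | z ∈ (chartAt (EV k) y).target ∧
          (chartAt (EV k) y).symm z ∈ (chartAt (EV k) y').source} := by
      refine ContMDiffOn.comp (contMDiffOn_chart (I := 𝓘(ℂ, EV k)) (n := ω) (x := y')) h0 ?_
      intro z hz
      exact hz.2
    rw [contMDiffOn_iff_contDiffOn] at h1
    exact h1.differentiableOn (by simp)

section mfd

variable {k : ℕ} {Y : Type} [TopologicalSpace Y] [ChartedSpace (EV k) Y]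
    [IsManifold 𝓘(ℂ, EV k) ω Y] {E : Type*} [NormedAddCommGroup E] [NormedSpace ℂ E]

/-- analytic maps into the manifold, read in the charts of a compatible family -/
theorem diffAt_of_mfd {B : Fam k Y} (hB : HolC (famOf k Y) B id) {f : E → Y} {z : E}
    (hf : ContMDiffAt 𝓘(ℂ, E) 𝓘(ℂ, EV k) ω f z) {j : B.ι} (hj : f z ∈ (B.e j).source) :
    DifferentiableAt ℂ (fun w => B.e j (f w)) z := by
  have h1 : DifferentiableAt ℂ (fun w => chartAt (EV k) (f z) (f w)) z := by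
    have h2 : ContMDiffAt 𝓘(ℂ, EV k) 𝓘(ℂ, EV k) ω (chartAt (EV k) (f z)) (f z) :=
      (contMDiffOn_chart (I := 𝓘(ℂ, EV k)) (n := ω) (x := f z) _
        (mem_chart_source _ _)).contMDiffAt
        ((chartAt (EV k) (f z)).open_source.mem_nhds (mem_chart_source _ _))
    have h3 : ContMDiffAt 𝓘(ℂ, E) 𝓘(ℂ, EV k) ω (fun w => chartAt (EV k) (f z) (f w)) z :=
      h2.comp z hf
    exact h3.contDiffAt.differentiableAt (by simp)
  have h4 : DifferentiableAt ℂ (fun w => B.e j ((chartAt (EV k) (f z)).symm w))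
      (chartAt (EV k) (f z) (f z)) := by
    refine hB.diffAt (i := f z) (j := j) (mem_chart_target (EV k) (f z)) ?_
    show id ((chartAt (EV k) (f z)).symm (chartAt (EV k) (f z) (f z))) ∈ _
    rw [(chartAt (EV k) (f z)).left_inv (mem_chart_source _ _)]
    exact hj
  have h5 : DifferentiableAt ℂ (fun w => B.e j ((chartAt (EV k) (f z)).symm
      (chartAt (EV k) (f z) (f w)))) z := DifferentiableAt.comp z
    (g := fun w => B.e j ((chartAt (EV k) (f z)).symm w)) h4 h1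
  refine h5.congr_of_eventuallyEq ?_
  filter_upwards [hf.continuousAt ((chartAt (EV k) (f z)).open_source.mem_nhds
    (mem_chart_source _ _))] with w hw
  have hw' : f w ∈ (chartAt (EV k) (f z)).source := hw
  rw [(chartAt (EV k) (f z)).left_inv hw']

/-- analytic maps from the manifold -/
theorem diffAt_of_mfd' {B : Fam k Y} (hB : HolC B (famOf k Y) id) {f : Y → E} {y : Y}
    (hf : ContMDiffAt 𝓘(ℂ, EV k) 𝓘(ℂ, E) ω f y) {j : B.ι} (hj : y ∈ (B.e j).source) :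
    DifferentiableAt ℂ (fun w => f ((B.e j).symm w)) (B.e j y) := by
  have h2 : ContMDiffAt 𝓘(ℂ, EV k) 𝓘(ℂ, EV k) ω (chartAt (EV k) y).symm (chartAt (EV k) y y) :=
    (contMDiffOn_chart_symm (I := 𝓘(ℂ, EV k)) (n := ω) (x := y) _
      (mem_chart_target _ _)).contMDiffAt
      ((chartAt (EV k) y).open_target.mem_nhds (mem_chart_target _ _))
  have h1 : DifferentiableAt ℂ (fun w => f ((chartAt (EV k) y).symm w)) (chartAt (EV k) y y) := by
    have hf' : ContMDiffAt 𝓘(ℂ, EV k) 𝓘(ℂ, E) ω f ((chartAt (EV k) y).symm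
        (chartAt (EV k) y y)) := by
      rwa [(chartAt (EV k) y).left_inv (mem_chart_source _ _)]
    have h3 : ContMDiffAt 𝓘(ℂ, EV k) 𝓘(ℂ, E) ω (fun w => f ((chartAt (EV k) y).symm w))
      (chartAt (EV k) y y) := hf'.comp _ h2
    exact h3.contDiffAt.differentiableAt (by simp)
  have h4 : DifferentiableAt ℂ (fun w => chartAt (EV k) y ((B.e j).symm w)) (B.e j y) := by
    refine hB.diffAt (i := j) (j := y) ((B.e j).map_source hj) ?_
    show id ((B.e j).symm (B.e j y)) ∈ _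
    rw [(B.e j).left_inv hj]
    exact mem_chart_source _ _
  have h5 : DifferentiableAt ℂ (fun w => f ((chartAt (EV k) y).symm
      (chartAt (EV k) y ((B.e j).symm w)))) (B.e j y) := by
    refine DifferentiableAt.comp (B.e j y) (g := fun w => f ((chartAt (EV k) y).symm w)) ?_ h4
    rw [(B.e j).left_inv hj]
    exact h1
  refine h5.congr_of_eventuallyEq ?_
  have hc : ContinuousAt (B.e j).symm (B.e j y) :=
    (B.e j).continuousAt_symm ((B.e j).map_source hj)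
  have hn : (chartAt (EV k) y).source ∈ 𝓝 ((B.e j).symm (B.e j y)) := by
    rw [(B.e j).left_inv hj]
    exact (chartAt (EV k) y).open_source.mem_nhds (mem_chart_source _ _)
  filter_upwards [hc hn] with w hw
  have hw' : (B.e j).symm w ∈ (chartAt (EV k) y).source := hw
  rw [(chartAt (EV k) y).left_inv hw']

end mfd

/-! ### the decomposition -/

section main

variable {S : Spl A} {r s : ℕ}

theorem pfol_ch {J : Type} (c : J → PC S r s) (hcov : ∀ x, ∃ j, x ∈ (c j).ch.source ∧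
      (c j).ch x ∈ ball (0 : EV r) (1 / 2) ×ˢ ball (0 : EV s) (1 / 2)) (j : J) :
    (pfol c hcov).ch j = (c j).ch := rfl

variable {J : Type} {c : J → PC S r s} {hcov : ∀ x, ∃ j, x ∈ (c j).ch.source ∧
      (c j).ch x ∈ ball (0 : EV r) (1 / 2) ×ˢ ball (0 : EV s) (1 / 2)}
  {Y₁ Y₂ : Type} [TopologicalSpace Y₁] [ChartedSpace (EV r) Y₁] [IsManifold 𝓘(ℂ, EV r) ω Y₁]
  [TopologicalSpace Y₂] [ChartedSpace (EV s) Y₂] [IsManifold 𝓘(ℂ, EV s) ω Y₂]
  {Φ : M → Y₁ × Y₂} {Ψ : Y₁ × Y₂ → M}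

theorem prodStr_cont (P : ProdStr (pfol c hcov) Y₁ Y₂ Φ Ψ) : Continuous Φ := by
  rw [continuous_iff_continuousAt]
  intro x
  obtain ⟨j, hj, -⟩ := hcov x
  obtain ⟨φ, ψ, hφ, hψ, hev⟩ := P.loc x j hj
  have h1 : ContinuousAt (c j).ch x := (c j).ch.continuousAt hj
  have h2 : ContinuousAt (fun p => φ ((c j).ch p).1) x :=
    ContinuousAt.comp (g := φ) (f := fun p => ((c j).ch p).1) hφ.continuousAt
      (continuousAt_fst.comp h1)
  have h3 : ContinuousAt (fun p => ψ ((c j).ch p).2) x :=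
    ContinuousAt.comp (g := ψ) (f := fun p => ((c j).ch p).2) hψ.continuousAt
      (continuousAt_snd.comp h1)
  have h4 : ContinuousAt (fun p => (φ ((c j).ch p).1, ψ ((c j).ch p).2)) x := h2.prodMk h3
  exact h4.congr (hev.mono fun p hp => hp.symm)

theorem prodStr_cont' (P : ProdStr (pfol c hcov) Y₁ Y₂ Φ Ψ) : Continuous Ψ := by
  rw [continuous_iff_continuousAt]
  intro q
  obtain ⟨j, hj, -⟩ := hcov (Ψ q)
  obtain ⟨φ, ψ, hφ, hψ, hev⟩ := P.loc' q j hj
  have h2 : ContinuousAt (fun q : Y₁ × Y₂ => φ q.1) q :=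
    ContinuousAt.comp (g := φ) (f := fun q : Y₁ × Y₂ => q.1) hφ.continuousAt continuousAt_fst
  have h3 : ContinuousAt (fun q : Y₁ × Y₂ => ψ q.2) q :=
    ContinuousAt.comp (g := ψ) (f := fun q : Y₁ × Y₂ => q.2) hψ.continuousAt continuousAt_snd
  have h4 : ContinuousAt (fun q : Y₁ × Y₂ => (φ q.1, ψ q.2)) q := h2.prodMk h3
  have h5 : (φ q.1, ψ q.2) = (c j).ch (Ψ q) := hev.self_of_nhds.2.symm
  have h6 : ContinuousAt (c j).ch.symm (φ q.1, ψ q.2) := by
    rw [h5]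
    exact (c j).ch.continuousAt_symm ((c j).ch.map_source hj)
  have h7 : ContinuousAt (fun q : Y₁ × Y₂ => (c j).ch.symm (φ q.1, ψ q.2)) q :=
    ContinuousAt.comp (g := (c j).ch.symm) (f := fun q : Y₁ × Y₂ => (φ q.1, ψ q.2)) h6 h4
  refine h7.congr (hev.mono fun p hp => ?_)
  have h8 : (c j).ch (Ψ p) = (φ p.1, ψ p.2) := hp.2
  show (c j).ch.symm (φ p.1, ψ p.2) = Ψ p
  rw [← h8, (c j).ch.left_inv hp.1]

theorem prodStr_hol (P : ProdStr (pfol c hcov) Y₁ Y₂ Φ Ψ) {B₁ : Atl r Y₁} {B₂ : Atl s Y₂}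
    (h₁ : HolC (famOf r Y₁) (fam B₁) id) (h₂ : HolC (famOf s Y₂) (fam B₂) id) :
    HolMap A (B₁.prod B₂) Φ := by
  refine holC_iff.1 (holC_of_local (prodStr_cont P) fun x => ?_)
  obtain ⟨j, hj, -⟩ := hcov x
  obtain ⟨j₁, hj₁⟩ := B₁.cover (Φ x).1
  obtain ⟨j₂, hj₂⟩ := B₂.cover (Φ x).2
  refine ⟨(c j).i, (j₁, j₂), hj.1, ⟨hj₁, hj₂⟩, ?_⟩
  obtain ⟨φ, ψ, hφ, hψ, hev⟩ := P.loc x j hj
  have hx : Φ x = (φ ((c j).ch x).1, ψ ((c j).ch x).2) := hev.self_of_nhds
  have hz : A.e (c j).i x ∈ (c j).χ.source := hj.2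
  have hχ : DifferentiableAt ℂ (c j).χ (A.e (c j).i x) := ((c j).an _ hz).differentiableAt
  have e1 : DifferentiableAt ℂ (fun w => B₁.e j₁ (φ w)) ((c j).χ (A.e (c j).i x)).1 :=
    diffAt_of_mfd (B := fam B₁) h₁ hφ (j := j₁) (by
      have : φ ((c j).ch x).1 = (Φ x).1 := by rw [hx]
      show φ ((c j).ch x).1 ∈ _
      rw [this]
      exact hj₁)
  have e2 : DifferentiableAt ℂ (fun w => B₂.e j₂ (ψ w)) ((c j).χ (A.e (c j).i x)).2 :=
    diffAt_of_mfd (B := fam B₂) h₂ hψ (j := j₂) (by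
      have : ψ ((c j).ch x).2 = (Φ x).2 := by rw [hx]
      show ψ ((c j).ch x).2 ∈ _
      rw [this]
      exact hj₂)
  have e3 : DifferentiableAt ℂ (fun z => B₁.e j₁ (φ ((c j).χ z).1)) (A.e (c j).i x) :=
    DifferentiableAt.comp (A.e (c j).i x) (g := fun w => B₁.e j₁ (φ w))
      (f := fun z => ((c j).χ z).1) e1 hχ.fst
  have e4 : DifferentiableAt ℂ (fun z => B₂.e j₂ (ψ ((c j).χ z).2)) (A.e (c j).i x) :=
    DifferentiableAt.comp (A.e (c j).i x) (g := fun w => B₂.e j₂ (ψ w))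
      (f := fun z => ((c j).χ z).2) e2 hχ.snd
  have e5 : DifferentiableAt ℂ (fun z => appL r s (B₁.e j₁ (φ ((c j).χ z).1),
      B₂.e j₂ (ψ ((c j).χ z).2))) (A.e (c j).i x) :=
    (appL r s).differentiableAt.comp _ (e3.prodMk e4)
  refine e5.congr_of_eventuallyEq ?_
  have hc : ContinuousAt (A.e (c j).i).symm (A.e (c j).i x) :=
    (A.e (c j).i).continuousAt_symm ((A.e (c j).i).map_source hj.1)
  have hc' : Tendsto (A.e (c j).i).symm (𝓝 (A.e (c j).i x)) (𝓝 x) := by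
    have := hc.tendsto
    rwa [(A.e (c j).i).left_inv hj.1] at this
  filter_upwards [hc'.eventually hev, (A.e (c j).i).open_target.mem_nhds
    ((A.e (c j).i).map_source hj.1)] with z hz1 hz2
  have hz3 : (c j).ch ((A.e (c j).i).symm z) = (c j).χ z := by
    rw [PC.ch_apply, (A.e (c j).i).right_inv hz2]
  have hz4 : Φ ((A.e (c j).i).symm z) = (φ ((c j).χ z).1, ψ ((c j).χ z).2) := by
    rw [← hz3]; exact hz1
  show (B₁.prod B₂).e (j₁, j₂) (Φ ((A.e (c j).i).symm z)) = _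
  rw [hz4]
  rfl

theorem prodStr_hol' (P : ProdStr (pfol c hcov) Y₁ Y₂ Φ Ψ) {B₁ : Atl r Y₁} {B₂ : Atl s Y₂}
    (h₁ : HolC (fam B₁) (famOf r Y₁) id) (h₂ : HolC (fam B₂) (famOf s Y₂) id) :
    HolMap (B₁.prod B₂) A Ψ := by
  refine holC_iff.1 (holC_of_local (prodStr_cont' P) fun q => ?_)
  obtain ⟨j, hj, -⟩ := hcov (Ψ q)
  obtain ⟨j₁, hj₁⟩ := B₁.cover q.1
  obtain ⟨j₂, hj₂⟩ := B₂.cover q.2
  refine ⟨(j₁, j₂), (c j).i, ⟨hj₁, hj₂⟩, hj.1, ?_⟩
  obtain ⟨φ, ψ, hφ, hψ, hev⟩ := P.loc' q j hj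
  have hq : (c j).ch (Ψ q) = (φ q.1, ψ q.2) := hev.self_of_nhds.2
  have hz : A.e (c j).i (Ψ q) ∈ (c j).χ.source := hj.2
  have e1 : DifferentiableAt ℂ (fun w => φ ((B₁.e j₁).symm w)) (B₁.e j₁ q.1) :=
    diffAt_of_mfd' (B := fam B₁) h₁ hφ (j := j₁) hj₁
  have e2 : DifferentiableAt ℂ (fun w => ψ ((B₂.e j₂).symm w)) (B₂.e j₂ q.2) :=
    diffAt_of_mfd' (B := fam B₂) h₂ hψ (j := j₂) hj₂
  have hfst : fstL r s ((B₁.prod B₂).e (j₁, j₂) q) = B₁.e j₁ q.1 := fstL_app _ _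
  have hsnd : sndL r s ((B₁.prod B₂).e (j₁, j₂) q) = B₂.e j₂ q.2 := sndL_app _ _
  have e3 : DifferentiableAt ℂ (fun z => φ ((B₁.e j₁).symm (fstL r s z)))
      ((B₁.prod B₂).e (j₁, j₂) q) := by
    refine DifferentiableAt.comp _ (g := fun w => φ ((B₁.e j₁).symm w)) ?_
      (fstL r s).differentiableAt
    rw [hfst]
    exact e1
  have e4 : DifferentiableAt ℂ (fun z => ψ ((B₂.e j₂).symm (sndL r s z)))
      ((B₁.prod B₂).e (j₁, j₂) q) := by
    refine DifferentiableAt.comp _ (g := fun w => ψ ((B₂.e j₂).symm w)) ?_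
      (sndL r s).differentiableAt
    rw [hsnd]
    exact e2
  have hval : (φ ((B₁.e j₁).symm (fstL r s ((B₁.prod B₂).e (j₁, j₂) q))),
      ψ ((B₂.e j₂).symm (sndL r s ((B₁.prod B₂).e (j₁, j₂) q)))) = (c j).χ (A.e (c j).i (Ψ q)) := by
    rw [hfst, hsnd, (B₁.e j₁).left_inv hj₁, (B₂.e j₂).left_inv hj₂, ← hq]
    rfl
  have e5 : DifferentiableAt ℂ (fun z => (c j).χ.symm (φ ((B₁.e j₁).symm (fstL r s z)),
      ψ ((B₂.e j₂).symm (sndL r s z)))) ((B₁.prod B₂).e (j₁, j₂) q) := by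
    refine DifferentiableAt.comp _ (g := (c j).χ.symm)
      (f := fun z => (φ ((B₁.e j₁).symm (fstL r s z)), ψ ((B₂.e j₂).symm (sndL r s z)))) ?_
      (e3.prodMk e4)
    rw [hval]
    exact ((c j).an' _ ((c j).χ.map_source hz)).differentiableAt
  refine e5.congr_of_eventuallyEq ?_
  have hs : q ∈ ((B₁.prod B₂).e (j₁, j₂)).source := ⟨hj₁, hj₂⟩
  have hc' : Tendsto ((B₁.prod B₂).e (j₁, j₂)).symm (𝓝 ((B₁.prod B₂).e (j₁, j₂) q)) (𝓝 q) := by
    have := (((B₁.prod B₂).e (j₁, j₂)).continuousAt_symm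
      (((B₁.prod B₂).e (j₁, j₂)).map_source hs)).tendsto
    rwa [((B₁.prod B₂).e (j₁, j₂)).left_inv hs] at this
  filter_upwards [hc'.eventually hev] with z hz1
  have hz2 : (c j).ch (Ψ (((B₁.prod B₂).e (j₁, j₂)).symm z)) =
    (φ ((B₁.e j₁).symm (fstL r s z)), ψ ((B₂.e j₂).symm (sndL r s z))) := hz1.2
  have hz3 : Ψ (((B₁.prod B₂).e (j₁, j₂)).symm z) ∈ (c j).ch.source := hz1.1
  show A.e (c j).i (Ψ (((B₁.prod B₂).e (j₁, j₂)).symm z)) = _
  rw [← hz2]
  exact ((c j).χ.left_inv hz3.2).symm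

end main

/-- **SPLITPROD** -/
theorem splitprod [T2Space M] [CompactSpace M] [SimplyConnectedSpace M] (K : Kah A) (S : Spl A)
    {r : ℕ} (hr : S.IsRk r) :
    ∃ (Y₁ Y₂ : Type) (_ : TopologicalSpace Y₁) (_ : TopologicalSpace Y₂) (B₁ : Atl r Y₁)
      (B₂ : Atl (n - r) Y₂) (Φ : M ≃ₜ Y₁ × Y₂),
      (CompactSpace Y₁ ∧ T2Space Y₁ ∧ SimplyConnectedSpace Y₁ ∧ Finite B₁.ι ∧ GoodA B₁ ∧
        Nonempty (Part B₁)) ∧
      (CompactSpace Y₂ ∧ T2Space Y₂ ∧ SimplyConnectedSpace Y₂ ∧ Finite B₂.ι ∧ GoodA B₂ ∧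
        Nonempty (Part B₂)) ∧
      HolMap A (B₁.prod B₂) Φ ∧ HolMap (B₁.prod B₂) A Φ.symm := by
  obtain ⟨J, hJ, c, hcov⟩ := exists_family hr
  have _ : Finite (pfol c hcov).ι := hJ
  have hC : Crest.Agent.R266.Completeness (pfol c hcov) :=
    Crest.Agent.R266.completeness_core (kmet K c hcov)
  have _ : LocallyPathConnectedSpace M := by
    let _ := (fam A).cs
    exact ChartedSpace.locallyPathConnectedSpace (Cn n) M
  obtain ⟨Y₁, Y₂, _, _, _, _, _, _, hc₁, hc₂, hs₁, hs₂, Φ, Ψ, P⟩ :=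
    Crest.Agent.R266.global_product (pfol c hcov) hC
  let F : M ≃ₜ Y₁ × Y₂ :=
    { toFun := Φ
      invFun := Ψ
      left_inv := P.left
      right_inv := P.right
      continuous_toFun := prodStr_cont P
      continuous_invFun := prodStr_cont' P }
  have hT : T2Space (Y₁ × Y₂) := F.t2Space
  have hK : CompactSpace (Y₁ × Y₂) := F.compactSpace
  obtain ⟨y₁⟩ : Nonempty Y₁ := inferInstance
  obtain ⟨y₂⟩ : Nonempty Y₂ := inferInstance
  have hT₁ : T2Space Y₁ := T2Space.of_injective_continuous (f := fun y => (y, y₂))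
    (fun a b h => congrArg Prod.fst h) (by fun_prop)
  have hT₂ : T2Space Y₂ := T2Space.of_injective_continuous (f := fun y => (y₁, y))
    (fun a b h => congrArg Prod.snd h) (by fun_prop)
  have hK₁ : CompactSpace Y₁ := by
    have h1 := isCompact_range (continuous_fst (X := Y₁) (Y := Y₂))
    rw [Set.range_eq_univ.2 (fun y => ⟨(y, y₂), rfl⟩)] at h1
    exact ⟨h1⟩
  have hK₂ : CompactSpace Y₂ := by
    have h1 := isCompact_range (continuous_snd (X := Y₁) (Y := Y₂))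
    rw [Set.range_eq_univ.2 (fun y => ⟨(y₁, y), rfl⟩)] at h1
    exact ⟨h1⟩
  obtain ⟨B₁, a1, a2, a3, -, a5, a6⟩ := (famOf r Y₁).exists_atl (fun _ : Unit => univ)
    (fun _ => isOpen_univ) (fun x => ⟨(), mem_univ x⟩)
  obtain ⟨B₂, b1, b2, b3, -, b5, b6⟩ := (famOf (n - r) Y₂).exists_atl (fun _ : Unit => univ)
    (fun _ => isOpen_univ) (fun x => ⟨(), mem_univ x⟩)
  exact ⟨Y₁, Y₂, inferInstance, inferInstance, B₁, B₂, F, ⟨hK₁, hT₁, hs₁, a1, a2, a3⟩,
    ⟨hK₂, hT₂, hs₂, b1, b2, b3⟩, prodStr_hol P a6 b6, prodStr_hol' P a5 b5⟩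

end

end Crest.Agent.R273.SplA_836
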