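import Crest.Agent.R273.SplC_836
import Crest.Agent.R273.Prd_835

/-!
# R273 (S0416), Part B, SPLITPROD (helper836), part D: the decomposition with its tangent spaces

`Dec S r s` : a decomposition `Φ : M ≃ₜ Y₁ × Y₂` (biholomorphic) of a compact manifold adapted to the
splitting `S`: the kernel of `d(pr₁ ∘ Φ)` is the kernel of the projection, the kernel of
`d(pr₂ ∘ Φ)` is its image.
`exists_dec` : existence on compact simply connected Kaehler manifolds.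
`main_split` : the induction step for `MainN`.
-/

set_option autoImplicit false
set_option linter.unusedSectionVars false

open Set Filter Topology Complex Metric
open scoped ContDiff Matrix ComplexConjugate Manifold

namespace Crest.Agent.R273.SplA_836

open Crest.Agent.R275.Geo Crest.Agent.R275.Core144 Crest.Agent.R275.GC293
open Crest.Agent.R273.Defs_333 Crest.Agent.R273.Map_835 Crest.Agent.R273.Fam_835
open Crest.Agent.R273.Prd_835 Crest.Agent.R273.PB_835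
open Crest.Agent.R273.Kah_333
open Crest.Agent.R266 (EV PFol KMet ProdStr)
open Crest.Agent.R275.Prod363

noncomputable section

variable {n : ℕ} {M : Type} [TopologicalSpace M] {A : Atl n M}

/-- the derivative of a holomorphic map, read in charts -/
def dr {m : ℕ} {N : Type} [TopologicalSpace N] (A : Atl n M) (B : Atl m N) (p : M → N) (i : A.ι)
    (j : B.ι) (x : M) : Cn n →L[ℂ] Cn m := fderiv ℂ (rd A B p i j) (A.e i x)

theorem Jp_eq_dr {m : ℕ} {N : Type} [TopologicalSpace N] (A : Atl n M) (B : Atl m N) (p : M → N)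
    (i : A.ι) (j : B.ι) (x : M) : Jp A B p i j x = mt (dr A B p i j x) := rfl

/-- change of the source chart -/
theorem dr_left {m : ℕ} {N : Type} [TopologicalSpace N] {B : Atl m N} {p : M → N}
    (h : HolMap A B p) {i i' : A.ι} {j : B.ι} {x : M} (hx : x ∈ (A.e i).source)
    (hx' : x ∈ (A.e i').source) (hj : p x ∈ (B.e j).source) (v : Cn n) :
    dr A B p i j x v = dr A B p i' j x (toC (Jm A i i' x) v) := by
  have h1 := Jp_comp h (holMap_id A) (x := x) (i := i) (j := i') (l := j) hx hx' hj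
  have h2 : (fun x => p (id x)) = p := rfl
  rw [h2] at h1
  have h3 : Jp A A id i i' x = Jm A i i' x := rfl
  rw [h3] at h1
  have h4 : Jp A B p i j x = mt ((dr A B p i' j x).comp (toC (Jm A i i' x))) := by
    rw [mt_comp]
    have h5 : mt (toC (Jm A i i' x)) = Jm A i i' x := by
      ext b a
      have h6 := toC_apply (Jm A i i' x) (EuclideanSpace.single a 1) b
      show (toC (Jm A i i' x) (EuclideanSpace.single a 1)) b = _
      rw [h6]
      simp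
    rw [h5]
    exact h1.symm
  have h7 := mt_injective (T := dr A B p i j x) h4
  rw [h7]
  rfl

/-- change of the target chart: the kernel does not change -/
theorem dr_right {m : ℕ} {N : Type} [TopologicalSpace N] {B : Atl m N} {p : M → N}
    (h : HolMap A B p) {i : A.ι} {j j' : B.ι} {x : M} (hx : x ∈ (A.e i).source)
    (hj : p x ∈ (B.e j).source) (hj' : p x ∈ (B.e j').source) (v : Cn n)
    (h0 : dr A B p i j x v = 0) : dr A B p i j' x v = 0 := by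
  have h1 := Jp_comp (holMap_id B) h (x := x) (i := i) (j := j) (l := j') hx hj hj'
  have h2 : (fun x => id (p x)) = p := rfl
  rw [h2, Jp_eq_dr, Jp_eq_dr] at h1
  have h4 : mt (dr A B p i j' x) = mt ((fderiv ℂ (rd B B id j j') (B.e j (p x))).comp
      (dr A B p i j x)) := by
    rw [mt_comp]
    exact h1.symm
  have h7 := mt_injective h4
  rw [h7]
  show fderiv ℂ (rd B B id j j') (B.e j (p x)) (dr A B p i j x v) = 0
  rw [h0, map_zero]

section tangent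

variable {S : Spl A} {r s : ℕ} {J : Type} {c : J → PC S r s}
  {hcov : ∀ x, ∃ j, x ∈ (c j).ch.source ∧
      (c j).ch x ∈ ball (0 : EV r) (1 / 2) ×ˢ ball (0 : EV s) (1 / 2)}
  {Y₁ Y₂ : Type} [TopologicalSpace Y₁] [ChartedSpace (EV r) Y₁] [IsManifold 𝓘(ℂ, EV r) ω Y₁]
  [TopologicalSpace Y₂] [ChartedSpace (EV s) Y₂] [IsManifold 𝓘(ℂ, EV s) ω Y₂]
  {Φ : M → Y₁ × Y₂} {Ψ : Y₁ × Y₂ → M}

/-- compatibility of the projection with a change of charts, at a point -/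
theorem P_tr (S : Spl A) {i i' : A.ι} {x : M} (hx : x ∈ (A.e i).source)
    (hx' : x ∈ (A.e i').source) (v : Cn n) :
    toC (S.P i' x) (toC (Jm A i i' x) v) = toC (Jm A i i' x) (toC (S.P i x) v) := by
  rw [← toC_mul, ← toC_mul, S.tr i i' x ⟨hx, hx'⟩]

theorem tan_aux₂ (P : ProdStr (pfol c hcov) Y₁ Y₂ Φ Ψ) {B₁ : Atl r Y₁} {B₂ : Atl s Y₂}
    (h₁ : HolC (famOf r Y₁) (fam B₁) id) (h₂ : HolC (famOf s Y₂) (fam B₂) id)
    {i : A.ι} {j₂ : B₂.ι} {x : M} (hx : x ∈ (A.e i).source) (hj₂ : (Φ x).2 ∈ (B₂.e j₂).source)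
    {v : Cn n} (hv : toC (S.P i x) v = v) :
    dr A B₂ (fun x => (Φ x).2) i j₂ x v = 0 := by
  have hΦ := prodStr_hol P h₁ h₂
  have hp : HolMap A B₂ (fun x => (Φ x).2) := holMap_snd.comp hΦ
  obtain ⟨j, hj, -⟩ := hcov x
  rw [dr_left hp hx hj.1 hj₂]
  set w := toC (Jm A i (c j).i x) v with hw
  have hPw : toC (S.P (c j).i x) w = w := by rw [hw, P_tr S hx hj.1, hv]
  obtain ⟨φ, ψ, hφ, hψ, hev⟩ := P.loc x j hj
  have hx2 : Φ x = (φ ((c j).ch x).1, ψ ((c j).ch x).2) := hev.self_of_nhds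
  have hz : A.e (c j).i x ∈ (c j).χ.source := hj.2
  have hχ : DifferentiableAt ℂ (c j).χ (A.e (c j).i x) := ((c j).an _ hz).differentiableAt
  have e2 : DifferentiableAt ℂ (fun w => B₂.e j₂ (ψ w)) ((c j).χ (A.e (c j).i x)).2 :=
    diffAt_of_mfd (B := fam B₂) h₂ hψ (j := j₂) (by
      have : ψ ((c j).ch x).2 = (Φ x).2 := by rw [hx2]
      show ψ ((c j).ch x).2 ∈ _
      rw [this]
      exact hj₂)
  have e4 : HasFDerivAt (fun z => B₂.e j₂ (ψ ((c j).χ z).2))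
      ((fderiv ℂ (fun w => B₂.e j₂ (ψ w)) ((c j).χ (A.e (c j).i x)).2).comp
        ((ContinuousLinearMap.snd ℂ (EV r) (EV s)).comp (fderiv ℂ (c j).χ (A.e (c j).i x))))
      (A.e (c j).i x) :=
    HasFDerivAt.comp (A.e (c j).i x) (g := fun w => B₂.e j₂ (ψ w))
      (f := fun z => ((c j).χ z).2) e2.hasFDerivAt hχ.hasFDerivAt.snd
  have hc' : Tendsto (A.e (c j).i).symm (𝓝 (A.e (c j).i x)) (𝓝 x) := by
    have := ((A.e (c j).i).continuousAt_symm ((A.e (c j).i).map_source hj.1)).tendsto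
    rwa [(A.e (c j).i).left_inv hj.1] at this
  have heq : rd A B₂ (fun x => (Φ x).2) (c j).i j₂ =ᶠ[𝓝 (A.e (c j).i x)]
      fun z => B₂.e j₂ (ψ ((c j).χ z).2) := by
    filter_upwards [hc'.eventually hev, (A.e (c j).i).open_target.mem_nhds
      ((A.e (c j).i).map_source hj.1)] with z hz1 hz2
    have hz3 : (c j).ch ((A.e (c j).i).symm z) = (c j).χ z := by
      rw [PC.ch_apply, (A.e (c j).i).right_inv hz2]
    have hz4 : Φ ((A.e (c j).i).symm z) = (φ ((c j).χ z).1, ψ ((c j).χ z).2) := by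
      rw [← hz3]; exact hz1
    show B₂.e j₂ (Φ ((A.e (c j).i).symm z)).2 = _
    rw [hz4]
  have e5 : dr A B₂ (fun x => (Φ x).2) (c j).i j₂ x =
      (fderiv ℂ (fun w => B₂.e j₂ (ψ w)) ((c j).χ (A.e (c j).i x)).2).comp
        ((ContinuousLinearMap.snd ℂ (EV r) (EV s)).comp (fderiv ℂ (c j).χ (A.e (c j).i x))) := by
    show fderiv ℂ _ _ = _
    rw [heq.fderiv_eq, e4.fderiv]
  rw [e5]
  have e6 : (fderiv ℂ (c j).χ (A.e (c j).i x) w).2 = 0 := by
    refine ((c j).tan _ hz w).1.2 ?_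
    show toC (S.P (c j).i ((A.e (c j).i).symm (A.e (c j).i x))) w = w
    rw [(A.e (c j).i).left_inv hj.1]
    exact hPw
  show fderiv ℂ (fun w => B₂.e j₂ (ψ w)) ((c j).χ (A.e (c j).i x)).2
    ((fderiv ℂ (c j).χ (A.e (c j).i x) w).2) = 0
  rw [e6, map_zero]

theorem tan_aux₁ (P : ProdStr (pfol c hcov) Y₁ Y₂ Φ Ψ) {B₁ : Atl r Y₁} {B₂ : Atl s Y₂}
    (h₁ : HolC (famOf r Y₁) (fam B₁) id) (h₂ : HolC (famOf s Y₂) (fam B₂) id)
    {i : A.ι} {j₁ : B₁.ι} {x : M} (hx : x ∈ (A.e i).source) (hj₁ : (Φ x).1 ∈ (B₁.e j₁).source)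
    {v : Cn n} (hv : toC (S.P i x) v = 0) :
    dr A B₁ (fun x => (Φ x).1) i j₁ x v = 0 := by
  have hΦ := prodStr_hol P h₁ h₂
  have hp : HolMap A B₁ (fun x => (Φ x).1) := holMap_fst.comp hΦ
  obtain ⟨j, hj, -⟩ := hcov x
  rw [dr_left hp hx hj.1 hj₁]
  set w := toC (Jm A i (c j).i x) v with hw
  have hPw : toC (S.P (c j).i x) w = 0 := by rw [hw, P_tr S hx hj.1, hv, map_zero]
  obtain ⟨φ, ψ, hφ, hψ, hev⟩ := P.loc x j hj
  have hx2 : Φ x = (φ ((c j).ch x).1, ψ ((c j).ch x).2) := hev.self_of_nhds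
  have hz : A.e (c j).i x ∈ (c j).χ.source := hj.2
  have hχ : DifferentiableAt ℂ (c j).χ (A.e (c j).i x) := ((c j).an _ hz).differentiableAt
  have e2 : DifferentiableAt ℂ (fun w => B₁.e j₁ (φ w)) ((c j).χ (A.e (c j).i x)).1 :=
    diffAt_of_mfd (B := fam B₁) h₁ hφ (j := j₁) (by
      have : φ ((c j).ch x).1 = (Φ x).1 := by rw [hx2]
      show φ ((c j).ch x).1 ∈ _
      rw [this]
      exact hj₁)
  have e4 : HasFDerivAt (fun z => B₁.e j₁ (φ ((c j).χ z).1))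
      ((fderiv ℂ (fun w => B₁.e j₁ (φ w)) ((c j).χ (A.e (c j).i x)).1).comp
        ((ContinuousLinearMap.fst ℂ (EV r) (EV s)).comp (fderiv ℂ (c j).χ (A.e (c j).i x))))
      (A.e (c j).i x) :=
    HasFDerivAt.comp (A.e (c j).i x) (g := fun w => B₁.e j₁ (φ w))
      (f := fun z => ((c j).χ z).1) e2.hasFDerivAt hχ.hasFDerivAt.fst
  have hc' : Tendsto (A.e (c j).i).symm (𝓝 (A.e (c j).i x)) (𝓝 x) := by
    have := ((A.e (c j).i).continuousAt_symm ((A.e (c j).i).map_source hj.1)).tendsto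
    rwa [(A.e (c j).i).left_inv hj.1] at this
  have heq : rd A B₁ (fun x => (Φ x).1) (c j).i j₁ =ᶠ[𝓝 (A.e (c j).i x)]
      fun z => B₁.e j₁ (φ ((c j).χ z).1) := by
    filter_upwards [hc'.eventually hev, (A.e (c j).i).open_target.mem_nhds
      ((A.e (c j).i).map_source hj.1)] with z hz1 hz2
    have hz3 : (c j).ch ((A.e (c j).i).symm z) = (c j).χ z := by
      rw [PC.ch_apply, (A.e (c j).i).right_inv hz2]
    have hz4 : Φ ((A.e (c j).i).symm z) = (φ ((c j).χ z).1, ψ ((c j).χ z).2) := by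
      rw [← hz3]; exact hz1
    show B₁.e j₁ (Φ ((A.e (c j).i).symm z)).1 = _
    rw [hz4]
  have e5 : dr A B₁ (fun x => (Φ x).1) (c j).i j₁ x =
      (fderiv ℂ (fun w => B₁.e j₁ (φ w)) ((c j).χ (A.e (c j).i x)).1).comp
        ((ContinuousLinearMap.fst ℂ (EV r) (EV s)).comp (fderiv ℂ (c j).χ (A.e (c j).i x))) := by
    show fderiv ℂ _ _ = _
    rw [heq.fderiv_eq, e4.fderiv]
  rw [e5]
  have e6 : (fderiv ℂ (c j).χ (A.e (c j).i x) w).1 = 0 := by
    refine ((c j).tan _ hz w).2.2 ?_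
    show toC (S.P (c j).i ((A.e (c j).i).symm (A.e (c j).i x))) w = 0
    rw [(A.e (c j).i).left_inv hj.1]
    exact hPw
  show fderiv ℂ (fun w => B₁.e j₁ (φ w)) ((c j).χ (A.e (c j).i x)).1
    ((fderiv ℂ (c j).χ (A.e (c j).i x) w).1) = 0
  rw [e6, map_zero]

end tangent

/-- a product decomposition adapted to the splitting -/
structure Dec {A : Atl n M} (S : Spl A) (r s : ℕ) where
  Y₁ : Type
  Y₂ : Type
  [t₁ : TopologicalSpace Y₁]
  [t₂ : TopologicalSpace Y₂]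
  [T2₁ : T2Space Y₁]
  [T2₂ : T2Space Y₂]
  [K₁ : CompactSpace Y₁]
  [K₂ : CompactSpace Y₂]
  [S₁ : SimplyConnectedSpace Y₁]
  [S₂ : SimplyConnectedSpace Y₂]
  B₁ : Atl r Y₁
  B₂ : Atl s Y₂
  [f₁ : Finite B₁.ι]
  [f₂ : Finite B₂.ι]
  g₁ : GoodA B₁
  g₂ : GoodA B₂
  p₁ : Nonempty (Part B₁)
  p₂ : Nonempty (Part B₂)
  Φ : M ≃ₜ Y₁ × Y₂
  hol : HolMap A (B₁.prod B₂) Φ
  hol' : HolMap (B₁.prod B₂) A Φ.symm
  tan₁ : ∀ {i : A.ι} {j : B₁.ι} {x : M}, x ∈ (A.e i).source → (Φ x).1 ∈ (B₁.e j).source →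
    ∀ v, toC (S.P i x) v = 0 → dr A B₁ (fun x => (Φ x).1) i j x v = 0
  tan₂ : ∀ {i : A.ι} {j : B₂.ι} {x : M}, x ∈ (A.e i).source → (Φ x).2 ∈ (B₂.e j).source →
    ∀ v, toC (S.P i x) v = v → dr A B₂ (fun x => (Φ x).2) i j x v = 0

attribute [instance] Dec.t₁ Dec.t₂ Dec.T2₁ Dec.T2₂ Dec.K₁ Dec.K₂ Dec.S₁ Dec.S₂ Dec.f₁ Dec.f₂

/-- **SPLITPROD** with the tangent spaces -/
theorem exists_dec [T2Space M] [CompactSpace M] [SimplyConnectedSpace M] (K : Kah A) (S : Spl A)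
    {r : ℕ} (hr : S.IsRk r) : Nonempty (Dec S r (n - r)) := by
  obtain ⟨J, hJ, c, hcov⟩ := exists_family hr
  have _ : Finite (pfol c hcov).ι := hJ
  have hC : Crest.Agent.R266.Completeness (pfol c hcov) :=
    Crest.Agent.R266.completeness_core (kmet K c hcov)
  have _ : LocallyPathConnectedSpace M := by
    let _ := (fam A).cs
    exact ChartedSpace.locallyPathConnectedSpace (Cn n) M
  obtain ⟨Y₁, Y₂, _, _, _, _, _, _, hc₁, hc₂, hs₁, hs₂, Φ, Ψ, P⟩ :=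
    Crest.Agent.R266.global_product (pfol c hcov) hC
  let F : M ≃ₜ Y₁ × Y₂ :=
    { toFun := Φ
      invFun := Ψ
      left_inv := P.left
      right_inv := P.right
      continuous_toFun := prodStr_cont P
      continuous_invFun := prodStr_cont' P }
  have hT : T2Space (Y₁ × Y₂) := F.t2Space
  have hK : CompactSpace (Y₁ × Y₂) := F.compactSpace
  obtain ⟨y₁⟩ : Nonempty Y₁ := inferInstance
  obtain ⟨y₂⟩ : Nonempty Y₂ := inferInstance
  have hT₁ : T2Space Y₁ := T2Space.of_injective_continuous (f := fun y => (y, y₂))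
    (fun a b h => congrArg Prod.fst h) (by fun_prop)
  have hT₂ : T2Space Y₂ := T2Space.of_injective_continuous (f := fun y => (y₁, y))
    (fun a b h => congrArg Prod.snd h) (by fun_prop)
  have hK₁ : CompactSpace Y₁ := by
    have h1 := isCompact_range (continuous_fst (X := Y₁) (Y := Y₂))
    rw [Set.range_eq_univ.2 (fun y => ⟨(y, y₂), rfl⟩)] at h1
    exact ⟨h1⟩
  have hK₂ : CompactSpace Y₂ := by
    have h1 := isCompact_range (continuous_snd (X := Y₁) (Y := Y₂))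
    rw [Set.range_eq_univ.2 (fun y => ⟨(y₁, y), rfl⟩)] at h1
    exact ⟨h1⟩
  obtain ⟨B₁, a1, a2, a3, -, a5, a6⟩ := (famOf r Y₁).exists_atl (fun _ : Unit => univ)
    (fun _ => isOpen_univ) (fun x => ⟨(), mem_univ x⟩)
  obtain ⟨B₂, b1, b2, b3, -, b5, b6⟩ := (famOf (n - r) Y₂).exists_atl (fun _ : Unit => univ)
    (fun _ => isOpen_univ) (fun x => ⟨(), mem_univ x⟩)
  exact ⟨{ Y₁ := Y₁, Y₂ := Y₂, B₁ := B₁, B₂ := B₂, g₁ := a2, g₂ := b2, p₁ := a3, p₂ := b3, Φ := F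
           hol := prodStr_hol P a6 b6
           hol' := prodStr_hol' P a5 b5
           tan₁ := fun hx hj v hv => tan_aux₁ P a6 b6 hx hj hv
           tan₂ := fun hx hj v hv => tan_aux₂ P a6 b6 hx hj hv }⟩

namespace Dec

variable {S : Spl A} {r s : ℕ} (D : Dec S r s)

theorem hol₁ : HolMap A D.B₁ (fun x => (D.Φ x).1) := holMap_fst.comp D.hol

theorem hol₂ : HolMap A D.B₂ (fun x => (D.Φ x).2) := holMap_snd.comp D.hol

/-- the horizontal slice -/
def in₁ (y₂ : D.Y₂) (y : D.Y₁) : M := D.Φ.symm (y, y₂)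

/-- the vertical slice -/
def in₂ (y₁ : D.Y₁) (y : D.Y₂) : M := D.Φ.symm (y₁, y)

theorem holIn₁ (y₂ : D.Y₂) : HolMap D.B₁ A (D.in₁ y₂) := D.hol'.comp (holMap_inl y₂)

theorem holIn₂ (y₁ : D.Y₁) : HolMap D.B₂ A (D.in₂ y₁) := D.hol'.comp (holMap_inr y₁)

theorem fst_in₁ (y₂ : D.Y₂) (y : D.Y₁) : D.Φ (D.in₁ y₂ y) = (y, y₂) := D.Φ.apply_symm_apply _

theorem snd_in₂ (y₁ : D.Y₁) (y : D.Y₂) : D.Φ (D.in₂ y₁ y) = (y₁, y) := D.Φ.apply_symm_apply _

/-- a vector killed by both differentials vanishes -/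
theorem eq_zero {i : A.ι} {j₁ : D.B₁.ι} {j₂ : D.B₂.ι} {x : M} (hx : x ∈ (A.e i).source)
    (h₁ : (D.Φ x).1 ∈ (D.B₁.e j₁).source) (h₂ : (D.Φ x).2 ∈ (D.B₂.e j₂).source) {v : Cn n}
    (e₁ : dr A D.B₁ (fun x => (D.Φ x).1) i j₁ x v = 0)
    (e₂ : dr A D.B₂ (fun x => (D.Φ x).2) i j₂ x v = 0) : v = 0 := by
  have hinj := imm_of_leftInv D.hol D.hol' (fun x => D.Φ.symm_apply_apply x) i (j₁, j₂)
    (A.e i x) (mem_dm hx ⟨h₁, h₂⟩)
  refine hinj ?_
  rw [map_zero]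
  have d₁ := (D.hol₁.diffAt (i := i) (j := j₁) (z := A.e i x) (mem_dm hx h₁)).hasFDerivAt
  have d₂ := (D.hol₂.diffAt (i := i) (j := j₂) (z := A.e i x) (mem_dm hx h₂)).hasFDerivAt
  have d₃ : HasFDerivAt (rd A (D.B₁.prod D.B₂) D.Φ i (j₁, j₂))
      ((appL r s).comp ((dr A D.B₁ (fun x => (D.Φ x).1) i j₁ x).prod
        (dr A D.B₂ (fun x => (D.Φ x).2) i j₂ x))) (A.e i x) :=
    (appL r s).hasFDerivAt.comp (A.e i x) (d₁.prodMk d₂)
  rw [d₃.fderiv]
  show appL r s (dr A D.B₁ (fun x => (D.Φ x).1) i j₁ x v,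
    dr A D.B₂ (fun x => (D.Φ x).2) i j₂ x v) = 0
  rw [e₁, e₂]
  exact map_zero _

theorem P_idem (S : Spl A) {i : A.ι} {x : M} (hx : x ∈ (A.e i).source) (v : Cn n) :
    toC (S.P i x) (toC (S.P i x) v) = toC (S.P i x) v := by
  rw [← toC_mul, S.idem i x hx]

/-- the kernel of `d(pr₂ ∘ Φ)` is the image of the projection -/
theorem tan₂_iff {i : A.ι} {j : D.B₂.ι} {x : M} (hx : x ∈ (A.e i).source)
    (hj : (D.Φ x).2 ∈ (D.B₂.e j).source) (v : Cn n) :
    dr A D.B₂ (fun x => (D.Φ x).2) i j x v = 0 ↔ toC (S.P i x) v = v := by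
  refine ⟨fun h => ?_, D.tan₂ hx hj v⟩
  obtain ⟨j₁, hj₁⟩ := D.B₁.cover (D.Φ x).1
  have h0 : toC (S.P i x) (v - toC (S.P i x) v) = 0 := by rw [map_sub, P_idem S hx, sub_self]
  have h1 := D.tan₁ hx hj₁ _ h0
  have h2 : dr A D.B₂ (fun x => (D.Φ x).2) i j x (v - toC (S.P i x) v) = 0 := by
    rw [map_sub, h, D.tan₂ hx hj _ (P_idem S hx v), sub_zero]
  exact (sub_eq_zero.1 (D.eq_zero hx hj₁ hj h1 h2)).symm

/-- the kernel of `d(pr₁ ∘ Φ)` is the kernel of the projection -/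
theorem tan₁_iff {i : A.ι} {j : D.B₁.ι} {x : M} (hx : x ∈ (A.e i).source)
    (hj : (D.Φ x).1 ∈ (D.B₁.e j).source) (v : Cn n) :
    dr A D.B₁ (fun x => (D.Φ x).1) i j x v = 0 ↔ toC (S.P i x) v = 0 := by
  refine ⟨fun h => ?_, D.tan₁ hx hj v⟩
  obtain ⟨j₂, hj₂⟩ := D.B₂.cover (D.Φ x).2
  have h0 : toC (S.P i x) (v - toC (S.P i x) v) = 0 := by rw [map_sub, P_idem S hx, sub_self]
  have h1 := D.tan₁ hx hj _ h0
  rw [map_sub, h, zero_sub, neg_eq_zero] at h1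
  exact D.eq_zero hx hj hj₂ h1 (D.tan₂ hx hj₂ _ (P_idem S hx v))

end Dec

/-- chain rule for the derivatives in charts -/
theorem dr_comp {m k : ℕ} {N P : Type} [TopologicalSpace N] [TopologicalSpace P] {B : Atl m N}
    {C : Atl k P} {p : M → N} {q : N → P} (hq : HolMap B C q) (hp : HolMap A B p) {i : A.ι}
    {j : B.ι} {l : C.ι} {x : M} (hx : x ∈ (A.e i).source) (hj : p x ∈ (B.e j).source)
    (hl : q (p x) ∈ (C.e l).source) (v : Cn n) :
    dr A C (fun x => q (p x)) i l x v = dr B C q j l (p x) (dr A B p i j x v) := by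
  have h1 := Jp_comp hq hp (x := x) (i := i) (j := j) (l := l) hx hj hl
  have h4 : mt (dr A C (fun x => q (p x)) i l x) = mt ((dr B C q j l (p x)).comp
      (dr A B p i j x)) := by
    rw [mt_comp]
    exact h1.symm
  rw [mt_injective h4]
  rfl

theorem dr_const {m : ℕ} {N : Type} [TopologicalSpace N] {B : Atl m N} (y : N) (i : A.ι)
    (j : B.ι) (x : M) : dr A B (fun _ => y) i j x = 0 := by
  show fderiv ℂ (fun _ => B.e j y) _ = 0
  exact fderiv_const_apply _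

namespace Dec

variable {S : Spl A} {r s : ℕ} (D : Dec S r s)

/-- the tangent space of the horizontal slice is the image of the projection -/
theorem in₁_tan (y₂ : D.Y₂) {j : D.B₁.ι} {i : A.ι} {y : D.Y₁} (hy : y ∈ (D.B₁.e j).source)
    (hi : D.in₁ y₂ y ∈ (A.e i).source) (v : Cn r) :
    toC (S.P i (D.in₁ y₂ y)) (dr D.B₁ A (D.in₁ y₂) j i y v) = dr D.B₁ A (D.in₁ y₂) j i y v := by
  obtain ⟨j₂, hj₂⟩ := D.B₂.cover (D.Φ (D.in₁ y₂ y)).2
  rw [← D.tan₂_iff hi hj₂]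
  have h1 := dr_comp D.hol₂ (D.holIn₁ y₂) (x := y) hy hi hj₂ v
  rw [← h1]
  have h2 : (fun y => (D.Φ (D.in₁ y₂ y)).2) = fun _ => y₂ := by
    funext y
    rw [D.fst_in₁]
  rw [h2, dr_const]
  rfl

/-- the tangent space of the vertical slice is the kernel of the projection -/
theorem in₂_tan (y₁ : D.Y₁) {j : D.B₂.ι} {i : A.ι} {y : D.Y₂} (hy : y ∈ (D.B₂.e j).source)
    (hi : D.in₂ y₁ y ∈ (A.e i).source) (v : Cn s) :
    toC (S.P i (D.in₂ y₁ y)) (dr D.B₂ A (D.in₂ y₁) j i y v) = 0 := by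
  obtain ⟨j₁, hj₁⟩ := D.B₁.cover (D.Φ (D.in₂ y₁ y)).1
  rw [← D.tan₁_iff hi hj₁]
  have h1 := dr_comp D.hol₁ (D.holIn₂ y₁) (x := y) hy hi hj₁ v
  rw [← h1]
  have h2 : (fun y => (D.Φ (D.in₂ y₁ y)).1) = fun _ => y₁ := by
    funext y
    rw [D.snd_in₂]
  rw [h2, dr_const]
  rfl

end Dec

/-- **the induction step for split manifolds** -/
theorem main_split {n : ℕ} {M : Type} [TopologicalSpace M] [T2Space M] [CompactSpace M]
    [SimplyConnectedSpace M] {A : Atl n M} (IH : ∀ m < n, MainN m) (K : Kah A) (S : Spl A) {r : ℕ}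
    (hr : S.IsRk r) (h0 : 0 < r) (h1 : r < n) (P : ProjD A) {h : HM (KB A)⁻¹} (hs : h.Semipos) :
    ∃ m : ℕ, 0 < m ∧ HasSec ((KB A)⁻¹ ^ m) := by
  obtain ⟨D⟩ := exists_dec K S hr
  obtain ⟨s, rfl⟩ : ∃ s, n = r + s := ⟨n - r, by omega⟩
  have hs' : r + s - r = s := by omega
  obtain ⟨Y₁, Y₂, B₁, B₂, g₁, g₂, p₁, p₂, Φ, hol, hol', -, -⟩ := D
  revert B₂
  rw [hs']
  intro B₂ _ g₂ p₂ hol hol'
  exact main_prod (IH r h1) (IH s (by omega)) hol' hol Φ.symm_apply_apply Φ.apply_symm_apply P hs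

end

end Crest.Agent.R273.SplA_836
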