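import Crest.Agent.R275.Core_144
import Crest.Agent.R271.W_792
import Crest.Agent.R271.H3_51

/-!
# R273, STEIN complements, part A (helper794)

`SD A`   : an open set `U` of `M` with `n` holomorphic functions `z k` which are local coordinates
           everywhere on `U`;
`Mo S`   : the Riemann domain `U → ℂⁿ` (`RDom n (Mo S)` of R271);
dictionary between the charts of `A` and the calculus of R271 on `Mo S`.
-/

set_option autoImplicit false
set_option linter.unusedSectionVars false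

open Set Filter Topology
open scoped ContDiff

namespace Crest.Agent.R273.SteinA_794

open Crest.Agent.R275.Geo Crest.Agent.R275.Core144
open Crest.Agent.R271 (Ho51.RDom Ho51.cp Ho51.ch Ho51.IsCh Ho51.Sm)

noncomputable section

variable {n : ℕ} {M : Type} [TopologicalSpace M] {A : Atl n M}

/-- functions `z k` read in the chart `i` -/
def rd {m : ℕ} (A : Atl n M) (i : A.ι) (z : Fin m → M → ℂ) (w : Cn n) : Fin m → ℂ :=
  fun k => z k ((A.e i).symm w)

/-- an open set with `n` holomorphic functions which are local coordinates everywhere -/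
structure SD (A : Atl n M) where
  U : Set M
  isOpen : IsOpen U
  z : Fin n → M → ℂ
  hol : ∀ i k, HolAt A i U (z k)
  inj : ∀ i, ∀ x ∈ (A.e i).source, x ∈ U → ∀ v : Cn n,
    fderiv ℂ (rd A i z) (A.e i x) v = 0 → v = 0

variable (S : SD A)

/-- the open set in the chart `i` -/
def SD.dom (i : A.ι) : Set (Cn n) := (A.e i).target ∩ (A.e i).symm ⁻¹' S.U

theorem SD.isOpen_dom (i : A.ι) : IsOpen (S.dom i) := isOpen_ti S.isOpen

theorem SD.mem_dom {i : A.ι} {x : M} (hx : x ∈ (A.e i).source) (hxU : x ∈ S.U) :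
    A.e i x ∈ S.dom i :=
  ⟨(A.e i).map_source hx, by rw [mem_preimage, (A.e i).left_inv hx]; exact hxU⟩

theorem SD.rd_diff (i : A.ι) : DifferentiableOn ℂ (rd A i S.z) (S.dom i) :=
  differentiableOn_pi.2 fun k => S.hol i k

theorem SD.rd_anal (i : A.ι) : AnalyticOnNhd ℂ (rd A i S.z) (S.dom i) :=
  Crest.Agent.R266.SCV.analyticOnNhd_of_differentiableOn (S.isOpen_dom i) (S.rd_diff i)

/-- the derivative of the coordinates, as an equivalence -/
def SD.LL (i : A.ι) {x : M} (hx : x ∈ (A.e i).source) (hxU : x ∈ S.U) :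
    Cn n ≃L[ℂ] (Fin n → ℂ) :=
  (LinearMap.linearEquivOfInjective
    ((fderiv ℂ (rd A i S.z) (A.e i x) : Cn n →L[ℂ] (Fin n → ℂ)) : Cn n →ₗ[ℂ] (Fin n → ℂ))
    ((injective_iff_map_eq_zero _).2 fun v hv => S.inj i x hx hxU v hv)
    (by simp)).toContinuousLinearEquiv

theorem SD.LL_apply (i : A.ι) {x : M} (hx : x ∈ (A.e i).source) (hxU : x ∈ S.U) (v : Cn n) :
    S.LL i hx hxU v = fderiv ℂ (rd A i S.z) (A.e i x) v := rfl

theorem SD.LL_coe (i : A.ι) {x : M} (hx : x ∈ (A.e i).source) (hxU : x ∈ S.U) :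
    ((S.LL i hx hxU : Cn n ≃L[ℂ] (Fin n → ℂ)) : Cn n →L[ℂ] (Fin n → ℂ)) =
      fderiv ℂ (rd A i S.z) (A.e i x) := by
  ext v; rfl

theorem SD.LL_congr (i : A.ι) {x y : M} (hxy : x = y) (hx : x ∈ (A.e i).source) (hxU : x ∈ S.U)
    (hy : y ∈ (A.e i).source) (hyU : y ∈ S.U) : S.LL i hx hxU = S.LL i hy hyU := by
  subst hxy; rfl

theorem SD.strict (i : A.ι) {x : M} (hx : x ∈ (A.e i).source) (hxU : x ∈ S.U) :
    HasStrictFDerivAt (rd A i S.z)
      ((S.LL i hx hxU : Cn n ≃L[ℂ] (Fin n → ℂ)) : Cn n →L[ℂ] (Fin n → ℂ)) (A.e i x) := by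
  rw [S.LL_coe]
  exact (S.rd_anal i _ (S.mem_dom hx hxU)).hasStrictFDerivAt

/-- the Riemann domain -/
def Mo : Type := {x : M // x ∈ S.U}

instance : TopologicalSpace (Mo S) := instTopologicalSpaceSubtype

instance [T2Space M] : T2Space (Mo S) := inferInstanceAs (T2Space {x : M // x ∈ S.U})

instance [SecondCountableTopology M] : SecondCountableTopology (Mo S) :=
  inferInstanceAs (SecondCountableTopology {x : M // x ∈ S.U})

instance : MeasurableSpace (Mo S) := borel _

instance : BorelSpace (Mo S) := ⟨rfl⟩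

variable {S}

/-- inclusion -/
def Mo.val (x : Mo S) : M := Subtype.val x

theorem Mo.prop (x : Mo S) : x.val ∈ S.U := Subtype.property x

theorem isOpenEmbedding_val : IsOpenEmbedding (Mo.val : Mo S → M) :=
  S.isOpen.isOpenEmbedding_subtypeVal

theorem continuous_val : Continuous (Mo.val : Mo S → M) := continuous_subtype_val

/-- the coordinates of the Riemann domain -/
def Mo.co (x : Mo S) : Fin n → ℂ := fun k => S.z k x.val

theorem rd_e (i : A.ι) {m : ℕ} (z : Fin m → M → ℂ) {x : M} (hx : x ∈ (A.e i).source) :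
    rd A i z (A.e i x) = fun k => z k x := by
  funext k
  simp [rd, (A.e i).left_inv hx]

theorem isLocalHomeomorph_co : IsLocalHomeomorph (Mo.co : Mo S → (Fin n → ℂ)) := by
  have h1 : IsLocalHomeomorphOn (fun x : M => (fun k => S.z k x : Fin n → ℂ)) S.U := by
    refine IsLocalHomeomorphOn.mk _ _ fun x hxU => ?_
    obtain ⟨i, hx⟩ := A.cover x
    refine ⟨(A.e i).trans ((S.strict i hx hxU).toOpenPartialHomeomorph _), ?_, ?_⟩
    · rw [OpenPartialHomeomorph.trans_source]
      exact ⟨hx, (S.strict i hx hxU).mem_toOpenPartialHomeomorph_source⟩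
    · intro y hy
      rw [OpenPartialHomeomorph.trans_source] at hy
      show _ = rd A i S.z (A.e i y)
      rw [rd_e i S.z hy.1]
  have h2 : IsLocalHomeomorph (Mo.val : Mo S → M) := isOpenEmbedding_val.isLocalHomeomorph
  rw [isLocalHomeomorph_iff_isLocalHomeomorphOn_univ] at h2 ⊢
  exact h1.comp h2 fun x _ => x.prop

instance : Crest.Agent.R271.Ho51.RDom n (Mo S) where
  p := Mo.co
  hp := isLocalHomeomorph_co

open Crest.Agent.R271.Ho51

theorem cp_eq (x : Mo S) : cp x = fun k => S.z k x.val := rfl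

/-! ### the inverse of the coordinates -/

/-- the domain of the inverse of the coordinates -/
def domT (e : OpenPartialHomeomorph (Mo S) (Fin n → ℂ)) (i : A.ι) : Set (Fin n → ℂ) :=
  e.target ∩ e.symm ⁻¹' (Mo.val ⁻¹' (A.e i).source)

theorem isOpen_domT (e : OpenPartialHomeomorph (Mo S) (Fin n → ℂ)) (i : A.ι) :
    IsOpen (domT e i) :=
  e.isOpen_inter_preimage_symm ((A.e i).open_source.preimage continuous_val)

/-- the chart `i` as a function of the coordinates -/
def TT (A : Atl n M) {S : SD A} (e : OpenPartialHomeomorph (Mo S) (Fin n → ℂ)) (i : A.ι)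
    (ζ : Fin n → ℂ) : Cn n := A.e i (e.symm ζ).val

theorem hasFDerivAt_TT {e : OpenPartialHomeomorph (Mo S) (Fin n → ℂ)} (he : IsCh e)
    {ζ : Fin n → ℂ} {i : A.ι} (hζ : ζ ∈ domT e i) :
    HasFDerivAt (TT A e i)
      ((S.LL i (x := (e.symm ζ).val) hζ.2 (e.symm ζ).prop).symm : (Fin n → ℂ) →L[ℂ] Cn n) ζ := by
  refine HasFDerivAt.of_local_left_inverse (f := rd A i S.z) ?_ ?_ ?_
  · have hc1 : ContinuousAt (fun ξ => (e.symm ξ).val) ζ :=
      ContinuousAt.comp (g := (Mo.val : Mo S → M)) continuous_val.continuousAt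
        (e.symm.continuousAt hζ.1)
    exact ContinuousAt.comp (g := A.e i) ((A.e i).continuousAt hζ.2) hc1
  · exact (S.strict i hζ.2 (e.symm ζ).prop).hasFDerivAt
  · filter_upwards [(isOpen_domT e i).mem_nhds hζ] with ξ hξ
    rw [TT, rd_e i S.z hξ.2]
    exact he.cp_symm hξ.1

theorem TT_diff {e : OpenPartialHomeomorph (Mo S) (Fin n → ℂ)} (he : IsCh e) (i : A.ι) :
    DifferentiableOn ℂ (TT A e i) (domT e i) := fun _ hζ =>
  (hasFDerivAt_TT he hζ).differentiableAt.differentiableWithinAt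

theorem TT_anal {e : OpenPartialHomeomorph (Mo S) (Fin n → ℂ)} (he : IsCh e) (i : A.ι) :
    AnalyticOnNhd ℂ (TT A e i) (domT e i) :=
  Crest.Agent.R266.SCV.analyticOnNhd_of_differentiableOn (isOpen_domT e i) (TT_diff he i)

theorem TT_smooth {e : OpenPartialHomeomorph (Mo S) (Fin n → ℂ)} (he : IsCh e) (i : A.ι) :
    ContDiffOn ℝ ∞ (TT A e i) (domT e i) :=
  ((Crest.Agent.R266.SCV.contDiffOn_omega_of_differentiableOn (isOpen_domT e i)
    (TT_diff he i)).restrict_scalars ℝ).of_le le_top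

theorem symm_TT {e : OpenPartialHomeomorph (Mo S) (Fin n → ℂ)} {i : A.ι} {ζ : Fin n → ℂ}
    (hζ : ζ ∈ domT e i) : (A.e i).symm (TT A e i ζ) = (e.symm ζ).val :=
  (A.e i).left_inv hζ.2

theorem TT_mem {e : OpenPartialHomeomorph (Mo S) (Fin n → ℂ)} {i : A.ι} {ζ : Fin n → ℂ}
    (hζ : ζ ∈ domT e i) : TT A e i ζ ∈ S.dom i := S.mem_dom hζ.2 (e.symm ζ).prop

/-- a function on `M` in the coordinates -/
theorem comp_TT {G : Type*} (e : OpenPartialHomeomorph (Mo S) (Fin n → ℂ)) {i : A.ι}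
    {ζ : Fin n → ℂ} (hζ : ζ ∈ domT e i) (f : M → G) :
    ((fun x : Mo S => f x.val) ∘ e.symm) =ᶠ[𝓝 ζ] (fun w => f ((A.e i).symm w)) ∘ TT A e i := by
  filter_upwards [(isOpen_domT e i).mem_nhds hζ] with ξ hξ
  simp only [Function.comp_apply, symm_TT hξ]

theorem mem_domT_ch {i : A.ι} (x : Mo S) (hx : x.val ∈ (A.e i).source) : cp x ∈ domT (ch x) i := by
  refine ⟨(isCh_ch x).cp_mem (mem_ch x), ?_⟩
  rw [mem_preimage, (isCh_ch x).symm_cp (mem_ch x)]
  exact hx

theorem TT_ch {i : A.ι} (x : Mo S) : TT A (ch x) i (cp x) = A.e i x.val := by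
  rw [TT, (isCh_ch x).symm_cp (mem_ch x)]

/-- **holomorphic functions** -/
theorem hol_of {f : M → ℂ} (hf : ∀ i, HolAt A i S.U f) : Hol (fun x : Mo S => f x.val) := by
  intro e he ζ hζ
  obtain ⟨i, hi⟩ := A.cover (e.symm ζ).val
  have hζ' : ζ ∈ domT e i := ⟨hζ, hi⟩
  have h1 : DifferentiableAt ℂ (fun w => f ((A.e i).symm w)) (TT A e i ζ) :=
    (DifferentiableOn.differentiableAt (hf i) ((S.isOpen_dom i).mem_nhds (TT_mem hζ')))
  have h2 := h1.comp ζ (hasFDerivAt_TT he hζ').differentiableAt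
  exact (h2.congr_of_eventuallyEq (comp_TT e hζ' f)).differentiableWithinAt

/-- near a point of the chart `i` the inverse of the chart is the inverse of the coordinates -/
theorem symm_rd {i : A.ι} (x : Mo S) (hx : x.val ∈ (A.e i).source) :
    ∀ᶠ w in 𝓝 (A.e i x.val), w ∈ S.dom i ∧ rd A i S.z w ∈ (ch x).target ∧
      ((ch x).symm (rd A i S.z w)).val = (A.e i).symm w := by
  have h0 : A.e i x.val ∈ S.dom i := S.mem_dom hx x.prop
  have hc : ContinuousAt (A.e i).symm (A.e i x.val) :=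
    (A.e i).symm.continuousAt (by simpa using h0.1)
  obtain ⟨V, hV, hVe⟩ := isOpenEmbedding_val.isInducing.isOpen_iff.1 (ch x).open_source
  have hxV : x.val ∈ V := by
    have : x ∈ Mo.val ⁻¹' V := by rw [hVe]; exact mem_ch x
    exact this
  have h1 : ∀ᶠ w in 𝓝 (A.e i x.val), (A.e i).symm w ∈ V := by
    apply hc.eventually_mem
    rw [(A.e i).left_inv hx]
    exact hV.mem_nhds hxV
  filter_upwards [(S.isOpen_dom i).mem_nhds h0, h1] with w hw hwV
  set y : Mo S := ⟨(A.e i).symm w, hw.2⟩ with hy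
  have hyv : y.val = (A.e i).symm w := rfl
  have hys : y ∈ (ch x).source := by
    rw [← hVe]; exact hwV
  have hcp : cp y = rd A i S.z w := rfl
  refine ⟨hw, ?_, ?_⟩
  · rw [← hcp]; exact (isCh_ch x).cp_mem hys
  · rw [← hcp, (isCh_ch x).symm_cp hys, hyv]

theorem hol_at_of_hol {F : Mo S → ℂ} (hF : Hol F) {f : M → ℂ} (hf : ∀ x : Mo S, f x.val = F x)
    (i : A.ι) : HolAt A i S.U f := by
  intro w hw
  set x : Mo S := ⟨(A.e i).symm w, hw.2⟩ with hx
  have hxs : x.val ∈ (A.e i).source := (A.e i).map_target hw.1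
  have hxw : A.e i x.val = w := (A.e i).right_inv hw.1
  have h1 := symm_rd x hxs
  rw [hxw] at h1
  have h2 : DifferentiableAt ℂ (F ∘ (ch x).symm) (rd A i S.z w) :=
    (hF (ch x) (isCh_ch x)).differentiableAt
      ((ch x).open_target.mem_nhds h1.self_of_nhds.2.1)
  have h3 : DifferentiableAt ℂ (rd A i S.z) w :=
    (S.rd_diff i).differentiableAt ((S.isOpen_dom i).mem_nhds hw)
  have h4 := h2.comp w h3
  refine (h4.congr_of_eventuallyEq ?_).differentiableWithinAt
  filter_upwards [h1] with v hv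
  simp only [Function.comp_apply]
  rw [← hf, hv.2.2]

/-- extension by zero -/
def ext0 (F : Mo S → ℂ) : M → ℂ := fun x =>
  open Classical in if h : x ∈ S.U then F ⟨x, h⟩ else 0

theorem ext0_val (F : Mo S → ℂ) (x : Mo S) : ext0 F x.val = F x := by
  have h : x.val ∈ S.U := x.prop
  rw [ext0, dif_pos h]
  rfl

theorem holAt_ext0 {F : Mo S → ℂ} (hF : Hol F) (i : A.ι) : HolAt A i S.U (ext0 F) :=
  hol_at_of_hol hF (ext0_val F) i

/-! ### smooth functions and derivatives -/

section smooth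

variable {G : Type*} [NormedAddCommGroup G] [NormedSpace ℝ G]

theorem sm_at {f : M → G} (x : Mo S) {i : A.ι} (hx : x.val ∈ (A.e i).source)
    (hf : ContDiffAt ℝ ∞ (fun w => f ((A.e i).symm w)) (A.e i x.val)) :
    ContDiffAt ℝ (⊤ : ℕ∞) ((fun x : Mo S => f x.val) ∘ (ch x).symm) (cp x) := by
  have hd := mem_domT_ch x hx
  have h2 : ContDiffAt ℝ ∞ (TT A (ch x) i) (cp x) :=
    (TT_smooth (isCh_ch x) i).contDiffAt ((isOpen_domT _ i).mem_nhds hd)
  have h1 : ContDiffAt ℝ ∞ (fun w => f ((A.e i).symm w)) (TT A (ch x) i (cp x)) := by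
    rw [TT_ch]; exact hf
  exact (h1.comp _ h2).congr_of_eventuallyEq (comp_TT _ hd f)

theorem sm_of {f : M → G} (hf : ∀ i, ContDiffOn ℝ ∞ (fun w => f ((A.e i).symm w)) (S.dom i)) :
    Sm (fun x : Mo S => f x.val) := by
  intro x
  obtain ⟨i, hx⟩ := A.cover x.val
  exact sm_at x hx ((hf i).contDiffAt ((S.isOpen_dom i).mem_nhds (S.mem_dom hx x.prop)))

theorem sm_of_Sm {f : M → G} (hf : A.Sm f) : Sm (fun x : Mo S => f x.val) :=
  sm_of fun i => (hf i).mono inter_subset_left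

theorem LL_ch (x : Mo S) {i : A.ι} (hx : x.val ∈ (A.e i).source) :
    HasFDerivAt (TT A (ch x) i)
      ((S.LL i hx x.prop).symm : (Fin n → ℂ) →L[ℂ] Cn n) (cp x) := by
  have h := hasFDerivAt_TT (isCh_ch x) (mem_domT_ch x hx)
  have hs : (ch x).symm (cp x) = x := (isCh_ch x).symm_cp (mem_ch x)
  rw [S.LL_congr i (congrArg Mo.val hs) _ _ hx x.prop] at h
  exact h

/-- derivative in the coordinates -/
theorem D_of {f : M → G} (x : Mo S) {i : A.ι} (hx : x.val ∈ (A.e i).source)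
    (hf : DifferentiableAt ℝ (fun w => f ((A.e i).symm w)) (A.e i x.val)) (v : Fin n → ℂ) :
    D (fun x : Mo S => f x.val) x v =
      fderiv ℝ (fun w => f ((A.e i).symm w)) (A.e i x.val) ((S.LL i hx x.prop).symm v) := by
  have hd := mem_domT_ch x hx
  have h1 : HasFDerivAt (TT A (ch x) i)
      (((S.LL i hx x.prop).symm : (Fin n → ℂ) →L[ℂ] Cn n).restrictScalars ℝ) (cp x) :=
    (LL_ch x hx).restrictScalars ℝ
  have h2 : HasFDerivAt (fun w => f ((A.e i).symm w))
      (fderiv ℝ (fun w => f ((A.e i).symm w)) (A.e i x.val)) (TT A (ch x) i (cp x)) := by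
    rw [TT_ch]; exact hf.hasFDerivAt
  have h3 := h2.comp (cp x) h1
  have h4 := h3.congr_of_eventuallyEq (comp_TT (ch x) hd f)
  rw [D, h4.fderiv]
  rfl

end smooth

end

end Crest.Agent.R273.SteinA_794
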