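import Crest.Agent.R273.SteinA_794
import Crest.Agent.R273.HM_333
import Crest.Agent.R273.HessB_333

/-!
# R273, STEIN complements, part B (helper794): Levi forms, weights of metrics on `Mo S`
-/

set_option autoImplicit false
set_option linter.unusedSectionVars false

open Set Filter Topology
open scoped ContDiff

namespace Crest.Agent.R273.SteinB_794

open Crest.Agent.R275.Geo Crest.Agent.R275.Core144 Crest.Agent.R273.SteinA_794
open Crest.Agent.R271.Ho51
open Crest.Agent.R273.Defs_333 (HM HM.wt HM.Semipos HM.Pos)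

noncomputable section

section calcs

variable {n m : ℕ}

theorem lev_eq_fd {u : Cn n → ℝ} {z : Cn n} (hu : ContDiffAt ℝ 2 u z) (v : Cn n) :
    Defs_333.lev u z v = fderiv ℝ (fun y => fderiv ℝ u y v) z v +
      fderiv ℝ (fun y => fderiv ℝ u y (Complex.I • v)) z (Complex.I • v) := by
  have h1 : DifferentiableAt ℝ (fderiv ℝ u) z :=
    (hu.fderiv_right (m := 1) (by norm_num)).differentiableAt (by simp)
  have h2 : ∀ w : Cn n, fderiv ℝ (fun y => fderiv ℝ u y w) z w = fderiv ℝ (fderiv ℝ u) z w w := by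
    intro w
    rw [fderiv_clm_apply h1 (differentiableAt_const w)]
    simp
  unfold Defs_333.lev
  rw [iteratedFDeriv_two_apply, iteratedFDeriv_two_apply, h2, h2]
  rfl

/-- second derivative of a composition -/
theorem fd2_comp {T : (Fin n → ℂ) → Cn m} {u : Cn m → ℝ} {ζ : Fin n → ℂ}
    (hT : ContDiffAt ℝ 2 T ζ) (hu : ContDiffAt ℝ 2 u (T ζ)) (v w : Fin n → ℂ) :
    fderiv ℝ (fun y => fderiv ℝ (u ∘ T) y v) ζ w =
      fderiv ℝ (fun z => fderiv ℝ u z (fderiv ℝ T ζ v)) (T ζ) (fderiv ℝ T ζ w) +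
        fderiv ℝ u (T ζ) (fderiv ℝ (fun y => fderiv ℝ T y v) ζ w) := by
  have h2 : (2 : ℕ∞ω) ≠ ∞ := by decide
  have hT1 : ∀ᶠ y in 𝓝 ζ, DifferentiableAt ℝ T y :=
    (hT.eventually (by decide)).mono fun y hy => hy.differentiableAt (by decide)
  have hu1 : ∀ᶠ z in 𝓝 (T ζ), DifferentiableAt ℝ u z :=
    (hu.eventually (by decide)).mono fun y hy => hy.differentiableAt (by decide)
  have hu2 : ∀ᶠ y in 𝓝 ζ, DifferentiableAt ℝ u (T y) := hT.continuousAt.eventually hu1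
  have e1 : (fun y => fderiv ℝ (u ∘ T) y v) =ᶠ[𝓝 ζ]
      fun y => (fderiv ℝ u (T y)) (fderiv ℝ T y v) := by
    filter_upwards [hT1, hu2] with y h1 h2
    rw [fderiv_comp y h2 h1]
    rfl
  rw [e1.fderiv_eq]
  have d1 : DifferentiableAt ℝ (fderiv ℝ u) (T ζ) :=
    (hu.fderiv_right (m := 1) (by norm_num)).differentiableAt (by simp)
  have d2 : DifferentiableAt ℝ T ζ := hT.differentiableAt (by decide)
  have d3 : DifferentiableAt ℝ (fderiv ℝ T) ζ :=
    (hT.fderiv_right (m := 1) (by norm_num)).differentiableAt (by simp)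
  have d4 : DifferentiableAt ℝ (fun y => fderiv ℝ u (T y)) ζ := d1.comp ζ d2
  have d5 : DifferentiableAt ℝ (fun y => fderiv ℝ T y v) ζ :=
    d3.clm_apply (differentiableAt_const v)
  rw [fderiv_clm_apply d4 d5]
  simp only [_root_.add_apply, ContinuousLinearMap.coe_comp, Function.comp_apply,
    ContinuousLinearMap.flip_apply]
  have e2 : fderiv ℝ (fun y => fderiv ℝ u (T y)) ζ =
      (fderiv ℝ (fderiv ℝ u) (T ζ)).comp (fderiv ℝ T ζ) := fderiv_comp ζ d1 d2
  have e3 : fderiv ℝ (fun z => fderiv ℝ u z (fderiv ℝ T ζ v)) (T ζ) (fderiv ℝ T ζ w) =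
      fderiv ℝ (fderiv ℝ u) (T ζ) (fderiv ℝ T ζ w) (fderiv ℝ T ζ v) := by
    rw [fderiv_clm_apply d1 (differentiableAt_const _)]
    simp
  rw [e2, e3]
  simp only [ContinuousLinearMap.coe_comp, Function.comp_apply]
  ring

/-- the Levi form and holomorphic maps -/
theorem lv_comp {T : (Fin n → ℂ) → Cn m} {u : Cn m → ℝ} {ζ : Fin n → ℂ}
    (hT : AnalyticAt ℂ T ζ) (hu : ContDiffAt ℝ 2 u (T ζ)) (v : Fin n → ℂ) :
    fderiv ℝ (fun y => fderiv ℝ (u ∘ T) y v) ζ v +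
      fderiv ℝ (fun y => fderiv ℝ (u ∘ T) y (Complex.I • v)) ζ (Complex.I • v) =
    Defs_333.lev u (T ζ) (fderiv ℂ T ζ v) := by
  have hT2 : ContDiffAt ℝ 2 T ζ := (hT.contDiffAt.restrict_scalars ℝ)
  have hTd : ∀ᶠ y in 𝓝 ζ, DifferentiableAt ℂ T y :=
    hT.eventually_analyticAt.mono fun y hy => hy.differentiableAt
  have hR : ∀ᶠ y in 𝓝 ζ, ∀ w, fderiv ℝ T y w = fderiv ℂ T y w := by
    filter_upwards [hTd] with y hy w
    rw [hy.fderiv_restrictScalars ℝ]
    rfl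
  have hv : (fun y => fderiv ℝ T y v) =ᶠ[𝓝 ζ] fun y => fderiv ℂ T y v :=
    hR.mono fun y hy => hy v
  have hIv : (fun y => fderiv ℝ T y (Complex.I • v)) =ᶠ[𝓝 ζ]
      fun y => Complex.I • fderiv ℂ T y v := by
    filter_upwards [hR] with y hy
    rw [hy, map_smul]
  have hd : DifferentiableAt ℂ (fun y => fderiv ℂ T y v) ζ :=
    (hT.fderiv.differentiableAt).clm_apply (differentiableAt_const v)
  have hT0 : ∀ w, fderiv ℝ T ζ w = fderiv ℂ T ζ w := hR.self_of_nhds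
  have e1 : fderiv ℝ (fun y => fderiv ℝ T y v) ζ v =
      fderiv ℂ (fun y => fderiv ℂ T y v) ζ v := by
    rw [hv.fderiv_eq, hd.fderiv_restrictScalars ℝ]
    rfl
  have e2 : fderiv ℝ (fun y => fderiv ℝ T y (Complex.I • v)) ζ (Complex.I • v) =
      - fderiv ℂ (fun y => fderiv ℂ T y v) ζ v := by
    have hd' : DifferentiableAt ℂ (fun y => Complex.I • fderiv ℂ T y v) ζ :=
      hd.const_smul Complex.I
    rw [hIv.fderiv_eq, hd'.fderiv_restrictScalars ℝ]
    have : fderiv ℂ (fun y => Complex.I • fderiv ℂ T y v) ζ =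
        Complex.I • fderiv ℂ (fun y => fderiv ℂ T y v) ζ := fderiv_fun_const_smul hd Complex.I
    rw [this]
    simp only [ContinuousLinearMap.coe_restrictScalars', _root_.smul_apply, map_smul, smul_smul,
      Complex.I_mul_I, neg_smul, one_smul]
  rw [fd2_comp hT2 hu, fd2_comp hT2 hu, e1, e2, lev_eq_fd hu, hT0, hT0, map_smul, map_neg]
  ring

end calcs

variable {n : ℕ} {M : Type} [TopologicalSpace M] {A : Atl n M} {S : SD A}

/-- **Levi form in the coordinates of `Mo S`** -/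
theorem lev_of {f : M → ℝ} (x : Mo S) {i : A.ι} (hx : x.val ∈ (A.e i).source)
    (hf : ContDiffAt ℝ 2 (fun w => f ((A.e i).symm w)) (A.e i x.val)) (w : Fin n → ℂ) :
    Crest.Agent.R271.W792.lev (fun x : Mo S => f x.val) x w =
      (1 / 4) * Defs_333.lev (fun w => f ((A.e i).symm w)) (A.e i x.val)
        ((S.LL i hx x.prop).symm w) := by
  have hd := mem_domT_ch x hx
  set φ : Mo S → ℝ := fun x => f x.val with hφ
  have hφe : φ ∘ (ch x).symm =ᶠ[𝓝 (cp x)] (fun w => f ((A.e i).symm w)) ∘ TT A (ch x) i :=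
    comp_TT (ch x) hd f
  have hD : ∀ v : Fin n → ℂ, D (fun y => D φ y v) x v =
      fderiv ℝ (fun z => fderiv ℝ (((fun w => f ((A.e i).symm w)) ∘ TT A (ch x) i)) z v)
        (cp x) v := by
    intro v
    rw [D]
    have h1 : ((fun y => D φ y v) ∘ (ch x).symm) =ᶠ[𝓝 (cp x)]
        fun z => fderiv ℝ (((fun w => f ((A.e i).symm w)) ∘ TT A (ch x) i)) z v := by
      filter_upwards [(ch x).open_target.mem_nhds ((isCh_ch x).cp_mem (mem_ch x)),
        hφe.eventually_nhds] with z hz hz2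
      simp only [Function.comp_apply]
      rw [D_symm (isCh_ch x) hz φ, Filter.EventuallyEq.fderiv_eq hz2]
    rw [h1.fderiv_eq]
  unfold Crest.Agent.R271.W792.lev
  rw [hD, hD]
  have hT : AnalyticAt ℂ (TT A (ch x) i) (cp x) := TT_anal (isCh_ch x) i _ hd
  have hu : ContDiffAt ℝ 2 (fun w => f ((A.e i).symm w)) (TT A (ch x) i (cp x)) := by
    rw [TT_ch]; exact hf
  rw [lv_comp hT hu, TT_ch, (LL_ch x hx).fderiv]
  rfl

theorem Levi_of {f : M → ℝ} (hf : ∀ i, ContDiffOn ℝ ∞ (fun w => f ((A.e i).symm w)) (S.dom i))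
    (x : Mo S) {i : A.ι} (hx : x.val ∈ (A.e i).source) (w : Fin n → ℂ) :
    Levi (fun x : Mo S => f x.val) x w =
      (1 / 4) * Defs_333.lev (fun w => f ((A.e i).symm w)) (A.e i x.val)
        ((S.LL i hx x.prop).symm w) := by
  rw [Crest.Agent.R271.W792.Levi_eq_lev (sm_of hf), lev_of x hx]
  exact (((hf i).contDiffAt ((S.isOpen_dom i).mem_nhds (S.mem_dom hx x.prop)))).of_le
    two_le_top'

/-! ### the weight of a metric in a trivialisation -/

variable {L : LB A}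

/-- the weight `-log |σ|²` of the metric `h` with respect to the frame `σ` -/
def wtS (h : HM L) (σ : A.ι → M → ℂ) (x : M) : ℝ :=
  - Real.log (HM_333.nsq h σ (A.cover x).choose x)

variable (h : HM L) {σ : A.ι → M → ℂ}

theorem wtS_eq (hσ : IsHS L S.U σ) {i : A.ι} {x : M} (hx : x ∈ (A.e i).source)
    (hxU : x ∈ S.U) : wtS h σ x = - Real.log (HM_333.nsq h σ i x) := by
  rw [wtS, HM_333.nsq_indep h hσ ⟨(A.cover x).choose_spec, hx⟩ hxU]

/-- in the chart `i` -/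
theorem wtS_chart (hσ : IsHS L S.U σ) (h0 : ∀ i, ∀ x ∈ (A.e i).source, x ∈ S.U → σ i x ≠ 0)
    {i : A.ι} {z : Cn n} (hz : z ∈ S.dom i) :
    wtS h σ ((A.e i).symm z) = h.wt i z - Real.log (‖σ i ((A.e i).symm z)‖ ^ 2) := by
  have hx := (A.e i).map_target hz.1
  rw [wtS_eq h hσ hx hz.2, HM_333.nsq, Real.log_mul, HM.wt]
  · ring
  · have := h0 i _ hx hz.2
    positivity
  · exact (h.pos i _ hx).ne'

theorem log_norm_smooth (hσ : IsHS L S.U σ)
    (h0 : ∀ i, ∀ x ∈ (A.e i).source, x ∈ S.U → σ i x ≠ 0) (i : A.ι) :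
    ContDiffOn ℝ ∞ (fun z => Real.log (‖σ i ((A.e i).symm z)‖ ^ 2)) (S.dom i) := by
  have h1 : ContDiffOn ℝ ∞ (fun z => σ i ((A.e i).symm z)) (S.dom i) :=
    (hσ.hol i).contDiffOn S.isOpen
  have h2 : ContDiffOn ℝ ∞ (fun z => ‖σ i ((A.e i).symm z)‖ ^ 2) (S.dom i) := h1.norm_sq ℝ
  exact h2.log fun z hz => by
    have := h0 i _ ((A.e i).map_target hz.1) hz.2
    positivity

theorem wtS_smooth (hσ : IsHS L S.U σ) (h0 : ∀ i, ∀ x ∈ (A.e i).source, x ∈ S.U → σ i x ≠ 0)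
    (i : A.ι) : ContDiffOn ℝ ∞ (fun z => wtS h σ ((A.e i).symm z)) (S.dom i) :=
  (((HM_333.wt_smooth h i).mono inter_subset_left).sub (log_norm_smooth hσ h0 i)).congr
    fun _ hz => wtS_chart h hσ h0 hz

theorem wtS_sm (hσ : IsHS L S.U σ) (h0 : ∀ i, ∀ x ∈ (A.e i).source, x ∈ S.U → σ i x ≠ 0) :
    Sm (fun x : Mo S => wtS h σ x.val) := sm_of (wtS_smooth h hσ h0)

theorem lev_wtS (hσ : IsHS L S.U σ) (h0 : ∀ i, ∀ x ∈ (A.e i).source, x ∈ S.U → σ i x ≠ 0)
    {i : A.ι} {z : Cn n} (hz : z ∈ S.dom i) (v : Cn n) :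
    Defs_333.lev (fun z => wtS h σ ((A.e i).symm z)) z v = Defs_333.lev (h.wt i) z v := by
  have hnb := (S.isOpen_dom i).mem_nhds hz
  have c1 : ContDiffAt ℝ ∞ (h.wt i) z :=
    ((HM_333.wt_smooth h i).mono inter_subset_left).contDiffAt hnb
  have c2 : ContDiffAt ℝ ∞ (fun z => Real.log (‖σ i ((A.e i).symm z)‖ ^ 2)) z :=
    (log_norm_smooth hσ h0 i).contDiffAt hnb
  have c3 : ContDiffAt ℝ ∞ (fun z => wtS h σ ((A.e i).symm z)) z :=
    (wtS_smooth h hσ h0 i).contDiffAt hnb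
  have e1 : Hess_333.hess (fun z => wtS h σ ((A.e i).symm z)) z = Hess_333.hess (h.wt i) z := by
    have e2 : (fun z => wtS h σ ((A.e i).symm z)) =ᶠ[𝓝 z]
        fun z => h.wt i z - Real.log (‖σ i ((A.e i).symm z)‖ ^ 2) := by
      filter_upwards [hnb] with w hw using wtS_chart h hσ h0 hw
    rw [HessB_333.hess_congr e2, HessB_333.hess_sub c1 c2, HessB_333.hess_log_norm, sub_zero]
    · filter_upwards [hnb] with w hw
      exact (DifferentiableOn.differentiableAt (hσ.hol i) ((S.isOpen_dom i).mem_nhds hw))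
    · exact h0 i _ ((A.e i).map_target hz.1) hz.2
  have e3 : ((Defs_333.lev (fun z => wtS h σ ((A.e i).symm z)) z v : ℝ) : ℂ) =
      ((Defs_333.lev (h.wt i) z v : ℝ) : ℂ) := by
    rw [Hess_333.lev_eq c3, Hess_333.lev_eq c1]
    unfold Hess_333.hq
    rw [e1]
  exact_mod_cast e3

/-- the Levi form of the weight on `Mo S` -/
theorem Levi_wtS (hσ : IsHS L S.U σ) (h0 : ∀ i, ∀ x ∈ (A.e i).source, x ∈ S.U → σ i x ≠ 0)
    (x : Mo S) {i : A.ι} (hx : x.val ∈ (A.e i).source) (w : Fin n → ℂ) :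
    Levi (fun x : Mo S => wtS h σ x.val) x w =
      (1 / 4) * Defs_333.lev (h.wt i) (A.e i x.val) ((S.LL i hx x.prop).symm w) := by
  rw [Levi_of (wtS_smooth h hσ h0) x hx, lev_wtS h hσ h0 (S.mem_dom hx x.prop)]

theorem Levi_wtS_nonneg (hh : h.Semipos) (hσ : IsHS L S.U σ)
    (h0 : ∀ i, ∀ x ∈ (A.e i).source, x ∈ S.U → σ i x ≠ 0) (x : Mo S) (w : Fin n → ℂ) :
    0 ≤ Levi (fun x : Mo S => wtS h σ x.val) x w := by
  obtain ⟨i, hx⟩ := A.cover x.val
  rw [Levi_wtS h hσ h0 x hx]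
  have := hh i (A.e i x.val) ((A.e i).map_source hx) ((S.LL i hx x.prop).symm w)
  positivity

end

end Crest.Agent.R273.SteinB_794
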