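import Crest.Agent.R273.SteinL_794
import Crest.Agent.R273.SerE_945

/-!
# R273, STEIN complements, part F (helper794): the geometric choice (leaf A-GEOM)

* `exists_geom` : finitely many nonzero sections of arbitrary line bundles, finitely many line bundles
  and independent quotients `q₁ … q_b` : there is a Stein complement `D : StD A P` with first
  coordinates `q`, contained in the nonvanishing loci of all the sections, on which all the line
  bundles have nowhere vanishing frames.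
-/

set_option autoImplicit false
set_option linter.unusedSectionVars false

open Set Filter Topology
open scoped ContDiff

namespace Crest.Agent.R273.SteinF_794

open Crest.Agent.R275.Geo Crest.Agent.R275.Core144 Crest.Agent.R273.SteinA_794
open Crest.Agent.R273.SteinC_794 Crest.Agent.R273.SteinD_794 Crest.Agent.R273.SteinE_794
open Crest.Agent.R273.Defs_333 (ProjD)
open Crest.Agent.R273.FS_333 (lb sec isHS_sec exists_sec_ne sec_eq)
open Crest.Agent.R273.TD3_733 (D2)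

noncomputable section

variable {n : ℕ} {M : Type} [TopologicalSpace M] {A : Atl n M}

/-- not identically zero -/
def Nz0 (A : Atl n M) (s : A.ι → M → ℂ) : Prop := ∃ i, ∃ x ∈ (A.e i).source, s i x ≠ 0

theorem nz0_of_mem {L : LB A} {s : A.ι → M → ℂ} (hs : IsHS L univ s) {x : M} (hx : x ∈ nz s) :
    Nz0 A s := by
  obtain ⟨i, hi⟩ := A.cover x
  exact ⟨i, x, hi, (mem_nz hs hi).1 hx⟩

theorem Nz0.exists_mem {L : LB A} {s : A.ι → M → ℂ} (h : Nz0 A s) (hs : IsHS L univ s) :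
    ∃ x, x ∈ nz s := by
  obtain ⟨i, x, hi, hx⟩ := h
  exact ⟨x, (mem_nz hs hi).2 hx⟩

/-! ### products of sections -/

theorem isHS_mulprod {α : Type*} {L0 : LB A} {U : Set M} {s0 : A.ι → M → ℂ} (h0 : IsHS L0 U s0)
    (F : Finset α) {B : α → LB A} {σ : α → A.ι → M → ℂ} (hσ : ∀ a ∈ F, IsHS (B a) U (σ a)) :
    IsHS (L0 * ∏ a ∈ F, B a) U (s0 * ∏ a ∈ F, σ a) := by
  classical
  induction F using Finset.induction_on with
  | empty => simpa using h0
  | insert a F ha ih =>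
    rw [Finset.prod_insert ha, Finset.prod_insert ha]
    have h1 := (ih fun b hb => hσ b (by simp [hb])).mul (hσ a (by simp))
    have h2 : (s0 * ∏ b ∈ F, σ b) * σ a = s0 * (σ a * ∏ b ∈ F, σ b) := by
      rw [mul_assoc, mul_comm (∏ b ∈ F, σ b)]
    have h3 : (L0 * ∏ b ∈ F, B b) * B a = L0 * (B a * ∏ b ∈ F, B b) := by
      rw [mul_assoc, mul_comm (∏ b ∈ F, B b)]
    rwa [h2, h3] at h1

theorem nz0_mulprod [ConnectedSpace M] {α : Type*} {L0 : LB A} {s0 : A.ι → M → ℂ}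
    (h0 : IsHS L0 univ s0) (hz : Nz0 A s0)
    (F : Finset α) {B : α → LB A} {σ : α → A.ι → M → ℂ} (hσ : ∀ a ∈ F, IsHS (B a) univ (σ a))
    (hσz : ∀ a ∈ F, Nz0 A (σ a)) : Nz0 A (s0 * ∏ a ∈ F, σ a) := by
  classical
  induction F using Finset.induction_on with
  | empty => simpa using hz
  | insert a F ha ih =>
    rw [Finset.prod_insert ha]
    have h1 := mul_ne_zero_sec (isHS_mulprod h0 F fun b hb => hσ b (by simp [hb])) (hσ a (by simp))
      (ih (fun b hb => hσ b (by simp [hb])) fun b hb => hσz b (by simp [hb])) (hσz a (by simp))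
    have h2 : (s0 * ∏ b ∈ F, σ b) * σ a = s0 * (σ a * ∏ b ∈ F, σ b) := by
      rw [mul_assoc, mul_comm (∏ b ∈ F, σ b)]
    rwa [h2] at h1

theorem isHS_pow0 {L : LB A} {U : Set M} {s : A.ι → M → ℂ} (hs : IsHS L U s) :
    ∀ m : ℕ, IsHS (L ^ m) U (oneS A * s ^ m)
  | 0 => by simpa using isHS_oneS (A := A) U
  | m + 1 => by
    rw [pow_succ, pow_succ, ← mul_assoc]
    exact (isHS_pow0 hs m).mul hs

theorem oneS_eq {i : A.ι} {x : M} (hx : x ∈ (A.e i).source) : oneS A i x = 1 := by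
  simp [oneS, hx]

/-- nonvanishing of a factor -/
theorem nz_mul_left {L L' : LB A} {s t : A.ι → M → ℂ} (hs : IsHS L univ s) (ht : IsHS L' univ t) :
    nz (s * t) ⊆ nz s := by
  intro x hx
  obtain ⟨i, hi⟩ := A.cover x
  rw [mem_nz (hs.mul ht) hi, Pi.mul_apply, Pi.mul_apply] at hx
  exact (mem_nz hs hi).2 (left_ne_zero_of_mul hx)

theorem nz_mul_right {L L' : LB A} {s t : A.ι → M → ℂ} (hs : IsHS L univ s)
    (ht : IsHS L' univ t) : nz (s * t) ⊆ nz t := by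
  intro x hx
  obtain ⟨i, hi⟩ := A.cover x
  rw [mem_nz (hs.mul ht) hi, Pi.mul_apply, Pi.mul_apply] at hx
  exact (mem_nz ht hi).2 (right_ne_zero_of_mul hx)

theorem nz_mulprod {α : Type*} {L0 : LB A} {s0 : A.ι → M → ℂ} (h0 : IsHS L0 univ s0)
    (F : Finset α) {B : α → LB A} {σ : α → A.ι → M → ℂ} (hσ : ∀ a ∈ F, IsHS (B a) univ (σ a))
    {a : α} (ha : a ∈ F) : nz (s0 * ∏ a ∈ F, σ a) ⊆ nz (σ a) := by
  intro x hx
  obtain ⟨i, hi⟩ := A.cover x
  rw [mem_nz (isHS_mulprod h0 F hσ) hi, Pi.mul_apply, Pi.mul_apply, Finset.prod_apply,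
    Finset.prod_apply] at hx
  exact (mem_nz (hσ a ha) hi).2 (Finset.prod_ne_zero_iff.1 (right_ne_zero_of_mul hx) a ha)

theorem nz_mulprod0 {α : Type*} {L0 : LB A} {s0 : A.ι → M → ℂ} (h0 : IsHS L0 univ s0)
    (F : Finset α) {B : α → LB A} {σ : α → A.ι → M → ℂ} (hσ : ∀ a ∈ F, IsHS (B a) univ (σ a)) :
    nz (s0 * ∏ a ∈ F, σ a) ⊆ nz s0 := by
  intro x hx
  obtain ⟨i, hi⟩ := A.cover x
  rw [mem_nz (isHS_mulprod h0 F hσ) hi, Pi.mul_apply, Pi.mul_apply] at hx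
  exact (mem_nz h0 hi).2 (left_ne_zero_of_mul hx)

/-! ### frames -/

/-- a frame from a section of a large twist -/
theorem frame_of (P : ProjD A) (l0 : Fin (P.N + 1) → ℂ) {L : LB A} {m : ℕ} {u : A.ι → M → ℂ}
    (hu : IsHS (L * lb P ^ m) univ u) {U : Set M} (hU0 : U ⊆ nz (lin P l0)) (hUu : U ⊆ nz u) :
    ∃ σ, IsHS L U σ ∧ ∀ i, ∀ x ∈ (A.e i).source, x ∈ U → σ i x ≠ 0 := by
  have hl : ∀ i, ∀ x ∈ (A.e i).source, x ∈ U → lin P l0 i x ≠ 0 := fun i x hx hxU =>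
    (mem_nz (isHS_lin P l0) hx).1 (hU0 hxU)
  have h1 : IsHS ((lb P)⁻¹ ^ m) U (oneS A * (lin P l0)⁻¹ ^ m) :=
    isHS_pow0 (((isHS_lin P l0).mono (subset_univ U)).inv hl) m
  refine ⟨u * (oneS A * (lin P l0)⁻¹ ^ m), ?_, fun i x hx hxU => ?_⟩
  · have h2 := (hu.mono (subset_univ U)).mul h1
    rwa [inv_pow, mul_inv_cancel_right] at h2
  · have h3 : (u * (oneS A * (lin P l0)⁻¹ ^ m)) i x = u i x * (lin P l0 i x)⁻¹ ^ m := by
      simp [oneS_eq hx]
    rw [h3]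
    exact mul_ne_zero ((mem_nz hu hx).1 (hUu hxU)) (pow_ne_zero _ (inv_ne_zero (hl i x hx hxU)))

/-! ### the geometric choice -/

/-- **A-GEOM** -/
theorem exists_geom [CompactSpace M] [T2Space M] [ConnectedSpace M] [Finite A.ι] (Pt : Part A)
    (hD : D2 A) (P : ProjD A) {κ : Type} [Fintype κ] (Lr : κ → LB A) (sr : κ → A.ι → M → ℂ)
    (hsr : ∀ k, IsHS (Lr k) univ (sr k)) (hsz : ∀ k, Nz0 A (sr k))
    {κ' : Type} [Fintype κ'] (Lf : κ' → LB A) {b : ℕ} (q : Fin b → QS A) {i1 : A.ι} {x1 : M}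
    (hx1 : x1 ∈ (A.e i1).source) (hqt : ∀ k, (q k).t i1 x1 ≠ 0)
    (hLI : LinearIndependent ℂ fun k => df A i1 (q k).fn x1) :
    ∃ (hb : b ≤ n) (D : StD A P), (∀ k : Fin b, D.q (Fin.castLE hb k) = q k) ∧
      D.S.U.Nonempty ∧ (∀ k, D.S.U ⊆ nz (sr k)) ∧ (∀ k, D.S.U ⊆ nz (q k).t) ∧
      D.S.U ⊆ nz (lin P D.l0) ∧
      ∀ j, ∃ σ, IsHS (Lf j) D.S.U σ ∧ ∀ i, ∀ x ∈ (A.e i).source, x ∈ D.S.U → σ i x ≠ 0 := by
  classical
  have hb : b ≤ n := by
    have h := hLI.fintype_card_le_finrank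
    rwa [finrank_dual, Fintype.card_fin] at h
  obtain ⟨l0, hl0⟩ := exists_lin_ne P hx1
  have hx1l : x1 ∈ nz (lin P l0) := (mem_nz (isHS_lin P l0) hx1).2 hl0
  obtain ⟨q', hq1, hq2, hq3⟩ := exists_coords P l0 hx1 hx1l (n - b) b (by omega) q hLI
  -- sections trivialising `Lf j`
  have hu : ∀ j, ∃ m u, IsHS (Lf j * lb P ^ m) univ u ∧ Nz0 A u := fun j => by
    obtain ⟨m0, h⟩ := Crest.Agent.R273.SerE_945.gg_proj Pt hD P (Lf j)
    obtain ⟨s, h1, h2⟩ := h m0 le_rfl x1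
    exact ⟨m0, s, h1, i1, x1, hx1, h2 i1 hx1⟩
  choose mf u hu hu0 using hu
  -- everything which is removed
  let B : (κ ⊕ κ') ⊕ Fin b → LB A := Sum.elim (Sum.elim Lr fun j => Lf j * lb P ^ mf j)
    fun k => (q k).B
  let w : (κ ⊕ κ') ⊕ Fin b → A.ι → M → ℂ := Sum.elim (Sum.elim sr u) fun k => (q k).t
  have hw : ∀ a, IsHS (B a) univ (w a) := by
    rintro ((k | j) | k)
    · exact hsr k
    · exact hu j
    · exact (q k).ht
  have hwz : ∀ a, Nz0 A (w a) := by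
    rintro ((k | j) | k)
    · exact hsz k
    · exact hu0 j
    · exact ⟨i1, x1, hx1, hqt k⟩
  have hlz : Nz0 A (lin P l0) := ⟨i1, x1, hx1, hl0⟩
  set t0 : A.ι → M → ℂ := lin P l0 * ∏ a, w a with ht0
  have ht0S : IsHS (lb P * ∏ a, B a) univ t0 :=
    isHS_mulprod (isHS_lin P l0) Finset.univ fun a _ => hw a
  have ht0z : Nz0 A t0 := nz0_mulprod (isHS_lin P l0) hlz Finset.univ (fun a _ => hw a)
    fun a _ => hwz a
  obtain ⟨m, hm⟩ := Crest.Agent.R273.SerE_945.gg_proj Pt hD P (lb P * ∏ a, B a)⁻¹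
  obtain ⟨v, hv, hv0⟩ := hm m le_rfl x1
  have hvz : Nz0 A v := ⟨i1, x1, hx1, hv0 i1 hx1⟩
  set t : A.ι → M → ℂ := t0 * v with ht
  have htS : IsHS (lb P ^ m) univ t := by
    have h1 := ht0S.mul hv
    rwa [mul_inv_cancel_left] at h1
  have htz : Nz0 A t := mul_ne_zero_sec ht0S hv ht0z hvz
  have s1 : nz t ⊆ nz t0 := nz_mul_left ht0S hv
  have s2 : nz t ⊆ nz (lin P l0) :=
    s1.trans (nz_mulprod0 (isHS_lin P l0) Finset.univ fun a _ => hw a)
  have s3 : ∀ a, nz t ⊆ nz (w a) := fun a =>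
    s1.trans (nz_mulprod (isHS_lin P l0) Finset.univ (fun a _ => hw a) (Finset.mem_univ a))
  have hsub : ∀ k, nz t ⊆ nz (q' k).t := by
    intro k
    rcases hq2 k with ⟨l, hl⟩ | ⟨l, hl⟩
    · rw [hl]; exact s3 (Sum.inr l)
    · rw [hl]; exact s2
  let D : StD A P := ⟨q', m, t, htS, l0, s2, hsub⟩
  have hDU : D.S.U ⊆ nz t := D.U_sub
  -- nonempty
  have hjd : Nz0 A (jd A (fun k => (q' k).s) fun k => (q' k).t) := by
    refine ⟨i1, x1, hx1, ?_⟩
    have hx1q : ∀ k, x1 ∈ nz (q' k).t := by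
      intro k
      rcases hq2 k with ⟨l, hl⟩ | ⟨l, hl⟩
      · rw [hl]; exact (mem_nz (q l).ht hx1).2 (hqt l)
      · rw [hl]; exact hx1l
    have hV : IsOpen (⋂ k, nz (q' k).t) := isOpen_iInter_of_finite fun k => isOpen_nz (q' k).ht
    have h1 := (mem_regU_iff hV (fun k => (q' k).hs) (fun k => (q' k).ht)
      (fun k => iInter_subset _ k) hx1).1 ((mem_regU hV
        (fun i k => (qt_hol (q' k).hs (q' k).ht i).mono (iInter_subset _ k)) hx1
        (mem_iInter.2 hx1q)).2 fun v hv => inj_of_LI hq3 hv)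
    exact h1.2
  have hne : D.S.U.Nonempty := by
    have h1 : Nz0 A D.d := mul_ne_zero_sec htS
      (isHS_jd (fun k => (q' k).hs) fun k => (q' k).ht) htz hjd
    obtain ⟨x, hx⟩ := h1.exists_mem D.isHS_d
    exact ⟨x, by rw [D.U_eq]; exact hx⟩
  refine ⟨hb, D, hq1, hne, fun k => hDU.trans (s3 (Sum.inl (Sum.inl k))),
    fun k => hDU.trans (s3 (Sum.inr k)), hDU.trans s2, fun j => ?_⟩
  exact frame_of P l0 (hu j) (hDU.trans s2) (hDU.trans (s3 (Sum.inl (Sum.inr j))))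

end

end Crest.Agent.R273.SteinF_794
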