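import Crest.Agent.R273.SteinF_794
import Crest.Agent.R273.PenAlg_93

/-!
# R273, STEIN complements, part G (helper794): tame weights, finite dimensionality, landing (A-LAND)

* `Tame S W`   : the weight `W` dominates the weight of a metric of a line bundle in a frame;
                 closed under products; `Tame.quot`, `TameF` (functions of moderate growth);
* `fin_A2`     : `A2 (wm μ W)` is finite dimensional for tame `W`;
* `land`       : elements of `A2 (wm μ W)` are sections of `K ⊗ N`;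
* `one_mem_A2` : from `∫_M e^{-η u} < ∞`.
-/

set_option autoImplicit false
set_option linter.unusedSectionVars false

open Set Filter Topology Complex MeasureTheory
open scoped ContDiff Matrix ENNReal

namespace Crest.Agent.R273.SteinG_794

open Crest.Agent.R275.Geo Crest.Agent.R275.Core144 Crest.Agent.R273.SteinA_794
open Crest.Agent.R273.SteinB_794 Crest.Agent.R273.SteinC_794 Crest.Agent.R273.SteinD_794
open Crest.Agent.R273.SteinM_794 Crest.Agent.R273.SteinN_794 Crest.Agent.R273.SteinL_794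
open Crest.Agent.R273.SteinF_794
open Crest.Agent.R273.Defs_333 (ProjD HM HM.wt HasSec)
open Crest.Agent.R273.Vm_333 (vm)
open Crest.Agent.R271.Ho51 (RDom cp ch IsCh IsLeb Hol Sm mem_ch isCh_ch)
open Crest.Agent.R273.Pen_93 Crest.Agent.R273.PenAlg_93

noncomputable section

variable {n : ℕ} {M : Type} [TopologicalSpace M] {A : Atl n M} {S : SD A}

/-! ### bounded sections -/

theorem hm_cont {L : LB A} (h : HM L) {i : A.ι} {x : M} (hx : x ∈ (A.e i).source) :
    ContinuousAt (h.w i) x := by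
  have h1 : ContinuousAt (fun z => h.w i ((A.e i).symm z)) (A.e i x) :=
    (h.sm i).continuousOn.continuousAt ((A.e i).open_target.mem_nhds ((A.e i).map_source hx))
  have h2 : ContinuousAt (fun y => h.w i ((A.e i).symm (A.e i y))) x :=
    ContinuousAt.comp (f := A.e i) h1 ((A.e i).continuousAt hx)
  refine h2.congr ?_
  filter_upwards [(A.e i).open_source.mem_nhds hx] with y hy
  rw [(A.e i).left_inv hy]

/-- sections on a compact manifold are bounded -/
theorem bdd_sec [CompactSpace M] {L : LB A} (h : HM L) {s : A.ι → M → ℂ} (hs : IsHS L univ s) :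
    ∃ C : ℝ, 0 ≤ C ∧ ∀ i, ∀ x ∈ (A.e i).source, ‖s i x‖ ^ 2 * h.w i x ≤ C := by
  set f : M → ℝ := fun x => HM_333.nsq h s (A.cover x).choose x with hf
  have hfi : ∀ i, ∀ x ∈ (A.e i).source, f x = HM_333.nsq h s i x := fun i x hx =>
    HM_333.nsq_indep h hs ⟨(A.cover x).choose_spec, hx⟩ (mem_univ x)
  have hc : Continuous f := by
    rw [continuous_iff_continuousAt]
    intro x
    obtain ⟨i, hi⟩ := A.cover x
    have h1 : ContinuousAt (fun y => HM_333.nsq h s i y) x :=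
      ((continuousAt_of_holAt isOpen_univ (hs.hol i) hi (mem_univ x)).norm.pow 2).mul
        (hm_cont h hi)
    refine h1.congr ?_
    filter_upwards [(A.e i).open_source.mem_nhds hi] with y hy
    exact (hfi i y hy).symm
  obtain ⟨C, hC⟩ := (isCompact_range hc).bddAbove
  refine ⟨max C 0, le_max_right _ _, fun i x hx => ?_⟩
  have h1 := hC ⟨x, rfl⟩
  rw [hfi i x hx] at h1
  exact h1.trans (le_max_left _ _)

/-! ### tame weights -/

/-- `W` dominates the weight of a metric of a line bundle in a frame -/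
def Tame (S : SD A) (W : Mo S → ℝ) : Prop :=
  ∃ (N : LB A) (hN : HM N) (σ : A.ι → M → ℂ), IsHS N S.U σ ∧
    (∀ i, ∀ x ∈ (A.e i).source, x ∈ S.U → σ i x ≠ 0) ∧
    ∃ C : ℝ, 0 ≤ C ∧ ∀ x : Mo S, Real.exp (-(wtS hN σ x.val)) ≤ C * W x

theorem Tame.pos {W : Mo S → ℝ} (h : Tame S W) (x : Mo S) : 0 < W x := by
  obtain ⟨N, hN, σ, -, -, C, hC, h1⟩ := h
  have h2 := (Real.exp_pos _).trans_le (h1 x)
  exact pos_of_mul_pos_right h2 hC

theorem Tame.mono {W W' : Mo S → ℝ} (h : Tame S W) {C : ℝ} (hC : 0 ≤ C)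
    (hW : ∀ x, W x ≤ C * W' x) : Tame S W' := by
  obtain ⟨N, hN, σ, h1, h2, C', hC', h3⟩ := h
  refine ⟨N, hN, σ, h1, h2, C' * C, by positivity, fun x => (h3 x).trans ?_⟩
  rw [mul_assoc]
  exact mul_le_mul_of_nonneg_left (hW x) hC'

theorem Tame.of_frame {N : LB A} (hN : HM N) {σ : A.ι → M → ℂ} (hσ : IsHS N S.U σ)
    (h0 : ∀ i, ∀ x ∈ (A.e i).source, x ∈ S.U → σ i x ≠ 0) :
    Tame S fun x => Real.exp (-(wtS hN σ x.val)) :=
  ⟨N, hN, σ, hσ, h0, 1, zero_le_one, fun x => by rw [one_mul]⟩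

theorem Tame.one : Tame S fun _ => (1 : ℝ) := by
  refine ⟨1, HM_333.one A, oneS A, isHS_oneS _, fun i x hx _ => by simp [oneS, hx], 1,
    zero_le_one, fun x => ?_⟩
  obtain ⟨i, hi⟩ := A.cover x.val
  rw [exp_wtS (HM_333.one A) (isHS_oneS _) (fun i x hx _ => by simp [oneS, hx]) hi x.prop]
  simp [oneS, hi, HM_333.one]

theorem Tame.mul {W W' : Mo S → ℝ} (h : Tame S W) (h' : Tame S W') :
    Tame S fun x => W x * W' x := by
  obtain ⟨N, hN, σ, h1, h2, C, hC, h3⟩ := h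
  obtain ⟨N', hN', σ', h1', h2', C', hC', h3'⟩ := h'
  have h0 : ∀ i, ∀ x ∈ (A.e i).source, x ∈ S.U → (σ * σ') i x ≠ 0 := fun i x hx hxU =>
    mul_ne_zero (h2 i x hx hxU) (h2' i x hx hxU)
  refine ⟨N * N', HM_333.mul hN hN', σ * σ', h1.mul h1', h0, C * C', by positivity, fun x => ?_⟩
  obtain ⟨i, hi⟩ := A.cover x.val
  have e1 := h3 x
  have e2 := h3' x
  rw [exp_wtS hN h1 h2 hi x.prop] at e1
  rw [exp_wtS hN' h1' h2' hi x.prop] at e2
  rw [exp_wtS _ (h1.mul h1') h0 hi x.prop]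
  have e3 : ‖(σ * σ') i x.val‖ ^ 2 * (HM_333.mul hN hN').w i x.val =
      (‖σ i x.val‖ ^ 2 * hN.w i x.val) * (‖σ' i x.val‖ ^ 2 * hN'.w i x.val) := by
    simp only [Pi.mul_apply, norm_mul, HM_333.mul]
    ring
  rw [e3]
  have p1 := hN.pos i _ hi
  have p2 := hN'.pos i _ hi
  calc (‖σ i x.val‖ ^ 2 * hN.w i x.val) * (‖σ' i x.val‖ ^ 2 * hN'.w i x.val)
      ≤ (C * W x) * (C' * W' x) := mul_le_mul e1 e2 (by positivity) (le_trans (by positivity) e1)
    _ = _ := by ring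

theorem Tame.pow {W : Mo S → ℝ} (h : Tame S W) (m : ℕ) : Tame S fun x => W x ^ m := by
  induction m with
  | zero => simpa using Tame.one
  | succ m ih => simpa only [pow_succ] using ih.mul h

theorem Tame.prod {α : Type*} (F : Finset α) {W : α → Mo S → ℝ} (h : ∀ a ∈ F, Tame S (W a)) :
    Tame S fun x => ∏ a ∈ F, W a x := by
  classical
  induction F using Finset.induction_on with
  | empty => simpa using Tame.one
  | insert a F ha ih =>
    simp only [Finset.prod_insert ha]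
    exact (h a (by simp)).mul (ih fun b hb => h b (by simp [hb]))

/-- the weight of a quotient family -/
theorem Tame.quot [CompactSpace M] {B : LB A} (hB : HM B) {κ : Type*} [Fintype κ]
    {s : κ → A.ι → M → ℂ} {t : A.ι → M → ℂ} (hs : ∀ k, IsHS B univ (s k)) (ht : IsHS B univ t)
    (hU : S.U ⊆ nz t) : Tame S fun x => (1 + ∑ k, ‖qt (s k) t x.val‖ ^ 2)⁻¹ := by
  have h0 : ∀ i, ∀ x ∈ (A.e i).source, x ∈ S.U → t i x ≠ 0 := fun i x hx hxU =>
    (mem_nz ht hx).1 (hU hxU)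
  obtain ⟨C0, hC0, hC0b⟩ := bdd_sec hB ht
  choose C hC hCb using fun k => bdd_sec hB (hs k)
  refine ⟨B, hB, t, ht.mono (subset_univ _), h0, C0 + ∑ k, C k,
    add_nonneg hC0 (Finset.sum_nonneg fun k _ => hC k), fun x => ?_⟩
  obtain ⟨i, hi⟩ := A.cover x.val
  have hti := h0 i _ hi x.prop
  rw [exp_wtS hB (ht.mono (subset_univ _)) h0 hi x.prop]
  have h1 : 0 < 1 + ∑ k, ‖qt (s k) t x.val‖ ^ 2 := by positivity
  rw [← div_eq_mul_inv, le_div_iff₀ h1]
  have h2 : ∀ k, ‖qt (s k) t x.val‖ ^ 2 = ‖s k i x.val‖ ^ 2 / ‖t i x.val‖ ^ 2 := fun k => by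
    rw [qt_eq (hs k) ht hi, norm_div, div_pow]
  simp only [h2]
  have h3 : ‖t i x.val‖ ^ 2 * hB.w i x.val * (1 + ∑ k, ‖s k i x.val‖ ^ 2 / ‖t i x.val‖ ^ 2) =
      ‖t i x.val‖ ^ 2 * hB.w i x.val + ∑ k, ‖s k i x.val‖ ^ 2 * hB.w i x.val := by
    rw [mul_add, mul_one, Finset.mul_sum]
    congr 1
    refine Finset.sum_congr rfl fun k _ => ?_
    have : ‖t i x.val‖ ^ 2 ≠ 0 := pow_ne_zero _ (norm_ne_zero_iff.2 hti)
    field_simp
  rw [h3]
  exact add_le_add (hC0b i _ hi) (Finset.sum_le_sum fun k _ => hCb k i _ hi)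

/-! ### functions of moderate growth -/

/-- moderate growth -/
def TameF (S : SD A) (f : Mo S → ℂ) : Prop := Tame S fun x => (1 + ‖f x‖ ^ 2)⁻¹

theorem TameF.const (c : ℂ) : TameF S fun _ => c :=
  Tame.one.mono (C := 1 + ‖c‖ ^ 2) (by positivity) fun x => by
    rw [mul_inv_cancel₀ (by positivity)]

theorem TameF.mul {f g : Mo S → ℂ} (hf : TameF S f) (hg : TameF S g) :
    TameF S fun x => f x * g x := by
  refine (Tame.mul hf hg).mono (C := 1) zero_le_one fun x => ?_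
  rw [one_mul, ← mul_inv]
  refine inv_anti₀ (by positivity) ?_
  rw [norm_mul, mul_pow]
  nlinarith [sq_nonneg ‖f x‖, sq_nonneg ‖g x‖]

theorem TameF.add {f g : Mo S → ℂ} (hf : TameF S f) (hg : TameF S g) :
    TameF S fun x => f x + g x := by
  refine (Tame.mul hf hg).mono (C := 2) zero_le_two fun x => ?_
  rw [← mul_inv, ← div_eq_mul_inv, inv_eq_one_div, div_le_div_iff₀ (by positivity) (by positivity)]
  have h1 : ‖f x + g x‖ ^ 2 ≤ 2 * (‖f x‖ ^ 2 + ‖g x‖ ^ 2) := by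
    have := norm_add_le (f x) (g x)
    nlinarith [norm_nonneg (f x), norm_nonneg (g x), norm_nonneg (f x + g x),
      sq_nonneg (‖f x‖ - ‖g x‖)]
  nlinarith [sq_nonneg ‖f x‖, sq_nonneg ‖g x‖, mul_nonneg (sq_nonneg ‖f x‖) (sq_nonneg ‖g x‖)]

theorem TameF.pow {f : Mo S → ℂ} (hf : TameF S f) (m : ℕ) : TameF S fun x => f x ^ m := by
  induction m with
  | zero => simpa using TameF.const (S := S) 1
  | succ m ih => simpa only [pow_succ] using ih.mul hf

theorem TameF.qt [CompactSpace M] {B : LB A} (hB : HM B) {s t : A.ι → M → ℂ}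
    (hs : IsHS B univ s) (ht : IsHS B univ t) (hU : S.U ⊆ nz t) :
    TameF S fun x => SteinC_794.qt s t x.val := by
  have h := Tame.quot hB (κ := Unit) (fun _ => hs) ht hU
  simpa [TameF] using h

theorem TameF.eval {κ : Type*} {y : κ → Mo S → ℂ} (hy : ∀ k, TameF S (y k))
    (P : MvPolynomial κ ℂ) : TameF S fun x => MvPolynomial.eval (fun k => y k x) P := by
  induction P using MvPolynomial.induction_on with
  | C a => simpa using TameF.const (S := S) a
  | add p q hp hq => simpa using hp.add hq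
  | mul_X p k hp => simpa using hp.mul (hy k)

/-- 93's partial sums -/
theorem Tame.Bf {c : ℕ → Mo S → ℂ} (h0 : ∀ x, c 0 x ≠ 0) (m : ℕ) (hc : ∀ j ≤ m, TameF S (c j)) :
    Tame S fun x => (Pen_93.Bf c m x)⁻¹ := by
  have h1 : ∀ r ≤ m, Tame S fun x => (1 + Pen_93.Bf c r x)⁻¹ := by
    intro r
    induction r with
    | zero =>
      intro _
      simp only [Bf_zero]
      exact hc 0 (Nat.zero_le m)
    | succ r ih =>
      intro hr
      refine (Tame.mul (ih (by omega)) (hc (r + 1) hr)).mono (C := 1) zero_le_one fun x => ?_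
      have hp := Bf_pos h0 r x
      rw [one_mul, ← mul_inv, Bf_succ]
      refine inv_anti₀ (by positivity) ?_
      nlinarith [sq_nonneg ‖c (r + 1) x‖]
  refine (h1 m le_rfl).mono (C := 1) zero_le_one fun x => ?_
  have hp := Bf_pos h0 m x
  rw [one_mul]
  exact inv_anti₀ hp (by linarith)

theorem Tame.Wt {c : ℕ → Mo S → ℂ} (h0 : ∀ x, c 0 x ≠ 0) (m : ℕ) (hc : ∀ j ≤ m, TameF S (c j))
    (e : ℕ → ℕ) : Tame S fun x => PenAlg_93.Wt c m e x := by
  unfold PenAlg_93.Wt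
  refine Tame.prod _ fun j hj => ?_
  have hj' : j ≤ m := by
    have := Finset.mem_range.1 hj
    omega
  exact (Tame.Bf h0 j fun k hk => hc k (hk.trans hj')).pow _

/-! ### landing -/

section land

variable [MeasurableSpace M] [BorelSpace M] [Countable A.ι] [SecondCountableTopology M]
  [ConnectedSpace M] {μ : Measure (Mo S)} {N : LB A} {σ : A.ι → M → ℂ}

/-- **landing** -/
theorem land (h : HM (KB A)⁻¹) (hμ : IsLeb μ) (hN : HM N)
    (hσ : IsHS N S.U σ) (h0 : ∀ i, ∀ x ∈ (A.e i).source, x ∈ S.U → σ i x ≠ 0)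
    {LD : LB A} {d : A.ι → M → ℂ} (hd : IsHS LD univ d) (hd0 : Nz0 A d) (hU : S.U = nz d)
    {W : Mo S → ℝ} (hW : Measurable W) {C : ℝ} (hC : 0 ≤ C)
    (hWC : ∀ x : Mo S, Real.exp (-(wtS hN σ x.val)) ≤ C * W x)
    {F : Mo S → ℂ} (hF : F ∈ A2 (wm μ W)) :
    ∃ s, IsHS (KB A * N) univ s ∧ ∀ i, ∀ x : Mo S, x.val ∈ (A.e i).source →
      s i x.val = F x * (zf S i x.val * σ i x.val) := by
  rw [mem_A2_wm hW] at hF
  refine l2_ext h hμ hN hσ h0 hd hd0 hU hF.1 ?_
  refine lt_of_le_of_lt (lintegral_mono (g := fun x => ENNReal.ofReal C *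
    ENNReal.ofReal (‖F x‖ ^ 2 * W x)) fun x => ?_) ?_
  · show ‖F x‖ₑ ^ 2 * ENNReal.ofReal (Real.exp (-(wtS hN σ x.val))) ≤
      ENNReal.ofReal C * ENNReal.ofReal (‖F x‖ ^ 2 * W x)
    rw [← ENNReal.ofReal_mul hC, ← ofReal_norm (F x), ← ENNReal.ofReal_pow (norm_nonneg _),
      ← ENNReal.ofReal_mul (by positivity)]
    apply ENNReal.ofReal_le_ofReal
    have := mul_le_mul_of_nonneg_left (hWC x) (sq_nonneg ‖F x‖)
    linarith
  · rw [lintegral_const_mul' _ _ ENNReal.ofReal_ne_top]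
    exact ENNReal.mul_lt_top ENNReal.ofReal_lt_top hF.2

/-- the landed section is not zero -/
theorem nz0_of_land (h0 : ∀ i, ∀ x ∈ (A.e i).source, x ∈ S.U → σ i x ≠ 0)
    {F : Mo S → ℂ} (hF : F ≠ 0) {s : A.ι → M → ℂ} (hs : ∀ i, ∀ x : Mo S, x.val ∈ (A.e i).source →
      s i x.val = F x * (zf S i x.val * σ i x.val)) : Nz0 A s := by
  obtain ⟨x, hx⟩ := Function.ne_iff.1 hF
  obtain ⟨i, hi⟩ := A.cover x.val
  refine ⟨i, x.val, hi, ?_⟩
  rw [hs i x hi]
  exact mul_ne_zero hx (mul_ne_zero (zf_ne hi x.prop) (h0 i _ hi x.prop))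

/-- sections of `K ⊗ N` as functions -/
def rat (S : SD A) (N : LB A) (σ : A.ι → M → ℂ) : HS (KB A * N) univ →ₗ[ℂ] (Mo S → ℂ) where
  toFun s x := s.1 (A.cover x.val).choose x.val /
    (zf S (A.cover x.val).choose x.val * σ (A.cover x.val).choose x.val)
  map_add' s t := by
    funext x
    exact add_div _ _ _
  map_smul' c s := by
    funext x
    exact mul_div_assoc _ _ _

/-- **finite dimensionality** -/
theorem fin_A2 [CompactSpace M] [T2Space M] [Finite A.ι] (Pt : Part A) (hμ : IsLeb μ)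
    {LD : LB A} {d : A.ι → M → ℂ} (hd : IsHS LD univ d) (hd0 : Nz0 A d) (hU : S.U = nz d)
    {W : Mo S → ℝ} (hW : Measurable W) (hT : Tame S W) :
    FiniteDimensional ℂ (A2 (wm μ W)) := by
  obtain ⟨h⟩ := HM_333.exists_hm Pt (KB A)⁻¹
  obtain ⟨N, hN, σ, hσ, h0, C, hC, hWC⟩ := hT
  have hfd : FiniteDimensional ℂ (HS (KB A * N) univ) :=
    Crest.Agent.R273.SerE_945.fd_HS Pt (KB A * N)
  have hle : A2 (wm μ W) ≤ LinearMap.range (rat S N σ) := by
    intro F hF
    obtain ⟨s, hs, hsF⟩ := land h hμ hN hσ h0 hd hd0 hU hW hC hWC hF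
    refine ⟨⟨s, hs⟩, ?_⟩
    funext x
    show s (A.cover x.val).choose x.val /
      (zf S (A.cover x.val).choose x.val * σ (A.cover x.val).choose x.val) = F x
    have hi := (A.cover x.val).choose_spec
    rw [hsF _ x hi, mul_div_cancel_right₀]
    exact mul_ne_zero (zf_ne hi x.prop) (h0 _ _ hi x.prop)
  have : FiniteDimensional ℂ (LinearMap.range (rat S N σ)) := inferInstance
  exact Submodule.finiteDimensional_of_le hle

/-- **landing in a power** -/
theorem hasSec_of_A2 (h : HM (KB A)⁻¹) (hμ : IsLeb μ) {L : LB A} (hL : HM L)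
    {τ : A.ι → M → ℂ} (hτ : IsHS L S.U τ) (h0 : ∀ i, ∀ x ∈ (A.e i).source, x ∈ S.U → τ i x ≠ 0)
    {LD : LB A} {d : A.ι → M → ℂ} (hd : IsHS LD univ d) (hd0 : Nz0 A d) (hU : S.U = nz d)
    {W : Mo S → ℝ} (hW : Measurable W) {C : ℝ} (hC : 0 ≤ C)
    (hWC : ∀ x : Mo S, Real.exp (-(wtS h (kf S) x.val)) * Real.exp (-(wtS hL τ x.val)) ≤ C * W x)
    (hne : Module.finrank ℂ (A2 (wm μ W)) ≠ 0) : HasSec L := by
  have hnt : Nontrivial (A2 (wm μ W)) := by
    by_contra hn
    rw [not_nontrivial_iff_subsingleton] at hn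
    exact hne Module.finrank_zero_of_subsingleton
  obtain ⟨F, hF0⟩ := exists_ne (0 : A2 (wm μ W))
  have hk : ∀ i, ∀ x ∈ (A.e i).source, x ∈ S.U → (kf S * τ) i x ≠ 0 := fun i x hx hxU =>
    mul_ne_zero (kf_ne i x hx hxU) (h0 i x hx hxU)
  have hkτ : IsHS ((KB A)⁻¹ * L) S.U (kf S * τ) := (isHS_kf S).mul hτ
  have hw : ∀ x : Mo S, Real.exp (-(wtS (HM_333.mul h hL) (kf S * τ) x.val)) ≤ C * W x := by
    intro x
    obtain ⟨i, hi⟩ := A.cover x.val
    have e1 := hWC x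
    rw [exp_wtS h (isHS_kf S) kf_ne hi x.prop, exp_wtS hL hτ h0 hi x.prop] at e1
    rw [exp_wtS _ hkτ hk hi x.prop]
    refine le_trans (le_of_eq ?_) e1
    simp only [Pi.mul_apply, norm_mul, HM_333.mul]
    ring
  obtain ⟨s, hs, hsF⟩ := land h hμ (HM_333.mul h hL) hkτ hk hd hd0 hU hW hC hw F.2
  rw [mul_inv_cancel_left] at hs
  obtain ⟨i, x, hx, hsx⟩ := nz0_of_land hk (fun hF => hF0 (Subtype.ext hF)) hsF
  exact ⟨s, hs, i, x, hx, hsx⟩

/-- the constants are square integrable -/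
theorem one_mem_A2 (h : HM (KB A)⁻¹) (hμ : IsLeb μ) {u : M → ℝ}
    (hu : Measurable fun x : Mo S => u x.val)
    (hi : ∫⁻ x in S.U, ENNReal.ofReal (Real.exp (-u x)) ∂(vm h) < ⊤) :
    (fun _ => 1 : Mo S → ℂ) ∈
      A2 (wm μ fun x => Real.exp (-(wtS h (kf S) x.val + u x.val))) := by
  have hm1 : Measurable fun x : Mo S => wtS h (kf S) x.val :=
    (wtS_sm h (isHS_kf S) kf_ne).continuous.measurable
  have hm2 : Measurable fun x : Mo S => Real.exp (-(wtS h (kf S) x.val + u x.val)) :=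
    Real.continuous_exp.measurable.comp (hm1.add hu).neg
  rw [mem_A2_wm hm2]
  refine ⟨hol_const 1, ?_⟩
  have h1 : ∀ x : Mo S, ENNReal.ofReal (‖(1 : ℂ)‖ ^ 2 *
      Real.exp (-(wtS h (kf S) x.val + u x.val))) =
      vS h S x * ENNReal.ofReal (Real.exp (-u x.val)) := by
    intro x
    rw [vS, ← ENNReal.ofReal_mul (Real.exp_pos _).le, ← Real.exp_add]
    congr 1
    rw [norm_one, one_pow, one_mul]
    congr 1
    ring
  simp only [h1]
  rw [lintegral_mu h hμ (fun x => ENNReal.ofReal (Real.exp (-u x)))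
    ((Real.continuous_exp.measurable.comp hu.neg).ennreal_ofReal)]
  exact hi

end land

end

end Crest.Agent.R273.SteinG_794
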