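import Crest.Agent.R273.SteinG_794

/-!
# R273, STEIN complements, part K (helper794): extension of bounded sections

* `ext_bdd` : a holomorphic section of `N` over `nz d`, bounded with respect to a metric of `N`, extends
  to a holomorphic section over `M`.
-/

set_option autoImplicit false
set_option linter.unusedSectionVars false

open Set Filter Topology Complex MeasureTheory
open scoped ContDiff Matrix ENNReal

namespace Crest.Agent.R273.SteinK_794

open Crest.Agent.R275.Geo Crest.Agent.R275.Core144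
open Crest.Agent.R273.SteinC_794 Crest.Agent.R273.SteinD_794
open Crest.Agent.R273.SteinL_794 Crest.Agent.R273.SteinF_794 Crest.Agent.R273.SteinG_794
open Crest.Agent.R273.Defs_333 (ProjD HM HM.wt HasSec)
open Crest.Agent.R273.FS_333 (lb sec isHS_sec)

noncomputable section

variable {n : ℕ} {M : Type} [TopologicalSpace M] {A : Atl n M}

/-- **extension of bounded sections** -/
theorem ext_bdd [ConnectedSpace M] {LD : LB A} {d : A.ι → M → ℂ} (hd : IsHS LD univ d)
    (hd0 : Nz0 A d) {N : LB A} (hN : HM N) {u : A.ι → M → ℂ} (hu : IsHS N (nz d) u) {C : ℝ}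
    (hb : ∀ i, ∀ x ∈ (A.e i).source, x ∈ nz d → ‖u i x‖ ^ 2 * hN.w i x ≤ C) :
    ∃ s, IsHS N univ s ∧ ∀ i, ∀ x ∈ (A.e i).source, x ∈ nz d → s i x = u i x := by
  classical
  have hloc : ∀ i, ∃ g : M → ℂ, HolAt A i univ g ∧
      ∀ x ∈ (A.e i).source, x ∈ nz d → g x = u i x := by
    intro i
    let T : (Fin n → ℂ) → Cn n := fun w => WithLp.toLp 2 w
    have hTc : Continuous T := PiLp.continuous_toLp 2 _
    have hTd : Differentiable ℂ T :=
      (((EuclideanSpace.equiv (Fin n) ℂ).symm : (Fin n → ℂ) →L[ℂ] Cn n)).differentiable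
    set O : Set (Fin n → ℂ) := T ⁻¹' (A.e i).target with hO
    have hOo : IsOpen O := (A.e i).open_target.preimage hTc
    set Dd : (Fin n → ℂ) → ℂ := fun w => d i ((A.e i).symm (T w)) with hDd
    set f : (Fin n → ℂ) → ℂ := fun w => u i ((A.e i).symm (T w)) with hf
    have hDdiff : DifferentiableOn ℂ Dd O := by
      have h1 : DifferentiableOn ℂ (fun w => d i ((A.e i).symm w)) (A.e i).target :=
        DifferentiableOn.mono (hd.hol i) fun w hw => ⟨hw, mem_univ _⟩
      exact h1.comp hTd.differentiableOn fun w hw => hw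
    have hDan := Crest.Agent.R266.SCV.analyticOnNhd_of_differentiableOn hOo hDdiff
    have hmemU : ∀ w ∈ O, (Dd w ≠ 0 ↔ (A.e i).symm (T w) ∈ nz d) := by
      intro w hw
      rw [mem_nz hd ((A.e i).map_target hw)]
    have hfdiff : DifferentiableOn ℂ f (O ∩ {w | Dd w ≠ 0}) := by
      have h1 : DifferentiableOn ℂ (fun w => u i ((A.e i).symm w))
          ((A.e i).target ∩ (A.e i).symm ⁻¹' nz d) := hu.hol i
      refine h1.comp hTd.differentiableOn fun w hw => ⟨hw.1, ?_⟩
      exact (hmemU w hw.1).1 hw.2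
    have hTe : ∀ a ∈ O, T a ∈ (A.e i).target := fun a ha => ha
    have hne : ∀ a ∈ O, ¬ ∀ᶠ z in 𝓝 a, Dd z = 0 := by
      intro a ha hev
      have h1 := id_thm hd hd0 i ((A.e i).map_target (hTe a ha))
      apply h1
      rw [ev_zero_chart ((A.e i).map_target (hTe a ha)), (A.e i).right_inv (hTe a ha)]
      have h2 : Tendsto (fun v : Cn n => WithLp.ofLp v) (𝓝 (T a)) (𝓝 a) :=
        (PiLp.continuous_ofLp 2 _).tendsto (T a)
      exact (h2.eventually hev).mono fun v hv => hv
    have hLi : ∀ a ∈ O, ∃ W ∈ 𝓝 a, ∫⁻ z in W ∩ {z | Dd z ≠ 0}, ‖f z‖ₑ ^ 2 < ⊤ := by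
      intro a ha
      have hwc : ContinuousAt (fun w => hN.w i ((A.e i).symm (T w))) a := by
        have h1 : ContinuousAt (fun w => hN.w i ((A.e i).symm w)) (T a) :=
          (hN.sm i).continuousOn.continuousAt ((A.e i).open_target.mem_nhds ha)
        exact ContinuousAt.comp (f := T) h1 hTc.continuousAt
      set c := hN.w i ((A.e i).symm (T a)) / 2 with hc
      have hpos : 0 < hN.w i ((A.e i).symm (T a)) := hN.pos i _ ((A.e i).map_target ha)
      have hc0 : 0 < c := by positivity
      have hev : ∀ᶠ w in 𝓝 a, c < hN.w i ((A.e i).symm (T w)) :=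
        hwc.eventually (lt_mem_nhds (half_lt_self hpos))
      have hev2 : ∀ᶠ w in 𝓝 a, w ∈ O := hOo.mem_nhds ha
      have hev3 : ∀ᶠ w in 𝓝 a, w ∈ Metric.ball a 1 := Metric.ball_mem_nhds a one_pos
      obtain ⟨W, hWsub, hWo, haW⟩ := _root_.mem_nhds_iff.1 (hev.and (hev2.and hev3))
      refine ⟨W, hWo.mem_nhds haW, ?_⟩
      have hOm : MeasurableSet (W ∩ {z | Dd z ≠ 0}) := by
        have h1 : IsOpen (O ∩ {z | Dd z ≠ 0}) := by
          have := hDan.continuousOn.isOpen_inter_preimage hOo isOpen_ne (t := {w : ℂ | w ≠ 0})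
          exact this
        have h2 : W ∩ {z | Dd z ≠ 0} = W ∩ (O ∩ {z | Dd z ≠ 0}) := by
          ext w
          constructor
          · rintro ⟨hw, hw'⟩
            exact ⟨hw, (hWsub hw).2.1, hw'⟩
          · rintro ⟨hw, _, hw'⟩
            exact ⟨hw, hw'⟩
        rw [h2]
        exact (hWo.inter h1).measurableSet
      have hle : ∫⁻ z in W ∩ {z | Dd z ≠ 0}, ‖f z‖ₑ ^ 2 ≤
          ∫⁻ _z in W ∩ {z | Dd z ≠ 0}, ENNReal.ofReal (C / c) := by
        refine setLIntegral_mono' hOm fun w hw => ?_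
        have hwO : w ∈ O := (hWsub hw.1).2.1
        have hcw : c < hN.w i ((A.e i).symm (T w)) := (hWsub hw.1).1
        have h1 := hb i _ ((A.e i).map_target hwO) ((hmemU w hwO).1 hw.2)
        rw [← ofReal_norm (f w), ← ENNReal.ofReal_pow (norm_nonneg _)]
        apply ENNReal.ofReal_le_ofReal
        rw [le_div_iff₀ hc0]
        exact (mul_le_mul_of_nonneg_left hcw.le (sq_nonneg ‖f w‖)).trans h1
      refine lt_of_le_of_lt hle ?_
      rw [lintegral_const]
      refine ENNReal.mul_lt_top ENNReal.ofReal_lt_top ?_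
      rw [Measure.restrict_apply MeasurableSet.univ]
      refine lt_of_le_of_lt (measure_mono ?_) (measure_ball_lt_top (x := a) (r := 1))
      rintro w ⟨-, hw, -⟩
      exact (hWsub hw).2.2
    obtain ⟨g, hg, hgf⟩ := Crest.Agent.R271.RExt747.riemann_ext hOo hDan hne hfdiff hLi
    refine ⟨fun x => g (WithLp.ofLp (A.e i x)), ?_, ?_⟩
    · have h1 : DifferentiableOn ℂ (fun v : Cn n => g (WithLp.ofLp v)) (A.e i).target := by
        refine hg.comp (f := fun v : Cn n => (WithLp.ofLp v : Fin n → ℂ)) ?_ fun v hv => hv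
        exact (((EuclideanSpace.equiv (Fin n) ℂ) : Cn n →L[ℂ] (Fin n → ℂ))).differentiable.differentiableOn
      refine (h1.mono inter_subset_left).congr fun v hv => ?_
      simp only [(A.e i).right_inv hv.1]
    · intro x hx hxd
      have h1 : WithLp.ofLp (A.e i x) ∈ O := (A.e i).map_source hx
      have h2 : (A.e i).symm (T (WithLp.ofLp (A.e i x))) = x := (A.e i).left_inv hx
      have h3 := hgf _ h1 (by
        rw [hmemU _ h1, h2]
        exact hxd)
      show g (WithLp.ofLp (A.e i x)) = u i x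
      rw [h3]
      simp only [hf, h2]
  choose g hg hgu using hloc
  obtain ⟨s, hs, hsg⟩ := glue hd hd0 (fun i j x hx hxd => hu.tr i j x hx hxd) hg hgu
  exact ⟨s, hs, fun i x hx hxd => by rw [hsg i _ hx, hgu i _ hx hxd]⟩

end

end Crest.Agent.R273.SteinK_794
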