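import Crest.Agent.R273.SteinM_794

/-!
# R273, STEIN complements, part N (helper794): `e^{-wtS h (kf S)} μ = vm h` on `S.U`
-/

set_option autoImplicit false
set_option linter.unusedSectionVars false

open Set Filter Topology Complex MeasureTheory
open scoped ContDiff Matrix ENNReal

namespace Crest.Agent.R273.SteinN_794

open Crest.Agent.R275.Geo Crest.Agent.R275.Core144 Crest.Agent.R273.SteinA_794
open Crest.Agent.R273.SteinB_794 Crest.Agent.R273.SteinC_794 Crest.Agent.R273.SteinD_794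
open Crest.Agent.R273.SteinM_794
open Crest.Agent.R273.Defs_333 (ProjD HM HM.wt)
open Crest.Agent.R275.Pai323 Crest.Agent.R275.C1d194
open Crest.Agent.R273.Vm_333 (sg isOpen_Ui sg_mem sg_rc mem_Ui vm chm chm_apply vm_apply_chart
  meas_inter)
open Crest.Agent.R271.Ho51 (RDom cp ch IsCh IsLeb Hol Sm mem_ch isCh_ch)

noncomputable section

variable {n : ℕ} {M : Type} [TopologicalSpace M] {A : Atl n M} {S : SD A}

/-- the density of the volume form `h` with respect to the coordinates -/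
def vS (h : HM (KB A)⁻¹) (S : SD A) (x : Mo S) : ℝ≥0∞ :=
  ENNReal.ofReal (Real.exp (-(wtS h (kf S) x.val)))

variable (h : HM (KB A)⁻¹)

theorem exp_wtS {L : LB A} (h : HM L) {σ : A.ι → M → ℂ} (hσ : IsHS L S.U σ)
    (h0 : ∀ i, ∀ x ∈ (A.e i).source, x ∈ S.U → σ i x ≠ 0) {i : A.ι} {x : M}
    (hx : x ∈ (A.e i).source) (hxU : x ∈ S.U) :
    Real.exp (-(wtS h σ x)) = ‖σ i x‖ ^ 2 * h.w i x := by
  rw [wtS_eq h hσ hx hxU, neg_neg, Real.exp_log]
  · rfl
  · have h1 := h0 i x hx hxU
    have h2 := h.pos i x hx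
    unfold HM_333.nsq
    positivity

theorem vS_eq (x : Mo S) {i : A.ι} (hx : x.val ∈ (A.e i).source) :
    ENNReal.ofReal (‖zf S i x.val‖ ^ 2) * vS h S x = ENNReal.ofReal (h.w i x.val) := by
  have h1 : zf S i x.val ≠ 0 := zf_ne hx x.prop
  rw [vS, exp_wtS h (isHS_kf S) kf_ne hx x.prop, ← ENNReal.ofReal_mul (by positivity)]
  congr 1
  have h2 : kf S i x.val = (zf S i x.val)⁻¹ := rfl
  rw [h2, norm_inv]
  field_simp

theorem vS_cont : Continuous (vS h S) :=
  ENNReal.continuous_ofReal.comp (Real.continuous_exp.comp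
    (wtS_sm h (isHS_kf S) kf_ne).continuous.neg)

theorem vS_meas : Measurable (vS h S) := (vS_cont h).measurable

variable [MeasurableSpace M] [BorelSpace M] [Countable A.ι] {μ : Measure (Mo S)}

theorem me_val : MeasurableEmbedding (Mo.val : Mo S → M) := isOpenEmbedding_val.measurableEmbedding

/-- local form -/
theorem local_eq (hμ : IsLeb μ) {i : A.ι} {e : OpenPartialHomeomorph (Mo S) (Fin n → ℂ)}
    (he : IsCh e) {E : Set (Mo S)} (hE : MeasurableSet E) (h1 : E ⊆ e.source)
    (h2 : ∀ x ∈ E, x.val ∈ (A.e i).source) :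
    ∫⁻ x in E, vS h S x ∂μ = vm h (Mo.val '' E) := by
  have hEm : MeasurableSet (Mo.val '' E) := me_val.measurableSet_image.2 hE
  set T : Set (Fin n → ℂ) := e.symm ⁻¹' E ∩ e.target with hT
  have hae : AEMeasurable e.symm ((volume : Measure (Fin n → ℂ)).restrict e.target) :=
    Crest.Agent.R271.Ho51.aem_symm e
  have hA : ∫⁻ x in E, vS h S x ∂μ = ∫⁻ ζ in T, vS h S (e.symm ζ) := by
    have e1 : μ.restrict E = (μ.restrict e.source).restrict E := by
      rw [Measure.restrict_restrict hE, inter_eq_left.2 h1]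
    rw [e1, hμ e he, Measure.restrict_map_of_aemeasurable hae hE,
      Measure.restrict_restrict₀ (hae.nullMeasurable hE), lintegral_map' (vS_meas h).aemeasurable]
    exact hae.mono_measure (Measure.restrict_mono inter_subset_right le_rfl)
  set Y : Set (RI n → ℝ) := {y | y ∈ Ui A i ∧ sg A i y ∈ Mo.val '' E} with hY
  have hYm : MeasurableSet Y := meas_inter i hEm
  have hYU : ∀ y ∈ Y, sg A i y ∈ S.U := by
    rintro y ⟨_, x, _, hx⟩
    rw [← hx]
    exact x.prop
  -- points of `Y`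
  have hpt : ∀ y ∈ Y, ∀ x : Mo S, x.val = sg A i y → kap (rr S i y) = cp x := by
    intro y hy x hx
    rw [kap_rr]
    funext k
    show S.z k ((A.e i).symm (cc y)) = S.z k x.val
    rw [hx]
    rfl
  have himg : kap ⁻¹' T = rr S i '' Y := by
    ext η
    constructor
    · rintro ⟨h3, h4⟩
      set x := e.symm (kap η) with hx
      have hxs := h2 x h3
      have h5 : sg A i (rc (A.e i x.val)) = x.val := sg_rc hxs
      refine ⟨rc (A.e i x.val), ⟨mem_Ui hxs, x, h3, h5.symm⟩, ?_⟩
      have h6 : kap (rr S i (rc (A.e i x.val))) = cp x :=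
        hpt _ ⟨mem_Ui hxs, x, h3, h5.symm⟩ x h5.symm
      have h7 : cp x = kap η := he.cp_symm h4
      exact (me_kap n).injective (h6.trans h7)
    · rintro ⟨y, hy, rfl⟩
      obtain ⟨hy1, x, hxE, hx⟩ := hy
      have h6 := hpt y ⟨hy1, x, hxE, hx⟩ x hx
      refine ⟨?_, ?_⟩
      · show e.symm (kap (rr S i y)) ∈ E
        rw [h6, he.symm_cp (h1 hxE)]
        exact hxE
      · rw [h6]
        exact he.cp_mem (h1 hxE)
  have hinj : InjOn (rr S i) Y := by
    intro y hy y' hy' hyy
    obtain ⟨hy1, x, hxE, hx⟩ := id hy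
    obtain ⟨hy1', x', hxE', hx'⟩ := id hy'
    have h6 := hpt y hy x hx
    have h6' := hpt y' hy' x' hx'
    rw [hyy, h6'] at h6
    have h7 : x' = x := he.injOn (h1 hxE') (h1 hxE) h6
    have h8 : sg A i y = sg A i y' := by rw [← hx, ← hx', h7]
    have h9 : ∀ y ∈ Ui A i, rc (A.e i (sg A i y)) = y := by
      intro y hy
      have : A.e i (sg A i y) = cc y := (A.e i).right_inv hy
      rw [this, rc_cc]
    rw [← h9 y hy1, ← h9 y' hy1', h8]
  have hL : ∀ y : RI n → ℝ, ∃ L : (RI n → ℝ) →L[ℝ] (RI n → ℝ), y ∈ Y →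
      (HasFDerivAt (rr S i) L y ∧ |L.det| = ‖zf S i (sg A i y)‖ ^ 2) := by
    intro y
    by_cases hy : y ∈ Y
    · obtain ⟨L, hL⟩ := hasFDerivAt_rr hy.1 (hYU y hy)
      exact ⟨L, fun _ => hL⟩
    · exact ⟨0, fun h => absurd h hy⟩
  choose L hL using hL
  rw [hA, ← (mp_kap n).setLIntegral_comp_preimage_emb (me_kap n), himg,
    lintegral_image_eq_lintegral_abs_det_fderiv_mul volume hYm
      (fun y hy => (hL y hy).1.hasFDerivWithinAt) hinj,
    vm_apply_chart h hEm (by rintro _ ⟨x, hx, rfl⟩; exact h2 x hx), chm_apply h i hEm]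
  refine setLIntegral_congr_fun hYm fun y hy => ?_
  obtain ⟨hy1, x, hxE, hx⟩ := id hy
  have h6 := hpt y hy x hx
  show ENNReal.ofReal |(L y).det| * vS h S (e.symm (kap (rr S i y))) = _
  rw [(hL y hy).2, h6, he.symm_cp (h1 hxE), ← hx, vS_eq h x (h2 x hxE)]
  unfold Vm_333.dn
  rw [hx]

/-- **the measure of the volume form in the coordinates** -/
theorem map_mu [SecondCountableTopology M] (hμ : IsLeb μ) :
    μ.withDensity (vS h S) = (vm h).comap Mo.val := by
  obtain ⟨s, hs, hsu⟩ := TopologicalSpace.countable_cover_nhds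
    (f := fun x : Mo S => (ch x).source ∩ Mo.val ⁻¹' (A.e (A.cover x.val).choose).source)
    (fun x => inter_mem ((ch x).open_source.mem_nhds (mem_ch x))
      (((A.e _).open_source.preimage continuous_val).mem_nhds (A.cover x.val).choose_spec))
  refine (Measure.ext_iff_of_biUnion_eq_univ hs hsu).2 fun x _ => ?_
  ext E hE
  have hN : MeasurableSet ((ch x).source ∩ Mo.val ⁻¹' (A.e (A.cover x.val).choose).source) :=
    ((ch x).open_source.inter ((A.e _).open_source.preimage continuous_val)).measurableSet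
  have hEN := hE.inter hN
  rw [Measure.restrict_apply hE, Measure.restrict_apply hE, withDensity_apply _ hEN,
    me_val.comap_apply]
  exact local_eq h hμ (isCh_ch x) hEN (fun y hy => hy.2.1) fun y hy => hy.2.2

/-- **integration formula** -/
theorem lintegral_mu [SecondCountableTopology M] (hμ : IsLeb μ) (f : M → ℝ≥0∞)
    (hf : Measurable fun x : Mo S => f x.val) :
    ∫⁻ x : Mo S, vS h S x * f x.val ∂μ = ∫⁻ x in S.U, f x ∂(vm h) := by
  have h0 := lintegral_withDensity_eq_lintegral_mul μ (vS_meas h) hf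
  simp only [Pi.mul_apply] at h0
  rw [← h0, map_mu h hμ]
  have h1 : range (Mo.val : Mo S → M) = S.U := by
    ext x
    exact ⟨fun ⟨y, hy⟩ => hy ▸ y.prop, fun hx => ⟨⟨x, hx⟩, rfl⟩⟩
  rw [← h1, ← me_val.lintegral_map, me_val.map_comap]

end

end Crest.Agent.R273.SteinN_794
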