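import Crest.Agent.R273.Fam_835

/-!
# R273 (S0416), Part E (helper835): closed submanifolds

`SubCh C S d`   : a chart of `M`, holomorphically compatible with `C : Fam n M`, in which the set
                  `S` is a linear slice of dimension `d`;
`IsSub C S d`   : every point of `S` is in the domain of such a chart;
`subFam h`      : the charts of the subtype `S`; the inclusion is a holomorphic immersion
                  (`subFam_hol`, `subFam_imm`), maps into `S` (`subFam_lift`);
`IsSub.exists_atl` : for compact `S`: a finite good atlas of `S` with partition of unity, subordinate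
                  to the charts of `A`;
`isSub_of_submersion` : level sets of submersions.
-/

set_option autoImplicit false
set_option linter.unusedSectionVars false

open Set Filter Topology Complex
open scoped ContDiff Matrix ComplexConjugate Manifold

namespace Crest.Agent.R273.Sub_835

open Crest.Agent.R275.Geo Crest.Agent.R275.Core144 Crest.Agent.R275.GC293
open Crest.Agent.R273.Defs_333 Crest.Agent.R273.Map_835 Crest.Agent.R273.PB_835
open Crest.Agent.R273.Fam_835

noncomputable section

variable {n m k d : ℕ} {M N P : Type} [TopologicalSpace M] [TopologicalSpace N]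
  [TopologicalSpace P] {C : Fam n M} {D : Fam m N} {E : Fam k P} {p : M → N}

/-! ### immersions -/

/-- `p` is an immersion in the charts -/
def Imm (C : Fam n M) (D : Fam m N) (p : M → N) : Prop :=
  ∀ i j, ∀ z ∈ (C.e i).target, p ((C.e i).symm z) ∈ (D.e j).source →
    Function.Injective (fderiv ℂ (fun z => D.e j (p ((C.e i).symm z))) z)

/-- transition maps have injective derivatives -/
theorem trans_inj (C : Fam n M) (i j : C.ι) {x : M} (hi : x ∈ (C.e i).source)
    (hj : x ∈ (C.e j).source) (v : Cn n) :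
    fderiv ℂ (fun z => C.e i ((C.e j).symm z)) (C.e j x)
      (fderiv ℂ (fun z => C.e j ((C.e i).symm z)) (C.e i x) v) = v := by
  have hd : ∀ a b : C.ι, x ∈ (C.e a).source → x ∈ (C.e b).source →
      DifferentiableAt ℂ (fun z => C.e b ((C.e a).symm z)) (C.e a x) := fun a b ha hb =>
    (C.holo a b).differentiableAt (((C.e a).isOpen_inter_preimage_symm
      (C.e b).open_source).mem_nhds ⟨(C.e a).map_source ha, by
        rw [mem_preimage, (C.e a).left_inv ha]; exact hb⟩)
  have e1 : C.e j ((C.e i).symm (C.e i x)) = C.e j x := by rw [(C.e i).left_inv hi]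
  have h1 := fderiv_comp (C.e i x) (g := fun z => C.e i ((C.e j).symm z))
    (f := fun z => C.e j ((C.e i).symm z)) (by rw [e1]; exact hd j i hj hi) (hd i j hi hj)
  have h2 : (fun z => C.e i ((C.e j).symm z)) ∘ (fun z => C.e j ((C.e i).symm z))
      =ᶠ[𝓝 (C.e i x)] id := by
    have hc : ContinuousAt (C.e i).symm (C.e i x) :=
      (C.e i).continuousAt_symm ((C.e i).map_source hi)
    have h3 : ∀ᶠ z in 𝓝 (C.e i x), (C.e i).symm z ∈ (C.e j).source :=
      hc.preimage_mem_nhds (by rw [(C.e i).left_inv hi]; exact (C.e j).open_source.mem_nhds hj)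
    filter_upwards [h3, (C.e i).open_target.mem_nhds ((C.e i).map_source hi)] with z hz hz'
    simp only [Function.comp, id]
    rw [(C.e j).left_inv hz, (C.e i).right_inv hz']
  rw [h2.fderiv_eq, fderiv_id] at h1
  have h3 := congrArg (fun T : Cn n →L[ℂ] Cn n => T v) h1
  simp only [ContinuousLinearMap.coe_id', id_eq, ContinuousLinearMap.coe_comp,
    Function.comp_apply] at h3
  rw [e1] at h3
  exact h3.symm

theorem imm_of_local (hp : HolC C D p)
    (h : ∀ x, ∃ i j, x ∈ (C.e i).source ∧ p x ∈ (D.e j).source ∧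
      Function.Injective (fderiv ℂ (fun z => D.e j (p ((C.e i).symm z))) (C.e i x))) :
    Imm C D p := by
  intro i' j' z hz hzj v w hvw
  set x := (C.e i').symm z with hx
  have hx' : x ∈ (C.e i').source := (C.e i').map_target hz
  have ez : C.e i' x = z := (C.e i').right_inv hz
  obtain ⟨i, j, hi, hj, hinj⟩ := h x
  -- `rd i j = trans ∘ rd i' j' ∘ trans`
  have hd1 : DifferentiableAt ℂ (fun z => C.e i' ((C.e i).symm z)) (C.e i x) :=
    (C.holo i i').differentiableAt (((C.e i).isOpen_inter_preimage_symm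
      (C.e i').open_source).mem_nhds ⟨(C.e i).map_source hi, by
        rw [mem_preimage, (C.e i).left_inv hi]; exact hx'⟩)
  have e1 : C.e i' ((C.e i).symm (C.e i x)) = z := by rw [(C.e i).left_inv hi, ez]
  have hd2 : DifferentiableAt ℂ (fun z => D.e j' (p ((C.e i').symm z))) z := hp.diffAt hz hzj
  have hd3 : DifferentiableAt ℂ (fun z => D.e j ((D.e j').symm z)) (D.e j' (p x)) :=
    (D.holo j' j).differentiableAt (((D.e j').isOpen_inter_preimage_symm
      (D.e j).open_source).mem_nhds ⟨(D.e j').map_source hzj, by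
        rw [mem_preimage, (D.e j').left_inv hzj]; exact hj⟩)
  have h12 := fderiv_comp (C.e i x) (g := fun z => D.e j' (p ((C.e i').symm z)))
    (f := fun z => C.e i' ((C.e i).symm z)) (by rw [e1]; exact hd2) hd1
  have hd12 : DifferentiableAt ℂ ((fun z => D.e j' (p ((C.e i').symm z))) ∘
      (fun z => C.e i' ((C.e i).symm z))) (C.e i x) :=
    DifferentiableAt.comp _ (by rw [e1]; exact hd2) hd1
  have e2 : ((fun z => D.e j' (p ((C.e i').symm z))) ∘
      (fun z => C.e i' ((C.e i).symm z))) (C.e i x) = D.e j' (p x) := by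
    simp only [Function.comp]
    rw [e1]
  have h123 := fderiv_comp (C.e i x) (g := fun z => D.e j ((D.e j').symm z))
    (f := (fun z => D.e j' (p ((C.e i').symm z))) ∘ (fun z => C.e i' ((C.e i).symm z)))
    (by rw [e2]; exact hd3) hd12
  have hev : (fun z => D.e j (p ((C.e i).symm z))) =ᶠ[𝓝 (C.e i x)]
      (fun z => D.e j ((D.e j').symm z)) ∘ ((fun z => D.e j' (p ((C.e i').symm z))) ∘
        (fun z => C.e i' ((C.e i).symm z))) := by
    have hc : ContinuousAt (C.e i).symm (C.e i x) :=
      (C.e i).continuousAt_symm ((C.e i).map_source hi)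
    have h3 : ∀ᶠ z in 𝓝 (C.e i x), (C.e i).symm z ∈ (C.e i').source ∩ p ⁻¹' (D.e j').source :=
      hc.preimage_mem_nhds (by
        rw [(C.e i).left_inv hi]
        exact ((C.e i').open_source.inter ((D.e j').open_source.preimage hp.cont)).mem_nhds
          ⟨hx', hzj⟩)
    filter_upwards [h3] with w hw
    simp only [Function.comp]
    rw [(C.e i').left_inv hw.1, (D.e j').left_inv hw.2]
  rw [hev.fderiv_eq, h123, h12, e1] at hinj
  have hv := trans_inj C i' i hx' hi v
  have hw := trans_inj C i' i hx' hi w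
  rw [ez] at hv hw
  have key : fderiv ℂ (fun z => C.e i ((C.e i').symm z)) z v =
      fderiv ℂ (fun z => C.e i ((C.e i').symm z)) z w := by
    apply hinj
    simp only [ContinuousLinearMap.coe_comp, Function.comp_apply]
    rw [hv, hw, hvw]
  rw [← hv, key, hw]

/-! ### adapted charts -/

/-- a chart adapted to the subset `S` -/
structure SubCh (C : Fam n M) (S : Set M) (d : ℕ) where
  ψ : OpenPartialHomeomorph M (Cn n)
  hol : ∀ i, DifferentiableOn ℂ (fun z => ψ ((C.e i).symm z))
    ((C.e i).target ∩ (C.e i).symm ⁻¹' ψ.source)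
  hol' : ∀ i, DifferentiableOn ℂ (fun z => C.e i (ψ.symm z))
    (ψ.target ∩ ψ.symm ⁻¹' (C.e i).source)
  io : Cn d →L[ℂ] Cn n
  pi : Cn n →L[ℂ] Cn d
  pi_io : ∀ v, pi (io v) = v
  slice : ∀ x ∈ ψ.source, x ∈ S ↔ io (pi (ψ x)) = ψ x

/-- `S` is a complex submanifold of dimension `d` (closed in an open set if `S` is) -/
def IsSub (C : Fam n M) (S : Set M) (d : ℕ) : Prop := ∀ x ∈ S, ∃ c : SubCh C S d, x ∈ c.ψ.source

variable {S : Set M}

namespace SubCh

theorem isOpen1 (c : SubCh C S d) (i : C.ι) :
    IsOpen ((C.e i).target ∩ (C.e i).symm ⁻¹' c.ψ.source) :=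
  (C.e i).isOpen_inter_preimage_symm c.ψ.open_source

theorem isOpen2 (c : SubCh C S d) (i : C.ι) :
    IsOpen (c.ψ.target ∩ c.ψ.symm ⁻¹' (C.e i).source) :=
  c.ψ.isOpen_inter_preimage_symm (C.e i).open_source

/-- transition between adapted charts -/
theorem trans_diffAt (c c' : SubCh C S d) {x : M} (hx : x ∈ c.ψ.source) (hx' : x ∈ c'.ψ.source) :
    DifferentiableAt ℂ (fun z => c'.ψ (c.ψ.symm z)) (c.ψ x) := by
  obtain ⟨i, hi⟩ := C.cover x
  have h1 : DifferentiableAt ℂ (fun z => C.e i (c.ψ.symm z)) (c.ψ x) :=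
    (c.hol' i).differentiableAt ((c.isOpen2 i).mem_nhds ⟨c.ψ.map_source hx, by
      rw [mem_preimage, c.ψ.left_inv hx]; exact hi⟩)
  have h2 : DifferentiableAt ℂ (fun z => c'.ψ ((C.e i).symm z)) (C.e i x) :=
    (c'.hol i).differentiableAt ((c'.isOpen1 i).mem_nhds ⟨(C.e i).map_source hi, by
      rw [mem_preimage, (C.e i).left_inv hi]; exact hx'⟩)
  have e1 : C.e i (c.ψ.symm (c.ψ x)) = C.e i x := by rw [c.ψ.left_inv hx]
  have h3 : DifferentiableAt ℂ (fun z => c'.ψ ((C.e i).symm (C.e i (c.ψ.symm z)))) (c.ψ x) :=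
    DifferentiableAt.comp (c.ψ x) (g := fun z => c'.ψ ((C.e i).symm z))
      (by rw [e1]; exact h2) h1
  refine h3.congr_of_eventuallyEq ?_
  have hc : ContinuousAt c.ψ.symm (c.ψ x) := c.ψ.continuousAt_symm (c.ψ.map_source hx)
  have h4 : ∀ᶠ z in 𝓝 (c.ψ x), c.ψ.symm z ∈ (C.e i).source :=
    hc.preimage_mem_nhds (by rw [c.ψ.left_inv hx]; exact (C.e i).open_source.mem_nhds hi)
  filter_upwards [h4] with z hz
  rw [(C.e i).left_inv hz]

theorem symm_mem (c : SubCh C S d) {v : Cn d} (hv : c.io v ∈ c.ψ.target) :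
    c.ψ.symm (c.io v) ∈ S := by
  rw [c.slice _ (c.ψ.map_target hv), c.ψ.right_inv hv, c.pi_io]

theorem io_mem (c : SubCh C S d) {x : M} (hx : x ∈ c.ψ.source) (hS : x ∈ S) :
    c.io (c.pi (c.ψ x)) = c.ψ x := (c.slice x hx).1 hS

open Classical in
/-- the chart of the subtype -/
def chart (c : SubCh C S d) (x₀ : S) : OpenPartialHomeomorph S (Cn d) where
  toFun x := c.pi (c.ψ x.1)
  invFun v := if h : c.ψ.symm (c.io v) ∈ S then ⟨_, h⟩ else x₀
  source := Subtype.val ⁻¹' c.ψ.source
  target := c.io ⁻¹' c.ψ.target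
  map_source' x hx := by
    show c.io (c.pi (c.ψ x.1)) ∈ c.ψ.target
    rw [c.io_mem hx x.2]
    exact c.ψ.map_source hx
  map_target' v hv := by
    rw [dif_pos (c.symm_mem hv)]
    exact c.ψ.map_target hv
  left_inv' x hx := by
    have h1 : c.ψ.symm (c.io (c.pi (c.ψ x.1))) = x.1 := by
      rw [c.io_mem hx x.2, c.ψ.left_inv hx]
    have h2 : c.ψ.symm (c.io (c.pi (c.ψ x.1))) ∈ S := by rw [h1]; exact x.2
    rw [dif_pos h2]
    exact Subtype.ext h1
  right_inv' v hv := by
    rw [dif_pos (c.symm_mem hv)]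
    simp only
    rw [c.ψ.right_inv hv, c.pi_io]
  open_source := c.ψ.open_source.preimage continuous_subtype_val
  open_target := c.ψ.open_target.preimage c.io.continuous
  continuousOn_toFun := c.pi.continuous.comp_continuousOn
    (c.ψ.continuousOn.comp continuous_subtype_val.continuousOn fun _ hx => hx)
  continuousOn_invFun := by
    rw [Topology.IsInducing.subtypeVal.continuousOn_iff]
    refine (c.ψ.symm.continuousOn.comp c.io.continuous.continuousOn fun v hv => hv).congr ?_
    intro v hv
    simp only [Function.comp]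
    rw [dif_pos (c.symm_mem hv)]

@[simp] theorem chart_apply (c : SubCh C S d) (x₀ x : S) : c.chart x₀ x = c.pi (c.ψ x.1) := rfl

theorem chart_symm (c : SubCh C S d) (x₀ : S) {v : Cn d} (hv : v ∈ (c.chart x₀).target) :
    ((c.chart x₀).symm v).1 = c.ψ.symm (c.io v) := by
  have h1 : (c.chart x₀).symm v =
    (open Classical in if h : c.ψ.symm (c.io v) ∈ S then ⟨_, h⟩ else x₀ : S) := rfl
  rw [h1, dif_pos (c.symm_mem hv)]

theorem chart_source (c : SubCh C S d) (x₀ : S) :
    (c.chart x₀).source = Subtype.val ⁻¹' c.ψ.source := rfl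

theorem chart_target (c : SubCh C S d) (x₀ : S) :
    (c.chart x₀).target = c.io ⁻¹' c.ψ.target := rfl

end SubCh

/-- the adapted chart chosen at `x` -/
def IsSub.ch (h : IsSub C S d) (x : S) : SubCh C S d := (h x.1 x.2).choose

theorem IsSub.mem_ch (h : IsSub C S d) (x : S) : x.1 ∈ (h.ch x).ψ.source :=
  (h x.1 x.2).choose_spec

/-- the charts of the submanifold -/
def subFam (h : IsSub C S d) : Fam d S where
  ι := S
  e x := (h.ch x).chart x
  cover x := ⟨x, h.mem_ch x⟩
  holo x y := by
    rintro v ⟨hv, hv'⟩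
    refine DifferentiableAt.differentiableWithinAt ?_
    set c := h.ch x
    set c' := h.ch y
    set z : M := c.ψ.symm (c.io v) with hz
    have hzs : z ∈ c.ψ.source := c.ψ.map_target hv
    have hzs' : z ∈ c'.ψ.source := by
      have h1 := c.chart_symm x hv
      rw [hz, ← h1]
      exact hv'
    have e1 : c.ψ z = c.io v := c.ψ.right_inv hv
    have h2 := c.trans_diffAt c' hzs hzs'
    rw [e1] at h2
    have h3 : DifferentiableAt ℂ (fun w => c'.pi (c'.ψ (c.ψ.symm (c.io w)))) v :=
      c'.pi.differentiableAt.comp v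
        (DifferentiableAt.comp v (g := fun z => c'.ψ (c.ψ.symm z)) h2 c.io.differentiableAt)
    refine h3.congr_of_eventuallyEq ?_
    filter_upwards [(c.chart x).open_target.mem_nhds hv] with w hw
    rw [SubCh.chart_apply, c.chart_symm x hw]

theorem subFam_hol (h : IsSub C S d) : HolC (subFam h) C Subtype.val := by
  refine holC_of_local continuous_subtype_val fun x => ?_
  obtain ⟨j, hj⟩ := C.cover x.1
  refine ⟨x, j, h.mem_ch x, hj, ?_⟩
  set c := h.ch x with hc
  have hxs : x.1 ∈ c.ψ.source := h.mem_ch x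
  have hx : (subFam h).e x x = c.pi (c.ψ x.1) := rfl
  have hxt : c.pi (c.ψ x.1) ∈ (c.chart x).target := (c.chart x).map_source hxs
  have e1 : c.io (c.pi (c.ψ x.1)) = c.ψ x.1 := c.io_mem hxs x.2
  rw [hx]
  have h1 : DifferentiableAt ℂ (fun z => C.e j (c.ψ.symm z)) (c.io (c.pi (c.ψ x.1))) := by
    rw [e1]
    exact (c.hol' j).differentiableAt ((c.isOpen2 j).mem_nhds ⟨c.ψ.map_source hxs, by
      rw [mem_preimage, c.ψ.left_inv hxs]; exact hj⟩)
  have h2 : DifferentiableAt ℂ (fun v => C.e j (c.ψ.symm (c.io v))) (c.pi (c.ψ x.1)) :=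
    DifferentiableAt.comp _ (g := fun z => C.e j (c.ψ.symm z)) h1 c.io.differentiableAt
  refine h2.congr_of_eventuallyEq ?_
  filter_upwards [(c.chart x).open_target.mem_nhds hxt] with v hv
  have h3 := c.chart_symm x hv
  show C.e j (((c.chart x).symm v).1) = _
  rw [h3]

theorem subFam_imm (h : IsSub C S d) : Imm (subFam h) C Subtype.val := by
  refine imm_of_local (subFam_hol h) fun x => ?_
  obtain ⟨j, hj⟩ := C.cover x.1
  refine ⟨x, j, h.mem_ch x, hj, ?_⟩
  set c := h.ch x with hc
  have hxs : x.1 ∈ c.ψ.source := h.mem_ch x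
  have hx : (subFam h).e x x = c.pi (c.ψ x.1) := rfl
  have hxt : c.pi (c.ψ x.1) ∈ (c.chart x).target := (c.chart x).map_source hxs
  have e1 : c.io (c.pi (c.ψ x.1)) = c.ψ x.1 := c.io_mem hxs x.2
  rw [hx]
  have hev : (fun v => C.e j ((((subFam h).e x).symm v).1)) =ᶠ[𝓝 (c.pi (c.ψ x.1))]
      (fun v => C.e j (c.ψ.symm (c.io v))) := by
    filter_upwards [(c.chart x).open_target.mem_nhds hxt] with v hv
    have h3 := c.chart_symm x hv
    show C.e j (((c.chart x).symm v).1) = _
    rw [h3]
  rw [hev.fderiv_eq]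
  have hd1 : DifferentiableAt ℂ (fun z => C.e j (c.ψ.symm z)) (c.io (c.pi (c.ψ x.1))) := by
    rw [e1]
    exact (c.hol' j).differentiableAt ((c.isOpen2 j).mem_nhds ⟨c.ψ.map_source hxs, by
      rw [mem_preimage, c.ψ.left_inv hxs]; exact hj⟩)
  have hd2 : DifferentiableAt ℂ (fun z => c.ψ ((C.e j).symm z)) (C.e j x.1) :=
    (c.hol j).differentiableAt ((c.isOpen1 j).mem_nhds ⟨(C.e j).map_source hj, by
      rw [mem_preimage, (C.e j).left_inv hj]; exact hxs⟩)
  -- left inverse `π ∘ ψ ∘ e_j⁻¹`
  have e2 : C.e j (c.ψ.symm (c.io (c.pi (c.ψ x.1)))) = C.e j x.1 := by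
    rw [e1, c.ψ.left_inv hxs]
  have hd3 : DifferentiableAt ℂ (fun v => C.e j (c.ψ.symm (c.io v))) (c.pi (c.ψ x.1)) :=
    DifferentiableAt.comp _ (g := fun z => C.e j (c.ψ.symm z)) hd1 c.io.differentiableAt
  have hd4 : DifferentiableAt ℂ (fun z => c.pi (c.ψ ((C.e j).symm z))) (C.e j x.1) :=
    c.pi.differentiableAt.comp _ hd2
  have h5 := fderiv_comp (c.pi (c.ψ x.1)) (g := fun z => c.pi (c.ψ ((C.e j).symm z)))
    (f := fun v => C.e j (c.ψ.symm (c.io v))) (by rw [e2]; exact hd4) hd3
  have h6 : (fun z => c.pi (c.ψ ((C.e j).symm z))) ∘ (fun v => C.e j (c.ψ.symm (c.io v)))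
      =ᶠ[𝓝 (c.pi (c.ψ x.1))] id := by
    have hcont : ContinuousAt (fun v => c.ψ.symm (c.io v)) (c.pi (c.ψ x.1)) := by
      refine ContinuousAt.comp (g := c.ψ.symm) ?_ c.io.continuous.continuousAt
      rw [e1]
      exact c.ψ.continuousAt_symm (c.ψ.map_source hxs)
    have h7 : ∀ᶠ v in 𝓝 (c.pi (c.ψ x.1)), c.ψ.symm (c.io v) ∈ (C.e j).source :=
      hcont.preimage_mem_nhds (by
        rw [e1, c.ψ.left_inv hxs]
        exact (C.e j).open_source.mem_nhds hj)
    filter_upwards [(c.chart x).open_target.mem_nhds hxt, h7] with v hv hv'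
    simp only [Function.comp, id]
    have hv2 : c.io v ∈ c.ψ.target := hv
    rw [(C.e j).left_inv hv', c.ψ.right_inv hv2, c.pi_io]
  rw [h6.fderiv_eq, fderiv_id] at h5
  intro v w hvw
  have h7 := congrArg (fun T : Cn d →L[ℂ] Cn d => T v) h5
  have h8 := congrArg (fun T : Cn d →L[ℂ] Cn d => T w) h5
  simp only [ContinuousLinearMap.coe_id', id_eq, ContinuousLinearMap.coe_comp,
    Function.comp_apply] at h7 h8
  rw [h7, h8, hvw]

/-- holomorphic maps into the submanifold -/
theorem subFam_lift (h : IsSub C S d) {f : P → M} (hf : HolC E C f) (hS : ∀ x, f x ∈ S) :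
    HolC E (subFam h) (fun x => (⟨f x, hS x⟩ : S)) := by
  refine holC_of_local (hf.cont.subtype_mk hS) fun x => ?_
  obtain ⟨i, hi⟩ := E.cover x
  obtain ⟨j, hj⟩ := C.cover (f x)
  refine ⟨i, ⟨f x, hS x⟩, hi, h.mem_ch ⟨f x, hS x⟩, ?_⟩
  set c := h.ch ⟨f x, hS x⟩ with hc
  have hxs : f x ∈ c.ψ.source := h.mem_ch ⟨f x, hS x⟩
  have h1 : DifferentiableAt ℂ (fun z => C.e j (f ((E.e i).symm z))) (E.e i x) :=
    hf.diffAt ((E.e i).map_source hi) (by rw [(E.e i).left_inv hi]; exact hj)
  have h2 : DifferentiableAt ℂ (fun z => c.ψ ((C.e j).symm z)) (C.e j (f x)) :=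
    (c.hol j).differentiableAt ((c.isOpen1 j).mem_nhds ⟨(C.e j).map_source hj, by
      rw [mem_preimage, (C.e j).left_inv hj]; exact hxs⟩)
  have e1 : C.e j (f ((E.e i).symm (E.e i x))) = C.e j (f x) := by rw [(E.e i).left_inv hi]
  have h3 : DifferentiableAt ℂ (fun z => c.pi (c.ψ ((C.e j).symm
      (C.e j (f ((E.e i).symm z)))))) (E.e i x) :=
    c.pi.differentiableAt.comp _ (DifferentiableAt.comp _
      (g := fun z => c.ψ ((C.e j).symm z)) (by rw [e1]; exact h2) h1)
  refine h3.congr_of_eventuallyEq ?_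
  have hcont : ContinuousAt (fun z => f ((E.e i).symm z)) (E.e i x) :=
    ContinuousAt.comp (g := f) hf.cont.continuousAt
      ((E.e i).continuousAt_symm ((E.e i).map_source hi))
  have h4 : ∀ᶠ z in 𝓝 (E.e i x), f ((E.e i).symm z) ∈ (C.e j).source :=
    hcont.preimage_mem_nhds (by
      rw [(E.e i).left_inv hi]
      exact (C.e j).open_source.mem_nhds hj)
  filter_upwards [h4] with z hz
  show c.pi (c.ψ (f ((E.e i).symm z))) = _
  rw [(C.e j).left_inv hz]

/-- a finite good atlas of a compact submanifold -/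
theorem IsSub.exists_atl [T2Space M] {A : Atl n M} (hS : IsCompact S) (h : IsSub (fam A) S d) :
    ∃ A' : Atl d S, Finite A'.ι ∧ GoodA A' ∧ Nonempty (Part A') ∧
      Nonempty (Ref A' A Subtype.val) ∧ HolMap A' A Subtype.val ∧
      (∀ i j, ∀ z ∈ dm A' A Subtype.val i j,
        Function.Injective (fderiv ℂ (rd A' A Subtype.val i j) z)) ∧
      HolC (fam A') (subFam h) id ∧ HolC (subFam h) (fam A') id := by
  have : CompactSpace S := isCompact_iff_compactSpace.1 hS
  obtain ⟨A', h1, h2, h3, h4, h5, h6⟩ := (subFam h).exists_atl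
    (fun i : A.ι => (Subtype.val : S → M) ⁻¹' (A.e i).source)
    (fun i => (A.e i).open_source.preimage continuous_subtype_val)
    (fun x => A.cover x.1)
  have hh : HolC (fam A') (fam A) Subtype.val := (subFam_hol h).comp h5
  refine ⟨A', h1, h2, h3, ?_, holC_iff.1 hh, ?_, h5, h6⟩
  · choose r hr using h4
    exact ⟨⟨r, fun i x hx => hr i hx⟩⟩
  · have himm : Imm (fam A') (fam A) Subtype.val := by
      refine imm_of_local hh fun x => ?_
      -- use a chart `i` of `A'` and the composition with the subFam chart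
      obtain ⟨i, hi⟩ := A'.cover x
      obtain ⟨j, hj⟩ := A.cover x.1
      refine ⟨i, j, hi, hj, ?_⟩
      have hs := subFam_imm h x j (((subFam h).e x) x) (((subFam h).e x).map_source (h.mem_ch x))
        (by rw [((subFam h).e x).left_inv (h.mem_ch x)]; exact hj)
      -- `rd A' A = rd sub A ∘ trans`
      have hd1 : DifferentiableAt ℂ (fun z => (subFam h).e x (((fam A').e i).symm z))
          (A'.e i x) := h5.diffAt (i := i) (j := x) (A'.e i |>.map_source hi) (by
            show ((A'.e i).symm (A'.e i x)) ∈ _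
            rw [(A'.e i).left_inv hi]; exact h.mem_ch x)
      have hd1' : DifferentiableAt ℂ (fun z => (fam A').e i (((subFam h).e x).symm z))
          ((subFam h).e x x) := h6.diffAt (i := x) (j := i)
            (((subFam h).e x).map_source (h.mem_ch x)) (by
            rw [((subFam h).e x).left_inv (h.mem_ch x)]; exact hi)
      have hd2 : DifferentiableAt ℂ (fun z => A.e j ((((subFam h).e x).symm z).1))
          ((subFam h).e x x) := (subFam_hol h).diffAt (i := x) (j := j)
            (((subFam h).e x).map_source (h.mem_ch x)) (by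
            rw [((subFam h).e x).left_inv (h.mem_ch x)]; exact hj)
      have e1 : (subFam h).e x ((A'.e i).symm (A'.e i x)) = (subFam h).e x x := by
        rw [(A'.e i).left_inv hi]
      have e2 : A'.e i (((subFam h).e x).symm ((subFam h).e x x)) = A'.e i x := by
        rw [((subFam h).e x).left_inv (h.mem_ch x)]
      have h7 := fderiv_comp (A'.e i x) (g := fun z => A.e j ((((subFam h).e x).symm z).1))
        (f := fun z => (subFam h).e x ((A'.e i).symm z)) (by rw [e1]; exact hd2) hd1
      have hev : (fun z => A.e j (((A'.e i).symm z).1)) =ᶠ[𝓝 (A'.e i x)]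
          (fun z => A.e j ((((subFam h).e x).symm z).1)) ∘
            (fun z => (subFam h).e x ((A'.e i).symm z)) := by
        have hc : ContinuousAt (A'.e i).symm (A'.e i x) :=
          (A'.e i).continuousAt_symm ((A'.e i).map_source hi)
        have h8 : ∀ᶠ z in 𝓝 (A'.e i x), (A'.e i).symm z ∈ ((subFam h).e x).source :=
          hc.preimage_mem_nhds (by
            rw [(A'.e i).left_inv hi]
            exact ((subFam h).e x).open_source.mem_nhds (h.mem_ch x))
        filter_upwards [h8] with z hz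
        simp only [Function.comp]
        rw [((subFam h).e x).left_inv hz]
      show Function.Injective (fderiv ℂ (fun z => A.e j (((A'.e i).symm z).1)) (A'.e i x))
      rw [hev.fderiv_eq, h7, e1]
      -- the transition is injective
      have h9 := fderiv_comp (A'.e i x) (g := fun z => A'.e i (((subFam h).e x).symm z))
        (f := fun z => (subFam h).e x ((A'.e i).symm z)) (by rw [e1]; exact hd1') hd1
      have h10 : (fun z => A'.e i (((subFam h).e x).symm z)) ∘
          (fun z => (subFam h).e x ((A'.e i).symm z)) =ᶠ[𝓝 (A'.e i x)] id := by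
        have hc : ContinuousAt (A'.e i).symm (A'.e i x) :=
          (A'.e i).continuousAt_symm ((A'.e i).map_source hi)
        have h8 : ∀ᶠ z in 𝓝 (A'.e i x), (A'.e i).symm z ∈ ((subFam h).e x).source :=
          hc.preimage_mem_nhds (by
            rw [(A'.e i).left_inv hi]
            exact ((subFam h).e x).open_source.mem_nhds (h.mem_ch x))
        filter_upwards [h8, (A'.e i).open_target.mem_nhds ((A'.e i).map_source hi)] with z hz hz'
        simp only [Function.comp, id]
        rw [((subFam h).e x).left_inv hz, (A'.e i).right_inv hz']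
      rw [h10.fderiv_eq, fderiv_id, e1] at h9
      have hinj : Function.Injective (fderiv ℂ (fun z => (subFam h).e x ((A'.e i).symm z))
          (A'.e i x)) := by
        intro v w hvw
        have h7 := congrArg (fun T : Cn d →L[ℂ] Cn d => T v) h9
        have h8 := congrArg (fun T : Cn d →L[ℂ] Cn d => T w) h9
        simp only [ContinuousLinearMap.coe_id', id_eq, ContinuousLinearMap.coe_comp,
          Function.comp_apply] at h7 h8
        rw [h7, h8, hvw]
      exact hs.comp hinj
    intro i j z hz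
    exact himm i j z hz.1 hz.2

end

end Crest.Agent.R273.Sub_835
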