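import Crest.Agent.R273.NormC_505
import Crest.Agent.R273.Vm_333

/-!
# R273 (S0416), Part B, torus step (helper106): `L²` norms from pointwise bounds

`h : HM (KB A)⁻¹` any volume form, `vm h` its measure (`Vm_333`), `nS P B 0` the `L²` norm of
`L2K_774`.

* `nS_sq_le`        : `nS P B 0 v ^ 2 ≤ C ∫⁻ f dvm` if `∑ₖ ‖v i x k‖² ≤ f x` on `tsupport (χ i)`;
* `cauchy_of_cut`   : `χ_N u` is Cauchy in `L²` if `|u|² ≤ f`, `∫⁻_U f < ∞`, `χ_N → 1` on `U`;
* `tendsto_of_bound`: `nS P B 0 (w N) → 0` from `∑ₖ ‖w N i x k‖² ≤ f N x`, `∫⁻ f N → 0`.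
-/

set_option autoImplicit false
set_option linter.unusedSectionVars false
set_option linter.unusedSimpArgs false
set_option linter.unusedVariables false

open Set Filter Topology Complex MeasureTheory
open scoped ContDiff Matrix ComplexConjugate ENNReal NNReal

namespace Crest.Agent.R273.Supn_106

open Crest.Agent.R275 Crest.Agent.R275.Geo Crest.Agent.R275.Tor812 Crest.Agent.R275.TorS666
  Crest.Agent.R275.C1d194 Crest.Agent.R275.C2812 Crest.Agent.R275.Pai323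
  Crest.Agent.R275.Core144
  Crest.Agent.R273.L2K_774 Crest.Agent.R273.DnInt_505 Crest.Agent.R273.NormC_505
  Crest.Agent.R273.Defs_333 Crest.Agent.R273.HM_333 Crest.Agent.R273.Vm_333

noncomputable section

variable {n : ℕ} {M : Type} [TopologicalSpace M] {A : Atl n M}

section main

variable [MeasurableSpace M] [BorelSpace M] [T2Space M] [CompactSpace M] [Finite A.ι]
  (P : Part A) {B : FBun A} (h : HM (KB A)⁻¹)

/-- the square of the localised section -/
def G (v : Sec B) (i : A.ι) (x : M) : ℝ≥0∞ :=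
  ENNReal.ofReal (∑ k, ‖(P.ψ i x : ℂ) * v.1 i x k‖ ^ 2)

theorem G_off (v : Sec B) {i : A.ι} {x : M} (hx : x ∉ tsupport (P.χ i)) : G P v i x = 0 := by
  have h0 : P.ψ i x = 0 := image_eq_zero_of_notMem_tsupport fun h => hx (tsupport_psi P i h)
  unfold G
  simp [h0]

theorem continuous_G (v : Sec B) (i : A.ι) : Continuous (G P v i) := by
  rw [continuous_iff_continuousAt]
  intro x
  by_cases hx : x ∈ (A.e i).source
  · have h1 : ContinuousOn (fun y => ∑ k, ‖(P.ψ i y : ℂ) * v.1 i y k‖ ^ 2) (A.e i).source := by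
      refine continuousOn_finsetSum _ fun k _ => ContinuousOn.pow (ContinuousOn.norm ?_) 2
      refine ContinuousOn.mul ?_ (continuousOn_of_smAt (v.2.1 i k))
      exact continuous_ofReal.comp_continuousOn (continuousOn_of_smAt (P.ψ_sm i i))
    exact ENNReal.continuous_ofReal.continuousAt.comp
      (h1.continuousAt ((A.e i).open_source.mem_nhds hx))
  · have h2 : ∀ᶠ y in 𝓝 x, G P v i y = 0 := by
      filter_upwards [(isClosed_tsupport (P.χ i)).isOpen_compl.mem_nhds fun h =>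
        hx (P.χ_sub i h)] with y hy
      exact G_off P v hy
    exact (continuousAt_const (y := (0 : ℝ≥0∞))).congr (h2.mono fun y hy => hy.symm)

theorem ofReal_aN (v : Sec B) (i : A.ι) :
    ENNReal.ofReal (aN P v i) = ∫⁻ y in Ui A i, G P v i (sg A i y) := by
  have h1 : ∀ k, nrm 0 (loc A i (P.psi B.κ i) (v.1 i) k) ^ 2 =
      ∫ x, ‖rd A i (fun x => (P.psi B.κ i x *ᵥ v.1 i x) k) x‖ ^ 2 := by
    intro k
    rw [nrm_zero_sq, C1d194.loc_eq ((P.amp_psi B.κ).amp i) (v.2.1 i), l2_perz]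
  have hint : ∀ k, Integrable (fun x : RI n → ℝ =>
      ‖rd A i (fun x => (P.psi B.κ i x *ᵥ v.1 i x) k) x‖ ^ 2) := by
    intro k
    have h3 := amp_isCC ((P.amp_psi B.κ).amp i) (v.2.1 i) k
    have h4 : Continuous (fun x => ‖rd A i (fun x => (P.psi B.κ i x *ᵥ v.1 i x) k) x‖ ^ 2) :=
      (h3.smooth.continuous.norm).pow 2
    refine h4.integrable_of_hasCompactSupport ?_
    exact h3.hasCompactSupport.comp_left (g := fun y : ℂ => ‖y‖ ^ 2) (by simp)
  have h2 : aN P v i = ∫ x, ∑ k, ‖rd A i (fun x => (P.psi B.κ i x *ᵥ v.1 i x) k) x‖ ^ 2 := by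
    unfold aN
    simp only [h1]
    rw [← integral_finsetSum _ fun k _ => hint k]
  rw [h2, ofReal_integral_eq_lintegral_ofReal (integrable_finsetSum _ fun k _ => hint k)
    (Eventually.of_forall fun x => Finset.sum_nonneg fun k _ => sq_nonneg _)]
  have h3 : ∀ x, ENNReal.ofReal (∑ k, ‖rd A i (fun x => (P.psi B.κ i x *ᵥ v.1 i x) k) x‖ ^ 2) =
      (Ui A i).indicator (fun y => G P v i (sg A i y)) x := by
    intro x
    by_cases hx : x ∈ Ui A i
    · rw [indicator_of_mem hx]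
      simp only [C1d194.rd_of_mem hx]
      unfold G sg
      congr 1
      refine Finset.sum_congr rfl fun k _ => ?_
      congr 2
      simp [Part.psi, Matrix.smul_mulVec]
    · rw [indicator_of_notMem hx]
      simp [C1d194.rd_off hx]
  simp only [h3]
  rw [lintegral_indicator (C1d194.isOpen_Ui i).measurableSet]

theorem exists_lower_w (i : A.ι) : ∃ c : ℝ≥0, 0 < c ∧ ∀ x ∈ tsupport (P.χ i),
    (c : ℝ≥0∞) ≤ ENNReal.ofReal (h.w i x) := by
  have hK := P.χ_cpt i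
  have hc : ContinuousOn (h.w i) (tsupport (P.χ i)) :=
    (continuousOn_of_smAt (h.sm i)).mono (P.χ_sub i)
  by_cases hne : (tsupport (P.χ i)).Nonempty
  · obtain ⟨x0, hx0, hmin⟩ := hK.exists_isMinOn hne hc
    have hpos : 0 < h.w i x0 := h.pos i x0 (P.χ_sub i hx0)
    refine ⟨(h.w i x0).toNNReal, Real.toNNReal_pos.2 hpos, fun x hx => ?_⟩
    exact ENNReal.ofReal_le_ofReal (hmin hx)
  · exact ⟨1, one_pos, fun x hx => absurd ⟨x, hx⟩ hne⟩

/-- the local estimate -/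
theorem aN_le (i : A.ι) : ∃ C : ℝ≥0, ∀ v : Sec B,
    ENNReal.ofReal (aN P v i) ≤ C * ∫⁻ x, G P v i x ∂(vm h) := by
  obtain ⟨c, hc0, hc⟩ := exists_lower_w P h i
  refine ⟨c⁻¹, fun v => ?_⟩
  rw [ofReal_aN]
  have h1 : ∀ y ∈ Ui A i, G P v i (sg A i y) ≤ (c⁻¹ : ℝ≥0) * (dn h i y * G P v i (sg A i y)) := by
    intro y hy
    by_cases hx : sg A i y ∈ tsupport (P.χ i)
    · have h2 := hc _ hx
      rw [← mul_assoc]
      refine le_mul_of_one_le_left (zero_le) ?_
      have h3 : (1 : ℝ≥0∞) = ((c⁻¹ : ℝ≥0) : ℝ≥0∞) * (c : ℝ≥0∞) := by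
        rw [← ENNReal.coe_mul, inv_mul_cancel₀ hc0.ne', ENNReal.coe_one]
      rw [h3]
      exact mul_le_mul_right h2 _
    · rw [G_off P v hx]
      exact zero_le
  have hmeas : Measurable (G P v i) := (continuous_G P v i).measurable
  calc ∫⁻ y in Ui A i, G P v i (sg A i y)
      ≤ ∫⁻ y in Ui A i, (c⁻¹ : ℝ≥0) * (dn h i y * G P v i (sg A i y)) :=
        setLIntegral_mono' (C1d194.isOpen_Ui i).measurableSet h1
    _ = (c⁻¹ : ℝ≥0) * ∫⁻ y in Ui A i, dn h i y * G P v i (sg A i y) := by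
        rw [lintegral_const_mul' _ _ ENNReal.coe_ne_top]
    _ = (c⁻¹ : ℝ≥0) * ∫⁻ x in (A.e i).source, G P v i x ∂(vm h) := by
        rw [setLIntegral_vm h i hmeas]
    _ ≤ (c⁻¹ : ℝ≥0) * ∫⁻ x, G P v i x ∂(vm h) :=
        mul_le_mul_right (setLIntegral_le_lintegral _ _) _

theorem exists_upper_psi (i : A.ι) : ∃ C : ℝ, 0 ≤ C ∧ ∀ x, P.ψ i x ^ 2 ≤ C := by
  obtain ⟨C, hC⟩ := (isCompact_univ : IsCompact (univ : Set M)).exists_bound_of_continuousOn
    (continuous_of_sm (P.ψ_sm i)).continuousOn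
  refine ⟨C ^ 2, sq_nonneg _, fun x => ?_⟩
  have := hC x (mem_univ x)
  rw [Real.norm_eq_abs] at this
  rw [← sq_abs]
  exact pow_le_pow_left₀ (abs_nonneg _) this 2

/-- **(1)** the `L²` norm is bounded by the integral of any pointwise bound -/
theorem nS_sq_le : ∃ C : ℝ≥0, ∀ (v : Sec B) (f : M → ℝ≥0∞),
    (∀ i, ∀ x ∈ tsupport (P.χ i), ENNReal.ofReal (∑ k, ‖v.1 i x k‖ ^ 2) ≤ f x) →
    ENNReal.ofReal (nS P B 0 v ^ 2) ≤ C * ∫⁻ x, f x ∂(vm h) := by
  have := Fintype.ofFinite A.ι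
  choose C1 h1 using fun i => aN_le (B := B) P h i
  choose C2 h20 h2 using fun i => exists_upper_psi P i
  set D : ℝ≥0 := (Fintype.card B.κ : ℝ≥0) ^ 2 * (Fintype.card A.ι : ℝ≥0) *
    ∑ i, C1 i * (C2 i).toNNReal with hD
  refine ⟨D, fun v f hf => ?_⟩
  have h3 : ∀ i, ENNReal.ofReal (aN P v i) ≤
      ((C1 i * (C2 i).toNNReal : ℝ≥0) : ℝ≥0∞) * ∫⁻ x, f x ∂(vm h) := by
    intro i
    refine (h1 i v).trans ?_
    rw [ENNReal.coe_mul, mul_assoc]
    refine mul_le_mul_right ?_ _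
    rw [← lintegral_const_mul' _ _ ENNReal.coe_ne_top]
    refine lintegral_mono fun x => ?_
    by_cases hx : x ∈ tsupport (P.χ i)
    · refine le_trans ?_ (mul_le_mul_right (hf i x hx) _)
      unfold G
      rw [← ENNReal.ofReal_coe_nnreal, Real.coe_toNNReal _ (h20 i),
        ← ENNReal.ofReal_mul (h20 i)]
      refine ENNReal.ofReal_le_ofReal ?_
      rw [Finset.mul_sum]
      refine Finset.sum_le_sum fun k _ => ?_
      rw [norm_mul, mul_pow, Complex.norm_real, Real.norm_eq_abs, sq_abs]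
      exact mul_le_mul_of_nonneg_right (h2 i x) (sq_nonneg _)
    · rw [G_off P v hx]
      exact zero_le
  have h4 : nS P B 0 v ^ 2 ≤ (Fintype.card B.κ : ℝ) ^ 2 * (Fintype.card A.ι : ℝ) *
      ∑ i, aN P v i := by
    have h5 := nS_le_aN P v
    have h6 : nS P B 0 v ^ 2 ≤ ((Fintype.card B.κ : ℝ) * ∑ i, Real.sqrt (aN P v i)) ^ 2 :=
      pow_le_pow_left₀ (nS_nonneg P B 0 v) h5 2
    refine h6.trans ?_
    rw [mul_pow, mul_assoc]
    refine mul_le_mul_of_nonneg_left ?_ (sq_nonneg _)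
    have h7 := sq_sum_le_card_mul_sum_sq (s := (Finset.univ : Finset A.ι))
      (f := fun i => Real.sqrt (aN P v i))
    refine h7.trans (le_of_eq ?_)
    rw [Finset.card_univ]
    congr 1
    exact Finset.sum_congr rfl fun i _ => Real.sq_sqrt (aN_nonneg P v i)
  calc ENNReal.ofReal (nS P B 0 v ^ 2)
      ≤ ENNReal.ofReal ((Fintype.card B.κ : ℝ) ^ 2 * (Fintype.card A.ι : ℝ) *
          ∑ i, aN P v i) := ENNReal.ofReal_le_ofReal h4
    _ = ((Fintype.card B.κ : ℝ≥0) ^ 2 * (Fintype.card A.ι : ℝ≥0) : ℝ≥0) *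
          ∑ i, ENNReal.ofReal (aN P v i) := by
        rw [ENNReal.ofReal_mul (by positivity), ENNReal.ofReal_sum_of_nonneg fun i _ =>
          aN_nonneg P v i]
        congr 1
        rw [← ENNReal.ofReal_coe_nnreal]
        congr 1
    _ ≤ ((Fintype.card B.κ : ℝ≥0) ^ 2 * (Fintype.card A.ι : ℝ≥0) : ℝ≥0) *
          ∑ i, (((C1 i * (C2 i).toNNReal : ℝ≥0) : ℝ≥0∞) * ∫⁻ x, f x ∂(vm h)) :=
        mul_le_mul_right (Finset.sum_le_sum fun i _ => h3 i) _
    _ = D * ∫⁻ x, f x ∂(vm h) := by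
        rw [← Finset.sum_mul, ← mul_assoc, hD]
        push_cast
        rfl

/-- **(3)** convergence to zero -/
theorem tendsto_of_bound {w : ℕ → Sec B} {f : ℕ → M → ℝ≥0∞}
    (hf : ∀ N i, ∀ x ∈ tsupport (P.χ i),
      ENNReal.ofReal (∑ k, ‖(w N).1 i x k‖ ^ 2) ≤ f N x)
    (h0 : Tendsto (fun N => ∫⁻ x, f N x ∂(vm h)) atTop (𝓝 0)) :
    Tendsto (fun N => nS P B 0 (w N)) atTop (𝓝 0) := by
  obtain ⟨C, hC⟩ := nS_sq_le (B := B) P h
  have h1 : Tendsto (fun N => (C : ℝ≥0∞) * ∫⁻ x, f N x ∂(vm h)) atTop (𝓝 0) := by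
    have := ENNReal.Tendsto.const_mul h0 (a := (C : ℝ≥0∞)) (Or.inr ENNReal.coe_ne_top)
    rwa [mul_zero] at this
  have h2 : Tendsto (fun N => ENNReal.ofReal (nS P B 0 (w N) ^ 2)) atTop (𝓝 0) :=
    tendsto_of_tendsto_of_tendsto_of_le_of_le tendsto_const_nhds h1 (fun _ => zero_le)
      fun N => hC (w N) (f N) (hf N)
  have h3 : Tendsto (fun N => nS P B 0 (w N) ^ 2) atTop (𝓝 0) := by
    have h4 := (ENNReal.tendsto_toReal (a := 0) ENNReal.zero_ne_top).comp h2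
    refine h4.congr fun N => ?_
    simp [ENNReal.toReal_ofReal (sq_nonneg _)]
  have h5 := (Real.continuous_sqrt.tendsto 0).comp h3
  rw [Real.sqrt_zero] at h5
  refine h5.congr fun N => ?_
  simp [Real.sqrt_sq (nS_nonneg P B 0 (w N))]

/-- **(2)** cut-offs of an `L²` section on an open set are Cauchy -/
theorem cauchy_of_cut {U : Set M} (hU : IsOpen U) {u : A.ι → M → B.κ → ℂ} {f : M → ℝ≥0∞}
    (hfm : Measurable f) (hfU : ∫⁻ x in U, f x ∂(vm h) ≠ ⊤)
    (hu : ∀ i, ∀ x ∈ tsupport (P.χ i), x ∈ U → ENNReal.ofReal (∑ k, ‖u i x k‖ ^ 2) ≤ f x)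
    {χ : ℕ → M → ℝ} (hc : ∀ N, Continuous (χ N)) (h0 : ∀ N x, 0 ≤ χ N x) (h1 : ∀ N x, χ N x ≤ 1)
    (hlim : ∀ x ∈ U, Tendsto (fun N => χ N x) atTop (𝓝 1)) {v : ℕ → Sec B}
    (hv : ∀ N i, ∀ x ∈ (A.e i).source, x ∈ U → (v N).1 i x = (χ N x : ℂ) • u i x)
    (hv0 : ∀ N i, ∀ x ∈ (A.e i).source, x ∉ U → (v N).1 i x = 0) :
    ∀ ε > 0, ∃ N₀, ∀ m ≥ N₀, ∀ k ≥ N₀, nS P B 0 (v m - v k) < ε := by
  intro ε hε
  obtain ⟨C, hC⟩ := nS_sq_le (B := B) P h
  -- dominated convergence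
  have hD : Tendsto (fun N => ∫⁻ x in U, ENNReal.ofReal ((1 - χ N x) ^ 2) * f x ∂(vm h)) atTop
      (𝓝 0) := by
    have h2 := tendsto_lintegral_of_dominated_convergence (μ := (vm h).restrict U)
      (F := fun N x => ENNReal.ofReal ((1 - χ N x) ^ 2) * f x) (f := fun _ => 0) f
      (fun N => ?_) (fun N => ?_) hfU ?_
    · simpa using h2
    · exact ((((continuous_const.sub (hc N)).pow 2).measurable).ennreal_ofReal).mul hfm
    · refine Eventually.of_forall fun x => ?_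
      show ENNReal.ofReal ((1 - χ N x) ^ 2) * f x ≤ f x
      have h3 : ENNReal.ofReal ((1 - χ N x) ^ 2) ≤ 1 := by
        rw [← ENNReal.ofReal_one]
        refine ENNReal.ofReal_le_ofReal ?_
        have := h0 N x
        have := h1 N x
        nlinarith
      calc ENNReal.ofReal ((1 - χ N x) ^ 2) * f x ≤ 1 * f x := mul_le_mul_left h3 _
        _ = f x := one_mul _
    · have hfin : ∀ᵐ x ∂((vm h).restrict U), f x < ⊤ := ae_lt_top hfm hfU
      filter_upwards [hfin, ae_restrict_mem hU.measurableSet] with x hx hxU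
      have h3 : Tendsto (fun N => ENNReal.ofReal ((1 - χ N x) ^ 2)) atTop (𝓝 0) := by
        have h4 : Tendsto (fun N => (1 - χ N x) ^ 2) atTop (𝓝 0) := by
          have h5 := ((tendsto_const_nhds (x := (1 : ℝ))).sub (hlim x hxU)).pow 2
          simpa using h5
        have h6 := ENNReal.tendsto_ofReal h4
        rwa [ENNReal.ofReal_zero] at h6
      have h7 := ENNReal.Tendsto.mul_const h3 (b := f x) (Or.inr hx.ne)
      rwa [zero_mul] at h7
  -- choose `N₀`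
  have hδ : ENNReal.ofReal (ε ^ 2) ≠ 0 := by
    rw [Ne, ENNReal.ofReal_eq_zero, not_le]
    positivity
  have h2 : Tendsto (fun N => 4 * (C : ℝ≥0∞) *
      ∫⁻ x in U, ENNReal.ofReal ((1 - χ N x) ^ 2) * f x ∂(vm h)) atTop (𝓝 0) := by
    have := ENNReal.Tendsto.const_mul hD (a := 4 * (C : ℝ≥0∞))
      (Or.inr (ENNReal.mul_ne_top (by norm_num) ENNReal.coe_ne_top))
    rwa [mul_zero] at this
  obtain ⟨N₀, hN₀⟩ := eventually_atTop.1
    ((tendsto_order.1 h2).2 (ENNReal.ofReal (ε ^ 2)) (pos_iff_ne_zero.2 hδ))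
  refine ⟨N₀, fun m hm k hk => ?_⟩
  set g : ℕ → M → ℝ≥0∞ := fun N => U.indicator fun x => ENNReal.ofReal ((1 - χ N x) ^ 2) * f x
    with hg
  have hgm : ∀ N, Measurable (g N) := fun N =>
    (((((continuous_const.sub (hc N)).pow 2).measurable).ennreal_ofReal).mul hfm).indicator
      hU.measurableSet
  have hgi : ∀ N, ∫⁻ x, g N x ∂(vm h) =
      ∫⁻ x in U, ENNReal.ofReal ((1 - χ N x) ^ 2) * f x ∂(vm h) := fun N =>
    lintegral_indicator hU.measurableSet _
  have h3 : ∀ i, ∀ x ∈ tsupport (P.χ i), ENNReal.ofReal (∑ l, ‖(v m - v k).1 i x l‖ ^ 2) ≤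
      2 * (g m x + g k x) := by
    intro i x hx
    have hxs := P.χ_sub i hx
    by_cases hxU : x ∈ U
    · have e1 : (v m - v k).1 i x = ((χ m x - χ k x : ℝ) : ℂ) • u i x := by
        have : (v m - v k).1 i x = (v m).1 i x - (v k).1 i x := rfl
        rw [this, hv m i x hxs hxU, hv k i x hxs hxU, ← sub_smul]
        push_cast
        rfl
      have e2 : ∑ l, ‖(v m - v k).1 i x l‖ ^ 2 = (χ m x - χ k x) ^ 2 * ∑ l, ‖u i x l‖ ^ 2 := by
        rw [e1, Finset.mul_sum]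
        refine Finset.sum_congr rfl fun l _ => ?_
        rw [Pi.smul_apply, smul_eq_mul, norm_mul, mul_pow, Complex.norm_real, Real.norm_eq_abs,
          sq_abs]
      have e3 : (χ m x - χ k x) ^ 2 ≤ 2 * ((1 - χ m x) ^ 2 + (1 - χ k x) ^ 2) := by
        nlinarith [sq_nonneg ((1 - χ m x) + (1 - χ k x))]
      rw [e2, ENNReal.ofReal_mul (sq_nonneg _)]
      calc ENNReal.ofReal ((χ m x - χ k x) ^ 2) * ENNReal.ofReal (∑ l, ‖u i x l‖ ^ 2)
          ≤ ENNReal.ofReal (2 * ((1 - χ m x) ^ 2 + (1 - χ k x) ^ 2)) * f x :=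
            mul_le_mul' (ENNReal.ofReal_le_ofReal e3) (hu i x hx hxU)
        _ = 2 * (g m x + g k x) := by
            rw [hg]
            simp only [indicator_of_mem hxU]
            rw [ENNReal.ofReal_mul (by norm_num), ENNReal.ofReal_add (sq_nonneg _) (sq_nonneg _),
              ENNReal.ofReal_ofNat, mul_assoc, add_mul]
    · have e1 : (v m - v k).1 i x = 0 := by
        have : (v m - v k).1 i x = (v m).1 i x - (v k).1 i x := rfl
        rw [this, hv0 m i x hxs hxU, hv0 k i x hxs hxU, sub_zero]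
      rw [e1]
      simp
  have h4 := hC (v m - v k) _ h3
  have h5 : ∫⁻ x, 2 * (g m x + g k x) ∂(vm h) =
      2 * (∫⁻ x in U, ENNReal.ofReal ((1 - χ m x) ^ 2) * f x ∂(vm h) +
        ∫⁻ x in U, ENNReal.ofReal ((1 - χ k x) ^ 2) * f x ∂(vm h)) := by
    rw [lintegral_const_mul (f := fun x => g m x + g k x) _ ((hgm m).add (hgm k)),
      lintegral_add_left (hgm m), hgi, hgi]
  rw [h5] at h4
  have h6 : ENNReal.ofReal (nS P B 0 (v m - v k) ^ 2) < ENNReal.ofReal (ε ^ 2) := by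
    set a := ∫⁻ x in U, ENNReal.ofReal ((1 - χ m x) ^ 2) * f x ∂(vm h)
    set b := ∫⁻ x in U, ENNReal.ofReal ((1 - χ k x) ^ 2) * f x ∂(vm h)
    have ha : 4 * (C : ℝ≥0∞) * a < ENNReal.ofReal (ε ^ 2) := hN₀ m hm
    have hb : 4 * (C : ℝ≥0∞) * b < ENNReal.ofReal (ε ^ 2) := hN₀ k hk
    have h7 : (C : ℝ≥0∞) * (2 * (a + b)) ≤ max (4 * (C : ℝ≥0∞) * a) (4 * (C : ℝ≥0∞) * b) := by
      rcases le_total a b with hab | hab
      · refine le_max_of_le_right ?_
        calc (C : ℝ≥0∞) * (2 * (a + b)) ≤ C * (2 * (b + b)) := by gcongr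
          _ = 4 * C * b := by ring
      · refine le_max_of_le_left ?_
        calc (C : ℝ≥0∞) * (2 * (a + b)) ≤ C * (2 * (a + a)) := by gcongr
          _ = 4 * C * a := by ring
    exact (h4.trans h7).trans_lt (max_lt ha hb)
  rw [ENNReal.ofReal_lt_ofReal_iff (by positivity)] at h6
  exact lt_of_pow_lt_pow_left₀ 2 hε.le h6

end main

end

end Crest.Agent.R273.Supn_106
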