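import Crest.Agent.R273.Lio_333
import Crest.Agent.R273.HFlowC_376
import Crest.Agent.R273.PartA_61

/-!
# R273 (S0416), helper333: subgroups of the normal form; the black box on the fibre

* `Sus.sub`     : `Sus D K B` restricted to `H ≤ G`, over the covering `D.cov (G ⧸ H)`
* `UPV`         : the polyvector half of the bridge (helper914)
* `bb_of_partAt`: Part A on `M` gives the black box `BB (volK S.KY) G` of the torus step
-/

set_option autoImplicit false
set_option linter.unusedSectionVars false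

open Set Filter Topology Complex
open scoped ContDiff Matrix ComplexConjugate Manifold ComplexOrder

namespace Crest.Agent.R273.SusSub_333

open Crest.Agent.R275.Geo Crest.Agent.R275.Core144 Crest.Agent.R275.GC293
open Crest.Agent.R275.Prod363
open Crest.Agent.R273.Defs_333 Crest.Agent.R273.Kah_333 Crest.Agent.R273.Vol_333
open Crest.Agent.R273.Map_835 Crest.Agent.R273.PB_835 Crest.Agent.R273.EA_333
open Crest.Agent.R273.UCov_914 Crest.Agent.R273.Prd_835 Crest.Agent.R273.Sus_333
open Crest.Agent.R273.HM_333 Crest.Agent.R273.TorDefs_422 Crest.Agent.R273.Dsc_333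
open Crest.Agent.R273.Lio_333 Crest.Agent.R273.PartA_61 Crest.Agent.R273.NV_578
open Crest.Agent.R273.Fock_243 (FI Gam)
open Crest.Agent.R273.HFlowC_376 (pullK)

noncomputable section

variable {g d : ℕ} {M : Type} [TopologicalSpace M] {A : Atl (g + d) M} {G : Type} [CommGroup G]
variable {D : MonD A G} {K : Kah A} {Y : Type} [TopologicalSpace Y] [MulAction G Y]
  {B : Atl d Y}

/-- restriction to a subgroup, for any metric `K'` which is the pull-back of `K` -/
def sub' (S : Sus D K B) (H : Subgroup G) (K' : Kah (D.atl (G ⧸ H)))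
    (hK : ∀ p e, K'.g p e = K.g p.1 (D.pr e)) : Sus (D.sub H) K' B where
  lam := S.lam.comp H.subtype
  Ψ := S.Ψ.trans (D.homeo H)
  lb := (D.lBih_toSub H).comp S.lb
  eqv γ z y := by
    change γ • D.toSub H (S.Ψ (z, y)) =
      D.toSub H (S.Ψ (z + Multiplicative.toAdd (S.lam (γ : G)), (γ : G) • y))
    rw [← D.toSub_deck, S.eqv]
  G0 := S.G0
  G0pos := S.G0pos
  KY := S.KY
  met i j a z y hz hy ha := by
    have h1 := S.met i j a.1 z y hz hy ha.1
    rw [hK]
    exact h1

/-- restriction to a subgroup -/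
def sub (S : Sus D K B) (H : Subgroup G) : Sus (D.sub H) (pullK D K : Kah (D.atl (G ⧸ H))) B :=
  sub' S H (pullK D K) fun _ _ => rfl

theorem sub_KY (S : Sus D K B) (H : Subgroup G) : (sub S H).KY = S.KY := rfl

theorem sub_lam (S : Sus D K B) (H : Subgroup G) (γ : H) : (sub S H).lam γ = S.lam (γ : G) := rfl

theorem volK_pullK_w {F : Type} [MulAction G F] (K : Kah A) (p : (D.atl F).ι) (e : D.cov F) :
    (volK (pullK D K : Kah (D.atl F))).w p e = (volK K).w p.1 (D.pr e) := rfl

theorem volK_pullK_semipos {F : Type} [MulAction G F] {K : Kah A} (hs : (volK K).Semipos) :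
    (volK (pullK D K : Kah (D.atl F))).Semipos := fun p z hz v => hs p.1 z hz v

/-! ### the black box -/

/-- the polyvector half of the bridge -/
def UPV (S : Sus D K B) : Prop :=
  ∀ (k q : ℕ) (v : G →* Circle) (w : B.ι → Y → FI d → ℂ), w ∈ NV ((KB B)⁻¹ ^ k) (volK S.KY) q →
    w ≠ 0 → SemiV k (v ^ k) w → NV (((KB A)⁻¹ * D.fl v) ^ k) (volK K) q ≠ ⊥

/-- **bridge** -/
theorem bb_of_partAt [CompactSpace M] (S : Sus D K B) (hU : UPV S) (hA : PartAt A (volK K)) :
    BB (volK S.KY) G := by
  rintro v ⟨q, hq⟩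
  have h1 : {k : ℕ | NV (((KB A)⁻¹ * D.fl v) ^ k) (volK K) q ≠ ⊥}.Infinite := by
    rw [Set.infinite_iff_exists_gt]
    intro k0
    obtain ⟨k, hk, w, hw, h0, hv⟩ := hq (k0 + 1)
    exact ⟨k, hU k q v w hw h0 hv, hk⟩
  obtain ⟨m, hm, h2⟩ := hA (D.fl v) (D.flHM v) (fun i x _ => D.cur_flHM v i x) q h1
  exact Gd_of_hasSec S hm h2

end

end Crest.Agent.R273.SusSub_333
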