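import Crest.Agent.R273.RegC_844
import Crest.Agent.R271.H3_51
import Crest.Agent.R271.Ball_399

/-!
# Row 273, leaf T4 (helper844), part A: weakly psh functions, flat statements
-/

set_option autoImplicit false
set_option linter.unusedSectionVars false

open MeasureTheory Set Metric Filter Topology
open scoped ENNReal ContDiff

noncomputable section

namespace Crest.Agent.R273.Reg_844

open Crest.Agent.R275.FL606 Crest.Agent.R271.Ho51
open Crest.Agent.R271.W792 (lev)
open Crest.Agent.R271.Ball399 (lev0)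

variable {n : ℕ}

/-! ### integration by parts -/

lemma ibp1 {h χ : (Fin n → ℂ) → ℝ} (hh : ContDiff ℝ (⊤ : ℕ∞) h) (hχ : ContDiff ℝ (⊤ : ℕ∞) χ)
    (hc : HasCompactSupport χ) (v : Fin n → ℂ) :
    ∫ z, h z * fderiv ℝ χ z v = - ∫ z, fderiv ℝ h z v * χ z := by
  have hd : ∀ z, DifferentiableAt ℝ h z := fun z => hh.differentiable (by simp) z
  have hd' : ∀ z, DifferentiableAt ℝ χ z := fun z => hχ.differentiable (by simp) z
  have h0 := flat_integral_fderiv (g := fun z => h z * χ z) (hh.mul hχ) (hc.mul_left) v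
  have h1 : ∀ z, fderiv ℝ (fun z => h z * χ z) z v =
      h z * fderiv ℝ χ z v + fderiv ℝ h z v * χ z := by
    intro z
    rw [fderiv_fun_mul (hd z) (hd' z)]
    simp only [_root_.add_apply, _root_.smul_apply, smul_eq_mul]
    ring
  simp only [h1] at h0
  have i1 : Integrable (fun z => h z * fderiv ℝ χ z v) := by
    have c1 : Continuous fun z => h z * fderiv ℝ χ z v :=
      hh.continuous.mul ((hχ.continuous_fderiv (by simp)).clm_apply continuous_const)
    exact c1.integrable_of_hasCompactSupport ((hc.fderiv_apply (𝕜 := ℝ) v).mul_left)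
  have i2 : Integrable (fun z => fderiv ℝ h z v * χ z) := by
    have c1 : Continuous fun z => fderiv ℝ h z v * χ z :=
      ((hh.continuous_fderiv (by simp)).clm_apply continuous_const).mul hχ.continuous
    exact c1.integrable_of_hasCompactSupport hc.mul_left
  rw [integral_add i1 i2] at h0
  linarith

lemma contDiff_fd {h : (Fin n → ℂ) → ℝ} (hh : ContDiff ℝ (⊤ : ℕ∞) h) (v : Fin n → ℂ) :
    ContDiff ℝ (⊤ : ℕ∞) (fun y => fderiv ℝ h y v) :=
  (hh.fderiv_right (m := (⊤ : ℕ∞)) (by exact_mod_cast le_top)).clm_apply contDiff_const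

lemma ibp2 {h χ : (Fin n → ℂ) → ℝ} (hh : ContDiff ℝ (⊤ : ℕ∞) h) (hχ : ContDiff ℝ (⊤ : ℕ∞) χ)
    (hc : HasCompactSupport χ) (v : Fin n → ℂ) :
    ∫ z, h z * fderiv ℝ (fun y => fderiv ℝ χ y v) z v =
      ∫ z, fderiv ℝ (fun y => fderiv ℝ h y v) z v * χ z := by
  rw [ibp1 hh (contDiff_fd hχ v) (hc.fderiv_apply (𝕜 := ℝ) v) v,
    ibp1 (contDiff_fd hh v) hχ hc v, neg_neg]

lemma continuous_lev0 {h : (Fin n → ℂ) → ℝ} (hh : ContDiff ℝ (⊤ : ℕ∞) h) (w : Fin n → ℂ) :
    Continuous (fun z => lev0 h z w) := by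
  unfold lev0
  have h1 : ∀ v : Fin n → ℂ, Continuous fun z => fderiv ℝ (fun y => fderiv ℝ h y v) z v :=
    fun v => ((contDiff_fd hh v).continuous_fderiv (by simp)).clm_apply continuous_const
  exact continuous_const.mul ((h1 w).add (h1 (Complex.I • w)))

lemma hasCompactSupport_lev0 {χ : (Fin n → ℂ) → ℝ} (hc : HasCompactSupport χ) (w : Fin n → ℂ) :
    HasCompactSupport (fun z => lev0 χ z w) := by
  have h1 : ∀ v : Fin n → ℂ, HasCompactSupport fun z => fderiv ℝ (fun y => fderiv ℝ χ y v) z v :=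
    fun v => (hc.fderiv_apply (𝕜 := ℝ) v).fderiv_apply (𝕜 := ℝ) v
  exact ((h1 w).add (h1 (Complex.I • w))).mul_left

lemma ibp_lev0 {h χ : (Fin n → ℂ) → ℝ} (hh : ContDiff ℝ (⊤ : ℕ∞) h)
    (hχ : ContDiff ℝ (⊤ : ℕ∞) χ) (hc : HasCompactSupport χ) (w : Fin n → ℂ) :
    ∫ z, h z * lev0 χ z w = ∫ z, lev0 h z w * χ z := by
  have c2 : ∀ {g : (Fin n → ℂ) → ℝ}, ContDiff ℝ (⊤ : ℕ∞) g → ∀ v : Fin n → ℂ,
      Continuous fun z => fderiv ℝ (fun y => fderiv ℝ g y v) z v :=
    fun hg v => ((contDiff_fd hg v).continuous_fderiv (by simp)).clm_apply continuous_const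
  have i1 : ∀ v : Fin n → ℂ, Integrable
      (fun z => h z * fderiv ℝ (fun y => fderiv ℝ χ y v) z v) := fun v =>
    (hh.continuous.mul (c2 hχ v)).integrable_of_hasCompactSupport
      (((hc.fderiv_apply (𝕜 := ℝ) v).fderiv_apply (𝕜 := ℝ) v).mul_left)
  have i2 : ∀ v : Fin n → ℂ, Integrable
      (fun z => fderiv ℝ (fun y => fderiv ℝ h y v) z v * χ z) := fun v =>
    ((c2 hh v).mul hχ.continuous).integrable_of_hasCompactSupport hc.mul_left
  have e1 : (fun z => h z * lev0 χ z w) = fun z =>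
      (1 / 4) * (h z * fderiv ℝ (fun y => fderiv ℝ χ y w) z w +
        h z * fderiv ℝ (fun y => fderiv ℝ χ y (Complex.I • w)) z (Complex.I • w)) := by
    funext z; unfold lev0; ring
  have e2 : (fun z => lev0 h z w * χ z) = fun z =>
      (1 / 4) * (fderiv ℝ (fun y => fderiv ℝ h y w) z w * χ z +
        fderiv ℝ (fun y => fderiv ℝ h y (Complex.I • w)) z (Complex.I • w) * χ z) := by
    funext z; unfold lev0; ring
  rw [e1, e2, integral_const_mul, integral_const_mul, integral_add (i1 _) (i1 _),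
    integral_add (i2 _) (i2 _), ibp2 hh hχ hc, ibp2 hh hχ hc]

/-- a continuous function which is nonnegative against tests is nonnegative -/
lemma nonneg_of_test {g : (Fin n → ℂ) → ℝ} (hg : Continuous g) {B : Set (Fin n → ℂ)}
    (hB : IsOpen B) (h : ∀ χ : (Fin n → ℂ) → ℝ, ContDiff ℝ (⊤ : ℕ∞) χ → HasCompactSupport χ →
      tsupport χ ⊆ B → (∀ y, 0 ≤ χ y) → 0 ≤ ∫ z, g z * χ z) {z : Fin n → ℂ} (hz : z ∈ B) :
    0 ≤ g z := by
  by_contra hneg
  rw [not_le] at hneg
  have h1 : ∀ᶠ y in 𝓝 z, y ∈ B ∧ g y < g z / 2 :=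
    (hB.mem_nhds hz |> fun h => h : ∀ᶠ y in 𝓝 z, y ∈ B).and
      (hg.continuousAt.eventually (gt_mem_nhds (by linarith)))
  obtain ⟨r, hr, hball⟩ := Metric.eventually_nhds_iff_ball.1 h1
  let f : ContDiffBump z := ⟨r / 4, r / 2, by positivity, by linarith⟩
  have hts : tsupport (f : (Fin n → ℂ) → ℝ) ⊆ ball z r := by
    rw [f.tsupport_eq]
    exact closedBall_subset_ball (show r / 2 < r by linarith)
  have h2 := h f f.contDiff f.hasCompactSupport (hts.trans fun y hy => (hball y hy).1)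
    (fun y => f.nonneg)
  have h3 : ∫ y, g y * f y ≤ ∫ y, (g z / 2) * f y := by
    refine integral_mono ?_ ?_ fun y => ?_
    · exact (hg.mul f.continuous).integrable_of_hasCompactSupport f.hasCompactSupport.mul_left
    · exact (continuous_const.mul f.continuous).integrable_of_hasCompactSupport
        f.hasCompactSupport.mul_left
    · by_cases hy : y ∈ tsupport (f : (Fin n → ℂ) → ℝ)
      · exact mul_le_mul_of_nonneg_right (hball y (hts hy)).2.le f.nonneg
      · simp [image_eq_zero_of_notMem_tsupport hy]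
  rw [integral_const_mul] at h3
  have h4 : 0 < ∫ y, f y := f.integral_pos
  nlinarith

/-! ### convolution of integrable functions -/

variable {κ : (Fin n → ℂ) → ℝ}

lemma coe_smul' (ε : ℝ) (y : Fin n → ℂ) : (ε : ℂ) • y = ε • y := by
  ext i; simp

lemma contDiff_regF_int (hκ : Ker volume κ) (hs : ContDiff ℝ ∞ κ) {F : (Fin n → ℂ) → ℝ}
    (hF : Integrable F) {ε : ℝ} (hε : 0 < ε) : ContDiff ℝ (⊤ : ℕ∞) (regF volume κ ε F) := by
  have h1 : Integrable (fun y : Fin n → ℂ => F ((ε : ℂ) • y)) := by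
    simp only [coe_smul']
    exact hF.comp_smul hε.ne'
  have h2 := contDiff_conv_int volume hκ hs h1.locallyIntegrable
  have h3 : ContDiff ℝ ∞ (fun y : Fin n → ℂ => conv volume κ (fun y => F ((ε : ℂ) • y))
      ((ε : ℂ)⁻¹ • y)) := by
    have : ContDiff ℝ ∞ (fun y : Fin n → ℂ => (ε : ℂ)⁻¹ • y) := contDiff_const_smul _
    exact h2.comp this
  have h4 : regF volume κ ε F = fun y => conv volume κ (fun y => F ((ε : ℂ) • y))
      ((ε : ℂ)⁻¹ • y) := by
    funext y
    exact regF_eq_conv volume κ hε F y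
  rw [h4]
  exact h3

/-- joint integrability -/
lemma integrable_prod_reg (hκ : Ker volume κ) {F g : (Fin n → ℂ) → ℝ} (hFm : Measurable F)
    (hF : Integrable F) (hg : Continuous g) (hgc : HasCompactSupport g) (ε : ℝ) :
    Integrable (fun q : (Fin n → ℂ) × (Fin n → ℂ) => κ q.1 * F (q.2 + (ε : ℂ) • q.1) * g q.2)
      (volume.prod volume) := by
  obtain ⟨K, hK⟩ := hg.bounded_above_of_compact_support hgc
  have hm : Measurable (fun q : (Fin n → ℂ) × (Fin n → ℂ) =>
      κ q.1 * F (q.2 + (ε : ℂ) • q.1) * g q.2) := by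
    have c1 : Continuous fun q : (Fin n → ℂ) × (Fin n → ℂ) => q.2 + (ε : ℂ) • q.1 := by fun_prop
    exact ((hκ.cont.measurable.comp measurable_fst).mul (hFm.comp c1.measurable)).mul
      (hg.measurable.comp measurable_snd)
  rw [integrable_prod_iff hm.aestronglyMeasurable]
  have hi : ∀ v : Fin n → ℂ, Integrable (fun z => κ v * F (z + (ε : ℂ) • v) * g z) := by
    intro v
    have h1 : Integrable (fun z => κ v * F (z + (ε : ℂ) • v)) :=
      (hF.comp_add_right ((ε : ℂ) • v)).const_mul _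
    have h2 := h1.bdd_mul (f := g) (c := K) hg.aestronglyMeasurable
      (Eventually.of_forall fun z => hK z)
    refine h2.congr (Eventually.of_forall fun z => ?_)
    simp only
    ring
  refine ⟨Eventually.of_forall fun v => hi v, ?_⟩
  refine Integrable.mono' (g := fun v => κ v * (K * ∫ z, ‖F z‖)) ?_ ?_ ?_
  · exact (hκ.integrable volume).mul_const _
  · exact (hm.norm.stronglyMeasurable.integral_prod_right').aestronglyMeasurable
  · refine Eventually.of_forall fun v => ?_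
    rw [Real.norm_eq_abs, abs_of_nonneg (integral_nonneg fun _ => norm_nonneg _)]
    have h1 : ∫ z, ‖F z‖ = ∫ z, ‖F (z + (ε : ℂ) • v)‖ :=
      (integral_add_right_eq_self (fun z => ‖F z‖) ((ε : ℂ) • v)).symm
    rw [h1, ← integral_const_mul, ← integral_const_mul]
    refine integral_mono (hi v).norm
      (((hF.comp_add_right ((ε : ℂ) • v)).norm.const_mul K).const_mul _) fun z => ?_
    simp only [norm_mul, Real.norm_eq_abs, abs_of_nonneg (hκ.nonneg v)]
    have h2 := hK z
    rw [Real.norm_eq_abs] at h2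
    have h3 : 0 ≤ κ v * |F (z + (ε : ℂ) • v)| := mul_nonneg (hκ.nonneg v) (abs_nonneg _)
    nlinarith

/-- Fubini -/
lemma integral_regF_mul (hκ : Ker volume κ) {F g : (Fin n → ℂ) → ℝ} (hFm : Measurable F)
    (hF : Integrable F) (hg : Continuous g) (hgc : HasCompactSupport g) (ε : ℝ) :
    ∫ z, regF volume κ ε F z * g z = ∫ v, κ v * ∫ z, F z * g (z - (ε : ℂ) • v) := by
  have h0 := integrable_prod_reg hκ hFm hF hg hgc ε
  have h1 : ∀ z, regF volume κ ε F z * g z = ∫ v, κ v * F (z + (ε : ℂ) • v) * g z := by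
    intro z
    unfold regF
    rw [integral_mul_const]
  simp only [h1]
  rw [← integral_integral_swap (f := fun v z => κ v * F (z + (ε : ℂ) • v) * g z) h0]
  congr 1; funext v
  have h2 : ∫ z, κ v * F (z + (ε : ℂ) • v) * g z =
      κ v * ∫ z, F (z + (ε : ℂ) • v) * g z := by
    rw [← integral_const_mul]
    congr 1; funext z; ring
  rw [h2]
  congr 1
  rw [← integral_add_right_eq_self (fun z => F z * g (z - (ε : ℂ) • v)) ((ε : ℂ) • v)]
  congr 1; funext z
  rw [add_sub_cancel_right]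

/-! ### flat weakly psh functions -/

/-- `F` is weakly psh on `B` -/
def FW (F : (Fin n → ℂ) → ℝ) (B : Set (Fin n → ℂ)) : Prop :=
  ∀ χ : (Fin n → ℂ) → ℝ, ContDiff ℝ (⊤ : ℕ∞) χ → HasCompactSupport χ → tsupport χ ⊆ B →
    (∀ y, 0 ≤ χ y) → ∀ w : Fin n → ℂ, 0 ≤ ∫ z, F z * lev0 χ z w

lemma lev0_shift (χ : (Fin n → ℂ) → ℝ) (a z w : Fin n → ℂ) :
    lev0 (fun y => χ (y - a)) z w = lev0 χ (z - a) w := by
  have h1 : ∀ v : Fin n → ℂ, (fun y => fderiv ℝ (fun y => χ (y - a)) y v) =
      fun y => fderiv ℝ χ (y - a) v := by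
    intro v; funext y
    rw [fderiv_comp_sub]
  unfold lev0
  rw [h1, h1]
  have h2 : ∀ v : Fin n → ℂ, fderiv ℝ (fun y => fderiv ℝ χ (y - a) v) z =
      fderiv ℝ (fun y => fderiv ℝ χ y v) (z - a) := by
    intro v
    exact fderiv_comp_sub (f := fun y => fderiv ℝ χ y v) a
  rw [h2, h2]

/-- (FL4) the regularisation of a weakly psh function is psh -/
lemma lev0_regF_nonneg (hκ : Ker volume κ) (hs : ContDiff ℝ ∞ κ) {F : (Fin n → ℂ) → ℝ}
    (hFm : Measurable F) (hF : Integrable F) {B B' : Set (Fin n → ℂ)} (hW : FW F B)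
    (hB' : IsOpen B') {ε : ℝ} (hε : 0 < ε) (hBB : ∀ z ∈ B', ball z ε ⊆ B) {z : Fin n → ℂ}
    (hz : z ∈ B') (w : Fin n → ℂ) : 0 ≤ lev0 (regF volume κ ε F) z w := by
  have hsm := contDiff_regF_int hκ hs hF hε
  refine nonneg_of_test (continuous_lev0 hsm w) hB' (fun χ hχ hc hsupp hnn => ?_) hz
  rw [← ibp_lev0 hsm hχ hc w, integral_regF_mul hκ hFm hF (continuous_lev0 hχ w)
    (hasCompactSupport_lev0 hc w) ε]
  refine integral_nonneg fun v => ?_
  simp only [Pi.zero_apply]
  by_cases hv : κ v = 0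
  · simp [hv]
  refine mul_nonneg (hκ.nonneg v) ?_
  have h1 : ∀ z, lev0 χ (z - (ε : ℂ) • v) w = lev0 (fun y => χ (y - (ε : ℂ) • v)) z w :=
    fun z => (lev0_shift χ _ z w).symm
  simp only [h1]
  refine hW (fun y => χ (y - (ε : ℂ) • v)) (hχ.comp (contDiff_id.sub contDiff_const)) ?_ ?_
    (fun y => hnn _) w
  · have := hc.comp_homeomorph (Homeomorph.subRight ((ε : ℂ) • v))
    exact this
  · intro y hy
    have h2 : tsupport (fun y => χ (y - (ε : ℂ) • v)) =
        (Homeomorph.subRight ((ε : ℂ) • v)) ⁻¹' tsupport χ := by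
      have := tsupport_comp_eq_preimage χ (Homeomorph.subRight ((ε : ℂ) • v))
      exact this
    rw [h2] at hy
    have h3 : y - (ε : ℂ) • v ∈ B' := hsupp hy
    apply hBB _ h3
    rw [mem_ball, dist_eq_norm, sub_sub_cancel, norm_smul, Complex.norm_real, Real.norm_eq_abs,
      abs_of_pos hε]
    have := Ker.supp_lt hκ hv
    nlinarith

end Crest.Agent.R273.Reg_844
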