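import Crest.Agent.R273.T4A_844

/-!
# Row 273, leaf T4 (helper844), part B: weakly psh functions, flat statements
-/

set_option autoImplicit false
set_option linter.unusedSectionVars false

open MeasureTheory Set Metric Filter Topology
open scoped ENNReal ContDiff Pointwise

noncomputable section

namespace Crest.Agent.R273.Reg_844

open Crest.Agent.R275.FL606 Crest.Agent.R271.Ho51
open Crest.Agent.R271.W792 (lev)
open Crest.Agent.R271.Ball399 (lev0)

variable {n : ℕ} {κ : (Fin n → ℂ) → ℝ}

/-! ### substitutions -/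

lemma integral_ball_scale (F : (Fin n → ℂ) → ℝ) (z : Fin n → ℂ) {δ : ℝ} (hδ : 0 < δ) :
    ∫ v in closedBall (0 : Fin n → ℂ) 1, F (z + (δ : ℂ) • v) =
      (δ ^ Module.finrank ℝ (Fin n → ℂ))⁻¹ * ∫ y in closedBall z δ, F y := by
  have h1 := Measure.setIntegral_comp_smul_of_pos (volume : Measure (Fin n → ℂ))
    (fun u => F (z + u)) (closedBall (0 : Fin n → ℂ) 1) hδ
  have h2 : δ • closedBall (0 : Fin n → ℂ) 1 = closedBall 0 δ := by
    rw [smul_unitClosedBall, Real.norm_eq_abs, abs_of_pos hδ]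
  have h3 : ∫ u in closedBall (0 : Fin n → ℂ) δ, F (z + u) = ∫ y in closedBall z δ, F y := by
    have h4 := (measurePreserving_add_left (volume : Measure (Fin n → ℂ)) z).setIntegral_preimage_emb
      (measurableEmbedding_addLeft z) F (closedBall z δ)
    rwa [preimage_add_closedBall, sub_self] at h4
  simp only [coe_smul']
  rw [h1, h2, h3, smul_eq_mul]

/-- scaled kernel -/
def kz (κ : (Fin n → ℂ) → ℝ) (ε : ℝ) (z y : Fin n → ℂ) : ℝ :=
  (ε ^ Module.finrank ℝ (Fin n → ℂ))⁻¹ * κ (ε⁻¹ • (y - z))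

lemma regF_eq_integral {ε : ℝ} (hε : 0 < ε) (H : (Fin n → ℂ) → ℝ) (z : Fin n → ℂ) :
    regF volume κ ε H z = ∫ y, H y * kz κ ε z y := by
  have h1 := Measure.integral_comp_smul_of_nonneg (volume : Measure (Fin n → ℂ))
    (fun u => κ (ε⁻¹ • u) * H (z + u)) ε (hR := hε.le)
  have h2 : ∀ v : Fin n → ℂ, κ (ε⁻¹ • (ε • v)) * H (z + ε • v) =
      κ v * H (z + (ε : ℂ) • v) := by
    intro v
    rw [smul_smul, inv_mul_cancel₀ hε.ne', one_smul, coe_smul']
  simp only [h2] at h1
  unfold regF
  rw [h1]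
  have h3 : ∫ u, κ (ε⁻¹ • u) * H (z + u) = ∫ y, κ (ε⁻¹ • (y - z)) * H y := by
    rw [← integral_add_left_eq_self (fun y => κ (ε⁻¹ • (y - z)) * H y) z]
    congr 1; funext u
    rw [add_sub_cancel_left]
  rw [h3, smul_eq_mul, ← integral_const_mul]
  congr 1; funext y
  unfold kz
  ring

lemma continuous_kz (hκ : Ker volume κ) (ε : ℝ) (z : Fin n → ℂ) : Continuous (kz κ ε z) := by
  unfold kz
  exact continuous_const.mul (hκ.cont.comp (by fun_prop))

lemma hasCompactSupport_kz (hκ : Ker volume κ) {ε : ℝ} (hε : 0 < ε) (z : Fin n → ℂ) :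
    HasCompactSupport (kz κ ε z) := by
  refine HasCompactSupport.of_support_subset_isCompact (isCompact_closedBall z ε) ?_
  intro y hy
  rw [Function.mem_support] at hy
  have h1 : κ (ε⁻¹ • (y - z)) ≠ 0 := fun h => hy (by simp [kz, h])
  have h2 := Ker.supp_lt hκ h1
  rw [norm_smul, Real.norm_eq_abs, abs_of_pos (inv_pos.2 hε), inv_mul_lt_iff₀ hε, mul_one] at h2
  rw [mem_closedBall, dist_eq_norm]
  exact h2.le

/-- regularisations commute -/
lemma regF_comm (hκ : Ker volume κ) {F : (Fin n → ℂ) → ℝ} (hFm : Measurable F)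
    (hF : Integrable F) {ε δ : ℝ} (hε : 0 < ε) (z : Fin n → ℂ) :
    regF volume κ ε (regF volume κ δ F) z = regF volume κ δ (regF volume κ ε F) z := by
  rw [regF_eq_integral hε, integral_regF_mul hκ hFm hF (continuous_kz hκ ε z)
    (hasCompactSupport_kz hκ hε z) δ]
  show _ = ∫ v, κ v * regF volume κ ε F (z + (δ : ℂ) • v)
  congr 1; funext v
  rw [regF_eq_integral hε]
  congr 2; funext y
  unfold kz
  rw [show y - (δ : ℂ) • v - z = y - (z + (δ : ℂ) • v) by abel]

/-! ### limits -/

lemma integrable_ker_mul_int (hκ : Ker volume κ) {F : (Fin n → ℂ) → ℝ}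
    (hF : Integrable F) {δ : ℝ} (hδ : 0 < δ) (z : Fin n → ℂ) :
    Integrable (fun v => κ v * F (z + (δ : ℂ) • v)) := by
  obtain ⟨K, hK0, hK⟩ := hκ.exists_bound volume
  have h1 : Integrable (fun v : Fin n → ℂ => F (z + (δ : ℂ) • v)) := by
    simp only [coe_smul']
    exact (hF.comp_add_left z).comp_smul hδ.ne'
  refine h1.bdd_mul (c := K) hκ.cont.aestronglyMeasurable (Eventually.of_forall fun v => ?_)
  rw [Real.norm_eq_abs, abs_of_nonneg (hκ.nonneg v)]
  exact hK v

/-- Lebesgue points -/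
lemma ae_tendsto_regF (hκ : Ker volume κ) {F : (Fin n → ℂ) → ℝ} (hF : Integrable F) :
    ∀ᵐ z, Tendsto (fun δ : ℝ => regF volume κ δ F z) (𝓝[>] 0) (𝓝 (F z)) := by
  obtain ⟨K, hK0, hK⟩ := hκ.exists_bound volume
  filter_upwards [IsUnifLocDoublingMeasure.ae_tendsto_average_norm_sub
    (volume : Measure (Fin n → ℂ)) hF.locallyIntegrable 1] with z hz
  have h1 := hz (ι := ℝ) (l := 𝓝[>] 0) (fun _ => z) id tendsto_id (by
    filter_upwards [self_mem_nhdsWithin] with δ hδ
    rw [mem_closedBall, dist_self, one_mul]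
    exact (le_of_lt hδ : (0:ℝ) ≤ δ))
  set c : ℝ := K * (volume : Measure (Fin n → ℂ)).real (closedBall (0 : Fin n → ℂ) 1) with hc
  have h2 : Tendsto (fun δ : ℝ => c * ⨍ y in closedBall z δ, ‖F y - F z‖) (𝓝[>] 0) (𝓝 0) := by
    have := h1.const_mul c
    rwa [mul_zero] at this
  rw [tendsto_iff_norm_sub_tendsto_zero]
  refine squeeze_zero' (Eventually.of_forall fun _ => norm_nonneg _) ?_ h2
  filter_upwards [self_mem_nhdsWithin] with δ hδ
  have hδ : 0 < δ := hδ
  have i1 := integrable_ker_mul_int hκ hF hδ z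
  have i2 : Integrable (fun v => κ v * F z) := (hκ.integrable volume).mul_const _
  have e1 : regF volume κ δ F z - F z = ∫ v, (κ v * F (z + (δ : ℂ) • v) - κ v * F z) := by
    rw [integral_sub i1 i2, integral_mul_const, hκ.int, one_mul]
    rfl
  have hsup : ∀ v, v ∉ closedBall (0 : Fin n → ℂ) 1 →
      ‖κ v * F (z + (δ : ℂ) • v) - κ v * F z‖ = 0 := by
    intro v hv
    rw [mem_closedBall, dist_zero_right, not_le] at hv
    simp [hκ.supp v hv.le]
  have hball : 0 < (volume : Measure (Fin n → ℂ)).real (closedBall (0 : Fin n → ℂ) 1) :=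
    ENNReal.toReal_pos (measure_closedBall_pos volume 0 one_pos).ne'
      (isCompact_closedBall _ _).measure_lt_top.ne
  calc ‖regF volume κ δ F z - F z‖ ≤ ∫ v, ‖κ v * F (z + (δ : ℂ) • v) - κ v * F z‖ := by
        rw [e1]; exact norm_integral_le_integral_norm _
    _ = ∫ v in closedBall (0 : Fin n → ℂ) 1, ‖κ v * F (z + (δ : ℂ) • v) - κ v * F z‖ :=
        (setIntegral_eq_integral_of_forall_compl_eq_zero fun v hv => hsup v hv).symm
    _ ≤ ∫ v in closedBall (0 : Fin n → ℂ) 1, K * ‖F (z + (δ : ℂ) • v) - F z‖ := by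
        refine integral_mono_of_nonneg (Eventually.of_forall fun _ => norm_nonneg _) ?_
          (Eventually.of_forall fun v => ?_)
        · have h3 : Integrable (fun v : Fin n → ℂ => F (z + (δ : ℂ) • v)) := by
            simp only [coe_smul']
            exact (hF.comp_add_left z).comp_smul hδ.ne'
          have h4 : IntegrableOn (fun _ : Fin n → ℂ => F z) (closedBall (0 : Fin n → ℂ) 1) :=
            integrableOn_const (isCompact_closedBall _ _).measure_lt_top.ne
          exact (h3.integrableOn.sub h4).norm.const_mul K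
        · simp only
          rw [← mul_sub, norm_mul, Real.norm_eq_abs (κ v), abs_of_nonneg (hκ.nonneg v)]
          exact mul_le_mul_of_nonneg_right (hK v) (norm_nonneg _)
    _ = c * ⨍ y in closedBall z δ, ‖F y - F z‖ := by
        rw [integral_const_mul, integral_ball_scale (fun y => ‖F y - F z‖) z hδ, setAverage_eq,
          smul_eq_mul, hc]
        have h5 : (volume : Measure (Fin n → ℂ)).real (closedBall z δ) =
            δ ^ Module.finrank ℝ (Fin n → ℂ) *
              (volume : Measure (Fin n → ℂ)).real (closedBall (0 : Fin n → ℂ) 1) :=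
          Measure.addHaar_real_closedBall' volume z hδ.le
        rw [h5]
        have h6 : (0:ℝ) < δ ^ Module.finrank ℝ (Fin n → ℂ) := by positivity
        field_simp

lemma tendsto_regF_cont (hκ : Ker volume κ) {H : (Fin n → ℂ) → ℝ} (hH : Continuous H)
    (z : Fin n → ℂ) : Tendsto (fun δ : ℝ => regF volume κ δ H z) (𝓝[>] 0) (𝓝 (H z)) := by
  have h1 : ∀ δ : ℝ, regF volume κ δ H z =
      ∫ v in closedBall (0 : Fin n → ℂ) 1, κ v * H (z + (δ : ℂ) • v) := by
    intro δ
    refine (setIntegral_eq_integral_of_forall_compl_eq_zero fun v hv => ?_).symm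
    rw [mem_closedBall, dist_zero_right, not_le] at hv
    simp [hκ.supp v hv.le]
  have h2 : Continuous fun δ : ℝ => ∫ v in closedBall (0 : Fin n → ℂ) 1,
      κ v * H (z + (δ : ℂ) • v) := by
    refine continuous_parametric_integral_of_continuous ?_ (isCompact_closedBall _ _)
    have c1 := hκ.cont
    have c2 : Continuous fun p : ℝ × (Fin n → ℂ) => z + (p.1 : ℂ) • p.2 := by
      have : Continuous fun p : ℝ × (Fin n → ℂ) => (p.1 : ℂ) :=
        Complex.continuous_ofReal.comp continuous_fst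
      fun_prop
    exact (c1.comp continuous_snd).mul (hH.comp c2)
  have h3 : (∫ v in closedBall (0 : Fin n → ℂ) 1, κ v * H (z + ((0 : ℝ) : ℂ) • v)) = H z := by
    rw [← h1]
    unfold regF
    simp only [Complex.ofReal_zero, zero_smul, add_zero]
    rw [integral_mul_const, hκ.int, one_mul]
  have h4 := (h2.tendsto 0).mono_left (nhdsWithin_le_nhds (s := Ioi (0:ℝ)))
  rw [h3] at h4
  refine h4.congr fun δ => (h1 δ).symm

/-! ### smooth functions with nonnegative Levi form -/

lemma lev0_eq_snd {h : (Fin n → ℂ) → ℝ} {z : Fin n → ℂ} (hh : ContDiffAt ℝ 2 h z)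
    (w : Fin n → ℂ) : lev0 h z w = (1 / 4) * (fderiv ℝ (fderiv ℝ h) z w w +
      fderiv ℝ (fderiv ℝ h) z (Complex.I • w) (Complex.I • w)) := by
  have h3 : DifferentiableAt ℝ (fderiv ℝ h) z :=
    (hh.fderiv_right (m := 1) (by norm_num)).differentiableAt (by simp)
  have key : ∀ v : Fin n → ℂ, fderiv ℝ (fun y => fderiv ℝ h y v) z v =
      fderiv ℝ (fderiv ℝ h) z v v := by
    intro v
    rw [fderiv_clm_apply h3 (differentiableAt_const v)]
    simp
  unfold lev0
  rw [key, key]

lemma SM_of_lev0 {h : (Fin n → ℂ) → ℝ} (hh : ContDiff ℝ (⊤ : ℕ∞) h) {B : Set (Fin n → ℂ)}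
    (hl : ∀ z ∈ B, ∀ w, 0 ≤ lev0 h z w) : SM 0 h B := by
  intro z v hd
  have hC : ∀ w : ℂ, ContDiffAt ℝ 2 h (z + w • v) := fun w =>
    (hh.of_le (by norm_cast)).contDiffAt
  have h1 := Crest.Agent.R275.FL884.le_circleAverage_of_contDiffAt
    (ψ := fun w : ℂ => h (z + w • v)) (c := 0) (fun w hw => by
      have h1 : ContDiff ℝ 2 (fun w : ℂ => z + w • v) := by fun_prop
      exact ContDiffAt.comp (g := h) w (hC w) h1.contDiffAt)
    (fun w hw => by
      rw [mem_closedBall, dist_zero_right] at hw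
      rw [snd_line_at (hC w), snd_line_at (hC w), one_smul, mul_zero, neg_zero]
      have h2 := hl _ (hd w hw) v
      rw [lev0_eq_snd (hC w)] at h2
      linarith)
  simpa using h1

/-- (W1) `F ≤ F_ε` almost everywhere -/
lemma ae_le_regF (hκ : Ker volume κ) (hs : ContDiff ℝ ∞ κ) {F : (Fin n → ℂ) → ℝ}
    (hFm : Measurable F) (hF : Integrable F) {B : Set (Fin n → ℂ)} (hB : IsOpen B) (hW : FW F B)
    {ε : ℝ} (hε : 0 < ε) :
    ∀ᵐ z, closedBall z ε ⊆ B → F z ≤ regF volume κ ε F z := by
  filter_upwards [ae_tendsto_regF hκ hF] with z hz hzB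
  obtain ⟨η, hη, hsub⟩ := (isCompact_closedBall z ε).exists_thickening_subset_open hB hzB
  have hballB : ball z (ε + η) ⊆ B := by
    intro y hy
    apply hsub
    rw [mem_thickening_iff]
    rw [mem_ball] at hy
    by_cases h : dist y z ≤ ε
    · exact ⟨y, h, by simpa using hη⟩
    · rw [not_le] at h
      have hd0 : 0 < dist y z := hε.trans h
      refine ⟨z + (ε / dist y z) • (y - z), ?_, ?_⟩
      · rw [mem_closedBall, dist_eq_norm, add_sub_cancel_left, norm_smul, Real.norm_eq_abs,
          abs_of_pos (by positivity), ← dist_eq_norm, div_mul_cancel₀ _ hd0.ne']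
      · rw [dist_eq_norm]
        have h1 : y - (z + (ε / dist y z) • (y - z)) = (1 - ε / dist y z) • (y - z) := by
          rw [sub_smul, one_smul]; abel
        have h2 : 0 < 1 - ε / dist y z := by
          rw [sub_pos, div_lt_one hd0]; exact h
        rw [h1, norm_smul, Real.norm_eq_abs, abs_of_pos h2, ← dist_eq_norm, sub_mul,
          div_mul_cancel₀ _ hd0.ne', one_mul]
        linarith
  have hreg := contDiff_regF_int hκ hs hF hε
  have h3 : Tendsto (fun δ : ℝ => regF volume κ ε (regF volume κ δ F) z) (𝓝[>] 0)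
      (𝓝 (regF volume κ ε F z)) := by
    have h4 := tendsto_regF_cont hκ hreg.continuous z
    refine h4.congr fun δ => ?_
    exact (regF_comm hκ hFm hF hε z).symm
  refine le_of_tendsto_of_tendsto hz h3 ?_
  have hδ1 : ∀ᶠ δ : ℝ in 𝓝[>] 0, δ < η / 2 :=
    nhdsWithin_le_nhds (gt_mem_nhds (by positivity))
  filter_upwards [hδ1, self_mem_nhdsWithin] with δ hδ2 hδ0
  have hδ0 : 0 < δ := hδ0
  have hd := contDiff_regF_int hκ hs hF hδ0
  have hlev : ∀ y ∈ ball z (ε + η / 2), ∀ w, 0 ≤ lev0 (regF volume κ δ F) y w := by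
    intro y hy w
    refine lev0_regF_nonneg hκ hs hFm hF hW (isOpen_ball (x := z) (ε := ε + η / 2)) hδ0
      (fun y hy => ?_) hy w
    refine Subset.trans ?_ hballB
    apply ball_subset_ball'
    rw [mem_ball] at hy
    linarith
  obtain ⟨K, hK⟩ := (isCompact_closedBall z (ε + η / 2)).exists_bound_of_continuousOn
    hd.continuous.continuousOn
  exact le_regF volume hκ hd.continuous.measurable
    (fun y hy => by rw [← Real.norm_eq_abs]; exact hK y (ball_subset_closedBall hy))
    (SM_of_lev0 hd hlev) hε (ball_subset_ball (by linarith))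

/-- upper bound for the regularisation, almost everywhere version -/
lemma regF_le_ae (hκ : Ker volume κ) {F : (Fin n → ℂ) → ℝ} (hF : Integrable F) {ε : ℝ}
    (hε : 0 < ε) {z : Fin n → ℂ} {c : ℝ} (hc : ∀ᵐ y, y ∈ ball z ε → F y ≤ c) :
    regF volume κ ε F z ≤ c := by
  have hae : ∀ᵐ v : Fin n → ℂ, z + (ε : ℂ) • v ∈ ball z ε → F (z + (ε : ℂ) • v) ≤ c := by
    have hq : Measure.QuasiMeasurePreserving (fun v : Fin n → ℂ => z + (ε : ℂ) • v)
        volume volume := by
      have h1 : Measure.QuasiMeasurePreserving (fun v : Fin n → ℂ => (ε : ℂ) • v)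
          volume volume := by
        refine ⟨measurable_const_smul _, ?_⟩
        have h2 : (fun v : Fin n → ℂ => (ε : ℂ) • v) = fun v => ε • v := by
          funext v; exact coe_smul' ε v
        rw [h2, Measure.map_addHaar_smul volume hε.ne']
        exact Measure.smul_absolutelyContinuous
      exact (measurePreserving_add_left volume z).quasiMeasurePreserving.comp h1
    exact hq.ae hc
  calc regF volume κ ε F z ≤ ∫ v, κ v * c := by
        refine integral_mono_ae (integrable_ker_mul_int hκ hF hε z)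
          ((hκ.integrable volume).mul_const c) ?_
        filter_upwards [hae] with v hv
        by_cases h : κ v = 0
        · simp [h]
        · exact mul_le_mul_of_nonneg_left (hv (Ker.mem_ball hκ h hε z)) (hκ.nonneg v)
    _ = c := by rw [integral_mul_const, hκ.int, one_mul]

end Crest.Agent.R273.Reg_844
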