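import Crest.Agent.R273.SteinN_794
import Crest.Agent.R273.TLd_201

/-!
# R273 (S0416), A-V0 = T4a (helper223), part 1: transport of tests from `Mo S` to `M`

* `ibp_lev`      : `∫ f lev χ = ∫ χ lev f` on a Riemann domain
* `vf S i v`     : the constant vector field `v` of `Mo S` in the chart `i` of `M`
* `integral_mu`  : `∫_G e^{-φ} g dμ = ∫_U g dvm`
* `mkT`          : the test matrix on `M` of a test function `χ` on `Mo S`
-/

set_option autoImplicit false
set_option linter.unusedSectionVars false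

open Set Filter Topology Complex MeasureTheory
open scoped ContDiff Matrix ComplexConjugate ComplexOrder ENNReal

namespace Crest.Agent.R273.T4C_223

open Crest.Agent.R271.Ho51

noncomputable section

section ibp

variable {n : ℕ} {X : Type*} [TopologicalSpace X] [RDom n X]

theorem smul_sm {f g : X → ℝ} (hf : Sm f) (hg : Sm g) (x : X) (v : Fin n → ℂ) :
    D (fun x => f x * g x) x v = D f x v * g x + f x * D g x v := by
  have := D_smul hf hg x v
  simpa only [smul_eq_mul] using this

theorem tsupport_Dv (f : X → ℝ) (v : Fin n → ℂ) : tsupport (fun x => D f x v) ⊆ tsupport f := by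
  refine closure_minimal ?_ isClosed_closure
  intro x hx
  by_contra hx'
  have h1 : f =ᶠ[𝓝 x] fun _ => 0 := notMem_tsupport_iff_eventuallyEq.1 hx'
  apply hx
  show D f x v = 0
  rw [D_congr h1, D_const]
  rfl

theorem hcs_Dv {f : X → ℝ} (hc : HasCompactSupport f) (v : Fin n → ℂ) :
    HasCompactSupport (fun x => D f x v) :=
  hc.of_isClosed_subset isClosed_closure (tsupport_Dv f v)

theorem tsupport_lev (f : X → ℝ) (w : Fin n → ℂ) :
    tsupport (fun x => Crest.Agent.R271.W792.lev f x w) ⊆ tsupport f := by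
  refine closure_minimal ?_ isClosed_closure
  intro x hx
  by_contra hx'
  have h1 : f =ᶠ[𝓝 x] fun _ => 0 := notMem_tsupport_iff_eventuallyEq.1 hx'
  have h2 : ∀ v : Fin n → ℂ, (fun y => D f y v) =ᶠ[𝓝 x] fun _ => 0 := by
    intro v
    filter_upwards [h1.eventually_nhds] with y hy
    rw [D_congr hy, D_const]
    rfl
  apply hx
  show Crest.Agent.R271.W792.lev f x w = 0
  unfold Crest.Agent.R271.W792.lev
  rw [D_congr (h2 w), D_congr (h2 (I • w)), D_const]
  simp

theorem hcs_lev {f : X → ℝ} (hc : HasCompactSupport f) (w : Fin n → ℂ) :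
    HasCompactSupport (fun x => Crest.Agent.R271.W792.lev f x w) :=
  hc.of_isClosed_subset isClosed_closure (tsupport_lev f w)

theorem sm_lev {f : X → ℝ} (hf : Sm f) (w : Fin n → ℂ) :
    Sm (fun x => Crest.Agent.R271.W792.lev f x w) := by
  unfold Crest.Agent.R271.W792.lev
  exact (Sm.const (1 / 4 : ℝ)).mulR (((hf.D.apply w).D.apply w).add
    ((hf.D.apply (I • w)).D.apply (I • w)))

variable [MeasurableSpace X] [BorelSpace X] [T2Space X] {μ : Measure X}

theorem ibp_D (hμ : IsLeb μ) {f χ : X → ℝ} (hf : Sm f) (hχ : Sm χ) (hc : HasCompactSupport χ)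
    (v : Fin n → ℂ) : ∫ x, f x * D χ x v ∂μ = - ∫ x, D f x v * χ x ∂μ := by
  have h0 := integral_D_eq_zero hμ (hf.mulR hχ) hc.mul_left v
  have h1 : ∀ x, D (fun x => f x * χ x) x v = D f x v * χ x + f x * D χ x v := fun x =>
    smul_sm hf hχ x v
  simp only [h1] at h0
  rw [integral_add] at h0
  · linarith
  · exact ((hf.D.apply v).mulR hχ).integrable hμ hc.mul_left
  · exact (hf.mulR (hχ.D.apply v)).integrable hμ (hcs_Dv hc v).mul_left

theorem ibp_D2 (hμ : IsLeb μ) {f χ : X → ℝ} (hf : Sm f) (hχ : Sm χ) (hc : HasCompactSupport χ)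
    (v : Fin n → ℂ) : ∫ x, f x * D (fun y => D χ y v) x v ∂μ =
      ∫ x, D (fun y => D f y v) x v * χ x ∂μ := by
  rw [ibp_D hμ hf (hχ.D.apply v) (hcs_Dv hc v) v, ibp_D hμ (hf.D.apply v) hχ hc v, neg_neg]

/-- integration by parts for the Levi form -/
theorem ibp_lev (hμ : IsLeb μ) {f χ : X → ℝ} (hf : Sm f) (hχ : Sm χ) (hc : HasCompactSupport χ)
    (w : Fin n → ℂ) : ∫ x, f x * Crest.Agent.R271.W792.lev χ x w ∂μ =
      ∫ x, χ x * Crest.Agent.R271.W792.lev f x w ∂μ := by
  have i1 : ∀ v : Fin n → ℂ, Integrable (fun x => f x * D (fun y => D χ y v) x v) μ := fun v =>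
    (hf.mulR ((hχ.D.apply v).D.apply v)).integrable hμ (hcs_Dv (hcs_Dv hc v) v).mul_left
  have i2 : ∀ v : Fin n → ℂ, Integrable (fun x => D (fun y => D f y v) x v * χ x) μ := fun v =>
    (((hf.D.apply v).D.apply v).mulR hχ).integrable hμ hc.mul_left
  have e1 : ∀ x, f x * Crest.Agent.R271.W792.lev χ x w =
      (1 / 4) * (f x * D (fun y => D χ y w) x w + f x * D (fun y => D χ y (I • w)) x (I • w)) := by
    intro x
    unfold Crest.Agent.R271.W792.lev
    ring
  have e2 : ∀ x, χ x * Crest.Agent.R271.W792.lev f x w =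
      (1 / 4) * (D (fun y => D f y w) x w * χ x + D (fun y => D f y (I • w)) x (I • w) * χ x) := by
    intro x
    unfold Crest.Agent.R271.W792.lev
    ring
  simp only [e1, e2]
  rw [integral_const_mul, integral_const_mul, integral_add (i1 w) (i1 (I • w)),
    integral_add (i2 w) (i2 (I • w)), ibp_D2 hμ hf hχ hc, ibp_D2 hμ hf hχ hc]

end ibp

open Crest.Agent.R275.Geo Crest.Agent.R275.Core144 Crest.Agent.R273.SteinA_794
open Crest.Agent.R273.SteinB_794 Crest.Agent.R273.SteinC_794 Crest.Agent.R273.SteinD_794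
open Crest.Agent.R273.SteinM_794 Crest.Agent.R273.SteinN_794
open Crest.Agent.R273.Defs_333 (ProjD HM HM.wt)
open Crest.Agent.R273.Vm_333 (vm)

variable {n : ℕ} {M : Type} [TopologicalSpace M] {A : Atl n M}

/-! ### the constant vector fields of `Mo S` in the charts of `M` -/

open Classical in
/-- the vector field `v` of `Mo S` in the chart `i` -/
def vf (S : SD A) (i : A.ι) (v : Fin n → ℂ) (x : M) : Cn n :=
  if hx : x ∈ (A.e i).source ∧ x ∈ S.U then (S.LL i hx.1 hx.2).symm v else 0

variable {S : SD A}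

theorem vf_eq {i : A.ι} (v : Fin n → ℂ) {x : M} (hx : x ∈ (A.e i).source) (hxU : x ∈ S.U) :
    vf S i v x = (S.LL i hx hxU).symm v := dif_pos ⟨hx, hxU⟩

theorem vf_eq_inv {i : A.ι} (v : Fin n → ℂ) {z : Cn n} (hz : z ∈ S.dom i) :
    vf S i v ((A.e i).symm z) = ContinuousLinearMap.inverse (fderiv ℂ (rd A i S.z) z) v := by
  have hx := (A.e i).map_target hz.1
  rw [vf_eq v hx hz.2]
  have h1 := S.LL_coe i hx hz.2
  rw [(A.e i).right_inv hz.1] at h1
  rw [← h1, ContinuousLinearMap.inverse_equiv]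
  rfl

theorem vf_smooth (i : A.ι) (v : Fin n → ℂ) :
    ContDiffOn ℝ ∞ (fun z => vf S i v ((A.e i).symm z)) (S.dom i) := by
  have h0 : ∀ z ∈ S.dom i, ContDiffAt ℂ ∞
      (fun z => ContinuousLinearMap.inverse (fderiv ℂ (rd A i S.z) z) v) z := by
    intro z hz
    have hx := (A.e i).map_target hz.1
    have h1 := S.LL_coe i hx hz.2
    rw [(A.e i).right_inv hz.1] at h1
    have h2 : ContDiffAt ℂ ∞ (fderiv ℂ (rd A i S.z)) z := ((S.rd_anal i z hz).fderiv).contDiffAt
    have h3 : ContDiffAt ℂ ∞ (ContinuousLinearMap.inverse : (Cn n →L[ℂ] (Fin n → ℂ)) → _)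
        (fderiv ℂ (rd A i S.z) z) := by
      rw [← h1]
      exact contDiffAt_map_inverse _
    exact (h3.comp z h2).clm_apply contDiffAt_const
  intro z hz
  refine ((h0 z hz).restrict_scalars ℝ).congr_of_eventuallyEq ?_ |>.contDiffWithinAt
  filter_upwards [(S.isOpen_dom i).mem_nhds hz] with w hw
  exact vf_eq_inv v hw

/-! ### integration -/

/-- the weight of the volume form -/
def ph (h : HM (KB A)⁻¹) (S : SD A) (x : Mo S) : ℝ := wtS h (kf S) x.val

theorem ph_sm (h : HM (KB A)⁻¹) : Sm (ph h S) := wtS_sm h (isHS_kf S) kf_ne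

theorem range_val : range (Mo.val : Mo S → M) = S.U := by
  ext x
  exact ⟨fun ⟨y, hy⟩ => hy ▸ y.prop, fun hx => ⟨⟨x, hx⟩, rfl⟩⟩

theorem toReal_vS (h : HM (KB A)⁻¹) (x : Mo S) :
    (vS h S x).toReal = Real.exp (-(ph h S x)) :=
  ENNReal.toReal_ofReal (Real.exp_pos _).le

section meas

variable [MeasurableSpace M] [BorelSpace M] [Countable A.ι] [SecondCountableTopology M]
  (h : HM (KB A)⁻¹) {μ : Measure (Mo S)}

/-- **change of variables** -/
theorem integral_mu (hμ : IsLeb μ) (g : M → ℝ) :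
    ∫ x in S.U, g x ∂(vm h) = ∫ x : Mo S, Real.exp (-(ph h S x)) * g x.val ∂μ := by
  rw [← range_val (S := S), ← me_val.map_comap, me_val.integral_map, ← map_mu h hμ,
    integral_withDensity_eq_integral_toReal_smul (vS_meas h)
      (Eventually.of_forall fun x => ENNReal.ofReal_lt_top)]
  simp only [toReal_vS, smul_eq_mul]

theorem integrable_mu (hμ : IsLeb μ) {g : M → ℝ} (hg : Integrable g (vm h)) :
    Integrable (fun x : Mo S => Real.exp (-(ph h S x)) * g x.val) μ := by
  have h1 : Integrable (fun x : Mo S => g x.val) ((vm h).comap Mo.val) := by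
    have h2 := hg.restrict (s := range (Mo.val : Mo S → M))
    rw [← me_val.map_comap] at h2
    exact me_val.integrable_map_iff.1 h2
  rw [← map_mu h hμ, integrable_withDensity_iff_integrable_smul' (vS_meas h)
      (Eventually.of_forall fun x => ENNReal.ofReal_lt_top)] at h1
  simpa only [toReal_vS, smul_eq_mul] using h1

theorem locInt_mu (hμ : IsLeb μ) {g : M → ℝ} (hg : Integrable g (vm h)) :
    LocallyIntegrable (fun x : Mo S => g x.val) μ := by
  have h0 := integrable_mu h hμ hg
  intro x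
  have hc : Continuous fun x : Mo S => Real.exp (ph h S x) := Real.continuous_exp.comp (ph_sm h).continuous
  have h1 : ∀ᶠ y in 𝓝 x, Real.exp (ph h S y) < Real.exp (ph h S x) + 1 :=
    hc.continuousAt.eventually (gt_mem_nhds (by linarith))
  obtain ⟨V, hV, hVo, hxV⟩ := eventually_nhds_iff.1 h1
  refine ⟨V, hVo.mem_nhds hxV, ?_⟩
  have h2 : Integrable (fun x : Mo S => Real.exp (ph h S x) *
      (Real.exp (-(ph h S x)) * g x.val)) (μ.restrict V) := by
    refine (h0.restrict).bdd_mul (c := Real.exp (ph h S x) + 1) hc.measurable.aestronglyMeasurable ?_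
    filter_upwards [ae_restrict_mem hVo.measurableSet] with y hy
    rw [Real.norm_eq_abs, abs_of_pos (Real.exp_pos _)]
    exact (hV y hy).le
  refine h2.congr (Eventually.of_forall fun y => ?_)
  show Real.exp (ph h S y) * (Real.exp (-(ph h S y)) * g y.val) = g y.val
  rw [← mul_assoc, ← Real.exp_add, add_neg_cancel, Real.exp_zero, one_mul]

/-- the product of a locally integrable function with a smooth function of compact support -/
theorem int_mul (hμ : IsLeb μ) {g : M → ℝ} (hg : Integrable g (vm h)) {Λ : Mo S → ℝ} (hΛ : Sm Λ)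
    (hc : HasCompactSupport Λ) : Integrable (fun x : Mo S => g x.val * Λ x) μ := by
  have h0 := integrable_mu h hμ hg
  have hcn : Continuous fun x : Mo S => Λ x * Real.exp (ph h S x) :=
    hΛ.continuous.mul (Real.continuous_exp.comp (ph_sm h).continuous)
  obtain ⟨C, hC⟩ := (hcn.bounded_above_of_compact_support hc.mul_right)
  have h2 := h0.bdd_mul (c := C) hcn.measurable.aestronglyMeasurable (Eventually.of_forall hC)
  refine h2.congr (Eventually.of_forall fun y => ?_)
  show Λ y * Real.exp (ph h S y) * (Real.exp (-(ph h S y)) * g y.val) = g y.val * Λ y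
  have h3 : Real.exp (ph h S y) * Real.exp (-(ph h S y)) = 1 := by
    rw [← Real.exp_add, add_neg_cancel, Real.exp_zero]
  linear_combination (Λ y * g y.val) * h3

/-- bound of the integral against a test function -/
theorem bound_mul (hμ : IsLeb μ) {Λ : Mo S → ℝ} (hΛ : Sm Λ) (hc : HasCompactSupport Λ) :
    ∃ C : ℝ, 0 ≤ C ∧ ∀ g : M → ℝ, Integrable g (vm h) →
      |∫ x : Mo S, g x.val * Λ x ∂μ| ≤ C * ∫ x, |g x| ∂(vm h) := by
  have hcn : Continuous fun x : Mo S => Λ x * Real.exp (ph h S x) :=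
    hΛ.continuous.mul (Real.continuous_exp.comp (ph_sm h).continuous)
  obtain ⟨C, hC⟩ := (hcn.bounded_above_of_compact_support hc.mul_right)
  refine ⟨|C|, abs_nonneg _, fun g hg => ?_⟩
  have h1 : ∀ x : Mo S, |g x.val * Λ x| ≤ |C| * (Real.exp (-(ph h S x)) * |g x.val|) := by
    intro x
    have h2 : |Λ x| ≤ |C| * Real.exp (-(ph h S x)) := by
      have h3 := (hC x).trans (le_abs_self C)
      rw [Real.norm_eq_abs, abs_mul, abs_of_pos (Real.exp_pos _)] at h3
      rw [Real.exp_neg, ← div_eq_mul_inv, le_div_iff₀ (Real.exp_pos _)]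
      exact h3
    rw [abs_mul]
    calc |g x.val| * |Λ x| ≤ |g x.val| * (|C| * Real.exp (-(ph h S x))) := by gcongr
      _ = _ := by ring
  have hga : Integrable (fun x => |g x|) (vm h) := hg.abs
  calc |∫ x : Mo S, g x.val * Λ x ∂μ| ≤ ∫ x : Mo S, |g x.val * Λ x| ∂μ := abs_integral_le_integral_abs
    _ ≤ ∫ x : Mo S, |C| * (Real.exp (-(ph h S x)) * |g x.val|) ∂μ :=
        integral_mono (int_mul h hμ hg hΛ hc).abs ((integrable_mu h hμ hga).const_mul _) h1
    _ = |C| * ∫ x in S.U, |g x| ∂(vm h) := by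
        rw [integral_const_mul, integral_mu h hμ fun x => |g x|]
    _ ≤ |C| * ∫ x, |g x| ∂(vm h) := by
        exact mul_le_mul_of_nonneg_left
          (setIntegral_le_integral hga (Eventually.of_forall fun x => abs_nonneg _)) (abs_nonneg _)

end meas

/-! ### extension by zero -/

open Classical in
/-- extension by zero -/
def xr (F : Mo S → ℝ) (x : M) : ℝ := if hx : x ∈ S.U then F ⟨x, hx⟩ else 0

theorem xr_val (F : Mo S → ℝ) (x : Mo S) : xr F x.val = F x := by
  have hx : x.val ∈ S.U := x.prop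
  rw [xr, dif_pos hx]
  rfl

theorem xr_smooth {F : Mo S → ℝ} (hF : Sm F) (i : A.ι) :
    ContDiffOn ℝ ∞ (fun z => xr F ((A.e i).symm z)) (S.dom i) := by
  intro w hw
  set x : Mo S := ⟨(A.e i).symm w, hw.2⟩ with hx
  have hxs : x.val ∈ (A.e i).source := (A.e i).map_target hw.1
  have hxw : A.e i x.val = w := (A.e i).right_inv hw.1
  have h1 := symm_rd x hxs
  rw [hxw] at h1
  have h2 : ContDiffAt ℝ ∞ (F ∘ (ch x).symm) (rd A i S.z w) :=
    hF.contDiffAt' (isCh_ch x) h1.self_of_nhds.2.1
  have h3 : ContDiffAt ℝ ∞ (rd A i S.z) w := ((S.rd_anal i w hw).contDiffAt).restrict_scalars ℝ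
  have h4 := h2.comp w h3
  refine (h4.congr_of_eventuallyEq ?_).contDiffWithinAt
  filter_upwards [h1] with v hv
  simp only [Function.comp_apply]
  rw [← xr_val F, hv.2.2]

/-! ### rank one matrices -/

/-- the Hermitian form of `T` -/
def fm (T : Matrix (Fin n) (Fin n) ℂ) (v : Cn n) : ℂ := ∑ a, ∑ b, T a b * v a * conj (v b)

/-- rank one matrix of the vector `v` -/
def rk (v : Cn n) : Matrix (Fin n) (Fin n) ℂ :=
  Matrix.vecMulVec (fun b => conj (v b)) (star fun b => conj (v b))

theorem rk_apply (v : Cn n) (b a : Fin n) : rk v b a = conj (v b) * v a := by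
  rw [rk, Matrix.vecMulVec_apply, Pi.star_apply, RCLike.star_def, Complex.conj_conj]

theorem tr_rk (T : Matrix (Fin n) (Fin n) ℂ) (v : Cn n) : (T * rk v).trace = fm T v := by
  unfold fm Matrix.trace
  refine Finset.sum_congr rfl fun a _ => ?_
  rw [Matrix.diag_apply, Matrix.mul_apply]
  refine Finset.sum_congr rfl fun b _ => ?_
  rw [rk_apply]
  ring

theorem rk_psd (v : Cn n) : (rk v).PosSemidef := Matrix.posSemidef_vecMulVec_self_star _

theorem fm_add (T T' : Matrix (Fin n) (Fin n) ℂ) (v : Cn n) : fm (T + T') v = fm T v + fm T' v := by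
  rw [← tr_rk, ← tr_rk, ← tr_rk, Matrix.add_mul, Matrix.trace_add]

theorem fm_smul (c : ℂ) (T : Matrix (Fin n) (Fin n) ℂ) (v : Cn n) : fm (c • T) v = c * fm T v := by
  rw [← tr_rk, ← tr_rk, Matrix.smul_mul, Matrix.trace_smul, smul_eq_mul]

theorem fm_nonneg {T : Matrix (Fin n) (Fin n) ℂ} (hT : T.PosSemidef) (v : Cn n) :
    0 ≤ (fm T v).re := by
  have h1 := hT.dotProduct_mulVec_nonneg (fun a => conj (v a))
  have h2 : star (fun a => conj (v a)) ⬝ᵥ T *ᵥ (fun a => conj (v a)) = fm T v := by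
    unfold fm
    simp only [dotProduct, Matrix.mulVec, Pi.star_apply, RCLike.star_def, Finset.mul_sum,
      Complex.conj_conj]
    refine Finset.sum_congr rfl fun a _ => Finset.sum_congr rfl fun b _ => ?_
    ring
  rw [h2] at h1
  exact (Complex.le_def.1 h1).1

end

end Crest.Agent.R273.T4C_223
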