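import Crest.Agent.R273.T4C_223

/-!
# R273 (S0416), A-V0 = T4a (helper223), part 2: weak inequalities on `Mo S`

* `fm_lev`, `fm_cur` : Hermitian forms on `M` and Levi forms on `Mo S`
* `mkT`, `B_mkT`     : the test of `TLd_201` attached to a test function on `Mo S`
* `weak_of`          : limit `v → u` in `L²`
-/

set_option autoImplicit false
set_option linter.unusedSectionVars false

open Set Filter Topology Complex MeasureTheory
open scoped ContDiff Matrix ComplexConjugate ComplexOrder ENNReal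

namespace Crest.Agent.R273.T4D_223

open Crest.Agent.R271.Ho51 (RDom cp ch IsCh IsLeb Sm mem_ch isCh_ch)
open Crest.Agent.R275.Geo Crest.Agent.R275.Core144 Crest.Agent.R273.SteinA_794
open Crest.Agent.R273.SteinB_794 Crest.Agent.R273.SteinC_794 Crest.Agent.R273.SteinD_794
open Crest.Agent.R273.SteinM_794 Crest.Agent.R273.SteinN_794
open Crest.Agent.R273.Defs_333 (ProjD HM HM.wt HM.Semipos)
open Crest.Agent.R273.Kah_333 (cur hsf Kah)
open Crest.Agent.R273.Vm_333 (vm)
open Crest.Agent.R273.T4C_223 Crest.Agent.R273.TLd_201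
open Crest.Agent.R271.W792 (lev)

noncomputable section

variable {n : ℕ} {M : Type} [TopologicalSpace M] {A : Atl n M} {S : SD A}

/-! ### forms -/

theorem fm_hess {u : Cn n → ℝ} {z : Cn n} (hu : ContDiffAt ℝ ∞ u z) (v : Cn n) :
    (fm (Hess_333.hess u z) v).re = (1 / 4) * Defs_333.lev u z v := by
  have h := HessB_333.hq_re hu v
  have e : fm (Hess_333.hess u z) v = Hess_333.hq u z v := rfl
  rw [e, h]
  ring

/-- functions which are smooth on `S.U` -/
theorem fm_lev {f : M → ℝ} (hf : ∀ i, ContDiffOn ℝ ∞ (fun w => f ((A.e i).symm w)) (S.dom i))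
    (x : Mo S) {i : A.ι} (hx : x.val ∈ (A.e i).source) (w : Fin n → ℂ) :
    (fm (hsf A f i x.val) (vf S i w x.val)).re = lev (fun x : Mo S => f x.val) x w := by
  have hc : ContDiffAt ℝ ∞ (fun w => f ((A.e i).symm w)) (A.e i x.val) :=
    (hf i).contDiffAt ((S.isOpen_dom i).mem_nhds (S.mem_dom hx x.prop))
  rw [lev_of x hx (hc.of_le Crest.Agent.R271.Ho51.two_le_top'), vf_eq w hx x.prop]
  exact fm_hess hc _

theorem fm_cur (h : HM (KB A)⁻¹) (x : Mo S) {i : A.ι} (hx : x.val ∈ (A.e i).source)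
    (w : Fin n → ℂ) : (fm (cur h i x.val) (vf S i w x.val)).re = lev (ph h S) x w := by
  have h1 : Crest.Agent.R271.Ho51.Levi (ph h S) x w = _ := Levi_wtS h (isHS_kf S) kf_ne x hx w
  rw [Crest.Agent.R271.W792.Levi_eq_lev (ph_sm h)] at h1
  rw [h1, vf_eq w hx x.prop]
  exact fm_hess (Kah_333.wt_contDiffAt h i ((A.e i).map_source hx)) _

/-- forms are smooth -/
theorem fm_smooth {i : A.ι} {T : M → Matrix (Fin n) (Fin n) ℂ}
    (hT : ∀ a b, ContDiffOn ℝ ∞ (fun z => T ((A.e i).symm z) a b) (S.dom i)) (w : Fin n → ℂ) :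
    ContDiffOn ℝ ∞ (fun z => (fm (T ((A.e i).symm z)) (vf S i w ((A.e i).symm z))).re)
      (S.dom i) := by
  have h1 : ∀ a, ContDiffOn ℝ ∞ (fun z => (vf S i w ((A.e i).symm z)) a) (S.dom i) := fun a =>
    (EuclideanSpace.proj a : Cn n →L[ℂ] ℂ).restrictScalars ℝ |>.contDiff.comp_contDiffOn
      (vf_smooth i w)
  have h2 : ContDiffOn ℝ ∞ (fun z => fm (T ((A.e i).symm z)) (vf S i w ((A.e i).symm z)))
      (S.dom i) := by
    unfold fm
    refine ContDiffOn.sum fun a _ => ContDiffOn.sum fun b _ => ?_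
    exact ((hT a b).mul (h1 a)).mul
      (((conjCLE : ℂ →L[ℝ] ℂ).contDiff).comp_contDiffOn (h1 b))
  exact reCLM.contDiff.comp_contDiffOn h2

/-- test function times a function which is smooth near the support -/
theorem sm_cut [T2Space M] {χ : Mo S → ℝ} (hχ : Sm χ) {i : A.ι}
    (hs : tsupport χ ⊆ Mo.val ⁻¹' (A.e i).source) {f : M → ℝ}
    (hf : ContDiffOn ℝ ∞ (fun z => f ((A.e i).symm z)) (S.dom i)) :
    Sm (fun x : Mo S => χ x * f x.val) := by
  intro x
  by_cases hx : x ∈ tsupport χ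
  · have hxs := hs hx
    have h1 := sm_at x hxs ((hf).contDiffAt ((S.isOpen_dom i).mem_nhds (S.mem_dom hxs x.prop)))
    exact (hχ x).mul h1
  · have h1 : (fun x : Mo S => χ x * f x.val) =ᶠ[𝓝 x] fun _ => 0 := by
      filter_upwards [notMem_tsupport_iff_eventuallyEq.1 hx] with y hy
      rw [hy]
      simp
    have h2 : Tendsto (ch x).symm (𝓝 (cp x)) (𝓝 x) := by
      have h3 := (ch x).symm.continuousAt
        (x := cp x) (by simpa using (isCh_ch x).cp_mem (mem_ch x))
      rwa [ContinuousAt, (isCh_ch x).symm_cp (mem_ch x)] at h3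
    exact (contDiffAt_const (c := (0 : ℝ))).congr_of_eventuallyEq (h2.eventually h1)

/-! ### tests -/

section tests

variable [T2Space M]

/-- the test matrix on `M` of a test function on `Mo S` -/
def mkT (h : HM (KB A)⁻¹) (D : TD A) (hU : S.U ⊆ D.U) (i : A.ι) (v : Fin n → ℂ) {χ : Mo S → ℝ}
    (hχ : Sm χ) (hc : HasCompactSupport χ) (hs : tsupport χ ⊆ Mo.val ⁻¹' (A.e i).source)
    (h0 : ∀ x, 0 ≤ χ x) : Tst D where
  i := i
  S := fun x => ((xr χ x * Real.exp (wtS h (kf S) x) : ℝ) : ℂ) • rk (vf S i v x)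
  sm := by
    intro a b z hz
    have hKc : IsCompact (Mo.val '' tsupport χ) := hc.isCompact.image continuous_val
    by_cases hzK : (A.e i).symm z ∈ Mo.val '' tsupport χ
    · have hzd : z ∈ S.dom i := by
        obtain ⟨x, hx, hxz⟩ := hzK
        exact ⟨hz, by rw [mem_preimage, ← hxz]; exact x.prop⟩
      have h1 : ∀ a, ContDiffOn ℝ ∞ (fun z => (vf S i v ((A.e i).symm z)) a) (S.dom i) := fun a =>
        (EuclideanSpace.proj a : Cn n →L[ℂ] ℂ).restrictScalars ℝ |>.contDiff.comp_contDiffOn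
          (vf_smooth i v)
      have h2 : ContDiffOn ℝ ∞ (fun z => ((xr χ ((A.e i).symm z) *
          Real.exp (wtS h (kf S) ((A.e i).symm z)) : ℝ) : ℂ)) (S.dom i) :=
        ofRealCLM.contDiff.comp_contDiffOn
          ((xr_smooth hχ i).mul (Real.contDiff_exp.comp_contDiffOn
            (wtS_smooth h (isHS_kf S) kf_ne i)))
      have h3 : ContDiffOn ℝ ∞ (fun z => (((xr χ ((A.e i).symm z) *
          Real.exp (wtS h (kf S) ((A.e i).symm z)) : ℝ) : ℂ) •
            rk (vf S i v ((A.e i).symm z))) a b) (S.dom i) := by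
        have e : ∀ z, (((xr χ ((A.e i).symm z) *
          Real.exp (wtS h (kf S) ((A.e i).symm z)) : ℝ) : ℂ) •
            rk (vf S i v ((A.e i).symm z))) a b = ((xr χ ((A.e i).symm z) *
          Real.exp (wtS h (kf S) ((A.e i).symm z)) : ℝ) : ℂ) *
            (conj (vf S i v ((A.e i).symm z) a) * vf S i v ((A.e i).symm z) b) := by
          intro z
          rw [Matrix.smul_apply, rk_apply, smul_eq_mul]
        simp only [e]
        exact h2.mul ((((conjCLE : ℂ →L[ℝ] ℂ).contDiff).comp_contDiffOn (h1 a)).mul (h1 b))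
      exact (h3.contDiffAt ((S.isOpen_dom i).mem_nhds hzd)).contDiffWithinAt
    · have hct : ContinuousAt (A.e i).symm z := (A.e i).symm.continuousAt (by simpa using hz)
      have h1 : ∀ᶠ w in 𝓝 z, (A.e i).symm w ∉ Mo.val '' tsupport χ :=
        hct.eventually (hKc.isClosed.isOpen_compl.mem_nhds hzK)
      refine ((contDiffAt_const (c := (0 : ℂ))).congr_of_eventuallyEq ?_).contDiffWithinAt
      filter_upwards [h1] with w hw
      have h2 : xr χ ((A.e i).symm w) = 0 := by
        by_cases hwU : (A.e i).symm w ∈ S.U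
        · have h3 := xr_val χ ⟨(A.e i).symm w, hwU⟩
          rw [show (Mo.val (⟨(A.e i).symm w, hwU⟩ : Mo S)) = (A.e i).symm w from rfl] at h3
          rw [h3]
          by_contra hne
          exact hw ⟨⟨(A.e i).symm w, hwU⟩, subset_tsupport _ hne, rfl⟩
        · rw [xr, dif_neg hwU]
      show (((xr χ ((A.e i).symm w) * _ : ℝ) : ℂ) • _ : Matrix _ _ ℂ) a b = 0
      rw [h2, zero_mul, ofReal_zero, zero_smul, Matrix.zero_apply]
  psd := by
    intro x
    have h1 : 0 ≤ xr χ x := by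
      by_cases hxU : x ∈ S.U
      · rw [xr, dif_pos hxU]; exact h0 _
      · rw [xr, dif_neg hxU]
    refine (rk_psd _).smul ?_
    exact_mod_cast mul_nonneg h1 (Real.exp_pos _).le
  K := Mo.val '' tsupport χ
  cK := hc.isCompact.image continuous_val
  KU := by
    rintro _ ⟨x, hx, rfl⟩
    exact ⟨hs hx, hU x.prop⟩
  zero := by
    intro x hx
    have h2 : xr χ x = 0 := by
      by_cases hwU : x ∈ S.U
      · have h3 := xr_val χ ⟨x, hwU⟩
        rw [show (Mo.val (⟨x, hwU⟩ : Mo S)) = x from rfl] at h3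
        rw [h3]
        by_contra hne
        exact hx ⟨⟨x, hwU⟩, subset_tsupport _ hne, rfl⟩
      · rw [xr, dif_neg hwU]
    show (((xr χ x * _ : ℝ) : ℂ) • _ : Matrix _ _ ℂ) = 0
    rw [h2, zero_mul, ofReal_zero, zero_smul]

variable [SecondCountableTopology M] [MeasurableSpace M] [BorelSpace M] [Countable A.ι]
  {μ : Measure (Mo S)}

theorem B_mkT (hμ : IsLeb μ) (h : HM (KB A)⁻¹) (D : TD A) (hU : S.U ⊆ D.U) (i : A.ι)
    (v : Fin n → ℂ) {χ : Mo S → ℝ} (hχ : Sm χ) (hc : HasCompactSupport χ)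
    (hs : tsupport χ ⊆ Mo.val ⁻¹' (A.e i).source) (h0 : ∀ x, 0 ≤ χ x)
    (T : A.ι → M → Matrix (Fin n) (Fin n) ℂ) :
    (mkT h D hU i v hχ hc hs h0).B h T =
      ∫ x : Mo S, χ x * (fm (T i x.val) (vf S i v x.val)).re ∂μ := by
  have e1 : ∀ x : M, (T i x * (((xr χ x * Real.exp (wtS h (kf S) x) : ℝ) : ℂ) •
      rk (vf S i v x))).trace.re = xr χ x * Real.exp (wtS h (kf S) x) *
        (fm (T i x) (vf S i v x)).re := by
    intro x
    rw [Matrix.mul_smul, Matrix.trace_smul, tr_rk, smul_eq_mul, re_ofReal_mul]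
  have e2 : (mkT h D hU i v hχ hc hs h0).B h T =
      ∫ x, xr χ x * Real.exp (wtS h (kf S) x) * (fm (T i x) (vf S i v x)).re ∂(vm h) := by
    unfold Tst.B
    exact integral_congr_ae (Eventually.of_forall fun x => e1 x)
  rw [e2, ← setIntegral_eq_integral_of_forall_compl_eq_zero (s := S.U), integral_mu h hμ]
  · refine integral_congr_ae (Eventually.of_forall fun x => ?_)
    simp only [xr_val]
    have h3 : Real.exp (-(ph h S x)) * Real.exp (wtS h (kf S) x.val) = 1 := by
      rw [← Real.exp_add]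
      unfold ph
      rw [neg_add_cancel, Real.exp_zero]
    linear_combination (χ x * (fm (T i x.val) (vf S i v x.val)).re) * h3
  · intro x hx
    rw [xr, dif_neg hx]
    ring

end tests

end

end Crest.Agent.R273.T4D_223
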