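import Crest.Agent.R273.T4C_844

/-!
# Row 273, leaf T4 (helper844), part D: tools for weakly psh functions

`exists_pouV` : partitions of unity subordinate to a neighbourhood assignment, `exists_cut`,
`ibp_lev` : `∫ v * lev χ = ∫ lev v * χ`, closure properties of `GW` and `WPsh`,
`GW_of_lim` : limits of almost psh functions.
-/

set_option autoImplicit false
set_option linter.unusedSectionVars false

open MeasureTheory Set Metric Filter Topology
open scoped ENNReal ContDiff Pointwise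

noncomputable section

namespace Crest.Agent.R273.Reg_844

open Crest.Agent.R275.FL606 Crest.Agent.R271.Ho51
open Crest.Agent.R271.W792 (lev lev_add lev_const_mul lev_const)
open Crest.Agent.R271.Ball399 (lev0)

variable {n : ℕ}
variable {G : Type*} [TopologicalSpace G] [RDom n G]

lemma Sm.levS {χ : G → ℝ} (h : Sm χ) (w : Fin n → ℂ) : Sm (fun y => lev χ y w) := by
  unfold Crest.Agent.R271.W792.lev
  exact (Sm.const _).mulR (((h.D.apply w).D.apply w).add
    ((h.D.apply (Complex.I • w)).D.apply (Complex.I • w)))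

lemma lev_congr' {f g : G → ℝ} {x : G} (h : f =ᶠ[𝓝 x] g) (w : Fin n → ℂ) :
    lev f x w = lev g x w := by
  have h4 : ∀ v : Fin n → ℂ, (fun y => D f y v) =ᶠ[𝓝 x] fun y => D g y v := by
    intro v
    filter_upwards [h.eventuallyEq_nhds] with t ht
    rw [D_congr ht]
  unfold Crest.Agent.R271.W792.lev
  rw [D_congr (h4 w), D_congr (h4 (Complex.I • w))]

lemma lev_eq_zero {χ : G → ℝ} {x : G} (h : x ∉ tsupport χ) (w : Fin n → ℂ) : lev χ x w = 0 := by
  have h1 : χ =ᶠ[𝓝 x] fun _ => 0 := notMem_tsupport_iff_eventuallyEq.1 h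
  rw [lev_congr' h1, lev_const]

lemma tsupport_lev (χ : G → ℝ) (w : Fin n → ℂ) : tsupport (fun y => lev χ y w) ⊆ tsupport χ := by
  refine closure_minimal ?_ isClosed_closure
  intro x hx
  by_contra hx'
  exact hx (lev_eq_zero hx' w)

lemma hasCompactSupport_lev [T2Space G] {χ : G → ℝ} (hc : HasCompactSupport χ) (w : Fin n → ℂ) :
    HasCompactSupport (fun y => lev χ y w) :=
  hc.of_isClosed_subset isClosed_closure (tsupport_lev χ w)

/-- partition of unity subordinate to a neighbourhood assignment -/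
theorem exists_pouV [T2Space G] {K : Set G} (hK : IsCompact K) {V : G → Set G}
    (hV : ∀ x ∈ K, V x ∈ 𝓝 x) : ∃ (m : ℕ) (c : Fin m → G)
    (g : Fin m → G → ℝ), (∀ i, c i ∈ K ∧ Sm (g i) ∧ HasCompactSupport (g i) ∧
      tsupport (g i) ⊆ (ch (c i)).source ∩ V (c i) ∧ (∀ x, 0 ≤ g i x)) ∧
      ∀ᶠ x in 𝓝ˢ K, ∑ i, g i x = 1 := by
  classical
  choose! b hbs hbc hbt hb0 hb1 hbe using fun (x : G) (hx : x ∈ K) => exists_bump x (hV x hx)
  have hU : ∀ x ∈ K, ∃ U : Set G, IsOpen U ∧ x ∈ U ∧ ∀ y ∈ U, b x y = 1 := by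
    intro x hx
    obtain ⟨U, hU1, hU2, hU3⟩ := eventually_nhds_iff.1 (hbe x hx)
    exact ⟨U, hU2, hU3, fun y hy => hU1 y hy⟩
  choose! U hUo hUx hU1 using hU
  obtain ⟨t, htK, ht⟩ := hK.elim_nhds_subcover U (fun x hx => (hUo x hx).mem_nhds (hUx x hx))
  let m := t.card
  let c : Fin m → G := fun i => (t.equivFin.symm i : G)
  have hcK : ∀ i, c i ∈ K := fun i => htK _ (t.equivFin.symm i).2
  let g : Fin m → G → ℝ := fun i x => b (c i) x * ∏ j ∈ Finset.univ.filter (· < i), (1 - b (c j) x)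
  have hprodSm : ∀ (s : Finset (Fin m)), Sm (fun x => ∏ j ∈ s, (1 - b (c j) x)) := by
    intro s
    induction s using Finset.induction_on with
    | empty => simpa using Sm.const (1 : ℝ)
    | insert a s ha ih =>
      simp only [Finset.prod_insert ha]
      exact ((Sm.const (1 : ℝ)).sub (hbs (c a) (hcK a))).mulR ih
  refine ⟨m, c, g, fun i => ⟨hcK i, (hbs (c i) (hcK i)).mulR (hprodSm _), ?_, ?_, ?_⟩, ?_⟩
  · exact (hbc (c i) (hcK i)).mul_right
  · exact (tsupport_mul_subset_left).trans (hbt (c i) (hcK i))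
  · intro x
    exact mul_nonneg (hb0 _ (hcK i) _) (Finset.prod_nonneg fun j _ =>
      sub_nonneg.2 (hb1 _ (hcK j) _))
  · have hopen : IsOpen (⋃ i ∈ t, U i) := isOpen_biUnion fun i hi => hUo i (htK i hi)
    rw [eventually_nhdsSet_iff_exists]
    refine ⟨⋃ i ∈ t, U i, hopen, ht, fun x hx => ?_⟩
    have h1 := Finset.prod_one_sub_ordered (Finset.univ : Finset (Fin m)) (fun i => b (c i) x)
    have h2 : ∏ i : Fin m, (1 - b (c i) x) = 0 := by
      obtain ⟨y, hy, hxy⟩ := mem_iUnion₂.1 hx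
      refine Finset.prod_eq_zero (i := t.equivFin ⟨y, hy⟩) (Finset.mem_univ _) ?_
      have : c (t.equivFin ⟨y, hy⟩) = y := by simp [c]
      rw [this, hU1 y (htK y hy) x hxy, sub_self]
    rw [h2] at h1
    have h3 : ∑ i, g i x = ∑ i, b (c i) x * ∏ j ∈ Finset.univ.filter (· < i), (1 - b (c j) x) := rfl
    rw [h3]
    linarith

/-- cut-off functions -/
theorem exists_cut [T2Space G] {K W : Set G} (hK : IsCompact K) (hW : IsOpen W) (hKW : K ⊆ W) :
    ∃ θ : G → ℝ, Sm θ ∧ HasCompactSupport θ ∧ tsupport θ ⊆ W ∧ (∀ x, 0 ≤ θ x) ∧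
      ∀ᶠ x in 𝓝ˢ K, θ x = 1 := by
  obtain ⟨m, c, g, h1, h2⟩ := exists_pouV hK (V := fun _ => W)
    (fun x hx => hW.mem_nhds (hKW hx))
  have hcl : IsClosed (⋃ i, tsupport (g i)) := isClosed_iUnion_of_finite fun i => isClosed_closure
  have hsub : tsupport (fun x => ∑ i, g i x) ⊆ ⋃ i, tsupport (g i) := by
    refine closure_minimal ?_ hcl
    intro x hx
    obtain ⟨i, -, hi⟩ := Finset.exists_ne_zero_of_sum_ne_zero hx
    exact mem_iUnion.2 ⟨i, subset_tsupport _ hi⟩
  refine ⟨fun x => ∑ i, g i x, Sm.sum fun i _ => (h1 i).2.1, ?_, ?_, ?_, h2⟩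
  · exact (isCompact_iUnion fun i => (h1 i).2.2.1).of_isClosed_subset isClosed_closure hsub
  · refine hsub.trans (iUnion_subset fun i => ?_)
    exact (h1 i).2.2.2.1.trans inter_subset_right
  · exact fun x => Finset.sum_nonneg fun i _ => (h1 i).2.2.2.2 x

lemma D_mulR' {f g : G → ℝ} (hf : Sm f) (hg : Sm g) (x : G) (v : Fin n → ℂ) :
    D (fun y => f y * g y) x v = D f x v * g x + f x * D g x v := by
  have := D_smul hf hg x v
  simpa [smul_eq_mul] using this

variable [T2Space G] [MeasurableSpace G] [BorelSpace G]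

/-! ### integration by parts -/

lemma ibp_D {μ : Measure G} (hμ : IsLeb μ) {v χ : G → ℝ} (hv : Sm v) (hχ : Sm χ)
    (hc : HasCompactSupport χ) (w : Fin n → ℂ) :
    ∫ y, v y * D χ y w ∂μ = - ∫ y, D v y w * χ y ∂μ := by
  have h0 := integral_D_eq_zero hμ (hv.mulR hχ) (HasCompactSupport.mul_left (f := v) hc) w
  simp only [D_mulR' hv hχ] at h0
  have hcD : HasCompactSupport (fun y => D χ y w) := (hasCompactSupport_D hc).comp_left
    (g := fun A : (Fin n → ℂ) →L[ℝ] ℝ => A w) (by simp)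
  have i1 : Integrable (fun y => v y * D χ y w) μ :=
    (hv.mulR (hχ.D.apply w)).integrable hμ (HasCompactSupport.mul_left (f := v) hcD)
  have i2 : Integrable (fun y => D v y w * χ y) μ :=
    ((hv.D.apply w).mulR hχ).integrable hμ (HasCompactSupport.mul_left (f := fun y => D v y w) hc)
  rw [integral_add i2 i1] at h0
  linarith

/-- **integration by parts for the Levi form** -/
theorem ibp_lev {μ : Measure G} (hμ : IsLeb μ) {v χ : G → ℝ} (hv : Sm v) (hχ : Sm χ)
    (hc : HasCompactSupport χ) (w : Fin n → ℂ) :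
    ∫ y, v y * lev χ y w ∂μ = ∫ y, lev v y w * χ y ∂μ := by
  have hcD : ∀ w : Fin n → ℂ, HasCompactSupport (fun y => D χ y w) := fun w =>
    (hasCompactSupport_D hc).comp_left (g := fun A : (Fin n → ℂ) →L[ℝ] ℝ => A w) (by simp)
  have hcDD : ∀ w : Fin n → ℂ, HasCompactSupport (fun y => D (fun y => D χ y w) y w) := fun w =>
    (hasCompactSupport_D (hcD w)).comp_left (g := fun A : (Fin n → ℂ) →L[ℝ] ℝ => A w) (by simp)
  have h1 : ∀ w : Fin n → ℂ, ∫ y, v y * D (fun y => D χ y w) y w ∂μ =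
      ∫ y, D (fun y => D v y w) y w * χ y ∂μ := by
    intro w
    rw [ibp_D hμ hv (hχ.D.apply w) (hcD w) w, ibp_D hμ (hv.D.apply w) hχ hc w, neg_neg]
  have i1 : ∀ w : Fin n → ℂ, Integrable (fun y => v y * D (fun y => D χ y w) y w) μ := fun w =>
    (hv.mulR ((hχ.D.apply w).D.apply w)).integrable hμ (HasCompactSupport.mul_left (f := v) (hcDD w))
  have i2 : ∀ w : Fin n → ℂ, Integrable (fun y => D (fun y => D v y w) y w * χ y) μ := fun w =>
    (((hv.D.apply w).D.apply w).mulR hχ).integrable hμ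
      (HasCompactSupport.mul_left (f := fun y => D (fun y => D v y w) y w) hc)
  have e1 : (fun y => v y * lev χ y w) = fun y => (1 / 4) * (v y * D (fun y => D χ y w) y w +
      v y * D (fun y => D χ y (Complex.I • w)) y (Complex.I • w)) := by
    funext y; unfold Crest.Agent.R271.W792.lev; ring
  have e2 : (fun y => lev v y w * χ y) = fun y => (1 / 4) * (D (fun y => D v y w) y w * χ y +
      D (fun y => D v y (Complex.I • w)) y (Complex.I • w) * χ y) := by
    funext y; unfold Crest.Agent.R271.W792.lev; ring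
  rw [e1, e2, integral_const_mul, integral_const_mul, integral_add (i1 _) (i1 _),
    integral_add (i2 _) (i2 _), h1, h1]

/-- local version: `v` smooth on a neighbourhood `W` of the support of `χ` -/
theorem ibp_lev_loc {μ : Measure G} (hμ : IsLeb μ) {v χ : G → ℝ} {W : Set G} (hW : IsOpen W)
    (hv : ∀ x ∈ W, ContDiffAt ℝ (⊤ : ℕ∞) (v ∘ (ch x).symm) (cp x)) (hχ : Sm χ)
    (hc : HasCompactSupport χ) (hs : tsupport χ ⊆ W) (w : Fin n → ℂ) :
    ∫ y, v y * lev χ y w ∂μ = ∫ y, lev v y w * χ y ∂μ := by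
  obtain ⟨θ, h1, h2, h3, -, h5⟩ := exists_cut (n := n) hc.isCompact hW hs
  have hsm : Sm (fun y => θ y * v y) := by
    intro x
    by_cases hx : x ∈ W
    · exact (h1 x).mul (hv x hx)
    · have h6 : x ∉ tsupport θ := fun h => hx (h3 h)
      have h7 : (fun y => θ y * v y) =ᶠ[𝓝 x] fun _ => (0 : ℝ) := by
        filter_upwards [notMem_tsupport_iff_eventuallyEq.1 h6] with y hy
        simp [hy]
      have h8 : Tendsto (ch x).symm (𝓝 (cp x)) (𝓝 x) := by
        have := (ch x).symm.continuousAt (x := cp x) (by simpa using (isCh_ch x).cp_mem (mem_ch x))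
        rwa [ContinuousAt, (isCh_ch x).symm_cp (mem_ch x)] at this
      have h9 : ((fun y => θ y * v y) ∘ (ch x).symm) =ᶠ[𝓝 (cp x)] fun _ => (0 : ℝ) :=
        h8.eventually h7
      exact contDiffAt_const.congr_of_eventuallyEq h9
  have key := ibp_lev hμ hsm hχ hc w
  have e1 : ∀ y, θ y * v y * lev χ y w = v y * lev χ y w := by
    intro y
    by_cases hy : y ∈ tsupport χ
    · have := h5.self_of_nhdsSet y hy
      rw [this, one_mul]
    · rw [lev_eq_zero hy, mul_zero, mul_zero]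
  have e2 : ∀ y, lev (fun y => θ y * v y) y w * χ y = lev v y w * χ y := by
    intro y
    by_cases hy : y ∈ tsupport χ
    · have h6 : ∀ᶠ x in 𝓝 y, θ x = 1 := h5.filter_mono (nhds_le_nhdsSet hy)
      have h7 : (fun y => θ y * v y) =ᶠ[𝓝 y] v := by
        filter_upwards [h6] with x hx
        rw [hx, one_mul]
      rw [lev_congr' h7]
    · rw [image_eq_zero_of_notMem_tsupport hy, mul_zero, mul_zero]
  simp only [e1, e2] at key
  exact key

/-! ### integrability -/

lemma integrable_mul_test {μ : Measure G} {f g : G → ℝ} (hf : LocallyIntegrable f μ)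
    (hg : Continuous g) (hc : HasCompactSupport g) : Integrable (fun y => f y * g y) μ := by
  have := hf.integrable_smul_left_of_hasCompactSupport hg hc
  simpa [smul_eq_mul, mul_comm] using this

lemma integrable_mul_lev {μ : Measure G} {f χ : G → ℝ} (hf : LocallyIntegrable f μ)
    (hχ : Sm χ) (hc : HasCompactSupport χ) (w : Fin n → ℂ) :
    Integrable (fun y => f y * lev χ y w) μ :=
  integrable_mul_test hf (Sm.levS hχ w).continuous (hasCompactSupport_lev hc w)

/-! ### `GW` -/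

lemma GW_of_sm {μ : Measure G} (hμ : IsLeb μ) {v : G → ℝ} {W : Set G} (hW : IsOpen W)
    (hv : ∀ x ∈ W, ContDiffAt ℝ (⊤ : ℕ∞) (v ∘ (ch x).symm) (cp x))
    (h : ∀ x ∈ W, ∀ w : Fin n → ℂ, 0 ≤ lev v x w) : GW μ v W := by
  intro χ h1 h2 h3 h4 w
  rw [ibp_lev_loc hμ hW hv h1 h2 h3 w]
  refine integral_nonneg fun y => ?_
  by_cases hy : y ∈ tsupport χ
  · exact mul_nonneg (h y (h3 hy) w) (h4 y)
  · show 0 ≤ lev v y w * χ y
    rw [image_eq_zero_of_notMem_tsupport hy, mul_zero]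

lemma GW.add {μ : Measure G} {f g : G → ℝ} {W : Set G} (hf : LocallyIntegrable f μ)
    (hg : LocallyIntegrable g μ) (h1 : GW μ f W) (h2 : GW μ g W) :
    GW μ (fun y => f y + g y) W := by
  intro χ c1 c2 c3 c4 w
  have e : (fun y => (f y + g y) * lev χ y w) = fun y => f y * lev χ y w + g y * lev χ y w := by
    funext y; ring
  rw [e, integral_add (integrable_mul_lev hf c1 c2 w) (integrable_mul_lev hg c1 c2 w)]
  exact add_nonneg (h1 χ c1 c2 c3 c4 w) (h2 χ c1 c2 c3 c4 w)

lemma GW.const_mul {μ : Measure G} {f : G → ℝ} {W : Set G} {c : ℝ} (hc : 0 ≤ c) (h : GW μ f W) :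
    GW μ (fun y => c * f y) W := by
  intro χ c1 c2 c3 c4 w
  have e : (fun y => (c * f y) * lev χ y w) = fun y => c * (f y * lev χ y w) := by
    funext y; ring
  rw [e, integral_const_mul]
  exact mul_nonneg hc (h χ c1 c2 c3 c4 w)

lemma GW.zero {μ : Measure G} {W : Set G} : GW μ (fun _ => (0 : ℝ)) W := by
  intro χ c1 c2 c3 c4 w
  simp

lemma GW.sum {μ : Measure G} {ι : Type*} {s : Finset ι} {f : ι → G → ℝ} {W : Set G}
    (hf : ∀ i ∈ s, LocallyIntegrable (f i) μ) (h : ∀ i ∈ s, GW μ (f i) W) :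
    GW μ (fun y => ∑ i ∈ s, f i y) W := by
  intro χ c1 c2 c3 c4 w
  have e : (fun y => (∑ i ∈ s, f i y) * lev χ y w) = fun y => ∑ i ∈ s, f i y * lev χ y w := by
    funext y; rw [Finset.sum_mul]
  rw [e, integral_finsetSum _ fun i hi => integrable_mul_lev (hf i hi) c1 c2 w]
  exact Finset.sum_nonneg fun i hi => h i hi χ c1 c2 c3 c4 w

lemma GW.congr_ae {μ : Measure G} {f g : G → ℝ} {W : Set G} (h : GW μ f W)
    (hfg : ∀ᵐ y ∂μ, y ∈ W → f y = g y) : GW μ g W := by
  intro χ c1 c2 c3 c4 w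
  have := h χ c1 c2 c3 c4 w
  refine this.trans_eq (integral_congr_ae ?_)
  filter_upwards [hfg] with y hy
  by_cases hyW : y ∈ tsupport χ
  · rw [hy (c3 hyW)]
  · rw [lev_eq_zero hyW, mul_zero, mul_zero]

/-- limits: for every test and every `ε` there is an approximation in `L¹` -/
lemma GW_of_lim {μ : Measure G} {f : G → ℝ} {W : Set G} (hf : LocallyIntegrable f μ)
    (h : ∀ χ : G → ℝ, Sm χ → HasCompactSupport χ → tsupport χ ⊆ W → (∀ y, 0 ≤ χ y) →
      ∀ w : Fin n → ℂ, ∀ ε : ℝ, 0 < ε → ∃ g : G → ℝ, LocallyIntegrable g μ ∧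
        ∫ y in tsupport χ, |g y - f y| ∂μ ≤ ε ∧ -ε ≤ ∫ y, g y * lev χ y w ∂μ) : GW μ f W := by
  intro χ c1 c2 c3 c4 w
  obtain ⟨C, hC⟩ := (Sm.levS c1 w).continuous.norm.bounded_above_of_compact_support
    (hasCompactSupport_lev c2 w).norm
  have hC0 : 0 ≤ |C| + 1 := by positivity
  refine le_of_forall_pos_le_add fun ε hε => ?_
  have hd : 0 < |C| + 1 + 1 := by positivity
  obtain ⟨g, g1, g2, g3⟩ := h χ c1 c2 c3 c4 w (ε / (|C| + 1 + 1)) (div_pos hε hd)
  have i1 := integrable_mul_lev g1 c1 c2 w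
  have i2 := integrable_mul_lev hf c1 c2 w
  have hK : IsCompact (tsupport χ) := c2.isCompact
  have i3 : IntegrableOn (fun y => |g y - f y|) (tsupport χ) μ :=
    ((g1.integrableOn_isCompact hK).sub (hf.integrableOn_isCompact hK)).norm
  have e1 : ∫ y, g y * lev χ y w ∂μ - ∫ y, f y * lev χ y w ∂μ =
      ∫ y in tsupport χ, (g y - f y) * lev χ y w ∂μ := by
    rw [← integral_sub i1 i2, ← setIntegral_eq_integral_of_forall_compl_eq_zero
      (s := tsupport χ) (fun y hy => by rw [lev_eq_zero hy, mul_zero, mul_zero, sub_zero])]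
    refine setIntegral_congr_fun isClosed_closure.measurableSet fun y _ => ?_
    ring
  have e2 : ∫ y in tsupport χ, (g y - f y) * lev χ y w ∂μ ≤ (|C| + 1) * (ε / (|C| + 1 + 1)) := by
    have h5 : ∫ y in tsupport χ, (g y - f y) * lev χ y w ∂μ ≤
        ∫ y in tsupport χ, (|C| + 1) * |g y - f y| ∂μ := by
      refine integral_mono ?_ (i3.const_mul _) fun y => ?_
      · refine ((i1.sub i2).integrableOn).congr_fun (fun y _ => ?_) isClosed_closure.measurableSet
        simp only [Pi.sub_apply]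
        ring
      · have h6 := hC y
        rw [norm_norm, Real.norm_eq_abs] at h6
        have h7 : |lev χ y w| ≤ |C| + 1 := by linarith [le_abs_self C]
        calc (g y - f y) * lev χ y w ≤ |(g y - f y) * lev χ y w| := le_abs_self _
          _ = |g y - f y| * |lev χ y w| := abs_mul _ _
          _ ≤ |g y - f y| * (|C| + 1) := mul_le_mul_of_nonneg_left h7 (abs_nonneg _)
          _ = (|C| + 1) * |g y - f y| := mul_comm _ _
    rw [integral_const_mul] at h5
    exact h5.trans (mul_le_mul_of_nonneg_left g2 hC0)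
  have e3 : (|C| + 1) * (ε / (|C| + 1 + 1)) + ε / (|C| + 1 + 1) = ε := by
    field_simp
  linarith

/-- from local to global -/
theorem GW_of_local {μ : Measure G} {f : G → ℝ} (hf : LocallyIntegrable f μ) {W : Set G}
    (h : ∀ x ∈ W, ∃ V ∈ 𝓝 x, GW μ f V) : GW μ f W := by
  intro χ c1 c2 c3 c4 w
  choose! V hV1 hV2 using h
  obtain ⟨m, c, g, h1, h2⟩ := exists_pouV (n := n) c2.isCompact (V := V)
    (fun x hx => hV1 x (c3 hx))
  have e1 : χ = fun y => ∑ i, g i y * χ y := by
    funext y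
    by_cases hy : y ∈ tsupport χ
    · rw [← Finset.sum_mul, h2.self_of_nhdsSet y hy, one_mul]
    · simp [image_eq_zero_of_notMem_tsupport hy]
  have s1 : ∀ i, Sm (fun y => g i y * χ y) := fun i => (h1 i).2.1.mulR c1
  have s2 : ∀ i, HasCompactSupport (fun y => g i y * χ y) := fun i =>
    HasCompactSupport.mul_left (f := g i) c2
  have e2 : ∀ y, lev χ y w = ∑ i, lev (fun y => g i y * χ y) y w := by
    intro y
    conv_lhs => rw [e1]
    exact Crest.Agent.R271.W792.lev_sum Finset.univ (fun i _ => s1 i) y w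
  have e3 : (fun y => f y * lev χ y w) = fun y => ∑ i, f y * lev (fun y => g i y * χ y) y w := by
    funext y; rw [e2, Finset.mul_sum]
  rw [e3, integral_finsetSum _ fun i _ => integrable_mul_lev hf (s1 i) (s2 i) w]
  refine Finset.sum_nonneg fun i _ => ?_
  refine hV2 (c i) (c3 (h1 i).1) _ (s1 i) (s2 i) ?_ (fun y => mul_nonneg ((h1 i).2.2.2.2 y) (c4 y)) w
  exact (tsupport_mul_subset_left).trans ((h1 i).2.2.2.1.trans inter_subset_right)

/-! ### `WPsh` -/

lemma WPsh.gw {μ : Measure G} {f : G → ℝ} (hf : LocallyIntegrable f μ) (h : WPsh μ f)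
    (W : Set G) : GW μ f W := GW_of_local hf fun x _ => h x

lemma WPsh.of_gw {μ : Measure G} {f : G → ℝ} (h : GW μ f univ) : WPsh μ f := fun _ =>
  ⟨univ, univ_mem, h⟩

lemma WPsh.add {μ : Measure G} {f g : G → ℝ} (hf : LocallyIntegrable f μ)
    (hg : LocallyIntegrable g μ) (h1 : WPsh μ f) (h2 : WPsh μ g) :
    WPsh μ (fun y => f y + g y) := by
  intro x
  obtain ⟨V, hV, hV'⟩ := h1 x
  obtain ⟨W, hW, hW'⟩ := h2 x
  exact ⟨V ∩ W, inter_mem hV hW, (hV'.mono inter_subset_left).add hf hg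
    (hW'.mono inter_subset_right)⟩

lemma WPsh.const_mul {μ : Measure G} {f : G → ℝ} {c : ℝ} (hc : 0 ≤ c) (h : WPsh μ f) :
    WPsh μ (fun y => c * f y) := by
  intro x
  obtain ⟨V, hV, hV'⟩ := h x
  exact ⟨V, hV, hV'.const_mul hc⟩

lemma WPsh.sum {μ : Measure G} {ι : Type*} {s : Finset ι} {f : ι → G → ℝ}
    (hf : ∀ i ∈ s, LocallyIntegrable (f i) μ) (h : ∀ i ∈ s, WPsh μ (f i)) :
    WPsh μ (fun y => ∑ i ∈ s, f i y) := by
  intro x
  choose! V hV hV' using fun i (hi : i ∈ s) => h i hi x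
  refine ⟨⋂ i ∈ s, V i, (biInter_finset_mem s).2 hV, GW.sum hf fun i hi => ?_⟩
  exact (hV' i hi).mono (biInter_subset_of_mem hi)

lemma WPsh.congr_ae {μ : Measure G} {f g : G → ℝ} (h : WPsh μ f) (hfg : f =ᵐ[μ] g) :
    WPsh μ g := by
  intro x
  obtain ⟨V, hV, hV'⟩ := h x
  exact ⟨V, hV, hV'.congr_ae (hfg.mono fun y hy _ => hy)⟩

lemma WPsh_of_sm {μ : Measure G} (hμ : IsLeb μ) {v : G → ℝ} (hv : Sm v)
    (h : ∀ x, ∀ w : Fin n → ℂ, 0 ≤ lev v x w) : WPsh μ v :=
  WPsh.of_gw (GW_of_sm hμ isOpen_univ (fun x _ => hv x) fun x _ w => h x w)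

end Crest.Agent.R273.Reg_844
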