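import Crest.Agent.R273.T4D_223

/-!
# R273 (S0416), A-V0 = T4a (helper223), part 3

* `weak_of`       : limit `v → u` in `L²`
* `weak0`, `weak1`: weak inequalities on `Mo S` for the function `u` of the T-lemma
-/

set_option autoImplicit false
set_option linter.unusedSectionVars false

open Set Filter Topology Complex MeasureTheory
open scoped ContDiff Matrix ComplexConjugate ComplexOrder ENNReal

namespace Crest.Agent.R273.T4E_223

open Crest.Agent.R271.Ho51 (RDom cp ch IsCh IsLeb Sm mem_ch isCh_ch)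
open Crest.Agent.R275.Geo Crest.Agent.R275.Core144 Crest.Agent.R273.SteinA_794
open Crest.Agent.R273.SteinB_794 Crest.Agent.R273.SteinC_794 Crest.Agent.R273.SteinD_794
open Crest.Agent.R273.SteinM_794 Crest.Agent.R273.SteinN_794
open Crest.Agent.R273.Defs_333 (ProjD HM HM.wt HM.Semipos)
open Crest.Agent.R273.Kah_333 (cur hsf Kah)
open Crest.Agent.R273.Vm_333 (vm)
open Crest.Agent.R273.T4C_223 Crest.Agent.R273.T4D_223 Crest.Agent.R273.TLd_201
open Crest.Agent.R271.W792 (lev)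

noncomputable section

variable {n : ℕ} {M : Type} [TopologicalSpace M] {A : Atl n M} {S : SD A}
  [T2Space M] [CompactSpace M] [SecondCountableTopology M] [MeasurableSpace M] [BorelSpace M]
  [Countable A.ι] {μ : Measure (Mo S)}

theorem memLp_sm (h : HM (KB A)⁻¹) {v : M → ℝ} (hv : A.Sm v) : MemLp v 2 (vm h) := by
  have := Vm_333.isFinite_vm h
  have hc : Continuous v := Vm_333.sm_continuous hv
  obtain ⟨C, hC⟩ := isCompact_univ.exists_bound_of_continuousOn hc.continuousOn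
  exact MemLp.of_bound hc.measurable.aestronglyMeasurable C
    (Eventually.of_forall fun x => hC x (mem_univ x))

theorem int_of (h : HM (KB A)⁻¹) {v : M → ℝ} (hv : MemLp v 2 (vm h)) : Integrable v (vm h) := by
  have := Vm_333.isFinite_vm h
  exact hv.integrable (by norm_num)

theorem abs_le_sq {s t : ℝ} (hs : 0 < s) : |t| ≤ s + (1 / (4 * s)) * t ^ 2 := by
  have h2 : |t| * (4 * s) ≤ s * (4 * s) + t ^ 2 := by
    rw [← sq_abs t]
    nlinarith [sq_nonneg (2 * s - |t|)]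
  have h3 : s + (1 / (4 * s)) * t ^ 2 = (s * (4 * s) + t ^ 2) / (4 * s) := by
    field_simp
  rw [h3, le_div_iff₀ (by positivity)]
  exact h2

theorem l1_le (h : HM (KB A)⁻¹) {g : M → ℝ} (hg : MemLp g 2 (vm h)) {s : ℝ} (hs : 0 < s) :
    ∫ x, |g x| ∂(vm h) ≤ s * (vm h).real univ + (1 / (4 * s)) * ∫ x, g x ^ 2 ∂(vm h) := by
  have := Vm_333.isFinite_vm h
  have i1 : Integrable (fun _ : M => s) (vm h) := integrable_const s
  have i2 : Integrable (fun x => (1 / (4 * s)) * g x ^ 2) (vm h) := hg.integrable_sq.const_mul _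
  have h2 : ∫ x, |g x| ∂(vm h) ≤ ∫ x, (s + (1 / (4 * s)) * g x ^ 2) ∂(vm h) :=
    integral_mono (int_of h hg).abs (i1.add i2) fun x => abs_le_sq hs
  have h3 : ∫ x, (s + (1 / (4 * s)) * g x ^ 2) ∂(vm h) =
      ∫ _, s ∂(vm h) + ∫ x, (1 / (4 * s)) * g x ^ 2 ∂(vm h) := integral_add i1 i2
  rw [h3, integral_const_mul, integral_const, smul_eq_mul] at h2
  linarith

theorem weak_of (hμ : IsLeb μ) (h : HM (KB A)⁻¹) {F : Mo S → ℝ} (hF : Sm F) {u : M → ℝ}
    (hu : MemLp u 2 (vm h)) {χ : Mo S → ℝ} (hχ : Sm χ) (hc : HasCompactSupport χ)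
    (w : Fin n → ℂ)
    (H : ∀ ε : ℝ, 0 < ε → ∃ v : M → ℝ, A.Sm v ∧ ∫ x, (v x - u x) ^ 2 ∂(vm h) ≤ ε ∧
      -ε ≤ ∫ x : Mo S, χ x * (lev F x w + lev (fun x : Mo S => v x.val) x w) ∂μ) :
    0 ≤ ∫ x : Mo S, (F x + u x.val) * lev χ x w ∂μ := by
  obtain ⟨C, hC0, hC⟩ := bound_mul h hμ (sm_lev hχ w) (hcs_lev hc w)
  set V : ℝ := (vm h).real univ with hV
  have hV0 : 0 ≤ V := measureReal_nonneg
  set J := ∫ x : Mo S, (F x + u x.val) * lev χ x w ∂μ with hJ
  have hΛ : Sm (fun x : Mo S => lev χ x w) := sm_lev hχ w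
  have hΛc : HasCompactSupport (fun x : Mo S => lev χ x w) := hcs_lev hc w
  have key : ∀ s : ℝ, 0 < s → -s ^ 2 - C * (s * V + s / 4) ≤ J := by
    intro s hs
    obtain ⟨v, hv, hvu, hv2⟩ := H (s ^ 2) (by positivity)
    have hvs : Sm (fun x : Mo S => v x.val) := sm_of_Sm hv
    have hg : MemLp (fun x => v x - u x) 2 (vm h) := (memLp_sm h hv).sub hu
    have hgi := int_of h hg
    have e1 : ∫ x : Mo S, χ x * (lev F x w + lev (fun x : Mo S => v x.val) x w) ∂μ =
        ∫ x : Mo S, (F x + v x.val) * lev χ x w ∂μ := by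
      rw [ibp_lev hμ (hF.add hvs) hχ hc w]
      refine integral_congr_ae (Eventually.of_forall fun x => ?_)
      simp only [Crest.Agent.R271.W792.lev_add hF hvs]
    have i1 : Integrable (fun x : Mo S => (F x + v x.val) * lev χ x w) μ :=
      ((hF.add hvs).mulR hΛ).integrable hμ hΛc.mul_left
    have i2 : Integrable (fun x : Mo S => (v x.val - u x.val) * lev χ x w) μ :=
      int_mul h hμ hgi hΛ hΛc
    have e2 : J = (∫ x : Mo S, (F x + v x.val) * lev χ x w ∂μ) -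
        ∫ x : Mo S, (v x.val - u x.val) * lev χ x w ∂μ := by
      rw [← integral_sub i1 i2, hJ]
      refine integral_congr_ae (Eventually.of_forall fun x => ?_)
      simp only
      ring
    have h3 := hC _ hgi
    have h4 : C * ∫ x, |v x - u x| ∂(vm h) ≤ C * (s * V + s / 4) := by
      refine mul_le_mul_of_nonneg_left ?_ hC0
      refine (l1_le h hg hs).trans ?_
      have h5 : (1 / (4 * s)) * ∫ x, (v x - u x) ^ 2 ∂(vm h) ≤ (1 / (4 * s)) * s ^ 2 :=
        mul_le_mul_of_nonneg_left hvu (by positivity)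
      have h6 : (1 / (4 * s)) * s ^ 2 = s / 4 := by field_simp
      linarith
    have h5 := (abs_le.1 (h3.trans h4)).2
    rw [e1] at hv2
    linarith
  by_contra hneg
  rw [not_le] at hneg
  set B : ℝ := 1 + C * (V + 1 / 4) with hB
  have hB1 : 1 ≤ B := by
    rw [hB]
    have : 0 ≤ C * (V + 1 / 4) := by positivity
    linarith
  set s : ℝ := min 1 (-J / (2 * B)) with hs
  have hJB : 0 < -J / (2 * B) := by
    apply div_pos <;> linarith
  have hs0 : 0 < s := lt_min one_pos hJB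
  have hs1 : s ≤ 1 := min_le_left _ _
  have hs2 : s * (2 * B) ≤ -J := by
    have := min_le_right 1 (-J / (2 * B))
    rwa [← hs, le_div_iff₀ (by linarith)] at this
  have h7 := key s hs0
  nlinarith [mul_nonneg hs0.le (sub_nonneg.2 hs1)]

/-- the approximation property of the T-lemma -/
def Appr (h : HM (KB A)⁻¹) (D : TD A) (K : Kah A) (δ : ℝ) (u : M → ℝ) : Prop :=
  ∀ (m : ℕ) (ε : ℝ), 0 < ε → ∀ T : Finset (Tst D),
    ∃ v : M → ℝ, A.Sm v ∧ (∀ x, v x ≤ 0) ∧
      (∀ i, ∀ x ∈ (A.e i).source,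
        (cur h i x + (1 / ((m : ℂ) + 1)) • K.g i x + hsf A v i x).PosSemidef) ∧
      ∫ x, (v x - u x) ^ 2 ∂(vm h) ≤ ε ∧
      ∀ t ∈ T, δ * t.B h D.be ≤
        t.B h (fun i x => cur h i x + (1 / ((m : ℂ) + 1)) • K.g i x + hsf A v i x)

section split

variable (hμ : IsLeb μ) (h : HM (KB A)⁻¹) (K : Kah A) {χ : Mo S → ℝ} (hχ : Sm χ)
  (hc : HasCompactSupport χ) {i : A.ι} (hs : tsupport χ ⊆ Mo.val ⁻¹' (A.e i).source)
  (w : Fin n → ℂ)

include hμ hχ hc hs in
theorem int_K : Integrable (fun x : Mo S =>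
    χ x * (fm (K.g i x.val) (vf S i w x.val)).re) μ :=
  (sm_cut hχ hs (f := fun x => (fm (K.g i x) (vf S i w x)).re)
    (fm_smooth (fun a b => (K.sm i a b).mono inter_subset_left) w)).integrable hμ hc.mul_right

include hμ hχ hc hs in
theorem split {v : M → ℝ} (hv : A.Sm v) (r : ℝ) :
    ∫ x : Mo S, χ x * (fm (cur h i x.val + (r : ℂ) • K.g i x.val + hsf A v i x.val)
      (vf S i w x.val)).re ∂μ =
    ∫ x : Mo S, χ x * (lev (ph h S) x w + lev (fun x : Mo S => v x.val) x w) ∂μ +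
      r * ∫ x : Mo S, χ x * (fm (K.g i x.val) (vf S i w x.val)).re ∂μ := by
  have hvs : Sm (fun x : Mo S => v x.val) := sm_of_Sm hv
  have i1 : Integrable (fun x : Mo S =>
      χ x * (lev (ph h S) x w + lev (fun x : Mo S => v x.val) x w)) μ :=
    (hχ.mulR ((sm_lev (ph_sm h) w).add (sm_lev hvs w))).integrable hμ hc.mul_right
  rw [← integral_const_mul, ← integral_add i1 ((int_K hμ K hχ hc hs w).const_mul r)]
  refine integral_congr_ae (Eventually.of_forall fun x => ?_)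
  simp only
  by_cases hx : x ∈ tsupport χ
  · have hxs : x.val ∈ (A.e i).source := hs hx
    rw [fm_add, fm_add, fm_smul, add_re, add_re, re_ofReal_mul, fm_cur h x hxs w,
      fm_lev (fun i => (hv i).mono inter_subset_left) x hxs w]
    ring
  · rw [image_eq_zero_of_notMem_tsupport hx]
    ring

end split

theorem exists_m (CK : ℝ) {ε : ℝ} (hε : 0 < ε) : ∃ m : ℕ, (1 / ((m : ℝ) + 1)) * CK ≤ ε := by
  obtain ⟨m, hm⟩ := exists_nat_gt (|CK| / ε)
  refine ⟨m, ?_⟩
  have h1 : |CK| < m * ε := by rwa [div_lt_iff₀ hε] at hm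
  have h2 : (1 / ((m : ℝ) + 1)) * CK ≤ (1 / ((m : ℝ) + 1)) * |CK| :=
    mul_le_mul_of_nonneg_left (le_abs_self _) (by positivity)
  refine h2.trans ?_
  rw [one_div, inv_mul_le_iff₀ (by positivity)]
  nlinarith

theorem coe_m (m : ℕ) : (1 / ((m : ℂ) + 1)) = (((1 / ((m : ℝ) + 1)) : ℝ) : ℂ) := by
  push_cast
  rfl

/-- weak inequality without `β` -/
theorem weak0 (hμ : IsLeb μ) {h : HM (KB A)⁻¹} {D : TD A} {K : Kah A} {δ : ℝ} {u : M → ℝ}
    (hu : MemLp u 2 (vm h)) (H : Appr h D K δ u) {χ : Mo S → ℝ} (hχ : Sm χ)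
    (hc : HasCompactSupport χ) {i : A.ι} (hs : tsupport χ ⊆ Mo.val ⁻¹' (A.e i).source)
    (h0 : ∀ x, 0 ≤ χ x) (w : Fin n → ℂ) :
    0 ≤ ∫ x : Mo S, (ph h S x + u x.val) * lev χ x w ∂μ := by
  refine weak_of hμ h (ph_sm h) hu hχ hc w fun ε hε => ?_
  obtain ⟨m, hm⟩ := exists_m (∫ x : Mo S, χ x * (fm (K.g i x.val) (vf S i w x.val)).re ∂μ) hε
  obtain ⟨v, hv, -, hp, hvu, -⟩ := H m ε hε ∅
  refine ⟨v, hv, hvu, ?_⟩
  have h1 := split hμ h K hχ hc hs w hv (1 / ((m : ℝ) + 1))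
  have h2 : 0 ≤ ∫ x : Mo S, χ x * (fm (cur h i x.val + ((1 / ((m : ℝ) + 1) : ℝ) : ℂ) •
      K.g i x.val + hsf A v i x.val) (vf S i w x.val)).re ∂μ := by
    refine integral_nonneg fun x => ?_
    by_cases hx : x ∈ tsupport χ
    · have h3 := hp i x.val (hs hx)
      rw [coe_m] at h3
      exact mul_nonneg (h0 x) (fm_nonneg h3 _)
    · show 0 ≤ χ x * _
      rw [image_eq_zero_of_notMem_tsupport hx, zero_mul]
  linarith

/-- weak inequality with `β` -/
theorem weak1 (hμ : IsLeb μ) {h : HM (KB A)⁻¹} {D : TD A} {K : Kah A} {δ : ℝ} {u : M → ℝ}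
    (hu : MemLp u 2 (vm h)) (H : Appr h D K δ u) (hU : S.U ⊆ D.U) {P : M → ℝ}
    (hP : ∀ i, ContDiffOn ℝ ∞ (fun z => P ((A.e i).symm z)) (S.dom i))
    (hb : ∀ i, ∀ x ∈ (A.e i).source, x ∈ S.U → D.be i x = hsf A P i x)
    {χ : Mo S → ℝ} (hχ : Sm χ)
    (hc : HasCompactSupport χ) {i : A.ι} (hs : tsupport χ ⊆ Mo.val ⁻¹' (A.e i).source)
    (h0 : ∀ x, 0 ≤ χ x) (w : Fin n → ℂ) :
    0 ≤ ∫ x : Mo S, (ph h S x + -δ * P x.val + u x.val) * lev χ x w ∂μ := by
  have hPs : Sm (fun x : Mo S => P x.val) := sm_of hP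
  have hF : Sm (fun x : Mo S => ph h S x + -δ * P x.val) :=
    (ph_sm h).add ((Sm.const (-δ)).mulR hPs)
  refine weak_of hμ h hF hu hχ hc w fun ε hε => ?_
  obtain ⟨m, hm⟩ := exists_m (∫ x : Mo S, χ x * (fm (K.g i x.val) (vf S i w x.val)).re ∂μ) hε
  obtain ⟨v, hv, -, -, hvu, ht⟩ := H m ε hε {mkT h D hU i w hχ hc hs h0}
  refine ⟨v, hv, hvu, ?_⟩
  have hvs : Sm (fun x : Mo S => v x.val) := sm_of_Sm hv
  have h1 := split hμ h K hχ hc hs w hv (1 / ((m : ℝ) + 1))
  have h2 := ht _ (Finset.mem_singleton_self _)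
  rw [B_mkT hμ, B_mkT hμ] at h2
  simp only [coe_m] at h2
  rw [h1] at h2
  have h3 : ∫ x : Mo S, χ x * (fm (D.be i x.val) (vf S i w x.val)).re ∂μ =
      ∫ x : Mo S, χ x * lev (fun x : Mo S => P x.val) x w ∂μ := by
    refine integral_congr_ae (Eventually.of_forall fun x => ?_)
    simp only
    by_cases hx : x ∈ tsupport χ
    · rw [hb i x.val (hs hx) x.prop, fm_lev hP x (hs hx) w]
    · rw [image_eq_zero_of_notMem_tsupport hx]
      ring
  have i1 : Integrable (fun x : Mo S =>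
      χ x * (lev (ph h S) x w + lev (fun x : Mo S => v x.val) x w)) μ :=
    (hχ.mulR ((sm_lev (ph_sm h) w).add (sm_lev hvs w))).integrable hμ hc.mul_right
  have i2 : Integrable (fun x : Mo S => χ x * lev (fun x : Mo S => P x.val) x w) μ :=
    (hχ.mulR (sm_lev hPs w)).integrable hμ hc.mul_right
  have h4 : ∫ x : Mo S, χ x * (lev (fun x : Mo S => ph h S x + -δ * P x.val) x w +
      lev (fun x : Mo S => v x.val) x w) ∂μ =
      ∫ x : Mo S, χ x * (lev (ph h S) x w + lev (fun x : Mo S => v x.val) x w) ∂μ -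
        δ * ∫ x : Mo S, χ x * lev (fun x : Mo S => P x.val) x w ∂μ := by
    rw [← integral_const_mul, ← integral_sub i1 (i2.const_mul δ)]
    refine integral_congr_ae (Eventually.of_forall fun x => ?_)
    simp only
    rw [Crest.Agent.R271.W792.lev_add (ph_sm h) ((Sm.const (-δ)).mulR hPs),
      Crest.Agent.R271.W792.lev_const_mul hPs]
    ring
  rw [h4]
  rw [h3] at h2
  linarith

end

end Crest.Agent.R273.T4E_223
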