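import Crest.Agent.R273.Psl_774
import Crest.Agent.R273.HodgeH_803
import Crest.Agent.R275.PaiB_323

/-!
# R273 (S0416), torus step, leaf T8 (helper774), part A : the abstract limit argument

* `nS_le_nrm0`, `nrm0_le_nS` : the norms of `L2K_774` and of `KRL2_803` are equivalent;
* `norm_lint_le` : `|∫_j G| ≤ sup |G|`;
* `Rst B BF ι` : a restriction map `Sec B → Sec BF` along `ι : F → M`, given by matrices;
* `Rst.pr_bound` : `|⟨res u, w⟩| ≤ C ‖u‖_s`;
* `exists_closed` : an `L²` Cauchy sequence of sections `c N`, closed near `F`, `∇ c N → 0`, with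
  `⟨res (c N), w⟩ = 1`, produces a smooth closed `z` of the same degree with `⟨res z, w⟩ = 1`.
-/

set_option autoImplicit false
set_option linter.unusedSectionVars false

open Set Filter Topology Complex MeasureTheory
open scoped ContDiff Matrix ComplexConjugate

namespace Crest.Agent.R273.T8_774

open Crest.Agent.R275 Crest.Agent.R275.Geo Crest.Agent.R275.Tor812 Crest.Agent.R275.TorS666
open Crest.Agent.R275.SerG398 (lint DPair)
open Crest.Agent.R275.CutY89 (fmulL fmulL_coe fmulL_apply)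
open Crest.Agent.R275.Pai323 (pr Fn psi_zero_of_notMem psi_off dn)
open Crest.Agent.R273.L2K_774 Crest.Agent.R273.Psl_774
open Crest.Agent.R273.KRL2_803 (S0 coord0 nrm0_le_sum)
open Crest.Agent.R273.HodgeH_803 Crest.Agent.R273.HodgeH_803.HodgeOp
open Crest.Agent.R275.C1d194 (smAt_ofReal tsupport_ofReal)

noncomputable section

variable {n b : ℕ} {M F : Type} [TopologicalSpace M] [TopologicalSpace F]
  {A : Atl n M} {AF : Atl b F}

theorem cont_of_smAt {i : A.ι} {f : M → ℂ} (h : A.SmAt i f) : ContinuousOn f (A.e i).source := by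
  have h1 : ContinuousOn (fun x => f ((A.e i).symm (A.e i x))) (A.e i).source :=
    ContDiffOn.continuousOn h |>.comp (A.e i).continuousOn (A.e i).mapsTo
  refine h1.congr fun x hx => ?_
  simp only [(A.e i).left_inv hx]

/-! ### norms -/

section norms

variable [Finite A.ι] (P : Part A) {B : FBun A}

theorem nS_le_nrm0 (s : ℕ) : ∃ C, 0 ≤ C ∧ ∀ u : Sec B, nS P B s u ≤ C * (S0 P B).nrm s u := by
  have := Fintype.ofFinite A.ι
  refine ⟨∑ _i : A.ι, ∑ _k : B.κ, 1, by positivity, fun u => ?_⟩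
  rw [nS_eq, Finset.sum_mul]
  refine Finset.sum_le_sum fun i _ => ?_
  rw [Finset.sum_mul]
  refine Finset.sum_le_sum fun k _ => ?_
  rw [one_mul]
  exact coord0 P B s u i k

theorem nrm0_le_nS (s : ℕ) (u : Sec B) : (S0 P B).nrm s u ≤ nS P B s u := by
  have := Fintype.ofFinite A.ι
  rw [nS_eq]
  exact nrm0_le_sum P B s u

end norms

/-! ### integrals -/

theorem norm_lint_le {j : A.ι} {G : M → ℂ} {c : ℝ} (hc : 0 ≤ c)
    (h : ∀ x ∈ (A.e j).source, ‖G x‖ ≤ c) : ‖lint A j G‖ ≤ c := by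
  classical
  set S : Set (RI n → ℝ) := Set.pi univ fun _ => Ioo (0 : ℝ) 1 with hS
  have h0 : ∀ x ∉ S, rd A j G x = 0 := by
    intro x hx
    unfold rd
    rw [if_neg]
    intro hx2
    apply hx
    intro p _
    have := A.cube j _ hx2 p
    simpa using this
  have hvol : volume.real S = 1 := by
    rw [Measure.real, hS, Real.volume_pi_Ioo]
    simp
  unfold lint
  rw [← setIntegral_eq_integral_of_forall_compl_eq_zero h0]
  have h1 : ∀ x ∈ S, ‖rd A j G x‖ ≤ c := by
    intro x _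
    unfold rd
    split_ifs with hx
    · exact h _ ((A.e j).map_target hx)
    · simpa using hc
  have h2 := norm_setIntegral_le_of_norm_le_const (μ := volume) (s := S)
    (by rw [hS, Real.volume_pi_Ioo]; simp) h1
  rwa [hvol, mul_one] at h2

/-! ### restriction maps -/

/-- a map `Sec B → Sec BF` over `ι : F → M`, given pointwise by matrices -/
structure Rst (B : FBun A) (BF : FBun AF) (ι : F → M) where
  cont : Continuous ι
  m : AF.ι → A.ι → F → Matrix BF.κ B.κ ℂ
  m_cont : ∀ i j k l, ContinuousOn (fun y => m i j y k l)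
    ((AF.e i).source ∩ ι ⁻¹' (A.e j).source)
  res : Sec B →ₗ[ℂ] Sec BF
  val : ∀ (u : Sec B) i j, ∀ y ∈ (AF.e i).source, ι y ∈ (A.e j).source →
    (res u).1 i y = m i j y *ᵥ u.1 j (ι y)
  nab : ∀ u, nabL BF (res u) = res (nabL B u)

namespace Rst

variable {B : FBun A} {BF BF' : FBun AF} {ι : F → M} (R : Rst B BF ι)

/-- `res` only depends on the values on `F` -/
theorem congr {u v : Sec B} (h : ∀ j, ∀ y, ι y ∈ (A.e j).source → u.1 j (ι y) = v.1 j (ι y)) :
    R.res u = R.res v := by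
  apply Subtype.ext
  funext i y
  by_cases hy : y ∈ (AF.e i).source
  · obtain ⟨j, hj⟩ := A.cover (ι y)
    rw [R.val u i j y hy hj, R.val v i j y hy hj, h j y hj]
  · rw [Sec.off BF (R.res u).2 hy, Sec.off BF (R.res v).2 hy]

theorem fmul_one {f : M → ℂ} (hf : A.Sm f) (h1 : ∀ y, f (ι y) = 1) (u : Sec B) :
    R.res (fmulL B hf u) = R.res u :=
  R.congr fun j y _ => by rw [fmulL_apply, h1, one_smul]

variable [T2Space M] [CompactSpace M] [T2Space F] [Finite A.ι] [Finite AF.ι]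
  (P : Part A) (PF : Part AF)

/-- sup bound of the restriction by a Sobolev norm -/
theorem sup_bound {s : ℕ} (hs : Fintype.card (RI n) < 2 * s) :
    ∃ C, 0 ≤ C ∧ ∀ u : Sec B, ∀ i, ∀ y ∈ tsupport (PF.χ i), ∀ k,
      ‖(R.res u).1 i y k‖ ≤ C * nS P B s u := by
  have := Fintype.ofFinite A.ι
  have := Fintype.ofFinite AF.ι
  -- Sobolev in every chart of `M`
  choose D hD0 hD using fun j : A.ι =>
    sup_le_nS P (B := B) hs (P.χ_cpt j) (P.χ_sub j)
  -- bounds of the matrices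
  have hK : ∀ (i : AF.ι) (j : A.ι),
      IsCompact (tsupport (PF.χ i) ∩ ι ⁻¹' tsupport (P.χ j)) := fun i j =>
    (PF.χ_cpt i).inter_right ((isClosed_tsupport _).preimage R.cont)
  have hb : ∀ (i : AF.ι) (j : A.ι) (k : BF.κ) (l : B.κ), ∃ c, 0 ≤ c ∧
      ∀ y ∈ tsupport (PF.χ i) ∩ ι ⁻¹' tsupport (P.χ j), ‖R.m i j y k l‖ ≤ c := by
    intro i j k l
    have hc : ContinuousOn (fun y => ‖R.m i j y k l‖)
        (tsupport (PF.χ i) ∩ ι ⁻¹' tsupport (P.χ j)) :=
      ((R.m_cont i j k l).mono fun y hy => ⟨PF.χ_sub i hy.1, P.χ_sub j hy.2⟩).norm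
    obtain ⟨c, hc⟩ := (hK i j).bddAbove_image hc
    refine ⟨max c 0, le_max_right _ _, fun y hy => (hc ⟨y, hy, rfl⟩).trans (le_max_left _ _)⟩
  choose c hc0 hc using hb
  have hpos : ∀ i j k l, 0 ≤ c i j k l * D j := fun i j k l => mul_nonneg (hc0 i j k l) (hD0 j)
  refine ⟨∑ i, ∑ j, ∑ k, ∑ l, c i j k l * D j, Finset.sum_nonneg fun i _ => Finset.sum_nonneg
    fun j _ => Finset.sum_nonneg fun k _ => Finset.sum_nonneg fun l _ => hpos i j k l, ?_⟩
  intro u i y hy k
  -- a chart of `M` around `ι y`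
  obtain ⟨j, hj⟩ : ∃ j, ι y ∈ tsupport (P.χ j) := by
    by_contra hne
    push Not at hne
    have h0 : ∀ j, P.ψ j (ι y) = 0 := fun j =>
      image_eq_zero_of_notMem_tsupport fun h => hne j (Pai323.tsupport_psi P j h)
    have h1 := P.sum_one (ι y)
    simp only [h0, finsum_zero] at h1
    exact zero_ne_one h1
  rw [R.val u i j y (PF.χ_sub i hy) (P.χ_sub j hj)]
  calc ‖(R.m i j y *ᵥ u.1 j (ι y)) k‖ = ‖∑ l, R.m i j y k l * u.1 j (ι y) l‖ := rfl
    _ ≤ ∑ l, ‖R.m i j y k l * u.1 j (ι y) l‖ := norm_sum_le _ _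
    _ ≤ ∑ l, c i j k l * D j * nS P B s u := by
        refine Finset.sum_le_sum fun l _ => ?_
        rw [norm_mul, mul_assoc]
        exact mul_le_mul (hc i j k l y ⟨hy, hj⟩) (hD j u _ hj l) (norm_nonneg _) (hc0 i j k l)
    _ = (∑ l, c i j k l * D j) * nS P B s u := by rw [Finset.sum_mul]
    _ ≤ _ := by
        refine mul_le_mul_of_nonneg_right ?_ (nS_nonneg P B s u)
        have e1 : ∑ l, c i j k l * D j ≤ ∑ k, ∑ l, c i j k l * D j :=
          Finset.single_le_sum (f := fun k => ∑ l, c i j k l * D j)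
            (fun k _ => Finset.sum_nonneg fun l _ => hpos i j k l) (Finset.mem_univ k)
        have e2 : ∑ k, ∑ l, c i j k l * D j ≤ ∑ j, ∑ k, ∑ l, c i j k l * D j :=
          Finset.single_le_sum (f := fun j => ∑ k, ∑ l, c i j k l * D j)
            (fun j _ => Finset.sum_nonneg fun k _ => Finset.sum_nonneg fun l _ => hpos i j k l)
            (Finset.mem_univ j)
        have e3 : ∑ j, ∑ k, ∑ l, c i j k l * D j ≤ ∑ i, ∑ j, ∑ k, ∑ l, c i j k l * D j :=
          Finset.single_le_sum (f := fun i => ∑ j, ∑ k, ∑ l, c i j k l * D j)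
            (fun i _ => Finset.sum_nonneg fun j _ => Finset.sum_nonneg fun k _ =>
              Finset.sum_nonneg fun l _ => hpos i j k l) (Finset.mem_univ i)
        exact e1.trans (e2.trans e3)

variable [CompactSpace F]

/-- the pairing with a fixed smooth section on `F` is bounded by a Sobolev norm on `M` -/
theorem pr_bound (D : DPair BF BF') (w : Sec BF') {s : ℕ} (hs : Fintype.card (RI n) < 2 * s) :
    ∃ C, 0 ≤ C ∧ ∀ u : Sec B, ‖pr D PF (R.res u) w‖ ≤ C * nS P B s u := by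
  have := Fintype.ofFinite A.ι
  have := Fintype.ofFinite AF.ι
  obtain ⟨C, hC0, hC⟩ := R.sup_bound P PF (B := B) hs
  -- bound of `ψ i`, `D.S *ᵥ w i` on `tsupport (χ i)`
  have hw : ∀ (i : AF.ι) (k : BF.κ), ∃ c, 0 ≤ c ∧ ∀ y ∈ tsupport (PF.χ i),
      ‖(PF.ψ i y : ℂ) * (D.S *ᵥ w.1 i y) k‖ ≤ c := by
    intro i k
    have h1 : AF.SmAt i (fun y => (PF.ψ i y : ℂ) * (D.S *ᵥ w.1 i y) k) := by
      refine ContDiffOn.mul (smAt_ofReal (PF.ψ_sm i i)) ?_
      show ContDiffOn ℝ ∞ (fun z => ∑ l, D.S k l * w.1 i ((AF.e i).symm z) l) _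
      exact ContDiffOn.sum fun l _ => contDiffOn_const.mul (w.2.1 i l)
    have h2 : ContinuousOn (fun y => ‖(PF.ψ i y : ℂ) * (D.S *ᵥ w.1 i y) k‖) (tsupport (PF.χ i)) :=
      ((cont_of_smAt h1).mono (PF.χ_sub i)).norm
    obtain ⟨c, hc⟩ := (PF.χ_cpt i).bddAbove_image h2
    exact ⟨max c 0, le_max_right _ _, fun y hy => (hc ⟨y, hy, rfl⟩).trans (le_max_left _ _)⟩
  choose c hc0 hc using hw
  refine ⟨∑ i, ∑ k, C * c i k, Finset.sum_nonneg fun i _ => Finset.sum_nonneg fun k _ =>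
    mul_nonneg hC0 (hc0 i k), fun u => ?_⟩
  have e1 : pr D PF (R.res u) w = ∑ i ∈ Fn PF (isCompact_univ : IsCompact (univ : Set F)),
      lint AF i (fun y => (PF.ψ i y : ℂ) * dn D (R.res u).1 w.1 i y) := rfl
  rw [e1]
  calc _ ≤ ∑ i ∈ Fn PF (isCompact_univ : IsCompact (univ : Set F)),
        ‖lint AF i (fun y => (PF.ψ i y : ℂ) * dn D (R.res u).1 w.1 i y)‖ := norm_sum_le _ _
    _ ≤ ∑ i, ‖lint AF i (fun y => (PF.ψ i y : ℂ) * dn D (R.res u).1 w.1 i y)‖ :=
        Finset.sum_le_sum_of_subset_of_nonneg (Finset.subset_univ _) fun _ _ _ => norm_nonneg _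
    _ ≤ ∑ i, (∑ k, C * c i k) * nS P B s u := by
        refine Finset.sum_le_sum fun i _ => ?_
        refine norm_lint_le (mul_nonneg (Finset.sum_nonneg fun k _ => mul_nonneg hC0 (hc0 i k))
          (nS_nonneg P B s u)) fun y _ => ?_
        by_cases hy : y ∈ tsupport (PF.χ i)
        · have e2 : (PF.ψ i y : ℂ) * dn D (R.res u).1 w.1 i y =
              ∑ k, (R.res u).1 i y k * ((PF.ψ i y : ℂ) * (D.S *ᵥ w.1 i y) k) := by
            show (PF.ψ i y : ℂ) * ∑ k, (R.res u).1 i y k * (D.S *ᵥ w.1 i y) k = _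
            rw [Finset.mul_sum]
            refine Finset.sum_congr rfl fun k _ => ?_
            ring
          rw [e2, Finset.sum_mul]
          refine (norm_sum_le _ _).trans (Finset.sum_le_sum fun k _ => ?_)
          rw [norm_mul]
          calc _ ≤ C * nS P B s u * c i k :=
                mul_le_mul (hC u i y hy k) (hc i k y hy) (norm_nonneg _)
                  (mul_nonneg hC0 (nS_nonneg P B s u))
            _ = _ := by ring
        · have h0 : PF.ψ i y = 0 :=
            image_eq_zero_of_notMem_tsupport fun h => hy (Pai323.tsupport_psi PF i h)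
          rw [h0]
          simp only [ofReal_zero, zero_mul, norm_zero]
          exact mul_nonneg (Finset.sum_nonneg fun k _ => mul_nonneg hC0 (hc0 i k))
            (nS_nonneg P B s u)
    _ = _ := by rw [Finset.sum_mul]

/-- **existence of a smooth closed section with nonzero pairing on `F`** -/
theorem exists_closed (h2 : ∀ u : Sec B, nabL B (nabL B u) = 0) {U : Set M} (hU : IsOpen U)
    (hFU : ∀ y, ι y ∈ U) {c : ℕ → Sec B}
    (hc : ∀ ε > 0, ∃ N₀, ∀ m ≥ N₀, ∀ k ≥ N₀, nS P B 0 (c m - c k) < ε)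
    (hn : Tendsto (fun N => nS P B 0 (nabL B (c N))) atTop (𝓝 0))
    (hnU : ∀ N i, ∀ x ∈ U, (nabL B (c N)).1 i x = 0)
    (D : DPair BF BF') {w : Sec BF'} (hw : nabL BF' w = 0)
    (h1 : ∀ N, pr D PF (R.res (c N)) w = 1) {q : ℕ} (hq : ∀ N, Geo.pqL B q (c N) = c N) :
    ∃ z : Sec B, nabL B z = 0 ∧ Geo.pqL B q z = z ∧ pr D PF (R.res z) w = 1 := by
  obtain ⟨T⟩ := exists_hodgeOp P B h2
  have hCau : Cau P B 0 c := by
    intro ε hε
    obtain ⟨N, hN⟩ := hc ε hε
    exact ⟨N, fun m hm l hl => lt_of_le_of_lt (nrm0_le_nS P 0 _) (hN m hm l hl)⟩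
  have hn0 : Tendsto (fun m => (S0 P B).nrm 0 (nabL B (c m))) atTop (𝓝 0) :=
    squeeze_zero (fun m => apply_nonneg _ _) (fun m => nrm0_le_nS P 0 _) hn
  obtain ⟨z, hz, hH, -, hlim⟩ := T.l2_split hCau hn0
  obtain ⟨E, hE0, hE⟩ := nS_le_nrm0 P (B := B) 0
  have he : Tendsto (fun N => nS P B 0 (c N - z - nabL B (T.K (c N)))) atTop (𝓝 0) := by
    have h3 := hlim.const_mul E
    rw [mul_zero] at h3
    exact squeeze_zero (fun m => nS_nonneg P B 0 _) (fun m => hE _) h3
  -- a cut-off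
  have hKc : IsCompact (range ι) := isCompact_range R.cont
  obtain ⟨f, hf, hf1, hfU⟩ : ∃ f : M → ℂ, A.Sm f ∧ (∀ y, f (ι y) = 1) ∧ tsupport f ⊆ U := by
    obtain ⟨φ, g1, -, g2, g3, g4⟩ := QN2b734.exists_bump A hKc hU (by
      rintro _ ⟨y, rfl⟩
      exact hFU y)
    refine ⟨fun x => ((φ x : ℝ) : ℂ), fun i => smAt_ofReal (QN2b734.sm_iff.2 g1 i), fun y => ?_, ?_⟩
    · have g5 := (eventually_nhdsSet_iff_forall.1 g2 (ι y) ⟨y, rfl⟩).self_of_nhds
      show ((φ (ι y) : ℝ) : ℂ) = 1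
      rw [g5, ofReal_one]
    · rw [tsupport_ofReal]
      exact g4
  obtain ⟨C, hC0, hC⟩ := R.pr_bound P PF D w (s := Fintype.card (RI n) + 1) (by omega)
  let Tf : Sec B →ₗ[ℂ] ℂ := (pr D PF).flip w ∘ₗ R.res
  have hTf : ∀ u, Tf u = pr D PF (R.res u) w := fun u => rfl
  have hlim2 := functional_limit P B h2 hU (y := fun N => T.K (c N)) hz he hn hnU Tf hf hfU (C := C)
    (fun u => by
      rw [hTf, ← R.fmul_one hf hf1 u]
      exact hC _)
    (fun u => by
      rw [hTf, ← R.nab, Pai323.pr_nab, hw, map_zero])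
  refine ⟨z, hz, T.limit_deg hq (hH 0), ?_⟩
  have h3 : Tendsto (fun N => Tf (c N)) atTop (𝓝 1) := by
    simp only [hTf, h1]
    exact tendsto_const_nhds
  exact (tendsto_nhds_unique hlim2 h3)

end Rst

end

end Crest.Agent.R273.T8_774
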