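import Crest.Agent.R273.T8A_774
import Crest.Agent.R273.RetE_155
import Crest.Agent.R273.TorBd_422
import Crest.Agent.R273.LogCut_5
import Crest.Agent.R273.PW_799
import Crest.Agent.R273.Supn_106

/-!
# R273 (S0416), torus step, leaf T8 (helper774), part B : pointwise bounds

* `exists_lower` : continuous families of positive definite matrices on a compact set;
* `bb_hol`, `lev_HS` : the Levi form of `log ∑ |F_k|²` (`k` of weight `m`) is the pull-back by the
  retraction of the Fubini-Study form of the fixed locus;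
* `pw_up` : pointwise bound of `r^* u` and `∂̄χ ∧ r^* u`.
-/

set_option autoImplicit false
set_option linter.unusedSectionVars false

open Set Filter Topology Complex MeasureTheory
open scoped ContDiff Matrix ComplexConjugate ComplexOrder Kronecker

namespace Crest.Agent.R273.T8_774

open Crest.Agent.R275 Crest.Agent.R275.Geo Crest.Agent.R275.Core144
open Crest.Agent.R273.Defs_333 Crest.Agent.R273.Hess_333 Crest.Agent.R273.HessB_333
open Crest.Agent.R273.HM_333 Crest.Agent.R273.Kah_333 Crest.Agent.R273.FS_333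
open Crest.Agent.R273.Map_835 Crest.Agent.R273.PB_835
open Crest.Agent.R273.FPB_155 Crest.Agent.R273.PullF_155 Crest.Agent.R273.GamR_155
open Crest.Agent.R273.Ret_155 Crest.Agent.R273.TorFr_422 Crest.Agent.R273.PFlow_522
open Crest.Agent.R273.LamN127 (BN)
open Crest.Agent.R273.Fock_243
open Crest.Agent.R273.PW_799
open Crest.Agent.R273.LogA_5 Crest.Agent.R273.LogCut_5

noncomputable section

/-! ### matrices -/

section mat

variable {n : ℕ}

theorem continuous_nq : Continuous (nq : (Fin n → ℂ) → ℝ) := by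
  unfold nq
  fun_prop

theorem nq_smul (c : ℂ) (v : Fin n → ℂ) : nq (c • v) = ‖c‖ ^ 2 * nq v := by
  unfold nq
  rw [Finset.mul_sum]
  refine Finset.sum_congr rfl fun k _ => ?_
  rw [Pi.smul_apply, smul_eq_mul, norm_mul, mul_pow]

theorem nq_pos {v : Fin n → ℂ} (hv : v ≠ 0) : 0 < nq v := by
  obtain ⟨k, hk⟩ := Function.ne_iff.1 hv
  refine lt_of_lt_of_le (by have : v k ≠ 0 := hk
                            positivity : 0 < ‖v k‖ ^ 2) ?_
  exact Finset.single_le_sum (f := fun k => ‖v k‖ ^ 2) (fun k _ => by positivity)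
    (Finset.mem_univ k)

/-- a continuous family of positive definite matrices is bounded below on compact sets -/
theorem exists_lower {X : Type*} [TopologicalSpace X] {C : Set X} (hC : IsCompact C)
    {G : X → Matrix (Fin n) (Fin n) ℂ} (hG : ContinuousOn G C) (hp : ∀ x ∈ C, (G x).PosDef) :
    ∃ δ : ℝ, 0 < δ ∧ ∀ x ∈ C, (G x - (δ : ℂ) • (1 : Matrix (Fin n) (Fin n) ℂ)).PosSemidef := by
  set Sp : Set (Fin n → ℂ) := {v | nq v = 1} with hSp
  have hSpc : IsCompact Sp := by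
    refine Metric.isCompact_of_isClosed_isBounded (isClosed_eq continuous_nq continuous_const) ?_
    refine (Metric.isBounded_closedBall (x := (0 : Fin n → ℂ)) (r := 1)).subset fun v hv => ?_
    rw [mem_closedBall_zero_iff, pi_norm_le_iff_of_nonneg zero_le_one]
    intro i
    have h1 : ‖v i‖ ^ 2 ≤ nq v := Finset.single_le_sum (f := fun k => ‖v k‖ ^ 2)
      (fun k _ => by positivity) (Finset.mem_univ i)
    have h2 : nq v = 1 := hv
    rw [h2] at h1
    nlinarith [norm_nonneg (v i)]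
  have hf : ContinuousOn (fun q : X × (Fin n → ℂ) => (star q.2 ⬝ᵥ (G q.1 *ᵥ q.2)).re) (C ×ˢ Sp) := by
    have h1 : ContinuousOn (fun q : X × (Fin n → ℂ) => G q.1) (C ×ˢ Sp) :=
      hG.comp continuousOn_fst fun q hq => hq.1
    have h2 : ∀ i j, ContinuousOn (fun q : X × (Fin n → ℂ) => G q.1 i j) (C ×ˢ Sp) := fun i j =>
      (continuousOn_pi.1 ((continuousOn_pi.1 h1) i)) j
    refine Complex.continuous_re.comp_continuousOn ?_
    show ContinuousOn (fun q : X × (Fin n → ℂ) => ∑ i, star (q.2 i) * ∑ j, G q.1 i j * q.2 j) _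
    refine continuousOn_finsetSum _ fun i _ => ContinuousOn.mul ?_ ?_
    · exact (continuous_star.comp ((continuous_apply i).comp continuous_snd)).continuousOn
    · refine continuousOn_finsetSum _ fun j _ => (h2 i j).mul ?_
      exact ((continuous_apply j).comp continuous_snd).continuousOn
  have hpos : ∀ q ∈ C ×ˢ Sp, 0 < (star q.2 ⬝ᵥ (G q.1 *ᵥ q.2)).re := by
    rintro ⟨x, v⟩ ⟨hx, hv⟩
    have hv0 : v ≠ 0 := by
      rintro rfl
      have h2 : nq (0 : Fin n → ℂ) = 1 := hv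
      simp [nq] at h2
    exact (Complex.lt_def.1 ((hp x hx).dotProduct_mulVec_pos hv0)).1
  obtain ⟨δ, hδ, hδ2⟩ := (hC.prod hSpc).exists_forall_le' hf hpos
  refine ⟨δ, hδ, fun x hx => ?_⟩
  refine Matrix.PosSemidef.of_dotProduct_mulVec_nonneg ?_ fun v => ?_
  · refine (hp x hx).isHermitian.sub ?_
    unfold Matrix.IsHermitian
    rw [Matrix.conjTranspose_smul, Matrix.conjTranspose_one]
    congr 1
    exact Complex.conj_ofReal δ
  · rw [Matrix.sub_mulVec, Matrix.smul_mulVec, Matrix.one_mulVec, dotProduct_sub,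
      dotProduct_smul, star_dot_self, smul_eq_mul, sub_nonneg]
    have him := (Complex.le_def.1 ((hp x hx).posSemidef.dotProduct_mulVec_nonneg v)).2
    rw [Complex.le_def]
    refine ⟨?_, ?_⟩
    · rw [← ofReal_mul, ofReal_re]
      by_cases hv : v = 0
      · subst hv
        simp [nq]
      have hnq := nq_pos hv
      set t : ℝ := (√(nq v))⁻¹ with ht
      have ht2 : t ^ 2 * nq v = 1 := by
        rw [ht, inv_pow, Real.sq_sqrt hnq.le, inv_mul_cancel₀ hnq.ne']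
      have hw : ((t : ℂ) • v) ∈ Sp := by
        show nq ((t : ℂ) • v) = 1
        rw [nq_smul, norm_real, Real.norm_eq_abs, sq_abs, ht2]
      have h3 := hδ2 (x, (t : ℂ) • v) ⟨hx, hw⟩
      have h4 : star ((t : ℂ) • v) ⬝ᵥ (G x *ᵥ ((t : ℂ) • v)) =
          ((t ^ 2 : ℝ) : ℂ) * (star v ⬝ᵥ (G x *ᵥ v)) := by
        rw [Matrix.mulVec_smul, dotProduct_smul, star_smul, smul_dotProduct, smul_eq_mul,
          smul_eq_mul, RCLike.star_def, conj_ofReal]
        push_cast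
        ring
      simp only at h3
      rw [h4, Complex.re_ofReal_mul] at h3
      calc δ * nq v ≤ (t ^ 2 * (star v ⬝ᵥ (G x *ᵥ v)).re) * nq v :=
            mul_le_mul_of_nonneg_right h3 hnq.le
        _ = (star v ⬝ᵥ (G x *ᵥ v)).re := by rw [mul_right_comm, ht2, one_mul]
    · rw [← ofReal_mul, ofReal_im]
      simpa using him

end mat

/-! ### the Levi form of `log ∑ |F_k|²` -/

variable {n : ℕ} {M : Type} [TopologicalSpace M] {A : Atl n M} {P : ProjD A} (Q : RF P)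

/-- the indices of weight `m` -/
def Sx : Finset (Fin (P.N + 1)) := by
  classical exact Finset.univ.filter fun k => Q.x k = Q.m

theorem mem_Sx {k : Fin (P.N + 1)} : k ∈ Sx Q ↔ Q.x k = Q.m := by
  classical
  unfold Sx
  simp

theorem sum_Sx (v : Fin (P.N + 1) → ℂ) : ∑ k ∈ Sx Q, ‖v k‖ ^ 2 = ∑ k, ‖prm Q.x Q.m v k‖ ^ 2 := by
  classical
  unfold Sx prm
  rw [Finset.sum_filter]
  refine Finset.sum_congr rfl fun k _ => ?_
  split_ifs <;> simp

/-- the comparison factor is holomorphic -/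
theorem bb_hol (i j : A.ι) :
    HolAt A i (Q.T.U ∩ Q.T.r ⁻¹' (A.e j).source) (bb Q i j) := by
  refine holAt_of_local fun y hy hyU => ?_
  obtain ⟨k, hk⟩ : ∃ k, P.F j (Q.T.r y) k ≠ 0 := Function.ne_iff.1 (P.ne j _ hyU.2)
  set V0 : Set M := {q | q ∈ (A.e j).source ∧ P.F j q k ≠ 0} with hV0
  have hV0o : IsOpen V0 := by
    rw [isOpen_iff_mem_nhds]
    rintro q ⟨h1, h3⟩
    have hc : ContinuousAt (fun q => P.F j q k) q :=
      (continuous_apply k).continuousAt.comp (continuousAt_F h1)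
    filter_upwards [(A.e j).open_source.mem_nhds h1, hc.eventually_ne h3] with q' a1 a3
    exact ⟨a1, a3⟩
  set V : Set M := Q.T.U ∩ Q.T.r ⁻¹' V0 with hV
  have hVo : IsOpen V := Q.T.isOpen_pre hV0o
  refine ⟨V, hVo, ⟨hyU.1, hyU.2, hk⟩, ?_⟩
  have hpull : ∀ f : M → ℂ, HolAt A j univ f → HolAt A i V (fun y => f (Q.T.r y)) := by
    intro f hf
    have h1 : DifferentiableOn ℂ (fun z => f ((A.e j).symm (A.e j (Q.T.r ((A.e i).symm z)))))
        ((A.e i).target ∩ (A.e i).symm ⁻¹' V) := by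
      refine DifferentiableOn.comp (t := (A.e j).target ∩ (A.e j).symm ⁻¹' univ)
        (g := fun z => f ((A.e j).symm z)) hf ((Q.T.hol i j).mono ?_) ?_
      · rintro z ⟨h1, h2⟩
        exact ⟨h1, h2.1, h2.2.1⟩
      · rintro z ⟨_, h2⟩
        exact ⟨(A.e j).map_source h2.2.1, mem_univ _⟩
    refine DifferentiableOn.congr h1 fun z hz => ?_
    show f (Q.T.r ((A.e i).symm z)) = _
    rw [(A.e j).left_inv hz.2.2.1]
  have hkx : Q.x k = Q.m := by
    by_contra hne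
    have := congrFun (bb_spec Q hyU.1 hy hyU.2).2 k
    simp only [prm, if_neg hne, Pi.smul_apply, smul_eq_mul] at this
    exact (mul_ne_zero (bb_spec Q hyU.1 hy hyU.2).1 hk) this.symm
  have h1 : HolAt A i V (fun y => P.F i y k * (P.F j (Q.T.r y) k)⁻¹) :=
    HolAt.mul ((P.hol i k).mono (subset_univ _))
      ((hpull _ (P.hol j k)).inv fun x _ hx => hx.2.2)
  refine h1.congr fun x hx hxV => ?_
  have h2 := congrFun (bb_spec Q hxV.1 hx hxV.2.1).2 k
  simp only [prm, if_pos hkx, Pi.smul_apply, smul_eq_mul] at h2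
  rw [h2, mul_assoc, mul_inv_cancel₀ hxV.2.2, mul_one]

variable (S : FAtl Q.T)

open FAtl in
/-- `|F_i(y)|²_S = |b|² |F_j(r y)|²` -/
theorem tsq_rho (p : Q.T.F) {i : A.ι} {j : S.B.ι} {x : M} (hx : x ∈ (A.e i).source)
    (hU : x ∈ Q.T.U) (hj : rho Q.T p x ∈ (S.B.e j).source) :
    tsq P (Sx Q) i x = ‖bb Q i (S.refV.r j) x‖ ^ 2 *
      ∑ k, ‖(S.projD P).F j (rho Q.T p x) k‖ ^ 2 := by
  have hl : Q.T.r x ∈ (A.e (S.refV.r j)).source := by
    have := S.refV.sub j _ hj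
    rwa [rho_val p hU] at this
  have h1 := bb_spec Q hU hx hl
  unfold tsq
  rw [sum_Sx, h1.2, Finset.mul_sum]
  refine Finset.sum_congr rfl fun k _ => ?_
  rw [Pi.smul_apply, smul_eq_mul, norm_mul, mul_pow]
  congr 2
  show _ = ‖P.F (S.refV.r j) (rho Q.T p x) k‖
  rw [rho_val p hU]

open FAtl in
theorem lev_HS (p : Q.T.F) {i : A.ι} {j : S.B.ι} {x : M} (hx : x ∈ (A.e i).source)
    (hU : x ∈ Q.T.U) (hj : rho Q.T p x ∈ (S.B.e j).source) (v : Cn n) :
    lev (fun z => Real.log (tsq P (Sx Q) i ((A.e i).symm z))) (A.e i x) v =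
      lev ((fs (S.projD P)).wt j) (S.B.e j (rho Q.T p x))
        (fderiv ℂ (rd A S.B (rho Q.T p) i j) (A.e i x) v) := by
  set z := A.e i x with hzx
  have hp := S.holOn_rho p
  have hz : z ∈ dmU A S.B Q.T.U (rho Q.T p) i j := mem_dmU hx hU hj
  have hval : rd A S.B (rho Q.T p) i j z = S.B.e j (rho Q.T p x) := by
    simp only [Map_835.rd]
    rw [hzx, (A.e i).left_inv hx]
  have hsx : (A.e i).symm z = x := (A.e i).left_inv hx
  have hmU : ∀ y, y ∈ Q.T.U → rho Q.T p y ∈ (S.B.e j).source →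
      Q.T.r y ∈ (A.e (S.refV.r j)).source := by
    intro y hy hy2
    have := S.refV.sub j _ hy2
    rwa [rho_val p hy] at this
  have h1 : bb Q i (S.refV.r j) x ≠ 0 := (bb_spec Q hU hx (hmU x hU hj)).1
  -- holomorphy of the factor
  have ho : IsOpen (Q.T.U ∩ Q.T.r ⁻¹' (A.e (S.refV.r j)).source) :=
    Q.T.isOpen_pre (A.e (S.refV.r j)).open_source
  have hc : AnalyticAt ℂ (fun y => bb Q i (S.refV.r j) ((A.e i).symm y)) z := by
    refine Crest.Agent.R266.SCV.analyticOnNhd_of_differentiableOn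
      ((A.e i).isOpen_inter_preimage_symm ho) (bb_hol Q i (S.refV.r j)) z ?_
    refine ⟨(A.e i).map_source hx, ?_⟩
    rw [mem_preimage, hsx]
    exact ⟨hU, hmU x hU hj⟩
  have hrd : AnalyticAt ℂ (rd A S.B (rho Q.T p) i j) z :=
    Crest.Agent.R266.SCV.analyticOnNhd_of_differentiableOn (hp.isOpen_dm i j) (hp.hol i j) z hz
  have hu : ContDiffAt ℝ 2 ((fs (S.projD P)).wt j) (rd A S.B (rho Q.T p) i j z) := by
    rw [hval]
    exact ((HM_333.wt_smooth (fs (S.projD P)) j).contDiffAt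
      ((S.B.e j).open_target.mem_nhds ((S.B.e j).map_source hj))).of_le (by norm_cast)
  have hcomp : ContDiffAt ℝ 2 (fun y => (fs (S.projD P)).wt j (rd A S.B (rho Q.T p) i j y)) z :=
    hu.comp z (hrd.contDiffAt.restrict_scalars ℝ)
  have he : (fun z => Real.log (tsq P (Sx Q) i ((A.e i).symm z))) =ᶠ[𝓝 z]
      fun y => (fs (S.projD P)).wt j (rd A S.B (rho Q.T p) i j y) +
        Real.log (‖bb Q i (S.refV.r j) ((A.e i).symm y)‖ ^ 2) := by
    filter_upwards [(hp.isOpen_dm i j).mem_nhds hz] with y hy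
    have hys := (A.e i).map_target hy.1
    have hyU : (A.e i).symm y ∈ Q.T.U := hy.2.1
    have hyj : rho Q.T p ((A.e i).symm y) ∈ (S.B.e j).source := hy.2.2
    rw [tsq_rho Q S p hys hyU hyj]
    have h2 := (bb_spec Q hyU hys (hmU _ hyU hyj)).1
    have h3 : 0 < ∑ k, ‖(S.projD P).F j (rho Q.T p ((A.e i).symm y)) k‖ ^ 2 := by
      have := sq_pos (n := 0) (F := fun _ => (S.projD P).F j (rho Q.T p ((A.e i).symm y)))
        (z := 0) ((S.projD P).ne j _ hyj)
      exact this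
    rw [Real.log_mul (by positivity) h3.ne', add_comm]
    congr 1
    simp only [HM.wt, fs, Real.log_inv, neg_neg, Map_835.rd]
    rw [(S.B.e j).left_inv hyj]
  have h1' : (fun y => bb Q i (S.refV.r j) ((A.e i).symm y)) z ≠ 0 := by
    show bb Q i (S.refV.r j) ((A.e i).symm z) ≠ 0
    rw [hsx]; exact h1
  rw [lev_congr' he, lev_bridge, Levi_145.lev_add hcomp
    (Levi_145.c2_log_normSq hc h1' 2), Levi_145.lev_log_normSq hc h1', add_zero,
    Levi_145.lev_comp hrd hu, ← lev_bridge, hval]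

theorem U_sub_US : Q.T.U ⊆ US P (Sx Q) := by
  intro x hU
  obtain ⟨i, hi⟩ := A.cover x
  obtain ⟨j, hj⟩ := A.cover (Q.T.r x)
  have h1 := bb_spec Q hU hi hj
  obtain ⟨k, hk⟩ : ∃ k, P.F j (Q.T.r x) k ≠ 0 := Function.ne_iff.1 (P.ne j _ hj)
  have h2 := congrFun h1.2 k
  have h3 : (bb Q i j x • P.F j (Q.T.r x)) k ≠ 0 := mul_ne_zero h1.1 hk
  rw [← h2] at h3
  simp only [prm] at h3
  split_ifs at h3 with h4
  · exact (mem_US_iff P (Sx Q) hi).2 ⟨k, (mem_Sx Q).2 h4, h3⟩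
  · exact absurd rfl h3

open FAtl in
/-- the Hermitian form of the Hessian is the pull-back form -/
theorem dot_HS (p : Q.T.F) {i : A.ι} {j : S.B.ι} {x : M} (hx : x ∈ (A.e i).source)
    (hU : x ∈ Q.T.U) (hj : rho Q.T p x ∈ (S.B.e j).source) (w : Fin n → ℂ) :
    star w ⬝ᵥ (HS P (Sx Q) i x *ᵥ w) =
      star ((Jp A S.B (rho Q.T p) i j x).map conj *ᵥ w) ⬝ᵥ
        ((fsKah (S.projD P)).g j (rho Q.T p x) *ᵥ ((Jp A S.B (rho Q.T p) i j x).map conj *ᵥ w)) := by
  have e1 : (Jp A S.B (rho Q.T p) i j x).map conj *ᵥ w = fun b =>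
      conj ((fderiv ℂ (rd A S.B (rho Q.T p) i j) (A.e i x)
        (WithLp.toLp 2 (fun a => conj (w a)))) b) := by
    funext b
    rw [mt_apply, map_sum]
    show ∑ a, conj (Jp A S.B (rho Q.T p) i j x b a) * w a = _
    refine Finset.sum_congr rfl fun a _ => ?_
    rw [map_mul, ← Jp_eq]
    simp
  have e2 : (fsKah (S.projD P)).g j (rho Q.T p x) =
      hess ((fs (S.projD P)).wt j) (S.B.e j (rho Q.T p x)) := rfl
  have hus := U_sub_US Q hU
  have e3 : star w ⬝ᵥ (HS P (Sx Q) i x *ᵥ w) = _ := hq_eq_dot _ (A.e i x) w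
  rw [e3, hq_real (logt_contDiffAt P (Sx Q) hx hus), lev_HS Q S p hx hU hj,
    ← hq_real (wt_contDiffAt (fs (S.projD P)) j ((S.B.e j).map_source hj)), e2, hq_eq_dot, e1]
  congr 1
  ext b
  simp

variable [T2Space M] [CompactSpace M] [MeasurableSpace M] [BorelSpace M] [Finite A.ι]

open FAtl in
theorem psd_HS (K : Kah A) (p : Q.T.F) {i : A.ι} {j : S.B.ι} {x : M}
    (hx : x ∈ (A.e i).source) (hU : x ∈ Q.T.U) (hj : rho Q.T p x ∈ (S.B.e j).source) {C : ℝ} (hC : 0 < C)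
    (hF : ((C : ℂ) • (fsKah (S.projD P)).g j (rho Q.T p x) -
      (1 : Matrix (Fin S.d) (Fin S.d) ℂ)).PosSemidef) :
    ((C : ℂ) • KH P (Sx Q) K i x - (Jp A S.B (rho Q.T p) i j x)ᵀ *
      (Jp A S.B (rho Q.T p) i j x).map conj).PosSemidef := by
  set J := Jp A S.B (rho Q.T p) i j x with hJ
  have hus := U_sub_US Q hU
  have hCh : ∀ {H : Matrix (Fin n) (Fin n) ℂ}, H.IsHermitian → ((C : ℂ) • H).IsHermitian := by
    intro H hH
    unfold Matrix.IsHermitian
    rw [Matrix.conjTranspose_smul, hH.eq]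
    congr 1
    exact Complex.conj_ofReal C
  refine Matrix.PosSemidef.of_dotProduct_mulVec_nonneg ?_ fun w => ?_
  · refine (hCh (KH_pos P (Sx Q) K hx hus).isHermitian).sub ?_
    unfold Matrix.IsHermitian
    rw [Matrix.conjTranspose_mul]
    congr 1
    · ext a b
      simp
  · have h1 := dot_HS Q S p hx hU hj w
    rw [← hJ] at h1
    have h2 := hF.dotProduct_mulVec_nonneg (J.map conj *ᵥ w)
    rw [Matrix.sub_mulVec, Matrix.smul_mulVec, Matrix.one_mulVec, dotProduct_sub,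
      dotProduct_smul, smul_eq_mul, ← h1] at h2
    have h3 := (K.pos i x hx).posSemidef.dotProduct_mulVec_nonneg w
    have h4 : star w ⬝ᵥ ((Jᵀ * J.map conj) *ᵥ w) = star (J.map conj *ᵥ w) ⬝ᵥ (J.map conj *ᵥ w) := by
      rw [Matrix.star_mulVec, ← Matrix.dotProduct_mulVec, Matrix.mulVec_mulVec]
      congr 3
      ext a b
      simp
    unfold KH
    rw [Matrix.sub_mulVec, Matrix.smul_mulVec, Matrix.add_mulVec, dotProduct_sub,
      dotProduct_smul, dotProduct_add, smul_eq_mul, h4, mul_add, add_sub_assoc]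
    refine add_nonneg (mul_nonneg ?_ h3) h2
    exact_mod_cast hC.le

/-- sum over the indices of `BN` -/
theorem sum_unit {N : ℕ} (f : FI N × Unit → ℝ) : ∑ l, f l = ∑ l, f (l, ()) := by
  rw [Fintype.sum_prod_type]
  simp

theorem kU_mulVec {r s : ℕ} (X : Matrix (FI r) (FI s) ℂ) (c : ℂ) (v : FI s × Unit → ℂ)
    (l : FI r × Unit) :
    ((X ⊗ₖ cU c : Matrix (FI r × Unit) (FI s × Unit) ℂ) *ᵥ v) l =
      c * (X *ᵥ fun t => v (t, ())) l.1 := by
  simp only [Matrix.mulVec, dotProduct]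
  rw [Fintype.sum_prod_type, Finset.mul_sum]
  refine Finset.sum_congr rfl fun t _ => ?_
  simp only [Finset.univ_unique, Finset.sum_singleton, Matrix.kroneckerMap_apply, cU,
    Matrix.of_apply]
  show X l.1 t * c * v (t, ()) = _
  ring

open FAtl in
/-- **pointwise bounds** -/
theorem pw_up {L : LB A} (E : Eps Q.T L) (K : Kah A) (p : Q.T.F) {i : A.ι} {j : S.B.ι} {x : M}
    (hx : x ∈ (A.e i).source) (hU : x ∈ Q.T.U) (hj : rho Q.T p x ∈ (S.B.e j).source)
    {δ C W : ℝ} (hδ : 0 < δ) (hC : 0 < C)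
    (hK : (K.g i x - (δ : ℂ) • (1 : Matrix (Fin n) (Fin n) ℂ)).PosSemidef)
    (hF : ((C : ℂ) • (fsKah (S.projD P)).g j (rho Q.T p x) -
      (1 : Matrix (Fin S.d) (Fin S.d) ℂ)).PosSemidef)
    (hW : ‖E.e i (S.refV.r j) x‖ ^ 2 ≤ W) (k : ℕ) (u : Sec (BN (S.res L ^ k))) :
    ∑ l, ‖S.up E p k u i x l‖ ^ 2 ≤ W ^ k * (cPW n S.d δ C * (KH P (Sx Q) K i x).det.re *
        ∑ l, ‖u.1 j (rho Q.T p x) l‖ ^ 2) ∧
    ∀ a : Fin n → ℂ, ∑ l, ‖(∑ b, a b • ((BN (L ^ k)).e b *ᵥ S.up E p k u i x)) l‖ ^ 2 ≤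
      W ^ k * (cPW n S.d δ C * (∑ r, ∑ s, (KH P (Sx Q) K i x).adjugate s r * conj (a r) * a s).re *
        ∑ l, ‖u.1 j (rho Q.T p x) l‖ ^ 2) := by
  set J := Jp A S.B (rho Q.T p) i j x with hJ
  set v : FI S.d → ℂ := fun t => u.1 j (rho Q.T p x) (t, ()) with hv
  set c : ℂ := E.e i (S.refV.r j) x ^ k with hc
  have hnv : ∑ l, ‖u.1 j (rho Q.T p x) l‖ ^ 2 = nq v :=
    sum_unit (fun l => ‖u.1 j (rho Q.T p x) l‖ ^ 2)
  have hcW : ‖c‖ ^ 2 ≤ W ^ k := by
    rw [hc, norm_pow, ← pow_mul, mul_comm k 2, pow_mul]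
    exact pow_le_pow_left₀ (by positivity) hW k
  -- the formula for `r^* u`
  have hup : ∀ l : FI n × Unit, S.up E p k u i x l =
      c * (GamR (Jpb A S.B (rho Q.T p) i j x) *ᵥ v) l.1 := by
    intro l
    rw [S.up_eq E p k u hx hU hj]
    exact kU_mulVec (GamR (Jpb A S.B (rho Q.T p) i j x)) c (u.1 j (rho Q.T p x)) l
  have hJb : Jpb A S.B (rho Q.T p) i j x = Jᴴ := rfl
  rw [hJb] at hup
  have hG : (KH P (Sx Q) K i x - (δ : ℂ) • (1 : Matrix (Fin n) (Fin n) ℂ)).PosSemidef := by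
    unfold KH
    rw [add_sub_right_comm]
    exact hK.add (HS_psd P (Sx Q) hx (U_sub_US Q hU))
  have hΓ : ∀ X : Matrix (Fin n) (Fin n) ℂ, (GamR Jᴴ)ᴴ * Gam X * GamR Jᴴ = Gam (J * X * Jᴴ) := by
    intro X
    have h1 : (GamR Jᴴ)ᴴ = GamR J := by
      have h2 : (GamR Jᴴ)ᴴ = ((GamR Jᴴ)ᵀ).map (starRingEnd ℂ) := rfl
      rw [h2, GamR_transpose, GamR_map]
      congr 1
      ext a b
      simp
    rw [h1, ← GamR_eq_Gam, ← GamR_eq_Gam, GamR_mul, GamR_mul]
  obtain ⟨p1, p2⟩ := pw_of hδ hC hG (psd_HS Q S K p hx hU hj hC hF) hΓ v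
  have hW0 : 0 ≤ W ^ k := le_trans (by positivity) hcW
  rw [hnv]
  refine ⟨?_, fun a => ?_⟩
  · have h1 : ∑ l, ‖S.up E p k u i x l‖ ^ 2 = ‖c‖ ^ 2 * nq (GamR Jᴴ *ᵥ v) := by
      have h2 : ∑ l, ‖S.up E p k u i x l‖ ^ 2 = ∑ l : FI n, ‖S.up E p k u i x (l, ())‖ ^ 2 :=
        sum_unit (fun l => ‖S.up E p k u i x l‖ ^ 2)
      rw [h2]
      unfold nq
      rw [Finset.mul_sum]
      refine Finset.sum_congr rfl fun l _ => ?_
      rw [hup, norm_mul, mul_pow]
    rw [h1]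
    exact mul_le_mul hcW p1 (nq_nonneg _) hW0
  · have hX : ∀ l : FI n × Unit, (∑ b, a b • ((BN (L ^ k)).e b *ᵥ S.up E p k u i x)) l =
        c * (eW a *ᵥ (GamR Jᴴ *ᵥ v)) l.1 := by
      intro l
      have h3 : ∀ b, ((BN (L ^ k)).e b *ᵥ S.up E p k u i x) l =
          c * ((eW (ep b) : Matrix (FI n) (FI n) ℂ) *ᵥ (GamR Jᴴ *ᵥ v)) l.1 := by
        intro b
        set w : FI n × Unit → ℂ := fun l => c * (GamR Jᴴ *ᵥ v) l.1 with hw
        have hw' : (S.up E p k u i x : FI n × Unit → ℂ) = w := funext hup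
        have h4 : ((BN (L ^ k)).e b *ᵥ S.up E p k u i x) l =
            ((eW (ep b) ⊗ₖ cU 1 : Matrix (FI n × Unit) (FI n × Unit) ℂ) *ᵥ w) l := by
          rw [cU_one, ← hw']
          rfl
        have h5 : (fun t => w (t, ())) = c • (GamR Jᴴ *ᵥ v) := rfl
        rw [h4, kU_mulVec, one_mul, h5, Matrix.mulVec_smul]
        rfl
      rw [Finset.sum_apply]
      simp only [Pi.smul_apply, smul_eq_mul, h3]
      rw [eW_eq_sum, Matrix.sum_mulVec, Finset.sum_apply, Finset.mul_sum]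
      refine Finset.sum_congr rfl fun b _ => ?_
      rw [Matrix.smul_mulVec, Pi.smul_apply, smul_eq_mul]
      ring
    have h1 : ∑ l, ‖(∑ b, a b • ((BN (L ^ k)).e b *ᵥ S.up E p k u i x)) l‖ ^ 2 =
        ‖c‖ ^ 2 * nq (eW a *ᵥ (GamR Jᴴ *ᵥ v)) := by
      have h2 : ∑ l, ‖(∑ b, a b • ((BN (L ^ k)).e b *ᵥ S.up E p k u i x)) l‖ ^ 2 =
          ∑ l : FI n, ‖(∑ b, a b • ((BN (L ^ k)).e b *ᵥ S.up E p k u i x)) (l, ())‖ ^ 2 :=
        sum_unit (fun l => ‖(∑ b, a b • ((BN (L ^ k)).e b *ᵥ S.up E p k u i x)) l‖ ^ 2)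
      rw [h2]
      unfold nq
      rw [Finset.mul_sum]
      refine Finset.sum_congr rfl fun l _ => ?_
      rw [hX, norm_mul, mul_pow]
    rw [h1]
    exact mul_le_mul hcW (p2 a) (nq_nonneg _) hW0

end

end Crest.Agent.R273.T8_774
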