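import Crest.Agent.R273.T8B_774

/-!
# R273 (S0416), torus step, leaf T8 (helper774), part C : from the fixed locus to `M`

* `rst` : restriction of forms to the fixed locus as a `Rst`;
* `exists_pw` : uniform pointwise bounds;
* `lift_closed` : for `u` closed of degree `q` on the fixed locus and `w` closed with
  `⟨u, w⟩ = 1`, there is a closed `z` of degree `q` on `M` with `⟨z|_F, w⟩ = 1`.
-/

set_option autoImplicit false
set_option linter.unusedSectionVars false

open Set Filter Topology Complex MeasureTheory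
open scoped ContDiff Matrix ComplexConjugate ComplexOrder Kronecker ENNReal

namespace Crest.Agent.R273.T8_774

open Crest.Agent.R275 Crest.Agent.R275.Geo Crest.Agent.R275.Core144
open Crest.Agent.R273.Defs_333 Crest.Agent.R273.Hess_333 Crest.Agent.R273.HessB_333
open Crest.Agent.R273.HM_333 Crest.Agent.R273.Kah_333 Crest.Agent.R273.FS_333
open Crest.Agent.R273.Vol_333 Crest.Agent.R273.Vm_333
open Crest.Agent.R273.Map_835 Crest.Agent.R273.PB_835
open Crest.Agent.R273.FPB_155 Crest.Agent.R273.PullF_155 Crest.Agent.R273.GamR_155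
open Crest.Agent.R273.Ret_155 Crest.Agent.R273.TorFr_422 Crest.Agent.R273.PFlow_522
open Crest.Agent.R273.LamN127 (BN DN)
open Crest.Agent.R273.Fock_243
open Crest.Agent.R273.PW_799
open Crest.Agent.R273.GreenM_5 Crest.Agent.R273.GreenG_5
open Crest.Agent.R273.LogA_5 Crest.Agent.R273.LogCut_5
open Crest.Agent.R273.L2K_774

noncomputable section

variable {n : ℕ} {M : Type} [TopologicalSpace M] {A : Atl n M} {P : ProjD A}

theorem db_const' (i : A.ι) (a : Fin n) (c : ℂ) (x : M) : A.db i a (fun _ => c) x = 0 :=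
  dbj_const c _ a

theorem pqL_iff {B : FBun A} {q : ℕ} {u : Sec B} : Geo.pqL B q u = u ↔ IsDeg B q u.1 := by
  constructor
  · intro h i x k hk
    by_contra hne
    apply hk
    have h1 : (Geo.pqL B q u).1 i x k = 0 := by
      rw [pqL_coe, pq_apply, if_neg hne]
    rw [← h1, h]
  · intro h
    apply Subtype.ext
    funext i x k
    rw [pqL_coe, pq_apply]
    split_ifs with h1
    · rfl
    · by_contra hne
      exact h1 (h i x k fun h0 => hne h0.symm)

/-- restriction of forms to the fixed locus -/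
def rst {R : HRet A} (S : FAtl R) (L : LB A) (k : ℕ) :
    Rst (BN (L ^ k)) (BN (S.res L ^ k)) (Subtype.val : R.F → M) where
  cont := continuous_subtype_val
  m := (S.rsT L k).T
  m_cont i j a b := by
    have h1 : ContinuousOn (fun z => (S.rsT L k).T i j ((S.B.e i).symm z) a b)
        (dmU S.B A univ (Subtype.val : R.F → M) i j) := ((S.rsT L k).sm i j a b).continuousOn
    have h2 : ContinuousOn (fun y => (S.rsT L k).T i j ((S.B.e i).symm (S.B.e i y)) a b)
        ((S.B.e i).source ∩ Subtype.val ⁻¹' (A.e j).source) := by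
      refine h1.comp ((S.B.e i).continuousOn.mono inter_subset_left) ?_
      rintro y ⟨hy, hy2⟩
      exact mem_dmU hy (mem_univ _) hy2
    refine h2.congr fun y hy => ?_
    simp only [(S.B.e i).left_inv hy.1]
  res := S.rs L k
  val u i j y hy hj := S.rs_eq k u hy hj
  nab u := S.rs_nab k u

variable (Q : RF P) (S : FAtl Q.T)
variable [T2Space M] [CompactSpace M] [MeasurableSpace M] [BorelSpace M] [Finite A.ι]

theorem bdd_on {X : Type*} [TopologicalSpace X] {C : Set X} (hC : IsCompact C) {f : X → ℝ}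
    (hf : ContinuousOn f C) : ∃ c, 0 ≤ c ∧ ∀ x ∈ C, f x ≤ c := by
  obtain ⟨c, hc⟩ := hC.bddAbove_image hf
  exact ⟨max c 0, le_max_right _ _, fun x hx => (hc ⟨x, hx, rfl⟩).trans (le_max_left _ _)⟩

theorem pos_on {X : Type*} [TopologicalSpace X] {C : Set X} (hC : IsCompact C) {f : X → ℝ}
    (hf : ContinuousOn f C) (h : ∀ x ∈ C, 0 < f x) : ∃ c, 0 < c ∧ ∀ x ∈ C, c ≤ f x :=
  hC.exists_forall_le' hf h

theorem cont_of_smAt' {m : ℕ} {N : Type} [TopologicalSpace N] {B : Atl m N} {W : Type*}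
    [NormedAddCommGroup W] [NormedSpace ℝ W] {i : B.ι} {f : N → W} (h : B.SmAt i f) :
    ContinuousOn f (B.e i).source := by
  have h1 : ContinuousOn (fun x => f ((B.e i).symm (B.e i x))) (B.e i).source :=
    ContDiffOn.continuousOn h |>.comp (B.e i).continuousOn (B.e i).mapsTo
  refine h1.congr fun x hx => ?_
  simp only [(B.e i).left_inv hx]

theorem cont_w {m : ℕ} {N : Type} [TopologicalSpace N] {B : Atl m N} {L : LB B} (h : HM L)
    (i : B.ι) : ContinuousOn (h.w i) (B.e i).source := cont_of_smAt' (h.sm i)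

theorem cont_g {m : ℕ} {N : Type} [TopologicalSpace N] {B : Atl m N} (K : Kah B) (i : B.ι) :
    ContinuousOn (K.g i) (B.e i).source :=
  continuousOn_pi.2 fun a => continuousOn_pi.2 fun b => cont_of_smAt' (K.sm i a b)

theorem re_split {K : Kah A} {i : A.ι} {x : M} (hx : x ∈ (A.e i).source) {a f : ℂ}
    (h : f = a / (K.g i x).det) : a.re = f.re * (K.g i x).det.re := by
  have h1 := K.pos i x hx
  have h2 : (K.g i x).det.im = 0 := ((Complex.lt_def.1 h1.det_pos).2).symm
  have h3 : a = f * (K.g i x).det := by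
    rw [h, div_mul_cancel₀ _ h1.det_pos.ne']
  conv_lhs => rw [h3]
  rw [Complex.mul_re, h2, mul_zero, sub_zero]

open FAtl in
/-- **uniform pointwise bounds** -/
theorem exists_pw [Finite S.B.ι] (K : Kah A) (Pt : Part A) (PtF : Part S.B) {L : LB A}
    (E : Eps Q.T L) (h : HM L)
    (hE : ∀ i j x, x ∈ (A.e i).source → x ∈ Q.T.U → Q.T.r x ∈ (A.e j).source →
      ‖E.e i j x‖ ^ 2 * h.w i x ≤ h.w j (Q.T.r x))
    (p : Q.T.F) (k : ℕ) (u : Sec (BN (S.res L ^ k))) :
    ∃ c : ℝ, 0 ≤ c ∧ ∀ i, ∀ x ∈ tsupport (Pt.χ i), x ∈ Q.T.U →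
      (∑ l, ‖S.up E p k u i x l‖ ^ 2 ≤
        c * (fnD K (fun i x => (KH P (Sx Q) K i x).det) x).re) ∧
      ∀ χ : M → ℝ, A.Sm χ →
        ∑ l, ‖(∑ b, A.db i b (fun y => (χ y : ℂ)) x •
          ((BN (L ^ k)).e b *ᵥ S.up E p k u i x)) l‖ ^ 2 ≤
        c * (fnD K (grd (KH P (Sx Q) K) (fun y => (χ y : ℂ)) (fun y => (χ y : ℂ))) x).re := by
  have := Fintype.ofFinite A.ι
  have := Fintype.ofFinite S.B.ι
  -- constants on `M`
  choose δ hδ hδ2 using fun i : A.ι => exists_lower (Pt.χ_cpt i) (G := K.g i)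
    ((cont_g K i).mono (Pt.χ_sub i)) fun x hx => K.pos i x (Pt.χ_sub i hx)
  choose D hD0 hD using fun i : A.ι => bdd_on (Pt.χ_cpt i) (f := fun x => (K.g i x).det.re) (by
    have h1 : ContinuousOn (fun x => (K.g i x).det) (A.e i).source :=
      (Continuous.matrix_det continuous_id).comp_continuousOn (cont_g K i)
    exact Complex.continuous_re.comp_continuousOn (h1.mono (Pt.χ_sub i)))
  choose c1 hc1 hc1' using fun i : A.ι => pos_on (Pt.χ_cpt i) ((cont_w h i).mono (Pt.χ_sub i))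
    fun x hx => h.pos i x (Pt.χ_sub i hx)
  -- constants on `F`
  choose δ' hδ' hδ2' using fun j : S.B.ι => exists_lower (PtF.χ_cpt j)
    (G := (fsKah (S.projD P)).g j)
    ((cont_g (fsKah (S.projD P)) j).mono (PtF.χ_sub j)) fun x hx =>
      (fsKah (S.projD P)).pos j x (PtF.χ_sub j hx)
  choose U hU0 hU using fun j : S.B.ι => bdd_on (PtF.χ_cpt j)
    (f := fun y => ∑ l, ‖u.1 j y l‖ ^ 2)
    (continuousOn_finsetSum _ fun l _ =>
      (((cont_of_smAt' (u.2.1 j l)).mono (PtF.χ_sub j)).norm).pow 2)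
  choose H hH0 hH using fun j : S.B.ι => bdd_on (PtF.χ_cpt j)
    (f := fun y : Q.T.F => h.w (S.refV.r j) (y : M)) (by
      refine (cont_w h (S.refV.r j)).comp continuous_subtype_val.continuousOn ?_
      intro y hy
      exact S.refV.sub j y (PtF.χ_sub j hy))
  set cc : A.ι → S.B.ι → ℝ := fun i j =>
    (H j / c1 i) ^ k * (cPW n S.d (δ i) (δ' j)⁻¹ * D i * U j) with hcc
  have hcc0 : ∀ i j, 0 ≤ cc i j := fun i j => by
    have h1 := cPW_pos n S.d (C := (δ' j)⁻¹) (hδ i)
    have h2 := hD0 i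
    have h3 := hU0 j
    have h4 : 0 ≤ H j / c1 i := div_nonneg (hH0 j) (hc1 i).le
    positivity
  refine ⟨∑ i, ∑ j, cc i j, Finset.sum_nonneg fun i _ => Finset.sum_nonneg fun j _ => hcc0 i j, ?_⟩
  intro i x hx hxU
  have hxs := Pt.χ_sub i hx
  have hus := U_sub_US Q hxU
  obtain ⟨j, hj⟩ : ∃ j, rho Q.T p x ∈ tsupport (PtF.χ j) := by
    by_contra hne
    push Not at hne
    have h0 : ∀ j, PtF.ψ j (rho Q.T p x) = 0 := fun j =>
      image_eq_zero_of_notMem_tsupport fun h => hne j (Pai323.tsupport_psi PtF j h)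
    have h1 := PtF.sum_one (rho Q.T p x)
    simp only [h0, finsum_zero] at h1
    exact zero_ne_one h1
  have hjs := PtF.χ_sub j hj
  have hlr : Q.T.r x ∈ (A.e (S.refV.r j)).source := by
    have := S.refV.sub j _ hjs
    rwa [rho_val p hxU] at this
  have hC : 0 < (δ' j)⁻¹ := inv_pos.2 (hδ' j)
  have hF : ((((δ' j)⁻¹ : ℝ) : ℂ) • (fsKah (S.projD P)).g j (rho Q.T p x) -
      (1 : Matrix (Fin S.d) (Fin S.d) ℂ)).PosSemidef := by
    have h1 : (((δ' j)⁻¹ : ℝ) : ℂ) • (fsKah (S.projD P)).g j (rho Q.T p x) -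
        (1 : Matrix (Fin S.d) (Fin S.d) ℂ) = (((δ' j)⁻¹ : ℝ) : ℂ) •
        ((fsKah (S.projD P)).g j (rho Q.T p x) -
          ((δ' j : ℝ) : ℂ) • (1 : Matrix (Fin S.d) (Fin S.d) ℂ)) := by
      rw [smul_sub, smul_smul, ← ofReal_mul, inv_mul_cancel₀ (hδ' j).ne', ofReal_one, one_smul]
    rw [h1]
    refine (hδ2' j _ hj).smul ?_
    exact_mod_cast hC.le
  have hW : ‖E.e i (S.refV.r j) x‖ ^ 2 ≤ H j / c1 i := by
    have h1 := hE i (S.refV.r j) x hxs hxU hlr
    have h2 := hH j _ hj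
    simp only [rho_val p hxU] at h2
    have h3 := hc1' i x hx
    rw [le_div_iff₀ (hc1 i)]
    calc ‖E.e i (S.refV.r j) x‖ ^ 2 * c1 i ≤ ‖E.e i (S.refV.r j) x‖ ^ 2 * h.w i x :=
          mul_le_mul_of_nonneg_left h3 (by positivity)
      _ ≤ h.w (S.refV.r j) (Q.T.r x) := h1
      _ ≤ H j := h2
  obtain ⟨p1, p2⟩ := pw_up Q S E K p hxs hxU hjs (hδ i) hC (hδ2 i x hx) hF hW k u
  have hle : cc i j ≤ ∑ i, ∑ j, cc i j := by
    have e1 : cc i j ≤ ∑ j, cc i j :=
      Finset.single_le_sum (f := fun j => cc i j) (fun j _ => hcc0 i j) (Finset.mem_univ j)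
    have e2 : ∑ j, cc i j ≤ ∑ i, ∑ j, cc i j :=
      Finset.single_le_sum (f := fun i => ∑ j, cc i j)
        (fun i _ => Finset.sum_nonneg fun j _ => hcc0 i j) (Finset.mem_univ i)
    exact e1.trans e2
  have hWk : 0 ≤ (H j / c1 i) ^ k := pow_nonneg (div_nonneg (hH0 j) (hc1 i).le) k
  have hcP : 0 ≤ cPW n S.d (δ i) (δ' j)⁻¹ := (cPW_pos n S.d (hδ i)).le
  -- the general step
  have key : ∀ {s a f : ℝ}, 0 ≤ f → a = f * (K.g i x).det.re →
      s ≤ (H j / c1 i) ^ k * (cPW n S.d (δ i) (δ' j)⁻¹ * a *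
        ∑ l, ‖u.1 j (rho Q.T p x) l‖ ^ 2) → s ≤ (∑ i, ∑ j, cc i j) * f := by
    intro s a f hf ha hs
    have hdet : 0 ≤ (K.g i x).det.re := ((Complex.lt_def.1 (K.pos i x hxs).det_pos).1).le
    have h1 : a ≤ f * D i := by
      rw [ha]
      exact mul_le_mul_of_nonneg_left (hD i x hx) hf
    have ha0 : 0 ≤ a := by rw [ha]; exact mul_nonneg hf hdet
    calc s ≤ _ := hs
      _ ≤ (H j / c1 i) ^ k * (cPW n S.d (δ i) (δ' j)⁻¹ * (f * D i) * U j) := by
          refine mul_le_mul_of_nonneg_left ?_ hWk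
          refine mul_le_mul (mul_le_mul_of_nonneg_left h1 hcP) (hU j _ hj)
            (Finset.sum_nonneg fun _ _ => by positivity) ?_
          exact mul_nonneg hcP (mul_nonneg hf (hD0 i))
      _ = cc i j * f := by rw [hcc]; ring
      _ ≤ _ := mul_le_mul_of_nonneg_right hle hf
  refine ⟨?_, fun χ hχ => ?_⟩
  · have e1 := fnD_det P (Sx Q) K hxs hus
    refine key ?_ (re_split hxs e1) p1
    rw [e1]
    exact (Complex.le_def.1 (div_nonneg (KH_pos P (Sx Q) K hxs hus).det_pos.le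
      (K.pos i x hxs).det_pos.le)).1
  · have hχc : ∀ i, A.SmAt i (fun y => (χ y : ℂ)) := fun i =>
      Crest.Agent.R275.C1d194.smAt_ofReal (hχ i)
    have e1 := fnD_grd P (Sx Q) K hχc hχc hxs hus
    have e2 := p2 (fun b => A.db i b (fun y => (χ y : ℂ)) x)
    have e3 : (∑ r, ∑ s, (KH P (Sx Q) K i x).adjugate s r *
        conj (A.db i r (fun y => (χ y : ℂ)) x) * A.db i s (fun y => (χ y : ℂ)) x) =
        grd (KH P (Sx Q) K) (fun y => (χ y : ℂ)) (fun y => (χ y : ℂ)) i x := by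
      unfold grd
      refine Finset.sum_congr rfl fun r _ => Finset.sum_congr rfl fun s _ => ?_
      rw [db_ofReal χ i r x, Complex.conj_conj]
    rw [e3] at e2
    refine key ?_ (re_split hxs e1) e2
    rw [e1]
    exact (Complex.le_def.1 (div_nonneg (grd_nonneg χ (KH_pos P (Sx Q) K hxs hus))
      (K.pos i x hxs).det_pos.le)).1

/-! ### the limit -/

/-- the dominating function -/
def domF (K : Kah A) (c : ℝ) (x : M) : ℝ≥0∞ :=
  (US P (Sx Q)).indicator (fun x => ENNReal.ofReal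
    (c * (fnD K (fun i x => (KH P (Sx Q) K i x).det) x).re)) x

theorem measurable_domF (K : Kah A) (c : ℝ) : Measurable (domF Q K c) := by
  refine measurable_of_tendsto_metrizable (f := fun m x => (US P (Sx Q)).indicator
    (fun x => ENNReal.ofReal (c * (fnD K (fun i x => (Kw P (Sx Q) K (dm_pos m) i x).det) x).re)) x)
    (fun m => ?_) ?_
  · refine Measurable.indicator ?_ (isOpen_US P (Sx Q)).measurableSet
    have h1 := Kw_cf P (Sx Q) K (dm_pos m)
    exact (measurable_const.mul (sm_continuous (sm_re (sm_fnD K (CF.tn h1).det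
      fun i => smAt_det (h1.sm i)))).measurable).ennreal_ofReal
  · rw [tendsto_pi_nhds]
    intro x
    by_cases hx : x ∈ US P (Sx Q)
    · unfold domF
      simp only [indicator_of_mem hx]
      have h1 := tendsto_Kw P (Sx Q) K (mem_ci x) hx
      have h2 : Tendsto (fun m => (Kw P (Sx Q) K (dm_pos m) (ci A x) x).det) atTop
          (𝓝 (KH P (Sx Q) K (ci A x) x).det) :=
        ((Continuous.matrix_det continuous_id).tendsto _).comp h1
      have h3 : Tendsto (fun m => (fnD K (fun i x => (Kw P (Sx Q) K (dm_pos m) i x).det) x).re)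
          atTop (𝓝 (fnD K (fun i x => (KH P (Sx Q) K i x).det) x).re) :=
        (Complex.continuous_re.tendsto _).comp (h2.div_const _)
      exact ENNReal.tendsto_ofReal (h3.const_mul c)
    · unfold domF
      simp only [indicator_of_notMem hx]
      exact tendsto_const_nhds

theorem domF_fin (K : Kah A) (Pt : Part A) {c : ℝ} (hc : 0 ≤ c) (V : Set M) :
    ∫⁻ x in V, domF Q K c x ∂(vm (volK K)) ≠ ⊤ := by
  refine ne_of_lt (lt_of_le_of_lt (setLIntegral_le_lintegral V _) ?_)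
  unfold domF
  rw [lintegral_indicator (isOpen_US P (Sx Q)).measurableSet]
  have h1 : ∀ x, ENNReal.ofReal (c * (fnD K (fun i x => (KH P (Sx Q) K i x).det) x).re) =
      ENNReal.ofReal c * ENNReal.ofReal (fnD K (fun i x => (KH P (Sx Q) K i x).det) x).re :=
    fun x => ENNReal.ofReal_mul hc
  simp only [h1]
  rw [lintegral_const_mul' _ _ ENNReal.ofReal_ne_top]
  exact ENNReal.mul_lt_top ENNReal.ofReal_lt_top (finite_vol_lt P (Sx Q) K Pt)

/-- uniform neighbourhood of a compact set -/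
theorem exists_nhd {χ : ℕ → M → ℝ} {V C : Set M} (hC : IsCompact C) (hCV : C ⊆ V)
    (hon : ∀ x ∈ V, ∃ W ∈ 𝓝 x, ∃ m₀, ∀ m ≥ m₀, ∀ y ∈ W, χ m y = 1) :
    ∃ W : Set M, IsOpen W ∧ C ⊆ W ∧ ∃ m₀, ∀ m ≥ m₀, ∀ y ∈ W, χ m y = 1 := by
  have h1 : ∀ x ∈ C, ∃ V : Set M, IsOpen V ∧ x ∈ V ∧ ∃ m₀, ∀ m ≥ m₀, ∀ y ∈ V, χ m y = 1 := by
    intro x hx
    obtain ⟨V, hV, m₀, h⟩ := hon x (hCV hx)
    obtain ⟨W, hWV, hW, hxW⟩ := mem_nhds_iff.1 hV
    exact ⟨W, hW, hxW, m₀, fun m hm y hy => h m hm y (hWV hy)⟩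
  choose! V hVo hxV m₀ hm₀ using h1
  obtain ⟨t, htC, ht⟩ := hC.elim_nhds_subcover V fun x hx => (hVo x hx).mem_nhds (hxV x hx)
  refine ⟨⋃ x ∈ t, V x, isOpen_biUnion fun x hx => hVo x (htC x hx), ht, t.sup m₀,
    fun m hm y hy => ?_⟩
  obtain ⟨x, hx, hyV⟩ := mem_iUnion₂.1 hy
  exact hm₀ x (htC x hx) m ((Finset.le_sup hx).trans hm) y hyV

open FAtl in
/-- **T8** : from the fixed locus to `M` -/
theorem lift_closed [Finite S.B.ι] [CompactSpace Q.T.F] (hUS : US P (Sx Q) ⊆ Q.T.U) (K : Kah A)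
    (Pt : Part A) (PtF : Part S.B) {L : LB A}
    (E : Eps Q.T L) (h : HM L)
    (hE : ∀ i j x, x ∈ (A.e i).source → x ∈ Q.T.U → Q.T.r x ∈ (A.e j).source →
      ‖E.e i j x‖ ^ 2 * h.w i x ≤ h.w j (Q.T.r x))
    (p : Q.T.F) (k : ℕ) {q : ℕ} {u : Sec (BN (S.res L ^ k))} (hu : nabL _ u = 0)
    (hq : Geo.pqL _ q u = u) {w : Sec (BN (KB S.B * (S.res L ^ k)⁻¹))} (hw : nabL _ w = 0)
    (h1 : Pai323.pr (DN (S.res L ^ k)) PtF u w = 1) :
    ∃ z : Sec (BN (L ^ k)), nabL _ z = 0 ∧ Geo.pqL _ q z = z ∧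
      Pai323.pr (DN (S.res L ^ k)) PtF (S.rs L k z) w = 1 := by
  obtain ⟨c, hc0, hc⟩ := exists_pw Q S K Pt PtF E h hE p k u
  obtain ⟨χ, hsm, h0, hle, hoff, hon, hlim⟩ := exists_cutoff P (Sx Q) K Pt
  -- supports
  have hχU : ∀ m, tsupport (fun x => (χ m x : ℂ)) ⊆ Q.T.U := by
    intro m
    rw [Crest.Agent.R275.C1d194.tsupport_ofReal]
    intro x hx
    by_contra hxU
    have hx2 : x ∈ (US P (Sx Q))ᶜ := fun h => hxU (hUS h)
    have h2 := eventually_nhdsSet_iff_forall.1 (hoff m) x hx2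
    exact (notMem_tsupport_iff_eventuallyEq.2 h2) hx
  have hχs : ∀ m, A.Sm (fun x => (χ m x : ℂ)) := fun m i =>
    Crest.Agent.R275.C1d194.smAt_ofReal (hsm m i)
  set v : ℕ → Sec (BN (L ^ k)) := fun m => S.cutUp E p k u _ (hχs m) (hχU m) with hv
  -- the neighbourhood of the fixed locus
  have hFc : IsCompact Q.T.F := isCompact_iff_compactSpace.2 inferInstance
  obtain ⟨W, hWo, hFW, m₀, hW⟩ := exists_nhd hFc
    (V := US P (Sx Q)) (fun x hx => U_sub_US Q hx.1) hon
  -- `∇ v`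
  have hup0 : ∀ i x, S.up E p k (0 : Sec (BN (S.res L ^ k))) i x = 0 := by
    intro i x
    have h2 := (S.upT E p k).pull_smul 0 u.1
    rw [zero_smul, zero_smul] at h2
    exact congrFun (congrFun h2 i) x
  have hnab : ∀ m i x, x ∈ (A.e i).source → (nabL _ (v m)).1 i x =
      ∑ a, A.db i a (fun y => (χ m y : ℂ)) x • ((BN (L ^ k)).e a *ᵥ S.up E p k u i x) := by
    intro m i x hx
    rw [hv]
    simp only
    rw [S.nab_cutUp E p k u (hχs m) (hχU m) hx, hu, hup0, smul_zero, zero_add]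
  -- `∇ v → 0`
  have hn : Tendsto (fun m => nS Pt (BN (L ^ k)) 0 (nabL _ (v m))) atTop (𝓝 0) := by
    refine Supn_106.tendsto_of_bound Pt (volK K) (f := fun m x =>
      (US P (Sx Q)).indicator (fun x => ENNReal.ofReal (c * (fnD K (grd (KH P (Sx Q) K)
        (fun y => (χ m y : ℂ)) (fun y => (χ m y : ℂ))) x).re)) x) ?_ ?_
    · intro m i x hx
      have hxs := Pt.χ_sub i hx
      by_cases hxU : x ∈ US P (Sx Q)
      · rw [indicator_of_mem hxU, hnab m i x hxs]
        exact ENNReal.ofReal_le_ofReal ((hc i x hx (hUS hxU)).2 (χ m) (hsm m))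
      · rw [indicator_of_notMem hxU]
        have h2 := eventually_nhdsSet_iff_forall.1 (hoff m) x hxU
        have h3 : ∀ a, A.db i a (fun y => (χ m y : ℂ)) x = 0 := by
          intro a
          have h4 : (fun y => (χ m y : ℂ)) =ᶠ[𝓝 x] fun _ => 0 := by
            filter_upwards [h2] with y hy
            rw [hy, ofReal_zero]
          rw [Atl.db_congr hxs h4 a]
          exact db_const' _ _ _ _
        rw [hnab m i x hxs]
        simp only [h3, zero_smul, Finset.sum_const_zero]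
        simp
    · have h2 : ∀ m, ∫⁻ x, (US P (Sx Q)).indicator (fun x => ENNReal.ofReal
          (c * (fnD K (grd (KH P (Sx Q) K)
            (fun y => (χ m y : ℂ)) (fun y => (χ m y : ℂ))) x).re)) x ∂(vm (volK K)) =
          ENNReal.ofReal c * ∫⁻ x in US P (Sx Q), ENNReal.ofReal (fnD K (grd (KH P (Sx Q) K)
            (fun y => (χ m y : ℂ)) (fun y => (χ m y : ℂ))) x).re ∂(vm (volK K)) := by
        intro m
        rw [lintegral_indicator (isOpen_US P (Sx Q)).measurableSet,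
          ← lintegral_const_mul' _ _ ENNReal.ofReal_ne_top]
        refine lintegral_congr fun x => ?_
        exact ENNReal.ofReal_mul hc0
      simp only [h2]
      have h3 := ENNReal.Tendsto.const_mul hlim (a := ENNReal.ofReal c)
        (Or.inr ENNReal.ofReal_ne_top)
      rwa [mul_zero] at h3
  -- `v` is a Cauchy sequence
  have hca := Supn_106.cauchy_of_cut Pt (volK K) Q.T.isOpen_U (u := S.up E p k u)
    (measurable_domF Q K c) (domF_fin Q K Pt hc0 Q.T.U) (fun i x hx hxU => by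
      unfold domF
      rw [indicator_of_mem (U_sub_US Q hxU)]
      exact ENNReal.ofReal_le_ofReal (hc i x hx hxU).1)
    (χ := χ) (fun m => sm_continuous (hsm m)) h0 hle (fun x hx => by
      obtain ⟨V, hV, m₁, h2⟩ := hon x (U_sub_US Q hx)
      refine tendsto_const_nhds.congr' ?_
      filter_upwards [eventually_ge_atTop m₁] with m hm
      exact (h2 m hm x (mem_of_mem_nhds hV)).symm)
    (v := v) (fun m i x _ _ => S.cutUp_val E p k u (hχs m) (hχU m) i x)
    (fun m i x _ hxU => by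
      rw [hv]
      simp only
      rw [S.cutUp_val E p k u (hχs m) (hχU m) i x]
      have h2 : (χ m x : ℂ) = 0 := by
        by_contra h3
        exact hxU (hχU m (subset_tsupport _ h3))
      rw [h2, zero_smul])
  -- the limit
  obtain ⟨z, hz1, hz2, hz3⟩ := (rst S L k).exists_closed Pt PtF
    (LamN127.nab_nab_BN (L ^ k)) hWo (fun y => hFW y.2) (c := fun N => v (N + m₀))
    (fun ε hε => by
      obtain ⟨N₀, hN₀⟩ := hca ε hε
      exact ⟨N₀, fun m hm l hl => hN₀ _ (le_trans hm (Nat.le_add_right _ _)) _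
        (le_trans hl (Nat.le_add_right _ _))⟩)
    (hn.comp (tendsto_add_atTop_nat m₀))
    (fun N i x hx => by
      by_cases hxs : x ∈ (A.e i).source
      · rw [hnab _ i x hxs]
        refine Finset.sum_eq_zero fun a _ => ?_
        have h4 : (fun y => (χ (N + m₀) y : ℂ)) =ᶠ[𝓝 x] fun _ => 1 := by
          filter_upwards [hWo.mem_nhds hx] with y hy
          rw [hW _ (Nat.le_add_left _ _) y hy, ofReal_one]
        rw [Atl.db_congr hxs h4 a, db_const', zero_smul]
      · exact Sec.off _ (nabL (BN (L ^ k)) (v (N + m₀))).2 hxs)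
    (DN (S.res L ^ k)) hw (fun N => by
      have h2 : (rst S L k).res (v (N + m₀)) = u := S.rs_cutUp E p k u (hχs _) (hχU _) (by
        intro x hx
        rw [hW _ (Nat.le_add_left _ _) x (hFW hx), ofReal_one])
      rw [h2]
      exact h1)
    (q := q) (fun N => pqL_iff.2 (S.cutUp_isDeg E p k (pqL_iff.1 hq) (hχs _) (hχU _)))
  exact ⟨z, hz1, hz2, hz3⟩

end

end Crest.Agent.R273.T8_774
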