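import Crest.Agent.R273.T8C_774
import Crest.Agent.R273.ChiPoly_290
import Crest.Agent.R273.SerA_945

/-!
# R273 (S0416), torus step, leaf T8 (helper774), part D : the output

* `epsE` : the frame comparison `eps` of `TorFr_422` as `Eps`;
* `coh_F` : `H^q(O_F) = 0` for `q ≥ 1`;
* `t8` : for all large `k` there are a degree `q`, a closed `w` on the fixed locus and a closed `z`
  of degree `q` on `M` with `⟨z|_F, w⟩ = 1`.
-/

set_option autoImplicit false
set_option linter.unusedSectionVars false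

open Set Filter Topology Complex MeasureTheory
open scoped ContDiff Matrix ComplexConjugate ComplexOrder Kronecker ENNReal

namespace Crest.Agent.R273.T8_774

open Crest.Agent.R275 Crest.Agent.R275.Geo Crest.Agent.R275.Core144
open Crest.Agent.R275.SerG398 (hB fr FinS Zd Bd mem_Zd mem_Bd)
open Crest.Agent.R273.Defs_333 Crest.Agent.R273.Kah_333 Crest.Agent.R273.FS_333
open Crest.Agent.R273.Ret_155 Crest.Agent.R273.TorFr_422 Crest.Agent.R273.TorDefs_422
open Crest.Agent.R273.TorBd_422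
open Crest.Agent.R273.LamN127 (BN DN lamN BN_exact_iff BN_finite nab_nab_BN)
open Crest.Agent.R273.ChiPoly_290 (chB)
open Crest.Agent.R273.LogA_5
open Crest.Agent.R273.SerA_945

noncomputable section

/-! ### linear algebra and cohomology -/

theorem le_of_fr' {K V : Type*} [Field K] [AddCommGroup V] [Module K V] {Z B : Submodule K V}
    (hfin : FinS Z B) (h : fr Z B = 0) : Z ≤ B := by
  have hfin' : FiniteDimensional K (Z ⧸ B.submoduleOf Z) := hfin
  have hs : Subsingleton (Z ⧸ B.submoduleOf Z) := Module.finrank_zero_iff.1 h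
  intro z hz
  have h1 : (Submodule.Quotient.mk ⟨z, hz⟩ : Z ⧸ B.submoduleOf Z) = 0 := Subsingleton.elim _ _
  rw [Submodule.Quotient.mk_eq_zero] at h1
  exact h1

theorem fr_of_le {K V : Type*} [Field K] [AddCommGroup V] [Module K V] {Z B : Submodule K V}
    (h : Z ≤ B) : fr Z B = 0 := by
  have h1 : B.submoduleOf Z = ⊤ := by
    rw [eq_top_iff]
    intro z _
    exact h z.2
  unfold fr
  rw [h1]
  have : Subsingleton (Z ⧸ (⊤ : Submodule K Z)) := Submodule.Quotient.subsingleton_iff.2 rfl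
  exact Module.finrank_zero_of_subsingleton

section coh

variable {b : ℕ} {N : Type} [TopologicalSpace N] {B : Atl b N}

theorem topDeg_BN (L : LB B) : topDeg (BN L) ≤ b :=
  Finset.sup_le fun S _ =>
    (Finset.card_le_univ (α := Fin b) S.1).trans_eq (Fintype.card_fin b)

theorem nab_deg0 {L : LB B} {w : B.ι → N → (BN L).κ → ℂ} (i : B.ι) (x : N) (k : (BN L).κ)
    (hk : (BN L).deg k = 0) : nab (BN L) w i x k = 0 := by
  by_cases hx : x ∈ (B.e i).source
  · rw [nab_apply (BN L) hx, Pi.add_apply, Finset.sum_apply]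
    have h1 : ∀ a, ((BN L).e a *ᵥ B.db i a (w i) x) k = 0 := by
      intro a
      have h3 : ∀ l, (BN L).e a k l * B.db i a (w i) x l = 0 := by
        intro l
        by_cases h : (BN L).e a k l = 0
        · rw [h, zero_mul]
        · have := (BN L).e_deg a k l h
          omega
      exact Finset.sum_eq_zero fun l _ => h3 l
    have h2 : ((BN L).α i x *ᵥ w i x) k = 0 := by
      have h3 : ∀ l, (BN L).α i x k l * w i x l = 0 := by
        intro l
        by_cases h : (BN L).α i x k l = 0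
        · rw [h, zero_mul]
        · have := (BN L).α_deg i x k l h
          omega
      exact Finset.sum_eq_zero fun l _ => h3 l
    rw [h2, add_zero]
    exact Finset.sum_eq_zero fun a _ => h1 a
  · rw [nab_off (BN L) hx]
    rfl

/-- a closed form is exact if the cohomology vanishes -/
theorem exact_of_hB [CompactSpace N] [T2Space N] [Finite B.ι] (P : Part B) {L : LB B} {q : ℕ}
    (h : hB (BN L) q = 0) {z : Sec (BN L)} (hz : nabL _ z = 0) (hq : Geo.pqL _ q z = z) :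
    ∃ y, nabL (BN L) y = z := by
  have h1 : z ∈ Bd (BN L) q := le_of_fr' (BN_finite P L q) h (mem_Zd.2 ⟨hz, hq⟩)
  obtain ⟨⟨y, hy⟩, -⟩ := mem_Bd.1 h1
  exact ⟨y, hy⟩

/-- nonzero cohomology gives a closed form which is not exact -/
theorem exists_of_hB {L : LB B} {q : ℕ} (h : hB (BN L) q ≠ 0) :
    ∃ u : Sec (BN L), nabL _ u = 0 ∧ Geo.pqL _ q u = u ∧ ¬ ∃ y, nabL (BN L) y = u := by
  by_contra hne
  push Not at hne
  apply h
  refine fr_of_le fun u hu => ?_
  obtain ⟨h1, h2⟩ := mem_Zd.1 hu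
  obtain ⟨y, hy⟩ := hne u h1 h2
  exact mem_Bd.2 ⟨⟨y, hy⟩, h2⟩

/-- **duality** : a form which is not exact pairs with a closed form -/
theorem exists_dual [CompactSpace N] [T2Space N] [Finite B.ι] (P : Part B) {L : LB B} {q : ℕ}
    {u : Sec (BN L)} (hq : Geo.pqL _ q u = u)
    (hne : ¬ ∃ y, nabL (BN L) y = u) :
    q ≤ b ∧ ∃ w : Sec (BN (KB B * L⁻¹)), nabL _ w = 0 ∧ Pai323.pr (DN L) P u w = 1 := by
  have hqb : q ≤ b := by
    by_contra h
    push Not at h
    have h1 : Geo.pqL (BN L) q = 0 := pqL_top (lt_of_le_of_lt (topDeg_BN L) h)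
    rw [h1] at hq
    apply hne
    refine ⟨0, ?_⟩
    rw [map_zero, ← hq]
    rfl
  refine ⟨hqb, ?_⟩
  have h1 := (BN_exact_iff P L hqb hq).not.1 hne
  push Not at h1
  obtain ⟨w, hw, -, hne'⟩ := h1
  refine ⟨(Pai323.pr (DN L) P u w)⁻¹ • w, ?_, ?_⟩
  · rw [map_smul, hw, smul_zero]
  · rw [map_smul, smul_eq_mul, inv_mul_cancel₀ hne']

open Classical in
/-- the constant function one -/
def unoF (B : Atl b N) : B.ι → N → ℂ := fun i x => if x ∈ (B.e i).source then 1 else 0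

theorem unoF_apply {i : B.ι} {x : N} (h : x ∈ (B.e i).source) : unoF B i x = 1 := if_pos h

theorem isHS_unoF : IsHS (1 : LB B) univ (unoF B) := by
  refine ⟨fun i => ?_, fun i z hz => if_neg hz, fun i j z hz _ => ?_⟩
  · exact (holAt_const (A := B) (i := i) (1 : ℂ)).congr fun z hz _ => (unoF_apply hz).symm
  · rw [unoF_apply hz.1, unoF_apply hz.2, mul_one]
    rfl

/-- `H^0(O) ≠ 0` -/
theorem hB_zero_ne [CompactSpace N] [T2Space N] [Finite B.ι] [Nonempty N] (P : Part B) :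
    hB (BN (1 : LB B)) 0 ≠ 0 := by
  intro h
  obtain ⟨x⟩ := (inferInstance : Nonempty N)
  obtain ⟨i, hi⟩ := B.cover x
  have hs : IsHS (1 : LB B) univ (unoF B) := isHS_unoF
  have hm := embN_mem (IsHS.smS hs) hs.off
  obtain ⟨y, hy⟩ := exact_of_hB P h (z := ⟨embN (unoF B), hm.1⟩)
    (Subtype.ext (Db_embN_hol hs)) (pqL_iff.2 hm.2)
  have h1 : nab (BN (1 : LB B)) y.1 i x ((∅ : Finset (Fin b)), ()) =
      embN (unoF B) i x ((∅ : Finset (Fin b)), ()) :=
    congrFun (congrFun (congrFun (congrArg Subtype.val hy) i) x) ((∅ : Finset (Fin b)), ())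
  have h2 : nab (BN (1 : LB B)) y.1 i x ((∅ : Finset (Fin b)), ()) = 0 :=
    nab_deg0 i x ((∅ : Finset (Fin b)), ()) rfl
  have h3 : embN (unoF B) i x ((∅ : Finset (Fin b)), ()) = 1 := by
    show (if (∅ : Finset (Fin b)) = ∅ then unoF B i x else 0) = 1
    rw [if_pos rfl, unoF_apply hi]
  rw [h2, h3] at h1
  exact zero_ne_one h1

/-- **nonvanishing** : if `H^q(O) = 0` for `q ≥ 1`, then for every line bundle `L` the bundle `L^k`
has some nonzero cohomology for all large `k` -/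
theorem exists_coh [CompactSpace N] [T2Space N] [Finite B.ι] [Nonempty N] (P : Part B)
    (hc : ∀ q, 1 ≤ q → hB (BN (1 : LB B)) q = 0) (L : LB B) :
    ∃ k0 : ℕ, ∀ k : ℕ, k0 ≤ k → ∃ q, hB (BN (L ^ k)) q ≠ 0 := by
  have h0 : chB (BN (1 : LB B)) b ≠ 0 := by
    have h1 : chB (BN (1 : LB B)) b = hB (BN (1 : LB B)) 0 := by
      unfold chB
      rw [Finset.sum_eq_single 0]
      · norm_num
      · intro q _ hq
        rw [hc q (Nat.one_le_iff_ne_zero.2 hq)]
        norm_num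
      · intro h
        exact absurd (Finset.mem_range.2 (Nat.succ_pos b)) h
    rw [h1]
    exact_mod_cast hB_zero_ne P
  have htop : topDeg (lamN B) ≤ b := Finset.sup_le fun S _ =>
    (Finset.card_le_univ (α := Fin b) S).trans_eq (Fintype.card_fin b)
  obtain ⟨k0, hk0⟩ := ChiPoly_290.exists_hB_ne (B := lamN B) (fun i x _ => rfl) P htop 1 L h0
  refine ⟨k0.toNat, fun k hk => ?_⟩
  obtain ⟨-, q, -, hq⟩ := hk0 k (by omega)
  refine ⟨q, ?_⟩
  rw [one_mul, zpow_natCast] at hq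
  exact hq

end coh

/-! ### the main statements -/

variable {n : ℕ} {M : Type} [TopologicalSpace M] {A : Atl n M} {P : ProjD A}

/-- the frame comparison -/
def epsE (Q : RF P) : Eps Q.T (KB A)⁻¹ where
  e := eps Q
  hol i j := eps_hol Q i j
  ne _ _ _ hx hU hj := eps_ne Q hU hx hj
  left _ _ _ _ hx hU hj := eps_left Q hU hx hj
  right _ _ _ _ hx hU hj := eps_right Q hU hx hj
  onF _ _ _ hx hF := eps_fix Q hF hx.1 hx.2

variable [T2Space M] [CompactSpace M] [Finite A.ι]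

section main

variable (Q : RF P) (S : FAtl Q.T) [Finite S.B.ι] [CompactSpace Q.T.F] [Nonempty Q.T.F]
  (hUS : US P (Sx Q) ⊆ Q.T.U) (K : Kah A) (Pt : Part A) (PtF : Part S.B) {L : LB A}
  (E : Eps Q.T L) (h : HM L)
  (hE : ∀ i j x, x ∈ (A.e i).source → x ∈ Q.T.U → Q.T.r x ∈ (A.e j).source →
    ‖E.e i j x‖ ^ 2 * h.w i x ≤ h.w j (Q.T.r x))

include hUS K Pt E h hE

/-- non exact forms on the fixed locus are detected by closed forms on `M` -/
theorem detect (k : ℕ) {q : ℕ} {u : Sec (BN (S.res L ^ k))} (hu : nabL _ u = 0)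
    (hq : Geo.pqL _ q u = u) (hne : ¬ ∃ y, nabL (BN (S.res L ^ k)) y = u) :
    q ≤ S.d ∧ ∃ w : Sec (BN (KB S.B * (S.res L ^ k)⁻¹)), nabL _ w = 0 ∧
      ∃ z : Sec (BN (L ^ k)), nabL _ z = 0 ∧ Geo.pqL _ q z = z ∧
        Pai323.pr (DN (S.res L ^ k)) PtF (S.rs L k z) w = 1 := by
  obtain ⟨p⟩ := (inferInstance : Nonempty Q.T.F)
  obtain ⟨hqb, w, hw, h1⟩ := exists_dual PtF hq hne
  let _ : MeasurableSpace M := borel M
  have _ : BorelSpace M := ⟨rfl⟩
  obtain ⟨z, hz⟩ := lift_closed Q S hUS K Pt PtF E h hE p k hu hq hw h1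
  exact ⟨hqb, w, hw, z, hz⟩

include PtF in
/-- **`H^q(O_F) = 0`** -/
theorem coh_F (hc : ∀ q, 1 ≤ q → hB (BN (1 : LB A)) q = 0) :
    ∀ q, 1 ≤ q → hB (BN (1 : LB S.B)) q = 0 := by
  intro q hq1
  by_contra hne
  have h0 : hB (BN (S.res L ^ 0)) q ≠ 0 := by rw [pow_zero]; exact hne
  obtain ⟨u, hu, hq, hne'⟩ := exists_of_hB h0
  obtain ⟨-, w, hw, z, hz, hzq, h1⟩ := detect Q S hUS K Pt PtF E h hE 0 hu hq hne'
  have h2 : hB (BN (L ^ 0)) q = 0 := by rw [pow_zero]; exact hc q hq1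
  obtain ⟨y, hy⟩ := exact_of_hB Pt h2 hz hzq
  rw [← hy, ← S.rs_nab, Pai323.pr_nab, hw, map_zero] at h1
  exact zero_ne_one h1

/-- **T8, general form** -/
theorem t8_of (hc : ∀ q, 1 ≤ q → hB (BN (1 : LB A)) q = 0) :
    ∃ k0 : ℕ, ∀ k : ℕ, k0 ≤ k → ∃ q, q ≤ S.d ∧
      ∃ w : Sec (BN (KB S.B * (S.res L ^ k)⁻¹)), nabL _ w = 0 ∧
        ∃ z : Sec (BN (L ^ k)), nabL _ z = 0 ∧ Geo.pqL _ q z = z ∧
          Pai323.pr (DN (S.res L ^ k)) PtF (S.rs L k z) w = 1 := by
  obtain ⟨k0, hk0⟩ := exists_coh PtF (coh_F Q S hUS K Pt PtF E h hE hc) (S.res L)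
  refine ⟨k0, fun k hk => ?_⟩
  obtain ⟨q, hq⟩ := hk0 k hk
  obtain ⟨u, hu, hq, hne⟩ := exists_of_hB hq
  obtain ⟨h1, w, hw, z, hz⟩ := detect Q S hUS K Pt PtF E h hE k hu hq hne
  exact ⟨q, h1, w, hw, z, hz⟩

end main

/-- **T8** for the data of the torus step -/
theorem t8 {Γ : Type} [CommGroup Γ] [MulAction Γ M] (T : TorD A Γ) {Q : RF T.P}
    (hA : Appr T Q) (hUS : US T.P (Sx Q) ⊆ Q.T.U) (S : FAtl Q.T) [Finite S.B.ι]
    [CompactSpace Q.T.F] [Nonempty Q.T.F] (Pt : Part A) (PtF : Part S.B) :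
    ∃ k0 : ℕ, ∀ k : ℕ, k0 ≤ k → ∃ q, q ≤ S.d ∧
      ∃ w : Sec (BN (KB S.B * (S.res (aK A) ^ k)⁻¹)), nabL _ w = 0 ∧
        ∃ z : Sec (BN (aK A ^ k)), nabL _ z = 0 ∧ Geo.pqL _ q z = z ∧
          Pai323.pr (DN (S.res (aK A) ^ k)) PtF (S.rs (aK A) k z) w = 1 :=
  t8_of Q S hUS T.K Pt PtF (epsE Q) T.h
    (fun _ _ _ hx hU hj => eps_le hA hU hx hj) T.coh

end

end Crest.Agent.R273.T8_774
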