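import Crest.Agent.R273.TorEps_422
import Crest.Agent.R273.RetE_155

/-!
# R273 (S0416), torus step (helper422): the statement of T8

`T8Out Q S`  : for infinitely many `k` some class of `(K⁻¹)^k` is seen by a functional on the fixed
locus which kills the exact forms;
`T8Stmt`     : it holds for the retraction of a flow approximated by the group.
-/

set_option autoImplicit false
set_option linter.unusedSectionVars false

open Set Filter Topology Complex
open scoped ContDiff Matrix ComplexConjugate Manifold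

namespace Crest.Agent.R273.TorT8_422

open Crest.Agent.R275.Geo Crest.Agent.R275.Core144 Crest.Agent.R275.GC293
open Crest.Agent.R273.Defs_333 Crest.Agent.R273.Map_835 Crest.Agent.R273.TorDefs_422
open Crest.Agent.R273.PFlow_522 Crest.Agent.R273.Ret_155
open Crest.Agent.R273.LamN127 (BN)
open Crest.Agent.R273.TorFr_422 Crest.Agent.R273.TorBd_422

noncomputable section

/-- the output of T8 -/
def T8Out {n : ℕ} {M : Type} [TopologicalSpace M] {A : Atl n M} {P : ProjD A} (Q : RF P)
    (S : FAtl Q.T) : Prop :=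
  ∀ k0 : ℕ, ∃ k, k0 ≤ k ∧ ∃ q, ∃ φ : Sec (BN (S.res (aK A) ^ k)) →ₗ[ℂ] ℂ,
    (∀ y, φ (nabL _ y) = 0) ∧
      ∃ z : Sec (BN ((aK A) ^ k)), nabL _ z = 0 ∧ pqL _ q z = z ∧ φ (S.rs (aK A) k z) ≠ 0

/-- T8 -/
def T8Stmt : Prop :=
  ∀ (n : ℕ) (M : Type) [TopologicalSpace M] [T2Space M] [CompactSpace M] [ConnectedSpace M]
    (A : Atl n M) [Finite A.ι], GoodA A → Part A →
    ∀ (Γ : Type) [CommGroup Γ] [MulAction Γ M] (T : TorD A Γ) (Q : RF T.P), Appr T Q →
      (∀ k, Q.m ≤ Q.x k) → (∀ y v, R T.P y v → (prm Q.x Q.m v ≠ 0 ↔ y ∈ Q.T.U)) →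
      IsCompact Q.T.F → IsConnected Q.T.F → ∀ S : FAtl Q.T, T8Out Q S

end

end Crest.Agent.R273.TorT8_422
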