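import Crest.Agent.R273.T8D_774
import Crest.Agent.R273.TorT8_422

/-!
# R273 (S0416), torus step, leaf T8 (helper774), part E : `T8Stmt` of `TorT8_422`
-/

set_option autoImplicit false
set_option linter.unusedSectionVars false

open Set Filter Topology Complex
open scoped ContDiff Matrix ComplexConjugate

namespace Crest.Agent.R273.T8_774

open Crest.Agent.R275 Crest.Agent.R275.Geo Crest.Agent.R275.Core144
open Crest.Agent.R273.Defs_333 Crest.Agent.R273.PFlow_522
open Crest.Agent.R273.Ret_155 Crest.Agent.R273.TorFr_422 Crest.Agent.R273.TorDefs_422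
open Crest.Agent.R273.TorBd_422 Crest.Agent.R273.TorT8_422
open Crest.Agent.R273.LamN127 (BN DN)
open Crest.Agent.R273.LogA_5

noncomputable section

/-- **T8** -/
theorem t8_holds : T8Stmt := by
  intro n M _ _ _ _ A _ _ PA Γ _ _ T Q hA _ hU hFc hFn S
  have hfin : Finite S.B.ι := S.fin
  have hcs : CompactSpace Q.T.F := isCompact_iff_compactSpace.1 hFc
  have hne : Nonempty Q.T.F := hFn.nonempty.to_subtype
  obtain ⟨PtF⟩ := S.part
  have hUS : US T.P (Sx Q) ⊆ Q.T.U := by
    intro x hx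
    obtain ⟨i, hi⟩ := A.cover x
    obtain ⟨k, hk, hne⟩ := (mem_US_iff T.P (Sx Q) hi).1 hx
    refine (hU x _ (R_F hi)).1 fun h0 => hne ?_
    have h1 := congrFun h0 k
    simp only [prm, if_pos ((mem_Sx Q).1 hk)] at h1
    exact h1
  obtain ⟨k1, hk1⟩ := t8 T hA hUS S PA PtF
  intro k0
  obtain ⟨q, -, w, hw, z, hz, hq, h1⟩ := hk1 (max k0 k1) (le_max_right _ _)
  refine ⟨max k0 k1, le_max_left _ _, q, (Pai323.pr (DN _) PtF).flip w, fun y => ?_,
    z, hz, hq, ?_⟩
  · rw [LinearMap.flip_apply, Pai323.pr_nab, hw, map_zero]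
  · rw [LinearMap.flip_apply, h1]
    exact one_ne_zero

end

end Crest.Agent.R273.T8_774
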