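import Crest.Agent.R273.LeviR_155
import Crest.Agent.R273.Supn_106

/-!
# R273 (S0416), torus step (helper155): pointwise bounds of `r^* u` in terms of `K + HS`

`Q : RF P`, `S : FAtl Q.T`, `K : Kah A`, `Pt : Part A`, `E : Eps Q.T L` with
`‖E.e i j x‖² h.w i x ≤ h.w j (r x)`:
* `local_bound`, `exists_bound` : `|r^* u|² ≤ C det (K + HS) / det K`,
  `|∂̄χ ∧ r^* u|² ≤ C ⟨adj (K + HS) ∂χ, ∂̄χ⟩ / det K` on the supports of the partition of unity.
-/

set_option autoImplicit false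
set_option linter.unusedSectionVars false

open Set Filter Topology Complex
open scoped ContDiff Manifold Matrix ComplexConjugate ComplexOrder

namespace Crest.Agent.R273.T8pw_155

open Crest.Agent.R275 Crest.Agent.R275.Geo Crest.Agent.R275.Core144 Crest.Agent.R275.EDR890
open Crest.Agent.R273.Defs_333 Crest.Agent.R273.Hess_333 Crest.Agent.R273.HessB_333
open Crest.Agent.R273.HM_333 Crest.Agent.R273.Kah_333 Crest.Agent.R273.FS_333
open Crest.Agent.R273.Map_835 Crest.Agent.R273.PB_835 Crest.Agent.R273.FPB_155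
open Crest.Agent.R273.TorFr_422 Crest.Agent.R273.PFlow_522 Crest.Agent.R273.Ret_155
open Crest.Agent.R273.Ret_155.FAtl Crest.Agent.R273.LeviR_155
open Crest.Agent.R273.LamN127 Crest.Agent.R273.PW_799
open Crest.Agent.R273.GreenM_5 Crest.Agent.R273.GreenG_5 Crest.Agent.R273.LogCut_5

noncomputable section

variable {n : ℕ} {M : Type} [TopologicalSpace M] {A : Atl n M} {P : ProjD A} (Q : RF P)

/-- `g - δ` is positive semidefinite if `δ |v|² ≤ ⟨g v, v⟩` -/
theorem psd_sub_of_lower {m : ℕ} {g : Matrix (Fin m) (Fin m) ℂ} (hg : g.PosSemidef) {δ : ℝ}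
    (h : ∀ v : Fin m → ℂ, δ * NormC_505.nsq v ≤ (star v ⬝ᵥ (g *ᵥ v)).re) :
    (g - (δ : ℂ) • (1 : Matrix (Fin m) (Fin m) ℂ)).PosSemidef := by
  refine Matrix.PosSemidef.of_dotProduct_mulVec_nonneg ?_ fun v => ?_
  · refine hg.isHermitian.sub ?_
    rw [Matrix.IsHermitian, Matrix.conjTranspose_smul, Matrix.conjTranspose_one]
    simp
  · have h3 : star v ⬝ᵥ v = ((NormC_505.nsq v : ℝ) : ℂ) := by
      unfold NormC_505.nsq
      simp only [dotProduct, Pi.star_apply, ofReal_sum]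
      refine Finset.sum_congr rfl fun k _ => ?_
      rw [RCLike.star_def, Complex.conj_mul', ofReal_pow]
    have h4 : star v ⬝ᵥ (g *ᵥ v) = (((star v ⬝ᵥ (g *ᵥ v)).re : ℝ) : ℂ) := by
      refine Complex.ext rfl ?_
      have h6 := (Complex.le_def.1 (hg.dotProduct_mulVec_nonneg v)).2
      rw [ofReal_im]
      exact h6.symm
    rw [Matrix.sub_mulVec, Matrix.smul_mulVec, dotProduct_sub, Matrix.one_mulVec,
      dotProduct_smul, h3, h4, smul_eq_mul, ← ofReal_mul, ← ofReal_sub]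
    have h7 := h v
    exact_mod_cast (by linarith : (0 : ℝ) ≤ (star v ⬝ᵥ (g *ᵥ v)).re - δ * NormC_505.nsq v)

/-- a uniform lower bound of a Kaehler metric on a compact part of a chart -/
theorem exists_delta (K : Kah A) {i : A.ι} {C : Set M} (hC : IsCompact C)
    (hs : C ⊆ (A.e i).source) : ∃ δ : ℝ, 0 < δ ∧ ∀ x ∈ C,
      (K.g i x - (δ : ℂ) • (1 : Matrix (Fin n) (Fin n) ℂ)).PosSemidef := by
  obtain ⟨c, hc0, hc⟩ := NormC_505.exists_lower hC
    (fun a b => (NormC_505.continuousOn_of_smAt (K.sm i a b)).mono hs)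
    fun q hq => K.pos i q (hs hq)
  exact ⟨c, hc0, fun x hx => psd_sub_of_lower (K.pos i x (hs hx)).posSemidef (hc x hx)⟩

/-- the Hermitian form of a positive semidefinite matrix plus another one -/
theorem psd_add_sub {m : ℕ} {a b c : Matrix (Fin m) (Fin m) ℂ} (h1 : (a - c).PosSemidef)
    (h2 : b.PosSemidef) : (a + b - c).PosSemidef := by
  have : a + b - c = (a - c) + b := by abel
  rw [this]
  exact h1.add h2

theorem re_div_mul {z w : ℂ} (hw : 0 < w) : (z / w).re * w.re = z.re := by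
  have h1 := Complex.lt_def.1 hw
  have h2 : w = ((w.re : ℝ) : ℂ) := Complex.ext rfl (by rw [ofReal_im]; exact h1.2.symm)
  have h3 : w.re ≠ 0 := h1.1.ne'
  conv_lhs => rw [h2]
  rw [Complex.div_ofReal_re, ofReal_re, div_mul_cancel₀ _ h3]

section bound

variable [T2Space M] [CompactSpace M] [MeasurableSpace M] [BorelSpace M] [Finite A.ι]
variable (S : FAtl Q.T) (p : Q.T.F) {L : LB A} (E : Eps Q.T L) (k : ℕ)
  (u : Sec (BN (S.res L ^ k))) (K : Kah A) (Pt : Part A) (PF : Part S.B)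

/-- the frame comparison is bounded on compact sets -/
theorem exists_eps_bound {h : HM L}
    (hE : ∀ i j, ∀ x ∈ (A.e i).source, x ∈ Q.T.U → Q.T.r x ∈ (A.e j).source →
      ‖E.e i j x‖ ^ 2 * h.w i x ≤ h.w j (Q.T.r x)) {i : A.ι} {C : Set M} (hC : IsCompact C)
    (hs : C ⊆ (A.e i).source) {l : S.B.ι} {D : Set Q.T.F} (hD : IsCompact D)
    (hsD : D ⊆ (S.B.e l).source) : ∃ c : ℝ, 0 ≤ c ∧ ∀ x ∈ C, x ∈ Q.T.U → rho Q.T p x ∈ D →
      ‖E.e i (S.refV.r l) x‖ ^ 2 ≤ c := by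
  have hcw : ContinuousOn (h.w i) C := (NormC_505.continuousOn_of_smAt (h.sm i)).mono hs
  obtain ⟨c, hc0, hc⟩ := hC.exists_forall_le' hcw (a := 0) fun x hx => h.pos i x (hs hx)
  have hcD : ContinuousOn (fun q : Q.T.F => h.w (S.refV.r l) (q : M)) D := by
    refine ContinuousOn.comp (NormC_505.continuousOn_of_smAt (h.sm (S.refV.r l)))
      continuous_subtype_val.continuousOn ?_
    exact fun q hq => S.refV.sub l q (hsD hq)
  obtain ⟨B, hB⟩ := hD.exists_bound_of_continuousOn hcD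
  refine ⟨|B| / c, by positivity, fun x hx hU hr => ?_⟩
  have hrj : Q.T.r x ∈ (A.e (S.refV.r l)).source := by
    have h := S.refV.sub l _ (hsD hr)
    rwa [rho_val p hU] at h
  have h1 := hE i (S.refV.r l) x (hs hx) hU hrj
  have h2 := hB _ hr
  simp only [rho_val p hU] at h2
  have h3 := hc x hx
  rw [le_div_iff₀ hc0]
  calc ‖E.e i (S.refV.r l) x‖ ^ 2 * c ≤ ‖E.e i (S.refV.r l) x‖ ^ 2 * h.w i x := by
        exact mul_le_mul_of_nonneg_left h3 (by positivity)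
    _ ≤ h.w (S.refV.r l) (Q.T.r x) := h1
    _ ≤ |B| := (le_abs_self _).trans (h2.trans (le_abs_self B))

theorem local_bound {h : HM L}
    (hE : ∀ i j, ∀ x ∈ (A.e i).source, x ∈ Q.T.U → Q.T.r x ∈ (A.e j).source →
      ‖E.e i j x‖ ^ 2 * h.w i x ≤ h.w j (Q.T.r x)) (i : A.ι) (l : S.B.ι) :
    ∃ C : ℝ, 0 ≤ C ∧ ∀ x ∈ tsupport (Pt.χ i), x ∈ Q.T.U → rho Q.T p x ∈ tsupport (PF.χ l) →
      nq (S.up E p k u i x) ≤ C * (fnD K (fun i x => (KH P (Sm Q) K i x).det) x).re ∧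
      ∀ χ : M → ℝ, A.Sm χ → nq (∑ a, A.db i a (fun y => (χ y : ℂ)) x •
        ((BN (L ^ k)).e a *ᵥ S.up E p k u i x)) ≤ C * (fnD K (grd (KH P (Sm Q) K)
          (fun y => (χ y : ℂ)) (fun y => (χ y : ℂ))) x).re := by
  obtain ⟨δ, hδ, hδK⟩ := exists_delta K (Pt.χ_cpt i) (Pt.χ_sub i)
  obtain ⟨C, hC, hCP⟩ := exists_C Q S l (PF.χ_cpt l) (PF.χ_sub l)
  obtain ⟨ce, hce, hcE⟩ := exists_eps_bound Q S p E hE (Pt.χ_cpt i) (Pt.χ_sub i) (PF.χ_cpt l)
    (PF.χ_sub l)
  have hdet : ContinuousOn (fun x => (K.g i x).det) (tsupport (Pt.χ i)) := by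
    have h1 : ContinuousOn (fun x => K.g i x) (tsupport (Pt.χ i)) :=
      continuousOn_pi.2 fun a => continuousOn_pi.2 fun b =>
        (NormC_505.continuousOn_of_smAt (K.sm i a b)).mono (Pt.χ_sub i)
    exact (Continuous.matrix_det continuous_id).comp_continuousOn h1
  obtain ⟨cd, hcd⟩ := (Pt.χ_cpt i).exists_bound_of_continuousOn hdet
  have hnq : ContinuousOn (fun q : Q.T.F => nq (u.1 l q)) (tsupport (PF.χ l)) := by
    unfold nq
    refine continuousOn_finsetSum _ fun s _ => ?_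
    exact ((NormC_505.continuousOn_of_smAt (u.2.1 l s)).mono (PF.χ_sub l)).norm.pow 2
  obtain ⟨cu, hcu⟩ := (PF.χ_cpt l).exists_bound_of_continuousOn hnq
  have hc0 := cPW_pos n S.d (C := C) hδ
  refine ⟨cPW n S.d δ C * |cd| * (ce ^ k * |cu|), by positivity, fun x hx hU hr => ?_⟩
  have hxi := Pt.χ_sub i hx
  have hxl := PF.χ_sub l hr
  have hUS := U_sub Q hU
  have hG : (KH P (Sm Q) K i x - (δ : ℂ) • (1 : Matrix (Fin n) (Fin n) ℂ)).PosSemidef :=
    psd_add_sub (hδK x hx) (LogA_5.HS_psd P (Sm Q) hxi hUS)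
  have hP : ((C : ℂ) • KH P (Sm Q) K i x - (Jp A S.B (rho Q.T p) i l x)ᵀ *
      (Jp A S.B (rho Q.T p) i l x).map (starRingEnd ℂ)).PosSemidef := by
    have h1 := hCP p i x hxi hU hr
    have h2 : ((C : ℂ) • K.g i x).PosSemidef := by
      have h3 := (K.pos i x hxi).posSemidef.smul (show (0 : ℝ) ≤ C from hC.le)
      have h5 : (C : ℂ) • K.g i x = C • K.g i x := by
        ext a b
        simp
      rw [h5]
      exact h3
    have h4 : (C : ℂ) • KH P (Sm Q) K i x - (Jp A S.B (rho Q.T p) i l x)ᵀ *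
      (Jp A S.B (rho Q.T p) i l x).map (starRingEnd ℂ) = (C : ℂ) • K.g i x +
        ((C : ℂ) • LogA_5.HS P (Sm Q) i x - (Jp A S.B (rho Q.T p) i l x)ᵀ *
      (Jp A S.B (rho Q.T p) i l x).map (starRingEnd ℂ)) := by
      unfold KH
      rw [smul_add]
      abel
    rw [h4]
    exact h2.add h1
  have hb := S.up_bound E p k u hxi hU hxl hδ hC hG hP
  have hdp := (K.pos i x hxi).det_pos
  have hd0 : 0 ≤ (K.g i x).det.re := (Complex.lt_def.1 hdp).1.le
  have hd1 : (K.g i x).det.re ≤ |cd| :=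
    (Complex.re_le_norm _).trans ((hcd x hx).trans (le_abs_self _))
  have he : (‖E.e i (S.refV.r l) x‖ ^ k) ^ 2 ≤ ce ^ k := by
    rw [← pow_mul, mul_comm, pow_mul]
    exact pow_le_pow_left₀ (by positivity) (hcE x hx hU hr) k
  have hu : nq (u.1 l (rho Q.T p x)) ≤ |cu| :=
    (le_abs_self _).trans ((hcu _ hr).trans (le_abs_self _))
  have hu0 := nq_nonneg (u.1 l (rho Q.T p x))
  have hmain : ∀ {t f : ℝ}, 0 ≤ f → t = f * (K.g i x).det.re →
      cPW n S.d δ C * t * ((‖E.e i (S.refV.r l) x‖ ^ k) ^ 2 * nq (u.1 l (rho Q.T p x))) ≤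
        cPW n S.d δ C * |cd| * (ce ^ k * |cu|) * f := by
    intro t f hf ht
    rw [ht]
    have h1 : (‖E.e i (S.refV.r l) x‖ ^ k) ^ 2 * nq (u.1 l (rho Q.T p x)) ≤ ce ^ k * |cu| :=
      mul_le_mul he hu hu0 (by positivity)
    calc cPW n S.d δ C * (f * (K.g i x).det.re) *
          ((‖E.e i (S.refV.r l) x‖ ^ k) ^ 2 * nq (u.1 l (rho Q.T p x)))
        ≤ cPW n S.d δ C * (f * |cd|) * (ce ^ k * |cu|) := by gcongr
      _ = _ := by ring
  refine ⟨hb.1.trans ?_, fun χ hχ => ?_⟩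
  · refine hmain ?_ ?_
    · rw [fnD_det P (Sm Q) K hxi hUS]
      exact (Complex.le_def.1 (div_nonneg (KH_pos P (Sm Q) K hxi hUS).det_pos.le hdp.le)).1
    · rw [fnD_det P (Sm Q) K hxi hUS, re_div_mul hdp]
  · refine (hb.2 _).trans ?_
    have hχs : ∀ i, A.SmAt i (fun y => (χ y : ℂ)) := fun i => C1d194.smAt_ofReal (hχ i)
    have h1 : (∑ a, ∑ b, (KH P (Sm Q) K i x).adjugate b a *
        conj (A.db i a (fun y => (χ y : ℂ)) x) * A.db i b (fun y => (χ y : ℂ)) x) =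
        grd (KH P (Sm Q) K) (fun y => (χ y : ℂ)) (fun y => (χ y : ℂ)) i x := by
      unfold grd
      refine Finset.sum_congr rfl fun a _ => Finset.sum_congr rfl fun b _ => ?_
      rw [db_ofReal χ i a x, Complex.conj_conj]
    rw [h1]
    refine hmain ?_ ?_
    · rw [fnD_grd P (Sm Q) K hχs hχs hxi hUS]
      exact (Complex.le_def.1 (div_nonneg (grd_nonneg χ (KH_pos P (Sm Q) K hxi hUS)) hdp.le)).1
    · rw [fnD_grd P (Sm Q) K hχs hχs hxi hUS, re_div_mul hdp]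

/-- every point of `F` lies in the support of some `χ l` -/
theorem exists_supp (q : Q.T.F) : ∃ l, q ∈ tsupport (PF.χ l) := by
  by_contra hne
  push Not at hne
  have h0 : ∀ j, PF.ψ j q = 0 := fun j => by
    by_contra h
    have h1 := PF.χ_one j q (subset_tsupport _ h)
    have h2 : PF.χ j q = 1 := h1.self_of_nhds
    exact hne j (subset_tsupport _ (by rw [Function.mem_support, h2]; exact one_ne_zero))
  have h1 := PF.sum_one q
  simp only [h0, finsum_zero] at h1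
  exact zero_ne_one h1

/-- **pointwise bounds** of `r^* u` and `∂̄χ ∧ r^* u` -/
theorem exists_bound {h : HM L}
    (hE : ∀ i j, ∀ x ∈ (A.e i).source, x ∈ Q.T.U → Q.T.r x ∈ (A.e j).source →
      ‖E.e i j x‖ ^ 2 * h.w i x ≤ h.w j (Q.T.r x)) :
    ∃ C : ℝ, 0 ≤ C ∧ ∀ i, ∀ x ∈ tsupport (Pt.χ i), x ∈ Q.T.U →
      nq (S.up E p k u i x) ≤ C * (fnD K (fun i x => (KH P (Sm Q) K i x).det) x).re ∧
      ∀ χ : M → ℝ, A.Sm χ → nq (∑ a, A.db i a (fun y => (χ y : ℂ)) x •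
        ((BN (L ^ k)).e a *ᵥ S.up E p k u i x)) ≤ C * (fnD K (grd (KH P (Sm Q) K)
          (fun y => (χ y : ℂ)) (fun y => (χ y : ℂ))) x).re := by
  have := S.fin
  have := Fintype.ofFinite A.ι
  have := Fintype.ofFinite S.B.ι
  obtain ⟨PF⟩ := S.part
  choose c hc0 hc using local_bound Q S p E k u K Pt PF hE
  refine ⟨∑ i, ∑ l, c i l, Finset.sum_nonneg fun i _ => Finset.sum_nonneg fun l _ => hc0 i l,
    fun i x hx hU => ?_⟩
  obtain ⟨l, hl⟩ := exists_supp Q S PF (rho Q.T p x)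
  have h1 := hc i l x hx hU hl
  have hxi := Pt.χ_sub i hx
  have hUS := U_sub Q hU
  have hdp := (K.pos i x hxi).det_pos
  have hle : c i l ≤ ∑ i, ∑ l, c i l :=
    (Finset.single_le_sum (f := fun l => c i l) (fun l _ => hc0 i l) (Finset.mem_univ l)).trans
      (Finset.single_le_sum (f := fun i => ∑ l, c i l)
        (fun i _ => Finset.sum_nonneg fun l _ => hc0 i l) (Finset.mem_univ i))
  refine ⟨h1.1.trans (mul_le_mul_of_nonneg_right hle ?_), fun χ hχ =>
    (h1.2 χ hχ).trans (mul_le_mul_of_nonneg_right hle ?_)⟩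
  · rw [fnD_det P (Sm Q) K hxi hUS]
    exact (Complex.le_def.1 (div_nonneg (KH_pos P (Sm Q) K hxi hUS).det_pos.le hdp.le)).1
  · have hχs : ∀ i, A.SmAt i (fun y => (χ y : ℂ)) := fun i => C1d194.smAt_ofReal (hχ i)
    rw [fnD_grd P (Sm Q) K hχs hχs hxi hUS]
    exact (Complex.le_def.1 (div_nonneg (grd_nonneg χ (KH_pos P (Sm Q) K hxi hUS)) hdp.le)).1

end bound

end

end Crest.Agent.R273.T8pw_155
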