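import Crest.Agent.R273.TLd_201
import Crest.Agent.R275.Dg1_199

/-!
# R273 (S0416), T-LEMMA (helper201): basic facts

* `tr_mul_le`, `key_mat` : `tr(XY) ≤ tr X tr Y` for psd `X`, `Y`; `tr(BS) ≤ tr(G⁻¹B) tr(GS)`
* `bk'_eq`, `be_eq`, `tendsto_bk'`, `psd_be`, `be_smP`, `be_tr`
* `mdens_eq`, `mdens_nonneg`
* `Tst.f t = tr (β S)` : smooth function on `M`
-/

set_option autoImplicit false
set_option linter.unusedSectionVars false

open Set Filter Topology Complex MeasureTheory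
open scoped ContDiff Matrix ComplexConjugate ComplexOrder ENNReal

namespace Crest.Agent.R273.TLb_201

open Crest.Agent.R275 Crest.Agent.R275.Geo Crest.Agent.R275.Core144 Crest.Agent.R275.EDR890
open Crest.Agent.R273.Defs_333 Crest.Agent.R273.Hess_333 Crest.Agent.R273.HessB_333
open Crest.Agent.R273.HM_333 Crest.Agent.R273.Kah_333 Crest.Agent.R273.Vol_333
open Crest.Agent.R273.Vm_333
open Crest.Agent.R273.Green_5 Crest.Agent.R273.FIa0_597 Crest.Agent.R273.FIb0_597
open Crest.Agent.R273.TLd_201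
open Crest.Agent.R275.Dg199 (SmN smN_iff sm_iff ev_symm)

noncomputable section

variable {n : ℕ}

/-! ### linear algebra -/

theorem tr_gram (B D : Matrix (Fin n) (Fin n) ℂ) :
    ((Bᴴ * B) * (Dᴴ * D)).trace.re = ∑ i, ∑ j, ‖(B * Dᴴ) i j‖ ^ 2 := by
  have h1 : ((Bᴴ * B) * (Dᴴ * D)).trace = ((B * Dᴴ) * (B * Dᴴ)ᴴ).trace := by
    rw [Matrix.conjTranspose_mul, Matrix.conjTranspose_conjTranspose]
    rw [Matrix.mul_assoc, Matrix.trace_mul_comm Bᴴ]
    simp only [Matrix.mul_assoc]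
  rw [h1]
  simp only [Matrix.trace, Matrix.diag, Matrix.mul_apply (M := B * Dᴴ), Complex.re_sum]
  refine Finset.sum_congr rfl fun i _ => Finset.sum_congr rfl fun j _ => ?_
  rw [Matrix.conjTranspose_apply]
  have : (B * Dᴴ) i j * star ((B * Dᴴ) i j) = ((‖(B * Dᴴ) i j‖ ^ 2 : ℝ) : ℂ) := by
    rw [← Complex.normSq_eq_norm_sq, ← Complex.mul_conj]
    rfl
  rw [this, Complex.ofReal_re]

theorem tr_gram1 (B : Matrix (Fin n) (Fin n) ℂ) :
    (Bᴴ * B).trace.re = ∑ i, ∑ j, ‖B i j‖ ^ 2 := by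
  rw [Matrix.trace_mul_comm]
  simp only [Matrix.trace, Matrix.diag, Matrix.mul_apply, Complex.re_sum]
  refine Finset.sum_congr rfl fun i _ => Finset.sum_congr rfl fun j _ => ?_
  rw [Matrix.conjTranspose_apply]
  have : B i j * star (B i j) = ((‖B i j‖ ^ 2 : ℝ) : ℂ) := by
    rw [← Complex.normSq_eq_norm_sq, ← Complex.mul_conj]
    rfl
  rw [this, Complex.ofReal_re]

theorem tr_mul_le {X Y : Matrix (Fin n) (Fin n) ℂ} (hX : X.PosSemidef) (hY : Y.PosSemidef) :
    (X * Y).trace.re ≤ X.trace.re * Y.trace.re := by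
  obtain ⟨B, rfl⟩ := exists_sq hX
  obtain ⟨D, rfl⟩ := exists_sq hY
  rw [tr_gram, tr_gram1, tr_gram1, Finset.sum_mul_sum]
  refine Finset.sum_le_sum fun i _ => Finset.sum_le_sum fun j _ => ?_
  rw [Matrix.mul_apply]
  have h1 : ‖∑ k, B i k * Dᴴ k j‖ ≤ ∑ k, ‖B i k‖ * ‖D j k‖ := by
    refine (norm_sum_le _ _).trans (le_of_eq (Finset.sum_congr rfl fun k _ => ?_))
    rw [norm_mul, Matrix.conjTranspose_apply, norm_star]
  have h2 : (∑ k, ‖B i k‖ * ‖D j k‖) ^ 2 ≤ (∑ k, ‖B i k‖ ^ 2) * ∑ k, ‖D j k‖ ^ 2 :=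
    Finset.sum_mul_sq_le_sq_mul_sq _ _ _
  exact (pow_le_pow_left₀ (norm_nonneg _) h1 2).trans h2

/-- `tr(XY) ≥ 0` for psd matrices -/
theorem tr_mul_nonneg {X Y : Matrix (Fin n) (Fin n) ℂ} (hX : X.PosSemidef) (hY : Y.PosSemidef) :
    0 ≤ (X * Y).trace.re := by
  obtain ⟨B, rfl⟩ := exists_sq hX
  obtain ⟨D, rfl⟩ := exists_sq hY
  rw [tr_gram]
  positivity

/-- the key inequality -/
theorem key_mat {G B S : Matrix (Fin n) (Fin n) ℂ} (hG : G.PosDef) (hB : B.PosSemidef)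
    (hS : S.PosSemidef) : (B * S).trace.re ≤ (G⁻¹ * B).trace.re * (G * S).trace.re := by
  obtain ⟨C, hC⟩ := exists_sq hG.posSemidef
  have hdet : IsUnit G.det := (Matrix.isUnit_iff_isUnit_det _).1 hG.isUnit
  have hCd : IsUnit C.det := by
    rw [hC, Matrix.det_mul] at hdet
    exact isUnit_of_mul_isUnit_right hdet
  have hCd' : IsUnit (Cᴴ).det := by
    rw [hC, Matrix.det_mul] at hdet
    exact isUnit_of_mul_isUnit_left hdet
  have e1 : (G⁻¹ * B).trace = ((C⁻¹)ᴴ * B * C⁻¹).trace := by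
    rw [hC, Matrix.mul_inv_rev, Matrix.mul_assoc, Matrix.trace_mul_comm, Matrix.mul_assoc,
      ← Matrix.conjTranspose_nonsing_inv, Matrix.mul_assoc]
  have e2 : (G * S).trace = (C * S * Cᴴ).trace := by
    rw [hC, Matrix.mul_assoc, Matrix.trace_mul_comm]
  have e3 : (B * S).trace = (((C⁻¹)ᴴ * B * C⁻¹) * (C * S * Cᴴ)).trace := by
    have : ((C⁻¹)ᴴ * B * C⁻¹) * (C * S * Cᴴ) = (C⁻¹)ᴴ * (B * S * Cᴴ) := by
      calc ((C⁻¹)ᴴ * B * C⁻¹) * (C * S * Cᴴ) = (C⁻¹)ᴴ * (B * ((C⁻¹ * C) * (S * Cᴴ))) := by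
            simp only [Matrix.mul_assoc]
        _ = _ := by rw [Matrix.nonsing_inv_mul _ hCd, Matrix.one_mul, Matrix.mul_assoc]
    rw [this, Matrix.trace_mul_comm ((C⁻¹)ᴴ), Matrix.mul_assoc, Matrix.conjTranspose_nonsing_inv,
      Matrix.mul_nonsing_inv _ hCd', Matrix.mul_one]
  rw [e1, e2, e3]
  refine tr_mul_le ?_ ?_
  · have := hB.conjTranspose_mul_mul_same C⁻¹
    exact this
  · exact hS.mul_mul_conjTranspose_same C

variable {M : Type} [TopologicalSpace M] {A : Atl n M} {L L' : LB A}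

/-! ### `β` -/

/-- `N` read in the chart -/
def Nc (D : TD A) (i : A.ι) : Cn n → ℝ := fun z => D.N ((A.e i).symm z)

/-- the rank one matrix `∂N ∂̄N` -/
def rk (D : TD A) (i : A.ι) (x : M) : Matrix (Fin n) (Fin n) ℂ :=
  Matrix.vecMulVec (gr (Nc D i) (A.e i x)) (star (gr (Nc D i) (A.e i x)))

theorem hsf_log (D : TD A) (κ : ℝ) {i : A.ι} {x : M} (hx : x ∈ (A.e i).source)
    (hp : 0 < D.N x + κ) :
    hsf A (fun y => Real.log (D.N y + κ)) i x = ((D.N x + κ)⁻¹ : ℝ) • hsf A D.N i x -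
      (((D.N x + κ) ^ 2)⁻¹ : ℝ) • rk D i x := by
  have hz := (A.e i).map_source hx
  have h1 : ContDiffAt ℝ ∞ (Nc D i) (A.e i x) := sm_contDiffAt D.smN i hz
  have hp' : 0 < Nc D i (A.e i x) + κ := by
    unfold Nc
    rwa [(A.e i).left_inv hx]
  have h2 := hess_log_add_mat κ h1 hp'
  have e : Nc D i (A.e i x) = D.N x := by
    unfold Nc
    rw [(A.e i).left_inv hx]
  rw [e] at h2
  exact h2

theorem bk'_eq (D : TD A) {κ : ℝ} {i : A.ι} {x : M} (hx : x ∈ (A.e i).source)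
    (hp : 0 < D.N x + κ) :
    D.bk' κ i x = D.om i x + (((D.N x + κ)⁻¹ : ℝ) • hsf A D.N i x -
      (((D.N x + κ) ^ 2)⁻¹ : ℝ) • rk D i x) := by
  unfold TD.bk'
  rw [hsf_log D κ hx hp]

theorem be_eq (D : TD A) {i : A.ι} {x : M} (hx : x ∈ (A.e i).source) (hU : x ∈ D.U) :
    D.be i x = D.om i x + (((D.N x)⁻¹ : ℝ) • hsf A D.N i x -
      (((D.N x) ^ 2)⁻¹ : ℝ) • rk D i x) := by
  have h1 := hsf_log D 0 hx (by rw [add_zero]; exact hU)
  simp only [add_zero] at h1
  unfold TD.be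
  rw [h1]

theorem tendsto_bk' (D : TD A) {i : A.ι} {x : M} (hx : x ∈ (A.e i).source) (hU : x ∈ D.U) :
    Tendsto (fun κ : ℝ => D.bk' κ i x) (𝓝[>] 0) (𝓝 (D.be i x)) := by
  have hpos : 0 < D.N x := hU
  have h1 : Tendsto (fun κ : ℝ => D.om i x + (((D.N x + κ)⁻¹ : ℝ) • hsf A D.N i x -
      (((D.N x + κ) ^ 2)⁻¹ : ℝ) • rk D i x)) (𝓝[>] 0) (𝓝 (D.be i x)) := by
    rw [be_eq D hx hU]
    have h2 : Tendsto (fun κ : ℝ => D.N x + κ) (𝓝[>] 0) (𝓝 (D.N x)) := by
      have : Tendsto (fun κ : ℝ => D.N x + κ) (𝓝 0) (𝓝 (D.N x + 0)) :=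
        (continuous_const.add continuous_id).tendsto 0
      rw [add_zero] at this
      exact this.mono_left nhdsWithin_le_nhds
    refine tendsto_const_nhds.add (Tendsto.sub ?_ ?_)
    · exact (h2.inv₀ hpos.ne').smul_const _
    · exact ((h2.pow 2).inv₀ (by positivity)).smul_const _
  refine h1.congr' ?_
  filter_upwards [self_mem_nhdsWithin] with κ hκ
  rw [bk'_eq D hx (by have : (0:ℝ) < κ := hκ; positivity)]

theorem isClosed_psd : IsClosed {X : Matrix (Fin n) (Fin n) ℂ | X.PosSemidef} := by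
  have h1 : {X : Matrix (Fin n) (Fin n) ℂ | X.PosSemidef} =
      {X | X.IsHermitian} ∩ ⋂ v : Fin n → ℂ, {X | 0 ≤ (star v ⬝ᵥ (X *ᵥ v))} := by
    ext X
    simp only [mem_ofPred_eq, mem_inter_iff, mem_iInter]
    exact Matrix.posSemidef_iff_dotProduct_mulVec
  rw [h1]
  refine IsClosed.inter ?_ (isClosed_iInter fun v => ?_)
  · exact isClosed_eq (continuous_id.matrix_conjTranspose) continuous_id
  · refine isClosed_le continuous_const ?_
    exact Continuous.dotProduct continuous_const (Continuous.matrix_mulVec continuous_id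
      continuous_const)

theorem psd_be (D : TD A) {i : A.ι} {x : M} (hx : x ∈ (A.e i).source) (hU : x ∈ D.U) :
    (D.be i x).PosSemidef := by
  refine isClosed_psd.mem_of_tendsto (tendsto_bk' D hx hU) ?_
  filter_upwards [self_mem_nhdsWithin] with κ hκ
  exact D.psd_bk hκ i hx

theorem be_tr (D : TD A) {i j : A.ι} {x : M} (hx : x ∈ (A.e i).source ∩ (A.e j).source)
    (hU : x ∈ D.U) : D.be i x = (Jm A i j x)ᵀ * D.be j x * (Jm A i j x).map conj := by
  have h1 : Tendsto (fun κ : ℝ => (Jm A i j x)ᵀ * D.bk' κ j x * (Jm A i j x).map conj) (𝓝[>] 0)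
      (𝓝 ((Jm A i j x)ᵀ * D.be j x * (Jm A i j x).map conj)) := by
    have hc : Continuous fun X : Matrix (Fin n) (Fin n) ℂ =>
        (Jm A i j x)ᵀ * X * (Jm A i j x).map conj :=
      (continuous_const.matrix_mul continuous_id).matrix_mul continuous_const
    exact (hc.tendsto _).comp (tendsto_bk' D hx.2 hU)
  refine tendsto_nhds_unique (tendsto_bk' D hx.1 hU) (h1.congr' ?_)
  filter_upwards [self_mem_nhdsWithin] with κ hκ
  exact ((D.cf_bk hκ).tr i j x hx).symm

theorem be_smN (D : TD A) {i : A.ι} {x : M} (hx : x ∈ (A.e i).source) (hU : x ∈ D.U)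
    (a b : Fin n) : SmN A (fun y => D.be i y a b) x := by
  have hz := (A.e i).map_source hx
  have h2 : SmN A (fun y => D.om i y a b) x := Crest.Agent.R275.Dg199.SmAt.smN (D.cf.sm i a b) hx
  have h3 : ContDiffAt ℝ ∞ (fun z => hess (fun z => Real.log (D.N ((A.e i).symm z))) z a b)
      (A.e i x) := by
    have hev : ∀ᶠ w in 𝓝 (A.e i x), w ∈ (A.e i).target ∩ (fun z => (A.e i).symm z) ⁻¹' D.U := by
      refine Filter.inter_mem ((A.e i).open_target.mem_nhds hz) ?_
      exact ev_symm hx (D.isOpen_U.mem_nhds hU)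
    obtain ⟨V, hV, hVo, hVz⟩ := eventually_nhds_iff.1 hev
    have h4 : ContDiffOn ℝ ∞ (fun z => Real.log (D.N ((A.e i).symm z))) V := by
      intro w hw
      have hw' := hV w hw
      exact ((sm_contDiffAt D.smN i hw'.1).log (show 0 < D.N _ from hw'.2).ne').contDiffWithinAt
    exact (contDiffOn_hess hVo h4 a b).contDiffAt (hVo.mem_nhds hVz)
  have h5 : SmN A (fun y => hsf A (fun y => Real.log (D.N y)) i y a b) x := by
    refine (smN_iff hx).2 (h3.congr_of_eventuallyEq ?_)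
    filter_upwards [(A.e i).open_target.mem_nhds hz] with w hw
    unfold hsf
    rw [(A.e i).right_inv hw]
  exact h2.add h5

/-! ### densities -/

/-- `mdens` in any chart -/
theorem mdens_eq' (h : HM (KB A)⁻¹) {g S : A.ι → M → Matrix (Fin n) (Fin n) ℂ} {x : M}
    (hg : ∀ i j, x ∈ (A.e i).source ∩ (A.e j).source →
      g i x = (Jm A i j x)ᵀ * g j x * (Jm A i j x).map conj)
    (hS : ∀ i j, x ∈ (A.e i).source ∩ (A.e j).source →
      S i x = (Jm A i j x)ᵀ * S j x * (Jm A i j x).map conj)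
    {i : A.ι} (hx : x ∈ (A.e i).source) :
    mdens h g S x = ((g i x).adjugate * S i x).trace.re / h.w i x := by
  have key : ∀ i j, x ∈ (A.e i).source ∩ (A.e j).source →
      ((g i x).adjugate * S i x).trace.re / h.w i x =
        ((g j x).adjugate * S j x).trace.re / h.w j x := by
    intro i j hij
    set J := Jm A i j x with hJ
    have h2 : (J.map conj).det = conj J.det := by
      rw [← RingHom.mapMatrix_apply, ← RingHom.map_det]
    have h3 : ((‖J.det‖ ^ 2 : ℝ) : ℂ) = J.det * conj J.det := by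
      rw [Complex.mul_conj, Complex.normSq_eq_norm_sq]
    have h1 : ((g i x).adjugate * S i x).trace =
        (‖J.det‖ ^ 2 : ℝ) * ((g j x).adjugate * S j x).trace := by
      rw [hg i j hij, hS i j hij, Matrix.adjugate_mul_distrib, Matrix.adjugate_mul_distrib]
      have e : (J.map conj).adjugate * ((g j x).adjugate * Jᵀ.adjugate) *
          (Jᵀ * S j x * J.map conj) =
          Jᵀ.det • ((J.map conj).adjugate * ((g j x).adjugate * S j x * J.map conj)) := by
        calc (J.map conj).adjugate * ((g j x).adjugate * Jᵀ.adjugate) *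
              (Jᵀ * S j x * J.map conj)
            = (J.map conj).adjugate * ((g j x).adjugate * ((Jᵀ.adjugate * Jᵀ) * S j x) *
                J.map conj) := by simp only [Matrix.mul_assoc]
          _ = _ := by
            rw [Matrix.adjugate_mul, Matrix.smul_mul, Matrix.one_mul, Matrix.mul_smul,
              Matrix.smul_mul, Matrix.mul_smul]
      rw [e, Matrix.trace_smul, Matrix.trace_mul_comm, Matrix.mul_assoc, Matrix.mul_adjugate,
        Matrix.mul_smul, Matrix.mul_one, Matrix.trace_smul, smul_eq_mul, smul_eq_mul, h2,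
        Matrix.det_transpose, h3]
      ring
    have h4 := h.tr i j x hij
    rw [LB.inv_g, KB_g hij, norm_inv, inv_pow] at h4
    have h5 : 0 < ‖(Jm A i j x).det‖ ^ 2 := by
      have := det_Jm_ne hij
      positivity
    have h6 := h.pos i x hij.1
    rw [h1, h4, Complex.re_ofReal_mul, ← hJ]
    rw [← hJ] at h5
    field_simp
  exact key _ _ ⟨mem_ch A x, hx⟩

theorem mdens_nonneg (h : HM (KB A)⁻¹) {g S : A.ι → M → Matrix (Fin n) (Fin n) ℂ} {x : M}
    (hg : (g (ch A x) x).PosDef) (hS : (S (ch A x) x).PosSemidef) : 0 ≤ mdens h g S x := by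
  unfold mdens
  refine div_nonneg ?_ (h.pos _ x (mem_ch A x)).le
  have h1 : (g (ch A x) x).adjugate = (g (ch A x) x).det • (g (ch A x) x)⁻¹ := by
    rw [Matrix.inv_def, Ring.inverse_eq_inv', smul_smul, mul_inv_cancel₀ hg.det_pos.ne', one_smul]
  have h2 : (0 : ℂ) ≤ ((g (ch A x) x)⁻¹ * S (ch A x) x).trace := tr_nonneg hg hS
  rw [h1, Matrix.smul_mul, Matrix.trace_smul, smul_eq_mul]
  exact (Complex.le_def.1 (mul_nonneg hg.det_pos.le h2)).1

end

end Crest.Agent.R273.TLb_201
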