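import Crest.Agent.R273.TLs_201

/-!
# R273 (S0416), T-LEMMA (helper201): the limit in `L²`

`tl_of : MassStmt → VolStmt → VolLow → ExpStmt → YauStmt → TLStmt`.
-/

set_option autoImplicit false
set_option linter.unusedSectionVars false

open Set Filter Topology Complex MeasureTheory
open scoped ContDiff Matrix ComplexConjugate ComplexOrder ENNReal

namespace Crest.Agent.R273.TLl_201

open Crest.Agent.R275 Crest.Agent.R275.Geo Crest.Agent.R275.Core144 Crest.Agent.R275.EDR890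
open Crest.Agent.R275.GC293
open Crest.Agent.R273.Defs_333 Crest.Agent.R273.Hess_333 Crest.Agent.R273.HessB_333
open Crest.Agent.R273.HM_333 Crest.Agent.R273.Kah_333 Crest.Agent.R273.Vol_333
open Crest.Agent.R273.Vm_333 Crest.Agent.R273.StV_37 Crest.Agent.R273.VolInv_5
open Crest.Agent.R273.YauDefs_635 Crest.Agent.R273.YauKah_635
open Crest.Agent.R273.Green_5 Crest.Agent.R273.FIa0_597 Crest.Agent.R273.FIb0_597
open Crest.Agent.R273.FIc0_597 Crest.Agent.R273.FId0_597
open Crest.Agent.R273.TLd_201 Crest.Agent.R273.TLb_201 Crest.Agent.R273.TLh_201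
open Crest.Agent.R273.TLs_201

noncomputable section

/-! ### `L²` -/

section L2

variable {X : Type*} [MeasurableSpace X] {μ : Measure X}

theorem norm_sq_eq (f : Lp ℝ 2 μ) : ‖f‖ ^ 2 = ∫ x, (f x) ^ 2 ∂μ := by
  rw [← real_inner_self_eq_norm_sq, L2.inner_def]
  refine integral_congr_ae (Eventually.of_forall fun x => ?_)
  simp [sq]

theorem norm_sub_sq_eq (f g : Lp ℝ 2 μ) : ‖f - g‖ ^ 2 = ∫ x, (f x - g x) ^ 2 ∂μ := by
  rw [norm_sq_eq]
  refine integral_congr_ae ?_
  filter_upwards [Lp.coeFn_sub f g] with x hx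
  rw [hx, Pi.sub_apply]

/-- limits of nonpositive functions with bounded exponential integrals -/
theorem closure_props {η C : ℝ} {S : Set (Lp ℝ 2 μ)}
    (h0 : ∀ f ∈ S, ∀ᵐ x ∂μ, f x ≤ 0)
    (h1 : ∀ f ∈ S, ∫⁻ x, ENNReal.ofReal (Real.exp (-(η * f x))) ∂μ ≤ ENNReal.ofReal C)
    {p : Lp ℝ 2 μ} (hp : p ∈ closure S) :
    (∀ᵐ x ∂μ, p x ≤ 0) ∧
      ∫⁻ x, ENNReal.ofReal (Real.exp (-(η * p x))) ∂μ ≤ ENNReal.ofReal C := by
  obtain ⟨f, hf, hlim⟩ := mem_closure_iff_seq_limit.1 hp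
  have h2 : TendstoInMeasure μ (fun k => (f k : X → ℝ)) atTop p :=
    tendstoInMeasure_of_tendsto_Lp hlim
  obtain ⟨ns, -, hns⟩ := h2.exists_seq_tendsto_ae
  have h3 : ∀ᵐ x ∂μ, ∀ k, f k x ≤ 0 := ae_all_iff.2 fun k => h0 _ (hf k)
  constructor
  · filter_upwards [hns, h3] with x hx hx'
    exact le_of_tendsto' hx fun k => hx' _
  · have h4 : ∀ᵐ x ∂μ, ENNReal.ofReal (Real.exp (-(η * p x))) =
        liminf (fun k => ENNReal.ofReal (Real.exp (-(η * f (ns k) x)))) atTop := by
      filter_upwards [hns] with x hx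
      have h5 : Tendsto (fun k => ENNReal.ofReal (Real.exp (-(η * f (ns k) x)))) atTop
          (𝓝 (ENNReal.ofReal (Real.exp (-(η * p x))))) := by
        refine (ENNReal.continuous_ofReal.tendsto _).comp ?_
        exact (Real.continuous_exp.tendsto _).comp ((hx.const_mul η).neg)
      exact h5.liminf_eq.symm
    rw [lintegral_congr_ae h4]
    refine (lintegral_liminf_le' fun k => ?_).trans ?_
    · exact ((Lp.stronglyMeasurable (f (ns k))).measurable.const_mul η).neg.exp.ennreal_ofReal.aemeasurable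
    · refine liminf_le_of_frequently_le' (Frequently.of_forall fun k => h1 _ (hf (ns k)))

end L2

variable {n : ℕ} {M : Type} [TopologicalSpace M] {A : Atl n M} {L L' : LB A}

/-- the properties of the approximants -/
structure Pr [MeasurableSpace M] [BorelSpace M] [Countable A.ι] (h : HM (KB A)⁻¹) (D : TD A)
    (K : Kah A) (δ η C : ℝ) (m : ℕ) (T : Finset (Tst D)) (v : M → ℝ) : Prop where
  sm : A.Sm v
  np : ∀ x, v x ≤ 0
  psd : ∀ i, ∀ x ∈ (A.e i).source,
    (cur h i x + (1 / ((m : ℂ) + 1)) • K.g i x + hsf A v i x).PosSemidef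
  ex : ∫⁻ x, ENNReal.ofReal (Real.exp (-(η * v x))) ∂(vm h) ≤ ENNReal.ofReal C
  tst : ∀ t ∈ T, δ * t.B h D.be ≤
    t.B h (fun i x => cur h i x + (1 / ((m : ℂ) + 1)) • K.g i x + hsf A v i x)

section

variable [T2Space M] [CompactSpace M] [Fintype A.ι] [MeasurableSpace M] [BorelSpace M]
  {h : HM (KB A)⁻¹} {D : TD A} {K : Kah A} {δ η C : ℝ}

theorem tf_m (h : HM (KB A)⁻¹) (K : Kah A) (s : ℂ) {v : M → ℝ} (hv : A.Sm v) :
    TF A (fun i x => cur h i x + s • K.g i x + hsf A v i x) :=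
  TF.add (TF.add (tf_cur h) ((tf_kah K).smul s)) (tf_hsf hv)

theorem inv_le {m m' : ℕ} (hm : m ≤ m') : (0 : ℝ) ≤ 1 / ((m : ℝ) + 1) - 1 / ((m' : ℝ) + 1) := by
  have h1 : (m : ℝ) ≤ m' := by exact_mod_cast hm
  have h2 : 1 / ((m' : ℝ) + 1) ≤ 1 / ((m : ℝ) + 1) :=
    one_div_le_one_div_of_le (by positivity) (by linarith)
  linarith

theorem field_mono (h : HM (KB A)⁻¹) (K : Kah A) (m m' : ℕ) (v : M → ℝ) (i : A.ι) (x : M) :
    cur h i x + (1 / ((m : ℂ) + 1)) • K.g i x + hsf A v i x =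
      (cur h i x + (1 / ((m' : ℂ) + 1)) • K.g i x + hsf A v i x) +
        ((1 / ((m : ℝ) + 1) - 1 / ((m' : ℝ) + 1) : ℝ) : ℂ) • K.g i x := by
  push_cast
  module

theorem Pr.mono {m m' : ℕ} (hm : m ≤ m') {T T' : Finset (Tst D)} (hT : T ⊆ T') {v : M → ℝ}
    (hv : Pr h D K δ η C m' T' v) : Pr h D K δ η C m T v where
  sm := hv.sm
  np := hv.np
  ex := hv.ex
  psd i x hx := by
    rw [field_mono h K m m' v i x]
    exact (hv.psd i x hx).add ((K.pos i x hx).posSemidef.smul (by exact_mod_cast inv_le hm))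
  tst t ht := by
    refine (hv.tst t (hT ht)).trans ?_
    have e : t.B h (fun i x => cur h i x + (1 / ((m : ℂ) + 1)) • K.g i x + hsf A v i x) =
        t.B h (fun i x => (cur h i x + (1 / ((m' : ℂ) + 1)) • K.g i x + hsf A v i x) +
        ((1 / ((m : ℝ) + 1) - 1 / ((m' : ℝ) + 1) : ℝ) : ℂ) • K.g i x) :=
      B_congr h t fun x _ => field_mono h K m m' v _ x
    rw [e, B_add h t (tf_m h K _ hv.sm) ((tf_kah K).smul _), B_smul]
    have h1 := B_nonneg h t (T := K.g) fun i x hx => (K.pos i x hx).posSemidef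
    have h2 := mul_nonneg (inv_le hm) h1
    linarith

theorem Pr.convex {m : ℕ} {T : Finset (Tst D)} {v v' : M → ℝ} (hv : Pr h D K δ η C m T v)
    (hv' : Pr h D K δ η C m T v') {a b : ℝ} (ha : 0 ≤ a) (hb : 0 ≤ b) (hab : a + b = 1) :
    Pr h D K δ η C m T (fun x => a * v x + b * v' x) := by
  have hcomb : ∀ i, ∀ x ∈ (A.e i).source,
      cur h i x + (1 / ((m : ℂ) + 1)) • K.g i x + hsf A (fun x => a * v x + b * v' x) i x =
      (a : ℂ) • (cur h i x + (1 / ((m : ℂ) + 1)) • K.g i x + hsf A v i x) +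
      (b : ℂ) • (cur h i x + (1 / ((m : ℂ) + 1)) • K.g i x + hsf A v' i x) := by
    intro i x hx
    rw [hsf_add (sm_smul a hv.sm) (sm_smul b hv'.sm) hx, hsf_smul a hv.sm hx,
      hsf_smul b hv'.sm hx]
    have h1 : (b : ℂ) = 1 - a := by
      have : b = 1 - a := by linarith
      rw [this]; push_cast; ring
    rw [h1]
    module
  refine ⟨sm_add (sm_smul a hv.sm) (sm_smul b hv'.sm), fun x => ?_, fun i x hx => ?_, ?_,
    fun t ht => ?_⟩
  · have h1 := mul_nonneg ha (neg_nonneg.2 (hv.np x))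
    have h2 := mul_nonneg hb (neg_nonneg.2 (hv'.np x))
    linarith
  · rw [hcomb i x hx]
    exact ((hv.psd i x hx).smul (by exact_mod_cast ha)).add
      ((hv'.psd i x hx).smul (by exact_mod_cast hb))
  · have h1 : ∀ x, ENNReal.ofReal (Real.exp (-(η * (a * v x + b * v' x)))) ≤
        ENNReal.ofReal a * ENNReal.ofReal (Real.exp (-(η * v x))) +
          ENNReal.ofReal b * ENNReal.ofReal (Real.exp (-(η * v' x))) := by
      intro x
      rw [← ENNReal.ofReal_mul ha, ← ENNReal.ofReal_mul hb, ← ENNReal.ofReal_add (by positivity)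
        (by positivity)]
      refine ENNReal.ofReal_le_ofReal ?_
      have h2 := convexOn_exp.2 (mem_univ (-(η * v x))) (mem_univ (-(η * v' x))) ha hb hab
      simp only [smul_eq_mul] at h2
      refine le_trans (le_of_eq ?_) h2
      congr 1
      ring
    refine (lintegral_mono h1).trans ?_
    have hmeas : Measurable fun x => ENNReal.ofReal b * ENNReal.ofReal (Real.exp (-(η * v' x))) :=
      ((((cont_sm hv'.sm).measurable.const_mul η).neg.exp).ennreal_ofReal).const_mul _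
    rw [lintegral_add_right _ hmeas, lintegral_const_mul' _ _ ENNReal.ofReal_ne_top,
      lintegral_const_mul' _ _ ENNReal.ofReal_ne_top]
    calc ENNReal.ofReal a * ∫⁻ x, ENNReal.ofReal (Real.exp (-(η * v x))) ∂(vm h) +
          ENNReal.ofReal b * ∫⁻ x, ENNReal.ofReal (Real.exp (-(η * v' x))) ∂(vm h)
        ≤ ENNReal.ofReal a * ENNReal.ofReal C + ENNReal.ofReal b * ENNReal.ofReal C :=
          add_le_add (mul_le_mul_right hv.ex _) (mul_le_mul_right hv'.ex _)
      _ = (ENNReal.ofReal a + ENNReal.ofReal b) * ENNReal.ofReal C := by ring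
      _ = ENNReal.ofReal C := by
          rw [← ENNReal.ofReal_add ha hb, hab, ENNReal.ofReal_one, one_mul]
  · have e : t.B h (fun i x => cur h i x + (1 / ((m : ℂ) + 1)) • K.g i x +
        hsf A (fun x => a * v x + b * v' x) i x) =
        t.B h (fun i x =>
          (a : ℂ) • (cur h i x + (1 / ((m : ℂ) + 1)) • K.g i x + hsf A v i x) +
          (b : ℂ) • (cur h i x + (1 / ((m : ℂ) + 1)) • K.g i x + hsf A v' i x)) :=
      B_congr h t fun x hx => hcomb _ x hx
    rw [e, B_add h t ((tf_m h K _ hv.sm).smul _) ((tf_m h K _ hv'.sm).smul _), B_smul, B_smul]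
    have h1 := mul_le_mul_of_nonneg_left (hv.tst t ht) ha
    have h2 := mul_le_mul_of_nonneg_left (hv'.tst t ht) hb
    have h3 : δ * t.B h D.be = a * (δ * t.B h D.be) + b * (δ * t.B h D.be) := by
      rw [← add_mul, hab, one_mul]
    linarith

theorem Pr.memLp {m : ℕ} {T : Finset (Tst D)} {v : M → ℝ} (hv : Pr h D K δ η C m T v) :
    MemLp v 2 (vm h) := by
  have := isFinite_vm h
  have hc := cont_sm hv.sm
  obtain ⟨B, hB⟩ := isCompact_univ.exists_bound_of_continuousOn hc.continuousOn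
  exact MemLp.of_bound hc.aestronglyMeasurable B (Eventually.of_forall fun x => hB x (mem_univ x))

theorem Pr.sq_le {m : ℕ} {T : Finset (Tst D)} {v : M → ℝ} (hη : 0 < η)
    (hv : Pr h D K δ η C m T v) : ∫ x, (v x) ^ 2 ∂(vm h) ≤ 2 / η ^ 2 * (max C 0) := by
  have h1 : ∀ x, (v x) ^ 2 ≤ 2 / η ^ 2 * Real.exp (-(η * v x)) := by
    intro x
    have h2 : 0 ≤ -(η * v x) := by
      have := mul_nonneg hη.le (neg_nonneg.2 (hv.np x))
      linarith
    have h3 := Real.quadratic_le_exp_of_nonneg h2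
    have h4 : (-(η * v x)) ^ 2 / 2 ≤ Real.exp (-(η * v x)) := by nlinarith
    have h5 : (v x) ^ 2 = 2 / η ^ 2 * ((-(η * v x)) ^ 2 / 2) := by
      field_simp
    rw [h5]
    exact mul_le_mul_of_nonneg_left h4 (by positivity)
  have hc := cont_sm hv.sm
  have i1 : Integrable (fun x => Real.exp (-(η * v x))) (vm h) :=
    integrable_cont h (Real.continuous_exp.comp ((hc.const_mul η).neg))
  have h2 : ∫ x, Real.exp (-(η * v x)) ∂(vm h) ≤ max C 0 := by
    rw [integral_eq_lintegral_of_nonneg_ae (Eventually.of_forall fun x => (Real.exp_pos _).le)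
      i1.aestronglyMeasurable]
    refine ENNReal.toReal_le_of_le_ofReal (le_max_right _ _) (hv.ex.trans ?_)
    exact ENNReal.ofReal_le_ofReal (le_max_left _ _)
  calc ∫ x, (v x) ^ 2 ∂(vm h) ≤ ∫ x, 2 / η ^ 2 * Real.exp (-(η * v x)) ∂(vm h) :=
        integral_mono (integrable_cont h (hc.pow 2)) (i1.const_mul _) h1
    _ = 2 / η ^ 2 * ∫ x, Real.exp (-(η * v x)) ∂(vm h) := integral_const_mul _ _
    _ ≤ _ := mul_le_mul_of_nonneg_left h2 (by positivity)

/-- the limit -/
theorem limit (hη : 0 < η) (hδ : 0 < δ)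
    (hne : ∀ (m : ℕ) (T : Finset (Tst D)), ∃ v, Pr h D K δ η C m T v) : TLStmt h D K := by
  classical
  set S : ℕ × Finset (Tst D) → Set (Lp ℝ 2 (vm h)) := fun q =>
    {f | ∃ v, Pr h D K δ η C q.1 q.2 v ∧ f =ᵐ[vm h] v} with hS
  have hSc : ∀ q, Convex ℝ (S q) := by
    rintro q f ⟨v, hv, hf⟩ f' ⟨v', hv', hf'⟩ a b ha hb hab
    refine ⟨fun x => a * v x + b * v' x, hv.convex hv' ha hb hab, ?_⟩
    filter_upwards [Lp.coeFn_add (a • f) (b • f'), Lp.coeFn_smul a f, Lp.coeFn_smul b f', hf, hf']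
      with x h1 h2 h3 h4 h5
    rw [h1, Pi.add_apply, h2, h3, Pi.smul_apply, Pi.smul_apply, h4, h5, smul_eq_mul, smul_eq_mul]
  have hSn : ∀ q, (S q).Nonempty := by
    intro q
    obtain ⟨v, hv⟩ := hne q.1 q.2
    exact ⟨hv.memLp.toLp v, v, hv, hv.memLp.coeFn_toLp⟩
  have hSa : Antitone S := by
    rintro q q' hq f ⟨v, hv, hf⟩
    exact ⟨v, hv.mono hq.1 hq.2, hf⟩
  have hSb : ∀ q, ∀ f ∈ S q, ‖f‖ ^ 2 ≤ 2 / η ^ 2 * (max C 0) := by
    rintro q f ⟨v, hv, hf⟩
    rw [norm_sq_eq]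
    refine le_trans (le_of_eq ?_) (hv.sq_le hη)
    refine integral_congr_ae ?_
    filter_upwards [hf] with x hx
    rw [hx]
  set R : ℝ := Real.sqrt (2 / η ^ 2 * (max C 0)) with hR
  have hSb' : ∀ q, ∀ f ∈ closure (S q), ‖f‖ ≤ R := by
    intro q f hf
    have h1 : closure (S q) ⊆ Metric.closedBall 0 R :=
      closure_minimal (fun f hf => by
        rw [mem_closedBall_zero_iff]
        exact Real.le_sqrt_of_sq_le (hSb q f hf)) Metric.isClosed_closedBall
    simpa using h1 hf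
  obtain ⟨p, hp⟩ := exists_mem_iInter (C := fun q => closure (S q)) (fun q => (hSc q).closure)
    (fun q => isClosed_closure) (fun q => (hSn q).closure) (fun q q' hq => closure_mono (hSa hq))
    hSb'
  have hprops := closure_props (η := η) (C := C) (S := S (0, ∅)) (by
      rintro f ⟨v, hv, hf⟩
      filter_upwards [hf] with x hx
      rw [hx]
      exact hv.np x) (by
      rintro f ⟨v, hv, hf⟩
      refine le_trans (le_of_eq ?_) hv.ex
      refine lintegral_congr_ae ?_
      filter_upwards [hf] with x hx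
      rw [hx]) (hp (0, ∅))
  set u : M → ℝ := fun x => min (p x) 0 with hu
  have hup : u =ᵐ[vm h] p := by
    filter_upwards [hprops.1] with x hx
    exact min_eq_left hx
  have hum : Measurable u := (Lp.stronglyMeasurable p).measurable.min measurable_const
  refine ⟨δ, η, u, hδ, hη, hum, fun x => min_le_right _ _, (Lp.memLp p).ae_eq hup.symm, ?_, ?_⟩
  · have hmE : Measurable fun x => Real.exp (-(η * u x)) := (hum.const_mul η).neg.exp
    refine ⟨hmE.aestronglyMeasurable, ?_⟩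
    rw [hasFiniteIntegral_iff_ofReal (Eventually.of_forall fun x => (Real.exp_pos _).le)]
    refine lt_of_le_of_lt (le_trans (le_of_eq ?_) hprops.2) ENNReal.ofReal_lt_top
    refine lintegral_congr_ae ?_
    filter_upwards [hup] with x hx
    rw [hx]
  · intro m ε hε T
    obtain ⟨f, ⟨v, hv, hf⟩, hd⟩ := Metric.mem_closure_iff.1 (hp (m, T)) (Real.sqrt ε)
      (Real.sqrt_pos.2 hε)
    refine ⟨v, hv.sm, hv.np, hv.psd, ?_, hv.tst⟩
    rw [dist_comm, dist_eq_norm] at hd
    have h1 : ‖f - p‖ ^ 2 ≤ ε := by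
      have h2 := pow_le_pow_left₀ (norm_nonneg _) hd.le 2
      rwa [Real.sq_sqrt hε.le] at h2
    rw [norm_sub_sq_eq] at h1
    refine le_trans (le_of_eq ?_) h1
    refine integral_congr_ae ?_
    filter_upwards [hf, hup] with x hx hx'
    rw [hx, hx']

/-- **T-LEMMA** from mass, volume, exponential integrability and Yau's theorem -/
theorem tl_of [ConnectedSpace M] (hY : YauStmt) (hG : GoodA A) (P : Part A) {H : HM L'}
    (hH : H.Pos) (hs : h.Semipos) (hmass : MassStmt h D) {ν : ℕ} (hν : 1 ≤ ν)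
    (hup : VolStmt h D ν (kah H hH)) (hlo : VolLow h ν (kah H hH))
    (hE : ExpStmt h (mul h H)) : TLStmt h D (kah H hH) := by
  obtain ⟨C, hC, hup⟩ := hup
  obtain ⟨c, hc, hlo⟩ := hlo
  obtain ⟨η, hη, C1, hE⟩ := hE
  refine limit (δ := 1 / (4 * (C / c + 1))) (η := η) (C := C1) hη (by positivity) fun m T => ?_
  -- the Kähler metric `K + s θ`
  set s : ℕ := m + 1 with hsd
  have hs1 : 1 ≤ s := by omega
  set Ks := kah (mul H (pow h s)) (pos_t hH hs s) with hKs
  have hcs : ∀ i, ∀ x ∈ (A.e i).source, Ks.g i x = cur H i x + (s : ℂ) • cur h i x :=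
    fun i x hx => by
      show cur (mul H (pow h s)) i x = _
      rw [cur_mul H (pow h s) i hx, cur_pow h s i hx]
  have hup' : ∫⁻ x in D.U, ENNReal.ofReal
      (mdens h (fun i x => cur H i x + (s : ℂ) • cur h i x) D.be x) ∂(vm h) ≤
      ENNReal.ofReal (C * (s : ℝ) ^ (ν - 1)) := by
    refine le_trans (le_of_eq ?_) (hup s hs1 Ks hcs)
    refine lintegral_congr fun x => ?_
    unfold mdens
    rw [hcs _ x (mem_ch A x)]
  have hlo' : c * (s : ℝ) ^ ν ≤
      ∫ x, dtM h (fun i x => cur H i x + (s : ℂ) • cur h i x) x ∂(vm h) := by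
    refine le_trans (hlo s hs1 Ks hcs) (le_of_eq ?_)
    refine integral_congr_ae (Eventually.of_forall fun x => ?_)
    show (Ks.g (ch A x) x).det.re / _ = _ / _
    rw [hcs _ x (mem_ch A x)]
  obtain ⟨w, hw, hpd, htst⟩ := sep hY hG P hH hs hmass hν hC hc hs1 hup' hlo' T
  -- normalise
  have hs0 : (0 : ℝ) < s := by exact_mod_cast hs1
  have hwc : Continuous w := cont_sm hw
  obtain ⟨x0, -, hx0⟩ := isCompact_univ.exists_isMaxOn (univ_nonempty (α := M)) hwc.continuousOn
  set v : M → ℝ := fun x => (1 / (s : ℝ)) * w x - (1 / (s : ℝ)) * w x0 with hv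
  have hvs : A.Sm v := fun i => (sm_smul (1 / (s : ℝ)) hw i).sub contDiffOn_const
  have hvn : ∀ x, v x ≤ 0 := fun x => by
    have h1 : w x ≤ w x0 := hx0 (mem_univ x)
    have h2 := mul_le_mul_of_nonneg_left h1 (by positivity : (0 : ℝ) ≤ 1 / (s : ℝ))
    simp only [hv]
    linarith
  have hfield : ∀ i, ∀ x ∈ (A.e i).source,
      cur h i x + (1 / ((m : ℂ) + 1)) • (kah H hH).g i x + hsf A v i x =
        ((1 / (s : ℝ) : ℝ) : ℂ) • (cur H i x + (s : ℂ) • cur h i x + hsf A w i x) := by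
    intro i x hx
    rw [hsf_sub_const (sm_smul (1 / (s : ℝ)) hw) _ hx, hsf_smul _ hw hx]
    have h1 : ((1 / (s : ℝ) : ℝ) : ℂ) = 1 / ((m : ℂ) + 1) := by
      rw [hsd]; push_cast; ring
    have h2 : (1 / ((m : ℂ) + 1)) * (s : ℂ) = 1 := by
      rw [hsd]
      push_cast
      have : (m : ℂ) + 1 ≠ 0 := by exact_mod_cast Nat.succ_ne_zero m
      field_simp
    rw [h1, smul_add, smul_add, smul_smul, h2, one_smul]
    show _ + (1 / ((m : ℂ) + 1)) • cur H i x + _ = _
    abel
  have hvp : ∀ i, ∀ x ∈ (A.e i).source,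
      (cur h i x + (1 / ((m : ℂ) + 1)) • (kah H hH).g i x + hsf A v i x).PosSemidef := by
    intro i x hx
    rw [hfield i x hx]
    exact (hpd i x hx).posSemidef.smul (by
      have : (0 : ℝ) ≤ 1 / (s : ℝ) := by positivity
      exact_mod_cast this)
  refine ⟨v, hvs, hvn, hvp, ?_, fun t ht => ?_⟩
  · refine hE v hvs (fun i x hx => ?_) hvn ⟨x0, by simp [hv]⟩
    have h1 : cur (mul h H) i x + hsf A v i x =
        (cur h i x + (1 / ((m : ℂ) + 1)) • (kah H hH).g i x + hsf A v i x) +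
          ((1 - 1 / ((m : ℝ) + 1) : ℝ) : ℂ) • cur H i x := by
      rw [cur_mul h H i hx]
      show _ = (cur h i x + (1 / ((m : ℂ) + 1)) • cur H i x + hsf A v i x) + _
      push_cast
      module
    rw [h1]
    refine (hvp i x hx).add ((cur_posDef hH i hx).posSemidef.smul ?_)
    have h2 : (0 : ℝ) ≤ 1 - 1 / ((m : ℝ) + 1) := by
      have h3 : 1 / ((m : ℝ) + 1) ≤ 1 := by
        rw [div_le_one (by positivity)]
        have : (0 : ℝ) ≤ m := Nat.cast_nonneg m
        linarith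
      linarith
    exact_mod_cast h2
  · have h1 := htst t ht
    have e : t.B h (fun i x => cur h i x + (1 / ((m : ℂ) + 1)) • (kah H hH).g i x +
        hsf A v i x) = t.B h (fun i x => ((1 / (s : ℝ) : ℝ) : ℂ) •
          (cur H i x + (s : ℂ) • cur h i x + hsf A w i x)) :=
      B_congr h t fun x hx => hfield _ x hx
    rw [e, B_smul]
    have h2 := mul_le_mul_of_nonneg_left h1 (by positivity : (0 : ℝ) ≤ 1 / (s : ℝ))
    refine le_trans (le_of_eq ?_) h2
    field_simp

end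

end

end Crest.Agent.R273.TLl_201
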