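import Crest.Agent.R273.FIlin_332
import Crest.Agent.R273.TLd_201

/-!
# R273 (S0416), T-LEMMA (T1'), part A (helper332): linear algebra and pointwise limits

* `tr_adj` : `tr (adj (Bᴴ diag w B) (Bᴴ T B)) = |det B|² ∑ i, (∏ j ≠ i, w j) T i i`
* `adj_scale` : `tr (adj (G + s S) β) ≤ s ^ (ν-1) tr (adj (G + S) β)`
* `tr_adj_le_det` : `tr (adj G β) ≤ det (G + β)`
* `tendsto_bk`, `psd_be` : `β_κ → β` on `{N > 0}`, `β ≥ 0` there
* `addKah` : `K + cur h` as a Kaehler metric
-/

set_option autoImplicit false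
set_option linter.unusedSectionVars false

open Set Filter Topology Complex MeasureTheory
open scoped ContDiff Matrix ComplexConjugate ComplexOrder ENNReal

namespace Crest.Agent.R273.TVolA_332

open Crest.Agent.R275 Crest.Agent.R275.Geo Crest.Agent.R275.Core144 Crest.Agent.R275.EDR890
open Crest.Agent.R273.Defs_333 Crest.Agent.R273.Hess_333 Crest.Agent.R273.HessB_333
open Crest.Agent.R273.HM_333 Crest.Agent.R273.Kah_333 Crest.Agent.R273.Vol_333
open Crest.Agent.R273.Vm_333
open Crest.Agent.R273.Green_5 Crest.Agent.R273.FIa0_597 Crest.Agent.R273.FIb0_597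
open Crest.Agent.R273.FIlin_332 Crest.Agent.R273.TLd_201

noncomputable section

variable {n : ℕ}

/-! ### linear algebra -/

theorem det_nd' (P : Matrix (Fin n) (Fin n) ℂ) : P.det * (Pᴴ).det = (nd P : ℂ) := by
  rw [mul_comm, det_nd]

theorem tr_adj (P T : Matrix (Fin n) (Fin n) ℂ) (w : Fin n → ℂ) :
    ((Pᴴ * Matrix.diagonal w * P).adjugate * (Pᴴ * T * P)).trace =
      (nd P : ℂ) * ∑ i, (∏ j ∈ Finset.univ.erase i, w j) * T i i := by
  have h1 : (Pᴴ * Matrix.diagonal w * P).adjugate * (Pᴴ * T * P) =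
      P.adjugate * ((Matrix.diagonal w).adjugate * (((Pᴴ).adjugate * Pᴴ) * T) * P) := by
    rw [Matrix.adjugate_mul_distrib, Matrix.adjugate_mul_distrib]
    simp only [Matrix.mul_assoc]
  rw [h1, Matrix.trace_mul_comm, Matrix.mul_assoc, Matrix.mul_adjugate, Matrix.adjugate_mul,
    Matrix.adjugate_diagonal]
  simp only [Matrix.smul_mul, Matrix.mul_smul, Matrix.one_mul, Matrix.mul_one, Matrix.trace_smul,
    smul_eq_mul]
  rw [← mul_assoc, det_nd']
  congr 1
  simp only [Matrix.trace, Matrix.diag, Matrix.diagonal_mul]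

theorem conj_form {P B : Matrix (Fin n) (Fin n) ℂ} (hP : IsUnit P.det) (hB : B.PosSemidef) :
    ∃ T : Matrix (Fin n) (Fin n) ℂ, T.PosSemidef ∧ B = Pᴴ * T * P ∧
      ∀ i, B *ᵥ (P⁻¹ *ᵥ Pi.single i 1) = 0 → T i i = 0 := by
  refine ⟨(P⁻¹)ᴴ * B * P⁻¹, hB.conjTranspose_mul_mul_same P⁻¹, ?_, fun i hi => ?_⟩
  · have e1 : Pᴴ * (P⁻¹)ᴴ = 1 := by
      rw [← Matrix.conjTranspose_mul, Matrix.nonsing_inv_mul _ hP, Matrix.conjTranspose_one]
    calc B = (Pᴴ * (P⁻¹)ᴴ) * B * (P⁻¹ * P) := by
          rw [e1, Matrix.nonsing_inv_mul _ hP, Matrix.one_mul, Matrix.mul_one]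
      _ = _ := by simp only [Matrix.mul_assoc]
  · have h1 : ((P⁻¹)ᴴ * B * P⁻¹) *ᵥ (Pi.single i 1) = 0 := by
      rw [← Matrix.mulVec_mulVec, ← Matrix.mulVec_mulVec, hi, Matrix.mulVec_zero]
    have h2 := congrFun h1 i
    rwa [Matrix.mulVec_single_one] at h2

theorem diag_re_nonneg {T : Matrix (Fin n) (Fin n) ℂ} (hT : T.PosSemidef) (i : Fin n) :
    0 ≤ (T i i).re ∧ T i i = ((T i i).re : ℂ) := by
  have h := Complex.le_def.1 (hT.diag_nonneg (i := i))
  refine ⟨h.1, ?_⟩
  apply Complex.ext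
  · rw [Complex.ofReal_re]
  · rw [Complex.ofReal_im]; exact h.2.symm

/-- **scaling of the mass**: `tr (adj (G + s S) β) ≤ s ^ (ν - 1) tr (adj (G + S) β)` -/
theorem adj_scale {G S B : Matrix (Fin n) (Fin n) ℂ} (hG : G.PosDef) (hS : S.PosSemidef)
    (hB : B.PosSemidef) {ν : ℕ} (hν : 1 ≤ ν) (hrk : S.rank ≤ ν)
    (hker : S.rank = ν → ∀ v : Fin n → ℂ, S *ᵥ v = 0 → B *ᵥ v = 0) {s : ℝ} (hs : 1 ≤ s) :
    ((G + (s : ℂ) • S).adjugate * B).trace.re ≤
      s ^ (ν - 1) * ((G + S).adjugate * B).trace.re := by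
  obtain ⟨P, d, hP, hd, h1, h2⟩ := simd hG hS
  obtain ⟨T, hT, hBT, hT0⟩ := conj_form hP hB
  have hform : ∀ t : ℝ, ((G + (t : ℂ) • S).adjugate * B).trace.re =
      nd P * ∑ i, (∏ j ∈ Finset.univ.erase i, (1 + t * d j)) * (T i i).re := by
    intro t
    have e1 : G + (t : ℂ) • S = Pᴴ * Matrix.diagonal (fun i => 1 + (t : ℂ) * (d i : ℂ)) * P := by
      have e2 : Matrix.diagonal (fun i => 1 + (t : ℂ) * (d i : ℂ))
          = (1 : Matrix (Fin n) (Fin n) ℂ) + (t : ℂ) • Matrix.diagonal (fun i => (d i : ℂ)) := by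
        rw [← Matrix.diagonal_one, ← Matrix.diagonal_smul, Matrix.diagonal_add]
        rfl
      rw [e2, h1, h2, Matrix.mul_add, Matrix.add_mul, Matrix.mul_one, Matrix.mul_smul,
        Matrix.smul_mul]
    rw [e1, hBT, tr_adj]
    have e3 : ((nd P : ℂ) * ∑ i, (∏ j ∈ Finset.univ.erase i, (1 + (t : ℂ) * (d j : ℂ))) * T i i)
        = ((nd P * ∑ i, (∏ j ∈ Finset.univ.erase i, (1 + t * d j)) * (T i i).re : ℝ) : ℂ) := by
      push_cast
      congr 1
      refine Finset.sum_congr rfl fun i _ => ?_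
      rw [← (diag_re_nonneg hT i).2]
    rw [e3, Complex.ofReal_re]
  have hform1 := hform 1
  rw [Complex.ofReal_one, one_smul] at hform1
  rw [hform s, hform1, ← mul_assoc, mul_comm (s ^ (ν - 1)) (nd P), mul_assoc]
  refine mul_le_mul_of_nonneg_left ?_ (nd_pos hP).le
  rw [Finset.mul_sum]
  refine Finset.sum_le_sum fun i _ => ?_
  rw [← mul_assoc]
  -- rank
  have hrk' : (Finset.univ.filter fun i => d i ≠ 0).card = S.rank := by
    rw [rank_eq hP h2, Fintype.card_subtype]
  by_cases hi : d i = 0 ∧ S.rank = ν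
  · have h0 : T i i = 0 := by
      refine hT0 i (hker hi.2 _ ?_)
      rw [h2, Matrix.mulVec_mulVec, Matrix.mul_assoc, Matrix.mul_nonsing_inv _ hP, Matrix.mul_one,
        ← Matrix.mulVec_mulVec]
      have : Matrix.diagonal (fun i => (d i : ℂ)) *ᵥ (Pi.single i 1) = 0 := by
        ext j
        rw [Matrix.mulVec_diagonal]
        by_cases hj : j = i
        · rw [hj, hi.1]; simp
        · rw [Pi.single_eq_of_ne hj]; simp
      rw [this, Matrix.mulVec_zero]
    rw [h0]; simp
  · refine mul_le_mul_of_nonneg_right ?_ (diag_re_nonneg hT i).1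
    have hcard : ((Finset.univ.erase i).filter fun j => d j ≠ 0).card ≤ ν - 1 := by
      by_cases hdi : d i = 0
      · have h3 : S.rank ≠ ν := fun h => hi ⟨hdi, h⟩
        have h4 : ((Finset.univ.erase i).filter fun j => d j ≠ 0).card ≤
            (Finset.univ.filter fun i => d i ≠ 0).card :=
          Finset.card_le_card (Finset.filter_subset_filter _ (Finset.erase_subset _ _))
        omega
      · have h4 : ((Finset.univ.erase i).filter fun j => d j ≠ 0) =
            (Finset.univ.filter fun i => d i ≠ 0).erase i := by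
          ext j
          simp only [Finset.mem_filter, Finset.mem_erase, Finset.mem_univ, and_true, true_and]
        have h5 : i ∈ Finset.univ.filter fun i => d i ≠ 0 :=
          Finset.mem_filter.2 ⟨Finset.mem_univ i, hdi⟩
        rw [h4, Finset.card_erase_of_mem h5]
        omega
    have h6 : ∏ j ∈ Finset.univ.erase i, (1 + s * d j) ≤
        ∏ j ∈ Finset.univ.erase i, ((if d j ≠ 0 then s else 1) * (1 + 1 * d j)) := by
      refine Finset.prod_le_prod (fun j _ => ?_) fun j _ => ?_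
      · have := mul_nonneg (by linarith : (0 : ℝ) ≤ s) (hd j)
        linarith
      · by_cases h : d j = 0
        · simp [h]
        · rw [if_pos h]
          nlinarith [hd j]
    refine h6.trans ?_
    rw [Finset.prod_mul_distrib, Finset.prod_ite, Finset.prod_const_one, mul_one,
      Finset.prod_const]
    refine mul_le_mul_of_nonneg_right (pow_le_pow_right₀ hs hcard)
      (Finset.prod_nonneg fun j _ => ?_)
    linarith [hd j]

theorem sum_le_prod {κ : Type*} (s : Finset κ) {d : κ → ℝ} (hd : ∀ i ∈ s, 0 ≤ d i) :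
    1 + ∑ i ∈ s, d i ≤ ∏ i ∈ s, (1 + d i) := by
  classical
  induction s using Finset.induction_on with
  | empty => simp
  | insert a s ha ih =>
    rw [Finset.sum_insert ha, Finset.prod_insert ha]
    have h1 := ih fun i hi => hd i (Finset.mem_insert_of_mem hi)
    have h2 := hd a (Finset.mem_insert_self a s)
    have h3 : 0 ≤ ∑ i ∈ s, d i := Finset.sum_nonneg fun i hi => hd i (Finset.mem_insert_of_mem hi)
    nlinarith

/-- `0 ≤ tr (adj G β) ≤ det (G + β)` -/
theorem tr_adj_le_det {G B : Matrix (Fin n) (Fin n) ℂ} (hG : G.PosDef) (hB : B.PosSemidef) :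
    0 ≤ (G.adjugate * B).trace.re ∧ (G.adjugate * B).trace.re ≤ (G + B).det.re := by
  obtain ⟨P, d, hP, hd, h1, h2⟩ := simd hG hB
  have e : (G.adjugate * B).trace.re = nd P * ∑ i, d i := by
    have e1 : G = Pᴴ * Matrix.diagonal (fun _ => (1 : ℂ)) * P := by
      rw [Matrix.diagonal_one, Matrix.mul_one, ← h1]
    have e2 := tr_adj P (Matrix.diagonal (fun i => (d i : ℂ))) (fun _ => (1 : ℂ))
    rw [← e1, ← h2] at e2
    rw [e2]
    simp only [Finset.prod_const_one, one_mul, Matrix.diagonal_apply_eq]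
    have e3 : ((nd P : ℂ) * ∑ i, (d i : ℂ)) = ((nd P * ∑ i, d i : ℝ) : ℂ) := by push_cast; rfl
    rw [e3, Complex.ofReal_re]
  have e' : (G + B).det.re = nd P * ∏ i, (1 + d i) := by
    have := det_add_smul_re h1 h2 1
    simpa using this
  rw [e, e']
  refine ⟨mul_nonneg (nd_pos hP).le (Finset.sum_nonneg fun i _ => hd i),
    mul_le_mul_of_nonneg_left ?_ (nd_pos hP).le⟩
  have := sum_le_prod Finset.univ (d := d) fun i _ => hd i
  linarith

theorem isClosed_psd : IsClosed {X : Matrix (Fin n) (Fin n) ℂ | X.PosSemidef} := by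
  have : {X : Matrix (Fin n) (Fin n) ℂ | X.PosSemidef}
      = {X | Xᴴ = X} ∩ ⋂ x : Fin n → ℂ, {X | 0 ≤ star x ⬝ᵥ (X *ᵥ x)} := by
    ext X
    simp [Matrix.posSemidef_iff_dotProduct_mulVec, Matrix.IsHermitian]
  rw [this]
  refine IsClosed.inter (isClosed_eq (continuous_id.matrix_conjTranspose) continuous_id) ?_
  refine isClosed_iInter fun x => ?_
  refine isClosed_le continuous_const ?_
  exact Continuous.dotProduct continuous_const
    (Continuous.matrix_mulVec continuous_id continuous_const)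

/-! ### limits -/

variable {M : Type} [TopologicalSpace M] {A : Atl n M} {L L' : LB A}

theorem tendsto_bk (D : TD A) {i : A.ι} {x : M} (hx : x ∈ (A.e i).source) (hU : x ∈ D.U) :
    Tendsto (fun κ : ℝ => D.bk' κ i x) (𝓝[>] 0) (𝓝 (D.be i x)) := by
  have hz := (A.e i).map_source hx
  have hUz : ContDiffAt ℝ ∞ (fun z => D.N ((A.e i).symm z)) (A.e i x) :=
    sm_contDiffAt D.smN i hz
  have hN : 0 < D.N x := hU
  have hp' : 0 < (fun z => D.N ((A.e i).symm z)) (A.e i x) := by
    simpa only [(A.e i).left_inv hx] using hN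
  set V := Matrix.vecMulVec (gr (fun z => D.N ((A.e i).symm z)) (A.e i x))
        (star (gr (fun z => D.N ((A.e i).symm z)) (A.e i x))) with hV
  have h2 : ∀ κ : ℝ, 0 < κ → D.bk' κ i x = D.om i x +
      ((D.N x / (D.N x + κ) : ℝ) • hsf A (fun y => Real.log (D.N y)) i x +
      (κ / (D.N x * (D.N x + κ) ^ 2) : ℝ) • V) := by
    intro κ hκ
    have h1 := hess_log_cmp hκ.le hUz hp'
    simp only [(A.e i).left_inv hx] at h1
    unfold TD.bk'
    congr 1
  have h3 : Tendsto (fun κ : ℝ => D.om i x +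
      ((D.N x / (D.N x + κ) : ℝ) • hsf A (fun y => Real.log (D.N y)) i x +
      (κ / (D.N x * (D.N x + κ) ^ 2) : ℝ) • V)) (𝓝[>] 0) (𝓝 (D.om i x +
      ((D.N x / (D.N x + 0) : ℝ) • hsf A (fun y => Real.log (D.N y)) i x +
      (0 / (D.N x * (D.N x + 0) ^ 2) : ℝ) • V))) := by
    have hc1 : ContinuousAt (fun κ : ℝ => D.N x / (D.N x + κ)) 0 :=
      continuousAt_const.div (continuousAt_const.add continuousAt_id) (by simpa using hN.ne')
    have hc2 : ContinuousAt (fun κ : ℝ => κ / (D.N x * (D.N x + κ) ^ 2)) 0 := by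
      refine continuousAt_id.div
        (continuousAt_const.mul ((continuousAt_const.add continuousAt_id).pow 2)) ?_
      simp [hN.ne']
    have hc1' : Tendsto (fun κ : ℝ => D.N x / (D.N x + κ)) (𝓝[>] 0) (𝓝 (D.N x / (D.N x + 0))) :=
      hc1.mono_left nhdsWithin_le_nhds
    have hc2' : Tendsto (fun κ : ℝ => κ / (D.N x * (D.N x + κ) ^ 2)) (𝓝[>] 0)
        (𝓝 (0 / (D.N x * (D.N x + 0) ^ 2))) := hc2.mono_left nhdsWithin_le_nhds
    exact tendsto_const_nhds.add ((hc1'.smul tendsto_const_nhds).add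
      (hc2'.smul tendsto_const_nhds))
  have h4 : D.om i x + ((D.N x / (D.N x + 0) : ℝ) • hsf A (fun y => Real.log (D.N y)) i x +
      (0 / (D.N x * (D.N x + 0) ^ 2) : ℝ) • V) = D.be i x := by
    rw [add_zero, div_self hN.ne', one_smul, zero_div, zero_smul, add_zero]
    rfl
  rw [h4] at h3
  exact h3.congr' (by filter_upwards [self_mem_nhdsWithin] with κ hκ using (h2 κ hκ).symm)

theorem psd_be (D : TD A) {i : A.ι} {x : M} (hx : x ∈ (A.e i).source) (hU : x ∈ D.U) :
    (D.be i x).PosSemidef :=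
  isClosed_psd.mem_of_tendsto (tendsto_bk D hx hU) (by
    filter_upwards [self_mem_nhdsWithin] with κ hκ
    exact D.psd_bk hκ i hx)

/-- `K + cur h` -/
def addKah (K : Kah A) {h : HM L} (hs : h.Semipos) : Kah A where
  g i x := K.g i x + cur h i x
  sm i a b := (K.sm i a b).add (cur_smooth h i a b)
  pos i x hx := (K.pos i x hx).add_posSemidef (cur_posSemidef hs i hx)
  tr i j x hx := by rw [K.tr i j x hx, cur_tr h hx, Matrix.mul_add, Matrix.add_mul]
  closed i z hz a b c := ((kah_cf K).add (cur_cf h)).closed i z hz a b c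
  closed' i z hz a b c := by
    have hK : ∀ b, DifferentiableAt ℝ (fun w => K.g i ((A.e i).symm w) a b) z := fun b =>
      (kah_cf K).diffAt hz a b
    have hC : ∀ b, DifferentiableAt ℝ (fun w => cur h i ((A.e i).symm w) a b) z := fun b =>
      (cur_cf h).diffAt hz a b
    have e : ∀ b c, wd (true, c)
        (fun w => (K.g i ((A.e i).symm w) + cur h i ((A.e i).symm w)) a b) z =
        wd (true, c) (fun w => K.g i ((A.e i).symm w) a b) z +
          wd (true, c) (fun w => cur h i ((A.e i).symm w) a b) z := fun b c =>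
      wd_add (hK b) (hC b) _
    rw [e b c, e c b, K.closed' i z hz, cur_closed' h i hz]

end

end Crest.Agent.R273.TVolA_332
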