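import Crest.Agent.R273.TVolA_332

/-!
# R273 (S0416), T-LEMMA (T1'), part B (helper332): volumes

* `volStmt : VolStmt h D ν K`
* `volLow : VolLow h ν K`
-/

set_option autoImplicit false
set_option linter.unusedSectionVars false

open Set Filter Topology Complex MeasureTheory
open scoped ContDiff Matrix ComplexConjugate ComplexOrder ENNReal

namespace Crest.Agent.R273.TVolB_332

open Crest.Agent.R275 Crest.Agent.R275.Geo Crest.Agent.R275.Core144 Crest.Agent.R275.EDR890
open Crest.Agent.R273.Defs_333 Crest.Agent.R273.Hess_333 Crest.Agent.R273.HessB_333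
open Crest.Agent.R273.HM_333 Crest.Agent.R273.Kah_333 Crest.Agent.R273.Vol_333
open Crest.Agent.R273.Vm_333 Crest.Agent.R273.StV_37 Crest.Agent.R273.VolInv_5
open Crest.Agent.R273.Green_5 Crest.Agent.R273.FIa0_597 Crest.Agent.R273.FIb0_597
open Crest.Agent.R273.FIc0_597 Crest.Agent.R273.FId0_597 Crest.Agent.R273.FIe0_597
open Crest.Agent.R273.FIlin_332 Crest.Agent.R273.TLd_201 Crest.Agent.R273.TVolA_332

noncomputable section

variable {n : ℕ} {M : Type} [TopologicalSpace M] {A : Atl n M} {L L' : LB A}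

section int

variable [T2Space M] [CompactSpace M] [MeasurableSpace M] [BorelSpace M]

/-- `tr (adj (g) S) / h = (det g / h) tr (g⁻¹ S)` -/
theorem mdens_kah [Fintype A.ι] (h : HM (KB A)⁻¹) (K : Kah A) (S : A.ι → M → Matrix (Fin n) (Fin n) ℂ) (x : M) :
    mdens h K.g S x = dtM h K.g x * trM K S x := by
  have hx := mem_ch A x
  have h1 := trC_det K S hx
  have h2 : (K.g (ch A x) x).det = ((K.g (ch A x) x).det.re : ℂ) := by
    apply Complex.ext
    · rw [Complex.ofReal_re]
    · rw [Complex.ofReal_im, ← volK_w K _ hx, Complex.ofReal_im]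
  unfold mdens dtM trM
  rw [← h1, h2, Complex.re_ofReal_mul, Complex.ofReal_re]
  ring

theorem cont_mdens [Fintype A.ι] (h : HM (KB A)⁻¹) (K : Kah A)
    {S : A.ι → M → Matrix (Fin n) (Fin n) ℂ} (hS : TF A S) : Continuous (mdens h K.g S) := by
  have : mdens h K.g S = fun x => dtM h K.g x * trM K S x := funext fun x => mdens_kah h K S x
  rw [this]
  exact (cont_dtM h (tf_kah K)).mul (cont_trM K hS)

theorem mdens_le_dtM (h : HM (KB A)⁻¹) (K : Kah A) {S : A.ι → M → Matrix (Fin n) (Fin n) ℂ}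
    {x : M} (hS : (S (ch A x) x).PosSemidef) :
    mdens h K.g S x ≤ dtM h (fun i x => K.g i x + S i x) x := by
  have hx := mem_ch A x
  exact div_le_div_of_nonneg_right (tr_adj_le_det (K.pos _ x hx) hS).2 (h.pos _ x hx).le

theorem dtM_nonneg (h : HM (KB A)⁻¹) {S : A.ι → M → Matrix (Fin n) (Fin n) ℂ} {x : M}
    (hS : (S (ch A x) x).PosSemidef) : 0 ≤ dtM h S x :=
  div_nonneg (Complex.le_def.1 hS.det_nonneg).1 (h.pos _ x (mem_ch A x)).le

theorem lint_bk_le [Fintype A.ι] (P : Part A) (h : HM (KB A)⁻¹) (D : TD A) (K : Kah A) {κ : ℝ}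
    (hκ : 0 < κ) :
    ∫⁻ x, ENNReal.ofReal (mdens h K.g (D.bk' κ) x) ∂(vm h) ≤
      ENNReal.ofReal (∫ x, dtM h (fun i x => K.g i x + D.om i x) x ∂(vm h)) := by
  have := isFinite_vm h
  have hT : TF A (fun i x => K.g i x + D.bk' κ i x) := (tf_kah K).add (tf_of_cf (D.cf_bk hκ))
  have hpsd : ∀ x, (K.g (ch A x) x + D.bk' κ (ch A x) x).PosSemidef := fun x =>
    (K.pos _ x (mem_ch A x)).posSemidef.add (D.psd_bk hκ _ (mem_ch A x))
  have h1 : ∫ x, dtM h (fun i x => K.g i x + D.bk' κ i x) x ∂(vm h) =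
      ∫ x, dtM h (fun i x => K.g i x + D.om i x) x ∂(vm h) := by
    rw [int_dtM P h hT, int_dtM P h ((tf_kah K).add (tf_of_cf D.cf)),
      ← volinv P ((kah_cf K).add D.cf) (D.sm_log hκ)]
    congr 1
    refine totc_congr P fun i x _ => ?_
    simp only [TD.bk', add_assoc]
  rw [← h1, ofReal_integral_eq_lintegral_ofReal (integrable_cont h (cont_dtM h hT))
    (Eventually.of_forall fun x => dtM_nonneg h (hpsd x))]
  exact lintegral_mono fun x => ENNReal.ofReal_le_ofReal
    (mdens_le_dtM h K (D.psd_bk hκ _ (mem_ch A x)))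

theorem lint_be_le [Fintype A.ι] (P : Part A) (h : HM (KB A)⁻¹) (D : TD A) (K : Kah A) :
    ∫⁻ x in D.U, ENNReal.ofReal (mdens h K.g D.be x) ∂(vm h) ≤
      ENNReal.ofReal (∫ x, dtM h (fun i x => K.g i x + D.om i x) x ∂(vm h)) := by
  have hpos : ∀ k : ℕ, (0 : ℝ) < 1 / ((k : ℝ) + 1) := fun k => by positivity
  set F : ℕ → M → ℝ≥0∞ := fun k x =>
    ENNReal.ofReal (mdens h K.g (D.bk' (1 / ((k : ℝ) + 1))) x) with hF
  have hFm : ∀ k, Measurable (F k) := fun k =>
    (cont_mdens h K (tf_of_cf (D.cf_bk (hpos k)))).measurable.ennreal_ofReal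
  have hlim : ∀ x ∈ D.U, Tendsto (fun k => F k x) atTop
      (𝓝 (ENNReal.ofReal (mdens h K.g D.be x))) := by
    intro x hx
    have hk : Tendsto (fun k : ℕ => (1 : ℝ) / ((k : ℝ) + 1)) atTop (𝓝[>] 0) :=
      tendsto_nhdsWithin_iff.2 ⟨tendsto_one_div_add_atTop_nhds_zero_nat,
        Eventually.of_forall fun k => hpos k⟩
    have h1 := (tendsto_bk D (mem_ch A x) hx).comp hk
    have hc : Continuous fun X : Matrix (Fin n) (Fin n) ℂ =>
        ((K.g (ch A x) x).adjugate * X).trace.re / h.w (ch A x) x := by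
      refine (Complex.continuous_re.comp ?_).div_const _
      exact (continuous_const.matrix_mul continuous_id).matrix_trace
    exact (ENNReal.continuous_ofReal.tendsto _).comp ((hc.tendsto _).comp h1)
  have hUm : MeasurableSet D.U := D.isOpen_U.measurableSet
  calc ∫⁻ x in D.U, ENNReal.ofReal (mdens h K.g D.be x) ∂(vm h)
      = ∫⁻ x in D.U, liminf (fun k => F k x) atTop ∂(vm h) :=
        setLIntegral_congr_fun hUm fun x hx => (hlim x hx).liminf_eq.symm
    _ ≤ liminf (fun k => ∫⁻ x in D.U, F k x ∂(vm h)) atTop := lintegral_liminf_le hFm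
    _ ≤ liminf (fun _ : ℕ => ENNReal.ofReal
        (∫ x, dtM h (fun i x => K.g i x + D.om i x) x ∂(vm h))) atTop := by
        refine liminf_le_liminf (Eventually.of_forall fun k => ?_)
        exact (setLIntegral_le_lintegral _ _).trans (lint_bk_le P h D K (hpos k))
    _ = _ := by rw [liminf_const]

/-- **upper bound of the mass of `β`** -/
theorem volStmt [Finite A.ι] (P : Part A) (h : HM (KB A)⁻¹) (hs : h.Semipos) (D : TD A) {ν : ℕ}
    (hν : 1 ≤ ν) (hrk : ∀ i, ∀ x ∈ (A.e i).source, (cur h i x).rank ≤ ν) (hF : FIc h D ν)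
    (K : Kah A) : VolStmt h D ν K := by
  have := Fintype.ofFinite A.ι
  set K1 : Kah A := addKah K hs with hK1
  set V : ℝ := ∫ x, dtM h (fun i x => K1.g i x + D.om i x) x ∂(vm h) with hV
  have hV0 : 0 ≤ V := integral_nonneg fun x =>
    dtM_nonneg h (S := fun i x => K1.g i x + D.om i x)
      ((K1.pos _ x (mem_ch A x)).posSemidef.add (D.psd _ x (mem_ch A x)))
  have hUm : MeasurableSet D.U := D.isOpen_U.measurableSet
  refine ⟨V, hV0, fun s hs1 Ks hKs => ?_⟩
  have hs1' : (1 : ℝ) ≤ s := by exact_mod_cast hs1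
  have hpt : ∀ x ∈ D.U, mdens h Ks.g D.be x ≤ (s : ℝ) ^ (ν - 1) * mdens h K1.g D.be x := by
    intro x hx
    have hxc := mem_ch A x
    have h1 := adj_scale (K.pos _ x hxc) (cur_posSemidef hs _ hxc) (psd_be D hxc hx) hν
      (hrk _ x hxc) (fun hr v hv => hF x hx _ hxc hr v hv) hs1'
    unfold mdens
    rw [hKs _ x hxc, ← mul_div_assoc]
    refine div_le_div_of_nonneg_right ?_ (h.pos _ x hxc).le
    simpa [hK1, addKah] using h1
  calc ∫⁻ x in D.U, ENNReal.ofReal (mdens h Ks.g D.be x) ∂(vm h)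
      ≤ ∫⁻ x in D.U, ENNReal.ofReal ((s : ℝ) ^ (ν - 1)) *
          ENNReal.ofReal (mdens h K1.g D.be x) ∂(vm h) := by
        refine setLIntegral_mono' hUm fun x hx => ?_
        rw [← ENNReal.ofReal_mul (by positivity)]
        exact ENNReal.ofReal_le_ofReal (hpt x hx)
    _ = ENNReal.ofReal ((s : ℝ) ^ (ν - 1)) *
          ∫⁻ x in D.U, ENNReal.ofReal (mdens h K1.g D.be x) ∂(vm h) :=
        lintegral_const_mul' _ _ ENNReal.ofReal_ne_top
    _ ≤ ENNReal.ofReal ((s : ℝ) ^ (ν - 1)) * ENNReal.ofReal V := by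
        gcongr
        exact lint_be_le P h D K1
    _ = ENNReal.ofReal (V * (s : ℝ) ^ (ν - 1)) := by
        rw [← ENNReal.ofReal_mul (by positivity), mul_comm]

/-- **lower bound of the volume** -/
theorem volLow [Finite A.ι] (h : HM (KB A)⁻¹) (hs : h.Semipos) {ν : ℕ}
    (hrk : ∃ i, ∃ x ∈ (A.e i).source, ν ≤ (cur h i x).rank) (K : Kah A) : VolLow h ν K := by
  have := Fintype.ofFinite A.ι
  have := isFinite_vm h
  have := isOpenPos_vm h
  obtain ⟨i0, x0, hx0, hr⟩ := hrk
  obtain ⟨c0, hc0, hev⟩ := low (G := fun x => K.g i0 x) (S := fun x => cur h i0 x) (p := x0)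
    (k := ν)
    (fun a b => cont_smAt (f := fun x => K.g i0 x a b) (K.sm i0 a b) hx0)
    (fun a b => cont_smAt (f := fun x => cur h i0 x a b) (cur_smooth h i0 a b) hx0)
    (by filter_upwards [(A.e i0).open_source.mem_nhds hx0] with x hx using K.pos i0 x hx)
    (by
      filter_upwards [(A.e i0).open_source.mem_nhds hx0] with x hx
      exact cur_posSemidef hs i0 hx) hr
  obtain ⟨B, hB, hBs, hBc⟩ := local_compact_nhds
    (hev.and ((A.e i0).open_source.mem_nhds hx0))
  have hBV : B ⊆ (A.e i0).source := fun x hx => (hBs hx).2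
  have hμB : 0 < (vm h).real B := by
    rw [Measure.real, ENNReal.toReal_pos_iff]
    exact ⟨Measure.measure_pos_of_mem_nhds _ hB, measure_lt_top _ _⟩
  have hBm : MeasurableSet B := hBc.isClosed.measurableSet
  have hWc : ContinuousOn (fun x => h.w i0 x) B := fun x hx =>
    (cont_smAt (f := fun x => h.w i0 x) (h.sm i0) (hBV hx)).continuousWithinAt
  obtain ⟨W, hW⟩ := hBc.exists_bound_of_continuousOn hWc
  have hW0 : 0 < W := by
    have h1 := hW x0 (mem_of_mem_nhds hB)
    have h2 := h.pos i0 x0 hx0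
    rw [Real.norm_of_nonneg h2.le] at h1
    linarith
  refine ⟨c0 / W * (vm h).real B, by positivity, fun s _ Ks hKs => ?_⟩
  have hc := cont_dtM h (tf_kah Ks)
  have h0 : ∀ x, 0 ≤ dtM h Ks.g x := fun x =>
    dtM_nonneg h (Ks.pos _ x (mem_ch A x)).posSemidef
  have hlow : ∀ x ∈ B, c0 / W * (s : ℝ) ^ ν ≤ dtM h Ks.g x := by
    intro x hx
    have hxs := hBV hx
    have h1 := (hBs hx).1 s (by positivity)
    rw [dtM_eq h (tf_kah Ks) hxs, hKs i0 x hxs]
    have h2 := h.pos i0 x hxs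
    have h3 := hW x hx
    rw [Real.norm_of_nonneg h2.le] at h3
    simp only [Complex.ofReal_natCast] at h1
    rw [div_mul_eq_mul_div]
    have h4 : 0 ≤ c0 * (s : ℝ) ^ ν := by positivity
    calc c0 * (s : ℝ) ^ ν / W ≤ c0 * (s : ℝ) ^ ν / h.w i0 x :=
          div_le_div_of_nonneg_left h4 h2 h3
      _ ≤ _ := div_le_div_of_nonneg_right h1 h2.le
  calc c0 / W * (vm h).real B * (s : ℝ) ^ ν = ∫ _x in B, c0 / W * (s : ℝ) ^ ν ∂(vm h) := by
        rw [setIntegral_const, smul_eq_mul]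
        ring
    _ ≤ ∫ x in B, dtM h Ks.g x ∂(vm h) :=
        setIntegral_mono_on (integrableOn_const (measure_ne_top _ _)) (integrable_cont h hc).integrableOn
          hBm hlow
    _ ≤ ∫ x, dtM h Ks.g x ∂(vm h) :=
        setIntegral_le_integral (integrable_cont h hc) (Eventually.of_forall h0)

end int

end

end Crest.Agent.R273.TVolB_332
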