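import Crest.Agent.R273.TorAct_422
import Crest.Agent.R273.RetF_155
import Crest.Agent.R273.D13_505
import Crest.Agent.R273.BDiag_733

/-!
# R273 (S0416), torus step, T8' (helper880): semi-invariant null polyvectors

* `rs_push`   : `(low (γ_* v))|_F = det(Ja γ)^k (low v)|_F` on the fixed locus;
* `rho8`      : the representation on `NV ((K⁻¹)^k) h q`;
* `bdd8`      : its orbits are bounded;
* `semi_of`   : a functional on forms of `F` which kills exact forms and does not vanish on the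
                restriction of a closed form of `M` yields a nonzero semi-invariant null polyvector;
* `exists_vF` : the character of the fibres of `K⁻¹` over `F`.
-/

set_option autoImplicit false
set_option linter.unusedSectionVars false

open Set Filter Topology Complex
open scoped ContDiff Matrix ComplexConjugate Manifold ComplexOrder Kronecker

namespace Crest.Agent.R273.Tor8_880

open Crest.Agent.R275 Crest.Agent.R275.Geo Crest.Agent.R275.Core144
open Crest.Agent.R275.SerG398 (hB Zd Bd mem_Zd mem_Bd)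
open Crest.Agent.R273.Defs_333 Crest.Agent.R273.Map_835 Crest.Agent.R273.Kah_333
open Crest.Agent.R273.HM_333
open Crest.Agent.R273.Fock_243 Crest.Agent.R273.Hess_333 Crest.Agent.R273.HessB_333
open Crest.Agent.R273.NV_578 Crest.Agent.R273.Wdg_578 Crest.Agent.R273.LamN127
open Crest.Agent.R273.DVec_733 Crest.Agent.R273.DMet_733 Crest.Agent.R273.DMetB_733
open Crest.Agent.R273.TorMin_422 Crest.Agent.R273.PFlow_522
open Crest.Agent.R273.TorFr_422 Crest.Agent.R273.TorDefs_422 Crest.Agent.R273.TorBd_422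
open Crest.Agent.R273.TorAct_422 Crest.Agent.R273.Ret_155 Crest.Agent.R273.PullF_155
open Crest.Agent.R273.GamR_155

noncomputable section

variable {n : ℕ} {M : Type} [TopologicalSpace M] {A : Atl n M}
variable {Γ : Type} [CommGroup Γ] [MulAction Γ M] (T : TorD A Γ)

/-! ### restriction of the push forward -/

/-- the restriction of `low (γ_* v)` to the fixed locus -/
theorem rs_push {R : HRet A} (S : FAtl R) {k q : ℕ} (γ : Γ) (hfix : ∀ x ∈ R.F, γ • x = x)
    {c : ℂ} (hc : ∀ x ∈ R.F, ∀ j, x ∈ (A.e j).source → (Ja A γ j j x).det = c)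
    {v : A.ι → M → FI n → ℂ} (hv : v ∈ PV ((aK A) ^ k) q) (hv' : v ∈ MV ((aK A) ^ k))
    (hp : push k γ v ∈ MV ((aK A) ^ k)) :
    S.rs (aK A) k (low T.K ((aK A) ^ k) ⟨push k γ v, hp⟩) =
      c ^ k • S.rs (aK A) k (low T.K ((aK A) ^ k) ⟨v, hv'⟩) := by
  apply Subtype.ext
  funext i x
  show (S.rs (aK A) k _).1 i x = c ^ k • (S.rs (aK A) k _).1 i x
  by_cases hi : x ∈ (S.B.e i).source
  · obtain ⟨j, hj⟩ := A.cover (x : M)
    have hx : γ • (x : M) = x := hfix x x.2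
    have hj' : γ • (x : M) ∈ (A.e j).source := by rw [hx]; exact hj
    rw [S.rs_eq k _ hi hj, S.rs_eq k _ hi hj, low_apply, low_apply, ← Matrix.mulVec_smul]
    -- the value of the push forward
    have h1 : push k γ v j (x : M) = c ^ k • (Gam (Ja A γ j j x) *ᵥ v j x) := by
      have h2 := push_eq T.hol γ hv hj hj'
      rw [hx, hc x x.2 j hj] at h2
      exact h2
    show _ *ᵥ iB _ (GK T.K j x *ᵥ push k γ v j (x : M)) = _ *ᵥ (c ^ k • iB _ (GK T.K j x *ᵥ v j x))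
    rw [h1, Matrix.mulVec_smul, iB_smul, Matrix.mulVec_smul, Matrix.mulVec_smul]
    congr 1
    funext ⟨I, z⟩
    have e1 := kU_mulVec (GamR (Jpb S.B A (Subtype.val : R.F → M) i j x))
      ((aK A).g (S.refV.r i) j x ^ k) (fun p => (GK T.K j x *ᵥ (Gam (Ja A γ j j x) *ᵥ v j x)) p.1) I z
    have e2 := kU_mulVec (GamR (Jpb S.B A (Subtype.val : R.F → M) i j x))
      ((aK A).g (S.refV.r i) j x ^ k) (fun p => (GK T.K j x *ᵥ v j x) p.1) I z
    refine e1.trans (Eq.trans ?_ e2.symm)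
    congr 1
    show ((GamR (Jpb S.B A (Subtype.val : R.F → M) i j x)) *ᵥ
      (Gam ((T.K.g j x)ᵀ) *ᵥ (Gam (Ja A γ j j x) *ᵥ v j x))) I =
      ((GamR (Jpb S.B A (Subtype.val : R.F → M) i j x)) *ᵥ (Gam ((T.K.g j x)ᵀ) *ᵥ v j x)) I
    -- the Jacobian of the inclusion is invariant
    have hJP : Ja A γ j j x * Jp S.B A (Subtype.val : R.F → M) i j x =
        Jp S.B A (Subtype.val : R.F → M) i j x := by
      have h3 := Jp_comp (T.hol γ) S.holMap_val hi hj hj'
      refine h3.trans ?_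
      congr 1
      funext y
      exact hfix y y.2
    have hb : Jpb S.B A (Subtype.val : R.F → M) i j x * ((Ja A γ j j x).map conj)ᵀ =
        Jpb S.B A (Subtype.val : R.F → M) i j x := by
      unfold Jpb
      rw [← Matrix.transpose_mul, ← Matrix.map_mul, hJP]
    have hK := T.K_inv γ j j x hj hj'
    rw [hx] at hK
    have hK' : ((Ja A γ j j x).map conj)ᵀ * (T.K.g j x)ᵀ * Ja A γ j j x = (T.K.g j x)ᵀ := by
      conv_rhs => rw [hK]
      rw [Matrix.transpose_mul, Matrix.transpose_mul, Matrix.transpose_transpose,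
        ← Matrix.mul_assoc]
    have e3 : GamR (Jpb S.B A (Subtype.val : R.F → M) i j x) *ᵥ
        (Gam ((T.K.g j x)ᵀ) *ᵥ (Gam (Ja A γ j j x) *ᵥ v j x)) =
        GamR (Jpb S.B A (Subtype.val : R.F → M) i j x) *ᵥ (Gam ((T.K.g j x)ᵀ) *ᵥ v j x) := by
      conv_lhs => rw [← hb]
      rw [GamR_mul, GamR_eq_Gam, Matrix.mulVec_mulVec, Matrix.mulVec_mulVec,
        Matrix.mul_assoc, Matrix.mul_assoc, ← Gam_mul, ← Gam_mul, ← Matrix.mul_assoc, hK',
        ← Matrix.mulVec_mulVec]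
    rw [e3]
  · rw [(S.rs (aK A) k _).2.2.1 i x hi, (S.rs (aK A) k _).2.2.1 i x hi, smul_zero]

/-! ### the representation -/

theorem NV_le_MV8 {k q : ℕ} {v : A.ι → M → FI n → ℂ} (hv : v ∈ NV ((aK A) ^ k) T.h q) :
    v ∈ MV ((aK A) ^ k) := PV_le hv.1

/-- the push forward as a representation on the null polyvectors -/
def rho8 (k q : ℕ) : Γ →* Module.End ℂ (NV ((aK A) ^ k) T.h q) where
  toFun γ :=
    { toFun := fun v => ⟨push k γ v.1, push_nul T γ v.2⟩
      map_add' := fun v w => Subtype.ext (push_add T.hol k γ v.1 w.1)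
      map_smul' := fun c v => Subtype.ext (push_smul T.hol k γ c v.1) }
  map_one' := by
    ext1 v
    exact Subtype.ext (push_one T.hol v.2.1)
  map_mul' γ γ' := by
    ext1 v
    exact Subtype.ext (push_mul T.hol γ γ' v.2.1)

theorem rho8_apply (k q : ℕ) (γ : Γ) (v : NV ((aK A) ^ k) T.h q) :
    (rho8 T k q γ v).1 = push k γ v.1 := rfl

/-! ### finite dimension and Hodge theory -/

/-- the metric of `K⁻¹ (K⁻¹)^k` -/
def hk (k : ℕ) : HM ((KB A)⁻¹ * (aK A) ^ k) := mul T.h (pow T.h k)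

theorem cur_hk (k : ℕ) {i : A.ι} {x : M} (hx : x ∈ (A.e i).source) :
    cur (hk T k) i x = ((k : ℂ) + 1) • cur T.h i x := by
  rw [hk, cur_mul _ _ i hx, cur_pow _ _ i hx, add_smul, one_smul, add_comm]

theorem hk_semipos (k : ℕ) : (hk T k).Semipos := by
  refine semipos_of_cur fun i x hx => ?_
  rw [cur_hk T k hx]
  have h1 : (0 : ℂ) ≤ (k : ℂ) + 1 := by
    have : ((k : ℂ) + 1) = (((k : ℝ) + 1 : ℝ) : ℂ) := by push_cast; rfl
    rw [this]
    exact_mod_cast (by positivity : (0 : ℝ) ≤ (k : ℝ) + 1)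
  exact (cur_posSemidef T.semi i hx).smul h1

theorem NV_hk (k q : ℕ) : NV ((aK A) ^ k) (hk T k) q = NV ((aK A) ^ k) T.h q := by
  have hk0 : ((k : ℂ) + 1) ≠ 0 := by exact_mod_cast Nat.succ_ne_zero k
  ext v
  constructor
  · rintro ⟨h1, h2⟩
    refine ⟨h1, fun i x hx => ?_⟩
    have h3 := h2 i x hx
    rw [cur_hk T k hx] at h3
    exact h3.of_smul hk0
  · rintro ⟨h1, h2⟩
    refine ⟨h1, fun i x hx => ?_⟩
    rw [cur_hk T k hx]
    exact (h2 i x hx).smul_form _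

variable [T2Space M] [CompactSpace M] [Finite A.ι]

theorem fd8 (P : Part A) (k q : ℕ) : FiniteDimensional ℂ (NV ((aK A) ^ k) T.h q) := by
  have h := (D13_505.d2 P T.K ((aK A) ^ k) (hk T k) (hk_semipos T k) q).1
  rw [NV_hk] at h
  exact h

/-- a closed form is the sum of a lowered null polyvector and an exact form -/
theorem hodge8 (P : Part A) {k q : ℕ} {z : Sec (BN ((aK A) ^ k))} (hz : nabL _ z = 0)
    (hq : Geo.pqL _ q z = z) : ∃ (v : A.ι → M → FI n → ℂ) (hv : v ∈ NV ((aK A) ^ k) T.h q),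
    ∃ y, nabL _ y = z - low T.K ((aK A) ^ k) ⟨v, NV_le_MV8 T hv⟩ := by
  obtain ⟨v, h1, h2, y, hy⟩ := Lim_505.hodge P T.K (hk T k) (hk_semipos T k) z hz
  have h3 := D13_505.mem_NV_pq h1 h2 q
  rw [NV_hk] at h3
  obtain ⟨y', hy'⟩ := D13_505.pqL_exact q y
  refine ⟨_, h3, y', ?_⟩
  rw [hy', hy, map_sub, hq, ← low_pq]

/-! ### bounded orbits -/

omit [T2Space M] [CompactSpace M] [Finite A.ι] in
theorem contAt_of_smAt {i : A.ι} {f : M → ℂ} (h : A.SmAt i f) {x : M}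
    (hx : x ∈ (A.e i).source) : ContinuousAt f x := by
  have h1 : ContinuousOn (fun x => f ((A.e i).symm (A.e i x))) (A.e i).source :=
    ContDiffOn.continuousOn h |>.comp (A.e i).continuousOn (A.e i).mapsTo
  have h2 : ContinuousOn f (A.e i).source := h1.congr fun x hx => by
    simp only [(A.e i).left_inv hx]
  exact h2.continuousAt ((A.e i).open_source.mem_nhds hx)

omit [T2Space M] [CompactSpace M] [Finite A.ι] in
theorem contAt_nq (k : ℕ) {v : A.ι → M → FI n → ℂ} (hv : v ∈ MV ((aK A) ^ k)) {i : A.ι} {x : M}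
    (hx : x ∈ (A.e i).source) : ContinuousAt (nq T k v i) x := by
  have hw : ContinuousAt (T.h.w i) x := by
    have h1 : ContinuousOn (fun x => T.h.w i ((A.e i).symm (A.e i x))) (A.e i).source :=
      (T.h.sm i).continuousOn.comp (A.e i).continuousOn (A.e i).mapsTo
    have h2 : ContinuousOn (T.h.w i) (A.e i).source := h1.congr fun x hx => by
      simp only [(A.e i).left_inv hx]
    exact h2.continuousAt ((A.e i).open_source.mem_nhds hx)
  have hv1 : ∀ S, ContinuousAt (fun y => v i y S) x := fun S => contAt_of_smAt (hv.1 i S) hx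
  have hG : ∀ S S', ContinuousAt (fun y => GK T.K i y S S') x := fun S S' =>
    contAt_of_smAt (GK_smooth T.K i S S') hx
  have h3 : ContinuousAt (fun y => (star (v i y) ⬝ᵥ (GK T.K i y *ᵥ v i y)).re) x := by
    refine Complex.continuous_re.continuousAt.comp ?_
    simp only [dotProduct, Matrix.mulVec, Pi.star_apply]
    refine tendsto_finsetSum _ fun S _ => ?_
    refine ContinuousAt.mul (hv1 S).star ?_
    exact tendsto_finsetSum _ fun S' _ => (hG S S').mul (hv1 S')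
  exact (hw.pow k).mul h3

omit [T2Space M] [Finite A.ι] in
/-- the pointwise norm is bounded -/
theorem exists_bd (k q : ℕ) {v : A.ι → M → FI n → ℂ} (hv : v ∈ NV ((aK A) ^ k) T.h q) :
    ∃ C : ℝ, ∀ i, ∀ x ∈ (A.e i).source, nq T k v i x ≤ C := by
  have hM := NV_le_MV8 T hv
  set f : M → ℝ := fun x => nq T k v (ci A x) x with hf
  have hc : Continuous f := by
    rw [continuous_iff_continuousAt]
    intro x
    have h1 := ci_mem A x
    refine (contAt_nq T k hM h1).congr ?_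
    filter_upwards [(A.e (ci A x)).open_source.mem_nhds h1] with y hy
    exact nq_chart T hv.1 ⟨hy, ci_mem A y⟩
  obtain ⟨C, hC⟩ := (isCompact_range hc).bddAbove
  refine ⟨C, fun i x hx => ?_⟩
  rw [nq_chart T hv.1 ⟨hx, ci_mem A x⟩]
  exact hC ⟨x, rfl⟩

omit [T2Space M] [CompactSpace M] [Finite A.ι] in
/-- the pointwise norm bounds the components -/
theorem exists_low (k : ℕ) {i : A.ι} {x : M} (hx : x ∈ (A.e i).source) (S : FI n) :
    ∃ c : ℝ, 0 < c ∧ ∀ v : A.ι → M → FI n → ℂ, c * ‖v i x S‖ ^ 2 ≤ nq T k v i x := by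
  have h1 : ((T.K.g i x)ᵀ).PosDef := (T.K.pos i x hx).transpose
  have h2 := Pos_243.Gam_posDef h1
  set G : Matrix (FI n) (FI n) ℂ := GK T.K i x with hG
  have hw : 0 < T.h.w i x ^ k := pow_pos (T.h.pos i x hx) _
  let φ : (FI n → ℂ) → ℝ := fun u => (star u ⬝ᵥ (G *ᵥ u)).re
  have hφ : Continuous φ := by
    refine Complex.continuous_re.comp ?_
    simp only [dotProduct, Matrix.mulVec, Pi.star_apply]
    fun_prop
  obtain ⟨u0, hu0, hmin⟩ := (isCompact_sphere (0 : FI n → ℂ) 1).exists_isMinOn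
    (NormedSpace.sphere_nonempty.2 zero_le_one) hφ.continuousOn
  have hpos : 0 < φ u0 := by
    have hne : u0 ≠ 0 := by
      rintro rfl
      simp at hu0
    exact h2.re_dotProduct_pos hne
  refine ⟨T.h.w i x ^ k * φ u0, mul_pos hw hpos, fun v => ?_⟩
  have key : φ u0 * ‖v i x‖ ^ 2 ≤ φ (v i x) := by
    by_cases h0 : v i x = 0
    · rw [h0]
      simp [φ]
    · have hn : ‖v i x‖ ≠ 0 := norm_ne_zero_iff.2 h0
      have h3 : ((‖v i x‖⁻¹ : ℝ) : ℂ) • v i x ∈ Metric.sphere (0 : FI n → ℂ) 1 := by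
        rw [mem_sphere_zero_iff_norm, norm_smul, Complex.norm_real, norm_inv, norm_norm,
          inv_mul_cancel₀ hn]
      have h4 : φ u0 ≤ φ (((‖v i x‖⁻¹ : ℝ) : ℂ) • v i x) := hmin h3
      have h5 : φ (((‖v i x‖⁻¹ : ℝ) : ℂ) • v i x) = (‖v i x‖⁻¹) ^ 2 * φ (v i x) := by
        simp only [φ]
        rw [star_smul, smul_dotProduct, Matrix.mulVec_smul, dotProduct_smul, smul_smul]
        rw [Complex.star_def, Complex.conj_ofReal, smul_eq_mul, ← Complex.ofReal_mul,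
          Complex.re_ofReal_mul]
        ring
      rw [h5] at h4
      have h6 : φ u0 * ‖v i x‖ ^ 2 ≤ (‖v i x‖⁻¹) ^ 2 * φ (v i x) * ‖v i x‖ ^ 2 :=
        mul_le_mul_of_nonneg_right h4 (by positivity)
      have h7 : (‖v i x‖⁻¹) ^ 2 * φ (v i x) * ‖v i x‖ ^ 2 = φ (v i x) := by
        field_simp
      rwa [h7] at h6
  have h8 : ‖v i x S‖ ≤ ‖v i x‖ := norm_le_pi_norm _ S
  have h9 : ‖v i x S‖ ^ 2 ≤ ‖v i x‖ ^ 2 := pow_le_pow_left₀ (norm_nonneg _) h8 2
  calc T.h.w i x ^ k * φ u0 * ‖v i x S‖ ^ 2 ≤ T.h.w i x ^ k * φ u0 * ‖v i x‖ ^ 2 :=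
        mul_le_mul_of_nonneg_left h9 (mul_pos hw hpos).le
    _ = T.h.w i x ^ k * (φ u0 * ‖v i x‖ ^ 2) := by ring
    _ ≤ T.h.w i x ^ k * φ (v i x) := mul_le_mul_of_nonneg_left key hw.le
    _ = nq T k v i x := rfl

omit [T2Space M] [Finite A.ι] in
/-- the orbits are bounded -/
theorem bdd8 (k q : ℕ) (i : A.ι) (x : M) (S : FI n) (v : NV ((aK A) ^ k) T.h q) :
    ∃ C : ℝ, ∀ γ : Γ, ‖(rho8 T k q γ v).1 i x S‖ ≤ C := by
  by_cases hx : x ∈ (A.e i).source
  · obtain ⟨C, hC⟩ := exists_bd T k q v.2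
    obtain ⟨c, hc, hlow⟩ := exists_low T k hx S
    refine ⟨C / c + 1, fun γ => ?_⟩
    have h1 := hlow (push k γ v.1)
    have h2 : nq T k (push k γ v.1) i x ≤ C := by
      have h3 := nq_push T γ v.2.1 (i := ci A (γ⁻¹ • x)) (j := i) (x := γ⁻¹ • x)
        (ci_mem A _) (by rw [smul_inv_smul]; exact hx)
      rw [smul_inv_smul] at h3
      rw [h3]
      exact hC _ _ (ci_mem A _)
    have h4 : ‖push k γ v.1 i x S‖ ^ 2 ≤ C / c := by
      rw [le_div_iff₀ hc]
      linarith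
    have h5 : ‖push k γ v.1 i x S‖ ≤ ‖push k γ v.1 i x S‖ ^ 2 + 1 := by
      nlinarith [norm_nonneg (push k γ v.1 i x S)]
    rw [rho8_apply]
    linarith
  · refine ⟨0, fun γ => ?_⟩
    rw [rho8_apply, push_off γ hx]
    simp

/-! ### the semi-invariant vector -/

/-- **T8'** -/
theorem semi_of (P : Part A) {R : HRet A} (S : FAtl R) {k q : ℕ} (v : Γ →* Circle)
    (hfix : ∀ γ : Γ, ∀ x ∈ R.F, γ • x = x)
    (hv : ∀ γ : Γ, ∀ x ∈ R.F, ∀ j, x ∈ (A.e j).source → (Ja A γ j j x).det * (v γ : ℂ) = 1)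
    (Λ : Sec (BN (S.res (aK A) ^ k)) →ₗ[ℂ] ℂ) (hΛ : ∀ y, Λ (nabL _ y) = 0)
    (z : Sec (BN ((aK A) ^ k))) (hz : nabL _ z = 0) (hq : Geo.pqL _ q z = z)
    (hne : Λ (S.rs (aK A) k z) ≠ 0) :
    ∃ w ∈ NV ((aK A) ^ k) T.h q, w ≠ 0 ∧ SemiV k (v ^ k) w := by
  have := fd8 T P k q
  -- the functional
  let ℓ : NV ((aK A) ^ k) T.h q →ₗ[ℂ] ℂ :=
    Λ ∘ₗ S.rs (aK A) k ∘ₗ (low T.K ((aK A) ^ k)).toLinearMap ∘ₗ
      Submodule.inclusion (fun _ h => NV_le_MV8 T h)
  have hℓ : ∀ u, ℓ u = Λ (S.rs (aK A) k (low T.K ((aK A) ^ k) ⟨u.1, NV_le_MV8 T u.2⟩)) :=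
    fun _ => rfl
  have hT : ℓ ≠ 0 := by
    obtain ⟨w, hw, y, hy⟩ := hodge8 T P hz hq
    intro h0
    apply hne
    have h1 : z = nabL _ y + low T.K ((aK A) ^ k) ⟨w, NV_le_MV8 T hw⟩ := by
      rw [hy, sub_add_cancel]
    have h2 : ℓ ⟨w, hw⟩ = 0 := by rw [h0]; rfl
    rw [hℓ] at h2
    rw [h1, map_add, map_add, ← S.rs_nab, hΛ, zero_add]
    exact h2
  have hvne : ∀ γ : Γ, (v γ : ℂ) ≠ 0 := fun γ => Circle.coe_ne_zero _
  have hη : ∀ γ u, ℓ (rho8 T k q γ u) = ((v γ : ℂ)⁻¹) ^ k * ℓ u := by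
    intro γ u
    rw [hℓ, hℓ]
    have h1 := rs_push T S (k := k) (q := q) γ (hfix γ) (c := (v γ : ℂ)⁻¹)
      (fun x hx j hj => eq_inv_of_mul_eq_one_left (hv γ x hx j hj)) u.2.1 (NV_le_MV8 T u.2)
      (NV_le_MV8 T (push_nul T γ u.2))
    refine (congrArg Λ h1).trans ?_
    rw [map_smul, smul_eq_mul]
  let φ : (A.ι × M × FI n) → NV ((aK A) ^ k) T.h q →ₗ[ℂ] ℂ := fun s =>
    { toFun := fun u => u.1 s.1 s.2.1 s.2.2
      map_add' := fun _ _ => rfl
      map_smul' := fun _ _ => rfl }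
  obtain ⟨w, hw, hw0⟩ := BDiag_733.exists_vec_fun (ρ := rho8 T k q) φ
    (fun u hu => Subtype.ext (funext fun i => funext fun x => funext fun I => hu (i, x, I)))
    (fun s u => bdd8 T k q s.1 s.2.1 s.2.2 u) ℓ hT (fun γ => ((v γ : ℂ)⁻¹) ^ k) hη
  refine ⟨w.1, w.2, fun h0 => hw0 ?_, fun γ i j x hi hj => ?_⟩
  · have : w = 0 := Subtype.ext h0
    rw [this, map_zero]
  · have h1 : push k γ w.1 = ((v γ : ℂ)⁻¹) ^ k • w.1 := congrArg Subtype.val (hw γ)
    have h2 := push_eq T.hol γ w.2.1 hi hj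
    rw [h1] at h2
    have h3 : ((v γ : ℂ)⁻¹) ^ k • w.1 j (γ • x) =
        (Ja A γ i j x).det ^ k • (Gam (Ja A γ i j x) *ᵥ w.1 i x) := h2
    have h4 : w.1 j (γ • x) = ((v γ : ℂ) ^ k) • (((v γ : ℂ)⁻¹) ^ k • w.1 j (γ • x)) := by
      rw [smul_smul, ← mul_pow, mul_inv_cancel₀ (hvne γ), one_pow, one_smul]
    rw [h4, h3, smul_smul, MonoidHom.pow_apply, Circle.coe_pow]

/-! ### the character of the fibres over the fixed locus -/

section char

variable {T} {Q : RF T.P}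

omit [T2Space M] [CompactSpace M] [Finite A.ι]

/-- the character attached to a coordinate and a minor -/
def vch (T : TorD A Γ) (k : Fin (T.P.N + 1)) (S : Unit ⊕ Fin n → Fin (T.P.N + 1)) : Γ →* Circle :=
  (T.χ k) ^ (n + 1) / chS T S

/-- one character on the whole fixed locus -/
theorem exists_vF (hχ : ∀ k l, Q.x k = Q.m → Q.x l = Q.m → T.χ k = T.χ l)
    (hc : IsPreconnected Q.T.F) {p : M} (hp : p ∈ Q.T.F) {i : A.ι} (hi : p ∈ (A.e i).source)
    {k : Fin (T.P.N + 1)} (hk : Q.x k = Q.m) {S : Unit ⊕ Fin n → Fin (T.P.N + 1)}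
    (hS : GS T.P S i p ≠ 0) (γ : Γ) {x : M} (hx : x ∈ Q.T.F) {j : A.ι}
    (hj : x ∈ (A.e j).source) : (Ja A γ j j x).det * (vch T k S γ : ℂ) = 1 := by
  classical
  -- the value of the determinant is locally constant on `F`
  set W : (Unit ⊕ Fin n → Fin (T.P.N + 1)) → Set M := fun S0 => {y | ∃ l, y ∈ (A.e l).source ∧
    GS T.P S0 l y ≠ 0} with hW
  have hopen : ∀ S0, IsOpen (W S0) := by
    intro S0
    rw [isOpen_iff_mem_nhds]
    rintro y ⟨l, hl, h0⟩
    filter_upwards [(A.e l).open_source.mem_nhds hl, (cont_GS S0 hl).eventually_ne h0] with y' h1 h2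
    exact ⟨l, h1, h2⟩
  have hval : ∀ S0, ∀ y ∈ Q.T.F, y ∈ W S0 → ∀ l, y ∈ (A.e l).source →
      (Ja A γ l l y).det * (vch T k S0 γ : ℂ) = 1 := by
    rintro S0 y hy ⟨l, hl, h0⟩ l' hl'
    have h0' : GS T.P S0 l' y ≠ 0 := fun h => h0 ((GS_zero_iff hl' hl S0).1 h)
    have h1 := char_fix hχ hy γ hl' hl' hk h0'
    rw [J_self l' hl', Matrix.det_one] at h1
    exact h1
  set U : Set M := ⋃ S0 ∈ {S0 | vch T k S0 γ = vch T k S γ}, W S0 with hU
  set V : Set M := ⋃ S0 ∈ {S0 | vch T k S0 γ ≠ vch T k S γ}, W S0 with hV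
  have hUo : IsOpen U := isOpen_biUnion fun S0 _ => hopen S0
  have hVo : IsOpen V := isOpen_biUnion fun S0 _ => hopen S0
  have hcov : Q.T.F ⊆ U ∪ V := by
    intro y hy
    obtain ⟨l, hl⟩ := A.cover y
    obtain ⟨S0, hS0⟩ := exists_GS_ne T.P hl
    by_cases hw : vch T k S0 γ = vch T k S γ
    · exact Or.inl (mem_biUnion (x := S0) hw ⟨l, hl, hS0⟩)
    · exact Or.inr (mem_biUnion (x := S0) hw ⟨l, hl, hS0⟩)
  have hpU : (Q.T.F ∩ U).Nonempty := ⟨p, hp, mem_biUnion (x := S) rfl ⟨i, hi, hS⟩⟩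
  obtain ⟨S0, hS0⟩ := exists_GS_ne T.P hj
  by_cases hw : vch T k S0 γ = vch T k S γ
  · rw [← hw]
    exact hval S0 x hx ⟨j, hj, hS0⟩ j hj
  · exfalso
    obtain ⟨y, hyF, hyU, hyV⟩ := hc _ _ hUo hVo hcov hpU
      ⟨x, hx, mem_biUnion (x := S0) hw ⟨j, hj, hS0⟩⟩
    obtain ⟨S1, hS1, h1⟩ := mem_iUnion₂.1 hyU
    obtain ⟨S2, hS2, h2⟩ := mem_iUnion₂.1 hyV
    obtain ⟨l, hl⟩ := A.cover y
    have e1 := hval S1 y hyF h1 l hl
    have e2 := hval S2 y hyF h2 l hl
    apply hS2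
    have hne : (Ja A γ l l y).det ≠ 0 := by
      intro h0
      rw [h0, zero_mul] at e1
      exact zero_ne_one e1
    have e3 : (vch T k S2 γ : ℂ) = (vch T k S1 γ : ℂ) :=
      mul_left_cancel₀ hne (e2.trans e1.symm)
    have e4 : vch T k S2 γ = vch T k S1 γ := Subtype.ext e3
    rw [e4]
    exact hS1

end char

end

end Crest.Agent.R273.Tor8_880
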