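import Crest.Agent.R273.TorBd_422
import Crest.Agent.R273.DMetB_733
import Crest.Agent.R273.Pos_243

/-!
# R273 (S0416), torus step (helper422): the action of the group on null polyvectors

* `push m γ v`   : push forward of a polyvector with values in `(K⁻¹)^m`
* `push_eq`, `push_PV`, `push_NV`, `push_mul`, `push_one`
* `nq`           : the pointwise norm; `nq_push`
-/

set_option autoImplicit false
set_option linter.unusedSectionVars false

open Set Filter Topology Complex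
open scoped ContDiff Matrix ComplexConjugate Manifold ComplexOrder

namespace Crest.Agent.R273.TorAct_422

open Crest.Agent.R275.Geo Crest.Agent.R275.Core144
open Crest.Agent.R273.Defs_333 Crest.Agent.R273.Map_835 Crest.Agent.R273.Kah_333
open Crest.Agent.R273.HM_333 (LB_pow_g)
open Crest.Agent.R273.Fock_243 Crest.Agent.R273.Hess_333 Crest.Agent.R273.HessB_333
open Crest.Agent.R273.NV_578 Crest.Agent.R273.Wdg_578
open Crest.Agent.R273.TorFr_422 Crest.Agent.R273.TorDefs_422 Crest.Agent.R273.TorBd_422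

noncomputable section

variable {n : ℕ} {M : Type} [TopologicalSpace M] {A : Atl n M}

/-- a chart at `x` -/
def ci (A : Atl n M) (x : M) : A.ι := (A.cover x).choose

theorem ci_mem (A : Atl n M) (x : M) : x ∈ (A.e (ci A x)).source := (A.cover x).choose_spec

variable {Γ : Type} [CommGroup Γ] [MulAction Γ M]

section action

variable (hol : ∀ γ : Γ, HolMap A A (fun x => γ • x))

include hol

theorem Ja_left (γ : Γ) {i i' j : A.ι} {x : M} (hx : x ∈ (A.e i).source ∩ (A.e i').source)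
    (hj : γ • x ∈ (A.e j).source) : Ja A γ i' j x * Jm A i i' x = Ja A γ i j x :=
  (hol γ).Jp_left hx hj

theorem Ja_right (γ : Γ) {i j j' : A.ι} {x : M} (hx : x ∈ (A.e i).source)
    (hj : γ • x ∈ (A.e j).source ∩ (A.e j').source) :
    Jm A j j' (γ • x) * Ja A γ i j x = Ja A γ i j' x :=
  (hol γ).Jp_right hx hj

theorem Ja_mul (γ γ' : Γ) {i j l : A.ι} {x : M} (hx : x ∈ (A.e i).source)
    (hj : γ' • x ∈ (A.e j).source) (hl : (γ * γ') • x ∈ (A.e l).source) :
    Ja A γ j l (γ' • x) * Ja A γ' i j x = Ja A (γ * γ') i l x := by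
  rw [mul_smul] at hl
  have h := Jp_comp (hol γ) (hol γ') hx hj hl
  unfold Ja
  rw [h]
  congr 1
  funext y
  rw [mul_smul]

theorem Ja_one (i : A.ι) {x : M} (hx : x ∈ (A.e i).source) : Ja A (1 : Γ) i i x = 1 := by
  have h : (fun y : M => (1 : Γ) • y) = id := by funext y; exact one_smul _ _
  unfold Ja
  rw [h]
  exact J_self i hx

theorem Ja_inv (γ : Γ) {i j : A.ι} {x : M} (hx : x ∈ (A.e i).source)
    (hj : γ • x ∈ (A.e j).source) : Ja A γ⁻¹ j i (γ • x) * Ja A γ i j x = 1 := by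
  have h := Ja_mul hol γ⁻¹ γ (i := i) (j := j) (l := i) hx hj (by rw [inv_mul_cancel, one_smul]; exact hx)
  rw [h, inv_mul_cancel, Ja_one hol i hx]

theorem Ja_det_ne' (γ : Γ) {i j : A.ι} {x : M} (hx : x ∈ (A.e i).source)
    (hj : γ • x ∈ (A.e j).source) : (Ja A γ i j x).det ≠ 0 := by
  intro h0
  have h := congrArg Matrix.det (Ja_inv hol γ hx hj)
  rw [Matrix.det_mul, h0, mul_zero, Matrix.det_one] at h
  exact zero_ne_one h

omit hol in
open Classical in
/-- push forward of polyvectors with values in `(K⁻¹)^m` -/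
def push (m : ℕ) (γ : Γ) (v : A.ι → M → FI n → ℂ) : A.ι → M → FI n → ℂ := fun j y =>
  if y ∈ (A.e j).source then
    (Ja A γ (ci A (γ⁻¹ • y)) j (γ⁻¹ • y)).det ^ m •
      (Gam (Ja A γ (ci A (γ⁻¹ • y)) j (γ⁻¹ • y)) *ᵥ v (ci A (γ⁻¹ • y)) (γ⁻¹ • y))
  else 0

theorem push_eq {m q : ℕ} (γ : Γ) {v : A.ι → M → FI n → ℂ} (hv : v ∈ PV ((aK A) ^ m) q)
    {i j : A.ι} {x : M} (hi : x ∈ (A.e i).source) (hj : γ • x ∈ (A.e j).source) :
    push m γ v j (γ • x) = (Ja A γ i j x).det ^ m • (Gam (Ja A γ i j x) *ᵥ v i x) := by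
  unfold push
  rw [if_pos hj, inv_smul_smul]
  have hc := ci_mem A x
  set i' := ci A x
  have h1 := hv.2.2.2 i' i x ⟨hc, hi⟩
  have hJ := Ja_left hol γ ⟨hc, hi⟩ hj
  -- `Ja i j * Jm i' i = Ja i' j`
  have hJinv : Jm A i' i x * Jm A i i' x = 1 := by
    rw [J_mul i i' i ⟨⟨hi, hc⟩, hi⟩, J_self i hi]
  have hg : ((aK A) ^ m : LB A).g i' i x = ((Jm A i' i x).det ^ m)⁻¹ := by
    rw [LB_pow_g, LB.inv_g, KB_g ⟨hc, hi⟩, inv_pow]
  have hdet : (Jm A i' i x).det ≠ 0 := by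
    rw [← KB_g ⟨hc, hi⟩]; exact LB.ne_zero _ _ _ _
  rw [h1, hg, Matrix.mulVec_smul, smul_smul, Matrix.mulVec_mulVec, ← Gam_mul]
  have e1 : Ja A γ i' j x * Jm A i i' x = Ja A γ i j x := Ja_left hol γ ⟨hi, hc⟩ hj
  rw [e1, ← hJ, Matrix.det_mul, mul_pow, mul_assoc, mul_inv_cancel₀ (pow_ne_zero _ hdet), mul_one]

omit hol in
theorem push_off {m : ℕ} (γ : Γ) {v : A.ι → M → FI n → ℂ} {j : A.ι} {y : M}
    (hy : y ∉ (A.e j).source) : push m γ v j y = 0 := if_neg hy

theorem push_PV {m q : ℕ} (γ : Γ) {v : A.ι → M → FI n → ℂ} (hv : v ∈ PV ((aK A) ^ m) q) :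
    push m γ v ∈ PV ((aK A) ^ m) q := by
  refine ⟨fun j T => ?_, fun j y hy => push_off γ hy, fun j y T hT => ?_, fun j j' y hy => ?_⟩
  · refine holAt_of_local fun y hy _ => ?_
    obtain ⟨i, hi⟩ := A.cover (γ⁻¹ • y)
    set V : Set M := (A.e j).source ∩ (fun y => γ⁻¹ • y) ⁻¹' (A.e i).source with hV
    have hVo : IsOpen V := (A.e j).open_source.inter ((A.e i).open_source.preimage (hol γ⁻¹).cont)
    refine ⟨V, hVo, ⟨hy, hi⟩, ?_⟩
    -- the function on the source side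
    set W : Set M := (fun x => γ • x) ⁻¹' (A.e j).source with hW
    have h1 : HolAt A i W (fun x => (Ja A γ i j x).det ^ m *
        ((Gam (Ja A γ i j x) *ᵥ v i x) T)) := by
      have hJ : ∀ a b, HolAt A i W (fun x => Ja A γ i j x a b) := fun a b =>
        (hol γ).holAt_Jp i j a b
      refine (HolAt.pow (holAt_det hJ) m).mul ?_
      simp only [Matrix.mulVec, dotProduct]
      refine HolAt.sum _ fun S _ => ?_
      exact (DVec_733.holAt_Gam hJ T S).mul ((hv.1 i S).mono (subset_univ _))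
    have h2 := (hol γ⁻¹).comp_holAt (i := j) h1
    refine (h2.mono ?_).congr ?_
    · rintro y' ⟨hy1, hy2⟩
      refine ⟨?_, hy2⟩
      show γ • (γ⁻¹ • y') ∈ (A.e j).source
      rw [smul_inv_smul]
      exact hy1
    · rintro y' hy1 ⟨_, hy2⟩
      have hj' : γ • (γ⁻¹ • y') ∈ (A.e j).source := by rw [smul_inv_smul]; exact hy1
      have h3 := push_eq hol γ hv (i := i) (j := j) hy2 hj'
      rw [smul_inv_smul] at h3
      rw [h3]
      rfl
  · by_cases hy : y ∈ (A.e j).source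
    · have hj' : γ • (γ⁻¹ • y) ∈ (A.e j).source := by rw [smul_inv_smul]; exact hy
      have h3 := push_eq hol γ hv (ci_mem A _) hj'
      rw [smul_inv_smul] at h3
      rw [h3]
      simp only [Pi.smul_apply, smul_eq_mul, Matrix.mulVec, dotProduct]
      rw [Finset.sum_eq_zero, mul_zero]
      intro S _
      by_cases hS : S.card = q
      · rw [Gam_of_ne _ (fun h => hT (by rw [h, hS])), zero_mul]
      · rw [hv.2.2.1 _ _ S hS, mul_zero]
    · rw [push_off γ hy]; rfl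
  · have hj1 : γ • (γ⁻¹ • y) ∈ (A.e j).source := by rw [smul_inv_smul]; exact hy.1
    have hj2 : γ • (γ⁻¹ • y) ∈ (A.e j').source := by rw [smul_inv_smul]; exact hy.2
    have h1 := push_eq hol γ hv (ci_mem A _) hj1
    have h2 := push_eq hol γ hv (ci_mem A _) hj2
    have hJ := Ja_right hol γ (ci_mem A (γ⁻¹ • y)) ⟨hj2, hj1⟩
    rw [smul_inv_smul] at h1 h2 hJ
    have hdet : (Jm A j j' y).det ≠ 0 := by
      rw [← KB_g hy]; exact LB.ne_zero _ _ _ _
    have hg : ((aK A) ^ m : LB A).g j j' y = ((Jm A j j' y).det ^ m)⁻¹ := by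
      rw [LB_pow_g, LB.inv_g, KB_g hy, inv_pow]
    have hinv : (Jm A j' j y).det * (Jm A j j' y).det = 1 := by
      rw [← Matrix.det_mul, J_mul j j' j ⟨hy, hy.1⟩, J_self j hy.1, Matrix.det_one]
    have e : (Ja A γ (ci A (γ⁻¹ • y)) j (γ⁻¹ • y)).det ^ m =
        ((Jm A j j' y).det ^ m)⁻¹ * (Ja A γ (ci A (γ⁻¹ • y)) j' (γ⁻¹ • y)).det ^ m := by
      rw [← hJ, Matrix.det_mul, eq_inv_mul_iff_mul_eq₀ (pow_ne_zero _ hdet), ← mul_pow, ← mul_assoc,
        mul_comm (Jm A j j' y).det, hinv, one_mul]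
    rw [h1, h2, hg, Matrix.mulVec_smul, smul_smul, Matrix.mulVec_mulVec, ← Gam_mul, hJ, e]

theorem push_add (m : ℕ) (γ : Γ) (v w : A.ι → M → FI n → ℂ) :
    push m γ (v + w) = push m γ v + push m γ w := by
  funext j y
  simp only [push, Pi.add_apply, Matrix.mulVec_add, smul_add]
  split_ifs <;> simp

theorem push_smul (m : ℕ) (γ : Γ) (c : ℂ) (v : A.ι → M → FI n → ℂ) :
    push m γ (c • v) = c • push m γ v := by
  funext j y
  simp only [push, Pi.smul_apply, Matrix.mulVec_smul]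
  split_ifs
  · rw [smul_comm]
  · simp

theorem push_mul {m q : ℕ} (γ γ' : Γ) {v : A.ι → M → FI n → ℂ} (hv : v ∈ PV ((aK A) ^ m) q) :
    push m (γ * γ') v = push m γ (push m γ' v) := by
  have hv' := push_PV hol γ' hv
  funext l z
  by_cases hz : z ∈ (A.e l).source
  · obtain ⟨x, rfl⟩ : ∃ x, z = (γ * γ') • x := ⟨(γ * γ')⁻¹ • z, by rw [smul_inv_smul]⟩
    have hi := ci_mem A x
    have hj := ci_mem A (γ' • x)
    have hz' : γ • γ' • x ∈ (A.e l).source := by rw [← mul_smul]; exact hz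
    rw [push_eq hol (γ * γ') hv hi hz]
    rw [mul_smul, push_eq hol γ hv' hj hz', push_eq hol γ' hv hi hj, Matrix.mulVec_smul, smul_smul,
      Matrix.mulVec_mulVec, ← Gam_mul, ← mul_pow, ← Matrix.det_mul,
      Ja_mul hol γ γ' hi hj hz]
  · rw [push_off _ hz, push_off _ hz]

theorem push_one {m q : ℕ} {v : A.ι → M → FI n → ℂ} (hv : v ∈ PV ((aK A) ^ m) q) :
    push m (1 : Γ) v = v := by
  funext l z
  by_cases hz : z ∈ (A.e l).source
  · have h := push_eq hol (1 : Γ) hv hz (by rw [one_smul]; exact hz)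
    rw [one_smul, Ja_one hol l hz, Matrix.det_one, one_pow, one_smul, Gam_one,
      Matrix.one_mulVec] at h
    exact h
  · rw [push_off _ hz, hv.2.1 l z hz]

end action

section inv

variable (T : TorD A Γ)

/-- invariance of the curvature -/
theorem cur_act (γ : Γ) {i j : A.ι} {x : M} (hi : x ∈ (A.e i).source)
    (hj : γ • x ∈ (A.e j).source) :
    cur T.h i x = (Ja A γ i j x)ᵀ * cur T.h j (γ • x) * (Ja A γ i j x).map conj := by
  set p : M → M := fun y => γ • y with hp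
  have ho : IsOpen (dm A A p i j) := (T.hol γ).isOpen_dm i j
  have hm : A.e i x ∈ dm A A p i j := mem_dm hi hj
  have hval : Map_835.rd A A p i j (A.e i x) = A.e j (γ • x) := by
    simp only [Map_835.rd, (A.e i).left_inv hi, hp]
  set f : Cn n → ℂ := fun w => ((Ja A γ i j ((A.e i).symm w)).det)⁻¹ with hf
  have hfd : ∀ w ∈ dm A A p i j, DifferentiableAt ℂ f w ∧ f w ≠ 0 := by
    intro w hw
    have h1 : HolAt A i (p ⁻¹' (A.e j).source) (fun x => (Ja A γ i j x).det) :=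
      holAt_det fun a b => (T.hol γ).holAt_Jp i j a b
    have h2 := DifferentiableOn.differentiableAt h1 (ho.mem_nhds hw)
    have h3 : (Ja A γ i j ((A.e i).symm w)).det ≠ 0 :=
      Ja_det_ne' T.hol γ ((A.e i).map_target hw.1) hw.2
    exact ⟨h2.inv h3, inv_ne_zero h3⟩
  have hu : ContDiffAt ℝ ∞ (T.h.wt i) (A.e i x) := wt_contDiffAt T.h i ((A.e i).map_source hi)
  have hv : ContDiffAt ℝ ∞ (T.h.wt j) (Map_835.rd A A p i j (A.e i x)) := by
    rw [hval]
    exact wt_contDiffAt T.h j ((A.e j).map_source hj)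
  have hTd : ∀ᶠ w in 𝓝 (A.e i x), DifferentiableAt ℂ (Map_835.rd A A p i j) w := by
    filter_upwards [ho.mem_nhds hm] with w hw using (T.hol γ).diffAt hw
  have hTc : ContDiffAt ℝ ∞ (Map_835.rd A A p i j) (A.e i x) :=
    (((Crest.Agent.R266.SCV.contDiffOn_omega_of_differentiableOn ho ((T.hol γ).hol i j)).restrict_scalars
      ℝ).of_le le_top).contDiffAt (ho.mem_nhds hm)
  have hfc : ContDiffAt ℝ ∞ f (A.e i x) := by
    have h1 : DifferentiableOn ℂ f (dm A A p i j) := fun w hw =>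
      (hfd w hw).1.differentiableWithinAt
    exact (((Crest.Agent.R266.SCV.contDiffOn_omega_of_differentiableOn ho h1).restrict_scalars
      ℝ).of_le le_top).contDiffAt (ho.mem_nhds hm)
  have h0 : f (A.e i x) ≠ 0 := (hfd _ hm).2
  have hvT : ContDiffAt ℝ ∞ (fun w => T.h.wt j (Map_835.rd A A p i j w)) (A.e i x) := hv.comp _ hTc
  have hlog : ContDiffAt ℝ ∞ (fun w => Real.log (‖f w‖ ^ 2)) (A.e i x) :=
    (hfc.norm_sq ℝ).log (by positivity)
  have huv : T.h.wt i =ᶠ[𝓝 (A.e i x)] fun w => (fun w => T.h.wt j (Map_835.rd A A p i j w)) w +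
      (fun w => Real.log (‖f w‖ ^ 2)) w := by
    filter_upwards [ho.mem_nhds hm] with w hw
    have h1 := T.h_inv γ i j _ ((A.e i).map_target hw.1) hw.2
    have h2 : (A.e j).symm (Map_835.rd A A p i j w) = γ • ((A.e i).symm w) := by
      simp only [Map_835.rd, hp]
      exact (A.e j).left_inv hw.2
    have h3 : (Ja A γ i j ((A.e i).symm w)).det ≠ 0 :=
      Ja_det_ne' T.hol γ ((A.e i).map_target hw.1) hw.2
    have h4 := T.h.pos j _ hw.2
    simp only [HM.wt, hf]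
    rw [h2, h1, Real.log_mul (by positivity) h4.ne', norm_inv, inv_pow, Real.log_inv]
    simp only [hp]
    ring
  have h1 : hess (T.h.wt i) (A.e i x) = hess (fun w => T.h.wt j (Map_835.rd A A p i j w)) (A.e i x) := by
    rw [hess_congr huv, hess_add hvT hlog, hess_log_norm
      (by filter_upwards [ho.mem_nhds hm] with w hw using (hfd w hw).1) h0, add_zero]
  unfold cur
  rw [h1]
  ext a b
  rw [hess_comp hv hTd, hval]
  simp only [Matrix.mul_apply, Matrix.transpose_apply, Matrix.map_apply, Finset.sum_mul]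
  rw [Finset.sum_comm]
  rfl

theorem push_nul {m q : ℕ} (γ : Γ) {v : A.ι → M → FI n → ℂ} (hv : v ∈ NV ((aK A) ^ m) T.h q) :
    push m γ v ∈ NV ((aK A) ^ m) T.h q := by
  refine ⟨push_PV T.hol γ hv.1, fun j y hy => ?_⟩
  obtain ⟨x, rfl⟩ : ∃ x, y = γ • x := ⟨γ⁻¹ • y, by rw [smul_inv_smul]⟩
  have hi := ci_mem A x
  set i := ci A x
  rw [push_eq T.hol γ hv.1 hi hy]
  refine Nul.smul ?_ _
  have hn := hv.2 i x hi
  intro e
  -- column `e` of the curvature at `γ • x`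
  rw [ii_eq]
  have h1 : iW (fun d => cur T.h j (γ • x) d e) *ᵥ (Gam (Ja A γ i j x) *ᵥ v i x) =
      Gam (Ja A γ i j x) *ᵥ (iW ((Ja A γ i j x)ᵀ *ᵥ fun d => cur T.h j (γ • x) d e) *ᵥ v i x) := by
    rw [Matrix.mulVec_mulVec, iW_Gam, ← Matrix.mulVec_mulVec]
  refine h1.trans ?_
  have hJ := Ja_inv T.hol γ hi hy
  have hJ' : (Ja A γ i j x).map conj * (Ja A γ⁻¹ j i (γ • x)).map conj = 1 := by
    have h2 : Ja A γ i j x * Ja A γ⁻¹ j i (γ • x) = 1 := by
      exact mul_eq_one_comm.1 hJ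
    rw [← Matrix.map_mul, h2, Matrix.map_one _ (map_zero _) (map_one _)]
  have h3 : (Ja A γ i j x)ᵀ * cur T.h j (γ • x) =
      cur T.h i x * (Ja A γ⁻¹ j i (γ • x)).map conj := by
    rw [cur_act T γ hi hy, Matrix.mul_assoc ((Ja A γ i j x)ᵀ * cur T.h j (γ • x)), hJ',
      Matrix.mul_one]
  have h4 : ((Ja A γ i j x)ᵀ *ᵥ fun d => cur T.h j (γ • x) d e) =
      fun b => ∑ c, (Ja A γ⁻¹ j i (γ • x)).map conj c e * cur T.h i x b c := by
    funext b
    have h5 := congrFun (congrFun h3 b) e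
    rw [Matrix.mul_apply, Matrix.mul_apply] at h5
    simp only [Matrix.mulVec, dotProduct]
    rw [h5]
    exact Finset.sum_congr rfl fun c _ => mul_comm _ _
  rw [h4]
  have h6 : (fun b => ∑ c, (Ja A γ⁻¹ j i (γ • x)).map conj c e * cur T.h i x b c) =
      ∑ c, (Ja A γ⁻¹ j i (γ • x)).map conj c e • (fun b => cur T.h i x b c) := by
    funext b
    simp [Finset.sum_apply]
  rw [h6]
  have h7 : ∀ s : Finset (Fin n), iW (∑ c ∈ s, (Ja A γ⁻¹ j i (γ • x)).map conj c e •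
      (fun b => cur T.h i x b c)) *ᵥ v i x = 0 := by
    intro s
    induction s using Finset.induction_on with
    | empty =>
      rw [Finset.sum_empty, iW_eq_sum]
      simp
    | insert c s hc ih =>
      rw [Finset.sum_insert hc, iW_add, Matrix.add_mulVec, ih, add_zero, iW_smul,
        Matrix.smul_mulVec]
      have := hn c
      rw [ii_eq] at this
      have h8 : iW (fun b => cur T.h i x b c) *ᵥ v i x = 0 := this
      rw [h8, smul_zero]
  rw [h7, Matrix.mulVec_zero]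

/-! ### the pointwise norm -/

/-- the pointwise norm of a polyvector with values in `(K⁻¹)^m` -/
def nq (m : ℕ) (v : A.ι → M → FI n → ℂ) (i : A.ι) (x : M) : ℝ :=
  T.h.w i x ^ m * (star (v i x) ⬝ᵥ (DVec_733.GK T.K i x *ᵥ v i x)).re

theorem star_Gam_mulVec (J : Matrix (Fin n) (Fin n) ℂ) (v : FI n → ℂ) :
    star (Gam J *ᵥ v) = star v ᵥ* Gam (J.map conj)ᵀ := by
  rw [Matrix.star_mulVec]
  congr 1
  have h1 : Gam (J.map conj) = (Gam J).map conj := by
    have := Gam_map (starRingEnd ℂ) J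
    exact this.symm
  rw [← Gam_transpose, h1]
  rfl

theorem nq_law {J g g' : Matrix (Fin n) (Fin n) ℂ} (hg : g = Jᵀ * g' * J.map conj)
    (v : FI n → ℂ) :
    star (Gam J *ᵥ v) ⬝ᵥ (Gam g'ᵀ *ᵥ (Gam J *ᵥ v)) = star v ⬝ᵥ (Gam gᵀ *ᵥ v) := by
  have h1 : gᵀ = (J.map conj)ᵀ * g'ᵀ * J := by
    rw [hg, Matrix.transpose_mul, Matrix.transpose_mul, Matrix.transpose_transpose, ← Matrix.mul_assoc]
  rw [star_Gam_mulVec, h1, Gam_mul, Gam_mul, ← Matrix.dotProduct_mulVec, Matrix.mulVec_mulVec,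
    Matrix.mulVec_mulVec]

theorem nq_chart {m q : ℕ} {v : A.ι → M → FI n → ℂ} (hv : v ∈ PV ((aK A) ^ m) q) {i j : A.ι}
    {x : M} (hx : x ∈ (A.e i).source ∩ (A.e j).source) : nq T m v i x = nq T m v j x := by
  -- write `v j = c • Gam (J i j) v i`
  have h1 := hv.2.2.2 j i x ⟨hx.2, hx.1⟩
  have hdet : (Jm A j i x).det ≠ 0 := by
    rw [← KB_g ⟨hx.2, hx.1⟩]; exact LB.ne_zero _ _ _ _
  have hg : ((aK A) ^ m : LB A).g j i x = ((Jm A j i x).det ^ m)⁻¹ := by
    rw [LB_pow_g, LB.inv_g, KB_g ⟨hx.2, hx.1⟩, inv_pow]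
  have hw := T.h.tr j i x ⟨hx.2, hx.1⟩
  rw [LB.inv_g, KB_g ⟨hx.2, hx.1⟩] at hw
  have hK := T.K.tr i j x hx
  have h2 := nq_law hK (v i x)
  unfold nq DVec_733.GK
  rw [h1, hg, Matrix.mulVec_smul, star_smul, smul_dotProduct, dotProduct_smul, h2]
  simp only [smul_eq_mul]
  rw [← mul_assoc, Complex.star_def, Complex.conj_mul', hw]
  have h3 : ((‖((Jm A j i x).det ^ m)⁻¹‖ : ℂ) ^ 2) = (((‖(Jm A j i x).det‖⁻¹ ^ 2) ^ m : ℝ) : ℂ) := by
    rw [norm_inv, norm_pow]
    push_cast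
    rw [← inv_pow, ← pow_mul, ← pow_mul, mul_comm]
  rw [h3, Complex.re_ofReal_mul, norm_inv, mul_pow]
  ring

theorem nq_push {m q : ℕ} (γ : Γ) {v : A.ι → M → FI n → ℂ} (hv : v ∈ PV ((aK A) ^ m) q)
    {i j : A.ι} {x : M} (hi : x ∈ (A.e i).source) (hj : γ • x ∈ (A.e j).source) :
    nq T m (push m γ v) j (γ • x) = nq T m v i x := by
  have hw := T.h_inv γ i j x hi hj
  have hK := T.K_inv γ i j x hi hj
  have h2 := nq_law hK (v i x)
  unfold nq DVec_733.GK
  rw [push_eq T.hol γ hv hi hj, Matrix.mulVec_smul, star_smul, smul_dotProduct, dotProduct_smul, h2]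
  simp only [smul_eq_mul]
  rw [← mul_assoc, Complex.star_def, Complex.conj_mul', hw]
  have h3 : ((‖(Ja A γ i j x).det ^ m‖ : ℂ) ^ 2) = (((‖(Ja A γ i j x).det‖ ^ 2) ^ m : ℝ) : ℂ) := by
    rw [norm_pow]
    push_cast
    rw [← pow_mul, ← pow_mul, mul_comm]
  rw [h3, Complex.re_ofReal_mul, mul_pow]
  ring

theorem nq_nonneg (m : ℕ) (v : A.ι → M → FI n → ℂ) {i : A.ι} {x : M}
    (hx : x ∈ (A.e i).source) : 0 ≤ nq T m v i x := by
  refine mul_nonneg (pow_nonneg (T.h.pos i x hx).le _) ?_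
  have h1 : ((T.K.g i x)ᵀ).PosSemidef := (T.K.pos i x hx).posSemidef.transpose
  have h2 := Pos_243.Gam_posSemidef h1
  exact h2.re_dotProduct_nonneg (v i x)

theorem nq_eq_zero (m : ℕ) (v : A.ι → M → FI n → ℂ) {i : A.ι} {x : M}
    (hx : x ∈ (A.e i).source) (h0 : nq T m v i x = 0) : v i x = 0 := by
  by_contra hne
  have h1 : ((T.K.g i x)ᵀ).PosDef := (T.K.pos i x hx).transpose
  have h2 := Pos_243.Gam_posDef h1
  have h3 := h2.re_dotProduct_pos hne
  exact (mul_pos (pow_pos (T.h.pos i x hx) _) h3).ne' h0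

end inv

end

end Crest.Agent.R273.TorAct_422
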