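import Crest.Agent.R273.TorEq_422
import Crest.Agent.R273.TorT8_422
import Crest.Agent.R273.Gordan_106
import Crest.Agent.R273.SteinD_794
import Crest.Agent.R273.SteinE_794

/-!
# R273 (S0416), torus step (helper422): the assembly

`torMain (h8 : T8Stmt) : TorMain`.
-/

set_option autoImplicit false
set_option linter.unusedSectionVars false

open Set Filter Topology Complex
open scoped ContDiff Matrix ComplexConjugate Manifold

namespace Crest.Agent.R273.TorAsm_422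

open Crest.Agent.R275.Geo Crest.Agent.R275.Core144 Crest.Agent.R275.GC293
open Crest.Agent.R273.Defs_333 Crest.Agent.R273.Map_835 Crest.Agent.R273.TorDefs_422
open Crest.Agent.R273.PFlow_522 Crest.Agent.R273.Ret_155
open Crest.Agent.R273.Fock_243 (FI Gam)
open Crest.Agent.R273.NV_578 (NV PV)
open Crest.Agent.R273.LamN127 (BN)
open Crest.Agent.R273.TorFr_422 Crest.Agent.R273.TorBd_422 Crest.Agent.R273.TorMin_422
open Crest.Agent.R273.TorEps_422 Crest.Agent.R273.TorT8_422 Crest.Agent.R273.TorEq_422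

noncomputable section

variable {n : ℕ} {M : Type} [TopologicalSpace M] {A : Atl n M}
variable {Γ : Type} [CommGroup Γ] [MulAction Γ M]

/-! ### products of semi-invariant sections -/

/-- a nonzero section of `(K⁻¹)^(m c)` with character `u^m` -/
def Gd2 (A : Atl n M) (u : Γ →* Circle) (c : ℕ) : Prop :=
  ∃ m : ℕ, 0 < m ∧ ∃ s : A.ι → M → ℂ, IsHS ((aK A) ^ (m * c)) univ s ∧
    (∃ i, ∃ x ∈ (A.e i).source, s i x ≠ 0) ∧ SemiS (m * c) (u ^ m) s

theorem semiS_pow {m : ℕ} {u : Γ →* Circle} {s : A.ι → M → ℂ} (hs : SemiS m u s) (r : ℕ) :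
    SemiS (m * r) (u ^ r) (s ^ r) := by
  intro γ i j x hi hj
  show s j (γ • x) ^ r = _ * s i x ^ r
  rw [hs γ i j x hi hj, MonoidHom.pow_apply, Circle.coe_pow, pow_mul]
  ring

theorem semiS_mul {m m' : ℕ} {u u' : Γ →* Circle} {s s' : A.ι → M → ℂ} (hs : SemiS m u s)
    (hs' : SemiS m' u' s') : SemiS (m + m') (u * u') (s * s') := by
  intro γ i j x hi hj
  show s j (γ • x) * s' j (γ • x) = _ * (s i x * s' i x)
  rw [hs γ i j x hi hj, hs' γ i j x hi hj, MonoidHom.mul_apply, Circle.coe_mul, pow_add]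
  ring

theorem isHS_pow' {L : LB A} {s : A.ι → M → ℂ} (hs : IsHS L univ s) {r : ℕ} (hr : 0 < r) :
    IsHS (L ^ r) univ (s ^ r) := by
  obtain ⟨r, rfl⟩ := Nat.exists_eq_succ_of_ne_zero hr.ne'
  exact SteinE_794.isHS_pow hs r

theorem Gd2.mul [ConnectedSpace M] {u u' : Γ →* Circle} {c c' : ℕ} (h : Gd2 A u c)
    (h' : Gd2 A u' c') : Gd2 A (u * u') (c + c') := by
  obtain ⟨m, hm, s, hs, h0, hc⟩ := h
  obtain ⟨m', hm', s', hs', h0', hc'⟩ := h'
  have e1 := isHS_pow' hs hm'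
  have e2 := isHS_pow' hs' hm
  refine ⟨m * m', Nat.mul_pos hm hm', s ^ m' * s' ^ m, ?_, ?_, ?_⟩
  · have h1 := e1.mul e2
    have h2 : ((aK A) ^ (m * c)) ^ m' * ((aK A) ^ (m' * c')) ^ m = (aK A) ^ (m * m' * (c + c')) := by
      rw [← pow_mul, ← pow_mul, ← pow_add]
      congr 1
      ring
    rwa [h2] at h1
  · refine SteinD_794.mul_ne_zero_sec e1 e2 ?_ ?_
    · obtain ⟨i, x, hx, hne⟩ := h0
      exact ⟨i, x, hx, pow_ne_zero _ hne⟩
    · obtain ⟨i, x, hx, hne⟩ := h0'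
      exact ⟨i, x, hx, pow_ne_zero _ hne⟩
  · have h1 := semiS_mul (semiS_pow hc m') (semiS_pow hc' m)
    have h2 : m * c * m' + m' * c' * m = m * m' * (c + c') := by ring
    have h3 : (u ^ m) ^ m' * (u' ^ m') ^ m = (u * u') ^ (m * m') := by
      rw [← pow_mul, ← pow_mul, mul_pow, mul_comm m' m]
    rwa [h2, h3] at h1

open Classical in
theorem Gd2.one [Nonempty M] : Gd2 A (1 : Γ →* Circle) 0 := by
  refine ⟨1, one_pos, fun i x => if x ∈ (A.e i).source then 1 else 0, ?_, ?_, ?_⟩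
  · rw [mul_zero, pow_zero]
    refine ⟨fun i => ?_, fun i z hz => if_neg hz, fun i j z hz _ => ?_⟩
    · exact (holAt_const (A := A) (i := i) (1 : ℂ)).congr fun z hz _ => (if_pos hz).symm
    · rw [if_pos hz.1, if_pos hz.2, mul_one]
      rfl
  · obtain ⟨x⟩ := (inferInstance : Nonempty M)
    obtain ⟨i, hi⟩ := A.cover x
    exact ⟨i, x, hi, by simp [hi]⟩
  · intro γ i j x hi hj
    simp only [if_pos hi, if_pos hj, mul_zero, pow_zero, mul_one, one_pow, MonoidHom.one_apply,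
      Circle.coe_one]

theorem Gd2.of {v : Γ →* Circle} (h : Gd A v) : Gd2 A v 1 := by
  obtain ⟨m, hm, s, hs, h0, hc⟩ := h
  exact ⟨m, hm, s, by rwa [mul_one], h0, by rwa [mul_one]⟩

theorem Gd2.pow [ConnectedSpace M] {u : Γ →* Circle} {c : ℕ} (h : Gd2 A u c) (r : ℕ) :
    Gd2 A (u ^ r) (r * c) := by
  induction r with
  | zero => rw [pow_zero, zero_mul]; exact Gd2.one
  | succ r ih =>
    rw [pow_succ, Nat.succ_mul]
    exact ih.mul h

theorem Gd2.prod [ConnectedSpace M] {ι : Type*} (F : Finset ι) (u : ι → Γ →* Circle) (c : ι → ℕ)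
    (h : ∀ i, Gd2 A (u i) (c i)) : Gd2 A (∏ i ∈ F, u i) (∑ i ∈ F, c i) := by
  classical
  induction F using Finset.induction_on with
  | empty => rw [Finset.prod_empty, Finset.sum_empty]; exact Gd2.one
  | insert i F hi ih =>
    rw [Finset.prod_insert hi, Finset.sum_insert hi]
    exact (h i).mul ih

theorem Gd2.toGd {c : ℕ} (hc : 0 < c) (h : Gd2 A (1 : Γ →* Circle) c) : Gd A (1 : Γ →* Circle) := by
  obtain ⟨m, hm, s, hs, h0, hc'⟩ := h
  refine ⟨m * c, Nat.mul_pos hm hc, s, hs, h0, ?_⟩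
  rwa [one_pow] at hc' ⊢

/-! ### the characters -/

variable (T : TorD A Γ)

theorem v_eq (k : Fin (T.P.N + 1)) (S : Unit ⊕ Fin n → Fin (T.P.N + 1)) :
    T.χ k ^ (n + 1) / chS T S = ∏ r, T.χ k / T.χ (S r) := by
  have h : Fintype.card (Unit ⊕ Fin n) = n + 1 := by
    rw [Fintype.card_sum, Fintype.card_unit, Fintype.card_fin, add_comm]
  rw [Finset.prod_div_distrib, Finset.prod_const, Finset.card_univ, h]
  rfl

theorem v_mem (k : Fin (T.P.N + 1)) (S : Unit ⊕ Fin n → Fin (T.P.N + 1)) :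
    T.χ k ^ (n + 1) / chS T S ∈ WW T := by
  rw [v_eq]
  exact Subgroup.prod_mem _ fun r _ => mem_WW T _ _

theorem c_eq (S S' : Unit ⊕ Fin n → Fin (T.P.N + 1)) :
    chS T S / chS T S' = ∏ r, T.χ (S r) / T.χ (S' r) := by
  rw [Finset.prod_div_distrib]
  rfl

theorem c_mem (S S' : Unit ⊕ Fin n → Fin (T.P.N + 1)) : chS T S / chS T S' ∈ WW T := by
  rw [c_eq]
  exact Subgroup.prod_mem _ fun r _ => mem_WW T _ _

theorem x_prod (x : Additive (WW T) →+ ℝ) {ι : Type*} [Fintype ι] (a b : ι → Fin (T.P.N + 1))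
    (w : WW T) (hw : (w : Γ →* Circle) = ∏ r, T.χ (a r) / T.χ (b r)) :
    x (Additive.ofMul w) = ∑ r, (xw T x (a r) - xw T x (b r)) := by
  have h1 : w = ∏ r, (⟨T.χ (a r) / T.χ (b r), mem_WW T _ _⟩ : WW T) := by
    apply Subtype.ext
    rw [hw, Subgroup.val_finsetProd]
  rw [h1, ofMul_prod, map_sum]
  exact Finset.sum_congr rfl fun r _ => (xw_sub T x _ _).symm

theorem WW_finite : Module.Finite ℤ (Additive (WW T)) := by
  rw [Module.Finite.iff_addGroup_fg]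
  have h1 : Group.FG (WW T) := (Group.fg_iff_subgroup_fg _).2 (WW_fg T)
  exact (GroupFG.iff_add_fg).1 h1

theorem WW_tf (w : Additive (WW T)) (m : ℕ) (hm : m ≠ 0) (h : m • w = 0) : w = 0 := by
  have h1 : ((w.toMul : WW T) : Γ →* Circle) ^ m = 1 := by
    have h2 : (w.toMul : WW T) ^ m = 1 := h
    have := congrArg (Subtype.val) h2
    simpa using this
  have h2 := T.tf _ w.toMul.2 m hm h1
  exact Subtype.ext h2

/-! ### the step -/

/-- pigeonhole on the degree -/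
theorem fix_deg {h : HM (aK A)} {v : Γ →* Circle}
    (H : ∀ k0 : ℕ, ∃ k, k0 ≤ k ∧ ∃ q, ∃ w ∈ NV ((aK A) ^ k) h q, w ≠ 0 ∧ SemiV k (v ^ k) w) :
    ∃ q : ℕ, ∀ k0 : ℕ, ∃ k, k0 ≤ k ∧ ∃ w ∈ NV ((aK A) ^ k) h q, w ≠ 0 ∧ SemiV k (v ^ k) w := by
  by_contra hcon
  push Not at hcon
  choose K hK using hcon
  obtain ⟨k, hk, q, w, hw, hw0, hs⟩ := H (∑ q ∈ Finset.range (n + 1), K q)
  have hq : q ≤ n := by
    by_contra hq
    exact hw0 (HodgeP_578.PV_eq_zero (not_le.1 hq) hw.1)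
  have h1 : K q ≤ ∑ q ∈ Finset.range (n + 1), K q :=
    Finset.single_le_sum (f := K) (fun _ _ => Nat.zero_le _) (Finset.mem_range.2 (by omega))
  exact hK q k (h1.trans hk) w hw hw0 hs

/-- **the torus step**, from T8 -/
theorem torMain (h8 : T8Stmt) : TorMain := by
  intro n M _ _ _ _ A _ hG hPA Γ _ _ _ T hBB
  obtain ⟨PA⟩ := hPA
  classical
  by_contra hcon
  let vv : Fin (T.P.N + 1) × (Unit ⊕ Fin n → Fin (T.P.N + 1)) → WW T :=
    fun p => ⟨T.χ p.1 ^ (n + 1) / chS T p.2, v_mem T p.1 p.2⟩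
  let I := {p : Fin (T.P.N + 1) × (Unit ⊕ Fin n → Fin (T.P.N + 1)) // Gd A (vv p : Γ →* Circle)}
  -- there is no relation
  have hrel : ∀ c : I → ℕ, ∑ i, c i • (Additive.ofMul (vv i.1) : Additive (WW T)) = 0 → c = 0 := by
    intro c hc
    by_contra hne
    apply hcon
    obtain ⟨i0, hi0⟩ := Function.ne_iff.1 hne
    have h1 := Gd2.prod (A := A) Finset.univ (fun i : I => ((vv i.1 : WW T) : Γ →* Circle) ^ c i)
      (fun i => c i * 1) (fun i => (Gd2.of i.2).pow (c i))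
    have h2 : ∏ i : I, ((vv i.1 : WW T) : Γ →* Circle) ^ c i = 1 := by
      have h3 : ∏ i : I, (vv i.1) ^ c i = 1 := hc
      have h4 := congrArg (Subtype.val) h3
      rw [Subgroup.val_finsetProd] at h4
      simpa using h4
    rw [h2] at h1
    refine Gd2.toGd ?_ h1
    have h3 : c i0 * 1 ≤ ∑ i : I, c i * 1 :=
      Finset.single_le_sum (f := fun i => c i * 1) (fun _ _ => Nat.zero_le _) (Finset.mem_univ i0)
    have h4 : 0 < c i0 := Nat.pos_of_ne_zero hi0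
    omega
  -- the generic functional
  let G1 : Finset (Additive (WW T)) := Finset.univ.image
    fun p : Fin (T.P.N + 1) × Fin (T.P.N + 1) =>
      (Additive.ofMul ⟨T.χ p.1 / T.χ p.2, mem_WW T p.1 p.2⟩ : Additive (WW T))
  let G2 : Finset (Additive (WW T)) := Finset.univ.image
    fun p : (Unit ⊕ Fin n → Fin (T.P.N + 1)) × (Unit ⊕ Fin n → Fin (T.P.N + 1)) =>
      (Additive.ofMul ⟨chS T p.1 / chS T p.2, c_mem T p.1 p.2⟩ : Additive (WW T))
  obtain ⟨x, hx1, hx2⟩ := Gordan_106.gordan (WW_finite T) (WW_tf T)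
    (fun i : I => (Additive.ofMul (vv i.1) : Additive (WW T))) hrel
    ((G1 ∪ G2).filter fun w => w ≠ 0) (fun w hw => (Finset.mem_filter.1 hw).2)
  have hgen1 : ∀ k l, xw T x k = xw T x l → T.χ k = T.χ l := by
    intro k l hkl
    by_contra hne
    refine hx2 (Additive.ofMul ⟨T.χ k / T.χ l, mem_WW T k l⟩) (Finset.mem_filter.2 ⟨?_, ?_⟩) ?_
    · exact Finset.mem_union_left _ (Finset.mem_image.2 ⟨(k, l), Finset.mem_univ _, rfl⟩)
    · intro h
      have h1 : T.χ k / T.χ l = 1 := congrArg (fun w : Additive (WW T) => (w.toMul : Γ →* Circle)) h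
      exact hne (div_eq_one.1 h1)
    · rw [← xw_sub, hkl, sub_self]
  have hgen2 : ∀ S S' : Unit ⊕ Fin n → Fin (T.P.N + 1),
      ∑ r, xw T x (S r) = ∑ r, xw T x (S' r) → chS T S = chS T S' := by
    intro S S' hS
    by_contra hne
    refine hx2 (Additive.ofMul ⟨chS T S / chS T S', c_mem T S S'⟩) (Finset.mem_filter.2 ⟨?_, ?_⟩) ?_
    · exact Finset.mem_union_right _ (Finset.mem_image.2 ⟨(S, S'), Finset.mem_univ _, rfl⟩)
    · intro h
      have h1 : chS T S / chS T S' = 1 :=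
        congrArg (fun w : Additive (WW T) => (w.toMul : Γ →* Circle)) h
      exact hne (div_eq_one.1 h1)
    · rw [x_prod T x S S' _ (c_eq T S S'), Finset.sum_sub_distrib, hS, sub_self]
  -- the flow
  obtain ⟨D⟩ := exists_flow T x
  obtain ⟨k0, hk0⟩ := Finite.exists_min (xw T x)
  have hm : ∀ k, xw T x k0 ≤ xw T x k := hk0
  set Q : RF T.P := D.rf hm with hQ
  have hconn : IsConnected Q.T.F := conn_F D hm (k := k0) rfl
  have hcomp : IsCompact Q.T.F := D.isCompact_F hm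
  obtain ⟨S⟩ := Q.T.exists_fAtl hcomp hconn
  have hχ : ∀ k l, Q.x k = Q.m → Q.x l = Q.m → T.χ k = T.χ l := by
    intro k l hk hl
    exact hgen1 k l (hk.trans hl.symm)
  obtain ⟨p0, hp0⟩ := hconn.nonempty
  obtain ⟨i0, hi0⟩ := A.cover p0
  obtain ⟨S0, hS0⟩ := exists_GS_ne T.P hi0
  set vF : Γ →* Circle := T.χ k0 ^ (n + 1) / chS T S0 with hvF
  have hfix : ∀ γ : Γ, ∀ p ∈ Q.T.F, γ • p = p := fun γ p hp => act_fix hχ hp γ
  have hdet : ∀ γ : Γ, ∀ p ∈ Q.T.F, ∀ j, p ∈ (A.e j).source →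
      (Ja A γ j j p).det * (vF γ : ℂ) = 1 := by
    intro γ p hp j hj
    obtain ⟨S1, hS1⟩ := exists_GS_ne T.P hj
    have h1 := char_fix hχ hp γ hj hj (k := k0) rfl hS1
    have h2 : chS T S0 = chS T S1 :=
      hgen2 S0 S1 (wt_const Q hconn.isPreconnected hp0 hp hi0 hj hS0 hS1)
    rw [← h2, J_self j hj, Matrix.det_one] at h1
    exact h1
  have hU : ∀ y v, R T.P y v → (prm Q.x Q.m v ≠ 0 ↔ y ∈ Q.T.U) := fun y v hv =>
    (D.mem_U _ hv).symm
  -- T8 and T8'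
  have h1 : ∀ k1 : ℕ, ∃ k, k1 ≤ k ∧ ∃ q, ∃ w ∈ NV ((aK A) ^ k) T.h q, w ≠ 0 ∧
      SemiV k (vF ^ k) w := by
    intro k1
    obtain ⟨k, hk, q, φ, hφ, z, hz, hq, hne⟩ :=
      h8 n M A hG PA Γ T Q (appr D hm) hm hU hcomp hconn S k1
    exact ⟨k, hk, q, exists_semi Q S PA hfix vF hdet φ hφ hz hq hne⟩
  have h2 : Gd A vF := hBB vF (fix_deg h1)
  -- contradiction
  have h3 : 0 < x (Additive.ofMul (vv (k0, S0))) := hx1 ⟨(k0, S0), h2⟩
  rw [x_prod T x (fun _ : Unit ⊕ Fin n => k0) S0 _ (v_eq T k0 S0)] at h3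
  have h4 : ∑ r, (xw T x k0 - xw T x (S0 r)) ≤ 0 :=
    Finset.sum_nonpos fun r _ => sub_nonpos.2 (hm (S0 r))
  exact absurd h3 (not_lt.2 h4)

end

end Crest.Agent.R273.TorAsm_422
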