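import Crest.Agent.R273.TorBd_422
import Crest.Agent.R273.Cpl_522

/-!
# R273 (S0416), torus step (helper422): the flow of a real functional on the characters

`Rx T x`     : the subgroup `W` generated by the ratios, `x : Additive W →+ ℝ`, weights
               `xw k = x (χ k / χ k0)`; `flo` the complex flow; `RFx` : the `RF`;
`appr`       : `Appr T (RFx ..)`.
-/

set_option autoImplicit false
set_option linter.unusedSectionVars false

open Set Filter Topology Complex
open scoped ContDiff Matrix ComplexConjugate Manifold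

namespace Crest.Agent.R273.TorEps_422

open Crest.Agent.R275.Geo Crest.Agent.R275.Core144
open Crest.Agent.R273.Defs_333 Crest.Agent.R273.Map_835 Crest.Agent.R273.TorDefs_422
open Crest.Agent.R273.TorMin_422 Crest.Agent.R273.PFlow_522 Crest.Agent.R273.Ret_155
open Crest.Agent.R273.TorFr_422 Crest.Agent.R273.TorBd_422

noncomputable section

variable {n : ℕ} {M : Type} [TopologicalSpace M] {A : Atl n M}

/-- a complex flow with its limit retraction -/
def _root_.Crest.Agent.R273.PFlow_522.Flo.rf [CompactSpace M] {P : ProjD A}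
    {x : Fin (P.N + 1) → ℝ} (D : Flo P x) {m : ℝ} (hm : ∀ k, m ≤ x k) : RF P where
  x := x
  m := m
  D := D.D
  hol z := (D.holM z).toMap
  spec := D.spec
  T := D.ret hm
  rspec _ hy _ hv := D.r_spec hm hy hv
  lim _ hy := D.r_lim hm hy

variable {Γ : Type} [CommGroup Γ] [MulAction Γ M] (T : TorD A Γ)

/-- the group of characters generated by the ratios -/
def WW : Subgroup (Γ →* Circle) := Subgroup.closure {w : Γ →* Circle | ∃ k l, w = T.χ k / T.χ l}

theorem WW_fg : (WW T).FG := by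
  have : {w : Γ →* Circle | ∃ k l, w = T.χ k / T.χ l} =
      Set.range fun q : Fin (T.P.N + 1) × Fin (T.P.N + 1) => T.χ q.1 / T.χ q.2 := by
    ext w
    constructor
    · rintro ⟨k, l, rfl⟩
      exact ⟨(k, l), rfl⟩
    · rintro ⟨⟨k, l⟩, rfl⟩
      exact ⟨k, l, rfl⟩
  refine (Subgroup.fg_iff _).2 ⟨_, rfl, ?_⟩
  rw [this]
  exact Set.finite_range _

theorem mem_WW (k l : Fin (T.P.N + 1)) : T.χ k / T.χ l ∈ WW T := Subgroup.subset_closure ⟨k, l, rfl⟩

/-- the weights of a functional -/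
def xw (x : Additive (WW T) →+ ℝ) (k : Fin (T.P.N + 1)) : ℝ :=
  x (Additive.ofMul ⟨T.χ k / T.χ 0, mem_WW T k 0⟩)

theorem xw_sub (x : Additive (WW T) →+ ℝ) (k l : Fin (T.P.N + 1)) :
    xw T x k - xw T x l = x (Additive.ofMul ⟨T.χ k / T.χ l, mem_WW T k l⟩) := by
  rw [xw, xw, ← map_sub]
  congr 1
  apply Additive.toMul.injective
  apply Subtype.ext
  show (T.χ k / T.χ 0) / (T.χ l / T.χ 0) = T.χ k / T.χ l
  rw [div_div_div_cancel_right]

theorem act_R (γ : Γ) (y : M) (v : E T.P) (hv : R T.P y v) :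
    R T.P (γ • y) (fun k => (T.χ k γ : ℂ) * v k) := by
  obtain ⟨i, hi⟩ := A.cover y
  obtain ⟨j, hj⟩ := A.cover (γ • y)
  obtain ⟨c, hc0, hc⟩ := diag_ne T γ hi hj
  obtain ⟨d, hd0, hd⟩ := hv.chart hi
  have h1 : (fun k => (T.χ k γ : ℂ) * v k) = (c⁻¹ * d) • T.P.F j (γ • y) := by
    funext k
    rw [Pi.smul_apply, hc k, smul_eq_mul]
    have h2 := congrFun hd k
    simp only [Pi.smul_apply, smul_eq_mul] at h2
    rw [h2]
    field_simp
  rw [h1]
  exact (R_F hj).smul (mul_ne_zero (inv_ne_zero hc0) hd0)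

/-- Kronecker for a multiplicative group -/
theorem kron_mul {G : Type*} [CommGroup G] (W : Subgroup (G →* Circle)) (hfg : W.FG)
    (htf : ∀ w ∈ W, ∀ m : ℕ, m ≠ 0 → w ^ m = 1 → w = 1) (x : Additive W →+ ℝ) (S : Finset W)
    {ε : ℝ} (hε : 0 < ε) : ∃ g : G, ∀ w ∈ S,
      ‖(((w : G →* Circle) g : Circle) : ℂ) - Complex.exp ((x (Additive.ofMul w) : ℝ) * I)‖ < ε := by
  classical
  let e : Additive (G →* Circle) ≃+ AddChar (Additive G) Circle :=
    { toFun := fun χ => toAdd χ.toMul
      invFun := fun ψ => Additive.ofMul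
        { toFun := fun g => ψ (Additive.ofMul g)
          map_one' := ψ.map_zero_eq_one
          map_mul' := fun a b => ψ.map_add_eq_mul _ _ }
      left_inv := fun χ => rfl
      right_inv := fun ψ => rfl
      map_add' := fun _ _ => rfl }
  let W1 : AddSubgroup (Additive (G →* Circle)) := Subgroup.toAddSubgroup W
  let W2 : AddSubgroup (AddChar (Additive G) Circle) := W1.map e.toAddMonoidHom
  have hW2 : ∀ {w : G →* Circle}, w ∈ W → e (Additive.ofMul w) ∈ AddSubgroup.toIntSubmodule W2 := by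
    intro w hw
    exact ⟨Additive.ofMul w, hw, rfl⟩
  have hinv : ∀ w ∈ AddSubgroup.toIntSubmodule W2, (e.symm w).toMul ∈ W := by
    rintro _ ⟨w, hw, rfl⟩
    have h1 : e.symm (e.toAddMonoidHom w) = w := e.symm_apply_apply w
    rw [h1]
    exact hw
  have hfg1 : W1.FG := (Subgroup.fg_iff_add_fg W).1 hfg
  have hfg2 : (AddSubgroup.toIntSubmodule W2).FG := by
    have h1 : (AddSubgroup.toIntSubmodule W1).FG := by
      rw [Submodule.fg_iff_addSubgroup_fg, AddSubgroup.toIntSubmodule_toAddSubgroup]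
      exact hfg1
    exact h1.map e.toAddMonoidHom.toIntLinearMap
  have htf2 : ∀ w ∈ AddSubgroup.toIntSubmodule W2, ∀ m : ℤ, m ≠ 0 → m • w = 0 → w = 0 := by
    intro w hw m hm h
    have h1 := hinv w hw
    have h2 : (e.symm w).toMul ^ m = 1 := by
      have h3 : e.symm (m • w) = m • e.symm w := map_zsmul e.symm m w
      rw [h, map_zero] at h3
      have h4 := congrArg Additive.toMul h3
      exact h4.symm
    have h3 : (e.symm w).toMul ^ m.natAbs = 1 := by
      rcases Int.natAbs_eq m with h5 | h5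
      · rw [h5, zpow_natCast] at h2
        exact h2
      · rw [h5, zpow_neg, zpow_natCast, inv_eq_one] at h2
        exact h2
    have h4 := htf _ h1 _ (Int.natAbs_ne_zero.2 hm) h3
    have h5 : e.symm w = 0 := h4
    rw [← e.apply_symm_apply w, h5, map_zero]
  let f : AddSubgroup.toIntSubmodule W2 →+ Additive W :=
    { toFun := fun w => Additive.ofMul ⟨(e.symm w.1).toMul, hinv w.1 w.2⟩
      map_zero' := by
        apply Additive.toMul.injective
        apply Subtype.ext
        show (e.symm 0).toMul = 1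
        rw [map_zero]
        rfl
      map_add' := by
        intro a b
        apply Additive.toMul.injective
        apply Subtype.ext
        show (e.symm (a.1 + b.1)).toMul = (e.symm a.1).toMul * (e.symm b.1).toMul
        rw [map_add]
        rfl }
  obtain ⟨γ, hγ⟩ := TorG_522.kron_flow (AddSubgroup.toIntSubmodule W2) hfg2 htf2 (x.comp f)
    (S.image fun w : W => ⟨e (Additive.ofMul (w : G →* Circle)), hW2 w.prop⟩) hε
  refine ⟨γ.toMul, fun w hw => ?_⟩
  have h1 := hγ _ (Finset.mem_image_of_mem _ hw)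
  have h2 : f ⟨e (Additive.ofMul (w : G →* Circle)), hW2 w.prop⟩ = Additive.ofMul w := by
    apply Additive.toMul.injective
    apply Subtype.ext
    show (e.symm (e (Additive.ofMul (w : G →* Circle)))).toMul = (w : G →* Circle)
    rw [e.symm_apply_apply]
    rfl
  rw [AddMonoidHom.comp_apply, h2] at h1
  exact h1

/-- a sequence in the group approximating the imaginary time -/
theorem exists_seq (x : Additive (WW T) →+ ℝ) (t : ℝ) : ∃ γ : ℕ → Γ, ∀ k,
    Tendsto (fun m => (((T.χ k / T.χ 0 : Γ →* Circle) (γ m) : Circle) : ℂ)) atTop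
      (𝓝 (Complex.exp ((t * xw T x k : ℝ) * I))) := by
  classical
  set S : Finset (WW T) := Finset.univ.image fun k => (⟨T.χ k / T.χ 0, mem_WW T k 0⟩ : WW T)
    with hS
  have hex : ∀ m : ℕ, ∃ γ : Γ, ∀ w ∈ S, ‖(((w : Γ →* Circle) γ : Circle) : ℂ) -
      Complex.exp ((t * x (Additive.ofMul w) : ℝ) * I)‖ < 1 / ((m : ℝ) + 1) := by
    intro m
    exact kron_mul (WW T) (WW_fg T) T.tf ((AddMonoidHom.mulLeft t).comp x) S (by positivity)
  choose γ hγ using hex
  refine ⟨γ, fun k => ?_⟩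
  rw [tendsto_iff_norm_sub_tendsto_zero]
  refine squeeze_zero (fun _ => norm_nonneg _) (fun m => ?_)
    tendsto_one_div_add_atTop_nhds_zero_nat
  exact (hγ m _ (Finset.mem_image_of_mem _ (Finset.mem_univ k))).le

theorem tendsto_act (x : Additive (WW T) →+ ℝ) {t : ℝ} {γ : ℕ → Γ}
    (hγ : ∀ k, Tendsto (fun m => (((T.χ k / T.χ 0 : Γ →* Circle) (γ m) : Circle) : ℂ)) atTop
      (𝓝 (Complex.exp ((t * xw T x k : ℝ) * I)))) [CompactSpace M] {y : M} {v : E T.P}
    (hv : R T.P y v) : ∃ y', R T.P y' (Ez (xw T x) ((t : ℂ) * I) v) ∧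
      Tendsto (fun m => γ m • y) atTop (𝓝 y') := by
  have h1 : Tendsto (fun m (k : Fin (T.P.N + 1)) =>
      (((T.χ k / T.χ 0 : Γ →* Circle) (γ m) : Circle) : ℂ) * v k) atTop
      (𝓝 (Ez (xw T x) ((t : ℂ) * I) v)) := by
    rw [tendsto_pi_nhds]
    intro k
    have h3 : Ez (xw T x) ((t : ℂ) * I) v k = Complex.exp ((t * xw T x k : ℝ) * I) * v k := by
      simp only [Ez]
      congr 2
      push_cast
      ring
    rw [h3]
    exact (hγ k).mul_const (v k)
  refine exists_lim (P := T.P) h1 (Ez_ne _ hv.ne) (Eventually.of_forall fun m => ?_)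
  have h2 := (act_R T (γ m) y v hv).smul (c := ((T.χ 0 (γ m) : Circle) : ℂ)⁻¹)
    (inv_ne_zero (Circle.coe_ne_zero _))
  have h3 : (((T.χ 0 (γ m) : Circle) : ℂ)⁻¹ • fun k => (T.χ k (γ m) : ℂ) * v k) =
      fun k => (((T.χ k / T.χ 0 : Γ →* Circle) (γ m) : Circle) : ℂ) * v k := by
    funext k
    rw [Pi.smul_apply, smul_eq_mul, MonoidHom.div_apply, Circle.coe_div]
    ring
  rwa [h3] at h2

/-- the flow of a functional -/
theorem exists_flow [CompactSpace M] (x : Additive (WW T) →+ ℝ) : Nonempty (Flo T.P (xw T x)) := by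
  refine exists_flo fun t y v hv => ?_
  obtain ⟨γ, hγ⟩ := exists_seq T x t
  obtain ⟨y', hy', -⟩ := tendsto_act T x hγ hv
  exact ⟨y', hy'⟩

variable {T}

/-- imaginary times are limits of the group -/
theorem appr [CompactSpace M] {x : Additive (WW T) →+ ℝ} (D : Flo T.P (xw T x)) {m : ℝ}
    (hm : ∀ k, m ≤ xw T x k) : Appr T (D.rf hm) := by
  intro t y
  obtain ⟨v, hv⟩ := exists_R (P := T.P) y
  obtain ⟨γ, hγ⟩ := exists_seq T x t
  obtain ⟨y', hy', hlim⟩ := tendsto_act T x hγ hv
  refine ⟨γ, ?_⟩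
  have h1 : R T.P (D.D ((t : ℂ) * I) y) (Ez (xw T x) ((t : ℂ) * I) v) := D.spec _ _ _ hv
  have h2 : D.D ((t : ℂ) * I) y = y' := h1.uniq hy'
  show Tendsto (fun k => γ k • y) atTop (𝓝 (D.D ((t : ℂ) * I) y))
  rw [h2]
  exact hlim

/-- the fixed locus is compact and connected as soon as `m` is attained -/
theorem conn_F [CompactSpace M] [PreconnectedSpace M] {x : Additive (WW T) →+ ℝ}
    (D : Flo T.P (xw T x)) {m : ℝ} (hm : ∀ k, m ≤ xw T x k) {k : Fin (T.P.N + 1)}
    (hk : xw T x k = m) : IsConnected (D.rf hm).T.F := by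
  obtain ⟨i, y, hy, h0⟩ := T.nz k
  exact D.isConnected_F hm hk hy h0

end

end Crest.Agent.R273.TorEps_422
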