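import Crest.Agent.R273.TorAct_422
import Crest.Agent.R273.TorEps_422
import Crest.Agent.R273.RetE_155
import Crest.Agent.R273.BDiag_733
import Crest.Agent.R273.HodgeP_578
import Crest.Agent.R273.D2U_505

/-!
# R273 (S0416), torus step (helper422), T8': semi-invariant null polyvectors

`quad_ge`, `nq_bdd`, `push_bdd` : orbits of the group on null polyvectors are bounded;
`rs_push`   : restriction to the fixed locus of the lowered push forward;
`exists_semi` : a semi-invariant null polyvector with character `vF^k`.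
-/

set_option autoImplicit false
set_option linter.unusedSectionVars false

open Set Filter Topology Complex
open scoped ContDiff Matrix ComplexConjugate Manifold ComplexOrder Kronecker

namespace Crest.Agent.R273.TorEq_422

open Crest.Agent.R275.Geo Crest.Agent.R275.Core144
open Crest.Agent.R273.Defs_333 Crest.Agent.R273.Map_835 Crest.Agent.R273.Kah_333
open Crest.Agent.R273.HM_333 (LB_pow_g)
open Crest.Agent.R273.Fock_243 Crest.Agent.R273.NV_578
open Crest.Agent.R273.TorFr_422 Crest.Agent.R273.TorDefs_422 Crest.Agent.R273.TorBd_422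
open Crest.Agent.R273.TorAct_422 Crest.Agent.R273.TorMin_422
open Crest.Agent.R273.LamN127 (BN) 
open Crest.Agent.R273.DVec_733 Crest.Agent.R273.DMet_733 Crest.Agent.R273.HodgeP_578
open Crest.Agent.R273.Ret_155 Crest.Agent.R273.GamR_155 Crest.Agent.R273.PullF_155

noncomputable section

/-- lower bound of a positive definite form -/
theorem quad_ge {κ : Type} [Fintype κ] {G : Matrix κ κ ℂ} (hG : G.PosDef) :
    ∃ c : ℝ, 0 < c ∧ ∀ u : κ → ℂ, ∀ k, c * ‖u k‖ ^ 2 ≤ (star u ⬝ᵥ (G *ᵥ u)).re := by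
  classical
  set f : (κ → ℂ) → ℝ := fun u => (star u ⬝ᵥ (G *ᵥ u)).re with hf
  have hfc : Continuous f := by
    refine Complex.continuous_re.comp ?_
    simp only [dotProduct, Matrix.mulVec, Pi.star_apply]
    fun_prop
  have hpos : ∀ u, u ≠ 0 → 0 < f u := fun u hu => hG.re_dotProduct_pos hu
  have hhom : ∀ (t : ℝ) (u : κ → ℂ), f ((t : ℂ) • u) = t ^ 2 * f u := by
    intro t u
    simp only [hf, Matrix.mulVec_smul, star_smul, smul_dotProduct, dotProduct_smul, smul_eq_mul]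
    rw [← mul_assoc, Complex.star_def, Complex.conj_ofReal, ← Complex.ofReal_mul,
      Complex.re_ofReal_mul]
    ring
  by_cases hne : (Metric.sphere (0 : κ → ℂ) 1).Nonempty
  · obtain ⟨u0, hu0, hmin⟩ := (isCompact_sphere (0 : κ → ℂ) 1).exists_isMinOn hne hfc.continuousOn
    have hu0' : u0 ≠ 0 := by
      rintro rfl
      simp at hu0
    refine ⟨f u0, hpos u0 hu0', fun u k => ?_⟩
    by_cases hu : u = 0
    · subst hu
      simp
    have hn : 0 < ‖u‖ := norm_pos_iff.2 hu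
    have h1 : f u = ‖u‖ ^ 2 * f (((‖u‖⁻¹ : ℝ) : ℂ) • u) := by
      rw [hhom]
      field_simp
    have h2 : f u0 ≤ f (((‖u‖⁻¹ : ℝ) : ℂ) • u) := by
      refine hmin ?_
      rw [mem_sphere_zero_iff_norm, norm_smul, Complex.norm_real, norm_inv, norm_norm,
        inv_mul_cancel₀ hn.ne']
    have h3 : ‖u k‖ ^ 2 ≤ ‖u‖ ^ 2 := by
      have := norm_le_pi_norm u k
      gcongr
    calc f u0 * ‖u k‖ ^ 2 ≤ f u0 * ‖u‖ ^ 2 := mul_le_mul_of_nonneg_left h3 (hpos u0 hu0').le
      _ ≤ f (((‖u‖⁻¹ : ℝ) : ℂ) • u) * ‖u‖ ^ 2 := mul_le_mul_of_nonneg_right h2 (by positivity)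
      _ = f u := by rw [h1, mul_comm]
  · refine ⟨1, one_pos, fun u k => ?_⟩
    exfalso
    apply hne
    refine ⟨Pi.single k 1, ?_⟩
    rw [mem_sphere_zero_iff_norm, Pi.norm_single, norm_one]

variable {n : ℕ} {M : Type} [TopologicalSpace M] {A : Atl n M}

theorem cont_of_smAt {W : Type*} [NormedAddCommGroup W] [NormedSpace ℝ W] {i : A.ι} {f : M → W}
    (hf : A.SmAt i f) {x : M} (hx : x ∈ (A.e i).source) : ContinuousAt f x := by
  have h1 : ContinuousAt (fun z => f ((A.e i).symm z)) (A.e i x) :=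
    (ContDiffOn.continuousOn hf).continuousAt ((A.e i).open_target.mem_nhds ((A.e i).map_source hx))
  have h2 : ContinuousAt (fun y => f ((A.e i).symm (A.e i y))) x :=
    ContinuousAt.comp (f := fun y => A.e i y) (g := fun z => f ((A.e i).symm z)) h1
      ((A.e i).continuousAt hx)
  refine h2.congr ?_
  filter_upwards [(A.e i).open_source.mem_nhds hx] with y hy
  rw [(A.e i).left_inv hy]

variable {Γ : Type} [CommGroup Γ] [MulAction Γ M] (T : TorD A Γ)

theorem cont_nq {m q : ℕ} {v : A.ι → M → FI n → ℂ} (hv : v ∈ PV ((aK A) ^ m) q) {i : A.ι} {x : M}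
    (hx : x ∈ (A.e i).source) : ContinuousAt (nq T m v i) x := by
  have hvm := DMetB_733.PV_le hv
  have h1 : ∀ S, ContinuousAt (fun y => v i y S) x := fun S => cont_of_smAt (hvm.1 i S) hx
  have h2 : ∀ S S', ContinuousAt (fun y => GK T.K i y S S') x := fun S S' =>
    cont_of_smAt (GK_smooth T.K i S S') hx
  have h3 : ContinuousAt (T.h.w i) x := cont_of_smAt (i := i) (f := T.h.w i) (T.h.sm i) hx
  refine (h3.pow m).mul ?_
  refine Complex.continuous_re.continuousAt.comp ?_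
  simp only [dotProduct, Matrix.mulVec, Pi.star_apply]
  refine tendsto_finsetSum _ fun S _ => ?_
  refine Tendsto.mul ?_ (tendsto_finsetSum _ fun S' _ => (h2 S S').mul (h1 S'))
  exact (continuous_star.continuousAt (x := v i x S)).tendsto.comp (h1 S)

theorem nq_bdd [CompactSpace M] {m q : ℕ} {v : A.ι → M → FI n → ℂ}
    (hv : v ∈ PV ((aK A) ^ m) q) : ∃ C : ℝ, ∀ i, ∀ x ∈ (A.e i).source, nq T m v i x ≤ C := by
  set f : M → ℝ := fun x => nq T m v (ci A x) x with hf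
  have hfi : ∀ i, ∀ x ∈ (A.e i).source, f x = nq T m v i x := fun i x hx =>
    nq_chart T hv ⟨ci_mem A x, hx⟩
  have hfc : Continuous f := by
    rw [continuous_iff_continuousAt]
    intro x
    refine (cont_nq T hv (ci_mem A x)).congr ?_
    filter_upwards [(A.e (ci A x)).open_source.mem_nhds (ci_mem A x)] with y hy
    exact (hfi _ y hy).symm
  obtain ⟨C, hC⟩ := (isCompact_univ (X := M)).exists_bound_of_continuousOn hfc.continuousOn
  refine ⟨C, fun i x hx => ?_⟩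
  rw [← hfi i x hx]
  exact (le_abs_self _).trans (hC x (mem_univ x))

include T in
/-- the orbits of the group are bounded -/
theorem push_bdd [CompactSpace M] {m q : ℕ} {v : A.ι → M → FI n → ℂ}
    (hv : v ∈ PV ((aK A) ^ m) q) (i : A.ι) (x : M) (S : FI n) :
    ∃ C : ℝ, ∀ γ : Γ, ‖push m γ v i x S‖ ≤ C := by
  by_cases hx : x ∈ (A.e i).source
  · obtain ⟨C, hC⟩ := nq_bdd T hv
    obtain ⟨c, hc, hcu⟩ := quad_ge (G := GK T.K i x)
      (Pos_243.Gam_posDef ((T.K.pos i x hx).transpose))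
    have hw := T.h.pos i x hx
    refine ⟨Real.sqrt (C / (T.h.w i x ^ m * c)), fun γ => ?_⟩
    refine Real.le_sqrt_of_sq_le ?_
    rw [le_div_iff₀ (by positivity)]
    have h1 : nq T m (push m γ v) i x ≤ C := by
      have h2 : γ • (γ⁻¹ • x) = x := smul_inv_smul γ x
      have h3 := nq_push T γ hv (ci_mem A (γ⁻¹ • x)) (j := i) (by rw [h2]; exact hx)
      rw [h2] at h3
      rw [h3]
      exact hC _ _ (ci_mem A _)
    have h2 := hcu (push m γ v i x) S
    calc ‖push m γ v i x S‖ ^ 2 * (T.h.w i x ^ m * c)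
        = T.h.w i x ^ m * (c * ‖push m γ v i x S‖ ^ 2) := by ring
      _ ≤ T.h.w i x ^ m * (star (push m γ v i x) ⬝ᵥ (GK T.K i x *ᵥ push m γ v i x)).re :=
          mul_le_mul_of_nonneg_left h2 (by positivity)
      _ ≤ C := h1
  · refine ⟨0, fun γ => ?_⟩
    rw [push_off γ hx]
    simp

/-! ### restriction to the fixed locus -/

/-- the lowered push forward at a fixed point -/
theorem GK_push {m q : ℕ} {v : A.ι → M → FI n → ℂ} (hv : v ∈ PV ((aK A) ^ m) q) {γ : Γ} {p : M}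
    (hp : γ • p = p) {i : A.ι} (hi : p ∈ (A.e i).source) :
    GK T.K i p *ᵥ push m γ v i p = (Ja A γ i i p).det ^ m •
      (Gam (((Ja A γ⁻¹ i i p).map conj)ᵀ) *ᵥ (GK T.K i p *ᵥ v i p)) := by
  have hi' : γ • p ∈ (A.e i).source := by rw [hp]; exact hi
  have h1 := push_eq T.hol γ hv hi hi'
  rw [hp] at h1
  have h2 := T.K_inv γ i i p hi hi'
  rw [hp] at h2
  have h3 := Ja_inv T.hol γ hi hi'
  rw [hp] at h3
  have h4 : ((Ja A γ⁻¹ i i p).map conj)ᵀ * (T.K.g i p)ᵀ = (T.K.g i p)ᵀ * Ja A γ i i p := by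
    have h5 : (T.K.g i p)ᵀ = ((Ja A γ i i p).map conj)ᵀ * ((T.K.g i p)ᵀ * Ja A γ i i p) := by
      conv_lhs => rw [h2]
      rw [Matrix.transpose_mul, Matrix.transpose_mul, Matrix.transpose_transpose]
    have h6 : ((Ja A γ⁻¹ i i p).map conj)ᵀ * ((Ja A γ i i p).map conj)ᵀ = 1 := by
      rw [← Matrix.transpose_mul, ← Matrix.map_mul, mul_eq_one_comm.1 h3,
        Matrix.map_one _ (map_zero _) (map_one _), Matrix.transpose_one]
    conv_lhs => rw [h5]
    rw [← Matrix.mul_assoc, h6, Matrix.one_mul]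
  rw [h1, Matrix.mulVec_smul]
  unfold GK
  rw [Matrix.mulVec_mulVec, Matrix.mulVec_mulVec, ← Gam_mul, ← Gam_mul, h4]

variable {T} (Q : RF T.P) (S : FAtl Q.T)

/-- restriction of the lowered push forward -/
theorem rs_push {k q : ℕ} (v : NV ((aK A) ^ k) T.h q) {γ : Γ} (c : ℂ)
    (hfix : ∀ p ∈ Q.T.F, γ • p = p)
    (hdet : ∀ p ∈ Q.T.F, ∀ j, p ∈ (A.e j).source → (Ja A γ j j p).det = c) :
    S.rs (aK A) k (low T.K _ (inc _ T.h q ⟨push k γ v.1, push_nul T γ v.2⟩)) =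
      c ^ k • S.rs (aK A) k (low T.K _ (inc _ T.h q v)) := by
  apply Subtype.ext
  funext i' x
  by_cases hi' : x ∈ (S.B.e i').source
  · obtain ⟨j, hj⟩ := A.cover (x : M)
    have hp : γ • (x : M) = x := hfix _ x.2
    have hp' : γ⁻¹ • (x : M) = x := by
      conv_lhs => rw [← hp]
      rw [inv_smul_smul]
    have e1 := S.rs_eq (L := aK A) k (low T.K _ (inc _ T.h q ⟨push k γ v.1, push_nul T γ v.2⟩))
      hi' hj
    have e2 := S.rs_eq (L := aK A) k (low T.K _ (inc _ T.h q v)) hi' hj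
    rw [e1]
    show _ = c ^ k • (S.rs (aK A) k (low T.K _ (inc _ T.h q v))).1 i' x
    rw [e2]
    have h1 : (low T.K _ (inc _ T.h q ⟨push k γ v.1, push_nul T γ v.2⟩)).1 j (x : M) =
        iB ((aK A) ^ k) (GK T.K j x *ᵥ push k γ v.1 j x) := rfl
    have h2 : (low T.K _ (inc _ T.h q v)).1 j (x : M) = iB ((aK A) ^ k) (GK T.K j x *ᵥ v.1 j x) :=
      rfl
    rw [h1, h2, GK_push T v.2.1 hp hj, hdet _ x.2 j hj, iB_smul, Matrix.mulVec_smul]
    congr 1
    set u := GK T.K j x *ᵥ v.1 j x with hu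
    set J' : Matrix (Fin n) (Fin n) ℂ := Ja A γ⁻¹ j j (x : M) with hJ'
    have h3 : iB ((aK A) ^ k) (Gam (J'.map conj)ᵀ *ᵥ u) =
        kB ((aK A) ^ k) ((aK A) ^ k) (Gam (J'.map conj)ᵀ) 1 *ᵥ iB ((aK A) ^ k) u := by
      have := kB_iB ((aK A) ^ k) ((aK A) ^ k) (Gam (J'.map conj)ᵀ) 1 u
      rw [one_smul] at this
      exact this.symm
    rw [h3, Matrix.mulVec_mulVec]
    congr 1
    show (GamR (Jpb S.B A (Subtype.val : Q.T.F → M) i' j x) ⊗ₖ cU _ :
      Matrix (FI S.d × Unit) (FI n × Unit) ℂ) *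
        (Gam (J'.map conj)ᵀ ⊗ₖ cU 1 : Matrix (FI n × Unit) (FI n × Unit) ℂ) =
      (GamR (Jpb S.B A (Subtype.val : Q.T.F → M) i' j x) ⊗ₖ cU _ :
        Matrix (FI S.d × Unit) (FI n × Unit) ℂ)
    rw [kU_mul, mul_one, ← GamR_eq_Gam, ← GamR_mul]
    congr 2
    have h4 : Ja A γ⁻¹ j j (x : M) * Jp S.B A (Subtype.val : Q.T.F → M) i' j x =
        Jp S.B A (Subtype.val : Q.T.F → M) i' j x := by
      have h5 := Jp_comp (T.hol γ⁻¹) S.holMap_val (i := i') (j := j) (l := j) hi' hj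
        (by rw [hp']; exact hj)
      refine h5.trans ?_
      congr 1
      funext y
      have hy : γ • (y : M) = y := hfix _ y.2
      show γ⁻¹ • (y : M) = y
      conv_lhs => rw [← hy]
      rw [inv_smul_smul]
    unfold Jpb
    rw [← Matrix.transpose_mul, ← Matrix.map_mul, h4]
  · rw [(S.rs (aK A) k _).2.2.1 i' x hi']
    show 0 = c ^ k • (S.rs (aK A) k (low T.K _ (inc _ T.h q v))).1 i' x
    rw [(S.rs (aK A) k _).2.2.1 i' x hi', smul_zero]

variable (T) in
/-- the representation of the group on null polyvectors -/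
def repr (k q : ℕ) : Γ →* Module.End ℂ (NV ((aK A) ^ k) T.h q) where
  toFun γ :=
    { toFun := fun v => ⟨push k γ v.1, push_nul T γ v.2⟩
      map_add' := fun v w => Subtype.ext (push_add T.hol k γ v.1 w.1)
      map_smul' := fun c v => Subtype.ext (push_smul T.hol k γ c v.1) }
  map_one' := by
    ext1 v
    exact Subtype.ext (push_one T.hol v.2.1)
  map_mul' γ γ' := by
    ext1 v
    exact Subtype.ext (push_mul T.hol γ γ' v.2.1)

theorem repr_val (k q : ℕ) (γ : Γ) (v : NV ((aK A) ^ k) T.h q) :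
    (repr T k q γ v).1 = push k γ v.1 := rfl

/-- **T8'**: a class on `M` seen by a functional on the fixed locus gives a semi-invariant null
polyvector -/
theorem exists_semi [T2Space M] [CompactSpace M] [Finite A.ι] (PA : Part A)
    (hfix : ∀ γ : Γ, ∀ p ∈ Q.T.F, γ • p = p) (vF : Γ →* Circle)
    (hdet : ∀ γ : Γ, ∀ p ∈ Q.T.F, ∀ j, p ∈ (A.e j).source →
      (Ja A γ j j p).det * (vF γ : ℂ) = 1)
    {k q : ℕ} (φ : Sec (BN (S.res (aK A) ^ k)) →ₗ[ℂ] ℂ) (hφ : ∀ y, φ (nabL _ y) = 0)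
    {z : Sec (BN ((aK A) ^ k))} (hz : nabL _ z = 0) (hq : pqL _ q z = z)
    (hne : φ (S.rs (aK A) k z) ≠ 0) :
    ∃ w ∈ NV ((aK A) ^ k) T.h q, w ≠ 0 ∧ SemiV k (vF ^ k) w := by
  have hD := D13_505.d2Ex PA T.K
  have hfin0 := (d2_fin PA hD (hpow T.h k) (hpow_semipos T.semi k) q).1
  have eNV : NV ((aK A) ^ k) (hpow T.h k) q = NV ((aK A) ^ k) T.h q := NV_hpow T.h k _ q
  rw [eNV] at hfin0
  -- the harmonic representative
  obtain ⟨v0, y, hy⟩ := hD _ (hpow T.h k) (hpow_semipos T.semi k) q z hz hq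
  set v : NV ((aK A) ^ k) T.h q := ⟨v0.1, by rw [← eNV]; exact v0.2⟩ with hv
  have hlow : low T.K _ (inc _ (hpow T.h k) q v0) = low T.K _ (inc _ T.h q v) := rfl
  rw [hlow] at hy
  -- the functional on the null polyvectors
  set Φ : NV ((aK A) ^ k) T.h q →ₗ[ℂ] ℂ :=
    φ ∘ₗ (S.rs (aK A) k) ∘ₗ (low T.K _).toLinearMap ∘ₗ inc _ T.h q with hΦ
  have hΦv : Φ v ≠ 0 := by
    have h1 : S.rs (aK A) k z = S.rs (aK A) k (low T.K _ (inc _ T.h q v)) +
        nabL _ (S.rs (aK A) k y) := by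
      rw [S.rs_nab, hy, map_sub]
      abel
    rw [h1, map_add, hφ, add_zero] at hne
    exact hne
  have hΦ0 : Φ ≠ 0 := fun h => hΦv (by rw [h]; rfl)
  have hvF : ∀ γ : Γ, (vF γ : ℂ) ≠ 0 := fun γ => Circle.coe_ne_zero _
  have heq : ∀ (γ : Γ) (u : NV ((aK A) ^ k) T.h q),
      Φ (repr T k q γ u) = ((vF γ : ℂ)⁻¹) ^ k * Φ u := by
    intro γ u
    have h1 := rs_push Q S u (γ := γ) ((vF γ : ℂ)⁻¹) (hfix γ) (fun p hp j hj =>
      eq_inv_of_mul_eq_one_left (hdet γ p hp j hj))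
    have h2 : Φ (repr T k q γ u) = φ (S.rs (aK A) k (low T.K _ (inc _ T.h q
      ⟨push k γ u.1, push_nul T γ u.2⟩))) := rfl
    rw [h2, h1, map_smul]
    rfl
  -- separating functionals
  obtain ⟨w, hw, hw0⟩ := BDiag_733.exists_vec_fun (V := NV ((aK A) ^ k) T.h q)
    (ρ := repr T k q) (σ := A.ι × M × FI n)
    (fun s => { toFun := fun v => v.1 s.1 s.2.1 s.2.2
                map_add' := fun _ _ => rfl
                map_smul' := fun _ _ => rfl })
    (fun u hu => Subtype.ext (by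
      funext i x U
      exact hu (i, x, U)))
    (fun s u => push_bdd T u.2.1 s.1 s.2.1 s.2.2) Φ hΦ0 (fun γ => ((vF γ : ℂ)⁻¹) ^ k) heq
  refine ⟨w.1, w.2, fun h => hw0 ?_, ?_⟩
  · have : w = 0 := Subtype.ext h
    rw [this, map_zero]
  · intro γ i j x hi hj
    have h1 := congrArg (fun u : NV ((aK A) ^ k) T.h q => u.1 j (γ • x)) (hw γ)
    simp only [repr_val] at h1
    rw [push_eq T.hol γ w.2.1 hi hj] at h1
    have h2 : (((vF γ : ℂ)⁻¹) ^ k • w).1 j (γ • x) = ((vF γ : ℂ)⁻¹) ^ k • w.1 j (γ • x) := rfl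
    rw [h2] at h1
    have h3 : w.1 j (γ • x) = (vF γ : ℂ) ^ k • (((vF γ : ℂ)⁻¹) ^ k • w.1 j (γ • x)) := by
      rw [smul_smul, ← mul_pow, mul_inv_cancel₀ (hvF γ), one_pow, one_smul]
    rw [h3, ← h1, smul_smul, MonoidHom.pow_apply, Circle.coe_pow]

end

end Crest.Agent.R273.TorEq_422
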