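import Crest.Agent.R273.TorAsm_422
import Crest.Agent.R273.T8E_774

/-!
# R273 (S0416), the torus step closed (helper774): `TorMain` of `TorDefs_422`
-/

namespace Crest.Agent.R273.TorFin_774

/-- the torus step, without hypothesis -/
theorem torMain : Crest.Agent.R273.TorDefs_422.TorMain :=
  Crest.Agent.R273.TorAsm_422.torMain Crest.Agent.R273.T8_774.t8_holds

end Crest.Agent.R273.TorFin_774
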