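import Crest.Agent.R273.Map_835

/-!
# R273 (S0416), torus step (helper422): minors of the 1-jets of homogeneous coordinates

`jt P i x`   : matrix with rows `F_i, ∂_1 F_i, …, ∂_n F_i` at `x`
`GS P S i x` : its minor with the columns `S`
* `exists_GS_ne` : some minor does not vanish (immersion)
* `GS_map`       : `det (J φ) G_S(φ x) = c^{n+1} Δ_S G_S(x)` if `F ∘ φ = c Δ F`
* `GS_tr`        : change of charts
-/

set_option autoImplicit false
set_option linter.unusedSectionVars false

open Set Filter Topology Complex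
open scoped ContDiff Matrix ComplexConjugate Manifold

namespace Crest.Agent.R273.TorMin_422

open Crest.Agent.R275.Geo Crest.Agent.R275.Core144
open Crest.Agent.R273.Defs_333 Crest.Agent.R273.Map_835

noncomputable section

/-- a matrix with linearly independent rows has a nonvanishing minor -/
theorem exists_minor {r m : Type} [Fintype r] [DecidableEq r] [Fintype m]
    (B : Matrix r m ℂ) (h : LinearIndependent ℂ B.row) : ∃ S : r → m, (B.submatrix id S).det ≠ 0 := by
  classical
  obtain ⟨κ, a, hinj, hspan, hli⟩ := exists_linearIndependent' ℂ (B.col)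
  have h1 : Module.finrank ℂ (Submodule.span ℂ (range B.col)) = Fintype.card r := by
    rw [← Matrix.rank_eq_finrank_span_cols]
    exact h.rank_matrix
  have : Finite κ := Finite.of_injective a hinj
  have : Fintype κ := Fintype.ofFinite κ
  have h2 : Module.finrank ℂ (Submodule.span ℂ (range (B.col ∘ a))) = Fintype.card κ :=
    finrank_span_eq_card hli
  have hcard : Fintype.card r = Fintype.card κ := by rw [← h1, ← h2, hspan]
  let e : r ≃ κ := Fintype.equivOfCardEq hcard
  refine ⟨fun i => a (e i), ?_⟩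
  have h3 : LinearIndependent ℂ (B.submatrix id (fun i => a (e i))).col := by
    have := hli.comp e e.injective
    exact this
  have h4 := Matrix.linearIndependent_cols_iff_isUnit.1 h3
  exact ((Matrix.isUnit_iff_isUnit_det _).1 h4).ne_zero

variable {n : ℕ} {M : Type} [TopologicalSpace M] {A : Atl n M}

/-- the homogeneous coordinates read in the chart `i` -/
def Fr (P : ProjD A) (i : A.ι) (z : Cn n) : Fin (P.N + 1) → ℂ := P.F i ((A.e i).symm z)

theorem Fr_at (P : ProjD A) {i : A.ι} {x : M} (hx : x ∈ (A.e i).source) :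
    Fr P i (A.e i x) = P.F i x := by
  simp only [Fr, (A.e i).left_inv hx]

theorem Fr_diff (P : ProjD A) (i : A.ι) : DifferentiableOn ℂ (Fr P i) (A.e i).target := by
  rw [differentiableOn_pi]
  intro k
  have := P.hol i k
  unfold HolAt at this
  rw [preimage_univ, inter_univ] at this
  exact this

theorem Fr_diffAt (P : ProjD A) {i : A.ι} {z : Cn n} (hz : z ∈ (A.e i).target) :
    DifferentiableAt ℂ (Fr P i) z :=
  (Fr_diff P i).differentiableAt ((A.e i).open_target.mem_nhds hz)

/-- the 1-jet of the homogeneous coordinates -/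
def jt (P : ProjD A) (i : A.ι) (x : M) : Matrix (Unit ⊕ Fin n) (Fin (P.N + 1)) ℂ :=
  Matrix.of fun r k => Sum.elim (fun _ => P.F i x k)
    (fun a => fderiv ℂ (Fr P i) (A.e i x) (EuclideanSpace.single a 1) k) r

@[simp] theorem jt_inl (P : ProjD A) (i : A.ι) (x : M) (u : Unit) (k : Fin (P.N + 1)) :
    jt P i x (Sum.inl u) k = P.F i x k := rfl

@[simp] theorem jt_inr (P : ProjD A) (i : A.ι) (x : M) (a : Fin n) (k : Fin (P.N + 1)) :
    jt P i x (Sum.inr a) k = fderiv ℂ (Fr P i) (A.e i x) (EuclideanSpace.single a 1) k := rfl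

/-- the minors -/
def GS (P : ProjD A) (S : Unit ⊕ Fin n → Fin (P.N + 1)) (i : A.ι) (x : M) : ℂ :=
  ((jt P i x).submatrix id S).det

theorem sum_single' (v : Cn n) : ∑ a, v a • (EuclideanSpace.single a (1 : ℂ) : Cn n) = v := by
  ext b
  simp [Finset.sum_apply, Pi.single_apply]

theorem jt_rows (P : ProjD A) {i : A.ι} {x : M} (hx : x ∈ (A.e i).source) :
    LinearIndependent ℂ (jt P i x).row := by
  rw [Fintype.linearIndependent_iff]
  intro c hc
  have h1 : ∀ k, c (Sum.inl ()) * P.F i x k +
      ∑ a, c (Sum.inr a) * fderiv ℂ (Fr P i) (A.e i x) (EuclideanSpace.single a 1) k = 0 := by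
    intro k
    have := congrFun hc k
    simpa [Fintype.sum_sum_type, Matrix.row, Finset.sum_apply] using this
  set v : Cn n := ∑ a, c (Sum.inr a) • (EuclideanSpace.single a (1 : ℂ) : Cn n) with hv
  have h2 : fderiv ℂ (Fr P i) (A.e i x) v = (-(c (Sum.inl ()))) • P.F i x := by
    ext k
    rw [hv, map_sum]
    have := h1 k
    simp only [map_smul, Finset.sum_apply, Pi.smul_apply, smul_eq_mul]
    linear_combination this
  have h3 : v = 0 := by
    refine P.imm i (A.e i x) ((A.e i).map_source hx) v ⟨-(c (Sum.inl ())), ?_⟩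
    rw [(A.e i).left_inv hx]
    exact h2
  have h4 : ∀ a, c (Sum.inr a) = 0 := by
    intro a
    have := congrArg (fun w : Cn n => w a) h3
    simpa [hv, Finset.sum_apply, Pi.single_apply] using this
  have h5 : c (Sum.inl ()) = 0 := by
    obtain ⟨k, hk⟩ := Function.ne_iff.1 (P.ne i x hx)
    have := h1 k
    simp only [h4, zero_mul, Finset.sum_const_zero, add_zero] at this
    exact (mul_eq_zero.1 this).resolve_right hk
  rintro (u | a)
  · exact h5
  · exact h4 a

/-- some minor does not vanish -/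
theorem exists_GS_ne (P : ProjD A) {i : A.ι} {x : M} (hx : x ∈ (A.e i).source) :
    ∃ S, GS P S i x ≠ 0 := exists_minor _ (jt_rows P hx)

theorem hol_GS (P : ProjD A) (S : Unit ⊕ Fin n → Fin (P.N + 1)) (i : A.ι) :
    HolAt A i univ (GS P S i) := by
  have h0 : DifferentiableOn ℂ (fderiv ℂ (Fr P i)) (A.e i).target :=
    ((Crest.Agent.R266.SCV.analyticOnNhd_of_differentiableOn (A.e i).open_target
      (Fr_diff P i)).fderiv).differentiableOn
  have key : ∀ r k, HolAt A i univ (fun x => jt P i x r k) := by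
    rintro (u | a) k
    · exact P.hol i k
    · have h1 : DifferentiableOn ℂ (fun z => fderiv ℂ (Fr P i) z (EuclideanSpace.single a 1))
          (A.e i).target := h0.clm_apply (differentiableOn_const _)
      have h2 := (differentiableOn_pi.1 h1) k
      unfold HolAt
      rw [preimage_univ, inter_univ]
      refine h2.congr fun z hz => ?_
      simp only [jt_inr, (A.e i).right_inv hz]
  unfold GS
  simp only [Matrix.det_apply]
  refine HolAt.sum _ fun σ _ => ?_
  have h2 : HolAt A i univ fun x => ∏ b, (jt P i x).submatrix id S (σ b) b :=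
    HolAt.prod _ fun b _ => key (σ b) (S b)
  simp only [Units.smul_def, zsmul_eq_mul]
  exact h2.const_mul _

/-- **transformation of the minors**: `φ : M → M` holomorphic near `x` (charts `i` at `x`, `j` at
`φ x`) and `F ∘ φ = c Δ F` near `x` -/
theorem GS_map (P : ProjD A) {φ : M → M} {i j : A.ι} {x : M} (hx : x ∈ (A.e i).source)
    (hj : φ x ∈ (A.e j).source) (hφ : DifferentiableAt ℂ (rd A A φ i j) (A.e i x))
    (Δ : Fin (P.N + 1) → ℂ) (hΔ : ∀ k, Δ k ≠ 0) {c : ℂ}
    (hc : ∀ k, P.F j (φ x) k = c * (Δ k * P.F i x k))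
    (hev : ∀ᶠ z in 𝓝 (A.e i x), φ ((A.e i).symm z) ∈ (A.e j).source ∧
      ∃ c : ℂ, ∀ k, P.F j (φ ((A.e i).symm z)) k = c * (Δ k * P.F i ((A.e i).symm z) k))
    (S : Unit ⊕ Fin n → Fin (P.N + 1)) :
    (Jp A A φ i j x).det * GS P S j (φ x) = c ^ (n + 1) * (∏ r, Δ (S r)) * GS P S i x := by
  classical
  set z0 := A.e i x with hz0
  have hz0t : z0 ∈ (A.e i).target := (A.e i).map_source hx
  have hxz : (A.e i).symm z0 = x := (A.e i).left_inv hx
  obtain ⟨k0, hk0⟩ := Function.ne_iff.1 (P.ne i x hx)
  have hF0 : Fr P i z0 k0 ≠ 0 := by rw [hz0, Fr_at P hx]; exact hk0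
  have hFd : DifferentiableAt ℂ (Fr P i) z0 := Fr_diffAt P hz0t
  have hval : rd A A φ i j z0 = A.e j (φ x) := by simp only [rd, hxz]
  have hjt : A.e j (φ x) ∈ (A.e j).target := (A.e j).map_source hj
  have hGd : DifferentiableAt ℂ (Fr P j) (rd A A φ i j z0) := by
    rw [hval]; exact Fr_diffAt P hjt
  have hcomp : DifferentiableAt ℂ (fun z => Fr P j (rd A A φ i j z)) z0 :=
    DifferentiableAt.comp z0 (f := rd A A φ i j) hGd hφ
  -- the factor as a function
  set C : Cn n → ℂ := fun z => Fr P j (rd A A φ i j z) k0 / (Δ k0 * Fr P i z k0) with hC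
  have hCd : DifferentiableAt ℂ C z0 := by
    have e1 : DifferentiableAt ℂ (fun z => Fr P j (rd A A φ i j z) k0) z0 :=
      (differentiableAt_pi.1 hcomp) k0
    have e2 : DifferentiableAt ℂ (fun z => Δ k0 * Fr P i z k0) z0 :=
      ((differentiableAt_pi.1 hFd) k0).const_mul _
    have e3 := e1.mul (e2.inv (mul_ne_zero (hΔ k0) hF0))
    exact e3
  have hne : ∀ᶠ z in 𝓝 z0, Fr P i z k0 ≠ 0 := by
    have := ((differentiableAt_pi.1 hFd) k0).continuousAt
    exact this.eventually_ne hF0
  have hEq : ∀ᶠ z in 𝓝 z0, ∀ k, Fr P j (rd A A φ i j z) k = C z * (Δ k * Fr P i z k) := by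
    filter_upwards [hev, hne, (A.e i).open_target.mem_nhds hz0t] with z h1 h2 h3 k
    obtain ⟨h1, c', hc'⟩ := h1
    have h4 : ∀ k, Fr P j (rd A A φ i j z) k = c' * (Δ k * Fr P i z k) := by
      intro k
      simp only [Fr, rd, (A.e j).left_inv h1]
      exact hc' k
    have h5 : C z = c' := by
      rw [hC]
      simp only
      rw [h4 k0, mul_div_assoc, div_self (mul_ne_zero (hΔ k0) h2), mul_one]
    rw [h5, h4 k]
  have hC0 : C z0 = c := by
    rw [hC]
    simp only
    have h1 : Fr P j (rd A A φ i j z0) k0 = P.F j (φ x) k0 := by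
      simp only [Fr, rd, hxz, (A.e j).left_inv hj]
    have h2 : Fr P i z0 k0 = P.F i x k0 := by simp only [Fr, hxz]
    rw [h1, h2, hc k0, mul_div_assoc, div_self, mul_one]
    rw [h2] at hF0
    exact mul_ne_zero (hΔ k0) hF0
  -- derivative of both sides
  have hder : ∀ (a : Fin n) (k : Fin (P.N + 1)),
      ∑ b, (Jp A A φ i j x) b a * jt P j (φ x) (Sum.inr b) k =
        fderiv ℂ C z0 (EuclideanSpace.single a 1) * (Δ k * P.F i x k) +
          c * (Δ k * jt P i x (Sum.inr a) k) := by
    intro a k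
    have h1 : HasFDerivAt (fun z => Fr P j (rd A A φ i j z))
        ((fderiv ℂ (Fr P j) (rd A A φ i j z0)).comp (fderiv ℂ (rd A A φ i j) z0)) z0 :=
      HasFDerivAt.comp z0 (f := rd A A φ i j) hGd.hasFDerivAt hφ.hasFDerivAt
    have h2 : HasFDerivAt (fun z => Fr P j (rd A A φ i j z) k)
        ((ContinuousLinearMap.proj (R := ℂ) k).comp
          ((fderiv ℂ (Fr P j) (rd A A φ i j z0)).comp (fderiv ℂ (rd A A φ i j) z0))) z0 :=
      (ContinuousLinearMap.proj (R := ℂ) (φ := fun _ : Fin (P.N + 1) => ℂ)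
        k).hasFDerivAt.comp z0 h1
    have h3 : HasFDerivAt (fun z => C z * (Δ k * Fr P i z k))
        (C z0 • (Δ k • ((ContinuousLinearMap.proj (R := ℂ) k).comp (fderiv ℂ (Fr P i) z0))) +
          (Δ k * Fr P i z0 k) • fderiv ℂ C z0) z0 := by
      have h4 : HasFDerivAt (fun z => Fr P i z k)
          ((ContinuousLinearMap.proj (R := ℂ) k).comp (fderiv ℂ (Fr P i) z0)) z0 :=
        (ContinuousLinearMap.proj (R := ℂ) (φ := fun _ : Fin (P.N + 1) => ℂ)
          k).hasFDerivAt.comp z0 hFd.hasFDerivAt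
      exact hCd.hasFDerivAt.mul (h4.const_mul (Δ k))
    have h5 : (fun z => Fr P j (rd A A φ i j z) k) =ᶠ[𝓝 z0] fun z => C z * (Δ k * Fr P i z k) := by
      filter_upwards [hEq] with z hz using hz k
    have h6 := (h3.congr_of_eventuallyEq h5).unique h2
    have h7 := congrArg (fun T : Cn n →L[ℂ] ℂ => T (EuclideanSpace.single a 1)) h6
    simp only [add_apply, smul_apply,
      ContinuousLinearMap.comp_apply, ContinuousLinearMap.proj_apply, smul_eq_mul] at h7
    have h8 : fderiv ℂ (rd A A φ i j) z0 (EuclideanSpace.single a 1) =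
        ∑ b, (Jp A A φ i j x) b a • (EuclideanSpace.single b (1 : ℂ) : Cn n) := by
      rw [← sum_single' (fderiv ℂ (rd A A φ i j) z0 (EuclideanSpace.single a 1))]
      rfl
    rw [h8, map_sum, hval] at h7
    simp only [map_smul, Finset.sum_apply, Pi.smul_apply, smul_eq_mul] at h7
    have h9 : Fr P i z0 k = P.F i x k := by simp only [Fr, hxz]
    rw [h9, hC0] at h7
    simp only [jt_inr]
    rw [← h7, ← hz0]
    ring
  -- matrix identity
  set L1 : Matrix (Unit ⊕ Fin n) (Unit ⊕ Fin n) ℂ :=
    Matrix.fromBlocks (1 : Matrix Unit Unit ℂ) 0 0 (Jp A A φ i j x)ᵀ with hL1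
  set L2 : Matrix (Unit ⊕ Fin n) (Unit ⊕ Fin n) ℂ :=
    Matrix.fromBlocks (c • (1 : Matrix Unit Unit ℂ)) 0
      (Matrix.of fun a _ => fderiv ℂ C z0 (EuclideanSpace.single a 1))
      (c • (1 : Matrix (Fin n) (Fin n) ℂ)) with hL2
  have hmat : L1 * (jt P j (φ x)).submatrix id S =
      L2 * ((jt P i x).submatrix id S * Matrix.diagonal (fun r => Δ (S r))) := by
    ext r s
    rw [Matrix.mul_apply, Matrix.mul_apply]
    simp only [Matrix.mul_diagonal, Matrix.submatrix_apply, id_eq, Fintype.sum_sum_type]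
    rcases r with u | a
    · simp only [hL1, hL2, Matrix.fromBlocks_apply₁₁, Matrix.fromBlocks_apply₁₂,
        Matrix.zero_apply, zero_mul, Finset.sum_const_zero, add_zero, Matrix.smul_apply,
        Finset.univ_unique, Finset.sum_singleton, smul_eq_mul]
      have e : ∀ u : Unit, (1 : Matrix Unit Unit ℂ) u default = 1 := fun u => by
        rw [Subsingleton.elim u default, Matrix.one_apply_eq]
      rw [e, jt_inl, jt_inl, hc (S s)]
      ring
    · simp only [hL1, hL2, Matrix.fromBlocks_apply₂₁, Matrix.fromBlocks_apply₂₂,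
        Matrix.zero_apply, zero_mul, Finset.sum_const_zero, zero_add,
        Finset.univ_unique, Finset.sum_singleton, Matrix.transpose_apply, Matrix.of_apply,
        Matrix.smul_apply, smul_eq_mul, Matrix.one_apply, mul_ite, mul_one, mul_zero,
        ite_mul, zero_mul, Finset.sum_ite_eq, Finset.mem_univ, if_true]
      rw [hder a (S s), jt_inl]
      ring
  have hdet := congrArg Matrix.det hmat
  rw [Matrix.det_mul, Matrix.det_mul, Matrix.det_mul, Matrix.det_diagonal, hL1, hL2,
    Matrix.det_fromBlocks_zero₁₂, Matrix.det_fromBlocks_zero₁₂, Matrix.det_one, one_mul,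
    Matrix.det_transpose, Matrix.det_smul, Matrix.det_smul, Matrix.det_one, Matrix.det_one,
    mul_one, mul_one, Fintype.card_fin, Fintype.card_unit, pow_one] at hdet
  unfold GS
  rw [hdet]
  ring

end

end Crest.Agent.R273.TorMin_422
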