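import Crest.Agent.R273.TorAsm_422
import Crest.Agent.R273.T8E_774

/-!
# R273 (S0416): the torus step, unconditional (helper422)
-/

set_option autoImplicit false

namespace Crest.Agent.R273.TorTop_422

/-- **the torus step** -/
theorem tor : TorDefs_422.TorMain := TorAsm_422.torMain T8_774.t8_holds

end Crest.Agent.R273.TorTop_422
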