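import Crest.Agent.R273.TorUse_333
import Crest.Agent.R273.UpVb_914

/-!
# R273 (S0416), helper333: the torus step, applied, without the polyvector hypothesis

* `main_tor'` : `main_tor` without `UPV`
* `main_torc` : the same, the curvature of the metric of `O(1)` being a multiple of `K`
-/

set_option autoImplicit false
set_option linter.unusedSectionVars false

open Set Filter Topology Complex
open scoped ContDiff Matrix ComplexConjugate Manifold ComplexOrder

namespace Crest.Agent.R273.TorUse_333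

open Crest.Agent.R275.Geo Crest.Agent.R275.Core144 Crest.Agent.R275.GC293
open Crest.Agent.R275.SerG398
open Crest.Agent.R273.Defs_333 Crest.Agent.R273.Kah_333 Crest.Agent.R273.Vol_333
open Crest.Agent.R273.PB_835 Crest.Agent.R273.UCov_914 Crest.Agent.R273.Sus_333
open Crest.Agent.R273.FS_333 Crest.Agent.R273.TorDefs_422 Crest.Agent.R273.SusSub_333
open Crest.Agent.R273.PartA_61 Crest.Agent.R273.Dsc_333 Crest.Agent.R273.Slc_333
open Crest.Agent.R273.LamN127 (BN)

noncomputable section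

variable {g d : ℕ} {M : Type} [TopologicalSpace M] [T2Space M] [CompactSpace M]
  {A : Atl (g + d) M} [Finite A.ι] {G : Type} [CommGroup G] [Group.FG G] {D : MonD A G}
  [ConnectedSpace (D.cov G)] {K : Kah A}
  {Y : Type} [TopologicalSpace Y] [T2Space Y] [CompactSpace Y] [SimplyConnectedSpace Y]
  [MulAction G Y] {B : Atl d Y} [Finite B.ι]

/-- **the torus step, applied** -/
theorem main_tor' (HT : TorMain) (HA : PartA) (hA : GoodA A) (PM : Part A) (P : ProjD A)
    (H : HM (lb P)) (hH : ∀ i, ∀ x ∈ (A.e i).source, cur H i x = K.g i x)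
    (hs : (volK K).Semipos) (S : Sus D K B) (hl : Function.Injective S.lam)
    (hY : GoodA B) (PY : Part B) (R : Ref B A (S.sl 0))
    (hc : ∀ q, 1 ≤ q → hB (BN (1 : LB B)) q = 0) :
    ∃ m : ℕ, 0 < m ∧ HasSec ((KB A)⁻¹ ^ m) :=
  main_tor HT HA hA PM P H hH hs S hl hY PY R hc fun _ _ => UpV_914.upv _

theorem cur_hmY_c {g d : ℕ} {M : Type} [TopologicalSpace M] {A : Atl (g + d) M} {G : Type}
    [CommGroup G] {D : MonD A G} {K : Kah A} {Y : Type} [TopologicalSpace Y] [MulAction G Y]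
    {B : Atl d Y} (S : Sus D K B) (R : Ref B A (S.sl 0)) {P : ProjD A} (H : HM (lb P)) (c : ℝ)
    (hH : ∀ i, ∀ x ∈ (A.e i).source, cur H i x = (c : ℂ) • K.g i x) {j : B.ι} {y : Y}
    (hy : y ∈ (B.e j).source) : cur (hmY S R H) j y = (c : ℂ) • S.KY.g j y := by
  have ha := R.sub j y hy
  rw [hmY, LiftB_522.cur_pull _ (S.holMap_sl 0) H hy ha, hH _ _ ha, Matrix.mul_smul,
    Matrix.smul_mul, met_sl S 0 hy ha]

/-- **the torus step, applied**, for a polarisation whose curvature is a multiple of `K` -/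
theorem main_torc (HT : TorMain) (HA : PartA) (hA : GoodA A) (PM : Part A) (P : ProjD A)
    (H : HM (lb P)) (c : ℝ) (hH : ∀ i, ∀ x ∈ (A.e i).source, cur H i x = (c : ℂ) • K.g i x)
    (hs : (volK K).Semipos) (S : Sus D K B) (hl : Function.Injective S.lam)
    (hY : GoodA B) (PY : Part B) (R : Ref B A (S.sl 0))
    (hc : ∀ q, 1 ≤ q → hB (BN (1 : LB B)) q = 0) :
    ∃ m : ℕ, 0 < m ∧ HasSec ((KB A)⁻¹ ^ m) := by
  have : FiniteDimensional ℂ (HS (LY S R P) (univ : Set Y)) := HSfd_835.hs_fd PY _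
  obtain ⟨Γ, hfi, hfg, P', χ, h1, h2, h3⟩ : ∃ Γ : Subgroup G, Γ.FiniteIndex ∧ Group.FG Γ ∧
      ∃ (P : ProjD B) (χ : Fin (P.N + 1) → (Γ →* Circle)),
      (∀ (γ : Γ) i j, ∀ x ∈ (B.e i).source, γ • x ∈ (B.e j).source →
        ∃ c : ℂ, ∀ k, P.F j (γ • x) k = c * ((χ k γ : ℂ) * P.F i x k)) ∧
      (∀ w ∈ Subgroup.closure {w : Γ →* Circle | ∃ k l, w = χ k / χ l}, ∀ m : ℕ, m ≠ 0 →
        w ^ m = 1 → w = 1) ∧
      (∀ k, ∃ i, ∃ x ∈ (B.e i).source, P.F i x k ≠ 0) := by
    obtain ⟨N, hN, P', χ, h1, h2, h3, _⟩ := LiftC_522.lifts (projY S hl R P)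
      (isHS_projY S hl R P) (hmY S R H) G (fun γ => S.holMap_smul γ) fun γ i j x hx hj => by
        rw [cur_hmY_c S R H c hH hx, cur_hmY_c S R H c hH hj, S.KY_inv γ hx hj,
          Matrix.mul_smul, Matrix.smul_mul]
    exact ⟨_, LiftA_522.finiteIndex_range_pow G hN, Group.fg_range _, P', χ, h1, h2, h3⟩
  let T : TorD B Γ :=
    { P := P'
      nz := h3
      χ := χ
      hol := fun γ => S.holMap_smul (γ : G)
      diag := h1
      tf := h2
      h := volK S.KY
      semi := S.volKY_semipos hs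
      h_inv := fun γ i j x hx hj => volKY_inv S (γ : G) hx hj
      K := S.KY
      K_inv := fun γ i j x hx hj => S.KY_inv (γ : G) hx hj
      coh := hc }
  have h4 : BB T.h Γ := BBsub_333.bb_sub HA hA PM P hs S Γ (UpV_914.upv _)
  have h5 : Gd B (1 : Γ →* Circle) := HT d Y B hY ⟨PY⟩ Γ T h4
  exact D.main_of_cov (F := G ⧸ Γ) (main_of_Gd (sub S Γ) h5)

end

end Crest.Agent.R273.TorUse_333
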