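import Crest.Agent.R273.BBsub_333
import Crest.Agent.R273.Slc_333
import Crest.Agent.R273.HSfd_835

/-!
# R273 (S0416), helper333: the torus step, applied

`main_tor` : the normal form `S : Sus D K B` of a projective manifold with `volK K` semipositive,
whose compact simply connected fibre `Y` has no holomorphic forms, gives the conclusion of S0416,
from `TorMain` (helper422), `PartA` and `UPV` (helper914).
-/

set_option autoImplicit false
set_option linter.unusedSectionVars false

open Set Filter Topology Complex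
open scoped ContDiff Matrix ComplexConjugate Manifold ComplexOrder

namespace Crest.Agent.R273.TorUse_333

open Crest.Agent.R275.Geo Crest.Agent.R275.Core144 Crest.Agent.R275.GC293
open Crest.Agent.R275.SerG398
open Crest.Agent.R273.Defs_333 Crest.Agent.R273.Kah_333 Crest.Agent.R273.Vol_333
open Crest.Agent.R273.PB_835 Crest.Agent.R273.UCov_914 Crest.Agent.R273.Sus_333
open Crest.Agent.R273.FS_333 Crest.Agent.R273.TorDefs_422 Crest.Agent.R273.SusSub_333
open Crest.Agent.R273.PartA_61 Crest.Agent.R273.Dsc_333 Crest.Agent.R273.Slc_333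
open Crest.Agent.R273.LamN127 (BN)

noncomputable section

variable {g d : ℕ} {M : Type} [TopologicalSpace M] [T2Space M] [CompactSpace M]
  {A : Atl (g + d) M} [Finite A.ι] {G : Type} [CommGroup G] [Group.FG G] {D : MonD A G}
  [ConnectedSpace (D.cov G)] {K : Kah A}
  {Y : Type} [TopologicalSpace Y] [T2Space Y] [CompactSpace Y] [SimplyConnectedSpace Y]
  [MulAction G Y] {B : Atl d Y} [Finite B.ι]

/-- **the torus step, applied** -/
theorem main_tor (HT : TorMain) (HA : PartA) (hA : GoodA A) (PM : Part A) (P : ProjD A)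
    (H : HM (lb P)) (hH : ∀ i, ∀ x ∈ (A.e i).source, cur H i x = K.g i x)
    (hs : (volK K).Semipos) (S : Sus D K B) (hl : Function.Injective S.lam)
    (hY : GoodA B) (PY : Part B) (R : Ref B A (S.sl 0))
    (hc : ∀ q, 1 ≤ q → hB (BN (1 : LB B)) q = 0)
    (hU : ∀ Γ : Subgroup G, Γ.FiniteIndex → UPV (sub S Γ)) :
    ∃ m : ℕ, 0 < m ∧ HasSec ((KB A)⁻¹ ^ m) := by
  have : FiniteDimensional ℂ (HS (LY S R P) (univ : Set Y)) := HSfd_835.hs_fd PY _
  obtain ⟨Γ, hfi, hfg, P', χ, h1, h2, h3⟩ : ∃ Γ : Subgroup G, Γ.FiniteIndex ∧ Group.FG Γ ∧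
      ∃ (P : ProjD B) (χ : Fin (P.N + 1) → (Γ →* Circle)),
      (∀ (γ : Γ) i j, ∀ x ∈ (B.e i).source, γ • x ∈ (B.e j).source →
        ∃ c : ℂ, ∀ k, P.F j (γ • x) k = c * ((χ k γ : ℂ) * P.F i x k)) ∧
      (∀ w ∈ Subgroup.closure {w : Γ →* Circle | ∃ k l, w = χ k / χ l}, ∀ m : ℕ, m ≠ 0 →
        w ^ m = 1 → w = 1) ∧
      (∀ k, ∃ i, ∃ x ∈ (B.e i).source, P.F i x k ≠ 0) := by
    obtain ⟨N, hN, h⟩ := lifts_Y S hl R P H hH
    exact ⟨_, LiftA_522.finiteIndex_range_pow G hN, Group.fg_range _, h⟩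
  let T : TorD B Γ :=
    { P := P'
      nz := h3
      χ := χ
      hol := fun γ => S.holMap_smul (γ : G)
      diag := h1
      tf := h2
      h := volK S.KY
      semi := S.volKY_semipos hs
      h_inv := fun γ i j x hx hj => volKY_inv S (γ : G) hx hj
      K := S.KY
      K_inv := fun γ i j x hx hj => S.KY_inv (γ : G) hx hj
      coh := hc }
  have h4 : BB T.h Γ := BBsub_333.bb_sub HA hA PM P hs S Γ (hU Γ hfi)
  have h5 : Gd B (1 : Γ →* Circle) := HT d Y B hY ⟨PY⟩ Γ T h4
  exact D.main_of_cov (F := G ⧸ Γ) (main_of_Gd (sub S Γ) h5)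

end

end Crest.Agent.R273.TorUse_333
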