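import Crest.Agent.R275.GC2_293
import Crest.Agent.R275.ZC1_352

/-!
# R273, leaf UCOV (helper914), part A: coverings given by locally constant cocycles

`MonD A G`    : a locally constant cocycle `c i j ∈ G` on the overlaps of the charts of `A`;
`D.cov F`     : total space of the associated covering with fibre the `G`-set `F`;
`pr`, `co`, `pt` : projection, coordinate over the chart `i`, point with given coordinate.
-/

set_option autoImplicit false
set_option linter.unusedSectionVars false

open Set Filter Topology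

namespace Crest.Agent.R273.UCov_914

open Crest.Agent.R275.Geo Crest.Agent.R275.ZC352

noncomputable section

variable {n : ℕ} {M : Type} [TopologicalSpace M]

/-- locally constant cocycle with values in the group `G` -/
structure MonD (A : Atl n M) (G : Type) [Group G] where
  c : A.ι → A.ι → M → G
  c_self : ∀ i, ∀ x ∈ (A.e i).source, c i i x = 1
  c_mul : ∀ i j k, ∀ x ∈ (A.e i).source ∩ (A.e j).source ∩ (A.e k).source,
    c j k x * c i j x = c i k x
  c_loc : ∀ i j, ∀ x ∈ (A.e i).source ∩ (A.e j).source, ∀ y ∈ (A.e i).source ∩ (A.e j).source,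
    c i j x = c i j y

variable {A : Atl n M} {G : Type} [Group G] (D : MonD A G) (F : Type) [MulAction G F]

namespace MonD

/-- the bundle core -/
def core : FiberBundleCore A.ι M (Disc F) where
  baseSet i := (A.e i).source
  isOpen_baseSet i := (A.e i).open_source
  indexAt x := (A.cover x).choose
  mem_baseSet_at x := (A.cover x).choose_spec
  coordChange i j x v := toD (D.c i j x • ofD v)
  coordChange_self i x hx v := by rw [D.c_self i x hx, one_smul, toD_ofD]
  continuousOn_coordChange i j := by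
    rintro ⟨y, v⟩ ⟨hy, -⟩
    apply ContinuousAt.continuousWithinAt
    have h3 : ∀ᶠ p : M × Disc F in 𝓝 (y, v), p.2 = v := by
      have := continuous_snd.continuousAt (x := (y, v))
      exact this.eventually (eventually_eq_disc v)
    have h2 : ∀ᶠ p : M × Disc F in 𝓝 (y, v), p.1 ∈ (A.e i).source ∩ (A.e j).source := by
      have := continuous_fst.continuousAt (x := (y, v))
      exact this.eventually
        (((A.e i).open_source.inter (A.e j).open_source).mem_nhds hy)
    refine ContinuousAt.congr (f := fun _ => toD (D.c i j y • ofD v)) continuousAt_const ?_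
    filter_upwards [h2, h3] with p hp hp'
    rw [hp', D.c_loc i j y hy p.1 hp]
  coordChange_comp i j k x hx v := by
    rw [ofD_toD, smul_smul, D.c_mul i j k x hx]

/-- the covering space with fibre `F` -/
abbrev cov : Type := (D.core F).TotalSpace

variable {F}

/-- projection -/
def pr (e : D.cov F) : M := e.1

/-- coordinate of `e` over the chart `i` -/
def co (i : A.ι) (e : D.cov F) : F := D.c ((A.cover e.1).choose) i e.1 • ofD (A := F) e.2

/-- point over `x` with coordinate `v` in the chart `i` -/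
def pt (i : A.ι) (v : F) (x : M) : D.cov F := ⟨x, toD (D.c i ((A.cover x).choose) x • v)⟩

@[simp] theorem pr_pt (i : A.ι) (v : F) (x : M) : D.pr (D.pt i v x) = x := rfl

theorem co_pt {i : A.ι} (v : F) {x : M} (hx : x ∈ (A.e i).source) : D.co i (D.pt i v x) = v := by
  change D.c ((A.cover x).choose) i x • (D.c i ((A.cover x).choose) x • v) = v
  rw [smul_smul, D.c_mul _ _ _ x ⟨⟨hx, (A.cover x).choose_spec⟩, hx⟩, D.c_self i x hx, one_smul]

theorem co_eq {i j : A.ι} {e : D.cov F} (hi : D.pr e ∈ (A.e i).source)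
    (hj : D.pr e ∈ (A.e j).source) : D.co j e = D.c i j (D.pr e) • D.co i e := by
  change D.c _ j e.1 • _ = D.c i j e.1 • (D.c _ i e.1 • _)
  rw [smul_smul, D.c_mul _ i j e.1 ⟨⟨(A.cover e.1).choose_spec, hi⟩, hj⟩]

theorem pt_co {i : A.ι} {e : D.cov F} (hi : D.pr e ∈ (A.e i).source) :
    D.pt i (D.co i e) (D.pr e) = e := by
  obtain ⟨x, v⟩ := e
  change (⟨x, toD (D.c i ((A.cover x).choose) x • (D.c ((A.cover x).choose) i x • ofD v))⟩ :
    D.cov F) = ⟨x, v⟩
  congr 1
  rw [smul_smul, D.c_mul _ i _ x ⟨⟨(A.cover x).choose_spec, hi⟩, (A.cover x).choose_spec⟩,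
    D.c_self _ x (A.cover x).choose_spec, one_smul]
  rfl

theorem co_pt' {i j : A.ι} (v : F) {x : M} (hi : x ∈ (A.e i).source) (hj : x ∈ (A.e j).source) :
    D.co j (D.pt i v x) = D.c i j x • v := by
  rw [D.co_eq (i := i) (j := j) (e := D.pt i v x) hi hj, D.co_pt v hi, pr_pt]

theorem pt_eq {i j : A.ι} (v : F) {x : M} (hi : x ∈ (A.e i).source) (hj : x ∈ (A.e j).source) :
    D.pt i v x = D.pt j (D.c i j x • v) x := by
  rw [← D.co_pt' v hi hj]
  exact (D.pt_co (e := D.pt i v x) hj).symm

/-- two points are equal if they have the same projection and the same coordinate -/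
theorem ext_co {i : A.ι} {e e' : D.cov F} (hi : D.pr e ∈ (A.e i).source) (h1 : D.pr e = D.pr e')
    (h2 : D.co i e = D.co i e') : e = e' := by
  rw [← D.pt_co (i := i) hi, ← D.pt_co (i := i) (e := e') (h1 ▸ hi), h1, h2]

theorem isCoveringMap : IsCoveringMap (D.pr (F := F)) :=
  FiberBundle.isCoveringMap (F := Disc F) (E := (D.core F).Fiber)

theorem continuous_pr : Continuous (D.pr (F := F)) := D.isCoveringMap.continuous

theorem isLocalHomeomorph : IsLocalHomeomorph (D.pr (F := F)) := D.isCoveringMap.isLocalHomeomorph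

theorem continuousOn_co (i : A.ι) :
    ContinuousOn (fun e : D.cov F => toD (D.co i e)) (D.pr ⁻¹' (A.e i).source) := by
  have h := ((D.core F).localTriv i).continuousOn
  have h2 : ContinuousOn (fun e => ((D.core F).localTriv i e).2) ((D.core F).localTriv i).source :=
    continuous_snd.comp_continuousOn h
  exact h2

theorem continuousOn_pt (i : A.ι) (v : F) : ContinuousOn (D.pt i v) (A.e i).source := by
  have h := ((D.core F).localTriv i).toOpenPartialHomeomorph.symm.continuousOn
  have h2 : ContinuousOn (fun x : M => (x, toD v)) (A.e i).source := by fun_prop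
  refine ContinuousOn.congr (f := fun x =>
    ((D.core F).localTriv i).toOpenPartialHomeomorph.symm (x, toD v)) ?_ ?_
  · refine h.comp h2 fun x hx => ?_
    exact ⟨hx, mem_univ _⟩
  · intro x _
    rfl

/-- the sheet over the chart `i` with coordinate `v` -/
def sheet (i : A.ι) (v : F) : Set (D.cov F) := {e | D.pr e ∈ (A.e i).source ∧ D.co i e = v}

theorem isOpen_sheet (i : A.ι) (v : F) : IsOpen (D.sheet i v) := by
  have h := (D.continuousOn_co (F := F) i).isOpen_inter_preimage
    ((A.e i).open_source.preimage D.continuous_pr) (isOpen_discrete {toD v})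
  exact h

theorem mem_sheet_co {i : A.ι} {e : D.cov F} (h : D.pr e ∈ (A.e i).source) :
    e ∈ D.sheet i (D.co i e) := ⟨h, rfl⟩

theorem pt_mem_sheet {i : A.ι} (v : F) {x : M} (h : x ∈ (A.e i).source) :
    D.pt i v x ∈ D.sheet i v := ⟨h, D.co_pt v h⟩

theorem pt_of_mem {i : A.ι} {v : F} {e : D.cov F} (h : e ∈ D.sheet i v) :
    D.pt i v (D.pr e) = e := by
  have := D.pt_co h.1
  rwa [h.2] at this

/-- the coordinate is locally constant -/
theorem co_eventually {i : A.ι} {e : D.cov F} (h : D.pr e ∈ (A.e i).source) :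
    ∀ᶠ e' in 𝓝 e, D.pr e' ∈ (A.e i).source ∧ D.co i e' = D.co i e :=
  (D.isOpen_sheet i (D.co i e)).mem_nhds ⟨h, rfl⟩

instance [T2Space M] : T2Space (D.cov F) := by
  refine ⟨fun e e' hne => ?_⟩
  by_cases h : D.pr e = D.pr e'
  · obtain ⟨i, hi⟩ := A.cover (D.pr e)
    have hco : D.co i e ≠ D.co i e' := fun h' => hne (D.ext_co hi h h')
    refine ⟨D.sheet i (D.co i e), D.sheet i (D.co i e'), D.isOpen_sheet _ _, D.isOpen_sheet _ _,
      ⟨hi, rfl⟩, ⟨h ▸ hi, rfl⟩, ?_⟩
    rw [Set.disjoint_left]
    rintro x ⟨_, h1⟩ ⟨_, h2⟩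
    exact hco (h1.symm.trans h2)
  · obtain ⟨U, V, hU, hV, h1, h2, h3⟩ := t2_separation h
    exact ⟨_, _, hU.preimage D.continuous_pr, hV.preimage D.continuous_pr, h1, h2,
      h3.preimage _⟩

/-- the chart over the chart `i` on the sheet with coordinate `v` -/
def chart (i : A.ι) (v : F) : OpenPartialHomeomorph (D.cov F) (Cn n) where
  toFun e := A.e i (D.pr e)
  invFun z := D.pt i v ((A.e i).symm z)
  source := D.sheet i v
  target := (A.e i).target
  map_source' e he := (A.e i).map_source he.1
  map_target' z hz := D.pt_mem_sheet v ((A.e i).map_target hz)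
  left_inv' e he := by
    rw [(A.e i).left_inv he.1]
    exact D.pt_of_mem he
  right_inv' z hz := (A.e i).right_inv hz
  open_source := D.isOpen_sheet i v
  open_target := (A.e i).open_target
  continuousOn_toFun := (A.e i).continuousOn.comp D.continuous_pr.continuousOn fun e he => he.1
  continuousOn_invFun := (D.continuousOn_pt i v).comp (A.e i).continuousOn_symm
    fun z hz => (A.e i).map_target hz

@[simp] theorem chart_apply (i : A.ι) (v : F) (e : D.cov F) :
    D.chart i v e = A.e i (D.pr e) := rfl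
@[simp] theorem chart_symm (i : A.ι) (v : F) (z : Cn n) :
    (D.chart i v).symm z = D.pt i v ((A.e i).symm z) := rfl
@[simp] theorem chart_source (i : A.ι) (v : F) : (D.chart i v).source = D.sheet i v := rfl
@[simp] theorem chart_target (i : A.ι) (v : F) : (D.chart i v).target = (A.e i).target := rfl

variable (F) in
/-- the lifted atlas -/
def atl : Atl n (D.cov F) where
  ι := A.ι × F
  e p := D.chart p.1 p.2
  cover e := by
    obtain ⟨i, hi⟩ := A.cover (D.pr e)
    exact ⟨(i, D.co i e), hi, rfl⟩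
  cube p z hz := A.cube p.1 z hz
  holo p q := (A.holo p.1 q.1).mono fun z hz => ⟨hz.1, hz.2.1⟩

@[simp] theorem atl_e (p : A.ι × F) : (D.atl F).e p = D.chart p.1 p.2 := rfl

theorem mem_source {p : A.ι × F} {e : D.cov F} :
    e ∈ ((D.atl F).e p).source ↔ D.pr e ∈ (A.e p.1).source ∧ D.co p.1 e = p.2 := Iff.rfl

theorem pt_mem_source {p : A.ι × F} {x : M} (h : x ∈ (A.e p.1).source) :
    D.pt p.1 p.2 x ∈ ((D.atl F).e p).source := D.pt_mem_sheet p.2 h

/-- overlaps of the lifted charts -/
theorem mem_ov {p q : A.ι × F} {z : Cn n} : z ∈ (D.atl F).ov p q ↔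
    z ∈ A.ov p.1 q.1 ∧ D.c p.1 q.1 ((A.e p.1).symm z) • p.2 = q.2 := by
  constructor
  · rintro ⟨h1, h2, h3⟩
    have hz : (A.e p.1).symm z ∈ (A.e p.1).source := (A.e p.1).map_target h1
    have h2' : (A.e p.1).symm z ∈ (A.e q.1).source := h2
    refine ⟨⟨h1, h2'⟩, ?_⟩
    rw [← D.co_pt' p.2 hz h2']
    exact h3
  · rintro ⟨⟨h1, h2⟩, h3⟩
    have hz : (A.e p.1).symm z ∈ (A.e p.1).source := (A.e p.1).map_target h1
    refine ⟨h1, h2, ?_⟩
    change D.co q.1 (D.pt p.1 p.2 ((A.e p.1).symm z)) = q.2
    rw [D.co_pt' p.2 hz h2]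
    exact h3

theorem ov_sub (p q : A.ι × F) : (D.atl F).ov p q ⊆ A.ov p.1 q.1 := fun _ hz => (D.mem_ov.1 hz).1

/-- an overlap of lifted charts is a full overlap or empty -/
theorem ov_eq_or (p q : A.ι × F) :
    (D.atl F).ov p q = A.ov p.1 q.1 ∨ (D.atl F).ov p q = ∅ := by
  by_cases h : ((D.atl F).ov p q).Nonempty
  · obtain ⟨z, hz⟩ := h
    left
    refine Subset.antisymm (D.ov_sub p q) fun w hw => ?_
    obtain ⟨hz1, hz2⟩ := D.mem_ov.1 hz
    refine D.mem_ov.2 ⟨hw, ?_⟩
    rw [← hz2]
    congr 1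
    exact D.c_loc _ _ _ ⟨(A.e p.1).map_target hw.1, hw.2⟩ _ ⟨(A.e p.1).map_target hz1.1, hz1.2⟩
  · right
    exact not_nonempty_iff_eq_empty.1 h

open Crest.Agent.R275.GC293 in
theorem goodA (hA : GoodA A) : GoodA (D.atl F) := by
  intro p q
  rcases D.ov_eq_or p q with h | h
  · rw [h]; exact hA _ _
  · rw [h]; exact convex_empty

/-- the Jacobians of the lifted atlas -/
@[simp] theorem J_eq (p q : A.ι × F) (e : D.cov F) (b a : Fin n) :
    (D.atl F).J p q e b a = A.J p.1 q.1 (D.pr e) b a := rfl

instance [Finite A.ι] [Finite F] : Finite (D.atl F).ι :=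
  inferInstanceAs (Finite (A.ι × F))

/-- equivariant maps of the fibres -/
def map {F' : Type} [MulAction G F'] (φ : F →[G] F') (e : D.cov F) : D.cov F' :=
  ⟨e.1, toD (φ (ofD (A := F) e.2))⟩

section map

variable {F' : Type} [MulAction G F'] (φ : F →[G] F')

@[simp] theorem pr_map (e : D.cov F) : D.pr (D.map φ e) = D.pr e := rfl

theorem co_map (i : A.ι) (e : D.cov F) : D.co i (D.map φ e) = φ (D.co i e) := by
  change D.c _ i e.1 • φ (ofD (A := F) e.2) = φ (D.c _ i e.1 • ofD (A := F) e.2)
  rw [map_smul]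
  rfl

theorem map_pt (i : A.ι) (v : F) (x : M) : D.map φ (D.pt i v x) = D.pt i (φ v) x := by
  change (⟨x, toD (φ (D.c _ _ _ • v))⟩ : D.cov F') = ⟨x, toD (D.c _ _ _ • φ v)⟩
  rw [map_smul]

theorem continuous_map : Continuous (D.map φ) := by
  rw [continuous_iff_continuousAt]
  intro e
  obtain ⟨i, hi⟩ := A.cover (D.pr e)
  have h1 : ContinuousAt (D.pt i (φ (D.co i e))) (D.pr e) :=
    (D.continuousOn_pt i _).continuousAt ((A.e i).open_source.mem_nhds hi)
  have h2 : ContinuousAt (fun e' => D.pt i (φ (D.co i e)) (D.pr e')) e :=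
    ContinuousAt.comp (f := D.pr) h1 D.continuous_pr.continuousAt
  refine h2.congr ?_
  filter_upwards [D.co_eventually hi] with e' he'
  rw [← he'.2, ← D.map_pt, D.pt_co he'.1]

end map

end MonD

end

end Crest.Agent.R273.UCov_914
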