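import Mathlib

/-!
# R273 (S0416), Part C, G3 (helper289)

`virtually_abelian_image`: let `Γ` be a group with a length function `ℓ` whose balls have
polynomially many elements, `ρ : Γ → U(V)` a homomorphism into the unitary group of a finite
dimensional Hilbert space.  Then some finite index subgroup of `Γ` has commutative image.

Proof (Gromov–Tao): if `s₀, s₁` are so close to `1` that commutators contract strongly and do not
commute, the iterated commutators `h₀ = [s₀,s₁]`, `h_{k+1} = [h_k, s_0 or s_1]` are never `1`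
(a commutator `c = [a,b]` close to `1` commuting with `a`, `b` is `1`: determinants on the
eigenspaces of `c`), `‖h_{k+1} - 1‖ ≤ q ‖h_k - 1‖`, and the words `h₀^{i₀} ⋯ h_{m-1}^{i_{m-1}}`,
`0 ≤ i_j < K`, are distinct, have length `O(2^m)`; there are `K^m` of them.
-/

set_option autoImplicit false

namespace Crest.Agent.R273.UGrowth_289

open Finset

/-! ### abstract part: contractive representations in a normed ring -/

section Abs

variable {Γ : Type*} [Group Γ] {R : Type*} [NormedRing R] (u : Γ →* R)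

theorem u_mul_inv (g : Γ) : u g * u g⁻¹ = 1 := by rw [← map_mul]; simp

theorem u_inv_mul (g : Γ) : u g⁻¹ * u g = 1 := by rw [← map_mul]; simp

variable {u}

theorem norm_mul_sub_one_le (hu : ∀ g, ‖u g‖ ≤ 1) (x y : Γ) :
    ‖u (x * y) - 1‖ ≤ ‖u x - 1‖ + ‖u y - 1‖ := by
  have h : u (x * y) - 1 = (u x - 1) * u y + (u y - 1) := by
    rw [map_mul]; noncomm_ring
  rw [h]
  refine (norm_add_le _ _).trans (add_le_add_left ((norm_mul_le _ _).trans ?_) _)
  exact mul_le_of_le_one_right (norm_nonneg _) (hu y)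

theorem norm_inv_sub_one_le (hu : ∀ g, ‖u g‖ ≤ 1) (x : Γ) :
    ‖u x⁻¹ - 1‖ ≤ ‖u x - 1‖ := by
  have h : u x⁻¹ - 1 = u x⁻¹ * (1 - u x) := by
    rw [mul_sub, u_inv_mul, mul_one]
  rw [h]
  refine (norm_mul_le _ _).trans ?_
  rw [norm_sub_rev]
  exact mul_le_of_le_one_left (norm_nonneg _) (hu _)

theorem norm_pow_sub_one_le (hu : ∀ g, ‖u g‖ ≤ 1) (x : Γ) (a : ℕ) :
    ‖u (x ^ a) - 1‖ ≤ a * ‖u x - 1‖ := by
  induction a with
  | zero => simp
  | succ a ih =>
    rw [pow_succ]
    refine (norm_mul_sub_one_le hu _ _).trans ?_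
    push_cast
    linarith

theorem norm_comm_sub_one_le (hu : ∀ g, ‖u g‖ ≤ 1) (g h : Γ) :
    ‖u (g * h * g⁻¹ * h⁻¹) - 1‖ ≤ 2 * ‖u g - 1‖ * ‖u h - 1‖ := by
  have h1 : u (g * h * g⁻¹ * h⁻¹) - 1 =
      ((u g - 1) * (u h - 1) - (u h - 1) * (u g - 1)) * u (g⁻¹ * h⁻¹) := by
    have e1 : (u g - 1) * (u h - 1) - (u h - 1) * (u g - 1) = u g * u h - u h * u g := by
      noncomm_ring
    rw [e1, sub_mul]
    congr 1
    · simp only [map_mul, mul_assoc]
    · rw [map_mul, ← mul_assoc, mul_assoc (u h), u_mul_inv, mul_one, u_mul_inv]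
  rw [h1]
  refine (norm_mul_le _ _).trans ?_
  refine (mul_le_of_le_one_right (norm_nonneg _) (hu _)).trans ?_
  refine (norm_sub_le _ _).trans ?_
  have e1 := norm_mul_le (u g - 1) (u h - 1)
  have e2 := norm_mul_le (u h - 1) (u g - 1)
  nlinarith [e1, e2, norm_nonneg (u g - 1), norm_nonneg (u h - 1)]

/-- lower bound for powers -/
theorem half_le_norm_pow_sub_one [NormedAlgebra ℂ R] (hu : ∀ g, ‖u g‖ ≤ 1) (x : Γ) (a : ℕ)
    (ha : 1 ≤ a) (hs : (a : ℝ) * ‖u x - 1‖ ≤ 1 / 2) :
    ‖u x - 1‖ / 2 ≤ ‖u (x ^ a) - 1‖ := by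
  -- u x ^ a - 1 - a (u x - 1) is small
  have key : ∀ a : ℕ, ‖(u (x ^ a) - 1) - (a : ℂ) • (u x - 1)‖ ≤
      a * (a * ‖u x - 1‖) * ‖u x - 1‖ := by
    intro a
    induction a with
    | zero => simp
    | succ a ih =>
      have e : (u (x ^ (a + 1)) - 1) - ((a + 1 : ℕ) : ℂ) • (u x - 1) =
          ((u (x ^ a) - 1) - (a : ℂ) • (u x - 1)) + (u (x ^ a) - 1) * (u x - 1) := by
        rw [pow_succ, map_mul]
        push_cast
        rw [add_smul, one_smul]
        noncomm_ring
      rw [e]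
      refine (norm_add_le _ _).trans ?_
      have e2 := norm_mul_le (u (x ^ a) - 1) (u x - 1)
      have e3 := norm_pow_sub_one_le hu x a
      have e4 := mul_le_mul_of_nonneg_right e3 (norm_nonneg (u x - 1))
      push_cast
      nlinarith [norm_nonneg (u x - 1), mul_nonneg (norm_nonneg (u x - 1)) (norm_nonneg (u x - 1)),
        mul_nonneg (Nat.cast_nonneg (α := ℝ) a) (mul_nonneg (norm_nonneg (u x - 1)) (norm_nonneg (u x - 1)))]
  have k1 := key a
  have h0 := norm_nonneg (u x - 1)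
  have ha' : (1 : ℝ) ≤ a := by exact_mod_cast ha
  have k3 : ‖(a : ℂ) • (u x - 1)‖ = a * ‖u x - 1‖ := by
    rw [norm_smul]; simp
  have k4 := norm_sub_norm_le ((a : ℂ) • (u x - 1)) (u (x ^ a) - 1)
  rw [norm_sub_rev ((a : ℂ) • (u x - 1)), k3] at k4
  have k5 : (a : ℝ) * (a * ‖u x - 1‖) * ‖u x - 1‖ ≤ a * (1 / 2) * ‖u x - 1‖ := by
    gcongr
  nlinarith

/-- words `h j ^ i₀ * h (j+1) ^ i₁ * ⋯` -/
def wd (h : ℕ → Γ) : ℕ → List ℕ → Γ
  | _, [] => 1
  | j, a :: as => h j ^ a * wd h (j + 1) as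

theorem norm_wd_sub_one_le (hu : ∀ g, ‖u g‖ ≤ 1) (h : ℕ → Γ) {q : ℝ} (hq : q ≤ 1 / 2)
    (hh : ∀ k, ‖u (h (k + 1)) - 1‖ ≤ q * ‖u (h k) - 1‖) (K : ℕ) :
    ∀ (as : List ℕ) (j : ℕ), (∀ a ∈ as, a ≤ K) →
      ‖u (wd h j as) - 1‖ ≤ 2 * K * ‖u (h j) - 1‖ := by
  intro as
  induction as with
  | nil => intro j _; simp [wd]; positivity
  | cons a as ih =>
    intro j hj
    have h1 : (a : ℝ) ≤ K := by exact_mod_cast hj a (by simp)
    have h2 := ih (j + 1) (fun b hb => hj b (by simp [hb]))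
    have h3 := norm_pow_sub_one_le hu (h j) a
    have h4 := norm_mul_sub_one_le hu (h j ^ a) (wd h (j + 1) as)
    have h5 := hh j
    have h6 := norm_nonneg (u (h j) - 1)
    have h7 : (0 : ℝ) ≤ K := by positivity
    simp only [wd]
    have h8 : 2 * (K : ℝ) * ‖u (h (j + 1)) - 1‖ ≤ K * ‖u (h j) - 1‖ := by
      have : ‖u (h (j + 1)) - 1‖ ≤ 1 / 2 * ‖u (h j) - 1‖ := h5.trans (by gcongr)
      nlinarith [mul_le_mul_of_nonneg_left this h7]
    have h9 : (a : ℝ) * ‖u (h j) - 1‖ ≤ K * ‖u (h j) - 1‖ := by gcongr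
    linarith

theorem wd_aux [NormedAlgebra ℂ R] (hu : ∀ g, ‖u g‖ ≤ 1) (h : ℕ → Γ) {q : ℝ} {K : ℕ}
    (hq : q ≤ 1 / 2)
    (hKq : 8 * K * q < 1)
    (hh : ∀ k, ‖u (h (k + 1)) - 1‖ ≤ q * ‖u (h k) - 1‖)
    (hne : ∀ k, u (h k) ≠ 1) (hK : ∀ k, (K : ℝ) * ‖u (h k) - 1‖ ≤ 1 / 2)
    (j : ℕ) (a b : ℕ) (as bs : List ℕ) (has : ∀ a ∈ as, a ≤ K) (hbs : ∀ a ∈ bs, a ≤ K)
    (hb : b ≤ K) (hab : a < b)
    (he : u (h j ^ a * wd h (j + 1) as) = u (h j ^ b * wd h (j + 1) bs)) : False := by
  set X := wd h (j + 1) as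
  set Y := wd h (j + 1) bs
  have e1 : u X = u (h j ^ (b - a)) * u Y := by
    have : u (h j ^ a)⁻¹ * u (h j ^ a * X) = u (h j ^ a)⁻¹ * u (h j ^ b * Y) := by rw [he]
    rw [← map_mul, ← map_mul] at this
    rw [← map_mul]
    convert this using 2
    · group
    · rw [← mul_assoc]
      congr 1
      rw [eq_inv_mul_iff_mul_eq, ← pow_add]
      congr 1
      omega
  have e2 : u (h j ^ (b - a)) = u (X * Y⁻¹) := by
    rw [map_mul, e1, mul_assoc, u_mul_inv, mul_one]
  have e3 := norm_mul_sub_one_le hu X Y⁻¹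
  rw [← e2] at e3
  have e4 := norm_inv_sub_one_le hu Y
  have e5 := norm_wd_sub_one_le hu h hq hh K as (j + 1) has
  have e6 := norm_wd_sub_one_le hu h hq hh K bs (j + 1) hbs
  have hba : ((b - a : ℕ) : ℝ) ≤ K := by exact_mod_cast (Nat.sub_le b a).trans hb
  have e7 := half_le_norm_pow_sub_one hu (h j) (b - a) (by omega) (by
    refine le_trans ?_ (hK j)
    gcongr)
  have e8 : 0 < ‖u (h j) - 1‖ := by
    rw [norm_pos_iff, sub_ne_zero]; exact hne j
  have e9 := hh j
  have e10 : 4 * (K : ℝ) * ‖u (h (j + 1)) - 1‖ ≤ 4 * K * (q * ‖u (h j) - 1‖) := by gcongr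
  have e11 : 4 * (K : ℝ) * (q * ‖u (h j) - 1‖) < ‖u (h j) - 1‖ / 2 := by
    nlinarith
  linarith

theorem wd_inj [NormedAlgebra ℂ R] (hu : ∀ g, ‖u g‖ ≤ 1) (h : ℕ → Γ) {q : ℝ} {K : ℕ}
    (hq : q ≤ 1 / 2)
    (hKq : 8 * K * q < 1)
    (hh : ∀ k, ‖u (h (k + 1)) - 1‖ ≤ q * ‖u (h k) - 1‖)
    (hne : ∀ k, u (h k) ≠ 1) (hK : ∀ k, (K : ℝ) * ‖u (h k) - 1‖ ≤ 1 / 2) :
    ∀ (as bs : List ℕ) (j : ℕ), as.length = bs.length → (∀ a ∈ as, a ≤ K) → (∀ a ∈ bs, a ≤ K) →
      u (wd h j as) = u (wd h j bs) → as = bs := by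
  intro as
  induction as with
  | nil =>
    intro bs j hl _ _ _
    exact (List.length_eq_zero_iff.1 hl.symm).symm
  | cons a as ih =>
    intro bs j hl has hbs he
    cases bs with
    | nil => simp at hl
    | cons b bs =>
      have has' : ∀ a ∈ as, a ≤ K := fun c hc => has c (by simp [hc])
      have hbs' : ∀ a ∈ bs, a ≤ K := fun c hc => hbs c (by simp [hc])
      have hab : a = b := by
        rcases lt_trichotomy a b with h1 | h1 | h1
        · exact (wd_aux hu h hq hKq hh hne hK j a b as bs has' hbs' (hbs b (by simp)) h1 he).elim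
        · exact h1
        · exact (wd_aux hu h hq hKq hh hne hK j b a bs as hbs' has' (has a (by simp)) h1
            he.symm).elim
      subst hab
      congr 1
      refine ih bs (j + 1) (by simpa using hl) has' hbs' ?_
      simp only [wd, map_mul] at he
      have : u (h j ^ a)⁻¹ * (u (h j ^ a) * u (wd h (j + 1) as)) =
          u (h j ^ a)⁻¹ * (u (h j ^ a) * u (wd h (j + 1) bs)) := by rw [he]
      rwa [← mul_assoc, ← mul_assoc, u_inv_mul, one_mul, one_mul] at this

/-- length of words -/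
theorem len_wd (ℓ : Γ → ℝ) (h1 : ℓ 1 = 0) (hmul : ∀ a b, ℓ (a * b) ≤ ℓ a + ℓ b) (h : ℕ → Γ)
    {B : ℝ} (hB : 0 ≤ B) (hh : ∀ k, ℓ (h k) ≤ B * 2 ^ k) (K : ℕ) :
    ∀ (as : List ℕ) (j : ℕ), (∀ a ∈ as, a ≤ K) →
      ℓ (wd h j as) ≤ K * B * (2 ^ (j + as.length) - 2 ^ j) := by
  have hpow : ∀ (x : Γ) (a : ℕ), ℓ (x ^ a) ≤ a * ℓ x := by
    intro x a
    induction a with
    | zero => simp [h1]
    | succ a ih =>
      rw [pow_succ]
      refine (hmul _ _).trans ?_
      push_cast
      linarith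
  intro as
  induction as with
  | nil => intro j _; simp [wd, h1]
  | cons a as ih =>
    intro j hj
    have g1 : (a : ℝ) ≤ K := by exact_mod_cast hj a (by simp)
    have g2 := ih (j + 1) (fun b hb => hj b (by simp [hb]))
    have g3 := hpow (h j) a
    have g4 := hmul (h j ^ a) (wd h (j + 1) as)
    have g5 : (a : ℝ) * ℓ (h j) ≤ a * (B * 2 ^ j) := by
      have := hh j
      gcongr
    have g6 : (a : ℝ) * (B * 2 ^ j) ≤ K * (B * 2 ^ j) := by gcongr
    have g7 : (2 : ℝ) ^ (j + 1 + as.length) = 2 ^ (j + (a :: as).length) := by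
      rw [List.length_cons]; ring_nf
    have g8 : (2 : ℝ) ^ (j + 1) = 2 * 2 ^ j := by ring
    rw [g7, g8] at g2
    simp only [wd]
    linarith

/-- **Contracting commutators are impossible in groups of polynomial growth.**
`hL` is the closing lemma ("a small commutator commuting with its factors is trivial"). -/
theorem commute_of_close [NormedAlgebra ℂ R] (hu : ∀ g, ‖u g‖ ≤ 1)
    (ℓ : Γ → ℝ) (h1 : ℓ 1 = 0) (hmul : ∀ a b, ℓ (a * b) ≤ ℓ a + ℓ b)
    (hinv : ∀ a, ℓ a⁻¹ = ℓ a) (C : ℝ) (d : ℕ)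
    (hg : ∀ r : ℝ, 1 ≤ r → ∃ hf : {γ | ℓ γ ≤ r}.Finite, (hf.toFinset.card : ℝ) ≤ C * r ^ d)
    {δ : ℝ} (hδ : 0 < δ)
    (hL : ∀ a b : Γ, ‖u (a * b * a⁻¹ * b⁻¹) - 1‖ < δ →
      u (a * (a * b * a⁻¹ * b⁻¹)) = u ((a * b * a⁻¹ * b⁻¹) * a) →
      u (b * (a * b * a⁻¹ * b⁻¹)) = u ((a * b * a⁻¹ * b⁻¹) * b) → u (a * b * a⁻¹ * b⁻¹) = 1) :
    ∃ ε : ℝ, 0 < ε ∧ ∀ s t : Γ, ‖u s - 1‖ < ε → ‖u t - 1‖ < ε → u (s * t) = u (t * s) := by
  set K : ℕ := 2 ^ (d + 1) with hKdef
  have hK1 : (1 : ℝ) ≤ K := by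
    rw [hKdef]; exact_mod_cast Nat.one_le_two_pow
  set ε : ℝ := min (1 / (32 * K)) (δ / 2) with hε
  have hε0 : 0 < ε := by
    rw [hε]; positivity
  have hεK : ε ≤ 1 / (32 * K) := min_le_left _ _
  have hεK' : ε * (32 * K) ≤ 1 := by
    rwa [le_div_iff₀ (by positivity)] at hεK
  have hεδ : ε ≤ δ / 2 := min_le_right _ _
  have hε32 : ε ≤ 1 / 32 := by nlinarith
  refine ⟨ε, hε0, ?_⟩
  intro s t hs ht
  by_contra hst
  -- state space
  let Q : Γ → Prop := fun x => x ∈ Subgroup.closure ({s, t} : Set Γ) ∧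
    (∃ a ∈ Subgroup.closure ({s, t} : Set Γ), ∃ b ∈ Subgroup.closure ({s, t} : Set Γ),
      x = a * b * a⁻¹ * b⁻¹) ∧ u x ≠ 1 ∧ ‖u x - 1‖ ≤ ε
  set L : ℝ := max (max (ℓ s) (ℓ t)) 1 with hLdef
  have hsm : s ∈ Subgroup.closure ({s, t} : Set Γ) := Subgroup.subset_closure (by simp)
  have htm : t ∈ Subgroup.closure ({s, t} : Set Γ) := Subgroup.subset_closure (by simp)
  have hL1 : 1 ≤ L := le_max_right _ _
  have hLs : ℓ s ≤ L := (le_max_left _ _).trans (le_max_left _ _)
  have hLt : ℓ t ≤ L := (le_max_right _ _).trans (le_max_left _ _)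
  have hlen : ∀ a b, ℓ (a * b * a⁻¹ * b⁻¹) ≤ 2 * ℓ a + 2 * ℓ b := by
    intro a b
    have e1 := hmul (a * b * a⁻¹) b⁻¹
    have e2 := hmul (a * b) a⁻¹
    have e3 := hmul a b
    rw [hinv] at e1 e2
    linarith
  have comm_iff : ∀ a b : Γ, u (a * b * a⁻¹ * b⁻¹) = 1 ↔ u (a * b) = u (b * a) := by
    intro a b
    constructor
    · intro h
      have : u (a * b * a⁻¹ * b⁻¹) * u (b * a) = u (b * a) := by rw [h, one_mul]
      rw [← map_mul] at this
      rw [← this]
      congr 1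
      group
    · intro h
      have : u (a * b) * u (a⁻¹ * b⁻¹) = u (b * a) * u (a⁻¹ * b⁻¹) := by rw [h]
      rw [← map_mul, ← map_mul] at this
      have e : b * a * (a⁻¹ * b⁻¹) = 1 := by group
      rw [e, map_one] at this
      rw [← this]
      congr 1
      group
  -- commuting with s and t implies commuting with the closure
  have hcl : ∀ x : Γ, u (x * s) = u (s * x) → u (x * t) = u (t * x) →
      ∀ y ∈ Subgroup.closure ({s, t} : Set Γ), u (x * y) = u (y * x) := by
    intro x hxs hxt y hy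
    induction hy using Subgroup.closure_induction with
    | mem y hy =>
      rcases hy with rfl | hy
      · exact hxs
      · rw [Set.mem_singleton_iff] at hy
        subst hy; exact hxt
    | one => simp
    | mul a b _ _ ha hb =>
      have : u (x * (a * b)) = u (x * a) * u b := by rw [← map_mul, mul_assoc]
      rw [this, ha, map_mul, mul_assoc, ← map_mul, hb, ← map_mul, mul_assoc]
    | inv a _ ha =>
      have e1 : u (x * a⁻¹) = u a⁻¹ * u (a * x) * u a⁻¹ := by
        rw [← map_mul, ← map_mul]; congr 1; group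
      rw [e1, ← ha, ← map_mul, ← map_mul]
      congr 1; group
  have hstep : ∀ x : Γ, Q x → ∃ y : Γ, Q y ∧ ‖u y - 1‖ ≤ (2 * ε) * ‖u x - 1‖ ∧
      ℓ y ≤ 2 * ℓ x + 2 * L := by
    rintro x ⟨hx1, ⟨a, ha, b, hb, hab⟩, hx2, hx3⟩
    -- x does not commute with both s and t
    have hnc : u (x * s) ≠ u (s * x) ∨ u (x * t) ≠ u (t * x) := by
      by_contra hcon
      push Not at hcon
      apply hx2
      rw [hab]
      apply hL a b
      · rw [← hab]
        exact lt_of_le_of_lt hx3 (by linarith)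
      · rw [← hab]; exact (hcl x hcon.1 hcon.2 a ha).symm
      · rw [← hab]; exact (hcl x hcon.1 hcon.2 b hb).symm
    have hgen : ∀ r : Γ, r ∈ Subgroup.closure ({s, t} : Set Γ) → ‖u r - 1‖ < ε → ℓ r ≤ L →
        u (x * r) ≠ u (r * x) → ∃ y : Γ, Q y ∧ ‖u y - 1‖ ≤ (2 * ε) * ‖u x - 1‖ ∧
          ℓ y ≤ 2 * ℓ x + 2 * L := by
      intro r hr hrε hrL hrx
      have hn : ‖u (x * r * x⁻¹ * r⁻¹) - 1‖ ≤ (2 * ε) * ‖u x - 1‖ := by
        refine (norm_comm_sub_one_le hu x r).trans ?_
        have := norm_nonneg (u x - 1)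
        nlinarith
      refine ⟨x * r * x⁻¹ * r⁻¹, ⟨?_, ⟨x, hx1, r, hr, rfl⟩, ?_, ?_⟩, hn, ?_⟩
      · exact mul_mem (mul_mem (mul_mem hx1 hr) (inv_mem hx1)) (inv_mem hr)
      · rw [Ne, comm_iff]; exact hrx
      · have := norm_nonneg (u x - 1)
        refine hn.trans ?_
        nlinarith
      · have := hlen x r
        linarith
    rcases hnc with h | h
    · exact hgen s hsm hs hLs h
    · exact hgen t htm ht hLt h
  have hx0 : Q (s * t * s⁻¹ * t⁻¹) := by
    refine ⟨mul_mem (mul_mem (mul_mem hsm htm) (inv_mem hsm)) (inv_mem htm),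
      ⟨s, hsm, t, htm, rfl⟩, ?_, ?_⟩
    · rw [Ne, comm_iff]; exact hst
    · refine (norm_comm_sub_one_le hu s t).trans ?_
      have := norm_nonneg (u s - 1)
      have := norm_nonneg (u t - 1)
      nlinarith
  choose! f hf1 hf2 hf3 using hstep
  set h : ℕ → Γ := fun k => f^[k] (s * t * s⁻¹ * t⁻¹) with hh
  have hsucc : ∀ k, h (k + 1) = f (h k) := by
    intro k; simp only [hh, Function.iterate_succ_apply']
  have hQ : ∀ k, Q (h k) := by
    intro k
    induction k with
    | zero => simpa [hh] using hx0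
    | succ k ih => rw [hsucc]; exact hf1 _ ih
  have hcon : ∀ k, ‖u (h (k + 1)) - 1‖ ≤ (2 * ε) * ‖u (h k) - 1‖ := by
    intro k; rw [hsucc]; exact hf2 _ (hQ k)
  have hlen2 : ∀ k, ℓ (h k) + 2 * L ≤ 6 * L * 2 ^ k := by
    intro k
    induction k with
    | zero =>
      have : h 0 = s * t * s⁻¹ * t⁻¹ := rfl
      have := hlen s t
      simp only [pow_zero, mul_one]
      rw [show h 0 = s * t * s⁻¹ * t⁻¹ from rfl]
      linarith
    | succ k ih =>
      have := hf3 _ (hQ k)
      rw [hsucc, pow_succ]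
      linarith
  have hlen3 : ∀ k, ℓ (h k) ≤ 6 * L * 2 ^ k := fun k => by have := hlen2 k; linarith
  have hKs : ∀ k, (K : ℝ) * ‖u (h k) - 1‖ ≤ 1 / 2 := by
    intro k
    have := (hQ k).2.2.2
    have h3 : (K : ℝ) * ‖u (h k) - 1‖ ≤ K * ε := by gcongr
    nlinarith
  have hKq : 8 * (K : ℝ) * (2 * ε) < 1 := by nlinarith
  -- counting
  have hcount : ∀ m : ℕ, ((K : ℝ)) ^ m ≤ C * (6 * L * K) ^ d * 2 ^ (d * m) := by
    intro m
    obtain ⟨hfin, hcard⟩ := hg (6 * L * K * 2 ^ m) (by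
      have : (1 : ℝ) ≤ 2 ^ m := one_le_pow₀ (by norm_num)
      have h2 : (1 : ℝ) ≤ L * K := by nlinarith
      nlinarith)
    have hle : (Finset.univ : Finset (Fin m → Fin K)).card ≤ hfin.toFinset.card := by
      apply Finset.card_le_card_of_injOn
        (fun i => wd h 0 (List.ofFn fun j => (i j : ℕ)))
      · intro i _
        simp only [Set.Finite.coe_toFinset, Set.mem_ofPred_eq]
        have := len_wd ℓ h1 hmul h (by positivity) hlen3 K (List.ofFn fun j => (i j : ℕ)) 0 (by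
          intro a ha
          rw [List.mem_ofFn] at ha
          obtain ⟨j, rfl⟩ := ha
          exact (i j).2.le)
        refine this.trans ?_
        rw [List.length_ofFn, zero_add, pow_zero]
        have : (0 : ℝ) ≤ K * (6 * L) := by positivity
        nlinarith
      · intro i _ i' _ hii
        have key := wd_inj hu h (by nlinarith) hKq hcon (fun k => (hQ k).2.2.1) hKs
          (List.ofFn fun j => (i j : ℕ)) (List.ofFn fun j => (i' j : ℕ)) 0 (by simp)
          (by
            intro a ha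
            rw [List.mem_ofFn] at ha
            obtain ⟨j, rfl⟩ := ha
            exact (i j).2.le)
          (by
            intro a ha
            rw [List.mem_ofFn] at ha
            obtain ⟨j, rfl⟩ := ha
            exact (i' j).2.le) (congrArg u hii)
        have := List.ofFn_injective key
        funext j
        exact Fin.ext (congrFun this j)
    have hle' : ((K : ℝ)) ^ m ≤ (hfin.toFinset.card : ℝ) := by
      have : (Finset.univ : Finset (Fin m → Fin K)).card = K ^ m := by simp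
      rw [this] at hle
      exact_mod_cast hle
    refine (hle'.trans hcard).trans (le_of_eq ?_)
    rw [mul_pow (6 * L * (K : ℝ)) (2 ^ m) d, ← pow_mul, mul_comm m d]
    ring
  -- contradiction
  have hfin : ∀ m : ℕ, (2 : ℝ) ^ m ≤ C * (6 * L * K) ^ d := by
    intro m
    have h2 := hcount m
    have h3 : ((K : ℝ)) ^ m = 2 ^ m * 2 ^ (d * m) := by
      rw [hKdef]; push_cast
      rw [← pow_mul, ← pow_add]; congr 1; ring
    rw [h3] at h2
    exact le_of_mul_le_mul_right h2 (by positivity)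
  obtain ⟨m, hm⟩ := pow_unbounded_of_one_lt (C * (6 * L * K) ^ d) (by norm_num : (1 : ℝ) < 2)
  exact absurd (hfin m) (not_le.2 hm)

end Abs

/-! ### the closing lemma for unitary operators -/

section Closing

variable {V : Type*} [NormedAddCommGroup V] [InnerProductSpace ℂ V] [FiniteDimensional ℂ V]

open Module

/-- a root of unity of small order close to `1` is `1` -/
theorem eq_one_of_pow_eq_one {z : ℂ} {k N : ℕ} (hk : 1 ≤ k) (hkN : k ≤ N) (hz : ‖z‖ = 1)
    (hpow : z ^ k = 1) (hclose : ‖z - 1‖ < 1 / (N + 1)) : z = 1 := by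
  by_contra hne
  have hsum : ∑ j ∈ range k, z ^ j = 0 := by
    have := mul_geom_sum z k
    rw [hpow, sub_self] at this
    exact (mul_eq_zero.1 this).resolve_left (sub_ne_zero.2 hne)
  have hb : ∀ j : ℕ, ‖z ^ j - 1‖ ≤ j * ‖z - 1‖ := by
    intro j
    induction j with
    | zero => simp
    | succ j ih =>
      have e : z ^ (j + 1) - 1 = z ^ j * (z - 1) + (z ^ j - 1) := by ring
      rw [e]
      refine (norm_add_le _ _).trans ?_
      rw [norm_mul, norm_pow, hz, one_pow, one_mul]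
      push_cast
      linarith
  have h1 : ‖∑ j ∈ range k, (z ^ j - 1)‖ ≤ ∑ j ∈ range k, (k : ℝ) * ‖z - 1‖ := by
    refine norm_sum_le_of_le _ fun j hj => (hb j).trans ?_
    have : (j : ℝ) ≤ k := by exact_mod_cast (mem_range.1 hj).le
    gcongr
  rw [sum_sub_distrib, hsum] at h1
  simp only [sum_const, card_range, nsmul_eq_mul, mul_one, zero_sub, norm_neg] at h1
  rw [Complex.norm_natCast] at h1
  have hk0 : (1 : ℝ) ≤ k := by exact_mod_cast hk
  have hkN' : (k : ℝ) ≤ N := by exact_mod_cast hkN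
  have h2 : ‖z - 1‖ * (N + 1) < 1 := by
    rwa [lt_div_iff₀ (by positivity)] at hclose
  have h3 : (k : ℝ) * ‖z - 1‖ < 1 := by nlinarith [norm_nonneg (z - 1)]
  nlinarith

/-- A commutator of invertible operators, unitary, close to `1` and commuting with both factors is
trivial. -/
theorem closing (A B C : V →L[ℂ] V) (hC : ∀ v, ‖C v‖ = ‖v‖)
    (hA : Function.Injective A) (hB : Function.Injective B)
    (hAB : ∀ v, A (B v) = C (B (A v)))
    (hAC : ∀ v, A (C v) = C (A v)) (hBC : ∀ v, B (C v) = C (B v))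
    (hclose : ‖C - 1‖ < 1 / (finrank ℂ V + 1)) : C = 1 := by
  by_contra hne
  -- an eigenvalue different from one
  have hev : ∃ (z : ℂ) (v : V), v ≠ 0 ∧ C v = z • v ∧ z ≠ 1 := by
    let Cl : V →ₗᵢ[ℂ] V := ⟨C.toLinearMap, hC⟩
    let W : Submodule ℂ V := LinearMap.ker (C.toLinearMap - 1)
    have hW : ∀ v, v ∈ W ↔ C v = v := by
      intro v
      simp only [W, LinearMap.mem_ker, LinearMap.sub_apply, ContinuousLinearMap.coe_coe]
      rw [Module.End.one_apply, sub_eq_zero]
    have hWT : W ≠ ⊤ := by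
      intro h
      apply hne
      ext v
      have : v ∈ W := by rw [h]; trivial
      simpa using (hW v).1 this
    have hWo : Wᗮ ≠ ⊥ := by
      intro h
      exact hWT (Submodule.orthogonal_eq_bot_iff.1 h)
    have hinv : ∀ v ∈ Wᗮ, C.toLinearMap v ∈ Wᗮ := by
      intro v hv
      rw [Submodule.mem_orthogonal] at hv ⊢
      intro w hw
      have h1 := Cl.inner_map_map w v
      have h2 : Cl w = w := (hW w).1 hw
      rw [h2, hv w hw] at h1
      exact h1
    have : Nontrivial Wᗮ := (Submodule.nontrivial_iff_ne_bot).2 hWo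
    obtain ⟨z, hz⟩ := Module.End.exists_eigenvalue (C.toLinearMap.restrict hinv)
    obtain ⟨v, hv⟩ := hz.exists_hasEigenvector
    have h1 := hv.apply_eq_smul
    have h2 : C (v : V) = z • (v : V) := by
      have := congrArg Subtype.val h1
      simpa using this
    refine ⟨z, v, fun h => hv.2 (Subtype.ext h), h2, ?_⟩
    rintro rfl
    have hvW : (v : V) ∈ W := (hW _).2 (by simpa using h2)
    have := (Submodule.mem_orthogonal _ _).1 v.2 _ hvW
    rw [inner_self_eq_zero] at this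
    exact hv.2 (Subtype.ext this)
  obtain ⟨z, v, hv0, hCv, hz1⟩ := hev
  have hvn : 0 < ‖v‖ := norm_pos_iff.2 hv0
  have hz : ‖z‖ = 1 := by
    have := hC v
    rw [hCv, norm_smul] at this
    exact (mul_eq_right₀ hvn.ne').1 this
  have hzc : ‖z - 1‖ < 1 / (finrank ℂ V + 1) := by
    have h1 : ‖(C - 1) v‖ ≤ ‖C - 1‖ * ‖v‖ := (C - 1).le_opNorm v
    have h2 : (C - 1) v = (z - 1) • v := by
      simp [hCv, sub_smul]
    rw [h2, norm_smul] at h1
    exact lt_of_le_of_lt (le_of_mul_le_mul_right h1 hvn) hclose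
  -- determinants on the eigenspace
  let E : Submodule ℂ V := Module.End.eigenspace C.toLinearMap z
  have hE : ∀ w, w ∈ E ↔ C w = z • w := fun w => Module.End.mem_eigenspace_iff
  have hEA : ∀ w ∈ E, A.toLinearMap w ∈ E := by
    intro w hw
    rw [hE] at hw ⊢
    change C (A w) = z • A w
    rw [← hAC, hw, map_smul]
  have hEB : ∀ w ∈ E, B.toLinearMap w ∈ E := by
    intro w hw
    rw [hE] at hw ⊢
    change C (B w) = z • B w
    rw [← hBC, hw, map_smul]
  let A' := A.toLinearMap.restrict hEA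
  let B' := B.toLinearMap.restrict hEB
  have hA' : LinearMap.det A' ≠ 0 := by
    have : Function.Injective A' := by
      intro x y hxy
      exact Subtype.ext (hA (congrArg Subtype.val hxy))
    exact ((LinearMap.isUnit_iff_ker_eq_bot A').2 (LinearMap.ker_eq_bot.2 this)).map
      LinearMap.det |>.ne_zero
  have hB' : LinearMap.det B' ≠ 0 := by
    have : Function.Injective B' := by
      intro x y hxy
      exact Subtype.ext (hB (congrArg Subtype.val hxy))
    exact ((LinearMap.isUnit_iff_ker_eq_bot B').2 (LinearMap.ker_eq_bot.2 this)).map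
      LinearMap.det |>.ne_zero
  have hcomp : A' * B' = z • (B' * A') := by
    ext w
    have h1 : ((A' * B') w : V) = A (B (w : V)) := rfl
    have h2 : ((z • (B' * A')) w : V) = z • B (A (w : V)) := rfl
    rw [h1, h2, hAB, ← hBC, ← hAC, (hE _).1 w.2, map_smul, map_smul]
  have hdet := congrArg LinearMap.det hcomp
  rw [LinearMap.det_smul, map_mul, map_mul, mul_comm (LinearMap.det B')] at hdet
  have hzk : z ^ finrank ℂ E = 1 := by
    have hne := mul_ne_zero hA' hB'
    exact (mul_eq_right₀ hne).1 hdet.symm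
  have hEpos : 1 ≤ finrank ℂ E := by
    have hvE : v ∈ E := (hE v).2 hCv
    have : Nontrivial E := ⟨⟨⟨v, hvE⟩, 0, fun h => hv0 (congrArg Subtype.val h)⟩⟩
    exact finrank_pos
  exact hz1 (eq_one_of_pow_eq_one hEpos (Submodule.finrank_le E) hz hzk hzc)

end Closing

/-! ### finite index and the theorem -/

section Final

variable {V : Type*} [NormedAddCommGroup V] [InnerProductSpace ℂ V] [FiniteDimensional ℂ V]
variable {Γ : Type*} [Group Γ]

/-- the subgroup generated by the elements whose images are `ε`-close to `1` has finite index -/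
theorem finiteIndex_of_close (u : Γ →* (V →L[ℂ] V)) (hu : ∀ g, ‖u g‖ ≤ 1) {ε : ℝ} (hε : 0 < ε) :
    (Subgroup.closure {g : Γ | ‖u g - 1‖ < ε}).FiniteIndex := by
  set H := Subgroup.closure {g : Γ | ‖u g - 1‖ < ε} with hH
  have hT : TotallyBounded (Metric.closedBall (0 : V →L[ℂ] V) 1) := by
    have : ProperSpace (V →L[ℂ] V) := FiniteDimensional.proper ℂ _
    exact (isCompact_closedBall _ _).totallyBounded
  obtain ⟨t, htf, ht⟩ := Metric.totallyBounded_iff.1 hT (ε / 2) (by positivity)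
  have hmem : ∀ g : Γ, ∃ y ∈ t, dist (u g) y < ε / 2 := by
    intro g
    have : u g ∈ Metric.closedBall (0 : V →L[ℂ] V) 1 := by
      rw [mem_closedBall_zero_iff]; exact hu g
    simpa using ht this
  choose c hct hcd using hmem
  have hfin : Finite (Γ ⧸ H) := by
    have : Finite t := htf
    apply Finite.of_injective (fun x : Γ ⧸ H => (⟨c x.out, hct _⟩ : t))
    intro x y hxy
    have hxy' : c x.out = c y.out := congrArg Subtype.val hxy
    have hd : dist (u x.out) (u y.out) < ε := by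
      have h1 := hcd x.out
      have h2 := hcd y.out
      rw [← hxy'] at h2
      have := dist_triangle_right (u x.out) (u y.out) (c x.out)
      linarith
    have hmem : x.out⁻¹ * y.out ∈ H := by
      apply Subgroup.subset_closure
      change ‖u (x.out⁻¹ * y.out) - 1‖ < ε
      have e : u (x.out⁻¹ * y.out) - 1 = u x.out⁻¹ * (u y.out - u x.out) := by
        rw [mul_sub, u_inv_mul, map_mul]
      rw [e]
      refine lt_of_le_of_lt (norm_mul_le _ _) ?_
      refine lt_of_le_of_lt (mul_le_of_le_one_left (norm_nonneg _) (hu _)) ?_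
      rwa [← dist_eq_norm, dist_comm]
    have := QuotientGroup.eq.2 hmem
    rw [← x.out_eq', ← y.out_eq']
    exact this
  exact Subgroup.finiteIndex_of_finite_quotient

/-- **G3.** A finite dimensional unitary representation of a group of polynomial growth has
commutative image on a finite index subgroup. -/
theorem virtually_abelian_image (u : Γ →* (V →L[ℂ] V)) (hu : ∀ g v, ‖u g v‖ = ‖v‖)
    (ℓ : Γ → ℝ) (h1 : ℓ 1 = 0) (hmul : ∀ a b, ℓ (a * b) ≤ ℓ a + ℓ b)
    (hinv : ∀ a, ℓ a⁻¹ = ℓ a) (C : ℝ) (d : ℕ)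
    (hg : ∀ r : ℝ, 1 ≤ r → ∃ hf : {γ | ℓ γ ≤ r}.Finite, (hf.toFinset.card : ℝ) ≤ C * r ^ d) :
    ∃ H : Subgroup Γ, H.FiniteIndex ∧ ∀ a ∈ H, ∀ b ∈ H, u (a * b) = u (b * a) := by
  have hu1 : ∀ g, ‖u g‖ ≤ 1 := fun g =>
    ContinuousLinearMap.opNorm_le_bound _ zero_le_one fun v => by rw [hu, one_mul]
  have hinj : ∀ g, Function.Injective (u g) := by
    intro g x y hxy
    have : u g (x - y) = 0 := by rw [map_sub, hxy, sub_self]
    have h2 := hu g (x - y)
    rw [this, norm_zero] at h2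
    exact sub_eq_zero.1 (norm_eq_zero.1 h2.symm)
  obtain ⟨ε, hε, hcomm⟩ := commute_of_close hu1 ℓ h1 hmul hinv C d hg
    (δ := 1 / (Module.finrank ℂ V + 1)) (by positivity) (by
      intro a b hclose hac hbc
      refine closing (u a) (u b) (u (a * b * a⁻¹ * b⁻¹)) (hu _) (hinj _) (hinj _) ?_ ?_ ?_ hclose
      · intro v
        have : u (a * b) = u ((a * b * a⁻¹ * b⁻¹) * (b * a)) := by congr 1; group
        rw [map_mul, map_mul _ _ (b * a), map_mul _ b a] at this
        exact congrArg (fun T : V →L[ℂ] V => T v) this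
      · intro v
        rw [map_mul u a, map_mul u _ a] at hac
        exact congrArg (fun T : V →L[ℂ] V => T v) hac
      · intro v
        rw [map_mul u b, map_mul u _ b] at hbc
        exact congrArg (fun T : V →L[ℂ] V => T v) hbc)
  refine ⟨Subgroup.closure {g : Γ | ‖u g - 1‖ < ε}, finiteIndex_of_close u hu1 hε, ?_⟩
  have hone : ∀ x ∈ Subgroup.closure {g : Γ | ‖u g - 1‖ < ε}, ∀ s, ‖u s - 1‖ < ε →
      u (x * s) = u (s * x) := by
    intro x hx s hs
    induction hx using Subgroup.closure_induction with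
    | mem y hy => exact hcomm y s hy hs
    | one => simp
    | mul a b _ _ ha hb =>
      have e1 : u (a * b * s) = u a * u (b * s) := by rw [← map_mul, mul_assoc]
      rw [e1, hb, map_mul, ← mul_assoc, ← map_mul, ha, ← map_mul, mul_assoc]
    | inv a _ ha =>
      have e1 : u (a⁻¹ * s) = u a⁻¹ * u (s * a) * u a⁻¹ := by
        rw [← map_mul, ← map_mul]; congr 1; group
      rw [e1, ← ha, ← map_mul, ← map_mul]
      congr 1; group
  intro x hx y hy
  induction hy using Subgroup.closure_induction with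
  | mem s hs => exact hone x hx s hs
  | one => simp
  | mul a b _ _ ha hb =>
    have e1 : u (x * (a * b)) = u (x * a) * u b := by rw [← map_mul, mul_assoc]
    rw [e1, ha, map_mul, mul_assoc, ← map_mul, hb, ← map_mul, mul_assoc]
  | inv a _ ha =>
    have e1 : u (x * a⁻¹) = u a⁻¹ * u (a * x) * u a⁻¹ := by
      rw [← map_mul, ← map_mul]; congr 1; group
    rw [e1, ← ha, ← map_mul, ← map_mul]
    congr 1; group

/-- a finitely generated commutative group is finite or surjects onto `ℤ` -/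
theorem finite_or_surj_int (A : Type*) [CommGroup A] [Group.FG A] :
    Finite A ∨ ∃ φ : A →* Multiplicative ℤ, Function.Surjective φ := by
  obtain ⟨ι, j, _, _, p, hp, e, ⟨f⟩⟩ := CommGroup.equiv_free_prod_prod_multiplicative_zmod A
  rcases isEmpty_or_nonempty j with hj | ⟨⟨j0⟩⟩
  · left
    have : ∀ i, Finite (Multiplicative (ZMod (p i ^ e i))) := fun i => by
      have : NeZero (p i ^ e i) := ⟨pow_ne_zero _ (hp i).ne_zero⟩
      exact inferInstanceAs (Finite (ZMod (p i ^ e i)))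
    exact Finite.of_equiv _ f.symm.toEquiv
  · right
    refine ⟨(Pi.evalMonoidHom _ j0).comp ((MonoidHom.fst _ _).comp f.toMonoidHom), ?_⟩
    intro y
    obtain ⟨a, ha⟩ := f.surjective (fun _ => y, 1)
    exact ⟨a, by simp [ha]⟩

/-- commuting isometries have a common eigenvector -/
theorem exists_common_eigenvector [Nontrivial V] (u : Γ →* (V →L[ℂ] V)) (H : Subgroup Γ)
    (hH : ∀ a ∈ H, ∀ b ∈ H, u (a * b) = u (b * a)) :
    ∃ v : V, v ≠ 0 ∧ ∀ h ∈ H, ∃ z : ℂ, u h v = z • v := by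
  classical
  let P : ℕ → Prop := fun k => ∃ W : Submodule ℂ V, W ≠ ⊥ ∧ (∀ h ∈ H, ∀ w ∈ W, u h w ∈ W) ∧
    Module.finrank ℂ W = k
  have hex : ∃ k, P k := ⟨_, ⊤, top_ne_bot, fun _ _ _ _ => trivial, rfl⟩
  obtain ⟨W, hW0, hWH, hWk⟩ := Nat.find_spec hex
  have hmin : ∀ k, P k → Nat.find hex ≤ k := fun k hk => Nat.find_min' hex hk
  have hWn : Nontrivial W := (Submodule.nontrivial_iff_ne_bot).2 hW0
  have hscal : ∀ h ∈ H, ∃ z : ℂ, ∀ w ∈ W, u h w = z • w := by
    intro h hh
    have hinv : ∀ w ∈ W, (u h).toLinearMap w ∈ W := fun w hw => hWH h hh w hw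
    obtain ⟨z, hz⟩ := Module.End.exists_eigenvalue ((u h).toLinearMap.restrict hinv)
    obtain ⟨v, hv⟩ := hz.exists_hasEigenvector
    have h1 : u h (v : V) = z • (v : V) := by
      have := congrArg Subtype.val hv.apply_eq_smul
      simpa using this
    refine ⟨z, ?_⟩
    -- the eigenspace inside W
    let E : Submodule ℂ V := W ⊓ Module.End.eigenspace (u h).toLinearMap z
    have hE : ∀ w, w ∈ E ↔ w ∈ W ∧ u h w = z • w := fun w => by
      rw [Submodule.mem_inf, Module.End.mem_eigenspace_iff]; rfl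
    have hE0 : E ≠ ⊥ := by
      intro hbot
      have : (v : V) ∈ E := (hE _).2 ⟨v.2, h1⟩
      rw [hbot, Submodule.mem_bot] at this
      exact hv.2 (Subtype.ext this)
    have hEH : ∀ g ∈ H, ∀ w ∈ E, u g w ∈ E := by
      intro g hg w hw
      rw [hE] at hw ⊢
      refine ⟨hWH g hg w hw.1, ?_⟩
      have h2 := hH h hh g hg
      rw [map_mul, map_mul] at h2
      have h3 := congrArg (fun T : V →L[ℂ] V => T w) h2
      change u h (u g w) = u g (u h w) at h3
      rw [h3, hw.2, map_smul]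
    have hEle : E ≤ W := inf_le_left
    have h4 := hmin _ ⟨E, hE0, hEH, rfl⟩
    rw [← hWk] at h4
    have h5 : E = W := Submodule.eq_of_le_of_finrank_le hEle h4
    intro w hw
    rw [← h5] at hw
    exact ((hE w).1 hw).2
  obtain ⟨v, hv⟩ := exists_ne (0 : W)
  refine ⟨v, fun h => hv (Subtype.ext h), fun h hh => ?_⟩
  obtain ⟨z, hz⟩ := hscal h hh
  exact ⟨z, hz v v.2⟩

/-- **G3'.** `Γ` finitely generated of polynomial growth, `V ≠ 0` a finite dimensional unitary
representation. Then some finite index subgroup of `Γ` either fixes a nonzero vector of `V`, or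
surjects onto `ℤ`. -/
theorem fixed_or_surj [Nontrivial V] [Group.FG Γ] (u : Γ →* (V →L[ℂ] V))
    (hu : ∀ g v, ‖u g v‖ = ‖v‖)
    (ℓ : Γ → ℝ) (h1 : ℓ 1 = 0) (hmul : ∀ a b, ℓ (a * b) ≤ ℓ a + ℓ b)
    (hinv : ∀ a, ℓ a⁻¹ = ℓ a) (C : ℝ) (d : ℕ)
    (hg : ∀ r : ℝ, 1 ≤ r → ∃ hf : {γ | ℓ γ ≤ r}.Finite, (hf.toFinset.card : ℝ) ≤ C * r ^ d) :
    ∃ H : Subgroup Γ, H.FiniteIndex ∧
      ((∃ v : V, v ≠ 0 ∧ ∀ h ∈ H, u h v = v) ∨
        ∃ φ : H →* Multiplicative ℤ, Function.Surjective φ) := by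
  obtain ⟨H, hHf, hHc⟩ := virtually_abelian_image u hu ℓ h1 hmul hinv C d hg
  obtain ⟨v, hv0, hv⟩ := exists_common_eigenvector u H hHc
  choose! z hz using hv
  have hvn : ‖v‖ ≠ 0 := norm_ne_zero_iff.2 hv0
  have hinj : ∀ a b : ℂ, a • v = b • v → a = b := fun a b h => smul_left_injective ℂ hv0 h
  -- the character
  let χ0 : H →* ℂ :=
    { toFun := fun h => z h
      map_one' := by
        apply hinj
        change z ((1 : H) : Γ) • v = _
        rw [← hz _ (1 : H).2]
        simp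
      map_mul' := by
        intro a b
        apply hinj
        change z ((a * b : H) : Γ) • v = (z a * z b) • v
        rw [← hz _ (a * b).2, Subgroup.coe_mul, map_mul]
        change u a (u b v) = _
        rw [hz _ b.2, map_smul, hz _ a.2, smul_smul, mul_comm] }
  let χ : H →* ℂˣ := χ0.toHomUnits
  have hχ : ∀ h : H, ((χ h : ℂˣ) : ℂ) = z h := fun h => rfl
  have : Group.FG H := Subgroup.fg_of_index_ne_zero H
  have hFGr : Group.FG χ.range := by
    have := Group.fg_of_surjective (f := χ.rangeRestrict) χ.rangeRestrict_surjective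
    exact this
  rcases finite_or_surj_int χ.range with hfin | ⟨φ, hφ⟩
  · -- finite image: the kernel fixes v
    refine ⟨χ.ker.map H.subtype, ?_, Or.inl ⟨v, hv0, ?_⟩⟩
    · have hk : χ.ker.FiniteIndex := by
        have : Finite (H ⧸ χ.ker) :=
          Finite.of_equiv _ (QuotientGroup.quotientKerEquivRange χ).symm.toEquiv
        exact Subgroup.finiteIndex_of_finite_quotient
      constructor
      rw [Subgroup.index_map_subtype]
      exact mul_ne_zero hk.index_ne_zero hHf.index_ne_zero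
    · rintro h ⟨k, hk, rfl⟩
      have h2 : χ k = 1 := hk
      have h3 : z k = 1 := by rw [← hχ, h2]; rfl
      have h4 := hz _ k.2
      rw [h3, one_smul] at h4
      exact h4
  · exact ⟨H, hHf, Or.inr ⟨φ.comp χ.rangeRestrict, hφ.comp χ.rangeRestrict_surjective⟩⟩

end Final

end Crest.Agent.R273.UGrowth_289
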