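import Mathlib

open Complex Metric Set MeasureTheory Filter Topology
open scoped ComplexConjugate ENNReal

namespace Crest.Agent.R273.UInt_818

/-- factorisation of `f` with `k` zeros in the closed disc of radius 3 -/
def Fac (f : ℂ → ℂ) (k : ℕ) : Prop :=
  ∃ (a : Fin k → ℂ) (g : ℂ → ℂ), (∀ i, ‖a i‖ ≤ 3) ∧ DifferentiableOn ℂ g (ball 0 5) ∧
    ∀ z ∈ ball (0 : ℂ) 5, f z = (∏ i, (z - a i)) * g z

lemma norm_conj_factor {z a : ℂ} (hz : ‖z‖ = 4) : ‖(16 - conj a * z) / 4‖ = ‖z - a‖ := by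
  have h1 : (16 : ℂ) = conj z * z := by
    rw [mul_comm, Complex.mul_conj, Complex.normSq_eq_norm_sq, hz]; norm_num
  have h2 : (16 : ℂ) - conj a * z = conj (z - a) * z := by
    rw [h1, map_sub]; ring
  rw [h2, norm_div, norm_mul, Complex.norm_conj, hz]
  norm_num

lemma fac_bound {f : ℂ → ℂ} {k : ℕ} {M : ℝ} (a : Fin k → ℂ) (g : ℂ → ℂ) (ha : ∀ i, ‖a i‖ ≤ 3)
    (hg : DifferentiableOn ℂ g (ball 0 5))
    (hf : ∀ z ∈ ball (0 : ℂ) 5, f z = (∏ i, (z - a i)) * g z)
    (hM : ∀ z ∈ ball (0 : ℂ) 5, ‖f z‖ ≤ M) : ‖f 0‖ ≤ (3 / 4) ^ k * M := by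
  set h : ℂ → ℂ := fun z => g z * ∏ i, ((16 - conj (a i) * z) / 4) with hh
  have hd : DifferentiableOn ℂ h (ball 0 5) := by
    apply hg.mul
    have : (fun z : ℂ => ∏ i, ((16 - conj (a i) * z) / 4)) =
        ∏ i, fun z : ℂ => ((16 - conj (a i) * z) / 4) := by
      ext z; simp
    rw [this]
    apply DifferentiableOn.finsetProd
    intro i _
    fun_prop
  have hsub : closedBall (0 : ℂ) 4 ⊆ ball 0 5 := closedBall_subset_ball (by norm_num)
  have hdc : DiffContOnCl ℂ h (ball 0 4) := by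
    apply (hd.mono (closure_ball_subset_closedBall.trans hsub)).diffContOnCl
  have hfr : ∀ z ∈ frontier (ball (0 : ℂ) 4), ‖h z‖ ≤ M := by
    intro z hz
    rw [frontier_ball (0 : ℂ) (by norm_num)] at hz
    have hz4 : ‖z‖ = 4 := by simpa using hz
    have hz5 : z ∈ ball (0 : ℂ) 5 := by simp [hz4]; norm_num
    have : ‖h z‖ = ‖f z‖ := by
      rw [hf z hz5, hh]
      simp only [norm_mul, norm_prod]
      rw [mul_comm]
      congr 1
      apply Finset.prod_congr rfl
      intro i _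
      exact norm_conj_factor hz4
    rw [this]; exact hM z hz5
  have h0 : ‖h 0‖ ≤ M :=
    Complex.norm_le_of_forall_mem_frontier_norm_le isBounded_ball hdc hfr
      (subset_closure (by simp))
  have e1 : ‖h 0‖ = ‖g 0‖ * 4 ^ k := by
    rw [hh]
    simp only [norm_mul, norm_prod, mul_zero, sub_zero]
    congr 1
    rw [Finset.prod_congr rfl (g := fun _ => (4 : ℝ))]
    · simp
    · intro i _; norm_num
  have e2 : ‖f 0‖ = (∏ i, ‖a i‖) * ‖g 0‖ := by
    rw [hf 0 (by simp)]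
    simp [norm_prod]
  have e3 : (∏ i, ‖a i‖) ≤ 3 ^ k := by
    calc (∏ i, ‖a i‖) ≤ ∏ _i : Fin k, (3 : ℝ) :=
          Finset.prod_le_prod (fun i _ => norm_nonneg _) (fun i _ => ha i)
      _ = 3 ^ k := by simp
  calc ‖f 0‖ ≤ 3 ^ k * ‖g 0‖ := by
        rw [e2]; gcongr
    _ = (3 / 4) ^ k * ‖h 0‖ := by
        rw [e1, div_pow]; field_simp
    _ ≤ (3 / 4) ^ k * M := by gcongr

lemma fac_succ {f : ℂ → ℂ} {k : ℕ} (a : Fin k → ℂ) (g : ℂ → ℂ) (ha : ∀ i, ‖a i‖ ≤ 3)
    (hg : DifferentiableOn ℂ g (ball 0 5))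
    (hf : ∀ z ∈ ball (0 : ℂ) 5, f z = (∏ i, (z - a i)) * g z)
    {b : ℂ} (hb : ‖b‖ ≤ 3) (hgb : g b = 0) : Fac f (k + 1) := by
  refine ⟨Fin.cons b a, dslope g b, ?_, ?_, ?_⟩
  · intro i
    refine Fin.cases ?_ (fun i => ?_) i
    · simpa using hb
    · simpa using ha i
  · have hbn : ball (0 : ℂ) 5 ∈ 𝓝 b := isOpen_ball.mem_nhds (by simp; linarith)
    exact (Complex.differentiableOn_dslope hbn).2 hg
  · intro z hz
    rw [hf z hz, Fin.prod_univ_succ]
    simp only [Fin.cons_zero, Fin.cons_succ]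
    have : g z = (z - b) * dslope g b z := by
      have := sub_smul_dslope g b z
      rw [hgb, sub_zero, smul_eq_mul] at this
      exact this.symm
    rw [this]; ring

/-- a maximal factorisation: no zeros left in the disc of radius 3 -/
lemma exists_fac {f : ℂ → ℂ} {M : ℝ} (hd : DifferentiableOn ℂ f (ball 0 5))
    (hM : ∀ z ∈ ball (0 : ℂ) 5, ‖f z‖ ≤ M) (h0 : f 0 ≠ 0) :
    ∃ (k : ℕ) (a : Fin k → ℂ) (g : ℂ → ℂ), (∀ i, ‖a i‖ ≤ 3) ∧ DifferentiableOn ℂ g (ball 0 5) ∧
      (∀ z ∈ ball (0 : ℂ) 5, f z = (∏ i, (z - a i)) * g z) ∧ (∀ z, ‖z‖ ≤ 3 → g z ≠ 0) ∧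
      ‖f 0‖ ≤ (3 / 4) ^ k * M := by
  by_contra hcon
  push Not at hcon
  have all : ∀ k, Fac f k := by
    intro k
    induction k with
    | zero => exact ⟨Fin.elim0, f, fun i => i.elim0, hd, fun z _ => by simp⟩
    | succ k ih =>
      obtain ⟨a, g, ha, hg, hf⟩ := ih
      by_cases hz : ∀ z, ‖z‖ ≤ 3 → g z ≠ 0
      · have := hcon k a g ha hg hf hz
        exact absurd (fac_bound a g ha hg hf hM) (not_le.2 this)
      · push Not at hz
        obtain ⟨b, hb, hgb⟩ := hz
        exact fac_succ a g ha hg hf hb hgb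
  have hb : ∀ k : ℕ, ‖f 0‖ ≤ (3 / 4) ^ k * M := by
    intro k
    obtain ⟨a, g, ha, hg, hf⟩ := all k
    exact fac_bound a g ha hg hf hM
  have hlim : Tendsto (fun k : ℕ => (3 / 4 : ℝ) ^ k * M) atTop (𝓝 (0 * M)) :=
    (tendsto_pow_atTop_nhds_zero_of_lt_one (by norm_num) (by norm_num)).mul_const M
  rw [zero_mul] at hlim
  have := ge_of_tendsto' hlim hb
  exact h0 (norm_le_zero_iff.1 this)

/-- Harnack type lower bound for nonvanishing holomorphic functions -/
lemma lower_bound {g : ℂ → ℂ} {A : ℝ} (hg : DifferentiableOn ℂ g (ball 0 5))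
    (hnz : ∀ z, ‖z‖ ≤ 3 → g z ≠ 0) (hA : 0 < A) (hM : ∀ z, ‖z‖ ≤ 3 → ‖g z‖ ≤ ‖g 0‖ * Real.exp A)
    {z : ℂ} (hz : ‖z‖ ≤ 2) : ‖g 0‖ * Real.exp (-(4 * A)) ≤ ‖g z‖ := by
  have hsub : ball (0 : ℂ) 3 ⊆ ball 0 5 := ball_subset_ball (by norm_num)
  have hnz' : ∀ z ∈ ball (0 : ℂ) 3, g z ≠ 0 := fun z hz => hnz z (by
    have : ‖z‖ < 3 := by simpa using hz
    exact this.le)
  have hdg : DifferentiableOn ℂ (deriv g) (ball 0 3) :=
    (hg.mono hsub).deriv isOpen_ball
  have hq : DifferentiableOn ℂ (fun z => deriv g z / g z) (ball 0 3) :=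
    hdg.div (hg.mono hsub) hnz'
  obtain ⟨F, hF0, hF⟩ := hq.isExactOn_ball.with_val_at 0 0
  have hFd : DifferentiableOn ℂ F (ball 0 3) := fun z hz => (hF z hz).differentiableAt.differentiableWithinAt
  have key : ∀ z ∈ ball (0 : ℂ) 3, g z = g 0 * Complex.exp (F z) := by
    have hder : ∀ z ∈ ball (0 : ℂ) 3, HasDerivAt (fun z => g z * Complex.exp (-F z)) 0 z := by
      intro z hz
      have h1 : HasDerivAt g (deriv g z) z :=
        ((hg.mono hsub).differentiableAt (isOpen_ball.mem_nhds hz)).hasDerivAt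
      have h2 := (hF z hz).neg.cexp
      have h3 := h1.mul h2
      have hne := hnz' z hz
      have h4 : (0 : ℂ) = deriv g z * Complex.exp (-F z) +
          g z * (Complex.exp (-F z) * -(deriv g z / g z)) := by
        have : g z * (deriv g z / g z) = deriv g z := by field_simp
        linear_combination Complex.exp (-F z) * this
      rw [h4]
      exact h3
    intro z hz
    have hc := (convex_ball (0 : ℂ) 3).is_const_of_fderivWithin_eq_zero (𝕜 := ℂ)
      (f := fun z => g z * Complex.exp (-F z))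
      (fun z hz => (hder z hz).differentiableAt.differentiableWithinAt)
      (fun z hz => by
        rw [fderivWithin_of_isOpen isOpen_ball hz]
        have := (hder z hz).hasFDerivAt.fderiv
        rw [this]; simp) hz (mem_ball_self (by norm_num : (0 : ℝ) < 3))
    simp only [hF0, neg_zero, Complex.exp_zero, mul_one] at hc
    rw [← hc, mul_assoc, ← Complex.exp_add]
    simp
  have hg0 : 0 < ‖g 0‖ := norm_pos_iff.2 (hnz 0 (by simp))
  have hre : ∀ z ∈ ball (0 : ℂ) 3, ‖g z‖ = ‖g 0‖ * Real.exp (F z).re := by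
    intro z hz
    rw [key z hz, norm_mul, Complex.norm_exp]
  have hmaps : MapsTo F (ball 0 3) {z | z.re ≤ A} := by
    intro z hz
    have h1 := hM z (by
      have : ‖z‖ < 3 := by simpa using hz
      exact this.le)
    rw [hre z hz] at h1
    have h2 := le_of_mul_le_mul_left h1 hg0
    exact Real.exp_le_exp.1 h2
  have hz3 : z ∈ ball (0 : ℂ) 3 := by simp; linarith
  have hbc := Complex.borelCaratheodory_zero hA hFd hmaps (by norm_num) hz3 hF0
  have hle : ‖F z‖ ≤ 4 * A := by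
    refine hbc.trans ?_
    rw [div_le_iff₀ (by linarith)]
    nlinarith [norm_nonneg z]
  rw [hre z hz3]
  gcongr
  have := Complex.abs_re_le_norm (F z)
  have h5 := (abs_le.1 (this.trans hle)).1
  exact h5

/-- the constant `∫_{|w|<6} (1 + 1/|w|)` -/
noncomputable def KK : ℝ≥0∞ := ∫⁻ w in ball (0 : ℂ) 6, ENNReal.ofReal (1 + ‖w‖⁻¹)

lemma KK_ne_top : KK ≠ ⊤ := by
  have h1 : IntegrableOn (fun w : ℂ => ‖w‖⁻¹) (ball 0 6) volume := by
    have := (integrableOn_fun_norm_addHaar (volume : Measure ℂ) (f := fun y : ℝ => y⁻¹) (r := 6)).2 (by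
      simp only [Complex.finrank_real_complex]
      have : IntegrableOn (fun _ : ℝ => (1 : ℝ)) (Ioo 0 6) volume := by
        simp
      refine this.congr_fun ?_ measurableSet_Ioo
      intro y hy
      have : y ≠ 0 := hy.1.ne'
      simp [this])
    exact this
  have h2 : IntegrableOn (fun w : ℂ => 1 + ‖w‖⁻¹) (ball 0 6) volume :=
    (integrableOn_const measure_ball_lt_top.ne).add h1
  have h3 := h2.lintegral_lt_top
  exact h3.ne

lemma lint_shift {a : ℂ} (ha : ‖a‖ ≤ 3) :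
    ∫⁻ z in closedBall (0 : ℂ) 2, ENNReal.ofReal (1 + ‖z - a‖⁻¹) ≤ KK := by
  have h1 : ∫⁻ z in closedBall (0 : ℂ) 2, ENNReal.ofReal (1 + ‖z - a‖⁻¹) ≤
      ∫⁻ z in (fun z => z - a) ⁻¹' (ball (0 : ℂ) 6), ENNReal.ofReal (1 + ‖z - a‖⁻¹) := by
    apply lintegral_mono_set
    intro z hz
    have hz2 : ‖z‖ ≤ 2 := by simpa using hz
    simp only [mem_preimage, mem_ball, dist_zero_right]
    calc ‖z - a‖ ≤ ‖z‖ + ‖a‖ := norm_sub_le _ _
      _ < 6 := by linarith
  refine h1.trans (le_of_eq ?_)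
  unfold KK
  exact (measurePreserving_sub_right (volume : Measure ℂ) a).setLIntegral_comp_preimage_emb
    (measurableEmbedding_subRight a) (fun w => ENNReal.ofReal (1 + ‖w‖⁻¹)) (ball 0 6)

lemma rpow_le_one_add {x t : ℝ} (hx : 0 ≤ x) (ht0 : 0 ≤ t) (ht1 : t ≤ 1) :
    x ^ (-t) ≤ 1 + x⁻¹ := by
  rcases eq_or_lt_of_le hx with h | h
  · subst h
    rcases eq_or_lt_of_le ht0 with h' | h'
    · simp [← h']
    · rw [Real.zero_rpow (by linarith)]; simp
  · by_cases h1 : 1 ≤ x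
    · have := Real.rpow_le_one_of_one_le_of_nonpos h1 (by linarith : -t ≤ 0)
      have h2 : 0 ≤ x⁻¹ := by positivity
      linarith
    · push Not at h1
      have : x ^ (-t) ≤ x ^ (-1 : ℝ) :=
        Real.rpow_le_rpow_of_exponent_ge h h1.le (by linarith)
      rw [Real.rpow_neg_one] at this
      linarith

lemma prod_le {k : ℕ} (hk : k ≠ 0) (a : Fin k → ℂ) {s : ℝ} (hs : 0 ≤ s) (hsk : s * k ≤ 1) (z : ℂ) :
    ∏ i, ‖z - a i‖ ^ (-s) ≤ ∑ i, (1 / k : ℝ) * (1 + ‖z - a i‖⁻¹) := by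
  have hk' : (0 : ℝ) < k := by positivity
  have h1 := Real.geom_mean_le_arith_mean_weighted Finset.univ (fun _ : Fin k => (1 / k : ℝ))
    (fun i => ‖z - a i‖ ^ (-(s * k))) (fun i _ => by positivity)
    (by simp [hk'.ne']) (fun i _ => by positivity)
  have h2 : ∏ i, ‖z - a i‖ ^ (-s) = ∏ i, (‖z - a i‖ ^ (-(s * k))) ^ (1 / k : ℝ) := by
    apply Finset.prod_congr rfl
    intro i _
    rw [← Real.rpow_mul (norm_nonneg _)]
    congr 1
    field_simp
  rw [h2]
  refine h1.trans ?_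
  apply Finset.sum_le_sum
  intro i _
  gcongr
  exact rpow_le_one_add (norm_nonneg _) (by positivity) hsk

lemma lint_prod {k : ℕ} (a : Fin k → ℂ) (ha : ∀ i, ‖a i‖ ≤ 3) {s : ℝ} (hs : 0 ≤ s)
    (hsk : s * k ≤ 1) :
    ∫⁻ z in closedBall (0 : ℂ) 2, ENNReal.ofReal (∏ i, ‖z - a i‖ ^ (-s)) ≤ KK := by
  by_cases hk : k = 0
  · subst hk
    refine le_trans ?_ (lint_shift (a := 0) (by simp))
    apply lintegral_mono
    intro z
    apply ENNReal.ofReal_le_ofReal
    simp
  · have hk' : (0 : ℝ) < k := by positivity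
    calc ∫⁻ z in closedBall (0 : ℂ) 2, ENNReal.ofReal (∏ i, ‖z - a i‖ ^ (-s))
        ≤ ∫⁻ z in closedBall (0 : ℂ) 2, ∑ i, ENNReal.ofReal (1 / k) *
            ENNReal.ofReal (1 + ‖z - a i‖⁻¹) := by
          apply lintegral_mono
          intro z
          refine (ENNReal.ofReal_le_ofReal (prod_le hk a hs hsk z)).trans (le_of_eq ?_)
          rw [ENNReal.ofReal_sum_of_nonneg (fun i _ => by positivity)]
          apply Finset.sum_congr rfl
          intro i _
          rw [ENNReal.ofReal_mul (by positivity)]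
      _ = ∑ i, ENNReal.ofReal (1 / k) *
            ∫⁻ z in closedBall (0 : ℂ) 2, ENNReal.ofReal (1 + ‖z - a i‖⁻¹) := by
          rw [lintegral_finsetSum]
          · apply Finset.sum_congr rfl
            intro i _
            rw [lintegral_const_mul' _ _ ENNReal.ofReal_ne_top]
          · intro i _
            fun_prop
      _ ≤ ∑ _i : Fin k, ENNReal.ofReal (1 / k) * KK := by
          apply Finset.sum_le_sum
          intro i _
          gcongr
          exact lint_shift (ha i)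
      _ = KK := by
          rw [Finset.sum_const, Finset.card_univ, Fintype.card_fin, nsmul_eq_mul, ← mul_assoc]
          have : (k : ℝ≥0∞) * ENNReal.ofReal (1 / k) = 1 := by
            rw [show (k : ℝ≥0∞) = ENNReal.ofReal k by simp, ← ENNReal.ofReal_mul (by positivity)]
            rw [mul_one_div_cancel hk'.ne']; simp
          rw [this, one_mul]

/-- constants of the one variable estimate -/
noncomputable def ell : ℝ := Real.log (4 / 3)

lemma ell_pos : 0 < ell := Real.log_pos (by norm_num)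

/-- growth constant -/
noncomputable def c1 (R : ℝ) : ℝ := 2 * R + 2 * R / ell * Real.log 3

/-- ONE VARIABLE: uniform integrability of `|f|^{-s}`, `s N ≤ ell/(2R)`. -/
theorem one_var {R : ℝ} (hR : 0 < R) {N : ℝ} (hN : 0 < N) {f : ℂ → ℂ}
    (hd : DifferentiableOn ℂ f (ball 0 5)) (hM : ∀ z ∈ ball (0 : ℂ) 5, ‖f z‖ ≤ Real.exp (N * R))
    (h0 : Real.exp (-(N * R)) ≤ ‖f 0‖) {s : ℝ} (hs : 0 ≤ s) (hsN : s * N ≤ ell / (2 * R)) :
    ∫⁻ z in closedBall (0 : ℂ) 2, ENNReal.ofReal (‖f z‖ ^ (-s)) ≤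
      ENNReal.ofReal (Real.exp (5 * c1 R * (ell / (2 * R)))) * KK := by
  have hf0 : f 0 ≠ 0 := by
    intro h
    rw [h, norm_zero] at h0
    exact absurd h0 (not_le.2 (Real.exp_pos _))
  obtain ⟨k, a, g, ha, hg, hf, hnz, hk⟩ := exists_fac hd hM hf0
  have hell := ell_pos
  have hlog3 : 0 < Real.log 3 := Real.log_pos (by norm_num)
  -- bound for the number of zeros
  have hkN : (k : ℝ) * ell ≤ 2 * (N * R) := by
    have h1 : Real.exp (-(N * R)) ≤ (3 / 4) ^ k * Real.exp (N * R) := h0.trans hk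
    have h2 := Real.log_le_log (Real.exp_pos _) h1
    rw [Real.log_exp, Real.log_mul (by positivity) (Real.exp_pos _).ne', Real.log_exp,
      Real.log_pow] at h2
    have h3 : Real.log (3 / 4) = -ell := by
      rw [ell, ← Real.log_inv]; norm_num
    rw [h3] at h2
    linarith
  -- lower bound at zero
  have hprod0 : 0 < ∏ i, ‖a i‖ ∧ ∏ i, ‖a i‖ ≤ 3 ^ k := by
    constructor
    · have : f 0 = (∏ i, (0 - a i)) * g 0 := hf 0 (by simp)
      have h1 : (∏ i, (0 - a i)) ≠ 0 := by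
        intro h; rw [h, zero_mul] at this; exact hf0 this
      have h2 := norm_pos_iff.2 h1
      simpa [norm_prod] using h2
    · calc (∏ i, ‖a i‖) ≤ ∏ _i : Fin k, (3 : ℝ) :=
            Finset.prod_le_prod (fun i _ => norm_nonneg _) (fun i _ => ha i)
        _ = 3 ^ k := by simp
  have hg0 : Real.exp (-(N * R)) ≤ 3 ^ k * ‖g 0‖ := by
    have h1 : ‖f 0‖ = (∏ i, ‖a i‖) * ‖g 0‖ := by
      rw [hf 0 (by simp)]; simp [norm_prod]
    calc Real.exp (-(N * R)) ≤ ‖f 0‖ := h0
      _ = (∏ i, ‖a i‖) * ‖g 0‖ := h1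
      _ ≤ 3 ^ k * ‖g 0‖ := by gcongr; exact hprod0.2
  -- upper bound for g
  have hsub : closedBall (0 : ℂ) 4 ⊆ ball 0 5 := closedBall_subset_ball (by norm_num)
  have hgM : ∀ z, ‖z‖ ≤ 4 → ‖g z‖ ≤ Real.exp (N * R) := by
    have hdc : DiffContOnCl ℂ g (ball 0 4) :=
      (hg.mono (closure_ball_subset_closedBall.trans hsub)).diffContOnCl
    intro z hz
    refine Complex.norm_le_of_forall_mem_frontier_norm_le isBounded_ball hdc ?_
      (by rw [closure_ball (0 : ℂ) (by norm_num)]; simpa using hz)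
    intro w hw
    rw [frontier_ball (0 : ℂ) (by norm_num)] at hw
    have hw4 : ‖w‖ = 4 := by simpa using hw
    have hw5 : w ∈ ball (0 : ℂ) 5 := by simp [hw4]; norm_num
    have h1 : 1 ≤ ∏ i, ‖w - a i‖ := by
      have : ∏ _i : Fin k, (1 : ℝ) ≤ ∏ i, ‖w - a i‖ := by
        apply Finset.prod_le_prod (fun i _ => zero_le_one)
        intro i _
        have := norm_sub_norm_le w (a i)
        linarith [ha i]
      simpa using this
    calc ‖g w‖ = 1 * ‖g w‖ := (one_mul _).symm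
      _ ≤ (∏ i, ‖w - a i‖) * ‖g w‖ := by gcongr
      _ = ‖f w‖ := by rw [hf w hw5]; simp [norm_prod]
      _ ≤ Real.exp (N * R) := hM w hw5
  set A : ℝ := 2 * (N * R) + k * Real.log 3 with hA
  have hApos : 0 < A := by positivity
  have hAle : A ≤ c1 R * N := by
    have h1 : (k : ℝ) ≤ 2 * (N * R) / ell := by
      rw [le_div_iff₀ hell]; exact hkN
    have h2 : (k : ℝ) * Real.log 3 ≤ 2 * (N * R) / ell * Real.log 3 := by gcongr
    have h3 : c1 R * N = 2 * (N * R) + 2 * (N * R) / ell * Real.log 3 := by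
      unfold c1; ring
    rw [h3]; linarith
  have hexp3 : Real.exp (k * Real.log 3) = 3 ^ k := by
    rw [mul_comm, Real.exp_mul, Real.exp_log (by norm_num), Real.rpow_natCast]
  have hup : ∀ z, ‖z‖ ≤ 3 → ‖g z‖ ≤ ‖g 0‖ * Real.exp A := by
    intro z hz
    have h1 := hgM z (by linarith)
    have h2 : Real.exp (N * R) ≤ ‖g 0‖ * Real.exp A := by
      have e1 : Real.exp A = Real.exp (N * R) * (Real.exp (N * R) * 3 ^ k) := by
        rw [hA, ← hexp3, ← Real.exp_add, ← Real.exp_add]; ring_nf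
      have e2 : Real.exp (-(N * R)) * Real.exp (N * R) = 1 := by
        rw [← Real.exp_add]; simp
      calc Real.exp (N * R) = Real.exp (N * R) * (Real.exp (-(N * R)) * Real.exp (N * R)) := by
            rw [e2, mul_one]
        _ ≤ Real.exp (N * R) * ((3 ^ k * ‖g 0‖) * Real.exp (N * R)) := by gcongr
        _ = ‖g 0‖ * Real.exp A := by rw [e1]; ring
    exact h1.trans h2
  have hlow : ∀ z, ‖z‖ ≤ 2 → Real.exp (-(5 * A)) ≤ ‖g z‖ := by
    intro z hz
    have h1 := lower_bound hg hnz hApos hup hz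
    refine le_trans ?_ h1
    have e1 : Real.exp (-A) ≤ ‖g 0‖ := by
      have h3 : (0 : ℝ) < 3 ^ k := by positivity
      have h4 : Real.exp (-A) * 3 ^ k ≤ Real.exp (-(N * R)) := by
        rw [← hexp3, ← Real.exp_add]
        apply Real.exp_le_exp.2
        rw [hA]; nlinarith [mul_pos hN hR]
      have h5 : Real.exp (-A) * 3 ^ k ≤ ‖g 0‖ * 3 ^ k := by
        rw [mul_comm ‖g 0‖]; exact h4.trans hg0
      exact le_of_mul_le_mul_right h5 h3
    calc Real.exp (-(5 * A)) = Real.exp (-A) * Real.exp (-(4 * A)) := by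
          rw [← Real.exp_add]; ring_nf
      _ ≤ ‖g 0‖ * Real.exp (-(4 * A)) := by gcongr
  have hsk : s * k ≤ 1 := by
    have h1 : (k : ℝ) ≤ 2 * (N * R) / ell := by
      rw [le_div_iff₀ hell]; exact hkN
    calc s * k ≤ s * (2 * (N * R) / ell) := by gcongr
      _ = (s * N) * (2 * R / ell) := by ring
      _ ≤ (ell / (2 * R)) * (2 * R / ell) := by gcongr
      _ = 1 := by field_simp
  -- pointwise estimate
  have hpt : ∀ z ∈ closedBall (0 : ℂ) 2, ‖f z‖ ^ (-s) ≤
      Real.exp (5 * c1 R * (ell / (2 * R))) * ∏ i, ‖z - a i‖ ^ (-s) := by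
    intro z hz
    have hz2 : ‖z‖ ≤ 2 := by simpa using hz
    have hz5 : z ∈ ball (0 : ℂ) 5 := by simp; linarith
    rw [hf z hz5, norm_mul, norm_prod, Real.mul_rpow (Finset.prod_nonneg fun i _ => norm_nonneg _)
      (norm_nonneg _), ← Real.finsetProd_rpow _ _ (fun i _ => norm_nonneg _), mul_comm]
    gcongr
    · have h1 := hlow z hz2
      calc ‖g z‖ ^ (-s) ≤ (Real.exp (-(5 * A))) ^ (-s) :=
            Real.rpow_le_rpow_of_nonpos (Real.exp_pos _) h1 (by linarith)
        _ = Real.exp (5 * A * s) := by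
            rw [← Real.exp_mul]; ring_nf
        _ ≤ Real.exp (5 * c1 R * (ell / (2 * R))) := by
            apply Real.exp_le_exp.2
            calc 5 * A * s ≤ 5 * (c1 R * N) * s := by gcongr
              _ = 5 * c1 R * (s * N) := by ring
              _ ≤ 5 * c1 R * (ell / (2 * R)) := by
                  have : 0 < c1 R := by
                    unfold c1; positivity
                  gcongr
  calc ∫⁻ z in closedBall (0 : ℂ) 2, ENNReal.ofReal (‖f z‖ ^ (-s))
      ≤ ∫⁻ z in closedBall (0 : ℂ) 2, ENNReal.ofReal (Real.exp (5 * c1 R * (ell / (2 * R)))) *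
          ENNReal.ofReal (∏ i, ‖z - a i‖ ^ (-s)) := by
        apply setLIntegral_mono' measurableSet_closedBall
        intro z hz
        rw [← ENNReal.ofReal_mul (Real.exp_pos _).le]
        exact ENNReal.ofReal_le_ofReal (hpt z hz)
    _ = ENNReal.ofReal (Real.exp (5 * c1 R * (ell / (2 * R)))) *
          ∫⁻ z in closedBall (0 : ℂ) 2, ENNReal.ofReal (∏ i, ‖z - a i‖ ^ (-s)) :=
        lintegral_const_mul' _ _ ENNReal.ofReal_ne_top
    _ ≤ ENNReal.ofReal (Real.exp (5 * c1 R * (ell / (2 * R)))) * KK := by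
        gcongr
        exact lint_prod a ha hs hsk

end Crest.Agent.R273.UInt_818
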