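import Mathlib
import Crest.Agent.R273.UInt_818

open Complex Metric Set MeasureTheory Filter Topology
open scoped ComplexConjugate ENNReal

namespace Crest.Agent.R273.UIntB_818

open Crest.Agent.R273.UInt_818

section polar
variable {E : Type*} [NormedAddCommGroup E] [NormedSpace ℝ E] [FiniteDimensional ℝ E]
  [Nontrivial E] [MeasurableSpace E] [BorelSpace E] (μ : Measure E) [μ.IsAddHaarMeasure]

lemma lint_polar {F : E → ℝ≥0∞} (hF : Measurable F) :
    ∫⁻ x, F x ∂μ = ∫⁻ θ : sphere (0 : E) 1, (∫⁻ r in Ioi (0 : ℝ),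
      ENNReal.ofReal (r ^ (Module.finrank ℝ E - 1)) * F (r • (θ : E))) ∂μ.toSphere := by
  have hmp := μ.measurePreserving_homeomorphUnitSphereProd
  have h1 : ∫⁻ x, F x ∂μ = ∫⁻ x : ({0}ᶜ : Set E), F x ∂(μ.comap (↑)) := by
    rw [lintegral_subtype_comap (measurableSet_singleton _).compl F,
      restrict_compl_singleton]
  have h2 : ∫⁻ x : ({0}ᶜ : Set E), F x ∂(μ.comap (↑)) =
      ∫⁻ p, F ((p.2 : ℝ) • (p.1 : E))
        ∂(μ.toSphere.prod (Measure.volumeIoiPow (Module.finrank ℝ E - 1))) := by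
    have := hmp.lintegral_comp_emb (Homeomorph.measurableEmbedding _)
      (fun p : sphere (0 : E) 1 × Ioi (0 : ℝ) => F ((p.2 : ℝ) • (p.1 : E)))
    rw [← this]
    apply lintegral_congr
    intro x
    congr 1
    simp only [homeomorphUnitSphereProd_apply_fst_coe, homeomorphUnitSphereProd_apply_snd_coe]
    have hx : ‖(x : E)‖ ≠ 0 := norm_ne_zero_iff.2 x.2
    rw [smul_smul, mul_inv_cancel₀ hx, one_smul]
  rw [h1, h2]
  have hm : Measurable (fun p : sphere (0 : E) 1 × Ioi (0 : ℝ) => F ((p.2 : ℝ) • (p.1 : E))) := by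
    apply hF.comp
    fun_prop
  rw [lintegral_prod _ hm.aemeasurable]
  apply lintegral_congr
  intro θ
  have hm2 : Measurable (fun r : ℝ => F (r • (θ : E))) := by
    apply hF.comp; fun_prop
  unfold Measure.volumeIoiPow
  rw [lintegral_withDensity_eq_lintegral_mul _ (by fun_prop) (by
    exact hm2.comp measurable_subtype_coe)]
  exact lintegral_subtype_comap measurableSet_Ioi
    (fun r : ℝ => ENNReal.ofReal (r ^ (Module.finrank ℝ E - 1)) * F (r • (θ : E)))

end polar

section cplx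
variable {E : Type*} [NormedAddCommGroup E] [NormedSpace ℂ E] [FiniteDimensional ℂ E]
  [Nontrivial E] [MeasurableSpace E] [BorelSpace E] (μ : Measure E) [μ.IsAddHaarMeasure]

lemma rot_preserving {c : ℂ} (hc : ‖c‖ = 1) :
    haveI : FiniteDimensional ℝ E := FiniteDimensional.complexToReal E
    MeasurePreserving (fun x : E => c • x) μ μ := by
  have : FiniteDimensional ℝ E := FiniteDimensional.complexToReal E
  have hc0 : c ≠ 0 := by intro h; simp [h] at hc
  let L : E →ₗ[ℝ] E := ((LinearMap.lsmul ℂ E c).restrictScalars ℝ)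
  let L' : E ≃ₗ[ℝ] E := (LinearEquiv.smulOfNeZero ℂ E c hc0).restrictScalars ℝ
  have hdet : LinearMap.det L ≠ 0 := by
    have : L = (L' : E →ₗ[ℝ] E) := by ext x; rfl
    rw [this]
    exact (LinearEquiv.isUnit_det' L').ne_zero
  have hmap := Measure.map_linearMap_addHaar_eq_smul_addHaar (μ := μ) hdet
  have hL : (L : E → E) = fun x => c • x := by ext x; rfl
  have hcont : Continuous (fun x : E => c • x) := by fun_prop
  have hball : (fun x : E => c • x) ⁻¹' ball 0 1 = ball 0 1 := by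
    ext x; simp [norm_smul, hc]
  have hev : Measure.map (fun x : E => c • x) μ (ball 0 1) = μ (ball 0 1) := by
    rw [Measure.map_apply hcont.measurable measurableSet_ball, hball]
  rw [hL] at hmap
  have h1 : ENNReal.ofReal |(LinearMap.det L)⁻¹| = 1 := by
    rw [hmap] at hev
    simp only [Measure.smul_apply, smul_eq_mul] at hev
    have hpos : μ (ball (0 : E) 1) ≠ 0 := (measure_ball_pos μ _ one_pos).ne'
    have hfin : μ (ball (0 : E) 1) ≠ ⊤ := measure_ball_lt_top.ne
    have := (ENNReal.mul_left_inj hpos hfin).1 (hev.trans (one_mul _).symm)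
    exact this
  refine ⟨hcont.measurable, ?_⟩
  rw [hmap, h1, one_smul]

lemma lint_le_lines {F : E → ℝ≥0∞} (hF : Measurable F) (hsupp : ∀ x, 2 ≤ ‖x‖ → F x = 0)
    {C : ℝ≥0∞} (hC : ∀ θ : E, ‖θ‖ = 1 → ∫⁻ w : ℂ, F (w • θ) ≤ C) :
    ENNReal.ofReal (2 * Real.pi) * ∫⁻ x, F x ∂μ ≤
      μ.toSphere univ * (ENNReal.ofReal (2 ^ (Module.finrank ℝ E - 2)) * C) := by
  have : FiniteDimensional ℝ E := FiniteDimensional.complexToReal E
  set d := Module.finrank ℝ E with hd
  have hd2 : 2 ≤ d := by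
    have h1 : Module.finrank ℝ E = 2 * Module.finrank ℂ E := finrank_real_of_complex E
    have h2 : 0 < Module.finrank ℂ E := Module.finrank_pos
    omega
  set cc : ℝ → ℂ := fun t => (Real.cos t : ℂ) + (Real.sin t : ℂ) * Complex.I with hcc
  have hccn : ∀ t, ‖cc t‖ = 1 := by
    intro t
    have : cc t = Complex.exp (t * Complex.I) := by
      rw [hcc]; simp [Complex.exp_mul_I]
    rw [this]; exact Complex.norm_exp_ofReal_mul_I t
  have hccm : Continuous cc := by
    rw [hcc]; fun_prop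
  have h1 : ENNReal.ofReal (2 * Real.pi) * ∫⁻ x, F x ∂μ =
      ∫⁻ t in Ioo (-Real.pi) Real.pi, (∫⁻ x, F (cc t • x) ∂μ) := by
    have : ∀ t, ∫⁻ x, F (cc t • x) ∂μ = ∫⁻ x, F x ∂μ := fun t =>
      (rot_preserving μ (hccn t)).lintegral_comp hF
    simp_rw [this]
    rw [setLIntegral_const, Real.volume_Ioo, mul_comm]
    congr 2; ring
  have h2 : ∀ t, ∫⁻ x, F (cc t • x) ∂μ = ∫⁻ θ : sphere (0 : E) 1, (∫⁻ r in Ioi (0 : ℝ),
      ENNReal.ofReal (r ^ (d - 1)) * F (cc t • (r • (θ : E)))) ∂μ.toSphere := by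
    intro t
    exact lint_polar μ (F := fun x => F (cc t • x)) (hF.comp (by fun_prop))
  rw [h1]
  simp_rw [h2]
  have hmeas3 : Measurable (fun q : (ℝ × sphere (0 : E) 1) × ℝ =>
      ENNReal.ofReal (q.2 ^ (d - 1)) * F (cc q.1.1 • (q.2 • (q.1.2 : E)))) := by
    apply Measurable.mul
    · fun_prop
    · apply hF.comp
      have : Continuous (fun q : (ℝ × sphere (0 : E) 1) × ℝ => cc q.1.1 • (q.2 • (q.1.2 : E))) := by
        have := hccm.comp (continuous_fst.comp (continuous_fst (X := ℝ × sphere (0 : E) 1) (Y := ℝ)))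
        fun_prop
      exact this.measurable
  rw [lintegral_lintegral_swap (by
    have := hmeas3.lintegral_prod_right' (ν := volume.restrict (Ioi (0 : ℝ)))
    exact this.aemeasurable)]
  have hin : ∀ θ : sphere (0 : E) 1, ∫⁻ t in Ioo (-Real.pi) Real.pi, (∫⁻ r in Ioi (0 : ℝ),
      ENNReal.ofReal (r ^ (d - 1)) * F (cc t • (r • (θ : E)))) ≤
      ENNReal.ofReal (2 ^ (d - 2)) * C := by
    intro θ
    have hθ : ‖(θ : E)‖ = 1 := by
      have := θ.2; simpa using this
    have hm2 : Measurable (fun p : ℝ × ℝ => ENNReal.ofReal (2 ^ (d - 2)) *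
        (ENNReal.ofReal p.1 * F (Complex.polarCoord.symm p • (θ : E)))) := by
      apply Measurable.const_mul
      apply Measurable.mul (by fun_prop)
      apply hF.comp
      have : Continuous (fun p : ℝ × ℝ => Complex.polarCoord.symm p • (θ : E)) := by
        simp only [Complex.polarCoord_symm_apply]
        fun_prop
      exact this.measurable
    calc ∫⁻ t in Ioo (-Real.pi) Real.pi, (∫⁻ r in Ioi (0 : ℝ),
          ENNReal.ofReal (r ^ (d - 1)) * F (cc t • (r • (θ : E))))
        ≤ ∫⁻ t in Ioo (-Real.pi) Real.pi, (∫⁻ r in Ioi (0 : ℝ),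
          ENNReal.ofReal (2 ^ (d - 2)) *
            (ENNReal.ofReal r * F (Complex.polarCoord.symm (r, t) • (θ : E)))) := by
          apply lintegral_mono
          intro t
          apply setLIntegral_mono' measurableSet_Ioi
          intro r hr
          have hr0 : 0 < r := hr
          have e1 : cc t • (r • (θ : E)) = Complex.polarCoord.symm (r, t) • (θ : E) := by
            rw [Complex.polarCoord_symm_apply, ← Complex.coe_smul, smul_smul, mul_comm]
          rw [e1]
          by_cases h2r : 2 ≤ r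
          · have : F (Complex.polarCoord.symm (r, t) • (θ : E)) = 0 := by
              apply hsupp
              rw [norm_smul, hθ, Complex.norm_polarCoord_symm, mul_one, abs_of_pos hr0]
              exact h2r
            rw [this]; simp
          · push Not at h2r
            rw [← mul_assoc, ← ENNReal.ofReal_mul (by positivity)]
            gcongr
            calc r ^ (d - 1) = r ^ (d - 2) * r := by
                  rw [← pow_succ]; congr 1; omega
              _ ≤ 2 ^ (d - 2) * r := by gcongr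
      _ = ∫⁻ p in Ioi (0 : ℝ) ×ˢ Ioo (-Real.pi) Real.pi, ENNReal.ofReal (2 ^ (d - 2)) *
            (ENNReal.ofReal p.1 * F (Complex.polarCoord.symm p • (θ : E))) := by
          rw [← lintegral_lintegral_swap (by
            exact hm2.aemeasurable)]
          rw [Measure.volume_eq_prod, ← Measure.prod_restrict, lintegral_prod _ hm2.aemeasurable]
      _ = ENNReal.ofReal (2 ^ (d - 2)) * ∫⁻ w : ℂ, F (w • (θ : E)) := by
          rw [lintegral_const_mul' _ _ ENNReal.ofReal_ne_top]
          congr 1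
          exact Complex.lintegral_comp_polarCoord_symm (fun w => F (w • (θ : E)))
      _ ≤ ENNReal.ofReal (2 ^ (d - 2)) * C := by
          gcongr
          exact hC _ hθ
  calc ∫⁻ θ : sphere (0 : E) 1, (∫⁻ t in Ioo (-Real.pi) Real.pi, (∫⁻ r in Ioi (0 : ℝ),
      ENNReal.ofReal (r ^ (d - 1)) * F (cc t • (r • (θ : E))))) ∂μ.toSphere
      ≤ ∫⁻ _θ : sphere (0 : E) 1, ENNReal.ofReal (2 ^ (d - 2)) * C ∂μ.toSphere :=
        lintegral_mono hin
    _ = μ.toSphere univ * (ENNReal.ofReal (2 ^ (d - 2)) * C) := by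
        rw [lintegral_const, mul_comm]

/-- measurability of the extension by zero of a function continuous on an open set -/
lemma meas_ind {G : Type*} [TopologicalSpace G] [MeasurableSpace G] [BorelSpace G] {f : G → ℂ}
    {s : Set G} (hs : MeasurableSet s) (hf : ContinuousOn f s) : Measurable (s.indicator f) := by
  classical
  have h : s.indicator f = s.piecewise f 0 := (Set.piecewise_eq_indicator).symm
  rw [h]
  exact hf.measurable_piecewise continuousOn_const hs

/-- UNIFORM INTEGRABILITY, unit scale, centre a good point. -/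
theorem unif_int {R : ℝ} (hR : 0 < R) {N : ℝ} (hN : 0 < N) {f : E → ℂ} {x0 : E}
    (hd : DifferentiableOn ℂ f (ball x0 5)) (hM : ∀ x ∈ ball x0 5, ‖f x‖ ≤ Real.exp (N * R))
    (h0 : Real.exp (-(N * R)) ≤ ‖f x0‖) {s : ℝ} (hs : 0 ≤ s) (hsN : s * N ≤ ell / (2 * R)) :
    ENNReal.ofReal (2 * Real.pi) * ∫⁻ x in ball x0 2, ENNReal.ofReal (‖f x‖ ^ (-s)) ∂μ ≤
      μ.toSphere univ * (ENNReal.ofReal (2 ^ (Module.finrank ℝ E - 2)) *
        (ENNReal.ofReal (Real.exp (5 * c1 R * (ell / (2 * R)))) * KK)) := by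
  set f' : E → ℂ := (ball x0 5).indicator f with hf'
  have hf'm : Measurable f' := meas_ind measurableSet_ball hd.continuousOn
  set F : E → ℝ≥0∞ := (ball (0 : E) 2).indicator
    (fun x => ENNReal.ofReal (‖f' (x0 + x)‖ ^ (-s))) with hF
  have hFm : Measurable F := by
    apply Measurable.indicator _ measurableSet_ball
    have : Measurable (fun x => f' (x0 + x)) := hf'm.comp (by fun_prop)
    exact (this.norm.pow_const _).ennreal_ofReal
  have hsupp : ∀ x, 2 ≤ ‖x‖ → F x = 0 := by
    intro x hx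
    apply Set.indicator_of_notMem
    simp [hx]
  have hlines : ∀ θ : E, ‖θ‖ = 1 → ∫⁻ w : ℂ, F (w • θ) ≤
      ENNReal.ofReal (Real.exp (5 * c1 R * (ell / (2 * R)))) * KK := by
    intro θ hθ
    set h : ℂ → ℂ := fun w => f (x0 + w • θ) with hh
    have hin : ∀ w ∈ ball (0 : ℂ) 5, x0 + w • θ ∈ ball x0 5 := by
      intro w hw
      simp only [mem_ball, dist_zero_right] at hw
      simp [norm_smul, hθ, hw]
    have hhd : DifferentiableOn ℂ h (ball 0 5) := by
      apply hd.comp (t := ball x0 5) (by fun_prop)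
      exact hin
    have h1 := one_var hR hN hhd (fun w hw => hM _ (hin w hw)) (by simpa [hh] using h0) hs hsN
    refine le_trans ?_ h1
    rw [← lintegral_indicator measurableSet_closedBall]
    apply lintegral_mono
    intro w
    by_cases hw : ‖w‖ < 2
    · have hw1 : w • θ ∈ ball (0 : E) 2 := by simp [norm_smul, hθ, hw]
      have hw2 : w ∈ closedBall (0 : ℂ) 2 := by simp; exact hw.le
      have hw3 : x0 + w • θ ∈ ball x0 5 := hin w (by simp; linarith)
      rw [hF]
      simp only [Set.indicator_of_mem hw1, Set.indicator_of_mem hw2]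
      rw [hf', Set.indicator_of_mem hw3]
    · have : F (w • θ) = 0 := hsupp _ (by rw [norm_smul, hθ, mul_one]; exact not_lt.1 hw)
      change F (w • θ) ≤ _
      rw [this]; exact bot_le
  have hkey := lint_le_lines μ hFm hsupp hlines
  have heq : ∫⁻ x, F x ∂μ = ∫⁻ x in ball x0 2, ENNReal.ofReal (‖f x‖ ^ (-s)) ∂μ := by
    rw [← lintegral_indicator measurableSet_ball]
    have h1 : ∀ x, F x = ((ball x0 2).indicator fun x => ENNReal.ofReal (‖f x‖ ^ (-s))) (x0 + x) := by
      intro x
      by_cases hx : ‖x‖ < 2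
      · have hx1 : x ∈ ball (0 : E) 2 := by simpa using hx
        have hx2 : x0 + x ∈ ball x0 2 := by simpa using hx
        have hx3 : x0 + x ∈ ball x0 5 := by simp; linarith
        rw [hF, Set.indicator_of_mem hx1, Set.indicator_of_mem hx2, hf', Set.indicator_of_mem hx3]
      · have hx1 : x ∉ ball (0 : E) 2 := by simpa using hx
        have hx2 : x0 + x ∉ ball x0 2 := by simpa using hx
        rw [hF, Set.indicator_of_notMem hx1, Set.indicator_of_notMem hx2]
    simp_rw [h1]
    exact lintegral_add_left_eq_self _ x0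
  rw [heq] at hkey
  exact hkey

lemma lint_scale {r : ℝ} (hr : 0 < r) (x0 : E) {F : E → ℝ≥0∞} (hF : Measurable F) :
    haveI : FiniteDimensional ℝ E := FiniteDimensional.complexToReal E
    ∫⁻ x, F x ∂μ = ENNReal.ofReal (r ^ Module.finrank ℝ E) * ∫⁻ y, F (x0 + r • y) ∂μ := by
  have : FiniteDimensional ℝ E := FiniteDimensional.complexToReal E
  have h1 : ∫⁻ x, F x ∂μ = ∫⁻ x, F (x0 + x) ∂μ := (lintegral_add_left_eq_self F x0).symm
  have h2 := Measure.map_addHaar_smul μ hr.ne'
  have h3 : ∫⁻ y, F (x0 + r • y) ∂μ = ∫⁻ x, F (x0 + x) ∂(Measure.map (r • ·) μ) := by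
    rw [lintegral_map (by exact hF.comp (by fun_prop)) (by fun_prop)]
  rw [h1, h3, h2, lintegral_smul_measure, smul_eq_mul, ← mul_assoc, ← ENNReal.ofReal_mul (by positivity),
    abs_of_pos (by positivity), mul_inv_cancel₀ (by positivity)]
  simp

/-- the constant for unit scale -/
noncomputable def C1 (R : ℝ) : ℝ≥0∞ :=
  (ENNReal.ofReal (2 * Real.pi))⁻¹ * (μ.toSphere univ * (ENNReal.ofReal (2 ^ (Module.finrank ℝ E - 2)) *
        (ENNReal.ofReal (Real.exp (5 * c1 R * (ell / (2 * R)))) * KK)))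

lemma C1_ne_top (R : ℝ) : C1 μ R ≠ ⊤ := by
  have : FiniteDimensional ℝ E := FiniteDimensional.complexToReal E
  unfold C1
  apply ENNReal.mul_ne_top
  · apply ENNReal.inv_ne_top.2
    simp [Real.pi_pos]
  · apply ENNReal.mul_ne_top (measure_ne_top _ _)
    exact ENNReal.mul_ne_top ENNReal.ofReal_ne_top
      (ENNReal.mul_ne_top ENNReal.ofReal_ne_top KK_ne_top)

theorem unif_int' {R : ℝ} (hR : 0 < R) {N : ℝ} (hN : 0 < N) {f : E → ℂ} {x0 : E}
    (hd : DifferentiableOn ℂ f (ball x0 5)) (hM : ∀ x ∈ ball x0 5, ‖f x‖ ≤ Real.exp (N * R))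
    (h0 : Real.exp (-(N * R)) ≤ ‖f x0‖) {s : ℝ} (hs : 0 ≤ s) (hsN : s * N ≤ ell / (2 * R)) :
    ∫⁻ x in ball x0 2, ENNReal.ofReal (‖f x‖ ^ (-s)) ∂μ ≤ C1 μ R := by
  have h := unif_int μ hR hN hd hM h0 hs hsN
  unfold C1
  have hne : ENNReal.ofReal (2 * Real.pi) ≠ 0 := by simp [Real.pi_pos]
  rw [← ENNReal.div_eq_inv_mul, ENNReal.le_div_iff_mul_le (Or.inl hne) (Or.inl ENNReal.ofReal_ne_top),
    mul_comm]
  exact h

/-- UNIFORM INTEGRABILITY, scale `r`, centre a good point. -/
theorem unif_int_ball {R : ℝ} (hR : 0 < R) {r : ℝ} (hr : 0 < r) {N : ℝ} (hN : 0 < N) {f : E → ℂ}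
    {x0 : E} (hd : DifferentiableOn ℂ f (ball x0 (5 * r)))
    (hM : ∀ x ∈ ball x0 (5 * r), ‖f x‖ ≤ Real.exp (N * R))
    (h0 : Real.exp (-(N * R)) ≤ ‖f x0‖) {s : ℝ} (hs : 0 ≤ s) (hsN : s * N ≤ ell / (2 * R)) :
    ∫⁻ x in ball x0 (2 * r), ENNReal.ofReal (‖f x‖ ^ (-s)) ∂μ ≤
      ENNReal.ofReal (r ^ Module.finrank ℝ E) * C1 μ R := by
  have hfd : FiniteDimensional ℝ E := FiniteDimensional.complexToReal E
  set g : E → ℂ := fun y => f (x0 + r • y) with hg
  have hin : ∀ y ∈ ball (0 : E) 5, x0 + r • y ∈ ball x0 (5 * r) := by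
    intro y hy
    simp only [mem_ball, dist_zero_right] at hy
    simp only [mem_ball, dist_self_add_left, norm_smul, Real.norm_eq_abs, abs_of_pos hr]
    nlinarith
  have hgd : DifferentiableOn ℂ g (ball 0 5) := by
    apply hd.comp (t := ball x0 (5 * r)) _ hin
    fun_prop
  have h1 := unif_int' μ hR hN hgd (fun y hy => hM _ (hin y hy)) (by simpa [hg] using h0) hs hsN
  set f' : E → ℂ := (ball x0 (5 * r)).indicator f with hf'
  have hf'm : Measurable f' := meas_ind measurableSet_ball hd.continuousOn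
  set F : E → ℝ≥0∞ := (ball x0 (2 * r)).indicator
    (fun x => ENNReal.ofReal (‖f' x‖ ^ (-s))) with hF
  have hFm : Measurable F :=
    Measurable.indicator (hf'm.norm.pow_const _).ennreal_ofReal measurableSet_ball
  have heq : ∫⁻ x, F x ∂μ = ∫⁻ x in ball x0 (2 * r), ENNReal.ofReal (‖f x‖ ^ (-s)) ∂μ := by
    rw [hF, lintegral_indicator measurableSet_ball]
    apply setLIntegral_congr_fun measurableSet_ball
    intro x hx
    have : x ∈ ball x0 (5 * r) := ball_subset_ball (by nlinarith) hx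
    simp only [hf', Set.indicator_of_mem this]
  rw [← heq, lint_scale μ hr x0 hFm]
  gcongr
  refine le_trans (le_of_eq ?_) h1
  rw [← lintegral_indicator measurableSet_ball]
  apply lintegral_congr
  intro y
  by_cases hy : ‖y‖ < 2
  · have hy1 : y ∈ ball (0 : E) 2 := by simpa using hy
    have hy2 : x0 + r • y ∈ ball x0 (2 * r) := by
      simp only [mem_ball, dist_self_add_left, norm_smul, Real.norm_eq_abs, abs_of_pos hr]
      nlinarith
    have hy3 : x0 + r • y ∈ ball x0 (5 * r) := ball_subset_ball (by nlinarith) hy2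
    rw [hF, Set.indicator_of_mem hy1, Set.indicator_of_mem hy2, hf', Set.indicator_of_mem hy3]
  · have hy1 : y ∉ ball (0 : E) 2 := by simpa using hy
    have hy2 : x0 + r • y ∉ ball x0 (2 * r) := by
      simp only [mem_ball, dist_self_add_left, norm_smul, Real.norm_eq_abs, abs_of_pos hr]
      nlinarith [not_lt.1 hy]
    rw [hF, Set.indicator_of_notMem hy1, Set.indicator_of_notMem hy2]

/-- UNIFORM INTEGRABILITY with an arbitrary good point of the ball. -/
theorem unif_int_near {R : ℝ} (hR : 0 < R) {r : ℝ} (hr : 0 < r) {N : ℝ} (hN : 0 < N) {f : E → ℂ}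
    {x0 : E} (hd : DifferentiableOn ℂ f (ball x0 (6 * r)))
    (hM : ∀ x ∈ ball x0 (6 * r), ‖f x‖ ≤ Real.exp (N * R))
    (h0 : ∃ x ∈ ball x0 r, Real.exp (-(N * R)) ≤ ‖f x‖) {s : ℝ} (hs : 0 ≤ s)
    (hsN : s * N ≤ ell / (2 * R)) :
    ∫⁻ x in ball x0 r, ENNReal.ofReal (‖f x‖ ^ (-s)) ∂μ ≤
      ENNReal.ofReal (r ^ Module.finrank ℝ E) * C1 μ R := by
  obtain ⟨x1, hx1, h1⟩ := h0
  have hx1' : dist x1 x0 < r := hx1
  have hsub : ball x1 (5 * r) ⊆ ball x0 (6 * r) := ball_subset_ball' (by linarith)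
  have hsub2 : ball x0 r ⊆ ball x1 (2 * r) := ball_subset_ball' (by rw [dist_comm]; linarith)
  exact (lintegral_mono_set hsub2).trans
    (unif_int_ball μ hR hr hN (hd.mono hsub) (fun x hx => hM x (hsub hx)) h1 hs hsN)

end cplx

end Crest.Agent.R273.UIntB_818
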