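import Mathlib

/-!
# Unitary representations of groups of polynomial growth are virtually commutative

Row 273, part C-PI (helper836's plan, post 460, items (8), (9)), formalism independent.

* `virtually_comm_of_PG` : if `G` is finitely generated, of polynomial growth, and
  `A : G →* (V →L[ℂ] V)` is isometric on a finite-dimensional complex inner product space, then
  `A` is commutative on a subgroup of finite index.
* `exists_hom` : if moreover `b : G → V` is an unbounded `A`-cocycle then some finite index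
  subgroup has a nonzero additive homomorphism to `ℂ`.
-/

namespace Crest.Agent.R273.UPoly_79

open scoped Pointwise

universe u v

/-! ## polynomial growth -/

/-- All finite subsets of `G` grow at most polynomially of degree `d`. -/
def PG (d : ℕ) (G : Type u) [Group G] : Prop :=
  ∀ T : Set G, T.Finite → ∃ C : ℕ, ∀ L : ℕ, (T ^ L).ncard ≤ C * (L + 1) ^ d

theorem PG.of_injective {d : ℕ} {G H : Type u} [Group G] [Group H] (hG : PG d G)
    (f : H →* G) (hf : Function.Injective f) : PG d H := by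
  intro T hT
  obtain ⟨C, hC⟩ := hG (f '' T) (hT.image _)
  refine ⟨C, fun L => ?_⟩
  have := hC L
  rw [← Set.image_pow, Set.ncard_image_of_injective _ hf] at this
  exact this

theorem PG.subgroup {d : ℕ} {G : Type u} [Group G] (hG : PG d G) (H : Subgroup G) : PG d H :=
  hG.of_injective H.subtype H.subtype_injective

theorem pow_subset_pow {G : Type u} [Group G] {T : Set G} (h1 : (1 : G) ∈ T) {a b : ℕ}
    (hab : a ≤ b) : T ^ a ⊆ T ^ b := Set.pow_subset_pow_right h1 hab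

theorem fin_pow {G : Type u} [Group G] {T : Set G} (hT : T.Finite) (n : ℕ) : (T ^ n).Finite := by
  induction n with
  | zero => simp
  | succ n ih => rw [pow_succ]; exact ih.mul hT

/-- Growth bound for one finite symmetric generating set gives `PG`. -/
theorem PG.of_gen {d : ℕ} {G : Type u} [Group G] {S : Set G} (hS : S.Finite) (h1 : (1 : G) ∈ S)
    (hinv : S⁻¹ = S) (hgen : Subgroup.closure S = ⊤) {C : ℕ}
    (hC : ∀ L : ℕ, (S ^ L).ncard ≤ C * (L + 1) ^ d) : PG d G := by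
  intro T hT
  have key : ∀ x : G, ∃ k : ℕ, x ∈ S ^ k := by
    intro x
    have hx : x ∈ Subgroup.closure S := by rw [hgen]; trivial
    induction hx using Subgroup.closure_induction with
    | mem x hx => exact ⟨1, by simpa using hx⟩
    | one => exact ⟨0, by simp⟩
    | mul x y _ _ hx hy =>
      obtain ⟨a, ha⟩ := hx
      obtain ⟨b, hb⟩ := hy
      exact ⟨a + b, by rw [pow_add]; exact Set.mul_mem_mul ha hb⟩
    | inv x _ hx =>
      obtain ⟨a, ha⟩ := hx
      refine ⟨a, ?_⟩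
      have : x⁻¹ ∈ (S ^ a)⁻¹ := by simpa using ha
      rwa [← inv_pow, hinv] at this
  choose k hk using key
  obtain ⟨K, hK⟩ : ∃ K : ℕ, ∀ x ∈ T, k x ≤ K := by
    refine ⟨∑ x ∈ hT.toFinset, k x, fun x hx => ?_⟩
    exact Finset.single_le_sum (f := k) (fun _ _ => Nat.zero_le _) (by simpa using hx)
  have hTS : T ⊆ S ^ (K + 1) := fun x hx => pow_subset_pow h1 ((hK x hx).trans (Nat.le_succ _)) (hk x)
  refine ⟨C * (K + 1) ^ d, fun L => ?_⟩
  have h2 : T ^ L ⊆ S ^ ((K + 1) * L) := by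
    rw [pow_mul]; exact Set.pow_subset_pow_left hTS
  calc (T ^ L).ncard ≤ (S ^ ((K + 1) * L)).ncard := Set.ncard_le_ncard h2 (fin_pow hS _)
    _ ≤ C * ((K + 1) * L + 1) ^ d := hC _
    _ ≤ C * ((K + 1) * (L + 1)) ^ d := by
        apply Nat.mul_le_mul_left
        apply Nat.pow_le_pow_left
        nlinarith
    _ = C * (K + 1) ^ d * (L + 1) ^ d := by rw [mul_pow, mul_assoc]

/-! ## finitely generated subgroups and generating sets -/

theorem exists_finset_closure {G : Type u} [Group G] {S : Set G}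
    (hfg : (Subgroup.closure S).FG) : ∃ T : Set G, T.Finite ∧ T ⊆ S ∧
      Subgroup.closure T = Subgroup.closure S := by
  obtain ⟨F, hF⟩ := hfg
  have key : ∀ x ∈ Subgroup.closure S, ∃ T : Set G, T.Finite ∧ T ⊆ S ∧ x ∈ Subgroup.closure T := by
    intro x hx
    induction hx using Subgroup.closure_induction with
    | mem x hx => exact ⟨{x}, Set.finite_singleton x, by simpa using hx,
        Subgroup.subset_closure (by simp)⟩
    | one => exact ⟨∅, Set.finite_empty, by simp, Subgroup.one_mem _⟩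
    | mul x y _ _ hx hy =>
      obtain ⟨T1, h1, h2, h3⟩ := hx
      obtain ⟨T2, h4, h5, h6⟩ := hy
      exact ⟨T1 ∪ T2, h1.union h4, Set.union_subset h2 h5,
        Subgroup.mul_mem _ (Subgroup.closure_mono Set.subset_union_left h3)
          (Subgroup.closure_mono Set.subset_union_right h6)⟩
    | inv x _ hx =>
      obtain ⟨T1, h1, h2, h3⟩ := hx
      exact ⟨T1, h1, h2, Subgroup.inv_mem _ h3⟩
  have hFS : ∀ x ∈ F, x ∈ Subgroup.closure S := by
    intro x hx
    rw [← hF]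
    exact Subgroup.subset_closure hx
  choose! T hT using fun x (hx : x ∈ F) => key x (hFS x hx)
  refine ⟨⋃ x ∈ F, T x, F.finite_toSet.biUnion fun x hx => (hT x hx).1,
    Set.iUnion₂_subset fun x hx => (hT x hx).2.1, ?_⟩
  apply le_antisymm
  · exact Subgroup.closure_mono (Set.iUnion₂_subset fun x hx => (hT x hx).2.1)
  · rw [← hF, Subgroup.closure_le]
    intro x hx
    exact Subgroup.closure_mono (Set.subset_biUnion_of_mem (u := T) hx) (hT x hx).2.2

/-! ## the displacement `‖A g - 1‖` -/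

section Disp

variable {G : Type u} [Group G] {E : Type v} [NormedRing E]
  (A : G →* E) (hA : ∀ g, ‖A g‖ ≤ 1)

theorem A_mul_inv (g : G) : A g * A g⁻¹ = 1 := by rw [← map_mul, mul_inv_cancel, map_one]

theorem A_inv_mul (g : G) : A g⁻¹ * A g = 1 := by rw [← map_mul, inv_mul_cancel, map_one]

include hA

theorem disp_mul (g h : G) : ‖A (g * h) - 1‖ ≤ ‖A g - 1‖ + ‖A h - 1‖ := by
  have : A (g * h) - 1 = A g * (A h - 1) + (A g - 1) := by
    rw [map_mul]; noncomm_ring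
  rw [this]
  calc ‖A g * (A h - 1) + (A g - 1)‖ ≤ ‖A g * (A h - 1)‖ + ‖A g - 1‖ := norm_add_le _ _
    _ ≤ ‖A g‖ * ‖A h - 1‖ + ‖A g - 1‖ := by gcongr; exact norm_mul_le _ _
    _ ≤ 1 * ‖A h - 1‖ + ‖A g - 1‖ := by gcongr; exact hA g
    _ = _ := by ring

theorem disp_inv_le (g : G) : ‖A g⁻¹ - 1‖ ≤ ‖A g - 1‖ := by
  have : A g⁻¹ - 1 = A g⁻¹ * (1 - A g) := by
    rw [mul_sub, A_inv_mul A g, mul_one]
  rw [this]
  calc ‖A g⁻¹ * (1 - A g)‖ ≤ ‖A g⁻¹‖ * ‖1 - A g‖ := norm_mul_le _ _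
    _ ≤ 1 * ‖1 - A g‖ := by gcongr; exact hA _
    _ = _ := by rw [one_mul, norm_sub_rev]

theorem disp_comm (g h : G) : ‖A (g * h * g⁻¹ * h⁻¹) - 1‖ ≤ 2 * ‖A g - 1‖ * ‖A h - 1‖ := by
  have : A (g * h * g⁻¹ * h⁻¹) - 1
      = ((A g - 1) * (A h - 1) - (A h - 1) * (A g - 1)) * A (g⁻¹ * h⁻¹) := by
    have h1 : (A g - 1) * (A h - 1) - (A h - 1) * (A g - 1) = A (g * h) - A (h * g) := by
      rw [map_mul, map_mul]; noncomm_ring
    rw [h1, sub_mul, ← map_mul, ← map_mul]
    congr 1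
    · congr 1; group
    · have : h * g * (g⁻¹ * h⁻¹) = 1 := by group
      rw [this, map_one]
  rw [this]
  calc _ ≤ ‖(A g - 1) * (A h - 1) - (A h - 1) * (A g - 1)‖ * ‖A (g⁻¹ * h⁻¹)‖ := norm_mul_le _ _
    _ ≤ ‖(A g - 1) * (A h - 1) - (A h - 1) * (A g - 1)‖ * 1 := by gcongr; exact hA _
    _ ≤ (‖(A g - 1) * (A h - 1)‖ + ‖(A h - 1) * (A g - 1)‖) * 1 := by
        gcongr; exact norm_sub_le _ _
    _ ≤ (‖A g - 1‖ * ‖A h - 1‖ + ‖A h - 1‖ * ‖A g - 1‖) * 1 := by
        gcongr <;> exact norm_mul_le _ _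
    _ = _ := by ring

theorem disp_pow_le (g : G) (n : ℕ) : ‖A (g ^ n) - 1‖ ≤ n * ‖A g - 1‖ := by
  induction n with
  | zero => simp
  | succ n ih =>
    rw [pow_succ]
    calc _ ≤ ‖A (g ^ n) - 1‖ + ‖A g - 1‖ := disp_mul A hA _ _
      _ ≤ n * ‖A g - 1‖ + ‖A g - 1‖ := by gcongr
      _ = _ := by push_cast; ring

theorem disp_pow_sub (g : G) (n : ℕ) :
    ‖A (g ^ n) - 1 - (n : E) * (A g - 1)‖ ≤ (n : ℝ) ^ 2 * ‖A g - 1‖ ^ 2 / 2 := by
  induction n with
  | zero => simp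
  | succ n ih =>
    have : A (g ^ (n + 1)) - 1 - ((n + 1 : ℕ) : E) * (A g - 1)
        = (A (g ^ n) - 1 - (n : E) * (A g - 1)) * A g + (n : E) * ((A g - 1) * (A g - 1)) := by
      rw [pow_succ, map_mul]
      push_cast
      noncomm_ring
    rw [this]
    have h3 : ‖(n : E) * ((A g - 1) * (A g - 1))‖ ≤ n * ‖A g - 1‖ ^ 2 := by
      rw [← nsmul_eq_mul]
      calc ‖n • ((A g - 1) * (A g - 1))‖ ≤ n * ‖(A g - 1) * (A g - 1)‖ := norm_nsmul_le
        _ ≤ n * (‖A g - 1‖ * ‖A g - 1‖) := by gcongr; exact norm_mul_le _ _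
        _ = _ := by ring
    calc _ ≤ ‖(A (g ^ n) - 1 - (n : E) * (A g - 1)) * A g‖ + ‖(n : E) * ((A g - 1) * (A g - 1))‖ :=
          norm_add_le _ _
      _ ≤ ‖A (g ^ n) - 1 - (n : E) * (A g - 1)‖ * ‖A g‖ + n * ‖A g - 1‖ ^ 2 := by
          gcongr; exact norm_mul_le _ _
      _ ≤ ‖A (g ^ n) - 1 - (n : E) * (A g - 1)‖ * 1 + n * ‖A g - 1‖ ^ 2 := by
          gcongr; exact hA g
      _ ≤ (n : ℝ) ^ 2 * ‖A g - 1‖ ^ 2 / 2 * 1 + n * ‖A g - 1‖ ^ 2 := by gcongr
      _ ≤ ((n + 1 : ℕ) : ℝ) ^ 2 * ‖A g - 1‖ ^ 2 / 2 := by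
          push_cast
          nlinarith [sq_nonneg (‖A g - 1‖)]

theorem disp_inv (g : G) : ‖A g⁻¹ - 1‖ = ‖A g - 1‖ :=
  le_antisymm (disp_inv_le A hA g) (by simpa using disp_inv_le A hA g⁻¹)

/-- lower bound for the displacement of a power -/
theorem disp_pow_lower [NormedSpace ℂ E] (g : G) (n : ℕ) (hn : 1 ≤ n)
    (hs : (n : ℝ) * ‖A g - 1‖ ≤ 1) :
    ‖A g - 1‖ / 2 ≤ ‖A (g ^ n) - 1‖ := by
  have h1 := disp_pow_sub A hA g n
  have h2 : ‖(n : E) * (A g - 1)‖ = n * ‖A g - 1‖ := by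
    rw [← nsmul_eq_mul, RCLike.norm_nsmul ℂ]
    simp
  have h3 : ‖(n : E) * (A g - 1)‖ ≤ ‖A (g ^ n) - 1‖ + ‖A (g ^ n) - 1 - (n : E) * (A g - 1)‖ := by
    have : (n : E) * (A g - 1) = (A (g ^ n) - 1) - (A (g ^ n) - 1 - (n : E) * (A g - 1)) := by abel
    calc ‖(n : E) * (A g - 1)‖ = ‖(A (g ^ n) - 1) - (A (g ^ n) - 1 - (n : E) * (A g - 1))‖ := by
          rw [← this]
      _ ≤ _ := norm_sub_le _ _
  rw [h2] at h3
  have hn' : (1 : ℝ) ≤ n := by exact_mod_cast hn
  have h0 := norm_nonneg (A g - 1)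
  set D := ‖A g - 1‖
  nlinarith [mul_le_mul_of_nonneg_right hs (by positivity : (0 : ℝ) ≤ n * D)]

end Disp

/-! ## the growth lemma -/

/-- the set of products `h j ^ i_0 * h (j+1) ^ i_1 * ...` (`m` factors), `i ≤ N`. -/
def Q {G : Type u} [Group G] (h : ℕ → G) (N : ℕ) : ℕ → ℕ → Set G
  | _, 0 => {1}
  | j, (m + 1) => (fun p : ℕ × G => h j ^ p.1 * p.2) '' ({a : ℕ | a ≤ N} ×ˢ Q h N (j + 1) m)

theorem Q_succ {G : Type u} [Group G] (h : ℕ → G) (N j m : ℕ) : Q h N j (m + 1)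
    = (fun p : ℕ × G => h j ^ p.1 * p.2) '' ({a : ℕ | a ≤ N} ×ˢ Q h N (j + 1) m) := by
  cases j <;> rfl

theorem Q_zero {G : Type u} [Group G] (h : ℕ → G) (N j : ℕ) : Q h N j 0 = {1} := by
  cases j <;> rfl

theorem Q_finite {G : Type u} [Group G] (h : ℕ → G) (N : ℕ) (m : ℕ) :
    ∀ j, (Q h N j m).Finite := by
  induction m with
  | zero => intro j; rw [Q_zero]; exact Set.finite_singleton _
  | succ m ih =>
    intro j
    rw [Q_succ]
    exact ((Set.finite_le_nat N).prod (ih (j + 1))).image _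

section Growth

variable {G : Type u} [Group G] {E : Type v} [NormedRing E] [NormedSpace ℂ E]
  (A : G →* E) (hA : ∀ g, ‖A g‖ ≤ 1)

include hA

theorem Q_disp (h : ℕ → G) (N : ℕ) (hdec : ∀ k, ‖A (h (k + 1)) - 1‖ ≤ ‖A (h k) - 1‖ / 2) (m : ℕ) :
    ∀ j, ∀ x ∈ Q h N j m, ‖A x - 1‖ ≤ 2 * N * ‖A (h j) - 1‖ := by
  induction m with
  | zero =>
    intro j x hx
    rw [Q_zero] at hx
    have : x = 1 := by simpa using hx
    subst this
    simp only [map_one, sub_self, norm_zero]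
    positivity
  | succ m ih =>
    intro j x hx
    rw [Q_succ] at hx
    obtain ⟨⟨a, y⟩, ⟨ha, hy⟩, rfl⟩ := hx
    simp only [Set.mem_ofPred_eq] at ha hy ⊢
    have h1 := ih (j + 1) y hy
    have h2 := hdec j
    have h3 := disp_pow_le A hA (h j) a
    have h4 := disp_mul A hA (h j ^ a) y
    have h5 : (a : ℝ) ≤ N := by exact_mod_cast ha
    have h6 : (a : ℝ) * ‖A (h j) - 1‖ ≤ N * ‖A (h j) - 1‖ := by gcongr
    have h7 : 2 * (N : ℝ) * ‖A (h (j + 1)) - 1‖ ≤ 2 * N * (‖A (h j) - 1‖ / 2) := by gcongr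
    linarith

theorem Q_card (h : ℕ → G) (N : ℕ) (hN : 1 ≤ N) (ε : ℝ) (hε : 0 ≤ ε) (hε' : 16 * N * ε < 1)
    (hpos : ∀ k, 0 < ‖A (h k) - 1‖) (hsm : ∀ k, ‖A (h k) - 1‖ ≤ ε)
    (hdec : ∀ k, ‖A (h (k + 1)) - 1‖ ≤ 2 * ε * ‖A (h k) - 1‖) (m : ℕ) :
    ∀ j, (Q h N j m).ncard = (N + 1) ^ m := by
  have hN' : (1 : ℝ) ≤ N := by exact_mod_cast hN
  have hε4 : 2 * ε ≤ 1 / 2 := by nlinarith
  have hdec' : ∀ k, ‖A (h (k + 1)) - 1‖ ≤ ‖A (h k) - 1‖ / 2 := by
    intro k
    have := hdec k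
    nlinarith [hpos k]
  induction m with
  | zero => intro j; rw [Q_zero]; simp
  | succ m ih =>
    intro j
    rw [Q_succ, Set.InjOn.ncard_image]
    · rw [Set.ncard_prod, ih (j + 1), pow_succ, mul_comm]
      congr 1
      have : {a : ℕ | a ≤ N} = (Finset.range (N + 1) : Set ℕ) := by
        ext a; simp [Nat.lt_succ_iff]
      rw [this, Set.ncard_coe_finset, Finset.card_range]
    · -- injectivity
      have main : ∀ a b : ℕ, ∀ x y : G, a ≤ N → b ≤ N → x ∈ Q h N (j + 1) m →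
          y ∈ Q h N (j + 1) m → h j ^ a * x = h j ^ b * y → ¬ a < b := by
        intro a b x y ha hb hx hy hxy hab
        have h1 := Q_disp A hA h N hdec' m (j + 1) x hx
        have h2 := Q_disp A hA h N hdec' m (j + 1) y hy
        have h3 : h j ^ (b - a) = x * y⁻¹ := by
          have h4 : h j ^ b = h j ^ a * h j ^ (b - a) := by rw [← pow_add]; congr 1; omega
          rw [h4, mul_assoc] at hxy
          have h5 := mul_left_cancel hxy
          rw [h5]; group
        have h4 : ‖A (h j ^ (b - a)) - 1‖ ≤ ‖A x - 1‖ + ‖A y - 1‖ := by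
          rw [h3]
          calc _ ≤ ‖A x - 1‖ + ‖A y⁻¹ - 1‖ := disp_mul A hA _ _
            _ = _ := by rw [disp_inv A hA]
        have h6 : ((b - a : ℕ) : ℝ) ≤ N := by exact_mod_cast (Nat.sub_le _ _).trans hb
        have h5 : ‖A (h j) - 1‖ / 2 ≤ ‖A (h j ^ (b - a)) - 1‖ := by
          apply disp_pow_lower A hA
          · omega
          · calc ((b - a : ℕ) : ℝ) * ‖A (h j) - 1‖ ≤ N * ε := by
                  gcongr
                  exact hsm j
              _ ≤ 1 := by nlinarith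
        have h7 := hdec j
        have h8 := hpos j
        have h9 : 2 * (N : ℝ) * ‖A (h (j + 1)) - 1‖ ≤ 2 * N * (2 * ε * ‖A (h j) - 1‖) := by gcongr
        have h10 : 16 * N * ε * ‖A (h j) - 1‖ < 1 * ‖A (h j) - 1‖ := by gcongr
        nlinarith
      rintro ⟨a, x⟩ ⟨ha, hx⟩ ⟨b, y⟩ ⟨hb, hy⟩ hxy
      simp only [Set.mem_ofPred_eq] at ha hx hb hy hxy
      rcases lt_trichotomy a b with hab | hab | hab
      · exact absurd hab (main a b x y ha hb hx hy hxy)
      · subst hab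
        rw [mul_left_cancel hxy]
      · exact absurd hab (main b a y x hb ha hy hx hxy.symm)

end Growth

theorem Q_subset {G : Type u} [Group G] (T : Set G) (h1 : (1 : G) ∈ T) (h : ℕ → G) (N : ℕ)
    (hlen : ∀ k, h k ∈ T ^ (3 * 2 ^ k)) (m : ℕ) :
    ∀ j, ∃ e : ℕ, e + 3 * N * 2 ^ j = 3 * N * 2 ^ (j + m) ∧ Q h N j m ⊆ T ^ e := by
  induction m with
  | zero => intro j; exact ⟨0, by simp, by rw [Q_zero]; simp⟩
  | succ m ih =>
    intro j
    obtain ⟨e, he, hQ⟩ := ih (j + 1)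
    refine ⟨3 * N * 2 ^ j + e, ?_, ?_⟩
    · have : j + (m + 1) = j + 1 + m := by ring
      rw [this, ← he, pow_succ]
      ring
    · rw [Q_succ]
      rintro _ ⟨⟨a, y⟩, ⟨ha, hy⟩, rfl⟩
      simp only [Set.mem_ofPred_eq] at ha hy ⊢
      rw [pow_add]
      refine Set.mul_mem_mul ?_ (hQ hy)
      have h2 : h j ^ a ∈ T ^ (3 * 2 ^ j * a) := by
        rw [pow_mul]; exact Set.pow_mem_pow (hlen j)
      refine pow_subset_pow h1 ?_ h2
      calc 3 * 2 ^ j * a ≤ 3 * 2 ^ j * N := Nat.mul_le_mul_left _ ha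
        _ = _ := by ring

/-- exponential versus polynomial -/
theorem exp_poly (d C : ℕ) (h : ∀ m : ℕ, (2 ^ d + 1) ^ m ≤ C * (2 ^ d) ^ m) : False := by
  have h2 : (1 : ℝ) < (2 ^ d + 1) / 2 ^ d := by
    rw [lt_div_iff₀ (by positivity)]
    linarith
  obtain ⟨m, hm⟩ := pow_unbounded_of_one_lt (C : ℝ) h2
  have h3 := h m
  have h4 : ((2 : ℝ) ^ d + 1) ^ m ≤ C * (2 ^ d) ^ m := by exact_mod_cast h3
  rw [div_pow, lt_div_iff₀ (by positivity)] at hm
  linarith

/-- The growth contradiction. -/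
theorem growth_false {G : Type u} [Group G] {E : Type v} [NormedRing E] [NormedSpace ℂ E]
    (A : G →* E) (hA : ∀ g, ‖A g‖ ≤ 1) {d : ℕ} (hG : PG d G) (T : Set G) (hT : T.Finite)
    (h1 : (1 : G) ∈ T) (ε : ℝ) (hε : 0 ≤ ε) (hε' : 16 * (2 ^ d : ℕ) * ε < 1) (h : ℕ → G)
    (hlen : ∀ k, h k ∈ T ^ (3 * 2 ^ k))
    (hpos : ∀ k, 0 < ‖A (h k) - 1‖) (hsm : ∀ k, ‖A (h k) - 1‖ ≤ ε)
    (hdec : ∀ k, ‖A (h (k + 1)) - 1‖ ≤ 2 * ε * ‖A (h k) - 1‖) : False := by
  obtain ⟨C, hC⟩ := hG T hT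
  apply exp_poly d (C * (4 * 2 ^ d) ^ d)
  intro m
  obtain ⟨e, he, hQ⟩ := Q_subset T h1 h (2 ^ d) hlen m 0
  have hcard := Q_card A hA h (2 ^ d) Nat.one_le_two_pow ε hε hε' hpos hsm hdec m 0
  have he' : e ≤ 3 * 2 ^ d * 2 ^ m := by
    simp only [zero_add] at he
    omega
  calc (2 ^ d + 1) ^ m = (Q h (2 ^ d) 0 m).ncard := hcard.symm
    _ ≤ (T ^ e).ncard := Set.ncard_le_ncard hQ (fin_pow hT _)
    _ ≤ C * (e + 1) ^ d := hC e
    _ ≤ C * (4 * 2 ^ d * 2 ^ m) ^ d := by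
        apply Nat.mul_le_mul_left
        apply Nat.pow_le_pow_left
        have h2 : 0 < 2 ^ d * 2 ^ m := by positivity
        calc e + 1 ≤ 3 * 2 ^ d * 2 ^ m + 1 := by omega
          _ ≤ 4 * 2 ^ d * 2 ^ m := by
            have : 4 * 2 ^ d * 2 ^ m = 3 * 2 ^ d * 2 ^ m + 2 ^ d * 2 ^ m := by ring
            omega
    _ = C * (4 * 2 ^ d) ^ d * (2 ^ d) ^ m := by
        rw [mul_pow, ← pow_mul, ← pow_mul, mul_comm m d, mul_assoc]

/-! ## isometric representations -/

section Rep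

variable {V : Type v} [NormedAddCommGroup V] [InnerProductSpace ℂ V]

theorem opnorm_le_one {f : V →L[ℂ] V} (hf : ∀ v, ‖f v‖ = ‖v‖) : ‖f‖ ≤ 1 :=
  f.opNorm_le_bound zero_le_one fun v => by rw [hf, one_mul]

/-- restriction of a representation to an invariant subspace -/
noncomputable def restr {G : Type u} [Group G] (A : G →* (V →L[ℂ] V)) (W : Submodule ℂ V)
    (hW : ∀ g, ∀ v ∈ W, A g v ∈ W) : G →* (W →L[ℂ] W) where
  toFun g := ((A g).comp W.subtypeL).codRestrict W (fun v => hW g v v.2)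
  map_one' := by ext v; simp
  map_mul' g h := by ext v; simp <;> rfl

theorem restr_apply {G : Type u} [Group G] (A : G →* (V →L[ℂ] V)) (W : Submodule ℂ V)
    (hW : ∀ g, ∀ v ∈ W, A g v ∈ W) (g : G) (v : W) : ((restr A W hW g v : W) : V) = A g v := rfl

theorem restr_norm {G : Type u} [Group G] (A : G →* (V →L[ℂ] V)) (W : Submodule ℂ V)
    (hW : ∀ g, ∀ v ∈ W, A g v ∈ W) (hA : ∀ g v, ‖A g v‖ = ‖v‖) (g : G) (v : W) :
    ‖restr A W hW g v‖ = ‖v‖ := hA g v

theorem inner_eq {f : V →L[ℂ] V} (hf : ∀ v, ‖f v‖ = ‖v‖) (x y : V) :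
    inner ℂ (f x) (f y) = inner ℂ x y :=
  (LinearIsometry.mk f.toLinearMap hf).inner_map_map x y

theorem orth_invariant {G : Type u} [Group G] (A : G →* (V →L[ℂ] V)) (W : Submodule ℂ V)
    (hW : ∀ g, ∀ v ∈ W, A g v ∈ W) (hA : ∀ g v, ‖A g v‖ = ‖v‖) :
    ∀ g, ∀ v ∈ Wᗮ, A g v ∈ Wᗮ := by
  intro g v hv w hw
  have h1 : A g⁻¹ w ∈ W := hW _ _ hw
  have h2 := hv _ h1
  have h3 := inner_eq (hA g) (A g⁻¹ w) v
  rw [h2] at h3
  have h4 : A g (A g⁻¹ w) = w := by
    have := congrArg (fun f => f w) (A_mul_inv A g)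
    simpa using this
  rwa [h4] at h3

/-- the finite index lemma: elements of small displacement generate a finite index subgroup -/
theorem finiteIndex_small [FiniteDimensional ℂ V] {G : Type u} [Group G] (A : G →* (V →L[ℂ] V))
    (hA : ∀ g v, ‖A g v‖ = ‖v‖) {ε : ℝ} (hε : 0 < ε) :
    (Subgroup.closure {g : G | ‖A g - 1‖ ≤ ε}).FiniteIndex := by
  set H := Subgroup.closure {g : G | ‖A g - 1‖ ≤ ε} with hH
  have hcpt : IsCompact (Metric.closedBall (0 : V →L[ℂ] V) 1) := isCompact_closedBall _ _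
  obtain ⟨F, hF, hcov⟩ := (Metric.totallyBounded_iff.mp hcpt.totallyBounded) (ε / 2) (by positivity)
  have hmem : ∀ g : G, ∃ x ∈ F, dist (A g) x < ε / 2 := by
    intro g
    have h1 : A g ∈ Metric.closedBall (0 : V →L[ℂ] V) 1 := by
      simpa using opnorm_le_one (hA g)
    simpa using hcov h1
  choose p hpF hp using hmem
  have : Finite (G ⧸ H) := by
    have hFf : Finite F := hF
    refine Finite.of_injective (β := F) (fun q => ⟨p q.out, hpF _⟩) ?_
    intro a b hab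
    have h1 : p a.out = p b.out := congrArg Subtype.val hab
    rw [← a.out_eq', ← b.out_eq', QuotientGroup.eq]
    apply Subgroup.subset_closure
    have h2 : dist (A a.out) (A b.out) < ε := by
      calc dist (A a.out) (A b.out) ≤ dist (A a.out) (p a.out) + dist (p a.out) (A b.out) :=
            dist_triangle _ _ _
        _ < ε / 2 + ε / 2 := by
            apply add_lt_add (hp _)
            rw [h1, dist_comm]; exact hp _
        _ = ε := by ring
    have h3 : A (a.out⁻¹ * b.out) - 1 = A a.out⁻¹ * (A b.out - A a.out) := by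
      rw [mul_sub, A_inv_mul, map_mul]
    show ‖A (a.out⁻¹ * b.out) - 1‖ ≤ ε
    rw [h3]
    calc _ ≤ ‖A a.out⁻¹‖ * ‖A b.out - A a.out‖ := norm_mul_le _ _
      _ ≤ 1 * ‖A b.out - A a.out‖ := by gcongr; exact opnorm_le_one (hA _)
      _ ≤ ε := by rw [one_mul, ← dist_eq_norm, dist_comm]; exact h2.le
  exact Subgroup.finiteIndex_of_finite_quotient

/-- a scalar group commutator with an element close to `1` is trivial (trace argument) -/
theorem scalar_comm [FiniteDimensional ℂ V] [Nontrivial V] {G : Type u} [Group G]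
    (A : G →* (V →L[ℂ] V)) (g s : G) (hs : ‖A s - 1‖ < 1) (μ : ℂ)
    (h : A (g * s * g⁻¹ * s⁻¹) = μ • 1) : A g * A s = A s * A g := by
  have h1 : A g * A s * A g⁻¹ = μ • A s := by
    have h2 : A g * A s * A g⁻¹ = A (g * s * g⁻¹ * s⁻¹) * A s := by
      rw [← map_mul, ← map_mul, ← map_mul]
      congr 1; group
    rw [h2, h, smul_mul_assoc, one_mul]
  have htr : LinearMap.trace ℂ V (A s : V →ₗ[ℂ] V) = μ * LinearMap.trace ℂ V (A s : V →ₗ[ℂ] V) := by
    have h3 : LinearMap.trace ℂ V ((A g * A s * A g⁻¹ : V →L[ℂ] V) : V →ₗ[ℂ] V)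
        = LinearMap.trace ℂ V (A s : V →ₗ[ℂ] V) := by
      have e1 : ((A g * A s * A g⁻¹ : V →L[ℂ] V) : V →ₗ[ℂ] V)
          = ((A g : V →ₗ[ℂ] V) * (A s : V →ₗ[ℂ] V)) * (A g⁻¹ : V →ₗ[ℂ] V) := rfl
      have e2 : (A g⁻¹ : V →ₗ[ℂ] V) * ((A g : V →ₗ[ℂ] V) * (A s : V →ₗ[ℂ] V)) = (A s : V →ₗ[ℂ] V) := by
        have e3 : A g⁻¹ * (A g * A s) = A s := by
          rw [← mul_assoc, A_inv_mul, one_mul]
        have := congrArg (fun f : V →L[ℂ] V => (f : V →ₗ[ℂ] V)) e3
        exact this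
      rw [e1, LinearMap.trace_mul_comm, e2]
    calc _ = LinearMap.trace ℂ V ((A g * A s * A g⁻¹ : V →L[ℂ] V) : V →ₗ[ℂ] V) := h3.symm
      _ = LinearMap.trace ℂ V ((μ • A s : V →L[ℂ] V) : V →ₗ[ℂ] V) := by rw [h1]
      _ = LinearMap.trace ℂ V (μ • (A s : V →ₗ[ℂ] V)) := rfl
      _ = _ := by rw [map_smul, smul_eq_mul]
  have hne : LinearMap.trace ℂ V (A s : V →ₗ[ℂ] V) ≠ 0 := by
    let b := stdOrthonormalBasis ℂ V
    rw [LinearMap.trace_eq_sum_inner _ b]
    intro h0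
    have h5 : ∀ i, 0 < (inner ℂ (b i) ((A s : V →ₗ[ℂ] V) (b i))).re := by
      intro i
      have h6 : inner ℂ (b i) ((A s : V →ₗ[ℂ] V) (b i))
          = 1 + inner ℂ (b i) ((A s - 1 : V →L[ℂ] V) (b i)) := by
        have : ((A s : V →ₗ[ℂ] V) (b i)) = b i + (A s - 1 : V →L[ℂ] V) (b i) := by simp
        rw [this, inner_add_right, inner_self_eq_norm_sq_to_K, b.norm_eq_one, RCLike.ofReal_one,
          one_pow]
      rw [h6]
      have h7 : ‖inner ℂ (b i) ((A s - 1 : V →L[ℂ] V) (b i))‖ ≤ ‖A s - 1‖ := by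
        calc _ ≤ ‖b i‖ * ‖(A s - 1 : V →L[ℂ] V) (b i)‖ := norm_inner_le_norm _ _
          _ ≤ ‖b i‖ * (‖A s - 1‖ * ‖b i‖) := by gcongr; exact ContinuousLinearMap.le_opNorm _ _
          _ = _ := by rw [b.norm_eq_one]; ring
      have h8 := Complex.abs_re_le_norm (inner ℂ (b i) ((A s - 1 : V →L[ℂ] V) (b i)))
      have h9 := neg_abs_le (inner ℂ (b i) ((A s - 1 : V →L[ℂ] V) (b i))).re
      simp only [Complex.add_re, Complex.one_re]
      linarith
    have h10 := congrArg Complex.re h0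
    rw [Complex.re_sum] at h10
    simp only [Complex.zero_re] at h10
    have hpos : 0 < Module.finrank ℂ V := Module.finrank_pos
    have : Nonempty (Fin (Module.finrank ℂ V)) := ⟨⟨0, hpos⟩⟩
    have := Finset.sum_pos (fun i _ => h5 i) (Finset.univ_nonempty (α := Fin (Module.finrank ℂ V)))
    linarith
  have hμ : μ = 1 := by
    have : (μ - 1) * LinearMap.trace ℂ V (A s : V →ₗ[ℂ] V) = 0 := by
      rw [sub_mul, one_mul, ← htr, sub_self]
    rcases mul_eq_zero.mp this with h | h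
    · exact sub_eq_zero.mp h
    · exact absurd h hne
  rw [hμ, one_smul] at h1
  calc A g * A s = A g * A s * (A g⁻¹ * A g) := by rw [A_inv_mul, mul_one]
    _ = A g * A s * A g⁻¹ * A g := by rw [← mul_assoc]
    _ = A s * A g := by rw [h1]

end Rep

theorem comm_closure {G : Type u} [Group G] {M : Type v} [Monoid M] (A : G →* M) (T : Set G) (x : G)
    (hx : ∀ t ∈ T, A x * A t = A t * A x) : ∀ t ∈ Subgroup.closure T, A x * A t = A t * A x := by
  intro t ht
  induction ht using Subgroup.closure_induction with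
  | mem t ht => exact hx t ht
  | one => simp
  | mul a b _ _ ha hb => rw [map_mul, ← mul_assoc, ha, mul_assoc, hb, mul_assoc]
  | inv a _ ha =>
    have h1 : A a⁻¹ * A a = 1 := by rw [← map_mul, inv_mul_cancel, map_one]
    have h2 : A a * A a⁻¹ = 1 := by rw [← map_mul, mul_inv_cancel, map_one]
    calc A x * A a⁻¹ = (A a⁻¹ * A a) * A x * A a⁻¹ := by rw [h1, one_mul]
      _ = A a⁻¹ * (A a * A x) * A a⁻¹ := by rw [mul_assoc (A a⁻¹)]
      _ = A a⁻¹ * (A x * A a) * A a⁻¹ := by rw [ha]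
      _ = A a⁻¹ * A x * (A a * A a⁻¹) := by simp only [mul_assoc]
      _ = A a⁻¹ * A x := by rw [h2, mul_one]

/-- the case where all central elements are scalar -/
theorem scalar_case {d : ℕ} {G : Type u} [Group G] (hG : PG d G)
    {V : Type v} [NormedAddCommGroup V] [InnerProductSpace ℂ V] [FiniteDimensional ℂ V]
    [Nontrivial V] (A : G →* (V →L[ℂ] V)) (hA : ∀ g v, ‖A g v‖ = ‖v‖) (T : Set G) (hT : T.Finite)
    (ε : ℝ) (hε : 0 < ε) (hε' : 16 * (2 ^ d : ℕ) * ε < 1) (hTε : ∀ t ∈ T, ‖A t - 1‖ ≤ ε)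
    (hcen : ∀ z ∈ Subgroup.closure T, (∀ t ∈ Subgroup.closure T, A z * A t = A t * A z) →
      ∃ μ : ℂ, A z = μ • 1) :
    ∀ s ∈ T, ∀ t ∈ T, A s * A t = A t * A s := by
  by_contra hcon
  push Not at hcon
  obtain ⟨g0, hg0, s0, hs0, hne0⟩ := hcon
  have hA1 : ∀ g, ‖A g‖ ≤ 1 := fun g => opnorm_le_one (hA g)
  have hε1 : ε < 1 := by
    have : (1 : ℝ) ≤ (2 ^ d : ℕ) := by exact_mod_cast Nat.one_le_two_pow
    nlinarith
  let R : G → Prop := fun g => g ∈ Subgroup.closure T ∧ ∃ s ∈ T, A g * A s ≠ A s * A g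
  have step : ∀ g : {g // R g}, ∃ s ∈ T, R (g.1 * s * g.1⁻¹ * s⁻¹) := by
    rintro ⟨g, hg, s, hs, hne⟩
    refine ⟨s, hs, ?_, ?_⟩
    · have hs' := Subgroup.subset_closure (k := T) hs
      exact Subgroup.mul_mem _ (Subgroup.mul_mem _ (Subgroup.mul_mem _ hg hs')
        (Subgroup.inv_mem _ hg)) (Subgroup.inv_mem _ hs')
    · by_contra hcon
      push Not at hcon
      have hs' := Subgroup.subset_closure (k := T) hs
      have hmem : g * s * g⁻¹ * s⁻¹ ∈ Subgroup.closure T :=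
        Subgroup.mul_mem _ (Subgroup.mul_mem _ (Subgroup.mul_mem _ hg hs')
        (Subgroup.inv_mem _ hg)) (Subgroup.inv_mem _ hs')
      obtain ⟨μ, hμ⟩ := hcen _ hmem (comm_closure A T _ hcon)
      exact hne (scalar_comm A g s ((hTε s hs).trans_lt hε1) μ hμ)
  choose f hfT hfR using step
  let hseq : ℕ → {g // R g} := fun k => Nat.rec
    ⟨g0, Subgroup.subset_closure hg0, s0, hs0, hne0⟩ (fun _ g => ⟨_, hfR g⟩) k
  have hs_zero : (hseq 0).1 = g0 := rfl
  have hs_succ : ∀ k, (hseq (k + 1)).1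
      = (hseq k).1 * f (hseq k) * (hseq k).1⁻¹ * (f (hseq k))⁻¹ := fun k => rfl
  set h : ℕ → G := fun k => (hseq k).1 with hh
  have hpos : ∀ k, 0 < ‖A (h k) - 1‖ := by
    intro k
    rw [norm_pos_iff]
    intro h0
    obtain ⟨_, s, hs, hne⟩ := (hseq k).2
    apply hne
    have : A (h k) = 1 := sub_eq_zero.mp h0
    show A (h k) * A s = A s * A (h k)
    rw [this, one_mul, mul_one]
  have hdec : ∀ k, ‖A (h (k + 1)) - 1‖ ≤ 2 * ε * ‖A (h k) - 1‖ := by
    intro k
    have h1 : h (k + 1) = h k * f (hseq k) * (h k)⁻¹ * (f (hseq k))⁻¹ := hs_succ k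
    rw [h1]
    calc _ ≤ 2 * ‖A (h k) - 1‖ * ‖A (f (hseq k)) - 1‖ := disp_comm A hA1 _ _
      _ ≤ 2 * ‖A (h k) - 1‖ * ε := by gcongr; exact hTε _ (hfT _)
      _ = _ := by ring
  have hε2 : 2 * ε ≤ 1 := by
    have : (1 : ℝ) ≤ (2 ^ d : ℕ) := by exact_mod_cast Nat.one_le_two_pow
    nlinarith
  have hsm : ∀ k, ‖A (h k) - 1‖ ≤ ε := by
    intro k
    induction k with
    | zero => exact hTε _ hg0
    | succ k ihk =>
      have := hdec k
      nlinarith [hpos k]
  set T1 : Set G := T ∪ T⁻¹ ∪ {1} with hT1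
  have hT1fin : T1.Finite := (hT.union hT.inv).union (Set.finite_singleton 1)
  have h1T1 : (1 : G) ∈ T1 := Or.inr rfl
  have hT1inv : T1⁻¹ = T1 := by
    rw [hT1, Set.union_inv, Set.union_inv, inv_inv, Set.union_comm T⁻¹ T]
    simp
  have hlen' : ∀ k, ∃ e, e + 2 = 3 * 2 ^ k ∧ h k ∈ T1 ^ e := by
    intro k
    induction k with
    | zero => exact ⟨1, rfl, by rw [pow_one]; exact Or.inl (Or.inl hg0)⟩
    | succ k ihk =>
      obtain ⟨e, he, hmem⟩ := ihk
      refine ⟨e + 1 + e + 1, by rw [pow_succ]; omega, ?_⟩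
      have h1 : h (k + 1) = h k * f (hseq k) * (h k)⁻¹ * (f (hseq k))⁻¹ := hs_succ k
      rw [h1, pow_add, pow_add, pow_add, pow_one]
      refine Set.mul_mem_mul (Set.mul_mem_mul (Set.mul_mem_mul hmem ?_) ?_) ?_
      · exact Or.inl (Or.inl (hfT _))
      · have : (h k)⁻¹ ∈ (T1 ^ e)⁻¹ := by simpa using hmem
        rwa [← inv_pow, hT1inv] at this
      · exact Or.inl (Or.inr (by simpa using hfT _))
  refine growth_false A hA1 hG T1 hT1fin h1T1 ε hε.le hε' h (fun k => ?_) hpos hsm hdec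
  obtain ⟨e, he, hmem⟩ := hlen' k
  exact pow_subset_pow h1T1 (by omega) hmem

theorem main (d : ℕ) : ∀ q : ℕ, ∀ (G : Type u) [Group G] [Group.FG G], PG d G →
    ∀ (V : Type v) [NormedAddCommGroup V] [InnerProductSpace ℂ V] [FiniteDimensional ℂ V],
    Module.finrank ℂ V = q → ∀ A : G →* (V →L[ℂ] V), (∀ g v, ‖A g v‖ = ‖v‖) →
    ∃ H : Subgroup G, H.FiniteIndex ∧ ∀ a ∈ H, ∀ b ∈ H, A a * A b = A b * A a := by
  intro q
  induction q using Nat.strong_induction_on with
  | _ q ih =>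
  intro G _ _ hG V _ _ _ hq A hA
  rcases subsingleton_or_nontrivial V with hV | hV
  · exact ⟨⊤, inferInstance, fun a _ b _ => by ext v; exact Subsingleton.elim _ _⟩
  set ε : ℝ := 1 / (32 * (2 ^ d : ℕ)) with hεdef
  have h2d : (1 : ℝ) ≤ (2 ^ d : ℕ) := by exact_mod_cast Nat.one_le_two_pow
  have hε : 0 < ε := by positivity
  have hε' : 16 * (2 ^ d : ℕ) * ε < 1 := by
    rw [hεdef]
    have : (16 : ℝ) * (2 ^ d : ℕ) * (1 / (32 * (2 ^ d : ℕ))) = 1 / 2 := by
      field_simp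
      norm_num
    rw [this]; norm_num
  have hFI := finiteIndex_small A hA hε
  have hFG : (Subgroup.closure {g : G | ‖A g - 1‖ ≤ ε}).FG :=
    (Group.fg_iff_subgroup_fg _).mp inferInstance
  obtain ⟨T, hTfin, hTsub, hTcl⟩ := exists_finset_closure hFG
  rw [← hTcl] at hFI hFG
  have hTε : ∀ t ∈ T, ‖A t - 1‖ ≤ ε := fun t ht => hTsub ht
  set H0 := Subgroup.closure T with hH0
  by_cases hcen : ∀ z ∈ H0, (∀ t ∈ H0, A z * A t = A t * A z) → ∃ μ : ℂ, A z = μ • 1
  · have hcomm := scalar_case hG A hA T hTfin ε hε hε' hTε hcen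
    refine ⟨H0, hFI, fun a ha b hb => ?_⟩
    have h1 : ∀ s ∈ T, ∀ t ∈ H0, A s * A t = A t * A s :=
      fun s hs => comm_closure A T s (fun t ht => hcomm s hs t ht)
    exact comm_closure A T a (fun t ht => (h1 t ht a ha).symm) b hb
  · push Not at hcen
    obtain ⟨z, hz, hzc, hzs⟩ := hcen
    obtain ⟨μ, hμ⟩ := Module.End.exists_eigenvalue (A z : V →ₗ[ℂ] V)
    set W : Submodule ℂ V := Module.End.eigenspace (A z : V →ₗ[ℂ] V) μ with hW
    have hmemW : ∀ v, v ∈ W ↔ A z v = μ • v := fun v => Module.End.mem_eigenspace_iff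
    have hWbot : W ≠ ⊥ := hμ
    have hWtop : W ≠ ⊤ := by
      intro htop
      apply hzs μ
      ext v
      have : v ∈ W := by rw [htop]; trivial
      simpa using (hmemW v).mp this
    have hinv : ∀ g : H0, ∀ v ∈ W, (A.comp H0.subtype) g v ∈ W := by
      intro g v hv
      rw [hmemW] at hv ⊢
      have h1 := congrArg (fun f => f v) (hzc g g.2)
      simp only [ContinuousLinearMap.mul_apply] at h1
      show A z (A g v) = μ • A g v
      rw [h1, hv, map_smul]
    have hA' : ∀ (g : H0) v, ‖(A.comp H0.subtype) g v‖ = ‖v‖ := fun g v => hA g v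
    have hinv' := orth_invariant (A.comp H0.subtype) W hinv hA'
    have hG' : PG d H0 := hG.subgroup H0
    have : Group.FG H0 := (Group.fg_iff_subgroup_fg _).mpr hFG
    have hdim : Module.finrank ℂ W + Module.finrank ℂ Wᗮ = Module.finrank ℂ V :=
      Submodule.finrank_add_finrank_orthogonal W
    have hd1 : 0 < Module.finrank ℂ W := by
      rw [pos_iff_ne_zero]
      intro h0
      exact hWbot (Submodule.finrank_eq_zero.mp h0)
    have hd2 : 0 < Module.finrank ℂ Wᗮ := by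
      rw [pos_iff_ne_zero]
      intro h0
      have := Submodule.finrank_eq_zero.mp h0
      exact hWtop ((Submodule.orthogonal_eq_bot_iff).mp this)
    obtain ⟨H1, hH1, hc1⟩ := ih (Module.finrank ℂ W) (by omega) H0 hG' W rfl
      (restr _ W hinv) (restr_norm _ W hinv hA')
    obtain ⟨H2, hH2, hc2⟩ := ih (Module.finrank ℂ Wᗮ) (by omega) H0 hG' (↥Wᗮ) rfl
      (restr _ Wᗮ hinv') (restr_norm _ Wᗮ hinv' hA')
    refine ⟨(H1 ⊓ H2).map H0.subtype, ?_, ?_⟩
    · rw [Subgroup.finiteIndex_iff, Subgroup.index_map_subtype]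
      exact mul_ne_zero (Subgroup.finiteIndex_iff.mp inferInstance) (Subgroup.finiteIndex_iff.mp hFI)
    · rintro _ ⟨a, ⟨ha1, ha2⟩, rfl⟩ _ ⟨b, ⟨hb1, hb2⟩, rfl⟩
      ext v
      obtain ⟨w, hw, w', hw', rfl⟩ := Submodule.exists_add_mem_mem_orthogonal (K := W) v
      have e1 : A a (A b w) = A b (A a w) := by
        have := congrArg (fun f => ((f ⟨w, hw⟩ : W) : V)) (hc1 a ha1 b hb1)
        exact this
      have e2 : A a (A b w') = A b (A a w') := by
        have := congrArg (fun f => ((f ⟨w', hw'⟩ : ↥Wᗮ) : V)) (hc2 a ha2 b hb2)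
        exact this
      simp only [ContinuousLinearMap.mul_apply, map_add]
      show A a (A b w) + A a (A b w') = A b (A a w) + A b (A a w')
      rw [e1, e2]

/-- **(8)** an isometric finite-dimensional representation of a finitely generated group of
polynomial growth is commutative on a finite index subgroup. -/
theorem virtually_comm {G : Type u} [Group G] {d : ℕ} {S : Set G} (hS : S.Finite)
    (h1 : (1 : G) ∈ S) (hinv : S⁻¹ = S) (hgen : Subgroup.closure S = ⊤) {C : ℕ}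
    (hC : ∀ L : ℕ, (S ^ L).ncard ≤ C * (L + 1) ^ d)
    {V : Type v} [NormedAddCommGroup V] [InnerProductSpace ℂ V] [FiniteDimensional ℂ V]
    (A : G →* (V ≃ₗᵢ[ℂ] V)) :
    ∃ H : Subgroup G, H.FiniteIndex ∧ ∀ a ∈ H, ∀ b ∈ H, A a * A b = A b * A a := by
  have hfg : Group.FG G := Group.fg_iff.mpr ⟨S, hgen, hS⟩
  have hG : PG d G := PG.of_gen hS h1 hinv hgen hC
  let A' : G →* (V →L[ℂ] V) :=
    { toFun := fun g => (A g).toContinuousLinearEquiv.toContinuousLinearMap
      map_one' := by ext v; simp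
      map_mul' := fun g h => by ext v; simp }
  have hA' : ∀ g v, ‖A' g v‖ = ‖v‖ := fun g v => (A g).norm_map v
  obtain ⟨H, hH, hc⟩ := main d _ G hG V rfl A' hA'
  refine ⟨H, hH, fun a ha b hb => ?_⟩
  ext v
  exact congrArg (fun f => f v) (hc a ha b hb)

/-- a finitely generated group with infinite abelianization maps nontrivially to `ℂ`. -/
theorem exists_hom_of_infinite_ab {G : Type u} [Group G] [Group.FG G]
    (hinf : ¬ (commutator G).FiniteIndex) : ∃ φ : G →* Multiplicative ℂ, φ ≠ 1 := by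
  have hfg : Group.FG (Abelianization G) := Group.fg_of_surjective (f := Abelianization.of)
    (QuotientGroup.mk_surjective)
  have hfg' : AddGroup.FG (Additive (Abelianization G)) := (GroupFG.iff_add_fg).mp hfg
  obtain ⟨n, ι, _, p, hp, e, ⟨f⟩⟩ :=
    AddCommGroup.equiv_free_prod_directSum_zmod (Additive (Abelianization G))
  rcases Nat.eq_zero_or_pos n with hn | hn
  · exfalso
    apply hinf
    subst hn
    have hne : ∀ i, NeZero (p i ^ e i) := fun i => ⟨pow_ne_zero _ (hp i).ne_zero⟩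
    have h1 : Finite (DirectSum ι fun i => ZMod (p i ^ e i)) :=
      Finite.of_equiv _ DFinsupp.equivFunOnFintype.symm
    have h2 : Finite (Additive (Abelianization G)) := Finite.of_equiv _ f.symm.toEquiv
    have h3 : Finite (G ⧸ commutator G) := h2
    exact Subgroup.finiteIndex_of_finite_quotient
  · let j : Fin n := ⟨0, hn⟩
    let ψ : Additive (Abelianization G) →+ ℂ :=
      (Int.castAddHom ℂ).comp ((Finsupp.applyAddHom j).comp ((AddMonoidHom.fst _ _).comp f.toAddMonoidHom))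
    let φ : G →* Multiplicative ℂ := (AddMonoidHom.toMultiplicative ψ).comp
      ((MonoidHom.id (Abelianization G)).comp Abelianization.of)
    refine ⟨φ, fun h => ?_⟩
    obtain ⟨g, hg⟩ := QuotientGroup.mk_surjective (s := commutator G)
      (Additive.toMul (f.symm (Finsupp.single j 1, 0)))
    have h1 : φ g = 1 := by rw [h]; rfl
    have h2 : ψ (f.symm (Finsupp.single j 1, 0)) = 0 := by
      have : (Additive.ofMul (QuotientGroup.mk g : Abelianization G)) = f.symm (Finsupp.single j 1, 0) := by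
        rw [hg]; rfl
      rw [← this]
      exact h1
    have h3 : ψ (f.symm (Finsupp.single j 1, 0)) = 1 := by
      simp [ψ]
    rw [h3] at h2
    exact one_ne_zero h2

/-- **(9)**, group part: polynomial growth + unbounded unitary cocycle give a nonzero additive
homomorphism to `ℂ` on a finite index subgroup. -/
theorem exists_hom {G : Type u} [Group G] {d : ℕ} {S : Set G} (hS : S.Finite)
    (h1 : (1 : G) ∈ S) (hinv : S⁻¹ = S) (hgen : Subgroup.closure S = ⊤) {C : ℕ}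
    (hC : ∀ L : ℕ, (S ^ L).ncard ≤ C * (L + 1) ^ d)
    {V : Type v} [NormedAddCommGroup V] [InnerProductSpace ℂ V] [FiniteDimensional ℂ V]
    (A : G →* (V ≃ₗᵢ[ℂ] V)) (b : G → V) (hb : ∀ g h, b (g * h) = A g (b h) + b g)
    (hunb : ∀ R : ℝ, ∃ g, R < ‖b g‖) :
    ∃ H : Subgroup G, H.FiniteIndex ∧ ∃ φ : H →* Multiplicative ℂ, φ ≠ 1 := by
  obtain ⟨H, hH, hc⟩ := virtually_comm hS h1 hinv hgen hC A
  have hfg : Group.FG G := Group.fg_iff.mpr ⟨S, hgen, hS⟩
  have hfgH : Group.FG H := inferInstance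
  by_cases hinf : (commutator H).FiniteIndex
  · set K : Subgroup G := (commutator H).map H.subtype with hK
    have hKfin : K.FiniteIndex := by
      rw [Subgroup.finiteIndex_iff, hK, Subgroup.index_map_subtype]
      exact mul_ne_zero (Subgroup.finiteIndex_iff.mp hinf) (Subgroup.finiteIndex_iff.mp hH)
    -- `A` is trivial on `K`
    have hAK : ∀ k ∈ K, A k = 1 := by
      have hle : commutator H ≤ (A.comp H.subtype).ker := by
        rw [commutator_eq_closure, Subgroup.closure_le]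
        rintro _ ⟨x, y, rfl⟩
        show A (H.subtype _) = 1
        rw [commutatorElement_def]
        simp only [map_mul, map_inv]
        have := hc x x.2 y y.2
        show A x * A y * (A x)⁻¹ * (A y)⁻¹ = 1
        rw [this]
        group
      rintro _ ⟨k, hk, rfl⟩
      exact hle hk
    have hb1 : b 1 = 0 := by
      have := hb 1 1
      rw [one_mul, map_one] at this
      have h2 : b 1 = b 1 + b 1 := this
      exact left_eq_add.mp h2
    -- `b` is unbounded on `K`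
    have hne : ∃ k ∈ K, b k ≠ 0 := by
      by_contra hcon
      push Not at hcon
      have hfin : Finite (G ⧸ K) := inferInstance
      have hb2 : ∀ g : G, b g = b (QuotientGroup.mk g : G ⧸ K).out := by
        intro g
        obtain ⟨k, hk⟩ := QuotientGroup.mk_out_eq_mul K g
        have h3 := hb g k
        rw [hcon k k.2, map_zero, zero_add] at h3
        rw [hk, h3]
      obtain ⟨R, hR⟩ : ∃ R : ℝ, ∀ q : G ⧸ K, ‖b q.out‖ ≤ R := by
        obtain ⟨R, hR⟩ := (Set.finite_range fun q : G ⧸ K => ‖b q.out‖).bddAbove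
        exact ⟨R, fun q => hR ⟨q, rfl⟩⟩
      obtain ⟨g, hg⟩ := hunb R
      rw [hb2 g] at hg
      exact absurd (hR _) (not_le.mpr hg)
    obtain ⟨k, hk, hbk⟩ := hne
    refine ⟨K, hKfin, ?_⟩
    let φ : K →* Multiplicative ℂ :=
      { toFun := fun g => Multiplicative.ofAdd (inner ℂ (b k) (b g))
        map_one' := by
          show Multiplicative.ofAdd (inner ℂ (b k) (b 1)) = 1
          rw [hb1, inner_zero_right]; rfl
        map_mul' := fun x y => by
          show Multiplicative.ofAdd (inner ℂ (b k) (b (x * y))) = _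
          rw [hb, hAK x x.2, inner_add_right, ← ofAdd_add, add_comm]
          rfl }
    refine ⟨φ, fun h => ?_⟩
    have h2 : φ ⟨k, hk⟩ = 1 := by rw [h]; rfl
    have h3 : inner ℂ (b k) (b k) = 0 := h2
    exact hbk (inner_self_eq_zero.mp h3)
  · exact ⟨H, hH, exists_hom_of_infinite_ab hinf⟩

end Crest.Agent.R273.UPoly_79
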