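import Crest.Agent.R273.Dsc_333
import Crest.Agent.R273.GamR_155
import Crest.Agent.R273.DVec_733

/-!
# R273 (S0416), leaf UPV (helper914): the polyvector half of the bridge BB

* `nul_GamR`, `nul_Gam`  : push-forward of null vectors under matrices
* `In g d`, `xt g v`     : horizontal extension `Λ ℂ^d → Λ ℂ^(g+d)`
* `cur_pull`             : the curvature of a pulled back metric (matrix form)
* `cur_snd`              : the curvature of a metric constant along `ℂ^g`
* `pullV h T v`          : pull-back of polyvectors with values in a line bundle along a locally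
                           biholomorphic map; `pullV_mem_PV`, `pullV_nul`
* `exists_NV`            : semi-invariant null polyvectors of the fibre give null polyvectors on `M`
-/

set_option autoImplicit false
set_option linter.unusedSectionVars false

open Set Filter Topology Complex Matrix
open scoped ContDiff Matrix ComplexConjugate Manifold ComplexOrder

namespace Crest.Agent.R273.UpV_914

open Crest.Agent.R275.Geo Crest.Agent.R275.Core144 Crest.Agent.R275.GC293
open Crest.Agent.R275.Prod363 Crest.Agent.R275.EDR890 Crest.Agent.R275.Kos798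
open Crest.Agent.R273.Defs_333 Crest.Agent.R273.Kah_333 Crest.Agent.R273.Vol_333
open Crest.Agent.R273.Hess_333 Crest.Agent.R273.HessB_333
open Crest.Agent.R273.Map_835 Crest.Agent.R273.PB_835 Crest.Agent.R273.EA_333
open Crest.Agent.R273.UCov_914 Crest.Agent.R273.Prd_835 Crest.Agent.R273.Sus_333
open Crest.Agent.R273.HM_333 Crest.Agent.R273.TorDefs_422 Crest.Agent.R273.Dsc_333
open Crest.Agent.R273.Fock_243 (FI Gam Gam_mul Gam_one iW iW_eq_sum)
open Crest.Agent.R273.GamR_155 Crest.Agent.R273.Wdg_578 Crest.Agent.R273.NV_578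

noncomputable section

/-! ### null vectors -/

section alg

variable {R : Type*} [CommRing R] {m n : ℕ}

theorem Nul_mulVec {Θ : Matrix (Fin n) (Fin n) R} {v : FI n → R} (hv : Nul Θ v) (s : Fin n → R) :
    iW (Θ *ᵥ s) *ᵥ v = 0 := by
  have h1 : Θ *ᵥ s = ∑ b, s b • (fun d => Θ d b) := by
    ext d
    simp [Matrix.mulVec, dotProduct, Finset.sum_apply, mul_comm]
  have h2 : iW (Θ *ᵥ s) *ᵥ v = ii (Θ *ᵥ s) v := by rw [ii_eq]; rfl
  rw [h2, h1, ← iL_apply, map_sum, LinearMap.sum_apply]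
  refine Finset.sum_eq_zero fun b _ => ?_
  rw [map_smul, LinearMap.smul_apply, iL_apply, hv b, smul_zero]

/-- push-forward of null vectors -/
theorem nul_GamR {Θ : Matrix (Fin m) (Fin m) R} {Θ' : Matrix (Fin n) (Fin n) R}
    {T : Matrix (Fin m) (Fin n) R} {S : Matrix (Fin n) (Fin m) R} (h : Tᵀ * Θ = Θ' * S)
    {v : FI n → R} (hv : Nul Θ' v) : Nul Θ (GamR T *ᵥ v) := by
  intro c
  have h1 : ii (fun d => Θ d c) (GamR T *ᵥ v) = iW (fun d => Θ d c) *ᵥ (GamR T *ᵥ v) := by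
    rw [ii_eq]; rfl
  have h2 : Tᵀ *ᵥ (fun d => Θ d c) = Θ' *ᵥ (fun b => S b c) := by
    ext a
    have := congrFun (congrFun h a) c
    rw [Matrix.mul_apply, Matrix.mul_apply] at this
    exact this
  rw [h1, Matrix.mulVec_mulVec, iW_GamR, ← Matrix.mulVec_mulVec, h2, Nul_mulVec hv,
    Matrix.mulVec_zero]

end alg

theorem det_map_conj_ne {n : ℕ} {T : Matrix (Fin n) (Fin n) ℂ} (hT : T.det ≠ 0) :
    (T.map conj).det ≠ 0 := by
  rw [Sus.det_map_conj]
  exact (map_ne_zero _).2 hT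

theorem nul_Gam {n : ℕ} {Θ T : Matrix (Fin n) (Fin n) ℂ} (hT : T.det ≠ 0) {v : FI n → ℂ}
    (hv : Nul (Tᵀ * Θ * T.map conj) v) : Nul Θ (Gam T *ᵥ v) := by
  have h1 : IsUnit (T.map conj).det := isUnit_iff_ne_zero.2 (det_map_conj_ne hT)
  refine nul_GamR (S := (T.map conj)⁻¹) ?_ hv
  rw [Matrix.mul_assoc (Tᵀ * Θ), Matrix.mul_nonsing_inv _ h1, Matrix.mul_one]

/-! ### the horizontal extension -/

section ext

/-- the inclusion of the last `d` coordinates -/
def In (g d : ℕ) : Matrix (Fin (g + d)) (Fin d) ℂ :=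
  Matrix.of fun a b => if a = Fin.natAdd g b then 1 else 0

variable {g d : ℕ}

theorem In_l (a : Fin g) (b : Fin d) : In g d (Fin.castAdd d a) b = 0 := by
  simp only [In, Matrix.of_apply]
  rw [if_neg]
  intro h
  have := congrArg Fin.val h
  simp at this
  omega

theorem In_r (a b : Fin d) : In g d (Fin.natAdd g a) b = if a = b then 1 else 0 := by
  simp only [In, Matrix.of_apply, Fin.natAdd_inj]

theorem blk_mul_In (X : Matrix (Fin g) (Fin g) ℂ) (J : Matrix (Fin d) (Fin d) ℂ) :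
    blk X J * In g d = In g d * J := by
  ext a b
  rw [Matrix.mul_apply, Matrix.mul_apply, Fin.sum_univ_add]
  simp only [In_l, In_r, mul_zero, Finset.sum_const_zero, zero_add]
  induction a using Fin.addCases with
  | left a => simp [blk_lr, In_l]
  | right a => simp [blk_rr, In_r]

theorem InT_mul_blk (X : Matrix (Fin g) (Fin g) ℂ) (J : Matrix (Fin d) (Fin d) ℂ) :
    (In g d)ᵀ * blk X J = J * (In g d)ᵀ := by
  have h := congrArg Matrix.transpose (blk_mul_In (Xᵀ) (Jᵀ))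
  rw [Matrix.transpose_mul, Matrix.transpose_mul, blk_transpose, Matrix.transpose_transpose,
    Matrix.transpose_transpose] at h
  exact h

theorem InT_mul_In : (In g d)ᵀ * In g d = 1 := by
  ext a b
  rw [Matrix.mul_apply, Fin.sum_univ_add]
  simp [In_l, In_r, Matrix.one_apply, eq_comm]

variable (g) in
/-- horizontal extension -/
def xt (v : FI d → ℂ) : FI (g + d) → ℂ := GamR (In g d) *ᵥ v

theorem xt_inj {v : FI d → ℂ} (h : xt g v = 0) : v = 0 := by
  have h1 := congrArg (fun u => GamR (In g d)ᵀ *ᵥ u) h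
  simp only [xt, Matrix.mulVec_mulVec, ← GamR_mul, InT_mul_In, GamR_one, Matrix.one_mulVec,
    Matrix.mulVec_zero] at h1
  exact h1

theorem Gam_blk_xt (X : Matrix (Fin g) (Fin g) ℂ) (J : Matrix (Fin d) (Fin d) ℂ) (v : FI d → ℂ) :
    Gam (blk X J) *ᵥ xt g v = xt g (Gam J *ᵥ v) := by
  unfold xt
  rw [Matrix.mulVec_mulVec, Matrix.mulVec_mulVec, ← GamR_eq_Gam, ← GamR_eq_Gam, ← GamR_mul,
    ← GamR_mul, blk_mul_In]

theorem xt_smul (c : ℂ) (v : FI d → ℂ) : xt g (c • v) = c • xt g v := Matrix.mulVec_smul _ _ _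

theorem xt_zero : xt g (0 : FI d → ℂ) = 0 := Matrix.mulVec_zero _

theorem xt_card {q : ℕ} {v : FI d → ℂ} (hv : ∀ S, S.card ≠ q → v S = 0) (T : FI (g + d))
    (hT : T.card ≠ q) : xt g v T = 0 := by
  show ∑ S, GamR (In g d) T S * v S = 0
  refine Finset.sum_eq_zero fun S _ => ?_
  by_cases h : T.card = S.card
  · rw [hv S (fun h' => hT (h.trans h')), mul_zero]
  · rw [GamR_of_ne _ h, zero_mul]

theorem nul_xt {X : Matrix (Fin g) (Fin g) ℂ} {Θ : Matrix (Fin d) (Fin d) ℂ} {v : FI d → ℂ}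
    (hv : Nul Θ v) : Nul (blk X Θ) (xt g v) := nul_GamR (InT_mul_blk X Θ) hv

end ext

/-! ### Hessians -/

section hess

variable {g d : ℕ}

theorem wd_snd_r {f : Cn d → ℂ} {z : Cn (g + d)} (hf : DifferentiableAt ℝ f (sndL g d z))
    (s : Bool) (b : Fin d) :
    wd (s, Fin.natAdd g b) (fun w => f (sndL g d w)) z = wd (s, b) f (sndL g d z) := by
  have h1 : fderiv ℝ (fun w => f (sndL g d w)) z =
      (fderiv ℝ f (sndL g d z)).comp ((sndL g d : Cn (g + d) →L[ℂ] Cn d).restrictScalars ℝ) :=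
    (hf.hasFDerivAt.comp z ((sndL g d : Cn (g + d) →L[ℂ] Cn d).restrictScalars ℝ).hasFDerivAt).fderiv
  have hI : (EuclideanSpace.single (Fin.natAdd g b) I : Cn (g + d)) =
      I • EuclideanSpace.single (Fin.natAdd g b) (1 : ℂ) := by
    ext c
    simp [PiLp.single_apply]
  have hI' : (EuclideanSpace.single b I : Cn d) = I • EuclideanSpace.single b (1 : ℂ) := by
    ext c
    simp [PiLp.single_apply]
  rw [wd, wd, wdL, wdL, h1]
  simp only [ContinuousLinearMap.comp_apply, ContinuousLinearMap.coe_restrictScalars', hI, hI',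
    map_smul, sndL_single_r]

theorem wd_snd_l {f : Cn d → ℂ} {z : Cn (g + d)} (hf : DifferentiableAt ℝ f (sndL g d z))
    (s : Bool) (a : Fin g) :
    wd (s, Fin.castAdd d a) (fun w => f (sndL g d w)) z = 0 := by
  have h1 : fderiv ℝ (fun w => f (sndL g d w)) z =
      (fderiv ℝ f (sndL g d z)).comp ((sndL g d : Cn (g + d) →L[ℂ] Cn d).restrictScalars ℝ) :=
    (hf.hasFDerivAt.comp z ((sndL g d : Cn (g + d) →L[ℂ] Cn d).restrictScalars ℝ).hasFDerivAt).fderiv
  have hI : (EuclideanSpace.single (Fin.castAdd d a) I : Cn (g + d)) =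
      I • EuclideanSpace.single (Fin.castAdd d a) (1 : ℂ) := by
    ext c
    simp [PiLp.single_apply]
  rw [wd, wdL, h1]
  simp only [ContinuousLinearMap.comp_apply, ContinuousLinearMap.coe_restrictScalars', hI,
    map_smul, sndL_single_l, smul_zero, map_zero]
  simp

theorem hess_snd {u : Cn d → ℝ} {z : Cn (g + d)} (hu : ContDiffAt ℝ ∞ u (sndL g d z)) :
    hess (fun w => u (sndL g d w)) z = blk 0 (hess u (sndL g d z)) := by
  have hc : ContinuousAt (fun w => sndL g d w) z := (sndL g d).continuous.continuousAt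
  have hd : ∀ᶠ w in 𝓝 z, DifferentiableAt ℝ (cu u) (sndL g d w) := hc.eventually (eventually_diff hu)
  have h1 : ∀ b : Fin d, wd (true, Fin.natAdd g b) (cu fun w => u (sndL g d w)) =ᶠ[𝓝 z]
      fun w => wd (true, b) (cu u) (sndL g d w) := by
    intro b
    filter_upwards [hd] with w hw
    exact wd_snd_r (f := cu u) hw true b
  have h2 : ∀ a : Fin g, wd (true, Fin.castAdd d a) (cu fun w => u (sndL g d w)) =ᶠ[𝓝 z]
      fun _ => 0 := by
    intro a
    filter_upwards [hd] with w hw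
    exact wd_snd_l (f := cu u) hw true a
  have h3 : ∀ b : Fin d, DifferentiableAt ℝ (wd (true, b) (cu u)) (sndL g d z) := fun b =>
    (contDiffAt_wd (contDiffAt_cu hu) _).differentiableAt (by simp)
  have h4 : ∀ s : WI (g + d), wd s (fun _ : Cn (g + d) => (0 : ℂ)) z = 0 := by
    intro s
    simp [wd, wdL]
  refine blk_ext _ _ (fun a b => ?_) (fun a b => ?_) (fun a b => ?_) (fun a b => ?_)
  · rw [hess_apply, wd_congr (h2 b), h4]; rfl
  · rw [hess_apply, wd_congr (h1 b), wd_snd_r (h3 b)]; rfl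
  · rw [hess_apply, wd_congr (h1 b), wd_snd_l (h3 b)]
  · rw [hess_apply, wd_congr (h2 b), h4]

end hess

/-! ### curvature -/

section cur

variable {n : ℕ} {M N : Type} [TopologicalSpace M] [TopologicalSpace N] {A : Atl n M}
  {B : Atl n N} {p : M → N}

/-- the curvature of a pulled back metric -/
theorem cur_pull {L' : LB A} {L : LB B} (T : PB p L' L) (hp : HolMap A B p) (h : HM L) {i : A.ι}
    {j : B.ι} {x : M} (hx : x ∈ (A.e i).source) (hj : p x ∈ (B.e j).source) :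
    cur (T.pullHM hp h) i x =
      (Jp A B p i j x)ᵀ * cur h j (p x) * (Jp A B p i j x).map conj := by
  have hz : A.e i x ∈ dm A B p i j := mem_dm hx hj
  have ho : IsOpen (dm A B p i j) := hp.isOpen_dm i j
  have hTx : rd A B p i j (A.e i x) = B.e j (p x) := by
    simp only [Map_835.rd]
    rw [(A.e i).left_inv hx]
  have hTd : ∀ᶠ w in 𝓝 (A.e i x), DifferentiableAt ℂ (rd A B p i j) w := by
    filter_upwards [ho.mem_nhds hz] with w hw
    exact hp.diffAt hw
  have hTc : ContDiffAt ℝ ∞ (rd A B p i j) (A.e i x) :=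
    ((hp.analyticAt hz).contDiffAt.restrict_scalars ℝ)
  have hop : IsOpen (p ⁻¹' (B.e j).source) := (B.e j).open_source.preimage hp.cont
  have hfd : ∀ᶠ w in 𝓝 (A.e i x), DifferentiableAt ℂ (fun y => T.c i j ((A.e i).symm y)) w := by
    filter_upwards [ho.mem_nhds hz] with w hw
    exact (T.hol i j).differentiableAt ((isOpen_ti (A := A) (i := i) hop).mem_nhds hw)
  have hf0 : T.c i j ((A.e i).symm (A.e i x)) ≠ 0 := by
    rw [(A.e i).left_inv hx]
    exact T.ne i j x hx hj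
  have hfc : ContDiffAt ℝ ∞ (fun y => T.c i j ((A.e i).symm y)) (A.e i x) :=
    ((T.hol i j).contDiffOn hop).contDiffAt ((isOpen_ti (A := A) (i := i) hop).mem_nhds hz)
  have hv : ContDiffAt ℝ ∞ (h.wt j) (rd A B p i j (A.e i x)) := by
    rw [hTx]; exact wt_contDiffAt h j ((B.e j).map_source hj)
  have hvT : ContDiffAt ℝ ∞ (fun w => h.wt j (rd A B p i j w)) (A.e i x) :=
    hv.comp (A.e i x) hTc
  have hlog : ContDiffAt ℝ ∞ (fun w => Real.log (‖T.c i j ((A.e i).symm w)‖ ^ 2)) (A.e i x) :=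
    (hfc.norm_sq ℝ).log (by positivity)
  have h2 : (T.pullHM hp h).wt i =ᶠ[𝓝 (A.e i x)] fun w => (fun w => h.wt j (rd A B p i j w)) w +
      (fun w => Real.log (‖T.c i j ((A.e i).symm w)‖ ^ 2)) w := by
    filter_upwards [ho.mem_nhds hz] with w hw
    exact T.pullHM_wt hp h hw
  unfold cur
  rw [hess_congr h2, hess_add hvT hlog, hess_log_norm hfd hf0, add_zero]
  ext a b
  rw [hess_comp (u := h.wt j) (T := rd A B p i j) hv hTd, hTx]
  simp only [Matrix.mul_apply, Matrix.transpose_apply, Matrix.map_apply, Finset.sum_mul]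
  rw [Finset.sum_comm]
  rfl

/-- the curvature of a metric which is constant along the first factor -/
theorem cur_snd {g d : ℕ} {X Y : Type} [TopologicalSpace X] [TopologicalSpace Y] {C : Atl g X}
    {B : Atl d Y} {L : LB (C.prod B)} {L' : LB B} (h : HM L) (h' : HM L') {c : ℝ} (hc : 0 < c)
    (H : ∀ (i : C.ι) (j : B.ι), ∀ x ∈ (C.e i).source, ∀ y ∈ (B.e j).source,
      h.w (i, j) (x, y) = c * h'.w j y) {i : C.ι} {j : B.ι} {x : X} {y : Y}
    (hx : x ∈ (C.e i).source) (hy : y ∈ (B.e j).source) :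
    cur h (i, j) (x, y) = blk 0 (cur h' j y) := by
  have e0 : (C.prod B).e (i, j) (x, y) = app (C.e i x) (B.e j y) := rfl
  have e1 : sndL g d ((C.prod B).e (i, j) (x, y)) = B.e j y := by rw [e0, sndL_app]
  have hm : (C.prod B).e (i, j) (x, y) ∈ ((C.prod B).e (i, j)).target :=
    ((C.prod B).e (i, j)).map_source ⟨hx, hy⟩
  have hu : ContDiffAt ℝ ∞ (h'.wt j) (sndL g d ((C.prod B).e (i, j) (x, y))) := by
    rw [e1]; exact wt_contDiffAt h' j ((B.e j).map_source hy)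
  have huc : ContDiffAt ℝ ∞ (fun w => h'.wt j (sndL g d w)) ((C.prod B).e (i, j) (x, y)) :=
    hu.comp _ ((sndL g d : Cn (g + d) →L[ℂ] Cn d).restrictScalars ℝ).contDiff.contDiffAt
  have h2 : h.wt (i, j) =ᶠ[𝓝 ((C.prod B).e (i, j) (x, y))] fun w =>
      (fun w => h'.wt j (sndL g d w)) w + (fun _ => - Real.log c) w := by
    filter_upwards [((C.prod B).e (i, j)).open_target.mem_nhds hm] with w hw
    have h3 : ((C.prod B).e (i, j)).symm w = ((C.e i).symm (fstL g d w), (B.e j).symm (sndL g d w)) :=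
      rfl
    have h4 : (C.e i).symm (fstL g d w) ∈ (C.e i).source := (C.e i).map_target hw.1
    have h5 : (B.e j).symm (sndL g d w) ∈ (B.e j).source := (B.e j).map_target hw.2
    simp only [HM.wt]
    rw [h3, H i j _ h4 _ h5, Real.log_mul hc.ne' (h'.pos j _ h5).ne']
    ring
  have h6 : hess (fun _ : Cn (g + d) => - Real.log c) ((C.prod B).e (i, j) (x, y)) = 0 := by
    have h8 : ∀ a b, hess (fun _ : Cn (g + d) => - Real.log c) ((C.prod B).e (i, j) (x, y)) a b
        = 0 := by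
      intro a b
      have h9 : wd (true, b) (cu fun _ : Cn (g + d) => - Real.log c) = fun _ => 0 := by
        funext w
        have : (cu fun _ : Cn (g + d) => - Real.log c) = fun _ => ((- Real.log c : ℝ) : ℂ) := rfl
        rw [this]
        simp [wd, wdL]
      rw [hess_apply, h9]
      simp [wd, wdL]
    ext a b
    exact h8 a b
  unfold cur
  rw [hess_congr h2, hess_add huc contDiffAt_const, h6, add_zero, hess_snd hu, e1]

end cur

/-! ### pull-back of polyvectors -/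

section pull

variable {n : ℕ} {M N : Type} [TopologicalSpace M] [TopologicalSpace N] {A : Atl n M}
  {B : Atl n N} {p : M → N} {L' : LB A} {L : LB B}

theorem holAt_inv {i : A.ι} {U : Set M} {m : M → Matrix (Fin n) (Fin n) ℂ}
    (h : ∀ a b, HolAt A i U (fun x => m x a b)) (hd : ∀ x ∈ (A.e i).source, x ∈ U → (m x).det ≠ 0)
    (a b : Fin n) : HolAt A i U (fun x => (m x)⁻¹ a b) := by
  have hdet : HolAt A i U (fun x => (m x).det) := holAt_det h
  have hadj : HolAt A i U (fun x => (m x).adjugate a b) := by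
    simp only [Matrix.adjugate_apply]
    refine holAt_det (F := fun x => (m x).updateRow b (Pi.single a 1)) fun c d => ?_
    by_cases hc : c = b
    · subst hc
      simp only [Matrix.updateRow_self]
      exact holAt_const _
    · simp only [Matrix.updateRow_ne hc]
      exact h c d
  refine ((hdet.inv hd).mul hadj).congr fun x _ _ => ?_
  rw [Matrix.inv_def, Matrix.smul_apply, Ring.inverse_eq_inv', smul_eq_mul]

open Classical in
/-- pull-back of a polyvector with values in a line bundle -/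
def pullV (T : PB p L' L) (v : B.ι → N → FI n → ℂ) : A.ι → M → FI n → ℂ := fun i x =>
  if x ∈ (A.e i).source then T.c i (PB.ch B (p x)) x •
    (Gam (Jp A B p i (PB.ch B (p x)) x)⁻¹ *ᵥ v (PB.ch B (p x)) (p x)) else 0

theorem inv_mul_of (X Y Z W : Matrix (Fin n) (Fin n) ℂ) (h : X * Y = Z) (hX : W * X = 1) :
    Z⁻¹ = Y⁻¹ * W := by
  rw [← h, Matrix.mul_inv_rev, Matrix.inv_eq_left_inv hX]

theorem pullV_eq (h : LBih A B p) (T : PB p L' L) {v : B.ι → N → FI n → ℂ} {q : ℕ}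
    (hv : v ∈ PV L q) {i : A.ι} {j : B.ι} {x : M} (hx : x ∈ (A.e i).source)
    (hj : p x ∈ (B.e j).source) :
    pullV T v i x = T.c i j x • (Gam (Jp A B p i j x)⁻¹ *ᵥ v j (p x)) := by
  unfold pullV
  rw [if_pos hx]
  set l := PB.ch B (p x) with hl
  have hlm : p x ∈ (B.e l).source := PB.ch_mem B (p x)
  have h1 := hv.2.2.2 l j (p x) ⟨hlm, hj⟩
  have h2 := T.right i l j x hx ⟨hlm, hj⟩
  have h3 := h.toHolMap.Jp_right hx (j := l) (j' := j) ⟨hlm, hj⟩
  have h4 : Jm B j l (p x) * Jm B l j (p x) = 1 :=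
    DVec_733.Jm_mul_symm (A := B) (i := j) (j := l) ⟨hj, hlm⟩
  have h5 := inv_mul_of _ _ _ _ h3 h4
  rw [h1, Matrix.mulVec_smul, smul_smul, h2, Matrix.mulVec_mulVec, ← Gam_mul, ← h5]

theorem pullV_off (T : PB p L' L) (v : B.ι → N → FI n → ℂ) {i : A.ι} {x : M}
    (hx : x ∉ (A.e i).source) : pullV T v i x = 0 := if_neg hx

theorem pullV_mem_PV (h : LBih A B p) (T : PB p L' L) {v : B.ι → N → FI n → ℂ} {q : ℕ}
    (hv : v ∈ PV L q) : pullV T v ∈ PV L' q := by
  refine ⟨fun i S => ?_, fun i x hx => pullV_off T v hx, fun i x S hS => ?_,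
    fun i i' x hx => ?_⟩
  · refine holAt_of_local fun x hx _ => ?_
    obtain ⟨j, hj⟩ := B.cover (p x)
    refine ⟨p ⁻¹' (B.e j).source, (B.e j).open_source.preimage h.cont, hj, ?_⟩
    have h1 : HolAt A i (p ⁻¹' (B.e j).source)
        (fun x => T.c i j x * ∑ U, Gam (Jp A B p i j x)⁻¹ S U * v j (p x) U) := by
      refine (T.hol i j).mul (HolAt.sum _ fun U _ => HolAt.mul ?_ ?_)
      · exact DVec_733.holAt_Gam (m := fun x => (Jp A B p i j x)⁻¹)
          (holAt_inv (fun a b => h.holAt_Jp i j a b) fun x hx hxU => h.det i j x hx hxU) S U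
      · have h2 := h.toHolMap.comp_holAt (i := i) (j := j) (V := univ) (hv.1 j U)
        exact h2.mono fun y hy => ⟨mem_univ _, hy⟩
    refine h1.congr fun y hy hyU => ?_
    rw [pullV_eq h T hv hy hyU]
    rfl
  · by_cases hx : x ∈ (A.e i).source
    · obtain ⟨j, hj⟩ := B.cover (p x)
      rw [pullV_eq h T hv hx hj, Pi.smul_apply]
      have h1 : (Gam (Jp A B p i j x)⁻¹ *ᵥ v j (p x)) S = 0 := by
        show ∑ U, Gam (Jp A B p i j x)⁻¹ S U * v j (p x) U = 0
        refine Finset.sum_eq_zero fun U _ => ?_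
        by_cases hU : S.card = U.card
        · rw [hv.2.2.1 j (p x) U (fun h' => hS (hU.trans h')), mul_zero]
        · rw [Fock_243.Gam_of_ne _ hU, zero_mul]
      rw [h1, smul_zero]
    · rw [pullV_off T v hx]; rfl
  · obtain ⟨j, hj⟩ := B.cover (p x)
    rw [pullV_eq h T hv hx.1 hj, pullV_eq h T hv hx.2 hj, Matrix.mulVec_smul, smul_smul,
      T.left i i' j x hx hj, Matrix.mulVec_mulVec, ← Gam_mul]
    have h1 := h.toHolMap.Jp_left hx hj
    have h2 : Jm A i i' x * Jm A i' i x = 1 := DVec_733.Jm_mul_symm hx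
    have h3 : (Jp A B p i j x)⁻¹ = Jm A i' i x * (Jp A B p i' j x)⁻¹ := by
      rw [← h1, Matrix.mul_inv_rev, Matrix.inv_eq_right_inv h2]
    rw [h3]

/-- pull-back of null polyvectors, for metrics with corresponding curvatures -/
theorem pullV_nul (h : LBih A B p) (T : PB p L' L) {L₁ : LB A} {L₂ : LB B} {hA : HM L₁}
    {hB : HM L₂} (hc : ∀ i j, ∀ x ∈ (A.e i).source, p x ∈ (B.e j).source →
      cur hA i x = (Jp A B p i j x)ᵀ * cur hB j (p x) * (Jp A B p i j x).map conj)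
    {v : B.ι → N → FI n → ℂ} {q : ℕ} (hv : v ∈ PV L q) (hn : v ∈ NulS hB) :
    pullV T v ∈ NulS hA := by
  intro i x hx
  obtain ⟨j, hj⟩ := B.cover (p x)
  rw [pullV_eq h T hv hx hj]
  refine Nul.smul ?_ _
  have h1 : (Jp A B p i j x).det ≠ 0 := h.det i j x hx hj
  have h2 : IsUnit (Jp A B p i j x).det := isUnit_iff_ne_zero.2 h1
  refine nul_Gam ?_ ?_
  · rw [Matrix.det_nonsing_inv, Ring.inverse_eq_inv']
    exact inv_ne_zero h1
  · have h3 : ((Jp A B p i j x)⁻¹)ᵀ * cur hA i x * ((Jp A B p i j x)⁻¹).map conj =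
        cur hB j (p x) := by
      rw [hc i j x hx hj]
      have h4 : ((Jp A B p i j x)⁻¹)ᵀ * (Jp A B p i j x)ᵀ = 1 := by
        rw [← Matrix.transpose_mul, Matrix.mul_nonsing_inv _ h2, Matrix.transpose_one]
      have h5 : (Jp A B p i j x).map conj * ((Jp A B p i j x)⁻¹).map conj = 1 := by
        rw [← Matrix.map_mul, Matrix.mul_nonsing_inv _ h2]
        simp
      calc ((Jp A B p i j x)⁻¹)ᵀ * ((Jp A B p i j x)ᵀ * cur hB j (p x) *
            (Jp A B p i j x).map conj) * ((Jp A B p i j x)⁻¹).map conj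
          = (((Jp A B p i j x)⁻¹)ᵀ * (Jp A B p i j x)ᵀ) * cur hB j (p x) *
            ((Jp A B p i j x).map conj * ((Jp A B p i j x)⁻¹).map conj) := by
              simp only [Matrix.mul_assoc]
        _ = cur hB j (p x) := by rw [h4, h5, Matrix.one_mul, Matrix.mul_one]
    rw [h3]
    exact hn j (p x) hj

theorem pullV_mem_NV (h : LBih A B p) (T : PB p L' L) {L₁ : LB A} {L₂ : LB B} {hA : HM L₁}
    {hB : HM L₂} (hc : ∀ i j, ∀ x ∈ (A.e i).source, p x ∈ (B.e j).source →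
      cur hA i x = (Jp A B p i j x)ᵀ * cur hB j (p x) * (Jp A B p i j x).map conj)
    {v : B.ι → N → FI n → ℂ} {q : ℕ} (hv : v ∈ NV L hB q) : pullV T v ∈ NV L' hA q :=
  ⟨pullV_mem_PV h T hv.1, pullV_nul h T hc hv.1 hv.2⟩

/-- injectivity of the pull-back under surjective maps -/
theorem pullV_ne_zero (h : LBih A B p) (hs : Function.Surjective p) (T : PB p L' L)
    {v : B.ι → N → FI n → ℂ} {q : ℕ} (hv : v ∈ PV L q) (hne : v ≠ 0) : pullV T v ≠ 0 := by
  intro h0
  apply hne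
  funext j y
  by_cases hy : y ∈ (B.e j).source
  · obtain ⟨x, rfl⟩ := hs y
    obtain ⟨i, hi⟩ := A.cover x
    have h1 := congrFun (congrFun h0 i) x
    rw [pullV_eq h T hv hi hy] at h1
    have h2 : Gam (Jp A B p i j x)⁻¹ *ᵥ v j (p x) = 0 :=
      (smul_eq_zero.1 h1).resolve_left (T.ne i j x hi hy)
    have h3 := congrArg (fun u => Gam (Jp A B p i j x) *ᵥ u) h2
    simp only [Matrix.mulVec_mulVec, ← Gam_mul, Matrix.mulVec_zero] at h3
    rw [Matrix.mul_nonsing_inv _ (isUnit_iff_ne_zero.2 (h.det i j x hi hy)), Gam_one,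
      Matrix.one_mulVec] at h3
    exact h3
  · exact hv.2.1 j y hy

end pull

/-! ### the horizontal extension of a polyvector -/

section horiz

variable {g d : ℕ} {Y : Type} [TopologicalSpace Y] {B : Atl d Y}

open Classical in
/-- horizontal extension of a family -/
def upV (g : ℕ) (w : B.ι → Y → FI d → ℂ) : ((EA g).prod B).ι → Cn g × Y → FI (g + d) → ℂ :=
  fun i x => if x.1 ∈ ((EA g).e i.1).source then xt g (w i.2 x.2) else 0

theorem upV_apply {w : B.ι → Y → FI d → ℂ} {i : (EA g).ι} {j : B.ι} {z : Cn g} {y : Y}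
    (hz : z ∈ ((EA g).e i).source) : upV g w (i, j) (z, y) = xt g (w j y) := if_pos hz

theorem Jm_prod {i i' : (EA g).ι} {j j' : B.ι} {z : Cn g} {y : Y}
    (hz : z ∈ ((EA g).e i).source ∩ ((EA g).e i').source)
    (hy : y ∈ (B.e j).source ∩ (B.e j').source) :
    Jm ((EA g).prod B) (i, j) (i', j') (z, y) = blk 1 (Jm B j j' y) := by
  have h1 := Jp_prodMap (holMap_id (EA g)) (holMap_id B) (i := i) (j := j) (i' := i') (j' := j')
    (x := z) (y := y) hz.1 hy.1 hz.2 hy.2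
  have h2 : Jp (EA g) (EA g) id i i' z = Jm (EA g) i i' z := rfl
  rw [h2, Jm_EA] at h1
  exact h1

theorem upV_mem_PV {w : B.ι → Y → FI d → ℂ} {k q : ℕ} (hw : w ∈ PV ((KB B)⁻¹ ^ k) q) :
    upV g w ∈ PV ((KB ((EA g).prod B))⁻¹ ^ k) q := by
  refine ⟨fun i S => ?_, fun i x hx => ?_, fun i x S hS => ?_, fun i i' x hx => ?_⟩
  · have h1 : HolAt ((EA g).prod B) i univ
        (fun x => ∑ U, GamR (In g d) S U * w i.2 x.2 U) := by
      refine HolAt.sum _ fun U _ => HolAt.const_mul _ ?_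
      have h2 := (holMap_snd (A := EA g) (B := B)).comp_holAt (i := i) (j := i.2) (V := univ)
        (hw.1 i.2 U)
      have h3 : HolAt ((EA g).prod B) i (((EA g).prod B).e i).source (fun x => w i.2 x.2 U) :=
        h2.mono fun x hx => ⟨mem_univ _, hx.2⟩
      exact fun z hz => by
        have h4 := h3 z ⟨hz.1, (((EA g).prod B).e i).map_target hz.1⟩
        refine h4.mono_of_mem_nhdsWithin ?_
        filter_upwards [self_mem_nhdsWithin] with w hw
        exact ⟨hw.1, (((EA g).prod B).e i).map_target hw.1⟩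
    refine h1.congr fun x hx _ => ?_
    have h5 : upV g w i x = xt g (w i.2 x.2) := upV_apply (i := i.1) (j := i.2) hx.1
    rw [h5]
    rfl
  · by_cases h1 : x.1 ∈ ((EA g).e i.1).source
    · have h2 : x.2 ∉ (B.e i.2).source := fun h => hx ⟨h1, h⟩
      unfold upV
      rw [if_pos h1, hw.2.1 _ _ h2, xt_zero]
    · exact if_neg h1
  · by_cases h1 : x.1 ∈ ((EA g).e i.1).source
    · unfold upV
      rw [if_pos h1]
      exact xt_card (fun U hU => hw.2.2.1 _ _ U hU) S hS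
    · unfold upV
      rw [if_neg h1]; rfl
  · obtain ⟨i, j⟩ := i
    obtain ⟨i', j'⟩ := i'
    obtain ⟨z, y⟩ := x
    have hz : z ∈ ((EA g).e i).source ∩ ((EA g).e i').source := ⟨hx.1.1, hx.2.1⟩
    have hy : y ∈ (B.e j).source ∩ (B.e j').source := ⟨hx.1.2, hx.2.2⟩
    rw [upV_apply hz.1, upV_apply hz.2, hw.2.2.2 j j' y hy, xt_smul, Jm_prod hz.symm hy.symm,
      Gam_blk_xt, LB_pow_g, LB_pow_g, LB.inv_g, LB.inv_g, KB_prod hz hy, KB_EA hz, one_mul]

theorem upV_nul {w : B.ι → Y → FI d → ℂ} {L : LB ((EA g).prod B)} {L' : LB B} {hP : HM L}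
    {hY : HM L'} (hc : ∀ (i : (EA g).ι) (j : B.ι), ∀ z ∈ ((EA g).e i).source,
      ∀ y ∈ (B.e j).source, cur hP (i, j) (z, y) = blk 0 (cur hY j y)) (hw : w ∈ NulS hY) :
    upV g w ∈ NulS hP := by
  rintro ⟨i, j⟩ ⟨z, y⟩ ⟨hz, hy⟩
  rw [hc i j z hz y hy, upV_apply hz]
  exact nul_xt (hw j y hy)

theorem upV_ne_zero {w : B.ι → Y → FI d → ℂ} (hne : w ≠ 0) : upV g w ≠ 0 := by
  intro h0
  apply hne
  funext j y
  obtain ⟨i, hi⟩ := (EA g).cover (0 : Cn g)
  have h1 := congrFun (congrFun h0 (i, j)) ((0 : Cn g), y)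
  rw [upV_apply hi] at h1
  exact xt_inj h1

end horiz

/-! ### the bridge -/

section bridge

variable {g d : ℕ} {M : Type} [TopologicalSpace M] {A : Atl (g + d) M} {G : Type} [CommGroup G]
  {D : MonD A G} {K : Kah A} {Y : Type} [TopologicalSpace Y] [MulAction G Y]
  {B : Atl d Y} (S : Sus D K B)

/-- the metric `volK K` pulled back to `ℂ^g × Y` -/
def hP : HM (KB ((EA g).prod B))⁻¹ := (PB.KB S.lb_π).inv.pullHM S.lb_π.toHolMap (volK K)

theorem hP_w {i : (EA g).ι} {j : B.ι} {z : Cn g} {y : Y} (hz : z ∈ ((EA g).e i).source)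
    (hy : y ∈ (B.e j).source) : (hP S).w (i, j) (z, y) = S.G0.det.re * (volK S.KY).w j y := by
  obtain ⟨a, ha⟩ := A.cover (S.π (z, y))
  have hzy : (z, y) ∈ (((EA g).prod B).e (i, j)).source := ⟨hz, hy⟩
  unfold hP
  rw [(PB.KB S.lb_π).inv.pullHM_w S.lb_π.toHolMap (volK K) hzy ha, ← S.vol_eq hz hy ha]
  have h1 : (PB.KB S.lb_π).inv.c (i, j) a (z, y) =
      ((Jp ((EA g).prod B) A S.π (i, j) a (z, y)).det)⁻¹ := rfl
  have h2 : (Jp ((EA g).prod B) A S.π (i, j) a (z, y)).det ≠ 0 :=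
    S.lb_π.det (i, j) a (z, y) hzy ha
  rw [h1, norm_inv]
  have h3 : ‖(Jp ((EA g).prod B) A S.π (i, j) a (z, y)).det‖ ≠ 0 := norm_ne_zero_iff.2 h2
  field_simp

theorem cur_hP {i : (EA g).ι} {j : B.ι} {z : Cn g} {y : Y} (hz : z ∈ ((EA g).e i).source)
    (hy : y ∈ (B.e j).source) : cur (hP S) (i, j) (z, y) = blk 0 (cur (volK S.KY) j y) :=
  cur_snd (hP S) (volK S.KY) (det_re_pos S.G0pos) (fun _ _ _ hx _ hy => hP_w S hx hy) hz hy

/-- the curvature on the covering, read in `ℂ^g × Y` -/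
theorem cur_cov (p : (D.atl G).ι) (r : ((EA g).prod B).ι) (e : D.cov G)
    (he : e ∈ ((D.atl G).e p).source) (hr : S.Ψ.symm e ∈ (((EA g).prod B).e r).source) :
    cur (D.pullHM (F := G) (volK K)) p e =
      (Jp (D.atl G) ((EA g).prod B) S.Ψ.symm p r e)ᵀ * cur (hP S) r (S.Ψ.symm e) *
        (Jp (D.atl G) ((EA g).prod B) S.Ψ.symm p r e).map conj := by
  have h0 : S.π (S.Ψ.symm e) = D.pr e := by
    show D.pr (S.Ψ (S.Ψ.symm e)) = _
    rw [S.Ψ.apply_symm_apply]
  have hp : S.π (S.Ψ.symm e) ∈ (A.e p.1).source := by rw [h0]; exact he.1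
  have h1 : cur (hP S) r (S.Ψ.symm e) = (Jp ((EA g).prod B) A S.π r p.1 (S.Ψ.symm e))ᵀ *
      cur (volK K) p.1 (S.π (S.Ψ.symm e)) *
        (Jp ((EA g).prod B) A S.π r p.1 (S.Ψ.symm e)).map conj :=
    cur_pull _ S.lb_π.toHolMap (volK K) hr hp
  have h2 := Jp_comp S.lb_π.toHolMap S.lb_symm.toHolMap (i := p) (j := r) (l := p.1) (x := e)
    he hr hp
  have h3 : (fun e => S.π (S.Ψ.symm e)) = D.pr := funext fun e => by
    show D.pr (S.Ψ (S.Ψ.symm e)) = _
    rw [S.Ψ.apply_symm_apply]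
  rw [h3, Jp_pr, J_self _ he.1] at h2
  have h7 : cur (D.pullHM (F := G) (volK K)) p e = cur (volK K) p.1 (D.pr e) := rfl
  rw [h7, h1, h0]
  set T := Jp ((EA g).prod B) A S.π r p.1 (S.Ψ.symm e)
  set J := Jp (D.atl G) ((EA g).prod B) S.Ψ.symm p r e
  have h4 : Jᵀ * Tᵀ = 1 := by rw [← Matrix.transpose_mul, h2, Matrix.transpose_one]
  have h5 : T.map conj * J.map conj = 1 := by
    rw [← Matrix.map_mul, h2]
    simp
  calc cur (volK K) p.1 (D.pr e)
      = (Jᵀ * Tᵀ) * cur (volK K) p.1 (D.pr e) * (T.map conj * J.map conj) := by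
        rw [h4, h5, Matrix.one_mul, Matrix.mul_one]
    _ = _ := by simp only [Matrix.mul_assoc]

/-- the lift of a polyvector on the fibre to the covering -/
def liftV (k : ℕ) (w : B.ι → Y → FI d → ℂ) : (D.atl G).ι → D.cov G → FI (g + d) → ℂ :=
  pullV (cmp S k) (upV g w)

theorem liftV_mem {k q : ℕ} {w : B.ι → Y → FI d → ℂ}
    (hw : w ∈ NV ((KB B)⁻¹ ^ k) (volK S.KY) q) :
    liftV S k w ∈ NV (D.pullLB G ((KB A)⁻¹ ^ k)) (D.pullHM (F := G) (volK K)) q := by
  rw [pullLB_aK]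
  refine pullV_mem_NV S.lb_symm (cmp S k) (hA := D.pullHM (F := G) (volK K)) (hB := hP S)
    (fun p r e he hr => cur_cov S p r e he hr)
    ⟨upV_mem_PV hw.1, upV_nul (fun i j z hz y hy => cur_hP S hz hy) hw.2⟩

theorem liftV_eq {k q : ℕ} {w : B.ι → Y → FI d → ℂ} (hw : w ∈ PV ((KB B)⁻¹ ^ k) q)
    {p : (D.atl G).ι} {e : D.cov G} (he : e ∈ ((D.atl G).e p).source) {i : (EA g).ι} {j : B.ι}
    (hi : (S.Ψ.symm e).1 ∈ ((EA g).e i).source) (hj : (S.Ψ.symm e).2 ∈ (B.e j).source) :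
    liftV S k w p e =
      ((Jp (D.atl G) ((EA g).prod B) S.Ψ.symm p (i, j) e).det)⁻¹ ^ k •
        (Gam (Jp (D.atl G) ((EA g).prod B) S.Ψ.symm p (i, j) e)⁻¹ *ᵥ
          xt g (w j (S.Ψ.symm e).2)) := by
  have h0 : S.Ψ.symm e ∈ (((EA g).prod B).e (i, j)).source := ⟨hi, hj⟩
  unfold liftV
  rw [pullV_eq S.lb_symm (cmp S k) (upV_mem_PV hw) he h0, cmp_c]
  congr 2
  exact upV_apply (z := (S.Ψ.symm e).1) (y := (S.Ψ.symm e).2) hi

/-- the Jacobians of `Ψ⁻¹` at `e` and `γ • e` -/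
theorem Jp_symm_deck (γ : G) {p p' : (D.atl G).ι} (hpp : p.1 = p'.1) {e : D.cov G}
    (he : e ∈ ((D.atl G).e p).source) (he' : γ • e ∈ ((D.atl G).e p').source)
    {i i' : (EA g).ι} {j j' : B.ι}
    (hi : (S.Ψ.symm e).1 ∈ ((EA g).e i).source) (hj : (S.Ψ.symm e).2 ∈ (B.e j).source)
    (hi' : (S.act γ (S.Ψ.symm e)).1 ∈ ((EA g).e i').source)
    (hj' : (S.act γ (S.Ψ.symm e)).2 ∈ (B.e j').source) :
    Jp (D.atl G) ((EA g).prod B) S.Ψ.symm p' (i', j') (γ • e) =
      blk 1 (Jp B B (fun y : Y => γ • y) j j' (S.Ψ.symm e).2) *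
        Jp (D.atl G) ((EA g).prod B) S.Ψ.symm p (i, j) e := by
  have h0 : S.Ψ.symm (γ • e) ∈ (((EA g).prod B).e (i', j')).source := by
    rw [symm_deck]; exact ⟨hi', hj'⟩
  have h1 := Jp_comp S.lb_symm.toHolMap (Sus_333.holMap_deck D γ) (i := p) (j := p')
    (l := (i', j')) (x := e) he he' h0
  have h2 := Jp_comp (S.lb_act γ).toHolMap S.lb_symm.toHolMap (i := p) (j := (i, j))
    (l := (i', j')) (x := e) he ⟨hi, hj⟩ ⟨hi', hj'⟩
  have h3 : (fun e => S.Ψ.symm (γ • e)) = fun e => S.act γ (S.Ψ.symm e) :=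
    funext fun e => symm_deck S γ e
  have h6 : D.pr e ∈ (A.e p'.1).source := he'.1
  rw [h3, ← h2, Sus_333.Jp_deck, hpp, J_self _ h6, Matrix.mul_one] at h1
  rw [h1]
  congr 1
  exact S.Jp_act γ (z := (S.Ψ.symm e).1) (y := (S.Ψ.symm e).2) hi hj hi' hj'

theorem eqv_liftV {k q : ℕ} {w : B.ι → Y → FI d → ℂ} (hw : w ∈ PV ((KB B)⁻¹ ^ k) q)
    {χ : G →* Circle} (hχ : SemiV k χ w) : D.Eqv χ (liftV S k w) := by
  intro γ p e hp
  have hp' : γ • e ∈ ((D.atl G).e (p.1, p.2 * γ⁻¹)).source := D.mem_sheet_deck hp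
  obtain ⟨i, hi⟩ := (EA g).cover (S.Ψ.symm e).1
  obtain ⟨j, hj⟩ := B.cover (S.Ψ.symm e).2
  obtain ⟨i', hi'⟩ := (EA g).cover (S.act γ (S.Ψ.symm e)).1
  obtain ⟨j', hj'⟩ := B.cover (S.act γ (S.Ψ.symm e)).2
  have hi'' : (S.Ψ.symm (γ • e)).1 ∈ ((EA g).e i').source := by rw [symm_deck]; exact hi'
  have hj'' : (S.Ψ.symm (γ • e)).2 ∈ (B.e j').source := by rw [symm_deck]; exact hj'
  rw [liftV_eq S hw hp' hi'' hj'', liftV_eq S hw hp hi hj,
    Jp_symm_deck S γ (p := p) (p' := (p.1, p.2 * γ⁻¹)) rfl hp hp' hi hj hi' hj']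
  have h1 : (S.Ψ.symm (γ • e)).2 = γ • (S.Ψ.symm e).2 := by rw [symm_deck]; rfl
  have h2 := hχ γ j j' (S.Ψ.symm e).2 hj hj'
  have h3 : (Jp B B (fun y : Y => γ • y) j j' (S.Ψ.symm e).2).det ≠ 0 :=
    (S.lb_smul γ).det j j' _ hj hj'
  have h4 : Ja B γ j j' (S.Ψ.symm e).2 = Jp B B (fun y : Y => γ • y) j j' (S.Ψ.symm e).2 := rfl
  rw [h1, h2, h4]
  set a := Jp B B (fun y : Y => γ • y) j j' (S.Ψ.symm e).2
  set J := Jp (D.atl G) ((EA g).prod B) S.Ψ.symm p (i, j) e
  have h5 : (blk (1 : Matrix (Fin g) (Fin g) ℂ) a).det ≠ 0 := by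
    rw [det_blk, Matrix.det_one, one_mul]; exact h3
  have h6 : Gam (blk (1 : Matrix (Fin g) (Fin g) ℂ) a * J)⁻¹ *
      Gam (blk (1 : Matrix (Fin g) (Fin g) ℂ) a) = Gam J⁻¹ := by
    rw [← Gam_mul, Matrix.mul_inv_rev, Matrix.mul_assoc,
      Matrix.nonsing_inv_mul _ (isUnit_iff_ne_zero.2 h5), Matrix.mul_one]
  rw [xt_smul, ← Gam_blk_xt 1, Matrix.mulVec_smul, Matrix.mulVec_mulVec, h6, smul_smul, smul_smul,
    Matrix.det_mul, det_blk, Matrix.det_one, one_mul, mul_inv, mul_pow]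
  congr 1
  have h7 : a.det⁻¹ ^ k * a.det ^ k = 1 := by rw [← mul_pow, inv_mul_cancel₀ h3, one_pow]
  linear_combination ((χ γ : ℂ) * J.det⁻¹ ^ k) * h7

include S in
/-- **UPV**: a nonzero semi-invariant null polyvector of the fibre gives a nonzero null polyvector
of `M` with values in a power of the twisted anticanonical bundle -/
theorem NV_ne_bot {k q : ℕ} {w : B.ι → Y → FI d → ℂ}
    (hw : w ∈ NV ((KB B)⁻¹ ^ k) (volK S.KY) q) (hne : w ≠ 0) {v : G →* Circle}
    (hv : SemiV k (v ^ k) w) : NV (((KB A)⁻¹ * D.fl v) ^ k) (volK K) q ≠ ⊥ := by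
  have h1 := liftV_mem S hw
  have h2 : D.Eqv (v ^ k) (liftV S k w) := eqv_liftV S hw.1 hv
  have h3 := D.mem_NV_dn h1 h2
  have h4 : liftV S k w ≠ 0 :=
    pullV_ne_zero S.lb_symm S.Ψ.symm.surjective (cmp S k) (upV_mem_PV hw.1) (upV_ne_zero hne)
  have h5 := D.dn_ne_zero h2 (fun p e he => h1.1.2.1 p e he) h4
  rw [mul_pow, ← D.fl_pow]
  intro h6
  rw [h6] at h3
  exact h5 h3

include S in
/-- the hypothesis of `PartAt` -/
theorem infinite_of {v : G →* Circle} {q : ℕ} (H : ∀ k0 : ℕ, ∃ k, k0 ≤ k ∧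
    ∃ w ∈ NV ((aK B) ^ k) (volK S.KY) q, w ≠ 0 ∧ SemiV k (v ^ k) w) :
    {k : ℕ | NV (((KB A)⁻¹ * D.fl v) ^ k) (volK K) q ≠ ⊥}.Infinite := by
  refine Set.infinite_of_not_bddAbove fun ⟨b, hb⟩ => ?_
  obtain ⟨k, hk, w, hw, hne, hv⟩ := H (b + 1)
  have h1 := hb (NV_ne_bot S hw hne hv)
  omega

end bridge

end

end Crest.Agent.R273.UpV_914
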