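import Crest.Agent.R273.Green_5

/-!
# R273 (S0416), leaf VOLINV (helper5): invariance of the volume

* `volinv`  : `∫ det(g + ∂∂̄u) = ∫ det g` for every closed field `g` of type `(1,1)` (no positivity)
  on compact `M`; `volinv_kah` for Kaehler metrics.
* `volinv_poly` : the whole family `t ↦ ∫ det(g + t ∂∂̄u)` is constant.
-/

set_option autoImplicit false
set_option linter.unusedSectionVars false

open Set Filter Topology Complex
open scoped ContDiff Matrix ComplexConjugate Polynomial

namespace Crest.Agent.R273.VolInv_5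

open Crest.Agent.R275 Crest.Agent.R275.Geo Crest.Agent.R275.Core144 Crest.Agent.R275.EDR890
open Crest.Agent.R275.Pai323 Crest.Agent.R275.C1d194
open Crest.Agent.R275.SerG398 (lint dens OffZ)
open Crest.Agent.R275.OmT75 (dj dl dl_chain dl_mul db_chain dj_sum dj_congr)
open Crest.Agent.R273.Defs_333 Crest.Agent.R273.Hess_333 Crest.Agent.R273.HessB_333
open Crest.Agent.R273.HM_333 Crest.Agent.R273.Kah_333 Crest.Agent.R273.Vol_333
open Crest.Agent.R273.StV_37 Crest.Agent.R273.Piola_5 Crest.Agent.R273.Green_5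

noncomputable section

variable {n : ℕ} {M : Type} [TopologicalSpace M] {A : Atl n M} {L : LB A}

/-! ### the polynomial `det (g + X H)` -/

/-- `det (g + X H)` -/
def dp (g H : Matrix (Fin n) (Fin n) ℂ) : ℂ[X] :=
  (Matrix.of fun a b => Polynomial.C (g a b) + Polynomial.X * Polynomial.C (H a b)).det

theorem eval_dp (g H : Matrix (Fin n) (Fin n) ℂ) (t : ℂ) : (dp g H).eval t = (g + t • H).det := by
  unfold dp
  rw [← Polynomial.coe_evalRingHom, RingHom.map_det]
  congr 1
  ext a b
  simp only [RingHom.mapMatrix_apply, Matrix.map_apply, Matrix.of_apply, Matrix.add_apply,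
    Matrix.smul_apply, Polynomial.coe_evalRingHom, Polynomial.eval_add, Polynomial.eval_mul,
    Polynomial.eval_C, Polynomial.eval_X, smul_eq_mul]

theorem natDegree_dp (g H : Matrix (Fin n) (Fin n) ℂ) : (dp g H).natDegree ≤ n := by
  unfold dp
  rw [Matrix.det_apply]
  refine Polynomial.natDegree_sum_le_of_forall_le _ _ fun σ _ => ?_
  refine (Polynomial.natDegree_smul_le _ _).trans ?_
  refine (Polynomial.natDegree_prod_le _ _).trans ?_
  refine (Finset.sum_le_sum (g := fun _ => 1) fun i _ => ?_).trans (by simp)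
  simp only [Matrix.of_apply]
  refine (Polynomial.natDegree_add_le _ _).trans ?_
  rw [Polynomial.natDegree_C, Nat.zero_max]
  refine (Polynomial.natDegree_mul_le).trans ?_
  rw [Polynomial.natDegree_C, add_zero]
  exact Polynomial.natDegree_X_le

/-- coefficients of a product of polynomial valued functions are smooth -/
theorem contDiffOn_coeff_prod {V : Type*} [NormedAddCommGroup V] [NormedSpace ℝ V] {U : Set V}
    {ι : Type*} [DecidableEq ι] (s : Finset ι) {f : ι → V → ℂ[X]}
    (hf : ∀ i ∈ s, ∀ k, ContDiffOn ℝ ∞ (fun x => (f i x).coeff k) U) (k : ℕ) :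
    ContDiffOn ℝ ∞ (fun x => (∏ i ∈ s, f i x).coeff k) U := by
  induction s using Finset.induction_on generalizing k with
  | empty =>
    simp only [Finset.prod_empty]
    exact contDiffOn_const
  | insert i s hi ih =>
    simp only [Finset.prod_insert hi, Polynomial.coeff_mul]
    refine ContDiffOn.sum fun p _ => ?_
    exact (hf i (by simp) p.1).mul (ih (fun j hj => hf j (by simp [hj])) p.2)

theorem smAt_coeff_dp {g H : M → Matrix (Fin n) (Fin n) ℂ} {i : A.ι}
    (hg : ∀ a b, A.SmAt i (fun x => g x a b)) (hH : ∀ a b, A.SmAt i (fun x => H x a b)) (k : ℕ) :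
    A.SmAt i (fun x => (dp (g x) (H x)).coeff k) := by
  have h1 : ContDiffOn ℝ ∞ (fun z => (dp (g ((A.e i).symm z)) (H ((A.e i).symm z))).coeff k)
      (A.e i).target := by
    unfold dp
    simp only [Matrix.det_apply', Polynomial.finsetSum_coeff]
    refine ContDiffOn.sum fun σ _ => ?_
    have h2 : ∀ z, ((((Equiv.Perm.sign σ : ℤ) : ℂ[X]) * ∏ b, (Matrix.of fun a b =>
        Polynomial.C (g ((A.e i).symm z) a b) +
          Polynomial.X * Polynomial.C (H ((A.e i).symm z) a b)) (σ b) b).coeff k) =
        ((Equiv.Perm.sign σ : ℤ) : ℂ) * ((∏ b, (Polynomial.C (g ((A.e i).symm z) (σ b) b) +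
          Polynomial.X * Polynomial.C (H ((A.e i).symm z) (σ b) b))).coeff k) := by
      intro z
      have h3 : (((Equiv.Perm.sign σ : ℤ) : ℂ[X])) =
          Polynomial.C (((Equiv.Perm.sign σ : ℤ) : ℂ)) := by simp
      rw [h3, Polynomial.coeff_C_mul]
      rfl
    simp only [h2]
    refine contDiffOn_const.mul (contDiffOn_coeff_prod _ (fun b _ k => ?_) k)
    have h4 : ∀ z, ((Polynomial.C (g ((A.e i).symm z) (σ b) b) +
        Polynomial.X * Polynomial.C (H ((A.e i).symm z) (σ b) b)).coeff k) =
        (if k = 0 then g ((A.e i).symm z) (σ b) b else 0) +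
          (if k = 1 then H ((A.e i).symm z) (σ b) b else 0) := by
      intro z
      rw [Polynomial.coeff_add, Polynomial.coeff_C]
      congr 1
      rcases k with _ | k
      · simp
      · rw [Polynomial.coeff_X_mul, Polynomial.coeff_C]
        simp
    simp only [h4]
    refine ContDiffOn.add ?_ ?_
    · split_ifs
      · exact hg _ _
      · exact contDiffOn_const
    · split_ifs
      · exact hH _ _
      · exact contDiffOn_const
  exact h1

/-- the derivative of the polynomial -/
theorem eval_derivative_dp (g H : Matrix (Fin n) (Fin n) ℂ) (t : ℝ) :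
    (Polynomial.derivative (dp g H)).eval (t : ℂ) =
      ((g + (t : ℂ) • H).adjugate * H).trace := by
  have h1 : HasDerivAt (fun s : ℝ => (dp g H).eval (s : ℂ))
      ((Polynomial.derivative (dp g H)).eval (t : ℂ)) t :=
    ((dp g H).hasDerivAt (t : ℂ)).comp_ofReal
  have h2 : HasFDerivAt (fun s : ℝ => (g + (s : ℂ) • H).det)
      (∑ i, ∑ j, (g + (t : ℂ) • H).adjugate i j •
        (ContinuousLinearMap.smulRight (1 : ℝ →L[ℝ] ℝ) (H j i))) t := by
    refine hasFDerivAt_det (A := fun s : ℝ => g + (s : ℂ) • H) fun a b => ?_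
    have h3 : HasDerivAt (fun s : ℝ => g a b + (s : ℂ) * H a b) (H a b) t := by
      have h4 : HasDerivAt (fun s : ℝ => (s : ℂ)) 1 t := Complex.ofRealCLM.hasDerivAt
      have := (h4.mul_const (H a b)).const_add (g a b)
      rwa [one_mul] at this
    exact h3.hasFDerivAt
  have h5 := h2.hasDerivAt
  have h6 : (fun s : ℝ => (dp g H).eval (s : ℂ)) = fun s : ℝ => (g + (s : ℂ) • H).det := by
    funext s
    exact eval_dp g H s
  rw [h6] at h1
  rw [h1.unique h5]
  simp only [_root_.sum_apply, _root_.smul_apply, smul_eq_mul,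
    ContinuousLinearMap.smulRight_apply, one_apply_eq_self, one_smul, Matrix.trace,
    Matrix.diag, Matrix.mul_apply]

/-! ### invariance -/

section compact

variable [T2Space M] [CompactSpace M] {g : A.ι → M → Matrix (Fin n) (Fin n) ℂ}

theorem totc_add (P : Part A) {f f' : A.ι → M → ℂ}
    (hf : ∀ i, A.SmAt i (f i)) (hg : ∀ i, A.SmAt i (f' i)) :
    totc P (fun i x => f i x + f' i x) = totc P f + totc P f' := tot_add P _ hf hg

theorem totc_smul (P : Part A) (c : ℂ) (f : A.ι → M → ℂ) :
    totc P (fun i x => c * f i x) = c * totc P f := tot_smul P _ c f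

theorem totc_sum (P : Part A) {σ : Type*} (s : Finset σ) {f : σ → A.ι → M → ℂ}
    (hf : ∀ t ∈ s, ∀ i, A.SmAt i (f t i)) :
    totc P (fun i x => ∑ t ∈ s, f t i x) = ∑ t ∈ s, totc P (f t) := tot_sum P _ s hf

theorem totc_congr (P : Part A) {f g : A.ι → M → ℂ}
    (h : ∀ i, ∀ x ∈ (A.e i).source, f i x = g i x) : totc P f = totc P g :=
  tot_congr P _ fun i _ x hx => h i x hx

theorem volinv_poly (P : Part A) (hg : CF A g) {u : M → ℝ} (hu : A.Sm u) (t : ℝ) :
    totc P (fun i x => (g i x + (t : ℂ) • hsf A u i x).det) = totc P (fun i x => (g i x).det) := by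
  have hH := hsf_cf (A := A) hu
  set c : ℕ → A.ι → M → ℂ := fun k i x => (dp (g i x) (hsf A u i x)).coeff k with hc
  have hcs : ∀ k i, A.SmAt i (c k i) := fun k i => smAt_coeff_dp (hg.sm i) (hH.sm i) k
  set T : ℕ → ℂ := fun k => totc P (c k) with hT
  have hp : ∀ t : ℝ, totc P (fun i x => (g i x + (t : ℂ) • hsf A u i x).det) =
      ∑ k ∈ Finset.range (n + 1), (t : ℂ) ^ k * T k := by
    intro t
    have h1 : totc P (fun i x => (g i x + (t : ℂ) • hsf A u i x).det) =
        totc P (fun i x => ∑ k ∈ Finset.range (n + 1), (t : ℂ) ^ k * c k i x) := by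
      refine totc_congr P fun i x _ => ?_
      rw [← eval_dp, Polynomial.eval_eq_sum_range' (Nat.lt_succ_of_le (natDegree_dp _ _))]
      exact Finset.sum_congr rfl fun k _ => mul_comm _ _
    rw [h1, totc_sum P _ (f := fun (k : ℕ) i x => (t : ℂ) ^ k * c k i x) fun k _ i =>
      (contDiffOn_const (c := (t : ℂ) ^ k)).mul (hcs k i)]
    exact Finset.sum_congr rfl fun k _ => totc_smul P _ _
  have hd : ∀ t : ℝ, HasDerivAt (fun s : ℝ => ∑ k ∈ Finset.range (n + 1), (s : ℂ) ^ k * T k) 0 t := by
    intro t
    have h1 : HasDerivAt (fun s : ℝ => ∑ k ∈ Finset.range (n + 1), (s : ℂ) ^ k * T k)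
        (∑ k ∈ Finset.range (n + 1), ((k : ℂ) * (t : ℂ) ^ (k - 1)) * T k) t := by
      refine HasDerivAt.fun_sum fun k _ => ?_
      exact ((hasDerivAt_pow k (t : ℂ)).comp_ofReal).mul_const _
    have h2 : ∑ k ∈ Finset.range (n + 1), ((k : ℂ) * (t : ℂ) ^ (k - 1)) * T k = 0 := by
      have h3 : ∑ k ∈ Finset.range (n + 1), ((k : ℂ) * (t : ℂ) ^ (k - 1)) * T k =
          totc P (fun i x => ∑ k ∈ Finset.range (n + 1), ((k : ℂ) * (t : ℂ) ^ (k - 1)) * c k i x) := by
        rw [totc_sum P _ (f := fun (k : ℕ) i x => ((k : ℂ) * (t : ℂ) ^ (k - 1)) * c k i x)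
          fun k _ i => (contDiffOn_const (c := (k : ℂ) * (t : ℂ) ^ (k - 1))).mul (hcs k i)]
        exact Finset.sum_congr rfl fun k _ => (totc_smul P _ _).symm
      rw [h3]
      have h4 : totc P (fun i x => ∑ k ∈ Finset.range (n + 1),
            ((k : ℂ) * (t : ℂ) ^ (k - 1)) * c k i x) =
          totc P (fun i x => ((g i x + (t : ℂ) • hsf A u i x).adjugate *
            hm A (fun y => (u y : ℂ)) i x).trace) := by
        refine totc_congr P fun i x hx => ?_
        rw [hm_ofReal u i hx, ← eval_derivative_dp]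
        rw [Polynomial.eval_eq_sum_range' (n := n + 1)
          ((Polynomial.natDegree_derivative_le _).trans_lt
            (lt_of_le_of_lt (Nat.sub_le _ _) (Nat.lt_succ_of_le (natDegree_dp _ _))))]
        rw [Finset.sum_range_succ']
        simp only [Nat.cast_zero, zero_mul, add_zero]
        rw [Finset.sum_range_succ]
        have h5 : (Polynomial.derivative (dp (g i x) (hsf A u i x))).coeff n = 0 := by
          rw [Polynomial.coeff_derivative, Polynomial.coeff_eq_zero_of_natDegree_lt
            (lt_of_le_of_lt (natDegree_dp _ _) (Nat.lt_succ_self n)), zero_mul]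
        rw [h5, zero_mul, add_zero]
        refine Finset.sum_congr rfl fun k _ => ?_
        rw [Polynomial.coeff_derivative]
        simp only [hc, Nat.add_sub_cancel]
        push_cast
        ring
      rw [h4]
      have h6 : CF A (fun i x => g i x + (t : ℂ) • hsf A u i x) := hg.add (hH.smul t)
      exact green1c P h6 fun i => smAt_ofReal (hu i)
    rw [h2] at h1
    exact h1
  have h7 : ∀ t : ℝ, ∑ k ∈ Finset.range (n + 1), (t : ℂ) ^ k * T k =
      ∑ k ∈ Finset.range (n + 1), ((0 : ℝ) : ℂ) ^ k * T k := fun t =>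
    is_const_of_deriv_eq_zero (fun s => (hd s).differentiableAt) (fun s => (hd s).deriv) t 0
  rw [hp t, h7 t, ← hp 0]
  simp

/-- **invariance of the volume** -/
theorem volinv (P : Part A) (hg : CF A g) {u : M → ℝ} (hu : A.Sm u) :
    totc P (fun i x => (g i x + hsf A u i x).det) = totc P (fun i x => (g i x).det) := by
  have := volinv_poly P hg hu 1
  simpa using this

theorem volinv_kah (P : Part A) (K : Kah A) {u : M → ℝ} (hu : A.Sm u) :
    totc P (fun i x => (K.g i x + hsf A u i x).det) = totc P (fun i x => (K.g i x).det) :=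
  volinv P (kah_cf K) hu

/-- two metrics on the same line bundle -/
theorem volinv_cur (P : Part A) (h h' : HM L) :
    totc P (fun i x => (cur h' i x).det) = totc P (fun i x => (cur h i x).det) := by
  rw [← volinv P (cur_cf h) (u := fun x => - ratio h h' x) fun i => (sm_ratio h h' i).neg]
  refine totc_congr P fun i x hx => ?_
  have hz := (A.e i).map_source hx
  rw [cur_ratio h h' i hx]
  congr 1
  rw [sub_eq_add_neg]
  congr 1
  have h1 := hsf_read (A := A) (fun x => - ratio h h' x) i hz
  have h2 := hsf_read (A := A) (ratio h h') i hz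
  rw [(A.e i).left_inv hx] at h1 h2
  rw [h1, h2, ← hess_neg (sm_contDiffAt (sm_ratio h h') i hz)]

end compact

end

end Crest.Agent.R273.VolInv_5
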