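import Crest.Agent.R275.Kos_798
import Mathlib.Analysis.Complex.Basic
import Mathlib.Analysis.Complex.Order
import Mathlib.LinearAlgebra.Matrix.PosDef
import Mathlib.Analysis.Matrix.Order
import Mathlib.Tactic.Abel
import Mathlib.Tactic.Module

/-!
# R273 (S0416), leaf D.14 (helper578): the wedge product on the Fock space, null vectors

Fock space `Finset (Fin n) → R`, `e(s) = Kos798.K s 0`, `i(p) = Kos798.K 0 p`.

* `Fock.ind`      : induction principle (the vacuum is cyclic for the `e_j`)
* `wdg v w`       : wedge product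
* `wdg_e`, `wdg_vac`, `i_wdg` (contraction is an antiderivation), `wdg_map` (algebra maps),
  `wdg_assoc`, `wdg_comm`, degrees
* `Nul Θ v`       : `∀ c, ∑_d Θ d c • i_d v = 0`; closed under `wdg`
-/

set_option autoImplicit false
set_option linter.unusedSectionVars false

open Finset Matrix
open scoped ComplexOrder

namespace Crest.Agent.R273.Wdg_578

open Crest.Agent.R275.Kos798

variable {R : Type*} [CommRing R] {n : ℕ}

/-- Fock space -/
abbrev Fk (n : ℕ) (R : Type*) : Type _ := Finset (Fin n) → R

/-- wedge with the vector `s` -/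
def ee (s : Fin n → R) (f : Fk n R) : Fk n R := op s 0 f

/-- contraction with the covector `p` -/
def ii (p : Fin n → R) (f : Fk n R) : Fk n R := op 0 p f

theorem ee_eq (s : Fin n → R) (f : Fk n R) : ee s f = K s 0 *ᵥ f := (K_mulVec s 0 f).symm
theorem ii_eq (p : Fin n → R) (f : Fk n R) : ii p f = K 0 p *ᵥ f := (K_mulVec 0 p f).symm

theorem ee_apply (s : Fin n → R) (f : Fk n R) (T : Finset (Fin n)) :
    ee s f T = ∑ j ∈ T, sgn R j T * s j * f (T.erase j) := by
  unfold ee op
  rw [← Finset.sum_filter_add_sum_filter_not (s := univ) (p := fun j => j ∈ T)]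
  have h2 : ∑ j ∈ univ.filter (fun j => j ∉ T), sgn R j T * cf s 0 j T * f (tog T j) = 0 := by
    refine Finset.sum_eq_zero fun j hj => ?_
    simp only [mem_filter] at hj
    simp [cf, hj.2]
  rw [h2, add_zero]
  have h3 : (univ.filter fun j => j ∈ T) = T := by ext; simp
  rw [h3]
  refine Finset.sum_congr rfl fun j hj => ?_
  simp [cf, tog, hj]

theorem ii_apply (p : Fin n → R) (f : Fk n R) (T : Finset (Fin n)) :
    ii p f T = ∑ j ∈ Tᶜ, sgn R j T * p j * f (insert j T) := by
  unfold ii op
  rw [← Finset.sum_filter_add_sum_filter_not (s := univ) (p := fun j => j ∈ T)]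
  have h2 : ∑ j ∈ univ.filter (fun j => j ∈ T), sgn R j T * cf 0 p j T * f (tog T j) = 0 := by
    refine Finset.sum_eq_zero fun j hj => ?_
    simp only [mem_filter] at hj
    simp [cf, hj.2]
  rw [h2, zero_add]
  have h3 : (univ.filter fun j => j ∉ T) = Tᶜ := by ext; simp
  rw [h3]
  refine Finset.sum_congr rfl fun j hj => ?_
  rw [mem_compl] at hj
  simp [cf, tog, hj]

/-! ### linearity -/

theorem op_add_fun (s p : Fin n → R) (f g : Fk n R) : op s p (f + g) = op s p f + op s p g := by
  ext T; simp [op, mul_add, Finset.sum_add_distrib]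

theorem op_smul_fun (s p : Fin n → R) (c : R) (f : Fk n R) : op s p (c • f) = c • op s p f := by
  ext T
  simp only [op, Pi.smul_apply, smul_eq_mul, Finset.mul_sum]
  exact Finset.sum_congr rfl fun j _ => by ring

theorem cf_add (s p s' p' : Fin n → R) (j : Fin n) (T : Finset (Fin n)) :
    cf (s + s') (p + p') j T = cf s p j T + cf s' p' j T := by
  unfold cf; split_ifs <;> rfl

theorem op_add (s p s' p' : Fin n → R) (f : Fk n R) :
    op (s + s') (p + p') f = op s p f + op s' p' f := by
  ext T
  simp only [op, cf_add, Pi.add_apply]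
  rw [← Finset.sum_add_distrib]
  exact Finset.sum_congr rfl fun j _ => by ring

theorem cf_smul (c : R) (s p : Fin n → R) (j : Fin n) (T : Finset (Fin n)) :
    cf (c • s) (c • p) j T = c * cf s p j T := by
  unfold cf; split_ifs <;> rfl

theorem op_smul (c : R) (s p : Fin n → R) (f : Fk n R) : op (c • s) (c • p) f = c • op s p f := by
  ext T
  simp only [op, cf_smul, Pi.smul_apply, smul_eq_mul, Finset.mul_sum]
  exact Finset.sum_congr rfl fun j _ => by ring

/-- `e(s)` as a bilinear map -/
def eL : (Fin n → R) →ₗ[R] Fk n R →ₗ[R] Fk n R :=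
  LinearMap.mk₂ R ee
    (fun s s' f => by
      have := op_add s 0 s' 0 f
      rwa [add_zero] at this)
    (fun c s f => by
      have := op_smul c s 0 f
      rwa [smul_zero] at this)
    (fun s f g => op_add_fun s 0 f g)
    (fun c s f => op_smul_fun s 0 c f)

/-- `i(p)` as a bilinear map -/
def iL : (Fin n → R) →ₗ[R] Fk n R →ₗ[R] Fk n R :=
  LinearMap.mk₂ R ii
    (fun s s' f => by
      have := op_add 0 s 0 s' f
      rwa [add_zero] at this)
    (fun c s f => by
      have := op_smul c 0 s f
      rwa [smul_zero] at this)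
    (fun s f g => op_add_fun 0 s f g)
    (fun c s f => op_smul_fun 0 s c f)

@[simp] theorem eL_apply (s : Fin n → R) (f : Fk n R) : eL s f = ee s f := rfl
@[simp] theorem iL_apply (s : Fin n → R) (f : Fk n R) : iL s f = ii s f := rfl

theorem ee_add (s : Fin n → R) (f g : Fk n R) : ee s (f + g) = ee s f + ee s g := (eL s).map_add f g
theorem ee_smul (s : Fin n → R) (c : R) (f : Fk n R) : ee s (c • f) = c • ee s f :=
  (eL s).map_smul c f
theorem ii_add (s : Fin n → R) (f g : Fk n R) : ii s (f + g) = ii s f + ii s g := (iL s).map_add f g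
theorem ii_smul (s : Fin n → R) (c : R) (f : Fk n R) : ii s (c • f) = c • ii s f :=
  (iL s).map_smul c f
theorem ee_zero_right (s : Fin n → R) : ee s (0 : Fk n R) = 0 := (eL s).map_zero
theorem ii_zero_right (s : Fin n → R) : ii s (0 : Fk n R) = 0 := (iL s).map_zero

/-- the CAR: `i(p) e(s) + e(s) i(p) = ⟨s, p⟩` -/
theorem ii_ee (s p : Fin n → R) (f : Fk n R) :
    ii p (ee s f) + ee s (ii p f) = (∑ j, s j * p j) • f := by
  have h0 := op_op s p
  have h1 := op_op s (0 : Fin n → R)
  have h2 := op_op (0 : Fin n → R) p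
  have hs : ∀ g : Fk n R, op s p g = ee s g + ii p g := fun g => by
    have := op_add s 0 0 p g
    rwa [add_zero, zero_add] at this
  have e1 : ee s (ee s f) = 0 := by
    ext T; have := h1 f T; simpa [ee] using this
  have e2 : ii p (ii p f) = 0 := by
    ext T; have := h2 f T; simpa [ii] using this
  have e3 : op s p (op s p f) = (∑ j, s j * p j) • f := by
    ext T; exact h0 f T
  rw [hs, hs, ee_add, ii_add, e1, e2, zero_add, add_zero] at e3
  rw [← e3]
  abel

theorem ee_ee (s s' : Fin n → R) (f : Fk n R) : ee s (ee s' f) + ee s' (ee s f) = 0 := by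
  have h1 : ∀ (s : Fin n → R) (g : Fk n R), ee s (ee s g) = 0 := fun s g => by
    ext T; have := op_op s (0 : Fin n → R) g T; simpa [ee] using this
  have h2 := h1 (s + s') f
  have h3 : ∀ g : Fk n R, ee (s + s') g = ee s g + ee s' g := fun g => by
    rw [← eL_apply, map_add]; rfl
  rw [h3, h3, ee_add, ee_add, h1, h1, zero_add, add_zero] at h2
  rw [add_comm]
  exact (add_comm _ _).trans h2

theorem ii_ii (s s' : Fin n → R) (f : Fk n R) : ii s (ii s' f) + ii s' (ii s f) = 0 := by
  have h1 : ∀ (s : Fin n → R) (g : Fk n R), ii s (ii s g) = 0 := fun s g => by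
    ext T; have := op_op (0 : Fin n → R) s g T; simpa [ii] using this
  have h2 := h1 (s + s') f
  have h3 : ∀ g : Fk n R, ii (s + s') g = ii s g + ii s' g := fun g => by
    rw [← iL_apply, map_add]; rfl
  rw [h3, h3, ii_add, ii_add, h1, h1, zero_add, add_zero] at h2
  rw [add_comm]
  exact (add_comm _ _).trans h2

/-! ### vacuum and induction -/

/-- the vacuum -/
def vac : Fk n R := Pi.single ∅ 1

/-- basis vector -/
def bas (j : Fin n) : Fin n → R := Pi.single j 1

theorem ee_bas_apply (j : Fin n) (f : Fk n R) (T : Finset (Fin n)) :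
    ee (bas j) f T = if j ∈ T then sgn R j T * f (T.erase j) else 0 := by
  classical
  rw [ee_apply]
  split_ifs with h
  · rw [Finset.sum_eq_single j]
    · simp [bas]
    · intro k _ hk; simp [bas, hk]
    · intro h'; exact absurd h h'
  · refine Finset.sum_eq_zero fun k hk => ?_
    have : k ≠ j := fun h' => h (h' ▸ hk)
    simp [bas, this]

theorem ii_bas_apply (j : Fin n) (f : Fk n R) (T : Finset (Fin n)) :
    ii (bas j) f T = if j ∈ T then 0 else sgn R j T * f (insert j T) := by
  classical
  rw [ii_apply]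
  by_cases h : j ∈ T
  · rw [if_pos h]
    refine Finset.sum_eq_zero fun k hk => ?_
    have : k ≠ j := fun h' => (mem_compl.1 hk) (h' ▸ h)
    simp [bas, this]
  · rw [if_neg h, Finset.sum_eq_single j]
    · simp [bas]
    · intro k _ hk; simp [bas, hk]
    · intro h'; exact absurd h (by simpa using h')

/-- the vacuum is cyclic: induction principle -/
theorem ind {P : Fk n R → Prop} (h0 : P vac) (hadd : ∀ f g, P f → P g → P (f + g))
    (hsmul : ∀ (c : R) f, P f → P (c • f)) (he : ∀ (j : Fin n) f, P f → P (ee (bas j) f))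
    (f : Fk n R) : P f := by
  classical
  have hz : P 0 := by simpa using hsmul 0 _ h0
  have hb : ∀ S : Finset (Fin n), P (Pi.single S 1) := by
    intro S
    induction S using Finset.strongInduction with
    | H S ih =>
      by_cases hS : S = ∅
      · subst hS; exact h0
      · obtain ⟨j, hj⟩ := Finset.nonempty_iff_ne_empty.2 hS
        have h1 := he j _ (ih (S.erase j) (Finset.erase_ssubset hj))
        have h2 : (Pi.single S 1 : Fk n R) =
            sgn R j S • ee (bas j) (Pi.single (S.erase j) 1) := by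
          ext T
          rw [Pi.smul_apply, ee_bas_apply]
          by_cases hT : T = S
          · subst hT
            simp [hj, sgn_mul_self]
          · rw [Pi.single_eq_of_ne hT]
            split_ifs with hjT
            · have : T.erase j ≠ S.erase j := fun h' => hT (by
                rw [← Finset.insert_erase hjT, ← Finset.insert_erase hj, h'])
              simp [Pi.single_eq_of_ne this]
            · simp
        rw [h2]
        exact hsmul _ _ h1
  have hf : f = ∑ S, f S • (Pi.single S 1 : Fk n R) := by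
    ext T
    simp [Finset.sum_apply, Pi.single_apply]
  rw [hf]
  have : ∀ s : Finset (Finset (Fin n)), P (∑ S ∈ s, f S • (Pi.single S 1 : Fk n R)) := by
    intro s
    induction s using Finset.induction_on with
    | empty => simpa using hz
    | insert a s ha ih =>
      rw [Finset.sum_insert ha]
      exact hadd _ _ (hsmul _ _ (hb a)) ih
  exact this univ

/-! ### the wedge product -/

variable (R) in
/-- the sign of the shuffle `(T, U)` -/
def eps (T U : Finset (Fin n)) : R := ∏ t ∈ T, (-1) ^ (U.filter (· < t)).card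

/-- wedge product -/
def wdg (v w : Fk n R) : Fk n R := fun S => ∑ T ∈ S.powerset, eps R T (S \ T) * v T * w (S \ T)

theorem wdg_add_left (v v' w : Fk n R) : wdg (v + v') w = wdg v w + wdg v' w := by
  ext S
  simp only [wdg, Pi.add_apply, ← Finset.sum_add_distrib]
  exact Finset.sum_congr rfl fun T _ => by ring

theorem wdg_add_right (v w w' : Fk n R) : wdg v (w + w') = wdg v w + wdg v w' := by
  ext S
  simp only [wdg, Pi.add_apply, ← Finset.sum_add_distrib]
  exact Finset.sum_congr rfl fun T _ => by ring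

theorem wdg_smul_left (c : R) (v w : Fk n R) : wdg (c • v) w = c • wdg v w := by
  ext S
  simp only [wdg, Pi.smul_apply, smul_eq_mul, Finset.mul_sum]
  exact Finset.sum_congr rfl fun T _ => by ring

theorem wdg_smul_right (c : R) (v w : Fk n R) : wdg v (c • w) = c • wdg v w := by
  ext S
  simp only [wdg, Pi.smul_apply, smul_eq_mul, Finset.mul_sum]
  exact Finset.sum_congr rfl fun T _ => by ring

/-- wedge as a bilinear map -/
def wdgL : Fk n R →ₗ[R] Fk n R →ₗ[R] Fk n R :=
  LinearMap.mk₂ R wdg wdg_add_left wdg_smul_left (fun v w w' => wdg_add_right v w w')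
    (fun c v w => wdg_smul_right c v w)

@[simp] theorem wdgL_apply (v w : Fk n R) : wdgL v w = wdg v w := rfl

theorem wdg_zero_left (w : Fk n R) : wdg 0 w = 0 := by rw [← wdgL_apply]; simp
theorem wdg_zero_right (w : Fk n R) : wdg w 0 = 0 := (wdgL w).map_zero

theorem wdg_vac (w : Fk n R) : wdg vac w = w := by
  classical
  ext S
  unfold wdg vac
  rw [Finset.sum_eq_single ∅]
  · simp [eps]
  · intro T _ hT
    simp [Pi.single_eq_of_ne hT]
  · intro h; simp at h

theorem sgn_union {j : Fin n} {T S : Finset (Fin n)} (hTS : T ⊆ S) :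
    sgn R j S = sgn R j T * (-1) ^ ((S \ T).filter (· < j)).card := by
  unfold sgn
  rw [← pow_add]
  congr 1
  rw [← Finset.card_union_of_disjoint]
  · congr 1
    ext k
    simp only [mem_filter, mem_union, mem_sdiff]
    constructor
    · rintro ⟨h1, h2⟩
      by_cases hk : k ∈ T
      · exact Or.inl ⟨hk, h2⟩
      · exact Or.inr ⟨⟨h1, hk⟩, h2⟩
    · rintro (⟨h1, h2⟩ | ⟨⟨h1, _⟩, h2⟩)
      · exact ⟨hTS h1, h2⟩
      · exact ⟨h1, h2⟩
  · rw [Finset.disjoint_left]
    intro k hk hk'
    simp only [mem_filter, mem_sdiff] at hk hk'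
    exact hk'.1.2 hk.1

/-- `(e_j v) ∧ w = e_j (v ∧ w)` -/
theorem wdg_ee_bas (j : Fin n) (v w : Fk n R) : wdg (ee (bas j) v) w = ee (bas j) (wdg v w) := by
  classical
  ext S
  rw [ee_bas_apply]
  unfold wdg
  by_cases hj : j ∈ S
  · rw [if_pos hj, Finset.mul_sum]
    rw [← Finset.sum_filter_add_sum_filter_not (s := S.powerset) (p := fun T => j ∈ T)]
    have h2 : ∑ T ∈ S.powerset.filter (fun T => ¬ j ∈ T),
        eps R T (S \ T) * ee (bas j) v T * w (S \ T) = 0 := by
      refine Finset.sum_eq_zero fun T hT => ?_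
      simp only [mem_filter] at hT
      rw [ee_bas_apply, if_neg hT.2]; ring
    rw [h2, add_zero]
    refine Finset.sum_bij' (fun T _ => T.erase j) (fun T _ => insert j T) ?_ ?_ ?_ ?_ ?_
    · intro T hT
      simp only [mem_filter, mem_powerset] at hT ⊢
      exact Finset.erase_subset_erase j hT.1
    · intro T hT
      simp only [mem_filter, mem_powerset] at hT ⊢
      exact ⟨Finset.insert_subset hj (hT.trans (Finset.erase_subset j S)), mem_insert_self j T⟩
    · intro T hT
      simp only [mem_filter, mem_powerset] at hT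
      exact Finset.insert_erase hT.2
    · intro T hT
      simp only [mem_powerset] at hT
      exact Finset.erase_insert fun h => by simpa using hT h
    · intro T hT
      simp only [mem_filter, mem_powerset] at hT
      have h3 : (S.erase j) \ (T.erase j) = S \ T := by
        ext k
        simp only [mem_sdiff, mem_erase]
        constructor
        · rintro ⟨⟨h1, h2⟩, h3⟩; exact ⟨h2, fun h => h3 ⟨h1, h⟩⟩
        · rintro ⟨h1, h2⟩
          have : k ≠ j := fun h => h2 (h ▸ hT.2)
          exact ⟨⟨this, h1⟩, fun h => h2 h.2⟩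
      rw [ee_bas_apply, if_pos hT.2, h3]
      have h4 : eps R T (S \ T) =
          (-1) ^ ((S \ T).filter (· < j)).card * eps R (T.erase j) (S \ T) := by
        unfold eps
        rw [← Finset.mul_prod_erase T _ hT.2]
      rw [h4, sgn_union (R := R) (j := j) hT.1]
      have h5 : sgn R j T * sgn R j T = 1 := sgn_mul_self j T
      ring
  · rw [if_neg hj]
    refine Finset.sum_eq_zero fun T hT => ?_
    simp only [mem_powerset] at hT
    rw [ee_bas_apply, if_neg fun h => hj (hT h)]; ring

/-- extend a statement from the basis covectors/vectors -/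
theorem vec_eq_sum (s : Fin n → R) : s = ∑ j, s j • bas j := by
  classical
  ext k
  simp [bas, Finset.sum_apply, Pi.single_apply]

theorem ee_eq_sum (s : Fin n → R) (f : Fk n R) : ee s f = ∑ j, s j • ee (bas j) f := by
  conv_lhs => rw [vec_eq_sum s]
  rw [← eL_apply, map_sum, LinearMap.sum_apply]
  refine Finset.sum_congr rfl fun j _ => ?_
  rw [map_smul]; rfl

theorem ii_eq_sum (s : Fin n → R) (f : Fk n R) : ii s f = ∑ j, s j • ii (bas j) f := by
  conv_lhs => rw [vec_eq_sum s]
  rw [← iL_apply, map_sum, LinearMap.sum_apply]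
  refine Finset.sum_congr rfl fun j _ => ?_
  rw [map_smul]; rfl

theorem wdg_sum_left {ι : Type*} (s : Finset ι) (v : ι → Fk n R) (w : Fk n R) :
    wdg (∑ i ∈ s, v i) w = ∑ i ∈ s, wdg (v i) w := by
  simp only [← wdgL_apply, map_sum, LinearMap.sum_apply]

theorem wdg_sum_right {ι : Type*} (s : Finset ι) (v : ι → Fk n R) (w : Fk n R) :
    wdg w (∑ i ∈ s, v i) = ∑ i ∈ s, wdg w (v i) := by
  simp only [← wdgL_apply, map_sum]

theorem wdg_ee (s : Fin n → R) (v w : Fk n R) : wdg (ee s v) w = ee s (wdg v w) := by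
  rw [ee_eq_sum, ee_eq_sum, wdg_sum_left]
  refine Finset.sum_congr rfl fun j _ => ?_
  rw [wdg_smul_left, wdg_ee_bas]

/-- the grading involution -/
def gm (v : Fk n R) : Fk n R := fun T => (-1) ^ T.card * v T

theorem gm_add (v w : Fk n R) : gm (v + w) = gm v + gm w := by
  ext T; simp [gm, mul_add]
theorem gm_smul (c : R) (v : Fk n R) : gm (c • v) = c • gm v := by
  ext T; simp only [gm, Pi.smul_apply, smul_eq_mul]; ring
theorem gm_vac : gm (vac : Fk n R) = vac := by
  classical
  ext T
  by_cases hT : T = ∅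
  · subst hT; simp [gm, vac]
  · simp [gm, vac, Pi.single_eq_of_ne hT]

theorem gm_ee_bas (j : Fin n) (v : Fk n R) : gm (ee (bas j) v) = - ee (bas j) (gm v) := by
  ext T
  simp only [gm, Pi.neg_apply, ee_bas_apply]
  split_ifs with h
  · have h1 := Finset.card_erase_add_one h
    rw [← h1, pow_succ]; ring
  · simp

/-- contraction is an antiderivation -/
theorem ii_wdg (p : Fin n → R) (v w : Fk n R) :
    ii p (wdg v w) = wdg (ii p v) w + wdg (gm v) (ii p w) := by
  induction v using ind with
  | h0 =>
    have : ii p (vac : Fk n R) = 0 := by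
      classical
      ext T
      rw [ii_apply]
      refine Finset.sum_eq_zero fun j _ => ?_
      simp [vac]
    rw [wdg_vac, this, wdg_zero_left, gm_vac, wdg_vac, zero_add]
  | hadd f g hf hg =>
    rw [wdg_add_left, ii_add, hf, hg, ii_add, wdg_add_left, gm_add, wdg_add_left]
    abel
  | hsmul c f hf =>
    rw [wdg_smul_left, ii_smul, hf, ii_smul, wdg_smul_left, gm_smul, wdg_smul_left, smul_add]
  | he j f hf =>
    have h1 := ii_ee (bas j) p (wdg f w)
    have h2 := ii_ee (bas j) p f
    have h3 : ii p (ee (bas j) (wdg f w)) =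
        (∑ k, bas j k * p k) • wdg f w - ee (bas j) (ii p (wdg f w)) := by
      rw [← h1]; abel
    have h4 : ii p (ee (bas j) f) = (∑ k, bas j k * p k) • f - ee (bas j) (ii p f) := by
      rw [← h2]; abel
    rw [wdg_ee, h3, hf, h4, gm_ee_bas]
    have h5 : wdg ((∑ k, bas j k * p k) • f - ee (bas j) (ii p f)) w =
        (∑ k, bas j k * p k) • wdg f w - ee (bas j) (wdg (ii p f) w) := by
      rw [sub_eq_add_neg, wdg_add_left, wdg_smul_left, ← neg_one_smul R (ee (bas j) (ii p f)),
        wdg_smul_left, wdg_ee, neg_one_smul, sub_eq_add_neg]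
    have h6 : wdg (- ee (bas j) (gm f)) (ii p w) = - ee (bas j) (wdg (gm f) (ii p w)) := by
      rw [← neg_one_smul R (ee (bas j) (gm f)), wdg_smul_left, wdg_ee, neg_one_smul]
    rw [h5, h6, ee_add]
    abel

/-- a linear map with `Φ vac = vac` and `Φ e(s) = e(m s) Φ` preserves wedge products -/
theorem wdg_map {Φ : Fk n R →ₗ[R] Fk n R} {m : (Fin n → R) → (Fin n → R)} (h0 : Φ vac = vac)
    (he : ∀ s f, Φ (ee s f) = ee (m s) (Φ f)) (v w : Fk n R) :
    Φ (wdg v w) = wdg (Φ v) (Φ w) := by
  induction v using ind with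
  | h0 => rw [wdg_vac, h0, wdg_vac]
  | hadd f g hf hg => rw [wdg_add_left, map_add, hf, hg, map_add, wdg_add_left]
  | hsmul c f hf => rw [wdg_smul_left, map_smul, hf, map_smul, wdg_smul_left]
  | he j f hf => rw [wdg_ee, he, hf, he, wdg_ee]

theorem wdg_assoc (u v w : Fk n R) : wdg (wdg u v) w = wdg u (wdg v w) := by
  induction u using ind with
  | h0 => rw [wdg_vac, wdg_vac]
  | hadd f g hf hg => rw [wdg_add_left, wdg_add_left, hf, hg, wdg_add_left]
  | hsmul c f hf => rw [wdg_smul_left, wdg_smul_left, hf, wdg_smul_left]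
  | he j f hf => rw [wdg_ee, wdg_ee, hf, wdg_ee]

theorem wdg_vac_right (v : Fk n R) : wdg v vac = v := by
  induction v using ind with
  | h0 => rw [wdg_vac]
  | hadd f g hf hg => rw [wdg_add_left, hf, hg]
  | hsmul c f hf => rw [wdg_smul_left, hf]
  | he j f hf => rw [wdg_ee, hf]

/-! ### degrees -/

/-- homogeneous of degree `q` -/
def Dg (q : ℕ) (v : Fk n R) : Prop := ∀ T, T.card ≠ q → v T = 0

theorem Dg.wdg {q q' : ℕ} {v w : Fk n R} (hv : Dg q v) (hw : Dg q' w) :
    Dg (q + q') (Wdg_578.wdg v w) := by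
  intro S hS
  unfold Wdg_578.wdg
  refine Finset.sum_eq_zero fun T hT => ?_
  simp only [mem_powerset] at hT
  have h1 := Finset.card_sdiff_add_card_eq_card hT
  by_cases h2 : T.card = q
  · have h3 : (S \ T).card ≠ q' := fun h => hS (by omega)
    rw [hw _ h3]; ring
  · rw [hv _ h2]; ring

theorem Dg.ee {q : ℕ} {v : Fk n R} (hv : Dg q v) (s : Fin n → R) :
    Dg (q + 1) (Wdg_578.ee s v) := by
  intro S hS
  rw [ee_apply]
  refine Finset.sum_eq_zero fun j hj => ?_
  have h1 := Finset.card_erase_add_one hj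
  rw [hv _ (fun h => hS (by omega))]; ring

theorem Dg.gm {q : ℕ} {v : Fk n R} (hv : Dg q v) : gm v = (-1 : R) ^ q • v := by
  ext T
  by_cases h : T.card = q
  · simp [Wdg_578.gm, h]
  · simp [Wdg_578.gm, hv T h]

/-! ### graded commutativity -/

theorem gm_gm (v : Fk n R) : gm (gm v) = v := by
  ext T
  simp only [gm, ← mul_assoc, ← mul_pow]
  simp

/-- `v ∧ e_j w = e_j (γ v ∧ w)` -/
theorem wdg_ee_right (s : Fin n → R) (v w : Fk n R) :
    wdg v (ee s w) = ee s (wdg (gm v) w) := by
  induction v using ind with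
  | h0 => rw [wdg_vac, gm_vac, wdg_vac]
  | hadd f g hf hg => rw [wdg_add_left, hf, hg, gm_add, wdg_add_left, ee_add]
  | hsmul c f hf => rw [wdg_smul_left, hf, gm_smul, wdg_smul_left, ee_smul]
  | he j f hf =>
    have h6 : wdg (- ee (bas j) (gm f)) w = - ee (bas j) (wdg (gm f) w) := by
      rw [← neg_one_smul R (ee (bas j) (gm f)), wdg_smul_left, wdg_ee, neg_one_smul]
    have h7 : ee s (-ee (bas j) (wdg (gm f) w)) = - ee s (ee (bas j) (wdg (gm f) w)) := by
      rw [← neg_one_smul R (ee (bas j) _), ee_smul, neg_one_smul]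
    rw [wdg_ee, hf, gm_ee_bas, h6, h7]
    have := ee_ee s (bas j) (wdg (gm f) w)
    exact eq_neg_of_add_eq_zero_right this

theorem wdg_comm {q q' : ℕ} {v w : Fk n R} (hv : Dg q v) (hw : Dg q' w) :
    wdg v w = (-1 : R) ^ (q * q') • wdg w v := by
  -- all v, w : wdg w v = ∑ over parity; use induction on v with the operator form
  classical
  ext S
  rw [Pi.smul_apply, smul_eq_mul]
  unfold wdg
  rw [Finset.mul_sum]
  refine Finset.sum_bij' (fun T _ => S \ T) (fun T _ => S \ T) ?_ ?_ ?_ ?_ ?_
  · intro T _; simp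
  · intro T _; simp
  · intro T hT
    simp only [mem_powerset] at hT
    exact Finset.sdiff_sdiff_eq_self hT
  · intro T hT
    simp only [mem_powerset] at hT
    exact Finset.sdiff_sdiff_eq_self hT
  · intro T hT
    simp only [mem_powerset] at hT
    rw [Finset.sdiff_sdiff_eq_self hT]
    by_cases h1 : T.card = q
    · by_cases h2 : (S \ T).card = q'
      · have h3 : eps R T (S \ T) = (-1) ^ (q * q') * eps R (S \ T) T := by
          -- eps T U * eps U T = (-1)^{|T||U|}
          have h4 : ∀ T U : Finset (Fin n), Disjoint T U →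
              eps R T U * eps R U T = (-1) ^ (T.card * U.card) := by
            intro T U hTU
            unfold eps
            have h5 : ∏ t ∈ T, (-1 : R) ^ (U.filter (· < t)).card =
                ∏ t ∈ T, ∏ u ∈ U, if u < t then (-1 : R) else 1 := by
              refine Finset.prod_congr rfl fun t _ => ?_
              rw [Finset.prod_ite]
              simp
            have h6 : ∏ u ∈ U, (-1 : R) ^ (T.filter (· < u)).card =
                ∏ t ∈ T, ∏ u ∈ U, if t < u then (-1 : R) else 1 := by
              rw [Finset.prod_comm]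
              refine Finset.prod_congr rfl fun t _ => ?_
              rw [Finset.prod_ite]
              simp
            rw [h5, h6, ← Finset.prod_mul_distrib]
            have h7 : ∀ t ∈ T, (∏ u ∈ U, if u < t then (-1 : R) else 1) *
                (∏ u ∈ U, if t < u then (-1 : R) else 1) = (-1) ^ U.card := by
              intro t ht
              rw [← Finset.prod_mul_distrib]
              rw [Finset.prod_congr rfl (g := fun _ => (-1 : R)), Finset.prod_const]
              intro u hu
              have hne : u ≠ t := fun h => (Finset.disjoint_left.1 hTU ht) (h ▸ hu)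
              rcases lt_or_gt_of_ne hne with h | h
              · rw [if_pos h, if_neg (not_lt.2 h.le)]; ring
              · rw [if_neg (not_lt.2 h.le), if_pos h]; ring
            rw [Finset.prod_congr rfl h7, Finset.prod_const, ← pow_mul, mul_comm]
          have h8 := h4 T (S \ T) Finset.disjoint_sdiff
          have h9 : eps R (S \ T) T * eps R (S \ T) T = 1 := by
            unfold eps
            rw [← Finset.prod_mul_distrib]
            refine Finset.prod_eq_one fun t _ => ?_
            rw [← mul_pow]; simp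
          rw [h1, h2] at h8
          rw [← h8]
          calc eps R T (S \ T) = eps R T (S \ T) * (eps R (S \ T) T * eps R (S \ T) T) := by
                rw [h9, mul_one]
            _ = _ := by ring
        rw [h3]; ring
      · rw [hw _ h2]; ring
    · rw [hv _ h1]; ring

/-! ### null vectors -/

/-- `v` is null for the form `Θ`: `∑_d Θ d c • i_d v = 0` for all `c` -/
def Nul (Θ : Matrix (Fin n) (Fin n) R) (v : Fk n R) : Prop := ∀ c, ii (fun d => Θ d c) v = 0

theorem Nul.wdg {Θ : Matrix (Fin n) (Fin n) R} {v w : Fk n R} (hv : Nul Θ v) (hw : Nul Θ w) :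
    Nul Θ (Wdg_578.wdg v w) := fun c => by
  rw [ii_wdg, hv c, hw c, wdg_zero_left, wdg_zero_right, add_zero]

theorem Nul.add {Θ : Matrix (Fin n) (Fin n) R} {v w : Fk n R} (hv : Nul Θ v) (hw : Nul Θ w) :
    Nul Θ (v + w) := fun c => by rw [ii_add, hv c, hw c, add_zero]

theorem Nul.smul {Θ : Matrix (Fin n) (Fin n) R} {v : Fk n R} (hv : Nul Θ v) (c : R) :
    Nul Θ (c • v) := fun d => by rw [ii_smul, hv d, smul_zero]

theorem nul_iff {Θ : Matrix (Fin n) (Fin n) R} {v : Fk n R} :
    Nul Θ v ↔ ∀ c, ∑ d, Θ d c • ii (bas d) v = 0 :=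
  forall_congr' fun c => by rw [ii_eq_sum]

theorem Nul.of_smul {k : Type*} [Field k] {Θ : Matrix (Fin n) (Fin n) k} {c : k} (hc : c ≠ 0)
    {v : Fk n k} (hv : Nul (c • Θ) v) : Nul Θ v := by
  rw [nul_iff] at hv ⊢
  intro b
  have h1 := hv b
  simp only [Matrix.smul_apply, smul_eq_mul, mul_smul] at h1
  rw [← Finset.smul_sum] at h1
  exact (smul_eq_zero.1 h1).resolve_left hc

/-- sum of two positive semidefinite forms -/
theorem Nul.of_add {Θ Θ' : Matrix (Fin n) (Fin n) ℂ} (hΘ : Θ.PosSemidef) (hΘ' : Θ'.PosSemidef)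
    {v : Fk n ℂ} (hv : Nul (Θ + Θ') v) : Nul Θ v ∧ Nul Θ' v := by
  have h0 : ∀ T, (Θ + Θ')ᵀ *ᵥ (fun d => ii (bas d) v T) = 0 := by
    intro T
    rw [nul_iff] at hv
    ext c
    have := congrFun (hv c) T
    simpa [mulVec, dotProduct, Finset.sum_apply] using this
  have h1 : ∀ T, Θᵀ *ᵥ (fun d => ii (bas d) v T) = 0 ∧ Θ'ᵀ *ᵥ (fun d => ii (bas d) v T) = 0 := by
    intro T
    set x : Fin n → ℂ := fun d => ii (bas d) v T
    have h2 : star x ⬝ᵥ ((Θ + Θ')ᵀ *ᵥ x) = 0 := by rw [h0 T]; simp
    rw [transpose_add, add_mulVec, dotProduct_add] at h2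
    have p1 := hΘ.transpose.dotProduct_mulVec_nonneg x
    have p2 := hΘ'.transpose.dotProduct_mulVec_nonneg x
    have q1 : star x ⬝ᵥ Θᵀ *ᵥ x = 0 := by
      refine le_antisymm ?_ p1
      calc star x ⬝ᵥ Θᵀ *ᵥ x ≤ star x ⬝ᵥ Θᵀ *ᵥ x + star x ⬝ᵥ Θ'ᵀ *ᵥ x :=
            le_add_of_nonneg_right p2
        _ = 0 := h2
    have q2 : star x ⬝ᵥ Θ'ᵀ *ᵥ x = 0 := by
      rw [q1, zero_add] at h2; exact h2
    exact ⟨(hΘ.transpose.dotProduct_mulVec_zero_iff x).1 q1,
      (hΘ'.transpose.dotProduct_mulVec_zero_iff x).1 q2⟩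
  constructor
  · rw [nul_iff]
    intro c
    ext T
    have := congrFun (h1 T).1 c
    simpa [mulVec, dotProduct, Finset.sum_apply] using this
  · rw [nul_iff]
    intro c
    ext T
    have := congrFun (h1 T).2 c
    simpa [mulVec, dotProduct, Finset.sum_apply] using this

theorem Nul.add_form {Θ Θ' : Matrix (Fin n) (Fin n) R} {v : Fk n R} (h : Nul Θ v) (h' : Nul Θ' v) :
    Nul (Θ + Θ') v := fun c => by
  have e : (fun d => (Θ + Θ') d c) = (fun d => Θ d c) + fun d => Θ' d c := rfl
  rw [e, ← iL_apply, map_add, LinearMap.add_apply, iL_apply, iL_apply, h c, h' c, add_zero]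

theorem Nul.smul_form {Θ : Matrix (Fin n) (Fin n) R} {v : Fk n R} (h : Nul Θ v) (r : R) :
    Nul (r • Θ) v := fun c => by
  have e : (fun d => (r • Θ) d c) = r • fun d => Θ d c := rfl
  rw [e, ← iL_apply, map_smul, LinearMap.smul_apply, iL_apply, h c, smul_zero]

end Crest.Agent.R273.Wdg_578
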