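import Crest.Agent.R273.EqvE_914
import Crest.Agent.R273.Prd_835

/-!
# R273 (S0416), Part B, leaf B-X2 (helper836), part 1: quotients of products

`holMap_desc`, `holMap_desc2` : descent of invariant holomorphic maps through the coverings of 914
(with a parameter).
`exists_prod` : `D : MonD A P`, `Θ : N₁ × Z ≃ D.cov P` biholomorphic with
`Θ (p • u, z) = p • Θ (u, z)`: then `M ≃ (N₁ / P) × Z`.
`main_quot` : the induction step for such `M`.
-/

set_option autoImplicit false
set_option linter.unusedSectionVars false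

open Set Filter Topology Complex

namespace Crest.Agent.R273.XTwo_836

open Crest.Agent.R275.Geo Crest.Agent.R275.Core144 Crest.Agent.R275.GC293
open Crest.Agent.R275.Prod363
open Crest.Agent.R273.Defs_333 Crest.Agent.R273.Map_835 Crest.Agent.R273.PB_835
open Crest.Agent.R273.Fam_835 Crest.Agent.R273.Prd_835 Crest.Agent.R273.UCov_914
open Crest.Agent.R273.Quot_914

noncomputable section

/-! ### descent -/

section descent

variable {n k l : ℕ} {M Z R : Type} [TopologicalSpace M] [TopologicalSpace Z]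
  [TopologicalSpace R] {A : Atl n M} {C : Atl k Z} {E : Atl l R} {G : Type} [Group G]
  (D : MonD A G)

theorem continuous_desc {f : D.cov G → R} (hf : ∀ (g : G) (e : D.cov G), f (g • e) = f e)
    (hc : Continuous f) : Continuous (D.desc f) := by
  rw [continuous_iff_continuousAt]
  intro x
  obtain ⟨i, hi⟩ := A.cover x
  have h1 : ContinuousAt (D.pt i (1 : G)) x :=
    (D.continuousOn_pt i _).continuousAt ((A.e i).open_source.mem_nhds hi)
  have h2 : ContinuousAt (fun x => f (D.pt i (1 : G) x)) x := hc.continuousAt.comp h1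
  exact h2.congr (Eventually.of_forall fun y => (D.desc_apply hf i 1 y).symm)

/-- an invariant holomorphic map descends -/
theorem holMap_desc {f : D.cov G → R} (hf : ∀ (g : G) (e : D.cov G), f (g • e) = f e)
    (h : HolMap (D.atl G) E f) : HolMap A E (D.desc f) := by
  refine ⟨continuous_desc D hf h.cont, fun i j => ?_⟩
  refine ((h.hol (i, 1) j).mono ?_).congr ?_
  · rintro z ⟨hz1, hz2⟩
    refine ⟨hz1, ?_⟩
    change D.desc f ((A.e i).symm z) ∈ (E.e j).source at hz2
    rw [D.desc_apply hf i 1] at hz2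
    exact hz2
  · rintro z ⟨hz1, hz2⟩
    exact congrArg (E.e j) (D.desc_apply hf i 1 _)

/-- descent with a parameter -/
def desc2 (f : D.cov G × Z → R) (q : M × Z) : R := f (D.pt ((A.cover q.1).choose) 1 q.1, q.2)

variable {f : D.cov G × Z → R}
  (hf : ∀ (g : G) (e : D.cov G) (z : Z), f (g • e, z) = f (e, z))

include hf in
theorem desc2_pr (e : D.cov G) (z : Z) : desc2 D f (D.pr e, z) = f (e, z) := by
  obtain ⟨g, hg⟩ := D.exists_deck (e := D.pt ((A.cover (D.pr e)).choose) 1 (D.pr e)) (e' := e) rfl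
  unfold desc2
  rw [← hf g, hg]

include hf in
theorem desc2_apply (i : A.ι) (v : G) (x : M) (z : Z) : desc2 D f (x, z) = f (D.pt i v x, z) :=
  desc2_pr D hf (D.pt i v x) z

include hf in
theorem continuous_desc2 (hc : Continuous f) : Continuous (desc2 D f) := by
  rw [continuous_iff_continuousAt]
  rintro ⟨x, z⟩
  obtain ⟨i, hi⟩ := A.cover x
  have h1 : ContinuousAt (D.pt i (1 : G)) x :=
    (D.continuousOn_pt i _).continuousAt ((A.e i).open_source.mem_nhds hi)
  have h2 : ContinuousAt (fun q : M × Z => f (D.pt i (1 : G) q.1, q.2)) (x, z) := by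
    refine hc.continuousAt.comp (ContinuousAt.prodMk ?_ continuousAt_snd)
    exact ContinuousAt.comp (f := fun q : M × Z => q.1) (g := D.pt i (1 : G)) h1 continuousAt_fst
  exact h2.congr (Eventually.of_forall fun y => (desc2_apply D hf i 1 y.1 y.2).symm)

include hf in
/-- an invariant holomorphic map descends, with a parameter -/
theorem holMap_desc2 (h : HolMap ((D.atl G).prod C) E f) : HolMap (A.prod C) E (desc2 D f) := by
  refine ⟨continuous_desc2 D hf h.cont, fun i j => ?_⟩
  refine ((h.hol ((i.1, 1), i.2) j).mono ?_).congr ?_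
  · rintro z ⟨hz1, hz2⟩
    refine ⟨hz1, ?_⟩
    change desc2 D f ((A.e i.1).symm (fstL n k z), (C.e i.2).symm (sndL n k z)) ∈
      (E.e j).source at hz2
    rw [desc2_apply D hf i.1 1] at hz2
    exact hz2
  · rintro z ⟨hz1, hz2⟩
    exact congrArg (E.e j) (desc2_apply D hf i.1 1 _ _)

end descent

/-! ### quotients of products -/

section quot

variable {n n₁ b : ℕ} {M N₁ Z : Type} [TopologicalSpace M] [TopologicalSpace N₁]
  [TopologicalSpace Z] {A : Atl n M} {A₁ : Atl n₁ N₁} {C : Atl b Z} {P : Type} [Group P]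
  {D : MonD A P} [MulAction P N₁] {Θ : N₁ × Z ≃ₜ D.cov P}
  (hΘ : HolMap (A₁.prod C) (D.atl P) Θ) (hΘ' : HolMap (D.atl P) (A₁.prod C) Θ.symm)
  (eqv : ∀ (p : P) (u : N₁) (z : Z), Θ (p • u, z) = p • Θ (u, z))

include eqv in
theorem symm_deck (p : P) (e : D.cov P) :
    Θ.symm (p • e) = (p • (Θ.symm e).1, (Θ.symm e).2) := by
  rw [Θ.symm_apply_eq, eqv, Prod.mk.eta, Θ.apply_symm_apply]

include hΘ hΘ' eqv in
theorem hol_act [Nonempty Z] (p : P) : HolMap A₁ A₁ (fun u : N₁ => p • u) := by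
  obtain ⟨z⟩ := (inferInstance : Nonempty Z)
  have h1 := (holMap_fst (A := A₁) (B := C)).comp (hΘ'.comp ((D.holMap_deck p).comp
    (hΘ.comp (holMap_inl (A := A₁) (B := C) z))))
  have h2 : (fun x : N₁ => (Θ.symm (p • Θ (x, z))).1) = fun u : N₁ => p • u := by
    funext u
    rw [← eqv, Θ.symm_apply_apply]
  rw [h2] at h1
  exact h1

/-- the orbit space -/
abbrev OQ (P N₁ : Type) [Group P] [MulAction P N₁] : Type := MulAction.orbitRel.Quotient P N₁

/-- the projection to the orbit space -/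
def oq (P : Type) {N₁ : Type} [Group P] [MulAction P N₁] (u : N₁) : OQ P N₁ :=
  Quotient.mk (MulAction.orbitRel P N₁) u

theorem oq_smul (p : P) (u : N₁) : oq P (p • u) = oq P u :=
  Quotient.sound (MulAction.orbitRel_apply.2 ⟨p, rfl⟩)

theorem oq_surj : Function.Surjective (oq P (N₁ := N₁)) := Quotient.mk_surjective

theorem isQM_oq : IsQuotientMap (oq P (N₁ := N₁)) := isQuotientMap_quotient_mk'

include hΘ hΘ' eqv in
theorem isQC [Nonempty Z] : IsQuotientCoveringMap (oq P (N₁ := N₁)) P := by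
  obtain ⟨z⟩ := (inferInstance : Nonempty Z)
  exact
    { toIsQuotientMap := isQM_oq
      continuous_const_smul := fun p => (hol_act hΘ hΘ' eqv p).cont
      apply_eq_iff_mem_orbit := fun {u u'} => by
        unfold oq
        rw [Quotient.eq]
        exact MulAction.orbitRel_apply
      disjoint := fun u => by
        obtain ⟨i, hi⟩ := A.cover (D.pr (Θ (u, z)))
        refine ⟨(fun u' => Θ (u', z)) ⁻¹' D.sheet i (D.co i (Θ (u, z))), ?_, ?_⟩
        · have hc : Continuous fun u' => Θ (u', z) := by fun_prop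
          exact ((D.isOpen_sheet i _).preimage hc).mem_nhds (D.mem_sheet_co hi)
        · rintro p ⟨w, ⟨u', hu', rfl⟩, hw⟩
          have h1 : D.co i (Θ (u', z)) = D.co i (Θ (u, z)) := hu'.2
          have h2 : D.co i (Θ (p • u', z)) = D.co i (Θ (u, z)) := hw.2
          rw [eqv, D.co_deck, h1] at h2
          have h3 : (p⁻¹ : P) = 1 := mul_eq_left.1 h2
          exact inv_eq_one.1 h3 }

include eqv in
theorem t2_oq [Nonempty Z] [T2Space M] : T2Space (OQ P N₁) := by
  obtain ⟨z⟩ := (inferInstance : Nonempty Z)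
  have hinv : ∀ u u' : N₁, (MulAction.orbitRel P N₁) u u' →
      D.pr (Θ (u, z)) = D.pr (Θ (u', z)) := by
    intro u u' h
    obtain ⟨p, hp⟩ := MulAction.orbitRel_apply.1 h
    have hp' : p • u' = u := hp
    rw [← hp', eqv, D.pr_deck]
  refine T2Space.of_injective_continuous (f := fun q : OQ P N₁ =>
    Quotient.lift (fun u : N₁ => D.pr (Θ (u, z))) hinv q) ?_ ?_
  · intro q q'
    induction q using Quotient.inductionOn with
    | h u =>
    induction q' using Quotient.inductionOn with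
    | h u' =>
    intro h
    have h' : D.pr (Θ (u', z)) = D.pr (Θ (u, z)) := h.symm
    obtain ⟨p, hp⟩ := D.exists_deck h'
    rw [← eqv] at hp
    have h2 := congrArg Prod.fst (Θ.injective hp)
    exact Quotient.sound (MulAction.orbitRel_apply.2 ⟨p, h2⟩)
  · refine Continuous.quotient_lift ?_ hinv
    exact D.continuous_pr.comp (Θ.continuous.comp (by fun_prop))

/-- the map to the product -/
def psiE (D : MonD A P) (Θ : N₁ × Z ≃ₜ D.cov P) (e : D.cov P) : OQ P N₁ × Z :=
  (oq P (Θ.symm e).1, (Θ.symm e).2)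

include eqv in
theorem psiE_inv (p : P) (e : D.cov P) : psiE D Θ (p • e) = psiE D Θ e := by
  unfold psiE
  rw [symm_deck eqv, oq_smul]

theorem continuous_oq : Continuous (oq P (N₁ := N₁)) := isQM_oq.continuous

theorem continuous_psiE : Continuous (psiE D Θ) := by
  refine (continuous_oq.comp ?_).prodMk ?_
  · exact continuous_fst.comp Θ.symm.continuous
  · exact continuous_snd.comp Θ.symm.continuous

theorem surj_pr : Function.Surjective (D.pr (F := P)) := by
  intro x
  obtain ⟨i, hi⟩ := A.cover x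
  exact ⟨D.pt i 1 x, rfl⟩

include eqv in
theorem surj_psi : Function.Surjective (D.desc (psiE D Θ)) := by
  rintro ⟨q, z⟩
  obtain ⟨u, rfl⟩ := oq_surj q
  refine ⟨D.pr (Θ (u, z)), ?_⟩
  rw [D.desc_pr (psiE_inv eqv)]
  unfold psiE
  rw [Θ.symm_apply_apply]

include eqv in
theorem surj_psi₁ [Nonempty Z] : Function.Surjective fun x => (D.desc (psiE D Θ) x).1 := by
  obtain ⟨z⟩ := (inferInstance : Nonempty Z)
  intro q
  obtain ⟨x, hx⟩ := surj_psi eqv (q, z)
  exact ⟨x, congrArg Prod.fst hx⟩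

include eqv in
theorem continuous_psi₁ : Continuous fun x => (D.desc (psiE D Θ) x).1 :=
  continuous_fst.comp (continuous_desc D (psiE_inv eqv) continuous_psiE)

include eqv in
theorem compact_oq [Nonempty Z] [CompactSpace M] : CompactSpace (OQ P N₁) := by
  have h1 := isCompact_range (continuous_psi₁ eqv)
  rw [(surj_psi₁ eqv).range_eq] at h1
  exact ⟨h1⟩

include eqv in
theorem connected_oq [Nonempty Z] [ConnectedSpace M] : ConnectedSpace (OQ P N₁) :=
  (surj_psi₁ eqv).connectedSpace (continuous_psi₁ eqv)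

include hΘ hΘ' eqv in
/-- **`M ≃ (N₁ / P) × Z`** -/
theorem exists_prod [Nonempty Z] [T2Space M] [CompactSpace M] [ConnectedSpace M] :
    ∃ (Q : Type) (_ : TopologicalSpace Q) (_ : T2Space Q) (_ : CompactSpace Q)
      (_ : ConnectedSpace Q) (BQ : Atl n₁ Q) (φ : Q × Z → M) (ψ : M → Q × Z),
      HolMap (BQ.prod C) A φ ∧ HolMap A (BQ.prod C) ψ ∧ (∀ x, φ (ψ x) = x) ∧
        ∀ q, ψ (φ q) = q := by
  have i1 := t2_oq eqv
  have i2 := compact_oq eqv
  have i3 := connected_oq eqv
  obtain ⟨X⟩ := exists_qd (isQC hΘ hΘ' eqv) (hol_act hΘ hΘ' eqv)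
  have hφi : ∀ (p : P) (e : X.D.cov P) (z : Z),
      (fun q : X.D.cov P × Z => D.pr (Θ (X.Ψ.symm q.1, q.2))) (p • e, z) =
      (fun q : X.D.cov P × Z => D.pr (Θ (X.Ψ.symm q.1, q.2))) (e, z) := by
    intro p e z
    show D.pr (Θ (X.Ψ.symm (p • e), z)) = D.pr (Θ (X.Ψ.symm e, z))
    rw [X.Ψ_symm_deck, eqv, D.pr_deck]
  have hφ := holMap_desc2 (C := C) X.D hφi ((D.holMap_pr P).comp (hΘ.comp
    (holMap_pair (X.hol'.toHolMap.comp holMap_fst) holMap_snd)))
  have hψ := holMap_desc D (psiE_inv eqv)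
    (holMap_pair (X.holMap_pi.comp (holMap_fst.comp hΘ')) (holMap_snd.comp hΘ'))
  have e1 : ∀ u z, desc2 X.D (fun q : X.D.cov P × Z => D.pr (Θ (X.Ψ.symm q.1, q.2)))
      (oq P u, z) = D.pr (Θ (u, z)) := by
    intro u z
    rw [← X.pr_Ψ u, desc2_pr X.D hφi (X.Ψ u) z]
    simp only [Homeomorph.symm_apply_apply]
  refine ⟨OQ P N₁, inferInstance, i1, i2, i3, X.B,
    desc2 X.D (fun q : X.D.cov P × Z => D.pr (Θ (X.Ψ.symm q.1, q.2))), D.desc (psiE D Θ),
    hφ, hψ, fun x => ?_, ?_⟩
  · obtain ⟨e, rfl⟩ := surj_pr (D := D) x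
    rw [D.desc_pr (psiE_inv eqv)]
    unfold psiE
    rw [e1, Prod.mk.eta, Θ.apply_symm_apply]
  · rintro ⟨q, z⟩
    obtain ⟨u, rfl⟩ := oq_surj q
    rw [e1, D.desc_pr (psiE_inv eqv)]
    unfold psiE
    rw [Θ.symm_apply_apply]

include hΘ hΘ' eqv in
/-- the induction step -/
theorem main_quot [T2Space Z] [CompactSpace Z] [ConnectedSpace Z] [T2Space M] [CompactSpace M]
    [ConnectedSpace M] (hn : n = n₁ + b) (IH1 : MainN n₁) (IH2 : MainN b) (Pj : ProjD A)
    {h : HM (KB A)⁻¹} (hs : h.Semipos) : ∃ r : ℕ, 0 < r ∧ HasSec ((KB A)⁻¹ ^ r) := by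
  obtain ⟨Q, _, _, _, _, BQ, φ, ψ, hφ, hψ, h1, h2⟩ := exists_prod hΘ hΘ' eqv
  subst hn
  exact main_prod IH1 IH2 hφ hψ h1 h2 Pj hs

end quot

end

end Crest.Agent.R273.XTwo_836
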