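import Mathlib

/-!
Row 273 (S0416), helper812: the `ℂ`-algebra `Sm Ω` of smooth complex functions on an open set `Ω`
of a complex normed space, with the commuting derivations `D ξ = ∂_ξ`, `B ξ = ∂̄_ξ` (constant
vector fields `ξ`), conjugation, evaluation and the second derivative test.
-/

set_option autoImplicit false

open Set Filter Topology Complex
open scoped ContDiff ComplexConjugate

namespace Crest.Agent.R273.YSm_812

variable {V : Type*} [NormedAddCommGroup V] [NormedSpace ℂ V]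

theorem two_le : (2 : ℕ∞ω) ≤ ∞ := WithTop.coe_le_coe.2 le_top

/-- `∂_ξ f` -/
noncomputable def dz (ξ : V) (f : V → ℂ) (z : V) : ℂ :=
  (fderiv ℝ f z ξ - I * fderiv ℝ f z (I • ξ)) / 2

/-- `∂̄_ξ f` -/
noncomputable def db (ξ : V) (f : V → ℂ) (z : V) : ℂ :=
  (fderiv ℝ f z ξ + I * fderiv ℝ f z (I • ξ)) / 2

/-- real directional derivative -/
noncomputable def dr (ξ : V) (f : V → ℂ) (z : V) : ℂ := fderiv ℝ f z ξ

open Classical in
/-- extension by zero -/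
noncomputable def ex {Ω : Set V} (g : Ω → ℂ) (z : V) : ℂ := if h : z ∈ Ω then g ⟨z, h⟩ else 0

omit [NormedAddCommGroup V] [NormedSpace ℂ V] in
theorem ex_of_mem {Ω : Set V} (g : Ω → ℂ) {z : V} (h : z ∈ Ω) : ex g z = g ⟨z, h⟩ := by
  simp [ex, h]

omit [NormedAddCommGroup V] [NormedSpace ℂ V] in
theorem ex_coe {Ω : Set V} (g : Ω → ℂ) (z : Ω) : ex g z = g z := by
  simp [ex]

/-- the algebra of smooth functions on `Ω` -/
def Sm (Ω : Set V) : Subalgebra ℂ (Ω → ℂ) where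
  carrier := {g | ContDiffOn ℝ ∞ (ex g) Ω}
  mul_mem' {a b} ha hb := by
    refine (ContDiffOn.mul (𝔸 := ℂ) (𝕜 := ℝ) ha hb).congr fun z hz => ?_
    simp [ex_of_mem _ hz]
  add_mem' {a b} ha hb := by
    refine (ContDiffOn.add (𝕜 := ℝ) ha hb).congr fun z hz => ?_
    simp [ex_of_mem _ hz]
  algebraMap_mem' c := by
    refine (contDiffOn_const (𝕜 := ℝ) (c := c)).congr fun z hz => ?_
    simp [ex_of_mem _ hz]

variable {Ω : Set V}

theorem Sm.smooth (g : Sm Ω) : ContDiffOn ℝ ∞ (ex g.1) Ω := g.2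

/-- restriction of a function smooth on `Ω` -/
def mk (f : V → ℂ) (hf : ContDiffOn ℝ ∞ f Ω) : Sm Ω :=
  ⟨fun z => f z, hf.congr fun z hz => by simp [ex_of_mem _ hz]⟩

@[simp] theorem mk_apply (f : V → ℂ) (hf : ContDiffOn ℝ ∞ f Ω) (z : Ω) : (mk f hf).1 z = f z := rfl

theorem Sm.ext' {g h : Sm Ω} (H : ∀ z : Ω, g.1 z = h.1 z) : g = h := Subtype.ext (funext H)

theorem contDiffOn_dr (hΩ : IsOpen Ω) (ξ : V) {f : V → ℂ} (hf : ContDiffOn ℝ ∞ f Ω) :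
    ContDiffOn ℝ ∞ (dr ξ f) Ω := by
  have h1 : ContDiffOn ℝ ∞ (fderiv ℝ f) Ω := hf.fderiv_of_isOpen hΩ (by simp)
  exact h1.clm_apply contDiffOn_const

theorem dz_eq (ξ : V) (f : V → ℂ) : dz ξ f = fun z => (dr ξ f z - I * dr (I • ξ) f z) / 2 := rfl

theorem db_eq (ξ : V) (f : V → ℂ) : db ξ f = fun z => (dr ξ f z + I * dr (I • ξ) f z) / 2 := rfl

theorem contDiffOn_dz (hΩ : IsOpen Ω) (ξ : V) {f : V → ℂ} (hf : ContDiffOn ℝ ∞ f Ω) :
    ContDiffOn ℝ ∞ (dz ξ f) Ω := by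
  rw [dz_eq]
  exact ((contDiffOn_dr hΩ ξ hf).sub (contDiffOn_const.mul (contDiffOn_dr hΩ _ hf))).div_const 2

theorem contDiffOn_db (hΩ : IsOpen Ω) (ξ : V) {f : V → ℂ} (hf : ContDiffOn ℝ ∞ f Ω) :
    ContDiffOn ℝ ∞ (db ξ f) Ω := by
  rw [db_eq]
  exact ((contDiffOn_dr hΩ ξ hf).add (contDiffOn_const.mul (contDiffOn_dr hΩ _ hf))).div_const 2

theorem diffAt (hΩ : IsOpen Ω) {f : V → ℂ} (hf : ContDiffOn ℝ ∞ f Ω) {z : V} (hz : z ∈ Ω) :
    DifferentiableAt ℝ f z :=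
  (hf.differentiableOn (by simp)).differentiableAt (hΩ.mem_nhds hz)

theorem fderiv_congr_on (hΩ : IsOpen Ω) {f g : V → ℂ} (h : ∀ z ∈ Ω, f z = g z) {z : V}
    (hz : z ∈ Ω) : fderiv ℝ f z = fderiv ℝ g z :=
  Filter.EventuallyEq.fderiv_eq ((hΩ.eventually_mem hz).mono fun w hw => h w hw)

theorem dr_congr (hΩ : IsOpen Ω) {f g : V → ℂ} (h : ∀ z ∈ Ω, f z = g z) {z : V}
    (hz : z ∈ Ω) (ξ : V) : dr ξ f z = dr ξ g z := by
  rw [dr, dr, fderiv_congr_on hΩ h hz]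

theorem dz_congr (hΩ : IsOpen Ω) {f g : V → ℂ} (h : ∀ z ∈ Ω, f z = g z) {z : V}
    (hz : z ∈ Ω) (ξ : V) : dz ξ f z = dz ξ g z := by
  rw [dz, dz, fderiv_congr_on hΩ h hz]

theorem db_congr (hΩ : IsOpen Ω) {f g : V → ℂ} (h : ∀ z ∈ Ω, f z = g z) {z : V}
    (hz : z ∈ Ω) (ξ : V) : db ξ f z = db ξ g z := by
  rw [db, db, fderiv_congr_on hΩ h hz]

theorem dr_add {f g : V → ℂ} {z : V} (hf : DifferentiableAt ℝ f z) (hg : DifferentiableAt ℝ g z)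
    (ξ : V) : dr ξ (fun w => f w + g w) z = dr ξ f z + dr ξ g z := by
  simp only [dr]
  rw [fderiv_fun_add hf hg]; rfl

theorem dr_mul {f g : V → ℂ} {z : V} (hf : DifferentiableAt ℝ f z) (hg : DifferentiableAt ℝ g z)
    (ξ : V) : dr ξ (fun w => f w * g w) z = f z * dr ξ g z + g z * dr ξ f z := by
  simp only [dr]
  rw [fderiv_fun_mul hf hg]
  simp

theorem dr_dr (hΩ : IsOpen Ω) {f : V → ℂ} (hf : ContDiffOn ℝ ∞ f Ω) {z : V} (hz : z ∈ Ω)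
    (ξ η : V) : dr ξ (dr η f) z = fderiv ℝ (fderiv ℝ f) z ξ η := by
  have h1 : DifferentiableAt ℝ (fderiv ℝ f) z := by
    have h1 : ContDiffOn ℝ ∞ (fderiv ℝ f) Ω := hf.fderiv_of_isOpen hΩ (by simp)
    exact (h1.differentiableOn (by simp)).differentiableAt (hΩ.mem_nhds hz)
  show fderiv ℝ (fun w => fderiv ℝ f w η) z ξ = _
  rw [fderiv_clm_apply h1 (differentiableAt_const η)]
  simp

theorem dr_comm (hΩ : IsOpen Ω) {f : V → ℂ} (hf : ContDiffOn ℝ ∞ f Ω) {z : V} (hz : z ∈ Ω)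
    (ξ η : V) : dr ξ (dr η f) z = dr η (dr ξ f) z := by
  rw [dr_dr hΩ hf hz, dr_dr hΩ hf hz]
  have h : ContDiffAt ℝ ∞ f z := hf.contDiffAt (hΩ.mem_nhds hz)
  exact (h.isSymmSndFDerivAt (by
    rw [minSmoothness_of_isRCLikeNormedField]; exact two_le)) ξ η

/-- the general first order operator `a ∂_ξ + b ∂_{iξ}` -/
noncomputable def dab (a b : ℂ) (ξ : V) (f : V → ℂ) (z : V) : ℂ :=
  a * dr ξ f z + b * dr (I • ξ) f z

theorem dz_dab (ξ : V) (f : V → ℂ) : dz ξ f = dab (1 / 2) (-(I / 2)) ξ f := by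
  funext z; simp only [dz, dab, dr]; ring

theorem db_dab (ξ : V) (f : V → ℂ) : db ξ f = dab (1 / 2) (I / 2) ξ f := by
  funext z; simp only [db, dab, dr]; ring

theorem contDiffOn_dab (hΩ : IsOpen Ω) (a b : ℂ) (ξ : V) {f : V → ℂ}
    (hf : ContDiffOn ℝ ∞ f Ω) : ContDiffOn ℝ ∞ (dab a b ξ f) Ω :=
  (contDiffOn_const.mul (contDiffOn_dr hΩ ξ hf)).add
    (contDiffOn_const.mul (contDiffOn_dr hΩ _ hf))

theorem dr_const_mul (hΩ : IsOpen Ω) {f : V → ℂ} (hf : ContDiffOn ℝ ∞ f Ω) {z : V} (hz : z ∈ Ω)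
    (c : ℂ) (ξ : V) : dr ξ (fun w => c * f w) z = c * dr ξ f z := by
  rw [dr_mul (differentiableAt_const c) (diffAt hΩ hf hz)]
  have : dr ξ (fun _ : V => c) z = 0 := by simp [dr]
  rw [this, mul_zero, add_zero]

theorem dab_comm (hΩ : IsOpen Ω) {f : V → ℂ} (hf : ContDiffOn ℝ ∞ f Ω) {z : V} (hz : z ∈ Ω)
    (a b a' b' : ℂ) (ξ η : V) : dab a b ξ (dab a' b' η f) z = dab a' b' η (dab a b ξ f) z := by
  have key : ∀ (a b a' b' : ℂ) (ξ η : V), dab a b ξ (dab a' b' η f) z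
      = a * a' * dr ξ (dr η f) z + a * b' * dr ξ (dr (I • η) f) z
        + b * a' * dr (I • ξ) (dr η f) z + b * b' * dr (I • ξ) (dr (I • η) f) z := by
    intro a b a' b' ξ η
    have e : ∀ ζ : V, dr ζ (dab a' b' η f) z = a' * dr ζ (dr η f) z
        + b' * dr ζ (dr (I • η) f) z := by
      intro ζ
      show dr ζ (fun w => a' * dr η f w + b' * dr (I • η) f w) z = _
      have h1 := contDiffOn_dr hΩ η hf
      have h2 := contDiffOn_dr hΩ (I • η) hf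
      rw [dr_add ((diffAt hΩ h1 hz).const_mul a') ((diffAt hΩ h2 hz).const_mul b'),
        dr_const_mul hΩ h1 hz, dr_const_mul hΩ h2 hz]
    simp only [dab] at e ⊢
    rw [e, e]
    ring
  rw [key, key, dr_comm hΩ hf hz η ξ, dr_comm hΩ hf hz η (I • ξ), dr_comm hΩ hf hz (I • η) ξ,
    dr_comm hΩ hf hz (I • η) (I • ξ)]
  ring

/-- the derivation `a ∂_ξ + b ∂_{iξ}` of `Sm Ω` -/
noncomputable def DAB (hΩ : IsOpen Ω) (a b : ℂ) (ξ : V) : Derivation ℂ (Sm Ω) (Sm Ω) :=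
  Derivation.mk'
    { toFun := fun g => mk (dab a b ξ (ex g.1)) (contDiffOn_dab hΩ a b ξ g.2)
      map_add' := fun g h => by
        refine Sm.ext' fun z => ?_
        have e : ∀ ζ : V, dr ζ (ex (g + h).1) z = dr ζ (ex g.1) z + dr ζ (ex h.1) z := by
          intro ζ
          rw [← dr_add (diffAt hΩ g.2 z.2) (diffAt hΩ h.2 z.2)]
          exact dr_congr hΩ (fun w hw => by simp [ex_of_mem _ hw]) z.2 ζ
        show dab a b ξ (ex (g + h).1) z = dab a b ξ (ex g.1) z + dab a b ξ (ex h.1) z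
        simp only [dab, e]; ring
      map_smul' := fun c g => by
        refine Sm.ext' fun z => ?_
        have e : ∀ ζ : V, dr ζ (ex (c • g).1) z = c * dr ζ (ex g.1) z := by
          intro ζ
          rw [← dr_const_mul hΩ g.2 z.2]
          exact dr_congr hΩ (fun w hw => by simp [ex_of_mem _ hw]) z.2 ζ
        show dab a b ξ (ex (c • g).1) z = c * dab a b ξ (ex g.1) z
        simp only [dab, e]; ring }
    (fun g h => by
      refine Sm.ext' fun z => ?_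
      have e : ∀ ζ : V, dr ζ (ex (g * h).1) z = g.1 z * dr ζ (ex h.1) z
          + h.1 z * dr ζ (ex g.1) z := by
        intro ζ
        have := dr_mul (diffAt hΩ g.2 z.2) (diffAt hΩ h.2 z.2) ζ
        rw [ex_coe, ex_coe] at this
        rw [← this]
        exact dr_congr hΩ (fun w hw => by simp [ex_of_mem _ hw]) z.2 ζ
      show dab a b ξ (ex (g * h).1) z = g.1 z * dab a b ξ (ex h.1) z
        + h.1 z * dab a b ξ (ex g.1) z
      simp only [dab, e]; ring)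

theorem DAB_apply (hΩ : IsOpen Ω) (a b : ℂ) (ξ : V) (g : Sm Ω) (z : Ω) :
    (DAB hΩ a b ξ g).1 z = dab a b ξ (ex g.1) z := rfl

theorem DAB_comm (hΩ : IsOpen Ω) (a b a' b' : ℂ) (ξ η : V) (g : Sm Ω) :
    DAB hΩ a b ξ (DAB hΩ a' b' η g) = DAB hΩ a' b' η (DAB hΩ a b ξ g) := by
  refine Sm.ext' fun z => ?_
  rw [DAB_apply, DAB_apply]
  have h1 : ∀ (a b a' b' : ℂ) (ξ η : V), dab a b ξ (ex (DAB hΩ a' b' η g).1) z
      = dab a b ξ (dab a' b' η (ex g.1)) z := by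
    intro a b a' b' ξ η
    have e : ∀ ζ : V, dr ζ (ex (DAB hΩ a' b' η g).1) z = dr ζ (dab a' b' η (ex g.1)) z := fun ζ =>
      dr_congr hΩ (fun w hw => by rw [ex_of_mem _ hw, DAB_apply]) z.2 ζ
    simp only [dab] at e ⊢
    rw [e, e]
  rw [h1, h1]
  exact dab_comm hΩ g.2 z.2 a b a' b' ξ η

/-- `∂_ξ` -/
noncomputable def D (hΩ : IsOpen Ω) (ξ : V) : Derivation ℂ (Sm Ω) (Sm Ω) :=
  DAB hΩ (1 / 2) (-(I / 2)) ξ

/-- `∂̄_ξ` -/
noncomputable def B (hΩ : IsOpen Ω) (ξ : V) : Derivation ℂ (Sm Ω) (Sm Ω) :=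
  DAB hΩ (1 / 2) (I / 2) ξ

theorem DD (hΩ : IsOpen Ω) (ξ η : V) (g : Sm Ω) : D hΩ ξ (D hΩ η g) = D hΩ η (D hΩ ξ g) :=
  DAB_comm hΩ _ _ _ _ _ _ g

theorem BB (hΩ : IsOpen Ω) (ξ η : V) (g : Sm Ω) : B hΩ ξ (B hΩ η g) = B hΩ η (B hΩ ξ g) :=
  DAB_comm hΩ _ _ _ _ _ _ g

theorem DB (hΩ : IsOpen Ω) (ξ η : V) (g : Sm Ω) : D hΩ ξ (B hΩ η g) = B hΩ η (D hΩ ξ g) :=
  DAB_comm hΩ _ _ _ _ _ _ g

theorem D_apply (hΩ : IsOpen Ω) (ξ : V) (g : Sm Ω) (z : Ω) :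
    (D hΩ ξ g).1 z = dz ξ (ex g.1) z := by
  rw [dz_dab]; rfl

theorem B_apply (hΩ : IsOpen Ω) (ξ : V) (g : Sm Ω) (z : Ω) :
    (B hΩ ξ g).1 z = db ξ (ex g.1) z := by
  rw [db_dab]; rfl

theorem D_mk (hΩ : IsOpen Ω) (ξ : V) {f : V → ℂ} (hf : ContDiffOn ℝ ∞ f Ω) :
    D hΩ ξ (mk f hf) = mk (dz ξ f) (contDiffOn_dz hΩ ξ hf) := by
  refine Sm.ext' fun z => ?_
  rw [D_apply, mk_apply]
  exact dz_congr hΩ (fun w hw => by simp [ex_of_mem _ hw]) z.2 ξ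

theorem B_mk (hΩ : IsOpen Ω) (ξ : V) {f : V → ℂ} (hf : ContDiffOn ℝ ∞ f Ω) :
    B hΩ ξ (mk f hf) = mk (db ξ f) (contDiffOn_db hΩ ξ hf) := by
  refine Sm.ext' fun z => ?_
  rw [B_apply, mk_apply]
  exact db_congr hΩ (fun w hw => by simp [ex_of_mem _ hw]) z.2 ξ

/-- evaluation at `O ∈ Ω` -/
def ev (O : Ω) : Sm Ω →ₐ[ℂ] ℂ := (Pi.evalAlgHom ℂ (fun _ : Ω => ℂ) O).comp (Sm Ω).val

@[simp] theorem ev_apply (O : Ω) (g : Sm Ω) : ev O g = g.1 O := rfl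

/-- conjugation -/
def cj (g : Sm Ω) : Sm Ω :=
  ⟨fun z => conj (g.1 z), by
    have h : ContDiffOn ℝ ∞ (fun w => conjCLE (ex g.1 w)) Ω :=
      conjCLE.contDiff.comp_contDiffOn g.2
    refine h.congr fun z hz => ?_
    simp [ex_of_mem _ hz]⟩

@[simp] theorem cj_apply (g : Sm Ω) (z : Ω) : (cj g).1 z = conj (g.1 z) := rfl

theorem dr_cj (hΩ : IsOpen Ω) (g : Sm Ω) (z : Ω) (ξ : V) :
    dr ξ (ex (cj g).1) z = conj (dr ξ (ex g.1) z) := by
  have h1 : dr ξ (ex (cj g).1) z = dr ξ (fun w => conjCLE (ex g.1 w)) z :=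
    dr_congr hΩ (fun w hw => by simp [ex_of_mem _ hw]) z.2 ξ
  rw [h1]
  have h2 : HasFDerivAt (fun w => conjCLE (ex g.1 w))
      ((conjCLE : ℂ →L[ℝ] ℂ).comp (fderiv ℝ (ex g.1) z)) z :=
    (conjCLE : ℂ →L[ℝ] ℂ).hasFDerivAt.comp (z : V) (diffAt hΩ g.2 z.2).hasFDerivAt
  rw [dr, h2.fderiv]
  rfl

theorem D_cj (hΩ : IsOpen Ω) (g : Sm Ω) (ξ : V) : D hΩ ξ (cj g) = cj (B hΩ ξ g) := by
  refine Sm.ext' fun z => ?_
  rw [D_apply, cj_apply, B_apply, dz_dab, db_dab, dab, dab, dr_cj hΩ, dr_cj hΩ]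
  simp only [map_add, map_mul, map_div₀, map_one, map_ofNat, conj_I]
  ring

theorem B_cj (hΩ : IsOpen Ω) (g : Sm Ω) (ξ : V) : B hΩ ξ (cj g) = cj (D hΩ ξ g) := by
  refine Sm.ext' fun z => ?_
  rw [B_apply, cj_apply, D_apply, dz_dab, db_dab, dab, dab, dr_cj hΩ, dr_cj hΩ]
  simp only [map_add, map_mul, map_div₀, map_one, map_ofNat, map_neg, conj_I]
  ring

/-! ### linearity in the direction -/

theorem dr_smul_real (c : ℝ) (ξ : V) (f : V → ℂ) (z : V) : dr (c • ξ) f z = c * dr ξ f z := by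
  simp [dr]

theorem dr_add_dir (ξ η : V) (f : V → ℂ) (z : V) : dr (ξ + η) f z = dr ξ f z + dr η f z := by
  simp [dr]

theorem dr_II (ξ : V) (f : V → ℂ) (z : V) : dr (I • I • ξ) f z = - dr ξ f z := by
  rw [smul_smul, I_mul_I]
  simp [dr]

theorem smul_decomp (c : ℂ) (ξ : V) : c • ξ = c.re • ξ + c.im • (I • ξ) := by
  conv_lhs => rw [← re_add_im c]
  rw [add_smul, mul_smul]
  simp

theorem dr_smul_dir (c : ℂ) (ξ : V) (f : V → ℂ) (z : V) :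
    dr (c • ξ) f z = c.re * dr ξ f z + c.im * dr (I • ξ) f z := by
  rw [smul_decomp, dr_add_dir, dr_smul_real, dr_smul_real]

theorem D_smul (hΩ : IsOpen Ω) (c : ℂ) (ξ : V) (g : Sm Ω) :
    D hΩ (c • ξ) g = c • D hΩ ξ g := by
  refine Sm.ext' fun z => ?_
  show _ = c * (D hΩ ξ g).1 z
  rw [D_apply, D_apply, dz_dab, dz_dab, dab, dab, smul_comm I c ξ, dr_smul_dir c ξ,
    dr_smul_dir c (I • ξ), dr_II]
  have h : c = c.re + c.im * I := (re_add_im c).symm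
  have h2 := I_mul_I
  have e : ∀ a b : ℂ, (1 / 2 : ℂ) * (c.re * a + c.im * b) + -(I / 2) * (c.re * b + c.im * -a)
      = (c.re + c.im * I) * (1 / 2 * a + -(I / 2) * b) := by
    intro a b
    linear_combination ((1 / 2 : ℂ) * c.im * b) * h2
  rw [e, ← h]

theorem B_smul (hΩ : IsOpen Ω) (c : ℂ) (ξ : V) (g : Sm Ω) :
    B hΩ (c • ξ) g = conj c • B hΩ ξ g := by
  refine Sm.ext' fun z => ?_
  show _ = conj c * (B hΩ ξ g).1 z
  rw [B_apply, B_apply, db_dab, db_dab, dab, dab, smul_comm I c ξ, dr_smul_dir c ξ,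
    dr_smul_dir c (I • ξ), dr_II]
  have h : conj c = c.re - c.im * I := by
    apply Complex.ext <;> simp
  have h2 := I_mul_I
  rw [h]
  linear_combination ((1 / 2 : ℂ) * c.im * dr (I • ξ) (ex g.1) z) * h2

theorem D_add (hΩ : IsOpen Ω) (ξ η : V) (g : Sm Ω) :
    D hΩ (ξ + η) g = D hΩ ξ g + D hΩ η g := by
  refine Sm.ext' fun z => ?_
  show _ = (D hΩ ξ g).1 z + (D hΩ η g).1 z
  rw [D_apply, D_apply, D_apply, dz_dab, dz_dab, dz_dab]
  simp only [dab, smul_add, dr_add_dir]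
  ring

theorem B_add (hΩ : IsOpen Ω) (ξ η : V) (g : Sm Ω) :
    B hΩ (ξ + η) g = B hΩ ξ g + B hΩ η g := by
  refine Sm.ext' fun z => ?_
  show _ = (B hΩ ξ g).1 z + (B hΩ η g).1 z
  rw [B_apply, B_apply, B_apply, db_dab, db_dab, db_dab]
  simp only [dab, smul_add, dr_add_dir]
  ring

/-- `ξ ↦ ∂_ξ g` is linear -/
noncomputable def Dl (hΩ : IsOpen Ω) (g : Sm Ω) : V →ₗ[ℂ] Sm Ω where
  toFun ξ := D hΩ ξ g
  map_add' ξ η := D_add hΩ ξ η g
  map_smul' c ξ := D_smul hΩ c ξ g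

/-- `ξ ↦ ∂̄_ξ g` is antilinear -/
noncomputable def Bl (hΩ : IsOpen Ω) (g : Sm Ω) : V →ₛₗ[starRingEnd ℂ] Sm Ω where
  toFun ξ := B hΩ ξ g
  map_add' ξ η := B_add hΩ ξ η g
  map_smul' c ξ := B_smul hΩ c ξ g

theorem D_sum (hΩ : IsOpen Ω) {ι : Type*} (s : Finset ι) (c : ι → ℂ) (w : ι → V) (g : Sm Ω) :
    D hΩ (∑ i ∈ s, c i • w i) g = ∑ i ∈ s, c i • D hΩ (w i) g := by
  show Dl hΩ g _ = _
  rw [map_sum]
  simp only [map_smul]
  rfl

theorem B_sum (hΩ : IsOpen Ω) {ι : Type*} (s : Finset ι) (c : ι → ℂ) (w : ι → V) (g : Sm Ω) :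
    B hΩ (∑ i ∈ s, c i • w i) g = ∑ i ∈ s, conj (c i) • B hΩ (w i) g := by
  show Bl hΩ g _ = _
  rw [map_sum]
  simp only [LinearMap.map_smulₛₗ]
  rfl

/-- a real linear continuous function; the case of a complex linear one -/
theorem dr_clm (l : V →L[ℂ] ℂ) (c : ℂ) (ξ : V) (z : V) : dr ξ (fun w => l w + c) z = l ξ := by
  have h : HasFDerivAt (fun w => l w + c) (l.restrictScalars ℝ) z :=
    ((l.restrictScalars ℝ).hasFDerivAt (x := z)).add_const c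
  rw [dr, h.fderiv]; rfl

theorem aff_smooth (Ω : Set V) (l : V →L[ℂ] ℂ) (c : ℂ) :
    ContDiffOn ℝ ∞ (fun w => l w + c) Ω := by
  have h : ContDiff ℝ ∞ (fun w => l.restrictScalars ℝ w + c) :=
    (l.restrictScalars ℝ).contDiff.add contDiff_const
  exact h.contDiffOn

/-- affine holomorphic function -/
noncomputable def aff (Ω : Set V) (l : V →L[ℂ] ℂ) (c : ℂ) : Sm Ω :=
  mk (fun w => l w + c) (aff_smooth Ω l c)

@[simp] theorem aff_apply (l : V →L[ℂ] ℂ) (c : ℂ) (z : Ω) : (aff Ω l c).1 z = l z + c := rfl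

theorem D_aff (hΩ : IsOpen Ω) (l : V →L[ℂ] ℂ) (c : ℂ) (ξ : V) :
    D hΩ ξ (aff Ω l c) = algebraMap ℂ (Sm Ω) (l ξ) := by
  rw [aff, D_mk]
  refine Sm.ext' fun z => ?_
  show dz ξ (fun w => l w + c) z = l ξ
  rw [dz_dab, dab, dr_clm, dr_clm, map_smul, smul_eq_mul]
  have h2 := I_mul_I
  linear_combination (-(1 / 2 : ℂ) * l ξ) * h2

theorem B_aff (hΩ : IsOpen Ω) (l : V →L[ℂ] ℂ) (c : ℂ) (ξ : V) :
    B hΩ ξ (aff Ω l c) = 0 := by
  rw [aff, B_mk]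
  refine Sm.ext' fun z => ?_
  show db ξ (fun w => l w + c) z = 0
  rw [db_dab, dab, dr_clm, dr_clm, map_smul, smul_eq_mul]
  have h2 := I_mul_I
  linear_combination ((1 / 2 : ℂ) * l ξ) * h2

theorem cj_cj (g : Sm Ω) : cj (cj g) = g := Sm.ext' fun z => by simp

/-! ### second derivative test -/

theorem deriv2_nonneg {g : ℝ → ℝ} (hg : ContDiffAt ℝ 2 g 0) (hmin : IsLocalMin g 0) :
    0 ≤ deriv (deriv g) 0 := by
  by_contra hneg
  push Not at hneg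
  have h0 : deriv g 0 = 0 := hmin.deriv_eq_zero
  have hmax : IsLocalMax g 0 := isLocalMax_of_deriv_deriv_neg hneg h0 hg.continuousAt
  have hc : g =ᶠ[𝓝 0] fun _ => g 0 := by
    filter_upwards [hmin, hmax] with x h1 h2 using le_antisymm h2 h1
  have h1 : deriv g =ᶠ[𝓝 0] deriv fun _ => g 0 := hc.deriv
  have h2 : deriv (deriv g) 0 = deriv (deriv fun _ : ℝ => g 0) 0 := h1.deriv_eq
  rw [h2] at hneg
  simp at hneg

/-- second directional derivative of a real function at a local minimum -/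
theorem dr2_nonneg (hΩ : IsOpen Ω) {f : V → ℂ} (hf : ContDiffOn ℝ ∞ f Ω) {O : V} (hO : O ∈ Ω)
    (hmin : IsLocalMin (fun z => (f z).re) O) (ξ : V) : 0 ≤ (dr ξ (dr ξ f) O).re := by
  let g : ℝ → ℝ := fun t => (f (O + t • ξ)).re
  have hline : ContDiff ℝ ∞ (fun t : ℝ => O + t • ξ) :=
    contDiff_const.add (contDiff_id.smul contDiff_const)
  have h0 : (fun t : ℝ => O + t • ξ) 0 = O := by simp
  have hmem : ∀ᶠ t in 𝓝 (0 : ℝ), O + t • ξ ∈ Ω := by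
    have := hline.continuous.continuousAt (x := (0 : ℝ))
    exact this.eventually (by rw [h0]; exact hΩ.mem_nhds hO)
  have hg1 : ContDiffAt ℝ 2 g 0 := by
    have hfa : ContDiffAt ℝ 2 f O := (hf.contDiffAt (hΩ.mem_nhds hO)).of_le
      two_le
    have h1 : ContDiffAt ℝ 2 (fun t : ℝ => f (O + t • ξ)) 0 := by
      refine ContDiffAt.comp (g := f) (f := fun t : ℝ => O + t • ξ) 0 ?_ (hline.contDiffAt.of_le
        two_le)
      show ContDiffAt ℝ 2 f ((fun t : ℝ => O + t • ξ) 0)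
      rw [h0]; exact hfa
    exact (reCLM.contDiff.contDiffAt).comp 0 h1
  have hgmin : IsLocalMin g 0 := by
    have h1 : ContinuousAt (fun t : ℝ => O + t • ξ) 0 := hline.continuous.continuousAt
    have h2 : ∀ᶠ z in 𝓝 O, (f O).re ≤ (f z).re := hmin
    have h3 := h1.eventually (by rw [h0]; exact h2)
    filter_upwards [h3] with t ht
    simpa [g] using ht
  have hd : ∀ t : ℝ, O + t • ξ ∈ Ω → deriv g t = (dr ξ f (O + t • ξ)).re := by
    intro t ht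
    have hl : HasDerivAt (fun t : ℝ => O + t • ξ) ξ t := by
      simpa using ((hasDerivAt_id t).smul_const ξ).const_add O
    have h1 := (diffAt hΩ hf ht).hasFDerivAt.comp_hasDerivAt t hl
    exact (reCLM.hasFDerivAt.comp_hasDerivAt t h1).deriv
  have hd2 : deriv (deriv g) 0 = (dr ξ (dr ξ f) O).re := by
    have h1 : deriv g =ᶠ[𝓝 0] fun t => (dr ξ f (O + t • ξ)).re := hmem.mono hd
    rw [h1.deriv_eq]
    have hl : HasDerivAt (fun t : ℝ => O + t • ξ) ξ 0 := by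
      simpa using ((hasDerivAt_id (0 : ℝ)).smul_const ξ).const_add O
    have h2 : HasFDerivAt (dr ξ f) (fderiv ℝ (dr ξ f) O) ((fun t : ℝ => O + t • ξ) 0) := by
      rw [h0]
      exact (diffAt hΩ (contDiffOn_dr hΩ ξ hf) hO).hasFDerivAt
    have h3 := h2.comp_hasDerivAt (0 : ℝ) hl
    exact (reCLM.hasFDerivAt.comp_hasDerivAt (0 : ℝ) h3).deriv
  rw [← hd2]
  exact deriv2_nonneg hg1 hgmin

theorem DB_self (hΩ : IsOpen Ω) (ξ : V) (g : Sm Ω) (z : Ω) :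
    (D hΩ ξ (B hΩ ξ g)).1 z
      = (dr ξ (dr ξ (ex g.1)) z + dr (I • ξ) (dr (I • ξ) (ex g.1)) z) / 4 := by
  have e : ∀ ζ : V, dr ζ (ex (B hΩ ξ g).1) z = (dr ζ (dr ξ (ex g.1)) z
      + I * dr ζ (dr (I • ξ) (ex g.1)) z) / 2 := by
    intro ζ
    have h1 : dr ζ (ex (B hΩ ξ g).1) z = dr ζ (fun w => (1 / 2 : ℂ) * dr ξ (ex g.1) w
        + (I / 2) * dr (I • ξ) (ex g.1) w) z :=
      dr_congr hΩ (fun w hw => by rw [ex_of_mem _ hw, B_apply, db_dab]; rfl) z.2 ζ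
    have h2 := contDiffOn_dr hΩ ξ g.2
    have h3 := contDiffOn_dr hΩ (I • ξ) g.2
    rw [h1, dr_add ((diffAt hΩ h2 z.2).const_mul _) ((diffAt hΩ h3 z.2).const_mul _),
      dr_const_mul hΩ h2 z.2, dr_const_mul hΩ h3 z.2]
    ring
  rw [D_apply, dz_dab, dab, e, e, dr_comm hΩ g.2 z.2 (I • ξ) ξ]
  have := I_mul_I
  linear_combination (-(1 / 4 : ℂ) * dr (I • ξ) (dr (I • ξ) (ex g.1)) z) * this

/-- **second derivative test** for `∂_ξ ∂̄_ξ` -/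
theorem lap_nonneg (hΩ : IsOpen Ω) (g : Sm Ω) (O : Ω)
    (hmin : ∀ᶠ z in 𝓝 (O : V), (ex g.1 O).re ≤ (ex g.1 z).re) (ξ : V) :
    0 ≤ (ev O (D hΩ ξ (B hΩ ξ g))).re := by
  rw [ev_apply, DB_self]
  have h1 := dr2_nonneg hΩ g.2 O.2 hmin ξ
  have h2 := dr2_nonneg hΩ g.2 O.2 hmin (I • ξ)
  have : ((dr ξ (dr ξ (ex g.1)) O + dr (I • ξ) (dr (I • ξ) (ex g.1)) O) / 4).re
      = ((dr ξ (dr ξ (ex g.1)) O).re + (dr (I • ξ) (dr (I • ξ) (ex g.1)) O).re) / 4 := by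
    rw [← add_re]
    simp
  rw [this]
  positivity

end Crest.Agent.R273.YSm_812
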