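import Crest.Agent.R273.YJet_812
import Crest.Agent.R273.YSm_812

/-!
Row 273 (S0416), Part C (Yau), helper812: local Calabi third order estimate, part 1:
the jet of a potential at a point in a unitary frame, `log det`, the core inequality.
-/

set_option autoImplicit false
set_option linter.unusedSimpArgs false
set_option linter.unusedSectionVars false

open Set Filter Topology Complex
open scoped ContDiff ComplexConjugate

namespace Crest.Agent.R273.YC3_812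

open Crest.Agent.R273.YSm_812 Crest.Agent.R273.YJet_812

variable {n : ℕ} {V : Type*} [NormedAddCommGroup V] [NormedSpace ℂ V] {Ω : Set V}

/-- `u_{ξ η̄}` -/
noncomputable def U2 (hΩ : IsOpen Ω) (u : Sm Ω) (ξ η : V) : Sm Ω := D hΩ ξ (B hΩ η u)

/-- `u_{ξ ζ η̄}` -/
noncomputable def U3 (hΩ : IsOpen Ω) (u : Sm Ω) (ξ ζ η : V) : Sm Ω := D hΩ ξ (D hΩ ζ (B hΩ η u))

/-- the jet at `O` in the frame `w` -/
noncomputable def jet (hΩ : IsOpen Ω) (w : Fin n → V) (O : Ω) : Jet n (Sm Ω) where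
  D a := D hΩ (w a)
  B a := B hΩ (w a)
  DD _ _ x := DD hΩ _ _ x
  BB _ _ x := BB hΩ _ _ x
  DB _ _ x := DB hΩ _ _ x
  ev := ev O

theorem jet_Gm (hΩ : IsOpen Ω) (w : Fin n → V) (O : Ω) (u : Sm Ω) (i j : Fin n) :
    (jet hΩ w O).Gm u i j = U2 hΩ u (w i) (w j) := rfl

theorem cj_mul (g h : Sm Ω) : cj (g * h) = cj g * cj h := Sm.ext' fun z => by simp

theorem cj_add (g h : Sm Ω) : cj (g + h) = cj g + cj h := Sm.ext' fun z => by simp

theorem cj_U2 (hΩ : IsOpen Ω) {u : Sm Ω} (hu : cj u = u) (ξ η : V) :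
    cj (U2 hΩ u ξ η) = U2 hΩ u η ξ := by
  rw [U2, U2, ← B_cj, ← D_cj, hu, DB]

theorem conj_U2 (hΩ : IsOpen Ω) {u : Sm Ω} (hu : cj u = u) (ξ η : V) (z : Ω) :
    conj ((U2 hΩ u ξ η).1 z) = (U2 hΩ u η ξ).1 z := by
  rw [← cj_U2 hΩ hu ξ η]; rfl

/-- units of `Sm Ω` -/
theorem exists_mul_eq_one (g : Sm Ω) (hg : ∀ z : Ω, g.1 z ≠ 0) : ∃ h : Sm Ω, g * h = 1 := by
  have hs : ContDiffOn ℝ ∞ (fun z => (ex g.1 z)⁻¹) Ω :=
    ContDiffOn.inv g.2 fun z hz => by rw [ex_of_mem _ hz]; exact hg ⟨z, hz⟩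
  refine ⟨mk _ hs, Sm.ext' fun z => ?_⟩
  show g.1 z * (ex g.1 z)⁻¹ = 1
  rw [ex_coe]
  exact mul_inv_cancel₀ (hg z)

theorem exists_inv (G : Matrix (Fin n) (Fin n) (Sm Ω)) (hG : ∀ z : Ω, (G.det).1 z ≠ 0) :
    ∃ H : Matrix (Fin n) (Fin n) (Sm Ω), G * H = 1 := by
  obtain ⟨h, hh⟩ := exists_mul_eq_one G.det hG
  have hu : IsUnit G.det := IsUnit.of_mul_eq_one h hh
  exact ⟨G⁻¹, Matrix.mul_nonsing_inv G hu⟩

theorem dr_exp (hΩ : IsOpen Ω) (f : Sm Ω) (c : ℂ) (ζ : V) (z : Ω) :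
    dr ζ (fun w => c * exp (ex f.1 w)) z = c * exp (f.1 z) * dr ζ (ex f.1) z := by
  have h1 : HasFDerivAt (ex f.1) (fderiv ℝ (ex f.1) z) z := (diffAt hΩ f.2 z.2).hasFDerivAt
  have h2 : HasFDerivAt (fun w => exp (ex f.1 w)) (exp (ex f.1 z) • fderiv ℝ (ex f.1) z) z :=
    h1.cexp
  have h3 := h2.const_mul c
  rw [dr, h3.fderiv, dr, ex_coe]
  simp
  ring

/-- `d f = tr (G⁻¹ dG)` for `f = log det G + const` -/
theorem dlog (hΩ : IsOpen Ω) {G H : Matrix (Fin n) (Fin n) (Sm Ω)} (hH : G * H = 1)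
    {c : ℂ} (hc : c ≠ 0) (f : Sm Ω) (hf : ∀ z : Ω, (G.det).1 z = c * exp (f.1 z))
    (a b : ℂ) (ξ : V) :
    DAB hΩ a b ξ f = Matrix.trace (H * mD (DAB hΩ a b ξ) G) := by
  have h1 := d_log (d := DAB hΩ a b ξ) hH
  have h2 : DAB hΩ a b ξ G.det = G.det * DAB hΩ a b ξ f := by
    refine Sm.ext' fun z => ?_
    show dab a b ξ (ex G.det.1) z = G.det.1 z * dab a b ξ (ex f.1) z
    have e : ∀ ζ : V, dr ζ (ex G.det.1) z = G.det.1 z * dr ζ (ex f.1) z := by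
      intro ζ
      rw [hf z, ← dr_exp hΩ f c ζ z]
      exact dr_congr hΩ (fun w hw => by rw [ex_of_mem _ hw, ex_of_mem _ hw]; exact hf ⟨w, hw⟩) z.2 ζ
    simp only [dab, e]
    ring
  rw [h2] at h1
  have h3 : ∀ z : Ω, (DAB hΩ a b ξ f).1 z = (Matrix.trace (H * mD (DAB hΩ a b ξ) G)).1 z := by
    intro z
    have h4 : (G.det * DAB hΩ a b ξ f).1 z
        = (G.det * Matrix.trace (H * mD (DAB hΩ a b ξ) G)).1 z := by rw [h1]
    have h5 : G.det.1 z ≠ 0 := by rw [hf z]; exact mul_ne_zero hc (exp_ne_zero _)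
    exact mul_left_cancel₀ h5 h4
  exact Sm.ext' h3

variable [FiniteDimensional ℂ V]

/-- the linear forms `∑_q ev (D_q G_{kx}) l_q` -/
noncomputable def Lc (hΩ : IsOpen Ω) (w : Module.Basis (Fin n) ℂ V) (O : Ω) (u : Sm Ω)
    (k x : Fin n) : V →L[ℂ] ℂ :=
  ∑ q, (U3 hΩ u (w q) (w k) (w x)).1 O • LinearMap.toContinuousLinearMap (w.coord q)

theorem Lc_apply (hΩ : IsOpen Ω) (w : Module.Basis (Fin n) ℂ V) (O : Ω) (u : Sm Ω)
    (k x q : Fin n) : Lc hΩ w O u k x (w q) = (U3 hΩ u (w q) (w k) (w x)).1 O := by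
  simp [Lc, Finsupp.single_apply]

/-- the frame killing the first derivatives of the complex Hessian at `O` -/
noncomputable def fr (hΩ : IsOpen Ω) (w : Module.Basis (Fin n) ℂ V) (O : Ω) (u : Sm Ω)
    (hu : cj u = u) : Fr (jet hΩ w O) u where
  M k x := aff Ω (-(Lc hΩ w O u k x)) ((if k = x then 1 else 0) + Lc hΩ w O u k x O)
  N k x := cj (aff Ω (-(Lc hΩ w O u k x)) ((if k = x then 1 else 0) + Lc hΩ w O u k x O))
  M0 k x := by
    show (ev O) _ = _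
    simp
  N0 k x := by
    show (ev O) _ = _
    simp only [ev_apply, cj_apply, aff_apply]
    split_ifs <;> simp
  MB k q x := B_aff hΩ _ _ _
  ND k q x := by
    show D hΩ (w q) (cj _) = 0
    rw [D_cj, B_aff]
    exact Sm.ext' fun z => by simp
  MD k q x := by
    show (ev O) (D hΩ (w q) _) = _
    rw [D_aff]
    show -(Lc hΩ w O u k x) (w q) = _
    rw [Lc_apply]
    rfl
  NB k q x := by
    show (ev O) (B hΩ (w q) (cj _)) = _
    rw [B_cj, D_aff]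
    show conj (-(Lc hΩ w O u k x) (w q)) = _
    rw [Lc_apply, map_neg]
    show -(conj ((U3 hΩ u (w q) (w k) (w x)).1 O)) = - (B hΩ (w q) (U2 hΩ u (w x) (w k))).1 O
    congr 1
    have : cj (U3 hΩ u (w q) (w k) (w x)) = B hΩ (w q) (U2 hΩ u (w x) (w k)) := by
      rw [U3, ← B_cj]
      congr 1
      exact cj_U2 hΩ hu (w k) (w x)
    rw [← this]
    rfl

/-! ### the core inequality -/

theorem DB_A {R : Type*} [CommRing R] [Algebra ℂ R] (J : Jet n R) (q : Fin n) (A g1 g2 g3 : R)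
    (h1 : J.ev g1 = 1) (h2 : J.ev g2 = 1) (h3 : J.ev g3 = 1)
    (d1 : J.ev (J.D q g1) = 0) (d2 : J.ev (J.D q g2) = 0) (d3 : J.ev (J.D q g3) = 0)
    (b1 : J.ev (J.B q g1) = 0) (b2 : J.ev (J.B q g2) = 0) (b3 : J.ev (J.B q g3) = 0) :
    J.ev (J.D q (J.B q (A * (g1 * g2 * g3)))) = J.ev (J.D q (J.B q A))
      + J.ev A * (J.ev (J.D q (J.B q g1)) + J.ev (J.D q (J.B q g2)) + J.ev (J.D q (J.B q g3))) := by
  simp only [Derivation.leibniz, smul_eq_mul, map_add, map_mul, h1, h2, h3, d1, d2, d3, b1, b2, b3]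
  ring

theorem DB_X {R : Type*} [CommRing R] [Algebra ℂ R] (J : Jet n R) (q : Fin n) (χ t t' : R) :
    J.ev (J.D q (J.B q (χ * χ * (t * t'))))
      = (2 * J.ev (J.D q χ) * J.ev (J.B q χ) + 2 * J.ev χ * J.ev (J.D q (J.B q χ)))
          * (J.ev t * J.ev t')
        + 2 * J.ev χ * J.ev (J.D q χ) * (J.ev (J.B q t) * J.ev t' + J.ev t * J.ev (J.B q t'))
        + 2 * J.ev χ * J.ev (J.B q χ) * (J.ev (J.D q t) * J.ev t' + J.ev t * J.ev (J.D q t'))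
        + J.ev χ ^ 2 * (J.ev (J.D q (J.B q t)) * J.ev t' + J.ev (J.B q t) * J.ev (J.D q t')
          + J.ev (J.D q t) * J.ev (J.B q t') + J.ev t * J.ev (J.D q (J.B q t'))) := by
  simp only [Derivation.leibniz, smul_eq_mul, map_add, map_mul]
  ring

theorem num_ineq (X l : ℝ) (d T x y L : ℂ) :
    (2 * X * l - 6 * ‖d‖ ^ 2) * ‖T‖ ^ 2 + 2 * X ^ 2 * (L * conj T).re
      ≤ ((2 * d * conj d + 2 * X * l) * (T * conj T)
        + 2 * X * d * (y * conj T + T * conj x) + 2 * X * conj d * (x * conj T + T * conj y)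
        + (X : ℂ) ^ 2 * (L * conj T + y * conj y + x * conj x + T * conj L)).re := by
  have e : ((2 * d * conj d + 2 * X * l) * (T * conj T)
        + 2 * X * d * (y * conj T + T * conj x) + 2 * X * conj d * (x * conj T + T * conj y)
        + (X : ℂ) ^ 2 * (L * conj T + y * conj y + x * conj x + T * conj L))
      = (((2 * ‖d‖ ^ 2 + 2 * X * l) * ‖T‖ ^ 2 + X ^ 2 * (‖x‖ ^ 2 + ‖y‖ ^ 2) : ℝ) : ℂ)
        + (2 * X : ℝ) * ((d * y * conj T + conj (d * y * conj T))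
          + (d * conj x * T + conj (d * conj x * T)))
        + ((X ^ 2 : ℝ) : ℂ) * (L * conj T + conj (L * conj T)) := by
    have h1 : ∀ a : ℂ, ((‖a‖ ^ 2 : ℝ) : ℂ) = a * conj a := fun a => by
      rw [mul_conj, normSq_eq_norm_sq]
    push_cast [h1]
    simp only [map_mul, conj_conj]
    ring
  rw [e]
  have h3 : ∀ a : ℂ, a + conj a = ((2 * a.re : ℝ) : ℂ) := fun a => by
    rw [add_conj]
  rw [h3, h3, h3]
  simp only [← ofReal_add, ← ofReal_mul, ofReal_re]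
  have b1 : -(‖d‖ * ‖y‖ * ‖T‖) ≤ (d * y * conj T).re := by
    have := abs_re_le_norm (d * y * conj T)
    rw [norm_mul, norm_mul, norm_conj] at this
    exact neg_le_of_abs_le this
  have b2 : (d * y * conj T).re ≤ (‖d‖ * ‖y‖ * ‖T‖) := by
    have := abs_re_le_norm (d * y * conj T)
    rw [norm_mul, norm_mul, norm_conj] at this
    exact le_of_abs_le this
  have b3 : -(‖d‖ * ‖x‖ * ‖T‖) ≤ (d * conj x * T).re := by
    have := abs_re_le_norm (d * conj x * T)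
    rw [norm_mul, norm_mul, norm_conj] at this
    exact neg_le_of_abs_le this
  have b4 : (d * conj x * T).re ≤ (‖d‖ * ‖x‖ * ‖T‖) := by
    have := abs_re_le_norm (d * conj x * T)
    rw [norm_mul, norm_mul, norm_conj] at this
    exact le_of_abs_le this
  have c1 : -(|X| * (‖d‖ * ‖y‖ * ‖T‖)) ≤ X * (d * y * conj T).re := by
    have : |X * (d * y * conj T).re| ≤ |X| * (‖d‖ * ‖y‖ * ‖T‖) := by
      rw [abs_mul]; exact mul_le_mul_of_nonneg_left (abs_le.2 ⟨b1, b2⟩) (abs_nonneg _)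
    exact neg_le_of_abs_le this
  have c2 : -(|X| * (‖d‖ * ‖x‖ * ‖T‖)) ≤ X * (d * conj x * T).re := by
    have : |X * (d * conj x * T).re| ≤ |X| * (‖d‖ * ‖x‖ * ‖T‖) := by
      rw [abs_mul]; exact mul_le_mul_of_nonneg_left (abs_le.2 ⟨b3, b4⟩) (abs_nonneg _)
    exact neg_le_of_abs_le this
  have s1 : 0 ≤ (|X| * ‖y‖ - 2 * (‖d‖ * ‖T‖)) ^ 2 := sq_nonneg _
  have s2 : 0 ≤ (|X| * ‖x‖ - 2 * (‖d‖ * ‖T‖)) ^ 2 := sq_nonneg _
  have hX : |X| ^ 2 = X ^ 2 := sq_abs X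
  have s1' : 0 ≤ X ^ 2 * ‖y‖ ^ 2 - 4 * (|X| * (‖d‖ * ‖y‖ * ‖T‖)) + 4 * (‖d‖ ^ 2 * ‖T‖ ^ 2) := by
    rw [← hX]; nlinarith [s1]
  have s2' : 0 ≤ X ^ 2 * ‖x‖ ^ 2 - 4 * (|X| * (‖d‖ * ‖x‖ * ‖T‖)) + 4 * (‖d‖ ^ 2 * ‖T‖ ^ 2) := by
    rw [← hX]; nlinarith [s2]
  nlinarith [c1, c2, s1', s2']

/-- hypotheses on the potential `u` and the right hand side `F`:
`det u_{i j̄} = c0 e^{F + ε u}` in the basis `e`, uniform ellipticity and bounds. -/
structure Dat (hΩ : IsOpen Ω) (e : Fin n → V) (lam Lam K : ℝ) where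
  u : Sm Ω
  F : Sm Ω
  eps : ℝ
  c0 : ℝ
  hu : cj u = u
  c0pos : 0 < c0
  heps : |eps| ≤ K
  det : ∀ z : Ω, ((Matrix.of fun i j => U2 hΩ u (e i) (e j)).det).1 z
    = c0 * exp (F.1 z + eps * u.1 z)
  low : ∀ (z : Ω) (ξ : V), lam * ‖ξ‖ ^ 2 ≤ ((U2 hΩ u ξ ξ).1 z).re
  upp : ∀ (z : Ω) (ξ : V), ((U2 hΩ u ξ ξ).1 z).re ≤ Lam * ‖ξ‖ ^ 2
  F2 : ∀ (z : Ω) (ξ : V), ‖(U2 hΩ F ξ ξ).1 z‖ ≤ K * ‖ξ‖ ^ 2
  F3 : ∀ (z : Ω) (ξ ζ η : V), ‖(U3 hΩ F ξ ζ η).1 z‖ ≤ K * ‖ξ‖ * ‖ζ‖ * ‖η‖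

theorem U2_sum_left (hΩ : IsOpen Ω) (u : Sm Ω) {ι : Type*} (s : Finset ι) (c : ι → ℂ)
    (w : ι → V) (η : V) : U2 hΩ u (∑ i ∈ s, c i • w i) η = ∑ i ∈ s, c i • U2 hΩ u (w i) η :=
  D_sum hΩ s c w _

theorem U2_sum_right (hΩ : IsOpen Ω) (u : Sm Ω) {ι : Type*} (s : Finset ι) (c : ι → ℂ)
    (w : ι → V) (ξ : V) : U2 hΩ u ξ (∑ i ∈ s, c i • w i)
      = ∑ i ∈ s, conj (c i) • U2 hΩ u ξ (w i) := by
  rw [U2, B_sum, map_sum]
  simp only [Derivation.map_smul]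
  rfl

theorem U3_sum_left (hΩ : IsOpen Ω) (u : Sm Ω) {ι : Type*} (s : Finset ι) (c : ι → ℂ)
    (w : ι → V) (ζ η : V) : U3 hΩ u (∑ i ∈ s, c i • w i) ζ η
      = ∑ i ∈ s, c i • U3 hΩ u (w i) ζ η :=
  D_sum hΩ s c w _

theorem U3_sum_mid (hΩ : IsOpen Ω) (u : Sm Ω) {ι : Type*} (s : Finset ι) (c : ι → ℂ)
    (w : ι → V) (ξ η : V) : U3 hΩ u ξ (∑ i ∈ s, c i • w i) η
      = ∑ i ∈ s, c i • U3 hΩ u ξ (w i) η := by
  rw [U3, D_sum, map_sum]
  simp only [Derivation.map_smul]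
  rfl

theorem U3_sum_right (hΩ : IsOpen Ω) (u : Sm Ω) {ι : Type*} (s : Finset ι) (c : ι → ℂ)
    (w : ι → V) (ξ ζ : V) : U3 hΩ u ξ ζ (∑ i ∈ s, c i • w i)
      = ∑ i ∈ s, conj (c i) • U3 hΩ u ξ ζ (w i) := by
  rw [U3, B_sum, map_sum, map_sum]
  simp only [Derivation.map_smul]
  rfl

/-- sesquilinear expansion -/
theorem U2_expand (hΩ : IsOpen Ω) (u : Sm Ω) (c c' : Fin n → ℂ) (w : Fin n → V) (z : Ω) :
    (U2 hΩ u (∑ i, c i • w i) (∑ j, c' j • w j)).1 z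
      = ∑ i, ∑ j, c i * conj (c' j) * (U2 hΩ u (w i) (w j)).1 z := by
  rw [U2_sum_left]
  have : ∀ i, U2 hΩ u (w i) (∑ j, c' j • w j) = ∑ j, conj (c' j) • U2 hΩ u (w i) (w j) :=
    fun i => U2_sum_right hΩ u _ _ _ _
  simp only [this]
  show (ev z) _ = _
  simp only [map_sum, map_smul, smul_eq_mul, ev_apply, Finset.mul_sum]
  refine Finset.sum_congr rfl fun i _ => Finset.sum_congr rfl fun j _ => ?_
  ring

theorem U3_expand (hΩ : IsOpen Ω) (u : Sm Ω) (c c' c'' : Fin n → ℂ) (w : Fin n → V) (z : Ω) :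
    (U3 hΩ u (∑ i, c i • w i) (∑ j, c' j • w j) (∑ k, c'' k • w k)).1 z
      = ∑ i, ∑ j, ∑ k, c i * c' j * conj (c'' k) * (U3 hΩ u (w i) (w j) (w k)).1 z := by
  rw [U3_sum_left]
  have h1 : ∀ i η, U3 hΩ u (w i) (∑ j, c' j • w j) η = ∑ j, c' j • U3 hΩ u (w i) (w j) η :=
    fun i η => U3_sum_mid hΩ u _ _ _ _ _
  have h2 : ∀ i j, U3 hΩ u (w i) (w j) (∑ k, c'' k • w k)
      = ∑ k, conj (c'' k) • U3 hΩ u (w i) (w j) (w k) :=
    fun i j => U3_sum_right hΩ u _ _ _ _ _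
  simp only [h1, h2]
  show (ev z) _ = _
  simp only [map_sum, map_smul, smul_eq_mul, ev_apply, Finset.mul_sum]
  refine Finset.sum_congr rfl fun i _ => Finset.sum_congr rfl fun j _ =>
    Finset.sum_congr rfl fun k _ => ?_
  ring

/-! ### values of the fields -/

/-- the vector field with components `Z` -/
noncomputable def Zv (hΩ : IsOpen Ω) (w : Module.Basis (Fin n) ℂ V) (O : Ω) (u : Sm Ω)
    (hu : cj u = u) (c : Fin n → ℂ) (z : Ω) : V := ∑ x, ((fr hΩ w O u hu).Z c x).1 z • w x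

theorem Y_eq (hΩ : IsOpen Ω) (w : Module.Basis (Fin n) ℂ V) (O : Ω) (u : Sm Ω)
    (hu : cj u = u) (c : Fin n → ℂ) (y : Fin n) (z : Ω) :
    ((fr hΩ w O u hu).Y (fun k => conj (c k)) y).1 z = conj (((fr hΩ w O u hu).Z c y).1 z) := by
  show (ev z) _ = conj ((ev z) _)
  simp only [Fr.Y, Fr.Z, map_sum, map_smul, smul_eq_mul, map_mul]
  rfl

theorem g_val (hΩ : IsOpen Ω) (w : Module.Basis (Fin n) ℂ V) (O : Ω) (u : Sm Ω)
    (hu : cj u = u) (c : Fin n → ℂ) (z : Ω) :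
    ((fr hΩ w O u hu).g c (fun k => conj (c k))).1 z
      = (U2 hΩ u (Zv hΩ w O u hu c z) (Zv hΩ w O u hu c z)).1 z := by
  rw [Zv, U2_expand]
  show (ev z) _ = _
  simp only [Fr.g, map_sum, map_mul]
  refine Finset.sum_congr rfl fun x _ => Finset.sum_congr rfl fun y _ => ?_
  simp only [ev_apply]
  rw [Y_eq, jet_Gm]
  ring

theorem t_val (hΩ : IsOpen Ω) (w : Module.Basis (Fin n) ℂ V) (O : Ω) (u : Sm Ω)
    (hu : cj u = u) (c c' c'' : Fin n → ℂ) (z : Ω) :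
    ((fr hΩ w O u hu).t c c' (fun k => conj (c'' k))).1 z
      = (U3 hΩ u (Zv hΩ w O u hu c z) (Zv hΩ w O u hu c' z) (Zv hΩ w O u hu c'' z)).1 z := by
  rw [Zv, Zv, Zv, U3_expand]
  show (ev z) _ = _
  simp only [Fr.t, map_sum, map_mul]
  refine Finset.sum_congr rfl fun x _ => Finset.sum_congr rfl fun y _ =>
    Finset.sum_congr rfl fun k _ => ?_
  simp only [ev_apply]
  rw [Y_eq]
  show (U3 hΩ u (w x) (w y) (w k)).1 z * _ = _
  ring

theorem Zv_O (hΩ : IsOpen Ω) (w : Module.Basis (Fin n) ℂ V) (O : Ω) (u : Sm Ω)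
    (hu : cj u = u) (c : Fin n → ℂ) : Zv hΩ w O u hu c O = ∑ x, c x • w x := by
  rw [Zv]
  refine Finset.sum_congr rfl fun x _ => ?_
  congr 1
  show (jet hΩ w O).ev _ = _
  simp only [Fr.Z, map_sum, map_smul, (fr hΩ w O u hu).M0, smul_eq_mul, mul_ite, mul_one, mul_zero,
    Finset.sum_ite_eq', Finset.mem_univ, if_true]

/-! ### the determinant in a frame -/

theorem det_frame (hΩ : IsOpen Ω) (e w : Module.Basis (Fin n) ℂ V) (u : Sm Ω) :
    ∃ c : ℂ, c ≠ 0 ∧ ∀ z : Ω, ((Matrix.of fun i j => U2 hΩ u (w i) (w j)).det).1 z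
      = c * ((Matrix.of fun i j => U2 hΩ u (e i) (e j)).det).1 z := by
  let C : Matrix (Fin n) (Fin n) ℂ := (e.toMatrix w).transpose
  have hC : C.det ≠ 0 := by
    rw [Matrix.det_transpose]
    have : Invertible (e.toMatrix w) := e.invertibleToMatrix w
    exact (Matrix.isUnit_det_of_invertible (e.toMatrix w)).ne_zero
  refine ⟨C.det * conj C.det, mul_ne_zero hC ((map_ne_zero _).2 hC), fun z => ?_⟩
  have h1 : ∀ (b : Module.Basis (Fin n) ℂ V), ((Matrix.of fun i j => U2 hΩ u (b i) (b j)).det).1 z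
      = (Matrix.of fun i j => (U2 hΩ u (b i) (b j)).1 z).det := by
    intro b
    show (ev z) _ = _
    rw [AlgHom.map_det]
    rfl
  rw [h1, h1]
  have hw : ∀ a, w a = ∑ i, C a i • e i := fun a => by
    have := e.sum_toMatrix_smul_self w a
    rw [← this]
    rfl
  have h2 : (Matrix.of fun i j => (U2 hΩ u (w i) (w j)).1 z)
      = C * (Matrix.of fun i j => (U2 hΩ u (e i) (e j)).1 z) * C.conjTranspose := by
    ext a b
    rw [Matrix.of_apply, hw a, hw b, U2_expand]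
    simp only [Matrix.mul_apply, Matrix.conjTranspose_apply, Matrix.of_apply, Finset.sum_mul]
    rw [Finset.sum_comm]
    refine Finset.sum_congr rfl fun i _ => Finset.sum_congr rfl fun j _ => ?_
    simp only [RCLike.star_def]
    ring
  rw [h2, Matrix.det_mul, Matrix.det_mul, Matrix.det_conjTranspose]
  simp only [RCLike.star_def]
  ring

end Crest.Agent.R273.YC3_812
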