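import Crest.Agent.R273.YC3_812

/-!
Row 273 (S0416), Part C (Yau), helper812: local Calabi third order estimate, part 2:
the inequality at the maximum point.
-/

set_option autoImplicit false
set_option linter.unusedSimpArgs false
set_option linter.unusedSectionVars false

open Set Filter Topology Complex
open scoped ContDiff ComplexConjugate

namespace Crest.Agent.R273.YC3_812

open Crest.Agent.R273.YSm_812 Crest.Agent.R273.YJet_812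

variable {n : ℕ} {V : Type*} [NormedAddCommGroup V] [NormedSpace ℂ V] {Ω : Set V}
  [FiniteDimensional ℂ V]

/-- `f = F + ε u` -/
noncomputable def Dat.f {hΩ : IsOpen Ω} {e : Fin n → V} {lam Lam K : ℝ}
    (d : Dat hΩ e lam Lam K) : Sm Ω := d.F + (d.eps : ℂ) • d.u

section core

variable {hΩ : IsOpen Ω} {e : Module.Basis (Fin n) ℂ V} {lam Lam K : ℝ}
  (d : Dat hΩ e lam Lam K) (w : Module.Basis (Fin n) ℂ V) (O : Ω)
  (hw : ∀ a b, (U2 hΩ d.u (w a) (w b)).1 O = if a = b then 1 else 0)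

include hw in
theorem mE_one : mE (jet hΩ w O).ev ((jet hΩ w O).Gm d.u) = 1 := by
  ext a b
  show (U2 hΩ d.u (w a) (w b)).1 O = _
  rw [hw, Matrix.one_apply]

theorem f_val (z : Ω) : d.f.1 z = d.F.1 z + d.eps * d.u.1 z := rfl

theorem exists_H : ∃ H : Matrix (Fin n) (Fin n) (Sm Ω), (jet hΩ w O).Gm d.u * H = 1 ∧
    ∀ (a b : ℂ) (ξ : V), DAB hΩ a b ξ d.f
      = Matrix.trace (H * mD (DAB hΩ a b ξ) ((jet hΩ w O).Gm d.u)) := by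
  obtain ⟨c, hc, hdet⟩ := det_frame hΩ e w d.u
  have h1 : ∀ z : Ω, (((jet hΩ w O).Gm d.u).det).1 z = (c * d.c0) * exp (d.f.1 z) := by
    intro z
    have h2 := hdet z
    rw [d.det z] at h2
    rw [f_val, mul_assoc]
    exact h2
  have hc0 : c * (d.c0 : ℂ) ≠ 0 := mul_ne_zero hc (by exact_mod_cast d.c0pos.ne')
  obtain ⟨H, hH⟩ := exists_inv ((jet hΩ w O).Gm d.u) (fun z => by
    rw [h1]; exact mul_ne_zero hc0 (exp_ne_zero _))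
  exact ⟨H, hH, fun a b ξ => dlog hΩ hH hc0 d.f h1 a b ξ⟩

theorem U2_f (ξ : V) (z : Ω) : (U2 hΩ d.f ξ ξ).1 z
    = (U2 hΩ d.F ξ ξ).1 z + d.eps * (U2 hΩ d.u ξ ξ).1 z := by
  have : U2 hΩ d.f ξ ξ = U2 hΩ d.F ξ ξ + (d.eps : ℂ) • U2 hΩ d.u ξ ξ := by
    simp only [U2, Dat.f, map_add, Derivation.map_smul]
  rw [this]
  rfl

theorem U3_f (ξ ζ η : V) (z : Ω) : (U3 hΩ d.f ξ ζ η).1 z
    = (U3 hΩ d.F ξ ζ η).1 z + d.eps * (U3 hΩ d.u ξ ζ η).1 z := by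
  have : U3 hΩ d.f ξ ζ η = U3 hΩ d.F ξ ζ η + (d.eps : ℂ) • U3 hΩ d.u ξ ζ η := by
    simp only [U3, Dat.f, map_add, Derivation.map_smul]
  rw [this]
  rfl

include hw in
/-- `Δ g = f_{ξ ξ̄}` -/
theorem lap_g_val (c : Fin n → ℂ) :
    ∑ q, ev O (D hΩ (w q) (B hΩ (w q)
      ((fr hΩ w O d.u d.hu).g c (fun k => conj (c k)))))
      = (U2 hΩ d.f (∑ i, c i • w i) (∑ i, c i • w i)).1 O := by
  obtain ⟨H, hH, hf⟩ := exists_H d w O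
  have h := (fr hΩ w O d.u d.hu).lap_g hH (mE_one d w O hw) (fun p => hf _ _ _) c
    (fun k => conj (c k))
  rw [U2_expand]
  exact h

include hw in
/-- `Δ t = f_{ξ ζ η̄}` -/
theorem lap_t_val (c c' c'' : Fin n → ℂ) :
    ∑ q, ev O (D hΩ (w q) (B hΩ (w q)
      ((fr hΩ w O d.u d.hu).t c c' (fun k => conj (c'' k)))))
      = (U3 hΩ d.f (∑ i, c i • w i) (∑ i, c' i • w i) (∑ i, c'' i • w i)).1 O := by
  obtain ⟨H, hH, hf⟩ := exists_H d w O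
  have h := (fr hΩ w O d.u d.hu).lap_t hH (mE_one d w O hw) (fun p => hf _ _ _) c c'
    (fun k => conj (c'' k))
  rw [U3_expand]
  exact h

include hw in
/-- `Δ u_{v v̄} = f_{v v̄} + |∂_v G|²` -/
theorem lap_tr_val (v : V) :
    ∑ q, ev O (D hΩ (w q) (B hΩ (w q) (U2 hΩ d.u v v)))
      = (U2 hΩ d.f v v).1 O
        + ((∑ x, ∑ y, ‖(U3 hΩ d.u v (w x) (w y)).1 O‖ ^ 2 : ℝ) : ℂ) := by
  obtain ⟨H, hH, hf⟩ := exists_H d w O
  have h := (jet hΩ w O).lap_const d.u d.f H hH (mE_one d w O hw) (D hΩ v) (B hΩ v)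
    (fun q x => DD hΩ _ _ x) (fun q x => DB hΩ _ _ x) (fun q x => (DB hΩ _ _ x).symm)
    (fun q x => BB hΩ _ _ x) (hf _ _ _)
  refine h.trans ?_
  congr 1
  push_cast
  refine Finset.sum_congr rfl fun x _ => Finset.sum_congr rfl fun y _ => ?_
  have h1 : (jet hΩ w O).ev ((jet hΩ w O).D x ((jet hΩ w O).B y (D hΩ v d.u)))
      = (U3 hΩ d.u v (w x) (w y)).1 O := by
    show (D hΩ (w x) (B hΩ (w y) (D hΩ v d.u))).1 O = _
    rw [← DB, DD]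
    rfl
  have h2 : (jet hΩ w O).ev ((jet hΩ w O).D y ((jet hΩ w O).B x (B hΩ v d.u)))
      = conj ((U3 hΩ d.u v (w x) (w y)).1 O) := by
    show (D hΩ (w y) (B hΩ (w x) (B hΩ v d.u))).1 O = (cj (U3 hΩ d.u v (w x) (w y))).1 O
    have : cj (U3 hΩ d.u v (w x) (w y)) = D hΩ (w y) (B hΩ (w x) (B hΩ v d.u)) := by
      rw [U3, ← B_cj, ← B_cj, ← D_cj, d.hu, ← DB, ← DB, BB]
    rw [this]
  rw [h1, h2, mul_conj, normSq_eq_norm_sq]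
  push_cast
  rfl

/-- real elements have real values -/
theorem im_zero {g : Sm Ω} (hg : cj g = g) (z : Ω) : (g.1 z).im = 0 := by
  have h : conj (g.1 z) = g.1 z := by
    conv_rhs => rw [← hg]
    rfl
  exact Complex.conj_eq_iff_im.1 h

theorem re_eq {g : Sm Ω} (hg : cj g = g) (z : Ω) : g.1 z = ((g.1 z).re : ℂ) := by
  apply Complex.ext
  · simp
  · simp [im_zero hg z]

include hw in
/-- **the inequality at the maximum point** -/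
theorem core_ineq (χ τ : Sm Ω) (hχ : cj χ = χ) (hτ : cj τ = τ) (m K' : ℝ)
    (c1 c2 c3 : Fin n → ℂ) (h1 : ∑ k, c1 k * conj (c1 k) = 1) (h2 : ∑ k, c2 k * conj (c2 k) = 1)
    (h3 : ∑ k, c3 k * conj (c3 k) = 1)
    (hmax : ∀ᶠ z in 𝓝 (O : V), ∀ (hz : z ∈ Ω) (ξ ζ η : V),
      (χ.1 ⟨z, hz⟩).re ^ 2 * ‖(U3 hΩ d.u ξ ζ η).1 ⟨z, hz⟩‖ ^ 2
        ≤ (m - K' * (τ.1 ⟨z, hz⟩).re) * ((U2 hΩ d.u ξ ξ).1 ⟨z, hz⟩).re
          * ((U2 hΩ d.u ζ ζ).1 ⟨z, hz⟩).re * ((U2 hΩ d.u η η).1 ⟨z, hz⟩).re)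
    (heq : (χ.1 O).re ^ 2 * ‖(U3 hΩ d.u (∑ i, c1 i • w i) (∑ i, c2 i • w i)
      (∑ i, c3 i • w i)).1 O‖ ^ 2 = m - K' * (τ.1 O).re) :
    0 ≤ - K' * (∑ q, ev O (D hΩ (w q) (B hΩ (w q) τ))).re
      + (m - K' * (τ.1 O).re) * (((U2 hΩ d.f (∑ i, c1 i • w i) (∑ i, c1 i • w i)).1 O).re
        + ((U2 hΩ d.f (∑ i, c2 i • w i) (∑ i, c2 i • w i)).1 O).re
        + ((U2 hΩ d.f (∑ i, c3 i • w i) (∑ i, c3 i • w i)).1 O).re)
      - (∑ q, ((2 * (χ.1 O).re * ((U2 hΩ χ (w q) (w q)).1 O).re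
          - 6 * ‖(D hΩ (w q) χ).1 O‖ ^ 2) * ‖(U3 hΩ d.u (∑ i, c1 i • w i) (∑ i, c2 i • w i)
      (∑ i, c3 i • w i)).1 O‖ ^ 2))
      - 2 * (χ.1 O).re ^ 2 * ((U3 hΩ d.f (∑ i, c1 i • w i) (∑ i, c2 i • w i)
      (∑ i, c3 i • w i)).1 O * conj ((U3 hΩ d.u (∑ i, c1 i • w i) (∑ i, c2 i • w i)
      (∑ i, c3 i • w i)).1 O)).re := by
  obtain ⟨g1, hg1⟩ : ∃ g1, g1 = (fr hΩ w O d.u d.hu).g c1 (fun k => conj (c1 k)) := ⟨_, rfl⟩
  obtain ⟨g2, hg2⟩ : ∃ g2, g2 = (fr hΩ w O d.u d.hu).g c2 (fun k => conj (c2 k)) := ⟨_, rfl⟩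
  obtain ⟨g3, hg3⟩ : ∃ g3, g3 = (fr hΩ w O d.u d.hu).g c3 (fun k => conj (c3 k)) := ⟨_, rfl⟩
  obtain ⟨t, ht⟩ : ∃ t, t = (fr hΩ w O d.u d.hu).t c1 c2 (fun k => conj (c3 k)) := ⟨_, rfl⟩
  obtain ⟨A, hA⟩ : ∃ A : Sm Ω, A = algebraMap ℂ (Sm Ω) m - (K' : ℂ) • τ := ⟨_, rfl⟩
  have hAv : ∀ z : Ω, A.1 z = ((m - K' * (τ.1 z).re : ℝ) : ℂ) := by
    intro z
    rw [hA]
    show (m : ℂ) - (K' : ℂ) * τ.1 z = _
    rw [re_eq hτ z]; push_cast; simp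
  have hG := mE_one d w O hw
  have hT : t.1 O = (U3 hΩ d.u (∑ i, c1 i • w i) (∑ i, c2 i • w i) (∑ i, c3 i • w i)).1 O := by
    rw [ht, t_val, Zv_O, Zv_O, Zv_O]
  obtain ⟨s, hs⟩ : ∃ s : Sm Ω, s = A * (g1 * g2 * g3) - χ * χ * (t * cj t) := ⟨_, rfl⟩
  have e1 : (jet hΩ w O).ev g1 = 1 := by
    rw [hg1, (fr hΩ w O d.u d.hu).ev_g hG]; exact h1
  have e2 : (jet hΩ w O).ev g2 = 1 := by
    rw [hg2, (fr hΩ w O d.u d.hu).ev_g hG]; exact h2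
  have e3 : (jet hΩ w O).ev g3 = 1 := by
    rw [hg3, (fr hΩ w O d.u d.hu).ev_g hG]; exact h3
  have hsA : ∀ z : Ω, s.1 z
      = A.1 z * (g1.1 z * g2.1 z * g3.1 z) - χ.1 z * χ.1 z * (t.1 z * conj (t.1 z)) := by
    intro z; rw [hs]; rfl
  have hsv : ∀ z : Ω, (s.1 z).re = (m - K' * (τ.1 z).re) *
      ((U2 hΩ d.u (Zv hΩ w O d.u d.hu c1 z) (Zv hΩ w O d.u d.hu c1 z)).1 z).re *
      ((U2 hΩ d.u (Zv hΩ w O d.u d.hu c2 z) (Zv hΩ w O d.u d.hu c2 z)).1 z).re *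
      ((U2 hΩ d.u (Zv hΩ w O d.u d.hu c3 z) (Zv hΩ w O d.u d.hu c3 z)).1 z).re
      - (χ.1 z).re ^ 2 * ‖(U3 hΩ d.u (Zv hΩ w O d.u d.hu c1 z) (Zv hΩ w O d.u d.hu c2 z)
        (Zv hΩ w O d.u d.hu c3 z)).1 z‖ ^ 2 := by
    intro z
    have r1 : g1.1 z = (((U2 hΩ d.u (Zv hΩ w O d.u d.hu c1 z)
        (Zv hΩ w O d.u d.hu c1 z)).1 z).re : ℂ) := by
      rw [hg1, g_val]; exact re_eq (cj_U2 hΩ d.hu _ _) z
    have r2 : g2.1 z = (((U2 hΩ d.u (Zv hΩ w O d.u d.hu c2 z)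
        (Zv hΩ w O d.u d.hu c2 z)).1 z).re : ℂ) := by
      rw [hg2, g_val]; exact re_eq (cj_U2 hΩ d.hu _ _) z
    have r3 : g3.1 z = (((U2 hΩ d.u (Zv hΩ w O d.u d.hu c3 z)
        (Zv hΩ w O d.u d.hu c3 z)).1 z).re : ℂ) := by
      rw [hg3, g_val]; exact re_eq (cj_U2 hΩ d.hu _ _) z
    have r4 : t.1 z = (U3 hΩ d.u (Zv hΩ w O d.u d.hu c1 z) (Zv hΩ w O d.u d.hu c2 z)
        (Zv hΩ w O d.u d.hu c3 z)).1 z := by rw [ht, t_val]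
    have r5 : t.1 z * conj (t.1 z) = ((‖t.1 z‖ ^ 2 : ℝ) : ℂ) := by
      rw [mul_conj, normSq_eq_norm_sq]
    rw [hsA, hAv, r5, r1, r2, r3, re_eq hχ z, ← r4]
    simp only [← ofReal_mul, ← ofReal_sub, ofReal_re]
    ring
  have hs0 : (ex s.1 O).re = 0 := by
    rw [ex_coe]
    have b1 : g1.1 O = 1 := e1
    have b2 : g2.1 O = 1 := e2
    have b3 : g3.1 O = 1 := e3
    have r5 : t.1 O * conj (t.1 O) = ((‖t.1 O‖ ^ 2 : ℝ) : ℂ) := by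
      rw [mul_conj, normSq_eq_norm_sq]
    rw [hsA, b1, b2, b3, hAv, r5, re_eq hχ O, hT]
    simp only [mul_one, ← ofReal_mul, ← ofReal_sub, ofReal_re]
    rw [← heq]
    ring
  have hmin : ∀ᶠ z in 𝓝 (O : V), (ex s.1 O).re ≤ (ex s.1 z).re := by
    filter_upwards [hmax, hΩ.mem_nhds O.2] with z hz hz'
    rw [hs0, ex_of_mem _ hz', hsv]
    have := hz hz' (Zv hΩ w O d.u d.hu c1 ⟨z, hz'⟩) (Zv hΩ w O d.u d.hu c2 ⟨z, hz'⟩)
      (Zv hΩ w O d.u d.hu c3 ⟨z, hz'⟩)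
    linarith
  have hL : 0 ≤ (∑ q, ev O (D hΩ (w q) (B hΩ (w q) s))).re := by
    rw [Complex.re_sum]
    exact Finset.sum_nonneg fun q _ => lap_nonneg hΩ s O hmin (w q)
  have hq : ∀ q, ev O (D hΩ (w q) (B hΩ (w q) s))
      = - (K' : ℂ) * ev O (D hΩ (w q) (B hΩ (w q) τ))
        + ((m - K' * (τ.1 O).re : ℝ) : ℂ) * (ev O (D hΩ (w q) (B hΩ (w q) g1))
          + ev O (D hΩ (w q) (B hΩ (w q) g2)) + ev O (D hΩ (w q) (B hΩ (w q) g3)))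
        - ((2 * (D hΩ (w q) χ).1 O * conj ((D hΩ (w q) χ).1 O)
            + 2 * ((χ.1 O).re : ℂ) * (((U2 hΩ χ (w q) (w q)).1 O).re : ℂ))
            * (t.1 O * conj (t.1 O))
          + 2 * ((χ.1 O).re : ℂ) * (D hΩ (w q) χ).1 O * ((B hΩ (w q) t).1 O * conj (t.1 O)
            + t.1 O * conj ((D hΩ (w q) t).1 O))
          + 2 * ((χ.1 O).re : ℂ) * conj ((D hΩ (w q) χ).1 O) * ((D hΩ (w q) t).1 O * conj (t.1 O)
            + t.1 O * conj ((B hΩ (w q) t).1 O))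
          + ((χ.1 O).re : ℂ) ^ 2 * ((D hΩ (w q) (B hΩ (w q) t)).1 O * conj (t.1 O)
            + (B hΩ (w q) t).1 O * conj ((B hΩ (w q) t).1 O)
            + (D hΩ (w q) t).1 O * conj ((D hΩ (w q) t).1 O)
            + t.1 O * conj ((D hΩ (w q) (B hΩ (w q) t)).1 O))) := by
    intro q
    have dg : ∀ c : Fin n → ℂ, (jet hΩ w O).ev ((jet hΩ w O).D q
        ((fr hΩ w O d.u d.hu).g c (fun k => conj (c k)))) = 0 := fun c =>
      (fr hΩ w O d.u d.hu).D_g hG _ _ q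
    have bg : ∀ c : Fin n → ℂ, (jet hΩ w O).ev ((jet hΩ w O).B q
        ((fr hΩ w O d.u d.hu).g c (fun k => conj (c k)))) = 0 := fun c =>
      (fr hΩ w O d.u d.hu).B_g hG _ _ q
    have a1 := DB_A (jet hΩ w O) q A g1 g2 g3 e1 e2 e3 (by rw [hg1]; exact dg c1)
      (by rw [hg2]; exact dg c2) (by rw [hg3]; exact dg c3) (by rw [hg1]; exact bg c1)
      (by rw [hg2]; exact bg c2) (by rw [hg3]; exact bg c3)
    have a2 := DB_X (jet hΩ w O) q χ t (cj t)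
    have a3 : (jet hΩ w O).D q ((jet hΩ w O).B q s)
        = (jet hΩ w O).D q ((jet hΩ w O).B q (A * (g1 * g2 * g3)))
        - (jet hΩ w O).D q ((jet hΩ w O).B q (χ * χ * (t * cj t))) := by rw [hs, map_sub, map_sub]
    have a4 : (jet hΩ w O).D q ((jet hΩ w O).B q A)
        = - ((K' : ℂ) • (jet hΩ w O).D q ((jet hΩ w O).B q τ)) := by
      rw [hA, map_sub, map_sub, Derivation.map_smul, Derivation.map_smul,
        Derivation.map_algebraMap, map_zero, zero_sub]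
    have a5 : (jet hΩ w O).ev A = ((m - K' * (τ.1 O).re : ℝ) : ℂ) := hAv O
    have b1 : (jet hΩ w O).ev ((jet hΩ w O).B q χ) = conj ((D hΩ (w q) χ).1 O) := by
      show (B hΩ (w q) χ).1 O = (cj (D hΩ (w q) χ)).1 O
      rw [← B_cj, hχ]
    have b2 : (jet hΩ w O).ev ((jet hΩ w O).D q ((jet hΩ w O).B q χ))
        = (((U2 hΩ χ (w q) (w q)).1 O).re : ℂ) := re_eq (cj_U2 hΩ hχ (w q) (w q)) O
    have b3 : (jet hΩ w O).ev χ = ((χ.1 O).re : ℂ) := re_eq hχ O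
    have b4 : (jet hΩ w O).ev ((jet hΩ w O).B q (cj t)) = conj ((D hΩ (w q) t).1 O) := by
      show (B hΩ (w q) (cj t)).1 O = (cj (D hΩ (w q) t)).1 O
      rw [B_cj]
    have b5 : (jet hΩ w O).ev ((jet hΩ w O).D q (cj t)) = conj ((B hΩ (w q) t).1 O) := by
      show (D hΩ (w q) (cj t)).1 O = (cj (B hΩ (w q) t)).1 O
      rw [D_cj]
    have b6 : (jet hΩ w O).ev ((jet hΩ w O).D q ((jet hΩ w O).B q (cj t)))
        = conj ((D hΩ (w q) (B hΩ (w q) t)).1 O) := by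
      show (D hΩ (w q) (B hΩ (w q) (cj t))).1 O = (cj (D hΩ (w q) (B hΩ (w q) t))).1 O
      rw [B_cj, D_cj, DB]
    have a6 : ev O (D hΩ (w q) (B hΩ (w q) s))
        = (jet hΩ w O).ev ((jet hΩ w O).D q ((jet hΩ w O).B q s)) := rfl
    have k1 : (jet hΩ w O).ev ((jet hΩ w O).D q χ) = (D hΩ (w q) χ).1 O := rfl
    have k2 : (jet hΩ w O).ev (cj t) = conj (t.1 O) := rfl
    have k3 : (jet hΩ w O).ev t = t.1 O := rfl
    have k4 : (jet hΩ w O).ev ((jet hΩ w O).D q t) = (D hΩ (w q) t).1 O := rfl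
    have k5 : (jet hΩ w O).ev ((jet hΩ w O).B q t) = (B hΩ (w q) t).1 O := rfl
    have k6 : ∀ g : Sm Ω, (jet hΩ w O).ev ((jet hΩ w O).D q ((jet hΩ w O).B q g))
        = ev O (D hΩ (w q) (B hΩ (w q) g)) := fun _ => rfl
    have k7 : ev O (D hΩ (w q) (B hΩ (w q) t)) = (D hΩ (w q) (B hΩ (w q) t)).1 O := rfl
    rw [a6, a3, map_sub, a1, a2, a4, a5, map_neg, map_smul, smul_eq_mul, b1, b2, b3, b4, b5, b6,
      k1, k2, k3, k4, k5, k6 τ, k6 g1, k6 g2, k6 g3, k6 t, k7]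
    ring
  have l1 := lap_g_val d w O hw c1
  have l2 := lap_g_val d w O hw c2
  have l3 := lap_g_val d w O hw c3
  have l4 := lap_t_val d w O hw c1 c2 c3
  rw [← hg1] at l1
  rw [← hg2] at l2
  rw [← hg3] at l3
  rw [← ht] at l4
  have hle : ∀ q, (ev O (D hΩ (w q) (B hΩ (w q) s))).re
      ≤ - K' * (ev O (D hΩ (w q) (B hΩ (w q) τ))).re
        + (m - K' * (τ.1 O).re) * ((ev O (D hΩ (w q) (B hΩ (w q) g1))).re
          + (ev O (D hΩ (w q) (B hΩ (w q) g2))).re + (ev O (D hΩ (w q) (B hΩ (w q) g3))).re)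
        - ((2 * (χ.1 O).re * ((U2 hΩ χ (w q) (w q)).1 O).re
          - 6 * ‖(D hΩ (w q) χ).1 O‖ ^ 2) * ‖t.1 O‖ ^ 2
          + 2 * (χ.1 O).re ^ 2 * (ev O (D hΩ (w q) (B hΩ (w q) t)) * conj (t.1 O)).re) := by
    intro q
    have hn := num_ineq (χ.1 O).re ((U2 hΩ χ (w q) (w q)).1 O).re ((D hΩ (w q) χ).1 O) (t.1 O)
      ((D hΩ (w q) t).1 O) ((B hΩ (w q) t).1 O) (ev O (D hΩ (w q) (B hΩ (w q) t)))
    rw [hq q, sub_re, add_re]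
    have r1 : (-(K' : ℂ) * ev O (D hΩ (w q) (B hΩ (w q) τ))).re
        = - K' * (ev O (D hΩ (w q) (B hΩ (w q) τ))).re := by
      rw [← ofReal_neg, re_ofReal_mul]
    rw [r1, re_ofReal_mul, add_re, add_re]
    exact sub_le_sub_left hn _
  have hsum : (∑ q, ev O (D hΩ (w q) (B hΩ (w q) s))).re
      ≤ ∑ q, (- K' * (ev O (D hΩ (w q) (B hΩ (w q) τ))).re
        + (m - K' * (τ.1 O).re) * ((ev O (D hΩ (w q) (B hΩ (w q) g1))).re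
          + (ev O (D hΩ (w q) (B hΩ (w q) g2))).re + (ev O (D hΩ (w q) (B hΩ (w q) g3))).re)
        - ((2 * (χ.1 O).re * ((U2 hΩ χ (w q) (w q)).1 O).re
          - 6 * ‖(D hΩ (w q) χ).1 O‖ ^ 2) * ‖t.1 O‖ ^ 2
          + 2 * (χ.1 O).re ^ 2 * (ev O (D hΩ (w q) (B hΩ (w q) t)) * conj (t.1 O)).re)) := by
    rw [Complex.re_sum]
    exact Finset.sum_le_sum fun q _ => hle q
  refine (hL.trans hsum).trans (le_of_eq ?_)
  simp only [Finset.sum_sub_distrib, Finset.sum_add_distrib, ← Finset.mul_sum]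
  rw [← Complex.re_sum, ← Complex.re_sum, ← Complex.re_sum, ← Complex.re_sum, ← Complex.re_sum,
    ← Finset.sum_mul, l1, l2, l3, ← Finset.sum_mul, l4, hT, ← Finset.sum_mul]
  ring

end core

end Crest.Agent.R273.YC3_812
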