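import Crest.Agent.R273.YC3d_812

/-!
Row 273 (S0416), Part C (Yau), helper812: local Calabi third order estimate, part 5:
the estimate on a ball.
-/

set_option autoImplicit false
set_option linter.unusedSimpArgs false
set_option linter.unusedSectionVars false

open Set Filter Topology Complex
open scoped ContDiff ComplexConjugate ComplexOrder

namespace Crest.Agent.R273.YC3_812

open Crest.Agent.R273.YSm_812 Crest.Agent.R273.YJet_812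

variable {n : ℕ}

theorem U3_expand_eb {Ω : Set (W n)} (hΩ : IsOpen Ω) (u : Sm Ω) (ξ ζ η : W n) (z : Ω) :
    (U3 hΩ u ξ ζ η).1 z
      = ∑ i, ∑ j, ∑ k, ξ i * ζ j * conj (η k) * (U3 hΩ u (eb n i) (eb n j) (eb n k)).1 z := by
  conv_lhs => rw [← sum_eb ξ, ← sum_eb ζ, ← sum_eb η]
  exact U3_expand hΩ u _ _ _ _ z

theorem U2_expand_eb {Ω : Set (W n)} (hΩ : IsOpen Ω) (u : Sm Ω) (ξ ζ : W n) (z : Ω) :
    (U2 hΩ u ξ ζ).1 z
      = ∑ i, ∑ j, ξ i * conj (ζ j) * (U2 hΩ u (eb n i) (eb n j)).1 z := by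
  conv_lhs => rw [← sum_eb ξ, ← sum_eb ζ]
  exact U2_expand hΩ u _ _ _ z

/-- homogeneity -/
theorem U2_smul {Ω : Set (W n)} (hΩ : IsOpen Ω) (u : Sm Ω) (t : ℝ) (ξ : W n) (z : Ω) :
    ((U2 hΩ u ((t : ℂ) • ξ) ((t : ℂ) • ξ)).1 z).re = t ^ 2 * ((U2 hΩ u ξ ξ).1 z).re := by
  have h : (U2 hΩ u ((t : ℂ) • ξ) ((t : ℂ) • ξ)).1 z = ((t ^ 2 : ℝ) : ℂ) * (U2 hΩ u ξ ξ).1 z := by
    rw [U2_expand_eb, U2_expand_eb hΩ u ξ ξ, Finset.mul_sum]
    refine Finset.sum_congr rfl fun i _ => ?_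
    rw [Finset.mul_sum]
    refine Finset.sum_congr rfl fun j _ => ?_
    simp only [PiLp.smul_apply, smul_eq_mul, map_mul, conj_ofReal]
    push_cast
    ring
  rw [h, re_ofReal_mul]

theorem U3_smul {Ω : Set (W n)} (hΩ : IsOpen Ω) (u : Sm Ω) (t s r : ℝ) (ξ ζ η : W n) (z : Ω) :
    ‖(U3 hΩ u ((t : ℂ) • ξ) ((s : ℂ) • ζ) ((r : ℂ) • η)).1 z‖ ^ 2
      = (t ^ 2 * s ^ 2 * r ^ 2) * ‖(U3 hΩ u ξ ζ η).1 z‖ ^ 2 := by
  have h : (U3 hΩ u ((t : ℂ) • ξ) ((s : ℂ) • ζ) ((r : ℂ) • η)).1 z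
      = ((t * s * r : ℝ) : ℂ) * (U3 hΩ u ξ ζ η).1 z := by
    rw [U3_expand_eb, U3_expand_eb hΩ u ξ ζ η, Finset.mul_sum]
    refine Finset.sum_congr rfl fun i _ => ?_
    rw [Finset.mul_sum]
    refine Finset.sum_congr rfl fun j _ => ?_
    rw [Finset.mul_sum]
    refine Finset.sum_congr rfl fun k _ => ?_
    simp only [PiLp.smul_apply, smul_eq_mul, map_mul, conj_ofReal]
    push_cast
    ring
  rw [h, norm_mul, norm_real, mul_pow, Real.norm_eq_abs, sq_abs]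
  ring

theorem continuousOn_ex {Ω : Set (W n)} (g : Sm Ω) : ContinuousOn (ex g.1) Ω :=
  g.2.continuousOn

section ball

variable {z₀ : W n} {r lam Lam K : ℝ} {hΩ : IsOpen (Metric.ball z₀ r)}
  (d : Dat hΩ (eb n) lam Lam K)

/-- the extended quadratic form -/
noncomputable def gq (p a : W n) : ℝ :=
  (∑ i, ∑ j, a i * conj (a j) * ex (U2 hΩ d.u (eb n i) (eb n j)).1 p).re

/-- the extended cubic form -/
noncomputable def tq (p a b c : W n) : ℂ :=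
  ∑ i, ∑ j, ∑ k, a i * b j * conj (c k) * ex (U3 hΩ d.u (eb n i) (eb n j) (eb n k)).1 p

theorem gq_eq (z : Metric.ball z₀ r) (a : W n) : gq d z a = ((U2 hΩ d.u a a).1 z).re := by
  rw [gq, U2_expand_eb]
  simp only [ex_coe]

theorem tq_eq (z : Metric.ball z₀ r) (a b c : W n) : tq d z a b c = (U3 hΩ d.u a b c).1 z := by
  rw [tq, U3_expand_eb]
  simp only [ex_coe]

/-- the function to be maximised -/
noncomputable def Ph (K' : ℝ) (q : W n × W n × W n × W n) : ℝ :=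
  ((3 * r / 4) ^ 2 - ‖q.1 - z₀‖ ^ 2) ^ 2 * ‖tq d q.1 q.2.1 q.2.2.1 q.2.2.2‖ ^ 2
    / (gq d q.1 q.2.1 * gq d q.1 q.2.2.1 * gq d q.1 q.2.2.2)
    + K' * (ex (trU hΩ d.u).1 q.1).re

theorem exists_max [Nontrivial (W n)] (hr : 0 < r) (hlam : 0 < lam) (K' : ℝ) :
    ∃ (O : Metric.ball z₀ r) (a b c : W n), dist (O : W n) z₀ ≤ 3 * r / 4 ∧ ‖a‖ = 1 ∧ ‖b‖ = 1 ∧
      ‖c‖ = 1 ∧ ∀ (z : Metric.ball z₀ r) (ξ ζ η : W n), dist (z : W n) z₀ ≤ 3 * r / 4 → ‖ξ‖ = 1 →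
        ‖ζ‖ = 1 → ‖η‖ = 1 → Ph d K' (z, ξ, ζ, η) ≤ Ph d K' (O, a, b, c) := by
  have hsub : Metric.closedBall z₀ (3 * r / 4) ⊆ Metric.ball z₀ r :=
    Metric.closedBall_subset_ball (by linarith)
  let S : Set (W n × W n × W n × W n) := Metric.closedBall z₀ (3 * r / 4) ×ˢ
    (Metric.sphere (0 : W n) 1 ×ˢ (Metric.sphere (0 : W n) 1 ×ˢ Metric.sphere (0 : W n) 1))
  have hS : IsCompact S := (isCompact_closedBall _ _).prod
    ((isCompact_sphere _ _).prod ((isCompact_sphere _ _).prod (isCompact_sphere _ _)))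
  obtain ⟨v, hv⟩ := exists_norm_eq (W n) (zero_le_one (α := ℝ))
  have hne : S.Nonempty := ⟨(z₀, v, v, v), by
    refine ⟨Metric.mem_closedBall_self (by positivity), ?_, ?_, ?_⟩ <;> simpa using hv⟩
  have hex : ∀ g : Sm (Metric.ball z₀ r), ContinuousOn (fun q : W n × W n × W n × W n =>
      ex g.1 q.1) S := fun g =>
    (continuousOn_ex g).comp continuousOn_fst fun q hq => hsub hq.1
  have hg : ∀ f : (W n × W n × W n × W n) → W n, Continuous f →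
      ContinuousOn (fun q => gq d q.1 (f q)) S := by
    intro f hf
    unfold gq
    refine continuous_re.comp_continuousOn ?_
    refine continuousOn_finsetSum _ fun i _ => continuousOn_finsetSum _ fun j _ => ?_
    refine ContinuousOn.mul ?_ (hex _)
    have h1 : Continuous fun q => (f q) i := (EuclideanSpace.proj i).continuous.comp hf
    have h2 : Continuous fun q => (f q) j := (EuclideanSpace.proj j).continuous.comp hf
    exact (h1.mul (continuous_conj.comp h2)).continuousOn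
  have ht : ContinuousOn (fun q : W n × W n × W n × W n =>
      tq d q.1 q.2.1 q.2.2.1 q.2.2.2) S := by
    unfold tq
    refine continuousOn_finsetSum _ fun i _ => continuousOn_finsetSum _ fun j _ =>
      continuousOn_finsetSum _ fun k _ => ?_
    refine ContinuousOn.mul ?_ (hex _)
    have h1 : Continuous fun q : W n × W n × W n × W n => q.2.1 i :=
      (EuclideanSpace.proj i).continuous.comp (continuous_fst.comp continuous_snd)
    have h2 : Continuous fun q : W n × W n × W n × W n => q.2.2.1 j :=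
      (EuclideanSpace.proj j).continuous.comp
        (continuous_fst.comp (continuous_snd.comp continuous_snd))
    have h3 : Continuous fun q : W n × W n × W n × W n => q.2.2.2 k :=
      (EuclideanSpace.proj k).continuous.comp
        (continuous_snd.comp (continuous_snd.comp continuous_snd))
    exact ((h1.mul h2).mul (continuous_conj.comp h3)).continuousOn
  have hgpos : ∀ q ∈ S, ∀ a : W n, ‖a‖ = 1 → 0 < gq d q.1 a := by
    intro q hq a ha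
    have h1 := d.low ⟨q.1, hsub hq.1⟩ a
    have h2 := gq_eq d ⟨q.1, hsub hq.1⟩ a
    rw [← h2, ha] at h1
    have h3 : 0 < gq d (⟨q.1, hsub hq.1⟩ : Metric.ball z₀ r) a := by nlinarith
    exact h3
  have hc : ContinuousOn (Ph d K') S := by
    unfold Ph
    refine ContinuousOn.add (ContinuousOn.div (ContinuousOn.mul ?_ (ht.norm.pow 2)) ?_ ?_) ?_
    · have : Continuous fun q : W n × W n × W n × W n =>
        ((3 * r / 4) ^ 2 - ‖q.1 - z₀‖ ^ 2) ^ 2 := by fun_prop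
      exact this.continuousOn
    · exact ((hg _ (continuous_fst.comp continuous_snd)).mul
        (hg _ (continuous_fst.comp (continuous_snd.comp continuous_snd)))).mul
        (hg _ (continuous_snd.comp (continuous_snd.comp continuous_snd)))
    · rintro q ⟨hq1, hq2, hq3, hq4⟩
      have hq : q ∈ S := ⟨hq1, hq2, hq3, hq4⟩
      have a1 := hgpos q hq q.2.1 (by simpa using hq2)
      have a2 := hgpos q hq q.2.2.1 (by simpa using hq3)
      have a3 := hgpos q hq q.2.2.2 (by simpa using hq4)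
      positivity
    · exact continuousOn_const.mul (continuous_re.comp_continuousOn (hex _))
  obtain ⟨q, hq, hmax⟩ := hS.exists_isMaxOn hne hc
  refine ⟨⟨q.1, hsub hq.1⟩, q.2.1, q.2.2.1, q.2.2.2, hq.1, by simpa using hq.2.1,
    by simpa using hq.2.2.1, by simpa using hq.2.2.2, fun z ξ ζ η h1 h2 h3 h4 => ?_⟩
  exact hmax (⟨h1, by simpa using h2, by simpa using h3, by simpa using h4⟩ :
    ((z : W n), ξ, ζ, η) ∈ S)

theorem Ph_eq (K' : ℝ) (z : Metric.ball z₀ r) (ξ ζ η : W n) : Ph d K' (z, ξ, ζ, η)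
    = (((cut _ z₀ (3 * r / 4)).1 z).re) ^ 2 * ‖(U3 hΩ d.u ξ ζ η).1 z‖ ^ 2
      / (((U2 hΩ d.u ξ ξ).1 z).re * ((U2 hΩ d.u ζ ζ).1 z).re * ((U2 hΩ d.u η η).1 z).re)
      + K' * ((trU hΩ d.u).1 z).re := by
  simp only [Ph, gq_eq, tq_eq, ex_coe]
  rw [cut_val, ofReal_re]

theorem gpos (hlam : 0 < lam) (z : Metric.ball z₀ r) (a : W n) (ha : a ≠ 0) :
    0 < ((U2 hΩ d.u a a).1 z).re :=
  lt_of_lt_of_le (by positivity) (d.low z a)

theorem U3_zero (z : Metric.ball z₀ r) (ξ ζ η : W n) (h : ξ = 0 ∨ ζ = 0 ∨ η = 0) :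
    (U3 hΩ d.u ξ ζ η).1 z = 0 := by
  rw [U3_expand_eb]
  refine Finset.sum_eq_zero fun i _ => Finset.sum_eq_zero fun j _ =>
    Finset.sum_eq_zero fun k _ => ?_
  rcases h with h | h | h <;> subst h <;> simp

/-- from unit vectors to all vectors -/
theorem ineq_all (hlam : 0 < lam) (K' m : ℝ) (z : Metric.ball z₀ r)
    (h : ∀ ξ ζ η : W n, ‖ξ‖ = 1 → ‖ζ‖ = 1 → ‖η‖ = 1 → Ph d K' (z, ξ, ζ, η) ≤ m) (ξ ζ η : W n) :
    (((cut _ z₀ (3 * r / 4)).1 z).re) ^ 2 * ‖(U3 hΩ d.u ξ ζ η).1 z‖ ^ 2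
        ≤ (m - K' * ((trU hΩ d.u).1 z).re)
          * ((U2 hΩ d.u ξ ξ).1 z).re
          * ((U2 hΩ d.u ζ ζ).1 z).re * ((U2 hΩ d.u η η).1 z).re := by
  by_cases h0 : ξ = 0 ∨ ζ = 0 ∨ η = 0
  · rw [U3_zero d z ξ ζ η h0]
    have : ((U2 hΩ d.u ξ ξ).1 z).re * ((U2 hΩ d.u ζ ζ).1 z).re * ((U2 hΩ d.u η η).1 z).re = 0 := by
      have hz : ∀ v : W n, v = 0 → ((U2 hΩ d.u v v).1 z).re = 0 := by
        intro v hv
        subst hv
        rw [U2_expand_eb]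
        simp
      rcases h0 with h0 | h0 | h0 <;> rw [hz _ h0] <;> simp
    rw [mul_assoc, mul_assoc, ← mul_assoc ((U2 hΩ d.u ξ ξ).1 z).re, this]
    simp
  · push Not at h0
    obtain ⟨h1, h2, h3⟩ := h0
    have nn : ∀ v : W n, v ≠ 0 → ‖((‖v‖⁻¹ : ℝ) : ℂ) • v‖ = 1 := fun v hv => by
      rw [norm_smul, norm_real, norm_inv, norm_norm, inv_mul_cancel₀ (norm_ne_zero_iff.2 hv)]
    have back : ∀ v : W n, v ≠ 0 → ((‖v‖ : ℝ) : ℂ) • (((‖v‖⁻¹ : ℝ) : ℂ) • v) = v := fun v hv => by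
      rw [smul_smul, ← ofReal_mul, mul_inv_cancel₀ (norm_ne_zero_iff.2 hv), ofReal_one, one_smul]
    have hh := h _ _ _ (nn ξ h1) (nn ζ h2) (nn η h3)
    rw [Ph_eq] at hh
    obtain ⟨ξ', hξ'⟩ : ∃ a, a = ((‖ξ‖⁻¹ : ℝ) : ℂ) • ξ := ⟨_, rfl⟩
    obtain ⟨ζ', hζ'⟩ : ∃ a, a = ((‖ζ‖⁻¹ : ℝ) : ℂ) • ζ := ⟨_, rfl⟩
    obtain ⟨η', hη'⟩ : ∃ a, a = ((‖η‖⁻¹ : ℝ) : ℂ) • η := ⟨_, rfl⟩
    rw [← hξ', ← hζ', ← hη'] at hh
    have n1 := nn ξ h1
    have n2 := nn ζ h2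
    have n3 := nn η h3
    have b1 := back ξ h1
    have b2 := back ζ h2
    have b3 := back η h3
    rw [← hξ'] at n1 b1
    rw [← hζ'] at n2 b2
    rw [← hη'] at n3 b3
    have g1 := gpos d hlam z ξ' (norm_ne_zero_iff.1 (by rw [n1]; norm_num))
    have g2 := gpos d hlam z ζ' (norm_ne_zero_iff.1 (by rw [n2]; norm_num))
    have g3 := gpos d hlam z η' (norm_ne_zero_iff.1 (by rw [n3]; norm_num))
    rw [← b1, ← b2, ← b3, U3_smul, U2_smul, U2_smul, U2_smul]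
    generalize ((U2 hΩ d.u ξ' ξ').1 z).re = G1 at *
    generalize ((U2 hΩ d.u ζ' ζ').1 z).re = G2 at *
    generalize ((U2 hΩ d.u η' η').1 z).re = G3 at *
    generalize ‖(U3 hΩ d.u ξ' ζ' η').1 z‖ ^ 2 = T2 at *
    generalize ((trU hΩ d.u).1 z).re = tr at *
    generalize ((cut (Metric.ball z₀ r) z₀ (3 * r / 4)).1 z).re = X at *
    have hh2 : X ^ 2 * T2 ≤ (m - K' * tr) * (G1 * G2 * G3) := by
      rw [← div_le_iff₀ (by positivity)]
      linarith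
    have hh3 := mul_le_mul_of_nonneg_left hh2
      (show (0 : ℝ) ≤ ‖ξ‖ ^ 2 * ‖ζ‖ ^ 2 * ‖η‖ ^ 2 by positivity)
    linarith

end ball

/-- **Calabi's interior third order estimate** -/
theorem calabi (n : ℕ) (r lam Lam K : ℝ) (hr : 0 < r) (hlam : 0 < lam) (hK : 0 ≤ K)
    (hLam : 0 ≤ Lam) :
    ∃ C : ℝ, 0 ≤ C ∧ ∀ (z₀ : W n) (hΩ : IsOpen (Metric.ball z₀ r))
      (d : Dat hΩ (eb n) lam Lam K) (z : Metric.ball z₀ r), dist (z : W n) z₀ ≤ r / 2 →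
        ∀ ξ ζ η : W n, ‖(U3 hΩ d.u ξ ζ η).1 z‖ ≤ C * ‖ξ‖ * ‖ζ‖ * ‖η‖ := by
  set μ : ℝ := (Real.sqrt lam)⁻¹ with hμd
  have hμ : 0 ≤ μ := by positivity
  have hμ2 : μ ^ 2 * lam = 1 := by
    rw [hμd, inv_pow, Real.sq_sqrt hlam.le, inv_mul_cancel₀ hlam.ne']
  set K' : ℝ := (1 + r ^ 4 * 3 * (K * μ ^ 2 + K) + 8 * n * r ^ 2 * μ ^ 2 + 2 * r ^ 4 * K
      + r ^ 4 * K * μ ^ 3) / lam with hK'd
  have hK'0 : 0 ≤ K' := by positivity
  have hK' : 1 + r ^ 4 * 3 * (K * μ ^ 2 + K) + 8 * n * r ^ 2 * μ ^ 2 + 2 * r ^ 4 * K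
      + r ^ 4 * K * μ ^ 3 ≤ K' * lam := by
    rw [hK'd, div_mul_cancel₀ _ hlam.ne']
  set m₀ : ℝ := r ^ 4 * (K' * n * (K + K * Lam) + r ^ 4 * K * μ ^ 3) + K' * n * Lam with hm₀
  have hm₀0 : 0 ≤ m₀ := by positivity
  refine ⟨Real.sqrt (256 / (25 * r ^ 4) * m₀ * Lam ^ 3), Real.sqrt_nonneg _, ?_⟩
  intro z₀ hΩ d z hz ξ ζ η
  by_cases h0 : ξ = 0 ∨ ζ = 0 ∨ η = 0
  · rw [U3_zero d z ξ ζ η h0, norm_zero]; positivity
  have hnt : Nontrivial (W n) := by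
    push Not at h0
    exact ⟨⟨ξ, 0, h0.1⟩⟩
  obtain ⟨O, a, b, c, hO, ha, hb, hc, hmax⟩ := exists_max d hr hlam K'
  obtain ⟨m, hm⟩ : ∃ m, m = Ph d K' (O, a, b, c) := ⟨_, rfl⟩
  rw [← hm] at hmax
  have hall : ∀ z : Metric.ball z₀ r, dist (z : W n) z₀ ≤ 3 * r / 4 → ∀ ξ ζ η : W n,
      (((cut _ z₀ (3 * r / 4)).1 z).re) ^ 2 * ‖(U3 hΩ d.u ξ ζ η).1 z‖ ^ 2
        ≤ (m - K' * ((trU hΩ d.u).1 z).re)
          * ((U2 hΩ d.u ξ ξ).1 z).re
          * ((U2 hΩ d.u ζ ζ).1 z).re * ((U2 hΩ d.u η η).1 z).re := fun z hz =>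
    ineq_all d hlam K' m z fun ξ ζ η h1 h2 h3 => hmax z ξ ζ η hz h1 h2 h3
  have htr0 : ∀ z : Metric.ball z₀ r, 0 ≤ ((trU hΩ d.u).1 z).re := by
    intro z
    rw [trU_re]
    refine Finset.sum_nonneg fun k _ => ?_
    exact le_trans (by positivity) (d.low z (eb n k))
  have htr : ∀ z : Metric.ball z₀ r, ((trU hΩ d.u).1 z).re ≤ n * Lam := by
    intro z
    rw [trU_re]
    calc ∑ k, ((U2 hΩ d.u (eb n k) (eb n k)).1 z).re ≤ ∑ _k : Fin n, Lam := by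
          refine Finset.sum_le_sum fun k _ => ?_
          have := d.upp z (eb n k)
          rwa [norm_eb, one_pow, mul_one] at this
      _ = n * Lam := by simp
  -- the value at the maximum
  have hmm : m ≤ m₀ := by
    rcases lt_or_eq_of_le hO with hlt | heq
    · have ga := gpos d hlam O a (norm_ne_zero_iff.1 (by rw [ha]; norm_num))
      have gb := gpos d hlam O b (norm_ne_zero_iff.1 (by rw [hb]; norm_num))
      have gc := gpos d hlam O c (norm_ne_zero_iff.1 (by rw [hc]; norm_num))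
      have hs : ∀ g : ℝ, 0 < g → ((Real.sqrt g)⁻¹) ^ 2 * g = 1 := fun g hg => by
        rw [inv_pow, Real.sq_sqrt hg.le, inv_mul_cancel₀ hg.ne']
      have hs' : ∀ g : ℝ, 0 < g → ((Real.sqrt g)⁻¹) ^ 2 = g⁻¹ := fun g hg => by
        rw [inv_pow, Real.sq_sqrt hg.le]
      refine at_max d hr hlam hK O hlt K' m μ hμ hμ2 hK'
        (((((Real.sqrt ((U2 hΩ d.u a a).1 O).re)⁻¹ : ℝ)) : ℂ) • a)
        (((((Real.sqrt ((U2 hΩ d.u b b).1 O).re)⁻¹ : ℝ)) : ℂ) • b)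
        (((((Real.sqrt ((U2 hΩ d.u c c).1 O).re)⁻¹ : ℝ)) : ℂ) • c)
        (by rw [U2_smul]; exact hs _ ga) (by rw [U2_smul]; exact hs _ gb)
        (by rw [U2_smul]; exact hs _ gc) hall ?_
      rw [U3_smul, hs' _ ga, hs' _ gb, hs' _ gc, hm, Ph_eq]
      field_simp
      ring
    · have hX : ((cut (Metric.ball z₀ r) z₀ (3 * r / 4)).1 O).re = 0 := by
        rw [cut_val, ofReal_re, ← dist_eq_norm, heq]; ring
      have h1 : m = K' * ((trU hΩ d.u).1 O).re := by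
        rw [hm, Ph_eq, hX]; simp
      rw [h1, hm₀]
      have h2 := mul_le_mul_of_nonneg_left (htr O) hK'0
      have h3 : 0 ≤ r ^ 4 * (K' * n * (K + K * Lam) + r ^ 4 * K * μ ^ 3) := by positivity
      linarith
  -- conclusion
  have h1 := hall z (by linarith) ξ ζ η
  have hX : 5 * r ^ 2 / 16 ≤ ((cut (Metric.ball z₀ r) z₀ (3 * r / 4)).1 z).re := by
    rw [cut_val, ofReal_re, ← dist_eq_norm]
    have h2 : dist (z : W n) z₀ ^ 2 ≤ (r / 2) ^ 2 := pow_le_pow_left₀ dist_nonneg hz 2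
    nlinarith
  have h2 : (5 * r ^ 2 / 16) ^ 2 * ‖(U3 hΩ d.u ξ ζ η).1 z‖ ^ 2
      ≤ m₀ * (Lam * ‖ξ‖ ^ 2) * (Lam * ‖ζ‖ ^ 2) * (Lam * ‖η‖ ^ 2) := by
    have a1 : (5 * r ^ 2 / 16) ^ 2 * ‖(U3 hΩ d.u ξ ζ η).1 z‖ ^ 2
        ≤ ((cut (Metric.ball z₀ r) z₀ (3 * r / 4)).1 z).re ^ 2
          * ‖(U3 hΩ d.u ξ ζ η).1 z‖ ^ 2 := by gcongr
    refine (a1.trans h1).trans ?_
    have p1 : 0 ≤ ((U2 hΩ d.u ξ ξ).1 z).re := le_trans (by positivity) (d.low z ξ)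
    have p2 : 0 ≤ ((U2 hΩ d.u ζ ζ).1 z).re := le_trans (by positivity) (d.low z ζ)
    have p3 : 0 ≤ ((U2 hΩ d.u η η).1 z).re := le_trans (by positivity) (d.low z η)
    have q0 : m - K' * ((trU hΩ d.u).1 z).re ≤ m₀ := by
      have := mul_nonneg hK'0 (htr0 z)
      linarith
    have q1 := d.upp z ξ
    have q2 := d.upp z ζ
    have q3 := d.upp z η
    gcongr
  have h3 : ‖(U3 hΩ d.u ξ ζ η).1 z‖ ^ 2
      ≤ (256 / (25 * r ^ 4) * m₀ * Lam ^ 3) * (‖ξ‖ * ‖ζ‖ * ‖η‖) ^ 2 := by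
    have hr4 : 0 < 25 * r ^ 4 := by positivity
    have e1 : (5 * r ^ 2 / 16) ^ 2 = 25 * r ^ 4 / 256 := by ring
    rw [e1] at h2
    have e2 : (256 / (25 * r ^ 4) * m₀ * Lam ^ 3) * (‖ξ‖ * ‖ζ‖ * ‖η‖) ^ 2
        = (m₀ * (Lam * ‖ξ‖ ^ 2) * (Lam * ‖ζ‖ ^ 2) * (Lam * ‖η‖ ^ 2)) * (256 / (25 * r ^ 4)) := by
      ring
    rw [e2]
    calc ‖(U3 hΩ d.u ξ ζ η).1 z‖ ^ 2
        = (25 * r ^ 4 / 256 * ‖(U3 hΩ d.u ξ ζ η).1 z‖ ^ 2) * (256 / (25 * r ^ 4)) := by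
          field_simp
      _ ≤ _ := mul_le_mul_of_nonneg_right h2 (by positivity)
  have h4 : ‖(U3 hΩ d.u ξ ζ η).1 z‖
      ≤ Real.sqrt ((256 / (25 * r ^ 4) * m₀ * Lam ^ 3) * (‖ξ‖ * ‖ζ‖ * ‖η‖) ^ 2) :=
    Real.le_sqrt_of_sq_le h3
  rw [Real.sqrt_mul (by positivity), Real.sqrt_sq (by positivity)] at h4
  linarith

end Crest.Agent.R273.YC3_812
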