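import Crest.Agent.R273.FGb_259
import Mathlib

/-!
# R273 (S0416), Part A, HALF 2 (helper945): F1, the field `FF` as `ℂ(y_1 … y_b)(θ)`
-/

set_option autoImplicit false
set_option linter.unusedSectionVars false

open Polynomial

namespace Crest.Agent.R273.YDf_945

noncomputable section

/-- polynomials in `T` over `ℂ[y_1 … y_b]` as polynomials in `b + 1` variables -/
def psi (b : ℕ) : (MvPolynomial (Fin b) ℂ)[X] →+* MvPolynomial (Fin (b + 1)) ℂ :=
  Polynomial.eval₂RingHom (MvPolynomial.rename Fin.castSucc).toRingHom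
    (MvPolynomial.X (Fin.last b))

theorem psi_C (b : ℕ) (p : MvPolynomial (Fin b) ℂ) :
    psi b (C p) = MvPolynomial.rename Fin.castSucc p := by
  simp [psi]

theorem psi_X (b : ℕ) : psi b X = MvPolynomial.X (Fin.last b) := by
  simp [psi]

theorem pderiv_rename (b : ℕ) (p : MvPolynomial (Fin b) ℂ) :
    MvPolynomial.pderiv (Fin.last b) (MvPolynomial.rename Fin.castSucc p) = 0 := by
  induction p using MvPolynomial.induction_on with
  | C a => simp
  | add p q hp hq => simp [hp, hq]
  | mul_X p i hp =>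
    rw [map_mul, Derivation.leibniz, hp, MvPolynomial.rename_X,
      MvPolynomial.pderiv_X_of_ne (Fin.castSucc_lt_last i).ne]
    simp

theorem pderiv_psi (b : ℕ) (Q : (MvPolynomial (Fin b) ℂ)[X]) :
    MvPolynomial.pderiv (Fin.last b) (psi b Q) = psi b (derivative Q) := by
  induction Q using Polynomial.induction_on' with
  | add p q hp hq => rw [map_add, map_add, hp, hq, derivative_add, map_add]
  | monomial k a =>
    have h1 : psi b (C a * X ^ k) =
        MvPolynomial.rename Fin.castSucc a * MvPolynomial.X (Fin.last b) ^ k := by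
      rw [map_mul, map_pow, psi_C, psi_X]
    have h2 : psi b (C (a * (k : MvPolynomial (Fin b) ℂ)) * X ^ (k - 1)) =
        MvPolynomial.rename Fin.castSucc a * (k : MvPolynomial (Fin (b + 1)) ℂ) *
          MvPolynomial.X (Fin.last b) ^ (k - 1) := by
      rw [map_mul, map_pow, psi_C, psi_X, map_mul, map_natCast]
    rw [← C_mul_X_pow_eq_monomial, derivative_C_mul_X_pow, h1, h2, Derivation.leibniz,
      pderiv_rename, smul_zero, add_zero, Derivation.leibniz_pow, MvPolynomial.pderiv_X_self,
      smul_eq_mul, nsmul_eq_mul, smul_eq_mul, mul_one]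
    ring

theorem aeval_psi {Ω : Type} [Field Ω] [Algebra ℂ Ω] {b : ℕ} (y : Fin b → Ω) (v : Ω)
    (Q : (MvPolynomial (Fin b) ℂ)[X]) :
    MvPolynomial.aeval (Fin.snoc y v : Fin (b + 1) → Ω) (psi b Q) =
      Q.eval₂ (MvPolynomial.aeval y).toRingHom v := by
  induction Q using Polynomial.induction_on' with
  | add p q hp hq => rw [map_add, map_add, hp, hq, eval₂_add]
  | monomial k a =>
    rw [← C_mul_X_pow_eq_monomial, map_mul, map_mul, map_pow, map_pow, psi_C, psi_X, eval₂_mul,
      eval₂_C, eval₂_pow, eval₂_X, MvPolynomial.aeval_X, Fin.snoc_last, MvPolynomial.aeval_rename]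
    congr 1
    show _ = MvPolynomial.aeval y a
    congr 1
    congr 1
    funext i
    simp

/-- F1 -/
theorem F1 {Ω : Type} [Field Ω] [Algebra ℂ Ω] (KK FF : IntermediateField ℂ Ω)
    (hle : FF ≤ KK) [Algebra.EssFiniteType ℂ KK] (hF : FF ≠ ⊥) :
    ∃ (b : ℕ) (y : Fin (b + 1) → Ω) (R : MvPolynomial (Fin (b + 1)) ℂ), 1 ≤ b ∧
      AlgebraicIndependent ℂ (fun k : Fin b => y k.castSucc) ∧
      IntermediateField.adjoin ℂ (Set.range y) = FF ∧ MvPolynomial.aeval y R = 0 ∧
      MvPolynomial.aeval y (MvPolynomial.pderiv (Fin.last b) R) ≠ 0 := by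
  -- `FF` is finitely generated
  have hess : Algebra.EssFiniteType ℂ FF := by
    have h1 : Algebra.EssFiniteType ℂ (IntermediateField.restrict hle) :=
      FG_259.essFiniteType_of_le (IntermediateField.restrict hle)
    have e : FF ≃ₐ[ℂ] IntermediateField.restrict hle :=
      IntermediateField.restrictAlgEquiv hle
    exact Algebra.EssFiniteType.of_surjective e.symm.toAlgHom e.symm.surjective
  obtain ⟨b, y, v, P, U, V, δ, hyT, hyI, -, hP, -, -, hδ, hUV, hall, -⟩ :=
    FG_259.prim_model ℂ FF ∅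
  have hval : ∀ Q : (MvPolynomial (Fin b) ℂ)[X],
      MvPolynomial.aeval (Fin.snoc (fun k => (y k : Ω)) (v : Ω) : Fin (b + 1) → Ω) (psi b Q) =
        ((Q.eval₂ (MvPolynomial.aeval y).toRingHom v : FF) : Ω) := by
    intro Q
    rw [aeval_psi]
    have h1 := Polynomial.hom_eval₂ Q (MvPolynomial.aeval y : MvPolynomial (Fin b) ℂ →ₐ[ℂ] FF).toRingHom
      (FF.val : FF →ₐ[ℂ] Ω).toRingHom v
    have h2 : (FF.val : FF →ₐ[ℂ] Ω).toRingHom.comp
        (MvPolynomial.aeval y : MvPolynomial (Fin b) ℂ →ₐ[ℂ] FF).toRingHom =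
        (MvPolynomial.aeval (fun k => (y k : Ω)) : MvPolynomial (Fin b) ℂ →ₐ[ℂ] Ω).toRingHom := by
      have h3 : (FF.val : FF →ₐ[ℂ] Ω).comp (MvPolynomial.aeval y) =
          MvPolynomial.aeval (fun k => (y k : Ω)) := by
        ext i
        simp
      exact congrArg AlgHom.toRingHom h3
    rw [h2] at h1
    exact h1.symm
  refine ⟨b, Fin.snoc (fun k => (y k : Ω)) (v : Ω), psi b P, ?_, ?_, ?_, ?_, ?_⟩
  · -- `1 ≤ b`
    by_contra hb
    have hb0 : b = 0 := by omega
    subst hb0
    apply hF
    have halg : Algebra.IsAlgebraic ℂ FF := by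
      have h1 := hyT.isAlgebraic
      have h2 : Algebra.adjoin ℂ (Set.range y) = ⊥ := by
        rw [Set.range_eq_empty, Algebra.adjoin_empty]
      rw [h2] at h1
      exact (Subalgebra.algebra_isAlgebraic_bot_left_iff (algebraMap ℂ FF).injective).1 h1
    exact IntermediateField.eq_bot_of_isAlgClosed_of_isAlgebraic FF
  · have h1 : (fun k : Fin b => (Fin.snoc (fun k => (y k : Ω)) (v : Ω) : Fin (b + 1) → Ω)
        k.castSucc) = fun k => FF.val (y k) := by
      funext k
      rw [Fin.snoc_castSucc]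
      rfl
    rw [h1]
    exact hyI.map' (f := FF.val) FF.val.injective
  · apply le_antisymm
    · rw [IntermediateField.adjoin_le_iff]
      rintro _ ⟨l, rfl⟩
      refine Fin.lastCases ?_ (fun k => ?_) l
      · show (Fin.snoc (fun k => (y k : Ω)) (v : Ω) : Fin (b + 1) → Ω) (Fin.last b) ∈ FF
        rw [Fin.snoc_last]
        exact v.2
      · show (Fin.snoc (fun k => (y k : Ω)) (v : Ω) : Fin (b + 1) → Ω) k.castSucc ∈ FF
        rw [Fin.snoc_castSucc]
        exact (y k).2
    · intro f hf
      obtain ⟨q, hq, R, hR⟩ := hall ⟨f, hf⟩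
      have hmem : ∀ Q : MvPolynomial (Fin (b + 1)) ℂ,
          MvPolynomial.aeval (Fin.snoc (fun k => (y k : Ω)) (v : Ω) : Fin (b + 1) → Ω) Q ∈
            IntermediateField.adjoin ℂ
              (Set.range (Fin.snoc (fun k => (y k : Ω)) (v : Ω) : Fin (b + 1) → Ω)) := by
        intro Q
        have h1 : MvPolynomial.aeval (Fin.snoc (fun k => (y k : Ω)) (v : Ω) : Fin (b + 1) → Ω) Q ∈
            Algebra.adjoin ℂ
              (Set.range (Fin.snoc (fun k => (y k : Ω)) (v : Ω) : Fin (b + 1) → Ω)) := by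
          rw [Algebra.adjoin_range_eq_range_aeval]
          exact ⟨Q, rfl⟩
        exact IntermediateField.algebra_adjoin_le_adjoin ℂ _ h1
      have h2 : ((MvPolynomial.aeval y q : FF) : Ω) * f =
          ((R.eval₂ (MvPolynomial.aeval y).toRingHom v : FF) : Ω) := congrArg Subtype.val hR
      have h3 : ((MvPolynomial.aeval y q : FF) : Ω) =
          MvPolynomial.aeval (Fin.snoc (fun k => (y k : Ω)) (v : Ω) : Fin (b + 1) → Ω)
            (psi b (C q)) := by
        rw [hval, eval₂_C]
        rfl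
      have h4 : ((MvPolynomial.aeval y q : FF) : Ω) ≠ 0 := by
        intro h0
        apply hq
        have h5 : (MvPolynomial.aeval y q : FF) = 0 := Subtype.ext h0
        exact (injective_iff_map_eq_zero _).1 hyI q h5
      have h5 : f = ((R.eval₂ (MvPolynomial.aeval y).toRingHom v : FF) : Ω) /
          ((MvPolynomial.aeval y q : FF) : Ω) := by
        rw [← h2]
        field_simp
      rw [h5, h3, ← hval]
      exact div_mem (hmem _) (hmem _)
  · rw [hval, hP]
    rfl
  · rw [pderiv_psi, hval]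
    intro h0
    have h1 : P.derivative.eval₂ (MvPolynomial.aeval y).toRingHom v = 0 := Subtype.ext h0
    have h2 := congrArg (Polynomial.eval₂ (MvPolynomial.aeval y).toRingHom v) hUV
    rw [eval₂_add, eval₂_mul, eval₂_mul, hP, h1, mul_zero, mul_zero, add_zero, eval₂_C] at h2
    exact hδ ((injective_iff_map_eq_zero _).1 hyI δ h2.symm)

end

end Crest.Agent.R273.YDf_945
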