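import Crest.Agent.R273.SteinF_794

/-!
# R273 (S0416), Part A, HALF 2 (helper945): the Stein domain, Jacobian absorbed in the divisor

* `shr D hu`    : same coordinates, the divisor `D.t` replaced by `D.t * u`
* `exists_D`    : `D : StD A P` with `1 ≤ D.m`, `D.S.U = nz D.t`, prescribed first coordinates,
                  contained in the nonvanishing loci of given sections, with frames of given bundles
-/

set_option autoImplicit false
set_option linter.unusedSectionVars false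

open Set Filter Topology
open scoped ContDiff

namespace Crest.Agent.R273.YDx1_945

open Crest.Agent.R275.Geo Crest.Agent.R275.Core144 Crest.Agent.R273.SteinA_794
open Crest.Agent.R273.SteinC_794 Crest.Agent.R273.SteinD_794 Crest.Agent.R273.SteinE_794
open Crest.Agent.R273.SteinF_794
open Crest.Agent.R273.Defs_333 (ProjD)
open Crest.Agent.R273.FS_333 (lb sec isHS_sec exists_sec_ne sec_eq)
open Crest.Agent.R273.TD3_733 (D2)

noncomputable section

variable {n : ℕ} {M : Type} [TopologicalSpace M] {A : Atl n M} {P : ProjD A}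

/-- nonvanishing locus of a product -/
theorem nz_mul {L L' : LB A} {s t : A.ι → M → ℂ} (hs : IsHS L univ s) (ht : IsHS L' univ t) :
    nz (s * t) = nz s ∩ nz t := by
  ext x
  obtain ⟨i, hi⟩ := A.cover x
  rw [mem_nz (hs.mul ht) hi, mem_inter_iff, mem_nz hs hi, mem_nz ht hi]
  exact mul_ne_zero_iff

/-- shrinking a Stein complement, same coordinates -/
def shr (D : StD A P) {j : ℕ} {u : A.ι → M → ℂ} (hu : IsHS (lb P ^ j) univ u) : StD A P where
  q := D.q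
  m := D.m + j
  t := D.t * u
  ht := by rw [pow_add]; exact D.ht.mul hu
  l0 := D.l0
  sub0 := (nz_mul_left D.ht hu).trans D.sub0
  subq := fun k => (nz_mul_left D.ht hu).trans (D.subq k)

section

variable (D : StD A P) {j : ℕ} {u : A.ι → M → ℂ} (hu : IsHS (lb P ^ j) univ u)

@[simp] theorem shr_q : (shr D hu).q = D.q := rfl
@[simp] theorem shr_m : (shr D hu).m = D.m + j := rfl
@[simp] theorem shr_t : (shr D hu).t = D.t * u := rfl
@[simp] theorem shr_l0 : (shr D hu).l0 = D.l0 := rfl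

theorem shr_z (k : Fin n) : (shr D hu).S.z k = D.S.z k := rfl

theorem shr_U : (shr D hu).S.U = D.S.U ∩ nz u := by
  ext x
  obtain ⟨i, hi⟩ := A.cover x
  rw [(shr D hu).mem_U hi, mem_inter_iff, D.mem_U hi, mem_nz hu hi]
  show D.t i x * u i x * jd A _ _ i x ≠ 0 ↔ D.t i x * jd A _ _ i x ≠ 0 ∧ u i x ≠ 0
  simp only [ne_eq, mul_eq_zero, not_or, shr_q]
  tauto

/-- shrinking keeps `S.U = nz t` -/
theorem shr_hU (hU : D.S.U = nz D.t) : (shr D hu).S.U = nz (shr D hu).t := by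
  rw [shr_U, hU, shr_t, nz_mul D.ht hu]

end

/-- **the Stein domain of HALF 2** -/
theorem exists_D [CompactSpace M] [T2Space M] [ConnectedSpace M] [Finite A.ι] (Pt : Part A)
    (hD : D2 A) (P : ProjD A) {κ : Type} [Fintype κ] (Lr : κ → LB A) (sr : κ → A.ι → M → ℂ)
    (hsr : ∀ k, IsHS (Lr k) univ (sr k)) (hsz : ∀ k, Nz0 A (sr k))
    {κ' : Type} [Fintype κ'] (Lf : κ' → LB A) {b : ℕ} (q : Fin b → QS A) {i1 : A.ι} {x1 : M}
    (hx1 : x1 ∈ (A.e i1).source) (hqt : ∀ k, (q k).t i1 x1 ≠ 0)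
    (hLI : LinearIndependent ℂ fun k => df A i1 (q k).fn x1) :
    ∃ (hb : b ≤ n) (D : StD A P), 1 ≤ D.m ∧ D.S.U = nz D.t ∧
      (∀ k : Fin b, D.q (Fin.castLE hb k) = q k) ∧
      D.S.U.Nonempty ∧ (∀ k, D.S.U ⊆ nz (sr k)) ∧ (∀ k, D.S.U ⊆ nz (q k).t) ∧
      D.S.U ⊆ nz (lin P D.l0) ∧
      ∀ j, ∃ σ, IsHS (Lf j) D.S.U σ ∧ ∀ i, ∀ x ∈ (A.e i).source, x ∈ D.S.U → σ i x ≠ 0 := by
  obtain ⟨hb, D, hq, hne, h1, h2, h3, h4⟩ :=
    exists_geom Pt hD P Lr sr hsr hsz Lf q hx1 hqt hLI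
  set J : A.ι → M → ℂ := jd A (fun k => (D.q k).s) (fun k => (D.q k).t) with hJ
  have hJS : IsHS (KB A * ∏ k, (D.q k).B ^ 2) univ J :=
    isHS_jd (fun k => (D.q k).hs) fun k => (D.q k).ht
  obtain ⟨x0, hx0⟩ := hne
  obtain ⟨i0, hi0⟩ := A.cover x0
  obtain ⟨m0, hm0⟩ := Crest.Agent.R273.SerE_945.gg_proj Pt hD P (KB A * ∏ k, (D.q k).B ^ 2)⁻¹
  obtain ⟨w, hw, hw0⟩ := hm0 (m0 + 1) (by omega) x0
  have hu : IsHS (lb P ^ (m0 + 1)) univ (J * w) := by
    have h := hJS.mul hw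
    rwa [mul_inv_cancel_left] at h
  have hDU : D.S.U = nz D.t ∩ nz J := by
    rw [D.U_eq]
    exact nz_mul D.ht hJS
  have hU' : (shr D hu).S.U = D.S.U ∩ nz w := by
    rw [shr_U, nz_mul hJS hw, hDU]
    ext x
    simp only [mem_inter_iff]
    tauto
  have hsub : (shr D hu).S.U ⊆ D.S.U := by rw [hU']; exact inter_subset_left
  refine ⟨hb, shr D hu, ?_, ?_, hq, ⟨x0, ?_⟩, fun k => hsub.trans (h1 k),
    fun k => hsub.trans (h2 k), hsub.trans h3, fun j => ?_⟩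
  · rw [shr_m]; omega
  · rw [hU', shr_t, nz_mul D.ht hu, nz_mul hJS hw, hDU]
    ext x
    simp only [mem_inter_iff]
    tauto
  · rw [hU']
    exact ⟨hx0, (mem_nz hw hi0).2 (hw0 i0 hi0)⟩
  · obtain ⟨σ, hσ, hσ0⟩ := h4 j
    refine ⟨σ, ⟨fun i => (hσ.hol i).mono hsub, fun i x hx => hσ.off i x hx,
      fun i j x hx hxU => hσ.tr i j x hx (hsub hxU)⟩, fun i x hx hxU => hσ0 i x hx (hsub hxU)⟩

end

end Crest.Agent.R273.YDx1_945
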