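import Crest.Agent.R273.YDx5_945
import Crest.Agent.R273.ChowQ_313
import Crest.Agent.R273.IndepB_597
import Crest.Agent.R273.Sg4_101

/-!
# R273 (S0416), Part A, HALF 2 (helper945): the choices exist
-/

set_option autoImplicit false
set_option linter.unusedSectionVars false

open Set Filter Topology Complex MeasureTheory
open scoped ContDiff Matrix ENNReal

namespace Crest.Agent.R273.YDx6_945

open Crest.Agent.R275.Geo Crest.Agent.R275.Core144 Crest.Agent.R275.GC293
open Crest.Agent.R273.SteinA_794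
open Crest.Agent.R273.SteinB_794 Crest.Agent.R273.SteinC_794 Crest.Agent.R273.SteinD_794
open Crest.Agent.R273.SteinE_794 Crest.Agent.R273.SteinF_794
open Crest.Agent.R273.Defs_333 (ProjD HM HM.wt HM.Semipos HasSec)
open Crest.Agent.R273.FS_333 (lb sec isHS_sec)
open Crest.Agent.R273.Mer769 Crest.Agent.R273.FF769
open Crest.Agent.R273.Cram_747 (TS)
open Crest.Agent.R273.Fock_243 (FI)
open Crest.Agent.R273.YDx1_945 Crest.Agent.R273.YDx3_945 Crest.Agent.R273.YDx5_945
open Crest.Agent.R273.TD3_733 (D2)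

noncomputable section

/-- F1 (helper259 / helper597) -/
def F1Stmt : Prop := ∀ {Ω : Type} [Field Ω] [Algebra ℂ Ω] (KK FF : IntermediateField ℂ Ω)
  (_ : FF ≤ KK) [Algebra.EssFiniteType ℂ KK] (_ : FF ≠ ⊥),
  ∃ (b : ℕ) (y : Fin (b + 1) → Ω) (R : MvPolynomial (Fin (b + 1)) ℂ), 1 ≤ b ∧
    AlgebraicIndependent ℂ (fun k : Fin b => y k.castSucc) ∧
    IntermediateField.adjoin ℂ (Set.range y) = FF ∧ MvPolynomial.aeval y R = 0 ∧
    MvPolynomial.aeval y (MvPolynomial.pderiv (Fin.last b) R) ≠ 0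

variable {n : ℕ} {M : Type} [TopologicalSpace M] {A : Atl n M}

/-- **all the choices of HALF 2 exist** -/
theorem exists_HD (hF1 : F1Stmt) [T2Space M] [CompactSpace M] [ConnectedSpace M] [Finite A.ι]
    (PA : Part A) (hD : D2 A) (P : ProjD A) {L : LB A} {r : ℕ} {K : Set ℕ} (hK : K.Infinite)
    {w : ℕ → A.ι → M → (Fin r → FI n) → ℂ} (ts : ∀ k ∈ K, TS (Fin r) (L ^ k) (w k))
    (ne : ∀ k ∈ K, w k ≠ 0) (prp : ∀ k ∈ K, ∀ l ∈ K, Cram_747.Prp (w k) (w l)) {a : ℕ}
    (ha : a ∈ K) (hFF : FF (ts a ha) (ne a ha) ≠ ⊥) : Nonempty (HD P L) := by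
  -- the second index
  obtain ⟨c, hc, hac⟩ := hK.exists_gt a
  obtain ⟨j, rfl⟩ := Nat.exists_eq_add_of_lt hac
  have hc' : a + (j + 1) ∈ K := hc
  -- the field
  have hess : Algebra.EssFiniteType ℂ (KK A) := Crest.Agent.R273.Chow_313.KK_ess PA hD P
  obtain ⟨b, y, R, hb1, hind, hgen, hR0, hR1⟩ :=
    hF1 (KK A) (FF (ts a ha) (ne a ha)) (FF_le_KK P (ts a ha) (ne a ha)) hFF
  have hy : ∀ l, y l ∈ FF (ts a ha) (ne a ha) := by
    intro l
    rw [← hgen]
    exact IntermediateField.subset_adjoin ℂ _ (Set.mem_range_self l)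
  -- common denominators
  obtain ⟨κ, i1, i2, i3, bb, mm, t0, τ, t, s, ht0, hτ, relτ, ht, htne, hs, rels, t0t⟩ :=
    exists_frac P (ts a ha) (ne a ha) y hy
  -- the pairing
  obtain ⟨m, β, b1, b2, b3, b4⟩ := exists_beta' P (ts a ha) (ne a ha)
  have hsa := b1 _ _ (ts a ha)
  have hsb := b1 _ _ (ts _ hc')
  have hab : ∀ i x F, β (w (a + (j + 1))) i x * w a i x F =
      β (w a) i x * w (a + (j + 1)) i x F := by
    intro i x F
    have h1 := b3 (w a i x F • w (a + (j + 1))) (w a) i x (w (a + (j + 1)) i x F) (by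
      funext G
      have h := prp a ha _ hc' i x F G
      show w a i x F * w (a + (j + 1)) i x G = w (a + (j + 1)) i x F * w a i x G
      rw [h, mul_comm])
    have h2 := b3 (w a i x F • w (a + (j + 1))) (w (a + (j + 1))) i x (w a i x F) rfl
    rw [h2] at h1
    rw [mul_comm, h1, mul_comm]
  have hz : ∀ (u : A.ι → M → (Fin r → FI n) → ℂ) (i : A.ι) (x : M), u i x = 0 → β u i x = 0 := by
    intro u i x h
    have h5 := b3 u u i x 0 (by rw [h, smul_zero])
    rw [h5, zero_mul]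
  have hsane := exists_ne hsa b4
  have htne' := exists_ne ht htne
  -- `sb ≠ 0`
  have hsbne : ∃ i, ∃ x ∈ (A.e i).source, β (w (a + (j + 1))) i x ≠ 0 := by
    obtain ⟨i0, x0, hi0, hx0⟩ := hsane
    have h1 := ((ts _ hc').dense_nz (ne _ hc')).inter_open_nonempty (nz (β (w a)))
      (isOpen_nz hsa) ⟨x0, (mem_nz hsa hi0).2 hx0⟩
    obtain ⟨x, hx, hx'⟩ := h1
    obtain ⟨i, hi⟩ := A.cover x
    refine ⟨i, x, hi, fun h0 => ?_⟩
    obtain ⟨F, hF⟩ := Function.ne_iff.1 ((ts _ hc').ne_of_nz hx' hi)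
    have h2 := hab i x F
    rw [h0, zero_mul] at h2
    rcases mul_eq_zero.1 h2.symm with h3 | h3
    · exact (mem_nz hsa hi).1 hx h3
    · exact hF h3
  -- independence of the differentials
  obtain ⟨i1', x1, hx1, hqt, hLI⟩ := Crest.Agent.R273.Indep_597.indep_qt P
    (Crest.Agent.R273.Sg4_101.trdeg_le A) (fun k : Fin b => hs k.castSucc) ht htne
    (fun k : Fin b => rels k.castSucc) hind
  -- the Stein complement
  let q : Fin b → QS A := fun k =>
    ⟨L ^ bb * lb P ^ mm, s k.castSucc, t, hs k.castSucc, ht⟩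
  obtain ⟨hbn, D, hDm, hDU, hDq, hDne, hDr, -, -, hDf⟩ := exists_D PA hD P
    (κ := Fin 3) (fun k => (![L ^ bb * lb P ^ mm, L ^ a * lb P ^ m,
      L ^ (a + (j + 1)) * lb P ^ m] : Fin 3 → LB A) k)
    (fun k => (![t, β (w a), β (w (a + (j + 1)))] : Fin 3 → A.ι → M → ℂ) k)
    (fun k => by fin_cases k <;> assumption) (fun k => by fin_cases k <;> assumption)
    (κ' := Unit) (fun _ => L) q hx1 (fun _ => hqt) hLI
  obtain ⟨σ, hσ, hσ0⟩ := hDf ()
  exact ⟨
    { r := r
      K := K
      Kinf := hK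
      w := w
      ts := ts
      ne := ne
      prp := prp
      a := a
      j0 := j + 1
      j0_pos := Nat.succ_pos j
      ha := ha
      hb := hc'
      b := b
      b_pos := hb1
      g := y
      R := R
      indep := hind
      gen := hgen
      R0 := hR0
      R1 := hR1
      κ := κ
      bb := bb
      mm := mm
      t0 := t0
      τ := τ
      t := t
      s := s
      ht0 := ht0
      hτ := hτ
      relτ := relτ
      ht := ht
      hs := hs
      rels := rels
      t0t := t0t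
      m := m
      sa := β (w a)
      sb := β (w (a + (j + 1)))
      hsa := hsa
      hsb := hsb
      hab := hab
      sa0 := fun i x h => hz _ i x h
      sb0 := fun i x h => hz _ i x h
      D := D
      hm := hDm
      hU := hDU
      hn := hbn
      hq := hDq
      Une := hDne
      Ut := hDr 0
      Usa := hDr 1
      Usb := hDr 2
      σ := σ
      hσ := hσ
      σ0 := hσ0 }⟩

/-- the field of `X : HD P L` is not `ℂ` -/
theorem FF_ne_bot [ConnectedSpace M] {P : ProjD A} {L : LB A} (X : HD P L) :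
    FF (X.ts X.a X.ha) (X.ne X.a X.ha) ≠ ⊥ := by
  intro h
  have h1 : X.g (Fin.castSucc ⟨0, X.b_pos⟩) ∈ FF (X.ts X.a X.ha) (X.ne X.a X.ha) := by
    rw [← X.gen]
    exact IntermediateField.subset_adjoin ℂ _ (Set.mem_range_self _)
  rw [h, IntermediateField.mem_bot] at h1
  obtain ⟨c, hc⟩ := h1
  have h2 := X.indep.transcendental ⟨0, X.b_pos⟩
  apply h2
  show IsAlgebraic ℂ (X.g (Fin.castSucc ⟨0, X.b_pos⟩))
  rw [← hc]
  exact isAlgebraic_algebraMap c

/-- the generators are in `FF` -/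
theorem g_mem [ConnectedSpace M] {P : ProjD A} {L : LB A} (X : HD P L) (l : Fin (X.b + 1)) :
    X.g l ∈ FF (X.ts X.a X.ha) (X.ne X.a X.ha) := by
  rw [← X.gen]
  exact IntermediateField.subset_adjoin ℂ _ (Set.mem_range_self l)

end

end Crest.Agent.R273.YDx6_945
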