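import Crest.Agent.R273.YDx6_945
import Crest.Agent.R273.YDf_945

/-!
# R273 (S0416), Part A, HALF 2 (helper945): `exists_HD` without hypothesis
-/

set_option autoImplicit false
set_option linter.unusedSectionVars false

open Set Filter Topology Complex MeasureTheory
open scoped ContDiff Matrix ENNReal

namespace Crest.Agent.R273.YDx7_945

open Crest.Agent.R275.Geo Crest.Agent.R275.Core144 Crest.Agent.R275.GC293
open Crest.Agent.R273.Defs_333 (ProjD HM HM.wt HM.Semipos HasSec)
open Crest.Agent.R273.Mer769 Crest.Agent.R273.FF769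
open Crest.Agent.R273.Cram_747 (TS)
open Crest.Agent.R273.Fock_243 (FI)
open Crest.Agent.R273.YDx5_945 Crest.Agent.R273.YDx6_945
open Crest.Agent.R273.TD3_733 (D2)

noncomputable section

theorem f1 : F1Stmt := fun KK FF hle _ hF => Crest.Agent.R273.YDf_945.F1 KK FF hle hF

variable {n : ℕ} {M : Type} [TopologicalSpace M] {A : Atl n M}

/-- **all the choices of HALF 2 exist** -/
theorem exists_HD' [T2Space M] [CompactSpace M] [ConnectedSpace M] [Finite A.ι]
    (PA : Part A) (hD : D2 A) (P : ProjD A) {L : LB A} {r : ℕ} {K : Set ℕ} (hK : K.Infinite)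
    {w : ℕ → A.ι → M → (Fin r → FI n) → ℂ} (ts : ∀ k ∈ K, TS (Fin r) (L ^ k) (w k))
    (ne : ∀ k ∈ K, w k ≠ 0) (prp : ∀ k ∈ K, ∀ l ∈ K, Cram_747.Prp (w k) (w l)) {a : ℕ}
    (ha : a ∈ K) (hFF : FF (ts a ha) (ne a ha) ≠ ⊥) : Nonempty (HD P L) :=
  exists_HD f1 PA hD P hK ts ne prp ha hFF

end

end Crest.Agent.R273.YDx7_945
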