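import Mathlib

/-!
Row 273 (S0416), Part C (Yau), helper812: the exact algebraic identities behind the second and
third order a priori estimates, for commuting derivations `D i` (= `∂_i`), `B j` (= `∂_{j̄}`) on a
commutative `ℂ`-algebra `R` (germs of smooth functions) with an evaluation `ev : R → ℂ`.

`G i j = D i (B j u)`, `H = G⁻¹`, `f = log det G`, i.e. `D f = tr (H · D G)`.
-/

set_option autoImplicit false

namespace Crest.Agent.R273.YJet_812

open Finset Matrix

/-- commuting derivations with an evaluation -/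
structure Jet (n : ℕ) (R : Type*) [CommRing R] [Algebra ℂ R] where
  D : Fin n → Derivation ℂ R R
  B : Fin n → Derivation ℂ R R
  DD : ∀ i j x, D i (D j x) = D j (D i x)
  BB : ∀ i j x, B i (B j x) = B j (B i x)
  DB : ∀ i j x, D i (B j x) = B j (D i x)
  ev : R →ₐ[ℂ] ℂ

variable {n : ℕ} {R : Type*} [CommRing R] [Algebra ℂ R]

/-- entrywise derivation -/
abbrev mD (d : Derivation ℂ R R) (A : Matrix (Fin n) (Fin n) R) : Matrix (Fin n) (Fin n) R :=
  A.map d

/-- entrywise evaluation -/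
abbrev mE (e : R →ₐ[ℂ] ℂ) (A : Matrix (Fin n) (Fin n) R) : Matrix (Fin n) (Fin n) ℂ :=
  A.map e

theorem mD_mul (d : Derivation ℂ R R) (A C : Matrix (Fin n) (Fin n) R) :
    mD d (A * C) = mD d A * C + A * mD d C := by
  ext i j
  simp only [mD, Matrix.map_apply, Matrix.mul_apply, Matrix.add_apply, map_sum, Derivation.leibniz,
    smul_eq_mul, ← Finset.sum_add_distrib]
  refine Finset.sum_congr rfl fun x _ => ?_
  ring

theorem mD_neg (d : Derivation ℂ R R) (A : Matrix (Fin n) (Fin n) R) :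
    mD d (-A) = - mD d A := by
  ext i j
  simp [mD]

theorem mD_add (d : Derivation ℂ R R) (A C : Matrix (Fin n) (Fin n) R) :
    mD d (A + C) = mD d A + mD d C := by
  ext i j
  simp [mD]

theorem mD_one (d : Derivation ℂ R R) : mD d (1 : Matrix (Fin n) (Fin n) R) = 0 := by
  ext i j
  by_cases h : i = j
  · subst h; simp [mD]
  · simp [mD, Matrix.one_apply_ne h]

theorem mE_mul (e : R →ₐ[ℂ] ℂ) (A C : Matrix (Fin n) (Fin n) R) :
    mE e (A * C) = mE e A * mE e C := by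
  simp only [mE]
  exact Matrix.map_mul (f := e.toRingHom)

theorem mE_add (e : R →ₐ[ℂ] ℂ) (A C : Matrix (Fin n) (Fin n) R) :
    mE e (A + C) = mE e A + mE e C := by
  ext i j; simp [mE]

theorem mE_neg (e : R →ₐ[ℂ] ℂ) (A : Matrix (Fin n) (Fin n) R) :
    mE e (-A) = - mE e A := by
  ext i j; simp [mE]

theorem trace_mD (d : Derivation ℂ R R) (A : Matrix (Fin n) (Fin n) R) :
    d (trace A) = trace (mD d A) := by
  simp [trace, mD, map_sum]

theorem trace_mE (e : R →ₐ[ℂ] ℂ) (A : Matrix (Fin n) (Fin n) R) :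
    e (trace A) = trace (mE e A) := by
  simp [trace, mE, map_sum]

/-- derivative of the inverse matrix -/
theorem mD_inv (d : Derivation ℂ R R) {G H : Matrix (Fin n) (Fin n) R} (h : G * H = 1) :
    mD d H = -(H * mD d G * H) := by
  have h' : H * G = 1 := mul_eq_one_comm.1 h
  have h1 : mD d (G * H) = 0 := by rw [h]; exact mD_one d
  rw [mD_mul] at h1
  have h2 : G * mD d H = -(mD d G * H) := by
    rw [eq_neg_iff_add_eq_zero, add_comm]; exact h1
  calc mD d H = (H * G) * mD d H := by rw [h', one_mul]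
    _ = H * (G * mD d H) := by rw [mul_assoc]
    _ = -(H * mD d G * H) := by rw [h2, mul_neg, mul_assoc]

variable {e : R →ₐ[ℂ] ℂ} {G H : Matrix (Fin n) (Fin n) R}

theorem ev_inv (h : G * H = 1) (hG : mE e G = 1) : mE e H = 1 := by
  have h1 : mE e (G * H) = mE e 1 := by rw [h]
  have h2 : mE e (1 : Matrix (Fin n) (Fin n) R) = 1 := by
    ext i j
    by_cases h : i = j
    · subst h; simp [mE]
    · simp [mE, Matrix.one_apply_ne h]
  rw [mE_mul, hG, one_mul, h2] at h1
  exact h1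

theorem ev_mD_inv (d : Derivation ℂ R R) (h : G * H = 1) (hG : mE e G = 1) :
    mE e (mD d H) = - mE e (mD d G) := by
  rw [mD_inv d h, mE_neg, mE_mul, mE_mul, ev_inv h hG, one_mul, mul_one]

theorem ev_mD2_inv (d d' : Derivation ℂ R R) (h : G * H = 1) (hG : mE e G = 1) :
    mE e (mD d' (mD d H)) = mE e (mD d' G) * mE e (mD d G) - mE e (mD d' (mD d G))
      + mE e (mD d G) * mE e (mD d' G) := by
  rw [mD_inv d h, mD_neg, mD_mul, mD_mul, mE_neg, mE_add, mE_mul, mE_add, mE_mul, mE_mul, mE_mul,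
    mE_mul, ev_inv h hG, ev_mD_inv d' h hG]
  simp only [mul_one, one_mul, neg_mul, mul_neg]
  abel

/-- second derivative of `log det` at a point where `G = 1` -/
theorem ev_log2 (d b : Derivation ℂ R R) {f : R} (h : G * H = 1) (hG : mE e G = 1)
    (hf : b f = trace (H * mD b G)) :
    e (d (b f)) = trace (mE e (mD d (mD b G))) - trace (mE e (mD d G) * mE e (mD b G)) := by
  rw [hf, trace_mD, trace_mE, mD_mul, mE_add, mE_mul, mE_mul, ev_inv h hG, ev_mD_inv d h hG,
    one_mul, trace_add, neg_mul, trace_neg]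
  ring

/-- third derivative of `log det` at a point where `G = 1` -/
theorem ev_log3 (d d' b : Derivation ℂ R R) {f : R} (h : G * H = 1) (hG : mE e G = 1)
    (hf : b f = trace (H * mD b G)) :
    e (d' (d (b f))) = trace (mE e (mD d' (mD d (mD b G))))
      - trace (mE e (mD d G) * mE e (mD d' (mD b G)))
      - trace (mE e (mD d' G) * mE e (mD d (mD b G)))
      + trace ((mE e (mD d' G) * mE e (mD d G) - mE e (mD d' (mD d G))
      + mE e (mD d G) * mE e (mD d' G)) * mE e (mD b G)) := by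
  rw [hf, trace_mD, trace_mD, trace_mE, mD_mul, mD_add, mD_mul, mD_mul]
  simp only [mE_add, mE_mul, ev_inv h hG, ev_mD_inv d h hG, ev_mD_inv d' h hG,
    ev_mD2_inv d d' h hG, trace_add, neg_mul, trace_neg, one_mul]
  ring

/-! ### Jacobi's formula -/

theorem d_prod {ι : Type*} [DecidableEq ι] (d : Derivation ℂ R R) (s : Finset ι) (f : ι → R) :
    d (∏ i ∈ s, f i) = ∑ i ∈ s, (∏ j ∈ s.erase i, f j) * d (f i) := by
  induction s using Finset.induction_on with
  | empty => simp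
  | insert a s ha ih =>
    rw [Finset.prod_insert ha, Derivation.leibniz, ih, Finset.sum_insert ha,
      Finset.erase_insert ha, smul_eq_mul, smul_eq_mul, Finset.mul_sum, add_comm]
    congr 1
    refine Finset.sum_congr rfl fun i hi => ?_
    have hne : a ≠ i := fun h => ha (h ▸ hi)
    rw [Finset.erase_insert_of_ne hne, Finset.prod_insert (fun h => ha (Finset.mem_of_mem_erase h))]
    ring

/-- Jacobi's formula -/
theorem d_det (d : Derivation ℂ R R) (A : Matrix (Fin n) (Fin n) R) :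
    d A.det = trace (A.adjugate * A.map d) := by
  have h1 : trace (A.adjugate * A.map d) = ∑ j, (A.updateCol j fun i => d (A i j)).det := by
    simp only [trace, Matrix.diag]
    refine Finset.sum_congr rfl fun j _ => ?_
    rw [← Matrix.cramer_apply, Matrix.cramer_eq_adjugate_mulVec]
    rfl
  rw [h1, Matrix.det_apply]
  simp only [map_sum, Matrix.det_apply]
  rw [Finset.sum_comm]
  refine Finset.sum_congr rfl fun σ _ => ?_
  rw [← Finset.smul_sum]
  have h2 : d (Equiv.Perm.sign σ • ∏ i, A (σ i) i) = Equiv.Perm.sign σ • d (∏ i, A (σ i) i) := by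
    rcases Int.units_eq_one_or (Equiv.Perm.sign σ) with h | h <;> rw [h] <;> simp
  rw [h2, d_prod]
  congr 1
  refine Finset.sum_congr rfl fun j _ => ?_
  rw [← Finset.prod_erase_mul _ _ (Finset.mem_univ j)]
  congr 1
  · refine Finset.prod_congr rfl fun i hi => ?_
    rw [Matrix.updateCol_ne (Finset.ne_of_mem_erase hi)]
  · rw [Matrix.updateCol_self]

theorem d_log {d : Derivation ℂ R R} {G H : Matrix (Fin n) (Fin n) R} (h : G * H = 1) :
    d G.det = G.det * trace (H * G.map d) := by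
  have h' : H * G = 1 := mul_eq_one_comm.1 h
  have h2 : G.adjugate = G.det • H := by
    calc G.adjugate = G.adjugate * (G * H) := by rw [h, mul_one]
      _ = (G.adjugate * G) * H := by rw [mul_assoc]
      _ = G.det • H := by rw [adjugate_mul]; simp
  rw [d_det, h2, smul_mul, trace_smul, smul_eq_mul]

/-! ### the jets of a potential -/

variable (J : Jet n R)

/-- the complex Hessian -/
def Jet.Gm (u : R) : Matrix (Fin n) (Fin n) R := Matrix.of fun i j => J.D i (J.B j u)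

theorem Jet.Gm_apply (u : R) (i j : Fin n) : J.Gm u i j = J.D i (J.B j u) := rfl

theorem Jet.DB_prod (q : Fin n) {g m v : R} (hm : J.B q m = 0) (hv : J.D q v = 0) :
    J.D q (J.B q (g * (m * v))) = J.D q (J.B q g) * m * v + J.B q g * J.D q m * v
      + J.D q g * m * J.B q v + g * J.D q m * J.B q v := by
  have h1 : J.D q (J.B q v) = 0 := by rw [J.DB, hv, map_zero]
  have h2 : J.B q (g * (m * v)) = J.B q g * m * v + g * m * J.B q v := by
    simp only [Derivation.leibniz, smul_eq_mul, hm]; ring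
  rw [h2, map_add]
  simp only [Derivation.leibniz, smul_eq_mul, hv, h1]
  ring

/-- **second order identity**: `Δ G(Z, Z̄) = ∂∂̄ log det G` at `O`, for the frame killing the first
derivatives of `G`. -/
theorem Jet.lap_g (u f : R) (H : Matrix (Fin n) (Fin n) R) (hH : J.Gm u * H = 1)
    (hG : mE J.ev (J.Gm u) = 1) (hf : ∀ p, J.B p f = trace (H * mD (J.B p) (J.Gm u)))
    (k p : Fin n) (M N : Fin n → R)
    (hM0 : ∀ x, J.ev (M x) = if k = x then 1 else 0)
    (hN0 : ∀ x, J.ev (N x) = if p = x then 1 else 0)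
    (hMB : ∀ q x, J.B q (M x) = 0) (hND : ∀ q x, J.D q (N x) = 0)
    (hMD : ∀ q x, J.ev (J.D q (M x)) = - J.ev (J.D q (J.Gm u k x)))
    (hNB : ∀ q x, J.ev (J.B q (N x)) = - J.ev (J.B q (J.Gm u x p))) :
    ∑ q, J.ev (J.D q (J.B q (∑ x, ∑ y, J.Gm u x y * (M x * N y)))) = J.ev (J.D k (J.B p f)) := by
  have hG' : ∀ x y, J.ev (J.Gm u x y) = if x = y then 1 else 0 := fun x y => by
    have := congrFun (congrFun hG x) y
    simpa [mE, Matrix.one_apply] using this
  rw [ev_log2 (J.D k) (J.B p) hH hG (hf p)]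
  have e1 : ∀ q, J.ev (J.D q (J.B q (∑ x, ∑ y, J.Gm u x y * (M x * N y))))
      = J.ev (J.D q (J.B q (J.Gm u k p)))
        - ∑ x, J.ev (J.D q (J.Gm u k x)) * J.ev (J.B q (J.Gm u x p)) := by
    intro q
    simp only [map_sum]
    have : ∀ x y, J.ev (J.D q (J.B q (J.Gm u x y * (M x * N y))))
      = J.ev (J.D q (J.B q (J.Gm u x y))) * (if k = x then 1 else 0) * (if p = y then 1 else 0)
        - J.ev (J.B q (J.Gm u x y)) * J.ev (J.D q (J.Gm u k x)) * (if p = y then 1 else 0)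
        - J.ev (J.D q (J.Gm u x y)) * (if k = x then 1 else 0) * J.ev (J.B q (J.Gm u y p))
        + (if x = y then 1 else 0) * J.ev (J.D q (J.Gm u k x)) * J.ev (J.B q (J.Gm u y p)) := by
      intro x y
      rw [J.DB_prod q (hMB q x) (hND q y)]
      simp only [map_add, map_mul, hM0, hN0, hMD, hNB, hG']
      ring
    simp only [this, Finset.sum_add_distrib, Finset.sum_sub_distrib, mul_ite, mul_one, mul_zero,
      ite_mul, zero_mul, one_mul, Finset.sum_ite_eq, Finset.mem_univ, if_true,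
      Finset.sum_ite_irrel, Finset.sum_const_zero]
    have e2 : ∑ x, J.ev (J.B q (J.Gm u x p)) * J.ev (J.D q (J.Gm u k x))
        = ∑ x, J.ev (J.D q (J.Gm u k x)) * J.ev (J.B q (J.Gm u x p)) :=
      Finset.sum_congr rfl fun x _ => mul_comm _ _
    rw [e2]
    ring
  simp only [e1, Finset.sum_sub_distrib]
  congr 1
  · simp only [trace, Matrix.diag, mE, mD, Matrix.map_apply]
    refine Finset.sum_congr rfl fun q _ => ?_
    simp only [J.Gm_apply, ← J.DB]
    rw [J.DD q k, J.BB q p]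
  · simp only [trace, Matrix.diag, mE, mD, Matrix.map_apply, Matrix.mul_apply]
    refine Finset.sum_congr rfl fun q _ => Finset.sum_congr rfl fun x _ => ?_
    simp only [J.Gm_apply, ← J.DB]
    rw [J.DD q k, J.BB q p]

/-- third derivatives of the potential -/
def Jet.T (u : R) (x y z : Fin n) : R := J.D x (J.D y (J.B z u))

theorem Jet.T_apply (u : R) (x y z : Fin n) : J.T u x y z = J.D x (J.D y (J.B z u)) := rfl

/-- **third order identity**: `Δ (u_{k i p̄})(Z, Z', W̄) = (log det G)_{k i p̄}` at `O`, for the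
frame killing the first derivatives of `G`. -/
theorem Jet.lap_T (u f : R) (H : Matrix (Fin n) (Fin n) R) (hH : J.Gm u * H = 1)
    (hG : mE J.ev (J.Gm u) = 1) (hf : ∀ p, J.B p f = trace (H * mD (J.B p) (J.Gm u)))
    (k i p : Fin n) (M M' N : Fin n → R)
    (hM0 : ∀ x, J.ev (M x) = if k = x then 1 else 0)
    (hM0' : ∀ x, J.ev (M' x) = if i = x then 1 else 0)
    (hN0 : ∀ x, J.ev (N x) = if p = x then 1 else 0)
    (hMB : ∀ q x, J.B q (M x) = 0) (hMB' : ∀ q x, J.B q (M' x) = 0)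
    (hND : ∀ q x, J.D q (N x) = 0)
    (hMD : ∀ q x, J.ev (J.D q (M x)) = - J.ev (J.D q (J.Gm u k x)))
    (hMD' : ∀ q x, J.ev (J.D q (M' x)) = - J.ev (J.D q (J.Gm u i x)))
    (hNB : ∀ q x, J.ev (J.B q (N x)) = - J.ev (J.B q (J.Gm u x p))) :
    ∑ q, J.ev (J.D q (J.B q (∑ x, ∑ y, ∑ z, J.T u x y z * ((M x * M' y) * N z))))
      = J.ev (J.D k (J.D i (J.B p f))) := by
  rw [ev_log3 (J.D i) (J.D k) (J.B p) hH hG (hf p)]
  have e1 : ∀ q, J.ev (J.D q (J.B q (∑ x, ∑ y, ∑ z, J.T u x y z * ((M x * M' y) * N z))))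
      = J.ev (J.D q (J.B q (J.T u k i p)))
        - ∑ x, J.ev (J.B q (J.T u x i p)) * J.ev (J.D q (J.Gm u k x))
        - ∑ y, J.ev (J.B q (J.T u k y p)) * J.ev (J.D q (J.Gm u i y))
        - ∑ z, J.ev (J.D q (J.T u k i z)) * J.ev (J.B q (J.Gm u z p))
        + ∑ x, ∑ z, J.ev (J.T u x i z) * J.ev (J.D q (J.Gm u k x)) * J.ev (J.B q (J.Gm u z p))
        + ∑ y, ∑ z, J.ev (J.T u k y z) * J.ev (J.D q (J.Gm u i y)) * J.ev (J.B q (J.Gm u z p)) := by
    intro q
    simp only [map_sum]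
    have : ∀ x y z, J.ev (J.D q (J.B q (J.T u x y z * ((M x * M' y) * N z))))
      = J.ev (J.D q (J.B q (J.T u x y z))) * (if k = x then 1 else 0) * (if i = y then 1 else 0)
          * (if p = z then 1 else 0)
        - J.ev (J.B q (J.T u x y z)) * J.ev (J.D q (J.Gm u k x)) * (if i = y then 1 else 0)
          * (if p = z then 1 else 0)
        - J.ev (J.B q (J.T u x y z)) * J.ev (J.D q (J.Gm u i y)) * (if k = x then 1 else 0)
          * (if p = z then 1 else 0)
        - J.ev (J.D q (J.T u x y z)) * (if k = x then 1 else 0) * (if i = y then 1 else 0)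
          * J.ev (J.B q (J.Gm u z p))
        + J.ev (J.T u x y z) * J.ev (J.D q (J.Gm u k x)) * (if i = y then 1 else 0)
          * J.ev (J.B q (J.Gm u z p))
        + J.ev (J.T u x y z) * J.ev (J.D q (J.Gm u i y)) * (if k = x then 1 else 0)
          * J.ev (J.B q (J.Gm u z p)) := by
      intro x y z
      have hm : J.B q (M x * M' y) = 0 := by
        simp only [Derivation.leibniz, smul_eq_mul, hMB, hMB']; ring
      have hm2 : J.D q (M x * M' y) = M x * J.D q (M' y) + M' y * J.D q (M x) := by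
        simp only [Derivation.leibniz, smul_eq_mul]
      rw [J.DB_prod q hm (hND q z), hm2]
      simp only [map_add, map_mul, hM0, hM0', hN0, hMD, hMD', hNB]
      ring
    simp only [this, Finset.sum_add_distrib, Finset.sum_sub_distrib, mul_ite, mul_one, mul_zero,
      ite_mul, zero_mul, Finset.sum_ite_eq, Finset.mem_univ, if_true,
      Finset.sum_ite_irrel, Finset.sum_const_zero]
  simp only [e1, Finset.sum_sub_distrib, Finset.sum_add_distrib]
  have t1 : trace (mE J.ev (mD (J.D k) (mD (J.D i) (mD (J.B p) (J.Gm u)))))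
      = ∑ q, J.ev (J.D q (J.B q (J.T u k i p))) := by
    simp only [trace, Matrix.diag, mE, mD, Matrix.map_apply]
    refine Finset.sum_congr rfl fun q _ => ?_
    simp only [J.Gm_apply, J.T_apply, ← J.DB]
    rw [J.BB p q, J.DD i q, J.DD k q]
  have t2 : ∀ i k : Fin n, trace (mE J.ev (mD (J.D i) (J.Gm u))
        * mE J.ev (mD (J.D k) (mD (J.B p) (J.Gm u))))
      = ∑ q, ∑ y, J.ev (J.B q (J.T u k y p)) * J.ev (J.D q (J.Gm u i y)) := by
    intro i k
    simp only [trace, Matrix.diag, mE, mD, Matrix.map_apply, Matrix.mul_apply]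
    refine Finset.sum_congr rfl fun q _ => Finset.sum_congr rfl fun y _ => ?_
    simp only [J.Gm_apply, J.T_apply, ← J.DB]
    rw [J.BB p q, J.DD i q, mul_comm]
  have t3 : ∑ q, ∑ x, J.ev (J.B q (J.T u x i p)) * J.ev (J.D q (J.Gm u k x))
      = ∑ q, ∑ x, J.ev (J.B q (J.T u i x p)) * J.ev (J.D q (J.Gm u k x)) := by
    refine Finset.sum_congr rfl fun q _ => Finset.sum_congr rfl fun y _ => ?_
    simp only [J.T_apply]
    rw [J.DD y i]
  have t4 : trace (mE J.ev (mD (J.D k) (mD (J.D i) (J.Gm u))) * mE J.ev (mD (J.B p) (J.Gm u)))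
      = ∑ q, ∑ z, J.ev (J.D q (J.T u k i z)) * J.ev (J.B q (J.Gm u z p)) := by
    simp only [trace, Matrix.diag, mE, mD, Matrix.map_apply, Matrix.mul_apply]
    refine Finset.sum_congr rfl fun q _ => Finset.sum_congr rfl fun z _ => ?_
    simp only [J.Gm_apply, J.T_apply, ← J.DB]
    rw [J.BB p q, J.DD i q, J.DD k q]
  have t5 : ∀ i k : Fin n, trace (mE J.ev (mD (J.D k) (J.Gm u)) * mE J.ev (mD (J.D i) (J.Gm u))
        * mE J.ev (mD (J.B p) (J.Gm u)))
      = ∑ q, ∑ x, ∑ z, J.ev (J.D q (J.Gm u k x)) * J.ev (J.T u i x z)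
        * J.ev (J.B q (J.Gm u z p)) := by
    intro i k
    simp only [trace, Matrix.diag, mE, mD, Matrix.map_apply, Matrix.mul_apply]
    refine Finset.sum_congr rfl fun q _ => ?_
    simp only [Finset.sum_mul]
    rw [Finset.sum_comm]
    refine Finset.sum_congr rfl fun x _ => Finset.sum_congr rfl fun z _ => ?_
    simp only [J.Gm_apply, J.T_apply, ← J.DB]
    rw [J.BB p q, J.DD k q]
  have t6 : ∑ q, ∑ x, ∑ z, J.ev (J.T u x i z) * J.ev (J.D q (J.Gm u k x))
        * J.ev (J.B q (J.Gm u z p)) = ∑ q, ∑ x, ∑ z, J.ev (J.D q (J.Gm u k x))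
        * J.ev (J.T u i x z) * J.ev (J.B q (J.Gm u z p)) := by
    refine Finset.sum_congr rfl fun q _ => Finset.sum_congr rfl fun x _ =>
      Finset.sum_congr rfl fun z _ => ?_
    simp only [J.T_apply]
    rw [J.DD x i]
    ring
  have t7 : ∑ q, ∑ y, ∑ z, J.ev (J.T u k y z) * J.ev (J.D q (J.Gm u i y))
        * J.ev (J.B q (J.Gm u z p)) = ∑ q, ∑ x, ∑ z, J.ev (J.D q (J.Gm u i x))
        * J.ev (J.T u k x z) * J.ev (J.B q (J.Gm u z p)) := by
    refine Finset.sum_congr rfl fun q _ => Finset.sum_congr rfl fun x _ =>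
      Finset.sum_congr rfl fun z _ => ?_
    ring
  rw [t1, t2 i k, t2 k i, t3, t6, t7, add_mul, sub_mul, trace_add, trace_sub, t4, t5 i k, t5 k i]
  ring

/-- `Δ (u_{v v̄}) = (log det G)_{v v̄} + |∂_v G|²` at `O` -/
theorem Jet.lap_const (u f : R) (H : Matrix (Fin n) (Fin n) R) (hH : J.Gm u * H = 1)
    (hG : mE J.ev (J.Gm u) = 1) (d b : Derivation ℂ R R)
    (hdD : ∀ q x, d (J.D q x) = J.D q (d x)) (hdB : ∀ q x, d (J.B q x) = J.B q (d x))
    (hbD : ∀ q x, b (J.D q x) = J.D q (b x)) (hbB : ∀ q x, b (J.B q x) = J.B q (b x))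
    (hf : b f = trace (H * mD b (J.Gm u))) :
    ∑ q, J.ev (J.D q (J.B q (d (b u)))) = J.ev (d (b f))
      + ∑ x, ∑ y, J.ev (J.D x (J.B y (d u))) * J.ev (J.D y (J.B x (b u))) := by
  rw [ev_log2 d b hH hG hf]
  have t1 : trace (mE J.ev (mD d (mD b (J.Gm u)))) = ∑ q, J.ev (J.D q (J.B q (d (b u)))) := by
    simp only [trace, Matrix.diag, mE, mD, Matrix.map_apply]
    refine Finset.sum_congr rfl fun q _ => ?_
    simp only [J.Gm_apply, hbD, hbB, hdD, hdB]
  have t2 : trace (mE J.ev (mD d (J.Gm u)) * mE J.ev (mD b (J.Gm u)))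
      = ∑ x, ∑ y, J.ev (J.D x (J.B y (d u))) * J.ev (J.D y (J.B x (b u))) := by
    simp only [trace, Matrix.diag, mE, mD, Matrix.map_apply, Matrix.mul_apply]
    refine Finset.sum_congr rfl fun q _ => Finset.sum_congr rfl fun y _ => ?_
    simp only [J.Gm_apply, hbD, hbB, hdD, hdB]
  rw [t1, t2]
  ring

/-! ### linear combinations of the frame -/

theorem swap2 {ι A : Type*} [Fintype ι] [AddCommMonoid A] (F : ι → ι → ι → ι → A) :
    ∑ x, ∑ y, ∑ k, ∑ p, F x y k p = ∑ k, ∑ p, ∑ x, ∑ y, F x y k p := by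
  calc ∑ x, ∑ y, ∑ k, ∑ p, F x y k p
      = ∑ a : ι × ι, ∑ b : ι × ι, F a.1 a.2 b.1 b.2 := by simp only [Fintype.sum_prod_type]
    _ = ∑ b : ι × ι, ∑ a : ι × ι, F a.1 a.2 b.1 b.2 := Finset.sum_comm
    _ = _ := by simp only [Fintype.sum_prod_type]

theorem swap3 {ι A : Type*} [Fintype ι] [AddCommMonoid A] (F : ι → ι → ι → ι → ι → ι → A) :
    ∑ x, ∑ y, ∑ z, ∑ k, ∑ i, ∑ p, F x y z k i p = ∑ k, ∑ i, ∑ p, ∑ x, ∑ y, ∑ z, F x y z k i p := by
  calc ∑ x, ∑ y, ∑ z, ∑ k, ∑ i, ∑ p, F x y z k i p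
      = ∑ a : ι × ι × ι, ∑ b : ι × ι × ι, F a.1 a.2.1 a.2.2 b.1 b.2.1 b.2.2 := by
        simp only [Fintype.sum_prod_type]
    _ = ∑ b : ι × ι × ι, ∑ a : ι × ι × ι, F a.1 a.2.1 a.2.2 b.1 b.2.1 b.2.2 := Finset.sum_comm
    _ = _ := by simp only [Fintype.sum_prod_type]

/-- a frame `M` (holomorphic) and its conjugate `N` killing the first derivatives of `G` at `O` -/
structure Fr (J : Jet n R) (u : R) where
  M : Fin n → Fin n → R
  N : Fin n → Fin n → R
  M0 : ∀ k x, J.ev (M k x) = if k = x then 1 else 0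
  N0 : ∀ k x, J.ev (N k x) = if k = x then 1 else 0
  MB : ∀ k q x, J.B q (M k x) = 0
  ND : ∀ k q x, J.D q (N k x) = 0
  MD : ∀ k q x, J.ev (J.D q (M k x)) = - J.ev (J.D q (J.Gm u k x))
  NB : ∀ k q x, J.ev (J.B q (N k x)) = - J.ev (J.B q (J.Gm u x k))

variable {J} {u : R} (Φ : Fr J u)

/-- the components of the field `Z` -/
def Fr.Z (c : Fin n → ℂ) (x : Fin n) : R := ∑ k, c k • Φ.M k x

/-- the components of the conjugate field -/
def Fr.Y (c : Fin n → ℂ) (x : Fin n) : R := ∑ k, c k • Φ.N k x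

/-- `G(Z, Y)` -/
def Fr.g (c c' : Fin n → ℂ) : R := ∑ x, ∑ y, J.Gm u x y * (Φ.Z c x * Φ.Y c' y)

/-- `T(Z, Z', Y)` -/
def Fr.t (c c' c'' : Fin n → ℂ) : R :=
  ∑ x, ∑ y, ∑ z, J.T u x y z * ((Φ.Z c x * Φ.Z c' y) * Φ.Y c'' z)

theorem Fr.g_eq (c c' : Fin n → ℂ) : Φ.g c c'
    = ∑ k, ∑ p, (c k * c' p) • ∑ x, ∑ y, J.Gm u x y * (Φ.M k x * Φ.N p y) := by
  have h : ∀ x y, J.Gm u x y * (Φ.Z c x * Φ.Y c' y)
      = ∑ k, ∑ p, (c k * c' p) • (J.Gm u x y * (Φ.M k x * Φ.N p y)) := by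
    intro x y
    rw [Fr.Z, Fr.Y, Finset.sum_mul_sum, Finset.mul_sum]
    refine Finset.sum_congr rfl fun k _ => ?_
    rw [Finset.mul_sum]
    refine Finset.sum_congr rfl fun p _ => ?_
    rw [smul_mul_smul_comm, mul_smul_comm]
  simp only [Fr.g, h]
  rw [swap2 (fun x y k p => (c k * c' p) • (J.Gm u x y * (Φ.M k x * Φ.N p y)))]
  simp only [Finset.smul_sum]

theorem Fr.t_eq (c c' c'' : Fin n → ℂ) : Φ.t c c' c''
    = ∑ k, ∑ i, ∑ p, (c k * c' i * c'' p) •
        ∑ x, ∑ y, ∑ z, J.T u x y z * ((Φ.M k x * Φ.M i y) * Φ.N p z) := by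
  have h : ∀ x y z, J.T u x y z * ((Φ.Z c x * Φ.Z c' y) * Φ.Y c'' z)
      = ∑ k, ∑ i, ∑ p, (c k * c' i * c'' p) •
        (J.T u x y z * ((Φ.M k x * Φ.M i y) * Φ.N p z)) := by
    intro x y z
    rw [Fr.Z, Fr.Z, Fr.Y, Finset.sum_mul_sum, Finset.sum_mul, Finset.mul_sum]
    refine Finset.sum_congr rfl fun k _ => ?_
    rw [Finset.sum_mul_sum, Finset.mul_sum]
    refine Finset.sum_congr rfl fun i _ => ?_
    rw [Finset.mul_sum]
    refine Finset.sum_congr rfl fun p _ => ?_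
    rw [smul_mul_smul_comm, smul_mul_smul_comm, mul_smul_comm]
  simp only [Fr.t, h]
  rw [swap3 (fun x y z k i p => (c k * c' i * c'' p) •
        (J.T u x y z * ((Φ.M k x * Φ.M i y) * Φ.N p z)))]
  simp only [Finset.smul_sum]

theorem Fr.lap_g {f : R} {H : Matrix (Fin n) (Fin n) R} (hH : J.Gm u * H = 1)
    (hG : mE J.ev (J.Gm u) = 1) (hf : ∀ p, J.B p f = trace (H * mD (J.B p) (J.Gm u)))
    (c c' : Fin n → ℂ) :
    ∑ q, J.ev (J.D q (J.B q (Φ.g c c'))) = ∑ k, ∑ p, c k * c' p * J.ev (J.D k (J.B p f)) := by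
  rw [Φ.g_eq]
  simp only [map_sum, Derivation.map_smul, map_smul, smul_eq_mul]
  rw [Finset.sum_comm]
  refine Finset.sum_congr rfl fun k _ => ?_
  rw [Finset.sum_comm]
  refine Finset.sum_congr rfl fun p _ => ?_
  rw [← J.lap_g u f H hH hG hf k p (Φ.M k) (Φ.N p) (Φ.M0 k) (Φ.N0 p) (Φ.MB k) (Φ.ND p) (Φ.MD k)
    (Φ.NB p), Finset.mul_sum]
  simp only [map_sum]

theorem Fr.lap_t {f : R} {H : Matrix (Fin n) (Fin n) R} (hH : J.Gm u * H = 1)
    (hG : mE J.ev (J.Gm u) = 1) (hf : ∀ p, J.B p f = trace (H * mD (J.B p) (J.Gm u)))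
    (c c' c'' : Fin n → ℂ) :
    ∑ q, J.ev (J.D q (J.B q (Φ.t c c' c'')))
      = ∑ k, ∑ i, ∑ p, c k * c' i * c'' p * J.ev (J.D k (J.D i (J.B p f))) := by
  rw [Φ.t_eq]
  simp only [map_sum, Derivation.map_smul, map_smul, smul_eq_mul]
  rw [Finset.sum_comm]
  refine Finset.sum_congr rfl fun k _ => ?_
  rw [Finset.sum_comm]
  refine Finset.sum_congr rfl fun i _ => ?_
  rw [Finset.sum_comm]
  refine Finset.sum_congr rfl fun p _ => ?_
  rw [← J.lap_T u f H hH hG hf k i p (Φ.M k) (Φ.M i) (Φ.N p) (Φ.M0 k) (Φ.M0 i) (Φ.N0 p) (Φ.MB k)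
    (Φ.MB i) (Φ.ND p) (Φ.MD k) (Φ.MD i) (Φ.NB p), Finset.mul_sum]
  simp only [map_sum]

theorem Fr.ev_g (hG : mE J.ev (J.Gm u) = 1) (c c' : Fin n → ℂ) :
    J.ev (Φ.g c c') = ∑ k, c k * c' k := by
  have hG' : ∀ x y, J.ev (J.Gm u x y) = if x = y then 1 else 0 := fun x y => by
    have := congrFun (congrFun hG x) y
    simpa [mE, Matrix.one_apply] using this
  simp only [Fr.g, Fr.Z, Fr.Y, map_sum, map_mul, map_smul, hG', Φ.M0, Φ.N0, smul_eq_mul, mul_ite,
    mul_one, mul_zero, ite_mul, one_mul, zero_mul, Finset.sum_ite_eq', Finset.sum_ite_eq,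
    Finset.mem_univ, if_true]

theorem Fr.ev_t (c c' c'' : Fin n → ℂ) :
    J.ev (Φ.t c c' c'') = ∑ k, ∑ i, ∑ p, c k * c' i * c'' p * J.ev (J.T u k i p) := by
  simp only [Fr.t, Fr.Z, Fr.Y, map_sum, map_mul, map_smul, Φ.M0, Φ.N0, smul_eq_mul, mul_ite,
    mul_one, mul_zero, Finset.sum_ite_eq', Finset.mem_univ, if_true]
  refine Finset.sum_congr rfl fun k _ => Finset.sum_congr rfl fun i _ =>
    Finset.sum_congr rfl fun p _ => ?_
  ring

theorem Fr.D_g (hG : mE J.ev (J.Gm u) = 1) (c c' : Fin n → ℂ) (q : Fin n) :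
    J.ev (J.D q (Φ.g c c')) = 0 := by
  have hG' : ∀ x y, J.ev (J.Gm u x y) = if x = y then 1 else 0 := fun x y => by
    have := congrFun (congrFun hG x) y
    simpa [mE, Matrix.one_apply] using this
  have key : ∀ k p, J.ev (J.D q (∑ x, ∑ y, J.Gm u x y * (Φ.M k x * Φ.N p y))) = 0 := by
    intro k p
    simp only [map_sum, Derivation.leibniz, smul_eq_mul, Φ.ND, mul_zero, zero_add,
      map_mul, map_add, hG', Φ.M0, Φ.N0, Φ.MD]
    simp only [mul_ite, mul_one, mul_zero, ite_mul, one_mul, zero_mul, Finset.sum_ite_eq,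
      Finset.mem_univ, if_true, Finset.sum_add_distrib, mul_neg, Finset.sum_neg_distrib,
      Finset.sum_ite_irrel, Finset.sum_const_zero, Finset.sum_ite_eq']
    ring
  rw [Φ.g_eq]
  simp only [map_sum, Derivation.map_smul, map_smul, smul_eq_mul]
  refine Finset.sum_eq_zero fun k _ => Finset.sum_eq_zero fun p _ => ?_
  have := key k p
  simp only [map_sum] at this
  rw [this, mul_zero]

theorem Fr.B_g (hG : mE J.ev (J.Gm u) = 1) (c c' : Fin n → ℂ) (q : Fin n) :
    J.ev (J.B q (Φ.g c c')) = 0 := by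
  have hG' : ∀ x y, J.ev (J.Gm u x y) = if x = y then 1 else 0 := fun x y => by
    have := congrFun (congrFun hG x) y
    simpa [mE, Matrix.one_apply] using this
  have key : ∀ k p, J.ev (J.B q (∑ x, ∑ y, J.Gm u x y * (Φ.M k x * Φ.N p y))) = 0 := by
    intro k p
    simp only [map_sum, Derivation.leibniz, smul_eq_mul, Φ.MB, mul_zero, add_zero,
      map_mul, map_add, hG', Φ.M0, Φ.N0, Φ.NB]
    simp only [mul_ite, mul_one, mul_zero, ite_mul, one_mul, zero_mul, Finset.sum_ite_eq,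
      Finset.mem_univ, if_true, Finset.sum_add_distrib, mul_neg, Finset.sum_neg_distrib,
      Finset.sum_ite_irrel, Finset.sum_const_zero, Finset.sum_ite_eq']
    ring
  rw [Φ.g_eq]
  simp only [map_sum, Derivation.map_smul, map_smul, smul_eq_mul]
  refine Finset.sum_eq_zero fun k _ => Finset.sum_eq_zero fun p _ => ?_
  have := key k p
  simp only [map_sum] at this
  rw [this, mul_zero]

end Crest.Agent.R273.YJet_812
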