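import Crest.Agent.R273.YauTop_635
import Crest.Agent.R273.C2f_793
import Crest.Agent.R273.YauC3_812

/-!
# R273 (S0416): the theorem of Yau, unconditional (helper635, with 793, 812, 933)
-/

set_option autoImplicit false

namespace Crest.Agent.R273.YauFin_635

/-- **Yau** -/
theorem yau : Crest.Agent.R273.YauDefs_635.YauStmt :=
  Crest.Agent.R273.YauTop_635.yau_of Crest.Agent.R273.C2f_793.c2_holds
    Crest.Agent.R273.YauC3_812.c3Stmt

end Crest.Agent.R273.YauFin_635
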