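import Mathlib

/-!
# R273 (S0416), Part C, YAU (helper635): limits of `C^{2,a}` bounded sequences along ultrafilters

`lim_c2` : if `v k` are `C²` on a ball of a finite dimensional space with `‖D²v‖ ≤ S`, `D²v`
`a`-Hölder with constant `S` and `|v| ≤ S`, then the pointwise limit along an ultrafilter is `C²` on
the smaller ball, with Hölder second derivative, and the second derivatives converge pointwise.
-/

set_option autoImplicit false
set_option linter.unusedSectionVars false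

open Set Filter Topology Metric
open scoped ContDiff

namespace Crest.Agent.R273.YauLim_635

variable {E : Type*} [NormedAddCommGroup E] [NormedSpace ℝ E]
variable {F : Type*} [NormedAddCommGroup F] [NormedSpace ℝ F]

/-- bounded sequences in proper spaces have limits along ultrafilters -/
theorem exists_lim [FiniteDimensional ℝ F] (U : Ultrafilter ℕ) {x : ℕ → F} {S : ℝ}
    (h : ∀ k, ‖x k‖ ≤ S) : ∃ y, Tendsto x U (𝓝 y) := by
  have : ProperSpace F := FiniteDimensional.proper ℝ F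
  have hc : IsCompact (closedBall (0 : F) S) := isCompact_closedBall _ _
  obtain ⟨y, -, hy⟩ := hc.ultrafilter_le_nhds (U.map x) (by
    rw [le_principal_iff]
    exact Ultrafilter.mem_coe.2 (by
      have : x ⁻¹' (closedBall (0 : F) S) = univ := by
        ext k; simp [h k]
      rw [Ultrafilter.mem_map, this]; exact univ_mem))
  exact ⟨y, hy⟩

/-- Taylor estimate with Hölder derivative on a convex set -/
theorem taylor_holder {f : E → F} {s : Set E} (hs : Convex ℝ s) {a S : ℝ} (ha : 0 ≤ a)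
    (hd : ∀ z ∈ s, DifferentiableAt ℝ f z)
    (hS : ∀ z ∈ s, ∀ w ∈ s, ‖fderiv ℝ f z - fderiv ℝ f w‖ ≤ S * ‖z - w‖ ^ a)
    {z w : E} (hz : z ∈ s) (hw : w ∈ s) :
    ‖f w - f z - fderiv ℝ f z (w - z)‖ ≤ S * ‖w - z‖ ^ a * ‖w - z‖ := by
  have hseg : segment ℝ z w ⊆ s := hs.segment_subset hz hw
  have hS0 : z ≠ w → 0 ≤ S := by
    intro hzw
    have h1 := (norm_nonneg _).trans (hS z hz w hw)
    have h2 : 0 < ‖z - w‖ ^ a := Real.rpow_pos_of_pos (norm_pos_iff.2 (sub_ne_zero.2 hzw)) a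
    exact nonneg_of_mul_nonneg_left h1 h2
  rcases eq_or_ne z w with rfl | hzw
  · simp
  have h1 : ∀ x ∈ segment ℝ z w, HasFDerivWithinAt (fun x => f x - fderiv ℝ f z x)
      (fderiv ℝ f x - fderiv ℝ f z) (segment ℝ z w) x := fun x hx =>
    ((hd x (hseg hx)).hasFDerivAt.sub (fderiv ℝ f z).hasFDerivAt).hasFDerivWithinAt
  have h2 : ∀ x ∈ segment ℝ z w, ‖fderiv ℝ f x - fderiv ℝ f z‖ ≤ S * ‖w - z‖ ^ a := by
    intro x hx
    refine (hS x (hseg hx) z hz).trans ?_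
    refine mul_le_mul_of_nonneg_left ?_ (hS0 hzw)
    refine Real.rpow_le_rpow (norm_nonneg _) ?_ ha
    have := segment_subset_closedBall_left z w hx
    rw [mem_closedBall, dist_eq_norm] at this
    rwa [dist_eq_norm, norm_sub_rev z w] at this
  have h3 := (convex_segment z w).norm_image_sub_le_of_norm_hasFDerivWithin_le h1 h2
    (left_mem_segment ℝ z w) (right_mem_segment ℝ z w)
  have h4 : f w - f z - fderiv ℝ f z (w - z) = f w - fderiv ℝ f z w - (f z - fderiv ℝ f z z) := by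
    rw [map_sub]; abel
  rw [h4]
  exact h3

/-- an estimate `‖f w - f z - L (w - z)‖ ≤ S ‖w - z‖^(1 + a)` gives the derivative -/
theorem hasFDerivAt_of_taylor {f : E → F} {L : E →L[ℝ] F} {z : E} {s : Set E} (hs : s ∈ 𝓝 z)
    {a S : ℝ} (ha : 0 < a) (h : ∀ w ∈ s, ‖f w - f z - L (w - z)‖ ≤ S * ‖w - z‖ ^ a * ‖w - z‖) :
    HasFDerivAt f L z := by
  rw [hasFDerivAt_iff_isLittleO, Asymptotics.isLittleO_iff]
  intro c hc
  have h1 : Tendsto (fun w : E => S * ‖w - z‖ ^ a) (𝓝 z) (𝓝 0) := by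
    have h2 : Continuous fun w : E => S * ‖w - z‖ ^ a :=
      continuous_const.mul ((continuous_norm.comp (continuous_id.sub continuous_const)).rpow_const
        fun _ => Or.inr ha.le)
    have h3 := h2.tendsto z
    simpa [Real.zero_rpow ha.ne'] using h3
  filter_upwards [hs, h1.eventually (gt_mem_nhds hc)] with w hw hw2
  exact (h w hw).trans (mul_le_mul_of_nonneg_right hw2.le (norm_nonneg _))

/-- limits of `C^{1,a}` bounded sequences -/
theorem lim_c1 (U : Ultrafilter ℕ) {z₀ : E} {r a S : ℝ} (ha : 0 < a)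
    {v : ℕ → E → F} {V : E → F} {V1 : E → E →L[ℝ] F}
    (hd : ∀ k, ∀ z ∈ ball z₀ r, DifferentiableAt ℝ (v k) z)
    (hS : ∀ k, ∀ z ∈ ball z₀ r, ∀ w ∈ ball z₀ r,
      ‖fderiv ℝ (v k) z - fderiv ℝ (v k) w‖ ≤ S * ‖z - w‖ ^ a)
    (hV : ∀ z ∈ ball z₀ r, Tendsto (fun k => v k z) U (𝓝 (V z)))
    (hV1 : ∀ z ∈ ball z₀ r, Tendsto (fun k => fderiv ℝ (v k) z) U (𝓝 (V1 z))) :
    (∀ z ∈ ball z₀ r, HasFDerivAt V (V1 z) z) ∧
      ∀ z ∈ ball z₀ r, ∀ w ∈ ball z₀ r, ‖V1 z - V1 w‖ ≤ S * ‖z - w‖ ^ a := by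
  refine ⟨fun z hz => ?_, fun z hz w hw => ?_⟩
  · refine hasFDerivAt_of_taylor (isOpen_ball.mem_nhds hz) ha (S := S) fun w hw => ?_
    have h1 : Tendsto (fun k => ‖v k w - v k z - fderiv ℝ (v k) z (w - z)‖) U
        (𝓝 ‖V w - V z - V1 z (w - z)‖) := by
      refine (((hV w hw).sub (hV z hz)).sub ?_).norm
      exact ((ContinuousLinearMap.apply ℝ F (w - z)).continuous.tendsto _).comp (hV1 z hz)
    exact le_of_tendsto h1 (Eventually.of_forall fun k =>
      taylor_holder (convex_ball _ _) ha.le (hd k) (hS k) hz hw)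
  · have h1 : Tendsto (fun k => ‖fderiv ℝ (v k) z - fderiv ℝ (v k) w‖) U (𝓝 ‖V1 z - V1 w‖) :=
      ((hV1 z hz).sub (hV1 w hw)).norm
    exact le_of_tendsto h1 (Eventually.of_forall fun k => hS k z hz w hw)

/-- a bound of the gradient by the function and its second derivative -/
theorem grad_bound {v : E → ℝ} {z₀ : E} {r S : ℝ} (hr : 0 < r) (hS0 : 0 ≤ S)
    (hd : ∀ z ∈ ball z₀ (2 * r), DifferentiableAt ℝ v z)
    (hd2 : ∀ z ∈ ball z₀ (2 * r), DifferentiableAt ℝ (fderiv ℝ v) z)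
    (h0 : ∀ z ∈ ball z₀ (2 * r), |v z| ≤ S)
    (h2 : ∀ z ∈ ball z₀ (2 * r), ‖fderiv ℝ (fderiv ℝ v) z‖ ≤ S) {z : E} (hz : z ∈ ball z₀ r) :
    ‖fderiv ℝ v z‖ ≤ 4 * S / r + S * r := by
  have hzz : z ∈ ball z₀ (2 * r) := ball_subset_ball (by linarith) hz
  have hlip : ∀ z ∈ ball z₀ (2 * r), ∀ w ∈ ball z₀ (2 * r),
      ‖fderiv ℝ v z - fderiv ℝ v w‖ ≤ S * ‖z - w‖ ^ (1 : ℝ) := by
    intro z hz w hw
    rw [Real.rpow_one]
    exact (convex_ball z₀ (2 * r)).norm_image_sub_le_of_norm_fderiv_le hd2 h2 hw hz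
  refine ContinuousLinearMap.opNorm_le_of_unit_norm (by positivity) fun u hu => ?_
  set w : E := z + (r / 2) • u with hw
  have hwz : w - z = (r / 2) • u := by rw [hw]; abel
  have hnw : ‖w - z‖ = r / 2 := by rw [hwz, norm_smul, hu, mul_one, Real.norm_of_nonneg (by linarith)]
  have hwb : w ∈ ball z₀ (2 * r) := by
    rw [mem_ball] at hz ⊢
    have h3 : dist w z = r / 2 := by rw [dist_eq_norm, hnw]
    have := dist_triangle w z z₀
    linarith
  have h3 := taylor_holder (convex_ball z₀ (2 * r)) (by norm_num) hd hlip hzz hwb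
  rw [Real.rpow_one, hnw, hwz, map_smul] at h3
  have h4 := h0 z hzz
  have h5 := h0 w hwb
  have h6 : |(r / 2) * fderiv ℝ v z u| ≤ 2 * S + S * (r / 2) * (r / 2) := by
    have h7 : (r / 2) * fderiv ℝ v z u
        = (v w - v z) - (v w - v z - (r / 2) • fderiv ℝ v z u) := by
      simp only [smul_eq_mul]; ring
    rw [h7]
    refine (abs_sub _ _).trans ?_
    have h8 : |v w - v z| ≤ 2 * S := (abs_sub _ _).trans (by linarith)
    rw [Real.norm_eq_abs] at h3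
    linarith
  rw [abs_mul, abs_of_pos (by linarith : (0 : ℝ) < r / 2)] at h6
  rw [Real.norm_eq_abs]
  have h9 : |fderiv ℝ v z u| ≤ (2 * S + S * (r / 2) * (r / 2)) / (r / 2) := by
    rw [le_div_iff₀ (by linarith)]; linarith
  refine h9.trans ?_
  have h10 : (2 * S + S * (r / 2) * (r / 2)) / (r / 2) = 4 * S / r + S * (r / 2) := by
    field_simp
    ring
  rw [h10]
  nlinarith [mul_nonneg hS0 hr.le]

/-- **limits of `C^{2,a}` bounded sequences** -/
theorem lim_c2 [FiniteDimensional ℝ E] (U : Ultrafilter ℕ) {z₀ : E} {r a S : ℝ} (hr : 0 < r) (ha : 0 < a) (hS0 : 0 ≤ S)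
    {v : ℕ → E → ℝ} {V : E → ℝ}
    (hv : ∀ k, ContDiffOn ℝ 2 (v k) (ball z₀ (2 * r)))
    (h0 : ∀ k, ∀ z ∈ ball z₀ (2 * r), |v k z| ≤ S)
    (h2 : ∀ k, ∀ z ∈ ball z₀ (2 * r), ‖fderiv ℝ (fderiv ℝ (v k)) z‖ ≤ S)
    (h3 : ∀ k, ∀ z ∈ ball z₀ (2 * r), ∀ w ∈ ball z₀ (2 * r),
      ‖fderiv ℝ (fderiv ℝ (v k)) z - fderiv ℝ (fderiv ℝ (v k)) w‖ ≤ S * ‖z - w‖ ^ a)
    (hV : ∀ z ∈ ball z₀ r, Tendsto (fun k => v k z) U (𝓝 (V z))) :
    ContDiffOn ℝ 2 V (ball z₀ r) ∧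
      (∀ z ∈ ball z₀ r,
        Tendsto (fun k => fderiv ℝ (fderiv ℝ (v k)) z) U (𝓝 (fderiv ℝ (fderiv ℝ V) z))) ∧
      ∀ z ∈ ball z₀ r, ∀ w ∈ ball z₀ r,
        ‖fderiv ℝ (fderiv ℝ V) z - fderiv ℝ (fderiv ℝ V) w‖ ≤ S * ‖z - w‖ ^ a := by
  have hsub : ball z₀ r ⊆ ball z₀ (2 * r) := ball_subset_ball (by linarith)
  have hc : ∀ k, ∀ z ∈ ball z₀ (2 * r), ContDiffAt ℝ 2 (v k) z := fun k z hz =>
    (hv k).contDiffAt (isOpen_ball.mem_nhds hz)
  have hd : ∀ k, ∀ z ∈ ball z₀ (2 * r), DifferentiableAt ℝ (v k) z := fun k z hz =>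
    (hc k z hz).differentiableAt (by norm_num)
  have hd2 : ∀ k, ∀ z ∈ ball z₀ (2 * r), DifferentiableAt ℝ (fderiv ℝ (v k)) z := fun k z hz =>
    ((hc k z hz).fderiv_right (m := 1) (by norm_num)).differentiableAt (by norm_num)
  have h1 : ∀ k, ∀ z ∈ ball z₀ r, ‖fderiv ℝ (v k) z‖ ≤ 4 * S / r + S * r := fun k z hz =>
    grad_bound hr hS0 (hd k) (hd2 k) (h0 k) (h2 k) hz
  have e1 : ∀ z, ∃ y, z ∈ ball z₀ r → Tendsto (fun k => fderiv ℝ (v k) z) U (𝓝 y) := by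
    intro z
    by_cases hz : z ∈ ball z₀ r
    · obtain ⟨y, hy⟩ := exists_lim (F := E →L[ℝ] ℝ) U
        (x := fun k => fderiv ℝ (v k) z) (fun k => h1 k z hz)
      exact ⟨y, fun _ => hy⟩
    · exact ⟨0, fun h => absurd h hz⟩
  have e2 : ∀ z, ∃ y, z ∈ ball z₀ r → Tendsto (fun k => fderiv ℝ (fderiv ℝ (v k)) z) U (𝓝 y) := by
    intro z
    by_cases hz : z ∈ ball z₀ r
    · obtain ⟨y, hy⟩ := exists_lim (F := E →L[ℝ] E →L[ℝ] ℝ) (S := S) U
        (x := fun k => fderiv ℝ (fderiv ℝ (v k)) z) (fun k => h2 k z (hsub hz))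
      exact ⟨y, fun _ => hy⟩
    · exact ⟨0, fun h => absurd h hz⟩
  choose V1 hV1 using e1
  choose V2 hV2 using e2
  have hlip : ∀ k, ∀ z ∈ ball z₀ r, ∀ w ∈ ball z₀ r,
      ‖fderiv ℝ (v k) z - fderiv ℝ (v k) w‖ ≤ S * ‖z - w‖ ^ (1 : ℝ) := by
    intro k z hz w hw
    rw [Real.rpow_one]
    exact (convex_ball z₀ r).norm_image_sub_le_of_norm_fderiv_le (fun x hx => hd2 k x (hsub hx))
      (fun x hx => h2 k x (hsub hx)) hw hz
  obtain ⟨k1, -⟩ := lim_c1 (E := E) (F := ℝ) U (z₀ := z₀) (r := r) (a := 1) (S := S) one_pos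
    (fun k z hz => hd k z (hsub hz)) hlip hV hV1
  obtain ⟨k2, k3⟩ := lim_c1 (E := E) (F := E →L[ℝ] ℝ) U (z₀ := z₀) (r := r) (a := a) (S := S) ha
    (fun k z hz => hd2 k z (hsub hz)) (fun k z hz w hw => h3 k z (hsub hz) w (hsub hw)) hV1 hV2
  have q1 : ∀ z ∈ ball z₀ r, fderiv ℝ V z = V1 z := fun z hz => (k1 z hz).fderiv
  have q2 : ∀ z ∈ ball z₀ r, HasFDerivAt (fderiv ℝ V) (V2 z) z := fun z hz =>
    (k2 z hz).congr_of_eventuallyEq (by
      filter_upwards [isOpen_ball.mem_nhds hz] with w hw using q1 w hw)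
  have q3 : ∀ z ∈ ball z₀ r, fderiv ℝ (fderiv ℝ V) z = V2 z := fun z hz => (q2 z hz).fderiv
  refine ⟨?_, fun z hz => by rw [q3 z hz]; exact hV2 z hz, fun z hz w hw => by
    rw [q3 z hz, q3 w hw]; exact k3 z hz w hw⟩
  have hcont : ContinuousOn V2 (ball z₀ r) := by
    intro z hz
    have h4 : Tendsto (fun w : E => S * ‖w - z‖ ^ a) (𝓝 z) (𝓝 0) := by
      have h5 : Continuous fun w : E => S * ‖w - z‖ ^ a :=
        continuous_const.mul ((continuous_norm.comp (continuous_id.sub continuous_const)).rpow_const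
          fun _ => Or.inr ha.le)
      have h6 := h5.tendsto z
      simpa [Real.zero_rpow ha.ne'] using h6
    have h7 : Tendsto (fun w => ‖V2 w - V2 z‖) (𝓝[ball z₀ r] z) (𝓝 0) := ?_
    · exact (tendsto_iff_norm_sub_tendsto_zero (f := V2)).2 h7
    refine squeeze_zero' (Eventually.of_forall fun x => norm_nonneg (V2 x - V2 z)) ?_
      (h4.mono_left nhdsWithin_le_nhds)
    filter_upwards [self_mem_nhdsWithin] with w hw using k3 w hw z hz
  have hu : UniqueDiffOn ℝ (ball z₀ r) := isOpen_ball.uniqueDiffOn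
  rw [show (2 : WithTop ℕ∞) = 1 + 1 by norm_num, contDiffOn_succ_iff_fderiv_of_isOpen isOpen_ball]
  refine ⟨fun z hz => (k1 z hz).differentiableAt.differentiableWithinAt, by simp, ?_⟩
  rw [show (1 : WithTop ℕ∞) = 0 + 1 by norm_num, contDiffOn_succ_iff_fderiv_of_isOpen isOpen_ball]
  refine ⟨fun z hz => (q2 z hz).differentiableAt.differentiableWithinAt, by simp, ?_⟩
  rw [contDiffOn_zero]
  exact hcont.congr fun z hz => q3 z hz

end Crest.Agent.R273.YauLim_635
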