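import Mathlib

/-!
# R273 (S0416), Part C, YAU (helper635): abstract simplified Newton iteration

`N2 d v` : "the `C^{2,a}` norm of `v` is at most `d`", `NH d f` : "the `C^a` norm of `f` is at most
`d`" (both including smoothness in the application).
`newton` : approximate solutions `(v, μ)` of `P v = (1 + μ) (1 + e)` with residual `ε / 2^k`
-/

set_option autoImplicit false

namespace Crest.Agent.R273.YauNA_635

theorem newton {V : Type*} [AddCommGroup V] [Module ℝ V] (N2 NH : ℝ → V → Prop) (P L : V → V)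
    (one : V) {CS CR : ℝ} (hCS : 0 ≤ CS) (hCR : 0 ≤ CR)
    (h20 : N2 0 0) (h2mono : ∀ {a b : ℝ} {v : V}, a ≤ b → N2 a v → N2 b v)
    (h2add : ∀ {a b : ℝ} {v w : V}, N2 a v → N2 b w → N2 (a + b) (v + w))
    (hHmono : ∀ {a b : ℝ} {v : V}, a ≤ b → NH a v → NH b v)
    (hHadd : ∀ {a b : ℝ} {v w : V}, NH a v → NH b w → NH (a + b) (v + w))
    (hHsmul : ∀ {a : ℝ} {v : V} (m : ℝ), NH a v → NH (|m| * a) (m • v))
    (hP0 : P 0 = one)
    (hlin : ∀ (N : ℝ) (ρ : V), NH N ρ → ∃ (w : V) (m : ℝ), L w = ρ - m • one ∧ |m| ≤ CS * N ∧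
      N2 (CS * N) w)
    (hquad : ∀ (δ d : ℝ) (v w : V), 0 ≤ d → d ≤ δ → δ ≤ 1 → N2 δ v → N2 d w →
      NH (CR * δ * d) (P (v + w) - P v - L w)) :
    ∀ η > 0, ∃ ε > 0, ∀ e, NH ε e → ∀ k : ℕ, ∃ (v : V) (μ : ℝ), N2 η v ∧ |μ| ≤ η ∧
      NH (ε * (1 / 2) ^ k) ((1 + μ) • (one + e) - P v) := by
  intro η hη
  set q : ℝ := (CR + 1) * (CS + 1) with hq
  have hq1 : 0 < q := by positivity
  have hqq : CR * CS ≤ q := by rw [hq]; nlinarith
  set δ : ℝ := min (min η 1) (1 / (4 * q)) with hδ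
  have hδ0 : 0 < δ := lt_min (lt_min hη one_pos) (by positivity)
  have hδη : δ ≤ η := (min_le_left _ _).trans (min_le_left _ _)
  have hδ1 : δ ≤ 1 := (min_le_left _ _).trans (min_le_right _ _)
  have hδq : δ ≤ 1 / (4 * q) := min_le_right _ _
  have h1 : CR * δ * CS ≤ 1 / 4 := by
    calc CR * δ * CS = (CR * CS) * δ := by ring
      _ ≤ q * (1 / (4 * q)) := mul_le_mul hqq hδq hδ0.le hq1.le
      _ = 1 / 4 := by field_simp
  set ε : ℝ := δ / (4 * (CS + 1)) with hε
  have hS1 : 0 < CS + 1 := by positivity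
  have hε0 : 0 < ε := by positivity
  have h2 : 4 * (CS * ε) ≤ δ := by
    calc 4 * (CS * ε) ≤ 4 * ((CS + 1) * ε) := by nlinarith
      _ = δ := by rw [hε]; field_simp
  refine ⟨ε, hε0, fun e he => ?_⟩
  have key : ∀ k : ℕ, ∃ (v : V) (μ : ℝ), N2 (δ * (1 - (1 / 2) ^ k)) v ∧
      |μ| ≤ δ * (1 - (1 / 2) ^ k) ∧ NH (ε * (1 / 2) ^ k) ((1 + μ) • (one + e) - P v) := by
    intro k
    induction k with
    | zero =>
      refine ⟨0, 0, by simpa using h20, by simp, ?_⟩
      have : (1 + (0 : ℝ)) • (one + e) - P 0 = e := by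
        rw [hP0, add_zero, one_smul]
        abel
      rw [this]
      simpa using he
    | succ k ih =>
      obtain ⟨v, μ, hv, hμ, hρ⟩ := ih
      obtain ⟨w, m, hw1, hw2, hw3⟩ := hlin _ _ hρ
      set t : ℝ := (1 / 2 : ℝ) ^ k with ht
      have ht0 : 0 < t := by positivity
      have ht1 : t ≤ 1 := pow_le_one₀ (by norm_num) (by norm_num)
      have hts : (1 / 2 : ℝ) ^ (k + 1) = t / 2 := by
        rw [pow_succ, ← ht]
        ring
      have hst : 4 * (CS * (ε * t)) ≤ δ * t := by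
        calc 4 * (CS * (ε * t)) = (4 * (CS * ε)) * t := by ring
          _ ≤ δ * t := mul_le_mul_of_nonneg_right h2 ht0.le
      have hnn : 0 ≤ CS * (ε * t) := by positivity
      refine ⟨v + w, μ - m, ?_, ?_, ?_⟩
      · refine h2mono ?_ (h2add hv hw3)
        rw [hts]
        nlinarith
      · rw [hts]
        have := abs_sub μ m
        nlinarith
      · have e1 : (1 + (μ - m)) • (one + e) - P (v + w) =
            (-1 : ℝ) • (P (v + w) - P v - L w) + (-m) • e := by
          rw [hw1]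
          module
        rw [e1]
        have hδv : N2 δ v := h2mono (by nlinarith) hv
        have hd : CS * (ε * t) ≤ δ := by nlinarith
        have a1 := hHsmul (-1 : ℝ) (hquad δ (CS * (ε * t)) v w hnn hd hδ1 hδv hw3)
        have a2 := hHsmul (-m) he
        refine hHmono ?_ (hHadd a1 a2)
        rw [abs_neg, abs_one, one_mul, abs_neg, hts]
        have b1 : |m| * ε ≤ CS * (ε * t) * ε := mul_le_mul_of_nonneg_right hw2 hε0.le
        have b2 : CR * δ * (CS * (ε * t)) ≤ 1 / 4 * (ε * t) := by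
          calc CR * δ * (CS * (ε * t)) = (CR * δ * CS) * (ε * t) := by ring
            _ ≤ 1 / 4 * (ε * t) := mul_le_mul_of_nonneg_right h1 (by positivity)
        have b3 : CS * (ε * t) * ε ≤ 1 / 4 * (ε * t) := by
          have b4 : CS * ε ≤ 1 / 4 := by linarith
          calc CS * (ε * t) * ε = (CS * ε) * (ε * t) := by ring
            _ ≤ 1 / 4 * (ε * t) := mul_le_mul_of_nonneg_right b4 (by positivity)
        nlinarith
  intro k
  obtain ⟨v, μ, hv, hμ, hρ⟩ := key k
  have ht0 : (0 : ℝ) < (1 / 2) ^ k := by positivity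
  have hle : δ * (1 - (1 / 2) ^ k) ≤ η := by nlinarith
  exact ⟨v, μ, h2mono hle hv, hμ.trans hle, hρ⟩

end Crest.Agent.R273.YauNA_635
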