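import Crest.Agent.R273.YauLin_635
import Crest.Agent.R273.CLinE_933

/-!
# R273 (S0416), Part C, YAU (helper635): Yau's theorem from the `C²` and `C³` estimates
-/

set_option autoImplicit false
set_option linter.unusedSectionVars false

namespace Crest.Agent.R273.YauTop_635

open Crest.Agent.R273.YauDefs_635 Crest.Agent.R273.YauLin_635

theorem linExist : LinExist := by
  intro n M _ _ _ _ A _ hG hP L H hH φ hφ hK f hf
  obtain ⟨P⟩ := id hP
  exact CLin_933.lin_exist P H hφ hK hf

theorem linStmt : YauOpen_635.LinStmt := lin_of linExist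

theorem openStmt : OpenStmt := YauOpen_635.open_holds linStmt CReg_933.reg_holds

/-- **Yau's theorem** from `C2Stmt`, `C3Stmt` -/
theorem yau_of (h2 : C2Stmt) (h3 : C3Stmt) : YauStmt := yau_from h2 h3 linExist

end Crest.Agent.R273.YauTop_635
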